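import Crest.Agent.BK_Basic

/-!
# BK task A2: the resampling operators `avg p A`
Elementary. The only non-trivial fact is `ex_mul_avg` (self-adjointness / tower property); prove it by
`Finset.induction_on A` from the one-coordinate case (`ex_split`), or by the measure preserving
exchange `(x,y) ↦ (mix A y x, mix A x y)` together with `wt p x * wt p y = wt p (mix A y x) * wt p (mix A x y)`.
-/

set_option autoImplicit false
open Finset

namespace Crest.Agent.BK
variable {ι : Type*} [Fintype ι] [DecidableEq ι]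

theorem mix_apply_mem {A : Finset ι} (y x : ι → Bool) {i : ι} (hi : i ∈ A) : mix A y x i = y i := by
  simp [mix, hi]

theorem mix_apply_not_mem {A : Finset ι} (y x : ι → Bool) {i : ι} (hi : i ∉ A) :
    mix A y x i = x i := by
  simp [mix, hi]

theorem wt_mul_wt_mix (p : ℝ) (A : Finset ι) (x y : ι → Bool) :
    wt p x * wt p y = wt p (mix A y x) * wt p (mix A x y) := by
  unfold wt
  rw [← Finset.prod_mul_distrib, ← Finset.prod_mul_distrib]
  refine Finset.prod_congr rfl (fun i _ => ?_)
  by_cases hi : i ∈ A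
  · rw [mix_apply_mem _ _ hi, mix_apply_mem _ _ hi]; ring
  · rw [mix_apply_not_mem _ _ hi, mix_apply_not_mem _ _ hi]

theorem NoDep.mono {A B : Finset ι} {h : (ι → Bool) → ℝ} (hAB : A ⊆ B) (hB : NoDep B h) :
    NoDep A h := by
  intro x x' hx
  exact hB x x' (fun i hi => hx i (fun hA => hi (hAB hA)))

/-- `avg p A h` does not depend on `A`; more generally if `h` does not depend on `B`,
`avg p A h` does not depend on `A ∪ B`. -/
theorem noDep_avg (p : ℝ) (A : Finset ι) (h : (ι → Bool) → ℝ) : NoDep A (avg p A h) := by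
  intro x x' hx
  unfold avg
  refine Finset.sum_congr rfl (fun y _ => ?_)
  have : mix A y x = mix A y x' := by
    funext i
    by_cases hi : i ∈ A
    · rw [mix_apply_mem _ _ hi, mix_apply_mem _ _ hi]
    · rw [mix_apply_not_mem _ _ hi, mix_apply_not_mem _ _ hi, hx i hi]
  rw [this]

theorem noDep_avg_union (p : ℝ) (A B : Finset ι) (h : (ι → Bool) → ℝ) (hB : NoDep B h) :
    NoDep (A ∪ B) (avg p A h) := by
  intro x x' hx
  unfold avg
  refine Finset.sum_congr rfl (fun y _ => ?_)
  have : h (mix A y x) = h (mix A y x') := by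
    apply hB
    intro i hiB
    by_cases hi : i ∈ A
    · rw [mix_apply_mem _ _ hi, mix_apply_mem _ _ hi]
    · rw [mix_apply_not_mem _ _ hi, mix_apply_not_mem _ _ hi]
      exact hx i (by simp [hi, hiB])
  rw [this]

theorem avg_of_noDep (p : ℝ) (A : Finset ι) (h : (ι → Bool) → ℝ) (hA : NoDep A h) :
    avg p A h = h := by
  funext x
  unfold avg
  have : ∀ y : ι → Bool, h (mix A y x) = h x := by
    intro y
    apply hA
    intro i hi
    exact mix_apply_not_mem _ _ hi
  simp only [this]
  rw [← Finset.sum_mul, sum_wt, one_mul]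

theorem avg_const (p c : ℝ) (A : Finset ι) : avg p A (fun _ : ι → Bool => c) = fun _ => c := by
  funext x
  unfold avg
  rw [← Finset.sum_mul, sum_wt, one_mul]

theorem avg_add (p : ℝ) (A : Finset ι) (h k : (ι → Bool) → ℝ) :
    avg p A (fun x => h x + k x) = fun x => avg p A h x + avg p A k x := by
  funext x
  simp only [avg, mul_add, Finset.sum_add_distrib]

theorem avg_sub (p : ℝ) (A : Finset ι) (h k : (ι → Bool) → ℝ) :
    avg p A (fun x => h x - k x) = fun x => avg p A h x - avg p A k x := by
  funext x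
  simp only [avg, mul_sub, Finset.sum_sub_distrib]

theorem avg_const_mul (p c : ℝ) (A : Finset ι) (h : (ι → Bool) → ℝ) :
    avg p A (fun x => c * h x) = fun x => c * avg p A h x := by
  funext x
  simp only [avg, Finset.mul_sum]
  refine Finset.sum_congr rfl (fun y _ => ?_)
  ring

theorem avg_sum {α : Type*} (p : ℝ) (A : Finset ι) (s : Finset α) (h : α → (ι → Bool) → ℝ) :
    avg p A (fun x => ∑ a ∈ s, h a x) = fun x => ∑ a ∈ s, avg p A (h a) x := by
  funext x
  simp only [avg, Finset.mul_sum]
  rw [Finset.sum_comm]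

theorem avg_mono {p : ℝ} (hp0 : 0 ≤ p) (hp1 : p ≤ 1) (A : Finset ι) {h k : (ι → Bool) → ℝ}
    (hk : ∀ x, h x ≤ k x) (x : ι → Bool) : avg p A h x ≤ avg p A k x := by
  unfold avg
  exact Finset.sum_le_sum (fun y _ => mul_le_mul_of_nonneg_left (hk _) (wt_nonneg hp0 hp1 y))

theorem avg_nonneg {p : ℝ} (hp0 : 0 ≤ p) (hp1 : p ≤ 1) (A : Finset ι) {h : (ι → Bool) → ℝ}
    (hh : ∀ x, 0 ≤ h x) (x : ι → Bool) : 0 ≤ avg p A h x := by
  unfold avg
  exact Finset.sum_nonneg (fun y _ => mul_nonneg (wt_nonneg hp0 hp1 y) (hh _))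

theorem abs_avg_le {p : ℝ} (hp0 : 0 ≤ p) (hp1 : p ≤ 1) (A : Finset ι) (h : (ι → Bool) → ℝ)
    (x : ι → Bool) : |avg p A h x| ≤ avg p A (fun z => |h z|) x := by
  unfold avg
  refine (Finset.abs_sum_le_sum_abs _ _).trans (le_of_eq ?_)
  refine Finset.sum_congr rfl (fun y _ => ?_)
  rw [abs_mul, abs_of_nonneg (wt_nonneg hp0 hp1 y)]

/-- `avg p A h x = ex p (fibre of h through x)`  (definitional). -/
theorem avg_eq_ex_fibre (p : ℝ) (A : Finset ι) (h : (ι → Bool) → ℝ) (x : ι → Bool) :
    avg p A h x = ex p (fun y => h (mix A y x)) := by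
  rfl

/-- a factor that does not depend on `A` comes out of `avg p A`. -/
theorem avg_mul_of_noDep (p : ℝ) (A : Finset ι) (k h : (ι → Bool) → ℝ) (hk : NoDep A k) :
    avg p A (fun x => k x * h x) = fun x => k x * avg p A h x := by
  funext x
  simp only [avg, Finset.mul_sum]
  refine Finset.sum_congr rfl (fun y _ => ?_)
  have : k (mix A y x) = k x := by
    apply hk
    intro i hi
    exact mix_apply_not_mem _ _ hi
  rw [this]; ring

/-- the exchange `(x,y) ↦ (mix A y x, mix A x y)` as an equivalence. -/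
private def avgSwap (A : Finset ι) : ((ι → Bool) × (ι → Bool)) ≃ ((ι → Bool) × (ι → Bool)) where
  toFun z := (mix A z.2 z.1, mix A z.1 z.2)
  invFun z := (mix A z.2 z.1, mix A z.1 z.2)
  left_inv z := by
    ext i
    · by_cases hi : i ∈ A <;> simp [mix, hi]
    · by_cases hi : i ∈ A <;> simp [mix, hi]
  right_inv z := by
    ext i
    · by_cases hi : i ∈ A <;> simp [mix, hi]
    · by_cases hi : i ∈ A <;> simp [mix, hi]

/-- if `k` does not depend on `A`: `E[k * avg A h] = E[k * h]`. -/
theorem ex_mul_avg (p : ℝ) (A : Finset ι) (k h : (ι → Bool) → ℝ) (hk : NoDep A k) :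
    ex p (fun x => k x * avg p A h x) = ex p (fun x => k x * h x) := by
  have h1 : ex p (fun x => k x * avg p A h x)
      = ∑ z : (ι → Bool) × (ι → Bool), wt p z.1 * wt p z.2 * (k z.1 * h (mix A z.2 z.1)) := by
    rw [Fintype.sum_prod_type]
    unfold ex avg
    refine Finset.sum_congr rfl (fun x _ => ?_)
    show wt p x * (k x * ∑ y, wt p y * h (mix A y x)) = _
    rw [Finset.mul_sum, Finset.mul_sum]
    refine Finset.sum_congr rfl (fun y _ => ?_)
    ring
  have h2 : ex p (fun x => k x * h x)
      = ∑ z : (ι → Bool) × (ι → Bool), wt p z.1 * wt p z.2 * (k z.1 * h z.1) := by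
    rw [Fintype.sum_prod_type]
    unfold ex
    refine Finset.sum_congr rfl (fun x _ => ?_)
    have : ∑ y : ι → Bool, wt p x * wt p y * (k x * h x)
        = (∑ y : ι → Bool, wt p y) * (wt p x * (k x * h x)) := by
      rw [Finset.sum_mul]
      refine Finset.sum_congr rfl (fun y _ => ?_)
      ring
    rw [this, sum_wt, one_mul]
  rw [h1, h2, ← (avgSwap A).sum_comp (fun z => wt p z.1 * wt p z.2 * (k z.1 * h z.1))]
  refine Finset.sum_congr rfl (fun z _ => ?_)
  have e1 : (avgSwap A z).1 = mix A z.2 z.1 := rfl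
  have e2 : (avgSwap A z).2 = mix A z.1 z.2 := rfl
  rw [e1, e2, ← wt_mul_wt_mix p A z.1 z.2]
  have : k (mix A z.2 z.1) = k z.1 := by
    apply hk
    intro i hi
    exact mix_apply_not_mem _ _ hi
  rw [this]

/-- tower property. -/
theorem ex_avg (p : ℝ) (A : Finset ι) (h : (ι → Bool) → ℝ) : ex p (avg p A h) = ex p h := by
  have := ex_mul_avg p A (fun _ => 1) h (fun _ _ _ => rfl)
  simpa using this

private theorem mix_update_of_not_mem (A : Finset ι) (e : ι) (he : e ∉ A) (y x : ι → Bool)
    (b : Bool) : mix A y (Function.update x e b) = Function.update (mix A y x) e b := by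
  funext i
  by_cases hie : i = e
  · subst hie
    rw [mix_apply_not_mem _ _ he]
    simp
  · by_cases hi : i ∈ A
    · rw [mix_apply_mem _ _ hi, Function.update_of_ne hie, mix_apply_mem _ _ hi]
    · rw [mix_apply_not_mem _ _ hi, Function.update_of_ne hie, Function.update_of_ne hie,
        mix_apply_not_mem _ _ hi]

/-- `der` commutes with `avg` when `e ∉ A`. -/
theorem der_avg_of_not_mem (p : ℝ) (A : Finset ι) (e : ι) (he : e ∉ A) (h : (ι → Bool) → ℝ) :
    der p e (avg p A h) = avg p A (der p e h) := by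
  funext x
  simp only [der, avg, mix_update_of_not_mem A e he]
  rw [← Finset.sum_sub_distrib, Finset.mul_sum]
  refine Finset.sum_congr rfl (fun y _ => ?_)
  ring

/-- `der e (avg A h) = 0` when `e ∈ A`. -/
theorem der_avg_of_mem (p : ℝ) (A : Finset ι) (e : ι) (he : e ∈ A) (h : (ι → Bool) → ℝ) :
    der p e (avg p A h) = fun _ => 0 := by
  funext x
  have : avg p A h (Function.update x e true) = avg p A h (Function.update x e false) := by
    apply noDep_avg
    intro i hi
    have hie : i ≠ e := fun hh => hi (hh ▸ he)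
    rw [Function.update_of_ne hie, Function.update_of_ne hie]
  simp only [der, this, sub_self, mul_zero]

end Crest.Agent.BK
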