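import Crest.Agent.BK_Grad

/-!
# BK task B2c: pointwise gradient bound for the smoothed function `gS`
For every `z`: `∑_e (der e (noise (ind f)) z)^2 ≤ G := ρ^2/(1-ρ)` (`grad_noise_le`, `|ind f| ≤ 1`).
`der e g x = C(n,q)⁻¹ ∑_{Q ∈ qsets q ∅} der e (avg (touch Q) h) x`, `h = noise (ind f)`, and
`der e (avg A h) x = 1[e ∉ A] ∑_y wt p y * der e h (mix A y x)` (`der_avg_of_mem`, `der_avg_of_not_mem`).
So `der e g x = ∑_{(Q,y)} w(Q,y) a_e(Q,y)`, `w(Q,y) = C(n,q)⁻¹ wt p y ≥ 0`, `∑ w ≤ 1`,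
`∑_e a_e(Q,y)^2 ≤ G`. Cauchy-Schwarz `(∑ w a)^2 ≤ (∑ w)(∑ w a^2) ≤ ∑ w a^2` for each `e`, then sum over `e` and exchange sums.
-/

set_option autoImplicit false
open Finset
open Crest.CombinatoricsR.HypergraphCube

namespace Crest.Agent.BK

section generic
variable {ι : Type*} [Fintype ι] [DecidableEq ι]

/-- a pointwise gradient bound survives resampling a set of coordinates. -/
theorem grad_avg_le {p : ℝ} (hp0 : 0 ≤ p) (hp1 : p ≤ 1) (A : Finset ι) (h : (ι → Bool) → ℝ)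
    (G : ℝ) (hG : ∀ z, ∑ e, (der p e h z) ^ 2 ≤ G) (x : ι → Bool) :
    ∑ e, (der p e (avg p A h) x) ^ 2 ≤ G := by
  have key : ∀ e, (der p e (avg p A h) x) ^ 2 ≤ ∑ y, wt p y * (der p e h (mix A y x)) ^ 2 := by
    intro e
    by_cases he : e ∈ A
    · rw [der_avg_of_mem p A e he h]
      simp only [ne_eq, OfNat.ofNat_ne_zero, not_false_eq_true, zero_pow]
      exact Finset.sum_nonneg (fun y _ => mul_nonneg (wt_nonneg hp0 hp1 y) (sq_nonneg _))
    · rw [der_avg_of_not_mem p A e he h, avg_eq_ex_fibre]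
      exact ex_sq_le hp0 hp1 _
  calc ∑ e, (der p e (avg p A h) x) ^ 2
      ≤ ∑ e, ∑ y, wt p y * (der p e h (mix A y x)) ^ 2 := Finset.sum_le_sum (fun e _ => key e)
    _ = ∑ y, wt p y * ∑ e, (der p e h (mix A y x)) ^ 2 := by
        rw [Finset.sum_comm]
        exact Finset.sum_congr rfl (fun y _ => (Finset.mul_sum _ _ _).symm)
    _ ≤ ∑ y : ι → Bool, wt p y * G :=
        Finset.sum_le_sum (fun y _ => mul_le_mul_of_nonneg_left (hG _) (wt_nonneg hp0 hp1 y))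
    _ = G := by rw [← Finset.sum_mul, sum_wt, one_mul]

/-- `der` of a scaled finite sum. -/
private theorem der_const_mul_sum {α : Type*} (p c : ℝ) (e : ι) (s : Finset α)
    (k : α → (ι → Bool) → ℝ) (x : ι → Bool) :
    der p e (fun z => c * ∑ a ∈ s, k a z) x = c * ∑ a ∈ s, der p e (k a) x := by
  simp only [der]
  rw [← Finset.mul_sum, Finset.sum_sub_distrib]
  ring

/-- a pointwise gradient bound survives sub-averaging: weights `c` on at most `c⁻¹` functions. -/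
private theorem grad_const_mul_sum_le {α : Type*} (p c : ℝ) (hc0 : 0 ≤ c) (s : Finset α)
    (hcs : c * (s.card : ℝ) ≤ 1) (k : α → (ι → Bool) → ℝ) (G : ℝ) (hG0 : 0 ≤ G) (x : ι → Bool)
    (hG : ∀ a ∈ s, ∑ e, (der p e (k a) x) ^ 2 ≤ G) :
    ∑ e, (der p e (fun z => c * ∑ a ∈ s, k a z) x) ^ 2 ≤ G := by
  have key : ∀ e, (der p e (fun z => c * ∑ a ∈ s, k a z) x) ^ 2
      ≤ c * ∑ a ∈ s, (der p e (k a) x) ^ 2 := by
    intro e
    rw [der_const_mul_sum, mul_pow]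
    have h1 : (∑ a ∈ s, der p e (k a) x) ^ 2 ≤ (s.card : ℝ) * ∑ a ∈ s, (der p e (k a) x) ^ 2 :=
      sq_sum_le_card_mul_sum_sq
    have h2 : 0 ≤ ∑ a ∈ s, (der p e (k a) x) ^ 2 := Finset.sum_nonneg (fun a _ => sq_nonneg _)
    calc c ^ 2 * (∑ a ∈ s, der p e (k a) x) ^ 2
        ≤ c ^ 2 * ((s.card : ℝ) * ∑ a ∈ s, (der p e (k a) x) ^ 2) :=
          mul_le_mul_of_nonneg_left h1 (sq_nonneg c)
      _ = c * ((c * (s.card : ℝ)) * ∑ a ∈ s, (der p e (k a) x) ^ 2) := by ring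
      _ ≤ c * (1 * ∑ a ∈ s, (der p e (k a) x) ^ 2) :=
          mul_le_mul_of_nonneg_left (mul_le_mul_of_nonneg_right hcs h2) hc0
      _ = c * ∑ a ∈ s, (der p e (k a) x) ^ 2 := by rw [one_mul]
  calc ∑ e, (der p e (fun z => c * ∑ a ∈ s, k a z) x) ^ 2
      ≤ ∑ e, c * ∑ a ∈ s, (der p e (k a) x) ^ 2 := Finset.sum_le_sum (fun e _ => key e)
    _ = c * ∑ a ∈ s, ∑ e, (der p e (k a) x) ^ 2 := by
        rw [← Finset.mul_sum, Finset.sum_comm]
    _ ≤ c * ∑ _a ∈ s, G :=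
        mul_le_mul_of_nonneg_left (Finset.sum_le_sum hG) hc0
    _ = (c * (s.card : ℝ)) * G := by rw [Finset.sum_const, nsmul_eq_mul]; ring
    _ ≤ 1 * G := mul_le_mul_of_nonneg_right hcs hG0
    _ = G := one_mul G

end generic

variable {n r : ℕ}

/-- `C(n,q)⁻¹ * #(qsets q T) ≤ 1`. -/
private theorem choose_inv_mul_card_qsets_le (q : ℕ) (T : Finset (Fin n)) :
    ((n.choose q : ℝ))⁻¹ * ((qsets q T).card : ℝ) ≤ 1 := by
  have hcard : (qsets q T).card ≤ n.choose q := by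
    calc (qsets q T).card ≤ ((univ : Finset (Fin n)).powersetCard q).card :=
          Finset.card_filter_le _ _
      _ = n.choose q := by rw [Finset.card_powersetCard, Finset.card_univ, Fintype.card_fin]
  rcases Nat.eq_zero_or_pos (n.choose q) with h0 | hpos
  · rw [h0]; simp
  · have hpos' : (0 : ℝ) < (n.choose q : ℝ) := by exact_mod_cast hpos
    rw [inv_mul_le_iff₀ hpos', mul_one]
    exact_mod_cast hcard

/-- a pointwise gradient bound survives the vertex smoothing `vsm`. -/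
theorem grad_vsm_le {p : ℝ} (hp0 : 0 ≤ p) (hp1 : p ≤ 1) (q : ℕ) (T : Finset (Fin n))
    (h : (HyperedgeSlot n r → Bool) → ℝ) (G : ℝ) (hG0 : 0 ≤ G)
    (hG : ∀ z, ∑ e, (der p e h z) ^ 2 ≤ G) (x : HyperedgeSlot n r → Bool) :
    ∑ e, (der p e (vsm p q T h) x) ^ 2 ≤ G :=
  grad_const_mul_sum_le p _ (inv_nonneg.mpr (Nat.cast_nonneg _)) (qsets q T)
    (choose_inv_mul_card_qsets_le q T) (fun Q => avg p (touch Q) h) G hG0 x
    (fun Q _ => grad_avg_le hp0 hp1 (touch Q) h G hG x)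

theorem grad_gS_le {p ρ : ℝ} (hp0 : 0 < p) (hp1 : p < 1) (hρ0 : 0 ≤ ρ) (hρ1 : ρ < 1) (q : ℕ)
    (f : (HyperedgeSlot n r → Bool) → Bool) (x : HyperedgeSlot n r → Bool) :
    ∑ e, (der p e (gS p ρ q f) x) ^ 2 ≤ ρ ^ 2 / (1 - ρ) := by
  have hF : ∀ z, |ind f z| ≤ 1 := by
    intro z
    unfold ind
    split_ifs <;> simp
  exact grad_vsm_le hp0.le hp1.le q ∅ (noise p ρ (ind f)) _
    (div_nonneg (sq_nonneg ρ) (by linarith))
    (fun z => grad_noise_le hp0 hp1 hρ0 hρ1 (ind f) hF z) x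

end Crest.Agent.BK
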