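import Crest.Agent.BK_Robust
import Crest.Agent.BK_SmoothGrad

/-!
# BK task B4: the bad fibres contribute little
Notation: `b u e := bp p ρ q f u e`, `g := gS p ρ q f`, `G := ρ^2/(1-ρ)`, `t := q θ/(2n)`, `σ_{uu'} := relabelSlot (swap u u')`.
1. Pointwise (from `robust`, `q ≥ 1`): for `u ∈ e.1`:
   `1[θ ≤ b u e x] ≤ (2/q) ∑_{u' ∉ e.1} 1[t ≤ b u' (σ_{uu'} e) x]`   (if `θ ≤ b u e x` then `b > 0` and `q b/(2n) ≥ t`).
2. Hence LHS `≤ (2/q) ∑_{(u,e,u') : u ∈ e.1, u' ∉ e.1} E[ 1[t ≤ b u' (σ_{uu'} e)] (der e g)^2 ]`.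
   Re-index by the involution `(u,e,u') ↦ (u', σ_{uu'} e, u)` (`relabelSlot_swap_val`, `relabelSlot_swap_swap`, `Equiv.swap_comm`):
   `= (2/q) ∑_{u'} ∑_{e'' ∈ star u'} E[ 1[t ≤ b u' e''] ∑_{u ∉ e''.1} (der (σ_{u'u} e'') g)^2 ]`.
3. For fixed `(u',e'')` the slots `σ_{u'u} e''` (`u ∉ e''.1`) are pairwise distinct (vertex sets `e'' - u' + u`), so the inner sum is
   `≤ ∑_e (der e g x)^2 ≤ G` (`grad_gS_le`).
4. Markov: `E 1[t ≤ b u' e''] ≤ E[b u' e'']/t = E[Ys e'']/t ≤ E[piv f e'']/t` (`ex_avg`, `ex_Ys_le`, `b ≥ 0`).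
5. `∑_{u'} ∑_{e'' ∈ star u'} E[piv f e''] = r * infl p f` (each slot has `r` vertices).
Total: `(2/q) G (2n/(qθ)) r infl = G 4 n r/(θ q^2) infl`.
-/

set_option autoImplicit false
open Finset
open Crest.CombinatoricsR.HypergraphCube

namespace Crest.Agent.BK
variable {n r : ℕ}

/-- step 5 (also used by the master inequality). -/
theorem sum_star_ex_piv (p : ℝ) (f : (HyperedgeSlot n r → Bool) → Bool) :
    ∑ u : Fin n, ∑ e ∈ (star u : Finset (HyperedgeSlot n r)), ex p (piv f e) = r * infl p f := by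
  unfold star infl
  simp_rw [Finset.sum_filter]
  rw [Finset.sum_comm, Finset.mul_sum]
  refine Finset.sum_congr rfl fun e _ => ?_
  rw [← Finset.sum_filter, Finset.sum_const, nsmul_eq_mul]
  congr 1
  have : (univ.filter fun u => u ∈ e.1) = e.1 := by ext; simp
  rw [this, e.2]

/-- step 3: the slots `e'' - u' + u` are pairwise distinct. -/
private theorem bad_inner (D : HyperedgeSlot n r → ℝ) (hD : ∀ e, 0 ≤ D e)
    (u' : Fin n) (e : HyperedgeSlot n r) (hu' : u' ∈ e.1) :
    ∑ u ∈ (univ : Finset (Fin n)).filter (fun u => u ∉ e.1),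
        D (relabelSlot (Equiv.swap u' u) e) ≤ ∑ e, D e := by
  have hinj : Set.InjOn (fun u => relabelSlot (Equiv.swap u' u) e)
      ((univ : Finset (Fin n)).filter (fun u => u ∉ e.1) : Set (Fin n)) := by
    intro u hu v hv huv
    replace hu : u ∉ e.1 := (mem_filter.1 (mem_coe.1 hu)).2
    replace hv : v ∉ e.1 := (mem_filter.1 (mem_coe.1 hv)).2
    have h1 : (relabelSlot (Equiv.swap u' u) e).1 = (relabelSlot (Equiv.swap u' v) e).1 :=
      congrArg Subtype.val huv
    rw [relabelSlot_swap_val hu' hu, relabelSlot_swap_val hu' hv] at h1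
    have h2 : u ∈ insert v (e.1.erase u') := h1 ▸ mem_insert_self u _
    rcases mem_insert.1 h2 with h | h
    · exact h
    · exact absurd (mem_of_mem_erase h) hu
  rw [← Finset.sum_image (f := D) hinj]
  exact Finset.sum_le_sum_of_subset_of_nonneg (subset_univ _) (fun e _ _ => hD e)

/-- steps 1-3, pointwise and abstract. -/
private theorem bad_comb (b : Fin n → HyperedgeSlot n r → ℝ) (D : HyperedgeSlot n r → ℝ)
    (hD : ∀ e, 0 ≤ D e) {G θ t : ℝ} (hG : ∑ e, D e ≤ G) {q : ℕ} (hq : 1 ≤ q)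
    (hrob : ∀ u e, u ∈ e.1 → θ ≤ b u e →
      (q : ℝ) / 2 ≤ (((univ : Finset (Fin n)).filter (fun u' => u' ∉ e.1 ∧
        t ≤ b u' (relabelSlot (Equiv.swap u u') e))).card : ℝ)) :
    ∑ u : Fin n, ∑ e ∈ (star u : Finset (HyperedgeSlot n r)),
        (if θ ≤ b u e then (1 : ℝ) else 0) * D e
      ≤ 2 / q * G * ∑ u : Fin n, ∑ e ∈ (star u : Finset (HyperedgeSlot n r)),
          (if t ≤ b u e then (1 : ℝ) else 0) := by
  classical
  have hq0 : (0 : ℝ) < q := by exact_mod_cast hq
  have hG0 : 0 ≤ G := le_trans (Finset.sum_nonneg fun e _ => hD e) hG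
  -- the two triple summands
  let H : Fin n × HyperedgeSlot n r × Fin n → ℝ := fun a =>
    if a.1 ∈ a.2.1.1 ∧ a.2.2 ∉ a.2.1.1 then
      (if t ≤ b a.1 a.2.1 then (1 : ℝ) else 0) * D (relabelSlot (Equiv.swap a.1 a.2.2) a.2.1)
    else 0
  let i : Fin n × HyperedgeSlot n r × Fin n → Fin n × HyperedgeSlot n r × Fin n := fun a =>
    (a.2.2, relabelSlot (Equiv.swap a.1 a.2.2) a.2.1, a.1)
  have hi : Function.Involutive i := by
    rintro ⟨u, e, u'⟩
    simp only [i, Equiv.swap_comm u' u, relabelSlot_swap_swap]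
  have hHi : ∀ u e u', H (i (u, e, u')) =
      if u ∈ e.1 ∧ u' ∉ e.1 then
        (if t ≤ b u' (relabelSlot (Equiv.swap u u') e) then (1 : ℝ) else 0) * D e else 0 := by
    intro u e u'
    have h1 : u' ∈ (relabelSlot (Equiv.swap u u') e).1 ↔ u ∈ e.1 := by
      have := mem_relabelSlot (Equiv.swap u u') e u
      rwa [Equiv.swap_apply_left] at this
    have h2 : u ∈ (relabelSlot (Equiv.swap u u') e).1 ↔ u' ∈ e.1 := by
      have := mem_relabelSlot (Equiv.swap u u') e u'
      rwa [Equiv.swap_apply_right] at this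
    simp only [H, i, h1, h2, Equiv.swap_comm u' u, relabelSlot_swap_swap]
  have hsum : ∑ a, H a = ∑ a, H (i a) := (Equiv.sum_comp hi.toPerm H).symm
  -- Step A
  have hA : ∑ u : Fin n, ∑ e ∈ (star u : Finset (HyperedgeSlot n r)),
        (if θ ≤ b u e then (1 : ℝ) else 0) * D e ≤ 2 / q * ∑ a, H (i a) := by
    rw [Fintype.sum_prod_type, Finset.mul_sum]
    refine Finset.sum_le_sum fun u _ => ?_
    rw [Fintype.sum_prod_type, Finset.mul_sum]
    unfold star
    rw [Finset.sum_filter]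
    refine Finset.sum_le_sum fun e _ => ?_
    simp only [hHi]
    by_cases hu : u ∈ e.1
    · rw [if_pos hu]
      by_cases hθ : θ ≤ b u e
      · rw [if_pos hθ, one_mul]
        have hc := hrob u e hu hθ
        have : ∑ u' : Fin n, (if u ∈ e.1 ∧ u' ∉ e.1 then
            (if t ≤ b u' (relabelSlot (Equiv.swap u u') e) then (1 : ℝ) else 0) * D e else 0)
            = (((univ : Finset (Fin n)).filter (fun u' => u' ∉ e.1 ∧
                t ≤ b u' (relabelSlot (Equiv.swap u u') e))).card : ℝ) * D e := by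
          rw [Finset.card_filter, Nat.cast_sum, Finset.sum_mul]
          refine Finset.sum_congr rfl fun u' _ => ?_
          by_cases h1 : u' ∉ e.1 <;> by_cases h2 : t ≤ b u' (relabelSlot (Equiv.swap u u') e) <;>
            simp [hu, h1, h2]
        rw [this, ← mul_assoc]
        have h1 : (1 : ℝ) ≤ 2 / q * (((univ : Finset (Fin n)).filter (fun u' => u' ∉ e.1 ∧
                t ≤ b u' (relabelSlot (Equiv.swap u u') e))).card : ℝ) := by
          calc (1 : ℝ) = 2 / q * (q / 2) := by field_simp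
            _ ≤ _ := mul_le_mul_of_nonneg_left hc (by positivity)
        calc D e = 1 * D e := (one_mul _).symm
          _ ≤ _ := mul_le_mul_of_nonneg_right h1 (hD e)
      · rw [if_neg hθ, zero_mul]
        refine mul_nonneg (by positivity) (Finset.sum_nonneg fun u' _ => ?_)
        split_ifs <;> simp [hD e]
    · rw [if_neg hu]
      refine mul_nonneg (by positivity) (Finset.sum_nonneg fun u' _ => ?_)
      split_ifs <;> simp [hD e]
  -- Step C
  have hC : ∑ a, H a ≤ G * ∑ u : Fin n, ∑ e ∈ (star u : Finset (HyperedgeSlot n r)),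
          (if t ≤ b u e then (1 : ℝ) else 0) := by
    rw [Fintype.sum_prod_type, Finset.mul_sum]
    refine Finset.sum_le_sum fun u _ => ?_
    rw [Fintype.sum_prod_type, Finset.mul_sum]
    unfold star
    rw [Finset.sum_filter]
    refine Finset.sum_le_sum fun e _ => ?_
    simp only [H]
    by_cases hu : u ∈ e.1
    · rw [if_pos hu]
      have : ∑ u' : Fin n, (if u ∈ e.1 ∧ u' ∉ e.1 then
            (if t ≤ b u e then (1 : ℝ) else 0) * D (relabelSlot (Equiv.swap u u') e) else 0)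
          = (if t ≤ b u e then (1 : ℝ) else 0) *
            ∑ u' ∈ (univ : Finset (Fin n)).filter (fun u' => u' ∉ e.1),
              D (relabelSlot (Equiv.swap u u') e) := by
        rw [Finset.mul_sum, Finset.sum_filter]
        refine Finset.sum_congr rfl fun u' _ => ?_
        by_cases h1 : u' ∉ e.1 <;> simp [hu, h1]
      rw [this, mul_comm G]
      refine mul_le_mul_of_nonneg_left (le_trans (bad_inner D hD u e hu) hG) ?_
      split_ifs <;> norm_num
    · rw [if_neg hu]
      simp [hu]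
  calc _ ≤ 2 / q * ∑ a, H (i a) := hA
    _ = 2 / q * ∑ a, H a := by rw [hsum]
    _ ≤ 2 / q * (G * _) := mul_le_mul_of_nonneg_left hC (by positivity)
    _ = _ := by rw [mul_assoc]

theorem bad_le {p ρ : ℝ} (hp0 : 0 < p) (hp1 : p < 1) (hρ0 : 0 ≤ ρ) (hρ1 : ρ < 1) {q : ℕ}
    (hq : 1 ≤ q) {f : (HyperedgeSlot n r → Bool) → Bool} (hf : IsSymmetric f)
    {θ : ℝ} (hθ : 0 < θ) :
    ∑ u : Fin n, ∑ e ∈ (star u : Finset (HyperedgeSlot n r)),
        ex p (fun x => (if θ ≤ bp p ρ q f u e x then 1 else 0) * der p e (gS p ρ q f) x ^ 2)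
      ≤ ρ ^ 2 / (1 - ρ) * (4 * n * r) / (θ * q ^ 2) * infl p f := by
  classical
  rcases Nat.eq_zero_or_pos n with h0 | hn
  · subst h0
    simp
  have hn0 : (0 : ℝ) < n := by exact_mod_cast hn
  have hq0 : (0 : ℝ) < q := by exact_mod_cast hq
  set G : ℝ := ρ ^ 2 / (1 - ρ) with hGdef
  have hG0 : 0 ≤ G := div_nonneg (sq_nonneg _) (by linarith)
  set t : ℝ := q * θ / (2 * n) with htdef
  have ht0 : 0 < t := by positivity
  have hb0 : ∀ u e x, 0 ≤ bp p ρ q f u e x := fun u e x =>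
    avg_nonneg hp0.le hp1.le _ (fun y => Ys_nonneg hp0.le hp1.le hρ0 hρ1.le q f e y) x
  -- pointwise inequality
  have hpt : ∀ x, ∑ u : Fin n, ∑ e ∈ (star u : Finset (HyperedgeSlot n r)),
        (if θ ≤ bp p ρ q f u e x then (1 : ℝ) else 0) * der p e (gS p ρ q f) x ^ 2
      ≤ 2 / q * G * ∑ u : Fin n, ∑ e ∈ (star u : Finset (HyperedgeSlot n r)),
          (if t ≤ bp p ρ q f u e x then (1 : ℝ) else 0) := by
    intro x
    refine bad_comb (fun u e => bp p ρ q f u e x) (fun e => der p e (gS p ρ q f) x ^ 2)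
      (fun e => sq_nonneg _) (grad_gS_le hp0 hp1 hρ0 hρ1 q f x) hq ?_
    intro u e hu hθb
    have hpos : 0 < bp p ρ q f u e x := lt_of_lt_of_le hθ hθb
    refine le_trans (robust hp0 hp1 hρ0 hρ1.le q hf u e hu x hpos) ?_
    have : (univ : Finset (Fin n)).filter (fun u' => u' ∉ e.1 ∧
        (q : ℝ) * bp p ρ q f u e x / (2 * n)
          ≤ bp p ρ q f u' (relabelSlot (Equiv.swap u u') e) x) ⊆
        (univ : Finset (Fin n)).filter (fun u' => u' ∉ e.1 ∧
          t ≤ bp p ρ q f u' (relabelSlot (Equiv.swap u u') e) x) := by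
      intro u' hu'
      simp only [mem_filter, mem_univ, true_and] at hu' ⊢
      refine ⟨hu'.1, le_trans ?_ hu'.2⟩
      rw [htdef]
      gcongr
    exact_mod_cast Finset.card_le_card this
  -- Markov
  have hmk : ∀ u e, ex p (fun x => if t ≤ bp p ρ q f u e x then (1 : ℝ) else 0)
      ≤ ex p (piv f e) / t := by
    intro u e
    have h1 : ex p (fun x => if t ≤ bp p ρ q f u e x then (1 : ℝ) else 0)
        ≤ ex p (fun x => t⁻¹ * bp p ρ q f u e x) := by
      refine ex_mono hp0.le hp1.le fun x => ?_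
      split_ifs with h
      · rw [inv_mul_eq_div, le_div_iff₀ ht0, one_mul]; exact h
      · exact mul_nonneg (inv_nonneg.2 ht0.le) (hb0 u e x)
    have h2 : ex p (bp p ρ q f u e) ≤ ex p (piv f e) := by
      unfold bp
      rw [ex_avg]
      exact ex_Ys_le hp0.le hp1.le hρ0 hρ1.le q f e
    rw [ex_const_mul] at h1
    calc _ ≤ t⁻¹ * ex p (fun x => bp p ρ q f u e x) := h1
      _ ≤ t⁻¹ * ex p (piv f e) := mul_le_mul_of_nonneg_left h2 (inv_nonneg.2 ht0.le)
      _ = _ := by rw [inv_mul_eq_div]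
  calc ∑ u : Fin n, ∑ e ∈ (star u : Finset (HyperedgeSlot n r)),
        ex p (fun x => (if θ ≤ bp p ρ q f u e x then 1 else 0) * der p e (gS p ρ q f) x ^ 2)
      = ex p (fun x => ∑ u : Fin n, ∑ e ∈ (star u : Finset (HyperedgeSlot n r)),
        (if θ ≤ bp p ρ q f u e x then (1 : ℝ) else 0) * der p e (gS p ρ q f) x ^ 2) := by
        rw [ex_sum]
        refine Finset.sum_congr rfl fun u _ => ?_
        rw [ex_sum]
    _ ≤ ex p (fun x => 2 / q * G * ∑ u : Fin n, ∑ e ∈ (star u : Finset (HyperedgeSlot n r)),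
          (if t ≤ bp p ρ q f u e x then (1 : ℝ) else 0)) := ex_mono hp0.le hp1.le hpt
    _ = 2 / q * G * ∑ u : Fin n, ∑ e ∈ (star u : Finset (HyperedgeSlot n r)),
          ex p (fun x => if t ≤ bp p ρ q f u e x then (1 : ℝ) else 0) := by
        rw [ex_const_mul, ex_sum]
        congr 1
        refine Finset.sum_congr rfl fun u _ => ?_
        rw [ex_sum]
    _ ≤ 2 / q * G * ∑ u : Fin n, ∑ e ∈ (star u : Finset (HyperedgeSlot n r)),
          ex p (piv f e) / t := by
        refine mul_le_mul_of_nonneg_left ?_ (by positivity)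
        exact Finset.sum_le_sum fun u _ => Finset.sum_le_sum fun e _ => hmk u e
    _ = 2 / q * G * ((r * infl p f) / t) := by
        rw [← sum_star_ex_piv, Finset.sum_div]
        congr 1
        refine Finset.sum_congr rfl fun u _ => ?_
        rw [Finset.sum_div]
    _ = G * (4 * n * r) / (θ * q ^ 2) * infl p f := by
        rw [htdef]
        field_simp
        ring

end Crest.Agent.BK
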