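import Crest.Agent.BK_Defs

/-!
# BK task A1: basic facts on `wt`, `ex` (finite product measure)
All proofs are elementary finite-sum manipulations. Key tool: `Finset.prod_univ_sum` /
`Fintype.piFinset_univ` for `sum_prod_eq`.
-/

set_option autoImplicit false
open Finset

namespace Crest.Agent.BK
variable {ι : Type*} [Fintype ι] [DecidableEq ι]

/-- `∑_x ∏_i F i (x i) = ∏_i (F i true + F i false)`  (`Finset.prod_univ_sum` with `t i = univ`,
`Fintype.piFinset_univ`, `Fintype.sum_bool`). -/
theorem sum_prod_eq (F : ι → Bool → ℝ) :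
    ∑ x : ι → Bool, ∏ i, F i (x i) = ∏ i, (F i true + F i false) := by
  have h := Finset.prod_univ_sum (fun _ : ι => (Finset.univ : Finset Bool)) F
  rw [Fintype.piFinset_univ] at h
  rw [← h]
  refine Finset.prod_congr rfl fun i _ => ?_
  rw [Fintype.sum_bool]

theorem wt_eq_bernoulliWeight (p : ℝ) (x : ι → Bool) :
    wt p x = Crest.FinProb.bernoulliWeight p x := rfl

theorem wt_nonneg {p : ℝ} (hp0 : 0 ≤ p) (hp1 : p ≤ 1) (x : ι → Bool) : 0 ≤ wt p x := by
  unfold wt
  refine Finset.prod_nonneg fun i _ => ?_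
  split_ifs
  · exact hp0
  · linarith

theorem wt_pos {p : ℝ} (hp0 : 0 < p) (hp1 : p < 1) (x : ι → Bool) : 0 < wt p x := by
  unfold wt
  refine Finset.prod_pos fun i _ => ?_
  split_ifs
  · exact hp0
  · linarith

/-- total mass one (any real `p`). -/
theorem sum_wt (p : ℝ) : ∑ x : ι → Bool, wt p x = 1 := by
  unfold wt
  rw [sum_prod_eq (fun _ b => if b then p else 1 - p)]
  simp

theorem ex_const (p c : ℝ) : ex p (fun _ : ι → Bool => c) = c := by
  unfold ex
  rw [← Finset.sum_mul, sum_wt, one_mul]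

theorem ex_add (p : ℝ) (h k : (ι → Bool) → ℝ) :
    ex p (fun x => h x + k x) = ex p h + ex p k := by
  unfold ex
  rw [← Finset.sum_add_distrib]
  exact Finset.sum_congr rfl fun x _ => by ring

theorem ex_sub (p : ℝ) (h k : (ι → Bool) → ℝ) :
    ex p (fun x => h x - k x) = ex p h - ex p k := by
  unfold ex
  rw [← Finset.sum_sub_distrib]
  exact Finset.sum_congr rfl fun x _ => by ring

theorem ex_const_mul (p c : ℝ) (h : (ι → Bool) → ℝ) :
    ex p (fun x => c * h x) = c * ex p h := by
  unfold ex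
  rw [Finset.mul_sum]
  exact Finset.sum_congr rfl fun x _ => by ring

theorem ex_sum {α : Type*} (p : ℝ) (s : Finset α) (h : α → (ι → Bool) → ℝ) :
    ex p (fun x => ∑ a ∈ s, h a x) = ∑ a ∈ s, ex p (h a) := by
  unfold ex
  rw [Finset.sum_comm]
  exact Finset.sum_congr rfl fun x _ => by rw [Finset.mul_sum]

theorem ex_mono {p : ℝ} (hp0 : 0 ≤ p) (hp1 : p ≤ 1) {h k : (ι → Bool) → ℝ}
    (hk : ∀ x, h x ≤ k x) : ex p h ≤ ex p k := by
  unfold ex
  exact Finset.sum_le_sum fun x _ => mul_le_mul_of_nonneg_left (hk x) (wt_nonneg hp0 hp1 x)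

theorem ex_nonneg {p : ℝ} (hp0 : 0 ≤ p) (hp1 : p ≤ 1) {h : (ι → Bool) → ℝ}
    (hh : ∀ x, 0 ≤ h x) : 0 ≤ ex p h := by
  unfold ex
  exact Finset.sum_nonneg fun x _ => mul_nonneg (wt_nonneg hp0 hp1 x) (hh x)

theorem abs_ex_le {p : ℝ} (hp0 : 0 ≤ p) (hp1 : p ≤ 1) (h : (ι → Bool) → ℝ) :
    |ex p h| ≤ ex p (fun x => |h x|) := by
  unfold ex
  refine (Finset.abs_sum_le_sum_abs _ _).trans (le_of_eq ?_)
  exact Finset.sum_congr rfl fun x _ => by rw [abs_mul, abs_of_nonneg (wt_nonneg hp0 hp1 x)]

/-- Cauchy-Schwarz (`Finset.sum_mul_sq_le_sq_mul_sq` applied to `√wt * h`, `√wt * k`, or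
`Finset.inner_mul_le_norm_mul_norm`; or the discriminant argument). -/
theorem ex_mul_sq_le {p : ℝ} (hp0 : 0 ≤ p) (hp1 : p ≤ 1) (h k : (ι → Bool) → ℝ) :
    (ex p (fun x => h x * k x)) ^ 2 ≤ ex p (fun x => h x ^ 2) * ex p (fun x => k x ^ 2) := by
  have key := Finset.sum_mul_sq_le_sq_mul_sq (Finset.univ : Finset (ι → Bool))
    (fun x => Real.sqrt (wt p x) * h x) (fun x => Real.sqrt (wt p x) * k x)
  have e1 : ∀ x : ι → Bool, Real.sqrt (wt p x) * h x * (Real.sqrt (wt p x) * k x) =
      wt p x * (h x * k x) := by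
    intro x
    have := Real.mul_self_sqrt (wt_nonneg hp0 hp1 x)
    calc Real.sqrt (wt p x) * h x * (Real.sqrt (wt p x) * k x)
        = (Real.sqrt (wt p x) * Real.sqrt (wt p x)) * (h x * k x) := by ring
      _ = wt p x * (h x * k x) := by rw [this]
  have e2 : ∀ (g : (ι → Bool) → ℝ) (x : ι → Bool), (Real.sqrt (wt p x) * g x) ^ 2 =
      wt p x * g x ^ 2 := by
    intro g x
    rw [mul_pow, Real.sq_sqrt (wt_nonneg hp0 hp1 x)]
  simp only [e1, e2] at key
  exact key

/-- `(E h)^2 ≤ E h^2`. -/
theorem ex_sq_le {p : ℝ} (hp0 : 0 ≤ p) (hp1 : p ≤ 1) (h : (ι → Bool) → ℝ) :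
    (ex p h) ^ 2 ≤ ex p (fun x => h x ^ 2) := by
  have key := ex_mul_sq_le hp0 hp1 h (fun _ => 1)
  simp only [mul_one, one_pow] at key
  rwa [ex_const, mul_one] at key

private theorem basic_sum_split (i : ι) (K : (ι → Bool) → ℝ) :
    ∑ x, K x = ∑ z : {j // j ≠ i} → Bool,
      (K ((Equiv.funSplitAt i Bool).symm (true, z)) +
        K ((Equiv.funSplitAt i Bool).symm (false, z))) := by
  rw [← (Equiv.funSplitAt i Bool).symm.sum_comp, Fintype.sum_prod_type, Fintype.sum_bool,
    ← Finset.sum_add_distrib]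

private theorem basic_wt_symm (p : ℝ) (i : ι) (b : Bool) (z : {j // j ≠ i} → Bool) :
    wt p ((Equiv.funSplitAt i Bool).symm (b, z)) =
      (if b then p else 1 - p) * ∏ j, (if z j then p else 1 - p) := by
  unfold wt
  rw [Fintype.prod_eq_mul_prod_subtype_ne _ i]
  congr 1
  · simp [Equiv.funSplitAt, Equiv.piSplitAt]
  · refine Finset.prod_congr rfl fun j _ => ?_
    simp [Equiv.funSplitAt, Equiv.piSplitAt, j.2]

private theorem basic_update_symm (i : ι) (b b' : Bool) (z : {j // j ≠ i} → Bool) :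
    Function.update ((Equiv.funSplitAt i Bool).symm (b, z)) i b' =
      (Equiv.funSplitAt i Bool).symm (b', z) := by
  funext j
  by_cases hj : j = i
  · subst hj
    simp [Equiv.funSplitAt, Equiv.piSplitAt]
  · simp [Equiv.funSplitAt, Equiv.piSplitAt, hj]

/-- Splitting off one coordinate: `E h = p E h(x[i:=true]) + (1-p) E h(x[i:=false])`.
(Reindex `x ↦ (x i, x off i)`; e.g. both sides are linear in `h`, or use
`wt p x = (if x i then p else 1-p) * ∏_{j ≠ i} ..` and the involution flipping `i`.) -/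
theorem ex_split (p : ℝ) (i : ι) (h : (ι → Bool) → ℝ) :
    ex p h = p * ex p (fun x => h (Function.update x i true))
      + (1 - p) * ex p (fun x => h (Function.update x i false)) := by
  unfold ex
  rw [basic_sum_split i, basic_sum_split i, basic_sum_split i]
  simp only [basic_wt_symm, basic_update_symm]
  rw [Finset.mul_sum, Finset.mul_sum, ← Finset.sum_add_distrib]
  refine Finset.sum_congr rfl fun z _ => ?_
  simp only [if_true, Bool.false_eq_true, if_false]
  ring

/-- Independence of one coordinate from a function that does not depend on it. -/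
theorem ex_mul_of_noDep (p : ℝ) (i : ι) (u : Bool → ℝ) (F : (ι → Bool) → ℝ)
    (hF : NoDep {i} F) :
    ex p (fun x => u (x i) * F x) = (p * u true + (1 - p) * u false) * ex p F := by
  have hupd : ∀ (b : Bool) (x : ι → Bool), F (Function.update x i b) = F x := by
    intro b x
    apply hF
    intro j hj
    have : j ≠ i := by simpa using hj
    simp [Function.update_of_ne this]
  rw [ex_split p i]
  simp only [Function.update_self, hupd, ex_const_mul]
  ring

/-- probability of an event in Prelude's sense = expectation of the indicator. -/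
theorem bernoulliProb_eq_ex (p : ℝ) (f : (ι → Bool) → Bool) :
    Crest.FinProb.bernoulliProb p {x | f x = true} = ex p (ind f) := by
  unfold Crest.FinProb.bernoulliProb ex ind
  rw [Finset.sum_filter]
  refine Finset.sum_congr rfl fun x _ => ?_
  by_cases hx : f x = true
  · simp [hx, wt_eq_bernoulliWeight]
  · simp [hx]

theorem bernoulliProb_piv_eq_ex (p : ℝ) (f : (ι → Bool) → Bool) (e : ι) :
    Crest.FinProb.bernoulliProb p
      {x | f (Function.update x e true) ≠ f (Function.update x e false)} = ex p (piv f e) := by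
  unfold Crest.FinProb.bernoulliProb ex piv
  rw [Finset.sum_filter]
  refine Finset.sum_congr rfl fun x _ => ?_
  by_cases hx : f (Function.update x e true) ≠ f (Function.update x e false)
  · simp [hx, wt_eq_bernoulliWeight]
  · simp only [Set.mem_setOf_eq, if_neg hx, mul_zero]

end Crest.Agent.BK
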