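import Crest.Agent.BK_Fourier

/-!
# BK task A7: Bonami lemma for p-biased coins, `E P^4 ≤ B^k (E P^2)^2`, `B = Bc p = 8/min p (1-p)`

Prove by `Finset.induction_on A` (all `k`, `c` generalised) the statement `bonami_aux`:
for `P_A := ∑_{S ⊆ A, |S| ≤ k} c S chi_S`.
Step `A = insert i A'` (`i ∉ A'`): `P = a + phi(x i) * b`, `a = ∑_{S ⊆ A', |S| ≤ k} c S chi_S`,
`b = ∑_{S ⊆ A', |S| ≤ k-1} c (insert i S) chi_S` (`b = 0` if `k = 0`); `a`, `b` do not depend on `i`.
With `c3 = E phi^3`, `c4 = E phi^4` (`ex_mul_of_noDep`):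
 `E P^2 = E a^2 + E b^2`,  `E P^4 = E a^4 + 6 E a^2 b^2 + 4 c3 E a b^3 + c4 E b^4`.
 `c3^2 ≤ c4` (Cauchy-Schwarz for one coin), `c4 = (1 - 3p(1-p))/(p(1-p)) ≤ 2/min p (1-p)`, so `3 c4 ≤ B`, and `16 ≤ B`.
 `4 c3 E a b^3 ≤ 4 |c3| sqrt(E a^2b^2 * E b^4) ≤ 2 E a^2 b^2 + 2 c3^2 E b^4`, so
 `E P^4 ≤ E a^4 + 8 E a^2 b^2 + 3 c4 E b^4`, `(E a^2 b^2)^2 ≤ E a^4 E b^4 ≤ B^(2k-1) α^2 β^2 ≤ (B^k α β/4)^2`
 (`α = E a^2`, `β = E b^2`), hence `E P^4 ≤ B^k (α^2 + 2 α β + β^2)`.
-/

set_option autoImplicit false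
set_option linter.unusedSectionVars false
open Finset

namespace Crest.Agent.BK
variable {ι : Type*} [Fintype ι] [DecidableEq ι]

theorem Bc_ge {p : ℝ} (hp0 : 0 < p) (hp1 : p < 1) : 16 ≤ Bc p := by
  unfold Bc
  have hm : 0 < min p (1 - p) := lt_min hp0 (by linarith)
  rw [le_div_iff₀ hm]
  rcases le_total p (1 - p) with h | h
  · rw [min_eq_left h]; linarith
  · rw [min_eq_right h]; linarith

/-- third moment of the normalised coin -/
private noncomputable def bonC3 (p : ℝ) : ℝ := p * phi p true ^ 3 + (1 - p) * phi p false ^ 3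

/-- fourth moment of the normalised coin -/
private noncomputable def bonC4 (p : ℝ) : ℝ := p * phi p true ^ 4 + (1 - p) * phi p false ^ 4

private theorem bonC3_sq_le {p : ℝ} (hp0 : 0 < p) (hp1 : p < 1) : bonC3 p ^ 2 ≤ bonC4 p := by
  have h2 := phi_sq_mean hp0 hp1
  unfold bonC3 bonC4
  set t := phi p true
  set f := phi p false
  have key : (p * t ^ 2 + (1 - p) * f ^ 2) * (p * t ^ 4 + (1 - p) * f ^ 4)
      - (p * t ^ 3 + (1 - p) * f ^ 3) ^ 2 = p * (1 - p) * (t * f * (f - t)) ^ 2 := by ring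
  have hnn : 0 ≤ p * (1 - p) * (t * f * (f - t)) ^ 2 := by
    have : 0 ≤ 1 - p := by linarith
    positivity
  rw [h2, one_mul] at key
  linarith

private theorem bonC4_eq {p : ℝ} (hp0 : 0 < p) (hp1 : p < 1) :
    bonC4 p = ((1 - p) ^ 3 + p ^ 3) / (p * (1 - p)) := by
  have hs := sd_sq hp0 hp1
  have hsp := sd_pos hp0 hp1
  have hq : 0 < 1 - p := by linarith
  have hpq : 0 < p * (1 - p) := mul_pos hp0 hq
  unfold bonC4 phi
  simp only [if_true, Bool.false_eq_true, if_false]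
  have h4 : sd p ^ 4 = (p * (1 - p)) ^ 2 := by
    have : sd p ^ 4 = (sd p ^ 2) ^ 2 := by ring
    rw [this, hs]
  rw [div_pow, div_pow, h4]
  field_simp
  ring

private theorem bonC4_nonneg {p : ℝ} (hp0 : 0 < p) (hp1 : p < 1) : 0 ≤ bonC4 p := by
  have hq : 0 ≤ 1 - p := by linarith
  unfold bonC4
  positivity

private theorem three_bonC4_le {p : ℝ} (hp0 : 0 < p) (hp1 : p < 1) : 3 * bonC4 p ≤ Bc p := by
  have hq : 0 < 1 - p := by linarith
  have hpq : 0 < p * (1 - p) := mul_pos hp0 hq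
  rw [bonC4_eq hp0 hp1]
  unfold Bc
  have hcube : (1 - p) ^ 3 + p ^ 3 ≤ 1 := by nlinarith
  rcases le_total p (1 - p) with h | h
  · rw [min_eq_left h, ← mul_div_assoc, div_le_div_iff₀ hpq hp0]
    nlinarith
  · rw [min_eq_right h, ← mul_div_assoc, div_le_div_iff₀ hpq hq]
    nlinarith

private theorem two_mul_le_add_of_sq_le {u v w : ℝ} (hu : 0 ≤ u) (hv : 0 ≤ v)
    (h : w ^ 2 ≤ u * v) : 2 * w ≤ u + v := by
  by_contra h'
  push Not at h'
  have h2 : (u + v) ^ 2 < (2 * w) ^ 2 := pow_lt_pow_left₀ h' (by positivity) (by norm_num)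
  nlinarith [sq_nonneg (u - v)]

/-- the purely numerical part of the induction step -/
private theorem bon_num {B Bk α β A4 B4 M N c3 c4 : ℝ}
    (hB : 16 ≤ B) (hBk : 0 ≤ Bk) (hα : 0 ≤ α) (hβ : 0 ≤ β) (_hA4 : 0 ≤ A4) (hB4 : 0 ≤ B4)
    (hM : 0 ≤ M)
    (h1 : A4 ≤ B * Bk * α ^ 2) (h2 : B4 ≤ Bk * β ^ 2) (h3 : M ^ 2 ≤ A4 * B4)
    (h4 : N ^ 2 ≤ M * B4) (h5 : c3 ^ 2 ≤ c4) (h6 : 3 * c4 ≤ B) :
    A4 + 6 * M + 4 * c3 * N + c4 * B4 ≤ B * Bk * (α + β) ^ 2 := by
  have hc3 : 0 ≤ c3 ^ 2 := sq_nonneg _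
  have e1 : 2 * (c3 * N) ≤ M + c3 ^ 2 * B4 := by
    apply two_mul_le_add_of_sq_le hM (by positivity)
    have : (c3 * N) ^ 2 = c3 ^ 2 * N ^ 2 := by ring
    rw [this]
    have := mul_le_mul_of_nonneg_left h4 hc3
    nlinarith
  have e2 : (2 * c3 ^ 2 + c4) * B4 ≤ B * B4 := by
    apply mul_le_mul_of_nonneg_right _ hB4
    linarith
  have e3 : B * B4 ≤ B * Bk * β ^ 2 := by
    have := mul_le_mul_of_nonneg_left h2 (by linarith : (0 : ℝ) ≤ B)
    nlinarith
  have hT : 0 ≤ B * Bk * α * β := by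
    have : (0 : ℝ) ≤ B := by linarith
    positivity
  have e4 : 4 * M ≤ B * Bk * α * β := by
    have hsq : (4 * M) ^ 2 ≤ (B * Bk * α * β) ^ 2 := by
      have s1 : A4 * B4 ≤ (B * Bk * α ^ 2) * (Bk * β ^ 2) :=
        mul_le_mul h1 h2 hB4 (by
          have : (0 : ℝ) ≤ B := by linarith
          positivity)
      have s2 : 16 * ((B * Bk * α ^ 2) * (Bk * β ^ 2)) ≤ (B * Bk * α * β) ^ 2 := by
        have hnn : 0 ≤ B * (Bk * α * β) ^ 2 := by
          have : (0 : ℝ) ≤ B := by linarith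
          positivity
        have : (B * Bk * α * β) ^ 2 - 16 * ((B * Bk * α ^ 2) * (Bk * β ^ 2))
            = (B - 16) * (B * (Bk * α * β) ^ 2) := by ring
        have h' : 0 ≤ (B - 16) * (B * (Bk * α * β) ^ 2) :=
          mul_nonneg (by linarith) hnn
        linarith
      nlinarith
    exact (pow_le_pow_iff_left₀ (by positivity) hT (by norm_num)).1 hsq
  nlinarith

/-- the polynomial -/
private noncomputable def bonP (p : ℝ) (A : Finset ι) (k : ℕ) (c : Finset ι → ℝ)
    (x : ι → Bool) : ℝ :=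
  ∑ S ∈ A.powerset.filter (fun S => S.card ≤ k), c S * chi p S x

private theorem bonP_noDep (p : ℝ) (A : Finset ι) (k : ℕ) (c : Finset ι → ℝ) (i : ι)
    (hi : i ∉ A) : NoDep {i} (bonP p A k c) := by
  intro x x' h
  unfold bonP
  apply Finset.sum_congr rfl
  intro S hS
  have hSA : S ⊆ A := Finset.mem_powerset.1 (Finset.mem_filter.1 hS).1
  have hd : Disjoint S {i} := by
    rw [Finset.disjoint_singleton_right]
    exact fun h' => hi (hSA h')
  rw [noDep_chi p hd x x' h]

private theorem bonP_insert_zero (p : ℝ) (A : Finset ι) (c : Finset ι → ℝ) (i : ι)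
    (hi : i ∉ A) (x : ι → Bool) : bonP p (insert i A) 0 c x = bonP p A 0 c x := by
  unfold bonP
  rw [Finset.sum_filter, Finset.sum_filter, Finset.sum_powerset_insert hi]
  have : ∑ t ∈ A.powerset, (if (insert i t).card ≤ 0 then c (insert i t) * chi p (insert i t) x
      else 0) = 0 := by
    apply Finset.sum_eq_zero
    intro t _
    rw [if_neg]
    simp
  rw [this, add_zero]

private theorem bonP_insert_succ (p : ℝ) (A : Finset ι) (k : ℕ) (c : Finset ι → ℝ) (i : ι)
    (hi : i ∉ A) (x : ι → Bool) :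
    bonP p (insert i A) (k + 1) c x
      = bonP p A (k + 1) c x + phi p (x i) * bonP p A k (fun S => c (insert i S)) x := by
  unfold bonP
  rw [Finset.sum_filter, Finset.sum_filter, Finset.sum_filter, Finset.sum_powerset_insert hi]
  congr 1
  rw [Finset.mul_sum]
  apply Finset.sum_congr rfl
  intro t ht
  have htA : t ⊆ A := Finset.mem_powerset.1 ht
  have hit : i ∉ t := fun h' => hi (htA h')
  rw [Finset.card_insert_of_notMem hit, chi_insert hit]
  by_cases hk : t.card ≤ k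
  · rw [if_pos hk, if_pos (by omega)]
    ring
  · rw [if_neg hk, if_neg (by omega)]
    ring

private theorem bon_ex_sq {p : ℝ} (hp0 : 0 < p) (hp1 : p < 1) (i : ι) (a b : (ι → Bool) → ℝ)
    (ha : NoDep {i} a) (hb : NoDep {i} b) :
    ex p (fun x => (a x + phi p (x i) * b x) ^ 2)
      = ex p (fun x => a x ^ 2) + ex p (fun x => b x ^ 2) := by
  have e : (fun x => (a x + phi p (x i) * b x) ^ 2)
      = fun x => a x ^ 2 + (2 * ((fun t => phi p t) (x i) * (a x * b x))
          + (fun t => phi p t ^ 2) (x i) * (b x ^ 2)) := by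
    funext x
    ring
  have n1 : NoDep {i} (fun x => a x * b x) := by
    intro x x' h
    simp only [ha x x' h, hb x x' h]
  have n2 : NoDep {i} (fun x => b x ^ 2) := by
    intro x x' h
    simp only [hb x x' h]
  rw [e, ex_add, ex_add, ex_const_mul, ex_mul_of_noDep p i (fun t => phi p t) _ n1,
    ex_mul_of_noDep p i (fun t => phi p t ^ 2) _ n2, phi_mean hp0 hp1, phi_sq_mean hp0 hp1]
  ring

private theorem bon_ex_four {p : ℝ} (hp0 : 0 < p) (hp1 : p < 1) (i : ι) (a b : (ι → Bool) → ℝ)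
    (ha : NoDep {i} a) (hb : NoDep {i} b) :
    ex p (fun x => (a x + phi p (x i) * b x) ^ 4)
      = ex p (fun x => a x ^ 4) + 6 * ex p (fun x => a x ^ 2 * b x ^ 2)
        + 4 * bonC3 p * ex p (fun x => (a x * b x) * b x ^ 2)
        + bonC4 p * ex p (fun x => b x ^ 4) := by
  have e : (fun x => (a x + phi p (x i) * b x) ^ 4)
      = fun x => a x ^ 4 + (4 * ((fun t => phi p t) (x i) * (a x ^ 3 * b x))
          + (6 * ((fun t => phi p t ^ 2) (x i) * (a x ^ 2 * b x ^ 2))
          + (4 * ((fun t => phi p t ^ 3) (x i) * ((a x * b x) * b x ^ 2))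
          + (fun t => phi p t ^ 4) (x i) * (b x ^ 4)))) := by
    funext x
    ring
  have n1 : NoDep {i} (fun x => a x ^ 3 * b x) := by
    intro x x' h
    simp only [ha x x' h, hb x x' h]
  have n2 : NoDep {i} (fun x => a x ^ 2 * b x ^ 2) := by
    intro x x' h
    simp only [ha x x' h, hb x x' h]
  have n3 : NoDep {i} (fun x => (a x * b x) * b x ^ 2) := by
    intro x x' h
    simp only [ha x x' h, hb x x' h]
  have n4 : NoDep {i} (fun x => b x ^ 4) := by
    intro x x' h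
    simp only [hb x x' h]
  rw [e, ex_add, ex_add, ex_add, ex_add, ex_const_mul, ex_const_mul, ex_const_mul,
    ex_mul_of_noDep p i (fun t => phi p t) _ n1, ex_mul_of_noDep p i (fun t => phi p t ^ 2) _ n2,
    ex_mul_of_noDep p i (fun t => phi p t ^ 3) _ n3,
    ex_mul_of_noDep p i (fun t => phi p t ^ 4) _ n4, phi_mean hp0 hp1, phi_sq_mean hp0 hp1]
  unfold bonC3 bonC4
  ring

private theorem bonami_P {p : ℝ} (hp0 : 0 < p) (hp1 : p < 1) (A : Finset ι) :
    ∀ (k : ℕ) (c : Finset ι → ℝ),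
    ex p (fun x => bonP p A k c x ^ 4) ≤ Bc p ^ k * (ex p (fun x => bonP p A k c x ^ 2)) ^ 2 := by
  have hB16 := Bc_ge hp0 hp1
  have hB1 : (1 : ℝ) ≤ Bc p := by linarith
  have hB0 : (0 : ℝ) ≤ Bc p := by linarith
  have hp0' : 0 ≤ p := hp0.le
  have hp1' : p ≤ 1 := hp1.le
  induction A using Finset.induction_on with
  | empty =>
    intro k c
    have hP : ∀ x, bonP p (∅ : Finset ι) k c x = c ∅ := by
      intro x
      unfold bonP
      rw [Finset.powerset_empty, Finset.filter_singleton, if_pos (by simp), Finset.sum_singleton,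
        chi_empty, mul_one]
    simp only [hP, ex_const]
    have h1 : (1 : ℝ) ≤ Bc p ^ k := one_le_pow₀ hB1
    have h2 : 0 ≤ (c ∅ ^ 2) ^ 2 := by positivity
    have h3 : c ∅ ^ 4 = (c ∅ ^ 2) ^ 2 := by ring
    rw [h3]
    nlinarith
  | insert i A hi ih =>
    intro k c
    cases k with
    | zero =>
      simp only [bonP_insert_zero p A c i hi]
      exact ih 0 c
    | succ k =>
      simp only [bonP_insert_succ p A k c i hi]
      set a := bonP p A (k + 1) c with ha_def
      set b := bonP p A k (fun S => c (insert i S)) with hb_def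
      have ha : NoDep {i} a := bonP_noDep p A (k + 1) c i hi
      have hb : NoDep {i} b := bonP_noDep p A k _ i hi
      rw [bon_ex_four hp0 hp1 i a b ha hb, bon_ex_sq hp0 hp1 i a b ha hb]
      have iha := ih (k + 1) c
      have ihb := ih k (fun S => c (insert i S))
      rw [← ha_def] at iha
      rw [← hb_def] at ihb
      have cs1 := ex_mul_sq_le hp0' hp1' (fun x => a x ^ 2) (fun x => b x ^ 2)
      have cs2 := ex_mul_sq_le hp0' hp1' (fun x => a x * b x) (fun x => b x ^ 2)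
      have r1 : (fun x => (a x ^ 2) ^ 2) = fun x => a x ^ 4 := by
        funext x; ring
      have r2 : (fun x => (b x ^ 2) ^ 2) = fun x => b x ^ 4 := by
        funext x; ring
      have r3 : (fun x => (a x * b x) ^ 2) = fun x => a x ^ 2 * b x ^ 2 := by
        funext x; ring
      simp only [r1, r2, r3] at cs1 cs2
      have key := bon_num (B := Bc p) (Bk := Bc p ^ k)
        (α := ex p (fun x => a x ^ 2)) (β := ex p (fun x => b x ^ 2))
        (A4 := ex p (fun x => a x ^ 4)) (B4 := ex p (fun x => b x ^ 4))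
        (M := ex p (fun x => a x ^ 2 * b x ^ 2)) (N := ex p (fun x => (a x * b x) * b x ^ 2))
        (c3 := bonC3 p) (c4 := bonC4 p) hB16 (by positivity)
        (ex_nonneg hp0' hp1' (fun x => by positivity))
        (ex_nonneg hp0' hp1' (fun x => by positivity))
        (ex_nonneg hp0' hp1' (fun x => by positivity))
        (ex_nonneg hp0' hp1' (fun x => by positivity))
        (ex_nonneg hp0' hp1' (fun x => by positivity))
        (by rw [pow_succ] at iha; linarith) ihb cs1 cs2 (bonC3_sq_le hp0 hp1)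
        (three_bonC4_le hp0 hp1)
      rw [pow_succ]
      linarith

theorem bonami_aux {p : ℝ} (hp0 : 0 < p) (hp1 : p < 1) (A : Finset ι) (k : ℕ)
    (c : Finset ι → ℝ) :
    ex p (fun x => (∑ S ∈ A.powerset.filter (fun S => S.card ≤ k), c S * chi p S x) ^ 4)
      ≤ Bc p ^ k *
        (ex p (fun x => (∑ S ∈ A.powerset.filter (fun S => S.card ≤ k), c S * chi p S x) ^ 2)) ^ 2 :=
  bonami_P hp0 hp1 A k c

theorem bonami {p : ℝ} (hp0 : 0 < p) (hp1 : p < 1) (k : ℕ) (c : Finset ι → ℝ) :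
    ex p (fun x => (∑ S ∈ (univ : Finset (Finset ι)).filter (fun S => S.card ≤ k),
        c S * chi p S x) ^ 4)
      ≤ Bc p ^ k *
        (ex p (fun x => (∑ S ∈ (univ : Finset (Finset ι)).filter (fun S => S.card ≤ k),
          c S * chi p S x) ^ 2)) ^ 2 := by
  have h := bonami_aux hp0 hp1 (univ : Finset ι) k c
  rw [Finset.powerset_univ] at h
  exact h

end Crest.Agent.BK
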