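import Crest.Agent.BK_Fourier

/-!
# BK task A9: Fourier weight `lowW` through the fibres of `A`
For `x` let `h_x y := h (mix A y x)` (a function of the `A`-coordinates of `y` only).
* if `S ⊄ A`: `coef h_x S = 0` (`coef_eq_zero_of_noDep` with the complement of `A`).
* if `S ⊆ A`: `coef h_x S = avg p A (h * chi S) x =: c_S x` (`chi_mix`), and by `parseval`, `coef_avg`, `coef_mul_chi`
  `E_x c_S^2 = ∑_{T disjoint from A} coef h (S ∪ T)^2`.
Sum over `S ⊆ A`, `|S| ≤ k`; the map `(S,T) ↦ S ∪ T` is a bijection onto `{U : |U ∩ A| ≤ k}` (inverse `U ↦ (U ∩ A, U \ A)`).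
-/

set_option autoImplicit false
open Finset

namespace Crest.Agent.BK
variable {ι : Type*} [Fintype ι] [DecidableEq ι]

/-- the fibre `y ↦ h (mix A y x)` does not depend on the coordinates off `A`. -/
theorem noDep_fibre (A : Finset ι) (h : (ι → Bool) → ℝ) (x : ι → Bool) :
    NoDep (univ \ A) (fun y => h (mix A y x)) := by
  intro y y' hyy
  have : mix A y x = mix A y' x := by
    funext i
    unfold mix
    by_cases hi : i ∈ A
    · simp only [hi, if_true]
      exact hyy i (by simp [hi])
    · simp only [hi, if_false]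
  show h (mix A y x) = h (mix A y' x)
  rw [this]

/-- coefficients of the fibre at sets not contained in `A` vanish. -/
theorem coef_fibre_of_not_subset {p : ℝ} (hp0 : 0 < p) (hp1 : p < 1) (A : Finset ι)
    (h : (ι → Bool) → ℝ) (x : ι → Bool) {S : Finset ι} (hS : ¬ S ⊆ A) :
    coef p (fun y => h (mix A y x)) S = 0 := by
  apply coef_eq_zero_of_noDep hp0 hp1 (noDep_fibre A h x)
  intro hd
  apply hS
  intro i hi
  by_contra hiA
  exact (Finset.disjoint_left.mp hd hi) (by simp [hiA])

/-- coefficients of the fibre at sets contained in `A`. -/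
theorem coef_fibre_of_subset (p : ℝ) (A : Finset ι)
    (h : (ι → Bool) → ℝ) (x : ι → Bool) {S : Finset ι} (hS : S ⊆ A) :
    coef p (fun y => h (mix A y x)) S = avg p A (fun z => h z * chi p S z) x := by
  unfold coef ex avg
  apply Finset.sum_congr rfl
  intro y _
  show wt p y * (h (mix A y x) * chi p S y) = wt p y * (h (mix A y x) * chi p S (mix A y x))
  rw [chi_mix, Finset.inter_eq_left.mpr hS, Finset.sdiff_eq_empty_iff_subset.mpr hS, chi_empty,
    mul_one]

/-- second moment of the fibre coefficient. -/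
theorem ex_coef_fibre_sq {p : ℝ} (hp0 : 0 < p) (hp1 : p < 1) (A : Finset ι)
    (h : (ι → Bool) → ℝ) {S : Finset ι} (hS : S ⊆ A) :
    ex p (fun x => coef p (fun y => h (mix A y x)) S ^ 2)
      = ∑ T ∈ (univ : Finset (Finset ι)).filter (fun T => Disjoint T A), coef p h (S ∪ T) ^ 2 := by
  have h1 : (fun x => coef p (fun y => h (mix A y x)) S ^ 2)
      = fun x => (avg p A (fun z => h z * chi p S z) x) ^ 2 := by
    funext x
    rw [coef_fibre_of_subset p A h x hS]
  rw [h1, parseval hp0 hp1, Finset.sum_filter]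
  apply Finset.sum_congr rfl
  intro T _
  rw [coef_avg hp0 hp1]
  by_cases hT : Disjoint T A
  · rw [if_pos hT, if_pos hT, coef_mul_chi]
    exact Finset.disjoint_of_subset_left hS hT.symm
  · rw [if_neg hT, if_neg hT]
    norm_num

theorem lowW_eq_ex_fibre {p : ℝ} (hp0 : 0 < p) (hp1 : p < 1) (A : Finset ι) (k : ℕ)
    (h : (ι → Bool) → ℝ) :
    lowW p A k h = ex p (fun x =>
      ∑ S ∈ (univ : Finset (Finset ι)).filter (fun S => S.card ≤ k),
        coef p (fun y => h (mix A y x)) S ^ 2) := by
  rw [ex_sum]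
  -- restrict to `S ⊆ A`
  have h1 : ∑ S ∈ (univ : Finset (Finset ι)).filter (fun S => S.card ≤ k),
        ex p (fun x => coef p (fun y => h (mix A y x)) S ^ 2)
      = ∑ S ∈ (univ : Finset (Finset ι)).filter (fun S => S.card ≤ k ∧ S ⊆ A),
        ∑ T ∈ (univ : Finset (Finset ι)).filter (fun T => Disjoint T A),
          coef p h (S ∪ T) ^ 2 := by
    rw [← Finset.filter_filter, Finset.sum_filter (fun S => S ⊆ A)]
    apply Finset.sum_congr rfl
    intro S _
    by_cases hS : S ⊆ A
    · rw [if_pos hS, ex_coef_fibre_sq hp0 hp1 A h hS]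
    · rw [if_neg hS]
      have : (fun x => coef p (fun y => h (mix A y x)) S ^ 2) = fun _ => (0 : ℝ) := by
        funext x
        rw [coef_fibre_of_not_subset hp0 hp1 A h x hS]
        norm_num
      rw [this, ex_const]
  rw [h1, ← Finset.sum_product']
  unfold lowW
  refine Finset.sum_nbij' (fun U => (U ∩ A, U \ A)) (fun P => P.1 ∪ P.2) ?_ ?_ ?_ ?_ ?_
  · intro U hU
    simp only [Finset.mem_filter, Finset.mem_univ, true_and] at hU
    simp only [Finset.mem_product, Finset.mem_filter, Finset.mem_univ, true_and]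
    exact ⟨⟨hU, Finset.inter_subset_right⟩, Finset.sdiff_disjoint⟩
  · intro P hP
    simp only [Finset.mem_product, Finset.mem_filter, Finset.mem_univ, true_and] at hP
    simp only [Finset.mem_filter, Finset.mem_univ, true_and]
    rw [Finset.union_inter_distrib_right, Finset.inter_eq_left.mpr hP.1.2,
      Finset.disjoint_iff_inter_eq_empty.mp hP.2, Finset.union_empty]
    exact hP.1.1
  · intro U _
    show (U ∩ A) ∪ (U \ A) = U
    rw [Finset.union_comm, Finset.sdiff_union_inter]
  · intro P hP
    simp only [Finset.mem_product, Finset.mem_filter, Finset.mem_univ, true_and] at hP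
    apply Prod.ext
    · show (P.1 ∪ P.2) ∩ A = P.1
      rw [Finset.union_inter_distrib_right, Finset.inter_eq_left.mpr hP.1.2,
        Finset.disjoint_iff_inter_eq_empty.mp hP.2, Finset.union_empty]
    · show (P.1 ∪ P.2) \ A = P.2
      rw [Finset.union_sdiff_distrib, Finset.sdiff_eq_empty_iff_subset.mpr hP.1.2,
        Finset.empty_union, Finset.sdiff_eq_self_of_disjoint hP.2]
  · intro U _
    show coef p h U ^ 2 = coef p h ((U ∩ A) ∪ (U \ A)) ^ 2
    rw [Finset.union_comm, Finset.sdiff_union_inter]

end Crest.Agent.BK
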