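import Crest.Agent.BK_Level
import Crest.Agent.BK_Fibre

/-!
# BK task A10: conditional level-k inequality with a good/bad split of the fibres
Let `b x := avg p A Y x = ex p (fun y => Y (mix A y x))`, `w x := ∑_{|S| ≤ k} coef h_x S^2` (`h_x y = h (mix A y x)`).
By `lowW_eq_ex_fibre`, `lowW p A k h = E_x w x`. Pointwise:
* always `w x ≤ E_y h_x^2 = avg p A (h^2) x` (`parseval`, subset of nonnegative terms);
* by `level_ineq` for `h_x`, `Y_x`: `w x ^2 ≤ (p(1-p))^2 b^3 B^k`, so if `b x < θ`: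
  `w x ≤ p(1-p) b sqrt(b B^k) ≤ p(1-p) sqrt(θ B^k) b x`.
So `w x ≤ p(1-p) sqrt(θ B^k) b x + 1[θ ≤ b x] avg p A (h^2) x`. Integrate: `E b = E Y` (`ex_avg`), and
`E[1[θ ≤ b] avg A (h^2)] = E[1[θ ≤ b] h^2]` (`ex_mul_avg`, the indicator does not depend on `A` by `noDep_avg`).
-/

set_option autoImplicit false
open Finset

namespace Crest.Agent.BK
variable {ι : Type*} [Fintype ι] [DecidableEq ι]

/-- pointwise (fibrewise) bound used in `lowW_le`. -/
private theorem fibre_le {p : ℝ} (hp0 : 0 < p) (hp1 : p < 1) (A : Finset ι) (k : ℕ)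
    (h Y : (ι → Bool) → ℝ) (hY0 : ∀ x, 0 ≤ Y x) (hY1 : ∀ x, Y x ≤ 1)
    (hH : ∀ x, |h x| ≤ sd p * Y x) {θ : ℝ} (hθ : 0 < θ) (x : ι → Bool) :
    (∑ S ∈ (univ : Finset (Finset ι)).filter (fun S => S.card ≤ k),
        coef p (fun y => h (mix A y x)) S ^ 2)
      ≤ p * (1 - p) * Real.sqrt (θ * Bc p ^ k) * avg p A Y x
        + (if θ ≤ avg p A Y x then 1 else 0) * avg p A (fun z => h z ^ 2) x := by
  have hB : 0 < Bc p := lt_of_lt_of_le (by norm_num) (Bc_ge hp0 hp1)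
  have hBk : 0 < Bc p ^ k := pow_pos hB k
  have hs : 0 < p * (1 - p) := mul_pos hp0 (by linarith)
  set w : ℝ := ∑ S ∈ (univ : Finset (Finset ι)).filter (fun S => S.card ≤ k),
        coef p (fun y => h (mix A y x)) S ^ 2 with hw
  set b : ℝ := avg p A Y x with hb
  have hw0 : 0 ≤ w := Finset.sum_nonneg (fun S _ => sq_nonneg _)
  have hb0 : 0 ≤ b := avg_nonneg hp0.le hp1.le A hY0 x
  have hq0 : 0 ≤ avg p A (fun z => h z ^ 2) x :=
    avg_nonneg hp0.le hp1.le A (fun z => sq_nonneg _) x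
  have hsq0 : 0 ≤ Real.sqrt (θ * Bc p ^ k) := Real.sqrt_nonneg _
  have hc0 : 0 ≤ p * (1 - p) * Real.sqrt (θ * Bc p ^ k) * b :=
    mul_nonneg (mul_nonneg hs.le hsq0) hb0
  by_cases hθb : θ ≤ b
  · -- bad fibre: Parseval
    rw [if_pos hθb, one_mul]
    have h1 : w ≤ avg p A (fun z => h z ^ 2) x := by
      rw [avg_eq_ex_fibre, parseval hp0 hp1 (fun y => h (mix A y x))]
      exact Finset.sum_le_sum_of_subset_of_nonneg (Finset.filter_subset _ _)
        (fun S _ _ => sq_nonneg _)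
    linarith
  · -- good fibre: level inequality
    rw [if_neg hθb, zero_mul, add_zero]
    have hlt : b < θ := not_le.mp hθb
    have hlev : w ^ 2 ≤ (p * (1 - p)) ^ 2 * b ^ 3 * Bc p ^ k := by
      have := level_ineq hp0 hp1 k (fun y => h (mix A y x)) (fun y => Y (mix A y x))
        (fun y => hY0 _) (fun y => hY1 _) (fun y => hH _)
      rw [← avg_eq_ex_fibre] at this
      exact this
    have hsq : Real.sqrt (θ * Bc p ^ k) ^ 2 = θ * Bc p ^ k :=
      Real.sq_sqrt (mul_nonneg hθ.le hBk.le)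
    have h2 : w ^ 2 ≤ (p * (1 - p) * Real.sqrt (θ * Bc p ^ k) * b) ^ 2 := by
      have h3 : (p * (1 - p) * Real.sqrt (θ * Bc p ^ k) * b) ^ 2
          = (p * (1 - p)) ^ 2 * (b ^ 2 * θ) * Bc p ^ k := by
        rw [mul_pow, mul_pow, hsq]; ring
      rw [h3]
      refine hlev.trans ?_
      have h4 : b ^ 3 ≤ b ^ 2 * θ := by
        have : b ^ 3 = b ^ 2 * b := by ring
        rw [this]
        exact mul_le_mul_of_nonneg_left hlt.le (sq_nonneg b)
      exact mul_le_mul_of_nonneg_right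
        (mul_le_mul_of_nonneg_left h4 (sq_nonneg _)) hBk.le
    exact (pow_le_pow_iff_left₀ hw0 hc0 (two_ne_zero)).mp h2

theorem lowW_le {p : ℝ} (hp0 : 0 < p) (hp1 : p < 1) (A : Finset ι) (k : ℕ)
    (h Y : (ι → Bool) → ℝ) (hY0 : ∀ x, 0 ≤ Y x) (hY1 : ∀ x, Y x ≤ 1)
    (hH : ∀ x, |h x| ≤ sd p * Y x) {θ : ℝ} (hθ : 0 < θ) :
    lowW p A k h ≤ p * (1 - p) * Real.sqrt (θ * Bc p ^ k) * ex p Y
      + ex p (fun x => (if θ ≤ avg p A Y x then 1 else 0) * h x ^ 2) := by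
  rw [lowW_eq_ex_fibre hp0 hp1]
  refine (ex_mono hp0.le hp1.le (fibre_le hp0 hp1 A k h Y hY0 hY1 hH hθ)).trans (le_of_eq ?_)
  have hnd : NoDep A (fun x => (if θ ≤ avg p A Y x then (1 : ℝ) else 0)) := by
    intro x x' hxx
    have : avg p A Y x = avg p A Y x' := noDep_avg p A Y x x' hxx
    simp only [this]
  rw [ex_add, ex_const_mul, ex_avg,
    ex_mul_avg p A (fun x => (if θ ≤ avg p A Y x then (1 : ℝ) else 0)) (fun z => h z ^ 2) hnd]

end Crest.Agent.BK
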