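import Mathlib
import Crest.Prelude.Def_FinProb
import Crest.Prelude.Def_HypergraphCube

/-!
# Row 56 (S0077 + S0078, sharp Bourgain-Kalai): common definitions (FROZEN, owner helper29)

Generic layer: `ι` a finite type of coins, `Ω = ι → Bool`, product measure of bias `p`.
* `wt p x`      weight of the outcome `x` (= Prelude's `bernoulliWeight`)
* `ex p h`      expectation of `h : Ω → ℝ`
* `mix A y x`   the outcome equal to `y` on `A` and to `x` off `A`
* `avg p A h`   resample the coordinates of `A` (conditional expectation given the coordinates off `A`)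
* `NoDep A h`   `h` does not depend on the coordinates of `A`
* `sd p = √(p(1-p))`, `phi p b = (b - p)/sd p`, `chi p S = ∏_{i ∈ S} phi p (x i)` (p-biased characters)
* `coef p h S = ex p (h * chi p S)` Fourier coefficient
* `der p e h = sd p * (h|_{e=1} - h|_{e=0})` (so `coef (der e h) S = coef h (insert e S)` for `e ∉ S`)
* `noise p ρ h` the noise operator `T_ρ` (each coordinate is kept with prob. `ρ`, resampled otherwise)
* `ind f`, `piv f e` the 0/1 indicators of `f = true` and of "`e` is pivotal for `f`".

Hypergraph layer: slots = `HyperedgeSlot n r`; `star u`, `touch Q`; vertex smoothing `vsm`;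
`gS` (the smoothed function `g`), `Ys` (`Y_e`), `bp` (`b_{u,e}`).
-/

set_option autoImplicit false
open Finset

namespace Crest.Agent.BK

section generic
variable {ι : Type*} [Fintype ι] [DecidableEq ι]

/-- weight of an outcome (Prelude's `bernoulliWeight`). -/
noncomputable def wt (p : ℝ) (x : ι → Bool) : ℝ := ∏ i, if x i then p else 1 - p

/-- expectation. -/
noncomputable def ex (p : ℝ) (h : (ι → Bool) → ℝ) : ℝ := ∑ x, wt p x * h x

/-- `y` on `A`, `x` off `A`. -/
def mix (A : Finset ι) (y x : ι → Bool) : ι → Bool := fun i => if i ∈ A then y i else x i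

/-- resample the coordinates of `A`. -/
noncomputable def avg (p : ℝ) (A : Finset ι) (h : (ι → Bool) → ℝ) : (ι → Bool) → ℝ :=
  fun x => ∑ y, wt p y * h (mix A y x)

/-- `h` does not depend on the coordinates of `A`. -/
def NoDep (A : Finset ι) (h : (ι → Bool) → ℝ) : Prop :=
  ∀ x x' : ι → Bool, (∀ i, i ∉ A → x i = x' i) → h x = h x'

/-- standard deviation of one coin. -/
noncomputable def sd (p : ℝ) : ℝ := Real.sqrt (p * (1 - p))

/-- normalised coin. -/
noncomputable def phi (p : ℝ) (b : Bool) : ℝ := ((if b then 1 else 0) - p) / sd p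

/-- p-biased character. -/
noncomputable def chi (p : ℝ) (S : Finset ι) (x : ι → Bool) : ℝ := ∏ i ∈ S, phi p (x i)

/-- Fourier coefficient. -/
noncomputable def coef (p : ℝ) (h : (ι → Bool) → ℝ) (S : Finset ι) : ℝ :=
  ex p (fun x => h x * chi p S x)

/-- normalised discrete derivative. -/
noncomputable def der (p : ℝ) (e : ι) (h : (ι → Bool) → ℝ) : (ι → Bool) → ℝ :=
  fun x => sd p * (h (Function.update x e true) - h (Function.update x e false))

/-- one-site noise kernel: from `a` to `b`. -/
noncomputable def ker (p ρ : ℝ) (a b : Bool) : ℝ :=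
  ρ * (if a = b then 1 else 0) + (1 - ρ) * (if b then p else 1 - p)

/-- noise operator `T_ρ`. -/
noncomputable def noise (p ρ : ℝ) (h : (ι → Bool) → ℝ) : (ι → Bool) → ℝ :=
  fun x => ∑ y, (∏ i, ker p ρ (x i) (y i)) * h y

/-- 0/1 indicator of `f = true`. -/
def ind (f : (ι → Bool) → Bool) : (ι → Bool) → ℝ := fun x => if f x = true then 1 else 0

/-- 0/1 indicator of "`e` is pivotal for `f` at `x`". -/
def piv (f : (ι → Bool) → Bool) (e : ι) : (ι → Bool) → ℝ :=
  fun x => if f (Function.update x e true) ≠ f (Function.update x e false) then 1 else 0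

/-- total influence (sum of the pivotal probabilities), generic version. -/
noncomputable def infl (p : ℝ) (f : (ι → Bool) → Bool) : ℝ := ∑ e, ex p (piv f e)

/-- the hypercontractivity constant `B = 8 / min p (1-p)`. -/
noncomputable def Bc (p : ℝ) : ℝ := 8 / min p (1 - p)

/-- Fourier weight of `h` on the sets meeting `A` in at most `k` points. -/
noncomputable def lowW (p : ℝ) (A : Finset ι) (k : ℕ) (h : (ι → Bool) → ℝ) : ℝ :=
  ∑ S ∈ (univ : Finset (Finset ι)).filter (fun S => (S ∩ A).card ≤ k), coef p h S ^ 2

end generic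

section hyper
open Crest.CombinatoricsR.HypergraphCube
variable {n r : ℕ}

/-- slots containing the vertex `u`. -/
def star (u : Fin n) : Finset (HyperedgeSlot n r) := univ.filter (fun e => u ∈ e.1)

/-- slots meeting the vertex set `Q`. -/
def touch (Q : Finset (Fin n)) : Finset (HyperedgeSlot n r) :=
  univ.filter (fun e => ¬ Disjoint e.1 Q)

/-- the `q`-subsets of the vertex set that are disjoint from `T`. -/
def qsets (q : ℕ) (T : Finset (Fin n)) : Finset (Finset (Fin n)) :=
  ((univ : Finset (Fin n)).powersetCard q).filter (fun Q => Disjoint Q T)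

/-- vertex smoothing: average over the `q`-sets `Q` (only those disjoint from `T` are kept; the
normalisation is always `1 / C(n,q)`) of "resample all slots meeting `Q`". -/
noncomputable def vsm (p : ℝ) (q : ℕ) (T : Finset (Fin n))
    (h : (HyperedgeSlot n r → Bool) → ℝ) : (HyperedgeSlot n r → Bool) → ℝ :=
  fun x => ((n.choose q : ℝ))⁻¹ * ∑ Q ∈ qsets q T, avg p (touch Q) h x

/-- the smoothed function `g`. -/
noncomputable def gS (p ρ : ℝ) (q : ℕ) (f : (HyperedgeSlot n r → Bool) → Bool) :
    (HyperedgeSlot n r → Bool) → ℝ :=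
  vsm p q ∅ (noise p ρ (ind f))

/-- `Y_e`: smoothed pivotality indicator of the slot `e`. -/
noncomputable def Ys (p ρ : ℝ) (q : ℕ) (f : (HyperedgeSlot n r → Bool) → Bool)
    (e : HyperedgeSlot n r) : (HyperedgeSlot n r → Bool) → ℝ :=
  vsm p q e.1 (noise p ρ (piv f e))

/-- `b_{u,e}`: conditional mean of `Y_e` given the hypergraph minus the vertex `u`. -/
noncomputable def bp (p ρ : ℝ) (q : ℕ) (f : (HyperedgeSlot n r → Bool) → Bool)
    (u : Fin n) (e : HyperedgeSlot n r) : (HyperedgeSlot n r → Bool) → ℝ :=
  avg p (star u) (Ys p ρ q f e)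

end hyper

end Crest.Agent.BK
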