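import Crest.Agent.BK_Fourier

/-!
# BK task A4: the derivative `der p e`, influences, and the truncated Poincare inequality
-/

set_option autoImplicit false
open Finset

namespace Crest.Agent.BK
variable {ι : Type*} [Fintype ι] [DecidableEq ι]

theorem noDep_der (p : ℝ) (e : ι) (h : (ι → Bool) → ℝ) : NoDep {e} (der p e h) := by
  intro x x' hx
  have key : ∀ b : Bool, Function.update x e b = Function.update x' e b := by
    intro b
    funext i
    by_cases hi : i = e
    · subst hi; simp
    · simp only [Function.update_of_ne hi]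
      exact hx i (by simpa using hi)
  simp only [der, key]

private theorem chi_update_of_not_mem (p : ℝ) {S : Finset ι} {e : ι} (he : e ∉ S) (x : ι → Bool)
    (b : Bool) : chi p S (Function.update x e b) = chi p S x := by
  unfold chi
  refine Finset.prod_congr rfl ?_
  intro i hi
  have : i ≠ e := fun h => he (h ▸ hi)
  rw [Function.update_of_ne this]

private theorem chi_eq_phi_mul_erase (p : ℝ) {S : Finset ι} {e : ι} (he : e ∈ S) (x : ι → Bool) :
    chi p S x = phi p (x e) * chi p (S.erase e) x := by
  have h1 : chi p (insert e (S.erase e)) x = phi p (x e) * chi p (S.erase e) x :=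
    chi_insert (Finset.notMem_erase e S) x
  rwa [Finset.insert_erase he] at h1

/-- `der e (chi S) = chi (S.erase e)` if `e ∈ S`, `0` otherwise (uses `phi_true_sub_false`). -/
theorem der_chi {p : ℝ} (hp0 : 0 < p) (hp1 : p < 1) (e : ι) (S : Finset ι) (x : ι → Bool) :
    der p e (chi p S) x = if e ∈ S then chi p (S.erase e) x else 0 := by
  by_cases he : e ∈ S
  · rw [if_pos he]
    unfold der
    rw [chi_eq_phi_mul_erase p he, chi_eq_phi_mul_erase p he (Function.update x e false),
      chi_update_of_not_mem p (Finset.notMem_erase e S),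
      chi_update_of_not_mem p (Finset.notMem_erase e S)]
    simp only [Function.update_self]
    have h1 := phi_true_sub_false hp0 hp1
    have h2 := (sd_pos hp0 hp1).ne'
    have h3 : sd p * (phi p true - phi p false) = 1 := by rw [h1]; field_simp
    calc sd p * (phi p true * chi p (S.erase e) x - phi p false * chi p (S.erase e) x)
        = (sd p * (phi p true - phi p false)) * chi p (S.erase e) x := by ring
      _ = chi p (S.erase e) x := by rw [h3, one_mul]
  · rw [if_neg he]
    unfold der
    rw [chi_update_of_not_mem p he, chi_update_of_not_mem p he]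
    ring

private theorem p_mul_phi_true {p : ℝ} (hp0 : 0 < p) (hp1 : p < 1) : p * phi p true = sd p := by
  have h2 := (sd_pos hp0 hp1).ne'
  have h3 := sd_sq hp0 hp1
  unfold phi
  simp only [if_true]
  field_simp
  nlinarith [h3]

private theorem q_mul_phi_false {p : ℝ} (hp0 : 0 < p) (hp1 : p < 1) :
    (1 - p) * phi p false = - sd p := by
  have h1 := phi_mean hp0 hp1
  have h2 := p_mul_phi_true hp0 hp1
  linarith

/-- Fourier coefficients of the derivative (expand `h` by `fourier_inversion`, use `der_chi`
and `coef_sum_chi`; or compute directly with `ex_split`). -/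
theorem coef_der {p : ℝ} (hp0 : 0 < p) (hp1 : p < 1) (e : ι) (h : (ι → Bool) → ℝ)
    (S : Finset ι) : coef p (der p e h) S = if e ∈ S then 0 else coef p h (insert e S) := by
  by_cases he : e ∈ S
  · rw [if_pos he]
    unfold coef
    have hF : NoDep {e} (fun x => der p e h x * chi p (S.erase e) x) := by
      intro x x' hx
      have h1 := noDep_der p e h x x' hx
      have h2 : chi p (S.erase e) x = chi p (S.erase e) x' :=
        noDep_chi p (by simp) x x' hx
      simp only [h1, h2]
    have h3 := ex_mul_of_noDep p e (phi p) _ hF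
    have h4 : (fun x => der p e h x * chi p S x)
        = fun x => phi p (x e) * (der p e h x * chi p (S.erase e) x) := by
      funext x
      rw [chi_eq_phi_mul_erase p he]; ring
    rw [h4, h3, phi_mean hp0 hp1, zero_mul]
  · rw [if_neg he]
    unfold coef
    rw [ex_split p e (fun x => h x * chi p (insert e S) x)]
    simp only [chi_insert he, Function.update_self, chi_update_of_not_mem p he]
    have e1 : ex p (fun x => h (Function.update x e true) * (phi p true * chi p S x))
        = phi p true * ex p (fun x => h (Function.update x e true) * chi p S x) := by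
      rw [← ex_const_mul]; congr 1; funext x; ring
    have e2 : ex p (fun x => h (Function.update x e false) * (phi p false * chi p S x))
        = phi p false * ex p (fun x => h (Function.update x e false) * chi p S x) := by
      rw [← ex_const_mul]; congr 1; funext x; ring
    have e3 : ex p (fun x => der p e h x * chi p S x)
        = sd p * (ex p (fun x => h (Function.update x e true) * chi p S x)
            - ex p (fun x => h (Function.update x e false) * chi p S x)) := by
      rw [← ex_sub, ← ex_const_mul]; congr 1; funext x; unfold der; ring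
    rw [e1, e2, e3]
    have a1 := p_mul_phi_true hp0 hp1
    have a2 := q_mul_phi_false hp0 hp1
    calc sd p * (ex p (fun x => h (Function.update x e true) * chi p S x)
            - ex p (fun x => h (Function.update x e false) * chi p S x))
        = (p * phi p true) * ex p (fun x => h (Function.update x e true) * chi p S x)
          + ((1 - p) * phi p false) * ex p (fun x => h (Function.update x e false) * chi p S x) := by
          rw [a1, a2]; ring
      _ = _ := by ring

theorem ex_der_sq {p : ℝ} (hp0 : 0 < p) (hp1 : p < 1) (e : ι) (h : (ι → Bool) → ℝ) :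
    ex p (fun x => der p e h x ^ 2)
      = ∑ S ∈ (univ : Finset (Finset ι)).filter (fun S => e ∈ S), coef p h S ^ 2 := by
  rw [parseval hp0 hp1]
  simp only [coef_der hp0 hp1]
  have h1 : ∑ S : Finset ι, (if e ∈ S then (0:ℝ) else coef p h (insert e S)) ^ 2
      = ∑ S ∈ (univ : Finset (Finset ι)).filter (fun S => e ∉ S), coef p h (insert e S) ^ 2 := by
    rw [Finset.sum_filter]
    refine Finset.sum_congr rfl ?_
    intro S _
    by_cases he : e ∈ S <;> simp [he]
  rw [h1]
  refine Finset.sum_nbij' (fun S => insert e S) (fun S => S.erase e) ?_ ?_ ?_ ?_ ?_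
  · intro S hS; simp
  · intro S hS; simp
  · intro S hS
    simp only [Finset.mem_filter, Finset.mem_univ, true_and] at hS
    exact Finset.erase_insert hS
  · intro S hS
    simp only [Finset.mem_filter, Finset.mem_univ, true_and] at hS
    exact Finset.insert_erase hS
  · intro S _; rfl

theorem sum_card_mul_coef_sq {p : ℝ} (hp0 : 0 < p) (hp1 : p < 1) (h : (ι → Bool) → ℝ) :
    ∑ S : Finset ι, (S.card : ℝ) * coef p h S ^ 2 = ∑ e, ex p (fun x => der p e h x ^ 2) := by
  simp only [ex_der_sq hp0 hp1, Finset.sum_filter]
  rw [Finset.sum_comm]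
  refine Finset.sum_congr rfl ?_
  intro S _
  rw [← Finset.sum_filter]
  rw [Finset.sum_const, nsmul_eq_mul]
  congr 2
  congr 1
  ext i; simp

theorem ind_sq (f : (ι → Bool) → Bool) (x : ι → Bool) : ind f x ^ 2 = ind f x := by
  unfold ind; split_ifs <;> simp

theorem ind_nonneg (f : (ι → Bool) → Bool) (x : ι → Bool) : 0 ≤ ind f x := by
  unfold ind; split_ifs <;> simp

theorem ind_le_one (f : (ι → Bool) → Bool) (x : ι → Bool) : ind f x ≤ 1 := by
  unfold ind; split_ifs <;> simp

theorem piv_nonneg (f : (ι → Bool) → Bool) (e : ι) (x : ι → Bool) : 0 ≤ piv f e x := by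
  unfold piv; split_ifs <;> simp

theorem piv_le_one (f : (ι → Bool) → Bool) (e : ι) (x : ι → Bool) : piv f e x ≤ 1 := by
  unfold piv; split_ifs <;> simp

theorem abs_der_ind {p : ℝ} (hp0 : 0 < p) (hp1 : p < 1) (f : (ι → Bool) → Bool) (e : ι)
    (x : ι → Bool) : |der p e (ind f) x| = sd p * piv f e x := by
  have hs := (sd_pos hp0 hp1).le
  unfold der ind piv
  rw [abs_mul, abs_of_nonneg hs]
  congr 1
  cases h1 : f (Function.update x e true) <;> cases h2 : f (Function.update x e false) <;> simp

theorem der_ind_sq {p : ℝ} (hp0 : 0 < p) (hp1 : p < 1) (f : (ι → Bool) → Bool) (e : ι)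
    (x : ι → Bool) : der p e (ind f) x ^ 2 = p * (1 - p) * piv f e x := by
  rw [← sq_abs, abs_der_ind hp0 hp1, mul_pow, sd_sq hp0 hp1]
  congr 1
  unfold piv; split_ifs <;> simp

/-- `∑_S |S| fhat(S)^2 = p(1-p) I_p(f)`. -/
theorem sum_card_mul_coef_sq_ind {p : ℝ} (hp0 : 0 < p) (hp1 : p < 1) (f : (ι → Bool) → Bool) :
    ∑ S : Finset ι, (S.card : ℝ) * coef p (ind f) S ^ 2 = p * (1 - p) * infl p f := by
  rw [sum_card_mul_coef_sq hp0 hp1]
  unfold infl
  rw [Finset.mul_sum]
  refine Finset.sum_congr rfl ?_
  intro e _
  simp only [der_ind_sq hp0 hp1]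
  rw [ex_const_mul]

/-- variance of a Boolean function. -/
theorem var_ind {p : ℝ} (hp0 : 0 < p) (hp1 : p < 1) (f : (ι → Bool) → Bool) :
    ex p (ind f) * (1 - ex p (ind f))
      = ∑ S ∈ (univ : Finset (Finset ι)).filter (fun S => S.Nonempty), coef p (ind f) S ^ 2 := by
  rw [← var_eq_sum_coef hp0 hp1]
  simp only [ind_sq]
  ring

/-- Truncated Poincare inequality: `Var f ≤ W^{[1,m]}(f) + p(1-p) I(f)/(m+1)`.
(sets with `|S| ≥ m+1` satisfy `1 ≤ |S|/(m+1)`.) -/
theorem var_le_low_add {p : ℝ} (hp0 : 0 < p) (hp1 : p < 1) (f : (ι → Bool) → Bool) (m : ℕ) :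
    ex p (ind f) * (1 - ex p (ind f))
      ≤ ∑ S ∈ (univ : Finset (Finset ι)).filter (fun S => S.Nonempty ∧ S.card ≤ m),
          coef p (ind f) S ^ 2
        + p * (1 - p) * infl p f / (m + 1) := by
  rw [var_ind hp0 hp1, ← sum_card_mul_coef_sq_ind hp0 hp1, Finset.sum_div,
    Finset.sum_filter, Finset.sum_filter, ← Finset.sum_add_distrib]
  refine Finset.sum_le_sum ?_
  intro S _
  have hm : (0:ℝ) < (m:ℝ) + 1 := by positivity
  have hc : 0 ≤ coef p (ind f) S ^ 2 := sq_nonneg _
  have hq : 0 ≤ (S.card : ℝ) * coef p (ind f) S ^ 2 / ((m:ℝ) + 1) := by positivity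
  by_cases h1 : S.Nonempty
  · by_cases h2 : S.card ≤ m
    · simp only [h1, h2, and_self, if_true]
      linarith
    · simp only [h1, h2, and_false, if_true, if_false, zero_add]
      have h3 : (m:ℝ) + 1 ≤ (S.card : ℝ) := by
        have : m + 1 ≤ S.card := by omega
        exact_mod_cast this
      rw [le_div_iff₀ hm]
      nlinarith
  · simp only [h1, false_and, if_false, zero_add]
    exact hq

/-- Poincare inequality (`m = 0`). -/
theorem poincare {p : ℝ} (hp0 : 0 < p) (hp1 : p < 1) (f : (ι → Bool) → Bool) :
    ex p (ind f) * (1 - ex p (ind f)) ≤ p * (1 - p) * infl p f := by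
  have h := var_le_low_add hp0 hp1 f 0
  have h0 : (univ : Finset (Finset ι)).filter (fun S => S.Nonempty ∧ S.card ≤ 0) = ∅ := by
    ext S
    simp only [Finset.mem_filter, Finset.mem_univ, true_and, Finset.notMem_empty, iff_false,
      not_and, not_le]
    intro hS
    exact Finset.card_pos.mpr hS
  rw [h0] at h
  simpa using h

theorem infl_nonneg {p : ℝ} (hp0 : 0 ≤ p) (hp1 : p ≤ 1) (f : (ι → Bool) → Bool) :
    0 ≤ infl p f := by
  unfold infl
  exact Finset.sum_nonneg (fun e _ => ex_nonneg hp0 hp1 (fun x => piv_nonneg f e x))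

end Crest.Agent.BK
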