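import Crest.Agent.BK_Avg

/-!
# BK task B1: equivariance under relabelling of the vertices
`relabel σ x = fun e => x (relabelSlot σ e)`; `relabelSlot σ` is a bijection of the slots
(inverse `relabelSlot σ⁻¹`), `x ↦ relabel σ x` a bijection of the configurations (use
`Equiv.sum_comp` / `Fintype.sum_bijective`, `Fintype.prod_bijective`).
-/

set_option autoImplicit false
open Finset
open Crest.CombinatoricsR.HypergraphCube

namespace Crest.Agent.BK
variable {n r : ℕ}

theorem relabelSlot_val (σ : Equiv.Perm (Fin n)) (e : HyperedgeSlot n r) :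
    (relabelSlot σ e).1 = e.1.map σ.toEmbedding := rfl

theorem mem_relabelSlot (σ : Equiv.Perm (Fin n)) (e : HyperedgeSlot n r) (v : Fin n) :
    σ v ∈ (relabelSlot σ e).1 ↔ v ∈ e.1 := by
  rw [relabelSlot_val]
  exact Finset.mem_map' σ.toEmbedding

theorem relabelSlot_mul (τ σ : Equiv.Perm (Fin n)) (e : HyperedgeSlot n r) :
    relabelSlot τ (relabelSlot σ e) = relabelSlot (τ * σ) e := by
  apply Subtype.ext
  simp only [relabelSlot_val, Finset.map_map]
  rfl

theorem relabelSlot_one (e : HyperedgeSlot n r) : relabelSlot (1 : Equiv.Perm (Fin n)) e = e := by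
  apply Subtype.ext
  rw [relabelSlot_val]
  ext v
  simp only [Finset.mem_map, Equiv.coe_toEmbedding, Equiv.Perm.one_apply, exists_eq_right]

theorem relabelSlot_inv_left (σ : Equiv.Perm (Fin n)) (e : HyperedgeSlot n r) :
    relabelSlot σ⁻¹ (relabelSlot σ e) = e := by
  rw [relabelSlot_mul, inv_mul_cancel, relabelSlot_one]

theorem relabelSlot_inv_right (σ : Equiv.Perm (Fin n)) (e : HyperedgeSlot n r) :
    relabelSlot σ (relabelSlot σ⁻¹ e) = e := by
  rw [relabelSlot_mul, mul_inv_cancel, relabelSlot_one]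

theorem relabelSlot_bijective (σ : Equiv.Perm (Fin n)) :
    Function.Bijective (relabelSlot σ : HyperedgeSlot n r → HyperedgeSlot n r) := by
  rw [Function.bijective_iff_has_inverse]
  exact ⟨relabelSlot σ⁻¹, relabelSlot_inv_left σ, relabelSlot_inv_right σ⟩

theorem relabel_bijective (σ : Equiv.Perm (Fin n)) :
    Function.Bijective (relabel σ : (HyperedgeSlot n r → Bool) → (HyperedgeSlot n r → Bool)) := by
  rw [Function.bijective_iff_has_inverse]
  refine ⟨relabel σ⁻¹, ?_, ?_⟩
  · intro x
    funext e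
    simp only [relabel, relabelSlot_inv_right]
  · intro x
    funext e
    simp only [relabel, relabelSlot_inv_left]

/-- a slot avoiding `u` and `u'` is fixed by the transposition. -/
theorem relabelSlot_swap_of_not_mem {u u' : Fin n} {e : HyperedgeSlot n r}
    (hu : u ∉ e.1) (hu' : u' ∉ e.1) : relabelSlot (Equiv.swap u u') e = e := by
  apply Subtype.ext
  rw [relabelSlot_val]
  ext v
  simp only [Finset.mem_map, Equiv.coe_toEmbedding]
  constructor
  · rintro ⟨a, ha, rfl⟩
    have h1 : a ≠ u := fun h => hu (h ▸ ha)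
    have h2 : a ≠ u' := fun h => hu' (h ▸ ha)
    rwa [Equiv.swap_apply_of_ne_of_ne h1 h2]
  · intro hv
    have h1 : v ≠ u := fun h => hu (h ▸ hv)
    have h2 : v ≠ u' := fun h => hu' (h ▸ hv)
    exact ⟨v, hv, Equiv.swap_apply_of_ne_of_ne h1 h2⟩

/-- vertex set of the swapped slot: `e - u + u'`. -/
theorem relabelSlot_swap_val {u u' : Fin n} {e : HyperedgeSlot n r}
    (hu : u ∈ e.1) (hu' : u' ∉ e.1) :
    (relabelSlot (Equiv.swap u u') e).1 = insert u' (e.1.erase u) := by
  rw [relabelSlot_val]
  ext v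
  simp only [Finset.mem_map, Equiv.coe_toEmbedding, Finset.mem_insert, Finset.mem_erase]
  constructor
  · rintro ⟨a, ha, rfl⟩
    by_cases h1 : a = u
    · left; rw [h1, Equiv.swap_apply_left]
    · have h2 : a ≠ u' := fun h => hu' (h ▸ ha)
      right
      rw [Equiv.swap_apply_of_ne_of_ne h1 h2]
      exact ⟨h1, ha⟩
  · rintro (rfl | ⟨h1, hv⟩)
    · exact ⟨u, hu, Equiv.swap_apply_left _ _⟩
    · have h2 : v ≠ u' := fun h => hu' (h ▸ hv)
      exact ⟨v, hv, Equiv.swap_apply_of_ne_of_ne h1 h2⟩

theorem relabelSlot_swap_swap (u u' : Fin n) (e : HyperedgeSlot n r) :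
    relabelSlot (Equiv.swap u u') (relabelSlot (Equiv.swap u u') e) = e := by
  rw [relabelSlot_mul, Equiv.swap_mul_self, relabelSlot_one]

theorem wt_relabel (p : ℝ) (σ : Equiv.Perm (Fin n)) (x : HyperedgeSlot n r → Bool) :
    wt p (relabel σ x) = wt p x := by
  unfold wt relabel
  exact (relabelSlot_bijective σ).prod_comp (fun e => if x e then p else 1 - p)

theorem ex_comp_relabel (p : ℝ) (σ : Equiv.Perm (Fin n)) (h : (HyperedgeSlot n r → Bool) → ℝ) :
    ex p (fun x => h (relabel σ x)) = ex p h := by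
  unfold ex
  rw [← (relabel_bijective σ).sum_comp (fun x => wt p x * h x)]
  apply Finset.sum_congr rfl
  intro x _
  rw [wt_relabel]

theorem mix_relabel (σ : Equiv.Perm (Fin n)) (A : Finset (HyperedgeSlot n r))
    (y x : HyperedgeSlot n r → Bool) :
    mix A (relabel σ y) (relabel σ x) = relabel σ (mix (A.image (relabelSlot σ)) y x) := by
  funext e
  simp only [mix, relabel, (relabelSlot_bijective σ).injective.mem_finset_image]

theorem avg_relabel (p : ℝ) (σ : Equiv.Perm (Fin n)) (A : Finset (HyperedgeSlot n r))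
    (h : (HyperedgeSlot n r → Bool) → ℝ) (x : HyperedgeSlot n r → Bool) :
    avg p A h (relabel σ x) = avg p (A.image (relabelSlot σ)) (fun z => h (relabel σ z)) x := by
  unfold avg
  rw [← (relabel_bijective σ).sum_comp (fun y => wt p y * h (mix A y (relabel σ x)))]
  apply Finset.sum_congr rfl
  intro y _
  rw [wt_relabel, mix_relabel]

theorem noise_relabel (p ρ : ℝ) (σ : Equiv.Perm (Fin n))
    (h : (HyperedgeSlot n r → Bool) → ℝ) (x : HyperedgeSlot n r → Bool) :
    noise p ρ h (relabel σ x) = noise p ρ (fun z => h (relabel σ z)) x := by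
  unfold noise
  rw [← (relabel_bijective σ).sum_comp
    (fun y => (∏ i, ker p ρ (relabel σ x i) (y i)) * h y)]
  apply Finset.sum_congr rfl
  intro y _
  congr 1
  exact (relabelSlot_bijective σ).prod_comp (fun i => ker p ρ (x i) (y i))

theorem update_relabel (σ : Equiv.Perm (Fin n)) (x : HyperedgeSlot n r → Bool)
    (e : HyperedgeSlot n r) (b : Bool) :
    Function.update (relabel σ x) e b = relabel σ (Function.update x (relabelSlot σ e) b) := by
  funext e'
  by_cases h : e' = e
  · subst h
    simp [relabel]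
  · have h' : relabelSlot σ e' ≠ relabelSlot σ e :=
      fun hh => h ((relabelSlot_bijective σ).injective hh)
    simp [relabel, Function.update_of_ne h, Function.update_of_ne h']

theorem piv_relabel {f : (HyperedgeSlot n r → Bool) → Bool} (hf : IsSymmetric f)
    (σ : Equiv.Perm (Fin n)) (e : HyperedgeSlot n r) (x : HyperedgeSlot n r → Bool) :
    piv f e (relabel σ x) = piv f (relabelSlot σ e) x := by
  unfold piv
  rw [update_relabel, update_relabel, hf σ, hf σ]

theorem image_star (σ : Equiv.Perm (Fin n)) (u : Fin n) :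
    (star u : Finset (HyperedgeSlot n r)).image (relabelSlot σ) = star (σ u) := by
  ext e'
  simp only [star, Finset.mem_image, Finset.mem_filter, Finset.mem_univ, true_and]
  constructor
  · rintro ⟨e, he, rfl⟩
    exact (mem_relabelSlot σ e u).2 he
  · intro he'
    refine ⟨relabelSlot σ⁻¹ e', ?_, relabelSlot_inv_right σ e'⟩
    rw [← mem_relabelSlot σ, relabelSlot_inv_right]
    exact he'

theorem disjoint_relabelSlot (σ : Equiv.Perm (Fin n)) (e : HyperedgeSlot n r)
    (Q : Finset (Fin n)) :
    Disjoint (relabelSlot σ e).1 (Q.map σ.toEmbedding) ↔ Disjoint e.1 Q := by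
  rw [relabelSlot_val]
  exact Finset.disjoint_map σ.toEmbedding

theorem image_touch (σ : Equiv.Perm (Fin n)) (Q : Finset (Fin n)) :
    (touch Q : Finset (HyperedgeSlot n r)).image (relabelSlot σ) = touch (Q.map σ.toEmbedding) := by
  ext e'
  simp only [touch, Finset.mem_image, Finset.mem_filter, Finset.mem_univ, true_and]
  constructor
  · rintro ⟨e, he, rfl⟩
    rwa [disjoint_relabelSlot]
  · intro he'
    refine ⟨relabelSlot σ⁻¹ e', ?_, relabelSlot_inv_right σ e'⟩
    rw [← disjoint_relabelSlot σ, relabelSlot_inv_right]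
    exact he'

/-- `Q ↦ σ Q` maps `qsets q T` bijectively onto `qsets q (σ T)`. -/
theorem sum_qsets_map (σ : Equiv.Perm (Fin n)) (q : ℕ) (T : Finset (Fin n))
    (F : Finset (Fin n) → ℝ) :
    ∑ Q ∈ qsets q T, F (Q.map σ.toEmbedding) = ∑ Q ∈ qsets q (T.map σ.toEmbedding), F Q := by
  apply Finset.sum_bij (fun Q _ => Q.map σ.toEmbedding)
  · intro Q hQ
    simp only [qsets, Finset.mem_filter, Finset.mem_powersetCard, Finset.subset_univ, true_and]
      at hQ ⊢
    exact ⟨by rw [Finset.card_map]; exact hQ.1, (Finset.disjoint_map σ.toEmbedding).2 hQ.2⟩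
  · intro Q _ Q' _ h
    exact Finset.map_injective σ.toEmbedding h
  · intro Q hQ
    simp only [qsets, Finset.mem_filter, Finset.mem_powersetCard, Finset.subset_univ, true_and]
      at hQ
    have hmm : (Q.map σ⁻¹.toEmbedding).map σ.toEmbedding = Q := by
      ext v
      simp only [Finset.mem_map, Equiv.coe_toEmbedding]
      constructor
      · rintro ⟨a, ⟨b, hb, rfl⟩, rfl⟩
        have hb' : σ (σ⁻¹ b) = b := σ.apply_symm_apply b
        rwa [hb']
      · intro hv
        exact ⟨σ⁻¹ v, ⟨v, hv, rfl⟩, σ.apply_symm_apply v⟩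
    refine ⟨Q.map σ⁻¹.toEmbedding, ?_, hmm⟩
    simp only [qsets, Finset.mem_filter, Finset.mem_powersetCard, Finset.subset_univ, true_and]
    refine ⟨by rw [Finset.card_map]; exact hQ.1, ?_⟩
    rw [← Finset.disjoint_map σ.toEmbedding, hmm]
    exact hQ.2
  · intro Q _
    rfl

theorem noise_piv_relabel {f : (HyperedgeSlot n r → Bool) → Bool} (hf : IsSymmetric f) (p ρ : ℝ)
    (σ : Equiv.Perm (Fin n)) (e : HyperedgeSlot n r) :
    (fun z => noise p ρ (piv f e) (relabel σ z)) = noise p ρ (piv f (relabelSlot σ e)) := by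
  funext z
  rw [noise_relabel]
  have h : (fun w => piv f e (relabel σ w)) = piv f (relabelSlot σ e) := by
    funext w
    exact piv_relabel hf σ e w
  rw [h]

theorem Ys_relabel {f : (HyperedgeSlot n r → Bool) → Bool} (hf : IsSymmetric f) (p ρ : ℝ) (q : ℕ)
    (σ : Equiv.Perm (Fin n)) (e : HyperedgeSlot n r) (x : HyperedgeSlot n r → Bool) :
    Ys p ρ q f e (relabel σ x) = Ys p ρ q f (relabelSlot σ e) x := by
  have key : ∑ Q ∈ qsets q e.1, avg p (touch Q) (noise p ρ (piv f e)) (relabel σ x)
      = ∑ Q ∈ qsets q (relabelSlot σ e).1,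
          avg p (touch Q) (noise p ρ (piv f (relabelSlot σ e))) x := by
    rw [relabelSlot_val, ← sum_qsets_map σ q e.1
      (fun Q => avg p (touch Q) (noise p ρ (piv f (relabelSlot σ e))) x)]
    apply Finset.sum_congr rfl
    intro Q _
    rw [avg_relabel, image_touch, noise_piv_relabel hf]
  unfold Ys vsm
  rw [key]

theorem bp_relabel {f : (HyperedgeSlot n r → Bool) → Bool} (hf : IsSymmetric f) (p ρ : ℝ) (q : ℕ)
    (σ : Equiv.Perm (Fin n)) (u : Fin n) (e : HyperedgeSlot n r) (x : HyperedgeSlot n r → Bool) :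
    bp p ρ q f u e (relabel σ x) = bp p ρ q f (σ u) (relabelSlot σ e) x := by
  have h : (fun z => Ys p ρ q f e (relabel σ z)) = Ys p ρ q f (relabelSlot σ e) := by
    funext z
    exact Ys_relabel hf p ρ q σ e z
  unfold bp
  rw [avg_relabel, image_star, h]

end Crest.Agent.BK
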