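import Crest.Agent.BK_Avg

/-!
# BK task A3: p-biased Fourier analysis on `ι → Bool`
`0 < p < 1` throughout. One-coin facts: `p*phi true + (1-p)*phi false = 0`,
`p*phi true^2 + (1-p)*phi false^2 = 1`, and `1 + phi a * phi b = (if a = b then 1 else 0)/(if a then p else 1-p)`.
* orthonormality: write `wt p x * chi S x * chi T x = ∏_i G i (x i)` and use `sum_prod_eq`.
* inversion: `(if y = x then 1 else 0) = wt p x * ∏_i (1 + phi (x i) * phi (y i))` and
  `Finset.prod_one_add` / `Finset.prod_add` : `∏_i (1 + a i) = ∑_S ∏_{i ∈ S} a i`.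
-/

set_option autoImplicit false
set_option linter.unusedSectionVars false
open Finset

namespace Crest.Agent.BK
variable {ι : Type*} [Fintype ι] [DecidableEq ι]

theorem sd_pos {p : ℝ} (hp0 : 0 < p) (hp1 : p < 1) : 0 < sd p := by
  unfold sd
  exact Real.sqrt_pos.mpr (mul_pos hp0 (by linarith))

theorem sd_sq {p : ℝ} (hp0 : 0 < p) (hp1 : p < 1) : sd p ^ 2 = p * (1 - p) := by
  unfold sd
  exact Real.sq_sqrt (mul_nonneg hp0.le (by linarith))

theorem phi_mean {p : ℝ} (hp0 : 0 < p) (hp1 : p < 1) :
    p * phi p true + (1 - p) * phi p false = 0 := by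
  have hs := (sd_pos hp0 hp1).ne'
  simp only [phi, if_true, Bool.false_eq_true, if_false]
  field_simp
  ring

theorem phi_sq_mean {p : ℝ} (hp0 : 0 < p) (hp1 : p < 1) :
    p * phi p true ^ 2 + (1 - p) * phi p false ^ 2 = 1 := by
  have hs2 := sd_sq hp0 hp1
  have hp : p ≠ 0 := hp0.ne'
  have h1p : (1 - p) ≠ 0 := by linarith
  simp only [phi, if_true, Bool.false_eq_true, if_false]
  rw [div_pow, div_pow, hs2]
  field_simp
  ring

/-- `phi true - phi false = 1 / sd`. -/
theorem phi_true_sub_false {p : ℝ} (hp0 : 0 < p) (hp1 : p < 1) :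
    phi p true - phi p false = 1 / sd p := by
  have hs := (sd_pos hp0 hp1).ne'
  simp only [phi, if_true, Bool.false_eq_true, if_false]
  field_simp
  ring

theorem chi_empty (p : ℝ) (x : ι → Bool) : chi p (∅ : Finset ι) x = 1 := by
  simp [chi]

theorem chi_union {p : ℝ} {S T : Finset ι} (hST : Disjoint S T) (x : ι → Bool) :
    chi p (S ∪ T) x = chi p S x * chi p T x := by
  unfold chi
  exact Finset.prod_union hST

theorem chi_insert {p : ℝ} {S : Finset ι} {i : ι} (hi : i ∉ S) (x : ι → Bool) :
    chi p (insert i S) x = phi p (x i) * chi p S x := by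
  unfold chi
  exact Finset.prod_insert hi

/-- `chi S` only depends on the coordinates of `S`. -/
theorem noDep_chi (p : ℝ) {S A : Finset ι} (h : Disjoint S A) : NoDep A (chi p S) := by
  intro x x' hx
  unfold chi
  refine Finset.prod_congr rfl (fun i hi => ?_)
  rw [hx i (Finset.disjoint_left.mp h hi)]

theorem chi_mix (p : ℝ) (A S : Finset ι) (y x : ι → Bool) :
    chi p S (mix A y x) = chi p (S ∩ A) y * chi p (S \ A) x := by
  unfold chi
  rw [← Finset.prod_inter_mul_prod_sdiff S A]
  congr 1
  · refine Finset.prod_congr rfl (fun i hi => ?_)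
    rw [mix_apply_mem y x (Finset.mem_inter.mp hi).2]
  · refine Finset.prod_congr rfl (fun i hi => ?_)
    rw [mix_apply_not_mem y x (Finset.mem_sdiff.mp hi).2]

private theorem chi_eq_prod_univ (p : ℝ) (S : Finset ι) (x : ι → Bool) :
    chi p S x = ∏ i, (if i ∈ S then phi p (x i) else 1) := by
  unfold chi
  rw [Finset.prod_ite_mem, Finset.univ_inter]

/-- orthonormality. -/
theorem ex_chi_mul_chi {p : ℝ} (hp0 : 0 < p) (hp1 : p < 1) (S T : Finset ι) :
    ex p (fun x => chi p S x * chi p T x) = if S = T then 1 else 0 := by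
  let G : ι → Bool → ℝ := fun i b => (if b then p else 1 - p) *
          ((if i ∈ S then phi p b else 1) * (if i ∈ T then phi p b else 1))
  have h1 : ex p (fun x => chi p S x * chi p T x) = ∑ x : ι → Bool, ∏ i, G i (x i) := by
    unfold ex wt
    refine Finset.sum_congr rfl (fun x _ => ?_)
    show (∏ i, if x i then p else 1 - p) * (chi p S x * chi p T x) = _
    rw [chi_eq_prod_univ, chi_eq_prod_univ, ← Finset.prod_mul_distrib, ← Finset.prod_mul_distrib]
  rw [h1, sum_prod_eq G]
  have hm := phi_mean hp0 hp1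
  have hq := phi_sq_mean hp0 hp1
  split_ifs with hST
  · subst hST
    refine Finset.prod_eq_one (fun i _ => ?_)
    by_cases hi : i ∈ S
    · simp only [G, hi, if_true, Bool.false_eq_true, if_false]
      nlinarith [hq]
    · simp only [G, hi, if_true, Bool.false_eq_true, if_false]
      ring
  · have : ∃ i, ¬ (i ∈ S ↔ i ∈ T) := by
      by_contra hcon
      simp only [not_exists, not_not] at hcon
      exact hST (Finset.ext hcon)
    obtain ⟨i, hi⟩ := this
    refine Finset.prod_eq_zero (Finset.mem_univ i) ?_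
    by_cases hS : i ∈ S
    · have hT : i ∉ T := fun hT => hi ⟨fun _ => hT, fun _ => hS⟩
      simp only [G, hS, hT, if_true, Bool.false_eq_true, if_false]
      linarith [hm]
    · have hT : i ∈ T := by
        by_contra hT
        exact hi ⟨fun h => absurd h hS, fun h => absurd h hT⟩
      simp only [G, hS, hT, if_true, Bool.false_eq_true, if_false]
      linarith [hm]

theorem ex_chi {p : ℝ} (hp0 : 0 < p) (hp1 : p < 1) (S : Finset ι) :
    ex p (chi p S) = if S = ∅ then 1 else 0 := by
  have h := ex_chi_mul_chi hp0 hp1 S (∅ : Finset ι)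
  simpa [chi_empty] using h

private theorem one_coin_delta {p : ℝ} (hp0 : 0 < p) (hp1 : p < 1) (a b : Bool) :
    (if a then p else 1 - p) * (1 + phi p a * phi p b) = if a = b then 1 else 0 := by
  have hs2 := sd_sq hp0 hp1
  have hs := (sd_pos hp0 hp1).ne'
  have hne : p * (1 - p) ≠ 0 := (mul_pos hp0 (by linarith)).ne'
  have key : ∀ u v : ℝ, (u / sd p) * (v / sd p) = u * v / (p * (1 - p)) := by
    intro u v
    rw [div_mul_div_comm, ← hs2, pow_two]
  have h1p : (1 - p) ≠ 0 := by linarith
  cases a <;> cases b <;>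
    simp only [phi, if_true, Bool.false_eq_true, if_false, key, reduceCtorEq] <;>
    field_simp <;> ring

private theorem delta_eq {p : ℝ} (hp0 : 0 < p) (hp1 : p < 1) (y x : ι → Bool) :
    wt p y * ∑ S : Finset ι, chi p S y * chi p S x = if y = x then 1 else 0 := by
  have h1 : ∑ S : Finset ι, chi p S y * chi p S x = ∏ i, (1 + phi p (y i) * phi p (x i)) := by
    rw [Finset.prod_one_add, Finset.powerset_univ]
    refine Finset.sum_congr rfl (fun S _ => ?_)
    unfold chi
    rw [Finset.prod_mul_distrib]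
  rw [h1]
  unfold wt
  rw [← Finset.prod_mul_distrib]
  have h2 : ∀ i, (if y i then p else 1 - p) * (1 + phi p (y i) * phi p (x i))
      = if y i = x i then 1 else 0 := fun i => one_coin_delta hp0 hp1 (y i) (x i)
  rw [Finset.prod_congr rfl (fun i _ => h2 i)]
  split_ifs with hyx
  · subst hyx
    simp
  · have : ∃ i, y i ≠ x i := by
      by_contra hcon
      simp only [not_exists, not_not] at hcon
      exact hyx (funext hcon)
    obtain ⟨i, hi⟩ := this
    exact Finset.prod_eq_zero (Finset.mem_univ i) (by simp [hi])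

/-- Fourier inversion. -/
theorem fourier_inversion {p : ℝ} (hp0 : 0 < p) (hp1 : p < 1) (h : (ι → Bool) → ℝ)
    (x : ι → Bool) : h x = ∑ S : Finset ι, coef p h S * chi p S x := by
  have h1 : ∑ S : Finset ι, coef p h S * chi p S x
      = ∑ y : ι → Bool, h y * (wt p y * ∑ S : Finset ι, chi p S y * chi p S x) := by
    unfold coef ex
    simp only [Finset.sum_mul, Finset.mul_sum]
    rw [Finset.sum_comm]
    refine Finset.sum_congr rfl (fun y _ => Finset.sum_congr rfl (fun S _ => ?_))
    ring
  rw [h1]
  simp only [delta_eq hp0 hp1]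
  simp

/-- Plancherel. -/
theorem plancherel {p : ℝ} (hp0 : 0 < p) (hp1 : p < 1) (h k : (ι → Bool) → ℝ) :
    ex p (fun x => h x * k x) = ∑ S : Finset ι, coef p h S * coef p k S := by
  have h1 : (fun x => h x * k x)
      = fun x => ∑ S : Finset ι, coef p h S * (k x * chi p S x) := by
    funext x
    conv_lhs => rw [fourier_inversion hp0 hp1 h x]
    rw [Finset.sum_mul]
    refine Finset.sum_congr rfl (fun S _ => ?_)
    ring
  rw [h1, ex_sum]
  refine Finset.sum_congr rfl (fun S _ => ?_)
  rw [ex_const_mul]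
  rfl

/-- Parseval. -/
theorem parseval {p : ℝ} (hp0 : 0 < p) (hp1 : p < 1) (h : (ι → Bool) → ℝ) :
    ex p (fun x => h x ^ 2) = ∑ S : Finset ι, coef p h S ^ 2 := by
  have := plancherel hp0 hp1 h h
  simpa only [pow_two] using this

theorem coef_empty (p : ℝ) (h : (ι → Bool) → ℝ) : coef p h ∅ = ex p h := by
  unfold coef
  simp [chi_empty]

theorem coef_add (p : ℝ) (h k : (ι → Bool) → ℝ) (S : Finset ι) :
    coef p (fun x => h x + k x) S = coef p h S + coef p k S := by
  unfold coef
  rw [← ex_add]
  congr 1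
  funext x
  ring

theorem coef_const_mul (p c : ℝ) (h : (ι → Bool) → ℝ) (S : Finset ι) :
    coef p (fun x => c * h x) S = c * coef p h S := by
  unfold coef
  rw [← ex_const_mul]
  congr 1
  funext x
  ring

theorem coef_sum {α : Type*} (p : ℝ) (s : Finset α) (h : α → (ι → Bool) → ℝ) (S : Finset ι) :
    coef p (fun x => ∑ a ∈ s, h a x) S = ∑ a ∈ s, coef p (h a) S := by
  unfold coef
  rw [← ex_sum]
  congr 1
  funext x
  rw [Finset.sum_mul]

/-- coefficients of a character sum. -/
theorem coef_sum_chi {p : ℝ} (hp0 : 0 < p) (hp1 : p < 1) (𝒮 : Finset (Finset ι))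
    (c : Finset ι → ℝ) (T : Finset ι) :
    coef p (fun x => ∑ S ∈ 𝒮, c S * chi p S x) T = if T ∈ 𝒮 then c T else 0 := by
  rw [coef_sum]
  have h1 : ∀ S ∈ 𝒮, coef p (fun x => c S * chi p S x) T = if S = T then c S else 0 := by
    intro S _
    rw [coef_const_mul]
    unfold coef
    rw [ex_chi_mul_chi hp0 hp1]
    split_ifs <;> simp
  rw [Finset.sum_congr rfl h1, Finset.sum_ite_eq' 𝒮 T c]

/-- `coef (h * chi S) T = coef h (S ∪ T)` for disjoint `S`, `T`. -/
theorem coef_mul_chi {p : ℝ} (h : (ι → Bool) → ℝ) {S T : Finset ι} (hST : Disjoint S T) :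
    coef p (fun x => h x * chi p S x) T = coef p h (S ∪ T) := by
  unfold coef
  congr 1
  funext x
  rw [chi_union hST, mul_assoc]

/-- a function that does not depend on `A` has no coefficient on sets meeting `A`. -/
theorem coef_eq_zero_of_noDep {p : ℝ} (hp0 : 0 < p) (hp1 : p < 1) {A : Finset ι}
    {h : (ι → Bool) → ℝ} (hA : NoDep A h) {S : Finset ι} (hS : ¬ Disjoint S A) :
    coef p h S = 0 := by
  obtain ⟨i, hiS, hiA⟩ := Finset.not_disjoint_iff.mp hS
  have hF : NoDep {i} (fun x => h x * chi p (S.erase i) x) := by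
    intro x x' hx
    have e1 : h x = h x' := by
      refine hA x x' (fun j hj => hx j ?_)
      intro hji
      rw [Finset.mem_singleton] at hji
      exact hj (hji ▸ hiA)
    have e2 : chi p (S.erase i) x = chi p (S.erase i) x' := by
      refine noDep_chi p (A := {i}) ?_ x x' hx
      rw [Finset.disjoint_singleton_right]
      exact Finset.notMem_erase i S
    show h x * chi p (S.erase i) x = h x' * chi p (S.erase i) x'
    rw [e1, e2]
  have h1 : coef p h S = ex p (fun x => phi p (x i) * (h x * chi p (S.erase i) x)) := by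
    unfold coef
    congr 1
    funext x
    conv_lhs => rw [← Finset.insert_erase hiS, chi_insert (Finset.notMem_erase i S)]
    ring
  rw [h1, ex_mul_of_noDep p i (phi p) _ hF, phi_mean hp0 hp1, zero_mul]

/-- multiplier of `avg p A`. (`avg A` is self-adjoint: `ex_mul_avg`; `avg A (chi S) = chi S` if `S`
is disjoint from `A`, `= 0` otherwise. Or: expand `h` by `fourier_inversion`.) -/
theorem coef_avg {p : ℝ} (hp0 : 0 < p) (hp1 : p < 1) (A : Finset ι) (h : (ι → Bool) → ℝ)
    (S : Finset ι) : coef p (avg p A h) S = if Disjoint S A then coef p h S else 0 := by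
  split_ifs with hS
  · have := ex_mul_avg p A (chi p S) h (noDep_chi p hS)
    unfold coef
    simpa only [mul_comm] using this
  · exact coef_eq_zero_of_noDep hp0 hp1 (noDep_avg p A h) hS

/-- variance. -/
theorem var_eq_sum_coef {p : ℝ} (hp0 : 0 < p) (hp1 : p < 1) (h : (ι → Bool) → ℝ) :
    ex p (fun x => h x ^ 2) - (ex p h) ^ 2
      = ∑ S ∈ (univ : Finset (Finset ι)).filter (fun S => S.Nonempty), coef p h S ^ 2 := by
  rw [parseval hp0 hp1, ← coef_empty,
    ← Finset.sum_filter_add_sum_filter_not (univ : Finset (Finset ι)) (fun S => S.Nonempty)]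
  have h1 : (univ : Finset (Finset ι)).filter (fun S => ¬ S.Nonempty) = {∅} := by
    ext S
    simp [Finset.not_nonempty_iff_eq_empty]
  rw [h1, Finset.sum_singleton]
  ring

end Crest.Agent.BK
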