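import Crest.Agent.BK_Noise

/-!
# BK task A6: pointwise gradient bound for `T_ρ F`  (Bessel inequality under the law of the noisy copy)

Fix `x`. Let `κ_i b := ker p ρ (x i) b > 0` (`ρ < 1`, `0 < p < 1`), `ν y := ∏_i κ_i (y i)` (a product
probability weight), `a_e := der p e (noise p ρ F) x`.
1. `ker p ρ true b - ker p ρ false b = ρ * σ b`, `σ true = 1`, `σ false = -1`. Hence with
   `ℓ_e (b) := ρ * σ b / κ_e b` :  `a_e = sd p * ∑_y ν y * ℓ_e (y e) * F y`.
   (in `noise .. (update x e true) - noise .. (update x e false)` only the factor `i = e` changes.)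
2. `∑_b κ_e b * ℓ_e b = 0`, `∑_b κ_e b * ℓ_e b ^2 = ρ^2 (1/κ_e true + 1/κ_e false) = ρ^2/(κ_e true * κ_e false)`
   and `κ_e true * κ_e false ≥ (1-ρ) p (1-p)` (both cases of `x e`).
   By `sum_prod_eq`: `∑_y ν y * ℓ_e (y e) * ℓ_e' (y e') = 0` for `e ≠ e'`.
3. `A := ∑_e a_e^2 = sd p * ∑_y ν y * F y * L y`, `L y := ∑_e a_e ℓ_e (y e)`. Cauchy-Schwarz for the weight `ν`:
   `A^2 ≤ p(1-p) * (∑ ν F^2) * (∑ ν L^2) ≤ p(1-p) * 1 * ∑_e a_e^2 ρ^2/((1-ρ)p(1-p)) = A ρ^2/(1-ρ)`.
-/

set_option autoImplicit false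
open Finset

namespace Crest.Agent.BK
variable {ι : Type*} [Fintype ι] [DecidableEq ι]

namespace Grad

theorem ker_pos {p ρ : ℝ} (hp0 : 0 < p) (hp1 : p < 1) (hρ0 : 0 ≤ ρ) (hρ1 : ρ < 1)
    (a b : Bool) : 0 < ker p ρ a b := by
  unfold ker
  have h1 : 0 < (1 - ρ) * (if b then p else 1 - p) := by
    apply mul_pos (by linarith)
    split_ifs <;> linarith
  have h2 : 0 ≤ ρ * (if a = b then (1 : ℝ) else 0) := by
    apply mul_nonneg hρ0
    split_ifs <;> norm_num
  linarith

theorem ker_add (p ρ : ℝ) (a : Bool) : ker p ρ a true + ker p ρ a false = 1 := by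
  unfold ker
  cases a <;> simp <;> ring

theorem ker_mul_ge {p ρ : ℝ} (hp0 : 0 < p) (hp1 : p < 1) (hρ0 : 0 ≤ ρ) (hρ1 : ρ < 1)
    (a : Bool) : (1 - ρ) * (p * (1 - p)) ≤ ker p ρ a true * ker p ρ a false := by
  unfold ker
  have h1 : 0 ≤ (1 - ρ) * ρ := mul_nonneg (by linarith) hρ0
  cases a
  · simp
    have : ((1 - ρ) * p) * (ρ + (1 - ρ) * (1 - p)) - (1 - ρ) * (p * (1 - p))
        = ((1 - ρ) * ρ) * (p * p) := by ring
    nlinarith [mul_nonneg h1 (mul_nonneg hp0.le hp0.le)]
  · simp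
    have : (ρ + (1 - ρ) * p) * ((1 - ρ) * (1 - p)) - (1 - ρ) * (p * (1 - p))
        = ((1 - ρ) * ρ) * ((1 - p) * (1 - p)) := by ring
    have h2 : 0 ≤ 1 - p := by linarith
    nlinarith [mul_nonneg h1 (mul_nonneg h2 h2)]

theorem ker_diff_sq (p ρ : ℝ) (b : Bool) :
    (ker p ρ true b - ker p ρ false b) ^ 2 = ρ ^ 2 := by
  unfold ker
  cases b <;> simp

theorem sum_nu_prod (κ w : ι → Bool → ℝ) :
    ∑ y : ι → Bool, (∏ i, κ i (y i)) * ∏ i, w i (y i)
      = ∏ i, (κ i true * w i true + κ i false * w i false) := by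
  rw [← sum_prod_eq (fun i b => κ i b * w i b)]
  apply Finset.sum_congr rfl
  intro y _
  rw [Finset.prod_mul_distrib]

theorem sum_nu (κ : ι → Bool → ℝ) (hκ : ∀ i, κ i true + κ i false = 1) :
    ∑ y : ι → Bool, (∏ i, κ i (y i)) = 1 := by
  rw [sum_prod_eq]
  exact Finset.prod_eq_one (fun i _ => hκ i)

theorem sum_nu_one (κ : ι → Bool → ℝ) (hκ : ∀ i, κ i true + κ i false = 1) (e : ι)
    (u : Bool → ℝ) :
    ∑ y : ι → Bool, (∏ i, κ i (y i)) * u (y e) = κ e true * u true + κ e false * u false := by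
  have h := sum_nu_prod κ (fun i b => if i = e then u b else 1)
  have h1 : ∀ y : ι → Bool, ∏ i, (if i = e then u (y i) else 1) = u (y e) := by
    intro y
    rw [Finset.prod_ite_eq' univ e (fun i => u (y i))]
    simp
  simp only [h1] at h
  rw [h, Fintype.prod_eq_single e]
  · simp
  · intro i hi
    simp [hi, hκ i]

theorem sum_nu_two (κ : ι → Bool → ℝ) (hκ : ∀ i, κ i true + κ i false = 1) (e e' : ι)
    (hne : e ≠ e') (u v : Bool → ℝ) :
    ∑ y : ι → Bool, (∏ i, κ i (y i)) * (u (y e) * v (y e'))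
      = (κ e true * u true + κ e false * u false) * (κ e' true * v true + κ e' false * v false) := by
  have h := sum_nu_prod κ (fun i b => (if i = e then u b else 1) * (if i = e' then v b else 1))
  have h1 : ∀ y : ι → Bool,
      ∏ i, ((if i = e then u (y i) else 1) * (if i = e' then v (y i) else 1))
        = u (y e) * v (y e') := by
    intro y
    rw [Finset.prod_mul_distrib, Finset.prod_ite_eq' univ e (fun i => u (y i)),
      Finset.prod_ite_eq' univ e' (fun i => v (y i))]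
    simp
  simp only [h1] at h
  rw [h, Fintype.prod_eq_mul e e' hne]
  · simp [hne, hne.symm]
  · intro i hi
    simp [hi.1, hi.2, hκ i]

theorem prod_ker_update (p ρ : ℝ) (x y : ι → Bool) (e : ι) (a : Bool) :
    ∏ i, ker p ρ (Function.update x e a i) (y i)
      = ker p ρ a (y e) * ∏ i ∈ univ.erase e, ker p ρ (x i) (y i) := by
  rw [← Finset.mul_prod_erase univ _ (mem_univ e)]
  congr 1
  · simp
  · apply Finset.prod_congr rfl
    intro i hi
    rw [Function.update_of_ne (Finset.ne_of_mem_erase hi)]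

end Grad

open Grad in
theorem grad_noise_le {p ρ : ℝ} (hp0 : 0 < p) (hp1 : p < 1) (hρ0 : 0 ≤ ρ) (hρ1 : ρ < 1)
    (F : (ι → Bool) → ℝ) (hF : ∀ x, |F x| ≤ 1) (x : ι → Bool) :
    ∑ e, (der p e (noise p ρ F) x) ^ 2 ≤ ρ ^ 2 / (1 - ρ) := by
  classical
  have hs : 0 < p * (1 - p) := mul_pos hp0 (by linarith)
  have h1ρ : 0 < 1 - ρ := by linarith
  set κ : ι → Bool → ℝ := fun i b => ker p ρ (x i) b with hκdef
  have hκpos : ∀ i b, 0 < κ i b := fun i b => ker_pos hp0 hp1 hρ0 hρ1 _ _
  have hκsum : ∀ i, κ i true + κ i false = 1 := fun i => ker_add p ρ _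
  set ν : (ι → Bool) → ℝ := fun y => ∏ i, κ i (y i) with hνdef
  have hνpos : ∀ y, 0 ≤ ν y := fun y => Finset.prod_nonneg (fun i _ => (hκpos i _).le)
  set ℓ : ι → Bool → ℝ := fun e b => (ker p ρ true b - ker p ρ false b) / κ e b with hℓdef
  set a : ι → ℝ := fun e => der p e (noise p ρ F) x with hadef
  -- Step 1
  have ha : ∀ e, a e = sd p * ∑ y, ν y * (ℓ e (y e) * F y) := by
    intro e
    simp only [hadef, der, noise]
    congr 1
    rw [← Finset.sum_sub_distrib]
    apply Finset.sum_congr rfl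
    intro y _
    rw [prod_ker_update, prod_ker_update]
    have hν : ν y = κ e (y e) * ∏ i ∈ univ.erase e, ker p ρ (x i) (y i) := by
      simp only [hνdef]
      rw [← Finset.mul_prod_erase univ _ (mem_univ e)]
    rw [hν]
    simp only [hℓdef]
    have := (hκpos e (y e)).ne'
    field_simp
  -- Step 2
  have hmean : ∀ e, κ e true * ℓ e true + κ e false * ℓ e false = 0 := by
    intro e
    simp only [hℓdef]
    rw [mul_div_cancel₀ _ (hκpos e true).ne', mul_div_cancel₀ _ (hκpos e false).ne']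
    have h1 := ker_add p ρ true
    have h2 := ker_add p ρ false
    linarith
  set M : ℝ := ρ ^ 2 / ((1 - ρ) * (p * (1 - p))) with hM
  have hvar : ∀ e, κ e true * (ℓ e true * ℓ e true) + κ e false * (ℓ e false * ℓ e false) ≤ M := by
    intro e
    have ht := hκpos e true
    have hf := hκpos e false
    have e1 : κ e true * (ℓ e true * ℓ e true) + κ e false * (ℓ e false * ℓ e false)
        = ρ ^ 2 / (κ e true * κ e false) := by
      have q1 : κ e true * (ℓ e true * ℓ e true) = ρ ^ 2 / κ e true := by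
        simp only [hℓdef]
        rw [← ker_diff_sq p ρ true]
        field_simp
      have q2 : κ e false * (ℓ e false * ℓ e false) = ρ ^ 2 / κ e false := by
        simp only [hℓdef]
        rw [← ker_diff_sq p ρ false]
        field_simp
      rw [q1, q2, div_add_div _ _ ht.ne' hf.ne']
      congr 1
      have := hκsum e
      calc ρ ^ 2 * κ e false + κ e true * ρ ^ 2 = ρ ^ 2 * (κ e true + κ e false) := by ring
        _ = ρ ^ 2 := by rw [this, mul_one]
    rw [e1, hM]
    apply div_le_div_of_nonneg_left (sq_nonneg ρ) (mul_pos h1ρ hs)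
    exact ker_mul_ge hp0 hp1 hρ0 hρ1 _
  have hT : ∀ e e', e ≠ e' → ∑ y, ν y * (ℓ e (y e) * ℓ e' (y e')) = 0 := by
    intro e e' hne
    rw [sum_nu_two κ hκsum e e' hne (ℓ e) (ℓ e'), hmean e, zero_mul]
  have hTd : ∀ e, ∑ y, ν y * (ℓ e (y e) * ℓ e (y e)) ≤ M := by
    intro e
    rw [sum_nu_one κ hκsum e (fun b => ℓ e b * ℓ e b)]
    exact hvar e
  -- Step 3
  set A : ℝ := ∑ e, a e ^ 2 with hA
  have hA0 : 0 ≤ A := Finset.sum_nonneg (fun e _ => sq_nonneg _)
  set L : (ι → Bool) → ℝ := fun y => ∑ e, a e * ℓ e (y e) with hL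
  have hAeq : A = sd p * ∑ y, ν y * (F y * L y) := by
    have : ∀ e, a e ^ 2 = sd p * ∑ y, ν y * (F y * (a e * ℓ e (y e))) := by
      intro e
      rw [sq]
      nth_rewrite 2 [ha e]
      rw [mul_left_comm, Finset.mul_sum]
      congr 1
      apply Finset.sum_congr rfl
      intro y _
      ring
    rw [hA, Finset.sum_congr rfl (fun e _ => this e), ← Finset.mul_sum, Finset.sum_comm]
    congr 1
    apply Finset.sum_congr rfl
    intro y _
    simp only [hL]
    rw [Finset.mul_sum, Finset.mul_sum]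
  have hCS : (∑ y, ν y * (F y * L y)) ^ 2 ≤ (∑ y, ν y * F y ^ 2) * ∑ y, ν y * L y ^ 2 := by
    apply Finset.sum_sq_le_sum_mul_sum_of_sq_le_mul
    · intro y _; exact mul_nonneg (hνpos y) (sq_nonneg _)
    · intro y _; exact mul_nonneg (hνpos y) (sq_nonneg _)
    · intro y _; apply le_of_eq; ring
  have hF2 : ∑ y, ν y * F y ^ 2 ≤ 1 := by
    rw [← sum_nu κ hκsum]
    apply Finset.sum_le_sum
    intro y _
    have : F y ^ 2 ≤ 1 := by
      rw [← sq_abs]
      have h0 := abs_nonneg (F y)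
      nlinarith [hF y]
    calc ν y * F y ^ 2 ≤ ν y * 1 := mul_le_mul_of_nonneg_left this (hνpos y)
      _ = ∏ i, κ i (y i) := by rw [mul_one]
  have hF20 : 0 ≤ ∑ y, ν y * F y ^ 2 :=
    Finset.sum_nonneg (fun y _ => mul_nonneg (hνpos y) (sq_nonneg _))
  have hL2 : ∑ y, ν y * L y ^ 2 ≤ M * A := by
    have e1 : ∑ y, ν y * L y ^ 2
        = ∑ e, ∑ e', a e * a e' * ∑ y, ν y * (ℓ e (y e) * ℓ e' (y e')) := by
      have : ∀ y, ν y * L y ^ 2
          = ∑ e, ∑ e', a e * a e' * (ν y * (ℓ e (y e) * ℓ e' (y e'))) := by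
        intro y
        rw [sq, hL]
        simp only
        rw [Finset.sum_mul_sum, Finset.mul_sum]
        apply Finset.sum_congr rfl
        intro e _
        rw [Finset.mul_sum]
        apply Finset.sum_congr rfl
        intro e' _
        ring
      rw [Finset.sum_congr rfl (fun y _ => this y), Finset.sum_comm]
      apply Finset.sum_congr rfl
      intro e _
      rw [Finset.sum_comm]
      apply Finset.sum_congr rfl
      intro e' _
      rw [Finset.mul_sum]
    rw [e1, hA, Finset.mul_sum]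
    apply Finset.sum_le_sum
    intro e _
    rw [Fintype.sum_eq_single e]
    · calc a e * a e * ∑ y, ν y * (ℓ e (y e) * ℓ e (y e)) ≤ a e * a e * M :=
            mul_le_mul_of_nonneg_left (hTd e) (mul_self_nonneg _)
        _ = M * a e ^ 2 := by ring
    · intro e' hne
      rw [hT e e' (Ne.symm hne), mul_zero]
  have hL20 : 0 ≤ ∑ y, ν y * L y ^ 2 :=
    Finset.sum_nonneg (fun y _ => mul_nonneg (hνpos y) (sq_nonneg _))
  have hsd : sd p ^ 2 = p * (1 - p) := by
    unfold sd
    exact Real.sq_sqrt hs.le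
  have hAA : A * A ≤ ρ ^ 2 / (1 - ρ) * A := by
    calc A * A = sd p ^ 2 * (∑ y, ν y * (F y * L y)) ^ 2 := by
          nth_rewrite 1 [hAeq]
          nth_rewrite 1 [hAeq]
          ring
      _ ≤ (p * (1 - p)) * (1 * (M * A)) := by
          rw [hsd]
          apply mul_le_mul_of_nonneg_left _ hs.le
          exact hCS.trans (mul_le_mul hF2 hL2 hL20 zero_le_one)
      _ = ρ ^ 2 / (1 - ρ) * A := by
          rw [hM]
          have h1p : (1 - p) ≠ 0 := by linarith
          field_simp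
  rcases hA0.eq_or_lt with h0 | hpos
  · rw [← h0]
    positivity
  · exact le_of_mul_le_mul_right hAA hpos

end Crest.Agent.BK
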