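import Crest.Agent.BK_Bonami

/-!
# BK task A8: level-k inequality
`W := ∑_{|S| ≤ k} coef H S^2`, `P := ∑_{|S| ≤ k} coef H S chi_S`. Then `E[H P] = E[P^2] = W` (`plancherel`,
`coef_sum_chi`). `|E[H P]| ≤ sd * E[Y |P|]`;  `(E[Y|P|])^2 ≤ E[Y] E[Y P^2]`, `(E[Y P^2])^2 ≤ E[Y^2] E[P^4] ≤ E[Y] E[P^4]`
(two Cauchy-Schwarz `ex_mul_sq_le`, with `Y = √Y * √Y`, `0 ≤ Y ≤ 1`), so `(E[Y|P|])^4 ≤ (E Y)^3 E P^4 ≤ (E Y)^3 B^k W^2` (`bonami`).
Hence `W^4 ≤ (p(1-p))^2 (E Y)^3 B^k W^2`; divide by `W^2` (trivial if `W = 0`).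
-/

set_option autoImplicit false
open Finset

namespace Crest.Agent.BK
variable {ι : Type*} [Fintype ι] [DecidableEq ι]

theorem level_ineq {p : ℝ} (hp0 : 0 < p) (hp1 : p < 1) (k : ℕ) (H Y : (ι → Bool) → ℝ)
    (hY0 : ∀ x, 0 ≤ Y x) (hY1 : ∀ x, Y x ≤ 1) (hH : ∀ x, |H x| ≤ sd p * Y x) :
    (∑ S ∈ (univ : Finset (Finset ι)).filter (fun S => S.card ≤ k), coef p H S ^ 2) ^ 2
      ≤ (p * (1 - p)) ^ 2 * (ex p Y) ^ 3 * Bc p ^ k := by
  classical
  have hp0' : (0 : ℝ) ≤ p := hp0.le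
  have hp1' : p ≤ 1 := hp1.le
  set 𝒮 : Finset (Finset ι) := (univ : Finset (Finset ι)).filter (fun S => S.card ≤ k) with h𝒮
  set W : ℝ := ∑ S ∈ 𝒮, coef p H S ^ 2 with hW
  set P : (ι → Bool) → ℝ := fun x => ∑ S ∈ 𝒮, coef p H S * chi p S x with hP
  have hW0 : 0 ≤ W := Finset.sum_nonneg fun S _ => sq_nonneg _
  have hcoefP : ∀ T, coef p P T = if T ∈ 𝒮 then coef p H T else 0 := fun T =>
    coef_sum_chi hp0 hp1 𝒮 (fun S => coef p H S) T
  -- E[H P] = W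
  have hHP : ex p (fun x => H x * P x) = W := by
    rw [plancherel hp0 hp1 H P, hW]
    simp only [hcoefP, mul_ite, mul_zero]
    rw [Finset.sum_ite_mem]
    simp only [Finset.univ_inter]
    exact Finset.sum_congr rfl fun S _ => by ring
  -- E[P^2] = W
  have hPP : ex p (fun x => P x ^ 2) = W := by
    rw [parseval hp0 hp1 P, hW]
    simp only [hcoefP, ite_pow]
    rw [show (fun S : Finset ι => if S ∈ 𝒮 then coef p H S ^ 2 else (0 : ℝ) ^ 2)
        = fun S => if S ∈ 𝒮 then coef p H S ^ 2 else 0 from by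
          funext S; split_ifs <;> simp]
    rw [Finset.sum_ite_mem]
    simp only [Finset.univ_inter]
  have hsd : 0 < sd p := sd_pos hp0 hp1
  set a : ℝ := ex p (fun x => Y x * |P x|) with ha
  set b : ℝ := ex p (fun x => Y x * P x ^ 2) with hb
  set y : ℝ := ex p Y with hy
  set Q : ℝ := ex p (fun x => P x ^ 4) with hQ
  have ha0 : 0 ≤ a := ex_nonneg hp0' hp1' fun x => mul_nonneg (hY0 x) (abs_nonneg _)
  have hb0 : 0 ≤ b := ex_nonneg hp0' hp1' fun x => mul_nonneg (hY0 x) (sq_nonneg _)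
  have hy0 : 0 ≤ y := ex_nonneg hp0' hp1' hY0
  have hQ0 : 0 ≤ Q := ex_nonneg hp0' hp1' fun x => by positivity
  -- W ≤ sd * a
  have h3 : W ≤ sd p * a := by
    calc W = ex p (fun x => H x * P x) := hHP.symm
      _ ≤ |ex p (fun x => H x * P x)| := le_abs_self _
      _ ≤ ex p (fun x => |H x * P x|) := abs_ex_le hp0' hp1' _
      _ ≤ ex p (fun x => sd p * (Y x * |P x|)) := by
          refine ex_mono hp0' hp1' fun x => ?_
          rw [abs_mul]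
          calc |H x| * |P x| ≤ (sd p * Y x) * |P x| :=
                mul_le_mul_of_nonneg_right (hH x) (abs_nonneg _)
            _ = sd p * (Y x * |P x|) := by ring
      _ = sd p * a := ex_const_mul p (sd p) _
  -- a^2 ≤ y * b
  have h4 : a ^ 2 ≤ y * b := by
    have key := ex_mul_sq_le hp0' hp1' (fun x => Real.sqrt (Y x))
      (fun x => Real.sqrt (Y x) * |P x|)
    have e1 : (fun x => Real.sqrt (Y x) * (Real.sqrt (Y x) * |P x|))
        = fun x => Y x * |P x| := by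
      funext x
      rw [← mul_assoc, Real.mul_self_sqrt (hY0 x)]
    have e2 : (fun x => Real.sqrt (Y x) ^ 2) = Y := by
      funext x
      exact Real.sq_sqrt (hY0 x)
    have e3 : (fun x => (Real.sqrt (Y x) * |P x|) ^ 2) = fun x => Y x * P x ^ 2 := by
      funext x
      rw [mul_pow, Real.sq_sqrt (hY0 x), sq_abs]
    rw [e1, e2, e3] at key
    exact key
  -- b^2 ≤ y * Q
  have h5 : b ^ 2 ≤ y * Q := by
    have key := ex_mul_sq_le hp0' hp1' Y (fun x => P x ^ 2)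
    have e3 : (fun x => (P x ^ 2) ^ 2) = fun x => P x ^ 4 := by
      funext x
      ring
    rw [e3] at key
    have hYY : ex p (fun x => Y x ^ 2) ≤ y := by
      refine ex_mono hp0' hp1' fun x => ?_
      have := hY0 x
      have := hY1 x
      nlinarith
    calc b ^ 2 ≤ ex p (fun x => Y x ^ 2) * Q := key
      _ ≤ y * Q := mul_le_mul_of_nonneg_right hYY hQ0
  -- Bonami
  have h6 : Q ≤ Bc p ^ k * W ^ 2 := by
    have := bonami hp0 hp1 k (fun S => coef p H S)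
    rw [← hPP]
    exact this
  have hB0 : 0 ≤ Bc p ^ k := by
    have : (16 : ℝ) ≤ Bc p := Bc_ge hp0 hp1
    positivity
  -- a^4 ≤ y^3 B^k W^2
  have h7 : a ^ 4 ≤ y ^ 3 * (Bc p ^ k * W ^ 2) := by
    calc a ^ 4 = (a ^ 2) ^ 2 := by ring
      _ ≤ (y * b) ^ 2 := pow_le_pow_left₀ (sq_nonneg a) h4 2
      _ = y ^ 2 * b ^ 2 := by ring
      _ ≤ y ^ 2 * (y * Q) := mul_le_mul_of_nonneg_left h5 (sq_nonneg y)
      _ = y ^ 3 * Q := by ring
      _ ≤ y ^ 3 * (Bc p ^ k * W ^ 2) := mul_le_mul_of_nonneg_left h6 (by positivity)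
  have h8 : W ^ 4 ≤ (p * (1 - p)) ^ 2 * (y ^ 3 * (Bc p ^ k * W ^ 2)) := by
    calc W ^ 4 ≤ (sd p * a) ^ 4 := pow_le_pow_left₀ hW0 h3 4
      _ = (sd p ^ 2) ^ 2 * a ^ 4 := by ring
      _ = (p * (1 - p)) ^ 2 * a ^ 4 := by rw [sd_sq hp0 hp1]
      _ ≤ (p * (1 - p)) ^ 2 * (y ^ 3 * (Bc p ^ k * W ^ 2)) :=
          mul_le_mul_of_nonneg_left h7 (sq_nonneg _)
  rcases hW0.eq_or_lt with hW00 | hWpos
  · rw [← hW00]
    have : 0 ≤ (p * (1 - p)) ^ 2 * y ^ 3 * Bc p ^ k := by positivity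
    simpa using this
  · have hW2 : 0 < W ^ 2 := by positivity
    have : W ^ 2 * W ^ 2 ≤ ((p * (1 - p)) ^ 2 * y ^ 3 * Bc p ^ k) * W ^ 2 := by
      calc W ^ 2 * W ^ 2 = W ^ 4 := by ring
        _ ≤ (p * (1 - p)) ^ 2 * (y ^ 3 * (Bc p ^ k * W ^ 2)) := h8
        _ = ((p * (1 - p)) ^ 2 * y ^ 3 * Bc p ^ k) * W ^ 2 := by ring
    exact le_of_mul_le_mul_right this hW2

end Crest.Agent.BK
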