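import Mathlib

/-!
Row 56: pure real analysis.  From the MASTER inequality (as a hypothesis, for all admissible
parameters `d m q ρ θ`) and the Poincare inequality to
`V ≤ Cr r / (log n)^(r/(r-1)) * K`.   Owner: helper33.
-/

set_option autoImplicit false

namespace Crest.Agent.BKNum

open Real

/-- the constant of the sharp Bourgain-Kalai inequality for `r`-uniform hypergraphs. -/
noncomputable def Cr (r : ℕ) : ℝ := (512 + 2 * (r : ℝ)) ^ 2 / 4 + 4368 * (r : ℝ) ^ 3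

lemma alpha_bounds {r : ℕ} (hr : 2 ≤ r) :
    1 ≤ (r : ℝ) / ((r : ℝ) - 1) ∧ (r : ℝ) / ((r : ℝ) - 1) ≤ 2 := by
  have h : (2 : ℝ) ≤ r := by exact_mod_cast hr
  have h1 : 0 < (r : ℝ) - 1 := by linarith
  constructor
  · rw [le_div_iff₀ h1]; linarith
  · rw [div_le_iff₀ h1]; linarith

lemma rho_pow (m : ℕ) : (1 : ℝ) / 4 ≤ ((m : ℝ) / ((m : ℝ) + 1)) ^ m := by
  rcases Nat.eq_zero_or_pos m with rfl | hm
  · norm_num
  have hm' : (0 : ℝ) < m := by exact_mod_cast hm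
  have h1 : ((m : ℝ) + 1) / m ≤ exp (1 / m) := by
    have := Real.add_one_le_exp (1 / (m : ℝ))
    have e : ((m : ℝ) + 1) / m = 1 / m + 1 := by field_simp; ring
    rw [e]; exact this
  have h2 : (((m : ℝ) + 1) / m) ^ m ≤ exp 1 := by
    calc (((m : ℝ) + 1) / m) ^ m ≤ (exp (1 / m)) ^ m := pow_le_pow_left₀ (by positivity) h1 m
      _ = exp 1 := by rw [← Real.exp_nat_mul]; congr 1; field_simp
  have h3 : exp 1 ≤ 4 := by have := Real.exp_one_lt_d9; linarith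
  have h4 : ((m : ℝ) / ((m : ℝ) + 1)) ^ m = 1 / (((m : ℝ) + 1) / m) ^ m := by
    rw [one_div, ← inv_pow, inv_div]
  rw [h4]
  exact one_div_le_one_div_of_le (by positivity) (h2.trans h3)

lemma le_exp_sixteenth {L : ℝ} (hL : 512 ≤ L) : L ≤ exp (L / 16) := by
  have := Real.quadratic_le_exp_of_nonneg (x := L / 16) (by positivity)
  nlinarith

lemma exp_eq_pow (L : ℝ) (k : ℕ) : exp (k * (L / 16)) = exp (L / 16) ^ k := by
  rw [Real.exp_nat_mul]

/-- `λ (log (8/λ))^2 ≤ 16`. -/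
lemma lam_log_sq {lam : ℝ} (h0 : 0 < lam) (h1 : lam ≤ 1 / 2) :
    lam * (Real.log (8 / lam)) ^ 2 ≤ 16 := by
  have hB : 0 < 8 / lam := by positivity
  have hB1 : 1 ≤ 8 / lam := by rw [le_div_iff₀ h0]; linarith
  have hx : 0 ≤ Real.log (8 / lam) := Real.log_nonneg hB1
  have := Real.quadratic_le_exp_of_nonneg hx
  rw [Real.exp_log hB] at this
  have h2 : (Real.log (8 / lam)) ^ 2 ≤ 2 * (8 / lam) := by nlinarith
  calc lam * (Real.log (8 / lam)) ^ 2 ≤ lam * (2 * (8 / lam)) :=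
        mul_le_mul_of_nonneg_left h2 h0.le
    _ = 16 := by field_simp; norm_num

lemma one_le_log_B {lam : ℝ} (h0 : 0 < lam) (h1 : lam ≤ 1 / 2) : 1 ≤ Real.log (8 / lam) := by
  have hB : (16 : ℝ) ≤ 8 / lam := by rw [le_div_iff₀ h0]; linarith
  rw [Real.le_log_iff_exp_le (by positivity)]
  have := Real.exp_one_lt_d9
  linarith

/-- The main case: `L = log n` large and `4 log B ≤ L`. -/
theorem caseB {r n : ℕ} (hr : 2 ≤ r) {p : ℝ} (hp0 : 0 < p) (hp1 : p < 1)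
    (V K : ℝ) (hK : 0 ≤ K)
    (hmaster : ∀ (d m q : ℕ) (ρ θ : ℝ), 1 ≤ d → 1 ≤ q → 2 * r * m * q ≤ n → 0 ≤ ρ → ρ < 1 →
      1 / 4 ≤ ρ ^ m → 0 < θ → (r : ℝ) * m < ((d : ℝ) + 1) ^ ((r : ℝ) / ((r : ℝ) - 1)) →
      V ≤ (64 * (p * (1 - p) * Real.sqrt (θ * (8 / min p (1 - p)) ^ d) * r
          + ρ ^ 2 / (1 - ρ) * (4 * n * r) / (θ * q ^ 2)) + p * (1 - p) / (m + 1)) * K)
    (hL : 512 + 2 * (r : ℝ) ≤ Real.log n) (hd : 4 * Real.log (8 / min p (1 - p)) ≤ Real.log n) :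
    V ≤ 4368 * (r : ℝ) ^ 3 / (Real.log n) ^ ((r : ℝ) / ((r : ℝ) - 1)) * K := by
  obtain ⟨hα1, hα2⟩ := alpha_bounds hr
  set α : ℝ := (r : ℝ) / ((r : ℝ) - 1) with hα
  set L : ℝ := Real.log n with hLdef
  set lam : ℝ := min p (1 - p) with hlam
  have hr2 : (2 : ℝ) ≤ r := by exact_mod_cast hr
  have hlam0 : 0 < lam := lt_min hp0 (by linarith)
  have hlam1 : lam ≤ 1 / 2 := by
    rcases le_total p (1 / 2) with h | h
    · exact (min_le_left _ _).trans h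
    · exact (min_le_right _ _).trans (by linarith)
  have hs2 : p * (1 - p) ≤ lam := by
    rcases le_total p (1 - p) with h | h
    · rw [hlam, min_eq_left h]; nlinarith
    · rw [hlam, min_eq_right h]; nlinarith
  have hs2' : p * (1 - p) ≤ 1 / 4 := by nlinarith [sq_nonneg (p - 1 / 2)]
  have hs0 : 0 ≤ p * (1 - p) := by nlinarith
  set B : ℝ := 8 / lam with hB
  have hBpos : 0 < B := by positivity
  set lb : ℝ := Real.log B with hlb
  have hlb1 : 1 ≤ lb := one_le_log_B hlam0 hlam1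
  have hL512 : (512 : ℝ) ≤ L := by linarith
  have hLpos : 0 < L := by linarith
  have hnpos : (0 : ℝ) < n := by
    rcases Nat.eq_zero_or_pos n with h | h
    · exfalso; rw [hLdef, h] at hLpos; simp at hLpos
    · exact_mod_cast h
  have hnexp : (n : ℝ) = exp L := (Real.exp_log hnpos).symm
  set e : ℝ := exp (L / 16) with he
  have heL : L ≤ e := le_exp_sixteenth hL512
  have hepos : 0 < e := Real.exp_pos _
  have hn16 : (n : ℝ) = e ^ 16 := by
    rw [hnexp, he, ← Real.exp_nat_mul]; congr 1; push_cast; ring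
  -- the parameters
  set d : ℕ := ⌊L / (4 * lb)⌋₊ with hddef
  have hx1 : 1 ≤ L / (4 * lb) := by rw [le_div_iff₀ (by positivity)]; linarith
  have hd1 : 1 ≤ d := Nat.le_floor (by simpa using hx1)
  have hdle : (d : ℝ) ≤ L / (4 * lb) := Nat.floor_le (by positivity)
  have hdlt : L / (4 * lb) < (d : ℝ) + 1 := Nat.lt_floor_add_one _
  have hdL : (d : ℝ) + 1 ≤ L / 2 := by
    have : L / (4 * lb) ≤ L / 4 := by
      apply div_le_div_of_nonneg_left hLpos.le (by norm_num) (by linarith)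
    linarith
  set X : ℝ := ((d : ℝ) + 1) ^ α with hX
  have hd1' : (1 : ℝ) ≤ (d : ℝ) + 1 := by
    have : (0 : ℝ) ≤ d := Nat.cast_nonneg d
    linarith
  have hX1 : 1 ≤ X := Real.one_le_rpow hd1' (by linarith)
  have hXle : X ≤ L ^ 2 / 4 := by
    calc X ≤ ((d : ℝ) + 1) ^ (2 : ℝ) := Real.rpow_le_rpow_of_exponent_le hd1' hα2
      _ = ((d : ℝ) + 1) ^ 2 := Real.rpow_two _
      _ ≤ (L / 2) ^ 2 := pow_le_pow_left₀ (by linarith) hdL 2
      _ = L ^ 2 / 4 := by ring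
  set A : ℝ := L ^ α with hA
  have hApos : 0 < A := Real.rpow_pos_of_pos hLpos _
  have hAle : A ≤ L ^ 2 := by
    calc A ≤ L ^ (2 : ℝ) := Real.rpow_le_rpow_of_exponent_le (by linarith) hα2
      _ = L ^ 2 := Real.rpow_two _
  have hXge : A / (4 * lb) ^ 2 ≤ X := by
    have h1 : (L / (4 * lb)) ^ α ≤ X :=
      Real.rpow_le_rpow (by positivity) hdlt.le (by linarith)
    have h2 : (L / (4 * lb)) ^ α = A / (4 * lb) ^ α :=
      Real.div_rpow hLpos.le (by positivity) α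
    have h3 : (4 * lb) ^ α ≤ (4 * lb) ^ 2 := by
      calc (4 * lb) ^ α ≤ (4 * lb) ^ (2 : ℝ) :=
            Real.rpow_le_rpow_of_exponent_le (by linarith) hα2
        _ = (4 * lb) ^ 2 := Real.rpow_two _
    have h4 : 0 < (4 * lb) ^ α := Real.rpow_pos_of_pos (by positivity) _
    calc A / (4 * lb) ^ 2 ≤ A / (4 * lb) ^ α := div_le_div_of_nonneg_left hApos.le h4 h3
      _ = (L / (4 * lb)) ^ α := h2.symm
      _ ≤ X := h1
  have hrpos : (0 : ℝ) < r := by linarith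
  set c : ℕ := ⌈X / r⌉₊ with hc
  have hXr : 0 < X / r := by positivity
  have hc1 : 1 ≤ c := Nat.one_le_iff_ne_zero.mpr (by
    intro h
    have := Nat.ceil_eq_zero.mp h
    linarith)
  set m : ℕ := c - 1 with hm
  have hm1 : (m : ℝ) + 1 = c := by
    rw [hm, Nat.cast_sub hc1]; push_cast; ring
  have hcge : X / r ≤ c := Nat.le_ceil _
  have hclt : (c : ℝ) < X / r + 1 := Nat.ceil_lt_add_one hXr.le
  have hmX : (r : ℝ) * m < X := by
    have : (m : ℝ) < X / r := by linarith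
    rw [lt_div_iff₀ hrpos] at this
    linarith
  have hm1pos : (0 : ℝ) < (m : ℝ) + 1 := by positivity
  have hm1le : (m : ℝ) + 1 ≤ L ^ 2 := by
    have h1 : X / r ≤ X / 2 := div_le_div_of_nonneg_left (by linarith) (by norm_num) hr2
    have hL2 : (512 : ℝ) ^ 2 ≤ L ^ 2 := pow_le_pow_left₀ (by norm_num) hL512 2
    linarith
  set ρ : ℝ := (m : ℝ) / ((m : ℝ) + 1) with hρ
  have hρ0 : 0 ≤ ρ := by positivity
  have hρ1 : ρ < 1 := by rw [hρ, div_lt_one hm1pos]; linarith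
  have h1ρ : 1 - ρ = 1 / ((m : ℝ) + 1) := by rw [hρ]; field_simp; ring
  have hρq : ρ ^ 2 / (1 - ρ) ≤ (m : ℝ) + 1 := by
    rw [h1ρ, div_div_eq_mul_div, div_one]
    have : ρ ^ 2 ≤ 1 := pow_le_one₀ hρ0 hρ1.le
    exact mul_le_of_le_one_left hm1pos.le this
  set θ : ℝ := 1 / e ^ 8 with hθ
  have hθpos : 0 < θ := by positivity
  set D : ℕ := 2 * r * (m + 1) with hD
  have hDpos : 0 < D := by positivity
  set q : ℕ := n / D with hq
  have hDcast : (D : ℝ) = 2 * r * ((m : ℝ) + 1) := by rw [hD]; push_cast; ring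
  have hDn : (D : ℝ) ≤ n := by
    rw [hDcast, hn16]
    have h1 : 2 * (r : ℝ) ≤ e := by linarith
    have h2 : (m : ℝ) + 1 ≤ e ^ 2 := hm1le.trans (pow_le_pow_left₀ hLpos.le heL 2)
    have h3 : (1 : ℝ) ≤ e := by linarith
    calc 2 * (r : ℝ) * ((m : ℝ) + 1) ≤ e * e ^ 2 := mul_le_mul h1 h2 hm1pos.le hepos.le
      _ = e ^ 3 := by ring
      _ ≤ e ^ 16 := pow_le_pow_right₀ h3 (by norm_num)
  have hq1 : 1 ≤ q := (Nat.one_le_div_iff hDpos).mpr (by exact_mod_cast hDn)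
  have hqn : 2 * r * m * q ≤ n := by
    calc 2 * r * m * q ≤ D * q := Nat.mul_le_mul_right q (Nat.mul_le_mul_left _ (Nat.le_succ m))
      _ ≤ n := Nat.mul_div_le n D
  have hqlow : (n : ℝ) ≤ 2 * D * q := by
    have h1 : n < D * (n / D + 1) := Nat.lt_mul_div_succ n hDpos
    have h2 : (n : ℝ) < D * ((q : ℝ) + 1) := by exact_mod_cast h1
    have h3 : (1 : ℝ) ≤ q := by exact_mod_cast hq1
    have h4 : (0 : ℝ) < D := by exact_mod_cast hDpos
    have h5 : (D : ℝ) ≤ D * q := le_mul_of_one_le_right h4.le h3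
    rw [mul_add, mul_one] at h2
    linarith
  have hmain := hmaster d m q ρ θ hd1 hq1 hqn hρ0 hρ1 (rho_pow m) hθpos hmX
  refine hmain.trans (mul_le_mul_of_nonneg_right ?_ hK)
  -- the three terms
  have hBd : B ^ d ≤ e ^ 4 := by
    have h1 : B = exp lb := (Real.exp_log hBpos).symm
    rw [h1, ← Real.exp_nat_mul, he, ← Real.exp_nat_mul]
    apply Real.exp_le_exp.mpr
    have : (d : ℝ) * lb ≤ L / 4 := by
      have := mul_le_mul_of_nonneg_right hdle (by linarith : 0 ≤ lb)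
      calc (d : ℝ) * lb ≤ L / (4 * lb) * lb := this
        _ = L / 4 := by field_simp
    push_cast
    linarith
  have hsqrt : Real.sqrt (θ * B ^ d) ≤ 1 / e ^ 2 := by
    apply Real.sqrt_le_iff.mpr
    refine ⟨by positivity, ?_⟩
    calc θ * B ^ d ≤ 1 / e ^ 8 * e ^ 4 := mul_le_mul_of_nonneg_left hBd hθpos.le
      _ = (1 / e ^ 2) ^ 2 := by field_simp
  have hinvL2 : 1 / L ^ 2 ≤ 1 / A := one_div_le_one_div_of_le hApos hAle
  have hinve2 : 1 / e ^ 2 ≤ 1 / A :=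
    (one_div_le_one_div_of_le (by positivity) (pow_le_pow_left₀ hLpos.le heL 2)).trans hinvL2
  have hgood : p * (1 - p) * Real.sqrt (θ * B ^ d) * r ≤ (r : ℝ) / 4 * (1 / A) := by
    calc p * (1 - p) * Real.sqrt (θ * B ^ d) * r ≤ 1 / 4 * (1 / A) * r := by
          apply mul_le_mul_of_nonneg_right _ hrpos.le
          exact mul_le_mul hs2' (hsqrt.trans hinve2) (Real.sqrt_nonneg _) (by norm_num)
      _ = (r : ℝ) / 4 * (1 / A) := by ring
  have hqpos : (0 : ℝ) < q := by exact_mod_cast hq1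
  have hbad : ρ ^ 2 / (1 - ρ) * (4 * n * r) / (θ * q ^ 2) ≤ 64 * (r : ℝ) ^ 3 * (1 / A) := by
    have h1 : (n : ℝ) ^ 2 ≤ (2 * D) ^ 2 * (q : ℝ) ^ 2 := by
      have := pow_le_pow_left₀ hnpos.le hqlow 2
      calc (n : ℝ) ^ 2 ≤ (2 * D * q) ^ 2 := this
        _ = (2 * D) ^ 2 * (q : ℝ) ^ 2 := by ring
    rw [div_le_iff₀ (by positivity)]
    -- goal: ρ²/(1-ρ) * (4 n r) ≤ 64 r³ (1/A) (θ q²)
    have h2 : ρ ^ 2 / (1 - ρ) * (4 * n * r) ≤ ((m : ℝ) + 1) * (4 * n * r) :=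
      mul_le_mul_of_nonneg_right hρq (by positivity)
    refine h2.trans ?_
    -- q² ≥ n²/(2D)²
    have h3 : (n : ℝ) ^ 2 / (2 * D) ^ 2 ≤ (q : ℝ) ^ 2 := by
      rw [div_le_iff₀ (by positivity)]; linarith
    have h4 : 64 * (r : ℝ) ^ 3 * (1 / A) * (θ * ((n : ℝ) ^ 2 / (2 * D) ^ 2))
        ≤ 64 * (r : ℝ) ^ 3 * (1 / A) * (θ * (q : ℝ) ^ 2) := by
      apply mul_le_mul_of_nonneg_left _ (by positivity)
      exact mul_le_mul_of_nonneg_left h3 hθpos.le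
    refine le_trans ?_ h4
    rw [hDcast]
    -- (m+1) 4 n r ≤ 64 r³ /A θ n² /(16 r² (m+1)²)  ⟸ (m+1)³ A ≤ θ n = e^8
    have h5 : ((m : ℝ) + 1) ^ 3 * A ≤ e ^ 8 := by
      calc ((m : ℝ) + 1) ^ 3 * A ≤ (L ^ 2) ^ 3 * L ^ 2 :=
            mul_le_mul (pow_le_pow_left₀ hm1pos.le hm1le 3) hAle hApos.le (by positivity)
        _ = L ^ 8 := by ring
        _ ≤ e ^ 8 := pow_le_pow_left₀ hLpos.le heL 8
    have h6 : 64 * (r : ℝ) ^ 3 * (1 / A) * (θ * ((n : ℝ) ^ 2 / (2 * (2 * r * ((m : ℝ) + 1))) ^ 2))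
        = (4 * n * r) * (e ^ 8 / (A * ((m : ℝ) + 1) ^ 2)) := by
      rw [hθ, hn16]; field_simp; ring
    rw [h6]
    have h7 : (m : ℝ) + 1 ≤ e ^ 8 / (A * ((m : ℝ) + 1) ^ 2) := by
      rw [le_div_iff₀ (by positivity)]
      calc ((m : ℝ) + 1) * (A * ((m : ℝ) + 1) ^ 2) = ((m : ℝ) + 1) ^ 3 * A := by ring
        _ ≤ e ^ 8 := h5
    calc ((m : ℝ) + 1) * (4 * n * r) = (4 * n * r) * ((m : ℝ) + 1) := by ring
      _ ≤ (4 * n * r) * (e ^ 8 / (A * ((m : ℝ) + 1) ^ 2)) :=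
          mul_le_mul_of_nonneg_left h7 (by positivity)
  have hthird : p * (1 - p) / ((m : ℝ) + 1) ≤ 256 * (r : ℝ) * (1 / A) := by
    rw [div_le_iff₀ hm1pos]
    -- m+1 ≥ X/r ≥ A/((4lb)² r)
    have h1 : A / (4 * lb) ^ 2 / r ≤ (m : ℝ) + 1 := by
      rw [hm1]
      exact (div_le_div_of_nonneg_right hXge hrpos.le).trans hcge
    have h2 : lam * lb ^ 2 ≤ 16 := lam_log_sq hlam0 hlam1
    have h3 : 256 * (r : ℝ) * (1 / A) * (A / (4 * lb) ^ 2 / r) ≤ 256 * (r : ℝ) * (1 / A) * ((m : ℝ) + 1) :=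
      mul_le_mul_of_nonneg_left h1 (by positivity)
    refine le_trans ?_ h3
    have h4 : 256 * (r : ℝ) * (1 / A) * (A / (4 * lb) ^ 2 / r) = 16 / lb ^ 2 := by
      field_simp; norm_num
    rw [h4, le_div_iff₀ (by positivity)]
    calc p * (1 - p) * lb ^ 2 ≤ lam * lb ^ 2 := mul_le_mul_of_nonneg_right hs2 (by positivity)
      _ ≤ 16 := h2
  have hr3 : (r : ℝ) ≤ (r : ℝ) ^ 3 := le_self_pow₀ (by linarith) (by norm_num)
  have hA1 : 0 ≤ 1 / A := by positivity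
  calc 64 * (p * (1 - p) * Real.sqrt (θ * B ^ d) * r
          + ρ ^ 2 / (1 - ρ) * (4 * n * r) / (θ * q ^ 2)) + p * (1 - p) / ((m : ℝ) + 1)
      ≤ 64 * ((r : ℝ) / 4 * (1 / A) + 64 * (r : ℝ) ^ 3 * (1 / A)) + 256 * (r : ℝ) * (1 / A) := by
        linarith
    _ = (272 * (r : ℝ) + 4096 * (r : ℝ) ^ 3) * (1 / A) := by ring
    _ ≤ (4368 * (r : ℝ) ^ 3) * (1 / A) := by
        apply mul_le_mul_of_nonneg_right _ hA1
        linarith
    _ = 4368 * (r : ℝ) ^ 3 / A := by ring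

/-- **Numerics**: MASTER (for all admissible parameters) + Poincare give the sharp inequality. -/
theorem numerics {r n : ℕ} (hr : 2 ≤ r) (hn : 2 ≤ n) {p : ℝ} (hp0 : 0 < p) (hp1 : p < 1)
    (V K : ℝ) (hK : 0 ≤ K) (hpoin : V ≤ p * (1 - p) * K)
    (hmaster : ∀ (d m q : ℕ) (ρ θ : ℝ), 1 ≤ d → 1 ≤ q → 2 * r * m * q ≤ n → 0 ≤ ρ → ρ < 1 →
      1 / 4 ≤ ρ ^ m → 0 < θ → (r : ℝ) * m < ((d : ℝ) + 1) ^ ((r : ℝ) / ((r : ℝ) - 1)) →
      V ≤ (64 * (p * (1 - p) * Real.sqrt (θ * (8 / min p (1 - p)) ^ d) * r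
          + ρ ^ 2 / (1 - ρ) * (4 * n * r) / (θ * q ^ 2)) + p * (1 - p) / (m + 1)) * K) :
    V ≤ Cr r / (Real.log n) ^ ((r : ℝ) / ((r : ℝ) - 1)) * K := by
  obtain ⟨hα1, hα2⟩ := alpha_bounds hr
  have hr2 : (2 : ℝ) ≤ r := by exact_mod_cast hr
  have hLpos : 0 < Real.log n := Real.log_pos (by exact_mod_cast hn)
  have hApos : 0 < (Real.log n) ^ ((r : ℝ) / ((r : ℝ) - 1)) := Real.rpow_pos_of_pos hLpos _
  have hr3 : (0 : ℝ) ≤ 4368 * (r : ℝ) ^ 3 := by positivity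
  have hsq : (0 : ℝ) ≤ (512 + 2 * (r : ℝ)) ^ 2 / 4 := by positivity
  rcases lt_or_ge (Real.log n) (512 + 2 * (r : ℝ)) with hL | hL
  · -- small `n`: Poincare
    have hs2' : p * (1 - p) ≤ 1 / 4 := by nlinarith [sq_nonneg (p - 1 / 2)]
    refine hpoin.trans (mul_le_mul_of_nonneg_right ?_ hK)
    refine hs2'.trans ?_
    rw [le_div_iff₀ hApos]
    have h1 : (Real.log n) ^ ((r : ℝ) / ((r : ℝ) - 1)) ≤ (512 + 2 * (r : ℝ)) ^ 2 := by
      calc (Real.log n) ^ ((r : ℝ) / ((r : ℝ) - 1))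
          ≤ (512 + 2 * (r : ℝ)) ^ ((r : ℝ) / ((r : ℝ) - 1)) :=
            Real.rpow_le_rpow hLpos.le hL.le (by linarith)
        _ ≤ (512 + 2 * (r : ℝ)) ^ (2 : ℝ) :=
            Real.rpow_le_rpow_of_exponent_le (by linarith) hα2
        _ = (512 + 2 * (r : ℝ)) ^ 2 := Real.rpow_two _
    unfold Cr
    linarith
  rcases lt_or_ge (Real.log n) (4 * Real.log (8 / min p (1 - p))) with hd | hd
  · -- tiny `min p (1-p)`: Poincare
    have hlam0 : 0 < min p (1 - p) := lt_min hp0 (by linarith)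
    have hs2 : p * (1 - p) ≤ min p (1 - p) := by
      rcases le_total p (1 - p) with h | h
      · rw [min_eq_left h]; nlinarith
      · rw [min_eq_right h]; nlinarith
    refine hpoin.trans (mul_le_mul_of_nonneg_right ?_ hK)
    refine hs2.trans ?_
    have hL512 : (512 : ℝ) ≤ Real.log n := by linarith
    have heL := le_exp_sixteenth hL512
    have hBpos : 0 < 8 / min p (1 - p) := by positivity
    have h1 : exp (Real.log n / 16) ^ 4 < 8 / min p (1 - p) := by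
      rw [← Real.exp_nat_mul, ← Real.lt_log_iff_exp_lt hBpos]
      push_cast
      linarith
    have h2 : (Real.log n) ^ 4 ≤ exp (Real.log n / 16) ^ 4 := pow_le_pow_left₀ hLpos.le heL 4
    have h3 : (Real.log n) ^ ((r : ℝ) / ((r : ℝ) - 1)) ≤ (Real.log n) ^ 4 := by
      calc (Real.log n) ^ ((r : ℝ) / ((r : ℝ) - 1)) ≤ (Real.log n) ^ (2 : ℝ) :=
            Real.rpow_le_rpow_of_exponent_le (by linarith) hα2
        _ = (Real.log n) ^ 2 := Real.rpow_two _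
        _ ≤ (Real.log n) ^ 4 := pow_le_pow_right₀ (by linarith) (by norm_num)
    have h4 : (Real.log n) ^ ((r : ℝ) / ((r : ℝ) - 1)) < 8 / min p (1 - p) := by linarith
    rw [lt_div_iff₀ hlam0] at h4
    rw [le_div_iff₀ hApos]
    have h5 : (8 : ℝ) ≤ Cr r := by
      unfold Cr
      have : (1 : ℝ) ≤ (r : ℝ) ^ 3 := one_le_pow₀ (by linarith)
      linarith
    linarith [mul_comm (min p (1 - p)) ((Real.log n) ^ ((r : ℝ) / ((r : ℝ) - 1)))]
  · refine (caseB hr hp0 hp1 V K hK hmaster hL hd).trans (mul_le_mul_of_nonneg_right ?_ hK)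
    apply div_le_div_of_nonneg_right _ hApos.le
    unfold Cr
    linarith

lemma Cr_two : Cr 2 ≤ 2 ^ 17 := by
  unfold Cr
  norm_num

end Crest.Agent.BKNum
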