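import Crest.Agent.BK_Master
import Crest.Agent.BK_Numerics

/-!
Row 56: the sharp Bourgain-Kalai inequality for `r`-uniform hypergraphs with the explicit constant
`BKNum.Cr r` (`mainR`), and for graphs (`r = 2`) with the constant `2^17` (`main2`), from
`BK.master`, `BK.poincare` and the pure real analysis of `BK_Numerics`.  Owner: helper33.
-/

set_option autoImplicit false

namespace Crest.Agent.BK

open Crest.CombinatoricsR.HypergraphCube

theorem mainR {r : ℕ} (hr : 2 ≤ r) (n : ℕ) (hn : 2 ≤ n) (p : ℝ) (hp0 : 0 < p) (hp1 : p < 1)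
    (f : (HyperedgeSlot n r → Bool) → Bool) (hf : IsSymmetric f) :
    probTrue p f * (1 - probTrue p f) ≤
      BKNum.Cr r / (Real.log n) ^ ((r : ℝ) / ((r : ℝ) - 1)) * totalInfluence p f := by
  refine BKNum.numerics hr hn hp0 hp1 _ _ ?_ ?_ ?_
  · rw [totalInfluence_eq_infl]
    exact infl_nonneg hp0.le hp1.le f
  · rw [probTrue_eq_ex, totalInfluence_eq_infl]
    exact poincare hp0 hp1 f
  · intro d m q ρ θ hd hq hqn hρ0 hρ1 hρm hθ hm
    exact master hr hp0 hp1 f hf d m q ρ θ hd hq hqn hρ0 hρ1 hρm hθ hm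

theorem main2 (n : ℕ) (hn : 2 ≤ n) (p : ℝ) (hp0 : 0 < p) (hp1 : p < 1)
    (f : (HyperedgeSlot n 2 → Bool) → Bool) (hf : IsSymmetric f) :
    probTrue p f * (1 - probTrue p f) ≤ 2 ^ 17 / (Real.log n) ^ 2 * totalInfluence p f := by
  have h := mainR (le_refl 2) n hn p hp0 hp1 f hf
  have hK : 0 ≤ totalInfluence p f := by
    rw [totalInfluence_eq_infl]
    exact infl_nonneg hp0.le hp1.le f
  have hL : 0 < Real.log n := Real.log_pos (by exact_mod_cast hn)
  have he : (((2 : ℕ) : ℝ) / (((2 : ℕ) : ℝ) - 1)) = (2 : ℝ) := by norm_num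
  rw [he, Real.rpow_two] at h
  refine h.trans (mul_le_mul_of_nonneg_right ?_ hK)
  exact div_le_div_of_nonneg_right BKNum.Cr_two (by positivity)

end Crest.Agent.BK
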