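import Mathlib
import Crest.Prelude.Def_HypergraphCube

/-!
# Row 56 (S0077/S0078), Step 1: the combinatorial lemma

A nonempty set `S` of `r`-subsets of `Fin n` all of whose non-isolated vertices have degree at
least `d + 1` has at least `(d+1)^{r/(r-1)} / r` members.  Consequently a nonempty `S` with
`r * |S| < (d+1)^{r/(r-1)}` has a vertex `u` with `1 ≤ deg_S u ≤ d`.
-/

set_option autoImplicit false

namespace Crest.Agent.BK

open Crest.CombinatoricsR.HypergraphCube

/-- The degree of the vertex `u` in the set of slots `S`. -/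
def slotDeg {n r : ℕ} (S : Finset (HyperedgeSlot n r)) (u : Fin n) : ℕ :=
  (S.filter (fun e => u ∈ e.1)).card

/-- Double counting: the degrees sum to `r * |S|`. -/
theorem sum_slotDeg {n r : ℕ} (S : Finset (HyperedgeSlot n r)) :
    ∑ u : Fin n, slotDeg S u = r * S.card := by
  classical
  unfold slotDeg
  simp_rw [Finset.card_filter]
  rw [Finset.sum_comm]
  have : ∀ e ∈ S, (∑ u : Fin n, if u ∈ e.1 then 1 else 0) = r := by
    intro e _
    rw [Finset.sum_ite_mem, Finset.univ_inter]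
    simp [e.2]
  rw [Finset.sum_congr rfl this]
  simp [mul_comm]

/-- The degree of a vertex is at most `(v-1)^(r-1)` where `v` is the number of non-isolated
vertices. -/
theorem slotDeg_le_pow {n r : ℕ} (S : Finset (HyperedgeSlot n r)) (u : Fin n) :
    slotDeg S u ≤ ((Finset.univ.filter (fun w : Fin n => slotDeg S w ≠ 0)).card) ^ (r - 1) := by
  classical
  set V := Finset.univ.filter (fun w : Fin n => slotDeg S w ≠ 0) with hV
  have h1 : slotDeg S u ≤ (Finset.powersetCard (r - 1) V).card := by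
    unfold slotDeg
    apply Finset.card_le_card_of_injOn (fun e => e.1.erase u)
    · intro e he
      have he := Finset.mem_filter.mp (Finset.mem_coe.mp he)
      rw [Finset.mem_coe, Finset.mem_powersetCard]
      refine ⟨?_, ?_⟩
      · intro w hw
        rw [hV, Finset.mem_filter]
        refine ⟨Finset.mem_univ _, ?_⟩
        unfold slotDeg
        rw [Finset.card_ne_zero]
        exact ⟨e, Finset.mem_filter.mpr ⟨he.1, Finset.mem_of_mem_erase hw⟩⟩
      · rw [Finset.card_erase_of_mem he.2, e.2]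
    · intro e he e' he' hee
      have he := Finset.mem_filter.mp (Finset.mem_coe.mp he)
      have he' := Finset.mem_filter.mp (Finset.mem_coe.mp he')
      apply Subtype.ext
      have := congrArg (insert u) hee
      simpa [Finset.insert_erase he.2, Finset.insert_erase he'.2] using this
  rw [Finset.card_powersetCard] at h1
  exact h1.trans (Nat.choose_le_pow _ _)

/-- **Step 1.** -/
theorem step1 {n r : ℕ} (hr : 2 ≤ r) (d : ℕ) (S : Finset (HyperedgeSlot n r)) (hS : S.Nonempty)
    (hdeg : ∀ u, slotDeg S u ≠ 0 → d + 1 ≤ slotDeg S u) :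
    ((d : ℝ) + 1) ^ ((r : ℝ) / ((r : ℝ) - 1)) ≤ (r : ℝ) * S.card := by
  classical
  set V := Finset.univ.filter (fun w : Fin n => slotDeg S w ≠ 0) with hV
  -- a non-isolated vertex
  obtain ⟨e, he⟩ := hS
  have hene : e.1.Nonempty := by
    rw [← Finset.card_pos, e.2]; omega
  obtain ⟨u, hu⟩ := hene
  have hu0 : slotDeg S u ≠ 0 := by
    unfold slotDeg
    rw [Finset.card_ne_zero]
    exact ⟨e, Finset.mem_filter.mpr ⟨he, hu⟩⟩
  have h1 : d + 1 ≤ V.card ^ (r - 1) := (hdeg u hu0).trans (slotDeg_le_pow S u)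
  have h2 : V.card * (d + 1) ≤ r * S.card := by
    rw [← sum_slotDeg S]
    calc V.card * (d + 1) = ∑ _w ∈ V, (d + 1) := by simp
      _ ≤ ∑ w ∈ V, slotDeg S w := by
          apply Finset.sum_le_sum
          intro w hw
          exact hdeg w (Finset.mem_filter.mp hw).2
      _ ≤ ∑ w : Fin n, slotDeg S w :=
          Finset.sum_le_sum_of_subset (Finset.subset_univ _)
  have hr1 : (0 : ℝ) < (r : ℝ) - 1 := by
    have : (2 : ℝ) ≤ r := by exact_mod_cast hr
    linarith
  have hd0 : (0 : ℝ) < (d : ℝ) + 1 := by positivity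
  -- `(d+1)^(1/(r-1)) ≤ v`
  have h3 : ((d : ℝ) + 1) ^ (1 / ((r : ℝ) - 1)) ≤ V.card := by
    have h1' : ((d : ℝ) + 1) ≤ (V.card : ℝ) ^ ((r : ℝ) - 1) := by
      have : ((r : ℝ) - 1) = ((r - 1 : ℕ) : ℝ) := by
        rw [Nat.cast_sub (by omega)]; simp
      rw [this, Real.rpow_natCast]
      exact_mod_cast h1
    calc ((d : ℝ) + 1) ^ (1 / ((r : ℝ) - 1))
        ≤ ((V.card : ℝ) ^ ((r : ℝ) - 1)) ^ (1 / ((r : ℝ) - 1)) :=
          Real.rpow_le_rpow hd0.le h1' (by positivity)
      _ = V.card := by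
          rw [← Real.rpow_mul (by positivity), mul_one_div_cancel hr1.ne', Real.rpow_one]
  have h4 : ((d : ℝ) + 1) ^ ((r : ℝ) / ((r : ℝ) - 1))
      = ((d : ℝ) + 1) ^ (1 / ((r : ℝ) - 1)) * ((d : ℝ) + 1) := by
    have : (r : ℝ) / ((r : ℝ) - 1) = 1 / ((r : ℝ) - 1) + 1 := by
      field_simp; ring
    rw [this, Real.rpow_add hd0, Real.rpow_one]
  rw [h4]
  calc ((d : ℝ) + 1) ^ (1 / ((r : ℝ) - 1)) * ((d : ℝ) + 1)
      ≤ (V.card : ℝ) * ((d : ℝ) + 1) := by gcongr
    _ ≤ (r : ℝ) * S.card := by exact_mod_cast h2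

/-- **Step 1, contrapositive form**: small nonempty sets of slots have a vertex of degree in
`[1, d]`. -/
theorem exists_low_degree_vertex {n r : ℕ} (hr : 2 ≤ r) (d : ℕ) (S : Finset (HyperedgeSlot n r))
    (hS : S.Nonempty) (hsmall : (r : ℝ) * S.card < ((d : ℝ) + 1) ^ ((r : ℝ) / ((r : ℝ) - 1))) :
    ∃ u : Fin n, 1 ≤ slotDeg S u ∧ slotDeg S u ≤ d := by
  by_contra hcon
  push Not at hcon
  refine absurd (step1 hr d S hS ?_) (not_le.mpr hsmall)
  intro u hu
  exact hcon u (Nat.one_le_iff_ne_zero.mpr hu)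

end Crest.Agent.BK
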