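import Crest.Agent.BK_Der
import Crest.Agent.BK_Step1

/-!
# BK task B5: every small Fourier set has a low-degree vertex => reduction to star-cube low-degree weights
For `S` nonempty with `|S| ≤ m`: `r |S| ≤ r m < (d+1)^{r/(r-1)}`, so `exists_low_degree_vertex` gives `u` with `1 ≤ slotDeg S u ≤ d`;
pick `e ∈ S` with `u ∈ e.1`. `slotDeg S u = (S ∩ star u).card`. By `coef_der`, `coef g S = coef (der e g) (S.erase e)` and
`((S.erase e) ∩ star u).card = slotDeg S u - 1 ≤ d - 1`. Hence
`coef g S^2 ≤ ∑_u ∑_{e ∈ star u} 1[e ∈ S, slotDeg S u ≤ d] coef g S^2`; sum over `S`, exchange the sums; for fixed `(u,e)` the map `S ↦ S.erase e` is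
injective on `{S ∋ e}` and lands in the index set of `lowW p (star u) (d-1) (der p e g)`; all terms are nonnegative.
-/

set_option autoImplicit false
open Finset
open Crest.CombinatoricsR.HypergraphCube

namespace Crest.Agent.BK
variable {n r : ℕ}

theorem low_sum_le {p : ℝ} (hp0 : 0 < p) (hp1 : p < 1) (hr : 2 ≤ r) (d m : ℕ) (hd : 1 ≤ d)
    (hm : (r : ℝ) * m < ((d : ℝ) + 1) ^ ((r : ℝ) / ((r : ℝ) - 1)))
    (g : (HyperedgeSlot n r → Bool) → ℝ) :
    ∑ S ∈ (univ : Finset (Finset (HyperedgeSlot n r))).filter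
        (fun S => S.Nonempty ∧ S.card ≤ m), coef p g S ^ 2
      ≤ ∑ u : Fin n, ∑ e ∈ (star u : Finset (HyperedgeSlot n r)),
          lowW p (star u) (d - 1) (der p e g) := by
  classical
  set L := (univ : Finset (Finset (HyperedgeSlot n r))).filter
    (fun S => S.Nonempty ∧ S.card ≤ m) with hL
  -- choice of `(u, e)` for every `S`
  have hex : ∀ S ∈ L, ∃ ue : Fin n × HyperedgeSlot n r, ue.2 ∈ S ∧
      ue.2 ∈ (star ue.1 : Finset (HyperedgeSlot n r)) ∧
      ((S.erase ue.2) ∩ star ue.1).card ≤ d - 1 := by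
    intro S hS
    obtain ⟨hne, hcard⟩ := (Finset.mem_filter.mp hS).2
    have hsmall : (r : ℝ) * S.card < ((d : ℝ) + 1) ^ ((r : ℝ) / ((r : ℝ) - 1)) := by
      refine lt_of_le_of_lt ?_ hm
      apply mul_le_mul_of_nonneg_left _ (Nat.cast_nonneg r)
      exact_mod_cast hcard
    obtain ⟨u, h1, h2⟩ := exists_low_degree_vertex hr d S hne hsmall
    have hne' : (S.filter (fun e => u ∈ e.1)).Nonempty := Finset.card_pos.mp h1
    obtain ⟨e, he⟩ := hne'
    obtain ⟨heS, hue⟩ := Finset.mem_filter.mp he
    refine ⟨(u, e), heS, by simp [star, hue], ?_⟩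
    have hEq : (S.erase e) ∩ star u = (S.filter (fun e => u ∈ e.1)).erase e := by
      ext a
      simp only [star, Finset.mem_inter, Finset.mem_erase, Finset.mem_filter, Finset.mem_univ,
        true_and]
      tauto
    show ((S.erase e) ∩ star u).card ≤ d - 1
    rw [hEq, Finset.card_erase_of_mem he]
    unfold slotDeg at h2
    omega
  rcases L.eq_empty_or_nonempty with hLe | ⟨S0, hS0⟩
  · rw [hLe, Finset.sum_empty]
    apply Finset.sum_nonneg
    intro u _
    apply Finset.sum_nonneg
    intro e _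
    unfold lowW
    exact Finset.sum_nonneg (fun T _ => sq_nonneg _)
  haveI : Nonempty (Fin n × HyperedgeSlot n r) := ⟨(hex S0 hS0).choose⟩
  choose! φ hφ1 hφ2 hφ3 using hex
  -- fibre decomposition of the left-hand side
  have hdecomp : ∑ S ∈ L, coef p g S ^ 2
      = ∑ u : Fin n, ∑ e ∈ (star u : Finset (HyperedgeSlot n r)),
          ∑ S ∈ (L.filter (fun S => (φ S).1 = u)).filter (fun S => (φ S).2 = e),
            coef p g S ^ 2 := by
    rw [← Finset.sum_fiberwise L (fun S => (φ S).1)]
    apply Finset.sum_congr rfl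
    intro u _
    rw [Finset.sum_fiberwise_of_maps_to]
    intro S hS
    obtain ⟨hSL, hSu⟩ := Finset.mem_filter.mp hS
    rw [← hSu]
    exact hφ2 S hSL
  rw [hdecomp]
  apply Finset.sum_le_sum
  intro u _
  apply Finset.sum_le_sum
  intro e _
  set Lue := (L.filter (fun S => (φ S).1 = u)).filter (fun S => (φ S).2 = e) with hLue
  have hmem : ∀ S ∈ Lue, e ∈ S ∧ ((S.erase e) ∩ star u).card ≤ d - 1 := by
    intro S hS
    obtain ⟨hS1, hSe⟩ := Finset.mem_filter.mp hS
    obtain ⟨hSL, hSu⟩ := Finset.mem_filter.mp hS1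
    refine ⟨?_, ?_⟩
    · rw [← hSe]; exact hφ1 S hSL
    · rw [← hSe, ← hSu]; exact hφ3 S hSL
  calc ∑ S ∈ Lue, coef p g S ^ 2
      = ∑ S ∈ Lue, coef p (der p e g) (S.erase e) ^ 2 := by
        apply Finset.sum_congr rfl
        intro S hS
        rw [coef_der hp0 hp1, if_neg (Finset.notMem_erase e S), Finset.insert_erase (hmem S hS).1]
    _ = ∑ T ∈ Lue.image (fun S => S.erase e), coef p (der p e g) T ^ 2 := by
        rw [Finset.sum_image]
        intro S hS S' hS' hEq
        have h1 := (hmem S hS).1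
        have h2 := (hmem S' hS').1
        have : insert e (S.erase e) = insert e (S'.erase e) := by
          simp only at hEq
          rw [hEq]
        rwa [Finset.insert_erase h1, Finset.insert_erase h2] at this
    _ ≤ lowW p (star u) (d - 1) (der p e g) := by
        unfold lowW
        apply Finset.sum_le_sum_of_subset_of_nonneg
        · intro T hT
          obtain ⟨S, hS, rfl⟩ := Finset.mem_image.mp hT
          exact Finset.mem_filter.mpr ⟨Finset.mem_univ _, (hmem S hS).2⟩
        · intro T _ _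
          exact sq_nonneg _

end Crest.Agent.BK
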