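import Crest.Agent.BK_Noise

/-!
# BK task B2a: Fourier multiplier of the smoothing, `fhat(S)^2 ≤ 64 ghat(S)^2` for `|S| ≤ m`
* `coef_vsm`: linearity (`coef_const_mul`, `coef_sum`) + `coef_avg`.
* counting: `Disjoint S (touch Q) ↔ Q` is disjoint from `V(S) := S.biUnion (·.1)`, `|V(S)| ≤ r |S| ≤ r m`.
  `#{Q : |Q| = q, w ∈ Q} = C(n-1,q-1)` and `n * C(n-1,q-1) = q * C(n,q)` (`Nat.succ_mul_choose_eq` / `Nat.add_one_mul_choose_eq`), so
  `#{Q meeting V(S)} ≤ r m q C(n,q)/n ≤ C(n,q)/2`.
* `coef g S = (count / C(n,q)) * ρ^|S| * coef (ind f) S`, `count/C(n,q) ≥ 1/2`, `ρ^|S| ≥ ρ^m ≥ 1/4` (`0 ≤ ρ ≤ 1`).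
-/

set_option autoImplicit false
open Finset
open Crest.CombinatoricsR.HypergraphCube

namespace Crest.Agent.BK
variable {n r : ℕ}

theorem coef_vsm {p : ℝ} (hp0 : 0 < p) (hp1 : p < 1) (q : ℕ) (T : Finset (Fin n))
    (h : (HyperedgeSlot n r → Bool) → ℝ) (S : Finset (HyperedgeSlot n r)) :
    coef p (vsm p q T h) S
      = (((qsets q T).filter (fun Q => Disjoint S (touch Q))).card : ℝ) / (n.choose q : ℝ)
        * coef p h S := by
  unfold vsm
  rw [coef_const_mul, coef_sum]
  have h1 : ∀ Q ∈ qsets q T, coef p (fun x => avg p (touch Q) h x) S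
      = if Disjoint S (touch Q) then coef p h S else 0 := fun Q _ => coef_avg hp0 hp1 (touch Q) h S
  rw [Finset.sum_congr rfl h1, ← Finset.sum_filter, Finset.sum_const, nsmul_eq_mul]
  ring

private theorem disjoint_touch_iff (S : Finset (HyperedgeSlot n r)) (Q : Finset (Fin n)) :
    Disjoint S (touch Q) ↔ Disjoint (S.biUnion (fun e => e.1)) Q := by
  rw [Finset.disjoint_biUnion_left]
  constructor
  · intro h e he
    by_contra hcon
    exact (Finset.disjoint_left.mp h he) (by simp [touch, hcon])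
  · intro h
    rw [Finset.disjoint_left]
    intro e he het
    simp only [touch, mem_filter, mem_univ, true_and] at het
    exact het (h e he)

private theorem card_filter_mem_le (q' : ℕ) (w : Fin n) :
    (((univ : Finset (Fin n)).powersetCard (q' + 1)).filter (fun Q => w ∈ Q)).card
      ≤ (n - 1).choose q' := by
  have hsub : ((univ : Finset (Fin n)).powersetCard (q' + 1)).filter (fun Q => w ∈ Q)
      ⊆ (((univ : Finset (Fin n)).erase w).powersetCard q').image (insert w) := by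
    intro Q hQ
    rw [mem_filter, mem_powersetCard] at hQ
    obtain ⟨⟨_, hc⟩, hw⟩ := hQ
    rw [mem_image]
    refine ⟨Q.erase w, ?_, Finset.insert_erase hw⟩
    rw [mem_powersetCard]
    refine ⟨Finset.erase_subset_erase w (subset_univ Q), ?_⟩
    rw [Finset.card_erase_of_mem hw, hc]
    rfl
  calc _ ≤ _ := card_le_card hsub
    _ ≤ (((univ : Finset (Fin n)).erase w).powersetCard q').card := card_image_le
    _ = (n - 1).choose q' := by
      rw [card_powersetCard, card_erase_of_mem (mem_univ w), card_univ, Fintype.card_fin]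

theorem card_qsets_disjoint_ge {q m : ℕ} (hq : 1 ≤ q) (hqn : 2 * r * m * q ≤ n)
    (S : Finset (HyperedgeSlot n r)) (hS0 : S.Nonempty) (hS : S.card ≤ m) :
    (n.choose q : ℝ) / 2
      ≤ (((qsets q (∅ : Finset (Fin n))).filter (fun Q => Disjoint S (touch Q))).card : ℝ) := by
  classical
  set V := S.biUnion (fun e => e.1) with hV
  have hVcard : V.card ≤ r * m := by
    calc V.card ≤ ∑ e ∈ S, e.1.card := card_biUnion_le
      _ = ∑ e ∈ S, r := sum_congr rfl (fun e _ => e.2)
      _ = S.card * r := by rw [sum_const, smul_eq_mul]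
      _ ≤ r * m := by rw [mul_comm]; exact Nat.mul_le_mul_left r hS
  obtain ⟨q', rfl⟩ : ∃ q', q = q' + 1 := ⟨q - 1, by omega⟩
  set P := (univ : Finset (Fin n)).powersetCard (q' + 1) with hP
  have hqs : qsets (q' + 1) (∅ : Finset (Fin n)) = P := by
    unfold qsets
    simp [hP]
  have hG : (qsets (q' + 1) (∅ : Finset (Fin n))).filter (fun Q => Disjoint S (touch Q))
      = P.filter (fun Q => Disjoint V Q) := by
    rw [hqs]
    exact filter_congr (fun Q _ => disjoint_touch_iff S Q)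
  rw [hG]
  have hsplit : (P.filter (fun Q => Disjoint V Q)).card + (P.filter (fun Q => ¬ Disjoint V Q)).card
      = n.choose (q' + 1) := by
    rw [Finset.card_filter_add_card_filter_not, hP, card_powersetCard, card_univ, Fintype.card_fin]
  have hB : (P.filter (fun Q => ¬ Disjoint V Q)).card ≤ V.card * (n - 1).choose q' := by
    have hsub : P.filter (fun Q => ¬ Disjoint V Q)
        ⊆ V.biUnion (fun w => P.filter (fun Q => w ∈ Q)) := by
      intro Q hQ
      rw [mem_filter] at hQ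
      obtain ⟨w, hwV, hwQ⟩ := not_disjoint_iff.mp hQ.2
      exact mem_biUnion.mpr ⟨w, hwV, mem_filter.mpr ⟨hQ.1, hwQ⟩⟩
    calc _ ≤ _ := card_le_card hsub
      _ ≤ ∑ w ∈ V, (P.filter (fun Q => w ∈ Q)).card := card_biUnion_le
      _ ≤ ∑ w ∈ V, (n - 1).choose q' := sum_le_sum (fun w _ => card_filter_mem_le q' w)
      _ = V.card * (n - 1).choose q' := by rw [sum_const, smul_eq_mul]
  have h2B : 2 * (P.filter (fun Q => ¬ Disjoint V Q)).card ≤ n.choose (q' + 1) := by
    rcases V.eq_empty_or_nonempty with hVe | ⟨w, _⟩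
    · have hc0 : V.card = 0 := by rw [hVe]; rfl
      rw [hc0, zero_mul, Nat.le_zero_eq] at hB
      rw [hB]
      exact Nat.zero_le _
    · have hn : 0 < n := Fin.pos w
      have hid : n * (n - 1).choose q' = n.choose (q' + 1) * (q' + 1) := by
        obtain ⟨n', hn'⟩ : ∃ n', n = n' + 1 := ⟨n - 1, by omega⟩
        rw [hn']
        exact Nat.add_one_mul_choose_eq n' q'
      have h3 : n * (2 * (P.filter (fun Q => ¬ Disjoint V Q)).card) ≤ n * n.choose (q' + 1) := by
        calc n * (2 * (P.filter (fun Q => ¬ Disjoint V Q)).card)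
            ≤ n * (2 * (V.card * (n - 1).choose q')) := by gcongr
          _ = 2 * V.card * (n * (n - 1).choose q') := by ring
          _ = 2 * V.card * (n.choose (q' + 1) * (q' + 1)) := by rw [hid]
          _ ≤ 2 * (r * m) * (n.choose (q' + 1) * (q' + 1)) := by gcongr
          _ = (2 * r * m * (q' + 1)) * n.choose (q' + 1) := by ring
          _ ≤ n * n.choose (q' + 1) := by gcongr
      exact Nat.le_of_mul_le_mul_left h3 hn
  have e1 : (n.choose (q' + 1) : ℝ) = ((P.filter (fun Q => Disjoint V Q)).card : ℝ)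
      + ((P.filter (fun Q => ¬ Disjoint V Q)).card : ℝ) := by exact_mod_cast hsplit.symm
  have e2 : (2 : ℝ) * ((P.filter (fun Q => ¬ Disjoint V Q)).card : ℝ) ≤ (n.choose (q' + 1) : ℝ) := by
    exact_mod_cast h2B
  linarith

theorem coef_ind_sq_le (hr : 1 ≤ r) {p ρ : ℝ} (hp0 : 0 < p) (hp1 : p < 1) (hρ0 : 0 ≤ ρ) (hρ1 : ρ < 1)
    {q m : ℕ} (hq : 1 ≤ q) (hqn : 2 * r * m * q ≤ n) (hρm : 1 / 4 ≤ ρ ^ m)
    (f : (HyperedgeSlot n r → Bool) → Bool)
    (S : Finset (HyperedgeSlot n r)) (hS0 : S.Nonempty) (hS : S.card ≤ m) :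
    coef p (ind f) S ^ 2 ≤ 64 * coef p (gS p ρ q f) S ^ 2 := by
  have hm : 1 ≤ m := le_trans (Finset.card_pos.mpr hS0) hS
  have hqn' : q ≤ n := by
    calc q = 1 * q := (one_mul q).symm
      _ ≤ (2 * r * m) * q := by
          apply Nat.mul_le_mul_right
          nlinarith
      _ ≤ n := hqn
  have hC : (0 : ℝ) < (n.choose q : ℝ) := by exact_mod_cast Nat.choose_pos hqn'
  have hcount := card_qsets_disjoint_ge hq hqn S hS0 hS
  set cnt : ℝ := (((qsets q (∅ : Finset (Fin n))).filter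
    (fun Q => Disjoint S (touch Q))).card : ℝ) with hcnt
  have ha : 1 / 2 ≤ cnt / (n.choose q : ℝ) := by
    rw [le_div_iff₀ hC]
    linarith
  have hb : 1 / 4 ≤ ρ ^ S.card := le_trans hρm (pow_le_pow_of_le_one hρ0 hρ1.le hS)
  have hg : coef p (gS p ρ q f) S
      = (cnt / (n.choose q : ℝ) * ρ ^ S.card) * coef p (ind f) S := by
    unfold gS
    rw [coef_vsm hp0 hp1, coef_noise hp0 hp1]
    ring
  have ht : 1 / 8 ≤ cnt / (n.choose q : ℝ) * ρ ^ S.card := by
    nlinarith
  rw [hg, mul_pow]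
  have ht2 : 1 / 64 ≤ (cnt / (n.choose q : ℝ) * ρ ^ S.card) ^ 2 := by nlinarith
  nlinarith [sq_nonneg (coef p (ind f) S)]

end Crest.Agent.BK
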