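import Crest.Agent.BK_CondLevel
import Crest.Agent.BK_SmoothCoef
import Crest.Agent.BK_Bad
import Crest.Agent.BK_Reduce

/-!
# BK task B6: the MASTER inequality (assembly)
`probTrue p f = ex p (ind f)` (`bernoulliProb_eq_ex`), `totalInfluence p f = infl p f` (`bernoulliProb_piv_eq_ex`). `g := gS p ρ q f`.
 Var ≤ low(f) + p(1-p) infl/(m+1)                                   (`var_le_low_add`)
 low(f) ≤ 64 low(g)                                                 (`coef_ind_sq_le`)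
 low(g) ≤ ∑_u ∑_{e ∈ star u} lowW p (star u) (d-1) (der p e g)       (`low_sum_le`)
 lowW .. ≤ p(1-p) sqrt(θ B^(d-1)) E[Ys e] + E[1[θ ≤ bp u e] (der e g)^2]   (`lowW_le` with `Y = Ys e`, `abs_der_gS_le`, `Ys_nonneg`, `Ys_le_one`;
                                                                     `avg p (star u) (Ys e) = bp u e` by definition)
 sqrt(θ B^(d-1)) ≤ sqrt(θ B^d) (`Bc_ge`), E[Ys e] ≤ E[piv f e] (`ex_Ys_le`), ∑∑ E[piv f e] = r infl (`sum_star_ex_piv`), bad part: `bad_le`.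
-/

set_option autoImplicit false
open Finset
open Crest.CombinatoricsR.HypergraphCube

namespace Crest.Agent.BK
variable {n r : ℕ}

theorem probTrue_eq_ex (p : ℝ) (f : (HyperedgeSlot n r → Bool) → Bool) :
    probTrue p f = ex p (ind f) := by
  unfold probTrue
  exact bernoulliProb_eq_ex p f

theorem totalInfluence_eq_infl (p : ℝ) (f : (HyperedgeSlot n r → Bool) → Bool) :
    totalInfluence p f = infl p f := by
  unfold totalInfluence infl pivotalInfluence
  exact Finset.sum_congr rfl (fun e _ => bernoulliProb_piv_eq_ex p f e)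

theorem master (hr : 2 ≤ r) {p : ℝ} (hp0 : 0 < p) (hp1 : p < 1)
    (f : (HyperedgeSlot n r → Bool) → Bool) (hf : IsSymmetric f)
    (d m q : ℕ) (ρ θ : ℝ) (hd : 1 ≤ d) (hq : 1 ≤ q) (hqn : 2 * r * m * q ≤ n)
    (hρ0 : 0 ≤ ρ) (hρ1 : ρ < 1) (hρm : 1 / 4 ≤ ρ ^ m) (hθ : 0 < θ)
    (hm : (r : ℝ) * m < ((d : ℝ) + 1) ^ ((r : ℝ) / ((r : ℝ) - 1))) :
    probTrue p f * (1 - probTrue p f) ≤
      (64 * (p * (1 - p) * Real.sqrt (θ * Bc p ^ d) * r
              + ρ ^ 2 / (1 - ρ) * (4 * n * r) / (θ * q ^ 2))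
        + p * (1 - p) / (m + 1)) * totalInfluence p f := by
  rw [probTrue_eq_ex, totalInfluence_eq_infl]
  have hp0' : (0:ℝ) ≤ p := hp0.le
  have hp1' : p ≤ 1 := hp1.le
  have hs : 0 ≤ p * (1 - p) := mul_nonneg hp0' (by linarith)
  set g := gS p ρ q f with hg
  set K := infl p f with hK
  have hK0 : 0 ≤ K := infl_nonneg hp0' hp1' f
  -- step 1
  have h1 := var_le_low_add hp0 hp1 f m
  -- step 2
  have h2 : ∑ S ∈ (univ : Finset (Finset (HyperedgeSlot n r))).filter
        (fun S => S.Nonempty ∧ S.card ≤ m), coef p (ind f) S ^ 2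
      ≤ 64 * ∑ S ∈ (univ : Finset (Finset (HyperedgeSlot n r))).filter
        (fun S => S.Nonempty ∧ S.card ≤ m), coef p g S ^ 2 := by
    rw [Finset.mul_sum]
    apply Finset.sum_le_sum
    intro S hS
    have hS' := (Finset.mem_filter.mp hS).2
    exact coef_ind_sq_le (by omega) hp0 hp1 hρ0 hρ1 hq hqn hρm f S hS'.1 hS'.2
  -- step 3
  have h3 := low_sum_le hp0 hp1 hr d m hd hm g
  -- step 4
  have hB : (1:ℝ) ≤ Bc p := le_trans (by norm_num) (Bc_ge hp0 hp1)
  have hsqrt : Real.sqrt (θ * Bc p ^ (d - 1)) ≤ Real.sqrt (θ * Bc p ^ d) := by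
    apply Real.sqrt_le_sqrt
    apply mul_le_mul_of_nonneg_left _ hθ.le
    exact pow_le_pow_right₀ hB (by omega)
  have h4 : ∀ u : Fin n, ∀ e ∈ (star u : Finset (HyperedgeSlot n r)),
      lowW p (star u) (d - 1) (der p e g)
        ≤ p * (1 - p) * Real.sqrt (θ * Bc p ^ d) * ex p (piv f e)
          + ex p (fun x => (if θ ≤ bp p ρ q f u e x then 1 else 0) * der p e g x ^ 2) := by
    intro u e _
    have := lowW_le hp0 hp1 (star u) (d - 1) (der p e g) (Ys p ρ q f e)
      (Ys_nonneg hp0' hp1' hρ0 hρ1.le q f e) (Ys_le_one hp0' hp1' hρ0 hρ1.le q f e)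
      (abs_der_gS_le hp0 hp1 hρ0 hρ1.le q f e) hθ
    refine le_trans this ?_
    have hY : ex p (Ys p ρ q f e) ≤ ex p (piv f e) := ex_Ys_le hp0' hp1' hρ0 hρ1.le q f e
    have hY0 : 0 ≤ ex p (Ys p ρ q f e) := ex_nonneg hp0' hp1' (Ys_nonneg hp0' hp1' hρ0 hρ1.le q f e)
    have : p * (1 - p) * Real.sqrt (θ * Bc p ^ (d - 1)) * ex p (Ys p ρ q f e)
        ≤ p * (1 - p) * Real.sqrt (θ * Bc p ^ d) * ex p (piv f e) := by
      apply mul_le_mul _ hY hY0 (mul_nonneg hs (Real.sqrt_nonneg _))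
      exact mul_le_mul_of_nonneg_left hsqrt hs
    have hbp : (fun x => (if θ ≤ avg p (star u) (Ys p ρ q f e) x then (1:ℝ) else 0) * der p e g x ^ 2)
        = (fun x => (if θ ≤ bp p ρ q f u e x then (1:ℝ) else 0) * der p e g x ^ 2) := rfl
    rw [hbp]
    linarith
  have h5 : ∑ u : Fin n, ∑ e ∈ (star u : Finset (HyperedgeSlot n r)),
        lowW p (star u) (d - 1) (der p e g)
      ≤ p * (1 - p) * Real.sqrt (θ * Bc p ^ d) * (r * K)
        + ρ ^ 2 / (1 - ρ) * (4 * n * r) / (θ * q ^ 2) * K := by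
    calc ∑ u : Fin n, ∑ e ∈ (star u : Finset (HyperedgeSlot n r)),
          lowW p (star u) (d - 1) (der p e g)
        ≤ ∑ u : Fin n, ∑ e ∈ (star u : Finset (HyperedgeSlot n r)),
          (p * (1 - p) * Real.sqrt (θ * Bc p ^ d) * ex p (piv f e)
          + ex p (fun x => (if θ ≤ bp p ρ q f u e x then 1 else 0) * der p e g x ^ 2)) :=
          Finset.sum_le_sum (fun u _ => Finset.sum_le_sum (h4 u))
      _ = p * (1 - p) * Real.sqrt (θ * Bc p ^ d)
            * (∑ u : Fin n, ∑ e ∈ (star u : Finset (HyperedgeSlot n r)), ex p (piv f e))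
          + ∑ u : Fin n, ∑ e ∈ (star u : Finset (HyperedgeSlot n r)),
            ex p (fun x => (if θ ≤ bp p ρ q f u e x then 1 else 0) * der p e g x ^ 2) := by
          simp only [Finset.sum_add_distrib, Finset.mul_sum]
      _ ≤ _ := by
          rw [sum_star_ex_piv]
          have := bad_le hp0 hp1 hρ0 hρ1 hq hf hθ
          linarith
  have hfin : p * (1 - p) * K / (m + 1) = p * (1 - p) / (m + 1) * K := by ring
  calc ex p (ind f) * (1 - ex p (ind f))
      ≤ 64 * (p * (1 - p) * Real.sqrt (θ * Bc p ^ d) * (r * K)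
        + ρ ^ 2 / (1 - ρ) * (4 * n * r) / (θ * q ^ 2) * K) + p * (1 - p) * K / (m + 1) := by
        linarith
    _ = _ := by rw [hfin]; ring

/-- Poincare inequality in Prelude's vocabulary. -/
theorem poincare' {p : ℝ} (hp0 : 0 < p) (hp1 : p < 1) (f : (HyperedgeSlot n r → Bool) → Bool) :
    probTrue p f * (1 - probTrue p f) ≤ p * (1 - p) * totalInfluence p f := by
  rw [probTrue_eq_ex, totalInfluence_eq_infl]
  exact poincare hp0 hp1 f

theorem totalInfluence_nonneg {p : ℝ} (hp0 : 0 ≤ p) (hp1 : p ≤ 1)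
    (f : (HyperedgeSlot n r → Bool) → Bool) : 0 ≤ totalInfluence p f := by
  rw [totalInfluence_eq_infl]
  exact infl_nonneg hp0 hp1 f

end Crest.Agent.BK
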