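import Crest.Agent.BK_Der

/-!
# BK task A5: the noise operator `noise p ρ` (`0 ≤ ρ ≤ 1`, `0 < p < 1`)
`noise p ρ h x = ∑_y (∏_i ker p ρ (x i) (y i)) * h y`. One-site facts:
`ker ≥ 0`, `ker a true + ker a false = 1`,
`ker a true * phi true + ker a false * phi false = ρ * phi a`,
reversibility `w a * ker a b = w b * ker b a` with `w true = p`, `w false = 1-p`.
All product formulas through `sum_prod_eq`.
-/

set_option autoImplicit false
open Finset

namespace Crest.Agent.BK
variable {ι : Type*} [Fintype ι] [DecidableEq ι]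

theorem ker_nonneg {p ρ : ℝ} (hp0 : 0 ≤ p) (hp1 : p ≤ 1) (hρ0 : 0 ≤ ρ) (hρ1 : ρ ≤ 1)
    (a b : Bool) : 0 ≤ ker p ρ a b := by
  unfold ker
  have h1 : (0:ℝ) ≤ (if a = b then 1 else 0) := by split_ifs <;> norm_num
  have h2 : (0:ℝ) ≤ (if b then p else 1 - p) := by split_ifs <;> linarith
  have h3 : (0:ℝ) ≤ 1 - ρ := by linarith
  positivity

theorem ker_sum (p ρ : ℝ) (a : Bool) : ker p ρ a true + ker p ρ a false = 1 := by
  cases a <;> simp [ker] <;> ring

theorem sum_prod_ker (p ρ : ℝ) (x : ι → Bool) :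
    ∑ y : ι → Bool, ∏ i, ker p ρ (x i) (y i) = 1 := by
  rw [sum_prod_eq (fun i b => ker p ρ (x i) b)]
  simp [ker_sum]

theorem noise_const (p ρ c : ℝ) : noise p ρ (fun _ : ι → Bool => c) = fun _ => c := by
  funext x
  unfold noise
  rw [← Finset.sum_mul, sum_prod_ker, one_mul]

theorem noise_add (p ρ : ℝ) (h k : (ι → Bool) → ℝ) :
    noise p ρ (fun x => h x + k x) = fun x => noise p ρ h x + noise p ρ k x := by
  funext x
  unfold noise
  rw [← Finset.sum_add_distrib]
  exact Finset.sum_congr rfl (fun y _ => by ring)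

theorem noise_const_mul (p ρ c : ℝ) (h : (ι → Bool) → ℝ) :
    noise p ρ (fun x => c * h x) = fun x => c * noise p ρ h x := by
  funext x
  unfold noise
  rw [Finset.mul_sum]
  exact Finset.sum_congr rfl (fun y _ => by ring)

theorem noise_mono {p ρ : ℝ} (hp0 : 0 ≤ p) (hp1 : p ≤ 1) (hρ0 : 0 ≤ ρ) (hρ1 : ρ ≤ 1)
    {h k : (ι → Bool) → ℝ} (hk : ∀ x, h x ≤ k x) (x : ι → Bool) :
    noise p ρ h x ≤ noise p ρ k x := by
  unfold noise
  apply Finset.sum_le_sum
  intro y _
  exact mul_le_mul_of_nonneg_left (hk y)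
    (Finset.prod_nonneg (fun i _ => ker_nonneg hp0 hp1 hρ0 hρ1 _ _))

theorem noise_nonneg {p ρ : ℝ} (hp0 : 0 ≤ p) (hp1 : p ≤ 1) (hρ0 : 0 ≤ ρ) (hρ1 : ρ ≤ 1)
    {h : (ι → Bool) → ℝ} (hh : ∀ x, 0 ≤ h x) (x : ι → Bool) : 0 ≤ noise p ρ h x := by
  unfold noise
  apply Finset.sum_nonneg
  intro y _
  exact mul_nonneg (Finset.prod_nonneg (fun i _ => ker_nonneg hp0 hp1 hρ0 hρ1 _ _)) (hh y)

theorem noise_le_one {p ρ : ℝ} (hp0 : 0 ≤ p) (hp1 : p ≤ 1) (hρ0 : 0 ≤ ρ) (hρ1 : ρ ≤ 1)
    {h : (ι → Bool) → ℝ} (hh : ∀ x, h x ≤ 1) (x : ι → Bool) : noise p ρ h x ≤ 1 := by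
  have h1 := noise_mono hp0 hp1 hρ0 hρ1 hh x
  rw [noise_const] at h1
  exact h1

theorem abs_noise_le {p ρ : ℝ} (hp0 : 0 ≤ p) (hp1 : p ≤ 1) (hρ0 : 0 ≤ ρ) (hρ1 : ρ ≤ 1)
    (h : (ι → Bool) → ℝ) (x : ι → Bool) : |noise p ρ h x| ≤ noise p ρ (fun z => |h z|) x := by
  unfold noise
  refine le_trans (Finset.abs_sum_le_sum_abs _ _) ?_
  apply Finset.sum_le_sum
  intro y _
  rw [abs_mul, abs_of_nonneg (Finset.prod_nonneg (fun i _ => ker_nonneg hp0 hp1 hρ0 hρ1 _ _))]

/-- reversibility. -/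
theorem wt_mul_prod_ker (p ρ : ℝ) (x y : ι → Bool) :
    wt p x * ∏ i, ker p ρ (x i) (y i) = wt p y * ∏ i, ker p ρ (y i) (x i) := by
  unfold wt
  rw [← Finset.prod_mul_distrib, ← Finset.prod_mul_distrib]
  apply Finset.prod_congr rfl
  intro i _
  cases x i <;> cases y i <;> simp [ker] <;> ring

/-- self-adjointness. -/
theorem ex_mul_noise (p ρ : ℝ) (h k : (ι → Bool) → ℝ) :
    ex p (fun x => k x * noise p ρ h x) = ex p (fun x => noise p ρ k x * h x) := by
  unfold ex noise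
  have h1 : ∀ x : ι → Bool, wt p x * (k x * ∑ y, (∏ i, ker p ρ (x i) (y i)) * h y)
      = ∑ y, (wt p x * ∏ i, ker p ρ (x i) (y i)) * (k x * h y) := by
    intro x
    rw [Finset.mul_sum, Finset.mul_sum]
    apply Finset.sum_congr rfl
    intro y _
    ring
  have h2 : ∀ x : ι → Bool, wt p x * ((∑ y, (∏ i, ker p ρ (x i) (y i)) * k y) * h x)
      = ∑ y, (wt p y * ∏ i, ker p ρ (y i) (x i)) * (k y * h x) := by
    intro x
    rw [Finset.sum_mul, Finset.mul_sum]
    apply Finset.sum_congr rfl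
    intro y _
    rw [← wt_mul_prod_ker p ρ x y]
    ring
  rw [Finset.sum_congr rfl (fun x _ => h1 x), Finset.sum_congr rfl (fun x _ => h2 x),
    Finset.sum_comm]

theorem ex_noise (p ρ : ℝ) (h : (ι → Bool) → ℝ) : ex p (noise p ρ h) = ex p h := by
  have h1 := ex_mul_noise p ρ h (fun _ => (1 : ℝ))
  rw [noise_const] at h1
  simpa using h1

/-- one-site eigenfunction relation. -/
theorem ker_phi {p : ℝ} (hp0 : 0 < p) (hp1 : p < 1) (ρ : ℝ) (a : Bool) :
    ker p ρ a true * phi p true + ker p ρ a false * phi p false = ρ * phi p a := by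
  have hm := phi_mean hp0 hp1
  cases a
  · simp only [ker, Bool.false_eq_true, if_false, if_true]
    linear_combination (1 - ρ) * hm
  · simp only [ker, Bool.true_eq_false, Bool.false_eq_true, if_false, if_true]
    linear_combination (1 - ρ) * hm

/-- characters are eigenfunctions. -/
theorem noise_chi {p : ℝ} (hp0 : 0 < p) (hp1 : p < 1) (ρ : ℝ) (S : Finset ι) (x : ι → Bool) :
    noise p ρ (chi p S) x = ρ ^ S.card * chi p S x := by
  unfold noise
  have h1 : ∀ y : ι → Bool, (∏ i, ker p ρ (x i) (y i)) * chi p S y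
      = ∏ i, (ker p ρ (x i) (y i) * (if i ∈ S then phi p (y i) else 1)) := by
    intro y
    rw [Finset.prod_mul_distrib, Finset.prod_ite_mem, Finset.univ_inter]
    rfl
  rw [Finset.sum_congr rfl (fun y _ => h1 y),
    sum_prod_eq (fun i b => ker p ρ (x i) b * (if i ∈ S then phi p b else 1))]
  have h2 : ∀ i : ι, (ker p ρ (x i) true * (if i ∈ S then phi p true else 1)
      + ker p ρ (x i) false * (if i ∈ S then phi p false else 1))
      = if i ∈ S then ρ * phi p (x i) else 1 := by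
    intro i
    by_cases hi : i ∈ S
    · simp only [hi, if_true]
      exact ker_phi hp0 hp1 ρ (x i)
    · simp only [hi, if_false, mul_one]
      exact ker_sum p ρ (x i)
  rw [Finset.prod_congr rfl (fun i _ => h2 i), Finset.prod_ite_mem, Finset.univ_inter,
    Finset.prod_mul_distrib, Finset.prod_const]
  rfl

theorem coef_noise {p : ℝ} (hp0 : 0 < p) (hp1 : p < 1) (ρ : ℝ) (h : (ι → Bool) → ℝ)
    (S : Finset ι) : coef p (noise p ρ h) S = ρ ^ S.card * coef p h S := by
  unfold coef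
  have h1 : (fun x => noise p ρ h x * chi p S x) = fun x => chi p S x * noise p ρ h x := by
    funext x; ring
  rw [h1, ex_mul_noise]
  have h2 : (fun x => noise p ρ (chi p S) x * h x)
      = fun x => ρ ^ S.card * (h x * chi p S x) := by
    funext x
    rw [noise_chi hp0 hp1]
    ring
  rw [h2, ex_const_mul]

/-- `der e (T_ρ h) = ρ T_ρ (der e h)`.  (`ker true b - ker false b = ρ * (if b then 1 else -1)`; sum out
the coordinate `e` of `y`; or compare Fourier coefficients with `coef_der`, `coef_noise` and conclude by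
`fourier_inversion`.) -/
theorem der_noise {p : ℝ} (hp0 : 0 < p) (hp1 : p < 1) (ρ : ℝ) (e : ι) (h : (ι → Bool) → ℝ)
    (x : ι → Bool) : der p e (noise p ρ h) x = ρ * noise p ρ (der p e h) x := by
  rw [fourier_inversion hp0 hp1 (der p e (noise p ρ h)) x,
    fourier_inversion hp0 hp1 (fun z => ρ * noise p ρ (der p e h) z) x]
  apply Finset.sum_congr rfl
  intro S _
  congr 1
  rw [coef_der hp0 hp1, coef_const_mul, coef_noise hp0 hp1, coef_noise hp0 hp1,
    coef_der hp0 hp1]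
  by_cases he : e ∈ S
  · simp [he]
  · simp only [he, if_false]
    rw [Finset.card_insert_of_notMem he]
    ring

end Crest.Agent.BK
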