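import Mathlib
import Crest.Prelude.Def_FinProb

/-!
Row 56 (S0077), outer layer, part 1: the Margulis-Russo formula on `ι → Bool`, in the exact
vocabulary of `Crest.FinProb` (generic finite index type).
-/

set_option autoImplicit false

namespace Crest.Agent.BKOut

open Crest.FinProb Finset

variable {ι : Type*} [Fintype ι] [DecidableEq ι]

/-- one-coordinate weight -/
noncomputable def cw (p : ℝ) (b : Bool) : ℝ := if b then p else 1 - p

/-- derivative of the one-coordinate weight -/
def sg (b : Bool) : ℝ := if b then 1 else -1

/-- weight of all coordinates but `e`. -/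
noncomputable def wErase (p : ℝ) (e : ι) (x : ι → Bool) : ℝ := ∏ i ∈ univ.erase e, cw p (x i)

/-- flip the coordinate `e`. -/
def flipAt (e : ι) (x : ι → Bool) : ι → Bool := Function.update x e (!x e)

lemma bernoulliWeight_eq_prod (p : ℝ) (x : ι → Bool) : bernoulliWeight p x = ∏ i, cw p (x i) := rfl

lemma bernoulliWeight_eq_mul (p : ℝ) (e : ι) (x : ι → Bool) :
    bernoulliWeight p x = cw p (x e) * wErase p e x :=
  (mul_prod_erase univ (fun i => cw p (x i)) (mem_univ e)).symm

lemma wErase_update (p : ℝ) (e : ι) (x : ι → Bool) (b : Bool) :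
    wErase p e (Function.update x e b) = wErase p e x :=
  prod_congr rfl (fun i hi => by rw [Function.update_of_ne (ne_of_mem_erase hi)])

lemma flipAt_flipAt (e : ι) (x : ι → Bool) : flipAt e (flipAt e x) = x := by
  unfold flipAt
  simp

lemma sum_flipAt (e : ι) (h : (ι → Bool) → ℝ) : ∑ x, h (flipAt e x) = ∑ x, h x :=
  Equiv.sum_comp (Function.Involutive.toPerm (flipAt e) (flipAt_flipAt e)) h

lemma two_mul_sum_eq (e : ι) (h : (ι → Bool) → ℝ) :
    2 * ∑ x, h x = ∑ x, (h x + h (flipAt e x)) := by
  rw [sum_add_distrib, sum_flipAt]; ring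

lemma bernoulliProb_eq_sum (p : ℝ) (E : Set (ι → Bool)) [DecidablePred (· ∈ E)] :
    bernoulliProb p E = ∑ x, if x ∈ E then bernoulliWeight p x else 0 := by
  unfold bernoulliProb
  rw [sum_filter]
  refine sum_congr rfl (fun x _ => ?_)
  by_cases hx : x ∈ E <;> simp [hx]

lemma pair_sg (p : ℝ) (e : ι) (x : ι → Bool) (φ : (ι → Bool) → ℝ) :
    φ x * (wErase p e x * sg (x e)) + φ (flipAt e x) * (wErase p e (flipAt e x) * sg (flipAt e x e))
      = wErase p e x * (φ (Function.update x e true) - φ (Function.update x e false)) := by
  have hw : wErase p e (flipAt e x) = wErase p e x := wErase_update p e x _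
  rw [hw]
  cases hxe : x e with
  | true =>
    have h1 : Function.update x e true = x := by rw [← hxe]; exact Function.update_eq_self e x
    have h2 : flipAt e x = Function.update x e false := by unfold flipAt; rw [hxe]; rfl
    rw [h1, h2]; simp [sg]; ring
  | false =>
    have h1 : Function.update x e false = x := by rw [← hxe]; exact Function.update_eq_self e x
    have h2 : flipAt e x = Function.update x e true := by unfold flipAt; rw [hxe]; rfl
    rw [h1, h2]; simp [sg]; ring

lemma pair_weight (p : ℝ) (e : ι) (x : ι → Bool) (ψ : (ι → Bool) → ℝ)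
    (hψ : ∀ (y : ι → Bool) (b : Bool), ψ (Function.update y e b) = ψ y) :
    ψ x * bernoulliWeight p x + ψ (flipAt e x) * bernoulliWeight p (flipAt e x)
      = wErase p e x * ψ x := by
  have hw : wErase p e (flipAt e x) = wErase p e x := wErase_update p e x _
  have hf : ψ (flipAt e x) = ψ x := hψ x _
  rw [bernoulliWeight_eq_mul p e x, bernoulliWeight_eq_mul p e (flipAt e x), hw, hf]
  have : cw p (x e) + cw p (flipAt e x e) = 1 := by
    unfold flipAt
    cases hxe : x e <;> simp [cw]
  linear_combination (ψ x * wErase p e x) * this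

lemma hasDerivAt_cw (p : ℝ) (b : Bool) : HasDerivAt (fun t => cw t b) (sg b) p := by
  cases b
  · simpa [cw, sg] using (hasDerivAt_id' p).const_sub 1
  · simpa [cw, sg] using hasDerivAt_id' p

lemma hasDerivAt_bernoulliWeight (p : ℝ) (x : ι → Bool) :
    HasDerivAt (fun t => bernoulliWeight t x) (∑ e, wErase p e x * sg (x e)) p := by
  have := HasDerivAt.fun_finsetProd (u := (univ : Finset ι)) (f := fun i t => cw t (x i))
    (f' := fun i => sg (x i)) (x := p) (fun i _ => hasDerivAt_cw p (x i))
  simpa [bernoulliWeight_eq_prod, wErase] using this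

/-- The derivative of `p ↦ P_p(E)` for an arbitrary event (signed Russo formula). -/
lemma hasDerivAt_bernoulliProb (p : ℝ) (E : Set (ι → Bool)) [DecidablePred (· ∈ E)] :
    HasDerivAt (fun t => bernoulliProb t E)
      (∑ e, ∑ x, (if x ∈ E then (1:ℝ) else 0) * (wErase p e x * sg (x e))) p := by
  have h1 : (fun t => bernoulliProb t E)
      = fun t => ∑ x, (if x ∈ E then (1:ℝ) else 0) * bernoulliWeight t x := by
    funext t
    rw [bernoulliProb_eq_sum]
    refine sum_congr rfl (fun x _ => ?_)
    by_cases hx : x ∈ E <;> simp [hx]
  rw [h1, sum_comm]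
  have := HasDerivAt.fun_sum (u := (univ : Finset (ι → Bool)))
    (A := fun x t => (if x ∈ E then (1:ℝ) else 0) * bernoulliWeight t x)
    (A' := fun x => (if x ∈ E then (1:ℝ) else 0) * ∑ e, wErase p e x * sg (x e)) (x := p)
    (fun x _ => (hasDerivAt_bernoulliWeight p x).const_mul _)
  simpa [mul_sum] using this

/-- indicator of the event "`e` is pivotal". -/
noncomputable def pivInd (f : (ι → Bool) → Bool) (e : ι) (y : ι → Bool) : ℝ :=
  if f (Function.update y e true) ≠ f (Function.update y e false) then 1 else 0

omit [Fintype ι] in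
lemma pivInd_update (f : (ι → Bool) → Bool) (e : ι) (y : ι → Bool) (b : Bool) :
    pivInd f e (Function.update y e b) = pivInd f e y := by
  simp [pivInd]

omit [Fintype ι] in
lemma pivInd_eq_sub (f : (ι → Bool) → Bool)
    (hmono : ∀ x y : ι → Bool, (∀ i, x i = true → y i = true) → f x = true → f y = true)
    (e : ι) (x : ι → Bool) :
    pivInd f e x = (if f (Function.update x e true) = true then (1:ℝ) else 0)
      - (if f (Function.update x e false) = true then (1:ℝ) else 0) := by
  have hud : f (Function.update x e false) = true → f (Function.update x e true) = true := by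
    apply hmono
    intro i hi
    by_cases hie : i = e
    · subst hie; simp
    · rw [Function.update_of_ne hie] at hi ⊢; exact hi
  unfold pivInd
  cases hu : f (Function.update x e true) <;> cases hd : f (Function.update x e false) <;>
    simp_all

lemma bernoulliProb_piv_eq (f : (ι → Bool) → Bool) (e : ι) (p : ℝ) :
    bernoulliProb p {x | f (Function.update x e true) ≠ f (Function.update x e false)}
      = ∑ x, pivInd f e x * bernoulliWeight p x := by
  classical
  rw [bernoulliProb_eq_sum]
  refine sum_congr rfl (fun y _ => ?_)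
  by_cases hy : f (Function.update y e true) = f (Function.update y e false)
  · simp [pivInd, hy]
  · simp [pivInd, hy]

lemma russo_term (f : (ι → Bool) → Bool)
    (hmono : ∀ x y : ι → Bool, (∀ i, x i = true → y i = true) → f x = true → f y = true)
    (p : ℝ) (e : ι) :
    ∑ x, pivInd f e x * bernoulliWeight p x
      = ∑ x, (if f x = true then (1:ℝ) else 0) * (wErase p e x * sg (x e)) := by
  have hmul : ∀ a b : ℝ, 2 * a = 2 * b → a = b := fun a b h => by linarith
  apply hmul
  rw [two_mul_sum_eq e, two_mul_sum_eq e]
  refine sum_congr rfl (fun x _ => ?_)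
  rw [pair_weight p e x (pivInd f e) (pivInd_update f e),
    pair_sg p e x (fun y => if f y = true then (1:ℝ) else 0), pivInd_eq_sub f hmono]

/-- **Margulis-Russo formula** for a monotone Boolean function on `ι → Bool`. -/
theorem russo (f : (ι → Bool) → Bool)
    (hmono : ∀ x y : ι → Bool, (∀ i, x i = true → y i = true) → f x = true → f y = true)
    (p : ℝ) :
    HasDerivAt (fun t => bernoulliProb t {x | f x = true})
      (∑ e, bernoulliProb p
        {x | f (Function.update x e true) ≠ f (Function.update x e false)}) p := by
  classical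
  have h := hasDerivAt_bernoulliProb p {x : ι → Bool | f x = true}
  have heq : (∑ e, bernoulliProb p
        {x | f (Function.update x e true) ≠ f (Function.update x e false)})
      = ∑ e, ∑ x, (if x ∈ {x : ι → Bool | f x = true} then (1:ℝ) else 0)
          * (wErase p e x * sg (x e)) := by
    refine sum_congr rfl (fun e _ => ?_)
    rw [bernoulliProb_piv_eq, russo_term f hmono]
    rfl
  rw [heq]
  exact h

end Crest.Agent.BKOut
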