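import Mathlib
import Crest.Prelude.Def_FinProb
import Crest.Prelude.Def_RandomGraph
import Crest.Prelude.Def_HypergraphCube
import Crest.Agent.BK_OutRusso

/-!
Row 56 (S0077), outer layer, part 3: elementary facts on `bernoulliProb`, and the dictionary
between graph properties on `Fin n` (coins indexed by `EdgeSlot n`) and Boolean functions on
`HyperedgeSlot n 2 → Bool`.
-/

set_option autoImplicit false

namespace Crest.Agent.BKOut

open Crest.FinProb Crest.CombinatoricsR.RandomGraph Crest.CombinatoricsR.HypergraphCube Finset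

section generic

variable {ι : Type*} [Fintype ι] [DecidableEq ι]

lemma sum_bernoulliWeight (p : ℝ) : ∑ x : ι → Bool, bernoulliWeight p x = 1 := by
  classical
  have h := Finset.prod_univ_sum (fun _ : ι => (univ : Finset Bool)) (fun _ b => cw p b)
  rw [Fintype.piFinset_univ] at h
  have h2 : ∑ b : Bool, cw p b = 1 := by simp [cw]
  rw [h2, prod_const_one] at h
  exact h.symm

omit [DecidableEq ι] in
lemma bernoulliWeight_pos {p : ℝ} (h0 : 0 < p) (h1 : p < 1) (x : ι → Bool) :
    0 < bernoulliWeight p x := by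
  refine prod_pos (fun i _ => ?_)
  cases x i
  · simpa using h1
  · simpa using h0

omit [DecidableEq ι] in
lemma bernoulliWeight_zero_of_true (x : ι → Bool) (i : ι) (hi : x i = true) :
    bernoulliWeight 0 x = 0 :=
  prod_eq_zero (mem_univ i) (by simp [hi])

omit [DecidableEq ι] in
lemma bernoulliWeight_one_of_false (x : ι → Bool) (i : ι) (hi : x i = false) :
    bernoulliWeight 1 x = 0 :=
  prod_eq_zero (mem_univ i) (by simp [hi])

lemma bernoulliProb_pos {p : ℝ} (h0 : 0 < p) (h1 : p < 1) (E : Set (ι → Bool)) (x : ι → Bool)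
    (hx : x ∈ E) : 0 < bernoulliProb p E := by
  classical
  rw [bernoulliProb_eq_sum]
  refine sum_pos' (fun y _ => ?_) ⟨x, mem_univ x, ?_⟩
  · split_ifs
    · exact (bernoulliWeight_pos h0 h1 y).le
    · exact le_rfl
  · rw [if_pos hx]; exact bernoulliWeight_pos h0 h1 x

lemma bernoulliProb_add_compl (p : ℝ) (E : Set (ι → Bool)) :
    bernoulliProb p E + bernoulliProb p Eᶜ = 1 := by
  classical
  rw [bernoulliProb_eq_sum, bernoulliProb_eq_sum, ← sum_add_distrib,
    ← sum_bernoulliWeight (ι := ι) p]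
  refine sum_congr rfl (fun y _ => ?_)
  by_cases hy : y ∈ E <;> simp [hy]

lemma bernoulliProb_lt_one {p : ℝ} (h0 : 0 < p) (h1 : p < 1) (E : Set (ι → Bool)) (x : ι → Bool)
    (hx : x ∉ E) : bernoulliProb p E < 1 := by
  have h := bernoulliProb_add_compl p E
  have h2 := bernoulliProb_pos h0 h1 Eᶜ x hx
  linarith

lemma bernoulliProb_zero (E : Set (ι → Bool)) (hE : (fun _ => false) ∉ E) :
    bernoulliProb 0 E = 0 := by
  classical
  rw [bernoulliProb_eq_sum]
  refine sum_eq_zero (fun y _ => ?_)
  split_ifs with hy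
  · by_cases hall : ∀ i, y i = false
    · exact absurd (by rwa [show y = fun _ => false from funext hall] at hy) hE
    · push Not at hall
      obtain ⟨i, hi⟩ := hall
      exact bernoulliWeight_zero_of_true y i (by simpa using hi)
  · rfl

lemma bernoulliProb_one (E : Set (ι → Bool)) (hE : (fun _ => true) ∈ E) :
    bernoulliProb 1 E = 1 := by
  classical
  have h := bernoulliProb_add_compl 1 E
  have h2 : bernoulliProb 1 Eᶜ = 0 := by
    rw [bernoulliProb_eq_sum]
    refine sum_eq_zero (fun y _ => ?_)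
    split_ifs with hy
    · by_cases hall : ∀ i, y i = true
      · exact absurd (by rwa [show y = fun _ => true from funext hall]) hy
      · push Not at hall
        obtain ⟨i, hi⟩ := hall
        exact bernoulliWeight_one_of_false y i (by simpa using hi)
    · rfl
  linarith

lemma bernoulliProb_comp_equiv {κ : Type*} [Fintype κ] [DecidableEq κ] (e : ι ≃ κ) (p : ℝ)
    (E : Set (ι → Bool)) :
    bernoulliProb p {y : κ → Bool | (fun i => y (e i)) ∈ E} = bernoulliProb p E := by
  classical
  rw [bernoulliProb_eq_sum, bernoulliProb_eq_sum]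
  refine Fintype.sum_equiv (Equiv.arrowCongr e.symm (Equiv.refl Bool)) _ _ (fun y => ?_)
  have hy : (Equiv.arrowCongr e.symm (Equiv.refl Bool)) y = fun i => y (e i) := by
    funext i; simp [Equiv.arrowCongr]
  rw [hy]
  have hw : bernoulliWeight p y = bernoulliWeight p (fun i => y (e i)) :=
    (Equiv.prod_comp e (fun k => if y k then p else 1 - p)).symm
  rw [hw]
  rfl

end generic

section graph

variable (n : ℕ)

/-- an unordered pair of distinct vertices, as a two-element set. -/
def slotMap (z : EdgeSlot n) : HyperedgeSlot n 2 :=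
  ⟨z.1.toFinset, Sym2.card_toFinset_of_not_isDiag z.1 z.2⟩

lemma slotMap_bijective : Function.Bijective (slotMap n) := by
  constructor
  · intro z w h
    have h' : z.1.toFinset = w.1.toFinset := congrArg Subtype.val h
    apply Subtype.ext
    apply Sym2.ext
    intro a
    rw [← Sym2.mem_toFinset, h', Sym2.mem_toFinset]
  · rintro ⟨s, hs⟩
    obtain ⟨a, b, hab, rfl⟩ := Finset.card_eq_two.mp hs
    refine ⟨⟨s(a, b), by simpa using hab⟩, ?_⟩
    apply Subtype.ext
    exact Sym2.toFinset_mk_eq

/-- the bijection between the two kinds of slots. -/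
noncomputable def slotEquiv : EdgeSlot n ≃ HyperedgeSlot n 2 :=
  Equiv.ofBijective (slotMap n) (slotMap_bijective n)

/-- the graph of a `2`-uniform hypergraph. -/
def graphOf2 (x : HyperedgeSlot n 2 → Bool) : SimpleGraph (Fin n) :=
  graphOf (fun z => x (slotMap n z))

variable {n}

lemma graphOf2_adj (x : HyperedgeSlot n 2 → Bool) (i j : Fin n) :
    (graphOf2 n x).Adj i j ↔ ∃ h : i ≠ j, x ⟨{i, j}, Finset.card_pair h⟩ = true := by
  unfold graphOf2 graphOf
  rw [SimpleGraph.fromEdgeSet_adj]
  constructor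
  · rintro ⟨⟨h, hx⟩, hij⟩
    refine ⟨hij, ?_⟩
    rw [← hx]
    congr 1
    apply Subtype.ext
    exact Sym2.toFinset_mk_eq.symm
  · rintro ⟨hij, hx⟩
    refine ⟨⟨by simpa using hij, ?_⟩, hij⟩
    rw [← hx]
    show x (slotMap n _) = _
    congr 1
    apply Subtype.ext
    exact Sym2.toFinset_mk_eq

lemma graphOf2_mono (x y : HyperedgeSlot n 2 → Bool) (h : ∀ e, x e = true → y e = true) :
    graphOf2 n x ≤ graphOf2 n y := by
  intro i j hij
  rw [graphOf2_adj] at hij ⊢
  obtain ⟨hne, hx⟩ := hij
  exact ⟨hne, h _ hx⟩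

lemma graphOf2_relabel (σ : Equiv.Perm (Fin n)) (x : HyperedgeSlot n 2 → Bool) :
    graphOf2 n (relabel σ x) = (graphOf2 n x).map σ.symm.toEmbedding := by
  rw [SimpleGraph.map_symm]
  ext i j
  rw [SimpleGraph.comap_adj, graphOf2_adj, graphOf2_adj]
  have key : ∀ h : i ≠ j, relabelSlot σ ⟨{i, j}, Finset.card_pair h⟩
      = ⟨{σ i, σ j}, Finset.card_pair (fun h' => h (σ.injective h'))⟩ := by
    intro h
    apply Subtype.ext
    simp [relabelSlot, Finset.map_insert]
  constructor
  · rintro ⟨h, hx⟩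
    refine ⟨fun h' => h (σ.injective h'), ?_⟩
    unfold relabel at hx
    rw [key h] at hx
    exact hx
  · rintro ⟨h, hx⟩
    have h' : i ≠ j := fun h'' => h (congrArg σ h'')
    refine ⟨h', ?_⟩
    unfold relabel
    rw [key h']
    exact hx

lemma relabel_symm_relabel (σ : Equiv.Perm (Fin n)) (x : HyperedgeSlot n 2 → Bool) :
    relabel σ.symm (relabel σ x) = x := by
  funext e
  unfold relabel
  congr 1
  apply Subtype.ext
  simp [relabelSlot, Finset.map_map]

variable (n)

/-- the Boolean function of a graph property. -/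
noncomputable def fP (P : Set (SimpleGraph (Fin n))) : (HyperedgeSlot n 2 → Bool) → Bool :=
  fun x => haveI := Classical.dec (graphOf2 n x ∈ P); decide (graphOf2 n x ∈ P)

variable {n}

lemma fP_eq_true_iff (P : Set (SimpleGraph (Fin n))) (x : HyperedgeSlot n 2 → Bool) :
    fP n P x = true ↔ graphOf2 n x ∈ P := by
  unfold fP
  simp

lemma probTrue_fP (P : Set (SimpleGraph (Fin n))) (p : ℝ) :
    probTrue p (fP n P) = gnpProb n p P := by
  unfold probTrue gnpProb
  rw [← bernoulliProb_comp_equiv (slotEquiv n) p {ω : EdgeSlot n → Bool | graphOf ω ∈ P}]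
  congr 1
  ext x
  exact fP_eq_true_iff P x

lemma fP_symmetric (P : Set (SimpleGraph (Fin n)))
    (hsymm : ∀ σ : Equiv.Perm (Fin n), ∀ G : SimpleGraph (Fin n), G ∈ P → G.map σ.toEmbedding ∈ P) :
    IsSymmetric (fP n P) := by
  have h1 : ∀ (σ : Equiv.Perm (Fin n)) (x : HyperedgeSlot n 2 → Bool),
      fP n P x = true → fP n P (relabel σ x) = true := by
    intro σ x hx
    rw [fP_eq_true_iff] at hx ⊢
    rw [graphOf2_relabel]
    exact hsymm σ.symm _ hx
  intro σ x
  have h2 : fP n P (relabel σ x) = true ↔ fP n P x = true := by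
    constructor
    · intro h
      have := h1 σ.symm _ h
      rwa [relabel_symm_relabel] at this
    · exact h1 σ x
  cases ha : fP n P (relabel σ x) <;> cases hb : fP n P x <;> simp_all

lemma fP_mono (P : Set (SimpleGraph (Fin n)))
    (hmono : ∀ G G' : SimpleGraph (Fin n), G ≤ G' → G ∈ P → G' ∈ P)
    (x y : HyperedgeSlot n 2 → Bool) (h : ∀ e, x e = true → y e = true)
    (hx : fP n P x = true) : fP n P y = true := by
  rw [fP_eq_true_iff] at hx ⊢
  exact hmono _ _ (graphOf2_mono x y h) hx

lemma fP_top (P : Set (SimpleGraph (Fin n)))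
    (hmono : ∀ G G' : SimpleGraph (Fin n), G ≤ G' → G ∈ P → G' ∈ P) (hne : P.Nonempty) :
    fP n P (fun _ => true) = true := by
  obtain ⟨G, hG⟩ := hne
  rw [fP_eq_true_iff]
  refine hmono G _ ?_ hG
  intro i j hij
  rw [graphOf2_adj]
  exact ⟨hij.ne, rfl⟩

lemma fP_bot (P : Set (SimpleGraph (Fin n)))
    (hmono : ∀ G G' : SimpleGraph (Fin n), G ≤ G' → G ∈ P → G' ∈ P) (hnu : P ≠ Set.univ) :
    ¬ fP n P (fun _ => false) = true := by
  intro h
  rw [fP_eq_true_iff] at h
  apply hnu
  rw [Set.eq_univ_iff_forall]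
  intro G
  refine hmono _ G ?_ h
  intro i j hij
  rw [graphOf2_adj] at hij
  obtain ⟨_, hx⟩ := hij
  exact absurd hx (by simp)

end graph

end Crest.Agent.BKOut
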