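import Mathlib

/-!
Row 56 (S0077), outer layer, part 2: from the differential inequality
`c μ (1 - μ) ≤ μ'` to the width of the threshold interval (pure real analysis).
-/

set_option autoImplicit false

namespace Crest.Agent.BKOut

/-- the logit of `μ` grows at speed at least `c`. -/
theorem logit_step (μ μ' : ℝ → ℝ) (c a b : ℝ) (hab : a ≤ b)
    (hd : ∀ t ∈ Set.Icc a b, HasDerivAt μ (μ' t) t)
    (h0 : ∀ t ∈ Set.Icc a b, 0 < μ t) (h1 : ∀ t ∈ Set.Icc a b, μ t < 1)
    (hineq : ∀ t ∈ Set.Icc a b, c * (μ t * (1 - μ t)) ≤ μ' t) :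
    c * (b - a) ≤ (Real.log (μ b) - Real.log (1 - μ b)) - (Real.log (μ a) - Real.log (1 - μ a)) := by
  set φ : ℝ → ℝ := fun t => Real.log (μ t) - Real.log (1 - μ t) with hφ
  have hder : ∀ t ∈ Set.Icc a b, HasDerivAt φ (μ' t / μ t - (-(μ' t)) / (1 - μ t)) t := by
    intro t ht
    have e1 := (hd t ht).log (h0 t ht).ne'
    have e2 := ((hd t ht).const_sub 1).log (by have := h1 t ht; linarith : (1 - μ t) ≠ 0)
    exact e1.sub e2
  have hcont : ContinuousOn φ (Set.Icc a b) := fun t ht => (hder t ht).continuousAt.continuousWithinAt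
  have hdiff : DifferentiableOn ℝ φ (interior (Set.Icc a b)) := fun t ht =>
    (hder t (interior_subset ht)).differentiableAt.differentiableWithinAt
  have hge : ∀ t ∈ interior (Set.Icc a b), c ≤ deriv φ t := by
    intro t ht
    have ht' := interior_subset ht
    rw [(hder t ht').deriv]
    have p0 := h0 t ht'
    have p1 : 0 < 1 - μ t := by have := h1 t ht'; linarith
    have : μ' t / μ t - (-(μ' t)) / (1 - μ t) = μ' t / (μ t * (1 - μ t)) := by
      field_simp; ring
    rw [this, le_div_iff₀ (mul_pos p0 p1)]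
    exact hineq t ht'
  exact (convex_Icc a b).mul_sub_le_image_sub_of_le_deriv hcont hdiff hge a
    (Set.left_mem_Icc.mpr hab) b (Set.right_mem_Icc.mpr hab) hab

lemma log_ratio_le (ε : ℝ) (hε0 : 0 < ε) (hε : ε < 1 / 2) :
    Real.log (1 - ε) - Real.log ε ≤ 2 * Real.log (1 / (2 * ε)) := by
  have h1 : 0 < 1 - ε := by linarith
  have h := Real.log_nonpos (by positivity : 0 ≤ 4 * ε * (1 - ε)) (by nlinarith [sq_nonneg (1 - 2 * ε)])
  rw [Real.log_mul (by positivity) h1.ne', Real.log_mul (by norm_num) hε0.ne'] at h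
  have h4 : Real.log 4 = 2 * Real.log 2 := by
    rw [show (4:ℝ) = 2 ^ 2 by norm_num, Real.log_pow]; norm_num
  rw [one_div, Real.log_inv, Real.log_mul (by norm_num) hε0.ne']
  linarith

/-- width of the threshold interval from the differential inequality. -/
theorem width_bound (μ μ' : ℝ → ℝ) (c p q ε : ℝ) (hε0 : 0 < ε) (hε : ε < 1 / 2) (hpq : p ≤ q)
    (hd : ∀ t ∈ Set.Icc p q, HasDerivAt μ (μ' t) t)
    (h0 : ∀ t ∈ Set.Icc p q, 0 < μ t) (h1 : ∀ t ∈ Set.Icc p q, μ t < 1)
    (hineq : ∀ t ∈ Set.Icc p q, c * (μ t * (1 - μ t)) ≤ μ' t)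
    (hp : ε ≤ μ p) (hc : 4 * Real.log (1 / (2 * ε)) ≤ c * (q - p)) :
    1 - ε ≤ μ q := by
  by_contra hcon
  push Not at hcon
  have hstep := logit_step μ μ' c p q hpq hd h0 h1 hineq
  have hpm : p ∈ Set.Icc p q := Set.left_mem_Icc.mpr hpq
  have hqm : q ∈ Set.Icc p q := Set.right_mem_Icc.mpr hpq
  have a1 : Real.log (μ q) < Real.log (1 - ε) := Real.log_lt_log (h0 q hqm) hcon
  have a2 : Real.log ε < Real.log (1 - μ q) := Real.log_lt_log hε0 (by linarith)
  have a3 : Real.log ε ≤ Real.log (μ p) := Real.log_le_log hε0 hp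
  have a4 : Real.log (1 - μ p) ≤ Real.log (1 - ε) :=
    Real.log_le_log (by have := h1 p hpm; linarith) (by linarith)
  have a5 := log_ratio_le ε hε0 hε
  linarith

end Crest.Agent.BKOut
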