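import Mathlib
import Crest.Prelude.Def_FinProb
import Crest.Prelude.Def_RandomGraph
import Crest.Prelude.Def_HypergraphCube
import Crest.Agent.BK_OutRusso
import Crest.Agent.BK_OutLogit
import Crest.Agent.BK_OutGraph
import Crest.Agent.BK_Main2

/-!
Row 56 (S0077), outer layer, part 4: assembly (statement of S0077 verbatim) from `BK.main2`.
-/

set_option autoImplicit false

namespace Crest.Agent.BKOut

open Crest.CombinatoricsR.HypergraphCube Crest.CombinatoricsR.RandomGraph

theorem final (n : ℕ) (hn : 2 ≤ n)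
    (P : Set (SimpleGraph (Fin n)))
    (hsymm : ∀ σ : Equiv.Perm (Fin n), ∀ G : SimpleGraph (Fin n), G ∈ P → G.map σ.toEmbedding ∈ P)
    (hmono : ∀ G G' : SimpleGraph (Fin n), G ≤ G' → G ∈ P → G' ∈ P)
    (hne : P.Nonempty) (hnu : P ≠ Set.univ) (ε : ℝ) (hε0 : 0 < ε) (hε : ε < 1 / 2)
    (p q : ℝ) (hp0 : 0 ≤ p) (hp1 : p ≤ 1) (hq0 : 0 ≤ q) (hq1 : q ≤ 1)
    (hp : ε ≤ Crest.CombinatoricsR.RandomGraph.gnpProb n p P)
    (hq : p + 2 ^ 19 / Real.log n ^ 2 * Real.log (1 / (2 * ε)) ≤ q) :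
    1 - ε ≤ Crest.CombinatoricsR.RandomGraph.gnpProb n q P := by
  have hL : 0 < Real.log n := Real.log_pos (by exact_mod_cast hn)
  have hlog : 0 < Real.log (1 / (2 * ε)) := by
    apply Real.log_pos
    rw [lt_div_iff₀ (by linarith)]
    linarith
  have htop := fP_top P hmono hne
  have hbot := fP_bot P hmono hnu
  rw [← probTrue_fP] at hp ⊢
  have hpq : p ≤ q := by
    have : 0 ≤ 2 ^ 19 / Real.log n ^ 2 * Real.log (1 / (2 * ε)) := by positivity
    linarith
  -- the end points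
  rcases eq_or_lt_of_le hq1 with hq1' | hq1'
  · rw [hq1']
    have : probTrue 1 (fP n P) = 1 := bernoulliProb_one _ htop
    rw [this]; linarith
  rcases eq_or_lt_of_le hp0 with hp0' | hp0'
  · rw [← hp0'] at hp
    have : probTrue 0 (fP n P) = 0 := bernoulliProb_zero _ hbot
    rw [this] at hp; linarith
  -- the open interval
  refine width_bound (fun t => probTrue t (fP n P)) (fun t => totalInfluence t (fP n P))
    (Real.log n ^ 2 / 2 ^ 17) p q ε hε0 hε hpq ?_ ?_ ?_ ?_ hp ?_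
  · intro t _
    exact russo (fP n P) (fP_mono P hmono) t
  · intro t ht
    exact bernoulliProb_pos (lt_of_lt_of_le hp0' ht.1) (lt_of_le_of_lt ht.2 hq1') _ _ htop
  · intro t ht
    exact bernoulliProb_lt_one (lt_of_lt_of_le hp0' ht.1) (lt_of_le_of_lt ht.2 hq1') _ _ hbot
  · intro t ht
    have h := Crest.Agent.BK.main2 n hn t (lt_of_lt_of_le hp0' ht.1) (lt_of_le_of_lt ht.2 hq1')
      (fP n P) (fP_symmetric P hsymm)
    rw [div_mul_eq_mul_div, div_le_iff₀ (by positivity)]
    rw [div_mul_eq_mul_div, le_div_iff₀ (by positivity)] at h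
    linarith
  · have h1 : 2 ^ 19 / Real.log n ^ 2 * Real.log (1 / (2 * ε)) ≤ q - p := by linarith
    have h2 : Real.log n ^ 2 / 2 ^ 17 * (2 ^ 19 / Real.log n ^ 2 * Real.log (1 / (2 * ε)))
        = 4 * Real.log (1 / (2 * ε)) := by
      field_simp; norm_num
    rw [← h2]
    exact mul_le_mul_of_nonneg_left h1 (by positivity)

end Crest.Agent.BKOut
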