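import Crest.Agent.BK_Grad

/-!
# BK task B2b: pointwise properties of `gS`, `Ys`
* `(qsets q T).card ≤ C(n,q)` (`card_powersetCard`, `card_filter_le`), so `vsm` of a `[0,1]`-valued function is `[0,1]`-valued
  (if `C(n,q) = 0` everything is `0`).
* `der e (vsm q ∅ h) = C(n,q)⁻¹ ∑_{Q ∈ qsets q ∅} der e (avg (touch Q) h)`; `e ∈ touch Q ↔ ¬ Disjoint e.1 Q`; terms with `e ∈ touch Q` vanish
  (`der_avg_of_mem`), the others are `avg (touch Q) (der e h)` (`der_avg_of_not_mem`), and they are exactly the `Q ∈ qsets q e.1`.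
  With `h = noise (ind f)`: `|der e h| = ρ |noise (der e (ind f))| ≤ noise |der e (ind f)| = sd p * noise (piv f e)`.
* gradient bound: for every `Q`, `z`: `∑_e (der e (noise (ind f)) z)^2 ≤ G := ρ^2/(1-ρ)` (`grad_noise_le`). `der e g x` is an average with
  total weight `≤ 1` (weights `C(n,q)⁻¹ wt p y`) of the numbers `1[e ∉ touch Q] der e (noise (ind f)) (mix (touch Q) y x)`; Jensen /
  Cauchy-Schwarz (`(∑ w a)^2 ≤ (∑ w)(∑ w a^2)`) for each `e`, then sum over `e`.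
-/

set_option autoImplicit false
open Finset
open Crest.CombinatoricsR.HypergraphCube

namespace Crest.Agent.BK
variable {n r : ℕ}

theorem card_qsets_le (q : ℕ) (T : Finset (Fin n)) : (qsets q T).card ≤ n.choose q := by
  unfold qsets
  refine (Finset.card_filter_le _ _).trans ?_
  rw [Finset.card_powersetCard, Finset.card_univ, Fintype.card_fin]

theorem vsm_nonneg {p : ℝ} (hp0 : 0 ≤ p) (hp1 : p ≤ 1) (q : ℕ) (T : Finset (Fin n))
    {h : (HyperedgeSlot n r → Bool) → ℝ} (hh : ∀ x, 0 ≤ h x) (x : HyperedgeSlot n r → Bool) :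
    0 ≤ vsm p q T h x := by
  unfold vsm
  exact mul_nonneg (inv_nonneg.2 (Nat.cast_nonneg _))
    (Finset.sum_nonneg (fun Q _ => avg_nonneg hp0 hp1 _ hh x))

/-- `C(n,q)⁻¹ * (card (qsets q T) * c) ≤ c` for `c ≥ 0`. -/
private theorem inv_choose_mul_card_le (q : ℕ) (T : Finset (Fin n)) {c : ℝ} (hc : 0 ≤ c) :
    ((n.choose q : ℝ))⁻¹ * (((qsets q T).card : ℝ) * c) ≤ c := by
  have hcard : ((qsets q T).card : ℝ) ≤ (n.choose q : ℝ) := by
    exact_mod_cast card_qsets_le q T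
  rcases Nat.eq_zero_or_pos (n.choose q) with h0 | hpos
  · rw [h0]; simpa using hc
  · have hpos' : (0 : ℝ) < (n.choose q : ℝ) := by exact_mod_cast hpos
    rw [inv_mul_le_iff₀ hpos']
    exact mul_le_mul_of_nonneg_right hcard hc

theorem vsm_le_one {p : ℝ} (hp0 : 0 ≤ p) (hp1 : p ≤ 1) (q : ℕ) (T : Finset (Fin n))
    {h : (HyperedgeSlot n r → Bool) → ℝ} (hh0 : ∀ x, 0 ≤ h x) (hh : ∀ x, h x ≤ 1)
    (x : HyperedgeSlot n r → Bool) : vsm p q T h x ≤ 1 := by
  unfold vsm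
  have h1 : ∀ Q ∈ qsets q T, avg p (touch Q) h x ≤ 1 := by
    intro Q _
    have := avg_mono hp0 hp1 (touch Q) (h := h) (k := fun _ => 1) hh x
    rwa [avg_const] at this
  have h2 : ∑ Q ∈ qsets q T, avg p (touch Q) h x ≤ ((qsets q T).card : ℝ) * 1 := by
    have := Finset.sum_le_card_nsmul (qsets q T) (fun Q => avg p (touch Q) h x) 1 h1
    simpa using this
  refine le_trans (mul_le_mul_of_nonneg_left h2 (inv_nonneg.2 (Nat.cast_nonneg _))) ?_
  exact inv_choose_mul_card_le q T zero_le_one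

theorem ex_vsm_le {p : ℝ} (hp0 : 0 ≤ p) (hp1 : p ≤ 1) (q : ℕ) (T : Finset (Fin n))
    {h : (HyperedgeSlot n r → Bool) → ℝ} (hh0 : ∀ x, 0 ≤ h x) :
    ex p (vsm p q T h) ≤ ex p h := by
  have h1 : ex p (vsm p q T h) = ((n.choose q : ℝ))⁻¹ * (((qsets q T).card : ℝ) * ex p h) := by
    unfold vsm
    rw [ex_const_mul, ex_sum]
    congr 1
    rw [Finset.sum_congr rfl (fun Q _ => ex_avg p (touch Q) h)]
    simp
  rw [h1]
  exact inv_choose_mul_card_le q T (ex_nonneg hp0 hp1 hh0)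

theorem Ys_nonneg {p ρ : ℝ} (hp0 : 0 ≤ p) (hp1 : p ≤ 1) (hρ0 : 0 ≤ ρ) (hρ1 : ρ ≤ 1) (q : ℕ)
    (f : (HyperedgeSlot n r → Bool) → Bool) (e : HyperedgeSlot n r)
    (x : HyperedgeSlot n r → Bool) : 0 ≤ Ys p ρ q f e x := by
  unfold Ys
  exact vsm_nonneg hp0 hp1 q e.1 (noise_nonneg hp0 hp1 hρ0 hρ1 (piv_nonneg f e)) x

theorem Ys_le_one {p ρ : ℝ} (hp0 : 0 ≤ p) (hp1 : p ≤ 1) (hρ0 : 0 ≤ ρ) (hρ1 : ρ ≤ 1) (q : ℕ)
    (f : (HyperedgeSlot n r → Bool) → Bool) (e : HyperedgeSlot n r)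
    (x : HyperedgeSlot n r → Bool) : Ys p ρ q f e x ≤ 1 := by
  unfold Ys
  exact vsm_le_one hp0 hp1 q e.1 (noise_nonneg hp0 hp1 hρ0 hρ1 (piv_nonneg f e))
    (noise_le_one hp0 hp1 hρ0 hρ1 (piv_le_one f e)) x

theorem ex_Ys_le {p ρ : ℝ} (hp0 : 0 ≤ p) (hp1 : p ≤ 1) (hρ0 : 0 ≤ ρ) (hρ1 : ρ ≤ 1) (q : ℕ)
    (f : (HyperedgeSlot n r → Bool) → Bool) (e : HyperedgeSlot n r) :
    ex p (Ys p ρ q f e) ≤ ex p (piv f e) := by
  unfold Ys
  refine (ex_vsm_le hp0 hp1 q e.1 (noise_nonneg hp0 hp1 hρ0 hρ1 (piv_nonneg f e))).trans ?_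
  rw [ex_noise]

/-- `der` commutes with the finite average defining `vsm`. -/
private theorem der_vsm (p : ℝ) (q : ℕ) (T : Finset (Fin n))
    (h : (HyperedgeSlot n r → Bool) → ℝ) (e : HyperedgeSlot n r)
    (x : HyperedgeSlot n r → Bool) :
    der p e (vsm p q T h) x
      = ((n.choose q : ℝ))⁻¹ * ∑ Q ∈ qsets q T, der p e (avg p (touch Q) h) x := by
  simp only [der, vsm]
  rw [← mul_sub, ← Finset.sum_sub_distrib, ← Finset.mul_sum]
  ring

private theorem qsets_eq_filter (q : ℕ) (T : Finset (Fin n)) :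
    qsets q T = (qsets q ∅).filter (fun Q => Disjoint Q T) := by
  unfold qsets
  rw [Finset.filter_filter]
  refine Finset.filter_congr (fun Q _ => ?_)
  simp

/-- pointwise bound for the derivative of the noised indicator. -/
private theorem abs_der_noise_ind_le {p ρ : ℝ} (hp0 : 0 < p) (hp1 : p < 1) (hρ0 : 0 ≤ ρ)
    (hρ1 : ρ ≤ 1) (f : (HyperedgeSlot n r → Bool) → Bool) (e : HyperedgeSlot n r)
    (z : HyperedgeSlot n r → Bool) :
    |der p e (noise p ρ (ind f)) z| ≤ sd p * noise p ρ (piv f e) z := by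
  have hN : 0 ≤ noise p ρ (fun w => |der p e (ind f) w|) z :=
    noise_nonneg hp0.le hp1.le hρ0 hρ1 (fun w => abs_nonneg _) z
  rw [der_noise hp0 hp1, abs_mul, abs_of_nonneg hρ0]
  calc ρ * |noise p ρ (der p e (ind f)) z|
      ≤ 1 * noise p ρ (fun w => |der p e (ind f) w|) z :=
        mul_le_mul hρ1 (abs_noise_le hp0.le hp1.le hρ0 hρ1 _ z) (abs_nonneg _) zero_le_one
    _ = noise p ρ (fun w => sd p * piv f e w) z := by
        rw [one_mul]
        congr 1
        funext w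
        exact abs_der_ind hp0 hp1 f e w
    _ = sd p * noise p ρ (piv f e) z := by
        rw [noise_const_mul]

theorem abs_der_gS_le {p ρ : ℝ} (hp0 : 0 < p) (hp1 : p < 1) (hρ0 : 0 ≤ ρ) (hρ1 : ρ ≤ 1) (q : ℕ)
    (f : (HyperedgeSlot n r → Bool) → Bool) (e : HyperedgeSlot n r)
    (x : HyperedgeSlot n r → Bool) :
    |der p e (gS p ρ q f) x| ≤ sd p * Ys p ρ q f e x := by
  have hinv : (0 : ℝ) ≤ ((n.choose q : ℝ))⁻¹ := inv_nonneg.2 (Nat.cast_nonneg _)
  have key : ∀ Q ∈ qsets q (∅ : Finset (Fin n)),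
      |der p e (avg p (touch Q) (noise p ρ (ind f))) x|
        ≤ if Disjoint Q e.1 then sd p * avg p (touch Q) (noise p ρ (piv f e)) x else 0 := by
    intro Q _
    by_cases hQ : Disjoint Q e.1
    · rw [if_pos hQ]
      have he : e ∉ (touch Q : Finset (HyperedgeSlot n r)) := by
        simp only [touch, Finset.mem_filter, Finset.mem_univ, true_and, not_not]
        exact hQ.symm
      rw [der_avg_of_not_mem p (touch Q) e he]
      refine (abs_avg_le hp0.le hp1.le _ _ x).trans ?_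
      have := avg_mono hp0.le hp1.le (touch Q)
        (h := fun z => |der p e (noise p ρ (ind f)) z|)
        (k := fun z => sd p * noise p ρ (piv f e) z)
        (fun z => abs_der_noise_ind_le hp0 hp1 hρ0 hρ1 f e z) x
      rwa [avg_const_mul] at this
    · rw [if_neg hQ]
      have he : e ∈ (touch Q : Finset (HyperedgeSlot n r)) := by
        simp only [touch, Finset.mem_filter, Finset.mem_univ, true_and]
        exact fun hd => hQ hd.symm
      rw [der_avg_of_mem p (touch Q) e he]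
      simp
  unfold gS Ys
  rw [der_vsm, abs_mul, abs_of_nonneg hinv]
  have h2 : |∑ Q ∈ qsets q (∅ : Finset (Fin n)),
        der p e (avg p (touch Q) (noise p ρ (ind f))) x|
      ≤ sd p * ∑ Q ∈ qsets q e.1, avg p (touch Q) (noise p ρ (piv f e)) x := by
    refine (Finset.abs_sum_le_sum_abs _ _).trans ?_
    refine (Finset.sum_le_sum key).trans (le_of_eq ?_)
    rw [← Finset.sum_filter, ← qsets_eq_filter, Finset.mul_sum]
  calc ((n.choose q : ℝ))⁻¹ * |∑ Q ∈ qsets q (∅ : Finset (Fin n)),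
        der p e (avg p (touch Q) (noise p ρ (ind f))) x|
      ≤ ((n.choose q : ℝ))⁻¹ *
          (sd p * ∑ Q ∈ qsets q e.1, avg p (touch Q) (noise p ρ (piv f e)) x) :=
        mul_le_mul_of_nonneg_left h2 hinv
    _ = sd p * vsm p q e.1 (noise p ρ (piv f e)) x := by
        unfold vsm; ring

end Crest.Agent.BK
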