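import Crest.Agent.BK_Equiv
import Crest.Agent.BK_SmoothDer

/-!
# BK task B3: ROBUSTNESS of large conditional influence (vertex smoothing + symmetry)

Fix `u ∈ e.1`, `x`. Put `γ Q := avg p (star u) (avg p (touch Q) (noise p ρ (piv f e)))` (`≥ 0`), `c := (C(n,q))⁻¹`. Then
`bp u e x = c * ∑_{Q ∈ qsets q e.1} γ Q x` (linearity of `avg`: `avg_const_mul`, `avg_sum`).
For `u' ∉ e.1` let `R u' := c * ∑_{Q ∈ qsets q e.1, u' ∈ Q} γ Q x`.
1. `∑_{u' ∉ e.1} R u' = q * bp u e x`: exchange the sums; every `Q ∈ qsets q e.1` has exactly `q` elements, all outside `e.1`.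
2. `0 ≤ R u' ≤ bp u e x`.
3. `R u' ≤ bp u' (relabelSlot (swap u u') e) x`. Indeed with `σ = swap u u'`: `bp u' (σ e) x = bp (σ u) (σ e) x = bp u e (relabel σ x)`
   (`bp_relabel`) `≥ c ∑_{Q ∋ u'} γ Q (relabel σ x)` (drop nonnegative terms) and for `u' ∈ Q`, `γ Q` is `NoDep (star u ∪ touch Q)`
   (`noDep_avg_union`, `noDep_avg`), while `relabel σ x` and `x` agree at every slot outside `star u ∪ touch Q`
   (such a slot contains neither `u` nor `u'`: `relabelSlot_swap_of_not_mem`).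
4. Counting: let `A` = set of `u' ∉ e.1` with `R u' ≥ q b/(2n)`, `b = bp u e x > 0`. `q b = ∑ R ≤ |A| b + n * q b/(2n)`, so `|A| ≥ q/2`.
-/

set_option autoImplicit false
open Finset
open Crest.CombinatoricsR.HypergraphCube

namespace Crest.Agent.BK
variable {n r : ℕ}

theorem robust {p ρ : ℝ} (hp0 : 0 < p) (hp1 : p < 1) (hρ0 : 0 ≤ ρ) (hρ1 : ρ ≤ 1) (q : ℕ)
    {f : (HyperedgeSlot n r → Bool) → Bool} (hf : IsSymmetric f)
    (u : Fin n) (e : HyperedgeSlot n r) (hu : u ∈ e.1) (x : HyperedgeSlot n r → Bool)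
    (hpos : 0 < bp p ρ q f u e x) :
    (q : ℝ) / 2 ≤ (((univ : Finset (Fin n)).filter (fun u' => u' ∉ e.1 ∧
        (q : ℝ) * bp p ρ q f u e x / (2 * n)
          ≤ bp p ρ q f u' (relabelSlot (Equiv.swap u u') e) x)).card : ℝ) := by
  classical
  by_cases hq : q = 0
  · subst hq; simp
  have hq0 : (0 : ℝ) < q := by exact_mod_cast Nat.pos_of_ne_zero hq
  have hn : 0 < n := Fin.pos u
  have hn0 : (0 : ℝ) < n := by exact_mod_cast hn
  obtain ⟨h, hh⟩ : ∃ h : (HyperedgeSlot n r → Bool) → ℝ, h = noise p ρ (piv f e) := ⟨_, rfl⟩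
  obtain ⟨c, hc⟩ : ∃ c : ℝ, c = ((n.choose q : ℝ))⁻¹ := ⟨_, rfl⟩
  have hc0 : 0 ≤ c := by rw [hc]; positivity
  obtain ⟨γ, hγ⟩ : ∃ γ : Finset (Fin n) → (HyperedgeSlot n r → Bool) → ℝ,
      γ = fun Q => avg p (star u) (avg p (touch Q) h) := ⟨_, rfl⟩
  have hγ0 : ∀ Q z, 0 ≤ γ Q z := by
    intro Q z
    rw [hγ]
    apply avg_nonneg hp0.le hp1.le
    intro z'
    apply avg_nonneg hp0.le hp1.le
    intro z''
    rw [hh]
    apply noise_nonneg hp0.le hp1.le hρ0 hρ1
    intro w
    unfold piv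
    split_ifs <;> norm_num
  have hbp : ∀ z, bp p ρ q f u e z = c * ∑ Q ∈ qsets q e.1, γ Q z := by
    intro z
    have h1 : bp p ρ q f u e
        = avg p (star u) (fun x => c * ∑ Q ∈ qsets q e.1, avg p (touch Q) h x) := by
      rw [hc, hh]; rfl
    rw [h1, avg_const_mul, avg_sum, hγ]
  obtain ⟨b, hb⟩ : ∃ b : ℝ, b = bp p ρ q f u e x := ⟨_, rfl⟩
  rw [← hb] at hpos ⊢
  obtain ⟨R, hR⟩ : ∃ R : Fin n → ℝ,
      R = fun u' => c * ∑ Q ∈ (qsets q e.1).filter (fun Q => u' ∈ Q), γ Q x := ⟨_, rfl⟩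
  have hbx : b = c * ∑ Q ∈ qsets q e.1, γ Q x := by rw [hb, hbp]
  -- 2. `R u' ≤ b`
  have hRb : ∀ u', R u' ≤ b := by
    intro u'
    rw [hR, hbx]
    apply mul_le_mul_of_nonneg_left _ hc0
    exact Finset.sum_le_sum_of_subset_of_nonneg (Finset.filter_subset _ _)
      (fun Q _ _ => hγ0 Q x)
  -- `R u' = 0` on `e.1`
  have hRe : ∀ u' ∈ e.1, R u' = 0 := by
    intro u' hu'
    rw [hR]
    have : (qsets q e.1).filter (fun Q => u' ∈ Q) = ∅ := by
      apply Finset.filter_eq_empty_iff.mpr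
      intro Q hQ hmem
      have hd : Disjoint Q e.1 := (Finset.mem_filter.mp hQ).2
      exact (Finset.disjoint_left.mp hd hmem) hu'
    simp [this]
  -- 1. the sum
  have hsum : ∑ u' : Fin n, R u' = q * b := by
    rw [hR, hbx]
    simp only []
    rw [← Finset.mul_sum]
    simp only [Finset.sum_filter]
    rw [Finset.sum_comm]
    have h1 : ∀ Q ∈ qsets q e.1,
        ∑ u' : Fin n, (if u' ∈ Q then γ Q x else 0) = q * γ Q x := by
      intro Q hQ
      rw [← Finset.sum_filter, Finset.sum_const, nsmul_eq_mul]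
      have h2 : (univ.filter (fun u' => u' ∈ Q)) = Q := by ext; simp
      have hcard : Q.card = q :=
        (Finset.mem_powersetCard.mp (Finset.mem_filter.mp hQ).1).2
      rw [h2, hcard]
    rw [Finset.sum_congr rfl h1, ← Finset.mul_sum]
    ring
  -- 3. comparison with the swapped slot
  have hswap : ∀ u', R u' ≤ bp p ρ q f u' (relabelSlot (Equiv.swap u u') e) x := by
    intro u'
    have h1 : bp p ρ q f u' (relabelSlot (Equiv.swap u u') e) x
        = bp p ρ q f u e (relabel (Equiv.swap u u') x) := by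
      rw [bp_relabel hf, Equiv.swap_apply_left]
    rw [h1, hbp, hR]
    apply mul_le_mul_of_nonneg_left _ hc0
    have h2 : ∑ Q ∈ (qsets q e.1).filter (fun Q => u' ∈ Q), γ Q x
        = ∑ Q ∈ (qsets q e.1).filter (fun Q => u' ∈ Q), γ Q (relabel (Equiv.swap u u') x) := by
      refine Finset.sum_congr rfl (fun Q hQ => ?_)
      have hu'Q : u' ∈ Q := (Finset.mem_filter.mp hQ).2
      have hnd : NoDep (star u ∪ touch Q) (γ Q) := by
        rw [hγ]
        exact noDep_avg_union p (star u) (touch Q) _ (noDep_avg p (touch Q) h)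
      apply hnd
      intro s hs
      have hs1 : u ∉ s.1 := by
        intro hmem
        apply hs
        apply Finset.mem_union_left
        simp [star, hmem]
      have hs2 : u' ∉ s.1 := by
        intro hmem
        apply hs
        apply Finset.mem_union_right
        simp only [touch, Finset.mem_filter, Finset.mem_univ, true_and]
        intro hd
        exact (Finset.disjoint_left.mp hd hmem) hu'Q
      show x s = x (relabelSlot (Equiv.swap u u') s)
      rw [relabelSlot_swap_of_not_mem hs1 hs2]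
    rw [h2]
    exact Finset.sum_le_sum_of_subset_of_nonneg (Finset.filter_subset _ _)
      (fun Q _ _ => hγ0 Q _)
  -- 4. counting
  obtain ⟨t, ht⟩ : ∃ t : ℝ, t = (q : ℝ) * b / (2 * n) := ⟨_, rfl⟩
  rw [← ht]
  have ht0 : 0 < t := by rw [ht]; positivity
  have hsplit : ∑ u' : Fin n, R u' = ∑ u' ∈ univ.filter (fun u' => t ≤ R u'), R u'
      + ∑ u' ∈ univ.filter (fun u' => ¬ t ≤ R u'), R u' :=
    (Finset.sum_filter_add_sum_filter_not _ _ _).symm
  have h1 : ∑ u' ∈ univ.filter (fun u' => t ≤ R u'), R u'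
      ≤ ((univ.filter (fun u' => t ≤ R u')).card : ℝ) * b := by
    calc ∑ u' ∈ univ.filter (fun u' => t ≤ R u'), R u'
        ≤ ∑ u' ∈ univ.filter (fun u' => t ≤ R u'), b :=
          Finset.sum_le_sum (fun u' _ => hRb u')
      _ = ((univ.filter (fun u' => t ≤ R u')).card : ℝ) * b := by
          rw [Finset.sum_const, nsmul_eq_mul]
  have h2 : ∑ u' ∈ univ.filter (fun u' => ¬ t ≤ R u'), R u' ≤ n * t := by
    calc ∑ u' ∈ univ.filter (fun u' => ¬ t ≤ R u'), R u'
        ≤ ∑ u' ∈ univ.filter (fun u' => ¬ t ≤ R u'), t :=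
          Finset.sum_le_sum (fun u' hu' => (not_le.mp (Finset.mem_filter.mp hu').2).le)
      _ = ((univ.filter (fun u' => ¬ t ≤ R u')).card : ℝ) * t := by
          rw [Finset.sum_const, nsmul_eq_mul]
      _ ≤ n * t := by
          apply mul_le_mul_of_nonneg_right _ ht0.le
          have h3 := Finset.card_filter_le (univ : Finset (Fin n)) (fun u' => ¬ t ≤ R u')
          rw [Finset.card_univ, Fintype.card_fin] at h3
          exact_mod_cast h3
  have h3 : (n : ℝ) * t = q * b / 2 := by rw [ht]; field_simp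
  have hA : (q : ℝ) / 2 ≤ ((univ.filter (fun u' => t ≤ R u')).card : ℝ) := by
    have h4 : (q : ℝ) / 2 * b ≤ ((univ.filter (fun u' => t ≤ R u')).card : ℝ) * b := by
      linarith
    exact le_of_mul_le_mul_right h4 hpos
  refine hA.trans ?_
  have hsub : univ.filter (fun u' => t ≤ R u') ⊆ (univ : Finset (Fin n)).filter (fun u' =>
      u' ∉ e.1 ∧ t ≤ bp p ρ q f u' (relabelSlot (Equiv.swap u u') e) x) := by
    intro u' hu'
    have h5 : t ≤ R u' := (Finset.mem_filter.mp hu').2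
    refine Finset.mem_filter.mpr ⟨Finset.mem_univ _, ?_, h5.trans (hswap u')⟩
    intro hmem
    rw [hRe u' hmem] at h5
    linarith
  exact_mod_cast Finset.card_le_card hsub

end Crest.Agent.BK
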