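import Mathlib
import Crest.Prelude.Def_ModularData

/-! Row 84 (S0112), task B2: elementary API of `LineCalculus`. -/

namespace Crest.Agent.BR

open Filter MeasureTheory Crest.OpAlg Crest.OpAlg.LineCalculus
open scoped Topology BoundedContinuousFunction

variable {H : Type*} [NormedAddCommGroup H] [InnerProductSpace ℂ H] [CompleteSpace H]
  (D : LineCalculus H)

theorem norm_apply_le (f : ℝ →ᵇ ℂ) : ‖D.apply f‖ ≤ ‖f‖ := by
  exact NonUnitalStarAlgHom.norm_apply_le D.apply f

theorem apply_mul_apply (f g : ℝ →ᵇ ℂ) (x : H) : D.apply f (D.apply g x) = D.apply (f * g) x := by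
  rw [map_mul]; rfl

theorem apply_comm (f g : ℝ →ᵇ ℂ) : D.apply f * D.apply g = D.apply g * D.apply f := by
  rw [← map_mul, ← map_mul, mul_comm]

/-- adjoint of `f(D)` for a real-valued `f` -/
theorem inner_apply_of_real (f : ℝ →ᵇ ℂ) (hf : ∀ u, (f u).im = 0) (x y : H) :
    inner ℂ x (D.apply f y) = inner ℂ (D.apply f x) y := by
  have h1 : star f = f := by
    ext u
    simp only [BoundedContinuousFunction.star_apply]
    exact Complex.conj_eq_iff_im.mpr (hf u)
  have h2 : star (D.apply f) = D.apply f := by
    rw [← map_star, h1]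
  conv_rhs => rw [← h2, ContinuousLinearMap.star_eq_adjoint]
  rw [ContinuousLinearMap.adjoint_inner_left]

theorem character_apply (t u : ℝ) :
    character t u = Complex.exp (Complex.I * ((t * u : ℝ) : ℂ)) := rfl

theorem character_zero : character 0 = 1 := by
  ext u
  simp [character_apply]

theorem character_add (s t : ℝ) : character (s + t) = character s * character t := by
  ext u
  simp only [character_apply, BoundedContinuousFunction.mul_apply, ← Complex.exp_add]
  congr 1
  push_cast
  ring

theorem star_character (t : ℝ) : star (character t) = character (-t) := by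
  ext u
  simp only [character_apply, BoundedContinuousFunction.star_apply]
  rw [Complex.star_def, ← Complex.exp_conj]
  congr 1
  simp

theorem wave_zero : D.wave 0 = 1 := by
  unfold wave
  rw [character_zero, map_one]

theorem wave_add (s t : ℝ) : D.wave (s + t) = D.wave s * D.wave t := by
  unfold wave
  rw [character_add, map_mul]

theorem star_wave (t : ℝ) : star (D.wave t) = D.wave (-t) := by
  unfold wave
  rw [← map_star, star_character]

theorem wave_neg_wave (t : ℝ) (x : H) : D.wave (-t) (D.wave t x) = x := by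
  have h : D.wave (-t) * D.wave t = 1 := by
    rw [← wave_add, neg_add_cancel, wave_zero]
  have := congrArg (fun A : H →L[ℂ] H => A x) h
  simpa using this

theorem wave_wave_neg (t : ℝ) (x : H) : D.wave t (D.wave (-t) x) = x := by
  have := wave_neg_wave D (-t) x
  rwa [neg_neg] at this

theorem inner_wave_left (t : ℝ) (x y : H) :
    inner ℂ (D.wave t x) y = inner ℂ x (D.wave (-t) y) := by
  rw [← star_wave, ContinuousLinearMap.star_eq_adjoint, ContinuousLinearMap.adjoint_inner_right]

theorem norm_wave_apply (t : ℝ) (x : H) : ‖D.wave t x‖ = ‖x‖ := by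
  have h : inner ℂ (D.wave t x) (D.wave t x) = inner ℂ x x := by
    rw [inner_wave_left, wave_neg_wave]
  have h2 : ‖D.wave t x‖ ^ 2 = ‖x‖ ^ 2 := by
    have := congrArg Complex.re h
    rw [inner_self_eq_norm_sq_to_K, inner_self_eq_norm_sq_to_K] at this
    exact_mod_cast this
  exact (sq_eq_sq₀ (norm_nonneg _) (norm_nonneg _)).mp h2

theorem norm_wave_le (t : ℝ) : ‖D.wave t‖ ≤ 1 := by
  refine ContinuousLinearMap.opNorm_le_bound _ zero_le_one fun x => ?_
  rw [norm_wave_apply, one_mul]

theorem wave_comm_apply (t : ℝ) (f : ℝ →ᵇ ℂ) : D.apply f * D.wave t = D.wave t * D.apply f := by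
  exact apply_comm D f (character t)

theorem norm_character_sub_le (s t u : ℝ) :
    ‖character t u - character s u‖ ≤ |t - s| * |u| := by
  have h : character t u - character s u
      = character s u * (Complex.exp (Complex.I * (((t - s) * u : ℝ) : ℂ)) - 1) := by
    simp only [character_apply]
    rw [mul_sub, ← Complex.exp_add, mul_one]
    congr 2
    push_cast
    ring
  rw [h, norm_mul]
  have h1 : ‖character s u‖ = 1 := by
    rw [character_apply, mul_comm, Complex.norm_exp_ofReal_mul_I]
  rw [h1, one_mul]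
  refine (Real.norm_exp_I_mul_ofReal_sub_one_le).trans ?_
  rw [Real.norm_eq_abs, abs_mul]

/-- strong continuity of the unitary group -/
theorem continuous_wave_apply (x : H) : Continuous fun t : ℝ => D.wave t x := by
  rw [Metric.continuous_iff]
  intro s ε hε
  obtain ⟨f, hfc, hfx⟩ := D.window x (ε / 3) (by positivity)
  obtain ⟨R, hR⟩ := hfc.isCompact.isBounded.subset_closedBall (0 : ℝ)
  have hR' : ∀ u, f u ≠ 0 → |u| ≤ R := by
    intro u hu
    have : u ∈ Metric.closedBall (0 : ℝ) R := hR (subset_tsupport _ hu)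
    simpa [Real.norm_eq_abs] using this
  set K : ℝ := |R| * ‖f‖ * ‖x‖ + 1 with hK
  have hKpos : 0 < K := by positivity
  refine ⟨ε / (3 * K), by positivity, fun t ht => ?_⟩
  rw [Real.dist_eq] at ht
  rw [dist_eq_norm]
  have hbound : ‖(character t - character s) * f‖ ≤ |t - s| * |R| * ‖f‖ := by
    rw [BoundedContinuousFunction.norm_le (by positivity)]
    intro u
    simp only [BoundedContinuousFunction.mul_apply, BoundedContinuousFunction.sub_apply, norm_mul]
    by_cases hu : f u = 0
    · rw [hu, norm_zero, mul_zero]; positivity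
    · have h1 := norm_character_sub_le s t u
      have h2 : |u| ≤ |R| := (hR' u hu).trans (le_abs_self R)
      have h3 : ‖f u‖ ≤ ‖f‖ := f.norm_coe_le_norm u
      calc ‖character t u - character s u‖ * ‖f u‖
          ≤ (|t - s| * |u|) * ‖f‖ := by gcongr
        _ ≤ (|t - s| * |R|) * ‖f‖ := by gcongr
  have hmid : ‖D.wave t (D.apply f x) - D.wave s (D.apply f x)‖ ≤ |t - s| * K := by
    have e : D.wave t (D.apply f x) - D.wave s (D.apply f x)
        = D.apply ((character t - character s) * f) x := by
      rw [sub_mul, map_sub, map_mul, map_mul]; rfl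
    rw [e]
    calc ‖D.apply ((character t - character s) * f) x‖
        ≤ ‖D.apply ((character t - character s) * f)‖ * ‖x‖ := ContinuousLinearMap.le_opNorm _ _
      _ ≤ ‖(character t - character s) * f‖ * ‖x‖ := by
          gcongr; exact norm_apply_le D _
      _ ≤ (|t - s| * |R| * ‖f‖) * ‖x‖ := by gcongr
      _ = |t - s| * (|R| * ‖f‖ * ‖x‖) := by ring
      _ ≤ |t - s| * K := by
          gcongr; rw [hK]; linarith
  have hmid2 : |t - s| * K < ε / 3 := by
    have := mul_lt_mul_of_pos_right ht hKpos
    have e : ε / (3 * K) * K = ε / 3 := by field_simp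
    rwa [e] at this
  have e : D.wave t x - D.wave s x
      = D.wave t (x - D.apply f x) + (D.wave t (D.apply f x) - D.wave s (D.apply f x))
        + D.wave s (D.apply f x - x) := by
    simp only [map_sub]; abel
  rw [e]
  have n1 : ‖D.wave t (x - D.apply f x)‖ < ε / 3 := by
    rw [norm_wave_apply, norm_sub_rev]; exact hfx
  have n3 : ‖D.wave s (D.apply f x - x)‖ < ε / 3 := by
    rw [norm_wave_apply]; exact hfx
  calc _ ≤ ‖D.wave t (x - D.apply f x)‖ + ‖D.wave t (D.apply f x) - D.wave s (D.apply f x)‖
        + ‖D.wave s (D.apply f x - x)‖ := norm_add₃_le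
    _ < ε / 3 + ε / 3 + ε / 3 := by
        have := hmid.trans_lt hmid2
        linarith
    _ = ε := by ring

/-- joint continuity -/
theorem continuous_wave_comp {τ : ℝ → ℝ} (hτ : Continuous τ) {y : ℝ → H} (hy : Continuous y) :
    Continuous fun t : ℝ => D.wave (τ t) (y t) := by
  rw [continuous_iff_continuousAt]
  intro s
  unfold ContinuousAt
  rw [tendsto_iff_norm_sub_tendsto_zero]
  have h1 : Tendsto (fun t => ‖y t - y s‖ + ‖D.wave (τ t) (y s) - D.wave (τ s) (y s)‖)
      (𝓝 s) (𝓝 0) := by
    have a1 : Tendsto (fun t => ‖y t - y s‖) (𝓝 s) (𝓝 0) :=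
      tendsto_iff_norm_sub_tendsto_zero.mp (hy.tendsto s)
    have a2 : Tendsto (fun t => ‖D.wave (τ t) (y s) - D.wave (τ s) (y s)‖) (𝓝 s) (𝓝 0) :=
      tendsto_iff_norm_sub_tendsto_zero.mp
        (((continuous_wave_apply D (y s)).comp hτ).tendsto s)
    simpa using a1.add a2
  refine squeeze_zero (fun _ => norm_nonneg _) (fun t => ?_) h1
  have e : D.wave (τ t) (y t) - D.wave (τ s) (y s)
      = D.wave (τ t) (y t - y s) + (D.wave (τ t) (y s) - D.wave (τ s) (y s)) := by
    simp only [map_sub]; abel
  rw [e]
  refine (norm_add_le _ _).trans ?_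
  rw [norm_wave_apply]

theorem supportedIn_apply {K : Set ℝ} {x : H} (hx : D.SupportedIn K x) (f : ℝ →ᵇ ℂ) :
    D.SupportedIn K (D.apply f x) := by
  intro g hg
  rw [apply_mul_apply, mul_comm, ← apply_mul_apply, hx g hg, map_zero]

theorem supportedIn_wave {K : Set ℝ} {x : H} (hx : D.SupportedIn K x) (t : ℝ) :
    D.SupportedIn K (D.wave t x) :=
  supportedIn_apply D hx (character t)

theorem supportedIn_of_vanish {K : Set ℝ} (q : ℝ →ᵇ ℂ) (hq : ∀ u, u ∉ K → q u = 0) (x : H) :
    D.SupportedIn K (D.apply q x) := by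
  intro g hg
  rw [apply_mul_apply]
  have : g * q = 0 := by
    ext u
    simp only [BoundedContinuousFunction.mul_apply]
    by_cases hu : u ∈ K
    · rw [hg u hu, zero_mul]; rfl
    · rw [hq u hu, mul_zero]; rfl
  rw [this, map_zero]; rfl

theorem apply_eq_of_eqOn {K : Set ℝ} {x : H} (hx : D.SupportedIn K x) (f g : ℝ →ᵇ ℂ)
    (h : ∀ u ∈ K, f u = g u) : D.apply f x = D.apply g x := by
  have h0 : D.apply (f - g) x = 0 := hx (f - g) (fun u hu => by
    simp only [BoundedContinuousFunction.sub_apply]; rw [h u hu, sub_self])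
  rw [map_sub] at h0
  exact sub_eq_zero.mp h0

theorem apply_eq_self_of_eq_one {K : Set ℝ} {x : H} (hx : D.SupportedIn K x) (f : ℝ →ᵇ ℂ)
    (h : ∀ u ∈ K, f u = 1) : D.apply f x = x := by
  rw [apply_eq_of_eqOn D hx f 1 (fun u hu => by rw [h u hu]; rfl), map_one]; rfl

end Crest.Agent.BR
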