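import Mathlib
import Crest.Prelude.Def_ModularData
import Crest.Agent.BR_Calc

/-! Row 84 (S0112), task B10: band vectors lie in the domain of the Tomita operator. -/

namespace Crest.Agent.BR

open Filter MeasureTheory Crest.OpAlg Crest.OpAlg.LineCalculus
open scoped Topology BoundedContinuousFunction

variable {H : Type*} [NormedAddCommGroup H] [InnerProductSpace ℂ H] [CompleteSpace H]

/-- the clamped half exponential `u ↦ exp (clamp u / 2)` as a bounded continuous function. -/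
noncomputable def clampExp (s δ : ℝ) : ℝ →ᵇ ℂ :=
  BoundedContinuousFunction.ofNormedAddCommGroup
    (fun u : ℝ => ((Real.exp (max (s - δ) (min u (s + δ)) / 2) : ℝ) : ℂ))
    (by fun_prop) (Real.exp (max (s - δ) (s + δ) / 2))
    (fun u => by
      rw [Complex.norm_real, Real.norm_eq_abs, abs_of_pos (Real.exp_pos _)]
      apply Real.exp_le_exp.mpr
      have : max (s - δ) (min u (s + δ)) ≤ max (s - δ) (s + δ) :=
        max_le_max le_rfl (min_le_right _ _)
      linarith)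

theorem clampExp_apply (s δ u : ℝ) :
    clampExp s δ u = ((Real.exp (max (s - δ) (min u (s + δ)) / 2) : ℝ) : ℂ) := rfl

theorem clampExp_apply_of_mem (s δ u : ℝ) (hu : u ∈ Set.Icc (s - δ) (s + δ)) :
    clampExp s δ u = ((Real.exp (u / 2) : ℝ) : ℂ) := by
  rw [clampExp_apply, min_eq_left hu.2, max_eq_right hu.1]

theorem norm_clampExp_le (s δ : ℝ) (_hδ : 0 ≤ δ) :
    ‖clampExp s δ‖ ≤ Real.exp ((s + δ) / 2) := by
  rw [BoundedContinuousFunction.norm_le (Real.exp_pos _).le]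
  intro u
  rw [clampExp_apply, Complex.norm_real, Real.norm_eq_abs, abs_of_pos (Real.exp_pos _)]
  apply Real.exp_le_exp.mpr
  have : max (s - δ) (min u (s + δ)) ≤ s + δ :=
    max_le (by linarith) (min_le_right _ _)
  linarith

/-- a band vector lies in the domain of `exp (D/2)`. -/
theorem halfExp_of_band (D : LineCalculus H) (s δ : ℝ) (h : H)
    (hband : D.SupportedIn (Set.Icc (s - δ) (s + δ)) h) :
    D.HalfExp h (D.apply (clampExp s δ) h) := by
  intro f g hfg
  rw [apply_mul_apply]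
  apply apply_eq_of_eqOn D hband
  intro u hu
  rw [BoundedContinuousFunction.mul_apply, clampExp_apply_of_mem s δ u hu, hfg u]

/-- B10. With `gt u = exp (clamp u / 2)` (`clamp` = projection onto `[s-δ, s+δ]`), the pair
`(h, J (gt(D) h))` satisfies `HalfExp h (J (J (gt(D) h)))`, hence lies in the closure of `{(a ξ, a* ξ)}`;
`‖gt(D) h‖ ≤ exp ((s+δ)/2) ‖h‖`. -/
theorem exists_approx (S : ModularDatum H) (s δ : ℝ) (hδ : 0 ≤ δ) (h : H)
    (hband : S.D.SupportedIn (Set.Icc (s - δ) (s + δ)) h) (ε : ℝ) (hε : 0 < ε) :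
    ∃ a ∈ S.M, ‖a S.vac - h‖ < ε ∧ ‖star a S.vac‖ ≤ Real.exp ((s + δ) / 2) * ‖h‖ + ε := by
  set y : H := S.D.apply (clampExp s δ) h with hy
  have hmem : ((h, S.J y) : H × H) ∈
      closure (Set.range fun a : S.M =>
        ((a : H →L[ℂ] H) S.vac, star (a : H →L[ℂ] H) S.vac)) := by
    rw [S.tomita]
    show S.D.HalfExp h (S.J (S.J y))
    rw [S.J_J]
    exact halfExp_of_band S.D s δ h hband
  rw [Metric.mem_closure_iff] at hmem
  obtain ⟨p, ⟨a, rfl⟩, hp⟩ := hmem ε hε
  rw [Prod.dist_eq, max_lt_iff] at hp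
  obtain ⟨hp1, hp2⟩ := hp
  refine ⟨a, a.2, ?_, ?_⟩
  · rw [← dist_eq_norm, dist_comm]
    exact hp1
  · have h1 : ‖star (a : H →L[ℂ] H) S.vac - S.J y‖ < ε := by
      rw [← dist_eq_norm, dist_comm]
      exact hp2
    have h2 : ‖S.J y‖ = ‖y‖ := S.J.norm_map y
    have h3 : ‖y‖ ≤ Real.exp ((s + δ) / 2) * ‖h‖ := by
      calc ‖y‖ ≤ ‖S.D.apply (clampExp s δ)‖ * ‖h‖ := ContinuousLinearMap.le_opNorm _ _
        _ ≤ ‖clampExp s δ‖ * ‖h‖ :=
          mul_le_mul_of_nonneg_right (norm_apply_le S.D _) (norm_nonneg _)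
        _ ≤ Real.exp ((s + δ) / 2) * ‖h‖ :=
          mul_le_mul_of_nonneg_right (norm_clampExp_le s δ hδ) (norm_nonneg _)
    have h4 : ‖star (a : H →L[ℂ] H) S.vac‖ ≤ ‖star (a : H →L[ℂ] H) S.vac - S.J y‖ + ‖S.J y‖ := by
      have := norm_add_le (star (a : H →L[ℂ] H) S.vac - S.J y) (S.J y)
      simpa using this
    linarith

end Crest.Agent.BR
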