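import Mathlib
import Crest.Prelude.Def_ModularData

/-! Row 84 (S0112), task B5: square roots and unitaries in a von Neumann algebra. -/

namespace Crest.Agent.BR

variable {H : Type*} [NormedAddCommGroup H] [InnerProductSpace ℂ H] [CompleteSpace H]

/-- membership through the double commutant -/
theorem mem_of_commute (M : VonNeumannAlgebra H) (x : H →L[ℂ] H)
    (h : ∀ y ∈ M.commutant, y * x = x * y) : x ∈ M := by
  rw [← VonNeumannAlgebra.commutant_commutant M, VonNeumannAlgebra.mem_commutant_iff]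
  exact h

/-- `c = √(1 - b²)` for a self-adjoint contraction `b ∈ M`
(`c = cfc (fun x : ℝ => √(1 - x ^ 2)) b`; membership by `Commute.cfc_real` + `mem_of_commute`;
`2 - b² - c = cfc (fun x => 2 - x^2 - √(1-x^2)) b` and `2 - x² - √(1-x²) ∈ [3/4, 1]` on `[-1,1]`). -/
theorem exists_sqrt (M : VonNeumannAlgebra H) (b : H →L[ℂ] H) (hb : b ∈ M) (hsa : IsSelfAdjoint b)
    (hn : ‖b‖ ≤ 1) : ∃ c ∈ M, IsSelfAdjoint c ∧ c * c + b * b = 1 ∧ c * b = b * c ∧
      ‖2 - b * b - c‖ ≤ 1 := by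
  have hspec : ∀ x ∈ spectrum ℝ b, x ^ 2 ≤ 1 := by
    intro x hx
    have h0 : ‖x‖ ≤ ‖b‖ * ‖(1 : H →L[ℂ] H)‖ := spectrum.norm_le_norm_mul_of_mem hx
    have h01 : ‖(1 : H →L[ℂ] H)‖ ≤ 1 := ContinuousLinearMap.norm_id_le
    have h1 : ‖x‖ ≤ ‖b‖ := by nlinarith [norm_nonneg b]
    have h2 : |x| ≤ 1 := by
      rw [Real.norm_eq_abs] at h1; exact h1.trans hn
    have := abs_le.mp h2
    nlinarith [this.1, this.2]
  have hcont : Continuous (fun x : ℝ => Real.sqrt (1 - x ^ 2)) := by fun_prop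
  refine ⟨cfc (fun x : ℝ => Real.sqrt (1 - x ^ 2)) b, ?_, ?_, ?_, ?_, ?_⟩
  · apply mem_of_commute
    intro y hy
    have hyb : Commute b y := by
      rw [VonNeumannAlgebra.mem_commutant_iff] at hy
      exact hy b hb
    exact ((hyb.cfc_real (fun x : ℝ => Real.sqrt (1 - x ^ 2))).eq).symm
  · exact cfc_predicate _ _
  · have e1 : cfc (fun x : ℝ => Real.sqrt (1 - x ^ 2)) b * cfc (fun x : ℝ => Real.sqrt (1 - x ^ 2)) b
        = cfc (fun x : ℝ => Real.sqrt (1 - x ^ 2) * Real.sqrt (1 - x ^ 2)) b := by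
      rw [cfc_mul (fun x : ℝ => Real.sqrt (1 - x ^ 2)) (fun x : ℝ => Real.sqrt (1 - x ^ 2)) b
        hcont.continuousOn hcont.continuousOn]
    have e2 : b * b = cfc (fun x : ℝ => x * x) b := by
      rw [cfc_mul (fun x : ℝ => x) (fun x : ℝ => x) b continuousOn_id continuousOn_id]
      rw [cfc_id' ℝ b hsa]
    rw [e1, e2, ← cfc_add (a := b) (fun x : ℝ => Real.sqrt (1 - x ^ 2) * Real.sqrt (1 - x ^ 2))
      (fun x : ℝ => x * x) (by fun_prop) (by fun_prop)]
    rw [← cfc_one ℝ b hsa]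
    apply cfc_congr
    intro x hx
    have := hspec x hx
    simp only []
    rw [Real.mul_self_sqrt (by linarith)]
    simp
    ring
  · exact ((Commute.refl b).cfc_real (fun x : ℝ => Real.sqrt (1 - x ^ 2))).eq
  · have e2 : b * b = cfc (fun x : ℝ => x * x) b := by
      rw [cfc_mul (fun x : ℝ => x) (fun x : ℝ => x) b continuousOn_id continuousOn_id]
      rw [cfc_id' ℝ b hsa]
    have e3 : (2 : H →L[ℂ] H) = cfc (fun _ : ℝ => (2 : ℝ)) b := by
      rw [cfc_const (2 : ℝ) b hsa]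
      simp [Algebra.algebraMap_eq_smul_one, two_smul]
      norm_num
    rw [e2, e3, ← cfc_sub (a := b) (fun _ : ℝ => (2 : ℝ)) (fun x : ℝ => x * x)
      (by fun_prop) (by fun_prop),
      ← cfc_sub (a := b) (fun x : ℝ => (2 : ℝ) - x * x) (fun x : ℝ => Real.sqrt (1 - x ^ 2))
      (by fun_prop) (by fun_prop)]
    apply norm_cfc_le zero_le_one
    intro x hx
    have h1 := hspec x hx
    have hs0 : 0 ≤ Real.sqrt (1 - x ^ 2) := Real.sqrt_nonneg _
    have hs2 : Real.sqrt (1 - x ^ 2) * Real.sqrt (1 - x ^ 2) = 1 - x ^ 2 :=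
      Real.mul_self_sqrt (by linarith)
    have hs1 : Real.sqrt (1 - x ^ 2) ≤ 1 := by
      rw [Real.sqrt_le_one]; nlinarith [sq_nonneg x]
    rw [Real.norm_eq_abs, abs_le]
    constructor <;> nlinarith [sq_nonneg x]

/-- `c ± i b` are unitary. -/
theorem unitary_of_sqrt {b c : H →L[ℂ] H} (hb : IsSelfAdjoint b) (hc : IsSelfAdjoint c)
    (h1 : c * c + b * b = 1) (h2 : c * b = b * c) (σ : ℂ) (hσ : σ = Complex.I ∨ σ = -Complex.I) :
    c + σ • b ∈ unitary (H →L[ℂ] H) := by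
  have hstar : star (c + σ • b) = c - σ • b := by
    rw [star_add, star_smul, hb.star_eq, hc.star_eq]
    rcases hσ with rfl | rfl
    · simp [sub_eq_add_neg]
    · simp [sub_eq_add_neg]
  have hσ2 : σ * σ = -1 := by
    rcases hσ with rfl | rfl <;> simp
  rw [Unitary.mem_iff, hstar]
  constructor
  · have : (c - σ • b) * (c + σ • b) = c * c + σ • (c * b) - σ • (b * c) - (σ * σ) • (b * b) := by
      simp only [sub_mul, mul_add, smul_mul_assoc, mul_smul_comm, smul_add, smul_sub, smul_smul]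
      abel
    rw [this, h2, hσ2, ← h1]
    simp
  · have : (c + σ • b) * (c - σ • b) = c * c - σ • (c * b) + σ • (b * c) - (σ * σ) • (b * b) := by
      simp only [add_mul, mul_sub, smul_mul_assoc, mul_smul_comm, smul_add, smul_sub, smul_smul]
      abel
    rw [this, h2, hσ2, ← h1]
    simp

end Crest.Agent.BR
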