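import Mathlib
import Crest.Prelude.Def_ModularData
import Crest.Agent.BR_Mean

/-! Row 84 (S0112), task B6: weak means of bounded operator families. -/

namespace Crest.Agent.BR

open Filter MeasureTheory Crest.OpAlg Crest.OpAlg.LineCalculus
open scoped Topology BoundedContinuousFunction

variable {H : Type*} [NormedAddCommGroup H] [InnerProductSpace ℂ H] [CompleteSpace H]

omit [CompleteSpace H] in
/-- The matrix coefficients of a bounded weakly continuous family are bounded continuous. -/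
theorem bc_inner_family (X : ℝ → H →L[ℂ] H) (K : ℝ) (hK : ∀ t, ‖X t‖ ≤ K)
    (hc : ∀ α β : H, Continuous fun t => inner ℂ β (X t α)) (α β : H) :
    BC (fun t => inner ℂ β (X t α)) := by
  refine ⟨hc α β, K * ‖α‖ * ‖β‖, fun t => ?_⟩
  calc ‖inner ℂ β (X t α)‖ ≤ ‖β‖ * ‖X t α‖ := norm_inner_le_norm _ _
    _ ≤ ‖β‖ * (K * ‖α‖) := by
        gcongr
        exact (X t).le_of_opNorm_le (hK t) α
    _ = K * ‖α‖ * ‖β‖ := by ring

/-- B6. The weak mean of a bounded weakly continuous family of operators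
(`LinearMap.mkContinuous₂` + `InnerProductSpace.continuousLinearMapOfBilin` + adjoint). -/
theorem exists_weakMean (ω : Ultrafilter ℕ) (X : ℝ → H →L[ℂ] H) (K : ℝ) (hK : ∀ t, ‖X t‖ ≤ K)
    (hc : ∀ α β : H, Continuous fun t => inner ℂ β (X t α)) :
    ∃ Xbar : H →L[ℂ] H, ∀ α β : H, inner ℂ β (Xbar α) = cMean ω (fun t => inner ℂ β (X t α)) := by
  have hbc := bc_inner_family X K hK hc
  let f : H → H → ℂ := fun β α => cMean ω (fun t => inner ℂ β (X t α))
  have H1 : ∀ m₁ m₂ n, f (m₁ + m₂) n = f m₁ n + f m₂ n := by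
    intro m₁ m₂ n
    simp only [f, inner_add_left]
    exact cMean_add ω (hbc n m₁) (hbc n m₂)
  have H2 : ∀ (c : ℂ) (m n), f (c • m) n = (starRingEnd ℂ) c • f m n := by
    intro c m n
    simp only [f, inner_smul_left, smul_eq_mul]
    exact cMean_mul_left ω _ (hbc n m)
  have H3 : ∀ m n₁ n₂, f m (n₁ + n₂) = f m n₁ + f m n₂ := by
    intro m n₁ n₂
    simp only [f, map_add, inner_add_right]
    exact cMean_add ω (hbc n₁ m) (hbc n₂ m)
  have H4 : ∀ (c : ℂ) (m n), f m (c • n) = (RingHom.id ℂ) c • f m n := by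
    intro c m n
    simp only [f, map_smul, inner_smul_right, smul_eq_mul, RingHom.id_apply]
    exact cMean_mul_left ω _ (hbc n m)
  let B₀ : H →ₛₗ[starRingEnd ℂ] H →ₗ[ℂ] ℂ := LinearMap.mk₂'ₛₗ (starRingEnd ℂ) (RingHom.id ℂ) f H1 H2 H3 H4
  have hB₀ : ∀ x y, ‖B₀ x y‖ ≤ (2 * K) * ‖x‖ * ‖y‖ := by
    intro x y
    have h : ‖cMean ω (fun t => inner ℂ x (X t y))‖ ≤ 2 * (K * ‖y‖ * ‖x‖) := by
      refine norm_cMean_le ω (hc y x) (fun t => ?_)
      calc ‖inner ℂ x (X t y)‖ ≤ ‖x‖ * ‖X t y‖ := norm_inner_le_norm _ _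
        _ ≤ ‖x‖ * (K * ‖y‖) := by
            gcongr
            exact (X t).le_of_opNorm_le (hK t) y
        _ = K * ‖y‖ * ‖x‖ := by ring
    calc ‖B₀ x y‖ = ‖cMean ω (fun t => inner ℂ x (X t y))‖ := rfl
      _ ≤ 2 * (K * ‖y‖ * ‖x‖) := h
      _ = (2 * K) * ‖x‖ * ‖y‖ := by ring
  let B : H →L⋆[ℂ] H →L[ℂ] ℂ := LinearMap.mkContinuous₂ B₀ (2 * K) hB₀
  refine ⟨ContinuousLinearMap.adjoint (InnerProductSpace.continuousLinearMapOfBilin B), ?_⟩
  intro α β
  rw [ContinuousLinearMap.adjoint_inner_right, InnerProductSpace.continuousLinearMapOfBilin_apply]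
  rfl

end Crest.Agent.BR
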