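import Mathlib
import Crest.Prelude.Def_ModularData
import Crest.Agent.BR_Mean
import Crest.Agent.BR_Calc
import Crest.Agent.BR_Unitary
import Crest.Agent.BR_WeakMean

/-! Row 84 (S0112), task B7: the ergodic mean. -/

namespace Crest.Agent.BR

open Filter MeasureTheory Crest.OpAlg Crest.OpAlg.LineCalculus
open scoped Topology BoundedContinuousFunction

variable {H : Type*} [NormedAddCommGroup H] [InnerProductSpace ℂ H] [CompleteSpace H]

theorem erg_flow_apply (S : ModularDatum H) (t : ℝ) (z : H →L[ℂ] H) (α : H) :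
    S.flow t z α = S.D.wave t (z (S.D.wave (-t) α)) := rfl

theorem erg_norm_flow_le (S : ModularDatum H) (t : ℝ) (z : H →L[ℂ] H) : ‖S.flow t z‖ ≤ ‖z‖ := by
  refine ContinuousLinearMap.opNorm_le_bound _ (norm_nonneg _) fun α => ?_
  rw [erg_flow_apply, norm_wave_apply]
  calc ‖z (S.D.wave (-t) α)‖ ≤ ‖z‖ * ‖S.D.wave (-t) α‖ := z.le_opNorm _
    _ = ‖z‖ * ‖α‖ := by rw [norm_wave_apply]

/-- B7a. -/
theorem bc_inner_flow (S : ModularDatum H) (z : H →L[ℂ] H) (α β : H) :
    BC (fun t => inner ℂ β (S.flow t z α)) := by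
  refine ⟨?_, ‖β‖ * (‖z‖ * ‖α‖), fun t => ?_⟩
  · have h1 : Continuous fun t : ℝ => S.D.wave (-t) α :=
      continuous_wave_comp S.D continuous_neg continuous_const
    have h2 : Continuous fun t : ℝ => S.D.wave t (z (S.D.wave (-t) α)) :=
      continuous_wave_comp S.D continuous_id (z.continuous.comp h1)
    exact continuous_const.inner h2
  · calc ‖inner ℂ β (S.flow t z α)‖ ≤ ‖β‖ * ‖S.flow t z α‖ := norm_inner_le_norm _ _
      _ ≤ ‖β‖ * (‖z‖ * ‖α‖) := by
        gcongr
        exact (ContinuousLinearMap.le_opNorm _ _).trans (by gcongr; exact erg_norm_flow_le S t z)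

/-- B7. Ergodic mean: the weak mean `zbar` of `σ_t(z)` (`exists_weakMean`) commutes with `M'`
(`mem_of_commute`), is flow invariant (`cMean_shift`), hence is a scalar, equal to `⟨ξ, z ξ⟩` (`cMean_const`). -/
theorem ergodic_mean (S : ModularDatum H) (herg : S.Ergodic) (ω : Ultrafilter ℕ)
    (hω : (ω : Filter ℕ) ≤ atTop) (hvac : ∀ t, S.D.wave t S.vac = S.vac)
    (z : H →L[ℂ] H) (hz : z ∈ S.M) (α β : H) :
    cMean ω (fun t => inner ℂ β (S.flow t z α)) = inner ℂ S.vac (z S.vac) * inner ℂ β α := by
  obtain ⟨zbar, hzbar⟩ := exists_weakMean ω (fun t => S.flow t z) ‖z‖ (fun t => erg_norm_flow_le S t z)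
    (fun α β => (bc_inner_flow S z α β).1)
  -- `zbar ∈ M`
  have hmem : zbar ∈ S.M := by
    refine mem_of_commute S.M zbar fun y hy => ?_
    refine ContinuousLinearMap.ext fun a => ext_inner_left ℂ fun b => ?_
    have hcomm : ∀ t, y (S.flow t z a) = S.flow t z (y a) := by
      intro t
      have hft : S.flow t z ∈ S.M := S.flow_mem t z hz
      have := (VonNeumannAlgebra.mem_commutant_iff.1 hy) (S.flow t z) hft
      have h2 := congrArg (fun L : H →L[ℂ] H => L a) this
      simpa using h2.symm
    calc inner ℂ b ((y * zbar) a) = inner ℂ (ContinuousLinearMap.adjoint y b) (zbar a) := by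
          rw [ContinuousLinearMap.adjoint_inner_left]; rfl
      _ = cMean ω (fun t => inner ℂ (ContinuousLinearMap.adjoint y b) (S.flow t z a)) := hzbar _ _
      _ = cMean ω (fun t => inner ℂ b (S.flow t z (y a))) := by
          congr 1; funext t
          rw [ContinuousLinearMap.adjoint_inner_left, hcomm]
      _ = inner ℂ b (zbar (y a)) := (hzbar _ _).symm
      _ = inner ℂ b ((zbar * y) a) := rfl
  -- flow invariance
  have hinv : ∀ r : ℝ, S.flow r zbar = zbar := by
    intro r
    refine ContinuousLinearMap.ext fun a => ext_inner_left ℂ fun b => ?_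
    calc inner ℂ b (S.flow r zbar a)
        = inner ℂ (S.D.wave (-r) b) (zbar (S.D.wave (-r) a)) := by
          rw [erg_flow_apply, inner_wave_left, neg_neg]
      _ = cMean ω (fun t => inner ℂ (S.D.wave (-r) b) (S.flow t z (S.D.wave (-r) a))) := hzbar _ _
      _ = cMean ω (fun t => inner ℂ b (S.flow (t + r) z a)) := by
          congr 1; funext t
          rw [inner_wave_left, neg_neg, erg_flow_apply, erg_flow_apply]
          have e1 : S.D.wave (-(t + r)) a = S.D.wave (-t) (S.D.wave (-r) a) := by
            rw [neg_add, wave_add]; rfl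
          have e2 : ∀ v, S.D.wave (t + r) v = S.D.wave r (S.D.wave t v) := by
            intro v
            rw [add_comm, wave_add]; rfl
          rw [e1, e2]
      _ = cMean ω (fun t => inner ℂ b (S.flow t z a)) :=
          cMean_shift ω hω (bc_inner_flow S z a b) r
      _ = inner ℂ b (zbar a) := (hzbar _ _).symm
  obtain ⟨c, hc⟩ := herg zbar hmem hinv
  have hcval : c = inner ℂ S.vac (z S.vac) := by
    have h1 : inner ℂ S.vac (zbar S.vac) = c := by
      rw [hc]
      simp [S.norm_vac]
    rw [← h1, hzbar]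
    have : (fun t => inner ℂ S.vac (S.flow t z S.vac)) = fun _ : ℝ => inner ℂ S.vac (z S.vac) := by
      funext t
      have h3 : inner ℂ S.vac (S.D.wave t (z S.vac)) = inner ℂ (S.D.wave (-t) S.vac) (z S.vac) := by
        rw [inner_wave_left, neg_neg]
      rw [erg_flow_apply, hvac (-t), h3, hvac (-t)]
    rw [this, cMean_const ω hω]
  rw [← hzbar, hc, hcval]
  simp

end Crest.Agent.BR
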