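import Mathlib
import Crest.Prelude.Def_ModularData
import Crest.Agent.BR_Calc

/-! Row 84 (S0112), task B3: Fourier integrals of the unitary group are functions of `D`. -/

namespace Crest.Agent.BR

open Filter MeasureTheory Crest.OpAlg Crest.OpAlg.LineCalculus
open scoped Topology BoundedContinuousFunction

variable {H : Type*} [NormedAddCommGroup H] [InnerProductSpace ℂ H] [CompleteSpace H]

/-- the continuous linear map `φ ↦ φ(D) x`. -/
noncomputable def applyCLM (D : LineCalculus H) (x : H) : (ℝ →ᵇ ℂ) →L[ℂ] H :=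
  LinearMap.mkContinuous
    { toFun := fun φ => D.apply φ x
      map_add' := by intro a b; simp
      map_smul' := by intro c a; simp }
    ‖x‖ (by
      intro φ
      have h1 : ‖D.apply φ x‖ ≤ ‖D.apply φ‖ * ‖x‖ := (D.apply φ).le_opNorm x
      have h2 : ‖D.apply φ‖ * ‖x‖ ≤ ‖φ‖ * ‖x‖ :=
        mul_le_mul_of_nonneg_right (norm_apply_le D φ) (norm_nonneg _)
      calc ‖D.apply φ x‖ ≤ ‖φ‖ * ‖x‖ := h1.trans h2
        _ = ‖x‖ * ‖φ‖ := mul_comm _ _)

@[simp] theorem applyCLM_apply (D : LineCalculus H) (x : H) (φ : ℝ →ᵇ ℂ) :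
    applyCLM D x φ = D.apply φ x := rfl

theorem character_apply_F (t u : ℝ) :
    character t u = Complex.exp (Complex.I * ((t * u : ℝ) : ℂ)) := rfl

theorem norm_character_sub_le_F (a b u : ℝ) :
    ‖character a u - character b u‖ ≤ |a - b| * |u| := by
  rw [character_apply_F, character_apply_F]
  have h : Complex.exp (Complex.I * ((a * u : ℝ) : ℂ)) - Complex.exp (Complex.I * ((b * u : ℝ) : ℂ))
      = Complex.exp (Complex.I * ((b * u : ℝ) : ℂ)) *
        (Complex.exp (Complex.I * (((a - b) * u : ℝ) : ℂ)) - 1) := by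
    rw [mul_sub, ← Complex.exp_add, mul_one]
    congr 2
    push_cast
    ring
  rw [h, norm_mul]
  have h1 : ‖Complex.exp (Complex.I * ((b * u : ℝ) : ℂ))‖ = 1 := by
    rw [mul_comm]; exact Complex.norm_exp_ofReal_mul_I _
  rw [h1, one_mul]
  refine (Real.norm_exp_I_mul_ofReal_sub_one_le).trans ?_
  rw [Real.norm_eq_abs, abs_mul]

/-- norm continuity of `t ↦ e^{i lam t u} k(u)` for compactly supported `k`. -/
theorem continuous_character_mul (lam : ℝ) (k : ℝ →ᵇ ℂ) (hk : HasCompactSupport (k : ℝ → ℂ)) :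
    Continuous fun t : ℝ => character (lam * t) * k := by
  obtain ⟨R, hR⟩ := hk.isCompact.isBounded.subset_closedBall (0 : ℝ)
  have hR' : ∀ u : ℝ, k u ≠ 0 → |u| ≤ R := by
    intro u hu
    have : u ∈ tsupport (k : ℝ → ℂ) := subset_closure hu
    have := hR this
    simpa [Real.norm_eq_abs] using this
  have hlip : LipschitzWith (Real.toNNReal (|lam| * |R| * ‖k‖))
      (fun t : ℝ => character (lam * t) * k) := by
    refine LipschitzWith.of_dist_le_mul ?_
    intro s t
    rw [Real.coe_toNNReal _ (by positivity)]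
    rw [BoundedContinuousFunction.dist_le (by positivity)]
    intro u
    rw [dist_eq_norm]
    simp only [BoundedContinuousFunction.coe_mul, Pi.mul_apply]
    rw [← sub_mul, norm_mul]
    by_cases hu : k u = 0
    · rw [hu]; simp; positivity
    · have h1 := norm_character_sub_le_F (lam * s) (lam * t) u
      have h2 : |u| ≤ |R| := (hR' u hu).trans (le_abs_self R)
      have h3 : ‖k u‖ ≤ ‖k‖ := k.norm_coe_le_norm u
      have h4 : |lam * s - lam * t| = |lam| * dist s t := by
        rw [← mul_sub, abs_mul, Real.dist_eq]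
      calc ‖character (lam * s) u - character (lam * t) u‖ * ‖k u‖
          ≤ (|lam * s - lam * t| * |u|) * ‖k‖ := by gcongr
        _ ≤ (|lam * s - lam * t| * |R|) * ‖k‖ := by gcongr
        _ = |lam| * |R| * ‖k‖ * dist s t := by rw [h4]; ring
  exact hlip.continuous

theorem norm_character_mul_le (a : ℝ) (k : ℝ →ᵇ ℂ) : ‖character a * k‖ ≤ ‖k‖ := by
  rw [BoundedContinuousFunction.norm_le (norm_nonneg _)]
  intro u
  simp only [BoundedContinuousFunction.coe_mul, Pi.mul_apply]
  rw [norm_mul, character_apply_F]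
  have h1 : ‖Complex.exp (Complex.I * ((a * u : ℝ) : ℂ))‖ = 1 := by
    rw [mul_comm]; exact Complex.norm_exp_ofReal_mul_I _
  rw [h1, one_mul]
  exact k.norm_coe_le_norm u

theorem integrable_smul_character_mul (F : ℝ → ℂ) (hF : Integrable F) (lam : ℝ) (k : ℝ →ᵇ ℂ)
    (hk : HasCompactSupport (k : ℝ → ℂ)) :
    Integrable fun t : ℝ => F t • (character (lam * t) * k) := by
  refine Integrable.mono' (g := fun t => ‖F t‖ * ‖k‖) (hF.norm.mul_const _) ?_ ?_
  · exact hF.aestronglyMeasurable.smul (continuous_character_mul lam k hk).aestronglyMeasurable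
  · refine Eventually.of_forall fun t => ?_
    rw [norm_smul]
    exact mul_le_mul_of_nonneg_left (norm_character_mul_le _ k) (norm_nonneg _)

theorem integral_smul_character_mul (F : ℝ → ℂ) (hF : Integrable F) (lam : ℝ) (q k : ℝ →ᵇ ℂ)
    (hq : ∀ u : ℝ, q u = ∫ t : ℝ, F t * Complex.exp (Complex.I * ((lam * t * u : ℝ) : ℂ)))
    (hk : HasCompactSupport (k : ℝ → ℂ)) :
    ∫ t : ℝ, F t • (character (lam * t) * k) = q * k := by
  ext u
  have h := (BoundedContinuousFunction.evalCLM ℂ u).integral_comp_comm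
    (integrable_smul_character_mul F hF lam k hk)
  simp only [BoundedContinuousFunction.evalCLM_apply] at h
  rw [← h]
  simp only [BoundedContinuousFunction.coe_smul, BoundedContinuousFunction.coe_mul, Pi.mul_apply,
    smul_eq_mul]
  rw [hq u, ← integral_mul_const]
  refine integral_congr_ae (Eventually.of_forall fun t => ?_)
  simp only [character_apply_F]
  ring

theorem integrable_smul_wave (D : LineCalculus H) (F : ℝ → ℂ) (hF : Integrable F) (lam : ℝ)
    (x : H) : Integrable fun t : ℝ => F t • D.wave (lam * t) x := by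
  refine Integrable.mono' (g := fun t => ‖F t‖ * ‖x‖) (hF.norm.mul_const _) ?_ ?_
  · refine hF.aestronglyMeasurable.smul (Continuous.aestronglyMeasurable ?_)
    exact (continuous_wave_apply D x).comp (continuous_const.mul continuous_id)
  · refine Eventually.of_forall fun t => ?_
    rw [norm_smul, norm_wave_apply]

theorem fourier_calc_of_compact (D : LineCalculus H) (F : ℝ → ℂ) (hF : Integrable F) (lam : ℝ)
    (q k : ℝ →ᵇ ℂ)
    (hq : ∀ u : ℝ, q u = ∫ t : ℝ, F t * Complex.exp (Complex.I * ((lam * t * u : ℝ) : ℂ)))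
    (hk : HasCompactSupport (k : ℝ → ℂ)) (x : H) :
    ∫ t : ℝ, F t • D.wave (lam * t) (D.apply k x) = D.apply q (D.apply k x) := by
  have h := (applyCLM D x).integral_comp_comm (integrable_smul_character_mul F hF lam k hk)
  rw [integral_smul_character_mul F hF lam q k hq hk] at h
  simp only [applyCLM_apply, map_smul] at h
  rw [apply_mul_apply, ← h]
  refine integral_congr_ae (Eventually.of_forall fun t => ?_)
  simp only [LineCalculus.wave]
  rw [apply_mul_apply]

/-- B3. Proof: for `x = k(D) x'` with `k` of compact support, `t ↦ F t • (character (lam t) * k)` is Bochner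
integrable in `ℝ →ᵇ ℂ` (`t ↦ character (lam t) * k` is norm continuous) with integral `q * k` (evaluate
pointwise); apply the continuous linear map `φ ↦ D.apply φ x'`; general `x` by `D.window` since both sides are
bounded linear in `x`. -/
theorem fourier_calc (D : LineCalculus H) (F : ℝ → ℂ) (hF : Integrable F) (lam : ℝ) (q : ℝ →ᵇ ℂ)
    (hq : ∀ u : ℝ, q u = ∫ t : ℝ, F t * Complex.exp (Complex.I * ((lam * t * u : ℝ) : ℂ)))
    (x : H) : ∫ t : ℝ, F t • D.wave (lam * t) x = D.apply q x := by
  set C : ℝ := (∫ t, ‖F t‖) + ‖q‖ with hC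
  have hC0 : 0 ≤ C := add_nonneg (integral_nonneg fun _ => norm_nonneg _) (norm_nonneg _)
  have key : ∀ ε : ℝ, 0 < ε → ‖(∫ t : ℝ, F t • D.wave (lam * t) x) - D.apply q x‖ ≤ C * ε := by
    intro ε hε
    obtain ⟨k, hk, hkx⟩ := D.window x ε hε
    have h0 := fourier_calc_of_compact D F hF lam q k hq hk x
    have h1 : ‖(∫ t : ℝ, F t • D.wave (lam * t) x) - ∫ t : ℝ, F t • D.wave (lam * t) (D.apply k x)‖
        ≤ (∫ t, ‖F t‖) * ε := by
      rw [← integral_sub (integrable_smul_wave D F hF lam x)
        (integrable_smul_wave D F hF lam (D.apply k x)), ← integral_mul_const]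
      refine norm_integral_le_of_norm_le (hF.norm.mul_const _) (Eventually.of_forall fun t => ?_)
      rw [← smul_sub, ← map_sub, norm_smul, norm_wave_apply]
      refine mul_le_mul_of_nonneg_left ?_ (norm_nonneg _)
      rw [norm_sub_rev]; exact hkx.le
    have h2 : ‖D.apply q (D.apply k x) - D.apply q x‖ ≤ ‖q‖ * ε := by
      rw [← map_sub]
      refine ((D.apply q).le_opNorm _).trans ?_
      exact mul_le_mul (norm_apply_le D q) hkx.le (norm_nonneg _) (norm_nonneg _)
    calc ‖(∫ t : ℝ, F t • D.wave (lam * t) x) - D.apply q x‖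
        = ‖((∫ t : ℝ, F t • D.wave (lam * t) x) - ∫ t : ℝ, F t • D.wave (lam * t) (D.apply k x))
            + (D.apply q (D.apply k x) - D.apply q x)‖ := by rw [h0]; congr 1; abel
      _ ≤ (∫ t, ‖F t‖) * ε + ‖q‖ * ε := (norm_add_le _ _).trans (add_le_add h1 h2)
      _ = C * ε := by rw [hC]; ring
  have hz : ‖(∫ t : ℝ, F t • D.wave (lam * t) x) - D.apply q x‖ ≤ 0 := by
    refine le_of_forall_pos_le_add fun ε hε => ?_
    have h := key (ε / (C + 1)) (by positivity)
    refine h.trans ?_
    rw [zero_add, mul_div_assoc', div_le_iff₀ (by positivity)]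
    nlinarith
  exact sub_eq_zero.mp (norm_le_zero_iff.mp hz)

end Crest.Agent.BR
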