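import Mathlib
import Crest.Prelude.Def_ModularData
import Crest.Agent.BR_Mean
import Crest.Agent.BR_Calc
import Crest.Agent.BR_Unitary
import Crest.Agent.BR_Ergodic

/-! Row 84 (S0112), task B12: the little Grothendieck inequality for an ergodic state. -/

namespace Crest.Agent.BR

open Filter MeasureTheory Crest.OpAlg Crest.OpAlg.LineCalculus
open scoped Topology BoundedContinuousFunction

variable {H : Type*} [NormedAddCommGroup H] [InnerProductSpace ℂ H] [CompleteSpace H]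

set_option linter.unusedSectionVars false
set_option linter.unusedSimpArgs false

section forms

variable (Y : H →L[ℂ] H)

/-- the real bilinear form of `Y` -/
noncomputable def RY (k k' : H) : ℝ := (inner ℂ k (Y k')).re

theorem RY_add_left (k₁ k₂ k' : H) : RY Y (k₁ + k₂) k' = RY Y k₁ k' + RY Y k₂ k' := by
  simp [RY, inner_add_left]

theorem RY_add_right (k k₁ k₂ : H) : RY Y k (k₁ + k₂) = RY Y k k₁ + RY Y k k₂ := by
  simp [RY, inner_add_right]

theorem RY_smul_left (r : ℝ) (k k' : H) : RY Y ((r : ℂ) • k) k' = r * RY Y k k' := by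
  simp [RY, inner_smul_left]

theorem RY_smul_right (r : ℝ) (k k' : H) : RY Y k ((r : ℂ) • k') = r * RY Y k k' := by
  simp [RY, inner_smul_right]

variable {Y}

theorem RY_comm (hY : Y.IsPositive) (k k' : H) : RY Y k k' = RY Y k' k := by
  unfold RY
  rw [← hY.inner_left_eq_inner_right k k', ← inner_conj_symm, Complex.conj_re]

theorem RY_self_nonneg (hY : Y.IsPositive) (k : H) : 0 ≤ RY Y k k :=
  hY.re_inner_nonneg_right k

theorem RY_sq_le (hY : Y.IsPositive) (k k' : H) : RY Y k k' ^ 2 ≤ RY Y k k * RY Y k' k' := by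
  have h : ∀ x : ℝ, 0 ≤ RY Y k' k' * (x * x) + 2 * RY Y k k' * x + RY Y k k := by
    intro x
    have h1 := RY_self_nonneg hY (k + (x : ℂ) • k')
    rw [RY_add_left, RY_add_right, RY_add_right, RY_smul_left, RY_smul_left, RY_smul_right,
      RY_smul_right, RY_comm hY k' k] at h1
    linarith
  have h2 := discrim_le_zero h
  unfold discrim at h2
  nlinarith

theorem RY_parallelogram (_hY : Y.IsPositive) (α β : H) :
    RY Y (α + Complex.I • β) (α + Complex.I • β) + RY Y (α + (-Complex.I) • β) (α + (-Complex.I) • β)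
      = 2 * RY Y α α + 2 * RY Y β β := by
  unfold RY
  simp only [map_add, map_smul, inner_add_left, inner_add_right, inner_smul_left, inner_smul_right,
    Complex.add_re, Complex.mul_re, Complex.conj_I, Complex.I_re, Complex.I_im, Complex.neg_re,
    Complex.neg_im, map_neg, Complex.mul_im, Complex.add_im, Complex.sub_im, Complex.sub_re,
    mul_neg, neg_mul, mul_add]
  ring

theorem RY_add_I_le (hY : Y.IsPositive) (α β : H) :
    RY Y (α + Complex.I • β) (α + Complex.I • β) ≤ 2 * RY Y α α + 2 * RY Y β β := by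
  have h1 := RY_parallelogram hY α β
  have h2 := RY_self_nonneg hY (α + (-Complex.I) • β)
  linarith

end forms

section core

variable {Y : H →L[ℂ] H} (hY : Y.IsPositive) (M : VonNeumannAlgebra H) (ξ : H) (E ε : ℝ)
  (hE : ∀ W ∈ M, W ∈ unitary (H →L[ℂ] H) → RY Y (W ξ) (W ξ) ≤ E)
  (U : H →L[ℂ] H) (hUM : U ∈ M) (hUu : U ∈ unitary (H →L[ℂ] H))
  (hU : E - ε ≤ RY Y (U ξ) (U ξ))

/-- the functional `g` -/
noncomputable def gU (Y : H →L[ℂ] H) (ξ : H) (U : H →L[ℂ] H) (x : H →L[ℂ] H) : ℝ :=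
  RY Y (U (x ξ)) (U ξ)

theorem gU_add (x x' : H →L[ℂ] H) : gU Y ξ U (x + x') = gU Y ξ U x + gU Y ξ U x' := by
  simp [gU, RY_add_left]

theorem gU_sub (x x' : H →L[ℂ] H) : gU Y ξ U (x - x') = gU Y ξ U x - gU Y ξ U x' := by
  have := gU_add (Y := Y) ξ U (x - x') x'
  rw [sub_add_cancel] at this
  linarith

theorem gU_smul (r : ℝ) (x : H →L[ℂ] H) : gU Y ξ U ((r : ℂ) • x) = r * gU Y ξ U x := by
  unfold gU
  rw [ContinuousLinearMap.smul_apply, map_smul, RY_smul_left]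

theorem gU_one : gU Y ξ U 1 = RY Y (U ξ) (U ξ) := by
  simp [gU]

include hY hE hUM hUu in
theorem gU_unitary_le (W : H →L[ℂ] H) (hWM : W ∈ M) (hWu : W ∈ unitary (H →L[ℂ] H)) :
    gU Y ξ U W ≤ E := by
  have h1 : RY Y (U (W ξ)) (U (W ξ)) ≤ E := hE (U * W) (mul_mem hUM hWM) (mul_mem hUu hWu)
  have h2 : RY Y (U ξ) (U ξ) ≤ E := hE U hUM hUu
  have h3 := RY_sq_le hY (U (W ξ)) (U ξ)
  have h4 := RY_self_nonneg hY (U (W ξ))
  have h5 := RY_self_nonneg hY (U ξ)
  unfold gU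
  by_contra hcon
  push Not at hcon
  nlinarith

include hY hE hUM hUu in
theorem gU_contraction_le (d : H →L[ℂ] H) (hdM : d ∈ M) (hd : IsSelfAdjoint d) (hn : ‖d‖ ≤ 1) :
    gU Y ξ U d ≤ E := by
  obtain ⟨c, hcM, hc, h1, h2, -⟩ := exists_sqrt M d hdM hd hn
  have hsm : ∀ σ : ℂ, σ • c ∈ M := fun σ => M.toStarSubalgebra.smul_mem hcM σ
  have hW1 := unitary_of_sqrt (b := c) (c := d) hc hd (by rw [add_comm]; exact h1) h2.symm
    Complex.I (Or.inl rfl)
  have hW2 := unitary_of_sqrt (b := c) (c := d) hc hd (by rw [add_comm]; exact h1) h2.symm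
    (-Complex.I) (Or.inr rfl)
  have h3 := gU_unitary_le hY M ξ E hE U hUM hUu _ (add_mem hdM (hsm Complex.I)) hW1
  have h4 := gU_unitary_le hY M ξ E hE U hUM hUu _ (add_mem hdM (hsm (-Complex.I))) hW2
  have h5 : gU Y ξ U (d + Complex.I • c) + gU Y ξ U (d + (-Complex.I) • c)
      = 2 * gU Y ξ U d := by
    rw [← gU_add]
    have : d + Complex.I • c + (d + (-Complex.I) • c) = ((2 : ℝ) : ℂ) • d := by
      rw [neg_smul]
      push_cast
      rw [two_smul]
      abel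
    rw [this, gU_smul]
  linarith

include hY hE hUM hUu hU in
theorem core_contraction (b : H →L[ℂ] H) (hbM : b ∈ M) (hb : IsSelfAdjoint b) (hn : ‖b‖ ≤ 1) :
    RY Y (U (b ξ)) (U (b ξ)) ≤ 3 * ε + 2 * gU Y ξ U (b * b) := by
  obtain ⟨c, hcM, hc, h1, h2, h3⟩ := exists_sqrt M b hbM hb hn
  have hsm : ∀ σ : ℂ, σ • b ∈ M := fun σ => M.toStarSubalgebra.smul_mem hbM σ
  have hW1 := unitary_of_sqrt hb hc h1 h2 Complex.I (Or.inl rfl)
  have hW2 := unitary_of_sqrt hb hc h1 h2 (-Complex.I) (Or.inr rfl)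
  have e1 := hE (U * (c + Complex.I • b)) (mul_mem hUM (add_mem hcM (hsm _))) (mul_mem hUu hW1)
  have e2 := hE (U * (c + (-Complex.I) • b)) (mul_mem hUM (add_mem hcM (hsm _))) (mul_mem hUu hW2)
  have f1 : (U * (c + Complex.I • b)) ξ = U (c ξ) + Complex.I • U (b ξ) := by
    simp
  have f2 : (U * (c + (-Complex.I) • b)) ξ = U (c ξ) + (-Complex.I) • U (b ξ) := by
    simp
  rw [f1] at e1
  rw [f2] at e2
  have hpar := RY_parallelogram hY (U (c ξ)) (U (b ξ))
  -- the contraction `2 - b² - c`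
  have hd'M : 2 - b * b - c ∈ M := by
    apply sub_mem (sub_mem _ (mul_mem hbM hbM)) hcM
    have : (2 : H →L[ℂ] H) = 1 + 1 := by norm_num
    rw [this]
    exact add_mem (one_mem _) (one_mem _)
  have hd'sa : IsSelfAdjoint (2 - b * b - c) := by
    apply IsSelfAdjoint.sub (IsSelfAdjoint.sub _ _) hc
    · have : (2 : H →L[ℂ] H) = 1 + 1 := by norm_num
      rw [this]
      exact (IsSelfAdjoint.one _).add (IsSelfAdjoint.one _)
    · have := IsSelfAdjoint.mul_star_self b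
      rwa [hb.star_eq] at this
  have hd' := gU_contraction_le hY M ξ E hE U hUM hUu _ hd'M hd'sa h3
  have hd'' : gU Y ξ U (2 - b * b - c)
      = 2 * RY Y (U ξ) (U ξ) - gU Y ξ U (b * b) - gU Y ξ U c := by
    rw [gU_sub, gU_sub]
    have : (2 : H →L[ℂ] H) = ((2 : ℝ) : ℂ) • 1 := by
      push_cast
      rw [two_smul]; norm_num
    rw [this, gU_smul, gU_one]
  have hcs := RY_sq_le hY (U (c ξ)) (U ξ)
  have hA := RY_self_nonneg hY (U (c ξ))
  have hK := RY_self_nonneg hY (U ξ)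
  have hG : gU Y ξ U c = RY Y (U (c ξ)) (U ξ) := rfl
  set A := RY Y (U (c ξ)) (U (c ξ))
  set B := RY Y (U (b ξ)) (U (b ξ))
  set Kp := RY Y (U ξ) (U ξ)
  set G := RY Y (U (c ξ)) (U ξ)
  have h2G : 2 * G ≤ A + Kp := by
    by_contra hcon
    push Not at hcon
    nlinarith [sq_nonneg (A - Kp)]
  rw [hG] at hd''
  linarith

include hY hE hUM hUu hU in
theorem core_selfAdjoint (a : H →L[ℂ] H) (haM : a ∈ M) (ha : IsSelfAdjoint a) (K : ℝ) (hK : 0 < K)
    (hn : ‖a‖ ≤ K) :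
    RY Y (U (a ξ)) (U (a ξ)) ≤ 3 * ε * K ^ 2 + 2 * gU Y ξ U (a * a) := by
  set b : H →L[ℂ] H := ((K⁻¹ : ℝ) : ℂ) • a with hb
  have hbM : b ∈ M := M.toStarSubalgebra.smul_mem haM _
  have hbsa : IsSelfAdjoint b := by
    rw [hb, IsSelfAdjoint, star_smul, ha.star_eq]
    simp
  have hbn : ‖b‖ ≤ 1 := by
    rw [hb, norm_smul, Complex.norm_real, Real.norm_eq_abs, abs_of_pos (inv_pos.mpr hK)]
    rw [inv_mul_le_iff₀ hK]
    linarith
  have h1 := core_contraction hY M ξ E ε hE U hUM hUu hU b hbM hbsa hbn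
  have h2 : U (b ξ) = ((K⁻¹ : ℝ) : ℂ) • U (a ξ) := by
    rw [hb, ContinuousLinearMap.smul_apply, map_smul]
  have h3 : b * b = ((K⁻¹ * K⁻¹ : ℝ) : ℂ) • (a * a) := by
    rw [hb, smul_mul_smul_comm]
    push_cast
    rfl
  rw [h2, h3, RY_smul_left, RY_smul_right, gU_smul] at h1
  have h4 : K⁻¹ * (K⁻¹ * RY Y (U (a ξ)) (U (a ξ))) * K ^ 2 = RY Y (U (a ξ)) (U (a ξ)) := by
    field_simp
  have h5 : (3 * ε + 2 * (K⁻¹ * K⁻¹ * gU Y ξ U (a * a))) * K ^ 2
      = 3 * ε * K ^ 2 + 2 * gU Y ξ U (a * a) := by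
    field_simp
  rw [← h4, ← h5]
  exact mul_le_mul_of_nonneg_right h1 (by positivity)

include hY hE hUM hUu hU in
theorem core_general (x : H →L[ℂ] H) (hxM : x ∈ M) (K : ℝ) (hK : 0 < K) (hn : ‖x‖ ≤ K) :
    RY Y (U (x ξ)) (U (x ξ)) ≤ 12 * ε * K ^ 2 + 2 * gU Y ξ U (star x * x + x * star x) := by
  set a : H →L[ℂ] H := ((2⁻¹ : ℝ) : ℂ) • (x + star x) with ha
  set b : H →L[ℂ] H := (-Complex.I) • (((2⁻¹ : ℝ) : ℂ) • (x - star x)) with hb
  have hsM : star x ∈ M := star_mem hxM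
  have haM : a ∈ M := M.toStarSubalgebra.smul_mem (add_mem hxM hsM) _
  have hbM : b ∈ M := M.toStarSubalgebra.smul_mem (M.toStarSubalgebra.smul_mem (sub_mem hxM hsM) _) _
  have hasa : IsSelfAdjoint a := by
    rw [ha, IsSelfAdjoint, star_smul, star_add, star_star, add_comm]
    simp
  have hbsa : IsSelfAdjoint b := by
    rw [hb, IsSelfAdjoint, star_smul, star_smul, star_sub, star_star]
    simp only [RCLike.star_def, map_neg, Complex.conj_I, neg_neg, Complex.conj_ofReal]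
    rw [← neg_sub x (star x), smul_neg, smul_neg, neg_smul]
  have hns : ‖star x‖ ≤ K := by rw [norm_star]; exact hn
  have han : ‖a‖ ≤ K := by
    rw [ha, norm_smul, Complex.norm_real, Real.norm_eq_abs, abs_of_pos (by norm_num)]
    have := norm_add_le x (star x)
    linarith
  have hbn : ‖b‖ ≤ K := by
    rw [hb, norm_smul, norm_smul, Complex.norm_real, Real.norm_eq_abs, abs_of_pos (by norm_num)]
    have := norm_sub_le x (star x)
    simp only [norm_neg, Complex.norm_I, one_mul]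
    linarith
  have hx : x = a + Complex.I • b := by
    rw [ha, hb, smul_smul]
    simp only [mul_neg, Complex.I_mul_I, neg_neg, one_smul]
    rw [← smul_add]
    have : x + star x + (x - star x) = (2 : ℂ) • x := by rw [two_smul]; abel
    rw [this, smul_smul]
    norm_num
  have hsq : a * a + b * b = ((2⁻¹ : ℝ) : ℂ) • (star x * x + x * star x) := by
    rw [ha, hb]
    simp only [smul_mul_smul_comm, smul_smul]
    have e1 : (-Complex.I * ((2⁻¹ : ℝ) : ℂ)) * (-Complex.I * ((2⁻¹ : ℝ) : ℂ))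
        = -(((2⁻¹ : ℝ) : ℂ) * ((2⁻¹ : ℝ) : ℂ)) := by
      have := Complex.I_mul_I
      linear_combination (((2⁻¹ : ℝ) : ℂ) * ((2⁻¹ : ℝ) : ℂ)) * this
    rw [e1, neg_smul, ← sub_eq_add_neg, ← smul_sub]
    have e2 : (x + star x) * (x + star x) - (x - star x) * (x - star x)
        = (2 : ℂ) • (star x * x + x * star x) := by
      rw [two_smul]
      noncomm_ring
    rw [e2, smul_smul]
    congr 1
    push_cast
    norm_num
  have h1 := core_selfAdjoint hY M ξ E ε hE U hUM hUu hU a haM hasa K hK han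
  have h2 := core_selfAdjoint hY M ξ E ε hE U hUM hUu hU b hbM hbsa K hK hbn
  have h3 : U (x ξ) = U (a ξ) + Complex.I • U (b ξ) := by
    conv_lhs => rw [hx]
    simp
  have h4 := RY_add_I_le hY (U (a ξ)) (U (b ξ))
  rw [← h3] at h4
  have h5 : gU Y ξ U (a * a) + gU Y ξ U (b * b)
      = 2⁻¹ * gU Y ξ U (star x * x + x * star x) := by
    rw [← gU_add, hsq, gU_smul]
  linarith

end core

section final

theorem norm_le_one_of_unitary' {U : H →L[ℂ] H} (hU : U ∈ unitary (H →L[ℂ] H)) : ‖U‖ ≤ 1 := by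
  have h := CStarRing.norm_coe_unitary_mul (⟨U, hU⟩ : unitary (H →L[ℂ] H)) (1 : H →L[ℂ] H)
  simp only [mul_one] at h
  rw [h]
  exact ContinuousLinearMap.norm_id_le

theorem wave_neg_mul_wave (D : LineCalculus H) (t : ℝ) : D.wave (-t) * D.wave t = 1 := by
  rw [← wave_add, neg_add_cancel, wave_zero]

theorem flow_mul (S : ModularDatum H) (t : ℝ) (a b : H →L[ℂ] H) :
    S.flow t (a * b) = S.flow t a * S.flow t b := by
  unfold ModularDatum.flow
  calc S.D.wave t * (a * b) * S.D.wave (-t)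
      = S.D.wave t * a * 1 * b * S.D.wave (-t) := by simp only [mul_one, mul_assoc]
    _ = _ := by rw [← wave_neg_mul_wave S.D t]; simp only [mul_assoc]

theorem star_flow (S : ModularDatum H) (t : ℝ) (a : H →L[ℂ] H) :
    star (S.flow t a) = S.flow t (star a) := by
  unfold ModularDatum.flow
  rw [star_mul, star_mul, star_wave, star_wave, neg_neg, mul_assoc]

theorem norm_flow_le' (S : ModularDatum H) (t : ℝ) (a : H →L[ℂ] H) : ‖S.flow t a‖ ≤ ‖a‖ := by
  unfold ModularDatum.flow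
  calc ‖S.D.wave t * a * S.D.wave (-t)‖ ≤ ‖S.D.wave t‖ * ‖a‖ * ‖S.D.wave (-t)‖ :=
        (norm_mul_le _ _).trans (mul_le_mul_of_nonneg_right (norm_mul_le _ _) (norm_nonneg _))
    _ ≤ 1 * ‖a‖ * 1 := by
        gcongr
        · exact norm_wave_le _ _
        · exact norm_wave_le _ _
    _ = ‖a‖ := by ring

theorem RY_wave (D : LineCalculus H) {Y : H →L[ℂ] H} (hYW : ∀ t, Y * D.wave t = D.wave t * Y)
    (t : ℝ) (k : H) : RY Y (D.wave t k) (D.wave t k) = RY Y k k := by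
  unfold RY
  have h1 : Y (D.wave t k) = D.wave t (Y k) := by
    have := congrArg (fun A : H →L[ℂ] H => A k) (hYW t)
    simpa using this
  rw [h1, inner_wave_left, wave_neg_wave]

theorem inner_star_mul_self (y : H →L[ℂ] H) (ξ : H) :
    inner ℂ ξ ((star y * y) ξ) = ((‖y ξ‖ ^ 2 : ℝ) : ℂ) := by
  have : (star y * y) ξ = (ContinuousLinearMap.adjoint y) (y ξ) := by
    rw [ContinuousLinearMap.star_eq_adjoint]; rfl
  rw [this, ContinuousLinearMap.adjoint_inner_right, inner_self_eq_norm_sq_to_K]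
  push_cast
  rfl

/-- the inequality with an approximate maximiser -/
theorem groth_eps (S : ModularDatum H) (herg : S.Ergodic) (ω : Ultrafilter ℕ)
    (hω : (ω : Filter ℕ) ≤ atTop) (hvac : ∀ t, S.D.wave t S.vac = S.vac)
    (Y : H →L[ℂ] H) (hY : Y.IsPositive) (hYW : ∀ t, Y * S.D.wave t = S.D.wave t * Y)
    (E ε : ℝ) (hE : ∀ W ∈ S.M, W ∈ unitary (H →L[ℂ] H) → RY Y (W S.vac) (W S.vac) ≤ E)
    (U : H →L[ℂ] H) (hUM : U ∈ S.M) (hUu : U ∈ unitary (H →L[ℂ] H))
    (hU : E - ε ≤ RY Y (U S.vac) (U S.vac))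
    (y : H →L[ℂ] H) (hy : y ∈ S.M) :
    RY Y (y S.vac) (y S.vac)
      ≤ 12 * ε * (‖y‖ + 1) ^ 2 + 2 * E * (‖y S.vac‖ ^ 2 + ‖star y S.vac‖ ^ 2) := by
  set ξ := S.vac with hξ
  set κ := U ξ with hκ
  set K := ‖y‖ + 1 with hK
  have hKpos : 0 < K := by positivity
  have hUU : U * star U = 1 := (Unitary.mem_iff.mp hUu).2
  set ζ : H := (star U) (Y κ) with hζ
  set z := star y * y with hz
  set z' := y * star y with hz'
  have hzM : z ∈ S.M := mul_mem (star_mem hy) hy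
  have hz'M : z' ∈ S.M := mul_mem hy (star_mem hy)
  -- pointwise inequality
  have hpt : ∀ t : ℝ, RY Y (y ξ) (y ξ) ≤ 12 * ε * K ^ 2
      + (2 * (inner ℂ ζ (S.flow t z ξ)).re + 2 * (inner ℂ (Y κ) (S.flow t z' κ)).re) := by
    intro t
    set x := star U * S.flow t y with hx
    have hxM : x ∈ S.M := mul_mem (star_mem hUM) (S.flow_mem t y hy)
    have hxn : ‖x‖ ≤ K := by
      calc ‖x‖ ≤ ‖star U‖ * ‖S.flow t y‖ := norm_mul_le _ _
        _ ≤ 1 * ‖y‖ := by
            gcongr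
            · rw [norm_star]; exact norm_le_one_of_unitary' hUu
            · exact norm_flow_le' S t y
        _ ≤ K := by rw [hK]; linarith
    have h1 := core_general hY S.M ξ E ε hE U hUM hUu hU x hxM K hKpos hxn
    have h2 : U (x ξ) = S.D.wave t (y ξ) := by
      have : U (x ξ) = (U * star U) (S.flow t y ξ) := rfl
      rw [this, hUU]
      simp only [ModularDatum.flow, ContinuousLinearMap.one_apply]
      change S.D.wave t (y (S.D.wave (-t) ξ)) = _
      rw [hξ, hvac]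
    rw [h2, RY_wave S.D hYW] at h1
    have h3 : star x * x = S.flow t z := by
      rw [hx, star_mul, star_star, hz, flow_mul, ← star_flow]
      calc star (S.flow t y) * U * (star U * S.flow t y)
          = star (S.flow t y) * (U * star U) * S.flow t y := by simp only [mul_assoc]
        _ = _ := by rw [hUU, mul_one]
    have h4 : x * star x = star U * S.flow t z' * U := by
      rw [hx, star_mul, star_star, hz', flow_mul, ← star_flow]
      simp only [mul_assoc]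
    have h5 : gU Y ξ U (S.flow t z) = (inner ℂ ζ (S.flow t z ξ)).re := by
      unfold gU RY
      rw [hζ, ContinuousLinearMap.star_eq_adjoint, ContinuousLinearMap.adjoint_inner_left,
        ← inner_conj_symm, Complex.conj_re]
    have h6 : gU Y ξ U (star U * S.flow t z' * U) = (inner ℂ (Y κ) (S.flow t z' κ)).re := by
      unfold gU RY
      have : U ((star U * S.flow t z' * U) ξ) = (U * star U) (S.flow t z' (U ξ)) := rfl
      rw [this, hUU, ← inner_conj_symm, Complex.conj_re]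
      rfl
    rw [h3, h4, gU_add, h5, h6] at h1
    linarith
  -- take the mean
  have bc1 : BC (fun t => (inner ℂ ζ (S.flow t z ξ)).re) := (bc_inner_flow S z ξ ζ).re
  have bc2 : BC (fun t => (inner ℂ (Y κ) (S.flow t z' κ)).re) := (bc_inner_flow S z' κ (Y κ)).re
  have hm := ultraMean_mono ω (bc_const (RY Y (y ξ) (y ξ)))
    ((bc_const (12 * ε * K ^ 2)).add ((bc1.const_mul 2).add (bc2.const_mul 2))) hpt
  rw [ultraMean_const ω hω, ultraMean_add ω (bc_const _) ((bc1.const_mul 2).add (bc2.const_mul 2)),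
    ultraMean_const ω hω, ultraMean_add ω (bc1.const_mul 2) (bc2.const_mul 2),
    ultraMean_mul_left ω 2 bc1, ultraMean_mul_left ω 2 bc2, ← cMean_re, ← cMean_re,
    ergodic_mean S herg ω hω hvac z hzM, ergodic_mean S herg ω hω hvac z' hz'M] at hm
  have e1 : inner ℂ S.vac (z S.vac) = ((‖y ξ‖ ^ 2 : ℝ) : ℂ) := inner_star_mul_self y ξ
  have e2 : inner ℂ S.vac (z' S.vac) = ((‖star y ξ‖ ^ 2 : ℝ) : ℂ) := by
    have := inner_star_mul_self (star y) ξ
    rwa [star_star] at this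
  have e3 : (inner ℂ ζ ξ).re = RY Y κ κ := by
    unfold RY
    rw [hζ, ContinuousLinearMap.star_eq_adjoint, ContinuousLinearMap.adjoint_inner_left,
      hY.inner_left_eq_inner_right]
  have e4 : (inner ℂ (Y κ) κ).re = RY Y κ κ := by
    unfold RY
    rw [hY.inner_left_eq_inner_right]
  rw [e1, e2, Complex.re_ofReal_mul, Complex.re_ofReal_mul, e3, e4] at hm
  have hKp : RY Y κ κ ≤ E := hE U hUM hUu
  have n1 : 0 ≤ ‖y ξ‖ ^ 2 := by positivity
  have n2 : 0 ≤ ‖star y ξ‖ ^ 2 := by positivity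
  nlinarith

end final

/-- B12. -/
theorem groth (S : ModularDatum H) (herg : S.Ergodic) (ω : Ultrafilter ℕ)
    (hω : (ω : Filter ℕ) ≤ atTop) (hvac : ∀ t, S.D.wave t S.vac = S.vac)
    (Y : H →L[ℂ] H) (hY : Y.IsPositive) (hYW : ∀ t, Y * S.D.wave t = S.D.wave t * Y)
    (η2 : ℝ) (hη : ∀ U ∈ S.M, U ∈ unitary (H →L[ℂ] H) →
      (inner ℂ (U S.vac) (Y (U S.vac))).re ≤ η2)
    (y : H →L[ℂ] H) (hy : y ∈ S.M) :
    (inner ℂ (y S.vac) (Y (y S.vac))).re ≤ 2 * η2 * (‖y S.vac‖ ^ 2 + ‖star y S.vac‖ ^ 2) := by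
  set A : Set ℝ := {r | ∃ U ∈ S.M, U ∈ unitary (H →L[ℂ] H) ∧ r = RY Y (U S.vac) (U S.vac)} with hA
  have hAne : A.Nonempty := ⟨_, 1, one_mem _, one_mem _, rfl⟩
  have hAbdd : BddAbove A := ⟨η2, by rintro _ ⟨U, hUM, hUu, rfl⟩; exact hη U hUM hUu⟩
  set E := sSup A with hEdef
  have hE : ∀ W ∈ S.M, W ∈ unitary (H →L[ℂ] H) → RY Y (W S.vac) (W S.vac) ≤ E :=
    fun W hWM hWu => le_csSup hAbdd ⟨W, hWM, hWu, rfl⟩
  have hEη : E ≤ η2 := csSup_le hAne (by rintro _ ⟨U, hUM, hUu, rfl⟩; exact hη U hUM hUu)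
  have hmain : ∀ ε : ℝ, 0 < ε → RY Y (y S.vac) (y S.vac)
      ≤ 2 * E * (‖y S.vac‖ ^ 2 + ‖star y S.vac‖ ^ 2) + ε := by
    intro ε hε
    set ε' := ε / (12 * (‖y‖ + 1) ^ 2) with hε'
    have hε'pos : 0 < ε' := by positivity
    obtain ⟨_, ⟨U, hUM, hUu, rfl⟩, hlt⟩ := exists_lt_of_lt_csSup hAne (sub_lt_self E hε'pos)
    have h1 := groth_eps S herg ω hω hvac Y hY hYW E ε' hE U hUM hUu hlt.le y hy
    have h2 : 12 * ε' * (‖y‖ + 1) ^ 2 = ε := by
      rw [hε']; field_simp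
    rw [h2] at h1
    linarith
  have h3 : RY Y (y S.vac) (y S.vac) ≤ 2 * E * (‖y S.vac‖ ^ 2 + ‖star y S.vac‖ ^ 2) :=
    le_of_forall_pos_le_add hmain
  have n1 : 0 ≤ ‖y S.vac‖ ^ 2 + ‖star y S.vac‖ ^ 2 := by positivity
  calc (inner ℂ (y S.vac) (Y (y S.vac))).re = RY Y (y S.vac) (y S.vac) := rfl
    _ ≤ 2 * E * (‖y S.vac‖ ^ 2 + ‖star y S.vac‖ ^ 2) := h3
    _ ≤ 2 * η2 * (‖y S.vac‖ ^ 2 + ‖star y S.vac‖ ^ 2) := by
        apply mul_le_mul_of_nonneg_right _ n1
        linarith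

end Crest.Agent.BR
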