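import Mathlib

/-! Row 84 (S0112), task B4: an integrable kernel whose Fourier transform is a plateau function. -/

namespace Crest.Agent.BR

open MeasureTheory

open scoped FourierTransform SchwartzMap in
/-- B4. `b` = a `ContDiffBump (0:ℝ)` with `rIn = 1`, `rOut = 4`; it is a Schwartz function
(`HasCompactSupport.toSchwartzMap`), `f = 𝓕 b` is integrable and Fourier inversion gives the formula. -/
theorem exists_kernel : ∃ (f : ℝ → ℂ) (b : ℝ → ℝ), Integrable f ∧ Continuous b ∧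
    (∀ r, 0 ≤ b r ∧ b r ≤ 1) ∧ (∀ r, |r| ≤ 1 → b r = 1) ∧ (∀ r, 4 ≤ |r| → b r = 0) ∧
    ∀ r : ℝ, ∫ t : ℝ, f t * Complex.exp (Complex.I * ((2 * Real.pi * t * r : ℝ) : ℂ)) = (b r : ℂ) := by
  let bump : ContDiffBump (0 : ℝ) := ⟨1, 4, by norm_num, by norm_num⟩
  let g : ℝ → ℂ := fun r => ((bump r : ℝ) : ℂ)
  have hg1 : HasCompactSupport g := by
    have h := bump.hasCompactSupport
    exact h.comp_left (g := fun x : ℝ => (x : ℂ)) (by simp)
  have hg2 : ContDiff ℝ (⊤ : ℕ∞) g := Complex.ofRealCLM.contDiff.comp bump.contDiff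
  let G : 𝓢(ℝ, ℂ) := hg1.toSchwartzMap hg2
  refine ⟨fun t => (𝓕 G) t, fun r => bump r, (𝓕 G).integrable, bump.continuous,
    fun r => ⟨bump.nonneg, bump.le_one⟩, ?_, ?_, ?_⟩
  · intro r hr
    apply bump.one_of_mem_closedBall
    simpa [Metric.mem_closedBall, Real.dist_eq] using hr
  · intro r hr
    apply bump.zero_of_le_dist
    simpa [Real.dist_eq] using hr
  · intro r
    have h1 : (𝓕⁻ (𝓕 G)) r = G r := by rw [FourierTransform.fourierInv_fourier_eq]
    have h2 : (𝓕⁻ (𝓕 G)) r = 𝓕⁻ ((𝓕 G : 𝓢(ℝ, ℂ)) : ℝ → ℂ) r := by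
      rw [SchwartzMap.fourierInv_coe]
    rw [h2, Real.fourierInv_eq'] at h1
    have h3 : G r = ((bump r : ℝ) : ℂ) := rfl
    rw [h3] at h1
    rw [← h1]
    congr 1
    ext t
    simp only [smul_eq_mul]
    rw [mul_comm]
    congr 2
    simp only [RCLike.inner_apply, conj_trivial]
    push_cast
    ring

end Crest.Agent.BR
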