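import Mathlib
import Crest.Prelude.Def_ModularData
import Crest.Agent.BR_Calc
import Crest.Agent.BR_Unitary

/-! Row 84 (S0112), task B11: smoothing of an element of `M` by an integrable kernel along the flow. -/

namespace Crest.Agent.BR

open Filter MeasureTheory Crest.OpAlg Crest.OpAlg.LineCalculus
open scoped Topology BoundedContinuousFunction

variable {H : Type*} [NormedAddCommGroup H] [InnerProductSpace ℂ H] [CompleteSpace H]

theorem flow_mem' (S : ModularDatum H) (t : ℝ) {a : H →L[ℂ] H} (ha : a ∈ S.M) :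
    S.flow t a ∈ S.M := S.flow_mem t a ha

theorem norm_flow_le (S : ModularDatum H) (t : ℝ) (a : H →L[ℂ] H) : ‖S.flow t a‖ ≤ ‖a‖ := by
  unfold ModularDatum.flow
  calc ‖S.D.wave t * a * S.D.wave (-t)‖ ≤ ‖S.D.wave t * a‖ * ‖S.D.wave (-t)‖ := norm_mul_le _ _
    _ ≤ (‖S.D.wave t‖ * ‖a‖) * ‖S.D.wave (-t)‖ := by
        gcongr; exact norm_mul_le _ _
    _ ≤ (1 * ‖a‖) * 1 := by
        gcongr <;> exact norm_wave_le _ _
    _ = ‖a‖ := by ring

theorem continuous_flow_apply (S : ModularDatum H) (a : H →L[ℂ] H) (α : H) {τ : ℝ → ℝ}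
    (hτ : Continuous τ) : Continuous fun t => S.flow (τ t) a α := by
  show Continuous fun t => S.D.wave (τ t) (a (S.D.wave (-(τ t)) α))
  apply continuous_wave_comp S.D hτ
  exact a.continuous.comp (continuous_wave_comp S.D hτ.neg continuous_const)

theorem norm_flow_apply_le (S : ModularDatum H) (t : ℝ) (a : H →L[ℂ] H) (α : H) :
    ‖S.flow t a α‖ ≤ ‖a‖ * ‖α‖ :=
  ((S.flow t a).le_opNorm α).trans (by gcongr; exact norm_flow_le S t a)

theorem integrable_smul_flow (S : ModularDatum H) (F : ℝ → ℂ) (hF : Integrable F) (lam : ℝ)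
    (U : H →L[ℂ] H) (α : H) : Integrable fun t => F t • S.flow (lam * t) U α := by
  have hc : Continuous fun t : ℝ => S.flow (lam * t) U α :=
    continuous_flow_apply S U α (continuous_const.mul continuous_id)
  exact hF.smul_bdd (‖U‖ * ‖α‖) hc.aestronglyMeasurable
    (Eventually.of_forall fun t => norm_flow_apply_le S _ U α)

/-- B11. `v α = ∫ F(t) σ_{λ t}(U) α dt` defines an element of `M` of norm at most `‖F‖₁ ‖U‖`. -/
theorem exists_smooth (S : ModularDatum H) (F : ℝ → ℂ) (hF : Integrable F) (lam : ℝ)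
    (U : H →L[ℂ] H) (hU : U ∈ S.M) : ∃ v ∈ S.M, ‖v‖ ≤ (∫ t, ‖F t‖) * ‖U‖ ∧
      ∀ α : H, v α = ∫ t, F t • S.flow (lam * t) U α := by
  have hint := integrable_smul_flow S F hF lam U
  let L : H →ₗ[ℂ] H :=
    { toFun := fun α => ∫ t, F t • S.flow (lam * t) U α
      map_add' := by
        intro α β
        rw [← integral_add (hint α) (hint β)]
        congr 1
        ext t
        rw [map_add, smul_add]
      map_smul' := by
        intro c α
        simp only [RingHom.id_apply]
        rw [← integral_smul]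
        congr 1
        ext t
        rw [map_smul, smul_comm] }
  have hL : ∀ α, L α = ∫ t, F t • S.flow (lam * t) U α := fun α => rfl
  have hbound : ∀ α, ‖L α‖ ≤ ((∫ t, ‖F t‖) * ‖U‖) * ‖α‖ := by
    intro α
    rw [hL]
    calc ‖∫ t, F t • S.flow (lam * t) U α‖ ≤ ∫ t, ‖F t • S.flow (lam * t) U α‖ :=
          norm_integral_le_integral_norm _
      _ ≤ ∫ t, ‖F t‖ * (‖U‖ * ‖α‖) := by
          apply integral_mono (hint α).norm (hF.norm.mul_const _)
          intro t
          simp only [norm_smul]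
          gcongr
          exact norm_flow_apply_le S _ U α
      _ = ((∫ t, ‖F t‖) * ‖U‖) * ‖α‖ := by
          rw [integral_mul_const]; ring
  refine ⟨L.mkContinuous _ hbound, ?_, ?_, fun α => rfl⟩
  · apply mem_of_commute
    intro y hy
    ext α
    show y (L α) = L (y α)
    rw [hL, hL, ← ContinuousLinearMap.integral_comp_comm y (hint α)]
    congr 1
    ext t
    rw [map_smul]
    congr 1
    have h1 := (VonNeumannAlgebra.mem_commutant_iff.mp hy) _ (flow_mem' S (lam * t) hU)
    have h2 := congrArg (fun z : H →L[ℂ] H => z α) h1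
    exact h2.symm
  · apply LinearMap.mkContinuous_norm_le
    have : 0 ≤ ∫ t, ‖F t‖ := integral_nonneg fun t => norm_nonneg _
    positivity

end Crest.Agent.BR
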