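import Mathlib
import Crest.Prelude.Def_ModularData
import Crest.Agent.BR_Calc

/-! Row 84 (S0112), task B9: the vacuum is fixed by the modular group. -/

namespace Crest.Agent.BR

open Filter MeasureTheory Crest.OpAlg Crest.OpAlg.LineCalculus
open scoped Topology BoundedContinuousFunction

variable {H : Type*} [NormedAddCommGroup H] [InnerProductSpace ℂ H] [CompleteSpace H]

/-- antiunitarity of a conjugate-linear isometric equivalence (polarisation) -/
theorem inner_conj_map (J : H ≃ₗᵢ⋆[ℂ] H) (x y : H) : inner ℂ (J x) (J y) = inner ℂ y x := by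
  have h1 : ‖J x + J y‖ = ‖x + y‖ := by rw [← map_add, J.norm_map]
  have h2 : ‖J x - J y‖ = ‖x - y‖ := by rw [← map_sub, J.norm_map]
  have h3 : ‖J x - Complex.I • J y‖ = ‖x + Complex.I • y‖ := by
    rw [← J.norm_map (x + Complex.I • y), map_add, J.map_smulₛₗ]
    simp [sub_eq_add_neg]
  have h4 : ‖J x + Complex.I • J y‖ = ‖x - Complex.I • y‖ := by
    rw [← J.norm_map (x - Complex.I • y), map_sub, J.map_smulₛₗ]
    simp [sub_eq_add_neg]
  have h5 : (starRingEnd ℂ) 4 = 4 := map_ofNat _ 4
  rw [← inner_conj_symm y x, inner_eq_sum_norm_sq_div_four (J x) (J y),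
    inner_eq_sum_norm_sq_div_four x y]
  simp only [RCLike.I_to_complex] at *
  rw [h1, h2, h3, h4]
  simp only [map_div₀, map_add, map_sub, map_mul, map_pow, Complex.conj_I, h5]
  simp
  ring

/-- a bounded continuous complex function on the line from a real one -/
noncomputable def rbcf (f : ℝ → ℝ) (hc : Continuous f) (C : ℝ) (hb : ∀ u, |f u| ≤ C) : ℝ →ᵇ ℂ :=
  BoundedContinuousFunction.ofNormedAddCommGroup (fun u => ((f u : ℝ) : ℂ))
    (Complex.continuous_ofReal.comp hc) C
    (fun u => by rw [Complex.norm_real, Real.norm_eq_abs]; exact hb u)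

@[simp] theorem rbcf_apply (f : ℝ → ℝ) (hc : Continuous f) (C : ℝ) (hb : ∀ u, |f u| ≤ C) (u : ℝ) :
    rbcf f hc C hb u = ((f u : ℝ) : ℂ) := rfl

theorem one_add_exp_pos (u : ℝ) : 0 < 1 + Real.exp u := by positivity

/-- `k = 1/(1+e^u)` -/
noncomputable def kk : ℝ →ᵇ ℂ :=
  rbcf (fun u => 1 / (1 + Real.exp u))
    (by
      apply Continuous.div continuous_const (by fun_prop)
      intro u; exact (one_add_exp_pos u).ne') 1
    (fun u => by
      have := Real.exp_pos u
      rw [abs_of_pos (by positivity), div_le_one (by positivity)]; linarith)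

/-- `k e^{u/2}` -/
noncomputable def kk2 : ℝ →ᵇ ℂ :=
  rbcf (fun u => Real.exp (u / 2) / (1 + Real.exp u))
    (by
      apply Continuous.div (by fun_prop) (by fun_prop)
      intro u; exact (one_add_exp_pos u).ne') 1
    (fun u => by
      have h := Real.exp_pos (u / 2)
      have h2 : Real.exp u = Real.exp (u / 2) * Real.exp (u / 2) := by
        rw [← Real.exp_add]; congr 1; ring
      rw [abs_of_pos (by positivity), div_le_one (by positivity), h2]
      nlinarith [sq_nonneg (Real.exp (u / 2) - 1)])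

/-- `k e^u` -/
noncomputable def kk3 : ℝ →ᵇ ℂ :=
  rbcf (fun u => Real.exp u / (1 + Real.exp u))
    (by
      apply Continuous.div (by fun_prop) (by fun_prop)
      intro u; exact (one_add_exp_pos u).ne') 1
    (fun u => by
      have := Real.exp_pos u
      rw [abs_of_pos (by positivity), div_le_one (by positivity)]; linarith)

/-- the real function `ρ = (e^u-1)/(e^u+1)` -/
noncomputable def rho (u : ℝ) : ℝ := (Real.exp u - 1) / (1 + Real.exp u)

theorem continuous_rho : Continuous rho := by
  unfold rho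
  apply Continuous.div (by fun_prop) (by fun_prop)
  intro u; exact (one_add_exp_pos u).ne'

theorem abs_rho_le_one (u : ℝ) : |rho u| ≤ 1 := by
  have := Real.exp_pos u
  unfold rho
  rw [abs_div, abs_of_pos (one_add_exp_pos u), div_le_one (one_add_exp_pos u), abs_le]
  constructor <;> linarith

theorem rho_neg (u : ℝ) : rho (-u) = - rho u := by
  have := Real.exp_pos u
  unfold rho
  rw [Real.exp_neg]
  field_simp
  ring

theorem rho_lower_of_nonneg {u : ℝ} (hu : 0 ≤ u) : min u 1 / 4 ≤ rho u := by
  have h1 : min u 1 + 1 ≤ Real.exp u := by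
    have := Real.add_one_le_exp u
    have := min_le_left u 1
    linarith
  have h2 : 0 ≤ min u 1 := le_min hu zero_le_one
  have h3 : min u 1 ≤ 1 := min_le_right u 1
  unfold rho
  rw [div_le_div_iff₀ (by norm_num) (one_add_exp_pos u)]
  nlinarith [mul_nonneg h2 (sub_nonneg.2 h3), mul_le_mul_of_nonneg_left h1 (by linarith : 0 ≤ 4 - min u 1)]

theorem abs_rho_lower (u : ℝ) : min |u| 1 / 4 ≤ |rho u| := by
  rcases le_total 0 u with hu | hu
  · rw [abs_of_nonneg hu]
    exact (rho_lower_of_nonneg hu).trans (le_abs_self _)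
  · rw [abs_of_nonpos hu]
    have h := rho_lower_of_nonneg (neg_nonneg.2 hu)
    rw [rho_neg] at h
    exact h.trans (neg_le_abs _)

theorem norm_character_sub_one_le (t u : ℝ) :
    ‖character t u - 1‖ ≤ 4 * (|t| + 2) * |rho u| := by
  have h0 : character t u = Complex.exp (Complex.I * ((t * u : ℝ) : ℂ)) := rfl
  have h1 : ‖character t u - 1‖ ≤ |t| * |u| := by
    rw [h0, ← abs_mul, ← Real.norm_eq_abs]
    exact Real.norm_exp_I_mul_ofReal_sub_one_le
  have h2 : ‖character t u - 1‖ ≤ 2 := by
    have : ‖character t u‖ = 1 := by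
      rw [h0, mul_comm, Complex.norm_exp_ofReal_mul_I]
    calc ‖character t u - 1‖ ≤ ‖character t u‖ + ‖(1 : ℂ)‖ := norm_sub_le _ _
      _ = 2 := by rw [this]; norm_num
  have h3 := abs_rho_lower u
  have ht : 0 ≤ |t| := abs_nonneg t
  have h4 : ‖character t u - 1‖ ≤ (|t| + 2) * min |u| 1 := by
    rcases le_total |u| 1 with h | h
    · rw [min_eq_left h]
      nlinarith [abs_nonneg u]
    · rw [min_eq_right h]
      linarith
  calc ‖character t u - 1‖ ≤ (|t| + 2) * min |u| 1 := h4
    _ ≤ (|t| + 2) * (4 * |rho u|) := by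
        apply mul_le_mul_of_nonneg_left _ (by linarith)
        linarith
    _ = 4 * (|t| + 2) * |rho u| := by ring

/-- `ρ` as a bounded continuous function -/
noncomputable def rhoB : ℝ →ᵇ ℂ := rbcf rho continuous_rho 1 abs_rho_le_one

/-- `θ_m = 1/(1+m²ρ²)` -/
noncomputable def theta (m : ℝ) : ℝ →ᵇ ℂ :=
  rbcf (fun u => 1 / (1 + m ^ 2 * rho u ^ 2))
    (by
      apply Continuous.div continuous_const (by have := continuous_rho; fun_prop)
      intro u; positivity) 1
    (fun u => by
      rw [abs_of_pos (by positivity), div_le_one (by positivity)]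
      nlinarith [mul_nonneg (sq_nonneg m) (sq_nonneg (rho u))])

theorem theta_mul (m : ℝ) :
    theta m * (1 + ((m ^ 2 : ℝ) : ℂ) • (rhoB * rhoB)) = 1 := by
  ext u
  have h : (1 + m ^ 2 * rho u ^ 2) ≠ 0 := by positivity
  simp only [BoundedContinuousFunction.mul_apply, BoundedContinuousFunction.add_apply,
    BoundedContinuousFunction.coe_one, Pi.one_apply, BoundedContinuousFunction.smul_apply, theta, rhoB,
    rbcf_apply, smul_eq_mul]
  rw [← Complex.ofReal_mul, ← Complex.ofReal_mul, ← Complex.ofReal_one, ← Complex.ofReal_add,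
    ← Complex.ofReal_mul]
  congr 1
  field_simp

theorem norm_char_theta_le (t : ℝ) {m : ℝ} (hm : 0 < m) :
    ‖(character t - 1) * theta m‖ ≤ 4 * (|t| + 2) / (2 * m) := by
  have ht : 0 ≤ |t| := abs_nonneg t
  rw [BoundedContinuousFunction.norm_le (by positivity)]
  intro u
  simp only [BoundedContinuousFunction.mul_apply, BoundedContinuousFunction.sub_apply,
    BoundedContinuousFunction.coe_one, Pi.one_apply, theta, rbcf_apply]
  rw [norm_mul, Complex.norm_real, Real.norm_eq_abs, abs_of_pos (by positivity)]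
  have h1 := norm_character_sub_one_le t u
  have h2 : |rho u| * (1 / (1 + m ^ 2 * rho u ^ 2)) ≤ 1 / (2 * m) := by
    rw [mul_one_div, div_le_div_iff₀ (by positivity) (by positivity), ← sq_abs (rho u)]
    nlinarith [sq_nonneg (m * |rho u| - 1)]
  calc ‖character t u - 1‖ * (1 / (1 + m ^ 2 * rho u ^ 2))
      ≤ (4 * (|t| + 2) * |rho u|) * (1 / (1 + m ^ 2 * rho u ^ 2)) := by
        apply mul_le_mul_of_nonneg_right h1 (by positivity)
    _ = 4 * (|t| + 2) * (|rho u| * (1 / (1 + m ^ 2 * rho u ^ 2))) := by ring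
    _ ≤ 4 * (|t| + 2) * (1 / (2 * m)) := by
        apply mul_le_mul_of_nonneg_left h2 (by positivity)
    _ = 4 * (|t| + 2) / (2 * m) := by ring

/-- if `ρ(D) x = 0` then `x` is fixed by the unitary group -/
theorem wave_eq_of_rho (D : LineCalculus H) (x : H) (hx : D.apply rhoB x = 0) (t : ℝ) :
    D.wave t x = x := by
  have hth : ∀ m : ℝ, D.apply (theta m) x = x := by
    intro m
    have h := congrArg (fun f => D.apply f x) (theta_mul m)
    simp only [map_mul, map_add, map_one, map_smul, mul_apply_eq_comp,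
      add_apply, one_apply_eq_self,
      smul_apply, hx, map_zero, smul_zero, add_zero] at h
    exact h
  have hb : ∀ m : ℝ, 0 < m → ‖D.wave t x - x‖ ≤ 4 * (|t| + 2) / (2 * m) * ‖x‖ := by
    intro m hm
    have h1 : D.wave t x - x = D.apply ((character t - 1) * theta m) x := by
      rw [map_mul, mul_apply_eq_comp, hth m, map_sub, map_one]
      rfl
    rw [h1]
    calc ‖D.apply ((character t - 1) * theta m) x‖
        ≤ ‖D.apply ((character t - 1) * theta m)‖ * ‖x‖ := ContinuousLinearMap.le_opNorm _ _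
      _ ≤ ‖(character t - 1) * theta m‖ * ‖x‖ :=
          mul_le_mul_of_nonneg_right (norm_apply_le D _) (norm_nonneg _)
      _ ≤ 4 * (|t| + 2) / (2 * m) * ‖x‖ :=
          mul_le_mul_of_nonneg_right (norm_char_theta_le t hm) (norm_nonneg _)
  have hlim : Tendsto (fun m : ℝ => 4 * (|t| + 2) / (2 * m) * ‖x‖) atTop (𝓝 0) := by
    have : Tendsto (fun m : ℝ => (4 * (|t| + 2) * ‖x‖ / 2) / m) atTop (𝓝 0) :=
      tendsto_const_nhds.div_atTop tendsto_id
    refine this.congr' ?_
    filter_upwards [eventually_gt_atTop (0 : ℝ)] with m hm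
    field_simp
  have h0 : ‖D.wave t x - x‖ ≤ 0 := by
    apply ge_of_tendsto hlim
    filter_upwards [eventually_gt_atTop (0 : ℝ)] with m hm
    exact hb m hm
  exact sub_eq_zero.1 (norm_le_zero_iff.1 h0)

theorem kk3_sub_kk : kk3 - kk = rhoB := by
  ext u
  simp only [BoundedContinuousFunction.sub_apply, kk3, kk, rhoB, rbcf_apply, rho]
  rw [← Complex.ofReal_sub]
  congr 1
  ring

/-- B9. `(ξ,ξ)` is in the graph, so `HalfExp ξ (J ξ)`. Every `(x,y)` in the closure satisfies
`⟨y,ξ⟩ = ⟨ξ,x⟩`. Test with `x = k(D) z`, `y = J ((k e^{u/2})(D) z)`, `k = 1/(1+e^u)` (this pair satisfies `HalfExp`):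
`(k e^u)(D) ξ = k(D) ξ`, i.e. `ρ(D) ξ = 0`, `ρ = (e^u-1)/(e^u+1)`. Then `θ_l = 1/(1 + l ρ²)` satisfies
`θ_l(D) ξ = ξ` and `‖(character t - 1) θ_l‖ → 0` as `l → ∞`. -/
theorem wave_vac (S : ModularDatum H) (t : ℝ) : S.D.wave t S.vac = S.vac := by
  apply wave_eq_of_rho
  -- (ξ, ξ) is in the graph
  have hgraph : S.D.HalfExp S.vac (S.J S.vac) := by
    have hmem : (S.vac, S.vac) ∈ closure (Set.range fun a : S.M =>
        ((a : H →L[ℂ] H) S.vac, star (a : H →L[ℂ] H) S.vac)) := by
      apply subset_closure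
      refine ⟨⟨1, one_mem _⟩, ?_⟩
      simp
    rw [S.tomita] at hmem
    exact hmem
  -- the closed linear relation
  have hrel : ∀ p ∈ closure (Set.range fun a : S.M =>
      ((a : H →L[ℂ] H) S.vac, star (a : H →L[ℂ] H) S.vac)),
      inner ℂ p.2 S.vac = inner ℂ S.vac p.1 := by
    intro p hp
    have hclosed : IsClosed {p : H × H | inner ℂ p.2 S.vac = inner ℂ S.vac p.1} := by
      apply isClosed_eq
      · exact Continuous.inner continuous_snd continuous_const
      · exact Continuous.inner continuous_const continuous_fst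
    refine closure_minimal ?_ hclosed hp
    rintro _ ⟨a, rfl⟩
    simp only [Set.mem_ofPred_eq]
    rw [ContinuousLinearMap.star_eq_adjoint, ContinuousLinearMap.adjoint_inner_left]
  have hk : ∀ z : H, inner ℂ (S.D.apply kk3 S.vac) z = inner ℂ (S.D.apply kk S.vac) z := by
    intro z
    have hz : (S.D.apply kk z, S.J (S.D.apply kk2 z)) ∈ closure (Set.range fun a : S.M =>
        ((a : H →L[ℂ] H) S.vac, star (a : H →L[ℂ] H) S.vac)) := by
      rw [S.tomita]
      simp only [Set.mem_ofPred_eq, S.J_J]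
      intro f g hfg
      rw [apply_mul_apply, apply_mul_apply]
      congr 2
      ext u
      simp only [BoundedContinuousFunction.mul_apply, hfg u, kk, kk2, rbcf_apply]
      push_cast
      ring
    have h1 := hrel _ hz
    simp only at h1
    have h2 : inner ℂ (S.J (S.D.apply kk2 z)) S.vac = inner ℂ (S.J S.vac) (S.D.apply kk2 z) := by
      conv_lhs => rw [← S.J_J S.vac]
      rw [inner_conj_map]
    have h3 : S.D.apply kk2 (S.J S.vac) = S.D.apply kk3 S.vac := by
      apply hgraph
      intro u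
      simp only [kk2, kk3, rbcf_apply]
      rw [← Complex.ofReal_mul]
      congr 1
      have h2 : Real.exp u = Real.exp (u / 2) * Real.exp (u / 2) := by
        rw [← Real.exp_add]; congr 1; ring
      rw [h2]; ring
    rw [← h3, ← inner_apply_of_real S.D kk2 (fun u => by simp only [kk2, rbcf_apply, Complex.ofReal_im]), ← h2, h1,
      inner_apply_of_real S.D kk (fun u => by simp only [kk, rbcf_apply, Complex.ofReal_im])]
  have h := ext_inner_right ℂ hk
  rw [← kk3_sub_kk, map_sub, sub_apply, h, sub_self]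

end Crest.Agent.BR
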