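import Mathlib
import Crest.Prelude.Def_ModularData
import Crest.Agent.BR_Mean
import Crest.Agent.BR_Calc
import Crest.Agent.BR_WeakMean

/-! Row 84 (S0112), task B8: the averaged operator `Y`. -/

namespace Crest.Agent.BR

open Filter MeasureTheory Crest.OpAlg Crest.OpAlg.LineCalculus
open scoped Topology BoundedContinuousFunction

variable {H : Type*} [NormedAddCommGroup H] [InnerProductSpace ℂ H] [CompleteSpace H]

theorem bc_norm_sq (D : LineCalculus H) (T : H →L[ℂ] H) (k : H) :
    BC (fun t => ‖T (D.wave t k)‖ ^ 2) := by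
  refine ⟨?_, (‖T‖ * ‖k‖) ^ 2, fun t => ?_⟩
  · exact ((T.continuous.comp (continuous_wave_apply D k)).norm).pow 2
  · have h1 : ‖T (D.wave t k)‖ ≤ ‖T‖ * ‖k‖ := by
      calc ‖T (D.wave t k)‖ ≤ ‖T‖ * ‖D.wave t k‖ := T.le_opNorm _
        _ = ‖T‖ * ‖k‖ := by rw [norm_wave_apply]
    rw [Real.norm_eq_abs, abs_of_nonneg (by positivity)]
    exact pow_le_pow_left₀ (norm_nonneg _) h1 2

/-- the family `X t = W_{-t} T* T W_t`. -/
private noncomputable def famX (D : LineCalculus H) (T : H →L[ℂ] H) (t : ℝ) : H →L[ℂ] H :=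
  D.wave (-t) * (ContinuousLinearMap.adjoint T * T) * D.wave t

private theorem inner_famX (D : LineCalculus H) (T : H →L[ℂ] H) (t : ℝ) (α β : H) :
    inner ℂ β (famX D T t α) = inner ℂ (T (D.wave t β)) (T (D.wave t α)) := by
  have h1 : famX D T t α =
      D.wave (-t) (ContinuousLinearMap.adjoint T (T (D.wave t α))) := rfl
  rw [h1, ← ContinuousLinearMap.adjoint_inner_right T, inner_wave_left D t β]

private theorem norm_famX_le (D : LineCalculus H) (T : H →L[ℂ] H) (t : ℝ) :
    ‖famX D T t‖ ≤ ‖ContinuousLinearMap.adjoint T * T‖ := by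
  unfold famX
  calc ‖D.wave (-t) * (ContinuousLinearMap.adjoint T * T) * D.wave t‖
      ≤ ‖D.wave (-t) * (ContinuousLinearMap.adjoint T * T)‖ * ‖D.wave t‖ := norm_mul_le _ _
    _ ≤ (‖D.wave (-t)‖ * ‖ContinuousLinearMap.adjoint T * T‖) * ‖D.wave t‖ := by
        gcongr; exact norm_mul_le _ _
    _ ≤ (1 * ‖ContinuousLinearMap.adjoint T * T‖) * 1 := by
        gcongr
        · exact norm_wave_le D _
        · exact norm_wave_le D _
    _ = _ := by ring

private theorem continuous_inner_famX (D : LineCalculus H) (T : H →L[ℂ] H) (α β : H) :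
    Continuous fun t => inner ℂ β (famX D T t α) := by
  simp only [inner_famX]
  exact (T.continuous.comp (continuous_wave_apply D β)).inner
    (T.continuous.comp (continuous_wave_apply D α))

private theorem bc_inner_famX (D : LineCalculus H) (T : H →L[ℂ] H) (α β : H) :
    BC fun t => inner ℂ β (famX D T t α) := by
  refine ⟨continuous_inner_famX D T α β,
    ‖β‖ * (‖ContinuousLinearMap.adjoint T * T‖ * ‖α‖), fun t => ?_⟩
  calc ‖inner ℂ β (famX D T t α)‖ ≤ ‖β‖ * ‖famX D T t α‖ := norm_inner_le_norm _ _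
    _ ≤ ‖β‖ * (‖famX D T t‖ * ‖α‖) := by gcongr; exact (famX D T t).le_opNorm _
    _ ≤ ‖β‖ * (‖ContinuousLinearMap.adjoint T * T‖ * ‖α‖) := by
        gcongr; exact norm_famX_le D T t

/-- B8. The averaged operator `Y = mean_t W_{-t} T* T W_t` (`exists_weakMean`); self-adjoint by `cMean_conj`,
positive by `ultraMean_mono`, commutes with the group by `cMean_shift`. -/
theorem exists_Y (D : LineCalculus H) (ω : Ultrafilter ℕ) (hω : (ω : Filter ℕ) ≤ atTop)
    (T : H →L[ℂ] H) : ∃ Y : H →L[ℂ] H, Y.IsPositive ∧ (∀ t, Y * D.wave t = D.wave t * Y) ∧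
      ∀ k : H, inner ℂ k (Y k) = ((ultraMean ω fun t => ‖T (D.wave t k)‖ ^ 2 : ℝ) : ℂ) := by
  obtain ⟨Y, hY⟩ := exists_weakMean ω (famX D T) _ (norm_famX_le D T)
    (continuous_inner_famX D T)
  have hdiag : ∀ k : H, inner ℂ k (Y k) =
      ((ultraMean ω fun t => ‖T (D.wave t k)‖ ^ 2 : ℝ) : ℂ) := by
    intro k
    rw [hY, ← cMean_ofReal]
    congr 1
    funext t
    rw [inner_famX, inner_self_eq_norm_sq_to_K]
    push_cast
    rfl
  have hnonneg : ∀ k : H, 0 ≤ ultraMean ω fun t => ‖T (D.wave t k)‖ ^ 2 := by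
    intro k
    have h0 : BC (fun _ : ℝ => (0 : ℝ)) := ⟨continuous_const, 0, fun _ => by simp⟩
    have := ultraMean_mono ω h0 (bc_norm_sq D T k) (fun t => by positivity)
    rwa [ultraMean_const ω hω] at this
  refine ⟨Y, ?_, ?_, hdiag⟩
  · rw [ContinuousLinearMap.isPositive_iff_complex]
    intro x
    have h1 : inner ℂ (Y x) x =
        ((ultraMean ω fun t => ‖T (D.wave t x)‖ ^ 2 : ℝ) : ℂ) := by
      rw [← inner_conj_symm, hdiag, Complex.conj_ofReal]
    rw [h1]
    refine ⟨by simp, ?_⟩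
    simpa using hnonneg x
  · intro r
    ext α
    refine ext_inner_left ℂ fun β => ?_
    change inner ℂ β (Y (D.wave r α)) = inner ℂ β (D.wave r (Y α))
    have h2 : inner ℂ β (D.wave r (Y α)) = inner ℂ (D.wave (-r) β) (Y α) := by
      rw [inner_wave_left D (-r) β, neg_neg]
    rw [h2, hY, hY, ← cMean_shift ω hω (bc_inner_famX D T α (D.wave (-r) β)) r]
    congr 1
    funext t
    rw [inner_famX, inner_famX]
    have h3 : D.wave (t + r) (D.wave (-r) β) = D.wave t β := by
      rw [wave_add D t r]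
      change D.wave t (D.wave r (D.wave (-r) β)) = _
      rw [wave_wave_neg]
    have h4 : D.wave t (D.wave r α) = D.wave (t + r) α := by
      rw [wave_add D t r]; rfl
    rw [h3, h4]

end Crest.Agent.BR
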