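import Mathlib
import Crest.Prelude.Def_QState
import Crest.Prelude.Def_QChannel
import Crest.Prelude.Def_AmpDamp

/-!
Row 341 (S0534/S0535): channel plumbing, no entropy.
-/

set_option autoImplicit false
set_option linter.unusedSectionVars false
open Crest.Quantum Crest.MathPhysics.AmpDamp
open scoped ComplexOrder Matrix Kronecker

namespace Crest.Agent.GA

/-! ### (P1) the block form of `gadMap ⊗ id` -/

/-- `gadMap γ ν ⊗ id` on matrices indexed by `Bool × e`. -/
noncomputable def gadBlk {e : Type*} (γ ν : ℝ) (M : Matrix (Bool × e) (Bool × e) ℂ) :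
    Matrix (Bool × e) (Bool × e) ℂ :=
  Matrix.of fun p q =>
    if p.1 = false ∧ q.1 = false then
      ((1 - γ * ν : ℝ) : ℂ) * M (false, p.2) (false, q.2)
        + ((γ * (1 - ν) : ℝ) : ℂ) * M (true, p.2) (true, q.2)
    else if p.1 = true ∧ q.1 = true then
      ((γ * ν : ℝ) : ℂ) * M (false, p.2) (false, q.2)
        + ((1 - γ + γ * ν : ℝ) : ℂ) * M (true, p.2) (true, q.2)
    else ((Real.sqrt (1 - γ) : ℝ) : ℂ) * M p q

section gadBlk_apply
variable {e : Type*} (γ ν : ℝ) (M : Matrix (Bool × e) (Bool × e) ℂ) (i j : e)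

@[simp] lemma gadBlk_ff : gadBlk γ ν M (false, i) (false, j) =
    ((1 - γ * ν : ℝ) : ℂ) * M (false, i) (false, j)
        + ((γ * (1 - ν) : ℝ) : ℂ) * M (true, i) (true, j) := by
  simp [gadBlk]

@[simp] lemma gadBlk_tt : gadBlk γ ν M (true, i) (true, j) =
    ((γ * ν : ℝ) : ℂ) * M (false, i) (false, j)
        + ((1 - γ + γ * ν : ℝ) : ℂ) * M (true, i) (true, j) := by
  simp [gadBlk]

@[simp] lemma gadBlk_ft : gadBlk γ ν M (false, i) (true, j) =
    ((Real.sqrt (1 - γ) : ℝ) : ℂ) * M (false, i) (true, j) := by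
  simp [gadBlk]

@[simp] lemma gadBlk_tf : gadBlk γ ν M (true, i) (false, j) =
    ((Real.sqrt (1 - γ) : ℝ) : ℂ) * M (true, i) (false, j) := by
  simp [gadBlk]

end gadBlk_apply

section gadMap_apply
variable (γ ν : ℝ) (M : Matrix Bool Bool ℂ)

@[simp] lemma gadMap_ff : gadMap γ ν M false false =
    ((1 - γ * ν : ℝ) : ℂ) * M false false + ((γ * (1 - ν) : ℝ) : ℂ) * M true true := by
  simp [gadMap]

@[simp] lemma gadMap_tt : gadMap γ ν M true true =
    ((γ * ν : ℝ) : ℂ) * M false false + ((1 - γ + γ * ν : ℝ) : ℂ) * M true true := by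
  simp [gadMap]

@[simp] lemma gadMap_ft : gadMap γ ν M false true =
    ((Real.sqrt (1 - γ) : ℝ) : ℂ) * M false true := by
  simp [gadMap]

@[simp] lemma gadMap_tf : gadMap γ ν M true false =
    ((Real.sqrt (1 - γ) : ℝ) : ℂ) * M true false := by
  simp [gadMap]

end gadMap_apply

lemma gadMap_isLinearMap (γ ν : ℝ) : IsLinearMap ℂ (gadMap γ ν) := by
  constructor
  · intro x y
    ext s t
    cases s <;> cases t <;> simp <;> ring
  · intro c x
    ext s t
    cases s <;> cases t <;> simp <;> ring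

/-- `qubitTensor (gadMap γ ν) Ψ = gadBlk γ ν ∘ blockwise Ψ`, for every map `Ψ`. -/
lemma qubitTensor_gadMap {d e : Type*} [Fintype d] [Fintype e] [DecidableEq d] [DecidableEq e]
    (γ ν : ℝ) (Ψ : Matrix d d ℂ → Matrix e e ℂ) (M : Matrix (Bool × d) (Bool × d) ℂ) :
    qubitTensor (gadMap γ ν) Ψ M = gadBlk γ ν (blockwise (k := Bool) Ψ M) := by
  ext ⟨s, i⟩ ⟨t, j⟩
  cases s <;> cases t <;>
    simp [qubitTensor, qubitCoeff, blockwise, Matrix.single] <;> ring

/-! ### (P2) complete positivity with an arbitrary finite auxiliary index -/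

section P2
variable {d e : Type*} [Fintype d] [Fintype e] [DecidableEq d] [DecidableEq e]

lemma blockwise_posSemidef {k : Type*} [Fintype k] {Ψ : Matrix d d ℂ → Matrix e e ℂ}
    (hΨ : IsCompletelyPositive Ψ) {M : Matrix (k × d) (k × d) ℂ} (hM : M.PosSemidef) :
    (blockwise (k := k) Ψ M).PosSemidef := by
  classical
  let eqv := Fintype.equivFin k
  have h1 : (M.submatrix (Prod.map eqv.symm id) (Prod.map eqv.symm id)).PosSemidef :=
    hM.submatrix _
  have h2 := (hΨ _ _ h1).submatrix (Prod.map eqv (id : e → e))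
  convert h2 using 1
  ext ⟨s, i⟩ ⟨t, j⟩
  have hb : block (M.submatrix (Prod.map eqv.symm id) (Prod.map eqv.symm id)) (eqv s) (eqv t)
      = block M s t := by
    ext a b
    simp [block]
  simp only [blockwise, Matrix.of_apply, Matrix.submatrix_apply, Prod.map_apply, id, hb]

lemma trace_blockwise {k : Type*} [Fintype k] {Ψ : Matrix d d ℂ → Matrix e e ℂ}
    (hΨ : IsTracePreserving Ψ) (M : Matrix (k × d) (k × d) ℂ) :
    (blockwise (k := k) Ψ M).trace = M.trace := by
  simp only [Matrix.trace, Matrix.diag, Fintype.sum_prod_type, blockwise, Matrix.of_apply]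
  refine Finset.sum_congr rfl fun s _ => ?_
  have := hΨ (block M s s)
  simpa [Matrix.trace, Matrix.diag, block] using this

lemma channel_posSemidef {Ψ : Matrix d d ℂ → Matrix e e ℂ} (hΨ : IsChannel Ψ)
    {M : Matrix d d ℂ} (hM : M.PosSemidef) : (Ψ M).PosSemidef := by
  have h1 : (M.submatrix (Prod.snd : Unit × d → d) Prod.snd).PosSemidef := hM.submatrix _
  have h2 := (blockwise_posSemidef hΨ.2.1 h1).submatrix (fun i : e => ((), i))
  convert h2 using 1
  ext i j
  have hb : block (M.submatrix (Prod.snd : Unit × d → d) Prod.snd) () () = M := by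
    ext a b
    simp [block]
  simp [blockwise, hb]

lemma channel_isDensity {Ψ : Matrix d d ℂ → Matrix e e ℂ} (hΨ : IsChannel Ψ)
    {ρ : Matrix d d ℂ} (hρ : IsDensity ρ) : IsDensity (Ψ ρ) :=
  ⟨channel_posSemidef hΨ hρ.1, (hΨ.2.2 ρ).trans hρ.2⟩

lemma channel_isDensity_blockwise {k : Type*} [Fintype k]
    {Ψ : Matrix d d ℂ → Matrix e e ℂ} (hΨ : IsChannel Ψ)
    {ρ : Matrix (k × d) (k × d) ℂ} (hρ : IsDensity ρ) : IsDensity (blockwise (k := k) Ψ ρ) :=
  ⟨blockwise_posSemidef hΨ.2.1 hρ.1, (trace_blockwise hΨ.2.2 ρ).trans hρ.2⟩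

lemma chan_block_posSemidef {k : Type*} {M : Matrix (k × d) (k × d) ℂ} (hM : M.PosSemidef) (s : k) :
    (block M s s).PosSemidef := by
  have := hM.submatrix (fun i : d => (s, i))
  convert this using 1
  ext i j
  simp [block]

lemma chan_trace_eq_sum_block {k : Type*} [Fintype k] (M : Matrix (k × d) (k × d) ℂ) :
    M.trace = ∑ s, (block M s s).trace := by
  simp [Matrix.trace, Matrix.diag, Fintype.sum_prod_type, block]

@[simp] lemma block_blockwise {k : Type*} (Ψ : Matrix d d ℂ → Matrix e e ℂ)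
    (M : Matrix (k × d) (k × d) ℂ) (s t : k) :
    block (blockwise (k := k) Ψ M) s t = Ψ (block M s t) := by
  ext i j
  simp [block, blockwise]

end P2

/-! ### (P3) Kraus form of `gadBlk`; channels -/

section P3
variable {e : Type*} [Fintype e] [DecidableEq e]

lemma kron_conj_apply (K : Matrix Bool Bool ℂ) (M : Matrix (Bool × e) (Bool × e) ℂ)
    (s t : Bool) (i j : e) :
    ((K ⊗ₖ (1 : Matrix e e ℂ)) * M * (K ⊗ₖ (1 : Matrix e e ℂ))ᴴ) (s, i) (t, j)
      = ∑ s' : Bool, ∑ t' : Bool, K s s' * M (s', i) (t', j) * star (K t t') := by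
  simp only [Matrix.mul_apply, Matrix.conjTranspose_apply, Matrix.kroneckerMap_apply,
    Fintype.sum_prod_type, Matrix.one_apply, Fintype.sum_bool]
  simp [apply_ite (starRingEnd ℂ), mul_ite, ite_mul]
  ring

/-- The four Kraus operators of the generalized amplitude damping channel. -/
noncomputable def gadK (γ ν : ℝ) : Fin 4 → Matrix Bool Bool ℂ
  | 0 => Matrix.of fun s t => if s = false ∧ t = false then ((Real.sqrt (1 - ν) : ℝ) : ℂ)
      else if s = true ∧ t = true then ((Real.sqrt (1 - ν) * Real.sqrt (1 - γ) : ℝ) : ℂ) else 0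
  | 1 => Matrix.of fun s t => if s = false ∧ t = true then
      ((Real.sqrt (1 - ν) * Real.sqrt γ : ℝ) : ℂ) else 0
  | 2 => Matrix.of fun s t => if s = false ∧ t = false then
        ((Real.sqrt ν * Real.sqrt (1 - γ) : ℝ) : ℂ)
      else if s = true ∧ t = true then ((Real.sqrt ν : ℝ) : ℂ) else 0
  | 3 => Matrix.of fun s t => if s = true ∧ t = false then
      ((Real.sqrt ν * Real.sqrt γ : ℝ) : ℂ) else 0

lemma gadBlk_eq_kraus {γ ν : ℝ} (hγ : γ ∈ Set.Icc (0 : ℝ) 1) (hν : ν ∈ Set.Icc (0 : ℝ) 1)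
    (M : Matrix (Bool × e) (Bool × e) ℂ) :
    gadBlk γ ν M = ∑ a : Fin 4, (gadK γ ν a ⊗ₖ (1 : Matrix e e ℂ)) * M *
      (gadK γ ν a ⊗ₖ (1 : Matrix e e ℂ))ᴴ := by
  have h1 : (Real.sqrt γ : ℂ) * (Real.sqrt γ : ℂ) = (γ : ℂ) := by
    rw [← Complex.ofReal_mul, Real.mul_self_sqrt hγ.1]
  have h2 : (Real.sqrt ν : ℂ) * (Real.sqrt ν : ℂ) = (ν : ℂ) := by
    rw [← Complex.ofReal_mul, Real.mul_self_sqrt hν.1]
  have h3 : (Real.sqrt (1 - γ) : ℂ) * (Real.sqrt (1 - γ) : ℂ) = 1 - (γ : ℂ) := by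
    rw [← Complex.ofReal_mul, Real.mul_self_sqrt (by linarith [hγ.2])]; simp
  have h4 : (Real.sqrt (1 - ν) : ℂ) * (Real.sqrt (1 - ν) : ℂ) = 1 - (ν : ℂ) := by
    rw [← Complex.ofReal_mul, Real.mul_self_sqrt (by linarith [hν.2])]; simp
  ext ⟨s, i⟩ ⟨t, j⟩
  rw [Matrix.sum_apply]
  simp only [kron_conj_apply, Fin.sum_univ_four, Fintype.sum_bool]
  cases s <;> cases t <;> simp [gadK]
  · linear_combination (-(M (false, i) (false, j)) ) * h4 - (1 - (γ:ℂ)) * M (false, i) (false, j) * h2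
      - (Real.sqrt ν : ℂ) * (Real.sqrt ν : ℂ) * M (false, i) (false, j) * h3
      - (γ : ℂ) * M (true, i) (true, j) * h4 - (Real.sqrt (1 - ν) : ℂ) * (Real.sqrt (1 - ν) : ℂ) * M (true, i) (true, j) * h1
  · linear_combination (-((Real.sqrt (1 - γ) : ℂ) * M (false, i) (true, j))) * h4
      + (-((Real.sqrt (1 - γ) : ℂ) * M (false, i) (true, j))) * h2
  · linear_combination (-((Real.sqrt (1 - γ) : ℂ) * M (true, i) (false, j))) * h4
      + (-((Real.sqrt (1 - γ) : ℂ) * M (true, i) (false, j))) * h2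
  · linear_combination
      (-(M (true, i) (true, j) * ((Real.sqrt (1 - γ) : ℂ) * (Real.sqrt (1 - γ) : ℂ)))) * h4
      - M (true, i) (true, j) * (1 - (ν : ℂ)) * h3 - M (true, i) (true, j) * h2
      - M (false, i) (false, j) * ((Real.sqrt γ : ℂ) * (Real.sqrt γ : ℂ)) * h2
      - M (false, i) (false, j) * (ν : ℂ) * h1

lemma gadBlk_posSemidef {γ ν : ℝ} (hγ : γ ∈ Set.Icc (0 : ℝ) 1) (hν : ν ∈ Set.Icc (0 : ℝ) 1)
    {M : Matrix (Bool × e) (Bool × e) ℂ} (hM : M.PosSemidef) : (gadBlk γ ν M).PosSemidef := by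
  rw [gadBlk_eq_kraus hγ hν]
  exact Matrix.posSemidef_sum _ fun a _ => hM.mul_mul_conjTranspose_same _

lemma trace_gadBlk (γ ν : ℝ) (M : Matrix (Bool × e) (Bool × e) ℂ) :
    (gadBlk γ ν M).trace = M.trace := by
  simp only [Matrix.trace, Matrix.diag, Fintype.sum_prod_type, Fintype.sum_bool, gadBlk_ff,
    gadBlk_tt, Finset.sum_add_distrib, ← Finset.mul_sum]
  push_cast
  ring

lemma gadBlk_isDensity {γ ν : ℝ} (hγ : γ ∈ Set.Icc (0 : ℝ) 1) (hν : ν ∈ Set.Icc (0 : ℝ) 1)
    {M : Matrix (Bool × e) (Bool × e) ℂ} (hM : IsDensity M) : IsDensity (gadBlk γ ν M) :=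
  ⟨gadBlk_posSemidef hγ hν hM.1, (trace_gadBlk γ ν M).trans hM.2⟩

lemma gadBlk_isLinearMap (γ ν : ℝ) :
    IsLinearMap ℂ (gadBlk γ ν : Matrix (Bool × e) (Bool × e) ℂ → _) := by
  constructor
  · intro x y
    ext ⟨s, i⟩ ⟨t, j⟩
    cases s <;> cases t <;> simp <;> ring
  · intro c x
    ext ⟨s, i⟩ ⟨t, j⟩
    cases s <;> cases t <;> simp <;> ring

end P3

section P3b
variable {d e : Type*} [Fintype d] [Fintype e] [DecidableEq d] [DecidableEq e]

lemma block_add {k : Type*} (x y : Matrix (k × d) (k × d) ℂ) (s t : k) :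
    block (x + y) s t = block x s t + block y s t := by
  ext i j; simp [block]

lemma block_smul {k : Type*} (c : ℂ) (x : Matrix (k × d) (k × d) ℂ) (s t : k) :
    block (c • x) s t = c • block x s t := by
  ext i j; simp [block]

lemma blockwise_isLinearMap {k : Type*} {Ψ : Matrix d d ℂ → Matrix e e ℂ}
    (hΨ : IsLinearMap ℂ Ψ) : IsLinearMap ℂ (blockwise (k := k) Ψ) := by
  constructor
  · intro x y
    ext ⟨s, i⟩ ⟨t, j⟩
    simp [blockwise, block_add, hΨ.map_add]
  · intro c x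
    ext ⟨s, i⟩ ⟨t, j⟩
    simp [blockwise, block_smul, hΨ.map_smul]

lemma qubitTensor_gadMap_cp {γ ν : ℝ} (hγ : γ ∈ Set.Icc (0 : ℝ) 1) (hν : ν ∈ Set.Icc (0 : ℝ) 1)
    {Ψ : Matrix d d ℂ → Matrix e e ℂ} (hΨ : IsCompletelyPositive Ψ) :
    IsCompletelyPositive (qubitTensor (gadMap γ ν) Ψ) := by
  intro k M hM
  let f : (Fin k × Bool) × d → Fin k × (Bool × d) := fun x => (x.1.1, (x.1.2, x.2))
  have h1 := hM.submatrix f
  have h2 := blockwise_posSemidef (k := Fin k × Bool) hΨ h1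
  let g : Bool × (Fin k × e) → (Fin k × Bool) × e := fun x => ((x.2.1, x.1), x.2.2)
  have h3 := gadBlk_posSemidef hγ hν (h2.submatrix g)
  let h : Fin k × (Bool × e) → Bool × (Fin k × e) := fun x => (x.2.1, (x.1, x.2.2))
  have h4 := h3.submatrix h
  convert h4 using 1
  have hb : ∀ (a b : Fin k) (s t : Bool), block (block M a b) s t
      = block (M.submatrix f f) (a, s) (b, t) := by
    intro a b s t
    ext i j
    simp [block, f]
  ext ⟨a, s, i⟩ ⟨b, t, j⟩
  cases s <;> cases t <;> simp [blockwise, qubitTensor_gadMap, hb, g, h]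

lemma qubitTensor_gadMap_isChannel {γ ν : ℝ} (hγ : γ ∈ Set.Icc (0 : ℝ) 1)
    (hν : ν ∈ Set.Icc (0 : ℝ) 1) {Ψ : Matrix d d ℂ → Matrix e e ℂ} (hΨ : IsChannel Ψ) :
    IsChannel (qubitTensor (gadMap γ ν) Ψ) := by
  refine ⟨?_, qubitTensor_gadMap_cp hγ hν hΨ.2.1, ?_⟩
  · have h1 := blockwise_isLinearMap (k := Bool) hΨ.1
    have h2 := gadBlk_isLinearMap (e := e) γ ν
    constructor
    · intro x y
      simp only [qubitTensor_gadMap, h1.map_add, h2.map_add]
    · intro c x
      simp only [qubitTensor_gadMap, h1.map_smul, h2.map_smul]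
  · intro M
    rw [qubitTensor_gadMap, trace_gadBlk, trace_blockwise hΨ.2.2]

lemma gadMap_isChannel {γ ν : ℝ} (hγ : γ ∈ Set.Icc (0 : ℝ) 1) (hν : ν ∈ Set.Icc (0 : ℝ) 1) :
    IsChannel (gadMap γ ν) := by
  refine ⟨gadMap_isLinearMap γ ν, ?_, ?_⟩
  · intro k M hM
    have h3 := (gadBlk_posSemidef hγ hν (hM.submatrix (Prod.swap : Bool × Fin k → _))).submatrix
      (Prod.swap : Fin k × Bool → _)
    convert h3 using 1
    ext ⟨a, s⟩ ⟨b, t⟩
    cases s <;> cases t <;> simp [blockwise, block]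
  · intro M
    simp only [Matrix.trace, Matrix.diag, Fintype.sum_bool, gadMap_ff, gadMap_tt]
    push_cast
    ring

end P3b

/-! ### (P4) tensor powers -/

section P4

/-- `Bool × (Fin n → Bool) ≃ (Fin (n+1) → Bool)`, `Fin.cons`. -/
def consE (n : ℕ) : Bool × (Fin n → Bool) ≃ (Fin (n + 1) → Bool) :=
  Fin.consEquiv (fun _ => Bool)

@[simp] lemma consE_zero (n : ℕ) (p : Bool × (Fin n → Bool)) : consE n p 0 = p.1 := by
  simp [consE]

@[simp] lemma consE_succ (n : ℕ) (p : Bool × (Fin n → Bool)) (i : Fin n) :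
    consE n p i.succ = p.2 i := by
  simp [consE]

lemma qubitPower_succ (n : ℕ) (Φ : Matrix Bool Bool ℂ → Matrix Bool Bool ℂ)
    (M : Matrix (Fin (n + 1) → Bool) (Fin (n + 1) → Bool) ℂ) :
    (qubitPower (n + 1) Φ M).submatrix (consE n) (consE n)
      = qubitTensor Φ (qubitPower n Φ) (M.submatrix (consE n) (consE n)) := by
  ext p q
  simp only [Matrix.submatrix_apply, qubitPower, qubitTensor, Matrix.of_apply, block,
    Fin.prod_univ_succ, consE_zero, consE_succ]
  rw [← (consE n).sum_comp]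
  simp only [← (consE n).sum_comp (fun τ' => _ * M _ τ')]
  simp only [Fintype.sum_prod_type, consE_zero, consE_succ, Finset.mul_sum]
  refine Finset.sum_congr rfl fun s' _ => ?_
  rw [Finset.sum_comm]
  refine Finset.sum_congr rfl fun t' _ => ?_
  refine Finset.sum_congr rfl fun σ _ => ?_
  refine Finset.sum_congr rfl fun τ _ => ?_
  ring

lemma trace_submatrix_equiv {a b : Type*} [Fintype a] [Fintype b] (f : a ≃ b)
    (M : Matrix b b ℂ) : (M.submatrix f f).trace = M.trace := by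
  simp only [Matrix.trace, Matrix.diag, Matrix.submatrix_apply]
  exact f.sum_comp (fun i => M i i)

lemma isChannel_of_submatrix {d e d' e' : Type*} [Fintype d] [Fintype e] [DecidableEq d]
    [DecidableEq e] [Fintype d'] [Fintype e'] [DecidableEq d'] [DecidableEq e']
    (f : d' ≃ d) (g : e' ≃ e) {Ψ : Matrix d d ℂ → Matrix e e ℂ}
    {Ψ' : Matrix d' d' ℂ → Matrix e' e' ℂ} (hΨ' : IsChannel Ψ')
    (h : ∀ M, (Ψ M).submatrix g g = Ψ' (M.submatrix f f)) : IsChannel Ψ := by
  have h' : ∀ M, Ψ M = (Ψ' (M.submatrix f f)).submatrix g.symm g.symm := by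
    intro M
    rw [← h]
    simp
  refine ⟨⟨?_, ?_⟩, ?_, ?_⟩
  · intro x y
    rw [h', h', h']
    have : (x + y).submatrix f f = x.submatrix f f + y.submatrix f f := rfl
    rw [this, hΨ'.1.map_add]
    rfl
  · intro c x
    rw [h', h']
    have : (c • x).submatrix f f = c • x.submatrix f f := rfl
    rw [this, hΨ'.1.map_smul]
    rfl
  · intro k M hM
    have h1 := hM.submatrix (Prod.map (id : Fin k → Fin k) f)
    have h2 := (hΨ'.2.1 k _ h1).submatrix (Prod.map (id : Fin k → Fin k) g.symm)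
    convert h2 using 1
    ext ⟨a, i⟩ ⟨b, j⟩
    have hb : block (M.submatrix (Prod.map (id : Fin k → Fin k) f) (Prod.map id f)) a b
        = (block M a b).submatrix f f := by
      ext x y
      simp [block]
    simp [blockwise, hb, h' (block M a b)]
  · intro M
    rw [h', trace_submatrix_equiv, hΨ'.2.2, trace_submatrix_equiv]

lemma qubitPower_zero (Φ : Matrix Bool Bool ℂ → Matrix Bool Bool ℂ)
    (M : Matrix (Fin 0 → Bool) (Fin 0 → Bool) ℂ) : qubitPower 0 Φ M = M := by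
  ext σ τ
  simp only [qubitPower, Matrix.of_apply, Finset.univ_eq_empty, Finset.prod_empty, one_mul,
    Finset.univ_unique, Finset.sum_singleton]
  exact congrArg₂ M (Subsingleton.elim _ _) (Subsingleton.elim _ _)

lemma id_isChannel {d : Type*} [Fintype d] [DecidableEq d] :
    IsChannel (fun M : Matrix d d ℂ => M) := by
  refine ⟨⟨fun _ _ => rfl, fun _ _ => rfl⟩, ?_, fun _ => rfl⟩
  intro k M hM
  convert hM using 1
  ext ⟨a, i⟩ ⟨b, j⟩
  simp [blockwise, block]

lemma qubitPower_gadMap_isChannel {γ ν : ℝ} (hγ : γ ∈ Set.Icc (0 : ℝ) 1)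
    (hν : ν ∈ Set.Icc (0 : ℝ) 1) (n : ℕ) : IsChannel (qubitPower n (gadMap γ ν)) := by
  induction n with
  | zero =>
    have : qubitPower 0 (gadMap γ ν) = fun M => M := funext (qubitPower_zero _)
    rw [this]
    exact id_isChannel
  | succ n ih =>
    exact isChannel_of_submatrix (consE n) (consE n) (qubitTensor_gadMap_isChannel hγ hν ih)
      (qubitPower_succ n _)

end P4

end Crest.Agent.GA
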