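import Mathlib
import Crest.Prelude.Def_QState
import Crest.Prelude.Def_QChannel

/-!
Row 341 infrastructure (helper13): von Neumann entropy versus diagonal entropies.
Everything is derived from the "diagonal lemma" `vnEntropy_le_diag`:
for a psd matrix `A` and a unitary `U`, `S(A) ≤ ∑ i, η((Uᴴ A U) i i)`.
-/

set_option autoImplicit false
open scoped ComplexOrder Kronecker
open Matrix Crest.Quantum

namespace Crest.Agent.GA

variable {d : Type*} [Fintype d] [DecidableEq d]

theorem conc_vnEntropy_eq_sum {A : Matrix d d ℂ} (h : A.IsHermitian) :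
    vnEntropy A = ∑ i, Real.negMulLog (h.eigenvalues i) := by
  unfold vnEntropy
  rw [dif_pos h, ← Finset.sum_neg_distrib]
  refine Finset.sum_congr rfl fun i _ => ?_
  simp [Real.negMulLog]

/-- diagonal entries of `Wᴴ D W` for a real diagonal `D`. -/
theorem diag_conj_apply (W : Matrix d d ℂ) (l : d → ℝ) (i : d) :
    (Wᴴ * diagonal (fun j => (l j : ℂ)) * W) i i
      = ((∑ j, Complex.normSq (W j i) * l j : ℝ) : ℂ) := by
  rw [Matrix.mul_apply]
  push_cast
  refine Finset.sum_congr rfl fun j _ => ?_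
  rw [Matrix.mul_diagonal, Matrix.conjTranspose_apply, Complex.normSq_eq_conj_mul_self]
  simp only [Complex.star_def]
  ring

theorem unitary_col_sum {W : Matrix d d ℂ} (hW : W ∈ unitaryGroup d ℂ) (i : d) :
    ∑ j, Complex.normSq (W j i) = 1 := by
  have h := (Matrix.mem_unitaryGroup_iff').1 hW
  have h2 := congrFun (congrFun h i) i
  rw [Matrix.mul_apply, Matrix.one_apply_eq] at h2
  have h3 : ((∑ j, Complex.normSq (W j i) : ℝ) : ℂ) = 1 := by
    rw [← h2]; push_cast
    refine Finset.sum_congr rfl fun j _ => ?_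
    rw [Complex.normSq_eq_conj_mul_self, Matrix.star_apply]; rfl
  exact_mod_cast h3

theorem unitary_row_sum {W : Matrix d d ℂ} (hW : W ∈ unitaryGroup d ℂ) (j : d) :
    ∑ i, Complex.normSq (W j i) = 1 := by
  have h := (Matrix.mem_unitaryGroup_iff).1 hW
  have h2 := congrFun (congrFun h j) j
  rw [Matrix.mul_apply, Matrix.one_apply_eq] at h2
  have h3 : ((∑ i, Complex.normSq (W j i) : ℝ) : ℂ) = 1 := by
    rw [← h2]; push_cast
    refine Finset.sum_congr rfl fun i _ => ?_
    rw [Complex.normSq_eq_conj_mul_self, Matrix.star_apply, mul_comm]; rfl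
  exact_mod_cast h3

/-- Jensen for a doubly stochastic matrix `|W j i|²`. -/
theorem sum_negMulLog_le_of_unitary {W : Matrix d d ℂ} (hW : W ∈ unitaryGroup d ℂ)
    (l : d → ℝ) (hl : ∀ j, 0 ≤ l j) :
    ∑ j, Real.negMulLog (l j) ≤ ∑ i, Real.negMulLog (∑ j, Complex.normSq (W j i) * l j) := by
  have key : ∀ i, ∑ j, Complex.normSq (W j i) * Real.negMulLog (l j)
      ≤ Real.negMulLog (∑ j, Complex.normSq (W j i) * l j) := by
    intro i
    have := Real.concaveOn_negMulLog.le_map_sum (t := Finset.univ)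
      (w := fun j => Complex.normSq (W j i)) (p := l)
      (fun j _ => Complex.normSq_nonneg _) (unitary_col_sum hW i) (fun j _ => hl j)
    simpa [smul_eq_mul] using this
  calc ∑ j, Real.negMulLog (l j)
      = ∑ j, (∑ i, Complex.normSq (W j i)) * Real.negMulLog (l j) := by
        refine Finset.sum_congr rfl fun j _ => ?_
        rw [unitary_row_sum hW j, one_mul]
    _ = ∑ i, ∑ j, Complex.normSq (W j i) * Real.negMulLog (l j) := by
        simp_rw [Finset.sum_mul]
        exact Finset.sum_comm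
    _ ≤ _ := Finset.sum_le_sum fun i _ => key i

/-- spectral theorem in plain matrix form. -/
theorem conc_spectral_form {A : Matrix d d ℂ} (h : A.IsHermitian) :
    A = (h.eigenvectorUnitary : Matrix d d ℂ) * diagonal (fun j => ((h.eigenvalues j : ℝ) : ℂ))
      * (h.eigenvectorUnitary : Matrix d d ℂ)ᴴ := by
  have := h.spectral_theorem
  rw [Unitary.conjStarAlgAut_apply] at this
  exact this

/-- **Diagonal lemma.** -/
theorem vnEntropy_le_diag {A : Matrix d d ℂ} (hA : A.PosSemidef) {U : Matrix d d ℂ}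
    (hU : U ∈ unitaryGroup d ℂ) :
    vnEntropy A ≤ ∑ i, Real.negMulLog ((Uᴴ * A * U) i i).re := by
  have h := hA.isHermitian
  set V : Matrix d d ℂ := (h.eigenvectorUnitary : Matrix d d ℂ) with hV
  have hVm : V ∈ unitaryGroup d ℂ := h.eigenvectorUnitary.2
  have hW : Vᴴ * U ∈ unitaryGroup d ℂ := by
    have : Vᴴ ∈ unitaryGroup d ℂ := by
      have := Unitary.star_mem hVm
      simpa [Matrix.star_eq_conjTranspose] using this
    exact (unitaryGroup d ℂ).mul_mem this hU
  rw [conc_vnEntropy_eq_sum h]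
  have e : ∀ i, ((Uᴴ * A * U) i i).re
      = ∑ j, Complex.normSq ((Vᴴ * U) j i) * h.eigenvalues j := by
    intro i
    have : Uᴴ * A * U = (Vᴴ * U)ᴴ * diagonal (fun j => ((h.eigenvalues j : ℝ) : ℂ)) * (Vᴴ * U) := by
      conv_lhs => rw [conc_spectral_form h]
      simp only [Matrix.conjTranspose_mul, Matrix.conjTranspose_conjTranspose, Matrix.mul_assoc, ← hV]
    rw [this, diag_conj_apply, Complex.ofReal_re]
  simp_rw [e]
  exact sum_negMulLog_le_of_unitary hW _ (fun j => hA.eigenvalues_nonneg j)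

/-- equality in the eigenbasis. -/
theorem conj_eigen_eq_diagonal {A : Matrix d d ℂ} (h : A.IsHermitian) :
    (h.eigenvectorUnitary : Matrix d d ℂ)ᴴ * A * (h.eigenvectorUnitary : Matrix d d ℂ)
      = diagonal (fun j => ((h.eigenvalues j : ℝ) : ℂ)) := by
  set V : Matrix d d ℂ := (h.eigenvectorUnitary : Matrix d d ℂ) with hV
  have hVm : V ∈ unitaryGroup d ℂ := h.eigenvectorUnitary.2
  have h1 : Vᴴ * V = 1 := by
    have := (Matrix.mem_unitaryGroup_iff').1 hVm
    simpa [Matrix.star_eq_conjTranspose] using this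
  conv_lhs => rw [conc_spectral_form h]
  rw [← hV]
  calc Vᴴ * (V * diagonal (fun j => ((h.eigenvalues j : ℝ) : ℂ)) * Vᴴ) * V
      = (Vᴴ * V) * diagonal (fun j => ((h.eigenvalues j : ℝ) : ℂ)) * (Vᴴ * V) := by
        simp only [Matrix.mul_assoc]
    _ = _ := by rw [h1]; simp

theorem vnEntropy_eq_diag_eigen {A : Matrix d d ℂ} (h : A.IsHermitian) :
    vnEntropy A = ∑ i, Real.negMulLog
      (((h.eigenvectorUnitary : Matrix d d ℂ)ᴴ * A * (h.eigenvectorUnitary : Matrix d d ℂ)) i i).re := by
  rw [conj_eigen_eq_diagonal h, conc_vnEntropy_eq_sum h]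
  simp

theorem posSemidef_conj_diag_nonneg {A : Matrix d d ℂ} (hA : A.PosSemidef) (U : Matrix d d ℂ)
    (i : d) : 0 ≤ ((Uᴴ * A * U) i i).re := by
  have h := (hA.conjTranspose_mul_mul_same U).diag_nonneg (i := i)
  exact (Complex.le_def.1 h).1

theorem posSemidef_wsum {ι : Type*} [Fintype ι] (q : ι → ℝ) (ρ : ι → Matrix d d ℂ)
    (hq : ∀ a, 0 ≤ q a) (hρ : ∀ a, (ρ a).PosSemidef) :
    (∑ a, (q a : ℂ) • ρ a).PosSemidef := by
  refine Matrix.posSemidef_sum _ fun a _ => ?_
  exact (hρ a).smul (by exact_mod_cast hq a)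

/-- **Concavity** of the von Neumann entropy on psd matrices. -/
theorem vnEntropy_concave {ι : Type*} [Fintype ι] (q : ι → ℝ) (ρ : ι → Matrix d d ℂ)
    (hq : ∀ a, 0 ≤ q a) (hsum : ∑ a, q a = 1) (hρ : ∀ a, (ρ a).PosSemidef) :
    ∑ a, q a * vnEntropy (ρ a) ≤ vnEntropy (∑ a, (q a : ℂ) • ρ a) := by
  have hA := posSemidef_wsum q ρ hq hρ
  have h := hA.isHermitian
  set V : Matrix d d ℂ := (h.eigenvectorUnitary : Matrix d d ℂ) with hV
  have hVm : V ∈ unitaryGroup d ℂ := h.eigenvectorUnitary.2
  rw [vnEntropy_eq_diag_eigen h, ← hV]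
  have e : ∀ i, ((Vᴴ * (∑ a, (q a : ℂ) • ρ a) * V) i i).re
      = ∑ a, q a * ((Vᴴ * ρ a * V) i i).re := by
    intro i
    rw [Matrix.mul_sum, Matrix.sum_mul, Matrix.sum_apply, Complex.re_sum]
    refine Finset.sum_congr rfl fun a _ => ?_
    rw [Matrix.mul_smul, Matrix.smul_mul, Matrix.smul_apply, smul_eq_mul, Complex.re_ofReal_mul]
  simp_rw [e]
  have key : ∀ i, ∑ a, q a * Real.negMulLog ((Vᴴ * ρ a * V) i i).re
      ≤ Real.negMulLog (∑ a, q a * ((Vᴴ * ρ a * V) i i).re) := by
    intro i
    have := Real.concaveOn_negMulLog.le_map_sum (t := Finset.univ)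
      (w := q) (p := fun a => ((Vᴴ * ρ a * V) i i).re)
      (fun a _ => hq a) hsum (fun a _ => posSemidef_conj_diag_nonneg (hρ a) V i)
    simpa [smul_eq_mul] using this
  calc ∑ a, q a * vnEntropy (ρ a)
      ≤ ∑ a, q a * ∑ i, Real.negMulLog ((Vᴴ * ρ a * V) i i).re :=
        Finset.sum_le_sum fun a _ => mul_le_mul_of_nonneg_left (vnEntropy_le_diag (hρ a) hVm) (hq a)
    _ = ∑ i, ∑ a, q a * Real.negMulLog ((Vᴴ * ρ a * V) i i).re := by
        simp_rw [Finset.mul_sum]
        exact Finset.sum_comm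
    _ ≤ _ := Finset.sum_le_sum fun i _ => key i


/-- classical subadditivity of the Shannon entropy -/
theorem classical_subadd {k e : Type*} [Fintype k] [Fintype e] (p : k → e → ℝ)
    (hp : ∀ s i, 0 ≤ p s i) (hsum : ∑ s, ∑ i, p s i = 1) :
    ∑ s, ∑ i, Real.negMulLog (p s i)
      ≤ ∑ s, Real.negMulLog (∑ i, p s i) + ∑ i, Real.negMulLog (∑ s, p s i) := by
  set a : k → ℝ := fun s => ∑ i, p s i with ha
  set b : e → ℝ := fun i => ∑ s, p s i with hb
  have ha0 : ∀ s, 0 ≤ a s := fun s => Finset.sum_nonneg fun i _ => hp s i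
  have hb0 : ∀ i, 0 ≤ b i := fun i => Finset.sum_nonneg fun s _ => hp s i
  have hpa : ∀ s i, p s i ≤ a s := fun s i =>
    Finset.single_le_sum (f := fun i => p s i) (fun i _ => hp s i) (Finset.mem_univ i)
  have hpb : ∀ s i, p s i ≤ b i := fun s i =>
    Finset.single_le_sum (f := fun s => p s i) (fun s _ => hp s i) (Finset.mem_univ s)
  have key : ∀ s i, Real.negMulLog (p s i) + p s i * Real.log (a s) + p s i * Real.log (b i)
      ≤ a s * b i - p s i := by
    intro s i
    rcases (hp s i).eq_or_lt with h0 | hpos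
    · rw [← h0]; simp [mul_nonneg (ha0 s) (hb0 i)]
    · have hapos : 0 < a s := lt_of_lt_of_le hpos (hpa s i)
      have hbpos : 0 < b i := lt_of_lt_of_le hpos (hpb s i)
      have hl := Real.log_le_sub_one_of_pos (x := a s * b i / p s i) (by positivity)
      rw [Real.log_div (by positivity) hpos.ne', Real.log_mul hapos.ne' hbpos.ne'] at hl
      have := mul_le_mul_of_nonneg_left hl hpos.le
      have e1 : p s i * (a s * b i / p s i - 1) = a s * b i - p s i := by
        field_simp
      rw [e1] at this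
      unfold Real.negMulLog
      nlinarith [this]
  have hsumab : ∑ s, ∑ i, (a s * b i - p s i) = 0 := by
    simp_rw [Finset.sum_sub_distrib]
    rw [hsum]
    have h1 : ∑ s, a s = 1 := hsum
    have h2 : ∑ i, b i = 1 := by rw [← hsum]; exact Finset.sum_comm
    simp_rw [← Finset.mul_sum, h2, mul_one, h1]; simp
  have tot := Finset.sum_le_sum fun s (_ : s ∈ Finset.univ) =>
    Finset.sum_le_sum fun i (_ : i ∈ Finset.univ) => key s i
  rw [hsumab] at tot
  simp_rw [Finset.sum_add_distrib] at tot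
  have t1 : ∑ s, ∑ i, p s i * Real.log (a s) = - ∑ s, Real.negMulLog (a s) := by
    rw [← Finset.sum_neg_distrib]
    refine Finset.sum_congr rfl fun s _ => ?_
    rw [← Finset.sum_mul]; simp [Real.negMulLog, ha]
  have t2 : ∑ s, ∑ i, p s i * Real.log (b i) = - ∑ i, Real.negMulLog (b i) := by
    rw [Finset.sum_comm, ← Finset.sum_neg_distrib]
    refine Finset.sum_congr rfl fun i _ => ?_
    rw [← Finset.sum_mul]; simp [Real.negMulLog, hb]
  rw [t1, t2] at tot
  linarith

variable {k e : Type*} [Fintype k] [Fintype e] [DecidableEq k] [DecidableEq e]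

theorem one_kron_conj_apply (M : Matrix (k × e) (k × e) ℂ) (V : Matrix e e ℂ) (s t : k) (i j : e) :
    (((1 : Matrix k k ℂ) ⊗ₖ V)ᴴ * M * ((1 : Matrix k k ℂ) ⊗ₖ V)) (s, i) (t, j)
      = (Vᴴ * block M s t * V) i j := by
  simp only [Matrix.mul_apply, Fintype.sum_prod_type, Matrix.conjTranspose_apply,
    Matrix.kroneckerMap_apply, Matrix.one_apply, block, Matrix.of_apply]
  simp [ite_mul, mul_ite, apply_ite (starRingEnd ℂ), Finset.sum_ite_irrel]

theorem conc_block_posSemidef {M : Matrix (k × e) (k × e) ℂ} (hM : M.PosSemidef) (s : k) :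
    (block M s s).PosSemidef := by
  have := hM.submatrix (fun i : e => (s, i))
  exact this

theorem conc_trace_eq_sum_block (M : Matrix (k × e) (k × e) ℂ) :
    M.trace = ∑ s, (block M s s).trace := by
  simp [Matrix.trace, Fintype.sum_prod_type, block]

theorem trace_conj_unitary {V : Matrix e e ℂ} (hV : V ∈ unitaryGroup e ℂ) (A : Matrix e e ℂ) :
    (Vᴴ * A * V).trace = A.trace := by
  have h1 : V * Vᴴ = 1 := by
    have := (Matrix.mem_unitaryGroup_iff).1 hV
    simpa [Matrix.star_eq_conjTranspose] using this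
  rw [Matrix.trace_mul_comm, ← Matrix.mul_assoc, h1, Matrix.one_mul]

/-- **Subadditivity** in the form: entropy ≤ (entropy of the classical `k`-marginal) + entropy of the
`e`-marginal. -/
theorem vnEntropy_le_marginals {M : Matrix (k × e) (k × e) ℂ} (hM : M.PosSemidef)
    (htr : M.trace = 1) :
    vnEntropy M ≤ ∑ s, Real.negMulLog ((block M s s).trace.re) + vnEntropy (∑ s, block M s s) := by
  have hB : (∑ s, block M s s).PosSemidef :=
    Matrix.posSemidef_sum _ fun s _ => conc_block_posSemidef hM s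
  have h := hB.isHermitian
  set V : Matrix e e ℂ := (h.eigenvectorUnitary : Matrix e e ℂ) with hV
  have hVm : V ∈ unitaryGroup e ℂ := h.eigenvectorUnitary.2
  have hU : ((1 : Matrix k k ℂ) ⊗ₖ V) ∈ unitaryGroup (k × e) ℂ :=
    Matrix.kronecker_mem_unitary (one_mem _) hVm
  have h1 := vnEntropy_le_diag hM hU
  rw [Fintype.sum_prod_type] at h1
  simp_rw [one_kron_conj_apply] at h1
  set p : k → e → ℝ := fun s i => ((Vᴴ * block M s s * V) i i).re with hp
  have hp0 : ∀ s i, 0 ≤ p s i := fun s i => posSemidef_conj_diag_nonneg (conc_block_posSemidef hM s) V i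
  have hrow : ∀ s, ∑ i, p s i = (block M s s).trace.re := by
    intro s
    rw [← trace_conj_unitary hVm (block M s s), Matrix.trace, Complex.re_sum]
    rfl
  have hcol : ∀ i, ∑ s, p s i = ((Vᴴ * (∑ s, block M s s) * V) i i).re := by
    intro i
    rw [Matrix.mul_sum, Matrix.sum_mul, Matrix.sum_apply, Complex.re_sum]
  have hsum : ∑ s, ∑ i, p s i = 1 := by
    simp_rw [hrow]
    rw [← Complex.re_sum, ← conc_trace_eq_sum_block, htr]; simp
  have h2 := classical_subadd p hp0 hsum
  simp_rw [hrow, hcol] at h2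
  rw [vnEntropy_eq_diag_eigen h, ← hV]
  exact h1.trans h2

/-- qubit form of subadditivity. -/
theorem vnEntropy_le_binEntropy_add {M : Matrix (Bool × e) (Bool × e) ℂ} (hM : M.PosSemidef)
    (htr : M.trace = 1) :
    vnEntropy M ≤ Real.binEntropy ((block M true true).trace.re)
      + vnEntropy (block M false false + block M true true) := by
  have h := vnEntropy_le_marginals hM htr
  rw [Fintype.sum_bool, Fintype.sum_bool] at h
  have ht : (block M false false).trace.re = 1 - (block M true true).trace.re := by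
    have := conc_trace_eq_sum_block M
    rw [htr, Fintype.sum_bool] at this
    have h2 := congrArg Complex.re this
    simp at h2
    linarith
  rw [Real.binEntropy_eq_negMulLog_add_negMulLog_one_sub, ← ht, add_comm (block M false false)]
  exact h

end Crest.Agent.GA
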