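import Mathlib
import Crest.Prelude.Def_QState
import Crest.Prelude.Def_QChannel

/-!
# Row 341 infrastructure: spectral API for `vnEntropy`

`specSum f A` is the sum of `f (re z)` over the roots `z` of the characteristic polynomial of `A`
(with multiplicity).  For Hermitian `A` it is `∑ i, f (eigenvalues i)`, i.e. `Tr f(A)`.
-/

set_option autoImplicit false
set_option linter.unusedSectionVars false

namespace Crest.Agent.GA

open Matrix Polynomial Crest.Quantum
open scoped ComplexOrder

variable {n m : Type*} [Fintype n] [Fintype m] [DecidableEq n] [DecidableEq m]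

/-- `Tr f(A)` through the roots of the characteristic polynomial. -/
noncomputable def specSum (f : ℝ → ℝ) (A : Matrix n n ℂ) : ℝ :=
  (A.charpoly.roots.map fun z => f z.re).sum

theorem specSum_eq_sum (f : ℝ → ℝ) {A : Matrix n n ℂ} (hA : A.IsHermitian) :
    specSum f A = ∑ i, f (hA.eigenvalues i) := by
  unfold specSum
  rw [hA.roots_charpoly_eq_eigenvalues, Multiset.map_map]
  simp [Function.comp_def]

theorem vnEntropy_eq_specSum {A : Matrix n n ℂ} (hA : A.IsHermitian) :
    vnEntropy A = specSum Real.negMulLog A := by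
  rw [specSum_eq_sum _ hA, vnEntropy, dif_pos hA, ← Finset.sum_neg_distrib]
  refine Finset.sum_congr rfl fun i _ => ?_
  simp [Real.negMulLog]

theorem vnEntropy_eq_sum {A : Matrix n n ℂ} (hA : A.IsHermitian) :
    vnEntropy A = ∑ i, Real.negMulLog (hA.eigenvalues i) := by
  rw [vnEntropy_eq_specSum hA, specSum_eq_sum _ hA]

theorem specSum_congr (f : ℝ → ℝ) {A B : Matrix n n ℂ} (h : A.charpoly = B.charpoly) :
    specSum f A = specSum f B := by
  unfold specSum; rw [h]

theorem specSum_reindex (f : ℝ → ℝ) (e : n ≃ m) (A : Matrix n n ℂ) :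
    specSum f (reindex e e A) = specSum f A := by
  unfold specSum; rw [charpoly_reindex]

theorem specSum_submatrix (f : ℝ → ℝ) (e : m ≃ n) (A : Matrix n n ℂ) :
    specSum f (A.submatrix e e) = specSum f A := by
  have := specSum_reindex f e.symm A
  simpa [reindex_apply] using this

theorem specSum_diagonal (f : ℝ → ℝ) (d : n → ℝ) :
    specSum f (diagonal fun i => (d i : ℂ)) = ∑ i, f (d i) := by
  unfold specSum
  rw [charpoly_diagonal, Polynomial.roots_prod]
  · simp
  · simp [Finset.prod_ne_zero_iff, Polynomial.X_sub_C_ne_zero]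

/-- conjugation by an invertible pair. -/
theorem specSum_conj (f : ℝ → ℝ) (U V A : Matrix n n ℂ) (hVU : V * U = 1) :
    specSum f (U * A * V) = specSum f A := by
  apply specSum_congr
  rw [charpoly_mul_comm, ← mul_assoc, hVU, one_mul]

theorem specSum_of_diag (f : ℝ → ℝ) (U V : Matrix n n ℂ) (d : n → ℝ) (hVU : V * U = 1) :
    specSum f (U * (diagonal fun i => (d i : ℂ)) * V) = ∑ i, f (d i) := by
  rw [specSum_conj f U V _ hVU, specSum_diagonal]

theorem specSum_mul_comm (f : ℝ → ℝ) (hf : f 0 = 0) (A : Matrix m n ℂ) (B : Matrix n m ℂ) :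
    specSum f (A * B) = specSum f (B * A) := by
  have h := charpoly_mul_comm' A B
  have h1 : (X ^ Fintype.card n * (A * B).charpoly : ℂ[X]).roots
      = (X ^ Fintype.card m * (B * A).charpoly : ℂ[X]).roots := by rw [h]
  rw [Polynomial.roots_mul (mul_ne_zero (pow_ne_zero _ X_ne_zero) (charpoly_monic _).ne_zero),
    Polynomial.roots_mul (mul_ne_zero (pow_ne_zero _ X_ne_zero) (charpoly_monic _).ne_zero),
    Polynomial.roots_pow, Polynomial.roots_pow, Polynomial.roots_X] at h1
  have h2 := congrArg (fun s : Multiset ℂ => (s.map fun z => f z.re).sum) h1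
  simp only [Multiset.map_add, Multiset.sum_add, Multiset.map_nsmul, Multiset.sum_nsmul,
    Multiset.map_singleton, Multiset.sum_singleton, Complex.zero_re, hf, smul_zero, zero_add] at h2
  exact h2

theorem specSum_fromBlocks_diag (f : ℝ → ℝ) (A : Matrix n n ℂ) (B : Matrix m m ℂ) :
    specSum f (fromBlocks A 0 0 B) = specSum f A + specSum f B := by
  unfold specSum
  rw [charpoly_fromBlocks_zero₁₂,
    Polynomial.roots_mul (mul_ne_zero (charpoly_monic _).ne_zero (charpoly_monic _).ne_zero)]
  simp

/-! ### Diagonalisation in matrix form -/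

theorem exists_diag {A : Matrix n n ℂ} (hA : A.IsHermitian) :
    ∃ U : Matrix n n ℂ, Uᴴ * U = 1 ∧ U * Uᴴ = 1 ∧
      A = U * (diagonal fun i => (hA.eigenvalues i : ℂ)) * Uᴴ := by
  refine ⟨(hA.eigenvectorUnitary : Matrix n n ℂ), ?_, ?_, ?_⟩
  · have := (Matrix.mem_unitaryGroup_iff' (A := (hA.eigenvectorUnitary : Matrix n n ℂ))).1
      hA.eigenvectorUnitary.2
    simpa [star_eq_conjTranspose] using this
  · have := (Matrix.mem_unitaryGroup_iff (A := (hA.eigenvectorUnitary : Matrix n n ℂ))).1
      hA.eigenvectorUnitary.2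
    simpa [star_eq_conjTranspose] using this
  · have := hA.spectral_theorem
    rw [Unitary.conjStarAlgAut_apply] at this
    simpa [star_eq_conjTranspose, Function.comp_def] using this

theorem specSum_smul (f : ℝ → ℝ) {A : Matrix n n ℂ} (hA : A.IsHermitian) (c : ℝ) :
    specSum f ((c : ℂ) • A) = ∑ i, f (c * hA.eigenvalues i) := by
  obtain ⟨U, h1, -, h3⟩ := exists_diag hA
  have : (c : ℂ) • A = U * (diagonal fun i => ((c * hA.eigenvalues i : ℝ) : ℂ)) * Uᴴ := by
    conv_lhs => rw [h3]
    rw [← Matrix.smul_mul, ← Matrix.mul_smul]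
    congr 2
    ext i j
    by_cases h : i = j
    · subst h; simp
    · simp [h]
  rw [this, specSum_of_diag f U Uᴴ _ h1]

theorem trace_re_eq_sum {A : Matrix n n ℂ} (hA : A.IsHermitian) :
    A.trace.re = ∑ i, hA.eigenvalues i := by
  rw [hA.trace_eq_sum_eigenvalues]; simp

theorem vnEntropy_smul {A : Matrix n n ℂ} (hA : A.IsHermitian) (c : ℝ) :
    vnEntropy ((c : ℂ) • A) = c * vnEntropy A + Real.negMulLog c * A.trace.re := by
  have hcA : ((c : ℂ) • A).IsHermitian := by
    unfold Matrix.IsHermitian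
    rw [conjTranspose_smul, hA.eq]; simp
  rw [vnEntropy_eq_specSum hcA, specSum_smul _ hA, vnEntropy_eq_sum hA, trace_re_eq_sum hA,
    Finset.mul_sum, Finset.mul_sum, ← Finset.sum_add_distrib]
  refine Finset.sum_congr rfl fun i _ => ?_
  rw [Real.negMulLog_mul]; ring

/-! ### Kronecker products -/

open scoped Kronecker

theorem specSum_kronecker (f : ℝ → ℝ) {A : Matrix n n ℂ} {B : Matrix m m ℂ}
    (hA : A.IsHermitian) (hB : B.IsHermitian) :
    specSum f (A ⊗ₖ B) = ∑ i, ∑ j, f (hA.eigenvalues i * hB.eigenvalues j) := by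
  obtain ⟨U, h1, -, h3⟩ := exists_diag hA
  obtain ⟨V, k1, -, k3⟩ := exists_diag hB
  have : A ⊗ₖ B = (U ⊗ₖ V) *
      (diagonal fun p : n × m => ((hA.eigenvalues p.1 * hB.eigenvalues p.2 : ℝ) : ℂ)) *
      (Uᴴ ⊗ₖ Vᴴ) := by
    conv_lhs => rw [h3, k3]
    rw [mul_kronecker_mul, mul_kronecker_mul, diagonal_kronecker_diagonal]
    simp
  rw [this, specSum_of_diag f _ _ _ (by rw [← mul_kronecker_mul, h1, k1, one_kronecker_one]),
    Fintype.sum_prod_type]

theorem vnEntropy_kronecker {A : Matrix n n ℂ} {B : Matrix m m ℂ}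
    (hA : A.IsHermitian) (hB : B.IsHermitian) :
    vnEntropy (A ⊗ₖ B) = B.trace.re * vnEntropy A + A.trace.re * vnEntropy B := by
  have hAB : (A ⊗ₖ B).IsHermitian := by
    unfold Matrix.IsHermitian
    rw [conjTranspose_kronecker, hA.eq, hB.eq]
  rw [vnEntropy_eq_specSum hAB, specSum_kronecker _ hA hB, vnEntropy_eq_sum hA,
    vnEntropy_eq_sum hB, trace_re_eq_sum hA, trace_re_eq_sum hB]
  simp_rw [Real.negMulLog_mul, Finset.sum_add_distrib, ← Finset.mul_sum, ← Finset.sum_mul]
  rw [Finset.mul_sum (f := fun i => (hA.eigenvalues i).negMulLog)]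

/-! ### Matrices on `Bool × e` -/

section BoolBlocks

variable {e : Type*} [Fintype e] [DecidableEq e]

/-- The matrix on `Bool × e` with the four given blocks (`false` first). -/
def ofBlocks (A B C D : Matrix e e ℂ) : Matrix (Bool × e) (Bool × e) ℂ :=
  (fromBlocks A B C D).submatrix (Equiv.boolProdEquivSum e) (Equiv.boolProdEquivSum e)

@[simp] theorem ofBlocks_ff (A B C D : Matrix e e ℂ) (i j : e) :
    ofBlocks A B C D (false, i) (false, j) = A i j := rfl
@[simp] theorem ofBlocks_ft (A B C D : Matrix e e ℂ) (i j : e) :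
    ofBlocks A B C D (false, i) (true, j) = B i j := rfl
@[simp] theorem ofBlocks_tf (A B C D : Matrix e e ℂ) (i j : e) :
    ofBlocks A B C D (true, i) (false, j) = C i j := rfl
@[simp] theorem ofBlocks_tt (A B C D : Matrix e e ℂ) (i j : e) :
    ofBlocks A B C D (true, i) (true, j) = D i j := rfl

theorem eq_ofBlocks (M : Matrix (Bool × e) (Bool × e) ℂ) :
    M = ofBlocks (block M false false) (block M false true) (block M true false)
      (block M true true) := by
  ext ⟨s, i⟩ ⟨t, j⟩
  cases s <;> cases t <;> rfl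

@[simp] theorem block_ofBlocks_ff (A B C D : Matrix e e ℂ) :
    block (ofBlocks A B C D) false false = A := rfl
@[simp] theorem block_ofBlocks_ft (A B C D : Matrix e e ℂ) :
    block (ofBlocks A B C D) false true = B := rfl
@[simp] theorem block_ofBlocks_tf (A B C D : Matrix e e ℂ) :
    block (ofBlocks A B C D) true false = C := rfl
@[simp] theorem block_ofBlocks_tt (A B C D : Matrix e e ℂ) :
    block (ofBlocks A B C D) true true = D := rfl

theorem specSum_ofBlocks (f : ℝ → ℝ) (A B C D : Matrix e e ℂ) :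
    specSum f (ofBlocks A B C D) = specSum f (fromBlocks A B C D) :=
  specSum_submatrix f _ _

theorem specSum_ofBlocks_diag (f : ℝ → ℝ) (A D : Matrix e e ℂ) :
    specSum f (ofBlocks A 0 0 D) = specSum f A + specSum f D := by
  rw [specSum_ofBlocks, specSum_fromBlocks_diag]

theorem isHermitian_ofBlocks {A B C D : Matrix e e ℂ} (hA : A.IsHermitian) (hBC : Bᴴ = C)
    (hD : D.IsHermitian) : (ofBlocks A B C D).IsHermitian :=
  (Matrix.IsHermitian.fromBlocks hA hBC hD).submatrix _

theorem vnEntropy_ofBlocks_diag {A D : Matrix e e ℂ} (hA : A.IsHermitian) (hD : D.IsHermitian) :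
    vnEntropy (ofBlocks A 0 0 D) = vnEntropy A + vnEntropy D := by
  rw [vnEntropy_eq_specSum (isHermitian_ofBlocks hA (by simp) hD), specSum_ofBlocks_diag,
    vnEntropy_eq_specSum hA, vnEntropy_eq_specSum hD]

theorem trace_ofBlocks (A B C D : Matrix e e ℂ) :
    (ofBlocks A B C D).trace = A.trace + D.trace := by
  simp only [Matrix.trace, Matrix.diag, Fintype.sum_prod_type, Fintype.sum_bool]
  rw [add_comm]; rfl

theorem det_ofBlocks (A B C D : Matrix e e ℂ) :
    (ofBlocks A B C D).det = (fromBlocks A B C D).det :=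
  Matrix.det_submatrix_equiv_self _ _

theorem posSemidef_ofBlocks_iff (A B C D : Matrix e e ℂ) :
    (ofBlocks A B C D).PosSemidef ↔ (fromBlocks A B C D).PosSemidef :=
  Matrix.posSemidef_submatrix_equiv _

end BoolBlocks

/-! ### Invariance statements for `vnEntropy` -/

theorem vnEntropy_submatrix (e : m ≃ n) (A : Matrix n n ℂ) :
    vnEntropy (A.submatrix e e) = vnEntropy A := by
  by_cases hA : A.IsHermitian
  · rw [vnEntropy_eq_specSum hA, vnEntropy_eq_specSum (hA.submatrix e), specSum_submatrix]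
  · have : ¬ (A.submatrix e e).IsHermitian := by
      intro h
      apply hA
      have := h.submatrix e.symm
      simpa using this
    simp [vnEntropy, hA, this]

theorem vnEntropy_mul_conjTranspose_comm (Y : Matrix m n ℂ) :
    vnEntropy (Y * Yᴴ) = vnEntropy (Yᴴ * Y) := by
  rw [vnEntropy_eq_specSum (isHermitian_mul_conjTranspose_self Y),
    vnEntropy_eq_specSum (isHermitian_conjTranspose_mul_self Y),
    specSum_mul_comm _ (by simp)]

theorem vnEntropy_conj_unitary {A : Matrix n n ℂ} (hA : A.IsHermitian) (U : Matrix n n ℂ)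
    (hU : Uᴴ * U = 1) : vnEntropy (U * A * Uᴴ) = vnEntropy A := by
  have h : (U * A * Uᴴ).IsHermitian := by
    unfold Matrix.IsHermitian
    simp [conjTranspose_mul, hA.eq, mul_assoc]
  rw [vnEntropy_eq_specSum h, vnEntropy_eq_specSum hA, specSum_conj _ _ _ _ hU]

theorem vnEntropy_diagonal (d : n → ℝ) :
    vnEntropy (diagonal fun i => (d i : ℂ)) = ∑ i, Real.negMulLog (d i) := by
  have h : (diagonal fun i => (d i : ℂ)).IsHermitian := by
    unfold Matrix.IsHermitian
    rw [diagonal_conjTranspose]; congr 1; ext i; simp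
  rw [vnEntropy_eq_specSum h, specSum_diagonal]

/-! ### One qubit -/

theorem vnEntropy_qubit {M : Matrix Bool Bool ℂ} (hM : M.IsHermitian) (htr : M.trace = 1)
    (v : ℝ) (hdet : M.det = (v : ℂ)) :
    vnEntropy M = Real.binEntropy ((1 + Real.sqrt (1 - 4 * v)) / 2) := by
  have h1 : hM.eigenvalues true + hM.eigenvalues false = 1 := by
    have := trace_re_eq_sum hM
    rw [htr, Fintype.sum_bool] at this
    simpa using this.symm
  have h2 : hM.eigenvalues true * hM.eigenvalues false = v := by
    have := hM.det_eq_prod_eigenvalues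
    rw [hdet, Fintype.prod_bool] at this
    have h3 : ((hM.eigenvalues true * hM.eigenvalues false : ℝ) : ℂ) = (v : ℂ) := by
      rw [this]; simp
    exact Complex.ofReal_injective h3
  rw [vnEntropy_eq_sum hM, Fintype.sum_bool]
  set x := hM.eigenvalues true
  set y := hM.eigenvalues false
  have hy : y = 1 - x := by linarith
  have hs : 1 - 4 * v = (x - y) ^ 2 := by rw [← h2, hy]; ring
  rw [hs, Real.sqrt_sq_eq_abs, Real.binEntropy_eq_negMulLog_add_negMulLog_one_sub]
  rcases abs_cases (x - y) with ⟨h, -⟩ | ⟨h, -⟩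
  · rw [h]
    have e1 : (1 + (x - y)) / 2 = x := by rw [hy]; ring
    rw [e1, hy]
  · rw [h]
    have e1 : (1 + -(x - y)) / 2 = y := by rw [hy]; ring
    have e2 : 1 - y = x := by rw [hy]; ring
    rw [e1, e2, add_comm]

end Crest.Agent.GA
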