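import Mathlib
import Crest.Agent.GA_Spec

/-!
# Row 341: counting eigenvalues above a threshold

`cnt hH t` is the number of eigenvalues of the Hermitian matrix `H` which are `> t`.  It is the
largest dimension of a subspace on which `⟨v, H v⟩ > t ‖v‖²`.  Consequences: monotonicity, a
Sylvester type identity for `Zᴴ (t + n)⁻¹ Z` versus `y⁻¹ Z Zᴴ - n`, measurability of the
eigenvalues of `z b - n` in `z`.
-/

set_option autoImplicit false
set_option linter.unusedSectionVars false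

namespace Crest.Agent.GA

open Matrix
open scoped ComplexOrder

variable {m m' : Type*} [Fintype m] [DecidableEq m] [Fintype m'] [DecidableEq m']

/-- squared norm of a vector. -/
noncomputable def nsq (v : m → ℂ) : ℝ := (star v ⬝ᵥ v).re

/-- quadratic form of a matrix. -/
noncomputable def qf (H : Matrix m m ℂ) (v : m → ℂ) : ℝ := (star v ⬝ᵥ (H *ᵥ v)).re

/-- number of eigenvalues strictly above `t`. -/
noncomputable def cnt {H : Matrix m m ℂ} (hH : H.IsHermitian) (t : ℝ) : ℕ :=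
  (Finset.univ.filter fun i => t < hH.eigenvalues i).card

theorem nsq_eq_sum (v : m → ℂ) : nsq v = ∑ i, ‖v i‖ ^ 2 := by
  unfold nsq dotProduct
  rw [Complex.re_sum]
  refine Finset.sum_congr rfl fun i _ => ?_
  simp only [Pi.star_apply, RCLike.star_def]
  rw [Complex.conj_mul', ← Complex.ofReal_pow, Complex.ofReal_re]

theorem nsq_nonneg (v : m → ℂ) : 0 ≤ nsq v := by
  rw [nsq_eq_sum]; positivity

theorem nsq_eq_zero_iff (v : m → ℂ) : nsq v = 0 ↔ v = 0 := by
  rw [nsq_eq_sum, Finset.sum_eq_zero_iff_of_nonneg (fun i _ => by positivity)]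
  constructor
  · intro h; ext i; simpa using h i (Finset.mem_univ i)
  · intro h i _; simp [h]

theorem nsq_pos {v : m → ℂ} (hv : v ≠ 0) : 0 < nsq v :=
  lt_of_le_of_ne (nsq_nonneg v) (fun h => hv ((nsq_eq_zero_iff v).1 h.symm))

@[simp] theorem nsq_zero : nsq (0 : m → ℂ) = 0 := (nsq_eq_zero_iff _).2 rfl

@[simp] theorem qf_zero_vec (H : Matrix m m ℂ) : qf H 0 = 0 := by simp [qf]

theorem qf_one (v : m → ℂ) : qf 1 v = nsq v := by simp [qf, nsq]

theorem qf_add (H K : Matrix m m ℂ) (v : m → ℂ) : qf (H + K) v = qf H v + qf K v := by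
  simp [qf, Matrix.add_mulVec, dotProduct_add]

theorem qf_sub (H K : Matrix m m ℂ) (v : m → ℂ) : qf (H - K) v = qf H v - qf K v := by
  simp [qf, Matrix.sub_mulVec, dotProduct_sub]

theorem qf_smul (c : ℝ) (H : Matrix m m ℂ) (v : m → ℂ) : qf ((c : ℂ) • H) v = c * qf H v := by
  simp [qf, Matrix.smul_mulVec, dotProduct_smul]

/-- `⟨v, Aᴴ B A v⟩ = ⟨A v, B A v⟩`. -/
theorem qf_conj (A : Matrix m' m ℂ) (B : Matrix m' m' ℂ) (v : m → ℂ) :
    qf (Aᴴ * B * A) v = qf B (A *ᵥ v) := by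
  unfold qf
  rw [Matrix.star_mulVec, ← Matrix.mulVec_mulVec, ← Matrix.mulVec_mulVec,
    Matrix.dotProduct_mulVec]

theorem qf_conjTranspose_mul_self (A : Matrix m' m ℂ) (v : m → ℂ) :
    qf (Aᴴ * A) v = nsq (A *ᵥ v) := by
  have := qf_conj A 1 v
  rwa [Matrix.mul_one, qf_one] at this

theorem qf_mul_conjTranspose_self (A : Matrix m m' ℂ) (v : m → ℂ) :
    qf (A * Aᴴ) v = nsq (Aᴴ *ᵥ v) := by
  have := qf_conjTranspose_mul_self Aᴴ v
  rwa [Matrix.conjTranspose_conjTranspose] at this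

theorem qf_diagonal (d : m → ℝ) (w : m → ℂ) :
    qf (diagonal fun i => (d i : ℂ)) w = ∑ i, d i * ‖w i‖ ^ 2 := by
  unfold qf dotProduct
  rw [Complex.re_sum]
  refine Finset.sum_congr rfl fun i _ => ?_
  rw [Matrix.mulVec_diagonal]
  simp only [Pi.star_apply, RCLike.star_def]
  have : (starRingEnd ℂ) (w i) * ((d i : ℂ) * w i) = ((d i * ‖w i‖ ^ 2 : ℝ) : ℂ) := by
    have h := Complex.conj_mul' (w i)
    push_cast
    rw [← h]; ring
  rw [this, Complex.ofReal_re]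

theorem PosSemidef.qf_nonneg {H : Matrix m m ℂ} (hH : H.PosSemidef) (v : m → ℂ) : 0 ≤ qf H v := by
  have := hH.dotProduct_mulVec_nonneg v
  exact (Complex.le_def.1 this).1

theorem nsq_unitary (U : Matrix m m ℂ) (hU : U * Uᴴ = 1) (v : m → ℂ) :
    nsq (Uᴴ *ᵥ v) = nsq v := by
  rw [← qf_mul_conjTranspose_self, hU, qf_one]

/-! ### The subspace characterisation -/

theorem diag_strict {d : m → ℝ} {t : ℝ} {w : m → ℂ} (h : ∀ i, w i ≠ 0 → t < d i) (hw : w ≠ 0) :
    t * nsq w < ∑ i, d i * ‖w i‖ ^ 2 := by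
  rw [nsq_eq_sum, Finset.mul_sum]
  obtain ⟨i, hi⟩ : ∃ i, w i ≠ 0 := by
    by_contra hcon
    exact hw (funext fun i => by_contra fun hi => hcon ⟨i, hi⟩)
  refine Finset.sum_lt_sum (fun j _ => ?_) ⟨i, Finset.mem_univ i, ?_⟩
  · by_cases hj : w j = 0
    · simp [hj]
    · exact mul_le_mul_of_nonneg_right (h j hj).le (by positivity)
  · exact mul_lt_mul_of_pos_right (h i hi) (by positivity)

theorem diag_le {d : m → ℝ} {t : ℝ} {w : m → ℂ} (h : ∀ i, t < d i → w i = 0) :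
    ∑ i, d i * ‖w i‖ ^ 2 ≤ t * nsq w := by
  rw [nsq_eq_sum, Finset.mul_sum]
  refine Finset.sum_le_sum fun j _ => ?_
  by_cases hj : t < d j
  · simp [h j hj]
  · exact mul_le_mul_of_nonneg_right (not_lt.1 hj) (by positivity)

theorem cnt_eq_card {H : Matrix m m ℂ} (hH : H.IsHermitian) (t : ℝ) :
    cnt hH t = Fintype.card {i // t < hH.eigenvalues i} := by
  rw [cnt, Fintype.card_subtype]

/-- any subspace on which `H > t` has dimension at most `cnt hH t`. -/
theorem finrank_le_cnt {H : Matrix m m ℂ} (hH : H.IsHermitian) (t : ℝ)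
    (V : Submodule ℂ (m → ℂ)) (hV : ∀ v ∈ V, v ≠ 0 → t * nsq v < qf H v) :
    Module.finrank ℂ V ≤ cnt hH t := by
  obtain ⟨U, hU1, hU2, hUH⟩ := exists_diag hH
  set S := {i // t < hH.eigenvalues i}
  let P : (m → ℂ) →ₗ[ℂ] (S → ℂ) := (LinearMap.funLeft ℂ ℂ (Subtype.val : S → m)) ∘ₗ Uᴴ.mulVecLin
  have hinj : Function.Injective (P.domRestrict V) := by
    rw [← LinearMap.ker_eq_bot, LinearMap.ker_eq_bot']
    rintro ⟨v, hv⟩ hPv
    by_contra hne
    have hv0 : v ≠ 0 := fun h => hne (by simp [h])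
    have h1 := hV v hv hv0
    have h2 : ∀ i, t < hH.eigenvalues i → (Uᴴ *ᵥ v) i = 0 := by
      intro i hi
      have := congrFun hPv ⟨i, hi⟩
      simpa [P, LinearMap.funLeft] using this
    have h3 := diag_le h2
    have h4 : qf H v = ∑ i, hH.eigenvalues i * ‖(Uᴴ *ᵥ v) i‖ ^ 2 := by
      conv_lhs => rw [hUH]
      have := qf_conj Uᴴ (diagonal fun i => (hH.eigenvalues i : ℂ)) v
      rw [Matrix.conjTranspose_conjTranspose] at this
      rw [this, qf_diagonal]
    rw [nsq_unitary U hU2] at h3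
    linarith
  have := LinearMap.finrank_le_finrank_of_injective hinj
  rw [Module.finrank_fintype_fun_eq_card] at this
  rwa [cnt_eq_card]

/-- there is a subspace of dimension `cnt hH t` on which `H > t`. -/
theorem exists_subspace {H : Matrix m m ℂ} (hH : H.IsHermitian) (t : ℝ) :
    ∃ V : Submodule ℂ (m → ℂ), Module.finrank ℂ V = cnt hH t ∧
      ∀ v ∈ V, v ≠ 0 → t * nsq v < qf H v := by
  obtain ⟨U, hU1, hU2, hUH⟩ := exists_diag hH
  set S := {i // t < hH.eigenvalues i}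
  let E : (S → ℂ) →ₗ[ℂ] (m → ℂ) := Function.ExtendByZero.linearMap ℂ (Subtype.val : S → m)
  let Q : (S → ℂ) →ₗ[ℂ] (m → ℂ) := U.mulVecLin ∘ₗ E
  have hE : ∀ c i, E c i = Function.extend (Subtype.val : S → m) c 0 i := fun _ _ => rfl
  have hUQ : ∀ c, Uᴴ *ᵥ (Q c) = E c := by
    intro c
    simp [Q, Matrix.mulVec_mulVec, hU1]
  have hEinj : Function.Injective E := by
    intro c c' h
    ext s
    have := congrFun h s.1
    rwa [hE, hE, Subtype.val_injective.extend_apply, Subtype.val_injective.extend_apply] at this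
  have hinj : Function.Injective Q := by
    intro c c' h
    apply hEinj
    rw [← hUQ, ← hUQ, h]
  refine ⟨LinearMap.range Q, ?_, ?_⟩
  · rw [LinearMap.finrank_range_of_inj hinj, Module.finrank_fintype_fun_eq_card, cnt_eq_card]
  · rintro v ⟨c, rfl⟩ hv
    have h4 : qf H (Q c) = ∑ i, hH.eigenvalues i * ‖(Uᴴ *ᵥ (Q c)) i‖ ^ 2 := by
      conv_lhs => rw [hUH]
      have := qf_conj Uᴴ (diagonal fun i => (hH.eigenvalues i : ℂ)) (Q c)
      rw [Matrix.conjTranspose_conjTranspose] at this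
      rw [this, qf_diagonal]
    rw [h4, ← nsq_unitary U hU2, hUQ]
    apply diag_strict
    · intro i hi
      by_contra hcon
      apply hi
      have : ¬ ∃ s : S, s.1 = i := by
        rintro ⟨s, rfl⟩; exact hcon s.2
      rw [hE, Function.extend_apply' _ _ _ this]; rfl
    · intro h
      apply hv
      have : c = 0 := hEinj (by rw [h, map_zero])
      rw [this, map_zero]

/-- transfer of counts along a linear map. -/
theorem cnt_le_cnt_of_map {H : Matrix m m ℂ} (hH : H.IsHermitian) {H' : Matrix m' m' ℂ}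
    (hH' : H'.IsHermitian) (t t' : ℝ) (T : (m → ℂ) →ₗ[ℂ] (m' → ℂ))
    (h : ∀ v, t * nsq v < qf H v → t' * nsq (T v) < qf H' (T v)) :
    cnt hH t ≤ cnt hH' t' := by
  obtain ⟨V, hV1, hV2⟩ := exists_subspace hH t
  have hne : ∀ v ∈ V, v ≠ 0 → T v ≠ 0 := by
    intro v hv hv0 hTv
    have := h v (hV2 v hv hv0)
    simp [hTv] at this
  have h1 : Module.finrank ℂ V ≤ Module.finrank ℂ (V.map T) := by
    let T' : V →ₗ[ℂ] (V.map T) := T.restrict (q := V.map T) (fun v hv => Submodule.mem_map_of_mem hv)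
    apply LinearMap.finrank_le_finrank_of_injective (f := T')
    rw [← LinearMap.ker_eq_bot, LinearMap.ker_eq_bot']
    rintro ⟨v, hv⟩ hTv
    by_contra hcon
    have hv0 : v ≠ 0 := fun h => hcon (by simp [h])
    apply hne v hv hv0
    have := congrArg Subtype.val hTv
    simpa [T'] using this
  have h2 : Module.finrank ℂ (V.map T) ≤ cnt hH' t' := by
    apply finrank_le_cnt
    rintro _ ⟨v, hv, rfl⟩ hTv
    have hv0 : v ≠ 0 := fun h => hTv (by rw [h, map_zero])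
    exact h v (hV2 v hv hv0)
  omega

/-- monotonicity of counts. -/
theorem cnt_mono {H H' : Matrix m m ℂ} (hH : H.IsHermitian) (hH' : H'.IsHermitian) (t : ℝ)
    (h : ∀ v, qf H v ≤ qf H' v) : cnt hH t ≤ cnt hH' t :=
  cnt_le_cnt_of_map hH hH' t t LinearMap.id (fun v hv => lt_of_lt_of_le hv (h v))

/-! ### Cauchy-Schwarz for a positive semidefinite form -/

theorem IsHermitian.re_dot_symm {G : Matrix m m ℂ} (hG : G.IsHermitian) (v u : m → ℂ) :
    (star u ⬝ᵥ (G *ᵥ v)).re = (star v ⬝ᵥ (G *ᵥ u)).re := by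
  have h : star u ⬝ᵥ (G *ᵥ v) = star (star v ⬝ᵥ (G *ᵥ u)) := by
    rw [Matrix.star_dotProduct, Matrix.star_mulVec, hG.eq, ← Matrix.dotProduct_mulVec]
  rw [h]; simp

theorem qf_smul_add {G : Matrix m m ℂ} (hG : G.IsHermitian) (x : ℝ) (v u : m → ℂ) :
    qf G ((x : ℂ) • v + u) = qf G v * (x * x) + 2 * (star v ⬝ᵥ (G *ᵥ u)).re * x + qf G u := by
  have h := IsHermitian.re_dot_symm hG v u
  unfold qf at *
  simp only [Matrix.mulVec_add, Matrix.mulVec_smul, star_add, star_smul, add_dotProduct,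
    dotProduct_add, smul_dotProduct, dotProduct_smul, smul_eq_mul, Complex.add_re,
    Complex.mul_re, Complex.star_def, Complex.conj_ofReal, Complex.ofReal_re, Complex.ofReal_im,
    zero_mul, sub_zero]
  rw [h]; ring

theorem PosSemidef.cs {G : Matrix m m ℂ} (hG : G.PosSemidef) (v u : m → ℂ) :
    ((star v ⬝ᵥ (G *ᵥ u)).re) ^ 2 ≤ qf G v * qf G u := by
  have h := discrim_le_zero (a := qf G v) (b := 2 * (star v ⬝ᵥ (G *ᵥ u)).re) (c := qf G u)
    (fun x => by rw [← qf_smul_add hG.isHermitian]; exact PosSemidef.qf_nonneg hG _)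
  unfold discrim at h
  nlinarith

/-! ### The pencil `t + n`, `Zᴴ (t + n)⁻¹ Z`, `z Z Zᴴ - n` -/

variable {e r : Type*} [Fintype e] [DecidableEq e] [Fintype r] [DecidableEq r]

/-- `t + n`. -/
noncomputable def Gmat (n : Matrix e e ℂ) (t : ℝ) : Matrix e e ℂ := (t : ℂ) • 1 + n

/-- `Zᴴ (t + n)⁻¹ Z`. -/
noncomputable def Cmat (Z : Matrix e r ℂ) (n : Matrix e e ℂ) (t : ℝ) : Matrix r r ℂ :=
  Zᴴ * (Gmat n t)⁻¹ * Z

/-- `z Z Zᴴ - n`. -/
noncomputable def Kmat (Z : Matrix e r ℂ) (n : Matrix e e ℂ) (z : ℝ) : Matrix e e ℂ :=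
  (z : ℂ) • (Z * Zᴴ) - n

theorem qf_Gmat (n : Matrix e e ℂ) (t : ℝ) (v : e → ℂ) : qf (Gmat n t) v = t * nsq v + qf n v := by
  rw [Gmat, qf_add, qf_smul, qf_one]

theorem qf_Kmat (Z : Matrix e r ℂ) (n : Matrix e e ℂ) (z : ℝ) (v : e → ℂ) :
    qf (Kmat Z n z) v = z * nsq (Zᴴ *ᵥ v) - qf n v := by
  rw [Kmat, qf_sub, qf_smul, qf_mul_conjTranspose_self]

theorem isHermitian_Gmat {n : Matrix e e ℂ} (hn : n.IsHermitian) (t : ℝ) :
    (Gmat n t).IsHermitian := by
  unfold Gmat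
  refine IsHermitian.add ?_ hn
  unfold IsHermitian
  rw [conjTranspose_smul, conjTranspose_one]; simp

theorem posDef_Gmat {n : Matrix e e ℂ} (hn : n.PosSemidef) {t : ℝ} (ht : 0 < t) :
    (Gmat n t).PosDef := by
  unfold Gmat
  refine PosDef.add_posSemidef ?_ hn
  exact PosDef.smul PosDef.one (by exact_mod_cast ht)

theorem isHermitian_Cmat (Z : Matrix e r ℂ) {n : Matrix e e ℂ} (hn : n.IsHermitian) (t : ℝ) :
    (Cmat Z n t).IsHermitian := by
  unfold Cmat
  exact isHermitian_conjTranspose_mul_mul Z (isHermitian_Gmat hn t).inv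

theorem posSemidef_Cmat (Z : Matrix e r ℂ) {n : Matrix e e ℂ} (hn : n.PosSemidef) {t : ℝ}
    (ht : 0 < t) : (Cmat Z n t).PosSemidef := by
  unfold Cmat
  exact (posDef_Gmat hn ht).inv.posSemidef.conjTranspose_mul_mul_same Z

theorem isHermitian_Kmat (Z : Matrix e r ℂ) {n : Matrix e e ℂ} (hn : n.IsHermitian) (z : ℝ) :
    (Kmat Z n z).IsHermitian := by
  unfold Kmat
  refine IsHermitian.sub ?_ hn
  unfold IsHermitian
  rw [conjTranspose_smul, (isHermitian_mul_conjTranspose_self Z).eq]; simp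

theorem cnt_Kmat_le_cnt_Cmat (Z : Matrix e r ℂ) {n : Matrix e e ℂ} (hn : n.PosSemidef) {t y : ℝ}
    (ht : 0 < t) (hy : 0 < y) :
    cnt (isHermitian_Kmat Z hn.isHermitian y⁻¹) t ≤ cnt (isHermitian_Cmat Z hn.isHermitian t) y := by
  apply cnt_le_cnt_of_map _ _ t y Zᴴ.mulVecLin
  intro v hv
  rw [qf_Kmat] at hv
  simp only [Matrix.mulVecLin_apply]
  set s := nsq (Zᴴ *ᵥ v) with hs
  have hG := posDef_Gmat hn ht
  have hGG : Gmat n t * (Gmat n t)⁻¹ = 1 := Matrix.mul_nonsing_inv _ ((Matrix.isUnit_iff_isUnit_det _).1 hG.isUnit)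
  set w := Z *ᵥ (Zᴴ *ᵥ v) with hw
  set u := (Gmat n t)⁻¹ *ᵥ w with hu
  have hGu : Gmat n t *ᵥ u = w := by
    rw [hu, Matrix.mulVec_mulVec, hGG, Matrix.one_mulVec]
  have hcs := PosSemidef.cs hG.posSemidef v u
  rw [hGu] at hcs
  have h1 : (star v ⬝ᵥ w).re = s := by
    rw [hs, ← qf_mul_conjTranspose_self, qf, hw, Matrix.mulVec_mulVec]
  have h2 : qf (Gmat n t) u = qf (Cmat Z n t) (Zᴴ *ᵥ v) := by
    rw [Cmat, qf_conj, ← hw, qf, hGu, qf, ← hu]
    have := IsHermitian.re_dot_symm (isHermitian_one (n := e) (α := ℂ)) u w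
    simpa using this.symm
  rw [h1, h2, qf_Gmat] at hcs
  have h3 : 0 ≤ qf n v := PosSemidef.qf_nonneg hn v
  have h4 : 0 ≤ nsq v := nsq_nonneg v
  set g := t * nsq v + qf n v with hg
  have hg0 : 0 ≤ g := by positivity
  have hgs : y * g < s := by
    have : g < y⁻¹ * s := by linarith
    calc y * g < y * (y⁻¹ * s) := mul_lt_mul_of_pos_left this hy
      _ = s := by field_simp
  have hs0 : 0 < s := lt_of_le_of_lt (by positivity) hgs
  set q := qf (Cmat Z n t) (Zᴴ *ᵥ v) with hq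
  -- s^2 ≤ g q, y g < s  ⟹  y s < q
  by_contra hcon
  have hcon' : q ≤ y * s := not_lt.1 hcon
  have : g * q ≤ g * (y * s) := mul_le_mul_of_nonneg_left hcon' hg0
  nlinarith

theorem cnt_Cmat_le_cnt_Kmat (Z : Matrix e r ℂ) {n : Matrix e e ℂ} (hn : n.PosSemidef) {t y : ℝ}
    (ht : 0 < t) (hy : 0 < y) :
    cnt (isHermitian_Cmat Z hn.isHermitian t) y ≤ cnt (isHermitian_Kmat Z hn.isHermitian y⁻¹) t := by
  apply cnt_le_cnt_of_map _ _ y t ((Gmat n t)⁻¹ * Z).mulVecLin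
  intro z hz
  simp only [Matrix.mulVecLin_apply]
  rw [qf_Kmat]
  have hG := posDef_Gmat hn ht
  have hGG : Gmat n t * (Gmat n t)⁻¹ = 1 := Matrix.mul_nonsing_inv _ ((Matrix.isUnit_iff_isUnit_det _).1 hG.isUnit)
  set v := ((Gmat n t)⁻¹ * Z) *ᵥ z with hv
  set q := qf (Cmat Z n t) z with hq
  have h1 : Zᴴ *ᵥ v = Cmat Z n t *ᵥ z := by
    rw [hv, Matrix.mulVec_mulVec, Cmat, Matrix.mul_assoc]
  have h2 : qf (Gmat n t) v = q := by
    have hGi : ((Gmat n t)⁻¹)ᴴ = (Gmat n t)⁻¹ := (isHermitian_Gmat hn.isHermitian t).inv.eq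
    have := qf_conj ((Gmat n t)⁻¹ * Z) (Gmat n t) z
    rw [← hv] at this
    rw [← this, hq, Cmat, Matrix.conjTranspose_mul, hGi]
    congr 1
    calc Zᴴ * (Gmat n t)⁻¹ * Gmat n t * ((Gmat n t)⁻¹ * Z)
        = Zᴴ * (Gmat n t)⁻¹ * (Gmat n t * (Gmat n t)⁻¹) * Z := by simp only [Matrix.mul_assoc]
      _ = Zᴴ * (Gmat n t)⁻¹ * Z := by rw [hGG, Matrix.mul_one]
  have hcs := PosSemidef.cs (PosSemidef.one (n := r) (R := ℂ)) z (Cmat Z n t *ᵥ z)
  rw [Matrix.one_mulVec, qf_one, qf_one] at hcs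
  have h3 : (star z ⬝ᵥ (Cmat Z n t *ᵥ z)).re = q := rfl
  rw [h3, ← h1] at hcs
  rw [qf_Gmat] at h2
  set s := nsq (Zᴴ *ᵥ v) with hs
  have hz0 : 0 ≤ nsq z := nsq_nonneg z
  have hq0 : 0 < q := lt_of_le_of_lt (by positivity) hz
  -- q^2 ≤ |z|^2 s, y |z|^2 < q ⟹ q < s / y
  have hqs : y * q < s := by
    by_contra hcon
    have hcon' : s ≤ y * q := not_lt.1 hcon
    have : nsq z * s ≤ nsq z * (y * q) := mul_le_mul_of_nonneg_left hcon' hz0
    nlinarith
  have : q < y⁻¹ * s := by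
    calc q = y⁻¹ * (y * q) := by field_simp
      _ < y⁻¹ * s := mul_lt_mul_of_pos_left hqs (inv_pos.2 hy)
  linarith

/-- **Sylvester type identity**. -/
theorem cnt_Cmat_eq_cnt_Kmat (Z : Matrix e r ℂ) {n : Matrix e e ℂ} (hn : n.PosSemidef) {t y : ℝ}
    (ht : 0 < t) (hy : 0 < y) :
    cnt (isHermitian_Cmat Z hn.isHermitian t) y = cnt (isHermitian_Kmat Z hn.isHermitian y⁻¹) t :=
  le_antisymm (cnt_Cmat_le_cnt_Kmat Z hn ht hy) (cnt_Kmat_le_cnt_Cmat Z hn ht hy)

theorem cnt_Kmat_le_cnt (Z : Matrix e r ℂ) {n : Matrix e e ℂ} (hn : n.PosSemidef) {t y : ℝ}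
    (hy : 0 < y) :
    cnt (isHermitian_Kmat Z hn.isHermitian y⁻¹) t ≤ cnt (isHermitian_mul_conjTranspose_self Z) (t * y) := by
  apply cnt_le_cnt_of_map _ _ t (t * y) LinearMap.id
  intro v hv
  rw [qf_Kmat] at hv
  simp only [LinearMap.id_coe, id_eq]
  rw [qf_mul_conjTranspose_self]
  have h3 : 0 ≤ qf n v := PosSemidef.qf_nonneg hn v
  have : t * nsq v < y⁻¹ * nsq (Zᴴ *ᵥ v) := by linarith
  calc t * y * nsq v = y * (t * nsq v) := by ring
    _ < y * (y⁻¹ * nsq (Zᴴ *ᵥ v)) := mul_lt_mul_of_pos_left this hy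
    _ = nsq (Zᴴ *ᵥ v) := by field_simp

/-! ### Sorted eigenvalues -/

theorem cnt_eq_card₀ {H : Matrix m m ℂ} (hH : H.IsHermitian) (t : ℝ) :
    cnt hH t = (Finset.univ.filter fun j : Fin (Fintype.card m) => t < hH.eigenvalues₀ j).card := by
  rw [cnt_eq_card, ← Fintype.card_subtype]
  exact Fintype.card_congr
    (Equiv.subtypeEquiv (Fintype.equivOfCardEq (Fintype.card_fin _)).symm (fun i => Iff.rfl))

theorem lt_eigenvalues₀_iff {H : Matrix m m ℂ} (hH : H.IsHermitian) (t : ℝ)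
    (k : Fin (Fintype.card m)) : t < hH.eigenvalues₀ k ↔ (k : ℕ) + 1 ≤ cnt hH t := by
  rw [cnt_eq_card₀]
  constructor
  · intro h
    have hsub : Finset.Iic k ⊆ Finset.univ.filter fun j : Fin (Fintype.card m) => t < hH.eigenvalues₀ j := by
      intro j hj
      simp only [Finset.mem_filter, Finset.mem_univ, true_and]
      exact lt_of_lt_of_le h (hH.eigenvalues₀_antitone (Finset.mem_Iic.1 hj))
    have := Finset.card_le_card hsub
    simpa using this
  · intro h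
    by_contra hcon
    have hsub : (Finset.univ.filter fun j : Fin (Fintype.card m) => t < hH.eigenvalues₀ j) ⊆ Finset.Iio k := by
      intro j hj
      simp only [Finset.mem_filter, Finset.mem_univ, true_and] at hj
      rw [Finset.mem_Iio]
      by_contra hjk
      exact hcon (lt_of_lt_of_le hj (hH.eigenvalues₀_antitone (not_lt.1 hjk)))
    have := Finset.card_le_card hsub
    simp at this
    omega

theorem eigenvalues₀_mono {H H' : Matrix m m ℂ} (hH : H.IsHermitian) (hH' : H'.IsHermitian)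
    (h : ∀ v, qf H v ≤ qf H' v) (k : Fin (Fintype.card m)) :
    hH.eigenvalues₀ k ≤ hH'.eigenvalues₀ k := by
  by_contra hcon
  have h1 := (lt_eigenvalues₀_iff hH _ k).1 (not_le.1 hcon)
  have h2 := cnt_mono hH hH' (hH'.eigenvalues₀ k) h
  exact lt_irrefl _ ((lt_eigenvalues₀_iff hH' _ k).2 (le_trans h1 h2))

theorem monotone_eigenvalues_Kmat (Z : Matrix e r ℂ) {n : Matrix e e ℂ} (hn : n.IsHermitian) (k : e) :
    Monotone fun z : ℝ => (isHermitian_Kmat Z hn z).eigenvalues k := by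
  intro z z' hzz
  apply eigenvalues₀_mono
  intro v
  rw [qf_Kmat, qf_Kmat]
  have := nsq_nonneg (Zᴴ *ᵥ v)
  nlinarith

theorem measurable_eigenvalues_Kmat (Z : Matrix e r ℂ) {n : Matrix e e ℂ} (hn : n.IsHermitian) (k : e) :
    Measurable fun z : ℝ => (isHermitian_Kmat Z hn z).eigenvalues k :=
  (monotone_eigenvalues_Kmat Z hn k).measurable

theorem sum_eigenvalues_Kmat (Z : Matrix e r ℂ) {n : Matrix e e ℂ} (hn : n.IsHermitian) (z : ℝ) :
    ∑ k, (isHermitian_Kmat Z hn z).eigenvalues k = z * (Z * Zᴴ).trace.re - n.trace.re := by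
  rw [← trace_re_eq_sum, Kmat, Matrix.trace_sub, Matrix.trace_smul]
  simp

end Crest.Agent.GA
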