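import Mathlib

set_option autoImplicit false
set_option linter.unusedSectionVars false

namespace Crest.Agent.GA

open Matrix
open scoped ComplexOrder

variable {m : Type*} [Fintype m] [DecidableEq m]

/-- trace of `N * Oᴴ` entrywise. -/
lemma trace_mul_conjTranspose_eq (N O : Matrix m m ℂ) :
    (N * Oᴴ).trace = ∑ j, ∑ l, N j l * star (O j l) := by
  simp [Matrix.trace, Matrix.mul_apply, Matrix.conjTranspose_apply]

lemma trace_diag_mul_mul_conjTranspose (a : m → ℂ) (N : Matrix m m ℂ) :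
    (diagonal a * N * Nᴴ).trace = ∑ j, ∑ l, a j * (N j l * star (N j l)) := by
  rw [trace_mul_conjTranspose_eq]
  refine Finset.sum_congr rfl fun j _ => Finset.sum_congr rfl fun l _ => ?_
  rw [Matrix.diagonal_mul]; ring

lemma trace_mul_diag_mul_conjTranspose (b : m → ℂ) (N : Matrix m m ℂ) :
    (N * diagonal b * Nᴴ).trace = ∑ j, ∑ l, b l * (N j l * star (N j l)) := by
  rw [trace_mul_conjTranspose_eq]
  refine Finset.sum_congr rfl fun j _ => Finset.sum_congr rfl fun l _ => ?_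
  rw [Matrix.mul_diagonal]; ring

/-- The algebraic heart: with `M = W R Wᴴ`, `N = Uᴴ M V`. -/
lemma weighted_sum_eq (U V W : Matrix m m ℂ) (hU : U * Uᴴ = 1) (hV : V * Vᴴ = 1)
    (hW : Wᴴ * W = 1)
    (α β ξ r : m → ℝ) (θ : ℝ)
    (hsum : U * diagonal (fun j => (α j : ℂ)) * Uᴴ + V * diagonal (fun l => (β l : ℂ)) * Vᴴ
      = W * diagonal (fun i => (ξ i : ℂ)) * Wᴴ)
    (hr : ∀ i, r i * (1 + θ * ξ i) = 1) :
    ∑ j, ∑ l, ((1 + θ * (α j + β l) : ℝ) : ℂ) *
      ((Uᴴ * (W * diagonal (fun i => (r i : ℂ)) * Wᴴ) * V) j l *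
        star ((Uᴴ * (W * diagonal (fun i => (r i : ℂ)) * Wᴴ) * V) j l)) = ∑ i, (r i : ℂ) := by
  set R : Matrix m m ℂ := diagonal (fun i => (r i : ℂ)) with hR
  set M : Matrix m m ℂ := W * R * Wᴴ with hM
  set N : Matrix m m ℂ := Uᴴ * M * V with hN
  set dA : Matrix m m ℂ := diagonal (fun j => (α j : ℂ)) with hdA
  set dB : Matrix m m ℂ := diagonal (fun l => (β l : ℂ)) with hdB
  set dX : Matrix m m ℂ := diagonal (fun i => (ξ i : ℂ)) with hdX
  have hRH : Rᴴ = R := by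
    rw [hR, Matrix.diagonal_conjTranspose]; congr 1; ext i; simp
  have hMH : Mᴴ = M := by
    rw [hM, Matrix.conjTranspose_mul, Matrix.conjTranspose_mul, Matrix.conjTranspose_conjTranspose,
      hRH, Matrix.mul_assoc]
  have hNH : Nᴴ = Vᴴ * M * U := by
    rw [hN, Matrix.conjTranspose_mul, Matrix.conjTranspose_mul, Matrix.conjTranspose_conjTranspose,
      hMH, ← Matrix.mul_assoc]
  -- three traces
  have t1 : (N * Nᴴ).trace = (M * M).trace := by
    rw [hNH, hN]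
    calc (Uᴴ * M * V * (Vᴴ * M * U)).trace = (Uᴴ * (M * (V * Vᴴ) * M * U)).trace := by
          simp only [Matrix.mul_assoc]
      _ = ((M * (V * Vᴴ) * M * U) * Uᴴ).trace := Matrix.trace_mul_comm _ _
      _ = (M * M * (U * Uᴴ)).trace := by rw [hV]; simp only [Matrix.mul_assoc, Matrix.mul_one]
      _ = (M * M).trace := by rw [hU, Matrix.mul_one]
  have t2 : (dA * N * Nᴴ).trace = (M * (U * dA * Uᴴ) * M).trace := by
    rw [hNH, hN]
    calc (dA * (Uᴴ * M * V) * (Vᴴ * M * U)).trace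
        = ((dA * Uᴴ * M * (V * Vᴴ) * M) * U).trace := by simp only [Matrix.mul_assoc]
      _ = (U * (dA * Uᴴ * M * (V * Vᴴ) * M)).trace := Matrix.trace_mul_comm _ _
      _ = ((U * dA * Uᴴ * M) * M).trace := by rw [hV]; simp only [Matrix.mul_assoc, Matrix.mul_one]
      _ = (M * (U * dA * Uᴴ * M)).trace := Matrix.trace_mul_comm _ _
      _ = (M * (U * dA * Uᴴ) * M).trace := by simp only [Matrix.mul_assoc]
  have t3 : (N * dB * Nᴴ).trace = (M * (V * dB * Vᴴ) * M).trace := by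
    rw [hNH, hN]
    calc (Uᴴ * M * V * dB * (Vᴴ * M * U)).trace
        = (Uᴴ * (M * (V * dB * Vᴴ) * M * U)).trace := by simp only [Matrix.mul_assoc]
      _ = ((M * (V * dB * Vᴴ) * M * U) * Uᴴ).trace := Matrix.trace_mul_comm _ _
      _ = (M * (V * dB * Vᴴ) * M * (U * Uᴴ)).trace := by simp only [Matrix.mul_assoc]
      _ = (M * (V * dB * Vᴴ) * M).trace := by rw [hU, Matrix.mul_one]
  -- M (1 + θ (A+B)) M = M
  have hRR : R * R + (θ : ℂ) • (R * dX * R) = R := by
    rw [hR, hdX, Matrix.diagonal_mul_diagonal, Matrix.diagonal_mul_diagonal,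
      Matrix.diagonal_mul_diagonal, ← Matrix.diagonal_smul, Matrix.diagonal_add]
    congr 1; ext i
    have := hr i
    have h2 : ((r i * (1 + θ * ξ i) : ℝ) : ℂ) = 1 := by rw [this]; simp
    push_cast at h2
    simp only [Pi.smul_apply, smul_eq_mul]
    linear_combination (r i : ℂ) * h2
  have hMM : M * M + (θ : ℂ) • (M * (W * dX * Wᴴ) * M) = M := by
    have e1 : M * M = W * (R * R) * Wᴴ := by
      rw [hM]
      calc W * R * Wᴴ * (W * R * Wᴴ) = W * R * (Wᴴ * W) * R * Wᴴ := by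
            simp only [Matrix.mul_assoc]
        _ = W * (R * R) * Wᴴ := by rw [hW]; simp only [Matrix.mul_assoc, Matrix.mul_one]
    have e2 : M * (W * dX * Wᴴ) * M = W * (R * dX * R) * Wᴴ := by
      rw [hM]
      calc W * R * Wᴴ * (W * dX * Wᴴ) * (W * R * Wᴴ)
          = W * R * (Wᴴ * W) * dX * (Wᴴ * W) * R * Wᴴ := by simp only [Matrix.mul_assoc]
        _ = W * (R * dX * R) * Wᴴ := by rw [hW]; simp only [Matrix.mul_assoc, Matrix.mul_one]
    have e3 : (θ : ℂ) • (W * (R * dX * R) * Wᴴ) = W * ((θ : ℂ) • (R * dX * R)) * Wᴴ := by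
      rw [Matrix.mul_smul, Matrix.smul_mul]
    rw [e1, e2, e3, ← Matrix.add_mul, ← Matrix.mul_add, hRR]
  have htrM : M.trace = ∑ i, (r i : ℂ) := by
    rw [hM, Matrix.trace_mul_comm, ← Matrix.mul_assoc, hW, Matrix.one_mul, hR,
      Matrix.trace_diagonal]
  -- assemble
  have hsplit : ∑ j, ∑ l, ((1 + θ * (α j + β l) : ℝ) : ℂ) * (N j l * star (N j l))
      = (N * Nᴴ).trace + (θ : ℂ) * (dA * N * Nᴴ).trace + (θ : ℂ) * (N * dB * Nᴴ).trace := by
    rw [trace_mul_conjTranspose_eq, hdA, hdB, trace_diag_mul_mul_conjTranspose,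
      trace_mul_diag_mul_conjTranspose, Finset.mul_sum, Finset.mul_sum, ← Finset.sum_add_distrib,
      ← Finset.sum_add_distrib]
    refine Finset.sum_congr rfl fun j _ => ?_
    rw [Finset.mul_sum, Finset.mul_sum, ← Finset.sum_add_distrib, ← Finset.sum_add_distrib]
    refine Finset.sum_congr rfl fun l _ => ?_
    push_cast; ring
  rw [hsplit, t1, t2, t3, ← htrM]
  conv_rhs => rw [← hMM]
  rw [← hsum, Matrix.trace_add, Matrix.trace_smul, Matrix.mul_add, Matrix.add_mul,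
    Matrix.trace_add, smul_eq_mul]
  ring

/-- The resolvent bound `Tr (1 + θ(A+B))⁻¹ ≤ ∑ p_jl / (1 + θ(α_j+β_l))` in eigen-data form. -/
lemma resolvent_bound (U V W : Matrix m m ℂ) (hU : U * Uᴴ = 1) (hV : V * Vᴴ = 1)
    (hW : Wᴴ * W = 1)
    (α β ξ : m → ℝ) (θ : ℝ) (hα : ∀ j, 0 ≤ α j) (hβ : ∀ l, 0 ≤ β l) (hξ : ∀ i, 0 ≤ ξ i)
    (hθ : 0 ≤ θ)
    (hsum : U * diagonal (fun j => (α j : ℂ)) * Uᴴ + V * diagonal (fun l => (β l : ℂ)) * Vᴴ
      = W * diagonal (fun i => (ξ i : ℂ)) * Wᴴ) :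
    ∑ i, 1 / (1 + θ * ξ i) ≤ ∑ j, ∑ l, ‖(Uᴴ * V) j l‖ ^ 2 / (1 + θ * (α j + β l)) := by
  set r : m → ℝ := fun i => 1 / (1 + θ * ξ i) with hr
  have hpos : ∀ i, 0 < 1 + θ * ξ i := fun i => by have := mul_nonneg hθ (hξ i); linarith
  have hr1 : ∀ i, r i * (1 + θ * ξ i) = 1 := fun i => by
    simp only [hr]; field_simp [(hpos i).ne']
  have hr0 : ∀ i, 0 < r i := fun i => by simp only [hr]; exact one_div_pos.mpr (hpos i)
  have key := weighted_sum_eq U V W hU hV hW α β ξ r θ hsum hr1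
  set M : Matrix m m ℂ := W * diagonal (fun i => (r i : ℂ)) * Wᴴ with hM
  set N : Matrix m m ℂ := Uᴴ * M * V with hN
  set O : Matrix m m ℂ := Uᴴ * V with hO
  set d : m → m → ℝ := fun j l => 1 + θ * (α j + β l) with hd
  have hdpos : ∀ j l, 0 < d j l := fun j l => by
    have := mul_nonneg hθ (add_nonneg (hα j) (hβ l)); simp only [hd]; linarith
  set τ : ℝ := ∑ i, r i with hτ
  have hτ0 : 0 ≤ τ := Finset.sum_nonneg fun i _ => (hr0 i).le
  -- weighted sum in real form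
  have key' : ∑ j, ∑ l, d j l * ‖N j l‖ ^ 2 = τ := by
    have : ((∑ j, ∑ l, d j l * ‖N j l‖ ^ 2 : ℝ) : ℂ) = (τ : ℂ) := by
      rw [hτ]; push_cast; rw [← key]
      refine Finset.sum_congr rfl fun j _ => Finset.sum_congr rfl fun l _ => ?_
      rw [Complex.star_def, Complex.mul_conj, Complex.normSq_eq_norm_sq]
      simp only [hd]; push_cast; ring
    exact_mod_cast this
  -- pairing
  have htr : (τ : ℂ) = ∑ j, ∑ l, N j l * star (O j l) := by
    rw [← trace_mul_conjTranspose_eq, hN, hO, Matrix.conjTranspose_mul,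
      Matrix.conjTranspose_conjTranspose]
    calc (τ : ℂ) = M.trace := by
          rw [hM, Matrix.trace_mul_comm, ← Matrix.mul_assoc, hW, Matrix.one_mul,
            Matrix.trace_diagonal, hτ]; push_cast; rfl
      _ = (M * (U * Uᴴ)).trace := by rw [hU, Matrix.mul_one]
      _ = ((M * U) * Uᴴ).trace := congrArg Matrix.trace (Matrix.mul_assoc M U Uᴴ).symm
      _ = (Uᴴ * (M * U)).trace := Matrix.trace_mul_comm _ _
      _ = (Uᴴ * (M * (V * Vᴴ) * U)).trace := by rw [hV, Matrix.mul_one]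
      _ = (Uᴴ * M * V * (Vᴴ * U)).trace := by simp only [Matrix.mul_assoc]
  have hle : τ ≤ ∑ j, ∑ l, ‖N j l‖ * ‖O j l‖ := by
    have h1 : τ = ‖(τ : ℂ)‖ := by rw [Complex.norm_real, Real.norm_eq_abs, abs_of_nonneg hτ0]
    rw [h1, htr]
    refine (norm_sum_le _ _).trans (Finset.sum_le_sum fun j _ => ?_)
    refine (norm_sum_le _ _).trans (Finset.sum_le_sum fun l _ => ?_)
    rw [norm_mul, norm_star]
  set S : ℝ := ∑ j, ∑ l, ‖O j l‖ ^ 2 / d j l with hS
  have hS0 : 0 ≤ S := Finset.sum_nonneg fun j _ => Finset.sum_nonneg fun l _ =>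
    div_nonneg (sq_nonneg _) (hdpos j l).le
  -- Cauchy-Schwarz on `m × m`
  have hCS : (∑ j, ∑ l, ‖N j l‖ * ‖O j l‖) ^ 2 ≤ τ * S := by
    have := Finset.sum_mul_sq_le_sq_mul_sq (Finset.univ : Finset (m × m))
      (fun p => ‖N p.1 p.2‖ * Real.sqrt (d p.1 p.2)) (fun p => ‖O p.1 p.2‖ / Real.sqrt (d p.1 p.2))
    rw [Fintype.sum_prod_type, Fintype.sum_prod_type, Fintype.sum_prod_type] at this
    have e1 : ∀ j l, ‖N j l‖ * Real.sqrt (d j l) * (‖O j l‖ / Real.sqrt (d j l))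
        = ‖N j l‖ * ‖O j l‖ := fun j l => by
      have := (Real.sqrt_pos.mpr (hdpos j l)).ne'
      field_simp
    have e2 : ∀ j l, (‖N j l‖ * Real.sqrt (d j l)) ^ 2 = d j l * ‖N j l‖ ^ 2 := fun j l => by
      rw [mul_pow, Real.sq_sqrt (hdpos j l).le]; ring
    have e3 : ∀ j l, (‖O j l‖ / Real.sqrt (d j l)) ^ 2 = ‖O j l‖ ^ 2 / d j l := fun j l => by
      rw [div_pow, Real.sq_sqrt (hdpos j l).le]
    simp only [e1, e2, e3] at this
    rw [key'] at this
    exact this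
  have hfin : τ ^ 2 ≤ τ * S := by
    refine le_trans ?_ hCS
    exact pow_le_pow_left₀ hτ0 hle 2
  rcases hτ0.eq_or_lt with h0 | h0
  · rw [← h0]; exact hS0
  · have : τ * τ ≤ τ * S := by rw [← sq]; exact hfin
    exact le_of_mul_le_mul_left this h0

/-- Scalar monotonicity argument: a resolvent comparison at every `θ > 0` integrates to a
comparison of `log (1 + ·)` sums. -/
lemma log_sum_le {ι κ : Type*} [Fintype ι] [Fintype κ] (ξ : ι → ℝ) (p c : κ → ℝ)
    (hξ : ∀ i, 0 ≤ ξ i) (hc : ∀ k, 0 ≤ c k) (hmass : ∑ k, p k = Fintype.card ι)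
    (hres : ∀ θ : ℝ, 0 < θ → ∑ i, 1 / (1 + θ * ξ i) ≤ ∑ k, p k / (1 + θ * c k)) :
    ∑ k, p k * Real.log (1 + c k) ≤ ∑ i, Real.log (1 + ξ i) := by
  set D : ℝ → ℝ := fun θ => ∑ i, Real.log (1 + θ * ξ i) - ∑ k, p k * Real.log (1 + θ * c k)
    with hD
  have hposξ : ∀ θ : ℝ, 0 ≤ θ → ∀ i, 0 < 1 + θ * ξ i := fun θ hθ i => by
    have := mul_nonneg hθ (hξ i); linarith
  have hposc : ∀ θ : ℝ, 0 ≤ θ → ∀ k, 0 < 1 + θ * c k := fun θ hθ k => by
    have := mul_nonneg hθ (hc k); linarith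
  have hder : ∀ θ : ℝ, 0 ≤ θ → HasDerivAt D
      (∑ i, ξ i / (1 + θ * ξ i) - ∑ k, p k * (c k / (1 + θ * c k))) θ := by
    intro θ hθ
    refine HasDerivAt.sub ?_ ?_
    · refine HasDerivAt.fun_sum fun i _ => ?_
      have h1 : HasDerivAt (fun θ : ℝ => 1 + θ * ξ i) (ξ i) θ := by
        simpa using ((hasDerivAt_id θ).mul_const (ξ i)).const_add 1
      exact h1.log (hposξ θ hθ i).ne'
    · refine HasDerivAt.fun_sum fun k _ => ?_
      have h1 : HasDerivAt (fun θ : ℝ => 1 + θ * c k) (c k) θ := by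
        simpa using ((hasDerivAt_id θ).mul_const (c k)).const_add 1
      exact (h1.log (hposc θ hθ k).ne').const_mul (p k)
  have hmono : MonotoneOn D (Set.Icc 0 1) := by
    refine monotoneOn_of_deriv_nonneg (convex_Icc 0 1) ?_ ?_ ?_
    · intro θ hθ
      exact (hder θ hθ.1).continuousAt.continuousWithinAt
    · intro θ hθ
      rw [interior_Icc] at hθ
      exact (hder θ hθ.1.le).differentiableAt.differentiableWithinAt
    · intro θ hθ
      rw [interior_Icc] at hθ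
      rw [(hder θ hθ.1.le).deriv]
      have hθ0 : 0 < θ := hθ.1
      have e1 : ∀ i, ξ i / (1 + θ * ξ i) = (1 - 1 / (1 + θ * ξ i)) / θ := fun i => by
        have h1 := (hposξ θ hθ0.le i).ne'
        have h2 := hθ0.ne'
        rw [eq_div_iff h2, div_mul_eq_mul_div, div_eq_iff h1, sub_mul, one_div,
          inv_mul_cancel₀ h1]
        ring
      have e2 : ∀ k, p k * (c k / (1 + θ * c k)) = (p k - p k / (1 + θ * c k)) / θ := fun k => by
        have h1 := (hposc θ hθ0.le k).ne'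
        have h2 := hθ0.ne'
        rw [eq_div_iff h2, ← mul_div_assoc, div_mul_eq_mul_div, div_eq_iff h1, sub_mul,
          div_mul_cancel₀ _ h1]
        ring
      simp only [e1, e2]
      rw [← Finset.sum_div, ← Finset.sum_div, ← sub_div, Finset.sum_sub_distrib,
        Finset.sum_sub_distrib, hmass]
      refine div_nonneg ?_ hθ0.le
      have := hres θ hθ0
      simp only [Finset.sum_const, Finset.card_univ, nsmul_eq_mul, mul_one]
      linarith
  have h01 := hmono (Set.left_mem_Icc.mpr zero_le_one) (Set.right_mem_Icc.mpr zero_le_one)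
    zero_le_one
  simp only [hD, zero_mul, add_zero, Real.log_one, mul_zero, Finset.sum_const_zero, sub_zero,
    one_mul] at h01
  linarith

/-- rows of `‖(Uᴴ V) j l‖²` sum to one. -/
lemma sum_normSq_row (U V : Matrix m m ℂ) (hU : U * Uᴴ = 1) (hV : V * Vᴴ = 1) (j : m) :
    ∑ l, ‖(Uᴴ * V) j l‖ ^ 2 = 1 := by
  have hU' : Uᴴ * U = 1 := mul_eq_one_comm.mp hU
  have h : ((Uᴴ * V) * (Uᴴ * V)ᴴ) j j = 1 := by
    have : (Uᴴ * V) * (Uᴴ * V)ᴴ = 1 := by
      rw [Matrix.conjTranspose_mul, Matrix.conjTranspose_conjTranspose]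
      calc Uᴴ * V * (Vᴴ * U) = Uᴴ * (V * Vᴴ) * U := by simp only [Matrix.mul_assoc]
        _ = 1 := by rw [hV, Matrix.mul_one, hU']
    rw [this]; simp
  have h2 : ((∑ l, ‖(Uᴴ * V) j l‖ ^ 2 : ℝ) : ℂ) = 1 := by
    rw [← h, Matrix.mul_apply]; push_cast
    refine Finset.sum_congr rfl fun l _ => ?_
    rw [Matrix.conjTranspose_apply, Complex.star_def, Complex.mul_conj, Complex.normSq_eq_norm_sq]
    push_cast; rfl
  exact_mod_cast h2

/-- columns of `‖(Uᴴ V) j l‖²` sum to one. -/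
lemma sum_normSq_col (U V : Matrix m m ℂ) (hU : U * Uᴴ = 1) (hV : V * Vᴴ = 1) (l : m) :
    ∑ j, ‖(Uᴴ * V) j l‖ ^ 2 = 1 := by
  have h := sum_normSq_row V U hV hU l
  rw [← h]
  refine Finset.sum_congr rfl fun j _ => ?_
  have : (Vᴴ * U) l j = star ((Uᴴ * V) j l) := by
    rw [← Matrix.conjTranspose_apply, Matrix.conjTranspose_mul, Matrix.conjTranspose_conjTranspose]
  rw [this, norm_star]

/-- Eigen-data form of the decoupling inequality. -/
lemma logdet_decouple_aux (U V W : Matrix m m ℂ) (hU : U * Uᴴ = 1) (hV : V * Vᴴ = 1)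
    (hW : Wᴴ * W = 1)
    (α β ξ : m → ℝ) (hα : ∀ j, 0 ≤ α j) (hβ : ∀ l, 0 ≤ β l) (hξ : ∀ i, 0 ≤ ξ i)
    (hsum : U * diagonal (fun j => (α j : ℂ)) * Uᴴ + V * diagonal (fun l => (β l : ℂ)) * Vᴴ
      = W * diagonal (fun i => (ξ i : ℂ)) * Wᴴ)
    (f g : ℝ → ℝ) (hfg : ∀ x y, 0 ≤ x → 0 ≤ y → f x + g y ≤ Real.log (1 + x + y)) :
    ∑ j, f (α j) + ∑ l, g (β l) ≤ ∑ i, Real.log (1 + ξ i) := by
  set p : m × m → ℝ := fun q => ‖(Uᴴ * V) q.1 q.2‖ ^ 2 with hp
  have hp0 : ∀ q, 0 ≤ p q := fun q => sq_nonneg _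
  have hmain : ∑ q : m × m, p q * Real.log (1 + (α q.1 + β q.2)) ≤ ∑ i, Real.log (1 + ξ i) := by
    refine log_sum_le ξ p (fun q => α q.1 + β q.2) hξ (fun q => add_nonneg (hα _) (hβ _)) ?_ ?_
    · rw [Fintype.sum_prod_type]
      simp only [hp, sum_normSq_row U V hU hV]
      simp
    · intro θ hθ
      have := resolvent_bound U V W hU hV hW α β ξ θ hα hβ hξ hθ.le hsum
      rw [Fintype.sum_prod_type]
      exact this
  refine le_trans ?_ hmain
  have e1 : ∑ j, f (α j) = ∑ q : m × m, p q * f (α q.1) := by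
    rw [Fintype.sum_prod_type]
    refine Finset.sum_congr rfl fun j _ => ?_
    show f (α j) = ∑ y, p (j, y) * f (α j)
    rw [← Finset.sum_mul]
    simp only [hp, sum_normSq_row U V hU hV, one_mul]
  have e2 : ∑ l, g (β l) = ∑ q : m × m, p q * g (β q.2) := by
    rw [Fintype.sum_prod_type_right]
    refine Finset.sum_congr rfl fun l _ => ?_
    show g (β l) = ∑ x, p (x, l) * g (β l)
    rw [← Finset.sum_mul]
    simp only [hp, sum_normSq_col U V hU hV, one_mul]
  rw [e1, e2, ← Finset.sum_add_distrib]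
  refine Finset.sum_le_sum fun q _ => ?_
  rw [← mul_add]
  refine mul_le_mul_of_nonneg_left ?_ (hp0 q)
  have := hfg (α q.1) (β q.2) (hα _) (hβ _)
  rwa [add_assoc] at this

lemma spectral_form (A : Matrix m m ℂ) (hA : A.IsHermitian) :
    A = (hA.eigenvectorUnitary : Matrix m m ℂ) * diagonal (fun j => ((hA.eigenvalues j : ℝ) : ℂ)) *
      (hA.eigenvectorUnitary : Matrix m m ℂ)ᴴ := by
  conv_lhs => rw [hA.spectral_theorem, Unitary.conjStarAlgAut_apply]
  rfl

lemma eigenvectorUnitary_mul_conjTranspose (A : Matrix m m ℂ) (hA : A.IsHermitian) :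
    (hA.eigenvectorUnitary : Matrix m m ℂ) * (hA.eigenvectorUnitary : Matrix m m ℂ)ᴴ = 1 := by
  have := Unitary.coe_mul_star_self hA.eigenvectorUnitary
  exact this

/-- **Decoupling inequality for `log det (1 + A + B)`.**  If `f x + g y ≤ log (1 + x + y)` on the
nonnegative quadrant then `Tr f(A) + Tr g(B) ≤ Tr log (1 + A + B)`. -/
theorem logdet_decouple (A B : Matrix m m ℂ) (hA : A.PosSemidef) (hB : B.PosSemidef)
    (f g : ℝ → ℝ) (hfg : ∀ x y, 0 ≤ x → 0 ≤ y → f x + g y ≤ Real.log (1 + x + y)) :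
    ∑ j, f (hA.isHermitian.eigenvalues j) + ∑ l, g (hB.isHermitian.eigenvalues l)
      ≤ ∑ i, Real.log (1 + (hA.add hB).isHermitian.eigenvalues i) := by
  refine logdet_decouple_aux _ _ _
    (eigenvectorUnitary_mul_conjTranspose A hA.isHermitian)
    (eigenvectorUnitary_mul_conjTranspose B hB.isHermitian)
    (mul_eq_one_comm.mp (eigenvectorUnitary_mul_conjTranspose (A + B)
      (hA.add hB).isHermitian))
    _ _ _ hA.eigenvalues_nonneg hB.eigenvalues_nonneg (hA.add hB).eigenvalues_nonneg ?_ f g hfg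
  rw [← spectral_form A hA.isHermitian, ← spectral_form B hB.isHermitian,
    ← spectral_form (A + B) (hA.add hB).isHermitian]

/-- `det (t + C) = ∏ (t + λ_i(C))`. -/
lemma det_smul_one_add (C : Matrix m m ℂ) (hC : C.IsHermitian) (t : ℝ) :
    ((t : ℂ) • (1 : Matrix m m ℂ) + C).det = ((∏ i, (t + hC.eigenvalues i) : ℝ) : ℂ) := by
  set W : Matrix m m ℂ := (hC.eigenvectorUnitary : Matrix m m ℂ) with hW
  have h1 : W * Wᴴ = 1 := eigenvectorUnitary_mul_conjTranspose C hC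
  have h2 : Wᴴ * W = 1 := mul_eq_one_comm.mp h1
  have h3 : (t : ℂ) • (1 : Matrix m m ℂ) + C
      = W * diagonal (fun i => ((t + hC.eigenvalues i : ℝ) : ℂ)) * Wᴴ := by
    have e : diagonal (fun i => ((t + hC.eigenvalues i : ℝ) : ℂ))
        = (t : ℂ) • (1 : Matrix m m ℂ) + diagonal (fun i => ((hC.eigenvalues i : ℝ) : ℂ)) := by
      ext i j
      by_cases hij : i = j
      · subst hij; simp
      · simp [hij]
    rw [e, Matrix.mul_add, Matrix.add_mul, ← spectral_form C hC, Matrix.mul_smul, Matrix.mul_one,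
      Matrix.smul_mul, h1]
  rw [h3, Matrix.det_mul_comm, ← Matrix.mul_assoc, h2, Matrix.one_mul, Matrix.det_diagonal]
  push_cast; rfl

/-- `∑ log (t + λ_i(C)) = log det (t + C)` for psd `C`, `t > 0`. -/
lemma sum_log_add_eigenvalues (C : Matrix m m ℂ) (hC : C.PosSemidef) (t : ℝ) (ht : 0 < t) :
    ∑ i, Real.log (t + hC.isHermitian.eigenvalues i)
      = Real.log (((t : ℂ) • (1 : Matrix m m ℂ) + C).det).re := by
  rw [det_smul_one_add C hC.isHermitian t, Complex.ofReal_re, Real.log_prod]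
  intro i _
  have := hC.eigenvalues_nonneg i
  linarith

/-- Determinant form of `logdet_decouple`. -/
theorem logdet_decouple_det (A B : Matrix m m ℂ) (hA : A.PosSemidef) (hB : B.PosSemidef)
    (f g : ℝ → ℝ) (hfg : ∀ x y, 0 ≤ x → 0 ≤ y → f x + g y ≤ Real.log (1 + x + y)) :
    ∑ j, f (hA.isHermitian.eigenvalues j) + ∑ l, g (hB.isHermitian.eigenvalues l)
      ≤ Real.log ((1 + A + B).det).re := by
  have h := logdet_decouple A B hA hB f g hfg
  have h2 := sum_log_add_eigenvalues (A + B) (hA.add hB) 1 one_pos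
  rw [h2] at h
  simpa [add_assoc] using h

end Crest.Agent.GA
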