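import Mathlib
import Crest.Agent.GA_Spec
import Crest.Agent.GA_LogDet

/-!
# Row 341 infrastructure: the determinant identity (block (II))

For `W : Matrix d r ℂ`, `N` psd and `t > 0`:
`det (t + N + W Wᴴ) = det (t + N) * det (1 + Wᴴ (t + N)⁻¹ W)`, its block form on `Bool × e`,
and the eigenvalue/logarithm form in terms of `Lsum M t = ∑ i, log (1 + λ_i(M) / t)`.
-/

set_option autoImplicit false
set_option linter.unusedSectionVars false

namespace Crest.Agent.GA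

open Matrix Crest.Quantum
open scoped ComplexOrder

variable {d r e : Type*} [Fintype d] [Fintype r] [Fintype e]
  [DecidableEq d] [DecidableEq r] [DecidableEq e]

/-- The shifted matrix `t + N`. -/
noncomputable def shift (t : ℝ) (N : Matrix d d ℂ) : Matrix d d ℂ :=
  (t : ℂ) • (1 : Matrix d d ℂ) + N

lemma shift_def (t : ℝ) (N : Matrix d d ℂ) : shift t N = (t : ℂ) • (1 : Matrix d d ℂ) + N := rfl

lemma shift_add (t : ℝ) (N M : Matrix d d ℂ) : shift t (N + M) = shift t N + M := by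
  simp [shift, add_assoc]

lemma shift_posDef {N : Matrix d d ℂ} (hN : N.PosSemidef) {t : ℝ} (ht : 0 < t) :
    (shift t N).PosDef := by
  refine PosDef.add_posSemidef ?_ hN
  have h : (0 : ℂ) < (t : ℂ) := by exact_mod_cast ht
  exact PosDef.one.smul h

lemma shift_isUnit {N : Matrix d d ℂ} (hN : N.PosSemidef) {t : ℝ} (ht : 0 < t) :
    IsUnit (shift t N) := (shift_posDef hN ht).isUnit

lemma shift_isUnit_det {N : Matrix d d ℂ} (hN : N.PosSemidef) {t : ℝ} (ht : 0 < t) :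
    IsUnit (shift t N).det := (Matrix.isUnit_iff_isUnit_det _).1 (shift_isUnit hN ht)

lemma shift_mul_inv {N : Matrix d d ℂ} (hN : N.PosSemidef) {t : ℝ} (ht : 0 < t) :
    shift t N * (shift t N)⁻¹ = 1 := Matrix.mul_nonsing_inv _ (shift_isUnit_det hN ht)

lemma shift_inv_mul {N : Matrix d d ℂ} (hN : N.PosSemidef) {t : ℝ} (ht : 0 < t) :
    (shift t N)⁻¹ * shift t N = 1 := Matrix.nonsing_inv_mul _ (shift_isUnit_det hN ht)

lemma shift_inv_posDef {N : Matrix d d ℂ} (hN : N.PosSemidef) {t : ℝ} (ht : 0 < t) :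
    (shift t N)⁻¹.PosDef := (shift_posDef hN ht).inv

/-- `Wᴴ (t + N)⁻¹ W`. -/
noncomputable def resv (t : ℝ) (N : Matrix d d ℂ) (W : Matrix d r ℂ) : Matrix r r ℂ :=
  Wᴴ * (shift t N)⁻¹ * W

lemma resv_posSemidef {N : Matrix d d ℂ} (hN : N.PosSemidef) {t : ℝ} (ht : 0 < t)
    (W : Matrix d r ℂ) : (resv t N W).PosSemidef :=
  (shift_inv_posDef hN ht).posSemidef.conjTranspose_mul_mul_same W

/-- **(D1)** the matrix determinant lemma. -/
theorem det_shift_add_mul {N : Matrix d d ℂ} (hN : N.PosSemidef) {t : ℝ} (ht : 0 < t)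
    (W : Matrix d r ℂ) :
    (shift t (N + W * Wᴴ)).det = (shift t N).det * (1 + resv t N W).det := by
  have h1 : shift t (N + W * Wᴴ) = shift t N * (1 + ((shift t N)⁻¹ * W) * Wᴴ) := by
    rw [shift_add, Matrix.mul_add, Matrix.mul_one, ← Matrix.mul_assoc, ← Matrix.mul_assoc,
      shift_mul_inv hN ht, Matrix.one_mul]
  rw [h1, Matrix.det_mul, Matrix.det_one_add_mul_comm, resv, Matrix.mul_assoc]

/-! ### `Lsum` -/

/-- `Lsum M t = ∑ i, log (1 + λ_i(M) / t)`. -/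
noncomputable def Lsum (M : Matrix d d ℂ) (t : ℝ) : ℝ :=
  specSum (fun x => Real.log (1 + x / t)) M

lemma Lsum_eq_sum {M : Matrix d d ℂ} (hM : M.IsHermitian) (t : ℝ) :
    Lsum M t = ∑ i, Real.log (1 + hM.eigenvalues i / t) := specSum_eq_sum _ hM

/-- the real number `∏ (t + λ_i)`. -/
lemma det_shift_eq {M : Matrix d d ℂ} (hM : M.IsHermitian) (t : ℝ) :
    (shift t M).det = ((∏ i, (t + hM.eigenvalues i) : ℝ) : ℂ) := det_smul_one_add M hM t

lemma Lsum_eq_log_prod {M : Matrix d d ℂ} (hM : M.PosSemidef) {t : ℝ} (ht : 0 < t) :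
    Lsum M t = Real.log (∏ i, (t + hM.isHermitian.eigenvalues i))
      - Fintype.card d * Real.log t := by
  rw [Lsum_eq_sum hM.isHermitian, Real.log_prod]
  · have : ∀ i, Real.log (1 + hM.isHermitian.eigenvalues i / t)
        = Real.log (t + hM.isHermitian.eigenvalues i) - Real.log t := by
      intro i
      have h0 := hM.eigenvalues_nonneg i
      rw [← Real.log_div (by linarith) ht.ne']
      congr 1
      field_simp
    simp_rw [this, Finset.sum_sub_distrib]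
    simp
  · intro i _
    have := hM.eigenvalues_nonneg i
    linarith

lemma Lsum_eq_log_det {M : Matrix d d ℂ} (hM : M.PosSemidef) {t : ℝ} (ht : 0 < t) :
    Lsum M t = Real.log (shift t M).det.re - Fintype.card d * Real.log t := by
  rw [Lsum_eq_log_prod hM ht, det_shift_eq hM.isHermitian, Complex.ofReal_re]

lemma Lsum_nonneg {M : Matrix d d ℂ} (hM : M.PosSemidef) {t : ℝ} (ht : 0 < t) :
    0 ≤ Lsum M t := by
  rw [Lsum_eq_sum hM.isHermitian]
  refine Finset.sum_nonneg fun i _ => Real.log_nonneg ?_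
  have := div_nonneg (hM.eigenvalues_nonneg i) ht.le
  linarith

/-- **(D4)** -/
theorem Lsum_mul_comm (X : Matrix d r ℂ) (Y : Matrix r d ℂ) (t : ℝ) :
    Lsum (X * Y) t = Lsum (Y * X) t :=
  specSum_mul_comm _ (by simp) X Y

theorem Lsum_mul_conjTranspose_comm (X : Matrix d r ℂ) (t : ℝ) :
    Lsum (X * Xᴴ) t = Lsum (Xᴴ * X) t := Lsum_mul_comm X Xᴴ t

/-- `∑ log (1 + λ_i(C)) = Lsum C 1`. -/
lemma Lsum_one {C : Matrix d d ℂ} (hC : C.IsHermitian) :
    Lsum C 1 = ∑ i, Real.log (1 + hC.eigenvalues i) := by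
  rw [Lsum_eq_sum hC]; simp

lemma Lsum_one_eq_log_det {C : Matrix d d ℂ} (hC : C.PosSemidef) :
    Lsum C 1 = Real.log (1 + C).det.re := by
  rw [Lsum_eq_log_det hC one_pos]
  simp [shift]

/-- general form of **(D3)**. -/
theorem Lsum_add_mul {N : Matrix d d ℂ} (hN : N.PosSemidef) {t : ℝ} (ht : 0 < t)
    (W : Matrix d r ℂ) :
    Lsum (N + W * Wᴴ) t = Lsum N t + Lsum (resv t N W) 1 := by
  have hW : (W * Wᴴ).PosSemidef := posSemidef_self_mul_conjTranspose W
  have hO : (N + W * Wᴴ).PosSemidef := hN.add hW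
  have hR := resv_posSemidef hN ht W
  have hdet := det_shift_add_mul hN ht W
  have h1 : (1 + resv t N W) = shift 1 (resv t N W) := by simp [shift]
  rw [h1, det_shift_eq hO.isHermitian, det_shift_eq hN.isHermitian,
    det_shift_eq hR.isHermitian, ← Complex.ofReal_mul] at hdet
  have hdet' := Complex.ofReal_injective hdet
  rw [Lsum_eq_log_prod hO ht, Lsum_eq_log_prod hN ht, Lsum_eq_log_prod hR one_pos, hdet',
    Real.log_mul]
  · simp; ring
  · refine (Finset.prod_pos fun i _ => ?_).ne'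
    have := hN.eigenvalues_nonneg i; linarith
  · refine (Finset.prod_pos fun i _ => ?_).ne'
    have := hR.eigenvalues_nonneg i; linarith

/-! ### Block form on `Bool × e` -/

section Blocks

lemma ofBlocks_add (A B C D A' B' C' D' : Matrix e e ℂ) :
    ofBlocks A B C D + ofBlocks A' B' C' D' = ofBlocks (A + A') (B + B') (C + C') (D + D') := by
  ext ⟨s, i⟩ ⟨t, j⟩
  cases s <;> cases t <;> simp

lemma ofBlocks_smul (c : ℂ) (A B C D : Matrix e e ℂ) :
    c • ofBlocks A B C D = ofBlocks (c • A) (c • B) (c • C) (c • D) := by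
  ext ⟨s, i⟩ ⟨t, j⟩
  cases s <;> cases t <;> simp

lemma ofBlocks_one : ofBlocks (1 : Matrix e e ℂ) 0 0 1 = 1 := by
  ext ⟨s, i⟩ ⟨t, j⟩
  cases s <;> cases t <;> simp [Matrix.one_apply]

lemma ofBlocks_mul (A B C D A' B' C' D' : Matrix e e ℂ) :
    ofBlocks A B C D * ofBlocks A' B' C' D'
      = ofBlocks (A * A' + B * C') (A * B' + B * D') (C * A' + D * C') (C * B' + D * D') := by
  unfold ofBlocks
  rw [Matrix.submatrix_mul_equiv, Matrix.fromBlocks_multiply]

lemma ofBlocks_conjTranspose (A B C D : Matrix e e ℂ) :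
    (ofBlocks A B C D)ᴴ = ofBlocks Aᴴ Cᴴ Bᴴ Dᴴ := by
  ext ⟨s, i⟩ ⟨t, j⟩
  cases s <;> cases t <;> simp [Matrix.conjTranspose_apply]

/-- a psd matrix is `Yᴴ Y`. -/
lemma exists_eq_conjTranspose_mul_self {A : Matrix e e ℂ} (hA : A.PosSemidef) :
    ∃ Y : Matrix e e ℂ, A = Yᴴ * Y := by
  open scoped MatrixOrder in
  obtain ⟨B, hB⟩ := CStarAlgebra.nonneg_iff_eq_star_mul_self.mp hA.nonneg
  exact ⟨B, by rw [hB, star_eq_conjTranspose]⟩

lemma posSemidef_ofBlocks_diag {A D : Matrix e e ℂ} (hA : A.PosSemidef) (hD : D.PosSemidef) :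
    (ofBlocks A 0 0 D).PosSemidef := by
  obtain ⟨Y, rfl⟩ := exists_eq_conjTranspose_mul_self hA
  obtain ⟨Y', rfl⟩ := exists_eq_conjTranspose_mul_self hD
  have : ofBlocks (Yᴴ * Y) 0 0 (Y'ᴴ * Y') = (ofBlocks Y 0 0 Y')ᴴ * ofBlocks Y 0 0 Y' := by
    rw [ofBlocks_conjTranspose, ofBlocks_mul]; simp
  rw [this]
  exact posSemidef_conjTranspose_mul_self _

/-- The column `[X; Z]` (`false` first). -/
def stack (X Z : Matrix e r ℂ) : Matrix (Bool × e) r ℂ :=
  fun p j => bif p.1 then Z p.2 j else X p.2 j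

@[simp] lemma stack_false (X Z : Matrix e r ℂ) (i : e) (j : r) : stack X Z (false, i) j = X i j :=
  rfl
@[simp] lemma stack_true (X Z : Matrix e r ℂ) (i : e) (j : r) : stack X Z (true, i) j = Z i j :=
  rfl

lemma stack_mul_conjTranspose (X Z : Matrix e r ℂ) :
    stack X Z * (stack X Z)ᴴ = ofBlocks (X * Xᴴ) (X * Zᴴ) (Z * Xᴴ) (Z * Zᴴ) := by
  ext ⟨s, i⟩ ⟨t, j⟩
  cases s <;> cases t <;> simp [Matrix.mul_apply, Matrix.conjTranspose_apply]

lemma ofBlocks_diag_mul_stack (P Q : Matrix e e ℂ) (X Z : Matrix e r ℂ) :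
    ofBlocks P 0 0 Q * stack X Z = stack (P * X) (Q * Z) := by
  ext ⟨s, i⟩ j
  cases s <;> simp [Matrix.mul_apply, Fintype.sum_prod_type]

lemma stack_conjTranspose_mul_stack (X Z X' Z' : Matrix e r ℂ) :
    (stack X Z)ᴴ * stack X' Z' = Xᴴ * X' + Zᴴ * Z' := by
  ext i j
  simp [Matrix.mul_apply, Fintype.sum_prod_type, Matrix.conjTranspose_apply, add_comm]

/-- every matrix on `Bool × e` rows is a stack. -/
lemma eq_stack (W : Matrix (Bool × e) r ℂ) :
    W = stack (fun i j => W (false, i) j) (fun i j => W (true, i) j) := by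
  ext ⟨s, i⟩ j
  cases s <;> rfl

/-- The output matrix `[[X Xᴴ + n0, X Zᴴ], [Z Xᴴ, Z Zᴴ + n1]]`. -/
noncomputable def outM (X Z : Matrix e r ℂ) (n0 n1 : Matrix e e ℂ) :
    Matrix (Bool × e) (Bool × e) ℂ :=
  ofBlocks (X * Xᴴ + n0) (X * Zᴴ) (Z * Xᴴ) (Z * Zᴴ + n1)

lemma outM_eq (X Z : Matrix e r ℂ) (n0 n1 : Matrix e e ℂ) :
    outM X Z n0 n1 = ofBlocks n0 0 0 n1 + stack X Z * (stack X Z)ᴴ := by
  rw [stack_mul_conjTranspose, ofBlocks_add, outM]
  simp [add_comm]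

lemma outM_posSemidef (X Z : Matrix e r ℂ) {n0 n1 : Matrix e e ℂ} (h0 : n0.PosSemidef)
    (h1 : n1.PosSemidef) : (outM X Z n0 n1).PosSemidef := by
  rw [outM_eq]
  exact (posSemidef_ofBlocks_diag h0 h1).add (posSemidef_self_mul_conjTranspose _)

lemma trace_outM (X Z : Matrix e r ℂ) (n0 n1 : Matrix e e ℂ) :
    (outM X Z n0 n1).trace = (X * Xᴴ).trace + (Z * Zᴴ).trace + n0.trace + n1.trace := by
  rw [outM, trace_ofBlocks, Matrix.trace_add, Matrix.trace_add]; ring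

lemma shift_ofBlocks_diag (t : ℝ) (n0 n1 : Matrix e e ℂ) :
    shift t (ofBlocks n0 0 0 n1) = ofBlocks (shift t n0) 0 0 (shift t n1) := by
  simp only [shift]
  rw [← ofBlocks_one, ofBlocks_smul, ofBlocks_add]
  simp

lemma shift_ofBlocks_diag_inv {n0 n1 : Matrix e e ℂ} (h0 : n0.PosSemidef) (h1 : n1.PosSemidef)
    {t : ℝ} (ht : 0 < t) :
    (shift t (ofBlocks n0 0 0 n1))⁻¹ = ofBlocks (shift t n0)⁻¹ 0 0 (shift t n1)⁻¹ := by
  apply Matrix.inv_eq_right_inv
  rw [shift_ofBlocks_diag, ofBlocks_mul, shift_mul_inv h0 ht, shift_mul_inv h1 ht]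
  simp [ofBlocks_one]

lemma resv_stack {n0 n1 : Matrix e e ℂ} (h0 : n0.PosSemidef) (h1 : n1.PosSemidef)
    {t : ℝ} (ht : 0 < t) (X Z : Matrix e r ℂ) :
    resv t (ofBlocks n0 0 0 n1) (stack X Z) = resv t n0 X + resv t n1 Z := by
  simp only [resv]
  rw [shift_ofBlocks_diag_inv h0 h1 ht, Matrix.mul_assoc, ofBlocks_diag_mul_stack,
    stack_conjTranspose_mul_stack, Matrix.mul_assoc, Matrix.mul_assoc]

lemma det_shift_ofBlocks_diag (t : ℝ) (n0 n1 : Matrix e e ℂ) :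
    (shift t (ofBlocks n0 0 0 n1)).det = (shift t n0).det * (shift t n1).det := by
  rw [shift_ofBlocks_diag, det_ofBlocks, Matrix.det_fromBlocks_zero₁₂]

/-- **(D2)** `det (t + out) = det (t + n0) det (t + n1) det (1 + A_t + B_t)`. -/
theorem det_shift_outM {n0 n1 : Matrix e e ℂ} (h0 : n0.PosSemidef) (h1 : n1.PosSemidef)
    {t : ℝ} (ht : 0 < t) (X Z : Matrix e r ℂ) :
    (shift t (outM X Z n0 n1)).det
      = (shift t n0).det * (shift t n1).det * (1 + resv t n0 X + resv t n1 Z).det := by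
  rw [outM_eq, det_shift_add_mul (posSemidef_ofBlocks_diag h0 h1) ht, resv_stack h0 h1 ht,
    det_shift_ofBlocks_diag, add_assoc]

lemma Lsum_ofBlocks_diag (n0 n1 : Matrix e e ℂ) (t : ℝ) :
    Lsum (ofBlocks n0 0 0 n1) t = Lsum n0 t + Lsum n1 t := specSum_ofBlocks_diag _ _ _

/-- **(D3)** `L_out - L_n0 - L_n1 = log det (1 + A_t + B_t)`, eigenvalue form. -/
theorem Lsum_outM {n0 n1 : Matrix e e ℂ} (h0 : n0.PosSemidef) (h1 : n1.PosSemidef)
    {t : ℝ} (ht : 0 < t) (X Z : Matrix e r ℂ) :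
    Lsum (outM X Z n0 n1) t = Lsum n0 t + Lsum n1 t + Lsum (resv t n0 X + resv t n1 Z) 1 := by
  rw [outM_eq, Lsum_add_mul (posSemidef_ofBlocks_diag h0 h1) ht, resv_stack h0 h1 ht,
    Lsum_ofBlocks_diag]

theorem Lsum_outM_log_det {n0 n1 : Matrix e e ℂ} (h0 : n0.PosSemidef) (h1 : n1.PosSemidef)
    {t : ℝ} (ht : 0 < t) (X Z : Matrix e r ℂ) :
    Lsum (outM X Z n0 n1) t - Lsum n0 t - Lsum n1 t
      = Real.log (1 + resv t n0 X + resv t n1 Z).det.re := by
  rw [Lsum_outM h0 h1 ht,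
    Lsum_one_eq_log_det ((resv_posSemidef h0 ht X).add (resv_posSemidef h1 ht Z)),
    add_assoc (1 : Matrix r r ℂ)]
  ring

/-- **(D5)** decoupling: if `f x + g y ≤ log (1 + x + y)` on the quadrant then
`Tr f(A_t) + Tr g(B_t) ≤ L_out(t) - L_n0(t) - L_n1(t)`. -/
theorem specSum_resv_add_le {n0 n1 : Matrix e e ℂ} (h0 : n0.PosSemidef) (h1 : n1.PosSemidef)
    {t : ℝ} (ht : 0 < t) (X Z : Matrix e r ℂ) (f g : ℝ → ℝ)
    (hfg : ∀ x y, 0 ≤ x → 0 ≤ y → f x + g y ≤ Real.log (1 + x + y)) :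
    specSum f (resv t n0 X) + specSum g (resv t n1 Z)
      ≤ Lsum (outM X Z n0 n1) t - Lsum n0 t - Lsum n1 t := by
  have hA := resv_posSemidef h0 ht X
  have hB := resv_posSemidef h1 ht Z
  rw [Lsum_outM h0 h1 ht, Lsum_one (hA.add hB).isHermitian, specSum_eq_sum f hA.isHermitian,
    specSum_eq_sum g hB.isHermitian]
  have := logdet_decouple _ _ hA hB f g hfg
  linarith

end Blocks

end Crest.Agent.GA
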