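import Mathlib
import Crest.Agent.GA_Det

/-!
# Row 341 infrastructure: complements to `GA_Det`

* every psd matrix on `Bool × e` is `stack X Z * (stack X Z)ᴴ = outM X Z 0 0`;
* the `1 × 1` (`Unit`) specialisations of `specSum`, `Lsum`, `shift`, `resv`.
-/

set_option autoImplicit false
set_option linter.unusedSectionVars false

namespace Crest.Agent.GA

open Matrix Crest.Quantum
open scoped ComplexOrder

variable {d r e : Type*} [Fintype d] [Fintype r] [Fintype e]
  [DecidableEq d] [DecidableEq r] [DecidableEq e]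

/-- a psd matrix is `W Wᴴ`. -/
lemma exists_eq_mul_conjTranspose_self {A : Matrix e e ℂ} (hA : A.PosSemidef) :
    ∃ W : Matrix e e ℂ, A = W * Wᴴ := by
  obtain ⟨Y, hY⟩ := exists_eq_conjTranspose_mul_self hA
  exact ⟨Yᴴ, by rw [hY, conjTranspose_conjTranspose]⟩

lemma outM_zero_zero (X Z : Matrix e r ℂ) :
    outM X Z 0 0 = stack X Z * (stack X Z)ᴴ := by
  rw [outM_eq]
  have : ofBlocks (0 : Matrix e e ℂ) 0 0 0 = 0 := by
    ext ⟨s, i⟩ ⟨t, j⟩
    cases s <;> cases t <;> simp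
  rw [this, zero_add]

/-- every psd `σ` on `Bool × e` is `[X; Z] [X; Z]ᴴ` with `X Z : Matrix e (Bool × e) ℂ`. -/
theorem exists_stack_of_posSemidef {σ : Matrix (Bool × e) (Bool × e) ℂ} (hσ : σ.PosSemidef) :
    ∃ X Z : Matrix e (Bool × e) ℂ, σ = ofBlocks (X * Xᴴ) (X * Zᴴ) (Z * Xᴴ) (Z * Zᴴ) := by
  obtain ⟨W, hW⟩ := exists_eq_mul_conjTranspose_self hσ
  refine ⟨Matrix.of fun i j => W (false, i) j, Matrix.of fun i j => W (true, i) j, ?_⟩
  rw [← stack_mul_conjTranspose, hW]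
  have : W = stack (Matrix.of fun i j => W (false, i) j) (Matrix.of fun i j => W (true, i) j) :=
    eq_stack W
  rw [← this]

theorem exists_stack_of_posSemidef' {σ : Matrix (Bool × e) (Bool × e) ℂ} (hσ : σ.PosSemidef) :
    ∃ X Z : Matrix e (Bool × e) ℂ,
      block σ false false = X * Xᴴ ∧ block σ false true = X * Zᴴ ∧
      block σ true false = Z * Xᴴ ∧ block σ true true = Z * Zᴴ := by
  obtain ⟨X, Z, h⟩ := exists_stack_of_posSemidef hσ
  refine ⟨X, Z, ?_, ?_, ?_, ?_⟩ <;> rw [h] <;> simp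

/-! ### `1 × 1` matrices -/

/-- the `1 × 1` matrix with entry `x`. -/
noncomputable def one1 (x : ℝ) : Matrix Unit Unit ℂ := diagonal fun _ => (x : ℂ)

@[simp] lemma one1_apply (x : ℝ) (i j : Unit) : one1 x i j = (x : ℂ) := by
  simp [one1]

lemma specSum_one1 (f : ℝ → ℝ) (x : ℝ) : specSum f (one1 x) = f x := by
  rw [one1, specSum_diagonal]; simp

lemma Lsum_one1 (x t : ℝ) : Lsum (one1 x) t = Real.log (1 + x / t) := specSum_one1 _ x

lemma vnEntropy_one1 (x : ℝ) : vnEntropy (one1 x) = Real.negMulLog x := by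
  rw [one1, vnEntropy_diagonal]; simp

lemma trace_one1 (x : ℝ) : (one1 x).trace = (x : ℂ) := by simp [Matrix.trace]

lemma one1_posSemidef {x : ℝ} (hx : 0 ≤ x) : (one1 x).PosSemidef := by
  rw [one1]
  refine Matrix.PosSemidef.diagonal fun _ => ?_
  show (0 : ℂ) ≤ (x : ℂ)
  exact_mod_cast hx

lemma one1_mul (x y : ℝ) : one1 x * one1 y = one1 (x * y) := by
  ext i j; simp [Matrix.mul_apply]

lemma one1_add (x y : ℝ) : one1 x + one1 y = one1 (x + y) := by
  ext i j; simp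

lemma one1_conjTranspose (x : ℝ) : (one1 x)ᴴ = one1 x := by
  ext i j; simp [Matrix.conjTranspose_apply]

lemma one1_one : one1 1 = 1 := by
  ext i j; simp

lemma shift_one1 (t x : ℝ) : shift t (one1 x) = one1 (t + x) := by
  ext i j; simp [shift]

lemma one1_inv {x : ℝ} (hx : x ≠ 0) : (one1 x)⁻¹ = one1 x⁻¹ := by
  apply Matrix.inv_eq_right_inv
  rw [one1_mul, mul_inv_cancel₀ hx, one1_one]

lemma resv_one1 {t v : ℝ} (h : t + v ≠ 0) (x : ℝ) :
    resv t (one1 v) (one1 x) = one1 (x * x / (t + v)) := by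
  rw [resv, shift_one1, one1_inv h, one1_conjTranspose, one1_mul, one1_mul]
  congr 1
  field_simp

/-- with `x = √α`. -/
lemma resv_one1_sqrt {t v α : ℝ} (h : t + v ≠ 0) (hα : 0 ≤ α) :
    resv t (one1 v) (one1 (Real.sqrt α)) = one1 (α / (t + v)) := by
  rw [resv_one1 h, Real.mul_self_sqrt hα]

lemma one1_sqrt_mul_conjTranspose {α : ℝ} (hα : 0 ≤ α) :
    one1 (Real.sqrt α) * (one1 (Real.sqrt α))ᴴ = one1 α := by
  rw [one1_conjTranspose, one1_mul, Real.mul_self_sqrt hα]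

/-- The scalar output matrix on `Bool × Unit`. -/
lemma outM_one1 {α β : ℝ} (hα : 0 ≤ α) (hβ : 0 ≤ β) (v0 v1 : ℝ) :
    outM (one1 (Real.sqrt α)) (one1 (Real.sqrt β)) (one1 v0) (one1 v1)
      = ofBlocks (one1 (α + v0)) (one1 (Real.sqrt α * Real.sqrt β))
          (one1 (Real.sqrt β * Real.sqrt α)) (one1 (β + v1)) := by
  rw [outM, one1_sqrt_mul_conjTranspose hα, one1_sqrt_mul_conjTranspose hβ, one1_conjTranspose,
    one1_conjTranspose, one1_mul, one1_mul, one1_add, one1_add]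

/-- the `2 × 2` matrix on `Bool` (`false` first). -/
noncomputable def mat2 (a b c d : ℝ) : Matrix Bool Bool ℂ :=
  fun s t => bif s then (bif t then (d : ℂ) else (c : ℂ)) else (bif t then (b : ℂ) else (a : ℂ))

lemma ofBlocks_one1_eq_submatrix (a b c d : ℝ) :
    ofBlocks (one1 a) (one1 b) (one1 c) (one1 d)
      = (mat2 a b c d).submatrix (Equiv.prodPUnit Bool) (Equiv.prodPUnit Bool) := by
  ext ⟨s, i⟩ ⟨t, j⟩
  cases s <;> cases t <;> simp [mat2]

lemma specSum_ofBlocks_one1 (f : ℝ → ℝ) (a b c d : ℝ) :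
    specSum f (ofBlocks (one1 a) (one1 b) (one1 c) (one1 d)) = specSum f (mat2 a b c d) := by
  rw [ofBlocks_one1_eq_submatrix, specSum_submatrix]

lemma vnEntropy_ofBlocks_one1 (a b c d : ℝ) :
    vnEntropy (ofBlocks (one1 a) (one1 b) (one1 c) (one1 d)) = vnEntropy (mat2 a b c d) := by
  rw [ofBlocks_one1_eq_submatrix, vnEntropy_submatrix]

end Crest.Agent.GA
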