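import Mathlib
import Crest.Agent.GA_Chan
import Crest.Agent.GA_Spec

/-!
Row 341 (S0534/S0535): product inputs, product ensembles, the easy directions.
-/

set_option autoImplicit false
set_option linter.unusedSectionVars false
open Crest.Quantum Crest.MathPhysics.AmpDamp
open scoped ComplexOrder Matrix Kronecker

namespace Crest.Agent.GA

section P5
variable {d e : Type*} [Fintype d] [Fintype e] [DecidableEq d] [DecidableEq e]

lemma linear_qubit_apply {Φ : Matrix Bool Bool ℂ → Matrix Bool Bool ℂ} (hΦ : IsLinearMap ℂ Φ)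
    (M : Matrix Bool Bool ℂ) (s t : Bool) :
    Φ M s t = ∑ s' : Bool, ∑ t' : Bool, qubitCoeff Φ s t s' t' * M s' t' := by
  have hM : M = M true true • Matrix.single true true (1 : ℂ)
      + M true false • Matrix.single true false (1 : ℂ)
      + (M false true • Matrix.single false true (1 : ℂ)
      + M false false • Matrix.single false false (1 : ℂ)) := by
    ext a b
    cases a <;> cases b <;> simp [Matrix.single]
  conv_lhs => rw [hM]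
  simp only [hΦ.map_add, hΦ.map_smul, Fintype.sum_bool, qubitCoeff, Matrix.add_apply,
    Matrix.smul_apply, smul_eq_mul]
  ring

lemma block_kronecker (A : Matrix Bool Bool ℂ) (B : Matrix d d ℂ) (s t : Bool) :
    block (A ⊗ₖ B) s t = A s t • B := by
  ext i j
  simp [block]

lemma qubitTensor_kronecker {Φ : Matrix Bool Bool ℂ → Matrix Bool Bool ℂ}
    (hΦ : IsLinearMap ℂ Φ) {Ψ : Matrix d d ℂ → Matrix e e ℂ} (hΨ : IsLinearMap ℂ Ψ)
    (A : Matrix Bool Bool ℂ) (B : Matrix d d ℂ) :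
    qubitTensor Φ Ψ (A ⊗ₖ B) = Φ A ⊗ₖ Ψ B := by
  ext ⟨s, i⟩ ⟨t, j⟩
  simp only [qubitTensor, Matrix.of_apply, block_kronecker, hΨ.map_smul, Matrix.smul_apply,
    smul_eq_mul, Matrix.kroneckerMap_apply, linear_qubit_apply hΦ A s t, Finset.sum_mul]
  refine Finset.sum_congr rfl fun s' _ => Finset.sum_congr rfl fun t' _ => ?_
  ring

lemma isDensity_kronecker {a b : Type*} [Fintype a] [Fintype b] [DecidableEq a] [DecidableEq b]
    {A : Matrix a a ℂ} {B : Matrix b b ℂ} (hA : IsDensity A) (hB : IsDensity B) :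
    IsDensity (A ⊗ₖ B) :=
  ⟨hA.1.kronecker hB.1, by rw [Matrix.trace_kronecker, hA.2, hB.2, one_mul]⟩

lemma vnEntropy_kronecker_density {a b : Type*} [Fintype a] [Fintype b] [DecidableEq a]
    [DecidableEq b] {A : Matrix a a ℂ} {B : Matrix b b ℂ} (hA : IsDensity A) (hB : IsDensity B) :
    vnEntropy (A ⊗ₖ B) = vnEntropy A + vnEntropy B := by
  rw [vnEntropy_kronecker hA.1.isHermitian hB.1.isHermitian, hA.2, hB.2]
  simp

/-- The average state of an ensemble is a density matrix. -/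
lemma isDensity_average {a : Type*} [Fintype a] {m : ℕ} {q : Fin m → ℝ}
    {ρ : Fin m → Matrix a a ℂ} (h : IsEnsemble q ρ) : IsDensity (∑ x, (q x : ℂ) • ρ x) := by
  refine ⟨Matrix.posSemidef_sum _ fun x _ => ?_, ?_⟩
  · exact (h.2.2 x).1.smul (by exact_mod_cast h.1 x)
  · rw [Matrix.trace_sum]
    simp only [Matrix.trace_smul, (h.2.2 _).2, smul_eq_mul, mul_one]
    exact_mod_cast h.2.1

lemma isEnsemble_map {Ψ : Matrix d d ℂ → Matrix e e ℂ} (hΨ : IsChannel Ψ) {m : ℕ}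
    {q : Fin m → ℝ} {ρ : Fin m → Matrix d d ℂ} (h : IsEnsemble q ρ) :
    IsEnsemble q (fun x => Ψ (ρ x)) :=
  ⟨h.1, h.2.1, fun x => channel_isDensity hΨ (h.2.2 x)⟩

/-- product ensemble -/
noncomputable def prodQ {m₁ m₂ : ℕ} (q₁ : Fin m₁ → ℝ) (q₂ : Fin m₂ → ℝ) : Fin (m₁ * m₂) → ℝ :=
  fun x => q₁ (finProdFinEquiv.symm x).1 * q₂ (finProdFinEquiv.symm x).2

noncomputable def prodR {a b : Type*} {m₁ m₂ : ℕ} (ρ₁ : Fin m₁ → Matrix a a ℂ)
    (ρ₂ : Fin m₂ → Matrix b b ℂ) : Fin (m₁ * m₂) → Matrix (a × b) (a × b) ℂ :=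
  fun x => ρ₁ (finProdFinEquiv.symm x).1 ⊗ₖ ρ₂ (finProdFinEquiv.symm x).2

lemma sum_fin_mul {M : Type*} [AddCommMonoid M] {m₁ m₂ : ℕ} (f : Fin m₁ → Fin m₂ → M) :
    ∑ x : Fin (m₁ * m₂), f (finProdFinEquiv.symm x).1 (finProdFinEquiv.symm x).2
      = ∑ i, ∑ j, f i j := by
  rw [← Fintype.sum_prod_type']
  exact (finProdFinEquiv.symm).sum_comp (fun p : Fin m₁ × Fin m₂ => f p.1 p.2)

lemma isEnsemble_prod {a b : Type*} [Fintype a] [Fintype b] [DecidableEq a] [DecidableEq b]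
    {m₁ m₂ : ℕ} {q₁ : Fin m₁ → ℝ} {q₂ : Fin m₂ → ℝ} {ρ₁ : Fin m₁ → Matrix a a ℂ}
    {ρ₂ : Fin m₂ → Matrix b b ℂ} (h₁ : IsEnsemble q₁ ρ₁) (h₂ : IsEnsemble q₂ ρ₂) :
    IsEnsemble (prodQ q₁ q₂) (prodR ρ₁ ρ₂) := by
  refine ⟨fun x => mul_nonneg (h₁.1 _) (h₂.1 _), ?_, fun x => isDensity_kronecker (h₁.2.2 _)
    (h₂.2.2 _)⟩
  unfold prodQ
  rw [sum_fin_mul (fun i j => q₁ i * q₂ j)]
  simp only [← Finset.mul_sum, h₂.2.1, mul_one, h₁.2.1]

/-- Holevo information of a product ensemble through `Φ ⊗ Ψ`. -/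
lemma holevoInfo_prod {Φ : Matrix Bool Bool ℂ → Matrix Bool Bool ℂ} (hΦ : IsChannel Φ)
    {Ψ : Matrix d d ℂ → Matrix e e ℂ} (hΨ : IsChannel Ψ)
    {m₁ m₂ : ℕ} {q₁ : Fin m₁ → ℝ} {q₂ : Fin m₂ → ℝ} {ρ₁ : Fin m₁ → Matrix Bool Bool ℂ}
    {ρ₂ : Fin m₂ → Matrix d d ℂ} (h₁ : IsEnsemble q₁ ρ₁) (h₂ : IsEnsemble q₂ ρ₂) :
    holevoInfo (qubitTensor Φ Ψ) (prodQ q₁ q₂) (prodR ρ₁ ρ₂)
      = holevoInfo Φ q₁ ρ₁ + holevoInfo Ψ q₂ ρ₂ := by
  unfold holevoInfo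
  have e1 : ∑ x, ((prodQ q₁ q₂ x : ℝ) : ℂ) • qubitTensor Φ Ψ (prodR ρ₁ ρ₂ x)
      = (∑ i, (q₁ i : ℂ) • Φ (ρ₁ i)) ⊗ₖ (∑ j, (q₂ j : ℂ) • Ψ (ρ₂ j)) := by
    unfold prodQ prodR
    simp only [qubitTensor_kronecker hΦ.1 hΨ.1]
    rw [sum_fin_mul (fun i j => ((q₁ i * q₂ j : ℝ) : ℂ) • (Φ (ρ₁ i) ⊗ₖ Ψ (ρ₂ j)))]
    ext ⟨s, i⟩ ⟨t, j⟩
    simp only [Matrix.sum_apply, Matrix.smul_apply, Matrix.kroneckerMap_apply, smul_eq_mul,
      Finset.sum_mul_sum]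
    refine Finset.sum_congr rfl fun x _ => Finset.sum_congr rfl fun y _ => ?_
    push_cast
    ring
  have e2 : ∑ x, prodQ q₁ q₂ x * vnEntropy (qubitTensor Φ Ψ (prodR ρ₁ ρ₂ x))
      = ∑ i, q₁ i * vnEntropy (Φ (ρ₁ i)) + ∑ j, q₂ j * vnEntropy (Ψ (ρ₂ j)) := by
    unfold prodQ prodR
    simp only [qubitTensor_kronecker hΦ.1 hΨ.1]
    rw [sum_fin_mul (fun i j => q₁ i * q₂ j * vnEntropy (Φ (ρ₁ i) ⊗ₖ Ψ (ρ₂ j)))]
    have : ∀ i j, q₁ i * q₂ j * vnEntropy (Φ (ρ₁ i) ⊗ₖ Ψ (ρ₂ j))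
        = (q₁ i * vnEntropy (Φ (ρ₁ i))) * q₂ j + q₁ i * (q₂ j * vnEntropy (Ψ (ρ₂ j))) := by
      intro i j
      rw [vnEntropy_kronecker_density (channel_isDensity hΦ (h₁.2.2 i))
        (channel_isDensity hΨ (h₂.2.2 j))]
      ring
    simp only [this, Finset.sum_add_distrib, ← Finset.mul_sum, ← Finset.sum_mul, h₂.2.1, h₁.2.1,
      mul_one, one_mul]
  rw [e1, e2, vnEntropy_kronecker_density (isDensity_average (isEnsemble_map hΦ h₁))
    (isDensity_average (isEnsemble_map hΨ h₂))]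
  ring

end P5

/-! ### transport along equivalences of the index types -/

section Transport
variable {d e d' e' : Type*} [Fintype d] [Fintype e] [DecidableEq d] [DecidableEq e]
  [Fintype d'] [Fintype e'] [DecidableEq d'] [DecidableEq e']

lemma isDensity_submatrix (f : d' ≃ d) {ρ : Matrix d d ℂ} (h : IsDensity ρ) :
    IsDensity (ρ.submatrix f f) :=
  ⟨h.1.submatrix _, (trace_submatrix_equiv f ρ).trans h.2⟩

lemma isEnsemble_submatrix (f : d' ≃ d) {m : ℕ} {q : Fin m → ℝ} {ρ : Fin m → Matrix d d ℂ}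
    (h : IsEnsemble q ρ) : IsEnsemble q (fun x => (ρ x).submatrix f f) :=
  ⟨h.1, h.2.1, fun x => isDensity_submatrix f (h.2.2 x)⟩

lemma holevoInfo_submatrix (f : d' ≃ d) (g : e' ≃ e) {Ψ : Matrix d d ℂ → Matrix e e ℂ}
    {Ψ' : Matrix d' d' ℂ → Matrix e' e' ℂ}
    (h : ∀ M, (Ψ M).submatrix g g = Ψ' (M.submatrix f f)) {m : ℕ} (q : Fin m → ℝ)
    (ρ : Fin m → Matrix d d ℂ) :
    holevoInfo Ψ' q (fun x => (ρ x).submatrix f f) = holevoInfo Ψ q ρ := by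
  unfold holevoInfo
  have e1 : ∑ x, (q x : ℂ) • Ψ' ((ρ x).submatrix f f)
      = (∑ x, (q x : ℂ) • Ψ (ρ x)).submatrix g g := by
    ext i j
    simp only [← h, Matrix.sum_apply, Matrix.smul_apply, Matrix.submatrix_apply]
  rw [e1, vnEntropy_submatrix]
  simp only [← h, vnEntropy_submatrix]

end Transport

/-! ### the pure qubit states `ψ_p^±` and their outputs -/

section Psi

/-- second term of `gadRate`: output entropy of a pure state with excited population `p`. -/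
noncomputable def gfun (γ ν p : ℝ) : ℝ :=
  Real.binEntropy ((1 + Real.sqrt (1 - 4 * (γ * ν * (1 - ν) + γ * (1 - γ) * (p - ν) ^ 2))) / 2)

lemma gadRate_eq (γ ν p : ℝ) :
    gadRate γ ν p = Real.binEntropy ((1 - γ) * p + γ * ν) - gfun γ ν p := rfl

/-- the pure state `(√(1-p), σ √p)`. -/
noncomputable def psiP (p σ : ℝ) : Matrix Bool Bool ℂ :=
  Matrix.vecMulVec (fun s => if s then ((σ * Real.sqrt p : ℝ) : ℂ) else ((Real.sqrt (1 - p) : ℝ) : ℂ))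
    (star fun s => if s then ((σ * Real.sqrt p : ℝ) : ℂ) else ((Real.sqrt (1 - p) : ℝ) : ℂ))

lemma psiP_ff {p : ℝ} (hp : p ∈ Set.Icc (0 : ℝ) 1) (σ : ℝ) :
    psiP p σ false false = ((1 - p : ℝ) : ℂ) := by
  simp only [psiP, Matrix.vecMulVec_apply, Pi.star_apply, Bool.false_eq_true, if_false,
    Complex.star_def, Complex.conj_ofReal, ← Complex.ofReal_mul]
  rw [Real.mul_self_sqrt (by linarith [hp.2])]

lemma psiP_tt {p : ℝ} (hp : p ∈ Set.Icc (0 : ℝ) 1) {σ : ℝ} (hσ : σ * σ = 1) :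
    psiP p σ true true = (p : ℂ) := by
  simp only [psiP, Matrix.vecMulVec_apply, Pi.star_apply, if_true,
    Complex.star_def, Complex.conj_ofReal, ← Complex.ofReal_mul]
  have : σ * Real.sqrt p * (σ * Real.sqrt p) = (σ * σ) * (Real.sqrt p * Real.sqrt p) := by ring
  rw [this, hσ, Real.mul_self_sqrt hp.1, one_mul]

lemma psiP_ft (p σ : ℝ) :
    psiP p σ false true = ((σ * (Real.sqrt (1 - p) * Real.sqrt p) : ℝ) : ℂ) := by
  simp only [psiP, Matrix.vecMulVec_apply, Pi.star_apply, if_true, Bool.false_eq_true, if_false,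
    Complex.star_def, Complex.conj_ofReal, ← Complex.ofReal_mul]
  congr 1; ring

lemma psiP_tf (p σ : ℝ) :
    psiP p σ true false = ((σ * (Real.sqrt (1 - p) * Real.sqrt p) : ℝ) : ℂ) := by
  simp only [psiP, Matrix.vecMulVec_apply, Pi.star_apply, if_true, Bool.false_eq_true, if_false,
    Complex.star_def, Complex.conj_ofReal, ← Complex.ofReal_mul]
  congr 1; ring

lemma psiP_isDensity {p : ℝ} (hp : p ∈ Set.Icc (0 : ℝ) 1) {σ : ℝ} (hσ : σ * σ = 1) :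
    IsDensity (psiP p σ) := by
  refine ⟨Matrix.posSemidef_vecMulVec_self_star _, ?_⟩
  simp only [Matrix.trace, Matrix.diag, Fintype.sum_bool, psiP_ff hp, psiP_tt hp hσ]
  push_cast; ring

lemma det_bool (M : Matrix Bool Bool ℂ) :
    M.det = M false false * M true true - M false true * M true false := by
  rw [← Matrix.det_submatrix_equiv_self finTwoEquiv M, Matrix.det_fin_two]
  simp [finTwoEquiv]

lemma vnEntropy_gadMap_psiP {γ ν : ℝ} (hγ : γ ∈ Set.Icc (0 : ℝ) 1) (hν : ν ∈ Set.Icc (0 : ℝ) 1)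
    {p : ℝ} (hp : p ∈ Set.Icc (0 : ℝ) 1) {σ : ℝ} (hσ : σ * σ = 1) :
    vnEntropy (gadMap γ ν (psiP p σ)) = gfun γ ν p := by
  have hD := channel_isDensity (gadMap_isChannel hγ hν) (psiP_isDensity hp hσ)
  refine vnEntropy_qubit hD.1.isHermitian hD.2 _ ?_
  have h1 : Real.sqrt (1 - γ) * Real.sqrt (1 - γ) = 1 - γ :=
    Real.mul_self_sqrt (by linarith [hγ.2])
  have h2 : Real.sqrt (1 - p) * Real.sqrt (1 - p) = 1 - p :=
    Real.mul_self_sqrt (by linarith [hp.2])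
  have h3 : Real.sqrt p * Real.sqrt p = p := Real.mul_self_sqrt hp.1
  rw [det_bool, gadMap_ff, gadMap_tt, gadMap_ft, gadMap_tf, psiP_ff hp, psiP_tt hp hσ, psiP_ft,
    psiP_tf]
  simp only [← Complex.ofReal_mul, ← Complex.ofReal_add, ← Complex.ofReal_sub]
  congr 1
  have h4 : Real.sqrt (1 - γ) * (σ * (Real.sqrt (1 - p) * Real.sqrt p)) *
      (Real.sqrt (1 - γ) * (σ * (Real.sqrt (1 - p) * Real.sqrt p)))
      = (Real.sqrt (1 - γ) * Real.sqrt (1 - γ)) * (σ * σ) *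
        ((Real.sqrt (1 - p) * Real.sqrt (1 - p)) * (Real.sqrt p * Real.sqrt p)) := by ring
  rw [h4, h1, h2, h3, hσ]
  ring

/-- the equal mixture of the outputs of `ψ_p^+` and `ψ_p^-` is diagonal. -/
lemma gadMap_psiP_mix (γ ν : ℝ) {p : ℝ} (hp : p ∈ Set.Icc (0 : ℝ) 1) :
    gadMap γ ν (psiP p 1) + gadMap γ ν (psiP p (-1))
      = (2 : ℂ) • Matrix.diagonal (fun s : Bool =>
          (((if s then (1 - γ) * p + γ * ν else 1 - ((1 - γ) * p + γ * ν)) : ℝ) : ℂ)) := by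
  have hm : (-1 : ℝ) * (-1) = 1 := by norm_num
  have h1 : (1 : ℝ) * 1 = 1 := by norm_num
  ext s t
  cases s <;> cases t <;>
    simp only [Matrix.add_apply, Matrix.smul_apply, gadMap_ff, gadMap_tt, gadMap_ft, gadMap_tf,
      psiP_ff hp, psiP_tt hp hm, psiP_tt hp h1, psiP_ft, psiP_tf, Matrix.diagonal_apply,
      smul_eq_mul] <;> simp <;> ring

lemma vnEntropy_diag_bool (x : ℝ) :
    vnEntropy (Matrix.diagonal (fun s : Bool => (((if s then x else 1 - x) : ℝ) : ℂ)))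
      = Real.binEntropy x := by
  rw [vnEntropy_diagonal, Fintype.sum_bool, Real.binEntropy_eq_negMulLog_add_negMulLog_one_sub]
  simp

/-- The two-state ensemble `{1/2, ψ_p^±}` has Holevo information `gadRate γ ν p`. -/
lemma exists_qubit_ensemble {γ ν : ℝ} (hγ : γ ∈ Set.Icc (0 : ℝ) 1) (hν : ν ∈ Set.Icc (0 : ℝ) 1)
    {p : ℝ} (hp : p ∈ Set.Icc (0 : ℝ) 1) :
    ∃ (q : Fin 2 → ℝ) (ρ : Fin 2 → Matrix Bool Bool ℂ), IsEnsemble q ρ ∧
      holevoInfo (gadMap γ ν) q ρ = gadRate γ ν p := by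
  have hm : (-1 : ℝ) * (-1) = 1 := by norm_num
  have h1 : (1 : ℝ) * 1 = 1 := by norm_num
  refine ⟨fun _ => 1 / 2, ![psiP p 1, psiP p (-1)], ⟨fun _ => by norm_num, by simp, ?_⟩, ?_⟩
  · intro a
    fin_cases a
    · exact psiP_isDensity hp h1
    · exact psiP_isDensity hp hm
  · unfold holevoInfo
    simp only [Fin.sum_univ_two, Matrix.cons_val_zero, Matrix.cons_val_one,
      vnEntropy_gadMap_psiP hγ hν hp h1, vnEntropy_gadMap_psiP hγ hν hp hm, ← smul_add,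
      gadMap_psiP_mix γ ν hp, smul_smul]
    rw [gadRate_eq]
    have : (((1 / 2 : ℝ) : ℂ) * 2) = 1 := by push_cast; norm_num
    rw [this, one_smul, vnEntropy_diag_bool]
    ring

end Psi

/-! ### the easy directions -/

section Easy

/-- S0535, second conjunct. -/
theorem S0535_part2 {γ ν : ℝ} (hγ : γ ∈ Set.Icc (0 : ℝ) 1) (hν : ν ∈ Set.Icc (0 : ℝ) 1)
    {d e : Type*} [Fintype d] [Fintype e] [DecidableEq d] [DecidableEq e]
    {Ψ : Matrix d d ℂ → Matrix e e ℂ} (hΨ : IsChannel Ψ) :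
    ∀ (m₁ : ℕ) (q₁ : Fin m₁ → ℝ) (ρ₁ : Fin m₁ → Matrix Bool Bool ℂ)
      (m₂ : ℕ) (q₂ : Fin m₂ → ℝ) (ρ₂ : Fin m₂ → Matrix d d ℂ), IsEnsemble q₁ ρ₁ → IsEnsemble q₂ ρ₂ →
      ∃ (m : ℕ) (q : Fin m → ℝ) (ρ : Fin m → Matrix (Bool × d) (Bool × d) ℂ), IsEnsemble q ρ ∧
        holevoInfo (gadMap γ ν) q₁ ρ₁ + holevoInfo Ψ q₂ ρ₂ ≤
          holevoInfo (qubitTensor (gadMap γ ν) Ψ) q ρ := by
  intro m₁ q₁ ρ₁ m₂ q₂ ρ₂ h₁ h₂
  exact ⟨m₁ * m₂, prodQ q₁ q₂, prodR ρ₁ ρ₂, isEnsemble_prod h₁ h₂,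
    (holevoInfo_prod (gadMap_isChannel hγ hν) hΨ h₁ h₂).ge⟩

/-- S0535, fourth conjunct. -/
theorem S0535_part4 {γ ν : ℝ} (hγ : γ ∈ Set.Icc (0 : ℝ) 1) (hν : ν ∈ Set.Icc (0 : ℝ) 1)
    {d e : Type*} [Fintype d] [Fintype e] [DecidableEq d] [DecidableEq e]
    {Ψ : Matrix d d ℂ → Matrix e e ℂ} (hΨ : IsChannel Ψ) :
    ∀ (ρ₁ : Matrix Bool Bool ℂ) (ρ₂ : Matrix d d ℂ), IsDensity ρ₁ → IsDensity ρ₂ →
      ∃ ρ : Matrix (Bool × d) (Bool × d) ℂ, IsDensity ρ ∧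
        vnEntropy (qubitTensor (gadMap γ ν) Ψ ρ) ≤ vnEntropy (gadMap γ ν ρ₁) + vnEntropy (Ψ ρ₂) := by
  intro ρ₁ ρ₂ h₁ h₂
  refine ⟨ρ₁ ⊗ₖ ρ₂, isDensity_kronecker h₁ h₂, ?_⟩
  rw [qubitTensor_kronecker (gadMap_isLinearMap γ ν) hΨ.1,
    vnEntropy_kronecker_density (channel_isDensity (gadMap_isChannel hγ hν) h₁)
      (channel_isDensity hΨ h₂)]

/-- S0534, second conjunct (also for `n = 0`). -/
theorem S0534_part2 {γ ν : ℝ} (hγ : γ ∈ Set.Icc (0 : ℝ) 1) (hν : ν ∈ Set.Icc (0 : ℝ) 1) (n : ℕ) :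
    ∀ p ∈ Set.Icc (0 : ℝ) 1, ∃ (m : ℕ) (q : Fin m → ℝ)
        (ρ : Fin m → Matrix (Fin n → Bool) (Fin n → Bool) ℂ),
        IsEnsemble q ρ ∧ n * gadRate γ ν p ≤ holevoInfo (qubitPower n (gadMap γ ν)) q ρ := by
  intro p hp
  induction n with
  | zero =>
    refine ⟨1, fun _ => 1, fun _ => 1, ⟨fun _ => zero_le_one, by simp, fun _ => ?_⟩, ?_⟩
    · exact ⟨Matrix.PosSemidef.one, by simp⟩
    · simp [holevoInfo]
  | succ n ih =>
    obtain ⟨m₂, q₂, ρ₂, h₂, hle⟩ := ih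
    obtain ⟨q₁, ρ₁, h₁, heq⟩ := exists_qubit_ensemble hγ hν hp
    have hch := qubitPower_gadMap_isChannel hγ hν n
    refine ⟨2 * m₂, prodQ q₁ q₂,
      fun x => (prodR ρ₁ ρ₂ x).submatrix (consE n).symm (consE n).symm,
      isEnsemble_submatrix _ (isEnsemble_prod h₁ h₂), ?_⟩
    have key := holevoInfo_submatrix (consE n) (consE n)
      (Ψ := qubitPower (n + 1) (gadMap γ ν))
      (Ψ' := qubitTensor (gadMap γ ν) (qubitPower n (gadMap γ ν)))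
      (qubitPower_succ n _) (prodQ q₁ q₂)
      (fun x => (prodR ρ₁ ρ₂ x).submatrix (consE n).symm (consE n).symm)
    rw [← key]
    have e1 : (fun x => ((prodR ρ₁ ρ₂ x).submatrix (consE n).symm (consE n).symm).submatrix
        (consE n) (consE n)) = prodR ρ₁ ρ₂ := by
      funext x
      simp
    rw [e1, holevoInfo_prod (gadMap_isChannel hγ hν) hch h₁ h₂, heq]
    push_cast
    linarith

end Easy

end Crest.Agent.GA
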