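import Mathlib
import Crest.Prelude.Def_AmpDamp
import Crest.Agent.GA_Prod

/-!
Row 341 infrastructure (helper13): convexity of the second term of `gadRate`,
`g(p) = binEntropy ((1 + √(1 - 4 v(p))) / 2)`, `v(p) = γν(1-ν) + γ(1-γ)(p-ν)²`.

`g = ε ∘ C` with `ε(C) = binEntropy ((1 + √(1 - C²)) / 2)` (convex and increasing on `[0,1]`:
`ε' = t / sinh t`, `t = artanh √(1 - C²)`) and `C(p) = √(4 v(p))` (a Euclidean norm of an affine map).
-/

set_option autoImplicit false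
open Real Set

namespace Crest.Agent.GA

/-- `sinh` is convex on `[0, ∞)`. -/
theorem convexOn_sinh_Ici : ConvexOn ℝ (Ici (0 : ℝ)) sinh := by
  refine MonotoneOn.convexOn_of_deriv (convex_Ici 0) Real.continuous_sinh.continuousOn
    Real.differentiable_sinh.differentiableOn ?_
  rw [Real.deriv_sinh, interior_Ici]
  exact Real.cosh_strictMonoOn.monotoneOn.mono Ioi_subset_Ici_self

theorem mul_sinh_le_mul_sinh {s t : ℝ} (hs : 0 < s) (hst : s ≤ t) : t * sinh s ≤ s * sinh t := by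
  have ht : 0 < t := lt_of_lt_of_le hs hst
  have h := convexOn_sinh_Ici.2 (show t ∈ Ici (0 : ℝ) from Set.mem_Ici.2 ht.le)
    (show (0 : ℝ) ∈ Ici (0 : ℝ) from Set.mem_Ici.2 le_rfl) (show (0 : ℝ) ≤ s / t by positivity)
    (show (0 : ℝ) ≤ 1 - s / t by rw [sub_nonneg, div_le_one ht]; exact hst) (by ring)
  simp only [smul_eq_mul, mul_zero, add_zero, Real.sinh_zero] at h
  rw [div_mul_cancel₀ _ ht.ne'] at h
  calc t * sinh s ≤ t * (s / t * sinh t) := mul_le_mul_of_nonneg_left h ht.le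
    _ = s * sinh t := by field_simp

/-- entropy of a qubit state as a function of `C = 2 √det` ("concurrence"). -/
noncomputable def epsC (C : ℝ) : ℝ := binEntropy ((1 + √(1 - C ^ 2)) / 2)

theorem continuous_epsC : Continuous epsC := by
  unfold epsC
  fun_prop

theorem hasDerivAt_epsC {C : ℝ} (h0 : 0 < C) (h1 : C < 1) :
    HasDerivAt epsC (artanh (√(1 - C ^ 2)) / sinh (artanh (√(1 - C ^ 2)))) C := by
  set r := √(1 - C ^ 2) with hr
  have hw : 0 < 1 - C ^ 2 := by nlinarith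
  have hr0 : 0 < r := Real.sqrt_pos.2 hw
  have hrsq : r ^ 2 = 1 - C ^ 2 := Real.sq_sqrt hw.le
  have hr1 : r < 1 := by nlinarith
  have d1 : HasDerivAt (fun C : ℝ => 1 - C ^ 2) (-(2 * C)) C := by
    have := (hasDerivAt_pow 2 C).const_sub 1
    simpa using this
  have d2 := d1.sqrt hw.ne'
  have d3 : HasDerivAt (fun C : ℝ => (1 + √(1 - C ^ 2)) / 2) (-(2 * C) / (2 * r) / 2) C :=
    (d2.const_add 1).div_const 2
  have hq0 : (1 + r) / 2 ≠ 0 := by positivity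
  have hq1 : (1 + r) / 2 ≠ 1 := by intro h; linarith
  have d4 := (hasDerivAt_binEntropy hq0 hq1).comp C d3
  have hval : (log (1 - (1 + r) / 2) - log ((1 + r) / 2)) * (-(2 * C) / (2 * r) / 2)
      = artanh r / sinh (artanh r) := by
    have hmem : r ∈ Ioo (-1 : ℝ) 1 := ⟨by linarith, hr1⟩
    rw [sinh_artanh hmem, artanh_eq_half_log ⟨by linarith, hr1.le⟩]
    have hC : √(1 - r ^ 2) = C := by
      rw [hrsq]; rw [show 1 - (1 - C ^ 2) = C ^ 2 by ring]; exact Real.sqrt_sq h0.le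
    rw [hC, show 1 - (1 + r) / 2 = (1 - r) / 2 by ring,
      Real.log_div (by linarith) (by norm_num), Real.log_div (by linarith) (by norm_num),
      Real.log_div (by linarith) (by linarith)]
    field_simp
    ring
  rw [hval] at d4
  exact d4

theorem convexOn_epsC : ConvexOn ℝ (Icc (0 : ℝ) 1) epsC := by
  refine MonotoneOn.convexOn_of_deriv (convex_Icc 0 1) continuous_epsC.continuousOn ?_ ?_
  · rw [interior_Icc]
    intro C hC
    exact (hasDerivAt_epsC hC.1 hC.2).differentiableAt.differentiableWithinAt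
  · rw [interior_Icc]
    intro C₁ h₁ C₂ h₂ h12
    rw [(hasDerivAt_epsC h₁.1 h₁.2).deriv, (hasDerivAt_epsC h₂.1 h₂.2).deriv]
    have aux : ∀ C : ℝ, 0 < C → C < 1 → √(1 - C ^ 2) ∈ Ioo (0 : ℝ) 1 := by
      intro C h0 h1
      have hw : 0 < 1 - C ^ 2 := by nlinarith
      refine ⟨Real.sqrt_pos.2 hw, ?_⟩
      rw [Real.sqrt_lt' one_pos]; nlinarith
    have m1 := aux C₁ h₁.1 h₁.2
    have m2 := aux C₂ h₂.1 h₂.2
    have hrr : √(1 - C₂ ^ 2) ≤ √(1 - C₁ ^ 2) := Real.sqrt_le_sqrt (by nlinarith [h₁.1, h₂.1])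
    have ht2 : 0 < artanh (√(1 - C₂ ^ 2)) := artanh_pos m2
    have ht : artanh (√(1 - C₂ ^ 2)) ≤ artanh (√(1 - C₁ ^ 2)) :=
      artanh_le_artanh (by linarith [m2.1]) m1.2 hrr
    have ht1 : 0 < artanh (√(1 - C₁ ^ 2)) := lt_of_lt_of_le ht2 ht
    rw [div_le_div_iff₀ (Real.sinh_pos_iff.2 ht1) (Real.sinh_pos_iff.2 ht2)]
    exact mul_sinh_le_mul_sinh ht2 ht

theorem monotoneOn_epsC : MonotoneOn epsC (Icc (0 : ℝ) 1) := by
  intro C₁ h₁ C₂ h₂ h12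
  unfold epsC
  have hrr : √(1 - C₂ ^ 2) ≤ √(1 - C₁ ^ 2) := Real.sqrt_le_sqrt (by nlinarith [h₁.1, h₂.1])
  have aux : ∀ C : ℝ, 0 ≤ C → (1 + √(1 - C ^ 2)) / 2 ∈ Icc (2⁻¹ : ℝ) 1 := by
    intro C h0
    have : √(1 - C ^ 2) ≤ 1 := by
      rw [Real.sqrt_le_one]
      nlinarith
    constructor
    · have := Real.sqrt_nonneg (1 - C ^ 2); linarith
    · linarith
  exact binEntropy_strictAntiOn.antitoneOn (aux C₂ h₂.1) (aux C₁ h₁.1) (by linarith)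

/-- `x ↦ √(a + b x²)` satisfies the convexity inequality. -/
theorem sqrt_quad_convex {a b : ℝ} (ha : 0 ≤ a) (hb : 0 ≤ b) (x y α β : ℝ) (hα : 0 ≤ α)
    (hβ : 0 ≤ β) (hαβ : α + β = 1) :
    √(a + b * (α * x + β * y) ^ 2) ≤ α * √(a + b * x ^ 2) + β * √(a + b * y ^ 2) := by
  have hX : 0 ≤ a + b * x ^ 2 := by positivity
  have hY : 0 ≤ a + b * y ^ 2 := by positivity
  set s₁ := √(a + b * x ^ 2) with hs₁
  set s₂ := √(a + b * y ^ 2) with hs₂
  have h1 : s₁ ^ 2 = a + b * x ^ 2 := Real.sq_sqrt hX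
  have h2 : s₂ ^ 2 = a + b * y ^ 2 := Real.sq_sqrt hY
  have p1 : 0 ≤ s₁ := Real.sqrt_nonneg _
  have p2 : 0 ≤ s₂ := Real.sqrt_nonneg _
  have hcs : a + b * x * y ≤ s₁ * s₂ := by
    have hsq : (a + b * x * y) ^ 2 ≤ (s₁ * s₂) ^ 2 := by
      rw [mul_pow, h1, h2]
      nlinarith [mul_nonneg (mul_nonneg ha hb) (sq_nonneg (x - y))]
    exact le_trans (le_abs_self _) (abs_le_of_sq_le_sq hsq (mul_nonneg p1 p2))
  rw [Real.sqrt_le_left (by positivity)]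
  have hβ' : β = 1 - α := by linarith
  have : (α * s₁ + β * s₂) ^ 2 = α ^ 2 * s₁ ^ 2 + β ^ 2 * s₂ ^ 2 + 2 * (α * β) * (s₁ * s₂) := by ring
  rw [this, h1, h2]
  have h3 := mul_le_mul_of_nonneg_left hcs (mul_nonneg hα hβ)
  subst hβ'
  nlinarith [h3]

/-- `1 - 4 v(p)` is a sum of nonnegative terms. -/
theorem one_sub_four_v (γ ν p : ℝ) :
    1 - 4 * (γ * ν * (1 - ν) + γ * (1 - γ) * (p - ν) ^ 2)
      = (1 - p) * (1 - 2 * γ * ν) ^ 2 + p * (1 - 2 * γ * (1 - ν)) ^ 2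
        + 4 * (γ * (1 - γ)) * (p * (1 - p)) := by ring

theorem four_v_le_one {γ ν p : ℝ} (hγ : γ ∈ Icc (0 : ℝ) 1) (hp : p ∈ Icc (0 : ℝ) 1) :
    4 * (γ * ν * (1 - ν) + γ * (1 - γ) * (p - ν) ^ 2) ≤ 1 := by
  have h := one_sub_four_v γ ν p
  have h1 : 0 ≤ (1 - p) * (1 - 2 * γ * ν) ^ 2 := mul_nonneg (by linarith [hp.2]) (sq_nonneg _)
  have h2 : 0 ≤ p * (1 - 2 * γ * (1 - ν)) ^ 2 := mul_nonneg hp.1 (sq_nonneg _)
  have h3 : 0 ≤ 4 * (γ * (1 - γ)) * (p * (1 - p)) :=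
    mul_nonneg (mul_nonneg (by norm_num) (mul_nonneg hγ.1 (by linarith [hγ.2])))
      (mul_nonneg hp.1 (by linarith [hp.2]))
  linarith

/-- `C(p) = √(4 v(p))`. -/
noncomputable def concC (γ ν p : ℝ) : ℝ := √(4 * (γ * ν * (1 - ν)) + 4 * (γ * (1 - γ)) * (p - ν) ^ 2)

theorem concC_mem {γ ν p : ℝ} (hγ : γ ∈ Icc (0 : ℝ) 1) (hp : p ∈ Icc (0 : ℝ) 1) :
    concC γ ν p ∈ Icc (0 : ℝ) 1 := by
  refine ⟨Real.sqrt_nonneg _, ?_⟩
  unfold concC
  rw [Real.sqrt_le_one]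
  have := four_v_le_one (ν := ν) hγ hp
  linarith

theorem gfun_eq_epsC {γ ν p : ℝ} (hγ : γ ∈ Icc (0 : ℝ) 1) (hν : ν ∈ Icc (0 : ℝ) 1) :
    gfun γ ν p = epsC (concC γ ν p) := by
  unfold gfun epsC concC
  have h0 : 0 ≤ 4 * (γ * ν * (1 - ν)) + 4 * (γ * (1 - γ)) * (p - ν) ^ 2 := by
    have h1 : 0 ≤ γ * ν * (1 - ν) := mul_nonneg (mul_nonneg hγ.1 hν.1) (by linarith [hν.2])
    have h2 : 0 ≤ γ * (1 - γ) := mul_nonneg hγ.1 (by linarith [hγ.2])
    positivity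
  rw [Real.sq_sqrt h0]
  congr 4
  ring

/-- **Convexity** of the second term of `gadRate`. -/
theorem convexOn_gfun {γ ν : ℝ} (hγ : γ ∈ Icc (0 : ℝ) 1) (hν : ν ∈ Icc (0 : ℝ) 1) :
    ConvexOn ℝ (Icc (0 : ℝ) 1) (gfun γ ν) := by
  refine ⟨convex_Icc 0 1, ?_⟩
  intro x hx y hy α β hα hβ hαβ
  have hz : α • x + β • y ∈ Icc (0 : ℝ) 1 := (convex_Icc (0 : ℝ) 1) hx hy hα hβ hαβ
  rw [gfun_eq_epsC hγ hν, gfun_eq_epsC hγ hν, gfun_eq_epsC hγ hν]
  have ha : 0 ≤ 4 * (γ * ν * (1 - ν)) := by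
    have h1 : 0 ≤ γ * ν * (1 - ν) := mul_nonneg (mul_nonneg hγ.1 hν.1) (by linarith [hν.2])
    positivity
  have hb : 0 ≤ 4 * (γ * (1 - γ)) := by
    have h2 : 0 ≤ γ * (1 - γ) := mul_nonneg hγ.1 (by linarith [hγ.2])
    positivity
  have hC : concC γ ν (α • x + β • y) ≤ α • concC γ ν x + β • concC γ ν y := by
    have := sqrt_quad_convex ha hb (x - ν) (y - ν) α β hα hβ hαβ
    unfold concC
    simp only [smul_eq_mul]
    have e : α * x + β * y - ν = α * (x - ν) + β * (y - ν) := by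
      have : β = 1 - α := by linarith
      subst this; ring
    rw [e]
    exact this
  have hmid : α • concC γ ν x + β • concC γ ν y ∈ Icc (0 : ℝ) 1 :=
    (convex_Icc (0 : ℝ) 1) (concC_mem hγ hx) (concC_mem hγ hy) hα hβ hαβ
  calc epsC (concC γ ν (α • x + β • y))
      ≤ epsC (α • concC γ ν x + β • concC γ ν y) := monotoneOn_epsC (concC_mem hγ hz) hmid hC
    _ ≤ α • epsC (concC γ ν x) + β • epsC (concC γ ν y) :=
        convexOn_epsC.2 (concC_mem hγ hx) (concC_mem hγ hy) hα hβ hαβ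

/-- Jensen form for finite ensembles. -/
theorem gfun_jensen {γ ν : ℝ} (hγ : γ ∈ Icc (0 : ℝ) 1) (hν : ν ∈ Icc (0 : ℝ) 1)
    {ι : Type*} [Fintype ι] (q p : ι → ℝ) (hq : ∀ a, 0 ≤ q a) (hsum : ∑ a, q a = 1)
    (hp : ∀ a, p a ∈ Icc (0 : ℝ) 1) :
    gfun γ ν (∑ a, q a * p a) ≤ ∑ a, q a * gfun γ ν (p a) := by
  have := (convexOn_gfun hγ hν).map_sum_le (t := Finset.univ) (w := q) (p := p)
    (fun a _ => hq a) hsum (fun a _ => hp a)
  simpa [smul_eq_mul] using this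

end Crest.Agent.GA
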