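import Mathlib
import Crest.Agent.GA_Chan
import Crest.Agent.GA_Spec
import Crest.Agent.GA_Conc
import Crest.Agent.GA_GConv
import Crest.Agent.GA_Prod

/-!
Row 341 (S0534/S0535): the hard directions of S0535 from the matrix inequality (KZ).
-/

set_option autoImplicit false
set_option linter.unusedSectionVars false
open Crest.Quantum Crest.MathPhysics.AmpDamp
open scoped ComplexOrder Matrix Kronecker

namespace Crest.Agent.GA

/-- The matrix inequality (KZ) on the output system `e`. -/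
def KZ (γ ν : ℝ) (e : Type*) [Fintype e] [DecidableEq e] : Prop :=
  ∀ σ : Matrix (Bool × e) (Bool × e) ℂ, σ.PosSemidef → σ.trace = 1 →
    gfun γ ν (block σ true true).trace.re - Real.binEntropy (block σ true true).trace.re
      + vnEntropy (block σ false false) + vnEntropy (block σ true true) ≤ vnEntropy (gadBlk γ ν σ)

section Norm
variable {d : Type*} [Fintype d] [DecidableEq d]

lemma hard_trace_eq_re {A : Matrix d d ℂ} (hA : A.PosSemidef) :
    A.trace = ((A.trace.re : ℝ) : ℂ) := by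
  have h := hA.trace_nonneg
  rw [Complex.le_def] at h
  apply Complex.ext
  · simp
  · simpa using h.2.symm

lemma hard_trace_re_nonneg {A : Matrix d d ℂ} (hA : A.PosSemidef) : 0 ≤ A.trace.re := by
  have h := hA.trace_nonneg
  rw [Complex.le_def] at h
  simpa using h.1

lemma exists_density [Nonempty d] : ∃ B : Matrix d d ℂ, IsDensity B := by
  obtain ⟨i⟩ := ‹Nonempty d›
  refine ⟨Matrix.vecMulVec (Pi.single i 1) (star (Pi.single i 1)),
    Matrix.posSemidef_vecMulVec_self_star _, ?_⟩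
  simp [Matrix.trace, Matrix.vecMulVec_apply, Pi.single_apply]

lemma exists_normalize [Nonempty d] {A : Matrix d d ℂ} (hA : A.PosSemidef) :
    ∃ B, IsDensity B ∧ A = ((A.trace.re : ℝ) : ℂ) • B := by
  by_cases h : A.trace.re = 0
  · obtain ⟨B, hB⟩ := exists_density (d := d)
    refine ⟨B, hB, ?_⟩
    have h0 : A.trace = 0 := by rw [hard_trace_eq_re hA, h]; simp
    rw [h, hA.trace_eq_zero_iff.1 h0]
    simp
  · have hpos : 0 < A.trace.re := lt_of_le_of_ne (hard_trace_re_nonneg hA) (Ne.symm h)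
    refine ⟨((A.trace.re⁻¹ : ℝ) : ℂ) • A, ⟨hA.smul (by exact_mod_cast (inv_pos.2 hpos).le), ?_⟩, ?_⟩
    · rw [Matrix.trace_smul, smul_eq_mul]
      have ht := hard_trace_eq_re hA
      generalize A.trace.re = τ at ht h
      rw [ht, ← Complex.ofReal_mul, inv_mul_cancel₀ h]
      simp
    · rw [smul_smul, ← Complex.ofReal_mul, mul_inv_cancel₀ h]
      simp

end Norm

section Blk
variable {e : Type*} [Fintype e] [DecidableEq e]

lemma block_gadBlk_ff (γ ν : ℝ) (σ : Matrix (Bool × e) (Bool × e) ℂ) :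
    block (gadBlk γ ν σ) false false = ((1 - γ * ν : ℝ) : ℂ) • block σ false false
      + ((γ * (1 - ν) : ℝ) : ℂ) • block σ true true := by
  ext i j
  simp [block]

lemma block_gadBlk_tt (γ ν : ℝ) (σ : Matrix (Bool × e) (Bool × e) ℂ) :
    block (gadBlk γ ν σ) true true = ((γ * ν : ℝ) : ℂ) • block σ false false
      + ((1 - γ + γ * ν : ℝ) : ℂ) • block σ true true := by
  ext i j
  simp [block]

lemma block_sum_smul {k ι : Type*} [Fintype ι] (q : ι → ℂ)
    (M : ι → Matrix (k × e) (k × e) ℂ) (s t : k) :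
    block (∑ a, q a • M a) s t = ∑ a, q a • block (M a) s t := by
  ext i j
  simp [block, Matrix.sum_apply]

end Blk

section State
variable {d e : Type*} [Fintype d] [Fintype e] [DecidableEq d] [DecidableEq e]

/-- All the per-state facts used in the hard directions. -/
lemma kz_state {γ ν : ℝ} [Nonempty d]
    {Ψ : Matrix d d ℂ → Matrix e e ℂ} (hΨ : IsChannel Ψ) (hkz : KZ γ ν e)
    {ρ : Matrix (Bool × d) (Bool × d) ℂ} (hρ : IsDensity ρ) :
    ∃ (p : ℝ) (B0 B1 : Matrix d d ℂ), p ∈ Set.Icc (0 : ℝ) 1 ∧ IsDensity B0 ∧ IsDensity B1 ∧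
      (block (qubitTensor (gadMap γ ν) Ψ ρ) true true).trace.re = (1 - γ) * p + γ * ν ∧
      block (qubitTensor (gadMap γ ν) Ψ ρ) false false
        + block (qubitTensor (gadMap γ ν) Ψ ρ) true true
          = ((1 - p : ℝ) : ℂ) • Ψ B0 + ((p : ℝ) : ℂ) • Ψ B1 ∧
      gfun γ ν p + (1 - p) * vnEntropy (Ψ B0) + p * vnEntropy (Ψ B1)
        ≤ vnEntropy (qubitTensor (gadMap γ ν) Ψ ρ) := by
  have h0 := chan_block_posSemidef hρ.1 false
  have h1 := chan_block_posSemidef hρ.1 true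
  obtain ⟨B0, hB0, e0⟩ := exists_normalize h0
  obtain ⟨B1, hB1, e1⟩ := exists_normalize h1
  set p : ℝ := (block ρ true true).trace.re with hp
  have htr : (block ρ false false).trace.re = 1 - p := by
    have := chan_trace_eq_sum_block ρ
    rw [hρ.2, Fintype.sum_bool] at this
    have h2 := congrArg Complex.re this
    simp only [Complex.one_re, Complex.add_re] at h2
    linarith
  rw [htr] at e0
  have hp0 : 0 ≤ p := hard_trace_re_nonneg h1
  have hp1 : p ≤ 1 := by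
    have := hard_trace_re_nonneg h0
    linarith
  have hD0 := channel_isDensity hΨ hB0
  have hD1 := channel_isDensity hΨ hB1
  have hσ := channel_isDensity_blockwise (k := Bool) hΨ hρ
  have b0 : block (blockwise (k := Bool) Ψ ρ) false false = ((1 - p : ℝ) : ℂ) • Ψ B0 := by
    rw [block_blockwise, e0, hΨ.1.map_smul]
  have b1 : block (blockwise (k := Bool) Ψ ρ) true true = ((p : ℝ) : ℂ) • Ψ B1 := by
    rw [block_blockwise, e1, hΨ.1.map_smul]
  refine ⟨p, B0, B1, ⟨hp0, hp1⟩, hB0, hB1, ?_, ?_, ?_⟩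
  · rw [qubitTensor_gadMap, block_gadBlk_tt, b0, b1]
    simp only [Matrix.trace_add, Matrix.trace_smul, hD0.2, hD1.2, smul_eq_mul, mul_one,
      ← Complex.ofReal_mul, ← Complex.ofReal_add, Complex.ofReal_re]
    ring
  · rw [qubitTensor_gadMap, block_gadBlk_tt, block_gadBlk_ff, b0, b1]
    simp only [smul_smul, ← Complex.ofReal_mul]
    rw [add_add_add_comm, ← add_smul, ← add_smul, ← Complex.ofReal_add, ← Complex.ofReal_add]
    congr 2 <;> congr 1 <;> ring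
  · have key := hkz _ hσ.1 hσ.2
    rw [b0, b1, vnEntropy_smul hD0.1.isHermitian, vnEntropy_smul hD1.1.isHermitian, hD0.2, hD1.2,
      Matrix.trace_smul, hD1.2, ← qubitTensor_gadMap] at key
    simp only [smul_eq_mul, mul_one, Complex.ofReal_re, Complex.one_re] at key
    rw [Real.binEntropy_eq_negMulLog_add_negMulLog_one_sub] at key
    linarith

/-- S0535, third conjunct (no `ε` needed). -/
theorem S0535_part3 {γ ν : ℝ} (hγ : γ ∈ Set.Icc (0 : ℝ) 1) (hν : ν ∈ Set.Icc (0 : ℝ) 1)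
    [Nonempty d] {Ψ : Matrix d d ℂ → Matrix e e ℂ} (hΨ : IsChannel Ψ) (hkz : KZ γ ν e) :
    ∀ ρ : Matrix (Bool × d) (Bool × d) ℂ, IsDensity ρ → ∀ ε > (0 : ℝ),
      ∃ (ρ₁ : Matrix Bool Bool ℂ) (ρ₂ : Matrix d d ℂ), IsDensity ρ₁ ∧ IsDensity ρ₂ ∧
        vnEntropy (gadMap γ ν ρ₁) + vnEntropy (Ψ ρ₂)
          ≤ vnEntropy (qubitTensor (gadMap γ ν) Ψ ρ) + ε := by
  intro ρ hρ ε hε
  obtain ⟨p, B0, B1, hp, hB0, hB1, -, -, key⟩ := kz_state hΨ hkz hρ
  have h1 : (1 : ℝ) * 1 = 1 := by norm_num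
  rcases le_total (vnEntropy (Ψ B0)) (vnEntropy (Ψ B1)) with h | h
  · refine ⟨psiP p 1, B0, psiP_isDensity hp h1, hB0, ?_⟩
    rw [vnEntropy_gadMap_psiP hγ hν hp h1]
    nlinarith [mul_le_mul_of_nonneg_left h hp.1]
  · refine ⟨psiP p 1, B1, psiP_isDensity hp h1, hB1, ?_⟩
    rw [vnEntropy_gadMap_psiP hγ hν hp h1]
    nlinarith [mul_le_mul_of_nonneg_left h (sub_nonneg.2 hp.2)]

/-- The refined form of the Holevo bound (used for S0535 part 1 and for the induction in S0534). -/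
theorem holevo_hard {γ ν : ℝ} (hγ : γ ∈ Set.Icc (0 : ℝ) 1) (hν : ν ∈ Set.Icc (0 : ℝ) 1)
    [Nonempty d] {Ψ : Matrix d d ℂ → Matrix e e ℂ} (hΨ : IsChannel Ψ) (hkz : KZ γ ν e)
    {m : ℕ} {q : Fin m → ℝ} {ρ : Fin m → Matrix (Bool × d) (Bool × d) ℂ} (h : IsEnsemble q ρ) :
    ∃ (p : Fin m → ℝ) (q₂ : Fin (m * 2) → ℝ) (ρ₂ : Fin (m * 2) → Matrix d d ℂ),
      (∀ a, p a ∈ Set.Icc (0 : ℝ) 1) ∧ IsEnsemble q₂ ρ₂ ∧
      holevoInfo (qubitTensor (gadMap γ ν) Ψ) q ρ ≤
        Real.binEntropy ((1 - γ) * (∑ a, q a * p a) + γ * ν) - ∑ a, q a * gfun γ ν (p a)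
          + holevoInfo Ψ q₂ ρ₂ := by
  have hst := fun a => kz_state (γ := γ) (ν := ν) hΨ hkz (h.2.2 a)
  choose p B0 B1 hp hB0 hB1 htt hsum key using hst
  have hch := qubitTensor_gadMap_isChannel hγ hν hΨ
  have hav := isDensity_average (isEnsemble_map hch h)
  -- the second ensemble
  let w : Fin m → Fin 2 → ℝ := fun a j => q a * (if j = 0 then 1 - p a else p a)
  let R : Fin m → Fin 2 → Matrix d d ℂ := fun a j => if j = 0 then B0 a else B1 a
  refine ⟨p, fun x => w (finProdFinEquiv.symm x).1 (finProdFinEquiv.symm x).2,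
    fun x => R (finProdFinEquiv.symm x).1 (finProdFinEquiv.symm x).2, hp, ⟨?_, ?_, ?_⟩, ?_⟩
  · intro x
    dsimp only [w]
    refine mul_nonneg (h.1 _) ?_
    split_ifs
    · exact sub_nonneg.2 (hp _).2
    · exact (hp _).1
  · rw [sum_fin_mul w]
    simp only [w, Fin.sum_univ_two, if_true, one_ne_zero, if_false, Fin.isValue]
    have hw : ∀ a, q a * (1 - p a) + q a * p a = q a := fun a => by ring
    simp only [hw]
    exact h.2.1
  · intro x
    dsimp only [R]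
    split_ifs
    · exact hB0 _
    · exact hB1 _
  · unfold holevoInfo
    have sub := vnEntropy_le_binEntropy_add hav.1 hav.2
    rw [block_sum_smul, block_sum_smul] at sub
    have t1 : (∑ a, (q a : ℂ) • block (qubitTensor (gadMap γ ν) Ψ (ρ a)) true true).trace.re
        = (1 - γ) * (∑ a, q a * p a) + γ * ν := by
      rw [Matrix.trace_sum, Complex.re_sum]
      simp only [Matrix.trace_smul, smul_eq_mul, Complex.re_ofReal_mul, htt]
      have hw : ∀ a, q a * ((1 - γ) * p a + γ * ν) = (1 - γ) * (q a * p a) + q a * (γ * ν) :=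
        fun a => by ring
      simp only [hw, Finset.sum_add_distrib, ← Finset.mul_sum, ← Finset.sum_mul, h.2.1, one_mul]
    have t2 : ∑ a, (q a : ℂ) • block (qubitTensor (gadMap γ ν) Ψ (ρ a)) false false
        + ∑ a, (q a : ℂ) • block (qubitTensor (gadMap γ ν) Ψ (ρ a)) true true
        = ∑ x : Fin (m * 2), ((w (finProdFinEquiv.symm x).1 (finProdFinEquiv.symm x).2 : ℝ) : ℂ) •
            Ψ (R (finProdFinEquiv.symm x).1 (finProdFinEquiv.symm x).2) := by
      rw [sum_fin_mul (fun a j => ((w a j : ℝ) : ℂ) • Ψ (R a j)), ← Finset.sum_add_distrib]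
      refine Finset.sum_congr rfl fun a _ => ?_
      rw [← smul_add, hsum]
      simp only [w, R, Fin.sum_univ_two, if_true, one_ne_zero, if_false, Fin.isValue, smul_add,
        smul_smul, Complex.ofReal_mul]
    have t3 : ∑ x : Fin (m * 2), w (finProdFinEquiv.symm x).1 (finProdFinEquiv.symm x).2 *
            vnEntropy (Ψ (R (finProdFinEquiv.symm x).1 (finProdFinEquiv.symm x).2))
        = ∑ a, q a * ((1 - p a) * vnEntropy (Ψ (B0 a)) + p a * vnEntropy (Ψ (B1 a))) := by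
      rw [sum_fin_mul (fun a j => w a j * vnEntropy (Ψ (R a j)))]
      refine Finset.sum_congr rfl fun a _ => ?_
      simp only [w, R, Fin.sum_univ_two, if_true, one_ne_zero, if_false, Fin.isValue]
      ring
    rw [t1, t2] at sub
    rw [t3]
    have t4 : ∑ a, q a * gfun γ ν (p a)
        + ∑ a, q a * ((1 - p a) * vnEntropy (Ψ (B0 a)) + p a * vnEntropy (Ψ (B1 a)))
        ≤ ∑ a, q a * vnEntropy (qubitTensor (gadMap γ ν) Ψ (ρ a)) := by
      rw [← Finset.sum_add_distrib]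
      refine Finset.sum_le_sum fun a _ => ?_
      rw [← mul_add]
      refine mul_le_mul_of_nonneg_left ?_ (h.1 a)
      linarith [key a]
    linarith

end State

section PsiEns

/-- The ensemble `{q_a / 2, ψ^±_{p_a}}` of the qubit channel. -/
theorem exists_psi_ensemble {γ ν : ℝ} (hγ : γ ∈ Set.Icc (0 : ℝ) 1) (hν : ν ∈ Set.Icc (0 : ℝ) 1)
    {m : ℕ} {q p : Fin m → ℝ} (hq : ∀ a, 0 ≤ q a) (hq1 : ∑ a, q a = 1)
    (hp : ∀ a, p a ∈ Set.Icc (0 : ℝ) 1) :
    ∃ (q₁ : Fin (m * 2) → ℝ) (ρ₁ : Fin (m * 2) → Matrix Bool Bool ℂ), IsEnsemble q₁ ρ₁ ∧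
      holevoInfo (gadMap γ ν) q₁ ρ₁ =
        Real.binEntropy ((1 - γ) * (∑ a, q a * p a) + γ * ν) - ∑ a, q a * gfun γ ν (p a) := by
  have hm : (-1 : ℝ) * (-1) = 1 := by norm_num
  have h1 : (1 : ℝ) * 1 = 1 := by norm_num
  let w : Fin m → Fin 2 → ℝ := fun a _ => q a * (1 / 2)
  let R : Fin m → Fin 2 → Matrix Bool Bool ℂ := fun a j => psiP (p a) (if j = 0 then 1 else -1)
  refine ⟨fun x => w (finProdFinEquiv.symm x).1 (finProdFinEquiv.symm x).2,
    fun x => R (finProdFinEquiv.symm x).1 (finProdFinEquiv.symm x).2, ⟨?_, ?_, ?_⟩, ?_⟩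
  · intro x
    exact mul_nonneg (hq _) (by norm_num)
  · rw [sum_fin_mul w]
    simp only [w, Fin.sum_univ_two]
    have hw : ∀ a, q a * (1 / 2) + q a * (1 / 2) = q a := fun a => by ring
    simp only [hw]
    exact hq1
  · intro x
    dsimp only [R]
    split_ifs
    · exact psiP_isDensity (hp _) h1
    · exact psiP_isDensity (hp _) hm
  · unfold holevoInfo
    have t2 : ∑ x : Fin (m * 2), ((w (finProdFinEquiv.symm x).1 (finProdFinEquiv.symm x).2 : ℝ) : ℂ) •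
            gadMap γ ν (R (finProdFinEquiv.symm x).1 (finProdFinEquiv.symm x).2)
        = Matrix.diagonal (fun s : Bool =>
          (((if s then (1 - γ) * (∑ a, q a * p a) + γ * ν
            else 1 - ((1 - γ) * (∑ a, q a * p a) + γ * ν)) : ℝ) : ℂ)) := by
      rw [sum_fin_mul (fun a j => ((w a j : ℝ) : ℂ) • gadMap γ ν (R a j))]
      simp only [w, R, Fin.sum_univ_two, if_true, one_ne_zero, if_false, Fin.isValue, ← smul_add,
        gadMap_psiP_mix γ ν (hp _), smul_smul]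
      have hx : (1 - γ) * (∑ a, q a * p a) + γ * ν = ∑ a, q a * ((1 - γ) * p a + γ * ν) := by
        have hw : ∀ a, q a * ((1 - γ) * p a + γ * ν) = (1 - γ) * (q a * p a) + q a * (γ * ν) :=
          fun a => by ring
        simp only [hw, Finset.sum_add_distrib, ← Finset.mul_sum, ← Finset.sum_mul, hq1, one_mul]
      have hx' : 1 - ((1 - γ) * (∑ a, q a * p a) + γ * ν)
          = ∑ a, q a * (1 - ((1 - γ) * p a + γ * ν)) := by
        rw [hx]
        simp only [mul_sub, mul_one, Finset.sum_sub_distrib, hq1]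
      ext s t
      rw [Matrix.sum_apply]
      cases s <;> cases t <;>
        simp only [Matrix.smul_apply, Matrix.diagonal_apply, smul_eq_mul, if_true, if_false,
          Bool.false_eq_true, reduceCtorEq, mul_zero, Finset.sum_const_zero]
      · rw [hx', Complex.ofReal_sum]
        refine Finset.sum_congr rfl fun a _ => ?_
        push_cast
        ring
      · rw [hx, Complex.ofReal_sum]
        refine Finset.sum_congr rfl fun a _ => ?_
        push_cast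
        ring
    have t3 : ∑ x : Fin (m * 2), w (finProdFinEquiv.symm x).1 (finProdFinEquiv.symm x).2 *
            vnEntropy (gadMap γ ν (R (finProdFinEquiv.symm x).1 (finProdFinEquiv.symm x).2))
        = ∑ a, q a * gfun γ ν (p a) := by
      rw [sum_fin_mul (fun a j => w a j * vnEntropy (gadMap γ ν (R a j)))]
      refine Finset.sum_congr rfl fun a _ => ?_
      simp only [w, R, Fin.sum_univ_two, if_true, one_ne_zero, if_false, Fin.isValue,
        vnEntropy_gadMap_psiP hγ hν (hp a) h1, vnEntropy_gadMap_psiP hγ hν (hp a) hm]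
      ring
    rw [t2, t3, vnEntropy_diag_bool]

end PsiEns

section Part1
variable {d e : Type*} [Fintype d] [Fintype e] [DecidableEq d] [DecidableEq e]

/-- S0535, first conjunct (no `ε` needed). -/
theorem S0535_part1 {γ ν : ℝ} (hγ : γ ∈ Set.Icc (0 : ℝ) 1) (hν : ν ∈ Set.Icc (0 : ℝ) 1)
    [Nonempty d] {Ψ : Matrix d d ℂ → Matrix e e ℂ} (hΨ : IsChannel Ψ) (hkz : KZ γ ν e) :
    ∀ (m : ℕ) (q : Fin m → ℝ) (ρ : Fin m → Matrix (Bool × d) (Bool × d) ℂ), IsEnsemble q ρ →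
      ∀ ε > (0 : ℝ), ∃ (m₁ : ℕ) (q₁ : Fin m₁ → ℝ) (ρ₁ : Fin m₁ → Matrix Bool Bool ℂ)
        (m₂ : ℕ) (q₂ : Fin m₂ → ℝ) (ρ₂ : Fin m₂ → Matrix d d ℂ),
        IsEnsemble q₁ ρ₁ ∧ IsEnsemble q₂ ρ₂ ∧
          holevoInfo (qubitTensor (gadMap γ ν) Ψ) q ρ ≤
            holevoInfo (gadMap γ ν) q₁ ρ₁ + holevoInfo Ψ q₂ ρ₂ + ε := by
  intro m q ρ h ε hε
  obtain ⟨p, q₂, ρ₂, hp, h₂, hle⟩ := holevo_hard hγ hν hΨ hkz h
  obtain ⟨q₁, ρ₁, h₁, heq⟩ := exists_psi_ensemble hγ hν h.1 h.2.1 hp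
  refine ⟨m * 2, q₁, ρ₁, m * 2, q₂, ρ₂, h₁, h₂, ?_⟩
  rw [heq]
  linarith

/-- The four conjuncts of S0535 from (KZ). -/
theorem S0535_of_KZ {γ ν : ℝ} (hγ : γ ∈ Set.Icc (0 : ℝ) 1) (hν : ν ∈ Set.Icc (0 : ℝ) 1)
    [Nonempty d] {Ψ : Matrix d d ℂ → Matrix e e ℂ} (hΨ : IsChannel Ψ) (hkz : KZ γ ν e) :
    (∀ (m : ℕ) (q : Fin m → ℝ) (ρ : Fin m → Matrix (Bool × d) (Bool × d) ℂ), IsEnsemble q ρ →
      ∀ ε > (0 : ℝ), ∃ (m₁ : ℕ) (q₁ : Fin m₁ → ℝ) (ρ₁ : Fin m₁ → Matrix Bool Bool ℂ)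
        (m₂ : ℕ) (q₂ : Fin m₂ → ℝ) (ρ₂ : Fin m₂ → Matrix d d ℂ),
        IsEnsemble q₁ ρ₁ ∧ IsEnsemble q₂ ρ₂ ∧
          holevoInfo (qubitTensor (gadMap γ ν) Ψ) q ρ ≤
            holevoInfo (gadMap γ ν) q₁ ρ₁ + holevoInfo Ψ q₂ ρ₂ + ε) ∧
    (∀ (m₁ : ℕ) (q₁ : Fin m₁ → ℝ) (ρ₁ : Fin m₁ → Matrix Bool Bool ℂ)
      (m₂ : ℕ) (q₂ : Fin m₂ → ℝ) (ρ₂ : Fin m₂ → Matrix d d ℂ), IsEnsemble q₁ ρ₁ → IsEnsemble q₂ ρ₂ →
      ∃ (m : ℕ) (q : Fin m → ℝ) (ρ : Fin m → Matrix (Bool × d) (Bool × d) ℂ), IsEnsemble q ρ ∧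
        holevoInfo (gadMap γ ν) q₁ ρ₁ + holevoInfo Ψ q₂ ρ₂ ≤
          holevoInfo (qubitTensor (gadMap γ ν) Ψ) q ρ) ∧
    (∀ ρ : Matrix (Bool × d) (Bool × d) ℂ, IsDensity ρ → ∀ ε > (0 : ℝ),
      ∃ (ρ₁ : Matrix Bool Bool ℂ) (ρ₂ : Matrix d d ℂ), IsDensity ρ₁ ∧ IsDensity ρ₂ ∧
        vnEntropy (gadMap γ ν ρ₁) + vnEntropy (Ψ ρ₂) ≤ vnEntropy (qubitTensor (gadMap γ ν) Ψ ρ) + ε) ∧
    (∀ (ρ₁ : Matrix Bool Bool ℂ) (ρ₂ : Matrix d d ℂ), IsDensity ρ₁ → IsDensity ρ₂ →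
      ∃ ρ : Matrix (Bool × d) (Bool × d) ℂ, IsDensity ρ ∧
        vnEntropy (qubitTensor (gadMap γ ν) Ψ ρ) ≤ vnEntropy (gadMap γ ν ρ₁) + vnEntropy (Ψ ρ₂)) :=
  ⟨S0535_part1 hγ hν hΨ hkz, S0535_part2 hγ hν hΨ, S0535_part3 hγ hν hΨ hkz,
    S0535_part4 hγ hν hΨ⟩

end Part1

end Crest.Agent.GA
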