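import Mathlib
import Crest.Prelude.Def_QState

/-!
Row 341 (S0534/S0535), blueprint-independent analytic infrastructure (helper53).

Integral representation of `-λ log λ` and of the von Neumann entropy:
`∫_0^T (log (t+λ) - log t) dt = (T+λ) log (T+λ) - λ log λ - T log T`.
-/

set_option autoImplicit false
open MeasureTheory intervalIntegral Real
open scoped ComplexOrder

namespace Crest.Agent.GA

/-- `t ↦ log (t + c)` is interval integrable on every interval. -/
theorem intervalIntegrable_log_add (c a b : ℝ) :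
    IntervalIntegrable (fun t : ℝ => Real.log (t + c)) volume a b := by
  have h : IntervalIntegrable (fun t : ℝ => Real.log t) volume (a + c) (b + c) :=
    intervalIntegral.intervalIntegrable_log'
  simpa using h.comp_add_right c

theorem integral_log_add (c a b : ℝ) :
    ∫ t in a..b, Real.log (t + c) =
      (b + c) * Real.log (b + c) - (a + c) * Real.log (a + c) - b + a := by
  rw [intervalIntegral.integral_comp_add_right (fun t => Real.log t) c, integral_log]
  ring

/-- (I1) the basic integral. -/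
theorem integral_log_add_sub_log (lam T : ℝ) :
    ∫ t in (0:ℝ)..T, (Real.log (t + lam) - Real.log t) =
      (T + lam) * Real.log (T + lam) - lam * Real.log lam - T * Real.log T := by
  rw [intervalIntegral.integral_sub (intervalIntegrable_log_add lam 0 T)
    intervalIntegral.intervalIntegrable_log', integral_log_add, integral_log]
  simp

/-- The remainder `(T+λ) log (1+λ/T) - λ`, written without division. -/
noncomputable def remT (T lam : ℝ) : ℝ :=
  (T + lam) * Real.log (T + lam) - T * Real.log T - lam * (1 + Real.log T)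

theorem remT_eq {T lam : ℝ} (hT : 0 < T) (hl : 0 ≤ lam) :
    remT T lam = (T + lam) * Real.log (1 + lam / T) - lam := by
  have h1 : T + lam = T * (1 + lam / T) := by field_simp
  have h2 : Real.log (T + lam) = Real.log T + Real.log (1 + lam / T) := by
    rw [h1, Real.log_mul hT.ne' (by positivity)]
  unfold remT
  rw [h2]; ring

theorem remT_nonneg {T lam : ℝ} (hT : 0 < T) (hl : 0 ≤ lam) : 0 ≤ remT T lam := by
  rw [remT_eq hT hl]
  have hpos : 0 < 1 + lam / T := by positivity
  have h := Real.one_sub_inv_le_log_of_pos hpos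
  have h3 : 1 - (1 + lam / T)⁻¹ = lam / (T + lam) := by field_simp; ring
  rw [h3] at h
  have h4 : (T + lam) * (lam / (T + lam)) = lam := by field_simp
  have h5 : (T + lam) * (lam / (T + lam)) ≤ (T + lam) * Real.log (1 + lam / T) :=
    mul_le_mul_of_nonneg_left h (by positivity)
  linarith

theorem remT_le {T lam : ℝ} (hT : 0 < T) (hl : 0 ≤ lam) : remT T lam ≤ lam ^ 2 / T := by
  rw [remT_eq hT hl]
  have hpos : 0 < 1 + lam / T := by positivity
  have h := Real.log_le_sub_one_of_pos hpos
  have h5 : (T + lam) * Real.log (1 + lam / T) ≤ (T + lam) * (1 + lam / T - 1) :=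
    mul_le_mul_of_nonneg_left h (by positivity)
  have h6 : (T + lam) * (1 + lam / T - 1) = lam + lam ^ 2 / T := by field_simp; ring
  linarith

/-- (I2) `-λ log λ` at finite `T`, exact. -/
theorem negMulLog_eq_integral (lam T : ℝ) :
    Real.negMulLog lam =
      (∫ t in (0:ℝ)..T, (Real.log (t + lam) - Real.log t)) - lam * (1 + Real.log T) - remT T lam := by
  rw [integral_log_add_sub_log]
  unfold remT Real.negMulLog
  ring

end Crest.Agent.GA

namespace Crest.Agent.GA

open Set Filter Topology

/-- the integrand of the improper representation -/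
noncomputable def hfun (x t : ℝ) : ℝ := Real.log (1 + x / t) - x / (1 + t)

/-- its antiderivative -/
noncomputable def Gfun (x t : ℝ) : ℝ :=
  (t + x) * Real.log (t + x) - t * Real.log t - x * Real.log (1 + t)

theorem log_one_add_div {x t : ℝ} (hx : 0 ≤ x) (ht : 0 < t) :
    Real.log (1 + x / t) = Real.log (t + x) - Real.log t := by
  rw [← Real.log_div (by positivity) ht.ne']
  congr 1
  field_simp

theorem Gfun_hasDerivAt {x t : ℝ} (hx : 0 ≤ x) (ht : 0 < t) :
    HasDerivAt (Gfun x) (hfun x t) t := by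
  have h1 : HasDerivAt (fun s : ℝ => (s + x) * Real.log (s + x)) (Real.log (t + x) + 1) t := by
    have := (Real.hasDerivAt_mul_log (x := t + x) (by positivity)).comp_add_const t x
    simpa using this
  have h2 : HasDerivAt (fun s : ℝ => s * Real.log s) (Real.log t + 1) t :=
    Real.hasDerivAt_mul_log ht.ne'
  have h3 : HasDerivAt (fun s : ℝ => x * Real.log (1 + s)) (x * (1 / (1 + t))) t := by
    have h4 : HasDerivAt (fun s : ℝ => 1 + s) 1 t := by
      simpa using (hasDerivAt_id t).const_add 1
    have := (h4.log (by positivity)).const_mul x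
    simpa using this
  have h := (h1.sub h2).sub h3
  have e : Real.log (t + x) + 1 - (Real.log t + 1) - x * (1 / (1 + t)) = hfun x t := by
    unfold hfun
    rw [log_one_add_div hx ht]; ring
  rw [e] at h
  exact h

theorem Gfun_continuous (x : ℝ) : ContinuousWithinAt (Gfun x) (Ici 0) 0 := by
  have c1 : Continuous (fun s : ℝ => (s + x) * Real.log (s + x)) :=
    Real.continuous_mul_log.comp (continuous_id.add continuous_const)
  have c2 : Continuous (fun s : ℝ => s * Real.log s) := Real.continuous_mul_log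
  have c3 : ContinuousWithinAt (fun s : ℝ => x * Real.log (1 + s)) (Ici 0) 0 := by
    apply ContinuousAt.continuousWithinAt
    apply ContinuousAt.mul continuousAt_const
    apply ContinuousAt.log
    · exact (continuous_const.add continuous_id).continuousAt
    · norm_num
  exact (c1.continuousWithinAt.sub c2.continuousWithinAt).sub c3

theorem Gfun_zero (x : ℝ) : Gfun x 0 = x * Real.log x := by
  simp [Gfun]

theorem Gfun_eq {x t : ℝ} (ht : 0 < t) :
    Gfun x t = remT t x + x - x * Real.log (1 + 1 / t) := by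
  have : Real.log (1 + 1 / t) = Real.log (1 + t) - Real.log t := by
    rw [← Real.log_div (by positivity) ht.ne']
    congr 1
    field_simp
    ring
  unfold Gfun remT
  rw [this]; ring

theorem Gfun_tendsto {x : ℝ} (hx : 0 ≤ x) : Tendsto (Gfun x) atTop (𝓝 x) := by
  have h1 : Tendsto (fun t : ℝ => remT t x) atTop (𝓝 0) := by
    have hb : Tendsto (fun t : ℝ => x ^ 2 / t) atTop (𝓝 0) :=
      Tendsto.div_atTop tendsto_const_nhds tendsto_id
    refine tendsto_of_tendsto_of_tendsto_of_le_of_le' tendsto_const_nhds hb ?_ ?_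
    · filter_upwards [eventually_gt_atTop 0] with t ht using remT_nonneg ht hx
    · filter_upwards [eventually_gt_atTop 0] with t ht using remT_le ht hx
  have h2 : Tendsto (fun t : ℝ => Real.log (1 + 1 / t)) atTop (𝓝 0) := by
    have hb : Tendsto (fun t : ℝ => 1 + 1 / t) atTop (𝓝 (1 + 0)) :=
      tendsto_const_nhds.add (Tendsto.div_atTop tendsto_const_nhds tendsto_id)
    have := (Real.continuousAt_log (x := 1 + 0) (by norm_num)).tendsto.comp hb
    simpa [Function.comp_def] using this
  have h3 : Tendsto (fun t : ℝ => remT t x + x - x * Real.log (1 + 1 / t)) atTop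
      (𝓝 (0 + x - x * 0)) := (h1.add tendsto_const_nhds).sub (h2.const_mul x)
  have h4 : (0 + x - x * 0 : ℝ) = x := by ring
  rw [h4] at h3
  refine h3.congr' ?_
  filter_upwards [eventually_gt_atTop 0] with t ht using (Gfun_eq ht).symm

theorem hfun_measurable (x : ℝ) : Measurable (hfun x) := by
  unfold hfun
  fun_prop

theorem hfun_abs_le {x t : ℝ} (hx : 0 ≤ x) (ht : 1 < t) :
    |hfun x t| ≤ (x + x ^ 2) * t ^ (-2 : ℝ) := by
  have ht0 : 0 < t := by linarith
  have e : t ^ (-2 : ℝ) = 1 / t ^ 2 := by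
    rw [Real.rpow_neg ht0.le]
    norm_num
  rw [e]
  have hu : 0 ≤ x / t := by positivity
  have up : Real.log (1 + x / t) ≤ x / t := by
    have := Real.log_le_sub_one_of_pos (show 0 < 1 + x / t by positivity)
    linarith
  have lo : x / t - (x / t) ^ 2 ≤ Real.log (1 + x / t) := by
    have := Real.one_sub_inv_le_log_of_pos (show 0 < 1 + x / t by positivity)
    have h2 : x / t - (x / t) ^ 2 ≤ 1 - (1 + x / t)⁻¹ := by
      have h3 : 1 - (1 + x / t)⁻¹ = (x / t) / (1 + x / t) := by field_simp; ring
      rw [h3, le_div_iff₀ (by positivity)]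
      nlinarith [pow_nonneg hu 3, pow_nonneg hu 2]
    linarith
  have d1 : x / t - x / (1 + t) = x / (t * (1 + t)) := by field_simp; ring
  have d2 : x / (t * (1 + t)) ≤ x / t ^ 2 := by
    apply div_le_div_of_nonneg_left hx (by positivity)
    nlinarith
  have d3 : 0 ≤ x / (t * (1 + t)) := by positivity
  have d4 : (x / t) ^ 2 = x ^ 2 / t ^ 2 := by ring
  have d5 : (x + x ^ 2) * (1 / t ^ 2) = x / t ^ 2 + x ^ 2 / t ^ 2 := by ring
  have d6 : 0 ≤ x ^ 2 / t ^ 2 := by positivity
  have d7 : 0 ≤ x / t ^ 2 := by positivity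
  unfold hfun
  rw [abs_le, d5]
  constructor <;> nlinarith

theorem hfun_integrableOn {x : ℝ} (hx : 0 ≤ x) : IntegrableOn (hfun x) (Ioi 0) := by
  have hsplit : Ioi (0:ℝ) = Ioc 0 1 ∪ Ioi 1 := (Ioc_union_Ioi_eq_Ioi zero_le_one).symm
  rw [hsplit]
  refine IntegrableOn.union ?_ ?_
  · have h1 : IntervalIntegrable
        (fun t : ℝ => Real.log (t + x) - Real.log t - x / (1 + t)) volume 0 1 := by
      refine ((intervalIntegrable_log_add x 0 1).sub
        intervalIntegral.intervalIntegrable_log').sub ?_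
      apply ContinuousOn.intervalIntegrable
      intro t ht
      rw [uIcc_of_le zero_le_one] at ht
      apply ContinuousAt.continuousWithinAt
      apply ContinuousAt.div continuousAt_const
      · exact (continuous_const.add continuous_id).continuousAt
      · have := ht.1; positivity
    rw [intervalIntegrable_iff_integrableOn_Ioc_of_le zero_le_one] at h1
    refine h1.congr_fun ?_ measurableSet_Ioc
    intro t ht
    simp only [hfun]
    rw [log_one_add_div hx ht.1]
  · have hb : IntegrableOn (fun t : ℝ => (x + x ^ 2) * t ^ (-2 : ℝ)) (Ioi 1) :=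
      (integrableOn_Ioi_rpow_of_lt (by norm_num) zero_lt_one).const_mul _
    refine Integrable.mono' hb (hfun_measurable x).aestronglyMeasurable ?_
    rw [ae_restrict_iff' measurableSet_Ioi]
    refine Eventually.of_forall ?_
    intro t ht
    rw [Real.norm_eq_abs]
    exact hfun_abs_le hx ht

/-- (I) improper normalisation: `∫_0^∞ (log (1+x/t) - x/(1+t)) dt = x - x log x`. -/
theorem integral_hfun {x : ℝ} (hx : 0 ≤ x) :
    ∫ t in Ioi (0:ℝ), hfun x t = x + Real.negMulLog x := by
  rw [integral_Ioi_of_hasDerivAt_of_tendsto (Gfun_continuous x)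
    (fun t ht => Gfun_hasDerivAt hx ht) (hfun_integrableOn hx) (Gfun_tendsto hx), Gfun_zero]
  unfold Real.negMulLog
  ring

end Crest.Agent.GA

namespace Crest.Agent.GA

open Set Filter Topology

/-- `L_μ(t) = ∑ log (1 + μ_j / t)`. -/
noncomputable def Lfam {κ : Type*} [Fintype κ] (μ : κ → ℝ) (t : ℝ) : ℝ :=
  ∑ j, Real.log (1 + μ j / t)

theorem Lfam_sub_eq {ι κ : Type*} [Fintype ι] [Fintype κ] (lam : ι → ℝ) (μ : κ → ℝ)
    (hsum : ∑ i, lam i = ∑ j, μ j) (t : ℝ) :
    Lfam μ t - Lfam lam t = ∑ j, hfun (μ j) t - ∑ i, hfun (lam i) t := by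
  unfold Lfam hfun
  rw [Finset.sum_sub_distrib, Finset.sum_sub_distrib, ← Finset.sum_div, ← Finset.sum_div, hsum]
  ring

/-- (ID, integrable form) two finite families with the same sum. -/
theorem Lfam_sub_integrableOn {ι κ : Type*} [Fintype ι] [Fintype κ] (lam : ι → ℝ) (μ : κ → ℝ)
    (hl : ∀ i, 0 ≤ lam i) (hm : ∀ j, 0 ≤ μ j) (hsum : ∑ i, lam i = ∑ j, μ j) :
    IntegrableOn (fun t => Lfam μ t - Lfam lam t) (Ioi 0) := by
  have h1 : IntegrableOn (fun t => ∑ j, hfun (μ j) t) (Ioi 0) :=
    integrable_finsetSum _ (fun j _ => hfun_integrableOn (hm j))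
  have h2 : IntegrableOn (fun t => ∑ i, hfun (lam i) t) (Ioi 0) :=
    integrable_finsetSum _ (fun i _ => hfun_integrableOn (hl i))
  have := h1.sub h2
  refine this.congr_fun ?_ measurableSet_Ioi
  intro t _
  exact (Lfam_sub_eq lam μ hsum t).symm

theorem integral_Lfam_sub {ι κ : Type*} [Fintype ι] [Fintype κ] (lam : ι → ℝ) (μ : κ → ℝ)
    (hl : ∀ i, 0 ≤ lam i) (hm : ∀ j, 0 ≤ μ j) (hsum : ∑ i, lam i = ∑ j, μ j) :
    ∫ t in Ioi (0:ℝ), (Lfam μ t - Lfam lam t) =
      ∑ j, Real.negMulLog (μ j) - ∑ i, Real.negMulLog (lam i) := by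
  have h1 : ∀ j ∈ (Finset.univ : Finset κ), Integrable (fun t => hfun (μ j) t)
      (volume.restrict (Ioi 0)) := fun j _ => hfun_integrableOn (hm j)
  have h2 : ∀ i ∈ (Finset.univ : Finset ι), Integrable (fun t => hfun (lam i) t)
      (volume.restrict (Ioi 0)) := fun i _ => hfun_integrableOn (hl i)
  have e : ∀ t, Lfam μ t - Lfam lam t = ∑ j, hfun (μ j) t - ∑ i, hfun (lam i) t :=
    Lfam_sub_eq lam μ hsum
  simp_rw [e]
  rw [integral_sub (integrable_finsetSum _ h1) (integrable_finsetSum _ h2),
    integral_finsetSum _ h1, integral_finsetSum _ h2]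
  simp_rw [fun j => integral_hfun (hm j), fun i => integral_hfun (hl i)]
  rw [Finset.sum_add_distrib, Finset.sum_add_distrib, hsum]
  ring

/-- (ID, lintegral form, as asked by helper2). -/
theorem lintegral_Lfam_sub {ι κ : Type*} [Fintype ι] [Fintype κ] (lam : ι → ℝ) (μ : κ → ℝ)
    (hl : ∀ i, 0 ≤ lam i) (hm : ∀ j, 0 ≤ μ j) (hsum : ∑ i, lam i = ∑ j, μ j)
    (hg : ∀ t, 0 < t → 0 ≤ Lfam μ t - Lfam lam t) :
    ∫⁻ t in Ioi (0:ℝ), ENNReal.ofReal (Lfam μ t - Lfam lam t) =
      ENNReal.ofReal (∑ j, Real.negMulLog (μ j) - ∑ i, Real.negMulLog (lam i)) := by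
  rw [← integral_Lfam_sub lam μ hl hm hsum]
  refine (ofReal_integral_eq_lintegral_ofReal (Lfam_sub_integrableOn lam μ hl hm hsum) ?_).symm
  rw [Filter.EventuallyLE, ae_restrict_iff' measurableSet_Ioi]
  exact Eventually.of_forall (fun t ht => hg t ht)

theorem negMulLog_sum_le_of_Lfam_le {ι κ : Type*} [Fintype ι] [Fintype κ] (lam : ι → ℝ)
    (μ : κ → ℝ) (hl : ∀ i, 0 ≤ lam i) (hm : ∀ j, 0 ≤ μ j) (hsum : ∑ i, lam i = ∑ j, μ j)
    (hg : ∀ t, 0 < t → 0 ≤ Lfam μ t - Lfam lam t) :
    ∑ i, Real.negMulLog (lam i) ≤ ∑ j, Real.negMulLog (μ j) := by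
  have h := integral_Lfam_sub lam μ hl hm hsum
  have h0 : 0 ≤ ∫ t in Ioi (0:ℝ), (Lfam μ t - Lfam lam t) :=
    setIntegral_nonneg measurableSet_Ioi (fun t ht => hg t ht)
  linarith

end Crest.Agent.GA
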