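import Mathlib
import Crest.Prelude.Def_QState
import Crest.Prelude.Def_QChannel
import Crest.Agent.GA_Spec

/-!
# Row 341: the shared definitions for the key inequality (KZ'')

`kzOut X Z n0 n1 = [[X Xᴴ + n0, X Zᴴ], [Z Xᴴ, Z Zᴴ + n1]]` on `Bool × e`, the functional
`kzF = S(out) - S(X Xᴴ) - S(Z Zᴴ) - S(n0) - S(n1)` and its scalar version `kzFsc`.

The key inequality (KZ''), proved in `GA_KZ2.lean`, says
`kzFsc (Tr X Xᴴ) (Tr Z Zᴴ) (Tr n0) (Tr n1) ≤ kzF X Z n0 n1`.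
-/

set_option autoImplicit false
set_option linter.unusedSectionVars false

namespace Crest.Agent.GA

open Matrix Crest.Quantum
open scoped ComplexOrder

variable {e r : Type*} [Fintype e] [Fintype r] [DecidableEq e] [DecidableEq r]

/-- The block matrix `[[X Xᴴ + n0, X Zᴴ], [Z Xᴴ, Z Zᴴ + n1]]` indexed by `Bool × e`. -/
def kzOut (X Z : Matrix e r ℂ) (n0 n1 : Matrix e e ℂ) : Matrix (Bool × e) (Bool × e) ℂ :=
  ofBlocks (X * Xᴴ + n0) (X * Zᴴ) (Z * Xᴴ) (Z * Zᴴ + n1)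

/-- `S(out) - S(X Xᴴ) - S(Z Zᴴ) - S(n0) - S(n1)`. -/
noncomputable def kzF (X Z : Matrix e r ℂ) (n0 n1 : Matrix e e ℂ) : ℝ :=
  vnEntropy (kzOut X Z n0 n1) - vnEntropy (X * Xᴴ) - vnEntropy (Z * Zᴴ)
    - vnEntropy n0 - vnEntropy n1

/-- The scalar output matrix `[[al + v0, √(al be)], [√(al be), be + v1]]`. -/
noncomputable def kzOutSc (al be v0 v1 : ℝ) : Matrix Bool Bool ℂ :=
  Matrix.of fun s t =>
    if s = false ∧ t = false then ((al + v0 : ℝ) : ℂ)
    else if s = true ∧ t = true then ((be + v1 : ℝ) : ℂ)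
    else ((Real.sqrt (al * be) : ℝ) : ℂ)

/-- The scalar version of `kzF`. -/
noncomputable def kzFsc (al be v0 v1 : ℝ) : ℝ :=
  vnEntropy (kzOutSc al be v0 v1) - Real.negMulLog al - Real.negMulLog be
    - Real.negMulLog v0 - Real.negMulLog v1

@[simp] lemma kzOutSc_ff (al be v0 v1 : ℝ) : kzOutSc al be v0 v1 false false = ((al + v0 : ℝ) : ℂ) := by
  simp [kzOutSc]
@[simp] lemma kzOutSc_tt (al be v0 v1 : ℝ) : kzOutSc al be v0 v1 true true = ((be + v1 : ℝ) : ℂ) := by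
  simp [kzOutSc]
@[simp] lemma kzOutSc_ft (al be v0 v1 : ℝ) :
    kzOutSc al be v0 v1 false true = ((Real.sqrt (al * be) : ℝ) : ℂ) := by
  simp [kzOutSc]
@[simp] lemma kzOutSc_tf (al be v0 v1 : ℝ) :
    kzOutSc al be v0 v1 true false = ((Real.sqrt (al * be) : ℝ) : ℂ) := by
  simp [kzOutSc]

lemma kzOutSc_isHermitian (al be v0 v1 : ℝ) : (kzOutSc al be v0 v1).IsHermitian := by
  ext s t
  cases s <;> cases t <;> simp

lemma trace_kzOutSc (al be v0 v1 : ℝ) :
    (kzOutSc al be v0 v1).trace = ((al + v0 + be + v1 : ℝ) : ℂ) := by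
  simp [Matrix.trace]
  ring

lemma kz_det_bool (M : Matrix Bool Bool ℂ) :
    M.det = M false false * M true true - M false true * M true false := by
  rw [← Matrix.det_submatrix_equiv_self finTwoEquiv M, Matrix.det_fin_two]
  simp [finTwoEquiv]

lemma det_kzOutSc {al be : ℝ} (hal : 0 ≤ al) (hbe : 0 ≤ be) (v0 v1 : ℝ) :
    (kzOutSc al be v0 v1).det = (((al + v0) * (be + v1) - al * be : ℝ) : ℂ) := by
  have h : Real.sqrt (al * be) * Real.sqrt (al * be) = al * be :=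
    Real.mul_self_sqrt (mul_nonneg hal hbe)
  have h' : ((Real.sqrt (al * be) : ℝ) : ℂ) * ((Real.sqrt (al * be) : ℝ) : ℂ) = ((al * be : ℝ) : ℂ) := by
    rw [← Complex.ofReal_mul, h]
  rw [kz_det_bool]
  simp only [kzOutSc_ff, kzOutSc_tt, kzOutSc_ft, kzOutSc_tf, h']
  push_cast
  ring

end Crest.Agent.GA
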