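import Mathlib
import Crest.Prelude.Def_QState
import Crest.Prelude.Def_QChannel
import Crest.Prelude.Def_AmpDamp
import Crest.Agent.GA_Spec
import Crest.Agent.GA_Conc
import Crest.Agent.GA_Chan
import Crest.Agent.GA_Prod
import Crest.Agent.GA_Det
import Crest.Agent.GA_KZDefs

/-!
# Row 341: (KZ'') ⇒ (KZ)

From the key inequality `kzFsc (traces) ≤ kzF X Z n0 n1` we derive, for `σ` psd on `Bool × e` of
trace one with `p = Tr σ₁₁`:
`gfun γ ν p - h(p) + S(σ₀₀) + S(σ₁₁) ≤ S(gadBlk γ ν σ)`.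
-/

set_option autoImplicit false
set_option linter.unusedSectionVars false

namespace Crest.Agent.GA

open Matrix Crest.Quantum Crest.MathPhysics.AmpDamp
open scoped ComplexOrder

variable {e r : Type*} [Fintype e] [Fintype r] [DecidableEq e] [DecidableEq r]

/-- the homogeneous entropy `S(x) - η(Tr x)`. -/
noncomputable def sHat (x : Matrix e e ℂ) : ℝ := vnEntropy x - Real.negMulLog x.trace.re

lemma sHat_smul {x : Matrix e e ℂ} (hx : x.IsHermitian) (c : ℝ) :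
    sHat ((c : ℂ) • x) = c * sHat x := by
  unfold sHat
  rw [vnEntropy_smul hx, Matrix.trace_smul, smul_eq_mul, Complex.re_ofReal_mul, Real.negMulLog_mul]
  ring

lemma sHat_zero : sHat (0 : Matrix e e ℂ) = 0 := by
  have := sHat_smul (x := (0 : Matrix e e ℂ)) Matrix.isHermitian_zero 0
  simpa using this

lemma kz_trace_re_nonneg {x : Matrix e e ℂ} (hx : x.PosSemidef) : 0 ≤ x.trace.re := by
  have := hx.trace_nonneg
  exact (Complex.le_def.1 this).1

lemma kz_eq_zero_of_trace {x : Matrix e e ℂ} (hx : x.PosSemidef) (h : x.trace.re = 0) : x = 0 := by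
  apply hx.trace_eq_zero_iff.1
  have := hx.trace_nonneg
  apply Complex.ext
  · simpa using h
  · simpa using (Complex.le_def.1 this).2.symm

/-- superadditivity of the homogeneous entropy. -/
lemma sHat_add {x y : Matrix e e ℂ} (hx : x.PosSemidef) (hy : y.PosSemidef) :
    sHat x + sHat y ≤ sHat (x + y) := by
  have h0x := kz_trace_re_nonneg hx
  have h0y := kz_trace_re_nonneg hy
  rcases h0x.eq_or_lt with hx0 | hxpos
  · rw [kz_eq_zero_of_trace hx hx0.symm, sHat_zero]; simp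
  rcases h0y.eq_or_lt with hy0 | hypos
  · rw [kz_eq_zero_of_trace hy hy0.symm, sHat_zero]; simp
  set a := x.trace.re with ha
  set b := y.trace.re with hb
  have hT : 0 < a + b := by positivity
  -- normalised matrices
  set x' : Matrix e e ℂ := ((a⁻¹ : ℝ) : ℂ) • x with hx'
  set y' : Matrix e e ℂ := ((b⁻¹ : ℝ) : ℂ) • y with hy'
  have hx'p : x'.PosSemidef := hx.smul (by exact_mod_cast (inv_pos.2 hxpos).le)
  have hy'p : y'.PosSemidef := hy.smul (by exact_mod_cast (inv_pos.2 hypos).le)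
  have hconc := vnEntropy_concave (ι := Bool) (fun s => if s then b / (a + b) else a / (a + b))
    (fun s => if s then y' else x')
    (by intro s; cases s <;> simp <;> positivity)
    (by simp only [Fintype.sum_bool, if_true, Bool.false_eq_true, if_false]; field_simp; ring)
    (by intro s; cases s <;> simp [hx'p, hy'p])
  simp only [Fintype.sum_bool, if_true, Bool.false_eq_true, if_false] at hconc
  have hsum : ((b / (a + b) : ℝ) : ℂ) • y' + ((a / (a + b) : ℝ) : ℂ) • x'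
      = (((a + b)⁻¹ : ℝ) : ℂ) • (x + y) := by
    rw [hx', hy', smul_smul, smul_smul, smul_add, add_comm]
    congr 2
    · rw [← Complex.ofReal_mul]; congr 1; field_simp
    · rw [← Complex.ofReal_mul]; congr 1; field_simp
  rw [hsum] at hconc
  have tx' : x'.trace.re = 1 := by
    rw [hx', Matrix.trace_smul, smul_eq_mul, Complex.re_ofReal_mul, ← ha]; field_simp
  have ty' : y'.trace.re = 1 := by
    rw [hy', Matrix.trace_smul, smul_eq_mul, Complex.re_ofReal_mul, ← hb]; field_simp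
  have txy : ((((a + b)⁻¹ : ℝ) : ℂ) • (x + y)).trace.re = 1 := by
    rw [Matrix.trace_smul, smul_eq_mul, Complex.re_ofReal_mul, Matrix.trace_add, Complex.add_re,
      ← ha, ← hb]; field_simp
  have e1 : vnEntropy x' = sHat x' := by unfold sHat; rw [tx']; simp
  have e2 : vnEntropy y' = sHat y' := by unfold sHat; rw [ty']; simp
  have e3 : vnEntropy ((((a + b)⁻¹ : ℝ) : ℂ) • (x + y)) = sHat ((((a + b)⁻¹ : ℝ) : ℂ) • (x + y)) := by
    unfold sHat; rw [txy]; simp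
  rw [e1, e2, e3, hx', hy', sHat_smul hx.isHermitian, sHat_smul hy.isHermitian,
    sHat_smul (hx.add hy).isHermitian] at hconc
  have h2 : b / (a + b) * (b⁻¹ * sHat y) + a / (a + b) * (a⁻¹ * sHat x)
      = (a + b)⁻¹ * (sHat x + sHat y) := by
    field_simp; ring
  rw [h2] at hconc
  exact le_of_mul_le_mul_left hconc (inv_pos.2 hT)

/-- existence of the splitting `s0 s1 = 1 - γ`, `s0 ≤ 1 - γν`, `s1 ≤ 1 - γ + γν`. -/
lemma kz_split {γ ν : ℝ} (hγ : γ ∈ Set.Icc (0 : ℝ) 1) (hν : ν ∈ Set.Icc (0 : ℝ) 1) :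
    ∃ s0 s1 : ℝ, 0 ≤ s0 ∧ 0 ≤ s1 ∧ s0 ≤ 1 - γ * ν ∧ s1 ≤ 1 - γ + γ * ν ∧ s0 * s1 = 1 - γ := by
  obtain ⟨hγ0, hγ1⟩ := hγ
  obtain ⟨hν0, hν1⟩ := hν
  have hl0 : 0 ≤ 1 - γ * ν := by nlinarith
  rcases hl0.eq_or_lt with h | h
  · refine ⟨0, 0, le_rfl, le_rfl, hl0, by nlinarith, ?_⟩
    nlinarith
  · refine ⟨1 - γ * ν, (1 - γ) / (1 - γ * ν), hl0, div_nonneg (by linarith) hl0, le_rfl, ?_, ?_⟩
    · rw [div_le_iff₀ h]
      have : 0 ≤ γ ^ 2 * (ν * (1 - ν)) := by
        apply mul_nonneg (sq_nonneg _) (mul_nonneg hν0 (by linarith))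
      nlinarith
    · field_simp

lemma kz_smul_mul_smul_conjTranspose (c d : ℝ) (X Z : Matrix e r ℂ) :
    ((c : ℂ) • X) * ((d : ℂ) • Z)ᴴ = ((c * d : ℝ) : ℂ) • (X * Zᴴ) := by
  rw [conjTranspose_smul, Matrix.smul_mul, Matrix.mul_smul, smul_smul]
  simp

/-- **(KZ'') ⇒ (KZ).** -/
theorem kz_of_kz2 {γ ν : ℝ} (hγ : γ ∈ Set.Icc (0 : ℝ) 1) (hν : ν ∈ Set.Icc (0 : ℝ) 1)
    (H : ∀ (X Z : Matrix e (Bool × e) ℂ) (n0 n1 : Matrix e e ℂ), n0.PosSemidef → n1.PosSemidef →
      kzFsc (X * Xᴴ).trace.re (Z * Zᴴ).trace.re n0.trace.re n1.trace.re ≤ kzF X Z n0 n1)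
    (σ : Matrix (Bool × e) (Bool × e) ℂ) (hσ : σ.PosSemidef) (htr : σ.trace = 1) :
    gfun γ ν (block σ true true).trace.re - Real.binEntropy (block σ true true).trace.re
      + vnEntropy (block σ false false) + vnEntropy (block σ true true)
      ≤ vnEntropy (gadBlk γ ν σ) := by
  obtain ⟨s0, s1, hs0, hs1, hs0l, hs1l, hs⟩ := kz_split hγ hν
  obtain ⟨hγ0, hγ1⟩ := hγ
  obtain ⟨hν0, hν1⟩ := hν
  obtain ⟨Y, hY⟩ := exists_eq_conjTranspose_mul_self hσ
  obtain ⟨X, Z, hXZ⟩ : ∃ X Z : Matrix e (Bool × e) ℂ, Yᴴ = stack X Z := ⟨_, _, eq_stack Yᴴ⟩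
  have hσ' : σ = ofBlocks (X * Xᴴ) (X * Zᴴ) (Z * Xᴴ) (Z * Zᴴ) := by
    rw [← stack_mul_conjTranspose, ← hXZ, conjTranspose_conjTranspose, hY]
  set a : Matrix e e ℂ := X * Xᴴ with ha
  set b : Matrix e e ℂ := Z * Zᴴ with hb
  have hap : a.PosSemidef := posSemidef_self_mul_conjTranspose X
  have hbp : b.PosSemidef := posSemidef_self_mul_conjTranspose Z
  have hbf : block σ false false = a := by rw [hσ']; rfl
  have hbt : block σ true true = b := by rw [hσ']; rfl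
  rw [hbf, hbt]
  set α := a.trace.re with hα
  set β := b.trace.re with hβ
  have hα0 : 0 ≤ α := kz_trace_re_nonneg hap
  have hβ0 : 0 ≤ β := kz_trace_re_nonneg hbp
  have hαβ : α = 1 - β := by
    have := congrArg Complex.re htr
    rw [hσ', trace_ofBlocks, Complex.add_re] at this
    simp only [Complex.one_re] at this
    linarith
  -- the data for (KZ'')
  set X' : Matrix e (Bool × e) ℂ := ((Real.sqrt s0 : ℝ) : ℂ) • X with hX'
  set Z' : Matrix e (Bool × e) ℂ := ((Real.sqrt s1 : ℝ) : ℂ) • Z with hZ'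
  set n0 : Matrix e e ℂ := ((1 - γ * ν - s0 : ℝ) : ℂ) • a + ((γ * (1 - ν) : ℝ) : ℂ) • b with hn0
  set n1 : Matrix e e ℂ := ((γ * ν : ℝ) : ℂ) • a + ((1 - γ + γ * ν - s1 : ℝ) : ℂ) • b with hn1
  have sm : ∀ {c : ℝ} {x : Matrix e e ℂ}, 0 ≤ c → x.PosSemidef → (((c : ℝ) : ℂ) • x).PosSemidef :=
    fun hc hx => hx.smul (by exact_mod_cast hc)
  have p01 := sm (c := 1 - γ * ν - s0) (by linarith) hap
  have p02 := sm (c := γ * (1 - ν)) (mul_nonneg hγ0 (by linarith)) hbp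
  have p11 := sm (c := γ * ν) (mul_nonneg hγ0 hν0) hap
  have p12 := sm (c := 1 - γ + γ * ν - s1) (by linarith) hbp
  have hn0p : n0.PosSemidef := p01.add p02
  have hn1p : n1.PosSemidef := p11.add p12
  have hXX : X' * X'ᴴ = ((s0 : ℝ) : ℂ) • a := by
    rw [hX', kz_smul_mul_smul_conjTranspose, Real.mul_self_sqrt hs0]
  have hZZ : Z' * Z'ᴴ = ((s1 : ℝ) : ℂ) • b := by
    rw [hZ', kz_smul_mul_smul_conjTranspose, Real.mul_self_sqrt hs1]
  have hsq : Real.sqrt s0 * Real.sqrt s1 = Real.sqrt (1 - γ) := by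
    rw [← Real.sqrt_mul hs0, hs]
  have hXZ' : X' * Z'ᴴ = ((Real.sqrt (1 - γ) : ℝ) : ℂ) • (X * Zᴴ) := by
    rw [hX', hZ', kz_smul_mul_smul_conjTranspose, hsq]
  have hZX' : Z' * X'ᴴ = ((Real.sqrt (1 - γ) : ℝ) : ℂ) • (Z * Xᴴ) := by
    rw [hX', hZ', kz_smul_mul_smul_conjTranspose, mul_comm, hsq]
  have hout : gadBlk γ ν σ = kzOut X' Z' n0 n1 := by
    unfold kzOut
    rw [hXX, hZZ, hXZ', hZX', hσ', hn0, hn1]
    ext ⟨s, i⟩ ⟨t, j⟩
    cases s <;> cases t <;>
      simp only [gadBlk_ff, gadBlk_ft, gadBlk_tf, gadBlk_tt, ofBlocks_ff, ofBlocks_ft, ofBlocks_tf,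
        ofBlocks_tt, Matrix.add_apply, Matrix.smul_apply, smul_eq_mul] <;>
      push_cast <;> ring
  have tsm : ∀ (c : ℝ) (x : Matrix e e ℂ), (((c : ℝ) : ℂ) • x).trace.re = c * x.trace.re := by
    intro c x
    rw [Matrix.trace_smul, smul_eq_mul, Complex.re_ofReal_mul]
  have tXX : (X' * X'ᴴ).trace.re = s0 * α := by rw [hXX, tsm]
  have tZZ : (Z' * Z'ᴴ).trace.re = s1 * β := by rw [hZZ, tsm]
  have tn0 : n0.trace.re = (1 - γ * ν - s0) * α + γ * (1 - ν) * β := by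
    rw [hn0, Matrix.trace_add, Complex.add_re, tsm, tsm]
  have tn1 : n1.trace.re = γ * ν * α + (1 - γ + γ * ν - s1) * β := by
    rw [hn1, Matrix.trace_add, Complex.add_re, tsm, tsm]
  have hH := H X' Z' n0 n1 hn0p hn1p
  unfold kzF kzFsc at hH
  -- the scalar output
  have hsc : vnEntropy (kzOutSc (X' * X'ᴴ).trace.re (Z' * Z'ᴴ).trace.re n0.trace.re n1.trace.re)
      = gfun γ ν β := by
    unfold gfun
    apply vnEntropy_qubit (kzOutSc_isHermitian _ _ _ _)
    · rw [trace_kzOutSc, tXX, tZZ, tn0, tn1, hαβ]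
      have : s0 * (1 - β) + ((1 - γ * ν - s0) * (1 - β) + γ * (1 - ν) * β) + s1 * β +
          (γ * ν * (1 - β) + (1 - γ + γ * ν - s1) * β) = 1 := by ring
      rw [this]; simp
    · rw [det_kzOutSc (by rw [tXX]; positivity) (by rw [tZZ]; positivity), tXX, tZZ, tn0, tn1, hαβ]
      congr 1
      have h3 : s0 * (1 - β) * (s1 * β) = (1 - γ) * ((1 - β) * β) := by rw [← hs]; ring
      rw [h3]; ring
  rw [hsc, ← hout] at hH
  -- homogeneous entropies
  have g1 : vnEntropy (X' * X'ᴴ) - Real.negMulLog (X' * X'ᴴ).trace.re = s0 * sHat a := by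
    rw [← sHat_smul hap.isHermitian, ← hXX]; rfl
  have g2 : vnEntropy (Z' * Z'ᴴ) - Real.negMulLog (Z' * Z'ᴴ).trace.re = s1 * sHat b := by
    rw [← sHat_smul hbp.isHermitian, ← hZZ]; rfl
  have g3 : (1 - γ * ν - s0) * sHat a + γ * (1 - ν) * sHat b
      ≤ vnEntropy n0 - Real.negMulLog n0.trace.re := by
    have := sHat_add p01 p02
    rw [sHat_smul hap.isHermitian, sHat_smul hbp.isHermitian] at this
    exact this
  have g4 : γ * ν * sHat a + (1 - γ + γ * ν - s1) * sHat b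
      ≤ vnEntropy n1 - Real.negMulLog n1.trace.re := by
    have := sHat_add p11 p12
    rw [sHat_smul hap.isHermitian, sHat_smul hbp.isHermitian] at this
    exact this
  have g5 : sHat a + sHat b = vnEntropy a + vnEntropy b - Real.binEntropy β := by
    unfold sHat
    rw [Real.binEntropy_eq_negMulLog_add_negMulLog_one_sub, ← hα, ← hβ, hαβ]; ring
  nlinarith [g1, g2, g3, g4, g5, hH]

end Crest.Agent.GA
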