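import Mathlib
import Crest.Agent.GA_Count

/-!
# Row 341: layer cake + Tonelli for one branch

Abstract Tonelli lemma `lintegral_kfun_eq`, and the branch inequality `branch_le`.
-/

set_option autoImplicit false
set_option linter.unusedSectionVars false

namespace Crest.Agent.GA

open Matrix MeasureTheory Set
open scoped ComplexOrder ENNReal

/-! ### one-dimensional integrals of truncated functions -/

theorem ite_lt_eq_indicator (g : ℝ → ℝ) (c : ℝ) :
    (fun x => if x < c then g x else 0) = (Iio c).indicator g := by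
  ext x; simp [Set.indicator_apply]

theorem integrableOn_ite_lt {g : ℝ → ℝ} {c : ℝ} (hg : IntegrableOn g (Ioo 0 c)) :
    IntegrableOn (fun x => if x < c then g x else 0) (Ioi 0) := by
  rw [ite_lt_eq_indicator, IntegrableOn, integrable_indicator_iff measurableSet_Iio,
    IntegrableOn, Measure.restrict_restrict measurableSet_Iio, Set.inter_comm, Ioi_inter_Iio]
  exact hg

theorem integral_ite_lt (g : ℝ → ℝ) {c : ℝ} (hc : 0 ≤ c) :
    ∫ x in Ioi 0, (if x < c then g x else 0) = ∫ x in (0 : ℝ)..c, g x := by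
  rw [ite_lt_eq_indicator, setIntegral_indicator measurableSet_Iio, Ioi_inter_Iio,
    intervalIntegral.integral_of_le hc, integral_Ioc_eq_integral_Ioo]

theorem integral_ite_lt_one (c : ℝ) :
    ∫ x in Ioi 0, (if x < c then (1 : ℝ) else 0) = max c 0 := by
  rcases le_total 0 c with hc | hc
  · rw [integral_ite_lt (fun _ => (1 : ℝ)) hc]; simp [hc]
  · have : ∀ x ∈ Ioi (0 : ℝ), (if x < c then (1 : ℝ) else 0) = 0 := by
      intro x hx
      rw [if_neg]; exact not_lt.2 (hc.trans (le_of_lt hx))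
    rw [setIntegral_congr_fun measurableSet_Ioi this]; simp [hc]

theorem integrableOn_ite_lt_one (c : ℝ) :
    IntegrableOn (fun x => if x < c then (1 : ℝ) else 0) (Ioi 0) := by
  apply integrableOn_ite_lt
  exact integrableOn_const (by simp)

theorem integral_inv_one_add {c : ℝ} (hc : 0 ≤ c) :
    ∫ y in (0 : ℝ)..c, (1 + y)⁻¹ = Real.log (1 + c) := by
  rw [intervalIntegral.integral_comp_add_left (fun x => x⁻¹) 1, add_zero,
    integral_inv_of_pos one_pos (by linarith)]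
  simp

theorem integrableOn_inv_one_add (c : ℝ) : IntegrableOn (fun y : ℝ => (1 + y)⁻¹) (Ioo 0 c) := by
  apply Measure.integrableOn_of_bounded (M := 1) (by simp)
  · exact (measurable_const.add measurable_id).inv.aestronglyMeasurable
  · filter_upwards [ae_restrict_mem measurableSet_Ioo] with y hy
    have : 0 < y := hy.1
    rw [Real.norm_of_nonneg (by positivity)]
    exact inv_le_one_of_one_le₀ (by linarith)

theorem integrableOn_rho {ρ : ℝ → ℝ} (hρm : Measurable ρ) (hρ0 : ∀ y, 0 < y → 0 ≤ ρ y)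
    (hρ1 : ∀ y, 0 < y → ρ y ≤ (1 + y)⁻¹) (c : ℝ) : IntegrableOn ρ (Ioo 0 c) := by
  apply Measure.integrableOn_of_bounded (M := 1) (by simp)
  · exact hρm.aestronglyMeasurable
  · filter_upwards [ae_restrict_mem measurableSet_Ioo] with y hy
    have : 0 < y := hy.1
    rw [Real.norm_of_nonneg (hρ0 y this)]
    exact (hρ1 y this).trans (inv_le_one_of_one_le₀ (by linarith))

/-! ### The abstract Tonelli lemma -/

section abstract

variable {I J K : Type*} [Fintype I] [Fintype J] [Fintype K]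

/-- the nonnegative kernel `M(t,y)/(1+y) - ρ(y) N(t,y)`. -/
noncomputable def ker (b : I → ℝ) (μ : K → ℝ → ℝ) (ρ : ℝ → ℝ) (t y : ℝ) : ℝ :=
  (∑ i, if t * y < b i then (1 : ℝ) else 0) * (1 + y)⁻¹ - ρ y * ∑ k, if t < μ k y then (1 : ℝ) else 0

/-- the function of `t` that is integrated. -/
noncomputable def kfun (b : I → ℝ) (u : J → ℝ → ℝ) (ρ : ℝ → ℝ) (t : ℝ) : ℝ :=
  ∑ i, Real.log (1 + b i / t) - ∑ j, ∫ y in (0 : ℝ)..(u j t), ρ y

/-- the function of `y` obtained after integrating out `t`. -/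
noncomputable def yfun (b : I → ℝ) (μ : K → ℝ → ℝ) (ρ : ℝ → ℝ) (y : ℝ) : ℝ :=
  (∑ i, b i) / y * (1 + y)⁻¹ - ρ y * ∑ k, max (μ k y) 0

theorem measurable_ker (b : I → ℝ) {μ : K → ℝ → ℝ} (hμ : ∀ k, Measurable (μ k)) {ρ : ℝ → ℝ}
    (hρm : Measurable ρ) : Measurable (Function.uncurry (ker b μ ρ)) := by
  unfold ker Function.uncurry
  refine Measurable.sub (Measurable.mul ?_ ?_) (Measurable.mul ?_ ?_)
  · refine Finset.measurable_sum _ fun i _ => ?_
    exact Measurable.ite (measurableSet_lt (measurable_fst.mul measurable_snd) measurable_const)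
      measurable_const measurable_const
  · exact (measurable_const.add measurable_snd).inv
  · exact hρm.comp measurable_snd
  · refine Finset.measurable_sum _ fun k _ => ?_
    exact Measurable.ite (measurableSet_lt measurable_fst ((hμ k).comp measurable_snd))
      measurable_const measurable_const

theorem ker_nonneg {b : I → ℝ} {μ : K → ℝ → ℝ} {ρ : ℝ → ℝ}
    (hρ0 : ∀ y, 0 < y → 0 ≤ ρ y) (hρ1 : ∀ y, 0 < y → ρ y ≤ (1 + y)⁻¹)
    (hdom : ∀ t y, 0 < t → 0 < y → (Finset.univ.filter fun k => t < μ k y).card ≤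
      (Finset.univ.filter fun i => t * y < b i).card) {t y : ℝ} (ht : 0 < t) (hy : 0 < y) :
    0 ≤ ker b μ ρ t y := by
  unfold ker
  rw [Finset.sum_boole, Finset.sum_boole]
  have h1 : ((Finset.univ.filter fun k => t < μ k y).card : ℝ) ≤
      ((Finset.univ.filter fun i => t * y < b i).card : ℝ) := by exact_mod_cast hdom t y ht hy
  have h2 := hρ1 y hy
  have h3 := hρ0 y hy
  have h4 : (0 : ℝ) ≤ ((Finset.univ.filter fun k => t < μ k y).card : ℝ) := by positivity
  have h5 : (0 : ℝ) ≤ (1 + y)⁻¹ := by positivity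
  nlinarith

/-- for fixed `t`, the kernel is integrable in `y` with integral `kfun`. -/
theorem integral_ker_y {b : I → ℝ} {u : J → ℝ → ℝ} {μ : K → ℝ → ℝ} {ρ : ℝ → ℝ}
    (hb : ∀ i, 0 ≤ b i) (hu : ∀ j t, 0 < t → 0 ≤ u j t) (hρm : Measurable ρ)
    (hρ0 : ∀ y, 0 < y → 0 ≤ ρ y) (hρ1 : ∀ y, 0 < y → ρ y ≤ (1 + y)⁻¹)
    (hcount : ∀ t y, 0 < t → 0 < y → (Finset.univ.filter fun j => y < u j t).card =
      (Finset.univ.filter fun k => t < μ k y).card) {t : ℝ} (ht : 0 < t) :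
    IntegrableOn (ker b μ ρ t) (Ioi 0) ∧ ∫ y in Ioi 0, ker b μ ρ t y = kfun b u ρ t := by
  -- an auxiliary expression
  set F : ℝ → ℝ := fun y => (∑ i, if y < b i / t then (1 + y)⁻¹ else 0) -
    ∑ j, if y < u j t then ρ y else 0 with hF
  have hFi1 : ∀ i, IntegrableOn (fun y => if y < b i / t then (1 + y)⁻¹ else 0) (Ioi 0) :=
    fun i => integrableOn_ite_lt (integrableOn_inv_one_add _)
  have hFi2 : ∀ j, IntegrableOn (fun y => if y < u j t then ρ y else 0) (Ioi 0) :=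
    fun j => integrableOn_ite_lt (integrableOn_rho hρm hρ0 hρ1 _)
  have hS1 : IntegrableOn (fun y => ∑ i, if y < b i / t then (1 + y)⁻¹ else 0) (Ioi 0) :=
    integrable_finsetSum _ fun i _ => hFi1 i
  have hS2 : IntegrableOn (fun y => ∑ j, if y < u j t then ρ y else 0) (Ioi 0) :=
    integrable_finsetSum _ fun j _ => hFi2 j
  have hFint : IntegrableOn F (Ioi 0) := hS1.sub hS2
  have hFeq : ∀ y ∈ Ioi (0 : ℝ), F y = ker b μ ρ t y := by
    intro y hy
    have hy' : 0 < y := hy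
    simp only [hF, ker]
    congr 1
    · rw [Finset.sum_mul]
      refine Finset.sum_congr rfl fun i _ => ?_
      have : y < b i / t ↔ t * y < b i := by rw [lt_div_iff₀ ht, mul_comm]
      by_cases h : t * y < b i
      · rw [if_pos h, if_pos (this.2 h), one_mul]
      · rw [if_neg h, if_neg (fun h' => h (this.1 h')), zero_mul]
    · rw [Finset.sum_boole, ← hcount t y ht hy', ← Finset.sum_boole, Finset.mul_sum]
      refine Finset.sum_congr rfl fun j _ => ?_
      by_cases h : y < u j t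
      · rw [if_pos h, if_pos h, mul_one]
      · rw [if_neg h, if_neg h, mul_zero]
  refine ⟨hFint.congr_fun hFeq measurableSet_Ioi, ?_⟩
  rw [← setIntegral_congr_fun measurableSet_Ioi hFeq]
  simp only [hF]
  rw [integral_sub hS1 hS2, integral_finsetSum _ fun i _ => hFi1 i,
    integral_finsetSum _ fun j _ => hFi2 j, kfun]
  congr 1
  · refine Finset.sum_congr rfl fun i _ => ?_
    have h0 : 0 ≤ b i / t := div_nonneg (hb i) ht.le
    rw [integral_ite_lt _ h0, integral_inv_one_add h0]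
  · refine Finset.sum_congr rfl fun j _ => ?_
    rw [integral_ite_lt _ (hu j t ht)]

/-- for fixed `y`, the kernel is integrable in `t` with integral `yfun`. -/
theorem integral_ker_t {b : I → ℝ} {μ : K → ℝ → ℝ} {ρ : ℝ → ℝ}
    (hb : ∀ i, 0 ≤ b i) {y : ℝ} (hy : 0 < y) :
    IntegrableOn (fun t => ker b μ ρ t y) (Ioi 0) ∧
      ∫ t in Ioi 0, ker b μ ρ t y = yfun b μ ρ y := by
  have hFi1 : ∀ i, IntegrableOn (fun t => if t * y < b i then (1 : ℝ) else 0) (Ioi 0) := by
    intro i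
    have : (fun t => if t * y < b i then (1 : ℝ) else 0) = fun t => if t < b i / y then (1 : ℝ) else 0 := by
      ext t; simp only [lt_div_iff₀ hy]
    rw [this]; exact integrableOn_ite_lt_one _
  have hI1 : ∀ i, ∫ t in Ioi 0, (if t * y < b i then (1 : ℝ) else 0) = b i / y := by
    intro i
    have : (fun t => if t * y < b i then (1 : ℝ) else 0) = fun t => if t < b i / y then (1 : ℝ) else 0 := by
      ext t; simp only [lt_div_iff₀ hy]
    rw [this, integral_ite_lt_one, max_eq_left (div_nonneg (hb i) hy.le)]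
  have hFi2 : ∀ k, IntegrableOn (fun t => if t < μ k y then (1 : ℝ) else 0) (Ioi 0) :=
    fun k => integrableOn_ite_lt_one _
  have hS1 : IntegrableOn (fun t => (∑ i, if t * y < b i then (1 : ℝ) else 0) * (1 + y)⁻¹) (Ioi 0) :=
    (integrable_finsetSum _ fun i _ => hFi1 i).mul_const _
  have hS2 : IntegrableOn (fun t => ρ y * ∑ k, if t < μ k y then (1 : ℝ) else 0) (Ioi 0) :=
    (integrable_finsetSum _ fun k _ => hFi2 k).const_mul _
  refine ⟨hS1.sub hS2, ?_⟩
  unfold ker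
  rw [integral_sub hS1 hS2, integral_mul_const, integral_const_mul,
    integral_finsetSum _ fun i _ => hFi1 i, integral_finsetSum _ fun k _ => hFi2 k, yfun]
  simp only [hI1, integral_ite_lt_one, Finset.sum_div]

/-- **Tonelli**. -/
theorem lintegral_kfun_eq {b : I → ℝ} {u : J → ℝ → ℝ} {μ : K → ℝ → ℝ} {ρ : ℝ → ℝ}
    (hb : ∀ i, 0 ≤ b i) (hu : ∀ j t, 0 < t → 0 ≤ u j t) (hμ : ∀ k, Measurable (μ k))
    (hρm : Measurable ρ)
    (hρ0 : ∀ y, 0 < y → 0 ≤ ρ y) (hρ1 : ∀ y, 0 < y → ρ y ≤ (1 + y)⁻¹)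
    (hcount : ∀ t y, 0 < t → 0 < y → (Finset.univ.filter fun j => y < u j t).card =
      (Finset.univ.filter fun k => t < μ k y).card)
    (hdom : ∀ t y, 0 < t → 0 < y → (Finset.univ.filter fun k => t < μ k y).card ≤
      (Finset.univ.filter fun i => t * y < b i).card) :
    ∫⁻ t in Ioi 0, ENNReal.ofReal (kfun b u ρ t) = ∫⁻ y in Ioi 0, ENNReal.ofReal (yfun b μ ρ y) := by
  have h1 : ∫⁻ t in Ioi 0, ENNReal.ofReal (kfun b u ρ t) =
      ∫⁻ t in Ioi 0, ∫⁻ y in Ioi 0, ENNReal.ofReal (ker b μ ρ t y) := by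
    refine setLIntegral_congr_fun measurableSet_Ioi fun t ht => ?_
    obtain ⟨hi, he⟩ := integral_ker_y hb hu hρm hρ0 hρ1 hcount (b := b) (μ := μ) ht
    rw [← he, ofReal_integral_eq_lintegral_ofReal hi]
    filter_upwards [ae_restrict_mem measurableSet_Ioi] with y hy
    exact ker_nonneg hρ0 hρ1 hdom ht hy
  have h2 : ∫⁻ y in Ioi 0, ENNReal.ofReal (yfun b μ ρ y) =
      ∫⁻ y in Ioi 0, ∫⁻ t in Ioi 0, ENNReal.ofReal (ker b μ ρ t y) := by
    refine setLIntegral_congr_fun measurableSet_Ioi fun y hy => ?_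
    obtain ⟨hi, he⟩ := integral_ker_t (ρ := ρ) (μ := μ) hb hy
    rw [← he, ofReal_integral_eq_lintegral_ofReal hi]
    filter_upwards [ae_restrict_mem measurableSet_Ioi] with t ht
    exact ker_nonneg hρ0 hρ1 hdom ht hy
  rw [h1, h2]
  apply lintegral_lintegral_swap
  exact (ENNReal.measurable_ofReal.comp (measurable_ker b hμ hρm)).aemeasurable

theorem kfun_nonneg {b : I → ℝ} {u : J → ℝ → ℝ} {μ : K → ℝ → ℝ} {ρ : ℝ → ℝ}
    (hb : ∀ i, 0 ≤ b i) (hu : ∀ j t, 0 < t → 0 ≤ u j t)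
    (hρm : Measurable ρ)
    (hρ0 : ∀ y, 0 < y → 0 ≤ ρ y) (hρ1 : ∀ y, 0 < y → ρ y ≤ (1 + y)⁻¹)
    (hcount : ∀ t y, 0 < t → 0 < y → (Finset.univ.filter fun j => y < u j t).card =
      (Finset.univ.filter fun k => t < μ k y).card)
    (hdom : ∀ t y, 0 < t → 0 < y → (Finset.univ.filter fun k => t < μ k y).card ≤
      (Finset.univ.filter fun i => t * y < b i).card) {t : ℝ} (ht : 0 < t) :
    0 ≤ kfun b u ρ t := by
  obtain ⟨-, he⟩ := integral_ker_y hb hu hρm hρ0 hρ1 hcount (b := b) (μ := μ) ht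
  rw [← he]
  exact setIntegral_nonneg measurableSet_Ioi fun y hy => ker_nonneg hρ0 hρ1 hdom ht hy

theorem aestronglyMeasurable_kfun {b : I → ℝ} {u : J → ℝ → ℝ} {μ : K → ℝ → ℝ} {ρ : ℝ → ℝ}
    (hb : ∀ i, 0 ≤ b i) (hu : ∀ j t, 0 < t → 0 ≤ u j t) (hμ : ∀ k, Measurable (μ k))
    (hρm : Measurable ρ)
    (hρ0 : ∀ y, 0 < y → 0 ≤ ρ y) (hρ1 : ∀ y, 0 < y → ρ y ≤ (1 + y)⁻¹)
    (hcount : ∀ t y, 0 < t → 0 < y → (Finset.univ.filter fun j => y < u j t).card =
      (Finset.univ.filter fun k => t < μ k y).card) :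
    AEStronglyMeasurable (kfun b u ρ) (volume.restrict (Ioi 0)) := by
  have hm : StronglyMeasurable fun t => ∫ y in Ioi 0, ker b μ ρ t y :=
    (measurable_ker b hμ hρm).stronglyMeasurable.integral_prod_right
  refine hm.aestronglyMeasurable.congr ?_
  filter_upwards [ae_restrict_mem measurableSet_Ioi] with t ht
  exact (integral_ker_y hb hu hρm hρ0 hρ1 hcount (b := b) (μ := μ) ht).2

end abstract

/-! ### The branch inequality -/

section branch

variable {e r : Type*} [Fintype e] [DecidableEq e] [Fintype r] [DecidableEq r]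

/-- the matrix branch function
`t ↦ Tr log (1 + Z Zᴴ / t) - Tr χ (Zᴴ (t + n)⁻¹ Z)`, `χ u = ∫₀ᵘ ρ`. -/
noncomputable def kmat (Z : Matrix e r ℂ) (n : Matrix e e ℂ) (ρ : ℝ → ℝ) (t : ℝ) : ℝ :=
  specSum (fun x => Real.log (1 + x / t)) (Z * Zᴴ) -
    specSum (fun u => ∫ y in (0 : ℝ)..u, ρ y) (Cmat Z n t)

/-- the scalar branch function. -/
noncomputable def ksc (be v : ℝ) (ρ : ℝ → ℝ) (t : ℝ) : ℝ :=
  Real.log (1 + be / t) - ∫ y in (0 : ℝ)..(be / (t + v)), ρ y

theorem kmat_eq_kfun (Z : Matrix e r ℂ) {n : Matrix e e ℂ} (hn : n.PosSemidef) (ρ : ℝ → ℝ) :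
    kmat Z n ρ = kfun (fun i => (isHermitian_mul_conjTranspose_self Z).eigenvalues i)
      (fun j t => (isHermitian_Cmat Z hn.isHermitian t).eigenvalues j) ρ := by
  ext t
  rw [kmat, kfun, specSum_eq_sum _ (isHermitian_mul_conjTranspose_self Z),
    specSum_eq_sum _ (isHermitian_Cmat Z hn.isHermitian t)]

theorem ksc_eq_kfun (be v : ℝ) (ρ : ℝ → ℝ) :
    ksc be v ρ = kfun (fun _ : Unit => be) (fun (_ : Unit) t => be / (t + v)) ρ := by
  ext t
  simp [ksc, kfun]

variable (Z : Matrix e r ℂ) {n : Matrix e e ℂ} (hn : n.PosSemidef) {ρ : ℝ → ℝ}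
  (hρm : Measurable ρ) (hρ0 : ∀ y, 0 < y → 0 ≤ ρ y) (hρ1 : ∀ y, 0 < y → ρ y ≤ (1 + y)⁻¹)

include hn in
theorem mat_hb : ∀ i, 0 ≤ (isHermitian_mul_conjTranspose_self Z).eigenvalues i :=
  fun i => (posSemidef_self_mul_conjTranspose Z).eigenvalues_nonneg i

theorem mat_hu : ∀ (j : r) (t : ℝ), 0 < t → 0 ≤ (isHermitian_Cmat Z hn.isHermitian t).eigenvalues j :=
  fun j _ ht => (posSemidef_Cmat Z hn ht).eigenvalues_nonneg j

theorem mat_hμ : ∀ k : e, Measurable fun y : ℝ => (isHermitian_Kmat Z hn.isHermitian y⁻¹).eigenvalues k :=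
  fun k => (measurable_eigenvalues_Kmat Z hn.isHermitian k).comp measurable_inv

theorem mat_hcount : ∀ t y : ℝ, 0 < t → 0 < y →
    (Finset.univ.filter fun j => y < (isHermitian_Cmat Z hn.isHermitian t).eigenvalues j).card =
      (Finset.univ.filter fun k => t < (isHermitian_Kmat Z hn.isHermitian y⁻¹).eigenvalues k).card :=
  fun _ _ ht hy => cnt_Cmat_eq_cnt_Kmat Z hn ht hy

theorem mat_hdom : ∀ t y : ℝ, 0 < t → 0 < y →
    (Finset.univ.filter fun k => t < (isHermitian_Kmat Z hn.isHermitian y⁻¹).eigenvalues k).card ≤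
      (Finset.univ.filter fun i => t * y < (isHermitian_mul_conjTranspose_self Z).eigenvalues i).card :=
  fun _ _ _ hy => cnt_Kmat_le_cnt Z hn hy

theorem sc_hcount {be v : ℝ} (hv : 0 ≤ v) : ∀ t y : ℝ, 0 < t → 0 < y →
    (Finset.univ.filter fun _ : Unit => y < be / (t + v)).card =
      (Finset.univ.filter fun _ : Unit => t < y⁻¹ * be - v).card := by
  intro t y ht hy
  have : y < be / (t + v) ↔ t < y⁻¹ * be - v := by
    rw [lt_div_iff₀ (by linarith), lt_sub_iff_add_lt, inv_mul_eq_div, lt_div_iff₀ hy, mul_comm]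
  simp only [this]

theorem sc_hdom {be v : ℝ} (hv : 0 ≤ v) : ∀ t y : ℝ, 0 < t → 0 < y →
    (Finset.univ.filter fun _ : Unit => t < y⁻¹ * be - v).card ≤
      (Finset.univ.filter fun _ : Unit => t * y < be).card := by
  intro t y ht hy
  apply Finset.card_le_card
  intro x hx
  simp only [Finset.mem_filter, Finset.mem_univ, true_and] at hx ⊢
  have h1 : t < y⁻¹ * be := by linarith
  rwa [inv_mul_eq_div, lt_div_iff₀ hy] at h1

include hn hρm hρ0 hρ1 in
theorem kmat_nonneg {t : ℝ} (ht : 0 < t) : 0 ≤ kmat Z n ρ t := by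
  rw [kmat_eq_kfun Z hn]
  exact kfun_nonneg (mat_hb Z hn) (mat_hu Z hn) hρm hρ0 hρ1 (mat_hcount Z hn) (mat_hdom Z hn) ht

include hρm hρ0 hρ1 in
theorem ksc_nonneg {be v : ℝ} (hbe : 0 ≤ be) (hv : 0 ≤ v) {t : ℝ} (ht : 0 < t) :
    0 ≤ ksc be v ρ t := by
  rw [ksc_eq_kfun]
  exact kfun_nonneg (fun _ => hbe) (fun _ t ht => div_nonneg hbe (by linarith)) hρm hρ0 hρ1
    (sc_hcount hv) (sc_hdom hv) ht

include hn hρm hρ0 hρ1 in
theorem aestronglyMeasurable_kmat :
    AEStronglyMeasurable (kmat Z n ρ) (volume.restrict (Ioi 0)) := by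
  rw [kmat_eq_kfun Z hn]
  exact aestronglyMeasurable_kfun (mat_hb Z hn) (mat_hu Z hn) (mat_hμ Z hn) hρm hρ0 hρ1
    (mat_hcount Z hn)

include hn hρm hρ0 hρ1 in
/-- **Branch inequality** (layer cake + Sylvester + `Tr X₊ ≥ (Tr X)₊`). -/
theorem branch_le :
    ∫⁻ t in Ioi 0, ENNReal.ofReal (kmat Z n ρ t) ≤
      ∫⁻ t in Ioi 0, ENNReal.ofReal (ksc (Z * Zᴴ).trace.re n.trace.re ρ t) := by
  have hbe : 0 ≤ (Z * Zᴴ).trace.re := by
    rw [trace_re_eq_sum (isHermitian_mul_conjTranspose_self Z)]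
    exact Finset.sum_nonneg fun i _ => mat_hb Z hn i
  have hv : 0 ≤ n.trace.re := by
    rw [trace_re_eq_sum hn.isHermitian]
    exact Finset.sum_nonneg fun i _ => hn.eigenvalues_nonneg i
  rw [kmat_eq_kfun Z hn, ksc_eq_kfun,
    lintegral_kfun_eq (mat_hb Z hn) (mat_hu Z hn) (mat_hμ Z hn) hρm hρ0 hρ1 (mat_hcount Z hn)
      (mat_hdom Z hn),
    lintegral_kfun_eq (μ := fun (_ : Unit) y => y⁻¹ * (Z * Zᴴ).trace.re - n.trace.re)
      (fun _ => hbe) (fun _ t ht => div_nonneg hbe (by linarith))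
      (fun _ => (measurable_inv.mul_const _).sub_const _) hρm hρ0 hρ1 (sc_hcount hv) (sc_hdom hv)]
  refine setLIntegral_mono' measurableSet_Ioi fun y hy => ENNReal.ofReal_le_ofReal ?_
  have hy' : 0 < y := hy
  unfold yfun
  rw [← trace_re_eq_sum (isHermitian_mul_conjTranspose_self Z)]
  simp only [Finset.univ_unique, Finset.sum_const, Finset.card_singleton, one_smul]
  have h1 : max (y⁻¹ * (Z * Zᴴ).trace.re - n.trace.re) 0 ≤
      ∑ k, max ((isHermitian_Kmat Z hn.isHermitian y⁻¹).eigenvalues k) 0 := by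
    apply max_le
    · rw [← sum_eigenvalues_Kmat Z hn.isHermitian]
      exact Finset.sum_le_sum fun k _ => le_max_left _ _
    · exact Finset.sum_nonneg fun k _ => le_max_right _ _
  have := mul_le_mul_of_nonneg_left h1 (hρ0 y hy')
  linarith

include hn hρm hρ0 hρ1 in
/-- consumer form of the branch inequality. -/
theorem branch_integral_le
    (hsc : IntegrableOn (ksc (Z * Zᴴ).trace.re n.trace.re ρ) (Ioi 0)) :
    IntegrableOn (kmat Z n ρ) (Ioi 0) ∧
      ∫ t in Ioi 0, kmat Z n ρ t ≤ ∫ t in Ioi 0, ksc (Z * Zᴴ).trace.re n.trace.re ρ t := by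
  have hbe : 0 ≤ (Z * Zᴴ).trace.re := by
    rw [trace_re_eq_sum (isHermitian_mul_conjTranspose_self Z)]
    exact Finset.sum_nonneg fun i _ => mat_hb Z hn i
  have hv : 0 ≤ n.trace.re := by
    rw [trace_re_eq_sum hn.isHermitian]
    exact Finset.sum_nonneg fun i _ => hn.eigenvalues_nonneg i
  have hle := branch_le Z hn hρm hρ0 hρ1
  have hnn1 : 0 ≤ᵐ[volume.restrict (Ioi 0)] kmat Z n ρ := by
    filter_upwards [ae_restrict_mem measurableSet_Ioi] with t ht
    exact kmat_nonneg Z hn hρm hρ0 hρ1 ht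
  have hnn2 : 0 ≤ᵐ[volume.restrict (Ioi 0)] ksc (Z * Zᴴ).trace.re n.trace.re ρ := by
    filter_upwards [ae_restrict_mem measurableSet_Ioi] with t ht
    exact ksc_nonneg hρm hρ0 hρ1 hbe hv ht
  have hfin : ∫⁻ t in Ioi 0, ENNReal.ofReal (ksc (Z * Zᴴ).trace.re n.trace.re ρ t) < ∞ := by
    rw [← ofReal_integral_eq_lintegral_ofReal hsc hnn2]; exact ENNReal.ofReal_lt_top
  have hint : IntegrableOn (kmat Z n ρ) (Ioi 0) := by
    refine ⟨aestronglyMeasurable_kmat Z hn hρm hρ0 hρ1, ?_⟩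
    rw [hasFiniteIntegral_iff_ofReal hnn1]
    exact lt_of_le_of_lt hle hfin
  refine ⟨hint, ?_⟩
  rw [← ofReal_integral_eq_lintegral_ofReal hsc hnn2,
    ← ofReal_integral_eq_lintegral_ofReal hint hnn1] at hle
  exact (ENNReal.ofReal_le_ofReal_iff (integral_nonneg_of_ae hnn2)).1 hle

end branch

end Crest.Agent.GA
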