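import Mathlib

set_option autoImplicit false
open MeasureTheory intervalIntegral Set

namespace Crest.Agent.GA

/-- density of the Kantorovich potential of the branch `(al, v0)` against the branch `(be, v1)`,
truncated at the end point `x = al / v0` of the scalar curve. -/
noncomputable def potRho (al be v0 v1 x : ℝ) : ℝ :=
  if x * v0 < al then 1 / (1 + x + be * x / (al + (v1 - v0) * x)) else 0

/-- the potential. -/
noncomputable def potChi (al be v0 v1 u : ℝ) : ℝ := ∫ x in (0:ℝ)..u, potRho al be v0 v1 x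

theorem potRho_measurable (al be v0 v1 : ℝ) : Measurable (potRho al be v0 v1) := by
  unfold potRho
  refine Measurable.ite (measurableSet_lt (by fun_prop) measurable_const) ?_ measurable_const
  fun_prop

section
variable {al be v0 v1 : ℝ}

theorem pot_den_pos (hv1 : 0 ≤ v1) {x : ℝ} (hx : 0 ≤ x) (h : x * v0 < al) :
    0 < al + (v1 - v0) * x := by
  have : 0 ≤ v1 * x := mul_nonneg hv1 hx
  nlinarith

theorem potRho_of_lt {x : ℝ} (h : x * v0 < al) :
    potRho al be v0 v1 x = 1 / (1 + x + be * x / (al + (v1 - v0) * x)) := by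
  simp [potRho, h]

theorem potRho_of_not_lt {x : ℝ} (h : ¬ x * v0 < al) : potRho al be v0 v1 x = 0 := by
  simp [potRho, h]

theorem pot_G_nonneg (hbe : 0 ≤ be) (hv1 : 0 ≤ v1) {x : ℝ} (hx : 0 ≤ x) (h : x * v0 < al) :
    0 ≤ be * x / (al + (v1 - v0) * x) :=
  div_nonneg (mul_nonneg hbe hx) (pot_den_pos hv1 hx h).le

theorem potRho_nonneg (hbe : 0 ≤ be) (hv1 : 0 ≤ v1) {x : ℝ} (hx : 0 ≤ x) :
    0 ≤ potRho al be v0 v1 x := by
  by_cases h : x * v0 < al
  · rw [potRho_of_lt h]
    have := pot_G_nonneg hbe hv1 hx h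
    positivity
  · rw [potRho_of_not_lt h]

theorem potRho_le (hbe : 0 ≤ be) (hv1 : 0 ≤ v1) {x : ℝ} (hx : 0 ≤ x) :
    potRho al be v0 v1 x ≤ 1 / (1 + x) := by
  by_cases h : x * v0 < al
  · rw [potRho_of_lt h]
    have := pot_G_nonneg hbe hv1 hx h
    apply one_div_le_one_div_of_le (by linarith) (by linarith)
  · rw [potRho_of_not_lt h]; positivity

theorem potRho_le_one (hbe : 0 ≤ be) (hv1 : 0 ≤ v1) {x : ℝ} (hx : 0 ≤ x) :
    potRho al be v0 v1 x ≤ 1 := by
  refine (potRho_le hbe hv1 hx).trans ?_
  rw [div_le_one (by linarith)]; linarith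

theorem potRho_intervalIntegrable (hbe : 0 ≤ be) (hv1 : 0 ≤ v1) {a b : ℝ} (ha : 0 ≤ a)
    (hb : 0 ≤ b) : IntervalIntegrable (potRho al be v0 v1) volume a b := by
  refine IntervalIntegrable.mono_fun' (g := fun _ => (1:ℝ)) intervalIntegrable_const
    (potRho_measurable al be v0 v1).aestronglyMeasurable ?_
  refine (ae_restrict_iff' measurableSet_uIoc).2 (Filter.Eventually.of_forall ?_)
  intro x hx
  have hx0 : 0 ≤ x := by
    have := hx.1
    have h2 : 0 ≤ min a b := le_min ha hb
    linarith
  show ‖potRho al be v0 v1 x‖ ≤ 1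
  rw [Real.norm_of_nonneg (potRho_nonneg hbe hv1 hx0)]
  exact potRho_le_one hbe hv1 hx0

/-- `∫_a^b dy/(c+y) = log (c+b) - log (c+a)`. -/
theorem integral_one_div_add {c a b : ℝ} (hc : 0 < c) (ha : 0 ≤ a) (hb : 0 ≤ b) :
    ∫ y in a..b, 1 / (c + y) = Real.log (c + b) - Real.log (c + a) := by
  have hpos : ∀ y ∈ uIcc a b, 0 < c + y := by
    intro y hy
    have h1 : min a b ≤ y := hy.1
    have h2 : 0 ≤ min a b := le_min ha hb
    linarith
  refine integral_eq_sub_of_hasDerivAt (f := fun y => Real.log (c + y)) ?_ ?_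
  · intro y hy
    have h := ((hasDerivAt_id y).const_add c).log (hpos y hy).ne'
    simpa using h
  · apply ContinuousOn.intervalIntegrable
    intro y hy
    apply ContinuousAt.continuousWithinAt
    exact ContinuousAt.div continuousAt_const (by fun_prop) (hpos y hy).ne'

theorem intervalIntegrable_one_div_add {c a b : ℝ} (hc : 0 < c) (ha : 0 ≤ a) (hb : 0 ≤ b) :
    IntervalIntegrable (fun y => 1 / (c + y)) volume a b := by
  have hpos : ∀ y ∈ uIcc a b, 0 < c + y := by
    intro y hy
    have h1 : min a b ≤ y := hy.1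
    have h2 : 0 ≤ min a b := le_min ha hb
    linarith
  apply ContinuousOn.intervalIntegrable
  intro y hy
  apply ContinuousAt.continuousWithinAt
  exact ContinuousAt.div continuousAt_const (by fun_prop) (hpos y hy).ne'

/-- crude bound `χ(y) ≤ log (1+y)`. -/
theorem potChi_le_log (hbe : 0 ≤ be) (hv1 : 0 ≤ v1) {x : ℝ} (hx : 0 ≤ x) :
    potChi al be v0 v1 x ≤ Real.log (1 + x) := by
  have h := integral_one_div_add (c := 1) one_pos le_rfl hx
  simp only [add_zero, Real.log_one, sub_zero] at h
  rw [← h]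
  unfold potChi
  refine integral_mono_on hx (potRho_intervalIntegrable hbe hv1 le_rfl hx)
    (intervalIntegrable_one_div_add one_pos le_rfl hx) ?_
  intro y hy
  exact potRho_le hbe hv1 hy.1

theorem potChi_zero_left (hv0 : 0 ≤ v0) {x : ℝ} (hx : 0 ≤ x) : potChi 0 be v0 v1 x = 0 := by
  unfold potChi
  have : ∀ y ∈ uIcc 0 x, potRho 0 be v0 v1 y = 0 := by
    intro y hy
    rw [uIcc_of_le hx] at hy
    apply potRho_of_not_lt
    have := mul_nonneg hy.1 hv0
    linarith
  rw [integral_congr this]
  simp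

/-- if the other branch is empty the potential is `log (1+x)` on the curve. -/
theorem potChi_zero_right (hv0 : 0 ≤ v0) {x : ℝ} (hx : 0 ≤ x) (h : x * v0 < al) :
    potChi al 0 v0 v1 x = Real.log (1 + x) := by
  have h1 := integral_one_div_add (c := 1) one_pos le_rfl hx
  simp only [add_zero, Real.log_one, sub_zero] at h1
  rw [← h1]
  unfold potChi
  apply integral_congr
  intro y hy
  rw [uIcc_of_le hx] at hy
  have hy' : y * v0 < al := lt_of_le_of_lt (mul_le_mul_of_nonneg_right hy.2 hv0) h
  show potRho al 0 v0 v1 y = 1 / (1 + y)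
  rw [potRho_of_lt hy']
  simp

/-- the scalar curve `y = G x`. -/
noncomputable def potG (al be v0 v1 x : ℝ) : ℝ := be * x / (al + (v1 - v0) * x)

theorem potG_nonneg (hbe : 0 ≤ be) (hv1 : 0 ≤ v1) {x : ℝ} (hx : 0 ≤ x) (h : x * v0 < al) :
    0 ≤ potG al be v0 v1 x := pot_G_nonneg hbe hv1 hx h

theorem potG_mem (hbe : 0 < be) (hv1 : 0 ≤ v1) {x : ℝ} (hx : 0 ≤ x) (h : x * v0 < al) :
    potG al be v0 v1 x * v1 < be := by
  have hd := pot_den_pos hv1 hx h
  unfold potG
  rw [div_mul_eq_mul_div, div_lt_iff₀ hd]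
  nlinarith

theorem potG_inv (hal : 0 < al) (hbe : 0 < be) (hv1 : 0 ≤ v1) {x : ℝ} (hx : 0 ≤ x)
    (h : x * v0 < al) : potG be al v1 v0 (potG al be v0 v1 x) = x := by
  have hd := pot_den_pos hv1 hx h
  unfold potG
  have h1 : be + (v0 - v1) * (be * x / (al + (v1 - v0) * x)) = be * al / (al + (v1 - v0) * x) := by
    rw [eq_div_iff hd.ne', add_mul, mul_assoc, div_mul_cancel₀ _ hd.ne']
    ring
  rw [h1, div_eq_iff (by positivity)]
  ring

theorem potG_hasDerivAt (hv1 : 0 ≤ v1) {x : ℝ} (hx : 0 ≤ x) (h : x * v0 < al) :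
    HasDerivAt (potG al be v0 v1) (be * al / (al + (v1 - v0) * x) ^ 2) x := by
  have hd := pot_den_pos hv1 hx h
  have h1 : HasDerivAt (fun s : ℝ => be * s) be x := by
    simpa using (hasDerivAt_id x).const_mul be
  have h2 : HasDerivAt (fun s : ℝ => al + (v1 - v0) * s) (v1 - v0) x := by
    simpa using ((hasDerivAt_id x).const_mul (v1 - v0)).const_add al
  have h3 := h1.div h2 hd.ne'
  have e : (be * (al + (v1 - v0) * x) - be * x * (v1 - v0)) / (al + (v1 - v0) * x) ^ 2
      = be * al / (al + (v1 - v0) * x) ^ 2 := by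
    congr 1; ring
  rw [e] at h3
  exact h3

theorem pot_r_continuousAt (hbe : 0 ≤ be) (hv1 : 0 ≤ v1) {x : ℝ} (hx : 0 ≤ x) (h : x * v0 < al) :
    ContinuousAt (fun x => 1 / (1 + x + be * x / (al + (v1 - v0) * x))) x := by
  have hd := pot_den_pos hv1 hx h
  have hG := pot_G_nonneg hbe hv1 hx h
  refine ContinuousAt.div continuousAt_const ?_ (by positivity)
  exact ContinuousAt.add (by fun_prop) (ContinuousAt.div (by fun_prop) (by fun_prop) hd.ne')

/-- equality on the curve. -/
theorem potChi_curve (hal : 0 < al) (hbe : 0 < be) (hv0 : 0 ≤ v0) (hv1 : 0 ≤ v1) {x : ℝ}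
    (hx : 0 ≤ x) (h : x * v0 < al) :
    potChi al be v0 v1 x + potChi be al v1 v0 (potG al be v0 v1 x)
      = Real.log (1 + x + potG al be v0 v1 x) := by
  have hmem : ∀ s ∈ uIcc 0 x, 0 ≤ s ∧ s * v0 < al := by
    intro s hs
    rw [uIcc_of_le hx] at hs
    exact ⟨hs.1, lt_of_le_of_lt (mul_le_mul_of_nonneg_right hs.2 hv0) h⟩
  have hG0 : potG al be v0 v1 0 = 0 := by simp [potG]
  have hGx := potG_nonneg hbe.le hv1 hx h
  have hGxm := potG_mem hbe hv1 hx h
  -- first potential
  have e0 : potChi al be v0 v1 x = ∫ s in (0:ℝ)..x, 1 / (1 + s + potG al be v0 v1 s) := by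
    unfold potChi
    apply integral_congr
    intro s hs
    exact potRho_of_lt (hmem s hs).2
  -- second potential
  have e1 : potChi be al v1 v0 (potG al be v0 v1 x)
      = ∫ y in (potG al be v0 v1 0)..(potG al be v0 v1 x),
          1 / (1 + y + al * y / (be + (v0 - v1) * y)) := by
    rw [hG0]
    unfold potChi
    apply integral_congr
    intro y hy
    rw [uIcc_of_le hGx] at hy
    exact potRho_of_lt (lt_of_le_of_lt (mul_le_mul_of_nonneg_right hy.2 hv1) hGxm)
  have hcG : ContinuousOn (potG al be v0 v1) (uIcc 0 x) := fun s hs =>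
    (potG_hasDerivAt hv1 (hmem s hs).1 (hmem s hs).2).continuousAt.continuousWithinAt
  have hcG' : ContinuousOn (fun s => be * al / (al + (v1 - v0) * s) ^ 2) (uIcc 0 x) := by
    intro s hs
    have hd := pot_den_pos hv1 (hmem s hs).1 (hmem s hs).2
    apply ContinuousAt.continuousWithinAt
    exact ContinuousAt.div continuousAt_const (by fun_prop) (by positivity)
  have e2 := integral_comp_mul_deriv'' (a := 0) (b := x) (f := potG al be v0 v1)
    (f' := fun s => be * al / (al + (v1 - v0) * s) ^ 2)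
    (g := fun y => 1 / (1 + y + al * y / (be + (v0 - v1) * y))) hcG
    (fun s hs => by
      have hs' : s ∈ uIcc 0 x := by
        rw [min_eq_left hx, max_eq_right hx] at hs
        rw [uIcc_of_le hx]; exact ⟨hs.1.le, hs.2.le⟩
      exact (potG_hasDerivAt hv1 (hmem s hs').1 (hmem s hs').2).hasDerivWithinAt)
    hcG'
    (by
      rintro y ⟨s, hs, rfl⟩
      apply ContinuousAt.continuousWithinAt
      exact pot_r_continuousAt hal.le hv0 (potG_nonneg hbe.le hv1 (hmem s hs).1 (hmem s hs).2)
        (potG_mem hbe hv1 (hmem s hs).1 (hmem s hs).2))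
  rw [e0, e1, ← e2]
  have hc0 : ContinuousOn (fun s => 1 / (1 + s + potG al be v0 v1 s)) (uIcc 0 x) := fun s hs =>
    (pot_r_continuousAt hbe.le hv1 (hmem s hs).1 (hmem s hs).2).continuousWithinAt
  have hcomp : ∀ s ∈ uIcc 0 x,
      ((fun y => 1 / (1 + y + al * y / (be + (v0 - v1) * y))) ∘ potG al be v0 v1) s
        * (be * al / (al + (v1 - v0) * s) ^ 2)
      = 1 / (1 + s + potG al be v0 v1 s) * (be * al / (al + (v1 - v0) * s) ^ 2) := by
    intro s hs
    have hi := potG_inv hal hbe hv1 (hmem s hs).1 (hmem s hs).2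
    unfold potG at hi
    simp only [Function.comp]
    unfold potG
    rw [hi]
    congr 2
    ring
  have hi2 : IntervalIntegrable (fun s => 1 / (1 + s + potG al be v0 v1 s)
      * (be * al / (al + (v1 - v0) * s) ^ 2)) volume 0 x := (hc0.mul hcG').intervalIntegrable
  rw [integral_congr hcomp, ← integral_add hc0.intervalIntegrable hi2]
  have hfin : ∫ s in (0:ℝ)..x, (1 / (1 + s + potG al be v0 v1 s)
      + 1 / (1 + s + potG al be v0 v1 s) * (be * al / (al + (v1 - v0) * s) ^ 2))
      = Real.log (1 + x + potG al be v0 v1 x) - Real.log (1 + 0 + potG al be v0 v1 0) := by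
    refine integral_eq_sub_of_hasDerivAt (f := fun s => Real.log (1 + s + potG al be v0 v1 s)) ?_ ?_
    · intro s hs
      have hGs := potG_nonneg hbe.le hv1 (hmem s hs).1 (hmem s hs).2
      have hs0 := (hmem s hs).1
      have hne : (1 + id s + potG al be v0 v1 s) ≠ 0 := by
        have : 0 < 1 + s + potG al be v0 v1 s := by positivity
        simpa using this.ne'
      have hd1 := (((hasDerivAt_id s).const_add 1).add
        (potG_hasDerivAt (be := be) hv1 (hmem s hs).1 (hmem s hs).2)).log hne
      have e : (1 + be * al / (al + (v1 - v0) * s) ^ 2)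
            / ((fun x : ℝ => 1 + id x) + potG al be v0 v1 : ℝ → ℝ) s
          = 1 / (1 + s + potG al be v0 v1 s)
            + 1 / (1 + s + potG al be v0 v1 s) * (be * al / (al + (v1 - v0) * s) ^ 2) := by
        simp only [Pi.add_apply, id]
        ring
      rw [e] at hd1
      exact hd1
    · exact (hc0.add (hc0.mul hcG')).intervalIntegrable
  rw [hfin, hG0]
  simp

/-- the inequality above the curve. -/
theorem potChi_add_le_above (hal : 0 < al) (hbe : 0 < be) (hv0 : 0 ≤ v0) (hv1 : 0 ≤ v1) {x y : ℝ}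
    (hx : 0 ≤ x) (h : x * v0 < al) (hy' : y * v1 < be) (hGy : potG al be v0 v1 x ≤ y) :
    potChi al be v0 v1 x + potChi be al v1 v0 y ≤ Real.log (1 + x + y) := by
  have hG := potG_nonneg hbe.le hv1 hx h
  have hy : 0 ≤ y := hG.trans hGy
  have hd := pot_den_pos hv1 hx h
  have hsplit : potChi be al v1 v0 y = potChi be al v1 v0 (potG al be v0 v1 x)
      + ∫ z in (potG al be v0 v1 x)..y, potRho be al v1 v0 z := by
    unfold potChi
    rw [integral_add_adjacent_intervals (potRho_intervalIntegrable hal.le hv0 le_rfl hG)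
      (potRho_intervalIntegrable hal.le hv0 hG hy)]
  have hle : ∫ z in (potG al be v0 v1 x)..y, potRho be al v1 v0 z
      ≤ ∫ z in (potG al be v0 v1 x)..y, 1 / ((1 + x) + z) := by
    refine integral_mono_on hGy (potRho_intervalIntegrable hal.le hv0 hG hy)
      (intervalIntegrable_one_div_add (by linarith) hG hy) ?_
    intro z hz
    have hz0 : 0 ≤ z := hG.trans hz.1
    have hz' : z * v1 < be := lt_of_le_of_lt (mul_le_mul_of_nonneg_right hz.2 hv1) hy'
    have hdz := pot_den_pos hv0 hz0 hz'
    rw [potRho_of_lt hz']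
    apply one_div_le_one_div_of_le (by linarith)
    have hxz : x ≤ al * z / (be + (v0 - v1) * z) := by
      rw [le_div_iff₀ hdz]
      have h1 : be * x ≤ z * (al + (v1 - v0) * x) := by
        have := hz.1
        unfold potG at this
        rwa [div_le_iff₀ hd] at this
      nlinarith
    linarith
  rw [integral_one_div_add (by linarith) hG hy] at hle
  have hc := potChi_curve hal hbe hv0 hv1 hx h
  rw [hsplit]
  have e1 : 1 + x + y = 1 + x + y := rfl
  linarith

/-- the inequality on the product of the two (half-open) domains. -/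
theorem potChi_add_le_dom (hal : 0 < al) (hbe : 0 < be) (hv0 : 0 ≤ v0) (hv1 : 0 ≤ v1) {x y : ℝ}
    (hx : 0 ≤ x) (hy : 0 ≤ y) (h : x * v0 < al) (hy' : y * v1 < be) :
    potChi al be v0 v1 x + potChi be al v1 v0 y ≤ Real.log (1 + x + y) := by
  rcases le_total (potG al be v0 v1 x) y with hG | hG
  · exact potChi_add_le_above hal hbe hv0 hv1 hx h hy' hG
  · have hd := pot_den_pos hv1 hx h
    have hdy := pot_den_pos hv0 hy hy'
    have hH : potG be al v1 v0 y ≤ x := by
      unfold potG at hG ⊢
      rw [le_div_iff₀ hd] at hG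
      rw [div_le_iff₀ hdy]
      nlinarith
    have := potChi_add_le_above hbe hal hv1 hv0 hy hy' h hH
    have e : 1 + y + x = 1 + x + y := by ring
    rw [e] at this
    linarith

/-- approximation from inside the domain. -/
theorem potChi_approx (hal : 0 < al) (hbe : 0 ≤ be) (hv0 : 0 ≤ v0) (hv1 : 0 ≤ v1) {x ε : ℝ}
    (hx : 0 ≤ x) (hε : 0 < ε) :
    ∃ x', 0 ≤ x' ∧ x' ≤ x ∧ x' * v0 < al ∧ potChi al be v0 v1 x ≤ potChi al be v0 v1 x' + ε := by
  by_cases h : x * v0 < al
  · exact ⟨x, hx, le_rfl, h, by linarith⟩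
  · rw [not_lt] at h
    have hv0' : 0 < v0 := by
      rcases hv0.lt_or_eq with h0 | h0
      · exact h0
      · rw [← h0] at h; simp at h; linarith
    have hA : 0 < al / v0 := div_pos hal hv0'
    have hAx : al / v0 ≤ x := by rw [div_le_iff₀ hv0']; exact h
    refine ⟨max 0 (al / v0 - ε), le_max_left _ _, ?_, ?_, ?_⟩
    · exact max_le hx (by linarith)
    · have : max 0 (al / v0 - ε) < al / v0 := max_lt hA (by linarith)
      rwa [lt_div_iff₀ hv0'] at this
    · set x' := max 0 (al / v0 - ε) with hx'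
      have hx'0 : 0 ≤ x' := le_max_left _ _
      have hx'A : x' ≤ al / v0 := max_le hA.le (by linarith)
      have hAx' : al / v0 - x' ≤ ε := by
        have := le_max_right 0 (al / v0 - ε)
        linarith
      have e1 : potChi al be v0 v1 x = potChi al be v0 v1 x'
          + (∫ z in x'..(al / v0), potRho al be v0 v1 z)
          + ∫ z in (al / v0)..x, potRho al be v0 v1 z := by
        unfold potChi
        rw [integral_add_adjacent_intervals (potRho_intervalIntegrable hbe hv1 le_rfl hx'0)
          (potRho_intervalIntegrable hbe hv1 hx'0 hA.le),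
          integral_add_adjacent_intervals (potRho_intervalIntegrable hbe hv1 le_rfl hA.le)
          (potRho_intervalIntegrable hbe hv1 hA.le hx)]
      have e2 : ∫ z in (al / v0)..x, potRho al be v0 v1 z = 0 := by
        have : ∀ z ∈ uIcc (al / v0) x, potRho al be v0 v1 z = 0 := by
          intro z hz
          rw [uIcc_of_le hAx] at hz
          apply potRho_of_not_lt
          rw [not_lt]
          have := hz.1
          rwa [div_le_iff₀ hv0'] at this
        rw [integral_congr this]; simp
      have e3 : ∫ z in x'..(al / v0), potRho al be v0 v1 z ≤ ∫ _z in x'..(al / v0), (1:ℝ) := by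
        refine integral_mono_on hx'A (potRho_intervalIntegrable hbe hv1 hx'0 hA.le)
          intervalIntegrable_const ?_
        intro z hz
        exact potRho_le_one hbe hv1 (hx'0.trans hz.1)
      rw [intervalIntegral.integral_const] at e3
      simp only [smul_eq_mul, mul_one] at e3
      linarith

/-- **The potentials are admissible**: `χ₀(x) + χ₁(y) ≤ log (1 + x + y)`. -/
theorem potChi_add_le (hal : 0 ≤ al) (hbe : 0 ≤ be) (hv0 : 0 ≤ v0) (hv1 : 0 ≤ v1) {x y : ℝ}
    (hx : 0 ≤ x) (hy : 0 ≤ y) :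
    potChi al be v0 v1 x + potChi be al v1 v0 y ≤ Real.log (1 + x + y) := by
  rcases hal.lt_or_eq with hal' | hal'
  · rcases hbe.lt_or_eq with hbe' | hbe'
    · apply le_of_forall_pos_le_add
      intro ε hε
      obtain ⟨x', hx'0, hx'x, hx'd, hx'c⟩ := potChi_approx (v1 := v1) hal' hbe hv0 hv1 hx (half_pos hε)
      obtain ⟨y', hy'0, hy'y, hy'd, hy'c⟩ := potChi_approx (v1 := v0) hbe' hal hv1 hv0 hy (half_pos hε)
      have h1 := potChi_add_le_dom hal' hbe' hv0 hv1 hx'0 hy'0 hx'd hy'd
      have h2 : Real.log (1 + x' + y') ≤ Real.log (1 + x + y) :=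
        Real.log_le_log (by linarith) (by linarith)
      linarith
    · subst hbe'
      rw [potChi_zero_left hv1 hy]
      have h1 := potChi_le_log (al := al) (v0 := v0) (le_refl (0:ℝ)) hv1 hx
      have h2 : Real.log (1 + x) ≤ Real.log (1 + x + y) :=
        Real.log_le_log (by linarith) (by linarith)
      linarith
  · subst hal'
    rw [potChi_zero_left hv0 hx]
    have h1 := potChi_le_log (al := be) (v0 := v1) (le_refl (0:ℝ)) hv0 hy
    have h2 : Real.log (1 + y) ≤ Real.log (1 + x + y) :=
      Real.log_le_log (by linarith) (by linarith)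
    linarith

/-- **Equality on the scalar curve** `x = al/(t+v0)`, `y = be/(t+v1)`, `t > 0`. -/
theorem potChi_add_eq (hal : 0 ≤ al) (hbe : 0 ≤ be) (hv0 : 0 ≤ v0) (hv1 : 0 ≤ v1) {t : ℝ}
    (ht : 0 < t) :
    potChi al be v0 v1 (al / (t + v0)) + potChi be al v1 v0 (be / (t + v1))
      = Real.log (1 + al / (t + v0) + be / (t + v1)) := by
  have ht0 : 0 < t + v0 := by linarith
  have ht1 : 0 < t + v1 := by linarith
  have dom : ∀ {c v : ℝ}, 0 < c → 0 ≤ v → c / (t + v) * v < c := by
    intro c v hc hv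
    have htv : 0 < t + v := by linarith
    rw [div_mul_eq_mul_div, div_lt_iff₀ htv]
    nlinarith
  rcases hal.lt_or_eq with hal' | hal'
  · rcases hbe.lt_or_eq with hbe' | hbe'
    · have hx : 0 ≤ al / (t + v0) := by positivity
      have h := potChi_curve hal' hbe' hv0 hv1 hx (dom hal' hv0)
      have hG : potG al be v0 v1 (al / (t + v0)) = be / (t + v1) := by
        unfold potG
        have e : al + (v1 - v0) * (al / (t + v0)) = al * (t + v1) / (t + v0) := by
          rw [eq_div_iff ht0.ne', add_mul, mul_assoc, div_mul_cancel₀ _ ht0.ne']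
          ring
        rw [e, div_eq_div_iff (by positivity) ht1.ne']
        field_simp
      rw [hG] at h
      exact h
    · subst hbe'
      have hx : 0 ≤ al / (t + v0) := by positivity
      rw [potChi_zero_right hv0 hx (dom hal' hv0)]
      simp [potChi]
  · subst hal'
    rcases hbe.lt_or_eq with hbe' | hbe'
    · have hy : 0 ≤ be / (t + v1) := by positivity
      rw [potChi_zero_right hv1 hy (dom hbe' hv1)]
      simp [potChi]
    · subst hbe'
      simp [potChi]

end

end Crest.Agent.GA
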