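import Mathlib
import Crest.Agent.GA_Layer
import Crest.Agent.GA_Det2
import Crest.Agent.GA_IntRep
import Crest.Agent.GA_Pot
import Crest.Agent.GA_KZDefs

/-!
# Row 341: assembly of the key inequality (KZ'')

`kzFsc (Tr X Xᴴ) (Tr Z Zᴴ) (Tr n0) (Tr n1) ≤ kzF X Z n0 n1`.
-/

set_option autoImplicit false
set_option linter.unusedSectionVars false

namespace Crest.Agent.GA

open Matrix MeasureTheory Set Crest.Quantum
open scoped ComplexOrder ENNReal

variable {e r : Type*} [Fintype e] [DecidableEq e] [Fintype r] [DecidableEq r]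

/-- the integrand `L_out - L_a - L_b - L_n0 - L_n1`. -/
noncomputable def kzxD (X Z : Matrix e r ℂ) (n0 n1 : Matrix e e ℂ) (t : ℝ) : ℝ :=
  Lsum (outM X Z n0 n1) t - Lsum (X * Xᴴ) t - Lsum (Z * Zᴴ) t - Lsum n0 t - Lsum n1 t

theorem kzx_intrep (X Z : Matrix e r ℂ) {n0 n1 : Matrix e e ℂ} (h0 : n0.PosSemidef)
    (h1 : n1.PosSemidef) :
    IntegrableOn (kzxD X Z n0 n1) (Ioi 0) ∧
      ∫ t in Ioi 0, kzxD X Z n0 n1 t = kzF X Z n0 n1 := by
  have hO := outM_posSemidef X Z h0 h1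
  have hA := posSemidef_self_mul_conjTranspose X
  have hB := posSemidef_self_mul_conjTranspose Z
  set μ : Bool × e → ℝ := hO.isHermitian.eigenvalues with hμ
  set lam : (e ⊕ e) ⊕ (e ⊕ e) → ℝ :=
    Sum.elim (Sum.elim hA.isHermitian.eigenvalues hB.isHermitian.eigenvalues)
      (Sum.elim h0.isHermitian.eigenvalues h1.isHermitian.eigenvalues) with hlam
  have hl : ∀ i, 0 ≤ lam i := by
    rintro ((i | i) | (i | i))
    · exact hA.eigenvalues_nonneg i
    · exact hB.eigenvalues_nonneg i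
    · exact h0.eigenvalues_nonneg i
    · exact h1.eigenvalues_nonneg i
  have hm : ∀ j, 0 ≤ μ j := fun j => hO.eigenvalues_nonneg j
  have hsum : ∑ i, lam i = ∑ j, μ j := by
    simp only [hlam, hμ, Fintype.sum_sum_type, Sum.elim_inl, Sum.elim_inr]
    rw [← trace_re_eq_sum, ← trace_re_eq_sum, ← trace_re_eq_sum, ← trace_re_eq_sum,
      ← trace_re_eq_sum, trace_outM]
    simp only [Complex.add_re]; ring
  have hD : ∀ t, kzxD X Z n0 n1 t = Lfam μ t - Lfam lam t := by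
    intro t
    simp only [kzxD, Lfam, hlam, hμ, Fintype.sum_sum_type, Sum.elim_inl, Sum.elim_inr]
    rw [Lsum_eq_sum hO.isHermitian, Lsum_eq_sum hA.isHermitian, Lsum_eq_sum hB.isHermitian,
      Lsum_eq_sum h0.isHermitian, Lsum_eq_sum h1.isHermitian]
    ring
  have hDf : kzxD X Z n0 n1 = fun t => Lfam μ t - Lfam lam t := funext hD
  refine ⟨?_, ?_⟩
  · rw [hDf]; exact Lfam_sub_integrableOn lam μ hl hm hsum
  · rw [hDf, integral_Lfam_sub lam μ hl hm hsum]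
    simp only [hlam, hμ, Fintype.sum_sum_type, Sum.elim_inl, Sum.elim_inr]
    rw [kzF, vnEntropy_eq_sum hA.isHermitian, vnEntropy_eq_sum hB.isHermitian,
      vnEntropy_eq_sum h0.isHermitian, vnEntropy_eq_sum h1.isHermitian]
    have : kzOut X Z n0 n1 = outM X Z n0 n1 := rfl
    rw [this, vnEntropy_eq_sum hO.isHermitian]
    ring

section pot
variable {al be v0 v1 : ℝ}

theorem kzx_rho0 (hbe : 0 ≤ be) (hv1 : 0 ≤ v1) : ∀ y, 0 < y → 0 ≤ potRho al be v0 v1 y :=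
  fun _ hy => potRho_nonneg hbe hv1 hy.le

theorem kzx_rho1 (hbe : 0 ≤ be) (hv1 : 0 ≤ v1) : ∀ y, 0 < y → potRho al be v0 v1 y ≤ (1 + y)⁻¹ :=
  fun y hy => by rw [← one_div]; exact potRho_le hbe hv1 hy.le

/-- pointwise lower bound of the integrand. -/
theorem kzx_lower (hal : 0 ≤ al) (hbe : 0 ≤ be) (hv0 : 0 ≤ v0) (hv1 : 0 ≤ v1)
    (X Z : Matrix e r ℂ) {n0 n1 : Matrix e e ℂ} (h0 : n0.PosSemidef)
    (h1 : n1.PosSemidef) {t : ℝ} (ht : 0 < t) :
    -kmat X n0 (potRho al be v0 v1) t - kmat Z n1 (potRho be al v1 v0) t ≤ kzxD X Z n0 n1 t := by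
  have h := specSum_resv_add_le h0 h1 ht X Z (potChi al be v0 v1) (potChi be al v1 v0)
    (fun x y hx hy => potChi_add_le hal hbe hv0 hv1 hx hy)
  have e0 : kmat X n0 (potRho al be v0 v1) t =
      Lsum (X * Xᴴ) t - specSum (potChi al be v0 v1) (resv t n0 X) := rfl
  have e1 : kmat Z n1 (potRho be al v1 v0) t =
      Lsum (Z * Zᴴ) t - specSum (potChi be al v1 v0) (resv t n1 Z) := rfl
  rw [e0, e1, kzxD]
  linarith

/-- the scalar integrand. -/
theorem kzx_scalar (hal : 0 ≤ al) (hbe : 0 ≤ be) (hv0 : 0 ≤ v0) (hv1 : 0 ≤ v1)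
    {t : ℝ} (ht : 0 < t) :
    kzxD (one1 (Real.sqrt al)) (one1 (Real.sqrt be)) (one1 v0) (one1 v1) t =
      -ksc al v0 (potRho al be v0 v1) t - ksc be v1 (potRho be al v1 v0) t := by
  have ht0 : t + v0 ≠ 0 := by positivity
  have ht1 : t + v1 ≠ 0 := by positivity
  rw [kzxD, Lsum_outM (one1_posSemidef hv0) (one1_posSemidef hv1) ht,
    resv_one1_sqrt ht0 hal, resv_one1_sqrt ht1 hbe, one1_add,
    one1_sqrt_mul_conjTranspose hal, one1_sqrt_mul_conjTranspose hbe]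
  simp only [Lsum_one1, div_one]
  have := potChi_add_eq hal hbe hv0 hv1 ht
  have e0 : ksc al v0 (potRho al be v0 v1) t =
      Real.log (1 + al / t) - potChi al be v0 v1 (al / (t + v0)) := rfl
  have e1 : ksc be v1 (potRho be al v1 v0) t =
      Real.log (1 + be / t) - potChi be al v1 v0 (be / (t + v1)) := rfl
  rw [e0, e1, ← add_assoc, ← this]
  ring

theorem kzx_kzF_scalar (hal : 0 ≤ al) (hbe : 0 ≤ be) :
    kzF (one1 (Real.sqrt al)) (one1 (Real.sqrt be)) (one1 v0) (one1 v1) = kzFsc al be v0 v1 := by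
  have h : kzOut (one1 (Real.sqrt al)) (one1 (Real.sqrt be)) (one1 v0) (one1 v1) =
      outM (one1 (Real.sqrt al)) (one1 (Real.sqrt be)) (one1 v0) (one1 v1) := rfl
  rw [kzF, h, outM_one1 hal hbe, vnEntropy_ofBlocks_one1, one1_sqrt_mul_conjTranspose hal,
    one1_sqrt_mul_conjTranspose hbe, kzFsc]
  simp only [vnEntropy_one1]
  have : mat2 (al + v0) (Real.sqrt al * Real.sqrt be) (Real.sqrt be * Real.sqrt al) (be + v1) =
      kzOutSc al be v0 v1 := by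
    ext s t
    cases s <;> cases t <;> simp [mat2, Real.sqrt_mul hal, mul_comm]
  rw [this]

theorem kzx_aesm_ksc {ρ : ℝ → ℝ} (hρm : Measurable ρ) (hρ0 : ∀ y, 0 < y → 0 ≤ ρ y)
    (hρ1 : ∀ y, 0 < y → ρ y ≤ (1 + y)⁻¹) {b v : ℝ} (hb : 0 ≤ b) (hv : 0 ≤ v) :
    AEStronglyMeasurable (ksc b v ρ) (volume.restrict (Ioi 0)) := by
  rw [ksc_eq_kfun]
  exact aestronglyMeasurable_kfun (μ := fun (_ : Unit) y => y⁻¹ * b - v)
    (fun _ => hb) (fun _ t ht => div_nonneg hb (by linarith))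
    (fun _ => (measurable_inv.mul_const _).sub_const _) hρm hρ0 hρ1 (sc_hcount hv)

end pot

theorem kzx_integral_neg_sub {f g : ℝ → ℝ} (hf : IntegrableOn f (Ioi 0)) (hg : IntegrableOn g (Ioi 0)) :
    ∫ t in Ioi 0, (-f t - g t) = -(∫ t in Ioi 0, f t) - ∫ t in Ioi 0, g t := by
  have h := integral_sub (μ := volume.restrict (Ioi 0)) (f := fun t => -f t) (g := g) hf.neg hg
  rw [integral_neg] at h
  exact h

/-- **(KZ'')**. -/
theorem kz2x (X Z : Matrix e r ℂ) {n0 n1 : Matrix e e ℂ} (h0 : n0.PosSemidef)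
    (h1 : n1.PosSemidef) :
    kzFsc (X * Xᴴ).trace.re (Z * Zᴴ).trace.re n0.trace.re n1.trace.re ≤ kzF X Z n0 n1 := by
  set al := (X * Xᴴ).trace.re with hal'
  set be := (Z * Zᴴ).trace.re with hbe'
  set v0 := n0.trace.re with hv0'
  set v1 := n1.trace.re with hv1'
  have hal : 0 ≤ al := by
    rw [hal', trace_re_eq_sum (posSemidef_self_mul_conjTranspose X).isHermitian]
    exact Finset.sum_nonneg fun i _ => (posSemidef_self_mul_conjTranspose X).eigenvalues_nonneg i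
  have hbe : 0 ≤ be := by
    rw [hbe', trace_re_eq_sum (posSemidef_self_mul_conjTranspose Z).isHermitian]
    exact Finset.sum_nonneg fun i _ => (posSemidef_self_mul_conjTranspose Z).eigenvalues_nonneg i
  have hv0 : 0 ≤ v0 := by
    rw [hv0', trace_re_eq_sum h0.isHermitian]
    exact Finset.sum_nonneg fun i _ => h0.eigenvalues_nonneg i
  have hv1 : 0 ≤ v1 := by
    rw [hv1', trace_re_eq_sum h1.isHermitian]
    exact Finset.sum_nonneg fun i _ => h1.eigenvalues_nonneg i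
  set ρ0 := potRho al be v0 v1 with hρ0
  set ρ1 := potRho be al v1 v0 with hρ1
  have m0 : Measurable ρ0 := potRho_measurable _ _ _ _
  have m1 : Measurable ρ1 := potRho_measurable _ _ _ _
  have a0 : ∀ y, 0 < y → 0 ≤ ρ0 y := kzx_rho0 hbe hv1
  have a1 : ∀ y, 0 < y → 0 ≤ ρ1 y := kzx_rho0 hal hv0
  have b0 : ∀ y, 0 < y → ρ0 y ≤ (1 + y)⁻¹ := kzx_rho1 hbe hv1
  have b1 : ∀ y, 0 < y → ρ1 y ≤ (1 + y)⁻¹ := kzx_rho1 hal hv0
  -- scalar side
  obtain ⟨hsI, hsE⟩ := kzx_intrep (one1 (Real.sqrt al)) (one1 (Real.sqrt be))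
    (one1_posSemidef hv0) (one1_posSemidef hv1)
  rw [kzx_kzF_scalar hal hbe] at hsE
  set Dsc := kzxD (one1 (Real.sqrt al)) (one1 (Real.sqrt be)) (one1 v0) (one1 v1) with hDsc
  have hsc : ∀ t ∈ Ioi (0 : ℝ), Dsc t = -ksc al v0 ρ0 t - ksc be v1 ρ1 t :=
    fun t ht => kzx_scalar hal hbe hv0 hv1 ht
  have k0nn : ∀ t ∈ Ioi (0 : ℝ), 0 ≤ ksc al v0 ρ0 t := fun t ht => ksc_nonneg m0 a0 b0 hal hv0 ht
  have k1nn : ∀ t ∈ Ioi (0 : ℝ), 0 ≤ ksc be v1 ρ1 t := fun t ht => ksc_nonneg m1 a1 b1 hbe hv1 ht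
  have k0I : IntegrableOn (ksc al v0 ρ0) (Ioi 0) := by
    refine Integrable.mono' hsI.neg (kzx_aesm_ksc m0 a0 b0 hal hv0) ?_
    filter_upwards [ae_restrict_mem measurableSet_Ioi] with t ht
    rw [Real.norm_of_nonneg (k0nn t ht), Pi.neg_apply, hsc t ht]
    linarith [k1nn t ht]
  have k1I : IntegrableOn (ksc be v1 ρ1) (Ioi 0) := by
    refine Integrable.mono' hsI.neg (kzx_aesm_ksc m1 a1 b1 hbe hv1) ?_
    filter_upwards [ae_restrict_mem measurableSet_Ioi] with t ht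
    rw [Real.norm_of_nonneg (k1nn t ht), Pi.neg_apply, hsc t ht]
    linarith [k0nn t ht]
  have hsE' : kzFsc al be v0 v1 = -(∫ t in Ioi 0, ksc al v0 ρ0 t) - ∫ t in Ioi 0, ksc be v1 ρ1 t := by
    rw [← hsE, setIntegral_congr_fun measurableSet_Ioi hsc, kzx_integral_neg_sub k0I k1I]
  -- matrix side
  obtain ⟨hmI, hmE⟩ := kzx_intrep X Z h0 h1
  obtain ⟨K0I, K0le⟩ := branch_integral_le X h0 m0 a0 b0 k0I
  obtain ⟨K1I, K1le⟩ := branch_integral_le Z h1 m1 a1 b1 k1I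
  have hlow : ∫ t in Ioi 0, (-kmat X n0 ρ0 t - kmat Z n1 ρ1 t) ≤ ∫ t in Ioi 0, kzxD X Z n0 n1 t :=
    setIntegral_mono_on (K0I.neg.sub K1I) hmI measurableSet_Ioi
      (fun t ht => kzx_lower hal hbe hv0 hv1 X Z h0 h1 ht)
  rw [kzx_integral_neg_sub K0I K1I, hmE] at hlow
  rw [hsE']
  linarith

end Crest.Agent.GA
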