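import Mathlib
import Crest.Agent.GA_Hard
import Crest.Agent.GA_GConv

/-!
Row 341 (S0534): the converse bound for tensor powers, by induction, from (KZ).
-/

set_option autoImplicit false
set_option linter.unusedSectionVars false
open Crest.Quantum Crest.MathPhysics.AmpDamp
open scoped ComplexOrder Matrix Kronecker

namespace Crest.Agent.GA

lemma pow_density_eq_one {d : Type*} [Fintype d] [DecidableEq d] [Unique d] {ρ : Matrix d d ℂ}
    (h : IsDensity ρ) : ρ = 1 := by
  have ht := h.2
  simp only [Matrix.trace, Matrix.diag, Finset.univ_unique, Finset.sum_singleton] at ht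
  ext i j
  rw [Subsingleton.elim i default, Subsingleton.elim j default, ht]
  simp

lemma pow_vnEntropy_one {d : Type*} [Fintype d] [DecidableEq d] :
    vnEntropy (1 : Matrix d d ℂ) = 0 := by
  have : (1 : Matrix d d ℂ) = Matrix.diagonal fun _ => (((1 : ℝ)) : ℂ) := by
    simp
  rw [this, vnEntropy_diagonal]
  simp

/-- S0534, first conjunct (also for `n = 0`), from (KZ). -/
theorem S0534_part1 {γ ν : ℝ} (hγ : γ ∈ Set.Icc (0 : ℝ) 1) (hν : ν ∈ Set.Icc (0 : ℝ) 1)
    (hkz : ∀ n : ℕ, KZ γ ν (Fin n → Bool)) (n : ℕ) :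
    ∀ (m : ℕ) (q : Fin m → ℝ) (ρ : Fin m → Matrix (Fin n → Bool) (Fin n → Bool) ℂ),
        IsEnsemble q ρ → ∃ p ∈ Set.Icc (0 : ℝ) 1,
          holevoInfo (qubitPower n (gadMap γ ν)) q ρ ≤ n * gadRate γ ν p := by
  induction n with
  | zero =>
    intro m q ρ h
    refine ⟨0, ⟨le_rfl, zero_le_one⟩, ?_⟩
    have h1 : ∀ a, ρ a = 1 := fun a => pow_density_eq_one (h.2.2 a)
    have h2 := pow_density_eq_one (isDensity_average h)
    unfold holevoInfo
    simp only [qubitPower_zero, h2]
    simp [h1, pow_vnEntropy_one]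
  | succ n ih =>
    intro m q ρ h
    have hch := qubitPower_gadMap_isChannel hγ hν n
    have h' := isEnsemble_submatrix (consE n) h
    have key := holevoInfo_submatrix (consE n) (consE n)
      (Ψ := qubitPower (n + 1) (gadMap γ ν))
      (Ψ' := qubitTensor (gadMap γ ν) (qubitPower n (gadMap γ ν)))
      (qubitPower_succ n _) q ρ
    obtain ⟨p, q₂, ρ₂, hp, h₂, hle⟩ := holevo_hard hγ hν hch (hkz n) h'
    obtain ⟨p', hp', hle'⟩ := ih _ q₂ ρ₂ h₂
    have hj := gfun_jensen hγ hν q p h.1 h.2.1 hp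
    have hpbar : (∑ a, q a * p a) ∈ Set.Icc (0 : ℝ) 1 := by
      constructor
      · exact Finset.sum_nonneg fun a _ => mul_nonneg (h.1 a) (hp a).1
      · calc ∑ a, q a * p a ≤ ∑ a, q a * 1 :=
              Finset.sum_le_sum fun a _ => mul_le_mul_of_nonneg_left (hp a).2 (h.1 a)
          _ = 1 := by simp [h.2.1]
    have hb : holevoInfo (qubitPower (n + 1) (gadMap γ ν)) q ρ
        ≤ gadRate γ ν (∑ a, q a * p a) + n * gadRate γ ν p' := by
      rw [← key, gadRate_eq]
      linarith
    have hn : (0 : ℝ) ≤ n := Nat.cast_nonneg n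
    rcases le_total (gadRate γ ν (∑ a, q a * p a)) (gadRate γ ν p') with hc | hc
    · refine ⟨p', hp', hb.trans ?_⟩
      push_cast
      nlinarith
    · refine ⟨_, hpbar, hb.trans ?_⟩
      push_cast
      nlinarith [mul_le_mul_of_nonneg_left hc hn]

end Crest.Agent.GA
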