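import Mathlib

set_option autoImplicit false
open MeasureTheory
open scoped ENNReal

namespace Crest.Agent.Cyl

abbrev E2 := EuclideanSpace ℝ (Fin 2)
abbrev E3 := EuclideanSpace ℝ (Fin 3)

/-- Gram determinant of two vectors. -/
noncomputable def gram (a b : E3) : ℝ := ‖a‖ ^ 2 * ‖b‖ ^ 2 - inner ℝ a b ^ 2

/-- the linear map `z ↦ z 0 • a + z 1 • b`. -/
noncomputable def lin2 (a b : E3) : E2 →ₗ[ℝ] E3 :=
  (LinearMap.toSpanSingleton ℝ E3 a) ∘ₗ (EuclideanSpace.proj (0 : Fin 2)).toLinearMap +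
  (LinearMap.toSpanSingleton ℝ E3 b) ∘ₗ (EuclideanSpace.proj (1 : Fin 2)).toLinearMap

@[simp] lemma lin2_apply (a b : E3) (z : E2) : lin2 a b z = z 0 • a + z 1 • b := by
  simp [lin2]

lemma normDet_lin2 (a b : E3) : (lin2 a b).normDet = Real.sqrt (gram a b) := by
  have h := (lin2 a b).normDet_sq_eq_det_gram (EuclideanSpace.basisFun (Fin 2) ℝ)
  have h2 : (lin2 a b).normDet ^ 2 = gram a b := by
    have : ((lin2 a b).normDet ^ 2 : ℝ) = (Matrix.gram ℝ (fun i => lin2 a b (EuclideanSpace.basisFun (Fin 2) ℝ i))).det := by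
      simpa using h
    rw [this, Matrix.det_fin_two]
    simp [Matrix.gram, gram, real_inner_comm]
    ring
  rw [← h2, Real.sqrt_sq (LinearMap.normDet_nonneg _)]

lemma area_image (c a b : E3) (s : Set E2) :
    μHE[2] ((fun z : E2 => c + z 0 • a + z 1 • b) '' s) =
      ENNReal.ofReal (Real.sqrt (gram a b)) * volume s := by
  have h := (lin2 a b).euclideanHausdorffMeasure_image_eq_normDet_mul_volume s
  rw [normDet_lin2] at h
  have hfr : Module.finrank ℝ E2 = 2 := by simp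
  rw [hfr] at h
  rw [← h]
  have : (fun z : E2 => c + z 0 • a + z 1 • b) '' s = (fun x => c + x) '' (lin2 a b '' s) := by
    rw [Set.image_image]
    apply Set.image_congr
    intro z _
    simp [add_assoc]
  rw [this]
  exact (isometry_add_left c).euclideanHausdorffMeasure_image _



/-- coordinates map -/
lemma mp_coords : MeasurePreserving (fun z : E2 => ((z 0, z 1) : ℝ × ℝ)) volume volume := by
  have h1 := PiLp.volume_preserving_ofLp (Fin 2)
  have h2 := volume_preserving_finTwoArrow ℝ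
  exact h2.comp h1

lemma volume_E2 (S : Set (ℝ × ℝ)) (hS : MeasurableSet S) :
    volume {z : E2 | ((z 0, z 1) : ℝ × ℝ) ∈ S} = volume S :=
  mp_coords.measure_preimage hS.nullMeasurableSet

lemma volume_rect (a b c d : ℝ) :
    volume {z : E2 | z 0 ∈ Set.Icc a b ∧ z 1 ∈ Set.Icc c d} = ENNReal.ofReal (b - a) * ENNReal.ofReal (d - c) := by
  have := volume_E2 (Set.Icc a b ×ˢ Set.Icc c d) (measurableSet_Icc.prod measurableSet_Icc)
  simp only [Set.mem_prod] at this
  rw [this, Measure.volume_eq_prod, Measure.prod_prod]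
  simp

lemma volume_rect_open (a b c d : ℝ) :
    volume {z : E2 | z 0 ∈ Set.Ioo a b ∧ z 1 ∈ Set.Ioo c d} = ENNReal.ofReal (b - a) * ENNReal.ofReal (d - c) := by
  have := volume_E2 (Set.Ioo a b ×ˢ Set.Ioo c d) (measurableSet_Ioo.prod measurableSet_Ioo)
  simp only [Set.mem_prod] at this
  rw [this, Measure.volume_eq_prod, Measure.prod_prod]
  simp

lemma volume_stdtri :
    volume {z : E2 | 0 ≤ z 0 ∧ 0 ≤ z 1 ∧ z 0 + z 1 ≤ 1} = ENNReal.ofReal (1 / 2) := by
  have hm : MeasurableSet {p : ℝ × ℝ | 0 ≤ p.1 ∧ 0 ≤ p.2 ∧ p.1 + p.2 ≤ 1} := by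
    apply MeasurableSet.inter
    · exact measurableSet_le measurable_const measurable_fst
    apply MeasurableSet.inter
    · exact measurableSet_le measurable_const measurable_snd
    · exact measurableSet_le (measurable_fst.add measurable_snd) measurable_const
  have := volume_E2 _ hm
  simp only [Set.mem_ofPred_eq] at this
  rw [this, Measure.volume_eq_prod, Measure.prod_apply hm]
  have h1 : ∀ x : ℝ, volume (Prod.mk x ⁻¹' {p : ℝ × ℝ | 0 ≤ p.1 ∧ 0 ≤ p.2 ∧ p.1 + p.2 ≤ 1}) =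
      (Set.Icc (0:ℝ) 1).indicator (fun x => ENNReal.ofReal (1 - x)) x := by
    intro x
    by_cases hx : x ∈ Set.Icc (0:ℝ) 1
    · rw [Set.indicator_of_mem hx]
      have : Prod.mk x ⁻¹' {p : ℝ × ℝ | 0 ≤ p.1 ∧ 0 ≤ p.2 ∧ p.1 + p.2 ≤ 1} = Set.Icc 0 (1 - x) := by
        ext y
        simp only [Set.mem_preimage, Set.mem_ofPred_eq, Set.mem_Icc]
        constructor
        · rintro ⟨_, h2, h3⟩; exact ⟨h2, by linarith⟩
        · rintro ⟨h2, h3⟩; exact ⟨hx.1, h2, by linarith⟩
      rw [this]; simp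
    · rw [Set.indicator_of_notMem hx]
      have : Prod.mk x ⁻¹' {p : ℝ × ℝ | 0 ≤ p.1 ∧ 0 ≤ p.2 ∧ p.1 + p.2 ≤ 1} = ∅ := by
        ext y
        simp only [Set.mem_preimage, Set.mem_ofPred_eq, Set.mem_empty_iff_false, iff_false]
        rintro ⟨h1, h2, h3⟩
        exact hx ⟨h1, by linarith⟩
      rw [this]; simp
  simp_rw [h1]
  rw [lintegral_indicator measurableSet_Icc]
  rw [← ofReal_integral_eq_lintegral_ofReal]
  · congr 1
    rw [integral_Icc_eq_integral_Ioc, ← intervalIntegral.integral_of_le (by norm_num)]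
    rw [intervalIntegral.integral_sub (by simp) (by simp)]
    simp
    norm_num
  · exact (continuous_const.sub continuous_id).integrableOn_Icc
  · filter_upwards [ae_restrict_mem measurableSet_Icc] with x hx
    simp only [Pi.zero_apply]; linarith [hx.2]



/-- membership in the convex hull of three points, generic -/
lemma mem_convexHull_three {E : Type*} [AddCommGroup E] [Module ℝ E] (p q r x : E) :
    x ∈ convexHull ℝ ({p, q, r} : Set E) ↔
      ∃ a b c : ℝ, 0 ≤ a ∧ 0 ≤ b ∧ 0 ≤ c ∧ a + b + c = 1 ∧ x = a • p + b • q + c • r := by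
  constructor
  · intro hx
    rw [convexHull_insert (by simp), convexHull_pair] at hx
    simp only [convexJoin, Set.mem_iUnion, Set.mem_singleton_iff] at hx
    obtain ⟨p', rfl, y, hy, hx⟩ := hx
    obtain ⟨b, c, hb, hc, hbc, rfl⟩ := hy
    obtain ⟨s, t, hs, ht, hst, rfl⟩ := hx
    refine ⟨s, t * b, t * c, hs, by positivity, by positivity, ?_, ?_⟩
    · rw [add_assoc, ← mul_add, hbc, mul_one, hst]
    · simp [smul_add, smul_smul, add_assoc]
  · rintro ⟨a, b, c, ha, hb, hc, habc, rfl⟩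
    have hconv := convex_convexHull ℝ ({p, q, r} : Set E)
    have hp : p ∈ convexHull ℝ ({p, q, r} : Set E) := subset_convexHull _ _ (by simp)
    have hq : q ∈ convexHull ℝ ({p, q, r} : Set E) := subset_convexHull _ _ (by simp)
    have hr : r ∈ convexHull ℝ ({p, q, r} : Set E) := subset_convexHull _ _ (by simp)
    have := hconv.sum_mem (t := Finset.univ) (w := ![a, b, c]) (z := ![p, q, r])
      (by intro i _; fin_cases i <;> simp [ha, hb, hc])
      (by simp [Fin.sum_univ_three, habc])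
      (by intro i _; fin_cases i <;> simp [hp, hq, hr])
    simpa [Fin.sum_univ_three] using this


/-- **Area of a triangle** in `ℝ³`. -/
theorem area_tri (p q r : E3) :
    μHE[2] (convexHull ℝ ({p, q, r} : Set E3)) = ENNReal.ofReal (Real.sqrt (gram (q - p) (r - p)) / 2) := by
  have : convexHull ℝ ({p, q, r} : Set E3) =
      (fun z : E2 => p + z 0 • (q - p) + z 1 • (r - p)) '' {z : E2 | 0 ≤ z 0 ∧ 0 ≤ z 1 ∧ z 0 + z 1 ≤ 1} := by
    ext x
    rw [mem_convexHull_three]
    constructor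
    · rintro ⟨a, b, c, ha, hb, hc, habc, rfl⟩
      refine ⟨!₂[b, c], ⟨by simpa using hb, by simpa using hc, by simp; linarith⟩, ?_⟩
      have : a = 1 - b - c := by linarith
      subst this
      simp only [Matrix.cons_val_zero, Matrix.cons_val_one, Matrix.cons_val_fin_one]
      module
    · rintro ⟨z, ⟨h0, h1, h2⟩, rfl⟩
      refine ⟨1 - z 0 - z 1, z 0, z 1, by linarith, h0, h1, by ring, ?_⟩
      module
  rw [this, area_image, volume_stdtri, ← ENNReal.ofReal_mul (Real.sqrt_nonneg _)]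
  congr 1
  ring

/-- **Area of a (closed) parallelogram** in `ℝ³`. -/
theorem area_par (c a b : E3) :
    μHE[2] {x : E3 | ∃ s ∈ Set.Icc (0 : ℝ) 1, ∃ t ∈ Set.Icc (0 : ℝ) 1, x = c + s • a + t • b} =
      ENNReal.ofReal (Real.sqrt (gram a b)) := by
  have : {x : E3 | ∃ s ∈ Set.Icc (0 : ℝ) 1, ∃ t ∈ Set.Icc (0 : ℝ) 1, x = c + s • a + t • b} =
      (fun z : E2 => c + z 0 • a + z 1 • b) '' {z : E2 | z 0 ∈ Set.Icc (0:ℝ) 1 ∧ z 1 ∈ Set.Icc (0:ℝ) 1} := by
    ext x
    constructor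
    · rintro ⟨s, hs, t, ht, rfl⟩
      exact ⟨!₂[s, t], ⟨by simpa using hs, by simpa using ht⟩, by simp⟩
    · rintro ⟨z, ⟨h0, h1⟩, rfl⟩
      exact ⟨z 0, h0, z 1, h1, rfl⟩
  rw [this, area_image, volume_rect]
  simp

/-- **Area of an open parallelogram** `{c + s a + t b : s, t ∈ (lo, hi)}` in `ℝ³`. -/
theorem area_openpar (c a b : E3) (lo hi : ℝ) (h : lo ≤ hi) :
    μHE[2] {x : E3 | ∃ s ∈ Set.Ioo lo hi, ∃ t ∈ Set.Ioo lo hi, x = c + s • a + t • b} =
      ENNReal.ofReal (Real.sqrt (gram a b) * (hi - lo) ^ 2) := by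
  have : {x : E3 | ∃ s ∈ Set.Ioo lo hi, ∃ t ∈ Set.Ioo lo hi, x = c + s • a + t • b} =
      (fun z : E2 => c + z 0 • a + z 1 • b) '' {z : E2 | z 0 ∈ Set.Ioo lo hi ∧ z 1 ∈ Set.Ioo lo hi} := by
    ext x
    constructor
    · rintro ⟨s, hs, t, ht, rfl⟩
      exact ⟨!₂[s, t], ⟨by simpa using hs, by simpa using ht⟩, by simp⟩
    · rintro ⟨z, ⟨h0, h1⟩, rfl⟩
      exact ⟨z 0, h0, z 1, h1, rfl⟩
  rw [this, area_image, volume_rect_open, ← ENNReal.ofReal_mul (by linarith),
    ← ENNReal.ofReal_mul (Real.sqrt_nonneg _)]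
  congr 1
  ring

lemma gram_nonneg (a b : E3) : 0 ≤ gram a b := by
  unfold gram
  have := abs_real_inner_le_norm a b
  have h2 : inner ℝ a b ^ 2 ≤ (‖a‖ * ‖b‖) ^ 2 := by
    rw [← sq_abs (inner ℝ a b)]
    exact pow_le_pow_left₀ (abs_nonneg _) this 2
  nlinarith

/-- `μHE[2]` is a positive finite multiple of `μH[2]`. -/
theorem muHE_eq_smul_muH : ∃ k : NNReal, k ≠ 0 ∧ ∀ s : Set E3, μHE[2] s = k * μH[(2 : ℝ)] s := by
  refine ⟨_, Measure.addHaarScalarFactor_volume_hausdorffMeasure_ne_zero 2, fun s => ?_⟩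
  rw [Measure.euclideanHausdorffMeasure_def, Measure.smul_apply]
  norm_num

end Crest.Agent.Cyl
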