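import Crest.Agent.Lib_Cyl_Area
/-! Task F2 (row 211, S0326): adapted orthonormal frame of a traceless map of the plane. -/
set_option autoImplicit false
open MeasureTheory
open scoped ENNReal

namespace Crest.Agent.Cyl

/-- the orthonormal basis of the plane given by an orthonormal pair -/
noncomputable def frameBasis (f₁ f₂ : E2) (h1 : ‖f₁‖ = 1) (h2 : ‖f₂‖ = 1)
    (h12 : inner ℝ f₁ f₂ = 0) : OrthonormalBasis (Fin 2) ℝ E2 :=
  have ho : Orthonormal ℝ ![f₁, f₂] := by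
    rw [orthonormal_iff_ite]
    intro i j
    fin_cases i <;> fin_cases j <;> simp [h1, h2, h12, real_inner_comm]
  (basisOfOrthonormalOfCardEqFinrank ho (by simp)).toOrthonormalBasis
    (by rw [coe_basisOfOrthonormalOfCardEqFinrank]; exact ho)

lemma frameBasis_zero (f₁ f₂ : E2) (h1 : ‖f₁‖ = 1) (h2 : ‖f₂‖ = 1) (h12 : inner ℝ f₁ f₂ = 0) :
    frameBasis f₁ f₂ h1 h2 h12 0 = f₁ := by
  simp [frameBasis]

lemma frameBasis_one (f₁ f₂ : E2) (h1 : ‖f₁‖ = 1) (h2 : ‖f₂‖ = 1) (h12 : inner ℝ f₁ f₂ = 0) :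
    frameBasis f₁ f₂ h1 h2 h12 1 = f₂ := by
  simp [frameBasis]

/-- expansion in an orthonormal frame of the plane -/
theorem frame_expand (f₁ f₂ : E2) (h1 : ‖f₁‖ = 1) (h2 : ‖f₂‖ = 1) (h12 : inner ℝ f₁ f₂ = 0) (z : E2) :
    z = inner ℝ z f₁ • f₁ + inner ℝ z f₂ • f₂ := by
  have h := (frameBasis f₁ f₂ h1 h2 h12).sum_repr' z
  rw [Fin.sum_univ_two, frameBasis_zero, frameBasis_one] at h
  rw [real_inner_comm f₁ z, real_inner_comm f₂ z]
  exact h.symm

lemma exists_xy (p m : ℝ) : ∃ x y : ℝ, x ^ 2 + y ^ 2 = 1 ∧ p * (x ^ 2 - y ^ 2) + 2 * m * x * y = 0 := by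
  by_cases hp : p = 0
  · exact ⟨1, 0, by norm_num, by simp [hp]⟩
  · set R := Real.sqrt (m ^ 2 + p ^ 2) with hR
    have hR2 : R ^ 2 = m ^ 2 + p ^ 2 := Real.sq_sqrt (by positivity)
    set X := R - m with hX
    have hN : 0 < X ^ 2 + p ^ 2 := by positivity
    set N := Real.sqrt (X ^ 2 + p ^ 2) with hNdef
    have hN2 : N ^ 2 = X ^ 2 + p ^ 2 := Real.sq_sqrt hN.le
    have hNpos : 0 < N := Real.sqrt_pos.mpr hN
    refine ⟨X / N, p / N, ?_, ?_⟩
    · rw [div_pow, div_pow, ← add_div, hN2, div_self hN.ne']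
    · have : p * ((X / N) ^ 2 - (p / N) ^ 2) + 2 * m * (X / N) * (p / N)
          = (p * (X ^ 2 - p ^ 2) + 2 * m * X * p) / N ^ 2 := by
        field_simp
      rw [this]
      have h0 : p * (X ^ 2 - p ^ 2) + 2 * m * X * p = 0 := by
        rw [hX]
        linear_combination p * hR2
      rw [h0, zero_div]

/-- a traceless map has zero diagonal in a suitable orthonormal frame -/
theorem traceless_frame (A : E2 →L[ℝ] E2) (htr : LinearMap.trace ℝ _ A.toLinearMap = 0) :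
    ∃ (f₁ f₂ : E2) (β γ : ℝ), ‖f₁‖ = 1 ∧ ‖f₂‖ = 1 ∧ inner ℝ f₁ f₂ = 0 ∧
      A f₁ = γ • f₂ ∧ A f₂ = β • f₁ ∧ LinearMap.det A.toLinearMap = -(β * γ) := by
  set b := (EuclideanSpace.basisFun (Fin 2) ℝ).toBasis with hb
  set p := A (EuclideanSpace.single 0 1) 0 with hp
  set s := A (EuclideanSpace.single 0 1) 1 with hs
  set q := A (EuclideanSpace.single 1 1) 0 with hq
  set t := A (EuclideanSpace.single 1 1) 1 with ht
  have htr' : p + t = 0 := by
    rw [LinearMap.trace_eq_matrix_trace ℝ b, Matrix.trace_fin_two] at htr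
    simpa [LinearMap.toMatrix_apply, hb] using htr
  have hdet : LinearMap.det A.toLinearMap = p * t - q * s := by
    rw [← LinearMap.det_toMatrix b, Matrix.det_fin_two]
    simp [LinearMap.toMatrix_apply, hb, hp, hs, hq, ht]
  have hA : ∀ x y : ℝ, A !₂[x, y] = !₂[p * x + q * y, s * x + t * y] := by
    intro x y
    have : (!₂[x, y] : E2) = x • EuclideanSpace.single 0 1 + y • EuclideanSpace.single 1 1 := by
      ext i; fin_cases i <;> simp
    rw [this, map_add, map_smul, map_smul]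
    ext i; fin_cases i <;> simp [hp, hs, hq, ht] <;> ring
  obtain ⟨x, y, hxy, h0⟩ := exists_xy p ((q + s) / 2)
  have ht' : t = -p := by linarith
  refine ⟨!₂[x, y], !₂[-y, x], q * x ^ 2 - s * y ^ 2 - 2 * p * x * y,
    s * x ^ 2 - q * y ^ 2 - 2 * p * x * y, ?_, ?_, ?_, ?_, ?_, ?_⟩
  · rw [EuclideanSpace.norm_eq, Fin.sum_univ_two]
    simp [hxy]
  · rw [EuclideanSpace.norm_eq, Fin.sum_univ_two]
    simp [add_comm, hxy]
  · simp [PiLp.inner_apply, Fin.sum_univ_two]; ring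
  · rw [hA]
    ext i; fin_cases i
    · simp [ht']
      linear_combination (-(p * x + q * y)) * hxy + x * h0
    · simp [ht']
      linear_combination (-(s * x - p * y)) * hxy + y * h0
  · rw [hA]
    ext i; fin_cases i
    · simp [ht']
      linear_combination (-(- p * y + q * x)) * hxy + y * h0
    · simp [ht']
      linear_combination (-(- s * y - p * x)) * hxy - x * h0
  · rw [hdet, ht']
    linear_combination (-(p * (x ^ 2 - y ^ 2) + (q + s) * x * y)) * h0 +
      ((q + s) ^ 2 / 4 + p ^ 2 - (q - s) ^ 2 / 4) * (x ^ 2 + y ^ 2 + 1) * hxy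

/-- volume of a half-open square in an orthonormal frame -/
theorem volume_frame_square (f₁ f₂ : E2) (h1 : ‖f₁‖ = 1) (h2 : ‖f₂‖ = 1) (h12 : inner ℝ f₁ f₂ = 0)
    (c : E2) (r : ℝ) (hr : 0 ≤ r) :
    volume {z : E2 | inner ℝ (z - c) f₁ ∈ Set.Ico 0 r ∧ inner ℝ (z - c) f₂ ∈ Set.Ico 0 r} =
      ENNReal.ofReal (r ^ 2) := by
  set B := frameBasis f₁ f₂ h1 h2 h12 with hB
  have hrect : volume {z : E2 | z 0 ∈ Set.Ico 0 r ∧ z 1 ∈ Set.Ico 0 r} = ENNReal.ofReal (r ^ 2) := by
    have := volume_E2 (Set.Ico 0 r ×ˢ Set.Ico 0 r) (measurableSet_Ico.prod measurableSet_Ico)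
    simp only [Set.mem_prod] at this
    rw [this, Measure.volume_eq_prod, Measure.prod_prod]
    simp [sq, ENNReal.ofReal_mul hr]
  have hmeas : MeasurableSet {z : E2 | z 0 ∈ Set.Ico 0 r ∧ z 1 ∈ Set.Ico 0 r} := by
    apply MeasurableSet.inter
    · exact (measurable_pi_apply 0).comp (PiLp.volume_preserving_ofLp (Fin 2)).measurable measurableSet_Ico
    · exact (measurable_pi_apply 1).comp (PiLp.volume_preserving_ofLp (Fin 2)).measurable measurableSet_Ico
  have hmp : MeasurePreserving (fun z : E2 => B.repr (z - c)) volume volume :=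
    (B.repr.measurePreserving).comp (measurePreserving_sub_right volume c)
  have hset : {z : E2 | inner ℝ (z - c) f₁ ∈ Set.Ico 0 r ∧ inner ℝ (z - c) f₂ ∈ Set.Ico 0 r}
      = (fun z : E2 => B.repr (z - c)) ⁻¹' {z : E2 | z 0 ∈ Set.Ico 0 r ∧ z 1 ∈ Set.Ico 0 r} := by
    ext z
    simp only [Set.mem_ofPred_eq, Set.mem_preimage, OrthonormalBasis.repr_apply_apply]
    rw [hB, frameBasis_zero, frameBasis_one, real_inner_comm f₁, real_inner_comm f₂]
  rw [hset, hmp.measure_preimage hmeas.nullMeasurableSet, hrect]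

end Crest.Agent.Cyl
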