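import Crest.Agent.Lib_Cyl_Area

set_option autoImplicit false
open MeasureTheory
open scoped ENNReal

namespace Crest.Agent.Cyl

/-- inner product in coordinates -/
lemma inner3 (x y : E3) : inner ℝ x y = x 0 * y 0 + x 1 * y 1 + x 2 * y 2 := by
  simp [EuclideanSpace.inner_eq_star_dotProduct, dotProduct, Fin.sum_univ_three]
  ring

lemma normsq3 (x : E3) : ‖x‖ ^ 2 = x 0 ^ 2 + x 1 ^ 2 + x 2 ^ 2 := by
  rw [← real_inner_self_eq_norm_sq, inner3]; ring

/-- Gram determinant in coordinates = squared norm of the cross product -/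
lemma gram_coords (a b : E3) : gram a b =
    (a 1 * b 2 - a 2 * b 1) ^ 2 + (a 2 * b 0 - a 0 * b 2) ^ 2 + (a 0 * b 1 - a 1 * b 0) ^ 2 := by
  unfold gram
  rw [normsq3, normsq3, inner3]; ring

lemma gram_lincomb (a b : E3) (x₁ y₁ x₂ y₂ : ℝ) :
    gram (x₁ • a + y₁ • b) (x₂ • a + y₂ • b) = (x₁ * y₂ - x₂ * y₁) ^ 2 * gram a b := by
  simp only [gram_coords, PiLp.add_apply, PiLp.smul_apply, smul_eq_mul]
  ring

/-- the 3x3 determinant -/
def det3 (a b c : E3) : ℝ :=
  a 0 * (b 1 * c 2 - b 2 * c 1) - a 1 * (b 0 * c 2 - b 2 * c 0) + a 2 * (b 0 * c 1 - b 1 * c 0)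

/-- projection along `n` onto `n^⊥`, as a linear map -/
noncomputable def projAlong (n : E3) : E3 →ₗ[ℝ] E3 :=
  LinearMap.id - (LinearMap.toSpanSingleton ℝ E3 n) ∘ₗ ((1 / ‖n‖ ^ 2) • (innerSL ℝ n).toLinearMap)

lemma projAlong_apply (n y : E3) : projAlong n y = y - (inner ℝ y n / ‖n‖ ^ 2) • n := by
  simp [projAlong, real_inner_comm, div_eq_inv_mul]



lemma det3_cramer (a b w e : E3) :
    det3 a b w * ‖e‖ ^ 2 = inner ℝ a e * det3 e b w + inner ℝ b e * det3 a e w + inner ℝ w e * det3 a b e := by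
  rw [normsq3, inner3, inner3, inner3]; unfold det3; ring

lemma det3_sq (a b w : E3) :
    det3 a b w ^ 2 = ‖w‖ ^ 2 * gram a b - (inner ℝ a w ^ 2 * ‖b‖ ^ 2 + inner ℝ b w ^ 2 * ‖a‖ ^ 2
      - 2 * inner ℝ a w * inner ℝ b w * inner ℝ a b) := by
  unfold gram
  rw [normsq3, normsq3, normsq3, inner3, inner3, inner3]; unfold det3; ring

lemma det3_eq_zero (a b w e : E3) (he : e ≠ 0) (ha : inner ℝ a e = 0) (hb : inner ℝ b e = 0)
    (hw : inner ℝ w e = 0) : det3 a b w = 0 := by
  have h := det3_cramer a b w e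
  rw [ha, hb, hw] at h
  have hne : ‖e‖ ^ 2 ≠ 0 := by positivity
  have : det3 a b w * ‖e‖ ^ 2 = 0 := by rw [h]; ring
  exact (mul_eq_zero.mp this).resolve_right hne

lemma inner_projAlong (n y : E3) (hn : n ≠ 0) : inner ℝ (projAlong n y) n = 0 := by
  rw [projAlong_apply, inner_sub_left, inner_smul_left, real_inner_self_eq_norm_sq]
  have hne : ‖n‖ ^ 2 ≠ 0 := by positivity
  simp
  field_simp
  ring

lemma inner_projAlong_projAlong (n a b : E3) (hn : n ≠ 0) :
    inner ℝ (projAlong n a) (projAlong n b) = inner ℝ a b - inner ℝ a n * inner ℝ b n / ‖n‖ ^ 2 := by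
  have hne : ‖n‖ ^ 2 ≠ 0 := by positivity
  simp only [projAlong_apply, inner_sub_left, inner_sub_right, real_inner_smul_left,
    real_inner_smul_right, real_inner_self_eq_norm_sq]
  rw [real_inner_comm b n]
  field_simp
  ring

lemma gram_projAlong_general (n a b : E3) (hn : n ≠ 0) :
    gram (projAlong n a) (projAlong n b) = det3 a b n ^ 2 / ‖n‖ ^ 2 := by
  have hne : ‖n‖ ^ 2 ≠ 0 := by positivity
  rw [det3_sq]
  unfold gram
  rw [← real_inner_self_eq_norm_sq (projAlong n a), ← real_inner_self_eq_norm_sq (projAlong n b),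
    inner_projAlong_projAlong n a a hn, inner_projAlong_projAlong n b b hn,
    inner_projAlong_projAlong n a b hn, real_inner_self_eq_norm_sq, real_inner_self_eq_norm_sq]
  field_simp
  ring

/-- Gram determinant of the projections along `e + w` of two vectors of `e^⊥`. -/
lemma gram_projAlong (e a b w : E3) (he : ‖e‖ = 1) (ha : inner ℝ a e = 0) (hb : inner ℝ b e = 0)
    (hw : inner ℝ w e = 0) :
    gram (projAlong (e + w) a) (projAlong (e + w) b) = gram a b / (1 + ‖w‖ ^ 2) := by
  have hN : ‖e + w‖ ^ 2 = 1 + ‖w‖ ^ 2 := by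
    rw [← real_inner_self_eq_norm_sq, inner_add_left, inner_add_right, inner_add_right,
      real_inner_self_eq_norm_sq, real_inner_self_eq_norm_sq, hw, real_inner_comm, hw, he]
    ring
  have hn : e + w ≠ 0 := by
    intro h
    rw [h] at hN
    simp at hN
    nlinarith [sq_nonneg ‖w‖]
  have he0 : e ≠ 0 := by
    intro h; rw [h] at he; simp at he
  rw [gram_projAlong_general _ _ _ hn, hN]
  congr 1
  -- det3 a b (e+w) ^2 = gram a b
  have h0 : det3 a b w = 0 := det3_eq_zero a b w e he0 ha hb hw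
  have h1 : det3 a b (e + w) = det3 a b e + det3 a b w := by
    unfold det3; simp only [PiLp.add_apply]; ring
  rw [h1, h0, add_zero, det3_sq, ha, hb, he]
  ring



/-- a vector orthogonal to `a, b, u` (with `a, b` independent and orthogonal to `u ≠ 0`) vanishes -/
lemma eq_zero_of_orth (a b u z : E3) (hg : 0 < gram a b) (hau : inner ℝ a u = 0)
    (hbu : inner ℝ b u = 0) (hu : u ≠ 0) (hza : inner ℝ z a = 0) (hzb : inner ℝ z b = 0)
    (hzu : inner ℝ z u = 0) : z = 0 := by
  -- det3 a b u ^2 = ‖u‖^2 gram a b > 0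
  have hd : det3 a b u ^ 2 = ‖u‖ ^ 2 * gram a b := by
    rw [det3_sq, hau, hbu]; ring
  have hupos : 0 < ‖u‖ ^ 2 := by positivity
  have hd0 : det3 a b u ≠ 0 := by
    intro h
    rw [h] at hd
    have : 0 < ‖u‖ ^ 2 * gram a b := by positivity
    nlinarith
  by_contra hz
  have := det3_eq_zero a b u z hz (by rw [real_inner_comm]; exact hza) (by rw [real_inner_comm]; exact hzb)
    (by rw [real_inner_comm]; exact hzu)
  exact hd0 this

lemma decomp (a b u y : E3) (hg : 0 < gram a b) (hau : inner ℝ a u = 0)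
    (hbu : inner ℝ b u = 0) (hu : u ≠ 0) (hy : inner ℝ y u = 0) :
    y = ((‖b‖ ^ 2 * inner ℝ y a - inner ℝ a b * inner ℝ y b) / gram a b) • a +
      ((‖a‖ ^ 2 * inner ℝ y b - inner ℝ a b * inner ℝ y a) / gram a b) • b := by
  rw [← sub_eq_zero]
  have hg' : gram a b ≠ 0 := hg.ne'
  apply eq_zero_of_orth a b u _ hg hau hbu hu
  · simp only [inner_sub_left, inner_add_left, real_inner_smul_left, real_inner_self_eq_norm_sq]
    rw [real_inner_comm a b]
    field_simp
    unfold gram
    ring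
  · simp only [inner_sub_left, inner_add_left, real_inner_smul_left, real_inner_self_eq_norm_sq]
    field_simp
    unfold gram
    ring
  · simp only [inner_sub_left, inner_add_left, real_inner_smul_left, hy, hau, hbu]
    ring


/-- The standard regular tetrahedron of S0324/S0325. -/
abbrev K0 : Set E3 :=
  convexHull ℝ {!₂[1, 0, 0], !₂[-1, 0, 0], !₂[0, 1, Real.sqrt 2], !₂[0, -1, Real.sqrt 2]}

end Crest.Agent.Cyl
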