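import Crest.Agent.Lib_helper17_Lattice
/-! Task F1 (row 211, S0326): lattice covering lemma. -/
set_option autoImplicit false

namespace Crest.Agent.Cyl

/-- unit squares translated by the lattice `⟨(1,y),(x,1)⟩` cover the plane if `0 ≤ xy < 1`. -/
theorem lattice_cover (x y : ℝ) (h0 : 0 ≤ x * y) (h1 : x * y < 1) (ξ₁ ξ₂ : ℝ) :
    ∃ k j : ℤ, 0 ≤ ξ₁ - k - j * x ∧ ξ₁ - k - j * x ≤ 1 ∧ 0 ≤ ξ₂ - k * y - j ∧ ξ₂ - k * y - j ≤ 1 := by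
  obtain ⟨i, j, a1, a2, a3, a4⟩ := Crest.Agent.Lib_helper17_Lattice.lattice_cover x y h0 h1 ξ₁ ξ₂
  exact ⟨i, j, a1, a2, by linarith, by linarith⟩

end Crest.Agent.Cyl
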