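import Crest.Agent.Lib_Cyl_Lattice
import Crest.Agent.Lib_Cyl_Frame
/-! Task F3 (row 211, S0326): the tile catching a point under the linear flow `I + sA`. -/
set_option autoImplicit false
open MeasureTheory
open scoped ENNReal

namespace Crest.Agent.Cyl

/-- norm of a vector given in an orthonormal frame -/
theorem f3_norm_sq_frame (f₁ f₂ : E2) (h1 : ‖f₁‖ = 1) (h2 : ‖f₂‖ = 1) (h12 : inner ℝ f₁ f₂ = 0)
    (a b : ℝ) : ‖a • f₁ + b • f₂‖ ^ 2 = a ^ 2 + b ^ 2 := by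
  have h21 : inner ℝ f₂ f₁ = 0 := by rw [real_inner_comm]; exact h12
  rw [← real_inner_self_eq_norm_sq]
  simp only [inner_add_left, inner_add_right, inner_smul_left, inner_smul_right,
    real_inner_self_eq_norm_sq, h1, h2, h12, h21]
  simp
  ring

/-- the tile catching `p + s (…)`: for the linear flow `I + sA`. -/
theorem linear_tile (A : E2 →L[ℝ] E2) (f₁ f₂ : E2) (β γ : ℝ) (h1 : ‖f₁‖ = 1) (h2 : ‖f₂‖ = 1)
    (h12 : inner ℝ f₁ f₂ = 0) (hA1 : A f₁ = γ • f₂) (hA2 : A f₂ = β • f₁) (hβγ : 0 ≤ β * γ)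
    (L κ₀ : ℝ) (hκ₀ : 0 < κ₀) (hκ : κ₀ ≤ 1 - L ^ 2 * (β * γ)) (r : ℝ) (hr : 0 < r)
    (p : E2) (s : ℝ) (hs : |s| ≤ L) :
    ∃ (k j : ℤ) (z₁ z₂ : ℝ), z₁ ∈ Set.Icc 0 r ∧ z₂ ∈ Set.Icc 0 r ∧
      (p - ((r * k) • f₁ + (r * j) • f₂)) + s • A (p - ((r * k) • f₁ + (r * j) • f₂)) =
        z₁ • f₁ + z₂ • f₂ ∧
      ‖p - ((r * k) • f₁ + (r * j) • f₂)‖ ≤ Real.sqrt 2 * (1 + L * ‖A‖) / κ₀ * r := by
  set P₁ : ℝ := inner ℝ p f₁ with hP₁
  set P₂ : ℝ := inner ℝ p f₂ with hP₂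
  have hp : p = P₁ • f₁ + P₂ • f₂ := frame_expand f₁ f₂ h1 h2 h12 p
  have hL0 : 0 ≤ L := le_trans (abs_nonneg s) hs
  have hs2 : s ^ 2 ≤ L ^ 2 := by
    rw [← sq_abs s]
    exact pow_le_pow_left₀ (abs_nonneg s) hs 2
  have hxy0 : 0 ≤ (s * β) * (s * γ) := by
    have : (s * β) * (s * γ) = s ^ 2 * (β * γ) := by ring
    rw [this]; positivity
  have hxyle : (s * β) * (s * γ) ≤ 1 - κ₀ := by
    have h3 : (s * β) * (s * γ) = s ^ 2 * (β * γ) := by ring
    have h4 : s ^ 2 * (β * γ) ≤ L ^ 2 * (β * γ) := mul_le_mul_of_nonneg_right hs2 hβγ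
    rw [h3]; linarith
  have hxy1 : (s * β) * (s * γ) < 1 := by linarith
  obtain ⟨k, j, c1, c2, c3, c4⟩ := lattice_cover (s * β) (s * γ) hxy0 hxy1
    ((P₁ + s * β * P₂) / r) ((P₂ + s * γ * P₁) / r)
  set a : ℝ := P₁ - r * k with ha
  set b : ℝ := P₂ - r * j with hb
  have hq : p - ((r * k) • f₁ + (r * j) • f₂) = a • f₁ + b • f₂ := by
    rw [ha, hb, sub_smul, sub_smul]
    nth_rewrite 1 [hp]
    abel
  have hz1 : a + s * β * b = r * ((P₁ + s * β * P₂) / r - k - j * (s * β)) := by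
    rw [ha, hb]; field_simp; ring
  have hz2 : b + s * γ * a = r * ((P₂ + s * γ * P₁) / r - k * (s * γ) - j) := by
    rw [ha, hb]; field_simp; ring
  have hz1a : 0 ≤ a + s * β * b := by rw [hz1]; positivity
  have hz1b : a + s * β * b ≤ r := by
    rw [hz1]; nlinarith
  have hz2a : 0 ≤ b + s * γ * a := by rw [hz2]; positivity
  have hz2b : b + s * γ * a ≤ r := by
    rw [hz2]; nlinarith
  refine ⟨k, j, a + s * β * b, b + s * γ * a, ⟨hz1a, hz1b⟩, ⟨hz2a, hz2b⟩, ?_, ?_⟩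
  · rw [hq, map_add, map_smul, map_smul, hA1, hA2]
    simp only [smul_add, smul_smul, add_smul]
    have e1 : s * (a * γ) = s * γ * a := by ring
    have e2 : s * (b * β) = s * β * b := by ring
    rw [e1, e2]
    abel
  · rw [hq]
    -- bounds on β, γ
    have hβ : |β| ≤ ‖A‖ := by
      have := A.le_opNorm f₂
      rw [hA2, norm_smul, h1, h2, mul_one, mul_one, Real.norm_eq_abs] at this
      exact this
    have hγ : |γ| ≤ ‖A‖ := by
      have := A.le_opNorm f₁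
      rw [hA1, norm_smul, h1, h2, mul_one, mul_one, Real.norm_eq_abs] at this
      exact this
    set M : ℝ := 1 + L * ‖A‖ with hM
    have hM0 : 0 < M := by
      have : 0 ≤ L * ‖A‖ := mul_nonneg hL0 (norm_nonneg A)
      rw [hM]; linarith
    have hx : |s * β| ≤ L * ‖A‖ := by
      rw [abs_mul]; exact mul_le_mul hs hβ (abs_nonneg _) hL0
    have hy : |s * γ| ≤ L * ‖A‖ := by
      rw [abs_mul]; exact mul_le_mul hs hγ (abs_nonneg _) hL0
    set z₁ : ℝ := a + s * β * b with hz₁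
    set z₂ : ℝ := b + s * γ * a with hz₂
    set dd : ℝ := 1 - (s * β) * (s * γ) with hdd
    have hdd0 : κ₀ ≤ dd := by rw [hdd]; linarith
    have hdpos : 0 < dd := lt_of_lt_of_le hκ₀ hdd0
    have ea : a * dd = z₁ - (s * β) * z₂ := by rw [hdd, hz₁, hz₂]; ring
    have eb : b * dd = z₂ - (s * γ) * z₁ := by rw [hdd, hz₁, hz₂]; ring
    have hab1 : |a| * κ₀ ≤ M * r := by
      calc |a| * κ₀ ≤ |a| * dd := mul_le_mul_of_nonneg_left hdd0 (abs_nonneg a)
        _ = |a * dd| := by rw [abs_mul, abs_of_pos hdpos]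
        _ = |z₁ - (s * β) * z₂| := by rw [ea]
        _ ≤ |z₁| + |(s * β) * z₂| := abs_sub _ _
        _ = z₁ + |s * β| * z₂ := by rw [abs_mul, abs_of_nonneg hz1a, abs_of_nonneg hz2a]
        _ ≤ r + (L * ‖A‖) * r := by
            have := mul_le_mul hx hz2b hz2a (mul_nonneg hL0 (norm_nonneg A))
            linarith
        _ = M * r := by rw [hM]; ring
    have hab2 : |b| * κ₀ ≤ M * r := by
      calc |b| * κ₀ ≤ |b| * dd := mul_le_mul_of_nonneg_left hdd0 (abs_nonneg b)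
        _ = |b * dd| := by rw [abs_mul, abs_of_pos hdpos]
        _ = |z₂ - (s * γ) * z₁| := by rw [eb]
        _ ≤ |z₂| + |(s * γ) * z₁| := abs_sub _ _
        _ = z₂ + |s * γ| * z₁ := by rw [abs_mul, abs_of_nonneg hz1a, abs_of_nonneg hz2a]
        _ ≤ r + (L * ‖A‖) * r := by
            have := mul_le_mul hy hz1b hz1a (mul_nonneg hL0 (norm_nonneg A))
            linarith
        _ = M * r := by rw [hM]; ring
    set B : ℝ := M / κ₀ * r with hB
    have hB0 : 0 ≤ B := by rw [hB]; positivity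
    have ha' : |a| ≤ B := by
      rw [hB, div_mul_eq_mul_div, le_div_iff₀ hκ₀]; exact hab1
    have hb' : |b| ≤ B := by
      rw [hB, div_mul_eq_mul_div, le_div_iff₀ hκ₀]; exact hab2
    have hsq : ‖a • f₁ + b • f₂‖ ^ 2 ≤ (Real.sqrt 2 * B) ^ 2 := by
      rw [f3_norm_sq_frame f₁ f₂ h1 h2 h12, mul_pow, Real.sq_sqrt (by norm_num : (0:ℝ) ≤ 2)]
      have h5 : a ^ 2 ≤ B ^ 2 := by rw [← sq_abs a]; exact pow_le_pow_left₀ (abs_nonneg a) ha' 2
      have h6 : b ^ 2 ≤ B ^ 2 := by rw [← sq_abs b]; exact pow_le_pow_left₀ (abs_nonneg b) hb' 2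
      linarith
    have hfin : ‖a • f₁ + b • f₂‖ ≤ Real.sqrt 2 * B :=
      abs_le_of_sq_le_sq' hsq (by positivity) |>.2
    calc ‖a • f₁ + b • f₂‖ ≤ Real.sqrt 2 * B := hfin
      _ = Real.sqrt 2 * M / κ₀ * r := by rw [hB]; ring

end Crest.Agent.Cyl
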