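import Crest.Agent.Lib_Cyl_LinTile
/-! Task F4 (row 211, S0326): the local tile family. -/
set_option autoImplicit false
open MeasureTheory
open scoped ENNReal

namespace Crest.Agent.Cyl

noncomputable def Ccst (L M₁ κ₀ : ℝ) : ℝ := Real.sqrt 2 * (1 + L * M₁) / κ₀

theorem local_tiles
    (V : E2 → E2) (W : Set E2) (hWc : Convex ℝ W) (hVd : ∀ z ∈ W, DifferentiableAt ℝ V z)
    (A : E2 →L[ℝ] E2) (htr : LinearMap.trace ℝ _ A.toLinearMap = 0)
    (L : ℝ) (hL : 0 < L) (M₁ κ₀ : ℝ) (hM₁ : ‖A‖ ≤ M₁) (hκ₀ : 0 < κ₀)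
    (hdet1 : κ₀ ≤ 1 + L ^ 2 * LinearMap.det A.toLinearMap) (hdet2 : LinearMap.det A.toLinearMap ≤ 0)
    (η : ℝ) (hη : 0 ≤ η) (hA : ∀ z ∈ W, ‖fderiv ℝ V z - A‖ ≤ η)
    (P : Set E2) (hPW : P ⊆ W) (hPb : Bornology.IsBounded P) (r : ℝ) (hr : 0 < r) :
    ∃ (k : ℕ) (c a b g : Fin k → E2),
      (∀ i, ‖a i‖ = r * (1 + 4 * L * Ccst L M₁ κ₀ * η) ∧ ‖b i‖ = ‖a i‖ ∧ inner ℝ (a i) (b i) = 0) ∧
      {z : ℝ × E2 | ∃ p ∈ P, |z.1| ≤ L ∧ z.2 = p + z.1 • V p} ⊆
        ⋃ i, {z : ℝ × E2 | ∃ x ∈ Set.Icc (0 : ℝ) 1, ∃ y ∈ Set.Icc (0 : ℝ) 1,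
          z.2 = c i + x • a i + y • b i + z.1 • g i} ∧
      (∀ i, ∃ p ∈ P, ‖g i - V p‖ ≤ M₁ * Ccst L M₁ κ₀ * r) ∧
      ENNReal.ofReal (k * r ^ 2) ≤ volume (Metric.cthickening ((Ccst L M₁ κ₀ + 2) * r) P) := by
  classical
  obtain ⟨f₁, f₂, β, γ, h1, h2, h12, hA1, hA2, hdet⟩ := traceless_frame A htr
  have hM₁0 : 0 ≤ M₁ := (norm_nonneg A).trans hM₁
  set C := Ccst L M₁ κ₀ with hC
  have hCpos : 0 < C := by
    rw [hC]; unfold Ccst; positivity
  have hβγ : 0 ≤ β * γ := by rw [hdet] at hdet2; linarith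
  have hκ : κ₀ ≤ 1 - L ^ 2 * (β * γ) := by rw [hdet] at hdet1; linarith
  have h21 : inner ℝ f₂ f₁ = 0 := by rw [real_inner_comm]; exact h12
  have h11 : inner ℝ f₁ f₁ = 1 := by rw [real_inner_self_eq_norm_sq, h1]; norm_num
  have h22 : inner ℝ f₂ f₂ = 1 := by rw [real_inner_self_eq_norm_sq, h2]; norm_num
  let q : ℤ × ℤ → E2 := fun t => (r * (t.1 : ℝ)) • f₁ + (r * (t.2 : ℝ)) • f₂
  have hq1 : ∀ t, inner ℝ (q t) f₁ = r * (t.1 : ℝ) := by
    intro t
    simp only [q]
    rw [inner_add_left, inner_smul_left, inner_smul_left, h11, h21]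
    simp
  have hq2 : ∀ t, inner ℝ (q t) f₂ = r * (t.2 : ℝ) := by
    intro t
    simp only [q]
    rw [inner_add_left, inner_smul_left, inner_smul_left, h12, h22]
    simp
  let T : Set (ℤ × ℤ) := {t | ∃ p ∈ P, ‖p - q t‖ ≤ C * r}
  have hTfin : T.Finite := by
    obtain ⟨R, hR⟩ := isBounded_iff_forall_norm_le.mp hPb
    set K : ℤ := ⌈(R + C * r) / r⌉ with hK
    have hsub : T ⊆ Set.Icc (-K) K ×ˢ Set.Icc (-K) K := by
      rintro t ⟨p, hp, hpt⟩
      have hqn : ‖q t‖ ≤ R + C * r := by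
        have : q t = p - (p - q t) := by abel
        rw [this]
        calc ‖p - (p - q t)‖ ≤ ‖p‖ + ‖p - q t‖ := norm_sub_le _ _
          _ ≤ R + C * r := add_le_add (hR p hp) hpt
      have b1 : |r * (t.1 : ℝ)| ≤ R + C * r := by
        rw [← hq1 t]
        calc |inner ℝ (q t) f₁| ≤ ‖q t‖ * ‖f₁‖ := abs_real_inner_le_norm _ _
          _ ≤ R + C * r := by rw [h1, mul_one]; exact hqn
      have b2 : |r * (t.2 : ℝ)| ≤ R + C * r := by
        rw [← hq2 t]
        calc |inner ℝ (q t) f₂| ≤ ‖q t‖ * ‖f₂‖ := abs_real_inner_le_norm _ _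
          _ ≤ R + C * r := by rw [h2, mul_one]; exact hqn
      have hKr : (R + C * r) / r ≤ (K : ℝ) := Int.le_ceil _
      have c1 : |(t.1 : ℝ)| ≤ K := by
        rw [abs_mul, abs_of_pos hr] at b1
        refine le_trans ?_ hKr
        rw [le_div_iff₀ hr]; linarith
      have c2 : |(t.2 : ℝ)| ≤ K := by
        rw [abs_mul, abs_of_pos hr] at b2
        refine le_trans ?_ hKr
        rw [le_div_iff₀ hr]; linarith
      rw [abs_le] at c1 c2
      refine ⟨⟨?_, ?_⟩, ⟨?_, ?_⟩⟩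
      · have := c1.1; exact_mod_cast this
      · have := c1.2; exact_mod_cast this
      · have := c2.1; exact_mod_cast this
      · have := c2.2; exact_mod_cast this
    exact ((Set.finite_Icc _ _).prod (Set.finite_Icc _ _)).subset hsub
  set Tf : Finset (ℤ × ℤ) := hTfin.toFinset with hTf
  have hmemT : ∀ t, t ∈ Tf ↔ t ∈ T := fun t => by rw [hTf]; exact Set.Finite.mem_toFinset _
  let e : Fin Tf.card ≃ Tf := Tf.equivFin.symm
  let idx : Fin Tf.card → ℤ × ℤ := fun i => (e i).1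
  have hidx : ∀ i, idx i ∈ T := fun i => (hmemT _).1 (e i).2
  choose pref hprefP hprefd using hidx
  set m : ℝ := 2 * L * C * η * r with hm
  have hm0 : 0 ≤ m := by rw [hm]; positivity
  set side : ℝ := r * (1 + 4 * L * C * η) with hside
  have hside_eq : side = r + 2 * m := by rw [hside, hm]; ring
  have hsidepos : 0 < side := by rw [hside_eq]; linarith
  refine ⟨Tf.card, fun i => q (idx i) - m • f₁ - m • f₂, fun _ => side • f₁, fun _ => side • f₂,
    fun i => V (pref i) + A (q (idx i) - pref i), ?_, ?_, ?_, ?_⟩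
  · intro i
    refine ⟨?_, ?_, ?_⟩
    · rw [norm_smul, h1, mul_one, Real.norm_eq_abs, abs_of_pos hsidepos]
    · rw [norm_smul, norm_smul, h1, h2]
    · rw [inner_smul_left, inner_smul_right, h12]; simp
  · rintro ⟨s, z⟩ ⟨p, hp, hs, hz⟩
    simp only at hs hz
    obtain ⟨k, j, z₁, z₂, hz₁, hz₂, heq, hnorm⟩ :=
      linear_tile A f₁ f₂ β γ h1 h2 h12 hA1 hA2 hβγ L κ₀ hκ₀ hκ r hr p s hs
    have hqkj : q (k, j) = (r * k) • f₁ + (r * j) • f₂ := rfl
    rw [← hqkj] at heq hnorm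
    have hCle : Real.sqrt 2 * (1 + L * ‖A‖) / κ₀ * r ≤ C * r := by
      apply mul_le_mul_of_nonneg_right _ hr.le
      rw [hC]; unfold Ccst
      gcongr
    have hT : (k, j) ∈ T := ⟨p, hp, hnorm.trans hCle⟩
    set i : Fin Tf.card := e.symm ⟨(k, j), (hmemT _).2 hT⟩ with hi
    have hidxi : idx i = (k, j) := by
      simp only [idx, hi, Equiv.apply_symm_apply]
    set E : E2 := V p - V (pref i) - A (p - pref i) with hE
    have hEn : ‖E‖ ≤ η * ‖p - pref i‖ :=
      Convex.norm_image_sub_le_of_norm_fderiv_le' hVd hA hWc (hPW (hprefP i)) (hPW hp)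
    have hpp : ‖p - pref i‖ ≤ 2 * (C * r) := by
      have e1 : p - pref i = (p - q (k, j)) - (pref i - q (idx i)) := by rw [hidxi]; abel
      rw [e1]
      calc ‖(p - q (k, j)) - (pref i - q (idx i))‖ ≤ ‖p - q (k, j)‖ + ‖pref i - q (idx i)‖ :=
            norm_sub_le _ _
        _ ≤ C * r + C * r := add_le_add (hnorm.trans hCle) (hprefd i)
        _ = 2 * (C * r) := by ring
    have hsE : ‖s • E‖ ≤ m := by
      rw [norm_smul, Real.norm_eq_abs]
      calc |s| * ‖E‖ ≤ L * (η * (2 * (C * r))) := by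
            apply mul_le_mul hs (hEn.trans (mul_le_mul_of_nonneg_left hpp hη)) (norm_nonneg _) hL.le
        _ = m := by rw [hm]; ring
    have hi1 : |inner ℝ (s • E) f₁| ≤ m := by
      calc |inner ℝ (s • E) f₁| ≤ ‖s • E‖ * ‖f₁‖ := abs_real_inner_le_norm _ _
        _ ≤ m := by rw [h1, mul_one]; exact hsE
    have hi2 : |inner ℝ (s • E) f₂| ≤ m := by
      calc |inner ℝ (s • E) f₂| ≤ ‖s • E‖ * ‖f₂‖ := abs_real_inner_le_norm _ _
        _ ≤ m := by rw [h2, mul_one]; exact hsE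
    rw [abs_le] at hi1 hi2
    have hexpE := frame_expand f₁ f₂ h1 h2 h12 (s • E)
    refine Set.mem_iUnion.mpr ⟨i, (z₁ + m + inner ℝ (s • E) f₁) / side, ⟨?_, ?_⟩,
      (z₂ + m + inner ℝ (s • E) f₂) / side, ⟨?_, ?_⟩, ?_⟩
    · apply div_nonneg _ hsidepos.le
      linarith [hz₁.1, hi1.1]
    · rw [div_le_one hsidepos, hside_eq]
      linarith [hz₁.2, hi1.2]
    · apply div_nonneg _ hsidepos.le
      linarith [hz₂.1, hi2.1]
    · rw [div_le_one hsidepos, hside_eq]
      linarith [hz₂.2, hi2.2]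
    · simp only
      rw [hz, smul_smul, smul_smul, div_mul_cancel₀ _ hsidepos.ne', div_mul_cancel₀ _ hsidepos.ne',
        hidxi]
      have e2 : p + s • V p = q (k, j) + ((p - q (k, j)) + s • A (p - q (k, j))) + s • E
          + s • (V (pref i) + A (q (k, j) - pref i)) := by
        rw [hE]
        simp only [map_sub, smul_sub, smul_add]
        abel
      rw [e2, heq]
      nth_rewrite 1 [hexpE]
      simp only [add_smul]
      abel
  · intro i
    refine ⟨pref i, hprefP i, ?_⟩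
    have : V (pref i) + A (q (idx i) - pref i) - V (pref i) = A (q (idx i) - pref i) := by abel
    rw [this]
    calc ‖A (q (idx i) - pref i)‖ ≤ ‖A‖ * ‖q (idx i) - pref i‖ := A.le_opNorm _
      _ ≤ M₁ * (C * r) := by
          apply mul_le_mul hM₁ _ (norm_nonneg _) hM₁0
          rw [norm_sub_rev]; exact hprefd i
      _ = M₁ * C * r := by ring
  · let Sq : ℤ × ℤ → Set E2 := fun t =>
      {z : E2 | inner ℝ (z - q t) f₁ ∈ Set.Ico 0 r ∧ inner ℝ (z - q t) f₂ ∈ Set.Ico 0 r}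
    have hvol : ∀ t, volume (Sq t) = ENNReal.ofReal (r ^ 2) := fun t =>
      volume_frame_square f₁ f₂ h1 h2 h12 (q t) r hr.le
    have hmeas : ∀ t, MeasurableSet (Sq t) := by
      intro t
      have c1 : Continuous fun z : E2 => inner ℝ (z - q t) f₁ := by fun_prop
      have c2 : Continuous fun z : E2 => inner ℝ (z - q t) f₂ := by fun_prop
      exact (c1.measurable measurableSet_Ico).inter (c2.measurable measurableSet_Ico)
    have hdisj : Set.PairwiseDisjoint (↑Tf : Set (ℤ × ℤ)) Sq := by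
      intro t _ t' _ hne
      rw [Function.onFun, Set.disjoint_left]
      rintro z ⟨⟨a1, a2⟩, ⟨a3, a4⟩⟩ ⟨⟨b1, b2⟩, ⟨b3, b4⟩⟩
      apply hne
      rw [inner_sub_left, hq1] at a1 a2 b1 b2
      rw [inner_sub_left, hq2] at a3 a4 b3 b4
      have k1 : t.1 = t'.1 := by
        have u1 : ((t.1 : ℝ) - t'.1) * r < r := by nlinarith
        have u2 : ((t'.1 : ℝ) - t.1) * r < r := by nlinarith
        have v1 : (t.1 : ℝ) - t'.1 < 1 := by
          by_contra hcon
          push Not at hcon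
          nlinarith
        have v2 : (t'.1 : ℝ) - t.1 < 1 := by
          by_contra hcon
          push Not at hcon
          nlinarith
        have w1 : t.1 - t'.1 < 1 := by exact_mod_cast v1
        have w2 : t'.1 - t.1 < 1 := by exact_mod_cast v2
        omega
      have k2 : t.2 = t'.2 := by
        have u1 : ((t.2 : ℝ) - t'.2) * r < r := by nlinarith
        have u2 : ((t'.2 : ℝ) - t.2) * r < r := by nlinarith
        have v1 : (t.2 : ℝ) - t'.2 < 1 := by
          by_contra hcon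
          push Not at hcon
          nlinarith
        have v2 : (t'.2 : ℝ) - t.2 < 1 := by
          by_contra hcon
          push Not at hcon
          nlinarith
        have w1 : t.2 - t'.2 < 1 := by exact_mod_cast v1
        have w2 : t'.2 - t.2 < 1 := by exact_mod_cast v2
        omega
      exact Prod.ext k1 k2
    have hsubset : (⋃ t ∈ Tf, Sq t) ⊆ Metric.cthickening ((C + 2) * r) P := by
      intro z hz
      simp only [Set.mem_iUnion] at hz
      obtain ⟨t, ht, ⟨a1, a2⟩, ⟨a3, a4⟩⟩ := hz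
      obtain ⟨p, hp, hpt⟩ := (hmemT t).1 ht
      apply Metric.mem_cthickening_of_dist_le z p _ P hp
      have hexp := frame_expand f₁ f₂ h1 h2 h12 (z - q t)
      have hn : ‖z - q t‖ ≤ 2 * r := by
        rw [hexp]
        calc ‖inner ℝ (z - q t) f₁ • f₁ + inner ℝ (z - q t) f₂ • f₂‖
            ≤ ‖inner ℝ (z - q t) f₁ • f₁‖ + ‖inner ℝ (z - q t) f₂ • f₂‖ := norm_add_le _ _
          _ = |inner ℝ (z - q t) f₁| + |inner ℝ (z - q t) f₂| := by
              rw [norm_smul, norm_smul, h1, h2, mul_one, mul_one, Real.norm_eq_abs,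
                Real.norm_eq_abs]
          _ ≤ r + r := by
              rw [abs_of_nonneg a1, abs_of_nonneg a3]
              exact add_le_add a2.le a4.le
          _ = 2 * r := by ring
      rw [dist_eq_norm]
      have : z - p = (z - q t) - (p - q t) := by abel
      rw [this]
      calc ‖(z - q t) - (p - q t)‖ ≤ ‖z - q t‖ + ‖p - q t‖ := norm_sub_le _ _
        _ ≤ 2 * r + C * r := add_le_add hn hpt
        _ = (C + 2) * r := by ring
    calc ENNReal.ofReal ((Tf.card : ℝ) * r ^ 2) = ∑ t ∈ Tf, volume (Sq t) := by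
          simp only [hvol]
          rw [Finset.sum_const, nsmul_eq_mul, ENNReal.ofReal_mul (by positivity)]
          simp
      _ = volume (⋃ t ∈ Tf, Sq t) := (measure_biUnion_finset hdisj (fun t _ => hmeas t)).symm
      _ ≤ _ := measure_mono hsubset

end Crest.Agent.Cyl
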