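import Crest.Agent.Lib_Cyl_Geom
/-! WP6: every regular tetrahedron is a similarity image of `K0`; transport of projections. -/
set_option autoImplicit false
open MeasureTheory
open scoped ENNReal Pointwise

namespace Crest.Agent.Cyl

/-- general similarity transport of `μHE[2]` -/
theorem area_similarity (O : E3 ≃ₗᵢ[ℝ] E3) (v : E3) (lam : ℝ) (hlam : 0 < lam) (S : Set E3) :
    μHE[2] ((fun x => v + lam • O x) '' S) = ENNReal.ofReal (lam ^ 2) * μHE[2] S := by
  have h1 : (fun x => v + lam • O x) '' S = (IsometryEquiv.addLeft v) '' (lam • (O '' S)) := by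
    rw [← Set.image_smul, Set.image_image, Set.image_image]
    rfl
  rw [h1, (IsometryEquiv.addLeft v).isometry.euclideanHausdorffMeasure_image,
    Measure.euclideanHausdorffMeasure_smul₀ 2 hlam.ne', O.isometry.euclideanHausdorffMeasure_image]
  rw [ENNReal.smul_def, smul_eq_mul]
  congr 1
  rw [ENNReal.ofReal, ENNReal.coe_inj]
  ext
  simp [abs_of_pos hlam]
  positivity

/-- projection areas transform by the factor `lam²` -/
theorem proj_area_similarity (O : E3 ≃ₗᵢ[ℝ] E3) (v : E3) (lam : ℝ) (hlam : 0 < lam) (n : E3)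
    (S : Set E3) :
    μHE[2] ((fun y : E3 => y - inner ℝ y n • n) '' ((fun x => v + lam • O x) '' S)) =
      ENNReal.ofReal (lam ^ 2) *
        μHE[2] ((fun y : E3 => y - inner ℝ y (O.symm n) • (O.symm n)) '' S) := by
  rw [← area_similarity O (v - inner ℝ v n • n) lam hlam, Set.image_image, Set.image_image]
  congr 1
  apply Set.image_congr
  intro x _
  have h1 : inner ℝ x (O.symm n) = inner ℝ (O x) n := by
    rw [← O.inner_map_map, O.apply_symm_apply]
  simp only [h1, map_sub, map_smul, O.apply_symm_apply, inner_add_left, inner_smul_left, add_smul,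
    smul_sub, smul_smul]
  simp
  abel


theorem similar_aux (p q r : E3) (ℓ : ℝ) (hℓ : 0 < ℓ) (hp : ‖p‖ = ℓ) (hq : ‖q‖ = ℓ) (hr : ‖r‖ = ℓ)
    (hpq : ‖p - q‖ = ℓ) (hpr : ‖p - r‖ = ℓ) (hqr : ‖q - r‖ = ℓ) :
    Orthonormal ℝ ![(-(1 / ℓ)) • p, (1 / ℓ) • (q - r), (1 / (Real.sqrt 2 * ℓ)) • (q + r - p)] := by
  have t2 : Real.sqrt 2 * Real.sqrt 2 = 2 := Real.mul_self_sqrt (by norm_num)
  have t0 : 0 < Real.sqrt 2 := by positivity
  have npp : inner ℝ p p = ℓ ^ 2 := by rw [real_inner_self_eq_norm_sq, hp]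
  have nqq : inner ℝ q q = ℓ ^ 2 := by rw [real_inner_self_eq_norm_sq, hq]
  have nrr : inner ℝ r r = ℓ ^ 2 := by rw [real_inner_self_eq_norm_sq, hr]
  have npq : inner ℝ p q = ℓ ^ 2 / 2 := by
    have h : inner ℝ (p - q) (p - q) = ℓ ^ 2 := by rw [real_inner_self_eq_norm_sq, hpq]
    rw [inner_sub_left, inner_sub_right, inner_sub_right, npp, nqq, real_inner_comm p q] at h
    linarith
  have npr : inner ℝ p r = ℓ ^ 2 / 2 := by
    have h : inner ℝ (p - r) (p - r) = ℓ ^ 2 := by rw [real_inner_self_eq_norm_sq, hpr]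
    rw [inner_sub_left, inner_sub_right, inner_sub_right, npp, nrr, real_inner_comm p r] at h
    linarith
  have nqr : inner ℝ q r = ℓ ^ 2 / 2 := by
    have h : inner ℝ (q - r) (q - r) = ℓ ^ 2 := by rw [real_inner_self_eq_norm_sq, hqr]
    rw [inner_sub_left, inner_sub_right, inner_sub_right, nqq, nrr, real_inner_comm q r] at h
    linarith
  have nqp : inner ℝ q p = ℓ ^ 2 / 2 := by rw [real_inner_comm]; exact npq
  have nrp : inner ℝ r p = ℓ ^ 2 / 2 := by rw [real_inner_comm]; exact npr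
  have nrq : inner ℝ r q = ℓ ^ 2 / 2 := by rw [real_inner_comm]; exact nqr
  rw [orthonormal_iff_ite]
  intro i j
  fin_cases i <;> fin_cases j <;>
    simp only [Fin.zero_eta, Fin.mk_one, Fin.reduceFinMk, Matrix.cons_val_zero,
      Matrix.cons_val_one, Matrix.cons_val_two, Matrix.head_cons, Matrix.tail_cons,
      inner_smul_left, inner_smul_right, inner_sub_left, inner_sub_right, inner_add_left,
      inner_add_right, npp, nqq, nrr, npq, npr, nqr, nqp, nrp, nrq, conj_trivial,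
      Fin.isValue, Fin.reduceEq, if_true, if_false]
  all_goals first | ring1 | (field_simp; done) | (field_simp; ring1) | (field_simp; nlinarith [t2])


theorem exists_similarity (w : Fin 4 → E3) (ℓ : ℝ) (hℓ : 0 < ℓ)
    (hw : ∀ i j, i ≠ j → dist (w i) (w j) = ℓ) :
    ∃ (O : E3 ≃ₗᵢ[ℝ] E3) (v : E3),
      convexHull ℝ (Set.range w) = (fun x => v + (ℓ / 2) • O x) '' K0 := by
  have t2 : Real.sqrt 2 * Real.sqrt 2 = 2 := Real.mul_self_sqrt (by norm_num)
  have t0 : 0 < Real.sqrt 2 := by positivity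
  have hon := similar_aux (w 1 - w 0) (w 2 - w 0) (w 3 - w 0) ℓ hℓ
    (by rw [← dist_eq_norm, hw 1 0 (by decide)]) (by rw [← dist_eq_norm, hw 2 0 (by decide)])
    (by rw [← dist_eq_norm, hw 3 0 (by decide)])
    (by rw [sub_sub_sub_cancel_right, ← dist_eq_norm, hw 1 2 (by decide)])
    (by rw [sub_sub_sub_cancel_right, ← dist_eq_norm, hw 1 3 (by decide)])
    (by rw [sub_sub_sub_cancel_right, ← dist_eq_norm, hw 2 3 (by decide)])
  set f : Fin 3 → E3 := ![(-(1 / ℓ)) • (w 1 - w 0), (1 / ℓ) • ((w 2 - w 0) - (w 3 - w 0)),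
    (1 / (Real.sqrt 2 * ℓ)) • ((w 2 - w 0) + (w 3 - w 0) - (w 1 - w 0))] with hf
  let b : OrthonormalBasis (Fin 3) ℝ E3 := OrthonormalBasis.mk hon
    (by rw [hon.linearIndependent.span_eq_top_of_card_eq_finrank' (by simp)])
  have hb : ∀ x : E3, b.repr.symm x = x 0 • f 0 + x 1 • f 1 + x 2 • f 2 := by
    intro x
    rw [← b.sum_repr_symm, Fin.sum_univ_three]
    simp [b]
  refine ⟨b.repr.symm, (1 / 2 : ℝ) • (w 0 + w 1), ?_⟩
  let g : E3 →ᵃ[ℝ] E3 := ((ℓ / 2) • b.repr.symm.toLinearEquiv.toLinearMap).toAffineMap +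
    AffineMap.const ℝ E3 ((1 / 2 : ℝ) • (w 0 + w 1))
  have hg : (fun x => (1 / 2 : ℝ) • (w 0 + w 1) + (ℓ / 2) • b.repr.symm x) = g := by
    funext x
    exact add_comm _ _
  rw [hg, AffineMap.image_convexHull]
  congr 1
  have hr : Set.range w = {w 0, w 1, w 2, w 3} := by
    ext x
    simp only [Set.mem_range, Set.mem_insert_iff, Set.mem_singleton_iff]
    constructor
    · rintro ⟨i, rfl⟩
      fin_cases i <;> simp
    · rintro (rfl | rfl | rfl | rfl) <;> exact ⟨_, rfl⟩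
  have hℓ' : ℓ ≠ 0 := hℓ.ne'
  have hgx : ∀ x0 x1 x2 : ℝ, g !₂[x0, x1, x2] = (1 / 2 : ℝ) • (w 0 + w 1) +
      (ℓ / 2) • (x0 • ((-(1 / ℓ)) • (w 1 - w 0)) + x1 • ((1 / ℓ) • ((w 2 - w 0) - (w 3 - w 0))) +
      x2 • ((1 / (Real.sqrt 2 * ℓ)) • ((w 2 - w 0) + (w 3 - w 0) - (w 1 - w 0)))) := by
    intro x0 x1 x2
    rw [← hg]
    simp only [hb, hf]
    rfl
  have e0 : g !₂[1, 0, 0] = w 0 := by
    rw [hgx]
    match_scalars <;> field_simp <;> ring
  have e1 : g !₂[-1, 0, 0] = w 1 := by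
    rw [hgx]
    match_scalars <;> field_simp <;> ring
  have e2 : g !₂[0, 1, Real.sqrt 2] = w 2 := by
    rw [hgx]
    match_scalars <;> field_simp <;> ring
  have e3 : g !₂[0, -1, Real.sqrt 2] = w 3 := by
    rw [hgx]
    match_scalars <;> field_simp <;> ring
  rw [hr]
  simp only [Set.image_insert_eq, Set.image_singleton, e0, e1, e2, e3]

end Crest.Agent.Cyl
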