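import Mathlib

set_option autoImplicit false
open MeasureTheory Measure Set
open scoped ENNReal

namespace Crest.Agent.Lib_helper38_Area

section General

variable {V : Type*} [NormedAddCommGroup V] [InnerProductSpace ℝ V] [MeasurableSpace V]
  [BorelSpace V]

/-- Area of the parallelogram spanned by `a`, `b` (square root of the Gram determinant). -/
noncomputable def gramArea (a b : V) : ℝ :=
  Real.sqrt (‖a‖ ^ 2 * ‖b‖ ^ 2 - inner ℝ a b ^ 2)

omit [MeasurableSpace V] [BorelSpace V] in
theorem gramArea_nonneg (a b : V) : 0 ≤ gramArea a b := Real.sqrt_nonneg _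

/-- The linear map `z ↦ z 0 • a + z 1 • b`. -/
noncomputable def planeMap (a b : V) : EuclideanSpace ℝ (Fin 2) →ₗ[ℝ] V where
  toFun z := z 0 • a + z 1 • b
  map_add' := by
    intro x y
    simp only [PiLp.add_apply, add_smul]
    abel
  map_smul' := by
    intro c x
    simp only [PiLp.smul_apply, smul_eq_mul, mul_smul, smul_add, RingHom.id_apply]

omit [MeasurableSpace V] [BorelSpace V] in
@[simp] theorem planeMap_apply (a b : V) (z : EuclideanSpace ℝ (Fin 2)) :
    planeMap a b z = z 0 • a + z 1 • b := rfl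

omit [MeasurableSpace V] [BorelSpace V] in
theorem normDet_planeMap (a b : V) : (planeMap a b).normDet = gramArea a b := by
  have h := LinearMap.normDet_sq_eq_det_gram (planeMap a b) (EuclideanSpace.basisFun (Fin 2) ℝ)
  rw [Matrix.det_fin_two] at h
  simp [Matrix.gram] at h
  rw [gramArea, sq (inner ℝ a b)]
  nth_rewrite 2 [real_inner_comm]
  rw [← h, Real.sqrt_sq (LinearMap.normDet_nonneg _)]

/-- Area of the image of a planar set under an affine parametrisation of a plane. -/
theorem muHE_image_plane (c a b : V) (S : Set (EuclideanSpace ℝ (Fin 2))) :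
    μHE[2] ((fun z : EuclideanSpace ℝ (Fin 2) => c + z 0 • a + z 1 • b) '' S) =
      ENNReal.ofReal (gramArea a b) * volume S := by
  have h1 : (fun z : EuclideanSpace ℝ (Fin 2) => c + z 0 • a + z 1 • b) '' S =
      (fun x => c + x) '' (planeMap a b '' S) := by
    rw [Set.image_image]
    apply Set.image_congr
    intro z _
    simp [add_assoc]
  have h2 := LinearMap.euclideanHausdorffMeasure_image_eq_normDet_mul_volume (planeMap a b) S
  rw [finrank_euclideanSpace_fin, normDet_planeMap] at h2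
  rw [h1, (isometry_add_left c).euclideanHausdorffMeasure_image, h2]

/-- the unit square in `ℝ²` -/
def stdSquare : Set (EuclideanSpace ℝ (Fin 2)) := {z | z 0 ∈ Icc (0:ℝ) 1 ∧ z 1 ∈ Icc (0:ℝ) 1}

/-- the standard triangle in `ℝ²` -/
def stdTriangle : Set (EuclideanSpace ℝ (Fin 2)) := {z | 0 ≤ z 0 ∧ 0 ≤ z 1 ∧ z 0 + z 1 ≤ 1}

omit [MeasurableSpace V] [BorelSpace V] in
@[simp] theorem gramArea_zero_right (a : V) : gramArea a 0 = 0 := by
  simp [gramArea]

/-- Lines have zero area. -/
theorem muHE_line (c d : V) : μHE[2] {x : V | ∃ s : ℝ, x = c + s • d} = 0 := by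
  have h := muHE_image_plane c d 0 (Set.univ)
  rw [gramArea_zero_right, ENNReal.ofReal_zero, zero_mul] at h
  refine measure_mono_null ?_ h
  rintro x ⟨s, rfl⟩
  exact ⟨!₂[s, 0], Set.mem_univ _, by simp⟩

theorem volume_stdSquare : volume stdSquare = 1 := by
  have h : stdSquare = (@WithLp.ofLp 2 (Fin 2 → ℝ)) ⁻¹' (Set.Icc (0 : Fin 2 → ℝ) 1) := by
    ext z
    simp only [stdSquare, Set.mem_ofPred_eq, Set.mem_preimage, Set.mem_Icc, Pi.le_def,
      Fin.forall_fin_two]
    simp
    tauto
  rw [h, (PiLp.volume_preserving_ofLp (Fin 2)).measure_preimage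
    measurableSet_Icc.nullMeasurableSet, Real.volume_Icc_pi]
  simp

theorem measurableSet_stdTriangle : MeasurableSet stdTriangle := by
  have h0 : Continuous fun z : EuclideanSpace ℝ (Fin 2) => z 0 := by fun_prop
  have h1 : Continuous fun z : EuclideanSpace ℝ (Fin 2) => z 1 := by fun_prop
  have : IsClosed stdTriangle := by
    have e : stdTriangle = {z | 0 ≤ z 0} ∩ ({z | 0 ≤ z 1} ∩ {z | z 0 + z 1 ≤ 1}) := by
      ext z; simp [stdTriangle]
    rw [e]
    exact (isClosed_le continuous_const h0).inter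
      ((isClosed_le continuous_const h1).inter (isClosed_le (h0.add h1) continuous_const))
  exact this.measurableSet

theorem volume_stdTriangle : volume stdTriangle = ENNReal.ofReal (1 / 2) := by
  set ρ : EuclideanSpace ℝ (Fin 2) → EuclideanSpace ℝ (Fin 2) := fun z => !₂[1, 1] - z with hρ
  have hmp : MeasurePreserving ρ volume volume := measurePreserving_sub_left volume _
  have hT' : volume (ρ ⁻¹' stdTriangle) = volume stdTriangle :=
    hmp.measure_preimage measurableSet_stdTriangle.nullMeasurableSet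
  have hun : stdSquare = stdTriangle ∪ ρ ⁻¹' stdTriangle := by
    ext z
    simp only [stdSquare, stdTriangle, hρ, Set.mem_union, Set.mem_preimage, Set.mem_ofPred_eq,
      Set.mem_Icc, PiLp.sub_apply]
    simp
    constructor
    · rintro ⟨⟨a, b⟩, c, d⟩
      rcases le_total (z 0 + z 1) 1 with h | h
      · exact Or.inl ⟨a, c, h⟩
      · exact Or.inr ⟨b, d, by linarith⟩
    · rintro (⟨a, b, c⟩ | ⟨a, b, c⟩)
      · exact ⟨⟨a, by linarith⟩, b, by linarith⟩
      · exact ⟨⟨by linarith, a⟩, by linarith, b⟩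
  have hint : volume (stdTriangle ∩ ρ ⁻¹' stdTriangle) = 0 := by
    have hl := muHE_line (V := EuclideanSpace ℝ (Fin 2)) !₂[1, 0] !₂[-1, 1]
    rw [EuclideanSpace.euclideanHausdorffMeasure_eq_volume] at hl
    refine measure_mono_null ?_ hl
    rintro z ⟨⟨a, b, c⟩, a', b', c'⟩
    simp only [hρ, PiLp.sub_apply] at a' b' c'
    simp at a' b' c'
    refine ⟨z 1, ?_⟩
    ext i
    fin_cases i
    · simp; linarith
    · simp
  have hsum := measure_union_add_inter stdTriangle (μ := volume)
    (hmp.measurable measurableSet_stdTriangle)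
  rw [← hun, hint, hT', volume_stdSquare, add_zero] at hsum
  have hne : volume stdTriangle ≠ ⊤ := by
    intro h
    rw [h] at hsum
    simp at hsum
  have h2 : (volume stdTriangle).toReal = 1 / 2 := by
    have := congrArg ENNReal.toReal hsum
    rw [ENNReal.toReal_add hne hne] at this
    simp at this
    linarith
  rw [← h2, ENNReal.ofReal_toReal hne]

omit [InnerProductSpace ℝ V] [MeasurableSpace V] [BorelSpace V] in
theorem mem_convexHull_triple [NormedSpace ℝ V] {p q r x : V} :
    x ∈ convexHull ℝ {p, q, r} ↔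
      ∃ s t : ℝ, 0 ≤ s ∧ 0 ≤ t ∧ s + t ≤ 1 ∧ x = p + s • (q - p) + t • (r - p) := by
  constructor
  · intro hx
    rw [← convexJoin_singleton_segment, mem_convexJoin] at hx
    obtain ⟨a, ha, y, hy, hx⟩ := hx
    rw [Set.mem_singleton_iff] at ha
    subst ha
    rw [segment_eq_image'] at hy hx
    obtain ⟨θ, ⟨hθ0, hθ1⟩, rfl⟩ := hy
    obtain ⟨μ, ⟨hμ0, hμ1⟩, rfl⟩ := hx
    refine ⟨μ * (1 - θ), μ * θ, by nlinarith, by nlinarith, by nlinarith, ?_⟩
    module
  · rintro ⟨s, t, hs, ht, hst, rfl⟩
    have hC := convex_convexHull ℝ ({p, q, r} : Set V)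
    have hp : p ∈ convexHull ℝ ({p, q, r} : Set V) := subset_convexHull ℝ _ (by simp)
    have hq : q ∈ convexHull ℝ ({p, q, r} : Set V) := subset_convexHull ℝ _ (by simp)
    have hr : r ∈ convexHull ℝ ({p, q, r} : Set V) := subset_convexHull ℝ _ (by simp)
    have := hC.sum_mem (t := Finset.univ) (w := ![1 - s - t, s, t]) (z := ![p, q, r])
      (by intro i _; fin_cases i <;> simp <;> linarith)
      (by simp [Fin.sum_univ_three]; ring)
      (by intro i _; fin_cases i <;> simp [hp, hq, hr])
    simp only [Fin.sum_univ_three] at this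
    simp at this
    convert this using 1
    module

omit [MeasurableSpace V] [BorelSpace V] in
theorem parallelogram_eq_image (c a b : V) :
    {x : V | ∃ s ∈ Set.Icc (0 : ℝ) 1, ∃ t ∈ Set.Icc (0 : ℝ) 1, x = c + s • a + t • b} =
      (fun z : EuclideanSpace ℝ (Fin 2) => c + z 0 • a + z 1 • b) '' stdSquare := by
  ext x
  constructor
  · rintro ⟨s, hs, t, ht, rfl⟩
    exact ⟨!₂[s, t], ⟨by simpa using hs, by simpa using ht⟩, by simp⟩
  · rintro ⟨z, ⟨h0, h1⟩, rfl⟩
    exact ⟨z 0, h0, z 1, h1, rfl⟩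

omit [MeasurableSpace V] [BorelSpace V] in
theorem triangle_eq_image (p q r : V) :
    convexHull ℝ {p, q, r} =
      (fun z : EuclideanSpace ℝ (Fin 2) => p + z 0 • (q - p) + z 1 • (r - p)) '' stdTriangle := by
  ext x
  rw [mem_convexHull_triple]
  constructor
  · rintro ⟨s, t, hs, ht, hst, rfl⟩
    exact ⟨!₂[s, t], ⟨by simpa using hs, by simpa using ht, by simpa using hst⟩, by simp⟩
  · rintro ⟨z, ⟨h0, h1, h2⟩, rfl⟩
    exact ⟨z 0, z 1, h0, h1, h2, rfl⟩

/-- Area of a parallelogram. -/
theorem muHE_parallelogram (c a b : V) :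
    μHE[2] {x : V | ∃ s ∈ Set.Icc (0 : ℝ) 1, ∃ t ∈ Set.Icc (0 : ℝ) 1, x = c + s • a + t • b} =
      ENNReal.ofReal (gramArea a b) := by
  rw [parallelogram_eq_image, muHE_image_plane, volume_stdSquare, mul_one]

/-- Area of a triangle. -/
theorem muHE_triangle (p q r : V) :
    μHE[2] (convexHull ℝ {p, q, r}) = ENNReal.ofReal (gramArea (q - p) (r - p) / 2) := by
  rw [triangle_eq_image, muHE_image_plane, volume_stdTriangle,
    ← ENNReal.ofReal_mul (gramArea_nonneg _ _)]
  congr 1
  ring

theorem muHE_triangle_toReal (p q r : V) :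
    (μHE[2] (convexHull ℝ {p, q, r})).toReal = gramArea (q - p) (r - p) / 2 := by
  rw [muHE_triangle, ENNReal.toReal_ofReal (by have := gramArea_nonneg (q - p) (r - p); positivity)]

theorem muHE_parallelogram_toReal (c a b : V) :
    (μHE[2] {x : V | ∃ s ∈ Set.Icc (0 : ℝ) 1, ∃ t ∈ Set.Icc (0 : ℝ) 1,
      x = c + s • a + t • b}).toReal = gramArea a b := by
  rw [muHE_parallelogram, ENNReal.toReal_ofReal (gramArea_nonneg _ _)]

/-- The orthogonal projection along the unit vector `v`, as a linear map. -/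
noncomputable def projL (v : V) : V →ₗ[ℝ] V where
  toFun y := y - inner ℝ y v • v
  map_add' := by
    intro x y
    rw [inner_add_left, add_smul]
    abel
  map_smul' := by
    intro c x
    rw [inner_smul_left, RingHom.id_apply, smul_sub, mul_smul]
    simp

omit [MeasurableSpace V] [BorelSpace V] in
@[simp] theorem projL_apply (v y : V) : projL v y = y - inner ℝ y v • v := rfl

omit [MeasurableSpace V] [BorelSpace V] in
theorem coe_projL (v : V) : (fun y => y - inner ℝ y v • v) = ⇑(projL v) := rfl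

omit [MeasurableSpace V] [BorelSpace V] in
theorem inner_projL_self {v : V} (hv : ‖v‖ = 1) (y : V) : inner ℝ (projL v y) v = 0 := by
  rw [projL_apply, inner_sub_left, inner_smul_left, real_inner_self_eq_norm_sq, hv]
  simp

omit [MeasurableSpace V] [BorelSpace V] in
theorem inner_projL_projL {v : V} (hv : ‖v‖ = 1) (x y : V) :
    inner ℝ (projL v x) (projL v y) = inner ℝ x y - inner ℝ x v * inner ℝ y v := by
  have h1 : inner ℝ (projL v x) (projL v y) = inner ℝ (projL v x) y := by
    conv_lhs => rw [projL_apply v y, inner_sub_right, inner_smul_right, inner_projL_self hv]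
    simp
  rw [h1, projL_apply, inner_sub_left, inner_smul_left, real_inner_comm y v]
  simp

omit [MeasurableSpace V] [BorelSpace V] in
theorem norm_sq_projL {v : V} (hv : ‖v‖ = 1) (x : V) :
    ‖projL v x‖ ^ 2 = ‖x‖ ^ 2 - inner ℝ x v ^ 2 := by
  rw [← real_inner_self_eq_norm_sq, inner_projL_projL hv, real_inner_self_eq_norm_sq]
  ring

omit [MeasurableSpace V] [BorelSpace V] in
theorem projL_image_triple (v p q r : V) :
    (fun y => y - inner ℝ y v • v) '' convexHull ℝ {p, q, r} =
      convexHull ℝ {projL v p, projL v q, projL v r} := by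
  rw [coe_projL, LinearMap.image_convexHull]
  congr 1
  simp [Set.image_insert_eq]

omit [InnerProductSpace ℝ V] in
theorem measurableSet_convexHull_triple [NormedSpace ℝ V] (p q r : V) :
    MeasurableSet (convexHull ℝ {p, q, r}) := by
  have hfin : ({p, q, r} : Set V).Finite := by simp
  exact (hfin.isCompact_convexHull ℝ).isClosed.measurableSet

/-- Two triangles on different sides of a common edge: areas add. -/
theorem muHE_union_triangles (P Q R S n : V) (h0 : inner ℝ (Q - P) n = 0)
    (h1 : 0 < inner ℝ (R - P) n) (h2 : inner ℝ (S - P) n < 0) :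
    μHE[2] (convexHull ℝ {P, Q, R} ∪ convexHull ℝ {P, Q, S}) =
      μHE[2] (convexHull ℝ {P, Q, R}) + μHE[2] (convexHull ℝ {P, Q, S}) := by
  have hint : μHE[2] (convexHull ℝ {P, Q, R} ∩ convexHull ℝ {P, Q, S}) = 0 := by
    refine measure_mono_null ?_ (muHE_line P (Q - P))
    rintro x ⟨hx1, hx2⟩
    rw [mem_convexHull_triple] at hx1 hx2
    obtain ⟨s, t, hs, ht, hst, rfl⟩ := hx1
    obtain ⟨s', t', hs', ht', hst', h⟩ := hx2
    have h3 := congrArg (fun y => inner ℝ (y - P) n) h
    simp only [add_sub_cancel_left, add_assoc, inner_add_left, inner_smul_left, h0] at h3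
    simp at h3
    have ht0 : t = 0 := by
      by_contra hne
      have : 0 < t := lt_of_le_of_ne ht (Ne.symm hne)
      nlinarith [mul_pos this h1, mul_nonneg ht' (neg_pos.mpr h2).le]
    exact ⟨s, by simp [ht0]⟩
  have := measure_union_add_inter (convexHull ℝ {P, Q, R}) (μ := (μHE[2] : Measure V))
    (measurableSet_convexHull_triple P Q S)
  rwa [hint, add_zero] at this

omit [InnerProductSpace ℝ V] in
/-- `μHE[2]` is a positive multiple of `μH[2]`. -/
theorem exists_muH_eq_smul_muHE :
    ∃ k : ℝ, 0 < k ∧ ∀ s : Set V, (μH[(2 : ℝ)] s).toReal = k * (μHE[2] s).toReal := by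
  set c := addHaarScalarFactor (volume : Measure (EuclideanSpace ℝ (Fin 2))) μH[(2 : ℕ)] with hc
  have hc0 : c ≠ 0 := addHaarScalarFactor_volume_hausdorffMeasure_ne_zero 2
  refine ⟨(c : ℝ)⁻¹, by positivity, fun s => ?_⟩
  rw [euclideanHausdorffMeasure_def, Measure.smul_apply, ← hc]
  have : (c • (μH[((2 : ℕ) : ℝ)] s)).toReal = (c : ℝ) * (μH[(2 : ℝ)] s).toReal := by
    rw [ENNReal.smul_def, smul_eq_mul, ENNReal.toReal_mul]
    simp
  rw [this, ← mul_assoc, inv_mul_cancel₀ (by exact_mod_cast hc0), one_mul]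

end General


section E3

/-- Euclidean 3-space. -/
abbrev E3 := EuclideanSpace ℝ (Fin 3)

theorem inner3 (x y : E3) : inner ℝ x y = x 0 * y 0 + x 1 * y 1 + x 2 * y 2 := by
  simp [PiLp.inner_apply, Fin.sum_univ_three]
  ring

theorem normsq3 (x : E3) : ‖x‖ ^ 2 = x 0 ^ 2 + x 1 ^ 2 + x 2 ^ 2 := by
  rw [← real_inner_self_eq_norm_sq, inner3]
  ring

/-- the determinant of three vectors of `ℝ³` -/
def det3 (x y v : E3) : ℝ :=
  x 0 * (y 1 * v 2 - y 2 * v 1) - x 1 * (y 0 * v 2 - y 2 * v 0) + x 2 * (y 0 * v 1 - y 1 * v 0)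

theorem gramArea_projL {v : E3} (hv : ‖v‖ = 1) (a b : E3) :
    gramArea (projL v a) (projL v b) = |det3 a b v| := by
  have hv2 : v 0 ^ 2 + v 1 ^ 2 + v 2 ^ 2 = 1 := by rw [← normsq3, hv]; norm_num
  rw [gramArea, norm_sq_projL hv, norm_sq_projL hv, inner_projL_projL hv, ← Real.sqrt_sq_eq_abs]
  congr 1
  simp only [normsq3, inner3, det3]
  linear_combination (-((a 0 ^ 2 + a 1 ^ 2 + a 2 ^ 2) * (b 0 ^ 2 + b 1 ^ 2 + b 2 ^ 2) -
    (a 0 * b 0 + a 1 * b 1 + a 2 * b 2) ^ 2)) * hv2

/-- Area of the projection of a triangle along the unit vector `v`. -/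
theorem muHE_proj_triangle {v : E3} (hv : ‖v‖ = 1) (p q r : E3) :
    μHE[2] (convexHull ℝ {projL v p, projL v q, projL v r}) =
      ENNReal.ofReal (|det3 (q - p) (r - p) v| / 2) := by
  rw [muHE_triangle, ← map_sub, ← map_sub, gramArea_projL hv]

end E3

end Crest.Agent.Lib_helper38_Area
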