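import Crest.Agent.Lib_helper38_Area

set_option autoImplicit false
open MeasureTheory Measure Set
open scoped ENNReal
open Crest.Agent.Lib_helper38_Area

namespace Crest.Agent.Lib_helper38_Area2

/-- the vector `n` with `⟪x, n⟫ = det3 a x v` -/
noncomputable def crossN (a v : E3) : E3 :=
  !₂[-(a 1 * v 2 - a 2 * v 1), a 0 * v 2 - a 2 * v 0, -(a 0 * v 1 - a 1 * v 0)]

theorem inner_crossN (a v x : E3) : inner ℝ x (crossN a v) = det3 a x v := by
  rw [inner3]
  simp [crossN, det3]
  ring

theorem det3_projL (a y v : E3) : det3 a (projL v y) v = det3 a y v := by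
  simp only [det3, projL_apply, PiLp.sub_apply, PiLp.smul_apply, smul_eq_mul]
  ring

theorem det3_self_left (a v : E3) : det3 a a v = 0 := by
  simp only [det3]; ring

theorem det3_sub_right (a x y v : E3) : det3 a (x - y) v = det3 a x v - det3 a y v := by
  simp only [det3, PiLp.sub_apply]; ring

/-- The projection of a tetrahedron contains a quadrilateral with the projections of two opposite
edges as diagonals. -/
theorem muHE_proj_quad_ge {v : E3} (hv : ‖v‖ = 1) (A B C D : E3) :
    ENNReal.ofReal (|det3 (B - A) (C - D) v| / 2) ≤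
      μHE[2] ((fun y => y - inner ℝ y v • v) '' convexHull ℝ {A, B, C, D}) := by
  have hT1 : convexHull ℝ {projL v A, projL v B, projL v C} ⊆
      (fun y => y - inner ℝ y v • v) '' convexHull ℝ {A, B, C, D} := by
    rw [← projL_image_triple]
    apply Set.image_mono
    apply convexHull_mono
    intro x hx
    simp only [Set.mem_insert_iff, Set.mem_singleton_iff] at hx ⊢
    tauto
  have hT2 : convexHull ℝ {projL v A, projL v B, projL v D} ⊆
      (fun y => y - inner ℝ y v • v) '' convexHull ℝ {A, B, C, D} := by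
    rw [← projL_image_triple]
    apply Set.image_mono
    apply convexHull_mono
    intro x hx
    simp only [Set.mem_insert_iff, Set.mem_singleton_iff] at hx ⊢
    tauto
  set s1 := det3 (B - A) (C - A) v with hs1
  set s2 := det3 (B - A) (D - A) v with hs2
  have hs : det3 (B - A) (C - D) v = s1 - s2 := by
    rw [hs1, hs2, ← det3_sub_right]
    congr 1
    abel
  have hm1 := muHE_proj_triangle hv A B C
  have hm2 := muHE_proj_triangle hv A B D
  rw [← hs1] at hm1
  rw [← hs2] at hm2
  rw [hs]
  -- the general union statement, for `0 < a`, `b < 0`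
  have key : ∀ C' D' : E3, 0 < det3 (B - A) (C' - A) v → det3 (B - A) (D' - A) v < 0 →
      μHE[2] (convexHull ℝ {projL v A, projL v B, projL v C'} ∪
        convexHull ℝ {projL v A, projL v B, projL v D'}) =
      μHE[2] (convexHull ℝ {projL v A, projL v B, projL v C'}) +
        μHE[2] (convexHull ℝ {projL v A, projL v B, projL v D'}) := by
    intro C' D' h1 h2
    apply muHE_union_triangles _ _ _ _ (crossN (B - A) v)
    · rw [inner_crossN, ← map_sub, det3_projL, det3_self_left]
    · rwa [inner_crossN, ← map_sub, det3_projL]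
    · rwa [inner_crossN, ← map_sub, det3_projL]
  rcases lt_trichotomy s1 0 with h1 | h1 | h1
  · rcases lt_or_ge 0 s2 with h2 | h2
    · have hk := key D C h2 h1
      calc ENNReal.ofReal (|s1 - s2| / 2) = ENNReal.ofReal (|s2| / 2) + ENNReal.ofReal (|s1| / 2) := by
            rw [← ENNReal.ofReal_add (by positivity) (by positivity)]
            congr 1
            rw [abs_of_neg h1, abs_of_pos h2, abs_of_neg (by linarith)]
            ring
        _ = _ := by rw [← hm1, ← hm2, ← hk]
        _ ≤ _ := measure_mono (Set.union_subset hT2 hT1)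
    · rcases le_total s1 s2 with h3 | h3
      · calc ENNReal.ofReal (|s1 - s2| / 2) ≤ ENNReal.ofReal (|s1| / 2) := by
              apply ENNReal.ofReal_le_ofReal
              rw [abs_of_neg h1, abs_of_nonpos (by linarith)]
              linarith
          _ = _ := hm1.symm
          _ ≤ _ := measure_mono hT1
      · calc ENNReal.ofReal (|s1 - s2| / 2) ≤ ENNReal.ofReal (|s2| / 2) := by
              apply ENNReal.ofReal_le_ofReal
              rw [abs_of_nonpos h2, abs_of_nonneg (by linarith)]
              linarith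
          _ = _ := hm2.symm
          _ ≤ _ := measure_mono hT2
  · calc ENNReal.ofReal (|s1 - s2| / 2) = ENNReal.ofReal (|s2| / 2) := by
          rw [h1, zero_sub, abs_neg]
      _ = _ := hm2.symm
      _ ≤ _ := measure_mono hT2
  · rcases lt_or_ge s2 0 with h2 | h2
    · have hk := key C D h1 h2
      calc ENNReal.ofReal (|s1 - s2| / 2) = ENNReal.ofReal (|s1| / 2) + ENNReal.ofReal (|s2| / 2) := by
            rw [← ENNReal.ofReal_add (by positivity) (by positivity)]
            congr 1
            rw [abs_of_pos h1, abs_of_neg h2, abs_of_pos (by linarith)]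
            ring
        _ = _ := by rw [← hm1, ← hm2, ← hk]
        _ ≤ _ := measure_mono (Set.union_subset hT1 hT2)
    · rcases le_total s1 s2 with h3 | h3
      · calc ENNReal.ofReal (|s1 - s2| / 2) ≤ ENNReal.ofReal (|s2| / 2) := by
              apply ENNReal.ofReal_le_ofReal
              rw [abs_of_nonneg h2, abs_of_nonpos (by linarith)]
              linarith
          _ = _ := hm2.symm
          _ ≤ _ := measure_mono hT2
      · calc ENNReal.ofReal (|s1 - s2| / 2) ≤ ENNReal.ofReal (|s1| / 2) := by
              apply ENNReal.ofReal_le_ofReal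
              rw [abs_of_pos h1, abs_of_nonneg (by linarith)]
              linarith
          _ = _ := hm1.symm
          _ ≤ _ := measure_mono hT1

/-- Bounded subsets of a plane `v^⊥` have finite area. -/
theorem muHE_lt_top_of_isBounded {v : E3} (hv : v ≠ 0) {S : Set E3} (hb : Bornology.IsBounded S)
    (hS : ∀ x ∈ S, inner ℝ x v = 0) : μHE[2] S < ⊤ := by
  have : Fact (Module.finrank ℝ E3 = 2 + 1) := ⟨by simp⟩
  set W : Submodule ℝ E3 := (ℝ ∙ v)ᗮ with hW
  have hfr : Module.finrank ℝ W = 2 := Submodule.finrank_orthogonal_span_singleton hv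
  have hSW : S = (Subtype.val : W → E3) '' ((Subtype.val : W → E3) ⁻¹' S) := by
    rw [Set.image_preimage_eq_inter_range, Subtype.range_coe_subtype]
    ext x
    constructor
    · intro hx
      refine ⟨hx, ?_⟩
      show x ∈ W
      rw [hW, Submodule.mem_orthogonal_singleton_iff_inner_left]
      exact hS x hx
    · exact fun h => h.1
  rw [hSW, isometry_subtype_coe.euclideanHausdorffMeasure_image]
  have h2 := InnerProductSpace.euclideanHausdorffMeasure_eq_volume (V := W)
  rw [hfr] at h2
  rw [h2]
  obtain ⟨R, hR⟩ := hb.subset_closedBall 0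
  refine lt_of_le_of_lt (measure_mono ?_) (isCompact_closedBall (0 : W) R).measure_lt_top
  intro x hx
  have := hR hx
  simpa using this

section General

variable {V : Type*} [NormedAddCommGroup V] [InnerProductSpace ℝ V]

theorem norm_projL_le {v : V} (hv : ‖v‖ = 1) (y : V) : ‖projL v y‖ ≤ ‖y‖ := by
  have h := norm_sq_projL hv y
  have h2 : ‖projL v y‖ ^ 2 ≤ ‖y‖ ^ 2 := by nlinarith [sq_nonneg (inner ℝ y v)]
  exact (sq_le_sq₀ (norm_nonneg _) (norm_nonneg _)).1 h2

theorem isBounded_projL_image {v : V} (hv : ‖v‖ = 1) {S : Set V} (hb : Bornology.IsBounded S) :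
    Bornology.IsBounded ((fun y => y - inner ℝ y v • v) '' S) := by
  obtain ⟨R, hR⟩ := hb.subset_closedBall 0
  refine (Metric.isBounded_closedBall (x := (0 : V)) (r := R)).subset ?_
  rintro _ ⟨y, hy, rfl⟩
  have h1 := hR hy
  have h2 := norm_projL_le hv y
  simp only [mem_closedBall_zero_iff, projL_apply] at h1 h2 ⊢
  linarith

/-- A point whose line in direction `u` meets the triangle `p q r` lies in the cylinder over the
projected triangle. -/
theorem mem_cylinder_of_section (u p q r x : V) (t : ℝ)
    (h : x + t • u ∈ convexHull ℝ {p, q, r}) :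
    ∃ b ∈ convexHull ℝ {projL u p, projL u q, projL u r}, ∃ τ : ℝ, x = b + τ • u := by
  refine ⟨projL u (x + t • u), ?_, inner ℝ (x + t • u) u - t, ?_⟩
  · rw [← projL_image_triple]
    exact ⟨_, h, rfl⟩
  · rw [projL_apply, sub_smul]
    abel

/-- The projection along a non-normalised direction. -/
theorem projL_normalize {d : V} (hd : d ≠ 0) (y : V) :
    projL (‖d‖⁻¹ • d) y = y - (inner ℝ y d / ‖d‖ ^ 2) • d := by
  rw [projL_apply, inner_smul_right, smul_smul]
  congr 2
  field_simp

theorem norm_normalize {d : V} (hd : d ≠ 0) : ‖‖d‖⁻¹ • d‖ = 1 := by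
  rw [norm_smul, norm_inv, norm_norm, inv_mul_cancel₀ (norm_ne_zero_iff.2 hd)]

end General

theorem muHE_proj_lt_top {v : E3} (hv : ‖v‖ = 1) {S : Set E3} (hb : Bornology.IsBounded S) :
    μHE[2] ((fun y => y - inner ℝ y v • v) '' S) < ⊤ := by
  apply muHE_lt_top_of_isBounded (v := v) (by intro h; simp [h] at hv) (isBounded_projL_image hv hb)
  rintro _ ⟨y, _, rfl⟩
  exact inner_projL_self hv y

/-- Every compact base in a plane `u^⊥` can be enlarged to a bounded relatively open base with
almost the same area. -/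
theorem exists_open_base {u : E3} (hu : u ≠ 0) {T : Set E3} (hT : IsCompact T)
    (hTu : ∀ x ∈ T, inner ℝ x u = 0) {ε : ℝ} (hε : 0 < ε) :
    ∃ O : Set E3, IsOpen O ∧ T ⊆ O ∧ Bornology.IsBounded (O ∩ {x | inner ℝ x u = 0}) ∧
      (μHE[2] (O ∩ {x | inner ℝ x u = 0})).toReal ≤ (μHE[2] T).toReal + ε := by
  set P : Set E3 := {x | inner ℝ x u = 0} with hP
  have hPm : MeasurableSet P := by
    have : IsClosed P := isClosed_eq (by fun_prop) continuous_const
    exact this.measurableSet
  set μ' : Measure E3 := (μHE[2] : Measure E3).restrict P with hμ'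
  have hbd : ∀ R : ℝ, Bornology.IsBounded (Metric.thickening R T) := fun R => hT.isBounded.thickening
  have hfin : ∀ R : ℝ, μHE[2] (Metric.thickening R T ∩ P) < ⊤ := fun R =>
    muHE_lt_top_of_isBounded hu ((hbd R).subset Set.inter_subset_left) (fun x hx => hx.2)
  have happ : ∀ S : Set E3, MeasurableSet S → μ' S = μHE[2] (S ∩ P) := fun S hS => by
    rw [hμ', Measure.restrict_apply hS]
  have htend := tendsto_measure_thickening_of_isClosed (μ := μ') (s := T)
    ⟨1, one_pos, by rw [happ _ Metric.isOpen_thickening.measurableSet]; exact (hfin 1).ne⟩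
    hT.isClosed
  have hTP : T ∩ P = T := Set.inter_eq_left.2 hTu
  have hμT : μ' T = μHE[2] T := by rw [happ _ hT.isClosed.measurableSet, hTP]
  have hTfin : μHE[2] T < ⊤ := muHE_lt_top_of_isBounded hu hT.isBounded hTu
  have hlt : μ' T < μHE[2] T + ENNReal.ofReal ε := by
    rw [hμT]
    exact ENNReal.lt_add_right hTfin.ne (by simpa using hε)
  have hev := htend.eventually (gt_mem_nhds hlt)
  have hev2 : ∀ᶠ r : ℝ in nhdsWithin 0 (Set.Ioi 0), 0 < r := eventually_mem_nhdsWithin
  obtain ⟨r, hr1, hr0⟩ := (hev.and hev2).exists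
  refine ⟨Metric.thickening r T, Metric.isOpen_thickening, Metric.self_subset_thickening hr0 T,
    (hbd r).subset Set.inter_subset_left, ?_⟩
  rw [happ _ Metric.isOpen_thickening.measurableSet] at hr1
  have := ENNReal.toReal_mono (by simp [hTfin.ne]) hr1.le
  rwa [ENNReal.toReal_add hTfin.ne (by simp), ENNReal.toReal_ofReal hε.le] at this

open scoped Pointwise in
/-- Areas scale by `λ²` under similarities. -/
theorem muHE_similarity (U : E3 →ₗᵢ[ℝ] E3) (o : E3) {l : ℝ} (hl : l ≠ 0) (S : Set E3) :
    μHE[2] ((fun x => o + l • U x) '' S) = ENNReal.ofReal (l ^ 2) * μHE[2] S := by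
  have h1 : (fun x => o + l • U x) '' S = (fun x => o + x) '' (l • (U '' S)) := by
    rw [← Set.image_smul, Set.image_image, Set.image_image]
  rw [h1, (isometry_add_left o).euclideanHausdorffMeasure_image,
    euclideanHausdorffMeasure_smul₀ 2 hl, U.isometry.euclideanHausdorffMeasure_image]
  rw [ENNReal.smul_def, smul_eq_mul]
  congr 1
  rw [ENNReal.ofReal, ENNReal.coe_inj]
  ext
  simp
  positivity

theorem isCompact_convexHull_triple {V : Type*} [NormedAddCommGroup V] [NormedSpace ℝ V]
    (p q r : V) : IsCompact (convexHull ℝ {p, q, r}) := by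
  have hfin : ({p, q, r} : Set V).Finite := by simp
  exact hfin.isCompact_convexHull ℝ

theorem isCompact_parallelogram {V : Type*} [NormedAddCommGroup V] [NormedSpace ℝ V]
    (c a b : V) : IsCompact {x : V | ∃ s ∈ Set.Icc (0 : ℝ) 1, ∃ t ∈ Set.Icc (0 : ℝ) 1,
      x = c + s • a + t • b} := by
  have h : {x : V | ∃ s ∈ Set.Icc (0 : ℝ) 1, ∃ t ∈ Set.Icc (0 : ℝ) 1, x = c + s • a + t • b} =
      (fun z : ℝ × ℝ => c + z.1 • a + z.2 • b) '' (Set.Icc (0 : ℝ) 1 ×ˢ Set.Icc (0 : ℝ) 1) := by
    ext x
    constructor
    · rintro ⟨s, hs, t, ht, rfl⟩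
      exact ⟨(s, t), ⟨hs, ht⟩, rfl⟩
    · rintro ⟨⟨s, t⟩, ⟨hs, ht⟩, rfl⟩
      exact ⟨s, hs, t, ht, rfl⟩
  rw [h]
  exact (isCompact_Icc.prod isCompact_Icc).image (by fun_prop)

end Crest.Agent.Lib_helper38_Area2
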