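import Mathlib
import Crest.Agent.Lib_helper38_Area
import Crest.Agent.Lib_helper38_Area2

/-! Row 211, task E2: staircase (triangle -> parallelograms), transport of cylinders under a
similarity, final numeric inequalities for S0327. -/

set_option autoImplicit false
open MeasureTheory Set
open Crest.Agent.Lib_helper38_Area

namespace Crest.Agent.Cyl.Stair

abbrev E3 := EuclideanSpace ℝ (Fin 3)

section General
variable {V : Type*} [NormedAddCommGroup V] [InnerProductSpace ℝ V]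

theorem gramArea_smul (x y : ℝ) (A B : V) :
    gramArea (x • A) (y • B) = |x| * |y| * gramArea A B := by
  unfold gramArea
  have h : ‖x • A‖ ^ 2 * ‖y • B‖ ^ 2 - inner ℝ (x • A) (y • B) ^ 2
      = (|x| * |y|) ^ 2 * (‖A‖ ^ 2 * ‖B‖ ^ 2 - inner ℝ A B ^ 2) := by
    rw [norm_smul, norm_smul, inner_smul_left, inner_smul_right, Real.norm_eq_abs,
      Real.norm_eq_abs]
    simp only [RCLike.conj_to_real, mul_pow, sq_abs]
    ring
  rw [h, Real.sqrt_mul (by positivity), Real.sqrt_sq (by positivity)]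

theorem stair_mem (p q r : V) (n : ℕ) (hn : 0 < n) (y : V) (hy : y ∈ convexHull ℝ {p, q, r}) :
    ∃ k : Fin n, ∃ s ∈ Icc (0:ℝ) 1, ∃ t ∈ Icc (0:ℝ) 1,
      y = (p + (((k : ℕ) : ℝ) / n) • (q - p)) + s • ((1 / (n:ℝ)) • (q - p))
        + t • ((1 - ((k : ℕ) : ℝ) / n) • (r - p)) := by
  rw [mem_convexHull_triple] at hy
  obtain ⟨s, t, hs, ht, hst, rfl⟩ := hy
  have hn' : (0:ℝ) < n := by exact_mod_cast hn
  obtain ⟨k₀, hk₀⟩ : ∃ k₀, k₀ = min ⌊s * n⌋₊ (n - 1) := ⟨_, rfl⟩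
  have hk₀n : k₀ < n := by
    have : k₀ ≤ n - 1 := by rw [hk₀]; exact min_le_right _ _
    omega
  have hk1 : (k₀ : ℝ) ≤ s * n := by
    have h1 : k₀ ≤ ⌊s * n⌋₊ := by rw [hk₀]; exact min_le_left _ _
    calc (k₀ : ℝ) ≤ (⌊s * n⌋₊ : ℝ) := by exact_mod_cast h1
      _ ≤ s * n := Nat.floor_le (by positivity)
  have hk2 : s * n ≤ (k₀ : ℝ) + 1 := by
    rcases le_total ⌊s * n⌋₊ (n - 1) with h | h
    · have : k₀ = ⌊s * n⌋₊ := by rw [hk₀]; exact min_eq_left h
      rw [this]; exact (Nat.lt_floor_add_one _).le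
    · have : k₀ = n - 1 := by rw [hk₀]; exact min_eq_right h
      have h2 : (k₀ : ℝ) + 1 = n := by
        rw [this]; have : 1 ≤ n := hn
        push_cast [Nat.cast_sub this]; ring
      rw [h2]
      have : s ≤ 1 := by linarith
      nlinarith
  have hk3 : (k₀ : ℝ) + 1 ≤ n := by exact_mod_cast hk₀n
  have hpos : 0 < 1 - (k₀ : ℝ) / n := by
    rw [sub_pos, div_lt_one hn']; linarith
  have hle : t ≤ 1 - (k₀ : ℝ) / n := by
    have : (k₀ : ℝ) / n ≤ s := by rw [div_le_iff₀ hn']; exact hk1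
    linarith
  refine ⟨⟨k₀, hk₀n⟩, s * n - k₀, ⟨by linarith, by linarith⟩, t / (1 - (k₀ : ℝ) / n),
    ⟨by positivity, by rw [div_le_one hpos]; exact hle⟩, ?_⟩
  have e1 : ((k₀ : ℝ) / n) + (s * n - k₀) * (1 / (n:ℝ)) = s := by field_simp; ring
  have e2 : t / (1 - (k₀ : ℝ) / n) * (1 - (k₀ : ℝ) / n) = t := div_mul_cancel₀ _ hpos.ne'
  calc p + s • (q - p) + t • (r - p)
      = p + (((k₀ : ℝ) / n) + (s * n - k₀) * (1 / (n:ℝ))) • (q - p)
        + (t / (1 - (k₀ : ℝ) / n) * (1 - (k₀ : ℝ) / n)) • (r - p) := by rw [e1, e2]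
    _ = _ := by simp only [add_smul, mul_smul]; abel

theorem inner_eq_zero_of_mem_tri {p q r x n : V} (hp : inner ℝ p n = 0) (hq : inner ℝ q n = 0)
    (hr : inner ℝ r n = 0) (hx : x ∈ convexHull ℝ {p, q, r}) : inner ℝ x n = 0 := by
  rw [mem_convexHull_triple] at hx
  obtain ⟨s, t, _, _, _, rfl⟩ := hx
  rw [inner_add_left, inner_add_left, inner_smul_left, inner_smul_left, inner_sub_left,
    inner_sub_left, hp, hq, hr]
  simp

theorem sum_range_cast (n : ℕ) : ∑ k ∈ Finset.range n, (k : ℝ) = n * (n - 1) / 2 := by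
  induction n with
  | zero => simp
  | succ m ih => rw [Finset.sum_range_succ, ih]; push_cast; ring

theorem stair_area (A B : V) (n : ℕ) (hn : 0 < n) :
    ∑ k : Fin n, gramArea ((1 / (n:ℝ)) • A) ((1 - ((k : ℕ) : ℝ) / n) • B)
      = (1 + 1 / (n:ℝ)) * (gramArea A B / 2) := by
  have hn' : (0:ℝ) < n := by exact_mod_cast hn
  have h1 : ∀ k : Fin n, gramArea ((1 / (n:ℝ)) • A) ((1 - ((k : ℕ) : ℝ) / n) • B)
      = (1 / (n:ℝ)) * (1 - ((k : ℕ) : ℝ) / n) * gramArea A B := by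
    intro k
    rw [gramArea_smul, abs_of_pos (by positivity), abs_of_nonneg]
    rw [sub_nonneg, div_le_one hn']
    exact_mod_cast k.2.le
  simp_rw [h1]
  rw [← Finset.sum_mul, Fin.sum_univ_eq_sum_range (fun k => (1 / (n:ℝ)) * (1 - (k : ℝ) / n)) n,
    ← Finset.mul_sum, Finset.sum_sub_distrib, ← Finset.sum_div, sum_range_cast]
  simp only [Finset.sum_const, Finset.card_range, nsmul_eq_mul, mul_one]
  field_simp
  ring

end General


open Crest.Agent.Lib_helper38_Area2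

theorem gramArea_similarity (O : E3 ≃ₗᵢ[ℝ] E3) (lam : ℝ) (a b : E3) :
    gramArea (lam • O a) (lam • O b) = lam ^ 2 * gramArea a b := by
  rw [gramArea_smul]
  unfold gramArea
  rw [O.norm_map, O.norm_map, O.inner_map_map, abs_mul_abs_self]
  ring

theorem inner_sim (O : E3 ≃ₗᵢ[ℝ] E3) (lam : ℝ) (a u : E3) (h : inner ℝ a u = 0) :
    inner ℝ (lam • O a) (O u) = 0 := by
  rw [inner_smul_left, O.inner_map_map, h, mul_zero]

theorem transport_par (O : E3 ≃ₗᵢ[ℝ] E3) (v : E3) (lam : ℝ) (u c a b : E3) (s t τ : ℝ) :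
    v + lam • O (c + s • a + t • b + τ • u)
      = projL (O u) (v + lam • O c) + s • (lam • O a) + t • (lam • O b)
        + (inner ℝ (v + lam • O c) (O u) + lam * τ) • O u := by
  rw [projL_apply]
  simp only [map_add, map_smul]
  module

theorem transport_tri (O : E3 ≃ₗᵢ[ℝ] E3) (v : E3) (lam : ℝ) (u p q r b : E3)
    (hb : b ∈ convexHull ℝ {p, q, r}) (τ : ℝ) :
    ∃ b' ∈ convexHull ℝ {projL (O u) (v + lam • O p), projL (O u) (v + lam • O q),
        projL (O u) (v + lam • O r)}, ∃ τ' : ℝ, v + lam • O (b + τ • u) = b' + τ' • O u := by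
  rw [mem_convexHull_triple] at hb
  obtain ⟨s, t, hs, ht, hst, rfl⟩ := hb
  refine ⟨projL (O u) (v + lam • O (p + s • (q - p) + t • (r - p))), ?_,
    inner ℝ (v + lam • O (p + s • (q - p) + t • (r - p))) (O u) + lam * τ, ?_⟩
  · rw [mem_convexHull_triple]
    refine ⟨s, t, hs, ht, hst, ?_⟩
    simp only [map_add, map_smul, map_sub]
    module
  · rw [projL_apply]
    simp only [map_add, map_smul, map_sub]
    module

theorem transport_tri_diff (O : E3 ≃ₗᵢ[ℝ] E3) (v : E3) (lam : ℝ) (u p q : E3)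
    (hp : inner ℝ p u = 0) (hq : inner ℝ q u = 0) :
    projL (O u) (v + lam • O q) - projL (O u) (v + lam • O p) = lam • O (q - p) := by
  have h : inner ℝ (lam • O (q - p)) (O u) = 0 :=
    inner_sim O lam _ u (by rw [inner_sub_left, hp, hq, sub_zero])
  have e : projL (O u) (v + lam • O q) - projL (O u) (v + lam • O p)
      = projL (O u) (lam • O (q - p)) := by
    simp only [map_add, map_smul, map_sub]; module
  rw [e, projL_apply, h, zero_smul, sub_zero]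

/-- numeric end game -/
theorem final_ineq {ι : Type*} [Fintype ι] (ar : ι → ℝ) (har : ∀ j, 0 ≤ ar j) (P : E3 → ℝ)
    (c γ : ℝ) (hc : 0 < c) (hγ : 0 < γ) (hP : ∀ v' : E3, ‖v'‖ = 1 → c ≤ P v')
    (hsum : ∑ j, ar j ≤ c * (1 / 2 - γ)) (u' : ι → E3) (hu' : ∀ j, ‖u' j‖ = 1) :
    (∃ δ : ℝ, 0 < δ ∧ ∀ v' : E3, ‖v'‖ = 1 → ∑ j, ar j + δ ≤ P v' / 2) ∧
      ∑ j, ar j / P (u' j) < 1 / 2 := by
  constructor
  · refine ⟨c * γ, by positivity, fun v' hv' => ?_⟩
    have := hP v' hv'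
    nlinarith
  · have h1 : ∑ j, ar j / P (u' j) ≤ ∑ j, ar j / c := by
      refine Finset.sum_le_sum fun j _ => ?_
      exact div_le_div_of_nonneg_left (har j) hc (hP _ (hu' j))
    rw [← Finset.sum_div] at h1
    have h2 : (∑ j, ar j) / c ≤ 1 / 2 - γ := by
      rw [div_le_iff₀ hc]; linarith
    linarith

theorem par_cover_of_tri_cover (K : Set E3) (M : ℕ) (u p q r : Fin M → E3)
    (hu : ∀ i, ‖u i‖ = 1)
    (hperp : ∀ i, inner ℝ (p i) (u i) = 0 ∧ inner ℝ (q i) (u i) = 0 ∧ inner ℝ (r i) (u i) = 0)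
    (hcov : K ⊆ ⋃ i, {x : E3 | ∃ b ∈ convexHull ℝ {p i, q i, r i}, ∃ t : ℝ, x = b + t • u i})
    (O : E3 ≃ₗᵢ[ℝ] E3) (v : E3) (lam : ℝ) (n : ℕ) (hn : 0 < n) :
    ∃ (k : ℕ) (u' c a b : Fin k → E3),
      (∀ i, ‖u' i‖ = 1) ∧
      (∀ i, inner ℝ (c i) (u' i) = 0 ∧ inner ℝ (a i) (u' i) = 0 ∧ inner ℝ (b i) (u' i) = 0) ∧
      (fun x => v + lam • O x) '' K ⊆ ⋃ i, {x : E3 |
        ∃ s ∈ Set.Icc (0 : ℝ) 1, ∃ t ∈ Set.Icc (0 : ℝ) 1, ∃ τ : ℝ,
          x = c i + s • a i + t • b i + τ • u' i} ∧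
      ∑ i, gramArea (a i) (b i)
        = lam ^ 2 * (1 + 1 / (n:ℝ)) * ∑ i, gramArea (q i - p i) (r i - p i) / 2 := by
  classical
  let e := (finProdFinEquiv : Fin M × Fin n ≃ Fin (M * n))
  refine ⟨M * n, fun j => O (u (e.symm j).1),
    fun j => projL (O (u (e.symm j).1)) (v + lam • O (p (e.symm j).1
      + ((((e.symm j).2 : ℕ) : ℝ) / n) • (q (e.symm j).1 - p (e.symm j).1))),
    fun j => lam • O ((1 / (n:ℝ)) • (q (e.symm j).1 - p (e.symm j).1)),
    fun j => lam • O ((1 - (((e.symm j).2 : ℕ) : ℝ) / n) • (r (e.symm j).1 - p (e.symm j).1)),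
    ?_, ?_, ?_, ?_⟩
  · intro j; rw [O.norm_map]; exact hu _
  · intro j
    obtain ⟨h1, h2, h3⟩ := hperp (e.symm j).1
    refine ⟨inner_projL_self (by rw [O.norm_map]; exact hu _) _, inner_sim O lam _ _ ?_,
      inner_sim O lam _ _ ?_⟩
    · rw [inner_smul_left, inner_sub_left, h1, h2]; simp
    · rw [inner_smul_left, inner_sub_left, h1, h3]; simp
  · rintro _ ⟨x, hx, rfl⟩
    obtain ⟨i, hi⟩ := Set.mem_iUnion.1 (hcov hx)
    obtain ⟨b, hb, τ, rfl⟩ := hi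
    obtain ⟨k, s, hs, t, ht, rfl⟩ := stair_mem (p i) (q i) (r i) n hn b hb
    rw [Set.mem_iUnion]
    refine ⟨e (i, k), s, hs, t, ht, inner ℝ (v + lam • O (p i
      + (((k : ℕ) : ℝ) / n) • (q i - p i))) (O (u i)) + lam * τ, ?_⟩
    simp only [Equiv.symm_apply_apply]
    exact transport_par O v lam (u i) _ _ _ s t τ
  · rw [← Equiv.sum_comp e, Fintype.sum_prod_type]
    simp only [Equiv.symm_apply_apply, gramArea_similarity]
    simp_rw [← Finset.mul_sum, stair_area _ _ n hn]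
    rw [← Finset.mul_sum]
    ring

theorem open_cover_of_tri_cover (K : Set E3) (M : ℕ) (u p q r : Fin M → E3)
    (hu : ∀ i, ‖u i‖ = 1)
    (hperp : ∀ i, inner ℝ (p i) (u i) = 0 ∧ inner ℝ (q i) (u i) = 0 ∧ inner ℝ (r i) (u i) = 0)
    (hcov : K ⊆ ⋃ i, {x : E3 | ∃ b ∈ convexHull ℝ {p i, q i, r i}, ∃ t : ℝ, x = b + t • u i})
    (O : E3 ≃ₗᵢ[ℝ] E3) (v : E3) (lam : ℝ) (ε : ℝ) (hε : 0 < ε) :
    ∃ (u' : Fin M → E3) (B : Fin M → Set E3),
      (∀ i, ‖u' i‖ = 1) ∧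
      (∀ i, Bornology.IsBounded (B i) ∧ ∃ O' : Set E3, IsOpen O' ∧
        B i = O' ∩ {x | inner ℝ x (u' i) = 0}) ∧
      (fun x => v + lam • O x) '' K ⊆
        ⋃ i, {x : E3 | ∃ y ∈ B i, ∃ τ : ℝ, x = y + τ • u' i} ∧
      ∑ i, (μHE[2] (B i)).toReal
        ≤ lam ^ 2 * (∑ i, gramArea (q i - p i) (r i - p i) / 2) + M * ε := by
  classical
  have hu' : ∀ i, ‖O (u i)‖ = 1 := fun i => by rw [O.norm_map]; exact hu i
  have key : ∀ i : Fin M, ∃ O' : Set E3, IsOpen O' ∧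
      convexHull ℝ {projL (O (u i)) (v + lam • O (p i)), projL (O (u i)) (v + lam • O (q i)),
        projL (O (u i)) (v + lam • O (r i))} ⊆ O' ∧
      Bornology.IsBounded (O' ∩ {x | inner ℝ x (O (u i)) = 0}) ∧
      (μHE[2] (O' ∩ {x | inner ℝ x (O (u i)) = 0})).toReal
        ≤ lam ^ 2 * (gramArea (q i - p i) (r i - p i) / 2) + ε := by
    intro i
    have hne : O (u i) ≠ 0 := by intro h; have := hu' i; rw [h] at this; simp at this
    obtain ⟨O', h1, h2, h3, h4⟩ := exists_open_base hne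
      (isCompact_convexHull_triple (projL (O (u i)) (v + lam • O (p i)))
        (projL (O (u i)) (v + lam • O (q i))) (projL (O (u i)) (v + lam • O (r i))))
      (fun x hx => inner_eq_zero_of_mem_tri (inner_projL_self (hu' i) _)
        (inner_projL_self (hu' i) _) (inner_projL_self (hu' i) _) hx) hε
    refine ⟨O', h1, h2, h3, ?_⟩
    rw [muHE_triangle_toReal, transport_tri_diff O v lam _ _ _ (hperp i).1 (hperp i).2.1,
      transport_tri_diff O v lam _ _ _ (hperp i).1 (hperp i).2.2, gramArea_similarity] at h4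
    linarith
  choose O' hO1 hO2 hO3 hO4 using key
  refine ⟨fun i => O (u i), fun i => O' i ∩ {x | inner ℝ x (O (u i)) = 0}, hu',
    fun i => ⟨hO3 i, O' i, hO1 i, rfl⟩, ?_, ?_⟩
  · rintro _ ⟨x, hx, rfl⟩
    obtain ⟨i, hi⟩ := Set.mem_iUnion.1 (hcov hx)
    obtain ⟨b, hb, τ, rfl⟩ := hi
    obtain ⟨b', hb', τ', h⟩ := transport_tri O v lam (u i) (p i) (q i) (r i) b hb τ
    rw [Set.mem_iUnion]
    exact ⟨i, b', ⟨hO2 i hb', inner_eq_zero_of_mem_tri (inner_projL_self (hu' i) _)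
        (inner_projL_self (hu' i) _) (inner_projL_self (hu' i) _) hb'⟩, τ', h⟩
  · calc ∑ i, (μHE[2] (O' i ∩ {x | inner ℝ x (O (u i)) = 0})).toReal
        ≤ ∑ i : Fin M, (lam ^ 2 * (gramArea (q i - p i) (r i - p i) / 2) + ε) :=
          Finset.sum_le_sum fun i _ => hO4 i
      _ = _ := by
          rw [Finset.sum_add_distrib, ← Finset.mul_sum]
          simp

end Crest.Agent.Cyl.Stair
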