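import Crest.Agent.Lib_helper58_OMDefs

set_option autoImplicit false

namespace Crest.Agent.OM

/-- index of a core label: the twin index together with the bits of the path above it -/
def cidx : {n : ℕ} → CoreLab n → ℕ
  | _, CoreLab.leaf => 0
  | _, CoreLab.br _ tw => tw.val
  | n + 1, CoreLab.ch b x => b.toNat * 2 ^ n + cidx x

/-- is the core label a child label (depth `≥ 1`)? -/
def cisCh : {n : ℕ} → CoreLab n → Bool
  | _, CoreLab.leaf => false
  | _, CoreLab.br _ _ => false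
  | _, CoreLab.ch _ _ => true

/-- index of a label -/
def lidx {h : ℕ} : Lab h → ℕ
  | Lab.core x => cidx x
  | Lab.aux _ i => i.val

/-- is the label a child core label? -/
def lisCh {h : ℕ} : Lab h → Bool
  | Lab.core x => cisCh x
  | Lab.aux _ _ => false

theorem cidx_pth : ∀ (n l j : ℕ) (a : Fin 3), cidx (pth n l j a) = l % 2 ^ n
  | 0, l, j, a => by simp [pth, cidx, Nat.mod_one]
  | n + 1, l, 0, a => by simp [pth, cidx]
  | n + 1, l, j + 1, a => by
      have ih := cidx_pth n l j a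
      simp only [pth, cidx, ih]
      rw [Nat.mod_pow_succ]
      rcases Nat.mod_two_eq_zero_or_one (l / 2 ^ n) with h0 | h1
      · simp [h0]
      · simp [h1]; ring

theorem Priv.lidx {h : ℕ} {a : Fin (2 ^ h)} {x : Lab h} (hx : Priv h a x) : lidx x = a.val := by
  rcases hx with ⟨b, rfl⟩ | ⟨c, rfl⟩
  · simp only [OM.lidx, cidx_pth]
    exact Nat.mod_eq_of_lt a.isLt
  · rfl

theorem Priv.lisCh {h : ℕ} (hh : 1 ≤ h) {a : Fin (2 ^ h)} {x : Lab h} (hx : Priv h a x) :
    lisCh x = false := by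
  obtain ⟨n, rfl⟩ : ∃ n, h = n + 1 := ⟨h - 1, by omega⟩
  rcases hx with ⟨b, rfl⟩ | ⟨c, rfl⟩
  · simp [OM.lisCh, pth, cisCh]
  · rfl

theorem OnPath.lidx {h l : ℕ} {x : Lab h} (hx : OnPath h l x) : lidx x = l % 2 ^ h := by
  obtain ⟨j, b, rfl⟩ := hx
  simp only [OM.lidx, cidx_pth]

theorem OnPath.lisCh {h l : ℕ} (hh : 1 ≤ h) {x : Lab h} (hx : OnPath h l x) :
    lisCh x = true := by
  obtain ⟨n, rfl⟩ : ∃ n, h = n + 1 := ⟨h - 1, by omega⟩
  obtain ⟨j, b, rfl⟩ := hx
  simp [OM.lisCh, pth, cisCh]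

private theorem cancel_left {t a b b' : ℕ} (hb : b < t) (hb' : b' < t)
    (e : (a + b) % t = (a + b') % t) : b = b' := by
  have h1 : b ≡ b' [MOD t] := Nat.ModEq.add_left_cancel' a e
  exact Nat.ModEq.eq_of_lt_of_lt h1 hb hb'

private theorem cancel_right {t a a' b : ℕ} (ha : a < t) (ha' : a' < t)
    (e : (a + b) % t = (a' + b) % t) : a = a' := by
  have h1 : a ≡ a' [MOD t] := Nat.ModEq.add_right_cancel' b e
  exact Nat.ModEq.eq_of_lt_of_lt h1 ha ha'

/-- The forcing sets are pairwise disjoint. -/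
theorem Fset_disjoint (h : ℕ) (hh : 1 ≤ h) (p q : Fin (2 ^ h) × Fin (2 ^ h)) (c : Lab h × Lab h)
    (hp : c ∈ Fset h p) (hq : c ∈ Fset h q) : p = q := by
  obtain ⟨p1, p2⟩ := p
  obtain ⟨q1, q2⟩ := q
  obtain ⟨c1, c2⟩ := c
  simp only [Fset, Set.mem_ofPred_eq] at hp hq
  rcases hp with ⟨a1, a2⟩ | ⟨a1, a2⟩ | ⟨a1, a2⟩ <;> rcases hq with ⟨b1, b2⟩ | ⟨b1, b2⟩ | ⟨b1, b2⟩
  · have e1 := a1.lidx.symm.trans b1.lidx
    have e2 := a2.lidx.symm.trans b2.lidx
    exact Prod.ext (Fin.ext e1) (Fin.ext e2)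
  · have := (a2.lisCh hh).symm.trans (b2.lisCh hh); simp at this
  · have := (a1.lisCh hh).symm.trans (b1.lisCh hh); simp at this
  · have := (a2.lisCh hh).symm.trans (b2.lisCh hh); simp at this
  · have e1 : p1.val = q1.val := a1.lidx.symm.trans b1.lidx
    have e2 := a2.lidx.symm.trans b2.lidx
    rw [e1] at e2
    exact Prod.ext (Fin.ext e1) (Fin.ext (cancel_left p2.isLt q2.isLt e2))
  · have := (a1.lisCh hh).symm.trans (b1.lisCh hh); simp at this
  · have := (a1.lisCh hh).symm.trans (b1.lisCh hh); simp at this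
  · have := (a1.lisCh hh).symm.trans (b1.lisCh hh); simp at this
  · have e2 : p2.val = q2.val := a2.lidx.symm.trans b2.lidx
    have e1 := a1.lidx.symm.trans b1.lidx
    rw [e2] at e1
    exact Prod.ext (Fin.ext (cancel_right p1.isLt q1.isLt e1)) (Fin.ext e2)

end Crest.Agent.OM
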