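import Mathlib

/-!
Definitions for S0066 (construction of helper7, recursive presentation by helper58).

* `CoreLab n` : core labels of a binary tree of height `n` (every inner node of height `m+1` carries
  three brackets, each with `2^(m+1)` twin copies; leaves are single).
* `pos` : position in the bracket layout `b0 (child false) b1 (child true) b2`.
* `cmp` : comparability of the nodes.
* `Aux h` : auxiliary classes, `Lab h` : all labels, `key`, `val`.
-/

set_option autoImplicit false

namespace Crest.Agent.OM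

/-- Core labels of a tree of height `n`. -/
inductive CoreLab : ℕ → Type
  | leaf : CoreLab 0
  | br {n : ℕ} (a : Fin 3) (tw : Fin (2 ^ (n + 1))) : CoreLab (n + 1)
  | ch {n : ℕ} (b : Bool) (x : CoreLab n) : CoreLab (n + 1)

/-- number of core labels of a tree of height `n` -/
def sz : ℕ → ℕ
  | 0 => 1
  | n + 1 => 3 * 2 ^ (n + 1) + 2 * sz n

namespace CoreLab

/-- position in the layout -/
def pos : {n : ℕ} → CoreLab n → ℕ
  | _, leaf => 0
  | n + 1, br a tw => a.val * (2 ^ (n + 1) + sz n) + tw.val
  | n + 1, ch b x => (b.toNat + 1) * 2 ^ (n + 1) + b.toNat * sz n + pos x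

/-- comparability of the nodes -/
def cmp : {n : ℕ} → CoreLab n → CoreLab n → Bool
  | _, leaf, leaf => true
  | _, br _ _, _ => true
  | _, ch _ _, br _ _ => true
  | _, ch b x, ch b' y => (b == b') && cmp x y

/-- depth of the node -/
def lev : {n : ℕ} → CoreLab n → ℕ
  | _, leaf => 0
  | _, br _ _ => 0
  | _, ch _ x => lev x + 1

/-- bracket number (0,1,2); irrelevant (0) for leaves -/
def brk : {n : ℕ} → CoreLab n → Fin 3
  | _, leaf => 0
  | _, br a _ => a
  | _, ch _ x => brk x

end CoreLab

/-- Auxiliary classes. `T false j = TI_{j+1}`, `T true j = TII_{j+1}`, `S j false = S_{j,L}`,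
`S j true = S_{j,R}`. -/
inductive Aux (h : ℕ)
  | Z | Y
  | T (x : Bool) (j : Fin h)
  | S (j : Fin h) (sg : Bool)
  | Tb | Sb
  | zero (i : Fin 61)

namespace Aux

/-- rank of the class in the layout -/
def rank {h : ℕ} : Aux h → ℕ
  | Z => 0
  | Y => 1
  | T x j => 2 + 4 * j.val + x.toNat
  | S j sg => 2 + 4 * j.val + 2 + sg.toNat
  | Tb => 4 * h + 2
  | Sb => 4 * h + 3
  | zero i => 4 * h + 4 + i.val

/-- value aux class vs aux class -/
def aval {h : ℕ} : Aux h → Aux h → Bool
  | Z, Y => true
  | Z, Tb => true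
  | Y, Z => true
  | Y, Y => true
  | Y, Sb => true
  | Tb, Z => true
  | Tb, Tb => true
  | Tb, Sb => true
  | Sb, Y => true
  | Sb, Tb => true
  | Sb, Sb => true
  | T x j, T y j' => decide (j = j') && (x != y)
  | T _ j, S j' _ => decide (j = j')
  | S j' _, T _ j => decide (j = j')
  | S j sg, S j' sg' => decide (j = j') && (sg == sg')
  | _, _ => false

/-- value core label vs aux class -/
def cval {h : ℕ} (x : CoreLab h) : Aux h → Bool
  | Z => decide (x.lev = h)
  | Y => decide (x.lev = h)
  | Sb => decide (x.lev = h)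
  | Tb => false
  | T false j => decide (x.lev = j.val + 1)
  | T true j => decide (j.val + 1 ≤ x.lev)
  | S j false => decide (x.lev = j.val) && decide (x.brk.val ≤ 1)
  | S j true => decide (x.lev = j.val) && decide (1 ≤ x.brk.val)
  | zero _ => false

end Aux

/-- All labels. -/
inductive Lab (h : ℕ)
  | core (x : CoreLab h)
  | aux (c : Aux h) (i : Fin (2 ^ h))

namespace Lab

/-- position of a label -/
def key {h : ℕ} : Lab h → ℕ
  | core x => x.pos
  | aux c i => sz h + c.rank * 2 ^ h + i.val

/-- the matrix -/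
def val {h : ℕ} : Lab h → Lab h → Bool
  | core x, core y => x.cmp y
  | core x, aux c _ => c.cval x
  | aux c _, core y => c.cval y
  | aux c _, aux d _ => c.aval d

end Lab

/-- The `5 × 5` pattern; lines `(r1, r, r2, t', s')`, `(c1, c, c2, t, s)`. -/
def H5 : Fin 5 → Fin 5 → Bool :=
  ![![true, true, true, false, true],
    ![true, false, true, true, false],
    ![true, true, true, false, true],
    ![false, true, false, true, true],
    ![true, false, true, true, true]]

/-- The label at depth `j` (bracket `a`) on the path to leaf `l` (only `l % 2^n` matters); depth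
`≥ n` gives the leaf. -/
def pth : (n : ℕ) → (l : ℕ) → (j : ℕ) → (a : Fin 3) → CoreLab n
  | 0, _, _, _ => CoreLab.leaf
  | n + 1, l, 0, a => CoreLab.br a ⟨l % 2 ^ (n + 1), Nat.mod_lt _ (by positivity)⟩
  | n + 1, l, j + 1, a => CoreLab.ch (decide (l / 2 ^ n % 2 = 1)) (pth n l j a)

/-- `x` is a private (non-path) skeleton line with private index `a`: a root bracket with twin
index `a`, or an auxiliary line with index `a`. -/
def Priv (h : ℕ) (a : Fin (2 ^ h)) (x : Lab h) : Prop :=
  (∃ b : Fin 3, x = Lab.core (pth h a.val 0 b)) ∨ (∃ c : Aux h, x = Lab.aux c a)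

/-- `x` is a path line of the skeleton: a core label of depth `≥ 1` on the path to leaf `l`. -/
def OnPath (h : ℕ) (l : ℕ) (x : Lab h) : Prop :=
  ∃ (j : ℕ) (b : Fin 3), x = Lab.core (pth h l (j + 1) b)

/-- The forcing set of `(al, be)`: skeleton cells whose row or column is private. -/
def Fset (h : ℕ) (p : Fin (2 ^ h) × Fin (2 ^ h)) : Set (Lab h × Lab h) :=
  {c | (Priv h p.1 c.1 ∧ Priv h p.2 c.2) ∨
       (Priv h p.1 c.1 ∧ OnPath h (p.1.val + p.2.val) c.2) ∨
       (OnPath h (p.1.val + p.2.val) c.1 ∧ Priv h p.2 c.2)}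

/-- The hitting cells `(leaf l, leaf l)`. -/
def zcell (h : ℕ) (l : Fin (2 ^ h)) : Lab h × Lab h :=
  (Lab.core (pth h l.val h 0), Lab.core (pth h l.val h 0))

end Crest.Agent.OM
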