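import Crest.Agent.Lib_helper58_OMTransfer
import Crest.Agent.Lib_helper58_OMDefs

set_option autoImplicit false

namespace Crest.Agent.OM

/-! ### Basic facts on `pth`, `pos`, `key` -/

theorem lev_pthF : ∀ (n l j : ℕ) (a : Fin 3), (pth n l j a).lev = min j n
  | 0, _, _, _ => by simp [pth, CoreLab.lev]
  | _ + 1, _, 0, _ => by simp [pth, CoreLab.lev]
  | n + 1, l, j + 1, a => by
      simp only [pth, CoreLab.lev, lev_pthF n l j a]
      omega

theorem brk_pthF : ∀ (n l j : ℕ) (a : Fin 3), j < n → (pth n l j a).brk = a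
  | 0, _, _, _, h => absurd h (Nat.not_lt_zero _)
  | _ + 1, _, 0, _, _ => rfl
  | n + 1, l, j + 1, a, h => by
      simp only [pth, CoreLab.brk]
      exact brk_pthF n l j a (by omega)

theorem pos_lt_sz : ∀ {n : ℕ} (x : CoreLab n), x.pos < sz n
  | _, CoreLab.leaf => by simp [CoreLab.pos, sz]
  | n + 1, CoreLab.br a tw => by
      have h1 := tw.isLt
      obtain ⟨a, ha⟩ := a
      simp only [CoreLab.pos, sz]
      interval_cases a <;> omega
  | n + 1, CoreLab.ch b x => by
      have h1 := pos_lt_sz x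
      have h2 : 0 < 2 ^ (n + 1) := by positivity
      cases b <;> simp only [CoreLab.pos, sz, Bool.toNat_false, Bool.toNat_true] <;> omega

theorem cmp_br_right {n : ℕ} (x : CoreLab (n + 1)) (a : Fin 3) (tw : Fin (2 ^ (n + 1))) :
    x.cmp (CoreLab.br a tw) = true := by
  cases x <;> rfl

theorem cmp_br_left {n : ℕ} (x : CoreLab (n + 1)) (a : Fin 3) (tw : Fin (2 ^ (n + 1))) :
    (CoreLab.br a tw).cmp x = true := by
  cases x <;> rfl

/-- direction of the path to leaf `l` at the node of depth `j` -/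
def bitAt : (n l j : ℕ) → Bool
  | 0, _, _ => false
  | n + 1, l, 0 => decide (l / 2 ^ n % 2 = 1)
  | n + 1, l, j + 1 => bitAt n l j

/-- bracket before the child `b` -/
def lo (b : Bool) : Fin 3 := if b then 1 else 0

/-- bracket after the child `b` -/
def hi (b : Bool) : Fin 3 := if b then 2 else 1

theorem pos_bracket0 (n l l' i : ℕ) (a' : Fin 3) :
    (pth (n + 1) l' 0 (lo (bitAt (n + 1) l 0))).pos < (pth (n + 1) l (i + 1) a').pos ∧
    (pth (n + 1) l (i + 1) a').pos < (pth (n + 1) l' 0 (hi (bitAt (n + 1) l 0))).pos := by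
  have h1 := pos_lt_sz (pth n l i a')
  have h2 : l' % 2 ^ (n + 1) < 2 ^ (n + 1) := Nat.mod_lt _ (by positivity)
  simp only [pth, bitAt, CoreLab.pos]
  cases hb : decide (l / 2 ^ n % 2 = 1) <;>
    simp only [lo, hi, Bool.toNat_false, Bool.toNat_true, if_true, if_false, Bool.false_eq_true] <;>
    constructor <;> simp <;> omega

theorem pos_bracket : ∀ (n l j i : ℕ) (a' : Fin 3), j < n → j < i →
    (pth n l j (lo (bitAt n l j))).pos < (pth n l i a').pos ∧
    (pth n l i a').pos < (pth n l j (hi (bitAt n l j))).pos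
  | 0, _, _, _, _, h, _ => absurd h (Nat.not_lt_zero _)
  | _ + 1, _, _, 0, _, _, h => absurd h (Nat.not_lt_zero _)
  | n + 1, l, 0, i + 1, a', _, _ => pos_bracket0 n l l i a'
  | n + 1, l, j + 1, i + 1, a', h1, h2 => by
      have := pos_bracket n l j i a' (by omega) (by omega)
      simp only [pth, bitAt, CoreLab.pos]
      omega

theorem key_aux_lt {h : ℕ} {c d : Aux h} (hcd : c.rank < d.rank) (i i' : Fin (2 ^ h)) :
    (Lab.aux c i).key < (Lab.aux d i').key := by
  have h1 : (c.rank + 1) * 2 ^ h ≤ d.rank * 2 ^ h := Nat.mul_le_mul_right _ hcd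
  have h2 : (c.rank + 1) * 2 ^ h = c.rank * 2 ^ h + 2 ^ h := by ring
  have h3 := i.isLt
  simp only [Lab.key]
  omega

theorem key_core_lt_aux {h : ℕ} (x : CoreLab h) (c : Aux h) (i : Fin (2 ^ h)) :
    (Lab.core x).key < (Lab.aux c i).key := by
  have := pos_lt_sz x
  simp only [Lab.key]
  omega


/-! ### Extending a `5 × 5` copy in the skeleton by zero lines -/

/-- skeleton lines -/
def Skel (h : ℕ) (a : Fin (2 ^ h)) (l : ℕ) (x : Lab h) : Prop := Priv h a x ∨ OnPath h l x

/-- five lines followed by the 61 zero lines with index `a` -/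
def ext66 {h : ℕ} (a : Fin (2 ^ h)) (r : Fin 5 → Lab h) (i : Fin 66) : Lab h :=
  if hi : i.val < 5 then r ⟨i.val, hi⟩ else Lab.aux (Aux.zero ⟨i.val - 5, by omega⟩) a

theorem strictMono_ext66 {h : ℕ} (a : Fin (2 ^ h)) (r : Fin 5 → Lab h)
    (hr : StrictMono fun i => (r i).key) (h4 : (r 4).key < (Lab.aux (Aux.zero 0) a).key) :
    StrictMono fun i : Fin 66 => (ext66 a r i).key := by
  intro i j hij
  have hij' : i.val < j.val := hij
  simp only [ext66]
  by_cases hi : i.val < 5
  · by_cases hj : j.val < 5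
    · rw [dif_pos hi, dif_pos hj]
      exact hr (show (⟨i.val, hi⟩ : Fin 5) < ⟨j.val, hj⟩ from hij')
    · rw [dif_pos hi, dif_neg hj]
      have h1 : (r ⟨i.val, hi⟩).key ≤ (r 4).key :=
        hr.monotone (show (⟨i.val, hi⟩ : Fin 5) ≤ ⟨4, by omega⟩ from Nat.lt_succ_iff.mp hi)
      have h2 : (Lab.aux (Aux.zero 0) a).key ≤
          (Lab.aux (Aux.zero ⟨j.val - 5, by omega⟩) a : Lab h).key := by
        simp only [Lab.key, Aux.rank]
        have : (4 * h + 4 + ((0 : Fin 61) : ℕ)) * 2 ^ h ≤ (4 * h + 4 + (j.val - 5)) * 2 ^ h :=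
          Nat.mul_le_mul_right _ (by simp)
        omega
      omega
  · have hj : ¬ j.val < 5 := by omega
    rw [dif_neg hi, dif_neg hj]
    apply key_aux_lt
    simp only [Aux.rank]
    omega

theorem aval_zero_right {h : ℕ} (c : Aux h) (i : Fin 61) : c.aval (Aux.zero i) = false := by
  cases c <;> rfl

theorem aval_zero_left {h : ℕ} (c : Aux h) (i : Fin 61) : (Aux.zero i).aval c = false := by
  cases c <;> rfl

theorem val_zero_right {h : ℕ} (x : Lab h) (i : Fin 61) (a : Fin (2 ^ h)) :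
    x.val (Lab.aux (Aux.zero i) a) = false := by
  cases x with
  | core x => rfl
  | aux c j => exact aval_zero_right c i

theorem val_zero_left {h : ℕ} (x : Lab h) (i : Fin 61) (a : Fin (2 ^ h)) :
    (Lab.aux (Aux.zero i) a).val x = false := by
  cases x with
  | core x => rfl
  | aux c j => exact aval_zero_left c i

section

variable {h : ℕ} {p : Fin (2 ^ h) × Fin (2 ^ h)} {B : Lab h → Lab h → Bool}

theorem B_eq_of_priv_left (hB : ∀ c ∈ Fset h p, B c.1 c.2 = c.1.val c.2) {x y : Lab h}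
    (hx : Priv h p.1 x) (hy : Skel h p.2 (p.1.val + p.2.val) y) : B x y = x.val y := by
  apply hB (x, y)
  rcases hy with hy | hy
  · exact Or.inl ⟨hx, hy⟩
  · exact Or.inr (Or.inl ⟨hx, hy⟩)

theorem B_eq_of_priv_right (hB : ∀ c ∈ Fset h p, B c.1 c.2 = c.1.val c.2) {x y : Lab h}
    (hx : Skel h p.1 (p.1.val + p.2.val) x) (hy : Priv h p.2 y) : B x y = x.val y := by
  apply hB (x, y)
  rcases hx with hx | hx
  · exact Or.inl ⟨hx, hy⟩
  · exact Or.inr (Or.inr ⟨hx, hy⟩)

theorem priv_aux (a : Fin (2 ^ h)) (c : Aux h) : Priv h a (Lab.aux c a) := Or.inr ⟨c, rfl⟩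

/-- A `5 × 5` copy of `H5` inside the skeleton extends to a copy of the padded pattern. -/
theorem copy_of_five (hB : ∀ c ∈ Fset h p, B c.1 c.2 = c.1.val c.2)
    (r c : Fin 5 → Lab h)
    (hr : StrictMono fun i => (r i).key) (hc : StrictMono fun i => (c i).key)
    (hr4 : (r 4).key < (Lab.aux (Aux.zero 0) p.1).key)
    (hc4 : (c 4).key < (Lab.aux (Aux.zero 0) p.2).key)
    (hrS : ∀ i, Skel h p.1 (p.1.val + p.2.val) (r i))
    (hcS : ∀ i, Skel h p.2 (p.1.val + p.2.val) (c i))
    (hval : ∀ i j, B (r i) (c j) = H5 i j) :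
    ∃ (f g : Fin 66 → Lab h), StrictMono (fun i => (f i).key) ∧ StrictMono (fun j => (g j).key) ∧
      ∀ i j, B (f i) (g j) = OMTransfer.pad H5 i j := by
  refine ⟨ext66 p.1 r, ext66 p.2 c, strictMono_ext66 _ _ hr hr4, strictMono_ext66 _ _ hc hc4, ?_⟩
  intro i j
  have hSc : Skel h p.2 (p.1.val + p.2.val) (ext66 p.2 c j) := by
    unfold ext66
    split_ifs with hj
    · exact hcS _
    · exact Or.inl (priv_aux _ _)
  by_cases hi : i.val < 5
  · by_cases hj : j.val < 5
    · have h1 : ext66 p.2 c j = c ⟨j.val, hj⟩ := by simp only [ext66, dif_pos hj]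
      have h2 : ext66 p.1 r i = r ⟨i.val, hi⟩ := by simp only [ext66, dif_pos hi]
      have h3 : OMTransfer.pad H5 i j = H5 ⟨i.val, hi⟩ ⟨j.val, hj⟩ := by
        simp only [OMTransfer.pad, dif_pos (And.intro hi hj)]
      rw [h1, h2, h3, hval]
    · have h1 : ext66 p.2 c j = Lab.aux (Aux.zero ⟨j.val - 5, by omega⟩) p.2 := by
        simp only [ext66, dif_neg hj]
      have h2 : ext66 p.1 r i = r ⟨i.val, hi⟩ := by simp only [ext66, dif_pos hi]
      rw [h1, h2, B_eq_of_priv_right hB (hrS _) (priv_aux _ _), val_zero_right]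
      simp [OMTransfer.pad, hj]
  · have h1 : ext66 p.1 r i = Lab.aux (Aux.zero ⟨i.val - 5, by omega⟩) p.1 := by
      simp only [ext66, dif_neg hi]
    rw [h1, B_eq_of_priv_left hB (priv_aux _ _) hSc, val_zero_left]
    simp [OMTransfer.pad, hi]

end


/-! ### The skeleton core lines -/

/-- skeleton core line of depth `i`, bracket `a` (private index `al` at depth `0`) -/
def sk (h : ℕ) (al : Fin (2 ^ h)) (l i : ℕ) (a : Fin 3) : Lab h :=
  Lab.core (pth h (if i = 0 then al.val else l) i a)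

theorem skel_sk (h : ℕ) (al : Fin (2 ^ h)) (l i : ℕ) (a : Fin 3) : Skel h al l (sk h al l i a) := by
  cases i with
  | zero => exact Or.inl (Or.inl ⟨a, rfl⟩)
  | succ i => exact Or.inr ⟨i, a, rfl⟩

theorem priv_sk_zero (h : ℕ) (al : Fin (2 ^ h)) (l : ℕ) (a : Fin 3) : Priv h al (sk h al l 0 a) :=
  Or.inl ⟨a, rfl⟩

theorem sk_key_bracket (h : ℕ) (al : Fin (2 ^ h)) (l j i : ℕ) (a' : Fin 3) (hj : j < h)
    (hji : j < i) :
    (sk h al l j (lo (bitAt h l j))).key < (sk h al l i a').key ∧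
    (sk h al l i a').key < (sk h al l j (hi (bitAt h l j))).key := by
  cases h with
  | zero => exact absurd hj (Nat.not_lt_zero _)
  | succ n =>
    cases i with
    | zero => exact absurd hji (Nat.not_lt_zero _)
    | succ i =>
      cases j with
      | zero => exact pos_bracket0 n l al.val i a'
      | succ j => exact pos_bracket (n + 1) l (j + 1) (i + 1) a' hj hji

theorem cval_T_low {h : ℕ} (l' j : ℕ) (hj : j < h) (x : Bool) (b : Fin 3) :
    Aux.cval (pth h l' j b) (Aux.T x ⟨j, hj⟩) = false := by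
  have h1 : (pth h l' j b).lev = j := by rw [lev_pthF]; omega
  cases x <;> simp [Aux.cval, h1]

theorem cval_T_hit {h : ℕ} (l' j i : ℕ) (hj : j < h) (hji : j < i) (hih : i ≤ h) (x : Bool)
    (hx : x = false → i = j + 1) (b : Fin 3) :
    Aux.cval (pth h l' i b) (Aux.T x ⟨j, hj⟩) = true := by
  have h1 : (pth h l' i b).lev = i := by rw [lev_pthF]; omega
  cases x
  · simp only [Aux.cval, h1, decide_eq_true_eq]
    exact hx rfl
  · simp only [Aux.cval, h1, decide_eq_true_eq]
    omega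

theorem cval_S_lo {h : ℕ} (l' j : ℕ) (hj : j < h) (sg : Bool) :
    Aux.cval (pth h l' j (lo sg)) (Aux.S ⟨j, hj⟩ sg) = true := by
  have h1 : (pth h l' j (lo sg)).lev = j := by rw [lev_pthF]; omega
  have h2 : (pth h l' j (lo sg)).brk = lo sg := brk_pthF _ _ _ _ hj
  cases sg <;> simp only [Aux.cval, h1, h2] <;> simp [lo]

theorem cval_S_hi {h : ℕ} (l' j : ℕ) (hj : j < h) (sg : Bool) :
    Aux.cval (pth h l' j (hi sg)) (Aux.S ⟨j, hj⟩ sg) = true := by
  have h1 : (pth h l' j (hi sg)).lev = j := by rw [lev_pthF]; omega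
  have h2 : (pth h l' j (hi sg)).brk = hi sg := brk_pthF _ _ _ _ hj
  cases sg <;> simp only [Aux.cval, h1, h2] <;> simp [hi]

theorem cval_S_off {h : ℕ} (l' j i : ℕ) (hj : j < h) (hji : j < i) (hih : i ≤ h) (sg : Bool)
    (b : Fin 3) : Aux.cval (pth h l' i b) (Aux.S ⟨j, hj⟩ sg) = false := by
  have h1 : (pth h l' i b).lev = i := by rw [lev_pthF]; omega
  have h2 : i ≠ j := by omega
  cases sg <;> simp [Aux.cval, h1, h2]

theorem strictMono_five (k : Fin 5 → ℕ) (h0 : k 0 < k 1) (h1 : k 1 < k 2) (h2 : k 2 < k 3)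
    (h3 : k 3 < k 4) : StrictMono k := by
  rw [Fin.strictMono_iff_lt_succ]
  intro i
  fin_cases i
  · exact h0
  · exact h1
  · exact h2
  · exact h3


theorem val_sk_zero_left (h : ℕ) (hh : 1 ≤ h) (al : Fin (2 ^ h)) (l : ℕ) (a : Fin 3)
    (y : CoreLab h) : (sk h al l 0 a).val (Lab.core y) = true := by
  cases h with
  | zero => exact absurd hh (by omega)
  | succ n => exact cmp_br_left _ _ _

theorem val_sk_zero_right (h : ℕ) (hh : 1 ≤ h) (al : Fin (2 ^ h)) (l : ℕ) (a : Fin 3)
    (y : CoreLab h) : (Lab.core y).val (sk h al l 0 a) = true := by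
  cases h with
  | zero => exact absurd hh (by omega)
  | succ n => exact cmp_br_right _ _ _

section

variable {h : ℕ} {p : Fin (2 ^ h) × Fin (2 ^ h)} {B : Lab h → Lab h → Bool}

/-- The gadget at the node of depth `j` on the path: if the core cell `(i, k)` (with
`min i k = j + 1`) is `false` while the cells of smaller level are `true`, there is a copy. -/
theorem gadget (hB : ∀ c ∈ Fset h p, B c.1 c.2 = c.1.val c.2) (j i k : ℕ) (hj : j < h)
    (hji : j < i) (hjk : j < k) (hih : i ≤ h) (hkh : k ≤ h) (hmin : i = j + 1 ∨ k = j + 1)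
    (a a' : Fin 3)
    (IHjj : ∀ b b', B (sk h p.1 (p.1.val + p.2.val) j b) (sk h p.2 (p.1.val + p.2.val) j b') = true)
    (IHjk : ∀ b, B (sk h p.1 (p.1.val + p.2.val) j b) (sk h p.2 (p.1.val + p.2.val) k a') = true)
    (IHij : ∀ b', B (sk h p.1 (p.1.val + p.2.val) i a) (sk h p.2 (p.1.val + p.2.val) j b') = true)
    (hfalse : B (sk h p.1 (p.1.val + p.2.val) i a) (sk h p.2 (p.1.val + p.2.val) k a') = false) :
    ∃ (f g : Fin 66 → Lab h), StrictMono (fun i => (f i).key) ∧ StrictMono (fun j => (g j).key) ∧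
      ∀ i j, B (f i) (g j) = OMTransfer.pad H5 i j := by
  generalize hl : p.1.val + p.2.val = l at *
  generalize hsg : bitAt h l j = sg
  obtain ⟨x, hx1, hx2⟩ : ∃ x : Bool, (x = false → i = j + 1) ∧ ((!x) = false → k = j + 1) := by
    rcases hmin with h1 | h1
    · exact ⟨false, fun _ => h1, fun h => by simp at h⟩
    · exact ⟨true, fun h => by simp at h, fun _ => h1⟩
  have hR := sk_key_bracket h p.1 l j i a hj hji
  have hC := sk_key_bracket h p.2 l j k a' hj hjk
  rw [hsg] at hR hC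
  have hpr : ∀ {u v : Lab h}, Skel h p.1 l u → Priv h p.2 v → B u v = u.val v := by
    intro u v hu hv
    subst hl
    exact B_eq_of_priv_right hB hu hv
  have hpl : ∀ {u v : Lab h}, Priv h p.1 u → Skel h p.2 l v → B u v = u.val v := by
    intro u v hu hv
    subst hl
    exact B_eq_of_priv_left hB hu hv
  have hTS : ∀ y : Bool, (Aux.T y ⟨j, hj⟩ : Aux h).rank < (Aux.S ⟨j, hj⟩ sg : Aux h).rank := by
    intro y
    cases y <;> cases sg <;> simp [Aux.rank]
  have hS0 : (Aux.S ⟨j, hj⟩ sg : Aux h).rank < (Aux.zero 0 : Aux h).rank := by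
    cases sg <;> simp [Aux.rank] <;> omega
  have key := copy_of_five hB
    ![sk h p.1 l j (lo sg), sk h p.1 l i a, sk h p.1 l j (hi sg),
      Lab.aux (Aux.T (!x) ⟨j, hj⟩) p.1, Lab.aux (Aux.S ⟨j, hj⟩ sg) p.1]
    ![sk h p.2 l j (lo sg), sk h p.2 l k a', sk h p.2 l j (hi sg),
      Lab.aux (Aux.T x ⟨j, hj⟩) p.2, Lab.aux (Aux.S ⟨j, hj⟩ sg) p.2]
    (strictMono_five _ hR.1 hR.2 (key_core_lt_aux _ _ _) (key_aux_lt (hTS _) _ _))
    (strictMono_five _ hC.1 hC.2 (key_core_lt_aux _ _ _) (key_aux_lt (hTS _) _ _))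
    (key_aux_lt hS0 _ _) (key_aux_lt hS0 _ _)
  apply key
  · intro i'
    rw [hl]
    fin_cases i'
    · exact skel_sk _ _ _ _ _
    · exact skel_sk _ _ _ _ _
    · exact skel_sk _ _ _ _ _
    · exact Or.inl (priv_aux _ _)
    · exact Or.inl (priv_aux _ _)
  · intro i'
    rw [hl]
    fin_cases i'
    · exact skel_sk _ _ _ _ _
    · exact skel_sk _ _ _ _ _
    · exact skel_sk _ _ _ _ _
    · exact Or.inl (priv_aux _ _)
    · exact Or.inl (priv_aux _ _)
  · intro i' j'
    fin_cases i'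
    · fin_cases j'
      · exact IHjj _ _
      · exact IHjk _
      · exact IHjj _ _
      · exact (hpr (skel_sk _ _ _ _ _) (priv_aux _ _)).trans (cval_T_low _ _ hj _ _)
      · exact (hpr (skel_sk _ _ _ _ _) (priv_aux _ _)).trans (cval_S_lo _ _ hj _)
    · fin_cases j'
      · exact IHij _
      · exact hfalse
      · exact IHij _
      · exact (hpr (skel_sk _ _ _ _ _) (priv_aux _ _)).trans (cval_T_hit _ _ _ hj hji hih _ hx1 _)
      · exact (hpr (skel_sk _ _ _ _ _) (priv_aux _ _)).trans (cval_S_off _ _ _ hj hji hih _ _)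
    · fin_cases j'
      · exact IHjj _ _
      · exact IHjk _
      · exact IHjj _ _
      · exact (hpr (skel_sk _ _ _ _ _) (priv_aux _ _)).trans (cval_T_low _ _ hj _ _)
      · exact (hpr (skel_sk _ _ _ _ _) (priv_aux _ _)).trans (cval_S_hi _ _ hj _)
    · fin_cases j'
      · exact (hpl (priv_aux _ _) (skel_sk _ _ _ _ _)).trans (cval_T_low _ _ hj _ _)
      · exact (hpl (priv_aux _ _) (skel_sk _ _ _ _ _)).trans (cval_T_hit _ _ _ hj hjk hkh _ hx2 _)
      · exact (hpl (priv_aux _ _) (skel_sk _ _ _ _ _)).trans (cval_T_low _ _ hj _ _)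
      · refine (hpl (priv_aux _ _) (Or.inl (priv_aux _ _))).trans ?_
        cases x <;> simp [Lab.val, Aux.aval, H5]
      · refine (hpl (priv_aux _ _) (Or.inl (priv_aux _ _))).trans ?_
        simp [Lab.val, Aux.aval, H5]
    · fin_cases j'
      · exact (hpl (priv_aux _ _) (skel_sk _ _ _ _ _)).trans (cval_S_lo _ _ hj _)
      · exact (hpl (priv_aux _ _) (skel_sk _ _ _ _ _)).trans (cval_S_off _ _ _ hj hjk hkh _ _)
      · exact (hpl (priv_aux _ _) (skel_sk _ _ _ _ _)).trans (cval_S_hi _ _ hj _)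
      · refine (hpl (priv_aux _ _) (Or.inl (priv_aux _ _))).trans ?_
        simp [Lab.val, Aux.aval, H5]
      · refine (hpl (priv_aux _ _) (Or.inl (priv_aux _ _))).trans ?_
        simp [Lab.val, Aux.aval, H5]

end


theorem cval_leaf {h : ℕ} (l' : ℕ) (b : Fin 3) :
    Aux.cval (pth h l' h b) (Aux.Z : Aux h) = true ∧ Aux.cval (pth h l' h b) (Aux.Y : Aux h) = true ∧
    Aux.cval (pth h l' h b) (Aux.Tb : Aux h) = false ∧
    Aux.cval (pth h l' h b) (Aux.Sb : Aux h) = true := by
  have h1 : (pth h l' h b).lev = h := by rw [lev_pthF]; omega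
  simp [Aux.cval, h1]

/-- FARNESS part: a matrix agreeing with `val` on a forcing set contains the padded pattern. -/
theorem forcing (h : ℕ) (hh : 1 ≤ h) (p : Fin (2 ^ h) × Fin (2 ^ h)) (B : Lab h → Lab h → Bool)
    (hB : ∀ c ∈ Fset h p, B c.1 c.2 = c.1.val c.2) :
    ∃ (f g : Fin 66 → Lab h), StrictMono (fun i => (f i).key) ∧ StrictMono (fun j => (g j).key) ∧
      ∀ i j, B (f i) (g j) = OMTransfer.pad H5 i j := by
  by_contra hno
  have P : ∀ lam i k, min i k = lam → i ≤ h → k ≤ h → ∀ a a',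
      B (sk h p.1 (p.1.val + p.2.val) i a) (sk h p.2 (p.1.val + p.2.val) k a') = true := by
    intro lam
    induction lam using Nat.strong_induction_on with
    | _ lam IH =>
      intro i k hmin hih hkh a a'
      rcases Nat.eq_zero_or_pos lam with h0 | hpos
      · have h1 : i = 0 ∨ k = 0 := by omega
        rcases h1 with rfl | rfl
        · rw [B_eq_of_priv_left hB (priv_sk_zero _ _ _ _) (skel_sk _ _ _ _ _)]
          exact val_sk_zero_left h hh _ _ _ _
        · rw [B_eq_of_priv_right hB (skel_sk _ _ _ _ _) (priv_sk_zero _ _ _ _)]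
          exact val_sk_zero_right h hh _ _ _ _
      · by_contra hf
        have hfalse := (Bool.not_eq_true _).mp hf
        apply hno
        refine gadget hB (lam - 1) i k (by omega) (by omega) (by omega) hih hkh (by omega) a a'
          ?_ ?_ ?_ hfalse
        · intro b b'
          exact IH (lam - 1) (by omega) _ _ (by omega) (by omega) (by omega) _ _
        · intro b
          exact IH (lam - 1) (by omega) _ _ (by omega) (by omega) hkh _ _
        · intro b'
          exact IH (lam - 1) (by omega) _ _ (by omega) hih (by omega) _ _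
  apply hno
  have hll := P h h h (by simp) le_rfl le_rfl 0 0
  have hpr : ∀ {u v : Lab h}, Skel h p.1 (p.1.val + p.2.val) u → Priv h p.2 v → B u v = u.val v :=
    fun hu hv => B_eq_of_priv_right hB hu hv
  have hpl : ∀ {u v : Lab h}, Priv h p.1 u → Skel h p.2 (p.1.val + p.2.val) v → B u v = u.val v :=
    fun hu hv => B_eq_of_priv_left hB hu hv
  have key := copy_of_five hB
    ![sk h p.1 (p.1.val + p.2.val) h 0, Lab.aux Aux.Z p.1, Lab.aux Aux.Y p.1,
      Lab.aux Aux.Tb p.1, Lab.aux Aux.Sb p.1]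
    ![sk h p.2 (p.1.val + p.2.val) h 0, Lab.aux Aux.Z p.2, Lab.aux Aux.Y p.2,
      Lab.aux Aux.Tb p.2, Lab.aux Aux.Sb p.2]
    (strictMono_five _ (key_core_lt_aux _ _ _) (key_aux_lt (by simp [Aux.rank]) _ _)
      (key_aux_lt (by simp [Aux.rank]) _ _) (key_aux_lt (by simp [Aux.rank]) _ _))
    (strictMono_five _ (key_core_lt_aux _ _ _) (key_aux_lt (by simp [Aux.rank]) _ _)
      (key_aux_lt (by simp [Aux.rank]) _ _) (key_aux_lt (by simp [Aux.rank]) _ _))
    (key_aux_lt (by simp [Aux.rank]) _ _) (key_aux_lt (by simp [Aux.rank]) _ _)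
  apply key
  · intro i'
    fin_cases i'
    · exact skel_sk _ _ _ _ _
    · exact Or.inl (priv_aux _ _)
    · exact Or.inl (priv_aux _ _)
    · exact Or.inl (priv_aux _ _)
    · exact Or.inl (priv_aux _ _)
  · intro i'
    fin_cases i'
    · exact skel_sk _ _ _ _ _
    · exact Or.inl (priv_aux _ _)
    · exact Or.inl (priv_aux _ _)
    · exact Or.inl (priv_aux _ _)
    · exact Or.inl (priv_aux _ _)
  · intro i' j'
    fin_cases i'
    · fin_cases j'
      · exact hll
      · exact (hpr (skel_sk _ _ _ _ _) (priv_aux _ _)).trans (cval_leaf _ _).1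
      · exact (hpr (skel_sk _ _ _ _ _) (priv_aux _ _)).trans (cval_leaf _ _).2.1
      · exact (hpr (skel_sk _ _ _ _ _) (priv_aux _ _)).trans rfl
      · exact (hpr (skel_sk _ _ _ _ _) (priv_aux _ _)).trans (cval_leaf _ _).2.2.2
    · fin_cases j'
      · exact (hpl (priv_aux _ _) (skel_sk _ _ _ _ _)).trans (cval_leaf _ _).1
      all_goals exact (hpl (priv_aux _ _) (Or.inl (priv_aux _ _))).trans rfl
    · fin_cases j'
      · exact (hpl (priv_aux _ _) (skel_sk _ _ _ _ _)).trans (cval_leaf _ _).2.1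
      all_goals exact (hpl (priv_aux _ _) (Or.inl (priv_aux _ _))).trans rfl
    · fin_cases j'
      · exact (hpl (priv_aux _ _) (skel_sk _ _ _ _ _)).trans rfl
      all_goals exact (hpl (priv_aux _ _) (Or.inl (priv_aux _ _))).trans rfl
    · fin_cases j'
      · exact (hpl (priv_aux _ _) (skel_sk _ _ _ _ _)).trans (cval_leaf _ _).2.2.2
      all_goals exact (hpl (priv_aux _ _) (Or.inl (priv_aux _ _))).trans rfl

end Crest.Agent.OM
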