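import Crest.Agent.Lib_helper58_OMKey

set_option autoImplicit false

namespace Crest.Agent.OM

namespace CoreLab

theorem cmp_symm : ∀ {n : ℕ} (x y : CoreLab n), x.cmp y = y.cmp x
  | _, leaf, leaf => rfl
  | _, br _ _, br _ _ => rfl
  | _, br _ _, ch _ _ => rfl
  | _, ch _ _, br _ _ => rfl
  | _, ch b x, ch b' y => by
      simp only [cmp]
      rw [cmp_symm x y]
      cases b <;> cases b' <;> rfl

theorem cmp_self : ∀ {n : ℕ} (x : CoreLab n), x.cmp x = true
  | _, leaf => rfl
  | _, br _ _ => rfl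
  | _, ch b x => by simp [cmp, cmp_self x]

theorem lev_le : ∀ {n : ℕ} (x : CoreLab n), x.lev ≤ n
  | _, leaf => le_refl _
  | _, br _ _ => Nat.zero_le _
  | _, ch _ x => Nat.succ_le_succ (lev_le x)

/-- a label of depth `0` is comparable to everything -/
theorem cmp_of_lev_zero : ∀ {n : ℕ} (x y : CoreLab n), y.lev = 0 → x.cmp y = true
  | _, leaf, leaf, _ => rfl
  | _, br _ _, _, _ => rfl
  | _, ch _ _, br _ _, _ => rfl
  | _, ch _ _, ch _ _, h => by simp [lev] at h

theorem pos_ch_lt_ch {n : ℕ} (b b' : Bool) (x y : CoreLab n) :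
    (ch b x).pos < (ch b' y).pos ↔ (b.toNat < b'.toNat ∨ (b = b' ∧ x.pos < y.pos)) := by
  have h1 := pos_lt x
  have h2 := pos_lt y
  have h3 : 0 < 2 ^ (n + 1) := by positivity
  cases b <;> cases b' <;> simp only [pos, Bool.toNat_false, Bool.toNat_true] <;> simp <;> omega

theorem pos_br_lt_ch {n : ℕ} (a : Fin 3) (tw : Fin (2 ^ (n + 1))) (b : Bool) (x : CoreLab n) :
    (br a tw).pos < (ch b x).pos ↔ a.val ≤ b.toNat := by
  have h1 := pos_lt x
  have h2 := tw.isLt
  have ha := a.isLt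
  have : a.val = 0 ∨ a.val = 1 ∨ a.val = 2 := by omega
  rcases this with h | h | h <;> cases b <;>
    simp only [pos, h, Bool.toNat_false, Bool.toNat_true] <;> omega

theorem pos_ch_lt_br {n : ℕ} (a : Fin 3) (tw : Fin (2 ^ (n + 1))) (b : Bool) (x : CoreLab n) :
    (ch b x).pos < (br a tw).pos ↔ b.toNat < a.val := by
  have h1 := pos_lt x
  have h2 := tw.isLt
  have ha := a.isLt
  have : a.val = 0 ∨ a.val = 1 ∨ a.val = 2 := by omega
  rcases this with h | h | h <;> cases b <;>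
    simp only [pos, h, Bool.toNat_false, Bool.toNat_true] <;> omega

/-- **L1**: the comparability matrix in the bracket layout contains no `[[0,1],[1,0]]`. -/
theorem no_J : ∀ {n : ℕ} (x x' y y' : CoreLab n), x.pos < x'.pos → y.pos < y'.pos →
    x.cmp y = false → x.cmp y' = true → x'.cmp y = true → x'.cmp y' = false → False
  | _, leaf, _, leaf, _, _, _, h, _, _, _ => by simp [cmp] at h
  | _, br _ _, _, _, _, _, _, h, _, _, _ => by simp [cmp] at h
  | _, ch _ _, _, br _ _, _, _, _, h, _, _, _ => by simp [cmp] at h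
  | _, ch _ _, br _ _, ch _ _, _, _, _, _, _, _, h => by simp [cmp] at h
  | _, ch _ _, ch _ _, ch _ _, br _ _, _, _, _, _, _, h => by simp [cmp] at h
  | _, ch b1 x, ch b2 x', ch b3 y, ch b4 y', hx, hy, h1, h2, h3, h4 => by
      rw [pos_ch_lt_ch] at hx hy
      simp only [cmp, Bool.and_eq_true, beq_iff_eq] at h2 h3
      obtain ⟨e1, h2⟩ := h2
      obtain ⟨e2, h3⟩ := h3
      subst e1 e2
      have hb : b1 = b2 := by
        cases b1 <;> cases b2 <;> simp at hx hy ⊢
      subst hb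
      simp only [cmp, beq_self_eq_true, Bool.true_and] at h1 h4
      have hx' : x.pos < x'.pos := by simpa using hx
      have hy' : y.pos < y'.pos := by simpa using hy
      exact no_J x x' y y' hx' hy' h1 h2 h3 h4

/-- membership of a bracket in `sg` (`false = L = {0,1}`, `true = R = {1,2}`) -/
def inSg (sg : Bool) (a : Fin 3) : Prop := if sg then 1 ≤ a.val else a.val ≤ 1

/-- **Main case**: `r1, r2, c1, c2` brackets in `sg` at depth `k` of one node, `r` and `c` strictly
between them and deeper, `c` at depth exactly `k+1`: then `r ~ c`. -/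
theorem main_case : ∀ {n : ℕ} (k : ℕ) (sg : Bool) (r1 r r2 c1 c c2 : CoreLab n),
    r1.lev = k → r2.lev = k → c1.lev = k → c2.lev = k →
    inSg sg r1.brk → inSg sg r2.brk → inSg sg c1.brk → inSg sg c2.brk →
    r1.pos < r.pos → r.pos < r2.pos → c1.pos < c.pos → c.pos < c2.pos →
    r1.cmp c1 = true → r2.cmp c1 = true → r1.cmp c2 = true → r.cmp c1 = true → r1.cmp c = true →
    k < r.lev → c.lev = k + 1 → r.cmp c = true
  | _, _, _, _, _, _, _, leaf, _, _, _, _, _, _, _, _, _, _, _, _, _, _, _, _, _, _, _, h => by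
      simp [lev] at h
  | _, _, _, _, _, _, _, br _ _, _, _, _, _, _, _, _, _, _, _, _, _, _, _, _, _, _, _, _, h => by
      simp [lev] at h
  | _, _, _, _, br _ _, _, _, ch _ _, _, _, _, _, _, _, _, _, _, _, _, _, _, _, _, _, _, _, h, _ => by
      simp [lev] at h
  | _, 0, sg, br a1 t1, ch b x, br a2 t2, br d1 u1, ch b' y, br d2 u2, _, _, _, _, s1, s2, s3, s4,
      o1, o2, o3, o4, _, _, _, _, _, _, hc => by
      rw [pos_br_lt_ch] at o1 o3
      rw [pos_ch_lt_br] at o2 o4
      simp only [lev, zero_add, Nat.add_eq_right] at hc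
      simp only [brk, inSg] at s1 s2 s3 s4
      have hb : b = b' := by
        cases sg <;> cases b <;> cases b' <;> simp at * <;> omega
      subst hb
      simp only [cmp, beq_self_eq_true, Bool.true_and]
      exact cmp_of_lev_zero x y hc
  | _, 0, _, ch _ _, _, _, _, _, _, h, _, _, _, _, _, _, _, _, _, _, _, _, _, _, _, _, _, _ => by
      simp [lev] at h
  | _, 0, _, _, _, ch _ _, _, _, _, _, h, _, _, _, _, _, _, _, _, _, _, _, _, _, _, _, _, _ => by
      simp [lev] at h
  | _, 0, _, _, _, _, ch _ _, _, _, _, _, h, _, _, _, _, _, _, _, _, _, _, _, _, _, _, _, _ => by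
      simp [lev] at h
  | _, 0, _, _, _, _, _, _, ch _ _, _, _, _, h, _, _, _, _, _, _, _, _, _, _, _, _, _, _, _ => by
      simp [lev] at h
  | _, k + 1, _, br _ _, _, _, _, _, _, h, _, _, _, _, _, _, _, _, _, _, _, _, _, _, _, _, _, _ => by
      simp [lev] at h
  | _, k + 1, _, _, _, br _ _, _, _, _, _, h, _, _, _, _, _, _, _, _, _, _, _, _, _, _, _, _, _ => by
      simp [lev] at h
  | _, k + 1, _, _, _, _, br _ _, _, _, _, _, h, _, _, _, _, _, _, _, _, _, _, _, _, _, _, _, _ => by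
      simp [lev] at h
  | _, k + 1, _, _, _, _, _, _, br _ _, _, _, _, h, _, _, _, _, _, _, _, _, _, _, _, _, _, _, _ => by
      simp [lev] at h
  | _, k + 1, sg, ch e1 r1, ch e r, ch e2 r2, ch f1 c1, ch f c, ch f2 c2, l1, l2, l3, l4,
      s1, s2, s3, s4, o1, o2, o3, o4, m1, m2, m3, m4, m5, hr, hc => by
      simp only [cmp, Bool.and_eq_true, beq_iff_eq] at m1 m2 m3 m4 m5
      obtain ⟨q1, m1⟩ := m1
      obtain ⟨q2, m2⟩ := m2
      obtain ⟨q3, m3⟩ := m3
      obtain ⟨q4, m4⟩ := m4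
      obtain ⟨q5, m5⟩ := m5
      subst q1 q2 q3 q4 q5
      rw [pos_ch_lt_ch] at o1 o2 o3 o4
      simp only [lt_self_iff_false, true_and, false_or] at o1 o2 o3 o4
      simp only [lev, Nat.add_right_cancel_iff, Nat.add_lt_add_iff_right] at l1 l2 l3 l4 hr hc
      simp only [brk] at s1 s2 s3 s4
      simp only [cmp, beq_self_eq_true, Bool.true_and]
      exact main_case k sg r1 r r2 c1 c c2 l1 l2 l3 l4 s1 s2 s3 s4 o1 o2 o3 o4 m1 m2 m3 m4 m5 hr hc

/-- `no_J` in the form requested by helper69 -/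
theorem jfree {n : ℕ} (x y z w : CoreLab n) (hxy : x.pos < y.pos) (hzw : z.pos < w.pos)
    (h1 : x.cmp z = false) (h2 : x.cmp w = true) (h3 : y.cmp z = true) : y.cmp w = true := by
  by_contra hcon
  exact no_J x y z w hxy hzw h1 h2 h3 (by simpa using hcon)

/-- `main_case` in the form requested by helper69 -/
theorem main_case' {n : ℕ} (r1 r r2 c1 c c2 : CoreLab n) (k : ℕ) (e1 : r1.lev = k) (e2 : r2.lev = k)
    (e3 : c1.lev = k) (e4 : c2.lev = k) (o1 : r1.pos < r.pos) (o2 : r.pos < r2.pos)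
    (o3 : c1.pos < c.pos) (o4 : c.pos < c2.pos)
    (hsg : (r1.brk.val ≤ 1 ∧ r2.brk.val ≤ 1 ∧ c1.brk.val ≤ 1 ∧ c2.brk.val ≤ 1) ∨
      (1 ≤ r1.brk.val ∧ 1 ≤ r2.brk.val ∧ 1 ≤ c1.brk.val ∧ 1 ≤ c2.brk.val))
    (hr : k + 1 ≤ r.lev) (hc : k + 1 ≤ c.lev) (hor : r.lev = k + 1 ∨ c.lev = k + 1)
    (v11 : r1.cmp c1 = true) (v12 : r1.cmp c = true) (v13 : r1.cmp c2 = true)
    (v21 : r.cmp c1 = true) (_v23 : r.cmp c2 = true) (v31 : r2.cmp c1 = true)
    (_v32 : r2.cmp c = true) (_v33 : r2.cmp c2 = true) : r.cmp c = true := by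
  obtain ⟨sg, s1, s2, s3, s4⟩ : ∃ sg, inSg sg r1.brk ∧ inSg sg r2.brk ∧ inSg sg c1.brk ∧
      inSg sg c2.brk := by
    rcases hsg with ⟨a, b, c, d⟩ | ⟨a, b, c, d⟩
    · exact ⟨false, by simpa [inSg] using a, by simpa [inSg] using b, by simpa [inSg] using c,
        by simpa [inSg] using d⟩
    · exact ⟨true, by simpa [inSg] using a, by simpa [inSg] using b, by simpa [inSg] using c,
        by simpa [inSg] using d⟩
  rcases hor with h | h
  · rw [cmp_symm]
    exact main_case k sg c1 c c2 r1 r r2 e3 e4 e1 e2 s3 s4 s1 s2 o3 o4 o1 o2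
      (by rw [cmp_symm]; exact v11) (by rw [cmp_symm]; exact v13) (by rw [cmp_symm]; exact v31)
      (by rw [cmp_symm]; exact v12) (by rw [cmp_symm]; exact v21) hc h
  · exact main_case k sg r1 r r2 c1 c c2 e1 e2 e3 e4 s1 s2 s3 s4 o1 o2 o3 o4 v11 v31 v13 v21 v12 hr h

/-- two comparable leaves are equal -/
theorem leaf_eq : ∀ {n : ℕ} (x y : CoreLab n), x.lev = n → y.lev = n → x.cmp y = true → x = y
  | _, leaf, leaf, _, _, _ => rfl
  | _, br _ _, _, h, _, _ => by simp [lev] at h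
  | _, ch _ _, br _ _, _, h, _ => by simp [lev] at h
  | _, ch b x, ch b' y, hx, hy, hxy => by
      simp only [cmp, Bool.and_eq_true, beq_iff_eq] at hxy
      simp only [lev, Nat.add_right_cancel_iff] at hx hy
      rw [hxy.1, leaf_eq x y hx hy hxy.2]

end CoreLab

open CoreLab

theorem lev_pth : ∀ (n l j : ℕ) (a : Fin 3), (pth n l j a).lev = min j n
  | 0, _, _, _ => by simp [pth, lev]
  | n + 1, l, 0, a => by simp [pth, lev]
  | n + 1, l, j + 1, a => by simp [pth, lev, lev_pth n l j a]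

theorem brk_pth : ∀ (n l j : ℕ) (a : Fin 3), j < n → (pth n l j a).brk = a
  | 0, _, _, _, h => by omega
  | n + 1, l, 0, a, _ => by simp [pth, brk]
  | n + 1, l, j + 1, a, h => by simp [pth, brk, brk_pth n l j a (by omega)]

theorem cmp_pth : ∀ (n l j j' : ℕ) (a a' : Fin 3), (pth n l j a).cmp (pth n l j' a') = true
  | 0, _, _, _, _, _ => by simp [pth, CoreLab.cmp]
  | n + 1, l, 0, _, a, a' => by simp [pth, CoreLab.cmp]
  | n + 1, l, j + 1, 0, a, a' => by simp [pth, CoreLab.cmp]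
  | n + 1, l, j + 1, j' + 1, a, a' => by simp [pth, CoreLab.cmp, cmp_pth n l j j' a a']

theorem mod_succ_split (n l l' : ℕ) (h : l % 2 ^ (n + 1) = l' % 2 ^ (n + 1)) :
    l % 2 ^ n = l' % 2 ^ n ∧ l / 2 ^ n % 2 = l' / 2 ^ n % 2 := by
  rw [Nat.mod_pow_succ, Nat.mod_pow_succ] at h
  have h1 : l % 2 ^ n < 2 ^ n := Nat.mod_lt _ (by positivity)
  have h2 : l' % 2 ^ n < 2 ^ n := Nat.mod_lt _ (by positivity)
  generalize l % 2 ^ n = u at *
  generalize l' % 2 ^ n = u' at *
  generalize 2 ^ n = w at *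
  rcases Nat.mod_two_eq_zero_or_one (l / w) with e | e <;>
    rcases Nat.mod_two_eq_zero_or_one (l' / w) with e' | e' <;>
    rw [e, e'] at h ⊢ <;> simp only [Nat.mul_zero, Nat.mul_one, Nat.add_zero] at h <;> omega

theorem pth_congr : ∀ (n l l' j : ℕ) (a : Fin 3), l % 2 ^ n = l' % 2 ^ n →
    pth n l j a = pth n l' j a
  | 0, _, _, _, _, _ => rfl
  | n + 1, l, l', 0, a, h => by simp only [pth, h]
  | n + 1, l, l', j + 1, a, h => by
      obtain ⟨h1, h2⟩ := mod_succ_split n l l' h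
      simp only [pth, h2, pth_congr n l l' j a h1]

/-- direction of the path to `l` at the node of depth `j` in a tree of height `n` -/
def dir (n l j : ℕ) : Bool := decide (l / 2 ^ (n - j - 1) % 2 = 1)

/-- root version (the root brackets may have another twin index `l0`) -/
theorem pos_pth_between_root (n l l0 i : ℕ) (a a1 a2 : Fin 3) (hn : 0 < n) (hi : 0 < i)
    (h1 : a1.val = (dir n l 0).toNat) (h2 : a2.val = (dir n l 0).toNat + 1) :
    (pth n l0 0 a1).pos < (pth n l i a).pos ∧ (pth n l i a).pos < (pth n l0 0 a2).pos := by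
  obtain ⟨n, rfl⟩ : ∃ m, n = m + 1 := ⟨n - 1, by omega⟩
  obtain ⟨i, rfl⟩ : ∃ m, i = m + 1 := ⟨i - 1, by omega⟩
  simp only [pth]
  rw [pos_br_lt_ch, pos_ch_lt_br]
  simp only [dir, Nat.sub_zero, Nat.add_sub_cancel] at h1 h2
  omega

/-- a deeper path label lies strictly between the two brackets around the path child -/
theorem pos_pth_between : ∀ (n l j i : ℕ) (a a1 a2 : Fin 3), j < n → j < i →
    a1.val = (dir n l j).toNat → a2.val = (dir n l j).toNat + 1 →
    (pth n l j a1).pos < (pth n l i a).pos ∧ (pth n l i a).pos < (pth n l j a2).pos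
  | 0, _, _, _, _, _, _, h, _, _, _ => by omega
  | n + 1, l, 0, i, a, a1, a2, _, hi, h1, h2 =>
      pos_pth_between_root (n + 1) l l i a a1 a2 (by omega) hi h1 h2
  | n + 1, l, j + 1, 0, _, _, _, _, h, _, _ => by omega
  | n + 1, l, j + 1, i + 1, a, a1, a2, hj, hi, h1, h2 => by
      have hd : dir (n + 1) l (j + 1) = dir n l j := by
        simp only [dir]
        have : n + 1 - (j + 1) - 1 = n - j - 1 := by omega
        rw [this]
      rw [hd] at h1 h2
      have := pos_pth_between n l j i a a1 a2 (by omega) (by omega) h1 h2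
      simp only [pth]
      rw [pos_ch_lt_ch, pos_ch_lt_ch]
      exact ⟨Or.inr ⟨rfl, this.1⟩, Or.inr ⟨rfl, this.2⟩⟩

/-- every leaf is `pth n l n 0` -/
theorem exists_pth_of_lev_eq : ∀ {n : ℕ} (x : CoreLab n), x.lev = n →
    ∃ l : Fin (2 ^ n), pth n l.val n 0 = x
  | _, leaf, _ => ⟨⟨0, by simp⟩, rfl⟩
  | _, br _ _, h => by simp [lev] at h
  | n + 1, ch b x, h => by
      simp only [lev, Nat.add_right_cancel_iff] at h
      obtain ⟨l, hl⟩ := exists_pth_of_lev_eq x h
      have hl2 := l.isLt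
      refine ⟨⟨b.toNat * 2 ^ n + l.val, ?_⟩, ?_⟩
      · rw [pow_succ]
        cases b <;> simp <;> omega
      · have h1 : (b.toNat * 2 ^ n + l.val) % 2 ^ n = l.val % 2 ^ n := by
          rw [Nat.mul_add_mod_self_right]
        have h2 : (b.toNat * 2 ^ n + l.val) / 2 ^ n = b.toNat := by
          rw [Nat.add_comm, Nat.add_mul_div_right _ _ (by positivity), Nat.div_eq_of_lt hl2]
          simp
        simp only [pth, h2, pth_congr n _ _ n 0 h1, hl]
        cases b <;> simp

/-- alias in the namespace requested by helper69 -/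
theorem CoreLab.exists_pth {n : ℕ} (x : CoreLab n) (hx : x.lev = n) :
    ∃ l : Fin (2 ^ n), pth n l.val n 0 = x := exists_pth_of_lev_eq x hx

end Crest.Agent.OM
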