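import Crest.Agent.Lib_helper58_OMDefs

set_option autoImplicit false

namespace Crest.Agent.OM

theorem sz_eq (n : ℕ) : sz n = (3 * n + 1) * 2 ^ n := by
  induction n with
  | zero => simp [sz]
  | succ n ih => rw [sz, ih]; ring

theorem sz_pos (n : ℕ) : 0 < sz n := by
  rw [sz_eq]; positivity

namespace CoreLab

theorem pos_lt : ∀ {n : ℕ} (x : CoreLab n), x.pos < sz n
  | _, leaf => by simp [pos, sz]
  | n + 1, br a tw => by
      have h1 := tw.isLt
      have h2 := a.isLt
      have h3 : a.val * (2 ^ (n + 1) + sz n) ≤ 2 * (2 ^ (n + 1) + sz n) :=
        Nat.mul_le_mul_right _ (by omega)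
      simp only [pos, sz]
      omega
  | n + 1, ch b x => by
      have h1 := pos_lt x
      have h2 : 0 < 2 ^ (n + 1) := by positivity
      cases b <;> simp only [pos, sz, Bool.toNat_false, Bool.toNat_true] <;> omega

theorem pos_injective : ∀ {n : ℕ} (x y : CoreLab n), x.pos = y.pos → x = y
  | _, leaf, leaf, _ => rfl
  | n + 1, br a tw, br a' tw', hxy => by
      have h1 := tw.isLt
      have h1' := tw'.isLt
      simp only [pos] at hxy
      have hs := sz_pos n
      have ha : a.val = a'.val := by
        rcases Nat.lt_trichotomy a.val a'.val with h | h | h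
        · exfalso
          have : (a.val + 1) * (2 ^ (n + 1) + sz n) ≤ a'.val * (2 ^ (n + 1) + sz n) :=
            Nat.mul_le_mul_right _ h
          rw [Nat.add_mul] at this
          omega
        · exact h
        · exfalso
          have : (a'.val + 1) * (2 ^ (n + 1) + sz n) ≤ a.val * (2 ^ (n + 1) + sz n) :=
            Nat.mul_le_mul_right _ h
          rw [Nat.add_mul] at this
          omega
      have ha' : a = a' := Fin.ext ha
      subst ha'
      have : tw = tw' := Fin.ext (by omega)
      subst this
      rfl
  | n + 1, br a tw, ch b x, hxy => by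
      exfalso
      have h1 := tw.isLt
      have h2 := pos_lt x
      simp only [pos] at hxy
      have ha := a.isLt
      have : a.val = 0 ∨ a.val = 1 ∨ a.val = 2 := by omega
      rcases this with h | h | h <;> rw [h] at hxy <;> cases b <;>
        simp only [Bool.toNat_false, Bool.toNat_true] at hxy <;> omega
  | n + 1, ch b x, br a tw, hxy => by
      exfalso
      have h1 := tw.isLt
      have h2 := pos_lt x
      simp only [pos] at hxy
      have ha := a.isLt
      have : a.val = 0 ∨ a.val = 1 ∨ a.val = 2 := by omega
      rcases this with h | h | h <;> rw [h] at hxy <;> cases b <;>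
        simp only [Bool.toNat_false, Bool.toNat_true] at hxy <;> omega
  | n + 1, ch b x, ch b' y, hxy => by
      have h2 := pos_lt x
      have h2' := pos_lt y
      simp only [pos] at hxy
      have h3 : 0 < 2 ^ (n + 1) := by positivity
      cases b <;> cases b' <;> simp only [Bool.toNat_false, Bool.toNat_true] at hxy
      · rw [pos_injective x y (by omega)]
      · omega
      · omega
      · rw [pos_injective x y (by omega)]

end CoreLab

theorem Aux.rank_injective {h : ℕ} (c d : Aux h) (hcd : c.rank = d.rank) : c = d := by
  cases c <;> cases d <;> simp only [Aux.rank] at hcd <;> try rfl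
  all_goals try (exfalso; omega)
  case T.T x j y j' =>
    have : j = j' := Fin.ext (by cases x <;> cases y <;> simp at hcd <;> omega)
    subst this
    have : x = y := by cases x <;> cases y <;> simp at hcd <;> rfl
    subst this
    rfl
  case T.S x j j' sg => exfalso; cases x <;> cases sg <;> simp at hcd <;> omega
  case T.Tb x j => exfalso; have := j.isLt; cases x <;> simp at hcd <;> omega
  case T.Sb x j => exfalso; have := j.isLt; cases x <;> simp at hcd <;> omega
  case T.zero x j i => exfalso; have := j.isLt; cases x <;> simp at hcd <;> omega
  case S.T j sg x j' => exfalso; cases x <;> cases sg <;> simp at hcd <;> omega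
  case S.S j sg j' sg' =>
    have : j = j' := Fin.ext (by cases sg <;> cases sg' <;> simp at hcd <;> omega)
    subst this
    have : sg = sg' := by cases sg <;> cases sg' <;> simp at hcd <;> rfl
    subst this
    rfl
  case S.Tb j sg => exfalso; have := j.isLt; cases sg <;> simp at hcd <;> omega
  case S.Sb j sg => exfalso; have := j.isLt; cases sg <;> simp at hcd <;> omega
  case S.zero j sg i => exfalso; have := j.isLt; cases sg <;> simp at hcd <;> omega
  case Tb.T x j => exfalso; have := j.isLt; cases x <;> simp at hcd <;> omega
  case Tb.S j sg => exfalso; have := j.isLt; cases sg <;> simp at hcd <;> omega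
  case Sb.T x j => exfalso; have := j.isLt; cases x <;> simp at hcd <;> omega
  case Sb.S j sg => exfalso; have := j.isLt; cases sg <;> simp at hcd <;> omega
  case zero.T i x j => exfalso; have := j.isLt; cases x <;> simp at hcd <;> omega
  case zero.S i j sg => exfalso; have := j.isLt; cases sg <;> simp at hcd <;> omega
  case zero.zero i i' =>
    have : i = i' := Fin.ext (by omega)
    subst this
    rfl

theorem Aux.rank_lt {h : ℕ} (c : Aux h) : c.rank < 4 * h + 65 := by
  cases c <;> simp only [Aux.rank] <;> try omega
  case T x j => have := j.isLt; cases x <;> simp <;> omega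
  case S j sg => have := j.isLt; cases sg <;> simp <;> omega

theorem key_injective (h : ℕ) : Function.Injective (Lab.key : Lab h → ℕ) := by
  intro x y hxy
  cases x with
  | core x =>
    cases y with
    | core y => simp only [Lab.key] at hxy; rw [CoreLab.pos_injective x y hxy]
    | aux d i' =>
      exfalso
      simp only [Lab.key] at hxy
      have := CoreLab.pos_lt x
      omega
  | aux c i =>
    cases y with
    | core y =>
      exfalso
      simp only [Lab.key] at hxy
      have := CoreLab.pos_lt y
      omega
    | aux d i' =>
      simp only [Lab.key] at hxy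
      have h1 := i.isLt
      have h2 := i'.isLt
      have hr : c.rank = d.rank := by
        rcases Nat.lt_trichotomy c.rank d.rank with hlt | heq | hlt
        · exfalso
          have : (c.rank + 1) * 2 ^ h ≤ d.rank * 2 ^ h := Nat.mul_le_mul_right _ hlt
          rw [Nat.add_mul] at this
          omega
        · exact heq
        · exfalso
          have : (d.rank + 1) * 2 ^ h ≤ c.rank * 2 ^ h := Nat.mul_le_mul_right _ hlt
          rw [Nat.add_mul] at this
          omega
      have hc := Aux.rank_injective c d hr
      subst hc
      have : i = i' := Fin.ext (by omega)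
      subst this
      rfl

theorem key_lt (h : ℕ) (hh : 1 ≤ h) (x : Lab h) : x.key < (386 * h + 2) * 2 ^ h := by
  have hbig : sz h + (4 * h + 65) * 2 ^ h ≤ (386 * h + 2) * 2 ^ h := by
    rw [sz_eq, ← Nat.add_mul]
    exact Nat.mul_le_mul_right _ (by omega)
  cases x with
  | core x =>
    have := CoreLab.pos_lt x
    have h2 : 0 < (4 * h + 65) * 2 ^ h := by positivity
    simp only [Lab.key]
    omega
  | aux c i =>
    have h1 := i.isLt
    have h2 : (c.rank + 1) * 2 ^ h ≤ (4 * h + 65) * 2 ^ h := Nat.mul_le_mul_right _ (Aux.rank_lt c)
    rw [Nat.add_mul] at h2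
    simp only [Lab.key]
    omega

end Crest.Agent.OM
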