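import Mathlib

/-!
Abstract classification of the copies of the 5×5 pattern `Hp` (S0066, construction of helper7).
-/

set_option autoImplicit false

namespace Crest.Agent.OMCount

/-- What the classification needs to know about a label. All parameters are natural numbers so that
`omega` can do the arithmetic. `T 0 k = TI_k`, `T 1 k = TII_k`, `S j 0 = S_{j,L}`, `S j 1 = S_{j,R}`;
brackets are `0,1,2`. -/
inductive View
  | core (lev : ℕ) (br : ℕ)
  | Z | Y
  | T (x : ℕ) (k : ℕ)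
  | S (j : ℕ) (sg : ℕ)
  | Tb | Sb | zero

open View

/-- Well-formed views. -/
def Valid (h : ℕ) : View → Prop
  | core i a => i ≤ h ∧ a ≤ 2
  | T x k => x ≤ 1 ∧ 1 ≤ k ∧ k ≤ h
  | S j sg => j < h ∧ sg ≤ 1
  | _ => True

/-- Position of the class in the layout (all core classes are merged into `0`). -/
def rank (h : ℕ) : View → ℕ
  | core _ _ => 0
  | Z => 1
  | Y => 2
  | T x k => 4 * k + x
  | S j sg => 4 * j + 6 + sg
  | Tb => 4 * h + 8
  | Sb => 4 * h + 9
  | zero => 4 * h + 10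

/-- Row of a core view (core–core is a dummy). -/
def avalCore (h i a : ℕ) : View → Bool
  | core _ _ => false
  | Z => decide (i = h)
  | Y => decide (i = h)
  | T x k => decide ((x = 0 ∧ i = k) ∨ (x ≠ 0 ∧ k ≤ i))
  | S j sg => decide (i = j ∧ sg ≤ a ∧ a ≤ sg + 1)
  | Tb => false
  | Sb => decide (i = h)
  | zero => false

def avalZ (h : ℕ) : View → Bool
  | core i _ => decide (i = h)
  | Z => false | Y => true | Tb => true | Sb => false
  | T _ _ => false | S _ _ => false | zero => false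

def avalY (h : ℕ) : View → Bool
  | core i _ => decide (i = h)
  | Z => true | Y => true | Tb => false | Sb => true
  | T _ _ => false | S _ _ => false | zero => false

def avalTb : View → Bool
  | core _ _ => false
  | Z => true | Y => false | Tb => true | Sb => true
  | T _ _ => false | S _ _ => false | zero => false

def avalSb (h : ℕ) : View → Bool
  | core i _ => decide (i = h)
  | Z => false | Y => true | Tb => true | Sb => true
  | T _ _ => false | S _ _ => false | zero => false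

def avalT (x k : ℕ) : View → Bool
  | core i _ => decide ((x = 0 ∧ i = k) ∨ (x ≠ 0 ∧ k ≤ i))
  | T y k' => decide (k = k' ∧ x ≠ y)
  | S j _ => decide (k = j + 1)
  | Z => false | Y => false | Tb => false | Sb => false | zero => false

def avalS (j sg : ℕ) : View → Bool
  | core i a => decide (i = j ∧ sg ≤ a ∧ a ≤ sg + 1)
  | T _ k => decide (k = j + 1)
  | S j' sg' => decide (j = j' ∧ sg = sg')
  | Z => false | Y => false | Tb => false | Sb => false | zero => false

/-- The value of the matrix on a pair of views, not both core. -/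
def aval (h : ℕ) : View → View → Bool
  | core i a => avalCore h i a
  | Z => avalZ h
  | Y => avalY h
  | T x k => avalT x k
  | S j sg => avalS j sg
  | Tb => avalTb
  | Sb => avalSb h
  | zero => fun _ => false

macro "vsimp" loc:(Lean.Parser.Tactic.location)? : tactic =>
  `(tactic| simp only [aval, avalCore, avalZ, avalY, avalT, avalS, avalTb, avalSb, rank, Valid,
      decide_eq_true_eq, decide_eq_false_iff_not,
      Bool.false_eq_true, Bool.true_eq_false, ne_eq, not_true_eq_false, reduceCtorEq,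
      not_false_eq_true] $[$loc]?)

/-- `p ≥ 4` is impossible. -/
theorem L2 (h i1 a1 i a it at_ : ℕ) (vc vt vs : View)
    (hc : rank h vc ≠ 0) (ht : rank h vt ≠ 0) (hs : rank h vs ≠ 0)
    (wc : Valid h vc) (wt : Valid h vt) (ws : Valid h vs)
    (o1 : rank h vc ≤ rank h vt) (o2 : rank h vt ≤ rank h vs)
    (e11 : aval h (core i1 a1) vc = true) (e12 : aval h (core i1 a1) vt = false)
    (e13 : aval h (core i1 a1) vs = true)
    (e21 : aval h (core i a) vc = true) (e22 : aval h (core i a) vt = true)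
    (e23 : aval h (core i a) vs = false)
    (e31 : aval h (core it at_) vc = false) (e32 : aval h (core it at_) vt = true)
    (e33 : aval h (core it at_) vs = true) : False := by
  cases vs <;> vsimp at hs ws e13 e23 e33 o2 <;>
  cases vt <;> vsimp at ht wt e12 e22 e32 o1 o2 <;>
  cases vc <;> vsimp at hc wc e11 e21 e31 o1 <;>
  omega

/-- `p = 3`: only the main case survives. -/
theorem L3 (h i1 a1 i a i2 a2 : ℕ) (vt' vs' vc1 vc vc2 vt vs : View)
    (ht' : rank h vt' ≠ 0) (hs' : rank h vs' ≠ 0) (ht : rank h vt ≠ 0) (hs : rank h vs ≠ 0)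
    (wt' : Valid h vt') (ws' : Valid h vs') (wt : Valid h vt) (ws : Valid h vs)
    (wc1 : Valid h vc1) (wc : Valid h vc) (wc2 : Valid h vc2)
    (o' : rank h vt' ≤ rank h vs')
    (o1 : rank h vc1 ≤ rank h vc) (o2 : rank h vc ≤ rank h vc2) (o3 : rank h vc2 ≤ rank h vt)
    (o4 : rank h vt ≤ rank h vs)
    (e13 : rank h vc2 ≠ 0 → aval h (core i1 a1) vc2 = true)
    (e14 : aval h (core i1 a1) vt = false) (e15 : aval h (core i1 a1) vs = true)
    (e24 : aval h (core i a) vt = true) (e25 : aval h (core i a) vs = false)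
    (e34 : aval h (core i2 a2) vt = false) (e35 : aval h (core i2 a2) vs = true)
    (e41 : aval h vt' vc1 = false) (e42 : aval h vt' vc = true) (e43 : aval h vt' vc2 = false)
    (e44 : aval h vt' vt = true) (e45 : aval h vt' vs = true)
    (e51 : aval h vs' vc1 = true) (e52 : aval h vs' vc = false) (e53 : aval h vs' vc2 = true)
    (e54 : aval h vs' vt = true) (e55 : aval h vs' vs = true)
    (hmain : ∀ k1 b1 k2 b2 i' b, vc1 = core k1 b1 → vc2 = core k2 b2 → vc = core i' b →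
      k1 = i1 → k2 = i1 → i2 = i1 →
      ((a1 ≤ 1 ∧ a2 ≤ 1 ∧ b1 ≤ 1 ∧ b2 ≤ 1) ∨ (1 ≤ a1 ∧ 1 ≤ a2 ∧ 1 ≤ b1 ∧ 1 ≤ b2)) →
      i1 + 1 ≤ i → i1 + 1 ≤ i' → (i = i1 + 1 ∨ i' = i1 + 1) → False) : False := by
  cases vs <;> vsimp at hs ws e15 e25 e35 o4 e45 e55 <;>
  cases vs' <;> vsimp at hs' ws' e55 o' e51 e52 e53 e54 <;>
  cases vt' <;> vsimp at ht' wt' e45 o' e41 e42 e43 e44 <;>
  cases vt <;> vsimp at ht wt e14 e24 e34 e44 e54 o3 o4 <;>
  (try omega) <;>
  cases vc1 <;> vsimp at wc1 e41 e51 o1 <;>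
  (try omega) <;>
  cases vc2 <;> vsimp at wc2 e13 e43 e53 o2 o3 <;>
  (try omega) <;>
  cases vc <;> vsimp at wc e42 e52 o1 o2 <;>
  (try omega)
  exact hmain _ _ _ _ _ _ rfl rfl rfl (by omega) (by omega) (by omega) (by omega) (by omega)
    (by omega) (by omega)

/-- `p, q ≤ 2`: only the Bottom copies survive. -/
theorem L4 (h : ℕ) (vr1 vr vr2 vt' vs' vc1 vc vc2 vt vs : View)
    (hr2 : rank h vr2 ≠ 0) (ht' : rank h vt' ≠ 0) (hs' : rank h vs' ≠ 0)
    (hc2 : rank h vc2 ≠ 0) (ht : rank h vt ≠ 0) (hs : rank h vs ≠ 0)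
    (wr2 : Valid h vr2) (wt' : Valid h vt') (ws' : Valid h vs')
    (wc2 : Valid h vc2) (wt : Valid h vt) (ws : Valid h vs)
    (p1 : rank h vr1 ≤ rank h vr) (p2 : rank h vr ≤ rank h vr2) (p3 : rank h vr2 ≤ rank h vt')
    (p4 : rank h vt' ≤ rank h vs')
    (o1 : rank h vc1 ≤ rank h vc) (o2 : rank h vc ≤ rank h vc2) (o3 : rank h vc2 ≤ rank h vt)
    (o4 : rank h vt ≤ rank h vs)
    (e15 : aval h vr1 vs = true) (e24 : aval h vr vt = true)
    (e33 : aval h vr2 vc2 = true) (e34 : aval h vr2 vt = false) (e35 : aval h vr2 vs = true)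
    (e42 : aval h vt' vc = true)
    (e43 : aval h vt' vc2 = false) (e44 : aval h vt' vt = true) (e45 : aval h vt' vs = true)
    (e51 : aval h vs' vc1 = true)
    (e53 : aval h vs' vc2 = true) (e54 : aval h vs' vt = true) (e55 : aval h vs' vs = true)
    (hfin : ∀ i a j b, vr1 = core i a → vc1 = core j b → i = h → j = h → False) : False := by
  cases vs' <;> vsimp at hs' ws' p4 e51 e53 e54 e55 <;>
  cases vs <;> vsimp at hs ws o4 e15 e35 e45 e55 <;>
  cases vt <;> vsimp at ht wt o3 o4 e24 e34 e44 e54 <;>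
  (try omega) <;>
  cases vc2 <;> vsimp at hc2 wc2 o2 o3 e33 e43 e53 <;>
  (try omega) <;>
  cases vt' <;> vsimp at ht' wt' p3 p4 e42 e43 e44 e45 <;>
  (try omega) <;>
  cases vr2 <;> vsimp at hr2 wr2 p2 p3 e33 e34 e35 <;>
  (try omega) <;>
  cases vr <;> vsimp at p1 p2 e24 <;>
  (try omega) <;>
  cases vc <;> vsimp at o1 o2 e42 <;>
  (try omega) <;>
  cases vr1 <;> vsimp at p1 e15 <;>
  (try omega) <;>
  cases vc1 <;> vsimp at o1 e51 <;>
  (try omega)
  exact hfin _ _ _ _ rfl rfl e15 e51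

theorem eq_core_of_rank {h : ℕ} {v : View} (w : Valid h v) (hr : rank h v = 0) :
    ∃ i a, v = core i a := by
  cases v <;> vsimp at w hr <;> first | omega | exact ⟨_, _, rfl⟩

/-- The 5×5 pattern (rows `r1 r r2 t' s'`, columns `c1 c c2 t s`). -/
def Hp : Fin 5 → Fin 5 → Bool :=
  ![![true, true, true, false, true],
    ![true, false, true, true, false],
    ![true, true, true, false, true],
    ![false, true, false, true, true],
    ![true, false, true, true, true]]

theorem Hp_symm : ∀ i j, Hp i j = Hp j i := by decide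

/-- The abstract data the classification of copies needs. -/
structure Sys (h : ℕ) (Lab : Type) where
  key : Lab → ℕ
  view : Lab → View
  val : Lab → Lab → Bool
  valid : ∀ x, Valid h (view x)
  mono : ∀ x y, key x < key y → rank h (view x) ≤ rank h (view y)
  symm : ∀ x y, val x y = val y x
  val_aux : ∀ x y, rank h (view x) ≠ 0 ∨ rank h (view y) ≠ 0 →
    val x y = aval h (view x) (view y)
  jfree : ∀ x y z w, rank h (view y) = 0 → rank h (view w) = 0 → key x < key y → key z < key w →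
    val x z = false → val x w = true → val y z = true → val y w = true
  main : ∀ r1 r r2 c1 c c2 k a1 a2 b1 b2 i a i' b,
    view r1 = core k a1 → view r2 = core k a2 → view c1 = core k b1 → view c2 = core k b2 →
    view r = core i a → view c = core i' b →
    key r1 < key r → key r < key r2 → key c1 < key c → key c < key c2 →
    ((a1 ≤ 1 ∧ a2 ≤ 1 ∧ b1 ≤ 1 ∧ b2 ≤ 1) ∨ (1 ≤ a1 ∧ 1 ≤ a2 ∧ 1 ≤ b1 ∧ 1 ≤ b2)) →
    k + 1 ≤ i → k + 1 ≤ i' → (i = k + 1 ∨ i' = k + 1) →
    val r1 c1 = true → val r1 c = true → val r1 c2 = true →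
    val r c1 = true → val r c2 = true →
    val r2 c1 = true → val r2 c = true → val r2 c2 = true → val r c = true
  leaf : ∀ x y a b, view x = core h a → view y = core h b → val x y = true → x = y

namespace Sys

variable {h : ℕ} {Lab : Type} (A : Sys h Lab)

theorem no_p3 (f g : Fin 5 → Lab) (hf : StrictMono (A.key ∘ f)) (hg : StrictMono (A.key ∘ g))
    (hfg : ∀ i j, A.val (f i) (g j) = Hp i j) (h2 : rank h (A.view (f 2)) = 0) : False := by
  have kf : ∀ i j : Fin 5, i < j → A.key (f i) < A.key (f j) := fun i j hij => hf hij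
  have kg : ∀ i j : Fin 5, i < j → A.key (g i) < A.key (g j) := fun i j hij => hg hij
  have mf : ∀ i j : Fin 5, i < j → rank h (A.view (f i)) ≤ rank h (A.view (f j)) :=
    fun i j hij => A.mono _ _ (kf i j hij)
  have mg : ∀ i j : Fin 5, i < j → rank h (A.view (g i)) ≤ rank h (A.view (g j)) :=
    fun i j hij => A.mono _ _ (kg i j hij)
  have hv : ∀ i j, (rank h (A.view (f i)) ≠ 0 ∨ rank h (A.view (g j)) ≠ 0) →
      aval h (A.view (f i)) (A.view (g j)) = Hp i j := fun i j hij => by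
    rw [← A.val_aux _ _ hij, hfg]
  have h1 : rank h (A.view (f 1)) = 0 := Nat.le_zero.mp (h2 ▸ mf 1 2 (by decide))
  have h0 : rank h (A.view (f 0)) = 0 := Nat.le_zero.mp (h2 ▸ mf 0 2 (by decide))
  obtain ⟨i1, a1, e0⟩ := eq_core_of_rank (A.valid _) h0
  obtain ⟨i, a, e1⟩ := eq_core_of_rank (A.valid _) h1
  obtain ⟨i2, a2, e2⟩ := eq_core_of_rank (A.valid _) h2
  have ht : rank h (A.view (g 3)) ≠ 0 := by
    intro h3
    have := A.jfree (f 1) (f 2) (g 1) (g 3) h2 h3 (kf 1 2 (by decide)) (kg 1 3 (by decide))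
      (hfg 1 1) (hfg 1 3) (hfg 2 1)
    rw [hfg 2 3] at this
    exact absurd this (by decide)
  have hs : rank h (A.view (g 4)) ≠ 0 := by
    have := mg 3 4 (by decide)
    omega
  by_cases h3 : rank h (A.view (f 3)) = 0
  · obtain ⟨it, at_, e3⟩ := eq_core_of_rank (A.valid _) h3
    have hc2 : rank h (A.view (g 2)) ≠ 0 := by
      intro hc
      have := A.jfree (f 1) (f 3) (g 1) (g 2) h3 hc (kf 1 3 (by decide)) (kg 1 2 (by decide))
        (hfg 1 1) (hfg 1 2) (hfg 3 1)
      rw [hfg 3 2] at this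
      exact absurd this (by decide)
    exact L2 h i1 a1 i a it at_ (A.view (g 2)) (A.view (g 3)) (A.view (g 4)) hc2 ht hs
      (A.valid _) (A.valid _) (A.valid _) (mg 2 3 (by decide)) (mg 3 4 (by decide))
      (e0 ▸ hv 0 2 (Or.inr hc2)) (e0 ▸ hv 0 3 (Or.inr ht)) (e0 ▸ hv 0 4 (Or.inr hs))
      (e1 ▸ hv 1 2 (Or.inr hc2)) (e1 ▸ hv 1 3 (Or.inr ht)) (e1 ▸ hv 1 4 (Or.inr hs))
      (e3 ▸ hv 3 2 (Or.inr hc2)) (e3 ▸ hv 3 3 (Or.inr ht)) (e3 ▸ hv 3 4 (Or.inr hs))
  · have h4 : rank h (A.view (f 4)) ≠ 0 := by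
      have := mf 3 4 (by decide)
      omega
    refine L3 h i1 a1 i a i2 a2 (A.view (f 3)) (A.view (f 4)) (A.view (g 0)) (A.view (g 1))
      (A.view (g 2)) (A.view (g 3)) (A.view (g 4)) h3 h4 ht hs
      (A.valid _) (A.valid _) (A.valid _) (A.valid _) (A.valid _) (A.valid _) (A.valid _)
      (mf 3 4 (by decide)) (mg 0 1 (by decide)) (mg 1 2 (by decide)) (mg 2 3 (by decide))
      (mg 3 4 (by decide))
      (fun hc => e0 ▸ hv 0 2 (Or.inr hc)) (e0 ▸ hv 0 3 (Or.inr ht)) (e0 ▸ hv 0 4 (Or.inr hs))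
      (e1 ▸ hv 1 3 (Or.inr ht)) (e1 ▸ hv 1 4 (Or.inr hs))
      (e2 ▸ hv 2 3 (Or.inr ht)) (e2 ▸ hv 2 4 (Or.inr hs))
      (hv 3 0 (Or.inl h3)) (hv 3 1 (Or.inl h3)) (hv 3 2 (Or.inl h3)) (hv 3 3 (Or.inl h3))
      (hv 3 4 (Or.inl h3))
      (hv 4 0 (Or.inl h4)) (hv 4 1 (Or.inl h4)) (hv 4 2 (Or.inl h4)) (hv 4 3 (Or.inl h4))
      (hv 4 4 (Or.inl h4)) ?_
    intro k1 b1 k2 b2 i' b ec1 ec2 ec hk1 hk2 hi2 hsg hi hi' hor
    subst hk1 hk2 hi2
    have := A.main (f 0) (f 1) (f 2) (g 0) (g 1) (g 2) _ a1 a2 b1 b2 i a i' b e0 e2 ec1 ec2 e1 ec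
      (kf 0 1 (by decide)) (kf 1 2 (by decide)) (kg 0 1 (by decide)) (kg 1 2 (by decide))
      hsg hi hi' hor (hfg 0 0) (hfg 0 1) (hfg 0 2) (hfg 1 0) (hfg 1 2) (hfg 2 0) (hfg 2 1) (hfg 2 2)
    rw [hfg 1 1] at this
    exact absurd this (by decide)

/-- Every copy of `Hp` is a Bottom copy: its top-left cell is `(leaf, same leaf)`. -/
theorem copy_bottom (f g : Fin 5 → Lab) (hf : StrictMono (A.key ∘ f))
    (hg : StrictMono (A.key ∘ g)) (hfg : ∀ i j, A.val (f i) (g j) = Hp i j) :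
    (∃ a, A.view (f 0) = core h a) ∧ f 0 = g 0 := by
  have hr2 : rank h (A.view (f 2)) ≠ 0 := fun h2 => A.no_p3 f g hf hg hfg h2
  have hc2 : rank h (A.view (g 2)) ≠ 0 := fun h2 => A.no_p3 g f hg hf
    (fun i j => by rw [A.symm, hfg, Hp_symm]) h2
  have kf : ∀ i j : Fin 5, i < j → A.key (f i) < A.key (f j) := fun i j hij => hf hij
  have kg : ∀ i j : Fin 5, i < j → A.key (g i) < A.key (g j) := fun i j hij => hg hij
  have mf : ∀ i j : Fin 5, i < j → rank h (A.view (f i)) ≤ rank h (A.view (f j)) :=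
    fun i j hij => A.mono _ _ (kf i j hij)
  have mg : ∀ i j : Fin 5, i < j → rank h (A.view (g i)) ≤ rank h (A.view (g j)) :=
    fun i j hij => A.mono _ _ (kg i j hij)
  have hv : ∀ i j, (rank h (A.view (f i)) ≠ 0 ∨ rank h (A.view (g j)) ≠ 0) →
      aval h (A.view (f i)) (A.view (g j)) = Hp i j := fun i j hij => by
    rw [← A.val_aux _ _ hij, hfg]
  have ht' : rank h (A.view (f 3)) ≠ 0 := by have := mf 2 3 (by decide); omega
  have hs' : rank h (A.view (f 4)) ≠ 0 := by have := mf 2 4 (by decide); omega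
  have ht : rank h (A.view (g 3)) ≠ 0 := by have := mg 2 3 (by decide); omega
  have hs : rank h (A.view (g 4)) ≠ 0 := by have := mg 2 4 (by decide); omega
  by_contra hcon
  refine L4 h (A.view (f 0)) (A.view (f 1)) (A.view (f 2)) (A.view (f 3)) (A.view (f 4))
    (A.view (g 0)) (A.view (g 1)) (A.view (g 2)) (A.view (g 3)) (A.view (g 4))
    hr2 ht' hs' hc2 ht hs (A.valid _) (A.valid _) (A.valid _) (A.valid _) (A.valid _) (A.valid _)
    (mf 0 1 (by decide)) (mf 1 2 (by decide)) (mf 2 3 (by decide)) (mf 3 4 (by decide))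
    (mg 0 1 (by decide)) (mg 1 2 (by decide)) (mg 2 3 (by decide)) (mg 3 4 (by decide))
    (hv 0 4 (Or.inr hs)) (hv 1 3 (Or.inr ht))
    (hv 2 2 (Or.inl hr2)) (hv 2 3 (Or.inl hr2)) (hv 2 4 (Or.inl hr2))
    (hv 3 1 (Or.inl ht')) (hv 3 2 (Or.inl ht')) (hv 3 3 (Or.inl ht')) (hv 3 4 (Or.inl ht'))
    (hv 4 0 (Or.inl hs')) (hv 4 2 (Or.inl hs')) (hv 4 3 (Or.inl hs')) (hv 4 4 (Or.inl hs')) ?_
  intro i a j b e0 e0' hi hj
  subst hi hj
  exact hcon ⟨⟨a, e0⟩, A.leaf _ _ a b e0 e0' (hfg 0 0)⟩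

end Sys

end Crest.Agent.OMCount
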