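import Crest.Agent.Lib_helper58_OMDefs
import Crest.Agent.Lib_helper58_OMKey
import Crest.Agent.Lib_helper58_OMCore
import Crest.Agent.Lib_helper69_OMCount

set_option autoImplicit false

namespace Crest.Agent.OM

namespace HitAux

open Crest.Agent.OMCount (View)

/-- view of an auxiliary class -/
def aview {h : ℕ} : Aux h → View
  | .Z => View.Z
  | .Y => View.Y
  | .T x j => View.T x.toNat (j.val + 1)
  | .S j sg => View.S j.val sg.toNat
  | .Tb => View.Tb
  | .Sb => View.Sb
  | .zero _ => View.zero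

/-- view of a label -/
def view {h : ℕ} : Lab h → View
  | .core x => View.core x.lev x.brk.val
  | .aux c _ => aview c

theorem aview_rank_ne {h : ℕ} (c : Aux h) : OMCount.rank h (aview c) ≠ 0 := by
  cases c <;> simp [aview, OMCount.rank]

theorem aview_mono {h : ℕ} (c d : Aux h) (hcd : c.rank ≤ d.rank) :
    OMCount.rank h (aview c) ≤ OMCount.rank h (aview d) := by
  rcases c with _ | _ | ⟨x, j⟩ | ⟨j, sg⟩ | _ | _ | i <;>
  rcases d with _ | _ | ⟨x', j'⟩ | ⟨j', sg'⟩ | _ | _ | i' <;>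
  simp only [aview, OMCount.rank, Aux.rank] at hcd ⊢ <;>
  (try cases x) <;> (try cases sg) <;> (try cases x') <;> (try cases sg') <;>
  (try simp only [Bool.toNat_false, Bool.toNat_true] at hcd ⊢) <;> omega

theorem aview_valid {h : ℕ} (c : Aux h) : OMCount.Valid h (aview c) := by
  rcases c with _ | _ | ⟨x, j⟩ | ⟨j, sg⟩ | _ | _ | i <;>
  simp only [aview, OMCount.Valid] <;>
  (try cases x) <;> (try cases sg) <;>
  (try simp only [Bool.toNat_false, Bool.toNat_true]) <;> omega

theorem aval_eq {h : ℕ} (c d : Aux h) : c.aval d = OMCount.aval h (aview c) (aview d) := by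
  rcases c with _ | _ | ⟨x, j⟩ | ⟨j, sg⟩ | _ | _ | i <;>
  rcases d with _ | _ | ⟨x', j'⟩ | ⟨j', sg'⟩ | _ | _ | i' <;>
  (try cases x) <;> (try cases sg) <;> (try cases x') <;> (try cases sg') <;>
  simp [aview, Aux.aval, OMCount.aval, OMCount.avalZ, OMCount.avalY, OMCount.avalT, OMCount.avalS,
    OMCount.avalTb, OMCount.avalSb, Fin.ext_iff]

theorem cval_eq {h : ℕ} (x : CoreLab h) (c : Aux h) :
    c.cval x = OMCount.aval h (View.core x.lev x.brk.val) (aview c) := by
  have hb : x.brk.val ≤ 2 := by have := x.brk.isLt; omega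
  rcases c with _ | _ | ⟨y, j⟩ | ⟨j, sg⟩ | _ | _ | i <;>
  (try cases y) <;> (try cases sg) <;>
  simp [aview, Aux.cval, OMCount.aval, OMCount.avalCore, hb]

theorem cval_eq' {h : ℕ} (x : CoreLab h) (c : Aux h) :
    c.cval x = OMCount.aval h (aview c) (View.core x.lev x.brk.val) := by
  have hb : x.brk.val ≤ 2 := by have := x.brk.isLt; omega
  rcases c with _ | _ | ⟨y, j⟩ | ⟨j, sg⟩ | _ | _ | i <;>
  (try cases y) <;> (try cases sg) <;>
  simp [aview, Aux.cval, OMCount.aval, OMCount.avalZ, OMCount.avalY, OMCount.avalT, OMCount.avalS,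
    OMCount.avalTb, OMCount.avalSb, hb]

theorem aval_symm {h : ℕ} (c d : Aux h) : c.aval d = d.aval c := by
  rcases c with _ | _ | ⟨x, j⟩ | ⟨j, sg⟩ | _ | _ | i <;>
  rcases d with _ | _ | ⟨x', j'⟩ | ⟨j', sg'⟩ | _ | _ | i' <;>
  (try cases x) <;> (try cases sg) <;> (try cases x') <;> (try cases sg') <;>
  simp [Aux.aval, eq_comm]

theorem rank_le_of_key_lt {h : ℕ} (c d : Aux h) (i i' : Fin (2 ^ h))
    (hk : (Lab.aux c i).key < (Lab.aux d i').key) : c.rank ≤ d.rank := by
  simp only [Lab.key] at hk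
  by_contra hcon
  have h1 : (d.rank + 1) * 2 ^ h ≤ c.rank * 2 ^ h := Nat.mul_le_mul_right _ (by omega)
  have h2 := i'.isLt
  rw [Nat.add_mul] at h1
  omega

/-- The construction as an instance of the abstract system. -/
def sys (h : ℕ) : OMCount.Sys h (Lab h) where
  key := Lab.key
  view := view
  val := Lab.val
  valid := by
    rintro (x | ⟨c, i⟩)
    · exact ⟨CoreLab.lev_le x, by have := x.brk.isLt; omega⟩
    · exact aview_valid c
  mono := by
    rintro (x | ⟨c, i⟩) (y | ⟨d, i'⟩) hk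
    · exact le_refl _
    · exact Nat.zero_le _
    · exfalso
      have := CoreLab.pos_lt y
      simp only [Lab.key] at hk
      omega
    · exact aview_mono c d (rank_le_of_key_lt c d i i' hk)
  symm := by
    rintro (x | ⟨c, i⟩) (y | ⟨d, i'⟩)
    · exact CoreLab.cmp_symm x y
    · rfl
    · rfl
    · exact aval_symm c d
  val_aux := by
    rintro (x | ⟨c, i⟩) (y | ⟨d, i'⟩) hor
    · exfalso
      rcases hor with h1 | h1 <;> exact h1 rfl
    · exact cval_eq x d
    · exact cval_eq' y c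
    · exact aval_eq c d
  jfree := by
    rintro (x | ⟨c, i⟩) (y | ⟨d, i'⟩) (z | ⟨c', j⟩) (w | ⟨d', j'⟩) hy hw hxy hzw h1 h2 h3
    · exact CoreLab.jfree x y z w hxy hzw h1 h2 h3
    all_goals first
      | exact absurd hy (aview_rank_ne _)
      | exact absurd hw (aview_rank_ne _)
      | (exfalso
         have e1 := CoreLab.pos_lt y
         have e2 := CoreLab.pos_lt w
         simp only [Lab.key] at hxy hzw
         omega)
  main := by
    intro r1 r r2 c1 c c2 k a1 a2 b1 b2 i a i' b e1 e2 e3 e4 e5 e6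
    rcases r1 with r1 | ⟨_, _⟩
    swap
    · exact absurd (congrArg (OMCount.rank h) e1) (aview_rank_ne _)
    rcases r2 with r2 | ⟨_, _⟩
    swap
    · exact absurd (congrArg (OMCount.rank h) e2) (aview_rank_ne _)
    rcases c1 with c1 | ⟨_, _⟩
    swap
    · exact absurd (congrArg (OMCount.rank h) e3) (aview_rank_ne _)
    rcases c2 with c2 | ⟨_, _⟩
    swap
    · exact absurd (congrArg (OMCount.rank h) e4) (aview_rank_ne _)
    rcases r with r | ⟨_, _⟩
    swap
    · exact absurd (congrArg (OMCount.rank h) e5) (aview_rank_ne _)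
    rcases c with c | ⟨_, _⟩
    swap
    · exact absurd (congrArg (OMCount.rank h) e6) (aview_rank_ne _)
    simp only [view, View.core.injEq] at e1 e2 e3 e4 e5 e6
    obtain ⟨e1, rfl⟩ := e1
    obtain ⟨e2, rfl⟩ := e2
    obtain ⟨e3, rfl⟩ := e3
    obtain ⟨e4, rfl⟩ := e4
    obtain ⟨rfl, rfl⟩ := e5
    obtain ⟨rfl, rfl⟩ := e6
    intro o1 o2 o3 o4 hsg hr hc hor v11 v12 v13 v21 v23 v31 v32 v33
    exact CoreLab.main_case' r1 r r2 c1 c c2 k e1 e2 e3 e4 o1 o2 o3 o4 hsg hr hc hor
      v11 v12 v13 v21 v23 v31 v32 v33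
  leaf := by
    rintro (x | ⟨c, i⟩) (y | ⟨d, i'⟩) a b e1 e2 hv
    · simp only [view, View.core.injEq] at e1 e2
      rw [CoreLab.leaf_eq x y e1.1 e2.1 hv]
    · exact absurd (congrArg (OMCount.rank h) e2) (aview_rank_ne _)
    · exact absurd (congrArg (OMCount.rank h) e1) (aview_rank_ne _)
    · exact absurd (congrArg (OMCount.rank h) e1) (aview_rank_ne _)

theorem H5_eq : H5 = OMCount.Hp := rfl

end HitAux

/-- COUNT part: every copy of `H5` passes through a cell `(leaf l, leaf l)` at position `(0,0)`. -/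
theorem hit (h : ℕ) (_hh : 1 ≤ h) (f g : Fin 5 → Lab h) (hf : StrictMono (fun i => (f i).key))
    (hg : StrictMono (fun j => (g j).key)) (hfg : ∀ i j, (f i).val (g j) = H5 i j) :
    ∃ l, zcell h l = (f 0, g 0) := by
  obtain ⟨⟨a, ha⟩, h0⟩ := (HitAux.sys h).copy_bottom f g hf hg hfg
  rcases hx : f 0 with x | ⟨c, i⟩
  · have ha' : HitAux.view (f 0) = OMCount.View.core h a := ha
    rw [hx] at ha'
    simp only [HitAux.view, OMCount.View.core.injEq] at ha'
    obtain ⟨l, hl⟩ := CoreLab.exists_pth x ha'.1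
    refine ⟨l, ?_⟩
    rw [← h0, hx, zcell, hl]
  · exfalso
    have ha' : HitAux.view (f 0) = OMCount.View.core h a := ha
    rw [hx] at ha'
    exact absurd (congrArg (OMCount.rank h) ha') (HitAux.aview_rank_ne _)

end Crest.Agent.OM
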