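import Mathlib

/-!
Definitions shared by the work packages for statement S0423 (owner: helper42).
`T a ψ y = E ψ(y + a X)` for a mean-one exponential `X`; `J N a ψ = E ψ(∑ a_i X_i)`.
Route: stop-loss transform `V(y) = E (y + ∑ a_i X_i)_+`, which is log-concave and `≥ y`.
-/

set_option autoImplicit false

open MeasureTheory Set Filter Topology

namespace Crest.Agent.Lib_S0423

/-- one-dimensional exponential averaging operator `(T a ψ)(y) = E ψ(y + a X)`, `X ~ Exp(1)`. -/
noncomputable def T (a : ℝ) (ψ : ℝ → ℝ) (y : ℝ) : ℝ :=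
  ∫ t in Ioi (0:ℝ), ψ (y + a * t) * Real.exp (-t)

/-- the `N`-dimensional integral `E ψ(∑ a_i X_i)`. -/
noncomputable def J (N : ℕ) (a : Fin N → ℝ) (ψ : ℝ → ℝ) : ℝ :=
  ∫ x in Set.pi Set.univ (fun _ : Fin N => Set.Ioi (0 : ℝ)),
    ψ (∑ i, a i * x i) * Real.exp (-∑ i, x i)

/-- measurable with at most linear growth -/
def LG (ψ : ℝ → ℝ) : Prop := Measurable ψ ∧ ∃ C : ℝ, ∀ y, |ψ y| ≤ C * (1 + |y|)

/-- the operator with kernel `(1 - r) e^{-r}`; `1 - g = Q (·)₊`. -/
noncomputable def Q (φ : ℝ → ℝ) (y : ℝ) : ℝ :=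
  ∫ r in Ioi (0:ℝ), (1 - r) * Real.exp (-r) * φ (y - r)

/-- shifted positive part `y ↦ (c + y)₊`. -/
noncomputable def posS (c : ℝ) (y : ℝ) : ℝ := max (c + y) 0

/-- `V` is a positive continuous log-concave function of linear growth with `V y ≥ y + m`. -/
structure GoodV (V : ℝ → ℝ) (m : ℝ) : Prop where
  cont : Continuous V
  pos : ∀ y, 0 < V y
  growth : ∃ C : ℝ, ∀ y, |V y| ≤ C * (1 + |y|)
  lower : ∀ y, y + m ≤ V y
  logconc : ConcaveOn ℝ Set.univ (fun y => Real.log (V y))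

/-! ### definitions of the first (CDF) skeleton, still used by `Lib_S0423_WP1/2/5` -/

/-- bounded measurable -/
def BM (ψ : ℝ → ℝ) : Prop := Measurable ψ ∧ ∃ C : ℝ, ∀ y, |ψ y| ≤ C

/-- Heaviside function shifted: `1` on `[-c, ∞)`, `0` elsewhere. -/
noncomputable def Hs (c : ℝ) (y : ℝ) : ℝ := if -c ≤ y then 1 else 0

/-- `F` is a positive continuous log-concave distribution function; `m` records the mean:
`F` is the distribution function of a variable of mean `-m`. -/
structure Good (F : ℝ → ℝ) (m : ℝ) : Prop where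
  cont : Continuous F
  pos : ∀ y, 0 < F y
  le_one : ∀ y, F y ≤ 1
  mono : Monotone F
  logconc : ConcaveOn ℝ Set.univ (fun y => Real.log (F y))
  tendsto_bot : Tendsto F atBot (𝓝 0)
  tendsto_top : Tendsto F atTop (𝓝 1)
  int_left : ∀ z, IntegrableOn F (Iic z)
  int_right : ∀ z, IntegrableOn (fun y => 1 - F y) (Ioi z)
  mean : ∀ z, (∫ y in Iic z, F y) - (∫ y in Ioi z, (1 - F y)) = z + m

end Crest.Agent.Lib_S0423
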