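import Crest.Agent.Lib_S0423_Defs

/-! VP3 for S0423 (V-route): the class `GoodV` is preserved by `T a`. -/

set_option autoImplicit false

open MeasureTheory Set Filter Topology

namespace Crest.Agent.Lib_S0423

theorem GoodV.LG {V : ℝ → ℝ} {m : ℝ} (h : GoodV V m) : LG V :=
  ⟨h.cont.measurable, h.growth⟩

theorem vp3_lin_le_exp {t A B : ℝ} (ht : 0 ≤ t) (hA : 0 ≤ A) (hB : 0 ≤ B) :
    A + B * t ≤ (A + 2 * B) * Real.exp (t / 2) := by
  have h1 : 1 ≤ Real.exp (t / 2) := Real.one_le_exp (by positivity)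
  have h2 : t ≤ 2 * Real.exp (t / 2) := by
    have := Real.add_one_le_exp (t / 2); linarith
  calc A + B * t ≤ A * Real.exp (t / 2) + B * (2 * Real.exp (t / 2)) :=
        add_le_add (le_mul_of_one_le_right hA h1) (mul_le_mul_of_nonneg_left h2 hB)
    _ = (A + 2 * B) * Real.exp (t / 2) := by ring

theorem vp3_C_nonneg {ψ : ℝ → ℝ} {C : ℝ} (hC : ∀ y, |ψ y| ≤ C * (1 + |y|)) : 0 ≤ C := by
  have := hC 0
  simp only [abs_zero, add_zero, mul_one] at this
  exact le_trans (abs_nonneg _) this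

theorem vp3_bound {ψ : ℝ → ℝ} {C : ℝ} (hC : ∀ y, |ψ y| ≤ C * (1 + |y|)) (a y : ℝ) {t : ℝ}
    (ht : 0 < t) :
    ‖ψ (y + a * t) * Real.exp (-t)‖ ≤ C * (1 + |y| + 2 * |a|) * Real.exp (-(1 / 2) * t) := by
  have hC0 := vp3_C_nonneg hC
  rw [Real.norm_eq_abs, abs_mul, abs_of_pos (Real.exp_pos _)]
  have h1 : |y + a * t| ≤ |y| + |a| * t := by
    calc |y + a * t| ≤ |y| + |a * t| := abs_add_le _ _
      _ = |y| + |a| * t := by rw [abs_mul, abs_of_pos ht]
  have h2 : 1 + |y| + |a| * t ≤ (1 + |y| + 2 * |a|) * Real.exp (t / 2) :=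
    vp3_lin_le_exp ht.le (by positivity) (abs_nonneg a)
  have h3 : Real.exp (t / 2) * Real.exp (-t) = Real.exp (-(1 / 2) * t) := by
    rw [← Real.exp_add]; congr 1; ring
  calc |ψ (y + a * t)| * Real.exp (-t) ≤ (C * (1 + |y + a * t|)) * Real.exp (-t) :=
        mul_le_mul_of_nonneg_right (hC _) (Real.exp_pos _).le
    _ ≤ (C * ((1 + |y| + 2 * |a|) * Real.exp (t / 2))) * Real.exp (-t) := by
        refine mul_le_mul_of_nonneg_right (mul_le_mul_of_nonneg_left ?_ hC0) (Real.exp_pos _).le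
        linarith
    _ = C * (1 + |y| + 2 * |a|) * (Real.exp (t / 2) * Real.exp (-t)) := by ring
    _ = _ := by rw [h3]

theorem vp3_integrable {ψ : ℝ → ℝ} (h : LG ψ) (a y : ℝ) :
    IntegrableOn (fun t => ψ (y + a * t) * Real.exp (-t)) (Ioi 0) := by
  obtain ⟨hm, C, hC⟩ := h
  have h1 : IntegrableOn (fun t : ℝ => C * (1 + |y| + 2 * |a|) * Real.exp (-(1 / 2) * t)) (Ioi 0) :=
    (integrableOn_exp_mul_Ioi (by norm_num) 0).const_mul _
  refine Integrable.mono' h1 ?_ ?_
  · exact ((hm.comp (by fun_prop)).mul (by fun_prop)).aestronglyMeasurable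
  · exact (ae_restrict_iff' measurableSet_Ioi).2 (Eventually.of_forall fun t ht => vp3_bound hC a y ht)

theorem vp3_T_growth {ψ : ℝ → ℝ} (h : LG ψ) (a : ℝ) :
    ∃ C : ℝ, ∀ y, |T a ψ y| ≤ C * (1 + |y|) := by
  obtain ⟨hm, C, hC⟩ := h
  have hC0 := vp3_C_nonneg hC
  refine ⟨2 * C * (1 + 2 * |a|), fun y => ?_⟩
  have h1 : IntegrableOn (fun t : ℝ => C * (1 + |y| + 2 * |a|) * Real.exp (-(1 / 2) * t)) (Ioi 0) :=
    (integrableOn_exp_mul_Ioi (by norm_num) 0).const_mul _
  have h2 : ‖∫ t in Ioi (0:ℝ), ψ (y + a * t) * Real.exp (-t)‖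
      ≤ ∫ t in Ioi (0:ℝ), C * (1 + |y| + 2 * |a|) * Real.exp (-(1 / 2) * t) :=
    norm_integral_le_of_norm_le h1
      ((ae_restrict_iff' measurableSet_Ioi).2 (Eventually.of_forall fun t ht => vp3_bound hC a y ht))
  rw [integral_const_mul, integral_exp_mul_Ioi (by norm_num) 0, Real.norm_eq_abs] at h2
  unfold T
  refine h2.trans ?_
  have h3 : -Real.exp (-(1 / 2) * 0) / (-(1 / 2)) = 2 := by norm_num
  rw [h3]
  have : 0 ≤ C * |a| * |y| := by positivity
  nlinarith

theorem vp3_integral_Ioi_shift (g : ℝ → ℝ) (c d : ℝ) :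
    ∫ x in Ioi c, g (x + d) = ∫ x in Ioi (c + d), g x := by
  rw [← integral_indicator measurableSet_Ioi, ← integral_indicator measurableSet_Ioi,
    ← integral_add_right_eq_self ((Ioi (c + d)).indicator g) d]
  congr 1
  ext x
  by_cases hx : c < x
  · rw [indicator_of_mem (show x ∈ Ioi c from hx),
      indicator_of_mem (show x + d ∈ Ioi (c + d) from by simpa using hx)]
  · rw [indicator_of_notMem (show x ∉ Ioi c from hx),
      indicator_of_notMem (show x + d ∉ Ioi (c + d) from by simpa using hx)]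

/-- representation of `T a F` for `a > 0`. -/
theorem vp3_T_repr {a : ℝ} (ha : 0 < a) (F : ℝ → ℝ) (y : ℝ) :
    T a F y = a⁻¹ * (Real.exp (a⁻¹ * y) * ∫ s in Ioi y, F s * Real.exp (-a⁻¹ * s)) := by
  unfold T
  have h1 : ∫ t in Ioi (0:ℝ), F (y + a * t) * Real.exp (-t)
      = ∫ t in Ioi (0:ℝ), (fun x => F (y + x) * Real.exp (-a⁻¹ * x)) (a * t) := by
    refine setIntegral_congr_fun measurableSet_Ioi fun t _ => ?_
    simp only
    congr 2
    field_simp
  rw [h1, integral_comp_mul_left_Ioi (fun x => F (y + x) * Real.exp (-a⁻¹ * x)) 0 ha, mul_zero,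
    smul_eq_mul]
  congr 1
  have h2 : ∫ x in Ioi (0:ℝ), F (y + x) * Real.exp (-a⁻¹ * x)
      = ∫ x in Ioi (0:ℝ), (fun s => Real.exp (a⁻¹ * y) * (F s * Real.exp (-a⁻¹ * s))) (x + y) := by
    refine setIntegral_congr_fun measurableSet_Ioi fun t _ => ?_
    simp only
    rw [add_comm y t, mul_left_comm, ← Real.exp_add]
    congr 2
    ring
  rw [h2, vp3_integral_Ioi_shift (fun s => Real.exp (a⁻¹ * y) * (F s * Real.exp (-a⁻¹ * s))) 0 y,
    zero_add, integral_const_mul]

theorem vp3_phi_integrable {a : ℝ} (ha : 0 < a) {F : ℝ → ℝ} (hc : Continuous F)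
    (hb : ∃ C : ℝ, ∀ y, |F y| ≤ C * (1 + |y|)) (c : ℝ) :
    IntegrableOn (fun s => F s * Real.exp (-a⁻¹ * s)) (Ioi c) := by
  -- change of variables from `vp3_integrable`
  have h0 := vp3_integrable (ψ := F) ⟨hc.measurable, hb⟩ a 0
  have h1 : IntegrableOn (fun t => (fun s => F s * Real.exp (-a⁻¹ * s)) (a * t)) (Ioi 0) := by
    refine h0.congr_fun (fun t _ => ?_) measurableSet_Ioi
    simp only [zero_add]
    congr 2
    field_simp
  have h2 : IntegrableOn (fun s => F s * Real.exp (-a⁻¹ * s)) (Ioi 0) := by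
    have := (integrableOn_Ioi_comp_mul_left_iff (fun s => F s * Real.exp (-a⁻¹ * s)) 0 ha).1 h1
    simpa using this
  have hcont : Continuous (fun s => F s * Real.exp (-a⁻¹ * s)) := by fun_prop
  have h3 : IntegrableOn (fun s => F s * Real.exp (-a⁻¹ * s)) (Icc (min c 0) 0) :=
    hcont.continuousOn.integrableOn_Icc
  refine (h3.union h2).mono_set ?_
  intro s hs
  by_cases h : s ≤ 0
  · exact Or.inl ⟨le_trans (min_le_left _ _) (le_of_lt hs), h⟩
  · exact Or.inr (not_le.1 h)

theorem vp3_hasDerivAt_pos {a : ℝ} (ha : 0 < a) {F : ℝ → ℝ} (hc : Continuous F)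
    (hb : ∃ C : ℝ, ∀ y, |F y| ≤ C * (1 + |y|)) (y : ℝ) :
    HasDerivAt (T a F) ((T a F y - F y) / a) y := by
  set φ : ℝ → ℝ := fun s => F s * Real.exp (-a⁻¹ * s) with hφ
  have hφc : Continuous φ := by fun_prop
  have hφi : ∀ c, IntegrableOn φ (Ioi c) := vp3_phi_integrable ha hc hb
  have hΦ : HasDerivAt (fun x => ∫ s in Ioi x, φ s) (-φ y) y := by
    have e : (fun x => ∫ s in Ioi x, φ s) = fun x => (∫ s in Ioi y, φ s) - ∫ s in y..x, φ s := by
      funext x
      rw [← intervalIntegral.integral_Ioi_sub_Ioi' (hφi y) (hφi x)]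
      ring
    rw [e]
    exact ((hφc.integral_hasStrictDerivAt y y).hasDerivAt).const_sub _
  have hT : T a F = fun x => a⁻¹ * (Real.exp (a⁻¹ * x) * ∫ s in Ioi x, φ s) := by
    funext x; exact vp3_T_repr ha F x
  have hE : HasDerivAt (fun x : ℝ => Real.exp (a⁻¹ * x)) (Real.exp (a⁻¹ * y) * a⁻¹) y := by
    have := ((hasDerivAt_id y).const_mul a⁻¹).exp
    simpa using this
  have hD : HasDerivAt (fun x => a⁻¹ * (Real.exp (a⁻¹ * x) * ∫ s in Ioi x, φ s))
      (a⁻¹ * ((Real.exp (a⁻¹ * y) * a⁻¹ * ∫ s in Ioi y, φ s) + Real.exp (a⁻¹ * y) * -φ y)) y :=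
    (hE.mul hΦ).const_mul a⁻¹
  rw [hT]
  refine hD.congr_deriv ?_
  have h1 : Real.exp (a⁻¹ * y) * Real.exp (-a⁻¹ * y) = 1 := by
    rw [← Real.exp_add]; simp
  have h2 : Real.exp (a⁻¹ * y) * -φ y = - F y := by
    simp only [hφ]
    linear_combination (-F y) * h1
  rw [h2]
  simp only
  field_simp
  ring

theorem vp3_T_neg (a : ℝ) (F : ℝ → ℝ) (y : ℝ) :
    T a F y = T (-a) (fun x => F (-x)) (-y) := by
  unfold T
  refine setIntegral_congr_fun measurableSet_Ioi fun t _ => ?_
  simp only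
  congr 2
  ring

theorem vp3_hasDerivAt {a : ℝ} (ha : a ≠ 0) {F : ℝ → ℝ} (hc : Continuous F)
    (hb : ∃ C : ℝ, ∀ y, |F y| ≤ C * (1 + |y|)) (y : ℝ) :
    HasDerivAt (T a F) ((T a F y - F y) / a) y := by
  rcases lt_or_gt_of_ne ha with h | h
  · have hT : T a F = fun x => T (-a) (fun x => F (-x)) (-x) := by
      funext x; exact vp3_T_neg a F x
    obtain ⟨C, hC⟩ := hb
    have h1 := vp3_hasDerivAt_pos (a := -a) (by linarith) (F := fun x => F (-x))
      (by fun_prop) ⟨C, fun y => by simpa using hC (-y)⟩ (-y)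
    have h2 : HasDerivAt (fun x => T (-a) (fun x => F (-x)) (-x))
        ((T (-a) (fun x => F (-x)) (-y) - F (- -y)) / -a * (-1)) y :=
      HasDerivAt.comp y h1 (hasDerivAt_neg y)
    rw [hT]
    refine h2.congr_deriv ?_
    simp only [neg_neg]
    field_simp
  · exact vp3_hasDerivAt_pos h hc hb y

/-- four point inequality for concave functions -/
theorem vp3_four_point {f : ℝ → ℝ} (hf : ConcaveOn ℝ univ f) {x y δ : ℝ} (hxy : x ≤ y)
    (hδ : 0 ≤ δ) : f x + f (y + δ) ≤ f (x + δ) + f y := by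
  rcases eq_or_lt_of_le (show 0 ≤ y - x + δ by linarith) with h0 | h0
  · have h1 : δ = 0 := by linarith
    have h2 : x = y := by linarith
    subst h1; subst h2; simp
  · set l : ℝ := δ / (y - x + δ) with hl
    have hl0 : 0 ≤ l := by positivity
    have hl1 : l ≤ 1 := by
      rw [hl, div_le_one h0]; linarith
    have hlm : l * (y - x + δ) = δ := by
      rw [hl]; field_simp
    have e1 := hf.2 (mem_univ x) (mem_univ (y + δ)) (show 0 ≤ 1 - l by linarith) hl0 (by ring)
    have e2 := hf.2 (mem_univ x) (mem_univ (y + δ)) hl0 (show 0 ≤ 1 - l by linarith) (by ring)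
    simp only [smul_eq_mul] at e1 e2
    have a1 : (1 - l) * x + l * (y + δ) = x + δ := by linear_combination hlm
    have a2 : l * x + (1 - l) * (y + δ) = y := by linear_combination -hlm
    rw [a1] at e1
    rw [a2] at e2
    linarith

/-- the common weakening of `GoodV` and of the properties of `posS c`. -/
structure PreV (V : ℝ → ℝ) (m : ℝ) : Prop where
  cont : Continuous V
  nonneg : ∀ y, 0 ≤ V y
  growth : ∃ C : ℝ, ∀ y, |V y| ≤ C * (1 + |y|)
  lower : ∀ y, y + m ≤ V y
  four : ∀ {x y δ : ℝ}, x ≤ y → 0 ≤ δ → V x * V (y + δ) ≤ V (x + δ) * V y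

theorem PreV.LG {V : ℝ → ℝ} {m : ℝ} (h : PreV V m) : LG V :=
  ⟨h.cont.measurable, h.growth⟩

theorem GoodV.preV {V : ℝ → ℝ} {m : ℝ} (h : GoodV V m) : PreV V m := by
  refine ⟨h.cont, fun y => (h.pos y).le, h.growth, h.lower, ?_⟩
  intro x y δ hxy hδ
  have := vp3_four_point h.logconc hxy hδ
  rw [← Real.log_mul (h.pos _).ne' (h.pos _).ne', ← Real.log_mul (h.pos _).ne' (h.pos _).ne'] at this
  exact (Real.log_le_log_iff (mul_pos (h.pos _) (h.pos _)) (mul_pos (h.pos _) (h.pos _))).1 this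

theorem vp3_T_zero (ψ : ℝ → ℝ) : T 0 ψ = ψ := by
  funext y
  unfold T
  simp only [zero_mul, add_zero]
  rw [integral_const_mul, integral_exp_neg_Ioi_zero, mul_one]

theorem vp3_cross_pos {F : ℝ → ℝ} {m : ℝ} (h : PreV F m) {a : ℝ} (ha : 0 < a) {y1 y2 : ℝ}
    (hy : y1 ≤ y2) : F y1 * T a F y2 ≤ T a F y1 * F y2 := by
  unfold T
  rw [← integral_const_mul, ← integral_mul_const]
  refine setIntegral_mono_on ((vp3_integrable h.LG a y2).const_mul _)
    ((vp3_integrable h.LG a y1).mul_const _) measurableSet_Ioi fun t ht => ?_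
  have := h.four hy (show 0 ≤ a * t from (mul_pos ha ht).le)
  calc F y1 * (F (y2 + a * t) * Real.exp (-t)) = (F y1 * F (y2 + a * t)) * Real.exp (-t) := by ring
    _ ≤ (F (y1 + a * t) * F y2) * Real.exp (-t) :=
        mul_le_mul_of_nonneg_right this (Real.exp_pos _).le
    _ = F (y1 + a * t) * Real.exp (-t) * F y2 := by ring

theorem vp3_cross_neg {F : ℝ → ℝ} {m : ℝ} (h : PreV F m) {a : ℝ} (ha : a < 0) {y1 y2 : ℝ}
    (hy : y1 ≤ y2) : F y2 * T a F y1 ≤ F y1 * T a F y2 := by
  unfold T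
  rw [← integral_const_mul, ← integral_const_mul]
  refine setIntegral_mono_on ((vp3_integrable h.LG a y1).const_mul _)
    ((vp3_integrable h.LG a y2).const_mul _) measurableSet_Ioi fun t ht => ?_
  have := h.four (x := y1 + a * t) (y := y2 + a * t) (δ := -(a * t)) (by linarith)
    (by have := mul_neg_of_neg_of_pos ha ht; linarith)
  rw [add_neg_cancel_right, add_neg_cancel_right] at this
  calc F y2 * (F (y1 + a * t) * Real.exp (-t)) = (F (y1 + a * t) * F y2) * Real.exp (-t) := by ring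
    _ ≤ (F y1 * F (y2 + a * t)) * Real.exp (-t) :=
        mul_le_mul_of_nonneg_right this (Real.exp_pos _).le
    _ = F y1 * (F (y2 + a * t) * Real.exp (-t)) := by ring

theorem vp3_logconc {F : ℝ → ℝ} {m : ℝ} (h : PreV F m) {a : ℝ} (ha : a ≠ 0)
    (hpos : ∀ y, 0 < T a F y) :
    ConcaveOn ℝ univ (fun y => Real.log (T a F y)) := by
  have hder : ∀ y, HasDerivAt (fun y => Real.log (T a F y))
      ((T a F y - F y) / a / T a F y) y := fun y =>
    (vp3_hasDerivAt ha h.cont h.growth y).log (hpos y).ne'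
  refine Antitone.concaveOn_univ_of_deriv (fun y => (hder y).differentiableAt) ?_
  have hd : deriv (fun y => Real.log (T a F y)) = fun y => (T a F y - F y) / a / T a F y :=
    funext fun y => (hder y).deriv
  rw [hd]
  have e : ∀ y, (T a F y - F y) / a / T a F y = a⁻¹ * (1 - F y / T a F y) := by
    intro y
    have := (hpos y).ne'
    field_simp
  intro y1 y2 hy
  simp only [e]
  have p1 := hpos y1
  have p2 := hpos y2
  rcases lt_or_gt_of_ne ha with h' | h'
  · have hc := vp3_cross_neg h h' hy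
    have hr : F y2 / T a F y2 ≤ F y1 / T a F y1 := by
      rw [div_le_div_iff₀ p2 p1]; exact hc
    exact mul_le_mul_of_nonpos_left (by linarith) (inv_nonpos.2 h'.le)
  · have hc := vp3_cross_pos h h' hy
    have hr : F y1 / T a F y1 ≤ F y2 / T a F y2 := by
      rw [div_le_div_iff₀ p1 p2]; linarith
    exact mul_le_mul_of_nonneg_left (by linarith) (inv_nonneg.2 h'.le)

theorem vp3_integral_id_exp : ∫ t in Ioi (0:ℝ), t * Real.exp (-t) = 1 := by
  have h := Real.Gamma_eq_integral (s := 2) (by norm_num)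
  rw [Real.Gamma_two] at h
  rw [h]
  refine setIntegral_congr_fun measurableSet_Ioi fun t _ => ?_
  have : (2:ℝ) - 1 = 1 := by norm_num
  rw [this, Real.rpow_one, mul_comm]

theorem vp3_integrableOn_id_exp : IntegrableOn (fun t : ℝ => t * Real.exp (-t)) (Ioi 0) := by
  have := vp3_integrable (ψ := fun y => y) ⟨measurable_id, 1, fun y => by linarith [abs_nonneg y]⟩ 1 0
  simpa using this

theorem vp3_lower {F : ℝ → ℝ} {m : ℝ} (h : PreV F m) (a y : ℝ) : y + (m + a) ≤ T a F y := by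
  have hi : IntegrableOn (fun t : ℝ => (y + m) * Real.exp (-t) + a * (t * Real.exp (-t))) (Ioi 0) :=
    ((integrableOn_exp_neg_Ioi 0).const_mul _).add (vp3_integrableOn_id_exp.const_mul _)
  have e : ∫ t in Ioi (0:ℝ), ((y + m) * Real.exp (-t) + a * (t * Real.exp (-t))) = y + (m + a) := by
    rw [integral_add ((integrableOn_exp_neg_Ioi 0).const_mul _) (vp3_integrableOn_id_exp.const_mul _),
      integral_const_mul, integral_const_mul, integral_exp_neg_Ioi_zero, vp3_integral_id_exp]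
    ring
  rw [← e]
  unfold T
  refine setIntegral_mono hi (vp3_integrable h.LG a y) fun t => ?_
  simp only
  have := mul_le_mul_of_nonneg_right (h.lower (y + a * t)) (Real.exp_pos (-t)).le
  linarith

theorem PreV.T {V : ℝ → ℝ} {m : ℝ} (h : PreV V m) {a : ℝ} (ha : a ≠ 0)
    (hpos : ∀ y, 0 < Crest.Agent.Lib_S0423.T a V y) :
    GoodV (Crest.Agent.Lib_S0423.T a V) (m + a) :=
  ⟨continuous_iff_continuousAt.2 fun y => (vp3_hasDerivAt ha h.cont h.growth y).continuousAt,
    hpos, vp3_T_growth h.LG a, vp3_lower h a, vp3_logconc h ha hpos⟩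

theorem GoodV.T {V : ℝ → ℝ} {m : ℝ} (h : GoodV V m) (a : ℝ) :
    GoodV (Crest.Agent.Lib_S0423.T a V) (m + a) := by
  by_cases ha : a = 0
  · subst ha; rw [vp3_T_zero, add_zero]; exact h
  refine h.preV.T ha fun y => ?_
  unfold Crest.Agent.Lib_S0423.T
  rw [integral_pos_iff_support_of_nonneg (fun t => (mul_pos (h.pos _) (Real.exp_pos _)).le)
    (vp3_integrable h.LG a y)]
  have : Function.support (fun t => V (y + a * t) * Real.exp (-t)) = univ := by
    ext t
    simp [(h.pos _).ne', (Real.exp_pos _).ne']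
  rw [this]
  simp

theorem vp3_posS_preV (c : ℝ) : PreV (posS c) c := by
  refine ⟨by unfold posS; fun_prop, fun y => le_max_right _ _, ⟨1 + |c|, fun y => ?_⟩,
    fun y => by unfold posS; rw [add_comm]; exact le_max_left _ _, ?_⟩
  · unfold posS
    rw [abs_of_nonneg (le_max_right _ _)]
    refine max_le ?_ (by positivity)
    have h1 := le_abs_self c
    have h2 := le_abs_self y
    have h3 : 0 ≤ |c| * |y| := by positivity
    nlinarith
  · intro x y δ hxy hδ
    unfold posS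
    rcases le_or_gt (c + x) 0 with hx | hx
    · rw [max_eq_right hx, zero_mul]
      exact mul_nonneg (le_max_right _ _) (le_max_right _ _)
    · rw [max_eq_left hx.le, max_eq_left (by linarith : (0:ℝ) ≤ c + (y + δ)),
        max_eq_left (by linarith : (0:ℝ) ≤ c + (x + δ)), max_eq_left (by linarith : (0:ℝ) ≤ c + y)]
      nlinarith

/-- `T a (c + ·)₊ (y) = c + y + a` if `0 ≤ c + y`, `a e^{(c+y)/a}` otherwise. -/
theorem goodV_base {a : ℝ} (ha : 0 < a) (c : ℝ) : GoodV (T a (posS c)) (c + a) := by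
  refine (vp3_posS_preV c).T ha.ne' fun y => ?_
  have hP := vp3_posS_preV c
  unfold T
  rw [integral_pos_iff_support_of_nonneg (fun t => mul_nonneg (hP.nonneg _) (Real.exp_pos _).le)
    (vp3_integrable hP.LG a y)]
  have hsub : Ioi (max 0 (-(c + y) / a)) ⊆
      Function.support (fun t => posS c (y + a * t) * Real.exp (-t)) ∩ Ioi 0 := by
    intro t ht
    have ht0 : 0 < t := lt_of_le_of_lt (le_max_left _ _) ht
    have ht1 : -(c + y) / a < t := lt_of_le_of_lt (le_max_right _ _) ht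
    refine ⟨?_, ht0⟩
    rw [Function.mem_support]
    refine mul_ne_zero ?_ (Real.exp_pos _).ne'
    have : 0 < c + (y + a * t) := by
      rw [div_lt_iff₀ ha] at ht1
      linarith
    unfold posS
    rw [max_eq_left this.le]
    exact this.ne'
  rw [Measure.restrict_apply' measurableSet_Ioi]
  refine lt_of_lt_of_le ?_ (measure_mono hsub)
  simp

end Crest.Agent.Lib_S0423
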