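import Crest.Agent.Lib_S0423_Defs

/-! WP1 for S0423: peeling one coordinate off the N-dimensional integral (Fubini). -/

set_option autoImplicit false

open MeasureTheory Set Filter Topology

namespace Crest.Agent.Lib_S0423

lemma wp1_restrict_orth (n : ℕ) :
    (volume : Measure (Fin n → ℝ)).restrict (Set.pi Set.univ (fun _ : Fin n => Set.Ioi (0:ℝ)))
      = Measure.pi (fun _ : Fin n => (volume : Measure ℝ).restrict (Set.Ioi 0)) := by
  rw [volume_pi, Measure.restrict_pi_pi]

/-- Fubini: peel off the `i`-th coordinate of an integral over the positive orthant. -/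
lemma wp1_integral_orth_succ {n : ℕ} (i : Fin (n+1)) (G : (Fin (n+1) → ℝ) → ℝ)
    (hG : IntegrableOn G (Set.pi Set.univ (fun _ : Fin (n+1) => Set.Ioi (0:ℝ)))) :
    ∫ x in Set.pi Set.univ (fun _ : Fin (n+1) => Set.Ioi (0:ℝ)), G x
      = ∫ y in Set.pi Set.univ (fun _ : Fin n => Set.Ioi (0:ℝ)),
          ∫ t in Set.Ioi (0:ℝ), G (Fin.insertNth i t y) := by
  unfold IntegrableOn at hG
  rw [wp1_restrict_orth] at hG ⊢
  rw [wp1_restrict_orth]
  have mp := (measurePreserving_piFinSuccAbove
    (fun _ : Fin (n+1) => (volume : Measure ℝ).restrict (Set.Ioi 0)) i).symm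
  rw [← mp.integral_comp']
  have hG' : Integrable (fun p : ℝ × (Fin n → ℝ) =>
      G ((MeasurableEquiv.piFinSuccAbove (fun _ : Fin (n+1) => ℝ) i).symm p))
      (((volume : Measure ℝ).restrict (Set.Ioi 0)).prod
        (Measure.pi (fun _ : Fin n => (volume : Measure ℝ).restrict (Set.Ioi 0)))) :=
    (mp.integrable_comp_emb (MeasurableEquiv.measurableEmbedding _)).2 hG
  have e : ∀ (t : ℝ) (y : Fin n → ℝ),
      (MeasurableEquiv.piFinSuccAbove (fun _ : Fin (n+1) => ℝ) i).symm (t, y)
        = Fin.insertNth i t y := by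
    intro t y
    simp [MeasurableEquiv.piFinSuccAbove_symm_apply, Fin.insertNthEquiv]
  rw [integral_prod_symm _ hG']
  simp_rw [e]

lemma wp1_exp_neg_mul_sum {n : ℕ} (b : ℝ) (x : Fin n → ℝ) :
    Real.exp (-(b * ∑ i, x i)) = ∏ i, Real.exp ((-b) * x i) := by
  rw [← Real.exp_sum]; congr 1; rw [Finset.mul_sum, ← Finset.sum_neg_distrib]
  exact Finset.sum_congr rfl (fun i _ => by ring)

lemma wp1_integrableOn_exp_neg_mul_sum (n : ℕ) {b : ℝ} (hb : 0 < b) :
    IntegrableOn (fun x : Fin n → ℝ => Real.exp (-(b * ∑ i, x i)))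
      (Set.pi Set.univ (fun _ : Fin n => Set.Ioi (0:ℝ))) := by
  unfold IntegrableOn
  rw [wp1_restrict_orth]
  simp_rw [wp1_exp_neg_mul_sum]
  exact Integrable.fintype_prod (f := fun _ : Fin n => fun t : ℝ => Real.exp ((-b) * t))
    (fun _ => integrableOn_exp_mul_Ioi (by linarith) 0)

/-- `(1 + M s) e^{-s} ≤ (1 + 2 M) e^{-s/2}` for `s ≥ 0`, `M ≥ 0`. -/
lemma wp1_scalar {M s : ℝ} (hM : 0 ≤ M) (hs : 0 ≤ s) :
    (1 + M * s) * Real.exp (-s) ≤ (1 + 2 * M) * Real.exp (-(1/2 * s)) := by
  have e1 : Real.exp (-s) = Real.exp (-(1/2 * s)) * Real.exp (-(1/2 * s)) := by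
    rw [← Real.exp_add]; congr 1; ring
  have h1 : 0 < Real.exp (-(1/2 * s)) := Real.exp_pos _
  have h2 : Real.exp (-(1/2 * s)) ≤ 1 := by
    rw [Real.exp_le_one_iff]; linarith
  have h3 : (1/2 * s) * Real.exp (-(1/2 * s)) ≤ 1 := by
    have h4 : 1/2 * s + 1 ≤ Real.exp (1/2 * s) := Real.add_one_le_exp _
    have h5 : Real.exp (1/2 * s) * Real.exp (-(1/2 * s)) = 1 := by
      rw [← Real.exp_add]; simp
    nlinarith
  have h6 : (1 + M * s) * Real.exp (-(1/2 * s)) ≤ 1 + 2 * M := by
    have : (1 + M * s) * Real.exp (-(1/2 * s))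
        = Real.exp (-(1/2 * s)) + 2 * M * ((1/2 * s) * Real.exp (-(1/2 * s))) := by ring
    rw [this]
    nlinarith
  rw [e1, ← mul_assoc]
  exact mul_le_mul_of_nonneg_right h6 h1.le

lemma wp1_integrableOn {n : ℕ} (a : Fin n → ℝ) {ψ : ℝ → ℝ} (h : LG ψ) :
    IntegrableOn (fun x : Fin n → ℝ => ψ (∑ i, a i * x i) * Real.exp (-∑ i, x i))
      (Set.pi Set.univ (fun _ : Fin n => Set.Ioi (0:ℝ))) := by
  obtain ⟨hm, C, hC⟩ := h
  have hC0 : 0 ≤ C := by
    have := hC 0
    simp at this
    exact le_trans (abs_nonneg _) this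
  set M : ℝ := ∑ i, |a i| with hM
  have hM0 : 0 ≤ M := Finset.sum_nonneg (fun i _ => abs_nonneg _)
  refine Integrable.mono'
    ((wp1_integrableOn_exp_neg_mul_sum n (b := 1/2) (by norm_num)).const_mul (C * (1 + 2 * M))) ?_ ?_
  · apply Measurable.aestronglyMeasurable
    apply Measurable.mul
    · exact hm.comp (by fun_prop)
    · fun_prop
  · refine (ae_restrict_iff' (MeasurableSet.univ_pi (fun _ => measurableSet_Ioi))).2
      (Filter.Eventually.of_forall (fun x hx => ?_))
    have hx0 : ∀ i, 0 ≤ x i := fun i => le_of_lt (hx i (Set.mem_univ i))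
    have hs : 0 ≤ ∑ i, x i := Finset.sum_nonneg (fun i _ => hx0 i)
    have h1 : |∑ i, a i * x i| ≤ M * ∑ i, x i := by
      calc |∑ i, a i * x i| ≤ ∑ i, |a i * x i| := Finset.abs_sum_le_sum_abs _ _
        _ = ∑ i, |a i| * x i := by
            refine Finset.sum_congr rfl (fun i _ => ?_)
            rw [abs_mul, abs_of_nonneg (hx0 i)]
        _ ≤ ∑ i, |a i| * ∑ j, x j := by
            refine Finset.sum_le_sum (fun i _ => ?_)
            refine mul_le_mul_of_nonneg_left ?_ (abs_nonneg _)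
            exact Finset.single_le_sum (fun j _ => hx0 j) (Finset.mem_univ i)
        _ = M * ∑ i, x i := by rw [hM, Finset.sum_mul]
    rw [Real.norm_eq_abs, abs_mul, abs_of_pos (Real.exp_pos _)]
    calc |ψ (∑ i, a i * x i)| * Real.exp (-∑ i, x i)
        ≤ (C * (1 + M * ∑ i, x i)) * Real.exp (-∑ i, x i) := by
          refine mul_le_mul_of_nonneg_right ?_ (Real.exp_pos _).le
          refine le_trans (hC _) ?_
          refine mul_le_mul_of_nonneg_left ?_ hC0
          linarith
      _ = C * ((1 + M * ∑ i, x i) * Real.exp (-∑ i, x i)) := by ring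
      _ ≤ C * ((1 + 2 * M) * Real.exp (-(1/2 * ∑ i, x i))) :=
          mul_le_mul_of_nonneg_left (wp1_scalar hM0 hs) hC0
      _ = C * (1 + 2 * M) * Real.exp (-(1/2 * ∑ i, x i)) := by ring

lemma wp1_int_t_exp : ∫ t in Ioi (0:ℝ), t * Real.exp (-t) = 1 := by
  have := Real.integral_rpow_mul_exp_neg_mul_Ioi (a := 2) (r := 1) (by norm_num) (by norm_num)
  have hG : Real.Gamma 2 = 1 := by
    have := Real.Gamma_nat_eq_factorial 1
    norm_num at this
    simp
  rw [hG] at this
  have e : ∀ t : ℝ, t ^ ((2:ℝ) - 1) = t := by intro t; norm_num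
  simp only [e, one_mul] at this
  rw [this]
  norm_num

lemma wp1_intble_t_exp : IntegrableOn (fun t : ℝ => t * Real.exp (-t)) (Ioi 0) := by
  by_contra h
  have h1 := wp1_int_t_exp
  rw [integral_undef h] at h1
  norm_num at h1

/-- integrability of the integrand of `T a ψ y` for `ψ` of linear growth -/
lemma wp1_T_integrable (a y : ℝ) {ψ : ℝ → ℝ} (h : LG ψ) :
    IntegrableOn (fun t : ℝ => ψ (y + a * t) * Real.exp (-t)) (Ioi 0) := by
  obtain ⟨hm, C, hC⟩ := h
  have hC0 : 0 ≤ C := by
    have := hC 0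
    simp at this
    exact le_trans (abs_nonneg _) this
  refine Integrable.mono' (g := fun t : ℝ => C * (1 + |y|) * Real.exp (-t)
      + C * |a| * (t * Real.exp (-t)))
    (((integrableOn_exp_neg_Ioi 0).const_mul _).add (wp1_intble_t_exp.const_mul _)) ?_ ?_
  · apply Measurable.aestronglyMeasurable
    apply Measurable.mul
    · exact hm.comp (by fun_prop)
    · fun_prop
  · refine (ae_restrict_iff' measurableSet_Ioi).2 (Filter.Eventually.of_forall (fun t ht => ?_))
    have ht0 : (0:ℝ) ≤ t := le_of_lt ht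
    rw [Real.norm_eq_abs, abs_mul, abs_of_pos (Real.exp_pos _)]
    have h1 : |y + a * t| ≤ |y| + |a| * t := by
      calc |y + a * t| ≤ |y| + |a * t| := abs_add_le _ _
        _ = |y| + |a| * t := by rw [abs_mul, abs_of_nonneg ht0]
    calc |ψ (y + a * t)| * Real.exp (-t) ≤ (C * (1 + (|y| + |a| * t))) * Real.exp (-t) := by
          refine mul_le_mul_of_nonneg_right ?_ (Real.exp_pos _).le
          refine le_trans (hC _) ?_
          refine mul_le_mul_of_nonneg_left ?_ hC0
          linarith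
      _ = _ := by ring

theorem T_LG {a : ℝ} {ψ : ℝ → ℝ} (h : LG ψ) : LG (T a ψ) := by
  obtain ⟨hm, C, hC⟩ := h
  have hC0 : 0 ≤ C := by
    have := hC 0
    simp at this
    exact le_trans (abs_nonneg _) this
  refine ⟨?_, C * (1 + |a|), fun y => ?_⟩
  · unfold T
    have h1 : StronglyMeasurable (Function.uncurry
        (fun (y t : ℝ) => ψ (y + a * t) * Real.exp (-t))) := by
      apply Measurable.stronglyMeasurable
      apply Measurable.mul
      · exact hm.comp (by fun_prop)
      · fun_prop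
    exact (h1.integral_prod_right (ν := (volume : Measure ℝ).restrict (Ioi 0))).measurable
  · unfold T
    have h2 : ‖∫ t in Ioi (0:ℝ), ψ (y + a * t) * Real.exp (-t)‖
        ≤ ∫ t in Ioi (0:ℝ), (C * (1 + |y|) * Real.exp (-t) + C * |a| * (t * Real.exp (-t))) := by
      apply norm_integral_le_of_norm_le
        (((integrableOn_exp_neg_Ioi 0).const_mul _).add (wp1_intble_t_exp.const_mul _))
      refine (ae_restrict_iff' measurableSet_Ioi).2 (Filter.Eventually.of_forall (fun t ht => ?_))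
      have ht0 : (0:ℝ) ≤ t := le_of_lt ht
      rw [Real.norm_eq_abs, abs_mul, abs_of_pos (Real.exp_pos _)]
      have h1 : |y + a * t| ≤ |y| + |a| * t := by
        calc |y + a * t| ≤ |y| + |a * t| := abs_add_le _ _
          _ = |y| + |a| * t := by rw [abs_mul, abs_of_nonneg ht0]
      calc |ψ (y + a * t)| * Real.exp (-t) ≤ (C * (1 + (|y| + |a| * t))) * Real.exp (-t) := by
            refine mul_le_mul_of_nonneg_right ?_ (Real.exp_pos _).le
            refine le_trans (hC _) ?_
            refine mul_le_mul_of_nonneg_left ?_ hC0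
            linarith
        _ = _ := by simp only [Pi.add_apply]; ring
    rw [integral_add ((integrableOn_exp_neg_Ioi 0).const_mul _) (wp1_intble_t_exp.const_mul _),
      integral_const_mul, integral_const_mul, integral_exp_neg_Ioi_zero, wp1_int_t_exp,
      Real.norm_eq_abs] at h2
    refine le_trans h2 ?_
    have : 0 ≤ C * |a| * |y| := by positivity
    nlinarith

theorem J_zero (a : Fin 0 → ℝ) (ψ : ℝ → ℝ) : J 0 a ψ = ψ 0 := by
  unfold J
  rw [wp1_restrict_orth]
  simp [measureReal_def]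

theorem J_succ {n : ℕ} (a : Fin (n+1) → ℝ) (i : Fin (n+1)) {ψ : ℝ → ℝ} (h : LG ψ) :
    J (n+1) a ψ = J n (fun j => a (i.succAbove j)) (T (a i) ψ) := by
  unfold J
  rw [wp1_integral_orth_succ i _ (wp1_integrableOn a h)]
  congr 1
  funext y
  unfold T
  rw [← integral_mul_const]
  congr 1
  funext t
  rw [Fin.sum_univ_succAbove _ i, Fin.sum_univ_succAbove _ i]
  simp only [Fin.insertNth_apply_same, Fin.insertNth_apply_succAbove]
  have e1 : Real.exp (-(t + ∑ j, y j)) = Real.exp (-t) * Real.exp (-∑ j, y j) := by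
    rw [← Real.exp_add]; congr 1; ring
  rw [e1, add_comm (a i * t)]
  ring

end Crest.Agent.Lib_S0423
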