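import Crest.Agent.Lib_S0423_Defs

/-! WP2 for S0423: one-dimensional identities for the operator `T`. -/

set_option autoImplicit false

open MeasureTheory Set Filter Topology

namespace Crest.Agent.Lib_S0423

lemma wp2_integrableOn {ψ : ℝ → ℝ} (h : BM ψ) (y a : ℝ) :
    IntegrableOn (fun t : ℝ => ψ (y + a * t) * Real.exp (-t)) (Ioi 0) := by
  obtain ⟨hm, C, hC⟩ := h
  refine Integrable.mono' ((integrableOn_exp_neg_Ioi 0).const_mul C) ?_ ?_
  · apply Measurable.aestronglyMeasurable
    apply Measurable.mul
    · exact hm.comp (by fun_prop)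
    · fun_prop
  · refine Filter.Eventually.of_forall (fun x => ?_)
    rw [Real.norm_eq_abs, abs_mul, abs_of_pos (Real.exp_pos _)]
    exact mul_le_mul_of_nonneg_right (hC _) (Real.exp_pos _).le

theorem T_comm (a b : ℝ) {ψ : ℝ → ℝ} (h : BM ψ) : T a (T b ψ) = T b (T a ψ) := by
  funext y
  unfold T
  obtain ⟨hm, C, hC⟩ := h
  have e1 : ∀ s : ℝ, (∫ t in Ioi (0:ℝ), ψ (y + a * s + b * t) * Real.exp (-t)) * Real.exp (-s)
      = ∫ t in Ioi (0:ℝ), ψ (y + a * s + b * t) * Real.exp (-t) * Real.exp (-s) := by
    intro s; rw [integral_mul_const]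
  have e2 : ∀ t : ℝ, (∫ s in Ioi (0:ℝ), ψ (y + b * t + a * s) * Real.exp (-s)) * Real.exp (-t)
      = ∫ s in Ioi (0:ℝ), ψ (y + a * s + b * t) * Real.exp (-t) * Real.exp (-s) := by
    intro t; rw [← integral_mul_const]
    congr 1; funext s
    have : y + b * t + a * s = y + a * s + b * t := by ring
    rw [this]; ring
  simp_rw [e1, e2]
  apply integral_integral_swap
  have hI : Integrable (fun z : ℝ × ℝ => (C * Real.exp (-z.1)) * Real.exp (-z.2))
      (((volume : Measure ℝ).restrict (Ioi 0)).prod ((volume : Measure ℝ).restrict (Ioi 0))) :=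
    Integrable.mul_prod (f := fun s : ℝ => C * Real.exp (-s)) (g := fun t : ℝ => Real.exp (-t))
      ((integrableOn_exp_neg_Ioi 0).const_mul C) (integrableOn_exp_neg_Ioi 0)
  refine Integrable.mono' hI ?_ ?_
  · apply Measurable.aestronglyMeasurable
    apply Measurable.mul
    · apply Measurable.mul
      · exact hm.comp (by fun_prop)
      · fun_prop
    · fun_prop
  · refine Filter.Eventually.of_forall (fun z => ?_)
    simp only [Function.uncurry]
    rw [Real.norm_eq_abs, abs_mul, abs_mul, abs_of_pos (Real.exp_pos _), abs_of_pos (Real.exp_pos _)]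
    have := hC (y + a * z.1 + b * z.2)
    have h1 := Real.exp_pos (-z.1)
    have h2 := Real.exp_pos (-z.2)
    calc |ψ (y + a * z.1 + b * z.2)| * Real.exp (-z.2) * Real.exp (-z.1)
        ≤ C * Real.exp (-z.2) * Real.exp (-z.1) := by gcongr
      _ = C * Real.exp (-z.1) * Real.exp (-z.2) := by ring

theorem T_one_sub (a : ℝ) {ψ : ℝ → ℝ} (h : BM ψ) :
    T a (fun y => 1 - ψ y) = fun y => 1 - T a ψ y := by
  funext y
  unfold T
  have e0 : ∫ t in Ioi (0:ℝ), (1 - ψ (y + a * t)) * Real.exp (-t)
      = ∫ t in Ioi (0:ℝ), (Real.exp (-t) - ψ (y + a * t) * Real.exp (-t)) := by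
    congr 1; funext t; ring
  rw [e0, integral_sub (integrableOn_exp_neg_Ioi 0) (wp2_integrableOn h y a),
    integral_exp_neg_Ioi_zero]

theorem T_zero (ψ : ℝ → ℝ) : T 0 ψ = ψ := by
  funext y
  unfold T
  simp only [zero_mul, add_zero]
  rw [integral_const_mul, integral_exp_neg_Ioi_zero, mul_one]

lemma wp2_shift (H : ℝ → ℝ) (s : ℝ) :
    ∫ t in Ioi (0:ℝ), H (s + t) = ∫ r in Ioi s, H r := by
  rw [← integral_indicator measurableSet_Ioi, ← integral_indicator measurableSet_Ioi,
    ← integral_add_left_eq_self (fun r => (Ioi s).indicator H r) s]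
  congr 1
  funext t
  by_cases ht : 0 < t
  · rw [indicator_of_mem (by simpa using ht), indicator_of_mem (by simpa using ht)]
  · rw [indicator_of_notMem (by simpa using ht), indicator_of_notMem (by simpa using ht)]

theorem TT_eq {F : ℝ → ℝ} (h : BM F) (y : ℝ) :
    T (-1) (T (-1) F) y = ∫ r in Ioi (0:ℝ), r * Real.exp (-r) * F (y - r) := by
  obtain ⟨hm, C, hC⟩ := h
  have hC0 : 0 ≤ C := (abs_nonneg _).trans (hC 0)
  unfold T
  set H : ℝ → ℝ := fun r => F (y - r) * Real.exp (-r) with hH
  have hHm : Measurable H := (hm.comp (by fun_prop)).mul (by fun_prop)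
  -- step 1: rewrite the inner integral
  have e1 : ∀ s ∈ Ioi (0:ℝ), (∫ t in Ioi (0:ℝ), F (y + -1 * s + -1 * t) * Real.exp (-t)) * Real.exp (-s)
      = ∫ r in Ioi (0:ℝ), (if s < r then H r else 0) := by
    intro s hs
    rw [← integral_mul_const]
    have : ∀ t : ℝ, F (y + -1 * s + -1 * t) * Real.exp (-t) * Real.exp (-s) = H (s + t) := by
      intro t
      simp only [hH]
      have a1 : y + -1 * s + -1 * t = y - (s + t) := by ring
      have a2 : Real.exp (-(s + t)) = Real.exp (-t) * Real.exp (-s) := by
        rw [← Real.exp_add]; congr 1; ring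
      rw [a1, a2]; ring
    simp_rw [this]
    rw [wp2_shift H s, ← integral_indicator measurableSet_Ioi, ← integral_indicator measurableSet_Ioi]
    congr 1
    funext r
    by_cases hr : s < r
    · have hr0 : (0:ℝ) < r := lt_trans hs hr
      rw [indicator_of_mem (by simpa using hr), indicator_of_mem (by simpa using hr0), if_pos hr]
    · rw [indicator_of_notMem (by simpa using hr)]
      by_cases hr0 : (0:ℝ) < r
      · rw [indicator_of_mem (by simpa using hr0), if_neg hr]
      · rw [indicator_of_notMem (by simpa using hr0)]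
  rw [setIntegral_congr_fun measurableSet_Ioi e1]
  -- step 2: swap
  have hI : Integrable (fun z : ℝ × ℝ => (C * Real.exp ((-1/2) * z.1)) * Real.exp ((-1/2) * z.2))
      (((volume : Measure ℝ).restrict (Ioi 0)).prod ((volume : Measure ℝ).restrict (Ioi 0))) :=
    Integrable.mul_prod (f := fun s : ℝ => C * Real.exp ((-1/2) * s))
      (g := fun t : ℝ => Real.exp ((-1/2) * t))
      ((integrableOn_exp_mul_Ioi (by norm_num) 0).const_mul C)
      (integrableOn_exp_mul_Ioi (by norm_num) 0)
  have hsw : Integrable (Function.uncurry (fun s r : ℝ => if s < r then H r else 0))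
      (((volume : Measure ℝ).restrict (Ioi 0)).prod ((volume : Measure ℝ).restrict (Ioi 0))) := by
    refine Integrable.mono' hI ?_ ?_
    · apply Measurable.aestronglyMeasurable
      apply Measurable.ite
      · exact measurableSet_lt measurable_fst measurable_snd
      · exact hHm.comp measurable_snd
      · exact measurable_const
    · refine Filter.Eventually.of_forall (fun z => ?_)
      simp only [Function.uncurry]
      split_ifs with hz
      · simp only [hH]
        rw [Real.norm_eq_abs, abs_mul, abs_of_pos (Real.exp_pos _)]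
        have b1 : Real.exp (-z.2) ≤ Real.exp ((-1/2) * z.1) * Real.exp ((-1/2) * z.2) := by
          rw [← Real.exp_add]
          apply Real.exp_le_exp.2
          linarith
        calc |F (y - z.2)| * Real.exp (-z.2) ≤ C * (Real.exp ((-1/2) * z.1) * Real.exp ((-1/2) * z.2)) := by
              gcongr
              exact hC _
          _ = _ := by ring
      · rw [norm_zero]; positivity
  rw [integral_integral_swap hsw]
  -- step 3: compute the inner integral
  refine setIntegral_congr_fun measurableSet_Ioi (fun r hr => ?_)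
  have hr0 : (0:ℝ) < r := hr
  have : ∀ s : ℝ, (if s < r then H r else 0) = (Iio r).indicator (fun _ => H r) s := by
    intro s
    by_cases hs : s < r
    · rw [if_pos hs, indicator_of_mem (by simpa using hs)]
    · rw [if_neg hs, indicator_of_notMem (by simpa using hs)]
  simp_rw [this]
  rw [integral_indicator measurableSet_Iio, Measure.restrict_restrict measurableSet_Iio,
    setIntegral_const]
  have : Iio r ∩ Ioi 0 = Ioo 0 r := by ext x; simp [and_comm]
  rw [this, measureReal_def, Real.volume_Ioo, ENNReal.toReal_ofReal (by linarith)]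
  simp only [hH, smul_eq_mul, sub_zero]
  ring

theorem Hs_BM (c : ℝ) : BM (Hs c) := by
  refine ⟨?_, 1, fun y => ?_⟩
  · unfold Hs
    exact Measurable.ite measurableSet_Ici measurable_const measurable_const
  · unfold Hs
    split_ifs <;> simp

/-- the weight of the statement is `1 - T₋₁ T₋₁ H` -/
theorem weight_eq (c y : ℝ) :
    (if c + y ≤ 0 then 1 else (1 + (c + y)) * Real.exp (-(c + y)))
      = 1 - T (-1) (T (-1) (Hs c)) y := by
  rw [TT_eq (Hs_BM c)]
  have e : ∀ r : ℝ, r * Real.exp (-r) * Hs c (y - r) = (Iic (c + y)).indicator (fun r => r * Real.exp (-r)) r := by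
    intro r
    unfold Hs
    by_cases hr : r ≤ c + y
    · rw [if_pos (by linarith), indicator_of_mem (by simpa using hr), mul_one]
    · rw [if_neg (by linarith), indicator_of_notMem (by simpa using hr), mul_zero]
  simp_rw [e]
  rw [integral_indicator measurableSet_Iic, Measure.restrict_restrict measurableSet_Iic]
  have hset : Iic (c + y) ∩ Ioi 0 = Ioc 0 (c + y) := by ext x; simp [and_comm]
  rw [hset]
  split_ifs with h
  · rw [Ioc_eq_empty (by linarith)]; simp
  · push Not at h
    rw [← intervalIntegral.integral_of_le h.le]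
    have hd : ∀ x ∈ Set.uIcc 0 (c + y), HasDerivAt (fun r : ℝ => -(1 + r) * Real.exp (-r)) (x * Real.exp (-x)) x := by
      intro x _
      have h1 : HasDerivAt (fun r : ℝ => -(1 + r)) (-1) x :=
        ((hasDerivAt_id' x).const_add 1).fun_neg
      have h2 : HasDerivAt (fun r : ℝ => Real.exp (-r)) (Real.exp (-x) * (-1)) x :=
        (Real.hasDerivAt_exp (-x)).comp x (hasDerivAt_neg x)
      have h3 := h1.fun_mul h2
      have e4 : x * Real.exp (-x) = -1 * Real.exp (-x) + -(1 + x) * (Real.exp (-x) * -1) := by ring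
      rw [e4]
      exact h3
    rw [intervalIntegral.integral_eq_sub_of_hasDerivAt hd
      ((by fun_prop : Continuous fun x : ℝ => x * Real.exp (-x)).intervalIntegrable _ _)]
    simp
    ring

theorem T_Hs {a : ℝ} (ha : 0 < a) (c : ℝ) :
    T a (Hs c) = fun y => min 1 (Real.exp ((y + c) / a)) := by
  funext y
  unfold T
  by_cases h : 0 ≤ y + c
  · have e : ∀ t ∈ Ioi (0:ℝ), Hs c (y + a * t) * Real.exp (-t) = Real.exp (-t) := by
      intro t ht
      have ht0 : (0:ℝ) < t := ht
      unfold Hs
      rw [if_pos (by nlinarith [mul_pos ha ht0]), one_mul]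
    rw [setIntegral_congr_fun measurableSet_Ioi e, integral_exp_neg_Ioi_zero]
    rw [min_eq_left]
    exact Real.one_le_exp (div_nonneg h ha.le)
  · push Not at h
    have e : ∀ t : ℝ, Hs c (y + a * t) * Real.exp (-t)
        = (Ici (-(y + c) / a)).indicator (fun t => Real.exp (-t)) t := by
      intro t
      unfold Hs
      by_cases ht : -(y + c) / a ≤ t
      · rw [indicator_of_mem (by simpa using ht), if_pos, one_mul]
        rw [div_le_iff₀ ha] at ht
        linarith
      · rw [indicator_of_notMem (by simpa using ht), if_neg, zero_mul]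
        rw [div_le_iff₀ ha] at ht
        linarith
    simp_rw [e]
    rw [integral_indicator measurableSet_Ici, Measure.restrict_restrict measurableSet_Ici]
    have hpos : 0 < -(y + c) / a := div_pos (by linarith) ha
    have hset : Ici (-(y + c) / a) ∩ Ioi 0 = Ici (-(y + c) / a) := by
      ext x; simp only [mem_inter_iff, mem_Ici, mem_Ioi]
      exact ⟨fun h => h.1, fun h => ⟨h, lt_of_lt_of_le hpos h⟩⟩
    rw [hset, integral_Ici_eq_integral_Ioi, integral_exp_neg_Ioi]
    rw [min_eq_right]
    · congr 1; ring
    · apply Real.exp_le_one_iff.2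
      exact (div_neg_of_neg_of_pos h ha).le

end Crest.Agent.Lib_S0423
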