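import Crest.Agent.Lib_S0423_Defs

/-! WP4 for S0423: the key one-dimensional inequality (log-chord argument of helper63). -/

set_option autoImplicit false

open MeasureTheory Set Filter Topology

namespace Crest.Agent.Lib_S0423

theorem wp4_intble_exp {k : ℝ} (hk : 0 < k) :
    IntegrableOn (fun r : ℝ => Real.exp (-(k * r))) (Ioi 0) := by
  have := integrableOn_exp_mul_Ioi (a := -k) (by linarith) 0
  simpa [neg_mul] using this

theorem wp4_int_exp {k : ℝ} (hk : 0 < k) :
    ∫ r in Ioi (0:ℝ), Real.exp (-(k * r)) = 1 / k := by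
  have := integral_exp_mul_Ioi (a := -k) (by linarith) 0
  simp only [neg_mul] at this
  rw [this]
  simp
  
theorem wp4_int_r_exp {k : ℝ} (hk : 0 < k) :
    ∫ r in Ioi (0:ℝ), r * Real.exp (-(k * r)) = 1 / k ^ 2 := by
  have := Real.integral_rpow_mul_exp_neg_mul_Ioi (a := 2) (r := k) (by norm_num) hk
  have hG : Real.Gamma 2 = 1 := by
    have := Real.Gamma_nat_eq_factorial 1
    norm_num at this
    simp
  rw [hG] at this
  have e : ∀ t : ℝ, t ^ ((2:ℝ) - 1) = t := by intro t; norm_num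
  simp only [e] at this
  rw [this]
  have : (1 / k) ^ (2:ℝ) = (1 / k) ^ (2:ℕ) := by
    rw [← Real.rpow_natCast]; norm_num
  rw [this]
  field_simp

theorem wp4_intble_r_exp {k : ℝ} (hk : 0 < k) :
    IntegrableOn (fun r : ℝ => r * Real.exp (-(k * r))) (Ioi 0) := by
  by_contra h
  have h1 := wp4_int_r_exp hk
  rw [integral_undef h] at h1
  have : (0:ℝ) < 1 / k ^ 2 := by positivity
  linarith

theorem wp4_intble_r2_exp {k : ℝ} (hk : 0 < k) :
    IntegrableOn (fun r : ℝ => r ^ 2 * Real.exp (-(k * r))) (Ioi 0) := by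
  by_contra h
  have h1 := Real.integral_rpow_mul_exp_neg_mul_Ioi (a := 3) (r := k) (by norm_num) hk
  have e : ∀ t : ℝ, t ^ ((3:ℝ) - 1) = t ^ 2 := by
    intro t
    rw [← Real.rpow_natCast]; norm_num
  simp only [e] at h1
  rw [integral_undef h] at h1
  have : (0:ℝ) < (1 / k) ^ (3:ℝ) * Real.Gamma 3 := by
    have := Real.Gamma_pos_of_pos (show (0:ℝ) < 3 by norm_num)
    positivity
  linarith

/-- scalar part -/
theorem wp4_scalar {β v0 v1 : ℝ} (hβ : 0 < β) (hv0 : 4 / 3 ≤ v0) (hv1 : 1 / 3 ≤ v1)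
    (h01 : v0 = v1 * Real.exp β)
    (hfar : β ≤ 3 / 4 → 1 / β ≤ v0 * Real.exp (1 - 4 * β / 3)) :
    4 / 9 * Real.exp (-(1/3)) ≤ v0 * (β / (1 + β) ^ 2) := by
  have h32 : 4 / 9 * Real.exp (-(1/3)) ≤ 0.32 := by
    have h1 : (25:ℝ) / 18 ≤ Real.exp (1/3) := by
      have := Real.quadratic_le_exp_of_nonneg (x := 1/3) (by norm_num)
      norm_num at this ⊢
      linarith
    rw [Real.exp_neg]
    have hpos : 0 < Real.exp (1/3) := Real.exp_pos _
    have : (Real.exp (1/3))⁻¹ ≤ 18 / 25 := by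
      rw [inv_le_comm₀ hpos (by norm_num)]
      norm_num
      linarith
    linarith
  have hb2 : 0 < (1 + β) ^ 2 := by positivity
  rcases le_total β (3/4) with hc | hc
  · -- far point
    have hf := hfar hc
    have hE : Real.exp (1 - 4 * β / 3) * Real.exp (4 * β / 3 - 1) = 1 := by
      rw [← Real.exp_add]; simp
    have hv : Real.exp (4 * β / 3 - 1) / β ≤ v0 := by
      have h2 : 1 / β * Real.exp (4 * β / 3 - 1) ≤ v0 * Real.exp (1 - 4 * β / 3) * Real.exp (4 * β / 3 - 1) :=
        mul_le_mul_of_nonneg_right hf (Real.exp_pos _).le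
      rw [mul_assoc, hE, mul_one] at h2
      calc Real.exp (4 * β / 3 - 1) / β = 1 / β * Real.exp (4 * β / 3 - 1) := by ring
        _ ≤ v0 := h2
    have h3 : Real.exp (4 * β / 3 - 1) / (1 + β) ^ 2 ≤ v0 * (β / (1 + β) ^ 2) := by
      have : Real.exp (4 * β / 3 - 1) / β * (β / (1 + β) ^ 2) ≤ v0 * (β / (1 + β) ^ 2) :=
        mul_le_mul_of_nonneg_right hv (by positivity)
      calc Real.exp (4 * β / 3 - 1) / (1 + β) ^ 2 = Real.exp (4 * β / 3 - 1) / β * (β / (1 + β) ^ 2) := by
            field_simp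
        _ ≤ _ := this
    refine le_trans ?_ h3
    rw [le_div_iff₀ hb2]
    -- 4/9 e^{-1/3} (1+β)^2 ≤ e^{4β/3-1}
    have h4 : (2 / 3 * (1 + β)) ≤ Real.exp ((2 * β - 1) / 3) := by
      have := Real.add_one_le_exp ((2 * β - 1) / 3)
      linarith
    have h5 : (2 / 3 * (1 + β)) ^ 2 ≤ Real.exp ((2 * β - 1) / 3) ^ 2 :=
      pow_le_pow_left₀ (by positivity) h4 2
    have h6 : Real.exp ((2 * β - 1) / 3) ^ 2 = Real.exp (4 * β / 3 - 1) * Real.exp (1/3) := by
      rw [← Real.exp_add, sq, ← Real.exp_add]; congr 1; ring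
    have h7 : Real.exp (-(1/3)) * Real.exp (1/3) = 1 := by
      rw [← Real.exp_add]; simp
    have hp : 0 < Real.exp (-(1/3)) := Real.exp_pos _
    calc 4 / 9 * Real.exp (-(1/3)) * (1 + β) ^ 2 = Real.exp (-(1/3)) * (2 / 3 * (1 + β)) ^ 2 := by ring
      _ ≤ Real.exp (-(1/3)) * (Real.exp (4 * β / 3 - 1) * Real.exp (1/3)) := by
          rw [← h6]; exact mul_le_mul_of_nonneg_left h5 hp.le
      _ = Real.exp (4 * β / 3 - 1) * (Real.exp (-(1/3)) * Real.exp (1/3)) := by ring
      _ = Real.exp (4 * β / 3 - 1) := by rw [h7, mul_one]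
  · refine le_trans h32 ?_
    rcases le_total β (3/2) with hd | hd
    · have h1 : 4 / 3 * (β / (1 + β) ^ 2) ≤ v0 * (β / (1 + β) ^ 2) :=
        mul_le_mul_of_nonneg_right hv0 (by positivity)
      refine le_trans ?_ h1
      rw [← mul_div_assoc, le_div_iff₀ hb2]
      nlinarith
    · have he : 4 * (β - 1 / 2) ≤ Real.exp β := by
        have h1 : (4:ℝ) ≤ Real.exp (3/2) := by
          have := Real.quadratic_le_exp_of_nonneg (x := 3/2) (by norm_num)
          have h2 : Real.exp (3/2) = Real.exp (3/4) * Real.exp (3/4) := by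
            rw [← Real.exp_add]; norm_num
          have h3 := Real.quadratic_le_exp_of_nonneg (x := 3/4) (by norm_num)
          rw [h2]
          nlinarith
        have h2 : β - 3 / 2 + 1 ≤ Real.exp (β - 3/2) := Real.add_one_le_exp _
        have h3 : Real.exp β = Real.exp (3/2) * Real.exp (β - 3/2) := by
          rw [← Real.exp_add]; congr 1; ring
        rw [h3]
        have : 0 ≤ β - 3 / 2 + 1 := by linarith
        nlinarith
      have hv : 4 / 3 * (β - 1 / 2) ≤ v0 := by
        rw [h01]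
        have : 0 < Real.exp β := Real.exp_pos _
        nlinarith
      have h1 : 4 / 3 * (β - 1 / 2) * (β / (1 + β) ^ 2) ≤ v0 * (β / (1 + β) ^ 2) :=
        mul_le_mul_of_nonneg_right hv (by positivity)
      refine le_trans ?_ h1
      rw [← mul_div_assoc, le_div_iff₀ hb2]
      nlinarith

theorem keyV {V : ℝ → ℝ} (h : GoodV V (4/3)) : 4 / 9 * Real.exp (-(1/3)) ≤ Q V 0 := by
  set l : ℝ → ℝ := fun y => Real.log (V y) with hl
  set β : ℝ := l 0 - l (-1) with hβdef
  have hconc := h.logconc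
  -- chord inequalities
  have hA : ∀ y, -1 ≤ y → y ≤ 0 → l 0 + β * y ≤ l y := by
    intro y h1 h2
    have := hconc.2 (mem_univ (-1:ℝ)) (mem_univ (0:ℝ)) (show 0 ≤ -y by linarith)
      (show 0 ≤ 1 + y by linarith) (by ring)
    simp only [smul_eq_mul] at this
    have e : -y * -1 + (1 + y) * 0 = y := by ring
    rw [e] at this
    have : -y * l (-1) + (1 + y) * l 0 ≤ l y := this
    rw [hβdef]; nlinarith
  have hB : ∀ y, y ≤ -1 → l y ≤ l 0 + β * y := by
    intro y h1
    have hy : 0 < -y := by linarith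
    have hy0 : y ≠ 0 := by intro h0; rw [h0] at hy; simp at hy
    have := hconc.2 (mem_univ y) (mem_univ (0:ℝ)) (show 0 ≤ 1 / (-y) by positivity)
      (show 0 ≤ 1 - 1 / (-y) by
        rw [sub_nonneg, div_le_one hy]; linarith) (by ring)
    simp only [smul_eq_mul] at this
    have e : 1 / (-y) * y + (1 - 1 / (-y)) * 0 = -1 := by field_simp; ring
    rw [e] at this
    have h3 : 1 / (-y) * l y + (1 - 1 / (-y)) * l 0 ≤ l (-1) := this
    have h4 : (-y) * (1 / (-y) * l y + (1 - 1 / (-y)) * l 0) ≤ (-y) * l (-1) :=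
      mul_le_mul_of_nonneg_left h3 hy.le
    have e2 : (-y) * (1 / (-y) * l y + (1 - 1 / (-y)) * l 0) = l y + (-y - 1) * l 0 := by
      field_simp; ring
    rw [e2] at h4
    rw [hβdef]; nlinarith
  have hC : ∀ y, 0 ≤ y → l y ≤ l 0 + β * y := by
    intro y h1
    have hy : 0 < 1 + y := by linarith
    have := hconc.2 (mem_univ (-1:ℝ)) (mem_univ y) (show 0 ≤ y / (1 + y) by positivity)
      (show 0 ≤ 1 / (1 + y) by positivity) (by field_simp; ring)
    simp only [smul_eq_mul] at this
    have e : y / (1 + y) * -1 + 1 / (1 + y) * y = 0 := by field_simp; ring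
    rw [e] at this
    have h3 : y / (1 + y) * l (-1) + 1 / (1 + y) * l y ≤ l 0 := this
    have h4 : (1 + y) * (y / (1 + y) * l (-1) + 1 / (1 + y) * l y) ≤ (1 + y) * l 0 :=
      mul_le_mul_of_nonneg_left h3 hy.le
    have e2 : (1 + y) * (y / (1 + y) * l (-1) + 1 / (1 + y) * l y) = y * l (-1) + l y := by
      field_simp
    rw [e2] at h4
    rw [hβdef]; nlinarith
  -- exponentiated
  have hexp : ∀ y, V y = Real.exp (l y) := fun y => (Real.exp_log (h.pos y)).symm
  have hL : ∀ y, V 0 * Real.exp (β * y) = Real.exp (l 0 + β * y) := by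
    intro y; rw [Real.exp_add, ← hexp]
  have hA' : ∀ y, -1 ≤ y → y ≤ 0 → V 0 * Real.exp (β * y) ≤ V y := by
    intro y h1 h2; rw [hL, hexp y]; exact Real.exp_le_exp.2 (hA y h1 h2)
  have hB' : ∀ y, y ≤ -1 → V y ≤ V 0 * Real.exp (β * y) := by
    intro y h1; rw [hL, hexp y]; exact Real.exp_le_exp.2 (hB y h1)
  have hC' : ∀ y, 0 ≤ y → V y ≤ V 0 * Real.exp (β * y) := by
    intro y h1; rw [hL, hexp y]; exact Real.exp_le_exp.2 (hC y h1)
  have hv0 : 4 / 3 ≤ V 0 := by have := h.lower 0; linarith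
  have hv1 : 1 / 3 ≤ V (-1) := by have := h.lower (-1); linarith
  have hβ : 0 < β := by
    by_contra hneg
    push Not at hneg
    have h1 := hC' (V 0) (by linarith)
    have h2 := h.lower (V 0)
    have h3 : Real.exp (β * V 0) ≤ 1 := by
      rw [Real.exp_le_one_iff]
      exact mul_nonpos_of_nonpos_of_nonneg hneg (by linarith)
    have : V 0 * Real.exp (β * V 0) ≤ V 0 * 1 := mul_le_mul_of_nonneg_left h3 (by linarith)
    linarith
  have h01 : V 0 = V (-1) * Real.exp β := by
    rw [hexp 0, hexp (-1), ← Real.exp_add]; congr 1; rw [hβdef]; ring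
  have hfar : β ≤ 3 / 4 → 1 / β ≤ V 0 * Real.exp (1 - 4 * β / 3) := by
    intro hb
    have hy : 0 ≤ 1 / β - 4 / 3 := by
      rw [sub_nonneg, le_div_iff₀ hβ]; linarith
    have h1 := hC' _ hy
    have h2 := h.lower (1 / β - 4 / 3)
    have e : β * (1 / β - 4 / 3) = 1 - 4 * β / 3 := by field_simp
    rw [e] at h1
    linarith
  have hsc := wp4_scalar hβ hv0 hv1 h01 hfar
  refine le_trans hsc ?_
  -- integral comparison
  have hk : 0 < 1 + β := by linarith
  have hI1 : IntegrableOn (fun r : ℝ => (1 - r) * Real.exp (-r) * (V 0 * Real.exp (β * (0 - r)))) (Ioi 0) := by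
    have := ((wp4_intble_exp hk).sub (wp4_intble_r_exp hk)).const_mul (V 0)
    refine IntegrableOn.congr_fun this (fun r _ => ?_) measurableSet_Ioi
    have e : Real.exp (-r) * Real.exp (β * (0 - r)) = Real.exp (-((1 + β) * r)) := by
      rw [← Real.exp_add]; congr 1; ring
    simp only [Pi.sub_apply]
    calc V 0 * (Real.exp (-((1 + β) * r)) - r * Real.exp (-((1 + β) * r)))
        = (1 - r) * (Real.exp (-r) * Real.exp (β * (0 - r))) * V 0 := by rw [e]; ring
      _ = _ := by ring
  have hval : ∫ r in Ioi (0:ℝ), (1 - r) * Real.exp (-r) * (V 0 * Real.exp (β * (0 - r)))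
      = V 0 * (β / (1 + β) ^ 2) := by
    have e : ∀ r : ℝ, (1 - r) * Real.exp (-r) * (V 0 * Real.exp (β * (0 - r)))
        = V 0 * (Real.exp (-((1 + β) * r)) - r * Real.exp (-((1 + β) * r))) := by
      intro r
      have e : Real.exp (-r) * Real.exp (β * (0 - r)) = Real.exp (-((1 + β) * r)) := by
        rw [← Real.exp_add]; congr 1; ring
      calc (1 - r) * Real.exp (-r) * (V 0 * Real.exp (β * (0 - r)))
          = (1 - r) * (Real.exp (-r) * Real.exp (β * (0 - r))) * V 0 := by ring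
        _ = _ := by rw [e]; ring
    simp_rw [e]
    rw [integral_const_mul, integral_sub (wp4_intble_exp hk) (wp4_intble_r_exp hk),
      wp4_int_exp hk, wp4_int_r_exp hk]
    congr 1
    field_simp
    ring
  have hI2 : IntegrableOn (fun r : ℝ => (1 - r) * Real.exp (-r) * V (0 - r)) (Ioi 0) := by
    obtain ⟨C, hC⟩ := h.growth
    have hC0 : 0 ≤ C := by
      have := hC 0
      have h2 := abs_nonneg (V 0)
      simp at this
      linarith
    have one : (0:ℝ) < 1 := one_pos
    have hdom : IntegrableOn (fun r : ℝ => C * (Real.exp (-(1 * r)) + 2 * (r * Real.exp (-(1 * r)))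
        + r ^ 2 * Real.exp (-(1 * r)))) (Ioi 0) :=
      (((wp4_intble_exp one).add ((wp4_intble_r_exp one).const_mul 2)).add (wp4_intble_r2_exp one)).const_mul C
    refine Integrable.mono' hdom ?_ ?_
    · have : Continuous (fun r : ℝ => (1 - r) * Real.exp (-r) * V (0 - r)) := by
        have := h.cont
        fun_prop
      exact this.aestronglyMeasurable
    · rw [ae_restrict_iff' measurableSet_Ioi]
      refine Filter.Eventually.of_forall (fun r hr => ?_)
      have hr0 : (0:ℝ) < r := hr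
      rw [Real.norm_eq_abs, abs_mul, abs_mul, abs_of_pos (Real.exp_pos _)]
      have h1 : |1 - r| ≤ 1 + r := by
        rw [abs_le]; constructor <;> linarith
      have h2 : |V (0 - r)| ≤ C * (1 + r) := by
        have := hC (0 - r)
        rw [zero_sub, abs_neg, abs_of_pos hr0] at this
        simpa using this
      have hE := Real.exp_pos (-r)
      calc |1 - r| * Real.exp (-r) * |V (0 - r)| ≤ (1 + r) * Real.exp (-r) * (C * (1 + r)) := by
            apply mul_le_mul _ h2 (abs_nonneg _) (by positivity)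
            exact mul_le_mul_of_nonneg_right h1 hE.le
        _ = C * (Real.exp (-(1 * r)) + 2 * (r * Real.exp (-(1 * r))) + r ^ 2 * Real.exp (-(1 * r))) := by
            rw [one_mul]; ring
  rw [← hval]
  unfold Q
  refine setIntegral_mono_on hI1 hI2 measurableSet_Ioi (fun r hr => ?_)
  have hr0 : (0:ℝ) < r := hr
  have hE := Real.exp_pos (-r)
  rcases le_total r 1 with h1 | h1
  · have := hA' (0 - r) (by linarith) (by linarith)
    exact mul_le_mul_of_nonneg_left this (mul_nonneg (by linarith) hE.le)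
  · have := hB' (0 - r) (by linarith)
    exact mul_le_mul_of_nonpos_left this (mul_nonpos_of_nonpos_of_nonneg (by linarith) hE.le)

theorem num1V : (7:ℝ) / 3 * Real.exp (-(4/3)) ≤ 1 - 4 / 9 * Real.exp (-(1/3)) := by
  have h1 : (25:ℝ) / 18 ≤ Real.exp (1/3) := by
    have := Real.quadratic_le_exp_of_nonneg (x := 1/3) (by norm_num)
    norm_num at this ⊢
    linarith
  have hpos : 0 < Real.exp (1/3) := Real.exp_pos _
  have h2 : Real.exp (-(1/3)) ≤ 18 / 25 := by
    rw [Real.exp_neg, inv_le_comm₀ hpos (by norm_num)]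
    norm_num
    linarith
  have h3 : Real.exp (-(4/3)) = Real.exp (-(1/3)) ^ 4 := by
    rw [← Real.exp_nat_mul]; congr 1; norm_num
  have hp : 0 < Real.exp (-(1/3)) := Real.exp_pos _
  have h4 : Real.exp (-(1/3)) ^ 4 ≤ (18 / 25) ^ 4 := pow_le_pow_left₀ hp.le h2 4
  rw [h3]
  have : (7:ℝ) / 3 * (18 / 25) ^ 4 ≤ 1 - 4 / 9 * (18 / 25) := by norm_num
  linarith

end Crest.Agent.Lib_S0423
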