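import Mathlib

set_option autoImplicit false

namespace Crest.Agent.Lib_helper17_Lattice

/-- Unit squares translated by the lattice generated by `(1,y)` and `(x,1)` cover the plane as soon
as `0 ≤ x*y < 1`. -/
theorem lattice_cover (x y : ℝ) (h0 : 0 ≤ x * y) (h1 : x * y < 1) (X Y : ℝ) :
    ∃ i j : ℤ, 0 ≤ X - i - j * x ∧ X - i - j * x ≤ 1 ∧ 0 ≤ Y - j - i * y ∧ Y - j - i * y ≤ 1 := by
  classical
  let I : ℤ → ℤ := fun j => ⌊X - j * x⌋
  let H : ℤ → ℝ := fun j => j + y * I j
  have hI1 : ∀ j : ℤ, (I j : ℝ) ≤ X - j * x := fun j => Int.floor_le _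
  have hI2 : ∀ j : ℤ, X - j * x < I j + 1 := fun j => Int.lt_floor_add_one _
  have hd : 0 < 1 - x * y := by linarith
  have step : ∀ j : ℤ, H (j + 1) ≤ H j + 1 := by
    intro j
    have key : y * ((I (j + 1) : ℝ) - I j) ≤ 0 := by
      rcases lt_trichotomy y 0 with hy | hy | hy
      · have hx : x ≤ 0 := by
          by_contra hx
          push_neg at hx
          nlinarith
        have : I j ≤ I (j + 1) := by
          apply Int.floor_le_floor
          push_cast
          nlinarith
        have : (I j : ℝ) ≤ I (j + 1) := by exact_mod_cast this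
        nlinarith
      · simp [hy]
      · have hx : 0 ≤ x := by
          by_contra hx
          push_neg at hx
          nlinarith
        have : I (j + 1) ≤ I j := by
          apply Int.floor_le_floor
          push_cast
          nlinarith
        have : (I (j + 1) : ℝ) ≤ I j := by exact_mod_cast this
        nlinarith
    simp only [H]
    push_cast
    nlinarith
  have hlow : ∀ j : ℤ, (j : ℝ) * (1 - x * y) + y * X - |y| ≤ H j := by
    intro j
    have a1 := hI1 j
    have a2 := hI2 j
    simp only [H]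
    rcases le_total 0 y with hy | hy
    · rw [abs_of_nonneg hy]
      nlinarith
    · rw [abs_of_nonpos hy]
      nlinarith
  have hup : ∀ j : ℤ, H j ≤ (j : ℝ) * (1 - x * y) + y * X + |y| := by
    intro j
    have a1 := hI1 j
    have a2 := hI2 j
    simp only [H]
    rcases le_total 0 y with hy | hy
    · rw [abs_of_nonneg hy]
      nlinarith
    · rw [abs_of_nonpos hy]
      nlinarith
  have hinh : ∃ j : ℤ, Y - 1 < H j := by
    obtain ⟨j, hj⟩ := exists_int_gt ((Y - 1 - y * X + |y|) / (1 - x * y))
    refine ⟨j, lt_of_lt_of_le ?_ (hlow j)⟩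
    rw [div_lt_iff₀ hd] at hj
    linarith
  have hbdd : ∃ b : ℤ, ∀ j : ℤ, Y - 1 < H j → b ≤ j := by
    obtain ⟨b, hb⟩ := exists_int_lt ((Y - 1 - y * X - |y|) / (1 - x * y))
    refine ⟨b, fun j hj => ?_⟩
    by_contra hlt
    push_neg at hlt
    have hjb : (j : ℝ) ≤ b := by exact_mod_cast hlt.le
    rw [lt_div_iff₀ hd] at hb
    have := hup j
    nlinarith
  obtain ⟨j, hj1, hj2⟩ := Int.exists_least_of_bdd hbdd hinh
  have hprev : H (j - 1) ≤ Y - 1 := by
    by_contra hc
    push_neg at hc
    have := hj2 (j - 1) hc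
    omega
  have hj3 : H j ≤ Y := by
    have := step (j - 1)
    rw [sub_add_cancel] at this
    linarith
  refine ⟨I j, j, ?_, ?_, ?_, ?_⟩
  · have := hI1 j
    linarith
  · have := hI2 j
    linarith
  · simp only [H] at hj3
    linarith
  · simp only [H] at hj1
    linarith

end Crest.Agent.Lib_helper17_Lattice
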