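import Crest.Agent.Lib_Cyl_Local

set_option autoImplicit false
open MeasureTheory
open scoped ENNReal Topology

namespace Crest.Agent.Lib_helper17_S0326Global

open Crest.Agent.Cyl

/-- the weight -/
noncomputable def J (h : ℝ) (g : E2) : ℝ := 1 / Real.sqrt (1 + (g 0) ^ 2 + h ^ 2 * (g 1) ^ 2)

theorem J_pos (h : ℝ) (g : E2) : 0 < J h g := by
  unfold J
  have : 0 < 1 + (g 0) ^ 2 + h ^ 2 * (g 1) ^ 2 := by positivity
  positivity

theorem J_le_one (h : ℝ) (g : E2) : J h g ≤ 1 := by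
  unfold J
  have h1 : (1:ℝ) ≤ 1 + (g 0) ^ 2 + h ^ 2 * (g 1) ^ 2 := by
    have : 0 ≤ (g 0) ^ 2 + h ^ 2 * (g 1) ^ 2 := by positivity
    linarith
  have h2 : 1 ≤ Real.sqrt (1 + (g 0) ^ 2 + h ^ 2 * (g 1) ^ 2) := Real.one_le_sqrt.mpr h1
  rw [div_le_one (by linarith)]
  exact h2

theorem normsq2 (x : E2) : ‖x‖ ^ 2 = x 0 ^ 2 + x 1 ^ 2 := by
  rw [EuclideanSpace.norm_sq_eq]
  simp [Fin.sum_univ_two]

theorem J_lip (h : ℝ) (hh : 0 < h) (g g' : E2) : |J h g - J h g'| ≤ max 1 h * ‖g - g'‖ := by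
  let x : E3 := !₂[1, g 0, h * g 1]
  let x' : E3 := !₂[1, g' 0, h * g' 1]
  have hx : ‖x‖ = Real.sqrt (1 + (g 0) ^ 2 + h ^ 2 * (g 1) ^ 2) := by
    rw [EuclideanSpace.norm_eq]
    congr 1
    simp [x, Fin.sum_univ_three]
    ring
  have hx' : ‖x'‖ = Real.sqrt (1 + (g' 0) ^ 2 + h ^ 2 * (g' 1) ^ 2) := by
    rw [EuclideanSpace.norm_eq]
    congr 1
    simp [x', Fin.sum_univ_three]
    ring
  have h1 : 1 ≤ ‖x‖ := by
    rw [hx, Real.one_le_sqrt]
    have : 0 ≤ (g 0) ^ 2 + h ^ 2 * (g 1) ^ 2 := by positivity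
    linarith
  have h1' : 1 ≤ ‖x'‖ := by
    rw [hx', Real.one_le_sqrt]
    have : 0 ≤ (g' 0) ^ 2 + h ^ 2 * (g' 1) ^ 2 := by positivity
    linarith
  have hd : ‖x - x'‖ ≤ max 1 h * ‖g - g'‖ := by
    have hm : 0 ≤ max 1 h := le_trans zero_le_one (le_max_left _ _)
    apply (sq_le_sq₀ (norm_nonneg _) (by positivity)).1
    rw [mul_pow, normsq2, EuclideanSpace.norm_sq_eq]
    simp [x, x', Fin.sum_univ_three]
    have m1 : 1 ≤ (max 1 h) ^ 2 := by
      have : (1:ℝ) ≤ max 1 h := le_max_left _ _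
      nlinarith
    have m2 : h ^ 2 ≤ (max 1 h) ^ 2 := by
      have : h ≤ max 1 h := le_max_right _ _
      nlinarith
    have e : (h * g 1 - h * g' 1) ^ 2 = h ^ 2 * (g 1 - g' 1) ^ 2 := by ring
    rw [e]
    nlinarith [sq_nonneg (g 0 - g' 0), sq_nonneg (g 1 - g' 1)]
  have hJ : J h g - J h g' = (‖x'‖ - ‖x‖) / (‖x‖ * ‖x'‖) := by
    unfold J
    rw [← hx, ← hx']
    field_simp
  rw [hJ, abs_div, abs_of_pos (show 0 < ‖x‖ * ‖x'‖ by positivity)]
  calc |‖x'‖ - ‖x‖| / (‖x‖ * ‖x'‖) ≤ |‖x'‖ - ‖x‖| := by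
        apply div_le_self (abs_nonneg _)
        nlinarith
    _ ≤ ‖x' - x‖ := abs_norm_sub_norm_le _ _
    _ = ‖x - x'‖ := norm_sub_rev _ _
    _ ≤ _ := hd


theorem piece_cost
    (V : E2 → E2) (W : Set E2) (hWc : Convex ℝ W) (hVd : ∀ z ∈ W, DifferentiableAt ℝ V z)
    (A : E2 →L[ℝ] E2) (htr : LinearMap.trace ℝ _ A.toLinearMap = 0)
    (L h : ℝ) (hL : 0 < L) (hh : 0 < h) (M₁ κ₀ : ℝ) (hM₁ : ‖A‖ ≤ M₁) (hκ₀ : 0 < κ₀)
    (hdet1 : κ₀ ≤ 1 + L ^ 2 * LinearMap.det A.toLinearMap) (hdet2 : LinearMap.det A.toLinearMap ≤ 0)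
    (η : ℝ) (hη : 0 ≤ η) (hA : ∀ z ∈ W, ‖fderiv ℝ V z - A‖ ≤ η)
    (P : Set E2) (hPW : P ⊆ W) (hPc : IsCompact P) (r : ℝ) (hr : 0 < r)
    (ε₁ θ φ : ℝ) (hε₁ : 0 ≤ ε₁) (hθ : 0 ≤ θ) (hφ0 : 0 ≤ φ)
    (hr1 : max 1 h * (M₁ * Ccst L M₁ κ₀ * r) ≤ ε₁)
    (hr2 : volume (Metric.cthickening ((Ccst L M₁ κ₀ + 2) * r) P) ≤ volume P + ENNReal.ofReal θ)
    (hφ : ∀ p ∈ P, J h (V p) ≤ φ) :
    ∃ (k : ℕ) (c a b g : Fin k → E2),
      (∀ i, a i ≠ 0 ∧ ‖b i‖ = ‖a i‖ ∧ inner ℝ (a i) (b i) = 0) ∧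
      {z : ℝ × E2 | ∃ p ∈ P, |z.1| ≤ L ∧ z.2 = p + z.1 • V p} ⊆
        ⋃ i, {z : ℝ × E2 | ∃ x ∈ Set.Icc (0 : ℝ) 1, ∃ y ∈ Set.Icc (0 : ℝ) 1,
          z.2 = c i + x • a i + y • b i + z.1 • g i} ∧
      ∑ i, ‖a i‖ ^ 2 * J h (g i) ≤
        (1 + 4 * L * Ccst L M₁ κ₀ * η) ^ 2 * (((volume P).toReal + θ) * (φ + ε₁)) := by
  obtain ⟨k, c, a, b, g, hab, hcov, hg, hcount⟩ :=
    local_tiles V W hWc hVd A htr L hL M₁ κ₀ hM₁ hκ₀ hdet1 hdet2 η hη hA P hPW hPc.isBounded r hr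
  have hM₁0 : 0 ≤ M₁ := (norm_nonneg A).trans hM₁
  set C := Ccst L M₁ κ₀ with hC
  have hCpos : 0 < C := by
    rw [hC]; unfold Ccst; positivity
  have hfac : 0 < 1 + 4 * L * C * η := by positivity
  refine ⟨k, c, a, b, g, ?_, hcov, ?_⟩
  · intro i
    refine ⟨?_, (hab i).2.1, (hab i).2.2⟩
    intro h0
    have := (hab i).1
    rw [h0, norm_zero] at this
    have : 0 < r * (1 + 4 * L * C * η) := by positivity
    linarith
  · have hJ : ∀ i, J h (g i) ≤ φ + ε₁ := by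
      intro i
      obtain ⟨p, hp, hpg⟩ := hg i
      have h1 := J_lip h hh (g i) (V p)
      have h2 : max 1 h * ‖g i - V p‖ ≤ ε₁ :=
        le_trans (mul_le_mul_of_nonneg_left hpg (le_trans zero_le_one (le_max_left _ _))) hr1
      have h3 := (abs_le.mp h1).2
      linarith [hφ p hp]
    have hk : (k : ℝ) * r ^ 2 ≤ (volume P).toReal + θ := by
      have hfin : volume P + ENNReal.ofReal θ ≠ ⊤ :=
        ENNReal.add_ne_top.mpr ⟨hPc.measure_lt_top.ne, ENNReal.ofReal_ne_top⟩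
      have := (ENNReal.ofReal_le_iff_le_toReal hfin).1 (hcount.trans hr2)
      rwa [ENNReal.toReal_add hPc.measure_lt_top.ne ENNReal.ofReal_ne_top,
        ENNReal.toReal_ofReal hθ] at this
    calc ∑ i, ‖a i‖ ^ 2 * J h (g i)
        ≤ ∑ _i : Fin k, (r * (1 + 4 * L * C * η)) ^ 2 * (φ + ε₁) := by
          apply Finset.sum_le_sum
          intro i _
          rw [(hab i).1]
          exact mul_le_mul_of_nonneg_left (hJ i) (by positivity)
      _ = (1 + 4 * L * C * η) ^ 2 * (((k : ℝ) * r ^ 2) * (φ + ε₁)) := by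
          rw [Finset.sum_const, Finset.card_univ, Fintype.card_fin, nsmul_eq_mul]
          ring
      _ ≤ _ := by
          apply mul_le_mul_of_nonneg_left _ (by positivity)
          exact mul_le_mul_of_nonneg_right hk (by positivity)


theorem exists_pieces (D : Set E2) (hD : IsCompact D) (n : ℕ) (x : Fin n → E2) (ρ : Fin n → ℝ)
    (hρ : ∀ k, 0 < ρ k) (hcov : D ⊆ ⋃ k, Metric.closedBall (x k) (ρ k)) :
    ∃ P : Fin n → Set E2, (∀ k, IsCompact (P k)) ∧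
      (∀ k, P k ⊆ D ∩ Metric.closedBall (x k) (ρ k)) ∧ (⋃ k, P k) = D ∧
      Pairwise (Function.onFun (AEDisjoint (volume : Measure E2)) P) := by
  classical
  let P : Fin n → Set E2 := fun k =>
    (D ∩ Metric.closedBall (x k) (ρ k)) \ ⋃ j ∈ {j : Fin n | j < k}, Metric.ball (x j) (ρ j)
  have hsubset : ∀ k, P k ⊆ D ∩ Metric.closedBall (x k) (ρ k) := fun k => Set.diff_subset
  refine ⟨P, ?_, hsubset, ?_, ?_⟩
  · intro k
    have hopen : IsOpen (⋃ j ∈ {j : Fin n | j < k}, Metric.ball (x j) (ρ j)) :=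
      isOpen_biUnion (fun j _ => Metric.isOpen_ball)
    exact (hD.inter_right Metric.isClosed_closedBall).diff hopen
  · apply Set.Subset.antisymm
    · intro p hp
      obtain ⟨k, hk⟩ := Set.mem_iUnion.mp hp
      exact (hsubset k hk).1
    · intro p hp
      obtain ⟨k0, hk0⟩ := Set.mem_iUnion.mp (hcov hp)
      have hne : (Finset.univ.filter (fun k : Fin n => p ∈ Metric.closedBall (x k) (ρ k))).Nonempty :=
        ⟨k0, by simp only [Finset.mem_filter, Finset.mem_univ, true_and]; exact hk0⟩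
      obtain ⟨k, hk, hmin⟩ := Finset.exists_min_image _ (fun k : Fin n => k) hne
      simp only [Finset.mem_filter, Finset.mem_univ, true_and] at hk hmin
      refine Set.mem_iUnion.mpr ⟨k, ⟨hp, hk⟩, ?_⟩
      intro hmem
      simp only [Set.mem_iUnion, Set.mem_setOf_eq] at hmem
      obtain ⟨j, hjk, hj⟩ := hmem
      have := hmin j (Metric.ball_subset_closedBall hj)
      exact absurd hjk (not_lt.mpr this)
  · have key : ∀ j k : Fin n, j < k → (volume : Measure E2) (P j ∩ P k) = 0 := by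
      intro j k hjk
      apply measure_mono_null _ (Measure.addHaar_sphere_of_ne_zero volume (x j) (hρ j).ne')
      rintro p ⟨hpj, hpk⟩
      have h1 : p ∈ Metric.closedBall (x j) (ρ j) := (hsubset j hpj).2
      have h2 : p ∉ Metric.ball (x j) (ρ j) := by
        intro hb
        apply hpk.2
        simp only [Set.mem_iUnion, Set.mem_setOf_eq]
        exact ⟨j, hjk, hb⟩
      rw [Metric.mem_closedBall] at h1
      rw [Metric.mem_ball, not_lt] at h2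
      exact Metric.mem_sphere.mpr (le_antisymm h1 h2)
    intro j k hne
    rcases lt_or_gt_of_ne hne with h | h
    · exact key j k h
    · show (volume : Measure E2) (P j ∩ P k) = 0
      rw [Set.inter_comm]
      exact key k j h

theorem sum_pieces_le (D : Set E2) (n : ℕ) (P : Fin n → Set E2)
    (hPc : ∀ k, IsCompact (P k)) (hU : (⋃ k, P k) = D)
    (hdis : Pairwise (Function.onFun (AEDisjoint (volume : Measure E2)) P))
    (F : E2 → ℝ) (hF : IntegrableOn F D) (v : Fin n → ℝ) (hv : ∀ k, ∀ p ∈ P k, v k ≤ F p) :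
    ∑ k, (volume (P k)).toReal * v k ≤ ∫ p in D, F p := by
  have h1 : ∫ p in D, F p = ∑ k, ∫ p in P k, F p := by
    rw [← hU, integral_iUnion_ae (fun k => (hPc k).measurableSet.nullMeasurableSet) hdis
      (by rw [hU]; exact hF), tsum_fintype]
  rw [h1]
  apply Finset.sum_le_sum
  intro k _
  have hsub : P k ⊆ D := by rw [← hU]; exact Set.subset_iUnion P k
  have h2 : (volume (P k)).toReal * v k = ∫ _p in P k, v k := by
    rw [setIntegral_const]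
    simp [Measure.real]
  rw [h2]
  apply setIntegral_mono_on _ (hF.mono_set hsub) (hPc k).measurableSet (hv k)
  exact integrableOn_const (hPc k).measure_lt_top.ne

theorem reindex {ι : Type} [Fintype ι] (S : Set (ℝ × E2)) (h bound : ℝ) (c a b g : ι → E2)
    (h1 : ∀ i, a i ≠ 0 ∧ ‖b i‖ = ‖a i‖ ∧ inner ℝ (a i) (b i) = 0)
    (h2 : S ⊆ ⋃ i, {z : ℝ × E2 | ∃ x ∈ Set.Icc (0 : ℝ) 1, ∃ y ∈ Set.Icc (0 : ℝ) 1,
          z.2 = c i + x • a i + y • b i + z.1 • g i})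
    (h3 : ∑ i, ‖a i‖ ^ 2 * J h (g i) ≤ bound) :
    ∃ (k : ℕ) (c a b g : Fin k → E2),
      (∀ i, a i ≠ 0 ∧ ‖b i‖ = ‖a i‖ ∧ inner ℝ (a i) (b i) = 0) ∧
      S ⊆ ⋃ i, {z : ℝ × E2 | ∃ x ∈ Set.Icc (0 : ℝ) 1, ∃ y ∈ Set.Icc (0 : ℝ) 1,
          z.2 = c i + x • a i + y • b i + z.1 • g i} ∧
      ∑ i, ‖a i‖ ^ 2 / Real.sqrt (1 + (g i 0) ^ 2 + h ^ 2 * (g i 1) ^ 2) ≤ bound := by
  classical
  let e := (Fintype.equivFin ι).symm
  refine ⟨Fintype.card ι, c ∘ e, a ∘ e, b ∘ e, g ∘ e, fun i => h1 (e i), ?_, ?_⟩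
  · intro z hz
    obtain ⟨i, hi⟩ := Set.mem_iUnion.mp (h2 hz)
    refine Set.mem_iUnion.mpr ⟨e.symm i, ?_⟩
    simpa using hi
  · have : ∑ i, ‖(a ∘ e) i‖ ^ 2 / Real.sqrt (1 + ((g ∘ e) i 0) ^ 2 + h ^ 2 * ((g ∘ e) i 1) ^ 2) =
        ∑ i, ‖a i‖ ^ 2 * J h (g i) := by
      rw [← Equiv.sum_comp e]
      apply Finset.sum_congr rfl
      intro i _
      simp only [Function.comp, J]
      rw [mul_one_div]
    rw [this]
    exact h3


theorem J_continuous (h : ℝ) : Continuous (J h) := by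
  unfold J
  apply Continuous.div continuous_const (by fun_prop)
  intro g
  have : 0 < 1 + (g 0) ^ 2 + h ^ 2 * (g 1) ^ 2 := by positivity
  exact (Real.sqrt_pos.mpr this).ne'

theorem s0326_of_local
    (D : Set (EuclideanSpace ℝ (Fin 2))) (hD : IsCompact D)
    (V : EuclideanSpace ℝ (Fin 2) → EuclideanSpace ℝ (Fin 2)) (U : Set (EuclideanSpace ℝ (Fin 2)))
    (hU : IsOpen U) (hDU : D ⊆ U) (hV : ContDiffOn ℝ 1 V U) (L h : ℝ) (hL : 0 < L) (hh : 0 < h)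
    (htr : ∀ p ∈ D, LinearMap.trace ℝ _ (fderiv ℝ V p).toLinearMap = 0)
    (hdet : ∀ p ∈ D, -(L ^ 2)⁻¹ < LinearMap.det (fderiv ℝ V p).toLinearMap ∧
      LinearMap.det (fderiv ℝ V p).toLinearMap ≤ 0)
    (ε : ℝ) (hε : 0 < ε) :
    ∃ (k : ℕ) (c a b g : Fin k → EuclideanSpace ℝ (Fin 2)),
      (∀ i, a i ≠ 0 ∧ ‖b i‖ = ‖a i‖ ∧ inner ℝ (a i) (b i) = 0) ∧
      {z : ℝ × EuclideanSpace ℝ (Fin 2) | ∃ p ∈ D, abs z.1 ≤ L ∧ z.2 = p + z.1 • V p} ⊆
        ⋃ i, {z : ℝ × EuclideanSpace ℝ (Fin 2) | ∃ x ∈ Set.Icc (0 : ℝ) 1, ∃ y ∈ Set.Icc (0 : ℝ) 1,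
          z.2 = c i + x • a i + y • b i + z.1 • g i} ∧
      ∑ i, ‖a i‖ ^ 2 / Real.sqrt (1 + (g i 0) ^ 2 + h ^ 2 * (g i 1) ^ 2) ≤
        (∫ p in D, 1 / Real.sqrt (1 + (V p 0) ^ 2 + h ^ 2 * (V p 1) ^ 2)) + ε := by
  classical
  rcases D.eq_empty_or_nonempty with rfl | hDne
  · refine ⟨0, Fin.elim0, Fin.elim0, Fin.elim0, Fin.elim0, fun i => i.elim0, ?_, ?_⟩
    · rintro z ⟨p, hp, _⟩
      exact absurd hp (Set.notMem_empty _)
    · simp
      exact hε.le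
  -- constants
  have hDVc : ContinuousOn (fderiv ℝ V) U := hV.continuousOn_fderiv_of_isOpen hU le_rfl
  have hDVD : ContinuousOn (fderiv ℝ V) D := hDVc.mono hDU
  obtain ⟨M₁, hM₁⟩ : ∃ M₁, ∀ p ∈ D, ‖fderiv ℝ V p‖ ≤ M₁ := hD.exists_bound_of_continuousOn hDVD
  have hdetc : ContinuousOn
      (fun p => 1 + L ^ 2 * LinearMap.det (fderiv ℝ V p).toLinearMap) D := by
    have : ContinuousOn (fun p => (fderiv ℝ V p).det) D :=
      ContinuousLinearMap.continuous_det.comp_continuousOn hDVD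
    exact continuousOn_const.add (continuousOn_const.mul this)
  obtain ⟨pm, hpm, hmin⟩ := hD.exists_isMinOn hDne hdetc
  set κ₀ := 1 + L ^ 2 * LinearMap.det (fderiv ℝ V pm).toLinearMap with hκ₀def
  have hL2 : 0 < L ^ 2 := by positivity
  have hκ₀ : 0 < κ₀ := by
    have h1 := (hdet pm hpm).1
    have h2 : L ^ 2 * (-(L ^ 2)⁻¹) < L ^ 2 * LinearMap.det (fderiv ℝ V pm).toLinearMap :=
      mul_lt_mul_of_pos_left h1 hL2
    have h3 : L ^ 2 * (-(L ^ 2)⁻¹) = -1 := by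
      field_simp
    rw [hκ₀def]
    linarith
  have hκ : ∀ p ∈ D, κ₀ ≤ 1 + L ^ 2 * LinearMap.det (fderiv ℝ V p).toLinearMap :=
    fun p hp => isMinOn_iff.mp hmin p hp
  have hM₁0 : 0 ≤ M₁ := (norm_nonneg _).trans (hM₁ pm hpm)
  set C := Ccst L M₁ κ₀ with hC
  have hCpos : 0 < C := by
    rw [hC]; unfold Ccst; positivity
  set vD := (volume D).toReal with hvD
  have hvD0 : 0 ≤ vD := ENNReal.toReal_nonneg
  set ε₁ := min 1 (ε / (7 * vD + 6)) with hε₁def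
  have hε₁ : 0 < ε₁ := lt_min one_pos (by positivity)
  have hε₁1 : ε₁ ≤ 1 := min_le_left _ _
  have hε₁2 : ε₁ * (7 * vD + 6) ≤ ε := by
    have : ε₁ ≤ ε / (7 * vD + 6) := min_le_right _ _
    rwa [le_div_iff₀ (by positivity)] at this
  set η := ε₁ / (12 * L * C) with hηdef
  have hη : 0 < η := by positivity
  have hfac : 4 * L * C * η = ε₁ / 3 := by
    rw [hηdef]; field_simp; norm_num
  let f : E2 → ℝ := fun p => J h (V p)
  have hfc : ContinuousOn f U := (J_continuous h).comp_continuousOn hV.continuousOn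
  -- radii
  have hrad : ∀ p₀ : E2, ∃ d > 0, p₀ ∈ D → ∀ z ∈ Metric.ball p₀ d,
      z ∈ U ∧ ‖fderiv ℝ V z - fderiv ℝ V p₀‖ ≤ η ∧ |f z - f p₀| ≤ ε₁ := by
    intro p₀
    by_cases hp₀ : p₀ ∈ D
    · have hUn : U ∈ 𝓝 p₀ := hU.mem_nhds (hDU hp₀)
      have c1 : ContinuousAt (fderiv ℝ V) p₀ := hDVc.continuousAt hUn
      have c2 : ContinuousAt f p₀ := hfc.continuousAt hUn
      have e1 : ∀ᶠ z in 𝓝 p₀, ‖fderiv ℝ V z - fderiv ℝ V p₀‖ ≤ η := by
        have := c1.eventually (Metric.closedBall_mem_nhds _ hη)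
        filter_upwards [this] with z hz
        rwa [dist_eq_norm] at hz
      have e2 : ∀ᶠ z in 𝓝 p₀, |f z - f p₀| ≤ ε₁ := by
        have := c2.eventually (Metric.closedBall_mem_nhds _ hε₁)
        filter_upwards [this] with z hz
        rwa [Real.dist_eq] at hz
      have e3 : ∀ᶠ z in 𝓝 p₀, z ∈ U ∧ ‖fderiv ℝ V z - fderiv ℝ V p₀‖ ≤ η ∧ |f z - f p₀| ≤ ε₁ := by
        filter_upwards [hUn, e1, e2] with z h1 h2 h3
        exact ⟨h1, h2, h3⟩
      obtain ⟨d, hd, hball⟩ := Metric.eventually_nhds_iff_ball.mp e3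
      exact ⟨d, hd, fun _ => hball⟩
    · exact ⟨1, one_pos, fun hc => absurd hc hp₀⟩
  choose d hd0 hd using hrad
  obtain ⟨t, htD, htcov⟩ := hD.elim_nhds_subcover (fun p => Metric.ball p (d p / 2))
    (fun p _ => Metric.ball_mem_nhds _ (half_pos (hd0 p)))
  let n := t.card
  let e : Fin n ≃ t := t.equivFin.symm
  let x : Fin n → E2 := fun k => (e k).1
  have hxD : ∀ k, x k ∈ D := fun k => htD _ (e k).2
  let ρ : Fin n → ℝ := fun k => d (x k) / 2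
  have hρ : ∀ k, 0 < ρ k := fun k => half_pos (hd0 _)
  have hcov : D ⊆ ⋃ k, Metric.closedBall (x k) (ρ k) := by
    intro p hp
    obtain ⟨y, hy⟩ := Set.mem_iUnion.mp (htcov hp)
    obtain ⟨hyt, hpy⟩ := Set.mem_iUnion.mp hy
    refine Set.mem_iUnion.mpr ⟨e.symm ⟨y, hyt⟩, ?_⟩
    have : x (e.symm ⟨y, hyt⟩) = y := by simp [x]
    simp only [ρ]
    rw [this]
    exact Metric.ball_subset_closedBall hpy
  obtain ⟨P, hPc, hPsub, hPU, hPdis⟩ := exists_pieces D hD n x ρ hρ hcov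
  have hPball : ∀ k, P k ⊆ Metric.ball (x k) (d (x k)) := by
    intro k p hp
    have := (hPsub k hp).2
    rw [Metric.mem_closedBall] at this
    rw [Metric.mem_ball]
    have h2 : ρ k < d (x k) := half_lt_self (hd0 _)
    linarith
  set θ := ε₁ / ((n : ℝ) + 1) with hθdef
  have hθ : 0 < θ := by positivity
  have hθn : θ * n ≤ ε₁ := by
    rw [hθdef, div_mul_eq_mul_div, div_le_iff₀ (by positivity)]
    nlinarith
  -- choice of r
  have hev : ∀ k, ∀ᶠ δ in 𝓝 (0 : ℝ),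
      volume (Metric.cthickening δ (P k)) ≤ volume (P k) + ENNReal.ofReal θ := by
    intro k
    have ht := tendsto_measure_cthickening_of_isCompact (μ := (volume : Measure E2)) (hPc k)
    have hlt : volume (P k) < volume (P k) + ENNReal.ofReal θ :=
      ENNReal.lt_add_right (hPc k).measure_lt_top.ne (by simpa using hθ)
    exact (ht.eventually (gt_mem_nhds hlt)).mono (fun δ hδ => le_of_lt hδ)
  have hev' : ∀ᶠ δ in 𝓝 (0 : ℝ), ∀ k,
      volume (Metric.cthickening δ (P k)) ≤ volume (P k) + ENNReal.ofReal θ :=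
    Filter.eventually_all.mpr hev
  obtain ⟨δ₀, hδ₀, hδball⟩ := Metric.eventually_nhds_iff_ball.mp hev'
  set Λ := max 1 h with hΛ
  have hΛ0 : 0 < Λ := lt_of_lt_of_le one_pos (le_max_left _ _)
  set r := min (δ₀ / (2 * (C + 2))) (ε₁ / (Λ * (M₁ * C) + 1)) with hrdef
  have hr : 0 < r := lt_min (by positivity) (by positivity)
  have hr1 : Λ * (M₁ * C * r) ≤ ε₁ := by
    have h1 : r ≤ ε₁ / (Λ * (M₁ * C) + 1) := min_le_right _ _
    rw [le_div_iff₀ (by positivity)] at h1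
    nlinarith
  have hr2 : ∀ k, volume (Metric.cthickening ((C + 2) * r) (P k)) ≤
      volume (P k) + ENNReal.ofReal θ := by
    apply hδball
    rw [Metric.mem_ball, Real.dist_eq, sub_zero, abs_of_pos (by positivity)]
    have h1 : r ≤ δ₀ / (2 * (C + 2)) := min_le_left _ _
    rw [le_div_iff₀ (by positivity)] at h1
    nlinarith
  -- local families
  have hloc : ∀ k : Fin n, ∃ (m : ℕ) (c a b g : Fin m → E2),
      (∀ i, a i ≠ 0 ∧ ‖b i‖ = ‖a i‖ ∧ inner ℝ (a i) (b i) = 0) ∧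
      {z : ℝ × E2 | ∃ p ∈ P k, |z.1| ≤ L ∧ z.2 = p + z.1 • V p} ⊆
        ⋃ i, {z : ℝ × E2 | ∃ x ∈ Set.Icc (0 : ℝ) 1, ∃ y ∈ Set.Icc (0 : ℝ) 1,
          z.2 = c i + x • a i + y • b i + z.1 • g i} ∧
      ∑ i, ‖a i‖ ^ 2 * J h (g i) ≤
        (1 + 4 * L * C * η) ^ 2 * (((volume (P k)).toReal + θ) * ((f (x k) + ε₁) + ε₁)) := by
    intro k
    have hW := hd (x k) (hxD k)
    apply piece_cost V (Metric.ball (x k) (d (x k))) (convex_ball _ _)
      (fun z hz => (hV.differentiableOn (by norm_num)).differentiableAt (hU.mem_nhds (hW z hz).1))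
      (fderiv ℝ V (x k)) (htr _ (hxD k)) L h hL hh M₁ κ₀ (hM₁ _ (hxD k)) hκ₀ (hκ _ (hxD k))
      (hdet _ (hxD k)).2 η hη.le (fun z hz => (hW z hz).2.1) (P k) (hPball k) (hPc k) r hr
      ε₁ θ (f (x k) + ε₁) hε₁.le hθ.le (by have := J_pos h (V (x k)); positivity) hr1 (hr2 k)
    intro p hp
    have := (abs_le.mp (hW p (hPball k hp)).2.2).2
    show f p ≤ f (x k) + ε₁
    linarith
  choose m c a b g hsq hcv hsum using hloc
  have hfD : IntegrableOn f D := (hfc.mono hDU).integrableOn_compact hD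
  have hI : ∫ p in D, f p ≤ vD := by
    have h1 : ∫ p in D, f p ≤ ∫ _p in D, (1 : ℝ) :=
      setIntegral_mono_on hfD (integrableOn_const hD.measure_lt_top.ne) hD.measurableSet
        (fun p _ => J_le_one h (V p))
    rw [setIntegral_const] at h1
    simpa [Measure.real, hvD] using h1
  have hI0 : 0 ≤ ∫ p in D, f p := setIntegral_nonneg hD.measurableSet (fun p _ => (J_pos h (V p)).le)
  have hS1 : ∑ k, (volume (P k)).toReal * (f (x k) + 2 * ε₁) ≤ (∫ p in D, f p) + 3 * ε₁ * vD := by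
    have h1 := sum_pieces_le D n P hPc hPU hPdis (fun p => f p + 3 * ε₁)
      (hfD.add (integrableOn_const hD.measure_lt_top.ne)) (fun k => f (x k) + 2 * ε₁) (by
        intro k p hp
        have := (abs_le.mp (hd (x k) (hxD k) p (hPball k hp)).2.2).1
        show f (x k) + 2 * ε₁ ≤ f p + 3 * ε₁
        linarith)
    have h2 : ∫ p in D, (f p + 3 * ε₁) = (∫ p in D, f p) + 3 * ε₁ * vD := by
      rw [integral_add hfD (integrableOn_const hD.measure_lt_top.ne), setIntegral_const]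
      simp [Measure.real, hvD]
      ring
    rw [h2] at h1
    exact h1
  have hS2 : ∑ k : Fin n, θ * (f (x k) + 2 * ε₁) ≤ ε₁ * (1 + 2 * ε₁) := by
    calc ∑ k : Fin n, θ * (f (x k) + 2 * ε₁) ≤ ∑ _k : Fin n, θ * (1 + 2 * ε₁) := by
          apply Finset.sum_le_sum
          intro k _
          apply mul_le_mul_of_nonneg_left _ hθ.le
          have := J_le_one h (V (x k))
          show f (x k) + 2 * ε₁ ≤ 1 + 2 * ε₁
          linarith
      _ = (θ * n) * (1 + 2 * ε₁) := by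
          rw [Finset.sum_const, Finset.card_univ, Fintype.card_fin, nsmul_eq_mul]
          ring
      _ ≤ _ := mul_le_mul_of_nonneg_right hθn (by positivity)
  have hS : ∑ k, ((volume (P k)).toReal + θ) * ((f (x k) + ε₁) + ε₁) ≤
      (∫ p in D, f p) + 3 * ε₁ * vD + ε₁ * (1 + 2 * ε₁) := by
    have : ∑ k, ((volume (P k)).toReal + θ) * ((f (x k) + ε₁) + ε₁) =
        ∑ k, (volume (P k)).toReal * (f (x k) + 2 * ε₁) + ∑ k : Fin n, θ * (f (x k) + 2 * ε₁) := by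
      rw [← Finset.sum_add_distrib]
      apply Finset.sum_congr rfl
      intro k _
      ring
    rw [this]
    exact add_le_add hS1 hS2
  have hS0 : 0 ≤ ∑ k, ((volume (P k)).toReal + θ) * ((f (x k) + ε₁) + ε₁) := by
    apply Finset.sum_nonneg
    intro k _
    have := J_pos h (V (x k))
    have h2 : 0 < f (x k) := this
    positivity
  apply reindex (ι := Σ k : Fin n, Fin (m k)) _ h _ (fun i => c i.1 i.2) (fun i => a i.1 i.2)
    (fun i => b i.1 i.2) (fun i => g i.1 i.2) (fun i => hsq i.1 i.2)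
  · rintro z ⟨p, hp, hz1, hz2⟩
    rw [← hPU] at hp
    obtain ⟨k, hk⟩ := Set.mem_iUnion.mp hp
    have hzk : z ∈ {z : ℝ × E2 | ∃ p ∈ P k, |z.1| ≤ L ∧ z.2 = p + z.1 • V p} := ⟨p, hk, hz1, hz2⟩
    obtain ⟨i, hi⟩ := Set.mem_iUnion.mp (hcv k hzk)
    exact Set.mem_iUnion.mpr ⟨⟨k, i⟩, hi⟩
  · rw [Fintype.sum_sigma]
    have hfac2 : (1 + 4 * L * C * η) ^ 2 ≤ 1 + ε₁ := by
      rw [hfac]
      nlinarith
    calc ∑ k, ∑ i, ‖a k i‖ ^ 2 * J h (g k i)
        ≤ ∑ k, (1 + 4 * L * C * η) ^ 2 *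
            (((volume (P k)).toReal + θ) * ((f (x k) + ε₁) + ε₁)) :=
          Finset.sum_le_sum (fun k _ => hsum k)
      _ = (1 + 4 * L * C * η) ^ 2 * ∑ k, ((volume (P k)).toReal + θ) * ((f (x k) + ε₁) + ε₁) := by
          rw [Finset.mul_sum]
      _ ≤ (1 + ε₁) * ((∫ p in D, f p) + 3 * ε₁ * vD + ε₁ * (1 + 2 * ε₁)) := by
          apply mul_le_mul hfac2 hS hS0 (by positivity)
      _ ≤ (∫ p in D, f p) + ε := by
          nlinarith [mul_nonneg hε₁.le hvD0, mul_nonneg hε₁.le hε₁.le]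

end Crest.Agent.Lib_helper17_S0326Global
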