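import Mathlib
set_option autoImplicit false
open MeasureTheory
open scoped ENNReal

namespace Crest.Agent.Area

abbrev E2 : Type := EuclideanSpace ℝ (Fin 2)
abbrev E3 : Type := EuclideanSpace ℝ (Fin 3)

/-- Gram determinant of two vectors. -/
noncomputable def gram {E : Type*} [NormedAddCommGroup E] [InnerProductSpace ℝ E] (a b : E) : ℝ :=
  ‖a‖ ^ 2 * ‖b‖ ^ 2 - inner ℝ a b ^ 2

theorem gram_nonneg {E : Type*} [NormedAddCommGroup E] [InnerProductSpace ℝ E] (a b : E) :
    0 ≤ gram a b := by
  unfold gram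
  have h := abs_real_inner_le_norm a b
  have h2 : inner ℝ a b ^ 2 ≤ (‖a‖ * ‖b‖) ^ 2 := by
    rw [← sq_abs (inner ℝ a b)]
    exact pow_le_pow_left₀ (abs_nonneg _) h 2
  nlinarith [h2]

/-- A linear isometry from the plane onto `u^⊥`. -/
theorem exists_planeIso (u : E3) (hu : u ≠ 0) :
    ∃ J : E2 →ₗᵢ[ℝ] E3, Set.range J = {x | inner ℝ x u = 0} := by
  have : Fact (Module.finrank ℝ E3 = 2 + 1) := ⟨by simp⟩
  let b := OrthonormalBasis.fromOrthogonalSpanSingleton (𝕜 := ℝ) 2 hu
  refine ⟨(ℝ ∙ u)ᗮ.subtypeₗᵢ.comp b.repr.symm.toLinearIsometry, ?_⟩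
  ext x
  simp only [Set.mem_range, Set.mem_ofPred_eq]
  constructor
  · rintro ⟨y, rfl⟩
    have := (b.repr.symm y).2
    rw [Submodule.mem_orthogonal_singleton_iff_inner_left] at this
    simpa using this
  · intro hx
    have hx' : x ∈ (ℝ ∙ u)ᗮ := Submodule.mem_orthogonal_singleton_iff_inner_left.2 hx
    exact ⟨b.repr ⟨x, hx'⟩, by simp⟩

/-- the linear map `z ↦ z 0 • a + z 1 • b`. -/
noncomputable def lin2 {E : Type*} [AddCommGroup E] [Module ℝ E] (a b : E) : E2 →ₗ[ℝ] E where
  toFun z := z 0 • a + z 1 • b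
  map_add' x y := by simp [add_smul]; abel
  map_smul' c x := by simp [mul_smul]

@[simp] theorem lin2_apply {E : Type*} [AddCommGroup E] [Module ℝ E] (a b : E) (z : E2) :
    lin2 a b z = z 0 • a + z 1 • b := rfl

theorem det_lin2 (a b : E2) : LinearMap.det (lin2 a b) = a 0 * b 1 - a 1 * b 0 := by
  have : lin2 a b = Matrix.toLpLin 2 2 !![a 0, b 0; a 1, b 1] := by
    apply LinearMap.ext
    intro z
    ext i
    fin_cases i <;> simp [Matrix.toLpLin_apply, dotProduct, Fin.sum_univ_two] <;> ring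
  rw [this, LinearMap.det_toLpLin, Matrix.det_fin_two_of]
  ring

theorem gram_E2 (a b : E2) : gram a b = (a 0 * b 1 - a 1 * b 0) ^ 2 := by
  unfold gram
  simp only [EuclideanSpace.norm_sq_eq, PiLp.inner_apply, Fin.sum_univ_two, Real.norm_eq_abs, sq_abs,
    RCLike.inner_apply, conj_trivial]
  ring

theorem volume_image_lin2 (a b : E2) (s : Set E2) :
    volume (lin2 a b '' s) = ENNReal.ofReal (Real.sqrt (gram a b)) * volume s := by
  rw [Measure.addHaar_image_linearMap, det_lin2, gram_E2, Real.sqrt_sq_eq_abs]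


theorem exists_normal (a b : E3) : ∃ u : E3, u ≠ 0 ∧ inner ℝ a u = 0 ∧ inner ℝ b u = 0 := by
  let f : E3 →ₗ[ℝ] ℝ × ℝ := (innerₛₗ ℝ a).prod (innerₛₗ ℝ b)
  have hf : LinearMap.ker f ≠ ⊥ := f.ker_ne_bot_of_finrank_lt (by simp)
  obtain ⟨u, hu, hu0⟩ := (Submodule.ne_bot_iff _).1 hf
  refine ⟨u, hu0, ?_, ?_⟩
  · have := congrArg Prod.fst (LinearMap.mem_ker.1 hu)
    simpa [f] using this
  · have := congrArg Prod.snd (LinearMap.mem_ker.1 hu)
    simpa [f] using this


theorem measurePreserving_toProd :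
    MeasurePreserving (fun z : E2 => ((z 0, z 1) : ℝ × ℝ)) volume volume :=
  (volume_preserving_finTwoArrow ℝ).comp (PiLp.volume_preserving_ofLp (Fin 2))

/-- the unit square -/
def sq : Set E2 := {z | z 0 ∈ Set.Icc (0:ℝ) 1 ∧ z 1 ∈ Set.Icc (0:ℝ) 1}

/-- the standard triangle -/
def tri : Set E2 := {z | 0 ≤ z 0 ∧ 0 ≤ z 1 ∧ z 0 + z 1 ≤ 1}

theorem volume_sq : volume sq = 1 := by
  have h : sq = (fun z : E2 => ((z 0, z 1) : ℝ × ℝ)) ⁻¹' (Set.Icc (0:ℝ) 1 ×ˢ Set.Icc (0:ℝ) 1) := by
    ext z; simp only [sq, Set.mem_ofPred_eq, Set.mem_preimage, Set.mem_prod]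
  rw [h, measurePreserving_toProd.measure_preimage
    (measurableSet_Icc.prod measurableSet_Icc).nullMeasurableSet, Measure.volume_eq_prod,
    Measure.prod_prod]
  simp

theorem volume_tri : volume tri = ENNReal.ofReal (1 / 2) := by
  let S : Set (ℝ × ℝ) := {p | 0 ≤ p.1 ∧ 0 ≤ p.2 ∧ p.1 + p.2 ≤ 1}
  have hS : MeasurableSet S := by
    apply MeasurableSet.inter
    · exact measurableSet_le measurable_const measurable_fst
    apply MeasurableSet.inter
    · exact measurableSet_le measurable_const measurable_snd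
    · exact measurableSet_le (measurable_fst.add measurable_snd) measurable_const
  have h : tri = (fun z : E2 => ((z 0, z 1) : ℝ × ℝ)) ⁻¹' S := by
    ext z; simp [tri, S]
  rw [h, measurePreserving_toProd.measure_preimage hS.nullMeasurableSet, Measure.volume_eq_prod,
    Measure.prod_apply hS]
  have h2 : ∀ x : ℝ, volume (Prod.mk x ⁻¹' S) =
      (Set.Icc (0:ℝ) 1).indicator (fun x => ENNReal.ofReal (1 - x)) x := by
    intro x
    by_cases hx : x ∈ Set.Icc (0:ℝ) 1
    · rw [Set.indicator_of_mem hx]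
      have : Prod.mk x ⁻¹' S = Set.Icc 0 (1 - x) := by
        ext y
        simp only [S, Set.mem_preimage, Set.mem_ofPred_eq, Set.mem_Icc]
        constructor
        · rintro ⟨_, h1, h2⟩; exact ⟨h1, by linarith⟩
        · rintro ⟨h1, h2⟩; exact ⟨hx.1, h1, by linarith⟩
      rw [this, Real.volume_Icc, sub_zero]
    · rw [Set.indicator_of_notMem hx]
      have : Prod.mk x ⁻¹' S = ∅ := by
        ext y
        simp only [S, Set.mem_preimage, Set.mem_ofPred_eq, Set.mem_empty_iff_false, iff_false]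
        rintro ⟨h0, h1, h2⟩
        exact hx ⟨h0, by linarith⟩
      rw [this, measure_empty]
  simp_rw [h2]
  rw [lintegral_indicator measurableSet_Icc,
    ← ofReal_integral_eq_lintegral_ofReal]
  · congr 1
    rw [integral_Icc_eq_integral_Ioc, ← intervalIntegral.integral_of_le zero_le_one]
    rw [intervalIntegral.integral_sub (by simp) (by simp)]
    simp
    norm_num
  · exact (continuous_const.sub continuous_id).integrableOn_Icc
  · rw [Filter.EventuallyLE, ae_restrict_iff' measurableSet_Icc]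
    exact Filter.Eventually.of_forall (fun x hx => by simpa using hx.2)


/-! ### The area formula -/

theorem gram_map {E F : Type*} [NormedAddCommGroup E] [InnerProductSpace ℝ E]
    [NormedAddCommGroup F] [InnerProductSpace ℝ F] (J : E →ₗᵢ[ℝ] F) (a b : E) :
    gram (J a) (J b) = gram a b := by
  unfold gram
  rw [J.norm_map, J.norm_map, J.inner_map_map]

/-- **Area formula** for the linear image of an arbitrary planar set. -/
theorem area_image_lin2 (a b : E3) (s : Set E2) :
    μHE[2] (lin2 a b '' s) = ENNReal.ofReal (Real.sqrt (gram a b)) * volume s := by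
  obtain ⟨u, hu0, hau, hbu⟩ := exists_normal a b
  obtain ⟨J, hJ⟩ := exists_planeIso u hu0
  have ha : a ∈ Set.range J := by rw [hJ]; exact hau
  have hb : b ∈ Set.range J := by rw [hJ]; exact hbu
  obtain ⟨a', rfl⟩ := ha
  obtain ⟨b', rfl⟩ := hb
  have h1 : lin2 (J a') (J b') '' s = J '' (lin2 a' b' '' s) := by
    rw [Set.image_image]
    apply Set.image_congr
    intro z _
    simp
  rw [h1, J.isometry.euclideanHausdorffMeasure_image,
    EuclideanSpace.euclideanHausdorffMeasure_eq_volume, volume_image_lin2, gram_map]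

/-- **Area formula**, affine version. -/
theorem area_image_aff2 (c a b : E3) (s : Set E2) :
    μHE[2] ((fun z : E2 => c + (z 0 • a + z 1 • b)) '' s) =
      ENNReal.ofReal (Real.sqrt (gram a b)) * volume s := by
  have h1 : (fun z : E2 => c + (z 0 • a + z 1 • b)) '' s =
      (IsometryEquiv.addLeft c) '' (lin2 a b '' s) := by
    rw [Set.image_image]
    apply Set.image_congr
    intro z _
    simp
  rw [h1, (IsometryEquiv.addLeft c).isometry.euclideanHausdorffMeasure_image, area_image_lin2]

/-- the parallelogram `c + [0,1] a + [0,1] b` -/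
def pgram {E : Type*} [AddCommGroup E] [Module ℝ E] (c a b : E) : Set E :=
  {x | ∃ s ∈ Set.Icc (0 : ℝ) 1, ∃ t ∈ Set.Icc (0 : ℝ) 1, x = c + s • a + t • b}

theorem pgram_eq_image {E : Type*} [AddCommGroup E] [Module ℝ E] (c a b : E) :
    pgram c a b = (fun z : E2 => c + (z 0 • a + z 1 • b)) '' sq := by
  ext x
  constructor
  · rintro ⟨s, hs, t, ht, rfl⟩
    exact ⟨!₂[s, t], ⟨by simpa using hs, by simpa using ht⟩, by simp [add_assoc]⟩
  · rintro ⟨z, ⟨h0, h1⟩, rfl⟩
    exact ⟨z 0, h0, z 1, h1, by simp [add_assoc]⟩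

theorem area_pgram (c a b : E3) :
    μHE[2] (pgram c a b) = ENNReal.ofReal (Real.sqrt (gram a b)) := by
  rw [pgram_eq_image, area_image_aff2, volume_sq, mul_one]

theorem area_pgram_toReal (c a b : E3) :
    (μHE[2] (pgram c a b)).toReal = Real.sqrt (gram a b) := by
  rw [area_pgram, ENNReal.toReal_ofReal (Real.sqrt_nonneg _)]

theorem convex_tri : Convex ℝ tri := by
  intro x hx y hy s t hs ht hst
  obtain ⟨x0, x1, x2⟩ := hx
  obtain ⟨y0, y1, y2⟩ := hy
  refine ⟨?_, ?_, ?_⟩
  · simp only [PiLp.add_apply, PiLp.smul_apply, smul_eq_mul]; positivity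
  · simp only [PiLp.add_apply, PiLp.smul_apply, smul_eq_mul]; positivity
  · simp only [PiLp.add_apply, PiLp.smul_apply, smul_eq_mul]
    nlinarith

theorem convexHull_triple_eq_image {E : Type*} [AddCommGroup E] [Module ℝ E] (p q r : E) :
    convexHull ℝ {p, q, r} = (fun z : E2 => p + (z 0 • (q - p) + z 1 • (r - p))) '' tri := by
  apply Set.Subset.antisymm
  · apply convexHull_min
    · intro x hx
      simp only [Set.mem_insert_iff, Set.mem_singleton_iff] at hx
      rcases hx with rfl | rfl | rfl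
      · exact ⟨!₂[0, 0], ⟨by simp, by simp, by simp⟩, by simp⟩
      · exact ⟨!₂[1, 0], ⟨by simp, by simp, by simp⟩, by simp⟩
      · exact ⟨!₂[0, 1], ⟨by simp, by simp, by simp⟩, by simp⟩
    · have h := (convex_tri.linear_image (lin2 (q - p) (r - p))).translate p
      rw [Set.image_image] at h
      exact h
  · rintro x ⟨z, ⟨h0, h1, h2⟩, rfl⟩
    have h := (convex_convexHull ℝ ({p, q, r} : Set E)).sum_mem (t := Finset.univ)
      (w := ![1 - z 0 - z 1, z 0, z 1]) (z := ![p, q, r])
      (by
        intro i _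
        fin_cases i
        · simp; linarith
        · simpa using h0
        · simpa using h1)
      (by simp only [Fin.sum_univ_three, Matrix.cons_val_zero, Matrix.cons_val_one, Matrix.cons_val_two, Matrix.head_cons, Matrix.tail_cons]; ring)
      (by
        intro i _
        apply subset_convexHull
        fin_cases i <;> simp)
    simp only [Fin.sum_univ_three, Matrix.cons_val_zero, Matrix.cons_val_one, Matrix.cons_val_two,
      Matrix.head_cons, Matrix.tail_cons] at h
    convert h using 1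
    simp only [smul_sub, sub_smul, one_smul]
    abel

theorem area_triangle (p q r : E3) :
    μHE[2] (convexHull ℝ {p, q, r}) = ENNReal.ofReal (Real.sqrt (gram (q - p) (r - p)) / 2) := by
  rw [convexHull_triple_eq_image, area_image_aff2, volume_tri,
    ← ENNReal.ofReal_mul (Real.sqrt_nonneg _)]
  congr 1
  ring

theorem area_triangle_toReal (p q r : E3) :
    (μHE[2] (convexHull ℝ {p, q, r})).toReal = Real.sqrt (gram (q - p) (r - p)) / 2 := by
  rw [area_triangle, ENNReal.toReal_ofReal (by positivity)]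

/-- planar versions -/
theorem volume_image_aff2 (c a b : E2) (s : Set E2) :
    volume ((fun z : E2 => c + (z 0 • a + z 1 • b)) '' s) =
      ENNReal.ofReal (Real.sqrt (gram a b)) * volume s := by
  have h1 : (fun z : E2 => c + (z 0 • a + z 1 • b)) '' s =
      (fun x => c + x) '' (lin2 a b '' s) := by
    rw [Set.image_image]
    apply Set.image_congr
    intro z _
    simp
  rw [h1, Set.image_add_left, measure_preimage_add, volume_image_lin2]

theorem volume_triangle (p q r : E2) :
    volume (convexHull ℝ {p, q, r}) = ENNReal.ofReal (Real.sqrt (gram (q - p) (r - p)) / 2) := by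
  rw [convexHull_triple_eq_image, volume_image_aff2, volume_tri,
    ← ENNReal.ofReal_mul (Real.sqrt_nonneg _)]
  congr 1
  ring

theorem volume_pgram (c a b : E2) :
    volume (pgram c a b) = ENNReal.ofReal (Real.sqrt (gram a b)) := by
  rw [pgram_eq_image, volume_image_aff2, volume_sq, mul_one]

/-! ### `μH[2]` versus `μHE[2]` -/

theorem exists_hausdorff_const :
    ∃ κ : ℝ, 0 < κ ∧ ∀ s : Set E3, (μH[(2 : ℝ)] s).toReal = κ * (μHE[2] s).toReal := by
  set c := Measure.addHaarScalarFactor (volume : Measure (EuclideanSpace ℝ (Fin 2))) μH[((2 : ℕ) : ℝ)]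
    with hc
  have hc0 : c ≠ 0 := Measure.addHaarScalarFactor_volume_hausdorffMeasure_ne_zero 2
  have hcpos : 0 < (c : ℝ) := by positivity
  refine ⟨(c : ℝ)⁻¹, by positivity, fun s => ?_⟩
  rw [Measure.euclideanHausdorffMeasure_def, Measure.smul_apply]
  have : (c • (μH[((2 : ℕ) : ℝ)] s)).toReal = (c : ℝ) * (μH[(2 : ℝ)] s).toReal := by
    rw [ENNReal.smul_def, smul_eq_mul, ENNReal.toReal_mul]
    simp
  rw [this]
  field_simp

end Crest.Agent.Area
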