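import Crest.Agent.Lib_helper38_Area
import Crest.Agent.Lib_helper21_Area

set_option autoImplicit false
open MeasureTheory
open scoped ENNReal
open Crest.Agent.Lib_helper38_Area

namespace Crest.Agent.MinProj

/-- cross product with `v`, as a vector of `E3`: `⟪x, crossv a v⟫ = det3 a x v`-type normal -/
noncomputable def nrm (a v : E3) : E3 :=
  !₂[v 1 * a 2 - v 2 * a 1, v 2 * a 0 - v 0 * a 2, v 0 * a 1 - v 1 * a 0]

theorem inner_nrm (a v x : E3) : inner ℝ x (nrm a v) = det3 a x v := by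
  rw [inner3]
  simp [nrm, det3]
  ring

theorem det3_self_left (a v : E3) : det3 a a v = 0 := by
  simp [det3]; ring

theorem det3_v (a v : E3) : det3 a v v = 0 := by
  simp [det3]; ring

theorem det3_sub_mid (a x y v : E3) : det3 a (x - y) v = det3 a x v - det3 a y v := by
  simp [det3]; ring

theorem inner_projL_nrm (a v x : E3) : inner ℝ (projL v x) (nrm a v) = det3 a x v := by
  rw [projL_apply, inner_sub_left, inner_smul_left, inner_nrm, inner_nrm, det3_v]
  simp

/-- image of a subset of the vertex set: monotonicity -/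
theorem proj_triangle_le {v : E3} (hv : ‖v‖ = 1) (p q r : E3) (S : Set E3)
    (hp : p ∈ S) (hq : q ∈ S) (hr : r ∈ S) :
    ENNReal.ofReal (|det3 (q - p) (r - p) v| / 2) ≤
      μHE[2] ((fun y => y - inner ℝ y v • v) '' convexHull ℝ S) := by
  rw [← muHE_proj_triangle hv, ← projL_image_triple]
  apply measure_mono
  apply Set.image_mono
  apply convexHull_mono
  intro x hx
  simp only [Set.mem_insert_iff, Set.mem_singleton_iff] at hx
  rcases hx with rfl | rfl | rfl <;> assumption

/-- **Quadrilateral bound**: the projection of the hull of a set containing `A B C D` has area at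
least half the area spanned by the projected diagonals `AB`, `CD`. -/
theorem proj_quad_le {v : E3} (hv : ‖v‖ = 1) (A B C D : E3) (S : Set E3)
    (hA : A ∈ S) (hB : B ∈ S) (hC : C ∈ S) (hD : D ∈ S) :
    ENNReal.ofReal (|det3 (B - A) (D - C) v| / 2) ≤
      μHE[2] ((fun y => y - inner ℝ y v • v) '' convexHull ℝ S) := by
  set hc := det3 (B - A) (C - A) v with hhc
  set hd := det3 (B - A) (D - A) v with hhd
  have hdiff : det3 (B - A) (D - C) v = hd - hc := by
    rw [hhc, hhd, ← det3_sub_mid]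
    congr 1
    abel
  have h1 := proj_triangle_le hv A B C S hA hB hC
  have h2 := proj_triangle_le hv A B D S hA hB hD
  rw [← hhc] at h1
  rw [← hhd] at h2
  rw [hdiff]
  -- the union of the two triangles
  have key : ∀ (C D : E3), C ∈ S → D ∈ S → 0 < det3 (B - A) (C - A) v → det3 (B - A) (D - A) v < 0 →
      ENNReal.ofReal (|det3 (B - A) (C - A) v| / 2) + ENNReal.ofReal (|det3 (B - A) (D - A) v| / 2) ≤
      μHE[2] ((fun y => y - inner ℝ y v • v) '' convexHull ℝ S) := by
    intro C D hC hD hc hd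
    rw [← muHE_proj_triangle hv, ← muHE_proj_triangle hv,
      ← muHE_union_triangles (projL v A) (projL v B) (projL v C) (projL v D) (nrm (B - A) v)
        (by rw [← map_sub, inner_projL_nrm, det3_self_left])
        (by rw [← map_sub, inner_projL_nrm]; exact hc)
        (by rw [← map_sub, inner_projL_nrm]; exact hd),
      ← projL_image_triple, ← projL_image_triple, ← Set.image_union]
    apply measure_mono
    apply Set.image_mono
    apply Set.union_subset
    · apply convexHull_mono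
      intro x hx
      simp only [Set.mem_insert_iff, Set.mem_singleton_iff] at hx
      rcases hx with rfl | rfl | rfl <;> assumption
    · apply convexHull_mono
      intro x hx
      simp only [Set.mem_insert_iff, Set.mem_singleton_iff] at hx
      rcases hx with rfl | rfl | rfl <;> assumption
  rcases lt_trichotomy hc 0 with hc0 | hc0 | hc0
  · rcases le_or_gt hd 0 with hd0 | hd0
    · -- same sign
      rcases le_total |hc| |hd| with h | h
      · refine le_trans (ENNReal.ofReal_le_ofReal ?_) h2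
        rw [abs_of_nonpos hc0.le, abs_of_nonpos hd0] at h
        rw [abs_of_nonpos hd0]
        have : |hd - hc| ≤ -hd := by rw [abs_le]; constructor <;> linarith
        linarith
      · refine le_trans (ENNReal.ofReal_le_ofReal ?_) h1
        rw [abs_of_nonpos hc0.le, abs_of_nonpos hd0] at h
        rw [abs_of_nonpos hc0.le]
        have : |hd - hc| ≤ -hc := by rw [abs_le]; constructor <;> linarith
        linarith
    · have := key D C hD hC hd0 hc0
      refine le_trans ?_ this
      rw [← ENNReal.ofReal_add (by positivity) (by positivity)]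
      apply ENNReal.ofReal_le_ofReal
      rw [← hhc, ← hhd, abs_of_pos hd0, abs_of_neg hc0, abs_of_pos (by linarith)]
      linarith
  · rw [hc0, sub_zero]; exact h2
  · rcases le_or_gt 0 hd with hd0 | hd0
    · rcases le_total |hc| |hd| with h | h
      · refine le_trans (ENNReal.ofReal_le_ofReal ?_) h2
        rw [abs_of_nonneg hc0.le, abs_of_nonneg hd0] at h
        rw [abs_of_nonneg hd0]
        have : |hd - hc| ≤ hd := by rw [abs_le]; constructor <;> linarith
        linarith
      · refine le_trans (ENNReal.ofReal_le_ofReal ?_) h1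
        rw [abs_of_nonneg hc0.le, abs_of_nonneg hd0] at h
        rw [abs_of_nonneg hc0.le]
        have : |hd - hc| ≤ hc := by rw [abs_le]; constructor <;> linarith
        linarith
    · have := key C D hC hD hc0 hd0
      refine le_trans ?_ this
      rw [← ENNReal.ofReal_add (by positivity) (by positivity)]
      apply ENNReal.ofReal_le_ofReal
      rw [← hhc, ← hhd, abs_of_pos hc0, abs_of_neg hd0, abs_of_neg (by linarith)]
      linarith


/-- the vertex set of the standard regular tetrahedron of S0324/S0325 -/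
noncomputable def verts : Set E3 :=
  {!₂[1, 0, 0], !₂[-1, 0, 0], !₂[0, 1, Real.sqrt 2], !₂[0, -1, Real.sqrt 2]}

/-- the elementary inequality behind the minimal projection -/
theorem num_ineq {x y z t M : ℝ} (ht : 0 < t) (ht2 : t ^ 2 = 2) (h : x ^ 2 + y ^ 2 + z ^ 2 = 1)
    (h1 : |t * y - z| ≤ M) (h2 : |t * y + z| ≤ M) (h3 : |t * x + z| ≤ M) (h4 : |t * x - z| ≤ M)
    (h5 : 2 * |z| ≤ M) (h6 : t * |x + y| ≤ M) (h7 : t * |x - y| ≤ M) : t ≤ M := by
  by_contra hM
  rw [not_le] at hM
  have a1 := abs_le.1 h1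
  have a2 := abs_le.1 h2
  have a3 := abs_le.1 h3
  have a4 := abs_le.1 h4
  -- P = |z|, Q = |x+y|, R = |x-y|
  set P := |z| with hP
  set Q := |x + y| with hQ
  set R := |x - y| with hR
  have hP0 : 0 ≤ P := abs_nonneg _
  have hQ0 : 0 ≤ Q := abs_nonneg _
  have hR0 : 0 ≤ R := abs_nonneg _
  have hPP : P ^ 2 = z ^ 2 := sq_abs _
  have hQQ : Q ^ 2 = (x + y) ^ 2 := sq_abs _
  have hRR : R ^ 2 = (x - y) ^ 2 := sq_abs _
  have hQ1 : Q < 1 := by nlinarith
  have hR1 : R < 1 := by nlinarith
  have hP1 : 2 * P < t := by linarith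
  -- t * (Q + R) / 2 + P < t  since it is one of the face values
  have hsum : t * (Q + R) + 2 * P < 2 * t := by
    have hz : P ≤ z ∨ P ≤ -z := by
      rcases le_total 0 z with h0 | h0
      · left; rw [hP, abs_of_nonneg h0]
      · right; rw [hP, abs_of_nonpos h0]
    have hq : (Q = x + y ∨ Q = -(x + y)) := abs_choice _
    have hr : (R = x - y ∨ R = -(x - y)) := abs_choice _
    rcases hz with hz | hz <;> rcases hq with hq | hq <;> rcases hr with hr | hr <;>
      rw [hq, hr] <;> linarith [a1.1, a1.2, a2.1, a2.2, a3.1, a3.2, a4.1, a4.2]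
  -- but P (t/2 - P) ≥ 0, Q (1 - Q) ≥ 0, R (1 - R) ≥ 0
  have e1 : 0 ≤ P * (t - 2 * P) := mul_nonneg hP0 (by linarith)
  have e2 : 0 ≤ Q * (1 - Q) := mul_nonneg hQ0 (by linarith)
  have e3 : 0 ≤ R * (1 - R) := mul_nonneg hR0 (by linarith)
  -- 2 = 2 P^2 + Q^2 + R^2 ≤ t P + Q + R
  have e4 : 2 ≤ t * P + Q + R := by nlinarith
  nlinarith


/-- bounded subsets of a plane through the origin have finite area -/
theorem area_lt_top_of_bounded (u : E3) (hu : u ≠ 0) (S : Set E3) (hS : Bornology.IsBounded S)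
    (hSu : ∀ x ∈ S, inner ℝ x u = 0) : μHE[2] S < ⊤ := by
  obtain ⟨J, hJ⟩ := Crest.Agent.Area.exists_planeIso u hu
  have h1 : S = J '' (J ⁻¹' S) := by
    rw [Set.image_preimage_eq_of_subset]
    rw [hJ]
    exact hSu
  rw [h1, J.isometry.euclideanHausdorffMeasure_image,
    EuclideanSpace.euclideanHausdorffMeasure_eq_volume]
  apply Bornology.IsBounded.measure_lt_top
  obtain ⟨R, hR⟩ := hS.subset_closedBall 0
  apply (Metric.isBounded_closedBall (x := (0 : EuclideanSpace ℝ (Fin 2))) (r := R)).subset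
  intro z hz
  have := hR hz
  simpa using this

theorem isBounded_proj (v : E3) (S : Set E3) (hS : S.Finite) :
    Bornology.IsBounded ((fun y => y - inner ℝ y v • v) '' convexHull ℝ S) := by
  rw [coe_projL, LinearMap.image_convexHull]
  exact (isBounded_convexHull.2 (hS.image _).isBounded)

theorem proj_lt_top {v : E3} (hv : ‖v‖ = 1) (S : Set E3) (hS : S.Finite) :
    μHE[2] ((fun y => y - inner ℝ y v • v) '' convexHull ℝ S) < ⊤ := by
  apply area_lt_top_of_bounded v (by intro h; rw [h] at hv; simp at hv) _ (isBounded_proj v S hS)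
  rintro x ⟨y, _, rfl⟩
  exact inner_projL_self hv y

theorem minProj_le (v : E3) (hv : ‖v‖ = 1) :
    ENNReal.ofReal (Real.sqrt 2) ≤ μHE[2] ((fun y => y - inner ℝ y v • v) '' convexHull ℝ
      {!₂[1, 0, 0], !₂[-1, 0, 0], !₂[0, 1, Real.sqrt 2], !₂[0, -1, Real.sqrt 2]}) := by
  set S : Set E3 := {!₂[1, 0, 0], !₂[-1, 0, 0], !₂[0, 1, Real.sqrt 2], !₂[0, -1, Real.sqrt 2]}
    with hS
  have hfin : S.Finite := by rw [hS]; simp
  have htop := (proj_lt_top hv S hfin).ne
  set μ := μHE[2] ((fun y => y - inner ℝ y v • v) '' convexHull ℝ S) with hμ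
  set t := Real.sqrt 2 with ht
  have ht0 : 0 < t := by rw [ht]; positivity
  have ht2 : t ^ 2 = 2 := by rw [ht]; exact Real.sq_sqrt (by norm_num)
  have hA : (!₂[1, 0, 0] : E3) ∈ S := by rw [hS]; simp
  have hB : (!₂[-1, 0, 0] : E3) ∈ S := by rw [hS]; simp
  have hC : (!₂[0, 1, t] : E3) ∈ S := by rw [hS]; simp
  have hD : (!₂[0, -1, t] : E3) ∈ S := by rw [hS]; simp
  have hv2 : v 0 ^ 2 + v 1 ^ 2 + v 2 ^ 2 = 1 := by rw [← normsq3, hv]; norm_num
  rw [ENNReal.ofReal_le_iff_le_toReal htop]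
  have f1 := (ENNReal.ofReal_le_iff_le_toReal htop).1 (proj_triangle_le hv _ _ _ S hA hB hC)
  have f2 := (ENNReal.ofReal_le_iff_le_toReal htop).1 (proj_triangle_le hv _ _ _ S hA hB hD)
  have f3 := (ENNReal.ofReal_le_iff_le_toReal htop).1 (proj_triangle_le hv _ _ _ S hA hC hD)
  have f4 := (ENNReal.ofReal_le_iff_le_toReal htop).1 (proj_triangle_le hv _ _ _ S hB hC hD)
  have f5 := (ENNReal.ofReal_le_iff_le_toReal htop).1 (proj_quad_le hv _ _ _ _ S hA hB hC hD)
  have f6 := (ENNReal.ofReal_le_iff_le_toReal htop).1 (proj_quad_le hv _ _ _ _ S hA hC hB hD)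
  have f7 := (ENNReal.ofReal_le_iff_le_toReal htop).1 (proj_quad_le hv _ _ _ _ S hA hD hB hC)
  have two_abs : ∀ w : ℝ, |2 * w| / 2 = |w| := by
    intro w; rw [abs_mul]; simp
  apply num_ineq (x := v 0) (y := v 1) (z := v 2) ht0 ht2 hv2
  · refine le_trans (le_of_eq ?_) f1
    rw [← two_abs]; congr 2; simp [det3]; ring
  · refine le_trans (le_of_eq ?_) f2
    rw [← two_abs]; congr 2; simp [det3]; ring
  · refine le_trans (le_of_eq ?_) f3
    rw [← two_abs]; congr 2; simp [det3]; ring
  · refine le_trans (le_of_eq ?_) f4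
    rw [← two_abs]; congr 2; simp [det3]; ring
  · refine le_trans (le_of_eq ?_) f5
    rw [show 2 * |v 2| = |2 * v 2| by rw [abs_mul]; simp, ← two_abs]; congr 2; simp [det3]; ring
  · refine le_trans (le_of_eq ?_) f6
    rw [← abs_of_pos ht0, ← abs_mul, ← two_abs, abs_of_pos ht0]; congr 2; simp [det3]; ring
  · refine le_trans (le_of_eq ?_) f7
    rw [← abs_of_pos ht0, ← abs_mul, ← two_abs, abs_of_pos ht0, ← abs_neg]; congr 2
    simp [det3]; ring

theorem minProj_le_toReal (v : E3) (hv : ‖v‖ = 1) :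
    Real.sqrt 2 ≤ (μHE[2] ((fun y => y - inner ℝ y v • v) '' convexHull ℝ
      {!₂[1, 0, 0], !₂[-1, 0, 0], !₂[0, 1, Real.sqrt 2], !₂[0, -1, Real.sqrt 2]})).toReal := by
  rw [← ENNReal.ofReal_le_iff_le_toReal (proj_lt_top hv _ (by simp)).ne]
  exact minProj_le v hv


theorem minProj_eq : ∃ v : E3, ‖v‖ = 1 ∧
    μHE[2] ((fun y => y - inner ℝ y v • v) '' convexHull ℝ
      {!₂[1, 0, 0], !₂[-1, 0, 0], !₂[0, 1, Real.sqrt 2], !₂[0, -1, Real.sqrt 2]}) =
      ENNReal.ofReal (Real.sqrt 2) := by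
  have hv : ‖(!₂[1, 0, 0] : E3)‖ = 1 := by
    have : ‖(!₂[1, 0, 0] : E3)‖ ^ 2 = 1 := by rw [normsq3]; simp
    nlinarith [norm_nonneg (!₂[1, 0, 0] : E3)]
  refine ⟨!₂[1, 0, 0], hv, ?_⟩
  have ht2 : Real.sqrt 2 ^ 2 = 2 := Real.sq_sqrt (by norm_num)
  rw [coe_projL, LinearMap.image_convexHull]
  have h1 : (projL (!₂[1, 0, 0] : E3)) '' {!₂[1, 0, 0], !₂[-1, 0, 0], !₂[0, 1, Real.sqrt 2],
      !₂[0, -1, Real.sqrt 2]} = {0, !₂[0, 1, Real.sqrt 2], !₂[0, -1, Real.sqrt 2]} := by
    have e1 : projL (!₂[1, 0, 0] : E3) !₂[1, 0, 0] = 0 := by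
      rw [projL_apply, inner3]; ext i; fin_cases i <;> simp
    have e2 : projL (!₂[1, 0, 0] : E3) !₂[-1, 0, 0] = 0 := by
      rw [projL_apply, inner3]; ext i; fin_cases i <;> simp
    have e3 : projL (!₂[1, 0, 0] : E3) !₂[0, 1, Real.sqrt 2] = !₂[0, 1, Real.sqrt 2] := by
      rw [projL_apply, inner3]; ext i; fin_cases i <;> simp
    have e4 : projL (!₂[1, 0, 0] : E3) !₂[0, -1, Real.sqrt 2] = !₂[0, -1, Real.sqrt 2] := by
      rw [projL_apply, inner3]; ext i; fin_cases i <;> simp
    simp only [Set.image_insert_eq, Set.image_singleton, e1, e2, e3, e4, Set.insert_eq_of_mem,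
      Set.mem_insert_iff, true_or]
  rw [h1, muHE_triangle]
  congr 1
  rw [sub_zero, sub_zero, gramArea, normsq3, normsq3, inner3]
  simp only [PiLp.toLp_apply, Matrix.cons_val_zero, Matrix.cons_val_one, Matrix.cons_val_two,
    Matrix.head_cons, Matrix.tail_cons]
  have : ((0:ℝ) ^ 2 + 1 ^ 2 + Real.sqrt 2 ^ 2) * (0 ^ 2 + (-1) ^ 2 + Real.sqrt 2 ^ 2) -
      (0 * 0 + 1 * -1 + Real.sqrt 2 * Real.sqrt 2) ^ 2 = (2 * Real.sqrt 2) ^ 2 := by
    nlinarith [ht2]
  rw [this, Real.sqrt_sq (by positivity)]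
  ring

end Crest.Agent.MinProj
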