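import Mathlib
set_option autoImplicit false
open MeasureTheory

namespace Crest.Agent.Lib_helper28_Ruled
abbrev E2 := EuclideanSpace ℝ (Fin 2)

/-- integer covering lemma -/
theorem int_cover (a b X Y : ℝ) (hab : (0 ≤ a ∧ 0 ≤ b) ∨ (a ≤ 0 ∧ b ≤ 0)) (h1 : a * b < 1) :
    ∃ i j : ℤ, 0 ≤ X - i - a * j ∧ X - i - a * j ≤ 1 ∧ 0 ≤ Y - j - b * i ∧ Y - j - b * i ≤ 1 := by
  set κ : ℝ := 1 - a * b with hκ
  have hκpos : 0 < κ := by rw [hκ]; linarith
  let I : ℤ → ℤ := fun j => ⌊X - a * j⌋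
  let H : ℤ → ℝ := fun j => j + b * I j
  have hI1 : ∀ j : ℤ, (I j : ℝ) ≤ X - a * j := fun j => Int.floor_le _
  have hI2 : ∀ j : ℤ, X - a * j < I j + 1 := fun j => Int.lt_floor_add_one _
  -- H j is within |b| of κ j + b X
  have hH : ∀ j : ℤ, |H j - (κ * j + b * X)| ≤ |b| := by
    intro j
    have e : H j - (κ * j + b * X) = b * ((I j : ℝ) - (X - a * j)) := by
      simp only [H, hκ]; ring
    rw [e, abs_mul]
    have : |(I j : ℝ) - (X - a * j)| ≤ 1 := by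
      rw [abs_le]; constructor <;> linarith [hI1 j, hI2 j]
    calc |b| * |(I j : ℝ) - (X - a * j)| ≤ |b| * 1 := by gcongr
      _ = |b| := mul_one _
  -- increments at most one
  have hinc : ∀ j : ℤ, H (j + 1) ≤ H j + 1 := by
    intro j
    have : b * (I (j + 1) : ℝ) ≤ b * (I j : ℝ) := by
      rcases hab with ⟨ha, hb⟩ | ⟨ha, hb⟩
      · have : I (j + 1) ≤ I j := by
          apply Int.floor_le_floor
          push_cast; nlinarith
        have : (I (j + 1) : ℝ) ≤ I j := by exact_mod_cast this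
        exact mul_le_mul_of_nonneg_left this hb
      · have : I j ≤ I (j + 1) := by
          apply Int.floor_le_floor
          push_cast; nlinarith
        have : (I j : ℝ) ≤ I (j + 1) := by exact_mod_cast this
        exact mul_le_mul_of_nonpos_left this hb
    simp only [H]; push_cast; linarith
  -- the set of j with H j ≤ Y is nonempty and bounded above
  have hbdd : ∃ B : ℤ, ∀ j : ℤ, H j ≤ Y → j ≤ B := by
    refine ⟨⌈(Y - b * X + |b|) / κ⌉, fun j hj => ?_⟩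
    have h2 := (abs_le.mp (hH j)).1
    have : (j : ℝ) ≤ (Y - b * X + |b|) / κ := by
      rw [le_div_iff₀ hκpos]; nlinarith
    exact Int.le_ceil_iff.mpr (by linarith) |> fun h => h
  have hne : ∃ j : ℤ, H j ≤ Y := by
    refine ⟨⌊(Y - b * X - |b|) / κ⌋, ?_⟩
    have h2 := (abs_le.mp (hH ⌊(Y - b * X - |b|) / κ⌋)).2
    have h3 : ((⌊(Y - b * X - |b|) / κ⌋ : ℤ) : ℝ) ≤ (Y - b * X - |b|) / κ := Int.floor_le _
    rw [le_div_iff₀ hκpos] at h3
    nlinarith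
  obtain ⟨B, hB⟩ := hbdd
  obtain ⟨j, hj, hmax⟩ := Int.exists_greatest_of_bdd (P := fun j => H j ≤ Y) ⟨B, hB⟩ hne
  have hj1 : Y < H (j + 1) := by
    by_contra hcon
    have := hmax (j + 1) (not_lt.mp hcon)
    omega
  refine ⟨I j, j, ?_, ?_, ?_, ?_⟩
  · linarith [hI1 j]
  · linarith [hI2 j]
  · have : H j = j + b * I j := rfl
    linarith
  · have : H j = j + b * I j := rfl
    linarith [hinc j]


theorem inner2 (x y : E2) : inner ℝ x y = x 0 * y 0 + x 1 * y 1 := by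
  rw [PiLp.inner_apply, Fin.sum_univ_two]
  simp only [RCLike.inner_apply, conj_trivial]
  ring

theorem norm_sq2 (x : E2) : ‖x‖ ^ 2 = x 0 ^ 2 + x 1 ^ 2 := by
  rw [← real_inner_self_eq_norm_sq, inner2]; ring

noncomputable def n1 (θ : ℝ) : E2 := !₂[Real.cos θ, Real.sin θ]
noncomputable def n2 (θ : ℝ) : E2 := !₂[-Real.sin θ, Real.cos θ]

theorem orthonormal_n (θ : ℝ) : Orthonormal ℝ ![n1 θ, n2 θ] := by
  rw [orthonormal_iff_ite]
  intro i j
  fin_cases i <;> fin_cases j <;> simp only [inner2] <;>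
    simp [n1, n2] <;>
    nlinarith [Real.sin_sq_add_cos_sq θ]

noncomputable def frameB (θ : ℝ) : OrthonormalBasis (Fin 2) ℝ E2 :=
  OrthonormalBasis.mk (orthonormal_n θ) (by
    have h := (orthonormal_n θ).linearIndependent
    rw [h.span_eq_top_of_card_eq_finrank (by simp)])

theorem frameB_zero (θ : ℝ) : frameB θ 0 = n1 θ := by simp [frameB]
theorem frameB_one (θ : ℝ) : frameB θ 1 = n2 θ := by simp [frameB]

theorem continuous_n1 : Continuous n1 := by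
  unfold n1
  have : Continuous fun θ : ℝ => (![Real.cos θ, Real.sin θ] : Fin 2 → ℝ) := by
    refine continuous_pi fun i => ?_
    fin_cases i
    · simpa using Real.continuous_cos
    · simpa using Real.continuous_sin
  exact (PiLp.continuous_toLp 2 _).comp this

theorem frame (A : E2 →L[ℝ] E2) (htr : LinearMap.trace ℝ _ A.toLinearMap = 0) :
    ∃ b : OrthonormalBasis (Fin 2) ℝ E2,
      inner ℝ (b 0) (A (b 0)) = 0 ∧ inner ℝ (b 1) (A (b 1)) = 0 := by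
  have key : ∀ θ, inner ℝ (n1 θ) (A (n1 θ)) + inner ℝ (n2 θ) (A (n2 θ)) = 0 := by
    intro θ
    have := LinearMap.trace_eq_sum_inner A.toLinearMap (frameB θ)
    rw [htr, Fin.sum_univ_two, frameB_zero, frameB_one] at this
    simpa using this.symm
  let f : ℝ → ℝ := fun θ => inner ℝ (n1 θ) (A (n1 θ))
  have hf : Continuous f := continuous_n1.inner (A.continuous.comp continuous_n1)
  have h2 : n2 0 = n1 (Real.pi / 2) := by simp [n1, n2]
  have h0 : f 0 + f (Real.pi / 2) = 0 := by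
    have := key 0
    rw [h2] at this
    exact this
  have : ∃ θ, f θ = 0 := by
    have hmem : (0 : ℝ) ∈ Set.uIcc (f 0) (f (Real.pi / 2)) := by
      rw [Set.mem_uIcc]
      rcases le_total (f 0) 0 with h | h
      · left; constructor <;> linarith
      · right; constructor <;> linarith
    obtain ⟨θ, -, hθ⟩ := intermediate_value_uIcc (hf.continuousOn (s := Set.uIcc 0 (Real.pi / 2))) hmem
    exact ⟨θ, hθ⟩
  obtain ⟨θ, hθ⟩ := this
  refine ⟨frameB θ, ?_, ?_⟩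
  · rw [frameB_zero]; exact hθ
  · rw [frameB_one]
    have := key θ
    have h3 : inner ℝ (n1 θ) (A (n1 θ)) = 0 := hθ
    linarith

/-- determinant in an orthonormal frame -/
theorem det_frame (A : E2 →L[ℝ] E2) (b : OrthonormalBasis (Fin 2) ℝ E2) :
    LinearMap.det A.toLinearMap =
      inner ℝ (b 0) (A (b 0)) * inner ℝ (b 1) (A (b 1)) -
        inner ℝ (b 0) (A (b 1)) * inner ℝ (b 1) (A (b 0)) := by
  rw [← LinearMap.det_toMatrix b.toBasis, Matrix.det_fin_two]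
  simp [LinearMap.toMatrix_apply, OrthonormalBasis.repr_apply_apply]


theorem vol_pi2 (s0 s1 : Set ℝ) (h0 : MeasurableSet s0) (h1 : MeasurableSet s1) :
    volume {q : E2 | q 0 ∈ s0 ∧ q 1 ∈ s1} = volume s0 * volume s1 := by
  have hs : {q : E2 | q 0 ∈ s0 ∧ q 1 ∈ s1} =
      (WithLp.ofLp : E2 → (Fin 2 → ℝ)) ⁻¹' (Set.univ.pi ![s0, s1]) := by
    ext q
    simp [Set.mem_pi, Fin.forall_fin_two]
  have hm : MeasurableSet (Set.univ.pi ![s0, s1] : Set (Fin 2 → ℝ)) := by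
    apply MeasurableSet.univ_pi
    intro i; fin_cases i <;> simpa
  rw [hs, (PiLp.volume_preserving_ofLp (Fin 2)).measure_preimage hm.nullMeasurableSet, volume_pi_pi,
    Fin.prod_univ_two]
  simp

theorem meas_pi2 (s0 s1 : Set ℝ) (h0 : MeasurableSet s0) (h1 : MeasurableSet s1) :
    MeasurableSet {q : E2 | q 0 ∈ s0 ∧ q 1 ∈ s1} := by
  have m0 : Measurable fun q : E2 => q 0 := by fun_prop
  have m1 : Measurable fun q : E2 => q 1 := by fun_prop
  exact (m0 h0).inter (m1 h1)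

/-- the half-open tile with index `(i,j)` in the frame `b` based at `p0` with mesh `δ` -/
def tile (b : OrthonormalBasis (Fin 2) ℝ E2) (p0 : E2) (δ : ℝ) (ij : ℤ × ℤ) : Set E2 :=
  {q | ⌊inner ℝ (b 0) (q - p0) / δ⌋ = ij.1 ∧ ⌊inner ℝ (b 1) (q - p0) / δ⌋ = ij.2}

theorem tile_eq (b : OrthonormalBasis (Fin 2) ℝ E2) (p0 : E2) (δ : ℝ) (hδ : 0 < δ) (ij : ℤ × ℤ) :
    tile b p0 δ ij = (fun q => b.repr (q - p0)) ⁻¹'
      {w : E2 | w 0 ∈ Set.Ico (δ * ij.1) (δ * (ij.1 + 1)) ∧ w 1 ∈ Set.Ico (δ * ij.2) (δ * (ij.2 + 1))} := by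
  ext q
  simp only [tile, Set.mem_ofPred_eq, Set.mem_preimage, OrthonormalBasis.repr_apply_apply, Set.mem_Ico,
    Int.floor_eq_iff, le_div_iff₀ hδ, div_lt_iff₀ hδ]
  constructor
  · rintro ⟨⟨h1, h2⟩, h3, h4⟩
    refine ⟨⟨by linarith, by linarith⟩, by linarith, by linarith⟩
  · rintro ⟨⟨h1, h2⟩, h3, h4⟩
    refine ⟨⟨by linarith, by linarith⟩, by linarith, by linarith⟩

theorem mp_frame (b : OrthonormalBasis (Fin 2) ℝ E2) (p0 : E2) :
    MeasurePreserving (fun q : E2 => b.repr (q - p0)) volume volume :=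
  b.measurePreserving_repr.comp (measurePreserving_sub_right volume p0)

theorem meas_tile (b : OrthonormalBasis (Fin 2) ℝ E2) (p0 : E2) (δ : ℝ) (hδ : 0 < δ) (ij : ℤ × ℤ) :
    MeasurableSet (tile b p0 δ ij) := by
  rw [tile_eq b p0 δ hδ]
  exact (mp_frame b p0).measurable (meas_pi2 _ _ measurableSet_Ico measurableSet_Ico)

theorem vol_tile (b : OrthonormalBasis (Fin 2) ℝ E2) (p0 : E2) (δ : ℝ) (hδ : 0 < δ) (ij : ℤ × ℤ) :
    volume (tile b p0 δ ij) = ENNReal.ofReal (δ ^ 2) := by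
  rw [tile_eq b p0 δ hδ, (mp_frame b p0).measure_preimage
    (meas_pi2 _ _ measurableSet_Ico measurableSet_Ico).nullMeasurableSet,
    vol_pi2 _ _ measurableSet_Ico measurableSet_Ico, Real.volume_Ico, Real.volume_Ico,
    ← ENNReal.ofReal_mul (by nlinarith)]
  congr 1; ring

theorem tile_disjoint (b : OrthonormalBasis (Fin 2) ℝ E2) (p0 : E2) (δ : ℝ) (J : Set (ℤ × ℤ)) :
    J.PairwiseDisjoint (tile b p0 δ) := by
  intro x _ y _ hxy
  rw [Function.onFun, Set.disjoint_left]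
  rintro q ⟨h1, h2⟩ ⟨h3, h4⟩
  exact hxy (Prod.ext (h1.symm.trans h3) (h2.symm.trans h4))

/-- counting lemma: tiles contained in a box -/
theorem card_tiles_le (b : OrthonormalBasis (Fin 2) ℝ E2) (p0 : E2) (δ : ℝ) (hδ : 0 < δ)
    (J : Finset (ℤ × ℤ)) (l0 u0 l1 u1 : ℝ) (h0 : l0 ≤ u0) (h1 : l1 ≤ u1)
    (hsub : ∀ ij ∈ J, tile b p0 δ ij ⊆ {q : E2 | q 0 ∈ Set.Icc l0 u0 ∧ q 1 ∈ Set.Icc l1 u1}) :
    (J.card : ℝ) * δ ^ 2 ≤ (u0 - l0) * (u1 - l1) := by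
  have hU : volume (⋃ ij ∈ J, tile b p0 δ ij) = ∑ ij ∈ J, volume (tile b p0 δ ij) :=
    measure_biUnion_finset (tile_disjoint b p0 δ _) (fun ij _ => meas_tile b p0 δ hδ ij)
  have hle : volume (⋃ ij ∈ J, tile b p0 δ ij) ≤
      volume {q : E2 | q 0 ∈ Set.Icc l0 u0 ∧ q 1 ∈ Set.Icc l1 u1} :=
    measure_mono (Set.iUnion₂_subset hsub)
  rw [hU, vol_pi2 _ _ measurableSet_Icc measurableSet_Icc, Real.volume_Icc, Real.volume_Icc,
    Finset.sum_congr rfl (fun ij _ => vol_tile b p0 δ hδ ij), Finset.sum_const, nsmul_eq_mul,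
    ← ENNReal.ofReal_mul (by linarith), ← ENNReal.ofReal_natCast, ← ENNReal.ofReal_mul (by positivity)] at hle
  exact (ENNReal.ofReal_le_ofReal_iff (by apply mul_nonneg <;> linarith)).mp hle


theorem unif_diff (D U : Set E2) (hD : IsCompact D) (hU : IsOpen U) (hDU : D ⊆ U) (V : E2 → E2)
    (hV : ContDiffOn ℝ 1 V U) (η : ℝ) (hη : 0 < η) :
    ∃ δ0 > 0, ∀ x ∈ D, ∀ y ∈ D, dist x y < δ0 →
      ‖V x - V y - fderiv ℝ V y (x - y)‖ ≤ η * ‖x - y‖ := by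
  have hcont : ContinuousOn (fderiv ℝ V) U := hV.continuousOn_fderiv_of_isOpen hU le_rfl
  -- local statement
  have hloc : ∀ q : E2, ∃ W : Set E2, IsOpen W ∧ (q ∈ D → q ∈ W) ∧ (∀ x ∈ W, ∀ y ∈ W,
      ‖V x - V y - fderiv ℝ V y (x - y)‖ ≤ η * ‖x - y‖) := by
    intro q
    by_cases hq : q ∈ D
    · have hqU : U ∈ nhds q := hU.mem_nhds (hDU hq)
      have hs : HasStrictFDerivAt V (fderiv ℝ V q) q :=
        (hV.contDiffAt hqU).hasStrictFDerivAt one_ne_zero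
      have h1 : ∀ᶠ p : E2 × E2 in nhds (q, q),
          ‖V p.1 - V p.2 - fderiv ℝ V q (p.1 - p.2)‖ ≤ (η / 2) * ‖p.1 - p.2‖ :=
        hs.isLittleO.def (by positivity)
      have h2 : ∀ᶠ y in nhds q, ‖fderiv ℝ V y - fderiv ℝ V q‖ < η / 2 := by
        have := (hcont.continuousAt hqU)
        have h3 := Metric.continuousAt_iff'.mp this (η / 2) (by positivity)
        simpa [dist_eq_norm] using h3
      rw [nhds_prod_eq] at h1
      obtain ⟨W1, hW1, W2, hW2, hW⟩ := Filter.eventually_prod_iff.mp h1 |> fun ⟨pa, ha, pb, hb, h⟩ =>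
        (⟨{x | pa x}, ha, {x | pb x}, hb, h⟩ : ∃ W1 ∈ nhds q, ∃ W2 ∈ nhds q, ∀ {x : E2}, x ∈ W1 → ∀ {y : E2}, y ∈ W2 →
          ‖V (x, y).1 - V (x, y).2 - fderiv ℝ V q ((x, y).1 - (x, y).2)‖ ≤ (η / 2) * ‖(x, y).1 - (x, y).2‖)
      have hall : W1 ∩ W2 ∩ {y | ‖fderiv ℝ V y - fderiv ℝ V q‖ < η / 2} ∈ nhds q :=
        Filter.inter_mem (Filter.inter_mem hW1 hW2) h2
      obtain ⟨W, hWsub, hWo, hqW⟩ := mem_nhds_iff.mp hall
      refine ⟨W, hWo, fun _ => hqW, fun x hx y hy => ?_⟩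
      have hx' := hWsub hx
      have hy' := hWsub hy
      have e1 := hW hx'.1.1 hy'.1.2
      simp only at e1
      have e2 : ‖fderiv ℝ V y - fderiv ℝ V q‖ < η / 2 := hy'.2
      have e3 : ‖(fderiv ℝ V y - fderiv ℝ V q) (x - y)‖ ≤ (η / 2) * ‖x - y‖ :=
        ((fderiv ℝ V y - fderiv ℝ V q).le_opNorm _).trans (by gcongr)
      have e4 : V x - V y - fderiv ℝ V y (x - y) =
          (V x - V y - fderiv ℝ V q (x - y)) - (fderiv ℝ V y - fderiv ℝ V q) (x - y) := by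
        simp only [_root_.sub_apply]; abel
      rw [e4]
      calc _ ≤ ‖V x - V y - fderiv ℝ V q (x - y)‖ + ‖(fderiv ℝ V y - fderiv ℝ V q) (x - y)‖ := norm_sub_le _ _
        _ ≤ (η / 2) * ‖x - y‖ + (η / 2) * ‖x - y‖ := add_le_add e1 e3
        _ = η * ‖x - y‖ := by ring
    · exact ⟨∅, isOpen_empty, fun h => absurd h hq, fun x hx => absurd hx (Set.notMem_empty x)⟩
  choose W hWo hqW hW using hloc
  obtain ⟨δ0, hδ0, hleb⟩ := lebesgue_number_lemma_of_metric (c := W) hD hWo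
    (fun q hq => Set.mem_iUnion.mpr ⟨q, hqW q hq⟩)
  refine ⟨δ0, hδ0, fun x hx y _ hxy => ?_⟩
  obtain ⟨i, hi⟩ := hleb x hx
  exact hW i x (hi (Metric.mem_ball_self hδ0)) y (hi (by rw [Metric.mem_ball, dist_comm]; exact hxy))


theorem N_le (h x0 x1 y0 y1 : ℝ) (hh : 0 ≤ h) :
    Real.sqrt (1 + y0 ^ 2 + h ^ 2 * y1 ^ 2) ≤
      Real.sqrt (1 + x0 ^ 2 + h ^ 2 * x1 ^ 2) + |x0 - y0| + h * |x1 - y1| := by
  set N := Real.sqrt (1 + x0 ^ 2 + h ^ 2 * x1 ^ 2) with hN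
  have hpos : 0 ≤ 1 + x0 ^ 2 + h ^ 2 * x1 ^ 2 := by positivity
  have hN0 : 0 ≤ N := Real.sqrt_nonneg _
  have hNsq : N ^ 2 = 1 + x0 ^ 2 + h ^ 2 * x1 ^ 2 := Real.sq_sqrt hpos
  have h1 : |x0| ≤ N := by
    apply Real.abs_le_sqrt; nlinarith [sq_nonneg (h * x1)]
  have h2 : h * |x1| ≤ N := by
    have : |h * x1| ≤ N := by
      apply Real.abs_le_sqrt; nlinarith [sq_nonneg x0]
    rwa [abs_mul, abs_of_nonneg hh] at this
  set a := |x0 - y0| with ha
  set b := |x1 - y1| with hb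
  have ha0 : 0 ≤ a := abs_nonneg _
  have hb0 : 0 ≤ b := abs_nonneg _
  rw [Real.sqrt_le_iff]
  refine ⟨by positivity, ?_⟩
  have e0 : y0 ^ 2 ≤ (|x0| + a) ^ 2 := by
    rw [← sq_abs y0]
    apply pow_le_pow_left₀ (abs_nonneg _)
    have : y0 = x0 - (x0 - y0) := by ring
    calc |y0| = |x0 - (x0 - y0)| := by rw [← this]
      _ ≤ |x0| + |x0 - y0| := abs_sub _ _
  have e1 : y1 ^ 2 ≤ (|x1| + b) ^ 2 := by
    rw [← sq_abs y1]
    apply pow_le_pow_left₀ (abs_nonneg _)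
    have : y1 = x1 - (x1 - y1) := by ring
    calc |y1| = |x1 - (x1 - y1)| := by rw [← this]
      _ ≤ |x1| + |x1 - y1| := abs_sub _ _
  have e2 : h ^ 2 * y1 ^ 2 ≤ h ^ 2 * (|x1| + b) ^ 2 := by gcongr
  have s0 : |x0| ^ 2 = x0 ^ 2 := sq_abs _
  have s1 : |x1| ^ 2 = x1 ^ 2 := sq_abs _
  nlinarith [mul_nonneg ha0 (sub_nonneg.mpr h1), mul_nonneg (mul_nonneg hh hb0) (sub_nonneg.mpr h2),
    mul_nonneg ha0 (mul_nonneg hh hb0)]

/-- the weight -/
noncomputable def Jw (h : ℝ) (g : E2) : ℝ := 1 / Real.sqrt (1 + (g 0) ^ 2 + h ^ 2 * (g 1) ^ 2)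

theorem Jw_pos (h : ℝ) (g : E2) : 0 < Jw h g := by
  unfold Jw; positivity

theorem Jw_le_one (h : ℝ) (g : E2) : Jw h g ≤ 1 := by
  unfold Jw
  rw [div_le_one (by positivity)]
  rw [Real.one_le_sqrt]
  nlinarith [sq_nonneg (g 0), sq_nonneg (h * g 1)]

theorem abs_coord_le (x : E2) (i : Fin 2) : |x i| ≤ ‖x‖ := by
  have := PiLp.norm_apply_le x i
  simpa using this

theorem Jw_le (h : ℝ) (hh : 0 ≤ h) (g g' : E2) : Jw h g ≤ Jw h g' + (1 + h) * ‖g - g'‖ := by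
  unfold Jw
  set N := Real.sqrt (1 + (g 0) ^ 2 + h ^ 2 * (g 1) ^ 2) with hN
  set N' := Real.sqrt (1 + (g' 0) ^ 2 + h ^ 2 * (g' 1) ^ 2) with hN'
  have h1 : 1 ≤ N := by
    rw [hN, Real.one_le_sqrt]; nlinarith [sq_nonneg (g 0), sq_nonneg (h * g 1)]
  have h1' : 1 ≤ N' := by
    rw [hN', Real.one_le_sqrt]; nlinarith [sq_nonneg (g' 0), sq_nonneg (h * g' 1)]
  have key : N' ≤ N + (1 + h) * ‖g - g'‖ := by
    have := N_le h (g 0) (g 1) (g' 0) (g' 1) hh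
    have c0 := abs_coord_le (g - g') 0
    have c1 := abs_coord_le (g - g') 1
    simp only [PiLp.sub_apply] at c0 c1
    have : h * |g 1 - g' 1| ≤ h * ‖g - g'‖ := by gcongr
    linarith
  have hd : 0 ≤ (1 + h) * ‖g - g'‖ := by positivity
  rw [div_le_iff₀ (by linarith)]
  have : 1 / N' * N' = 1 := by field_simp
  have h3 : 0 < 1 / N' := by positivity
  have h4 : 1 / N' ≤ 1 := by rw [div_le_one (by linarith)]; exact h1'
  -- 1 ≤ (1/N' + d) * N
  nlinarith [mul_le_mul_of_nonneg_left key h3.le]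


theorem frame_expand (b : OrthonormalBasis (Fin 2) ℝ E2) (w : E2) :
    w = inner ℝ (b 0) w • b 0 + inner ℝ (b 1) w • b 1 := by
  have := b.sum_repr' w
  rw [Fin.sum_univ_two] at this
  exact this.symm

theorem frame_inner0 (b : OrthonormalBasis (Fin 2) ℝ E2) (x y : ℝ) :
    inner ℝ (b 0) (x • b 0 + y • b 1) = x := by
  have h := b.orthonormal
  rw [inner_add_right, inner_smul_right, inner_smul_right, real_inner_self_eq_norm_sq, h.1 0,
    h.2 (by decide : (0 : Fin 2) ≠ 1)]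
  ring

theorem frame_inner1 (b : OrthonormalBasis (Fin 2) ℝ E2) (x y : ℝ) :
    inner ℝ (b 1) (x • b 0 + y • b 1) = y := by
  have h := b.orthonormal
  rw [inner_add_right, inner_smul_right, inner_smul_right, real_inner_self_eq_norm_sq, h.1 1,
    h.2 (by decide : (1 : Fin 2) ≠ 0)]
  ring

theorem frame_norm_sq (b : OrthonormalBasis (Fin 2) ℝ E2) (x y : ℝ) :
    ‖x • b 0 + y • b 1‖ ^ 2 = x ^ 2 + y ^ 2 := by
  rw [← real_inner_self_eq_norm_sq, inner_add_left, inner_smul_left, inner_smul_left, frame_inner0,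
    frame_inner1]
  simp; ring

theorem sign_cases (α β s : ℝ) (h : 0 ≤ α * β) :
    (0 ≤ s * α ∧ 0 ≤ s * β) ∨ (s * α ≤ 0 ∧ s * β ≤ 0) := by
  have h2 : (0 ≤ α ∧ 0 ≤ β) ∨ (α ≤ 0 ∧ β ≤ 0) := by
    rcases le_total 0 α with ha | ha <;> rcases le_total 0 β with hb | hb
    · exact Or.inl ⟨ha, hb⟩
    · rcases eq_or_lt_of_le ha with h0 | h0
      · exact Or.inr ⟨h0 ▸ le_rfl, hb⟩
      · rcases eq_or_lt_of_le hb with h1 | h1
        · exact Or.inl ⟨ha, h1 ▸ le_rfl⟩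
        · exfalso; nlinarith
    · rcases eq_or_lt_of_le ha with h0 | h0
      · exact Or.inl ⟨h0 ▸ le_rfl, hb⟩
      · rcases eq_or_lt_of_le hb with h1 | h1
        · exact Or.inr ⟨ha, h1 ▸ le_rfl⟩
        · exfalso; nlinarith
    · exact Or.inr ⟨ha, hb⟩
  rcases le_total 0 s with hs | hs <;> rcases h2 with ⟨ha, hb⟩ | ⟨ha, hb⟩
  · exact Or.inl ⟨mul_nonneg hs ha, mul_nonneg hs hb⟩
  · exact Or.inr ⟨mul_nonpos_of_nonneg_of_nonpos hs ha, mul_nonpos_of_nonneg_of_nonpos hs hb⟩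
  · exact Or.inr ⟨mul_nonpos_of_nonpos_of_nonneg hs ha, mul_nonpos_of_nonpos_of_nonneg hs hb⟩
  · exact Or.inl ⟨mul_nonneg_of_nonpos_of_nonpos hs ha, mul_nonneg_of_nonpos_of_nonpos hs hb⟩

theorem A_apply (A : E2 →L[ℝ] E2) (b : OrthonormalBasis (Fin 2) ℝ E2)
    (h00 : inner ℝ (b 0) (A (b 0)) = 0) (h11 : inner ℝ (b 1) (A (b 1)) = 0) (x y : ℝ) :
    A (x • b 0 + y • b 1) =
      (y * inner ℝ (b 0) (A (b 1))) • b 0 + (x * inner ℝ (b 1) (A (b 0))) • b 1 := by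
  have e0 := frame_expand b (A (b 0))
  have e1 := frame_expand b (A (b 1))
  rw [h00] at e0
  rw [h11] at e1
  rw [map_add, map_smul, map_smul]
  conv_lhs => rw [e0, e1]
  simp only [zero_smul, zero_add, add_zero, smul_smul]
  abel

theorem cover_point (A : E2 →L[ℝ] E2) (b : OrthonormalBasis (Fin 2) ℝ E2)
    (h00 : inner ℝ (b 0) (A (b 0)) = 0) (h11 : inner ℝ (b 1) (A (b 1)) = 0) (s δ : ℝ) (hδ : 0 < δ)
    (hsign : 0 ≤ inner ℝ (b 0) (A (b 1)) * inner ℝ (b 1) (A (b 0)))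
    (hs : s ^ 2 * (inner ℝ (b 0) (A (b 1)) * inner ℝ (b 1) (A (b 0))) < 1) (q : E2) :
    ∃ i j : ℤ, ∃ x y : ℝ, x ∈ Set.Icc (0 : ℝ) 1 ∧ y ∈ Set.Icc (0 : ℝ) 1 ∧
      x = inner ℝ (b 0) q / δ - i - (s * inner ℝ (b 0) (A (b 1))) * j ∧
      y = inner ℝ (b 1) q / δ - j - (s * inner ℝ (b 1) (A (b 0))) * i ∧
      q = ((δ * i) • b 0 + (δ * j) • b 1) + x • (δ • b 0) + y • (δ • b 1) +
        s • A ((δ * i) • b 0 + (δ * j) • b 1) := by
  set α := inner ℝ (b 0) (A (b 1)) with hα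
  set β := inner ℝ (b 1) (A (b 0)) with hβ
  obtain ⟨i, j, hx0, hx1, hy0, hy1⟩ := int_cover (s * α) (s * β) (inner ℝ (b 0) q / δ)
    (inner ℝ (b 1) q / δ) (sign_cases α β s hsign) (by nlinarith)
  refine ⟨i, j, _, _, ⟨hx0, hx1⟩, ⟨hy0, hy1⟩, rfl, rfl, ?_⟩
  rw [A_apply A b h00 h11, ← hα, ← hβ]
  conv_lhs => rw [frame_expand b q]
  simp only [smul_add, smul_smul]
  have c0 : inner ℝ (b 0) q = δ * i + (inner ℝ (b 0) q / δ - i - s * α * j) * δ + s * (δ * j * α) := by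
    field_simp; ring
  have c1 : inner ℝ (b 1) q = δ * j + (inner ℝ (b 1) q / δ - j - s * β * i) * δ + s * (δ * i * β) := by
    field_simp; ring
  conv_lhs => rw [c0, c1]
  simp only [add_smul]
  abel

theorem locality (u v x y e1 e2 a b κ K e : ℝ) (hx : x = u + a * v + e1) (hy : y = v + b * u + e2)
    (hx0 : 0 ≤ x) (hx1 : x ≤ 1) (hy0 : 0 ≤ y) (hy1 : y ≤ 1) (he1 : |e1| ≤ e) (he2 : |e2| ≤ e)
    (ha : |a| ≤ K) (hb : |b| ≤ K) (hκ : 0 < κ) (hκ' : κ ≤ 1 - a * b) :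
    |u| ≤ (1 + e) * (1 + K) / κ ∧ |v| ≤ (1 + e) * (1 + K) / κ := by
  have he : 0 ≤ e := (abs_nonneg _).trans he1
  have hK : 0 ≤ K := (abs_nonneg _).trans ha
  have bx : |x - e1| ≤ 1 + e := by
    have := abs_le.mp he1
    rw [abs_le]; constructor <;> linarith
  have by' : |y - e2| ≤ 1 + e := by
    have := abs_le.mp he2
    rw [abs_le]; constructor <;> linarith
  have eu : u * (1 - a * b) = (x - e1) - a * (y - e2) := by rw [hx, hy]; ring
  have ev : v * (1 - a * b) = (y - e2) - b * (x - e1) := by rw [hx, hy]; ring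
  have hpos : 0 < 1 - a * b := lt_of_lt_of_le hκ hκ'
  constructor
  · rw [le_div_iff₀ hκ]
    calc |u| * κ ≤ |u| * (1 - a * b) := by gcongr
      _ = |u * (1 - a * b)| := by rw [abs_mul, abs_of_pos hpos]
      _ = |(x - e1) - a * (y - e2)| := by rw [eu]
      _ ≤ |x - e1| + |a * (y - e2)| := abs_sub _ _
      _ = |x - e1| + |a| * |y - e2| := by rw [abs_mul]
      _ ≤ (1 + e) + K * (1 + e) := by gcongr
      _ = (1 + e) * (1 + K) := by ring
  · rw [le_div_iff₀ hκ]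
    calc |v| * κ ≤ |v| * (1 - a * b) := by gcongr
      _ = |v * (1 - a * b)| := by rw [abs_mul, abs_of_pos hpos]
      _ = |(y - e2) - b * (x - e1)| := by rw [ev]
      _ ≤ |y - e2| + |b * (x - e1)| := abs_sub _ _
      _ = |y - e2| + |b| * |x - e1| := by rw [abs_mul]
      _ ≤ (1 + e) + K * (1 + e) := by gcongr
      _ = (1 + e) * (1 + K) := by ring


theorem norm_le_of_frame (b : OrthonormalBasis (Fin 2) ℝ E2) (w : E2) :
    ‖w‖ ≤ |inner ℝ (b 0) w| + |inner ℝ (b 1) w| := by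
  conv_lhs => rw [frame_expand b w]
  calc _ ≤ ‖inner ℝ (b 0) w • b 0‖ + ‖inner ℝ (b 1) w • b 1‖ := norm_add_le _ _
    _ = _ := by simp [norm_smul]

theorem abs_inner_frame_le (b : OrthonormalBasis (Fin 2) ℝ E2) (i : Fin 2) (w : E2) :
    |inner ℝ (b i) w| ≤ ‖w‖ := by
  have := abs_real_inner_le_norm (b i) w
  simpa using this

theorem tile_diam (b : OrthonormalBasis (Fin 2) ℝ E2) (p0 : E2) (δ : ℝ) (hδ : 0 < δ) (ij : ℤ × ℤ)
    (q q' : E2) (hq : q ∈ tile b p0 δ ij) (hq' : q' ∈ tile b p0 δ ij) : ‖q - q'‖ ≤ 2 * δ := by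
  obtain ⟨h0, h1⟩ := hq
  obtain ⟨h0', h1'⟩ := hq'
  rw [Int.floor_eq_iff, le_div_iff₀ hδ, div_lt_iff₀ hδ] at h0 h1 h0' h1'
  have i0 : inner ℝ (b 0) (q - q') = inner ℝ (b 0) (q - p0) - inner ℝ (b 0) (q' - p0) := by
    rw [← inner_sub_right]; congr 1; abel
  have i1 : inner ℝ (b 1) (q - q') = inner ℝ (b 1) (q - p0) - inner ℝ (b 1) (q' - p0) := by
    rw [← inner_sub_right]; congr 1; abel
  have := norm_le_of_frame b (q - q')
  rw [i0, i1] at this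
  have a0 : |inner ℝ (b 0) (q - p0) - inner ℝ (b 0) (q' - p0)| ≤ δ := by
    rw [abs_le]; constructor <;> linarith [h0.1, h0.2, h0'.1, h0'.2]
  have a1 : |inner ℝ (b 1) (q - p0) - inner ℝ (b 1) (q' - p0)| ≤ δ := by
    rw [abs_le]; constructor <;> linarith [h1.1, h1.2, h1'.1, h1'.2]
  linarith

theorem corner_mem_tile (b : OrthonormalBasis (Fin 2) ℝ E2) (p0 : E2) (δ : ℝ) (hδ : 0 < δ) (ij : ℤ × ℤ) :
    p0 + ((δ * ij.1) • b 0 + (δ * ij.2) • b 1) ∈ tile b p0 δ ij := by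
  simp only [tile, Set.mem_ofPred_eq, add_sub_cancel_left, frame_inner0, frame_inner1]
  constructor
  · rw [mul_div_cancel_left₀ _ hδ.ne']; exact Int.floor_intCast _
  · rw [mul_div_cancel_left₀ _ hδ.ne']; exact Int.floor_intCast _

theorem finite_tiles (b : OrthonormalBasis (Fin 2) ℝ E2) (p0 : E2) (δ : ℝ) (hδ : 0 < δ) (S : Set E2)
    (hS : Bornology.IsBounded S) : {ij : ℤ × ℤ | (tile b p0 δ ij ∩ S).Nonempty}.Finite := by
  obtain ⟨R, hR⟩ := hS.subset_closedBall p0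
  apply (Set.finite_Icc ((⌊-R / δ⌋, ⌊-R / δ⌋) : ℤ × ℤ) (⌊R / δ⌋, ⌊R / δ⌋)).subset
  rintro ij ⟨q, ⟨h0, h1⟩, hqS⟩
  have hq : ‖q - p0‖ ≤ R := by
    have := hR hqS
    rwa [Metric.mem_closedBall, dist_eq_norm] at this
  have a0 := abs_le.mp ((abs_inner_frame_le b 0 (q - p0)).trans hq)
  have a1 := abs_le.mp ((abs_inner_frame_le b 1 (q - p0)).trans hq)
  rw [Set.mem_Icc, Prod.le_def, Prod.le_def]
  simp only
  rw [← h0, ← h1]
  refine ⟨⟨Int.floor_le_floor ?_, Int.floor_le_floor ?_⟩, Int.floor_le_floor ?_, Int.floor_le_floor ?_⟩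
  · gcongr; exact a0.1
  · gcongr; exact a1.1
  · gcongr; exact a0.2
  · gcongr; exact a1.2

/-- conversion from a finset-indexed family to a `Fin k`-indexed family -/
theorem to_fin {ι : Type} (T : Finset ι) (c a b g : ι → E2) (h RHS : ℝ) (S : Set (ℝ × E2))
    (h1 : ∀ i ∈ T, a i ≠ 0 ∧ ‖b i‖ = ‖a i‖ ∧ inner ℝ (a i) (b i) = 0)
    (h2 : ∀ z ∈ S, ∃ i ∈ T, ∃ x ∈ Set.Icc (0 : ℝ) 1, ∃ y ∈ Set.Icc (0 : ℝ) 1,
          z.2 = c i + x • a i + y • b i + z.1 • g i)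
    (h3 : ∑ i ∈ T, ‖a i‖ ^ 2 / Real.sqrt (1 + (g i 0) ^ 2 + h ^ 2 * (g i 1) ^ 2) ≤ RHS) :
    ∃ (k : ℕ) (c a b g : Fin k → EuclideanSpace ℝ (Fin 2)),
      (∀ i, a i ≠ 0 ∧ ‖b i‖ = ‖a i‖ ∧ inner ℝ (a i) (b i) = 0) ∧
      S ⊆
        ⋃ i, {z : ℝ × EuclideanSpace ℝ (Fin 2) | ∃ x ∈ Set.Icc (0 : ℝ) 1, ∃ y ∈ Set.Icc (0 : ℝ) 1,
          z.2 = c i + x • a i + y • b i + z.1 • g i} ∧
      ∑ i, ‖a i‖ ^ 2 / Real.sqrt (1 + (g i 0) ^ 2 + h ^ 2 * (g i 1) ^ 2) ≤ RHS := by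
  let e := T.equivFin
  refine ⟨T.card, fun i => c (e.symm i), fun i => a (e.symm i), fun i => b (e.symm i),
    fun i => g (e.symm i), fun i => h1 _ (e.symm i).2, ?_, ?_⟩
  · intro z hz
    obtain ⟨i, hi, x, hx, y, hy, hxy⟩ := h2 z hz
    refine Set.mem_iUnion.mpr ⟨e ⟨i, hi⟩, x, hx, y, hy, ?_⟩
    simpa using hxy
  · have : ∑ i : Fin T.card, ‖a (e.symm i)‖ ^ 2 /
        Real.sqrt (1 + (g (e.symm i) 0) ^ 2 + h ^ 2 * (g (e.symm i) 1) ^ 2) =
        ∑ i ∈ T, ‖a i‖ ^ 2 / Real.sqrt (1 + (g i 0) ^ 2 + h ^ 2 * (g i 1) ^ 2) := by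
      rw [Equiv.sum_comp e.symm (fun i : T => ‖a i‖ ^ 2 /
        Real.sqrt (1 + (g i 0) ^ 2 + h ^ 2 * (g i 1) ^ 2))]
      exact Finset.sum_coe_sort T (fun i => ‖a i‖ ^ 2 / Real.sqrt (1 + (g i 0) ^ 2 + h ^ 2 * (g i 1) ^ 2))
    rw [this]; exact h3

theorem final_arith {ι : Type} (K : Finset ι) (φ d : ι → ℝ) (r2 β0 η' v ε1 ε : ℝ)
    (hφ0 : ∀ k ∈ K, 0 ≤ φ k) (hφ1 : ∀ k ∈ K, φ k ≤ 1) (hd0 : ∀ k ∈ K, 0 ≤ d k)
    (hd : ∀ k ∈ K, d k ≤ r2) (hsum : ∑ k ∈ K, d k = v) (hK : (K.card : ℝ) * r2 ≤ v + ε1)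
    (hβ : 0 ≤ β0) (hη : 0 ≤ η') (hr2 : 0 ≤ r2)
    (hfinal : ε1 + β0 * (v + ε1) + η' * (2 + β0) * (v + ε1) ≤ ε) :
    ∑ k ∈ K, (1 + β0) * r2 * (φ k + η') ≤ ∑ k ∈ K, d k * (φ k - η') + ε := by
  have hterm : ∀ k ∈ K, (1 + β0) * r2 * (φ k + η') ≤
      d k * (φ k - η') + ((1 + β0) * r2 - d k + η' * (2 + β0) * r2) := by
    intro k hk
    have a1 := hφ0 k hk
    have a2 := hφ1 k hk
    have a3 := hd0 k hk
    have a4 := hd k hk
    have a5 : 0 ≤ (1 + β0) * r2 - d k := by nlinarith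
    nlinarith [mul_nonneg a5 (sub_nonneg.mpr a2), mul_nonneg hη (sub_nonneg.mpr a4)]
  calc ∑ k ∈ K, (1 + β0) * r2 * (φ k + η')
      ≤ ∑ k ∈ K, (d k * (φ k - η') + ((1 + β0) * r2 - d k + η' * (2 + β0) * r2)) :=
        Finset.sum_le_sum hterm
    _ = ∑ k ∈ K, d k * (φ k - η') + ((1 + β0) * ((K.card : ℝ) * r2) - v
          + η' * (2 + β0) * ((K.card : ℝ) * r2)) := by
        rw [Finset.sum_add_distrib, Finset.sum_add_distrib, Finset.sum_sub_distrib, hsum,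
          Finset.sum_const, Finset.sum_const, nsmul_eq_mul, nsmul_eq_mul]
        ring
    _ ≤ ∑ k ∈ K, d k * (φ k - η') + ε := by
        have : 0 ≤ η' * (2 + β0) := by positivity
        nlinarith [mul_le_mul_of_nonneg_left hK this, mul_le_mul_of_nonneg_left hK (by linarith : (0:ℝ) ≤ 1 + β0)]



noncomputable abbrev std : OrthonormalBasis (Fin 2) ℝ E2 := EuclideanSpace.basisFun (Fin 2) ℝ

theorem std_inner (i : Fin 2) (q : E2) : inner ℝ (std i) q = q i := by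
  simp [std, EuclideanSpace.basisFun_apply, EuclideanSpace.inner_single_left]

/-- index of the cell of a point -/
noncomputable def idx (r : ℝ) (p : E2) : ℤ × ℤ := (⌊inner ℝ (std 0) (p - 0) / r⌋, ⌊inner ℝ (std 1) (p - 0) / r⌋)

theorem mem_cell_idx (r : ℝ) (p : E2) : p ∈ tile std 0 r (idx r p) := ⟨rfl, rfl⟩

theorem mem_cell_iff (r : ℝ) (p : E2) (k : ℤ × ℤ) : p ∈ tile std 0 r k ↔ idx r p = k := by
  constructor
  · rintro ⟨h0, h1⟩; exact Prod.ext h0 h1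
  · rintro rfl; exact mem_cell_idx r p

theorem cell_coord (r : ℝ) (hr : 0 < r) (p : E2) (k : ℤ × ℤ) (hp : p ∈ tile std 0 r k) :
    (k.1 * r ≤ p 0 ∧ p 0 < (k.1 + 1) * r) ∧ (k.2 * r ≤ p 1 ∧ p 1 < (k.2 + 1) * r) := by
  obtain ⟨h0, h1⟩ := hp
  rw [Int.floor_eq_iff, le_div_iff₀ hr, div_lt_iff₀ hr, std_inner, sub_zero] at h0 h1
  exact ⟨h0, h1⟩

theorem cells_facts (D : Set E2) (hD : IsCompact D) (r r0 ε1 : ℝ) (hr : 0 < r) (h2r : 2 * r ≤ r0)
    (hε1 : 0 ≤ ε1)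
    (hvol : volume (Metric.cthickening r0 D) ≤ volume D + ENNReal.ofReal ε1) :
    ∃ K : Finset (ℤ × ℤ), (∀ k, k ∈ K ↔ ∃ p ∈ D, idx r p = k) ∧
      ∑ k ∈ K, (volume (D ∩ tile std 0 r k)).toReal = (volume D).toReal ∧
      (K.card : ℝ) * r ^ 2 ≤ (volume D).toReal + ε1 ∧
      (∀ k, (volume (D ∩ tile std 0 r k)).toReal ≤ r ^ 2) ∧
      ∀ f : E2 → ℝ, IntegrableOn f D → ∫ p in D, f p = ∑ k ∈ K, ∫ p in D ∩ tile std 0 r k, f p := by
  have hfin := finite_tiles std 0 r hr D hD.isBounded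
  have hDfin : volume D ≠ ⊤ := hD.measure_lt_top.ne
  have hmemK : ∀ k, k ∈ hfin.toFinset ↔ ∃ p ∈ D, idx r p = k := by
    intro k
    rw [Set.Finite.mem_toFinset]
    constructor
    · rintro ⟨p, hp, hpD⟩; exact ⟨p, hpD, (mem_cell_iff r p k).mp hp⟩
    · rintro ⟨p, hpD, rfl⟩; exact ⟨p, mem_cell_idx r p, hpD⟩
  have hDeq : D = ⋃ k ∈ hfin.toFinset, D ∩ tile std 0 r k := by
    ext p
    simp only [Set.mem_iUnion, Set.mem_inter_iff, exists_and_left, exists_prop]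
    constructor
    · intro hp; exact ⟨hp, idx r p, (hmemK _).mpr ⟨p, hp, rfl⟩, mem_cell_idx r p⟩
    · rintro ⟨hp, -⟩; exact hp
  have hmeas : ∀ k, MeasurableSet (D ∩ tile std 0 r k) := fun k =>
    hD.measurableSet.inter (meas_tile std 0 r hr k)
  have hdisj : (↑hfin.toFinset : Set (ℤ × ℤ)).PairwiseDisjoint (fun k => D ∩ tile std 0 r k) := by
    intro x hx y hy hxy
    exact (tile_disjoint std 0 r _ hx hy hxy).mono Set.inter_subset_right Set.inter_subset_right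
  have hle : ∀ k, volume (D ∩ tile std 0 r k) ≤ ENNReal.ofReal (r ^ 2) := fun k =>
    (measure_mono Set.inter_subset_right).trans (vol_tile std 0 r hr k).le
  refine ⟨hfin.toFinset, hmemK, ?_, ?_, ?_, ?_⟩
  · rw [← ENNReal.toReal_sum (fun k _ => ((hle k).trans_lt ENNReal.ofReal_lt_top).ne),
      ← measure_biUnion_finset hdisj (fun k _ => hmeas k), ← hDeq]
  · have hsub : (⋃ k ∈ hfin.toFinset, tile std 0 r k) ⊆ Metric.cthickening r0 D := by
      intro q hq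
      simp only [Set.mem_iUnion, exists_prop] at hq
      obtain ⟨k, hk, hqk⟩ := hq
      obtain ⟨p, hpD, hpk⟩ := (hmemK k).mp hk
      have hp : p ∈ tile std 0 r k := (mem_cell_iff r p k).mpr hpk
      have := tile_diam std 0 r hr k q p hqk hp
      apply Metric.mem_cthickening_of_dist_le q p r0 D hpD
      rw [dist_eq_norm]; linarith
    have h1 : volume (⋃ k ∈ hfin.toFinset, tile std 0 r k) =
        ∑ k ∈ hfin.toFinset, volume (tile std 0 r k) :=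
      measure_biUnion_finset (tile_disjoint std 0 r _) (fun k _ => meas_tile std 0 r hr k)
    have h2 := (measure_mono hsub).trans hvol
    have h3 : (hfin.toFinset.card : ENNReal) * ENNReal.ofReal (r ^ 2) =
        ENNReal.ofReal ((hfin.toFinset.card : ℝ) * r ^ 2) := by
      rw [ENNReal.ofReal_mul (Nat.cast_nonneg _), ENNReal.ofReal_natCast]
    have h4 : volume D + ENNReal.ofReal ε1 = ENNReal.ofReal ((volume D).toReal + ε1) := by
      rw [ENNReal.ofReal_add ENNReal.toReal_nonneg hε1, ENNReal.ofReal_toReal hDfin]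
    rw [h1, Finset.sum_congr rfl (fun k _ => vol_tile std 0 r hr k), Finset.sum_const, nsmul_eq_mul,
      h3, h4] at h2
    exact (ENNReal.ofReal_le_ofReal_iff (by positivity)).mp h2
  · intro k
    have := ENNReal.toReal_mono ENNReal.ofReal_ne_top (hle k)
    rwa [ENNReal.toReal_ofReal (by positivity)] at this
  · intro f hf
    conv_lhs => rw [hDeq]
    exact integral_biUnion_finset _ (fun k _ => hmeas k) hdisj
      (fun k _ => hf.mono_set Set.inter_subset_left)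


theorem exists_kappa (D : Set E2) (hD : IsCompact D) (f : E2 → ℝ) (hf : ContinuousOn f D)
    (hpos : ∀ p ∈ D, 0 < f p) : ∃ κ > 0, ∀ p ∈ D, κ ≤ f p := by
  rcases D.eq_empty_or_nonempty with rfl | hne
  · exact ⟨1, one_pos, fun p hp => absurd hp (Set.notMem_empty p)⟩
  · obtain ⟨x, hx, hmin⟩ := hD.exists_isMinOn hne hf
    exact ⟨f x, hpos x hx, fun p hp => hmin hp⟩

theorem continuousOn_det (D : Set E2) (V : E2 → E2) (hc : ContinuousOn (fderiv ℝ V) D) :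
    ContinuousOn (fun p => LinearMap.det (fderiv ℝ V p).toLinearMap) D := by
  have : (fun p => LinearMap.det (fderiv ℝ V p).toLinearMap) = fun p =>
      inner ℝ (frameB 0 0) (fderiv ℝ V p (frameB 0 0)) * inner ℝ (frameB 0 1) (fderiv ℝ V p (frameB 0 1)) -
        inner ℝ (frameB 0 0) (fderiv ℝ V p (frameB 0 1)) * inner ℝ (frameB 0 1) (fderiv ℝ V p (frameB 0 0)) :=
    funext fun p => det_frame _ (frameB 0)
  rw [this]
  have h : ∀ x y : E2, ContinuousOn (fun p => inner ℝ x (fderiv ℝ V p y)) D := fun x y =>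
    ContinuousOn.inner continuousOn_const (hc.clm_apply continuousOn_const)
  exact ((h _ _).mul (h _ _)).sub ((h _ _).mul (h _ _))

/-- frame data at every point of `D` -/
theorem frame_data (D : Set E2) (V : E2 → E2) (L M κ : ℝ)
    (htr : ∀ p ∈ D, LinearMap.trace ℝ _ (fderiv ℝ V p).toLinearMap = 0)
    (hdet : ∀ p ∈ D, LinearMap.det (fderiv ℝ V p).toLinearMap ≤ 0)
    (hκ : ∀ p ∈ D, κ ≤ 1 + L ^ 2 * LinearMap.det (fderiv ℝ V p).toLinearMap)
    (hM : ∀ p ∈ D, ‖fderiv ℝ V p‖ ≤ M) (p : E2) :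
    ∃ b : OrthonormalBasis (Fin 2) ℝ E2, p ∈ D →
      inner ℝ (b 0) (fderiv ℝ V p (b 0)) = 0 ∧ inner ℝ (b 1) (fderiv ℝ V p (b 1)) = 0 ∧
      0 ≤ inner ℝ (b 0) (fderiv ℝ V p (b 1)) * inner ℝ (b 1) (fderiv ℝ V p (b 0)) ∧
      L ^ 2 * (inner ℝ (b 0) (fderiv ℝ V p (b 1)) * inner ℝ (b 1) (fderiv ℝ V p (b 0))) ≤ 1 - κ ∧
      |inner ℝ (b 0) (fderiv ℝ V p (b 1))| ≤ M ∧ |inner ℝ (b 1) (fderiv ℝ V p (b 0))| ≤ M := by
  by_cases hp : p ∈ D
  · obtain ⟨b, h00, h11⟩ := frame (fderiv ℝ V p) (htr p hp)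
    have hd := det_frame (fderiv ℝ V p) b
    rw [h00, h11] at hd
    have h1 := hdet p hp
    have h2 := hκ p hp
    have hb : ∀ i j : Fin 2, |inner ℝ (b i) (fderiv ℝ V p (b j))| ≤ M := by
      intro i j
      calc |inner ℝ (b i) (fderiv ℝ V p (b j))| ≤ ‖fderiv ℝ V p (b j)‖ := abs_inner_frame_le b i _
        _ ≤ ‖fderiv ℝ V p‖ * ‖b j‖ := (fderiv ℝ V p).le_opNorm _
        _ = ‖fderiv ℝ V p‖ := by simp
        _ ≤ M := hM p hp
    refine ⟨b, fun _ => ⟨h00, h11, by nlinarith, by nlinarith, hb 0 1, hb 1 0⟩⟩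
  · exact ⟨frameB 0, fun h => absurd h hp⟩


theorem cover_local (A : E2 →L[ℝ] E2) (b : OrthonormalBasis (Fin 2) ℝ E2) (p0 p v0 v : E2)
    (h00 : inner ℝ (b 0) (A (b 0)) = 0) (h11 : inner ℝ (b 1) (A (b 1)) = 0)
    (hsign : 0 ≤ inner ℝ (b 0) (A (b 1)) * inner ℝ (b 1) (A (b 0)))
    (L M κ η r δ s : ℝ) (hκ0 : 0 < κ) (hL : 0 < L) (hη : 0 ≤ η) (hr : 0 < r)
    (hκ : L ^ 2 * (inner ℝ (b 0) (A (b 1)) * inner ℝ (b 1) (A (b 0))) ≤ 1 - κ)
    (hα : |inner ℝ (b 0) (A (b 1))| ≤ M) (hβ : |inner ℝ (b 1) (A (b 0))| ≤ M)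
    (hs : |s| ≤ L) (hδ : 0 < δ) (hpp : ‖p - p0‖ ≤ 2 * r)
    (herr : ‖v - v0 - A (p - p0)‖ ≤ η * ‖p - p0‖) :
    ∃ ij : ℤ × ℤ, ∃ x ∈ Set.Icc (0 : ℝ) 1, ∃ y ∈ Set.Icc (0 : ℝ) 1,
      p + s • v = (p0 + ((δ * ij.1) • b 0 + (δ * ij.2) • b 1)) + x • (δ • b 0) + y • (δ • b 1) +
        s • (v0 + A ((δ * ij.1) • b 0 + (δ * ij.2) • b 1)) ∧
      ‖p - (p0 + ((δ * ij.1) • b 0 + (δ * ij.2) • b 1))‖ ≤ 2 * (δ + 2 * L * η * r) * (1 + L * M) / κ := by
  set α := inner ℝ (b 0) (A (b 1)) with hαdef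
  set β := inner ℝ (b 1) (A (b 0)) with hβdef
  have hs2 : s ^ 2 ≤ L ^ 2 := by
    rw [← sq_abs s]; exact pow_le_pow_left₀ (abs_nonneg _) hs 2
  have hs3 : s ^ 2 * (α * β) ≤ 1 - κ := (mul_le_mul_of_nonneg_right hs2 hsign).trans hκ
  obtain ⟨i, j, x, y, hx, hy, hxe, hye, hq⟩ := cover_point A b h00 h11 s δ hδ hsign (by linarith)
    ((p - p0) + s • (v - v0))
  refine ⟨(i, j), x, hx, y, hy, ?_, ?_⟩
  · have : p + s • v = p0 + s • v0 + ((p - p0) + s • (v - v0)) := by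
      rw [smul_sub]; abel
    rw [this, hq, smul_add]
    abel
  · set E := v - v0 - A (p - p0) with hE
    set ξ := inner ℝ (b 0) (p - p0) with hξ
    set ζ := inner ℝ (b 1) (p - p0) with hζ
    have hAw : A (p - p0) = (ζ * α) • b 0 + (ξ * β) • b 1 := by
      conv_lhs => rw [frame_expand b (p - p0)]
      exact A_apply A b h00 h11 _ _
    have hvv : v - v0 = A (p - p0) + E := by rw [hE]; abel
    have q0 : inner ℝ (b 0) ((p - p0) + s • (v - v0)) = ξ + s * (ζ * α) + s * inner ℝ (b 0) E := by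
      rw [hvv, hAw, inner_add_right, inner_smul_right, inner_add_right, frame_inner0]; ring
    have q1 : inner ℝ (b 1) ((p - p0) + s • (v - v0)) = ζ + s * (ξ * β) + s * inner ℝ (b 1) E := by
      rw [hvv, hAw, inner_add_right, inner_smul_right, inner_add_right, frame_inner1]; ring
    rw [q0, ← hαdef] at hxe
    rw [q1, ← hβdef] at hye
    have hEn : ‖E‖ ≤ η * (2 * r) := herr.trans (by gcongr)
    have he : ∀ k : Fin 2, |s * inner ℝ (b k) E / δ| ≤ 2 * L * η * r / δ := by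
      intro k
      rw [abs_div, abs_mul, abs_of_pos hδ]
      have := (abs_inner_frame_le b k E).trans hEn
      have h2 : |s| * |inner ℝ (b k) E| ≤ L * (η * (2 * r)) := by
        apply mul_le_mul hs this (abs_nonneg _) hL.le
      exact div_le_div_of_nonneg_right (by linarith) hδ.le
    have hloc := locality (ξ / δ - i) (ζ / δ - j) x y (s * inner ℝ (b 0) E / δ) (s * inner ℝ (b 1) E / δ)
      (s * α) (s * β) κ (L * M) (2 * L * η * r / δ)
      (by rw [hxe]; field_simp; ring) (by rw [hye]; field_simp; ring) hx.1 hx.2 hy.1 hy.2 (he 0) (he 1)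
      (by rw [abs_mul]; exact mul_le_mul hs hα (abs_nonneg _) hL.le)
      (by rw [abs_mul]; exact mul_le_mul hs hβ (abs_nonneg _) hL.le) hκ0 (by nlinarith)
    have hw : p - (p0 + ((δ * (i : ℝ)) • b 0 + (δ * (j : ℝ)) • b 1)) =
        (δ * (ξ / δ - i)) • b 0 + (δ * (ζ / δ - j)) • b 1 := by
      have e1 : δ * (ξ / δ - i) = ξ - δ * i := by field_simp
      have e2 : δ * (ζ / δ - j) = ζ - δ * j := by field_simp
      rw [e1, e2, sub_smul, sub_smul]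
      have := frame_expand b (p - p0)
      rw [← hξ, ← hζ] at this
      rw [← sub_sub, this]
      abel
    simp only
    rw [hw]
    have hn := norm_le_of_frame b ((δ * (ξ / δ - i)) • b 0 + (δ * (ζ / δ - j)) • b 1)
    rw [frame_inner0, frame_inner1, abs_mul, abs_mul, abs_of_pos hδ] at hn
    have hfin : δ * ((1 + 2 * L * η * r / δ) * (1 + L * M) / κ) = (δ + 2 * L * η * r) * (1 + L * M) / κ := by
      field_simp
    have h1 := mul_le_mul_of_nonneg_left hloc.1 hδ.le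
    have h2 := mul_le_mul_of_nonneg_left hloc.2 hδ.le
    rw [hfin] at h1 h2
    calc _ ≤ δ * |ξ / δ - i| + δ * |ζ / δ - j| := hn
      _ ≤ (δ + 2 * L * η * r) * (1 + L * M) / κ + (δ + 2 * L * η * r) * (1 + L * M) / κ := add_le_add h1 h2
      _ = 2 * (δ + 2 * L * η * r) * (1 + L * M) / κ := by ring


theorem params (ε v L M κ : ℝ) (hε : 0 < ε) (hv : 0 ≤ v) (hL : 0 < L) (hM : 0 ≤ M) (hκ : 0 < κ) :
    ∃ ε1 β0 η' η : ℝ, 0 < ε1 ∧ 0 ≤ β0 ∧ 0 < η' ∧ 0 < η ∧ η ≤ 1 ∧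
      ε1 + β0 * (v + ε1) + η' * (2 + β0) * (v + ε1) ≤ ε ∧
      ∀ r : ℝ, 0 < r →
        (r + 2 * (2 * (η * r + 2 * L * η * r) * (1 + L * M) / κ + 2 * (η * r))) ^ 2 ≤ (1 + β0) * r ^ 2 ∧
        2 * (η * r + 2 * L * η * r) * (1 + L * M) / κ ≤ r := by
  set ε1 := ε / 3 with hε1
  set W := v + ε1 with hW
  have hε1p : 0 < ε1 := by positivity
  have hWp : 0 < W := by positivity
  set β0 := min 1 (ε / (3 * W)) with hβ0
  have hβp : 0 < β0 := lt_min one_pos (by positivity)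
  have hβ1 : β0 ≤ 1 := min_le_left _ _
  have hβ2 : β0 * W ≤ ε / 3 := by
    have : β0 ≤ ε / (3 * W) := min_le_right _ _
    calc β0 * W ≤ ε / (3 * W) * W := by gcongr
      _ = ε / 3 := by field_simp
  set η' := ε / (9 * W) with hη'
  have hη'p : 0 < η' := by positivity
  have hη'W : η' * W = ε / 9 := by rw [hη']; field_simp
  set C1 := 2 * (1 + 2 * L) * (1 + L * M) / κ + 2 with hC1
  have hC1p : 0 < C1 := by positivity
  set η := min 1 (β0 / (6 * C1)) with hη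
  have hηp : 0 < η := lt_min one_pos (by positivity)
  have hη1 : η ≤ 1 := min_le_left _ _
  have hηC : η * C1 ≤ β0 / 6 := by
    have : η ≤ β0 / (6 * C1) := min_le_right _ _
    calc η * C1 ≤ β0 / (6 * C1) * C1 := by gcongr
      _ = β0 / 6 := by field_simp
  refine ⟨ε1, β0, η', η, hε1p, hβp.le, hη'p, hηp, hη1, ?_, ?_⟩
  · have : η' * (2 + β0) * W ≤ ε / 3 := by
      calc η' * (2 + β0) * W = (η' * W) * (2 + β0) := by ring
        _ ≤ (η' * W) * 3 := by gcongr; linarith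
        _ = ε / 3 := by rw [hη'W]; ring
    linarith
  · intro r hr
    have e1 : 2 * (η * r + 2 * L * η * r) * (1 + L * M) / κ + 2 * (η * r) = (η * C1) * r := by
      rw [hC1]; field_simp
    have hx : 0 ≤ η * C1 := by positivity
    constructor
    · rw [e1]
      have : r + 2 * (η * C1 * r) = (1 + 2 * (η * C1)) * r := by ring
      rw [this, mul_pow]
      gcongr
      nlinarith
    · have : 2 * (η * r + 2 * L * η * r) * (1 + L * M) / κ ≤ (η * C1) * r := by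
        rw [← e1]; nlinarith [mul_pos hηp hr]
      nlinarith


end Crest.Agent.Lib_helper28_Ruled
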