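import Mathlib
import Crest.Prelude.Def_AsymptoticConvexity
import Crest.Prelude.Def_TreePotentials

/-!
Shared definitions for row 125 (S0166, S0167, S0168, S0169): closed finite-codimensional
submodules, roots of "asymptotic trees" of height `k`, the homogeneous midpoint inequality and the
gluing conditions for spaces of bounded functions on a class of tests on the tree `List ℕ`.
-/

namespace Crest.Agent.Lib_helper3_R125Defs

/-- The normed group structure carried by a `RealBanach` record, as an instance. -/
instance instNormedX (E : Crest.AnalysisR.RealBanach) : NormedAddCommGroup E.X := E.normed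

/-- The normed space structure carried by a `RealBanach` record, as an instance. -/
instance instSpaceX (E : Crest.AnalysisR.RealBanach) : NormedSpace ℝ E.X := E.space

/-- Completeness carried by a `RealBanach` record, as an instance. -/
instance instCompleteX (E : Crest.AnalysisR.RealBanach) : CompleteSpace E.X := E.complete

/-- `S` is a closed submodule of finite codimension. -/
def CofSub {X : Type*} [NormedAddCommGroup X] [NormedSpace ℝ X] (S : Submodule ℝ X) : Prop :=
  IsClosed (S : Set X) ∧ FiniteDimensional ℝ (X ⧸ S)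

/-- `Good B δ k x`: `x` is the root of an "asymptotic tree" of height `k` inside the ball of radius
`B`, all of whose increments have norm at least `δ` and can be chosen as close as one wishes to any
prescribed closed finite-codimensional subspace. -/
def Good {X : Type*} [NormedAddCommGroup X] [NormedSpace ℝ X] (B δ : ℝ) : ℕ → X → Prop
  | 0, x => ‖x‖ ≤ B
  | k + 1, x => ‖x‖ ≤ B ∧ ∀ S : Submodule ℝ X, CofSub S → ∀ ε : ℝ, 0 < ε →
      ∃ x' : X, Good B δ k x' ∧ δ ≤ ‖x' - x‖ ∧ ∃ z ∈ S, ‖x' - x - z‖ < ε

/-- The homogeneous asymptotic midpoint inequality with constant `1/4`. -/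
def MidIneq (X : Type*) [NormedAddCommGroup X] [NormedSpace ℝ X] : Prop :=
  ∀ x : X, ∀ η : ℝ, 0 < η → ∃ S : Submodule ℝ X, CofSub S ∧
    ∀ y ∈ S, 2 * Real.sqrt (‖x‖ ^ 2 + ‖y‖ ^ 2 / 4) - η ≤ ‖x + y‖ + ‖x - y‖

/-- Reflexivity, unbundled. -/
def Reflexive (X : Type*) [NormedAddCommGroup X] [NormedSpace ℝ X] : Prop :=
  Function.Surjective (NormedSpace.inclusionInDoubleDual ℝ X)

open Crest.AnalysisR.TreePotential in
/-- Conditions on a class of tests `ev i : List ℕ → ℝ` (`i : ι`), whose potentials are bounded by `1`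
on the ancestor-closed set `L` of vertices. -/
structure GlueAx {ι : Type*} (ev : ι → List ℕ → ℝ) (L : Set (List ℕ)) : Prop where
  /-- potentials are bounded by one on `L` -/
  pot : ∀ i, ∀ s ∈ L, |pathPotential (ev i) s| ≤ 1
  /-- `L` is closed under taking parents -/
  anc : ∀ (a : ℕ) (v : List ℕ), a :: v ∈ L → v ∈ L
  /-- a family dominated by `α • ev i` on `S` and by `β • ev j` off `S`, `α² + β² ≤ 1`, with
  potentials bounded by one on `L`, is a test -/
  glue : ∀ (i j : ι) (h : List ℕ → ℝ) (S : Set (List ℕ)) (α β : ℝ), 0 ≤ α → 0 ≤ β →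
    α ^ 2 + β ^ 2 ≤ 1 → (∀ s ∈ S, |h s| ≤ α * |ev i s|) → (∀ s ∉ S, |h s| ≤ β * |ev j s|) →
    (∀ s ∈ L, |pathPotential h s| ≤ 1) → ∃ k, ev k = h
  /-- indicators of non-root vertices are tests -/
  ind : ∀ (a : ℕ) (v : List ℕ), ∃ k, ∀ u, ev k u = if u = a :: v then 1 else 0
  /-- either the indicator of the root is a test or all tests vanish at the root -/
  root : ∃ k, ∀ (j : ι) (u : List ℕ), ev j [] * ev k u = ev j [] * (if u = [] then 1 else 0)
  /-- sibling square sums are at most one -/
  sib : ∀ (i : ι) (v : List ℕ) (A : Finset ℕ), ∑ a ∈ A, ev i (a :: v) ^ 2 ≤ 1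

end Crest.Agent.Lib_helper3_R125Defs
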