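import Mathlib
import Crest.Agent.Lib_helper38_Area

set_option autoImplicit false
open MeasureTheory Set

namespace Crest.Agent.Lib_helper40_Sweep

section Algebra

variable {V : Type*} [NormedAddCommGroup V] [InnerProductSpace ℝ V]

/-- Gram determinant of two vectors. -/
noncomputable def gram2 (a b : V) : ℝ := ‖a‖ ^ 2 * ‖b‖ ^ 2 - inner ℝ a b ^ 2

/-- Orthogonal projection along `d` (onto `d^⊥`), as a linear map. -/
noncomputable def projL (d : V) : V →ₗ[ℝ] V where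
  toFun y := y - (inner ℝ y d / ‖d‖ ^ 2) • d
  map_add' x y := by
    simp only [inner_add_left, add_div, add_smul]; abel
  map_smul' c x := by
    simp only [inner_smul_left, RingHom.id_apply, smul_sub, smul_smul, mul_div_assoc]
    simp

lemma projL_apply (d y : V) : projL d y = y - (inner ℝ y d / ‖d‖ ^ 2) • d := rfl

lemma gram2_nonneg (a b : V) : 0 ≤ gram2 a b := by
  unfold gram2
  have h := abs_real_inner_le_norm a b
  have h2 : inner ℝ a b ^ 2 ≤ (‖a‖ * ‖b‖) ^ 2 := by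
    rw [← sq_abs]; exact pow_le_pow_left₀ (abs_nonneg _) h 2
  nlinarith [h2]

lemma gram2_comb (a b : V) (x₁ y₁ x₂ y₂ : ℝ) :
    gram2 (x₁ • a + y₁ • b) (x₂ • a + y₂ • b) = (x₁ * y₂ - y₁ * x₂) ^ 2 * gram2 a b := by
  unfold gram2
  simp only [← real_inner_self_eq_norm_sq, inner_add_left, inner_add_right, inner_smul_left,
    inner_smul_right, RCLike.conj_to_real, real_inner_comm a b]
  ring

lemma inner_projL_self (d x : V) (hd : d ≠ 0) : inner ℝ (projL d x) d = 0 := by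
  have hd2 : ‖d‖ ^ 2 ≠ 0 := by positivity
  rw [projL_apply, inner_sub_left, inner_smul_left, real_inner_self_eq_norm_sq]
  simp only [RCLike.conj_to_real]
  field_simp
  ring

lemma projL_self (d : V) (hd : d ≠ 0) : projL d d = 0 := by
  have hd2 : ‖d‖ ^ 2 ≠ 0 := by positivity
  rw [projL_apply, real_inner_self_eq_norm_sq, div_self hd2, one_smul, sub_self]

lemma inner_projL (d x y : V) (hd : d ≠ 0) :
    inner ℝ (projL d x) (projL d y) = inner ℝ x y - inner ℝ x d * inner ℝ y d / ‖d‖ ^ 2 := by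
  have hd2 : ‖d‖ ^ 2 ≠ 0 := by positivity
  simp only [projL_apply, inner_sub_left, inner_sub_right, inner_smul_left, inner_smul_right,
    RCLike.conj_to_real, real_inner_self_eq_norm_sq, real_inner_comm y d]
  field_simp
  ring


lemma norm_sq_e_add (e w : V) (he : ‖e‖ = 1) (hw : inner ℝ w e = 0) :
    ‖e + w‖ ^ 2 = 1 + ‖w‖ ^ 2 := by
  rw [← real_inner_self_eq_norm_sq, inner_add_left, inner_add_right, inner_add_right,
    real_inner_self_eq_norm_sq, real_inner_self_eq_norm_sq, hw, real_inner_comm, hw, he]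
  ring

lemma e_add_ne_zero (e w : V) (he : ‖e‖ = 1) (hw : inner ℝ w e = 0) : e + w ≠ 0 := by
  intro h
  have := norm_sq_e_add e w he hw
  rw [h] at this
  simp at this
  nlinarith [sq_nonneg ‖w‖]

lemma gram2_projL (e a b : V) (he : ‖e‖ = 1) (ha : inner ℝ a e = 0) (hb : inner ℝ b e = 0)
    (x y : ℝ) :
    gram2 (projL (e + (x • a + y • b)) a) (projL (e + (x • a + y • b)) b)
      = gram2 a b / (1 + ‖x • a + y • b‖ ^ 2) := by
  have hw : inner ℝ (x • a + y • b) e = 0 := by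
    rw [inner_add_left, inner_smul_left, inner_smul_left, ha, hb]; simp
  have hd := e_add_ne_zero e _ he hw
  have hD := norm_sq_e_add e _ he hw
  have hpos : (0:ℝ) < 1 + ‖x • a + y • b‖ ^ 2 := by positivity
  unfold gram2
  rw [← real_inner_self_eq_norm_sq (projL _ a), ← real_inner_self_eq_norm_sq (projL _ b),
    inner_projL _ _ _ hd, inner_projL _ _ _ hd, inner_projL _ _ _ hd, hD]
  have h1 : inner ℝ a (e + (x • a + y • b)) = x * ‖a‖ ^ 2 + y * inner ℝ a b := by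
    rw [inner_add_right, inner_add_right, inner_smul_right, inner_smul_right, ha,
      real_inner_self_eq_norm_sq]; ring
  have h2 : inner ℝ b (e + (x • a + y • b)) = x * inner ℝ a b + y * ‖b‖ ^ 2 := by
    rw [inner_add_right, inner_add_right, inner_smul_right, inner_smul_right, hb,
      real_inner_self_eq_norm_sq, real_inner_comm]; ring
  have h3 : ‖x • a + y • b‖ ^ 2 = x ^ 2 * ‖a‖ ^ 2 + 2 * x * y * inner ℝ a b + y ^ 2 * ‖b‖ ^ 2 := by
    rw [← real_inner_self_eq_norm_sq]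
    simp only [inner_add_left, inner_add_right, inner_smul_left, inner_smul_right,
      RCLike.conj_to_real, real_inner_self_eq_norm_sq, real_inner_comm a b]
    ring
  rw [h1, h2, real_inner_self_eq_norm_sq, real_inner_self_eq_norm_sq]
  rw [h3] at hpos ⊢
  have hne := hpos.ne'
  generalize ‖a‖ ^ 2 = aa at *
  generalize ‖b‖ ^ 2 = bb at *
  generalize inner ℝ a b = ab at *
  have key : ∀ D : ℝ, D ≠ 0 → D = 1 + (x ^ 2 * aa + 2 * x * y * ab + y ^ 2 * bb) →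
      (aa - (x * aa + y * ab) * (x * aa + y * ab) / D) * (bb - (x * ab + y * bb) * (x * ab + y * bb) / D)
        - (ab - (x * aa + y * ab) * (x * ab + y * bb) / D) ^ 2 = (aa * bb - ab ^ 2) / D := by
    intro D hD0 hD
    field_simp
    rw [hD]
    ring
  exact key _ hne rfl


lemma gram2_pos_of_linearIndependent (a b : V) (hab : LinearIndependent ℝ ![a, b]) :
    0 < gram2 a b := by
  rw [LinearIndependent.pair_iff] at hab
  have hb0 : b ≠ 0 := by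
    intro h
    have := hab 0 1 (by simp [h])
    simp at this
  have hbb : 0 < ‖b‖ ^ 2 := by positivity
  have hne : ‖b‖ ^ 2 • a + (-(inner ℝ a b)) • b ≠ 0 := by
    intro h
    have := (hab _ _ h).1
    exact hbb.ne' this
  have hpos : 0 < ‖‖b‖ ^ 2 • a + (-(inner ℝ a b)) • b‖ ^ 2 := by positivity
  have hexp : ‖‖b‖ ^ 2 • a + (-(inner ℝ a b)) • b‖ ^ 2 = ‖b‖ ^ 2 * gram2 a b := by
    unfold gram2
    rw [← real_inner_self_eq_norm_sq]
    simp only [inner_add_left, inner_add_right, inner_smul_left, inner_smul_right,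
      RCLike.conj_to_real, real_inner_self_eq_norm_sq, real_inner_comm a b]
    ring
  rw [hexp] at hpos
  exact (pos_iff_pos_of_mul_pos hpos).1 hbb

/-- dual coordinate functional to `a` in the plane spanned by `a, b`. -/
noncomputable def coordX (a b : V) : V →L[ℝ] ℝ :=
  (gram2 a b)⁻¹ • (‖b‖ ^ 2 • innerSL ℝ a - inner ℝ a b • innerSL ℝ b)

noncomputable def coordY (a b : V) : V →L[ℝ] ℝ :=
  (gram2 a b)⁻¹ • (‖a‖ ^ 2 • innerSL ℝ b - inner ℝ a b • innerSL ℝ a)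

lemma coordX_comb (a b : V) (hG : gram2 a b ≠ 0) (x y : ℝ) : coordX a b (x • a + y • b) = x := by
  unfold coordX
  simp only [smul_apply, sub_apply, innerSL_apply_apply,
    inner_add_right, inner_smul_right, real_inner_self_eq_norm_sq, smul_eq_mul,
    real_inner_comm a b]
  unfold gram2 at hG ⊢
  field_simp
  ring

lemma coordY_comb (a b : V) (hG : gram2 a b ≠ 0) (x y : ℝ) : coordY a b (x • a + y • b) = y := by
  unfold coordY
  simp only [smul_apply, sub_apply, innerSL_apply_apply,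
    inner_add_right, inner_smul_right, real_inner_self_eq_norm_sq, smul_eq_mul,
    real_inner_comm a b]
  unfold gram2 at hG ⊢
  field_simp
  ring

abbrev E3 := EuclideanSpace ℝ (Fin 3)

lemma exists_coords (e a b : E3) (he : ‖e‖ = 1) (ha : inner ℝ a e = 0) (hb : inner ℝ b e = 0)
    (hab : LinearIndependent ℝ ![a, b]) (v : E3) (hv : inner ℝ v e = 0) :
    ∃ x y : ℝ, v = x • a + y • b := by
  have he0 : e ≠ 0 := by intro h; simp [h] at he
  have : Fact (Module.finrank ℝ E3 = 2 + 1) := ⟨by simp⟩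
  have h2 : Module.finrank ℝ (Submodule.span ℝ {e})ᗮ = 2 :=
    Submodule.finrank_orthogonal_span_singleton he0
  have hle : Submodule.span ℝ (Set.range ![a, b]) ≤ (Submodule.span ℝ {e})ᗮ := by
    rw [Submodule.span_le]
    rintro _ ⟨i, rfl⟩
    fin_cases i
    · exact (Submodule.mem_orthogonal_singleton_iff_inner_left).2 ha
    · exact (Submodule.mem_orthogonal_singleton_iff_inner_left).2 hb
  have hfr : Module.finrank ℝ (Submodule.span ℝ (Set.range ![a, b])) = 2 := by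
    rw [finrank_span_eq_card hab]; simp
  have heq := Submodule.eq_of_le_of_finrank_eq hle (by rw [hfr, h2])
  have hvm : v ∈ Submodule.span ℝ (Set.range ![a, b]) := by
    rw [heq]; exact (Submodule.mem_orthogonal_singleton_iff_inner_left).2 hv
  have hr : Set.range ![a, b] = {a, b} := by
    ext z; simp [Matrix.range_cons, eq_comm, or_comm]
  rw [hr, Submodule.mem_span_pair] at hvm
  obtain ⟨x, y, h⟩ := hvm
  exact ⟨x, y, h.symm⟩

lemma coords_eq (e a b : E3) (he : ‖e‖ = 1) (ha : inner ℝ a e = 0) (hb : inner ℝ b e = 0)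
    (hab : LinearIndependent ℝ ![a, b]) (v : E3) (hv : inner ℝ v e = 0) :
    v = coordX a b v • a + coordY a b v • b := by
  obtain ⟨x, y, h⟩ := exists_coords e a b he ha hb hab v hv
  have hG := (gram2_pos_of_linearIndependent a b hab).ne'
  rw [h, coordX_comb a b hG, coordY_comb a b hG]

lemma mem_tri {p q r : V} {x y z : ℝ} (hx : 0 ≤ x) (hy : 0 ≤ y) (hz : 0 ≤ z) (h : x + y + z = 1) :
    x • p + y • q + z • r ∈ convexHull ℝ ({p, q, r} : Set V) := by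
  have := (convex_convexHull ℝ ({p, q, r} : Set V)).sum_mem (t := Finset.univ)
    (w := ![x, y, z]) (z := ![p, q, r]) ?_ ?_ ?_
  · simpa [Fin.sum_univ_three] using this
  · intro i _; fin_cases i <;> simp [hx, hy, hz]
  · simpa [Fin.sum_univ_three] using h
  · intro i _
    apply subset_convexHull
    fin_cases i <;> simp

lemma affineIndependent_of_gram2 {p q r : V} (h : gram2 (q - p) (r - p) ≠ 0) :
    AffineIndependent ℝ ![p, q, r] := by
  rw [affineIndependent_iff_not_collinear_set]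
  intro hcol
  rw [collinear_iff_of_mem (p₀ := p) (by simp)] at hcol
  obtain ⟨v, hv⟩ := hcol
  obtain ⟨r₁, h1⟩ := hv q (by simp)
  obtain ⟨r₂, h2⟩ := hv r (by simp)
  apply h
  have e1 : q - p = r₁ • v + (0:ℝ) • v := by rw [h1]; simp
  have e2 : r - p = r₂ • v + (0:ℝ) • v := by rw [h2]; simp
  rw [e1, e2, gram2_comb]
  ring

end Algebra

/-- mean value bound for a linear functional of `w`. -/
lemma mv_bound (a b : E3) (φ : E3 →L[ℝ] ℝ) (t₀ t₁ : ℝ) (w : ℝ → E3) (lam : ℝ → ℝ)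
    (hw' : ∀ t ∈ Icc t₀ t₁, HasDerivWithinAt w (lam t • (a + t • b)) (Icc t₀ t₁) t)
    (C : ℝ) (hC : ∀ t ∈ Icc t₀ t₁, |lam t * φ (a + t • b)| ≤ C)
    (c τ : ℝ) (hc : c ∈ Icc t₀ t₁) (hτ : τ ∈ Icc t₀ t₁) :
    |φ (w τ) - φ (w c)| ≤ C * (t₁ - t₀) := by
  have hder : ∀ t ∈ Icc t₀ t₁, HasDerivWithinAt (fun t => φ (w t)) (lam t * φ (a + t • b))
      (Icc t₀ t₁) t := by
    intro t ht
    have := φ.hasFDerivAt.comp_hasDerivWithinAt t (hw' t ht)
    have e : φ (lam t • (a + t • b)) = lam t * φ (a + t • b) := by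
      rw [map_smul, smul_eq_mul]
    rw [← e]
    exact this
  have h := (convex_Icc t₀ t₁).norm_image_sub_le_of_norm_hasDerivWithin_le hder
    (fun t ht => by simpa using hC t ht) hc hτ
  have hC0 : 0 ≤ C := le_trans (abs_nonneg _) (hC c hc)
  have h2 : ‖τ - c‖ ≤ t₁ - t₀ := by
    rw [Real.norm_eq_abs, abs_le]; constructor <;> linarith [hc.1, hc.2, hτ.1, hτ.2]
  calc |φ (w τ) - φ (w c)| = ‖φ (w τ) - φ (w c)‖ := (Real.norm_eq_abs _).symm
    _ ≤ C * ‖τ - c‖ := h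
    _ ≤ C * (t₁ - t₀) := by gcongr


lemma coordX_dir (a b : E3) (hG : gram2 a b ≠ 0) (t : ℝ) : coordX a b (a + t • b) = 1 := by
  have := coordX_comb a b hG 1 t
  simpa using this

lemma coordY_dir (a b : E3) (hG : gram2 a b ≠ 0) (t : ℝ) : coordY a b (a + t • b) = t := by
  have := coordY_comb a b hG 1 t
  simpa using this

theorem piece (e a b p₀ : E3) (he : ‖e‖ = 1) (ha : inner ℝ a e = 0) (hb : inner ℝ b e = 0)
    (hab : LinearIndependent ℝ ![a, b])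
    (L Λ : ℝ) (hL : 0 ≤ L) (hΛ : 0 ≤ Λ) (t₀ t₁ c : ℝ) (h01 : t₀ < t₁) (hc : c ∈ Icc t₀ t₁)
    (w : ℝ → E3) (hw : ∀ t ∈ Icc t₀ t₁, inner ℝ (w t) e = 0) (lam : ℝ → ℝ)
    (hlam : ∀ t ∈ Icc t₀ t₁, |lam t| ≤ Λ)
    (hw' : ∀ t ∈ Icc t₀ t₁, HasDerivWithinAt w (lam t • (a + t • b)) (Icc t₀ t₁) t)
    (ρ₁ : ℝ) (hρ₁ : 0 < ρ₁) :
    ∃ p q r : E3,
      (inner ℝ p (e + w c) = 0 ∧ inner ℝ q (e + w c) = 0 ∧ inner ℝ r (e + w c) = 0) ∧
      (∀ τ ∈ Icc t₀ t₁, ∀ ρ ∈ Icc 0 ρ₁, ∀ s : ℝ, |s| ≤ L →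
        projL (e + w c) (p₀ + ρ • (a + τ • b) + s • (e + w τ)) ∈ convexHull ℝ {p, q, r}) ∧
      gram2 (q - p) (r - p) =
        ((t₁ - t₀) * (ρ₁ + 3 * (L * Λ * (t₁ - t₀))) ^ 2) ^ 2 * gram2 a b / (1 + ‖w c‖ ^ 2) := by
  obtain ⟨Δ, hΔ⟩ : ∃ Δ, Δ = t₁ - t₀ := ⟨_, rfl⟩
  have hΔ0 : 0 < Δ := by rw [hΔ]; linarith
  obtain ⟨m, hm⟩ : ∃ m, m = L * Λ * Δ := ⟨_, rfl⟩
  have hm0 : 0 ≤ m := by rw [hm]; positivity
  obtain ⟨X₁, hX₁⟩ : ∃ X₁, X₁ = ρ₁ + m := ⟨_, rfl⟩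
  obtain ⟨d, hd'⟩ : ∃ d, d = e + w c := ⟨_, rfl⟩
  have hG := (gram2_pos_of_linearIndependent a b hab).ne'
  have hd : d ≠ 0 := by rw [hd']; exact e_add_ne_zero e (w c) he (hw c hc)
  rw [← hΔ, ← hm, ← hd']
  refine ⟨projL d (p₀ + ((-2 * m) • a + (-(m * Δ) - 2 * m * t₀) • b)),
    projL d (p₀ + (X₁ • a + (t₀ * X₁ - m * Δ) • b)),
    projL d (p₀ + (X₁ • a + (t₁ * X₁ + m * Δ) • b)),
    ⟨inner_projL_self _ _ hd, inner_projL_self _ _ hd, inner_projL_self _ _ hd⟩, ?_, ?_⟩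
  · intro τ hτ ρ hρ s hs
    have hwτ := coords_eq e a b he ha hb hab (w τ) (hw τ hτ)
    have hwc := coords_eq e a b he ha hb hab (w c) (hw c hc)
    obtain ⟨μ, hμ⟩ : ∃ μ, μ = coordX a b (w τ) - coordX a b (w c) := ⟨_, rfl⟩
    obtain ⟨ν, hν⟩ : ∃ ν, ν = coordY a b (w τ) - coordY a b (w c) := ⟨_, rfl⟩
    have hdiff : w τ = w c + (μ • a + ν • b) := by
      conv_lhs => rw [hwτ]
      conv_rhs => rw [hwc]
      rw [hμ, hν]; module
    -- bounds
    have bμ : |μ| ≤ Λ * Δ := by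
      rw [hμ, hΔ]
      refine mv_bound a b (coordX a b) t₀ t₁ w lam hw' Λ ?_ c τ hc hτ
      intro t ht
      rw [coordX_dir a b hG, mul_one]; exact hlam t ht
    have b0 : |ν - t₀ * μ| ≤ Λ * Δ * Δ := by
      have := mv_bound a b (coordY a b - t₀ • coordX a b) t₀ t₁ w lam hw' (Λ * Δ) ?_ c τ hc hτ
      · rw [← hΔ] at this
        have e1 : (coordY a b - t₀ • coordX a b) (w τ) - (coordY a b - t₀ • coordX a b) (w c)
            = ν - t₀ * μ := by
          simp only [sub_apply, smul_apply, smul_eq_mul]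
          rw [hμ, hν]; ring
        rwa [e1] at this
      · intro t ht
        simp only [sub_apply, smul_apply, smul_eq_mul]
        rw [coordX_dir a b hG, coordY_dir a b hG, abs_mul]
        have h1 : |t - t₀ * 1| ≤ Δ := by
          rw [abs_le, hΔ]; constructor <;> linarith [ht.1, ht.2]
        exact mul_le_mul (hlam t ht) h1 (abs_nonneg _) hΛ
    have b1 : |t₁ * μ - ν| ≤ Λ * Δ * Δ := by
      have := mv_bound a b (t₁ • coordX a b - coordY a b) t₀ t₁ w lam hw' (Λ * Δ) ?_ c τ hc hτ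
      · rw [← hΔ] at this
        have e1 : (t₁ • coordX a b - coordY a b) (w τ) - (t₁ • coordX a b - coordY a b) (w c)
            = t₁ * μ - ν := by
          simp only [sub_apply, smul_apply, smul_eq_mul]
          rw [hμ, hν]; ring
        rwa [e1] at this
      · intro t ht
        simp only [sub_apply, smul_apply, smul_eq_mul]
        rw [coordX_dir a b hG, coordY_dir a b hG, abs_mul]
        have h1 : |t₁ * 1 - t| ≤ Δ := by
          rw [abs_le, hΔ]; constructor <;> linarith [ht.1, ht.2]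
        exact mul_le_mul (hlam t ht) h1 (abs_nonneg _) hΛ
    -- products with s
    have sμ : |s * μ| ≤ m := by
      rw [abs_mul, hm, mul_assoc]; exact mul_le_mul hs bμ (abs_nonneg _) hL
    have s0 : |s * (ν - t₀ * μ)| ≤ m * Δ := by
      rw [abs_mul, hm]
      calc |s| * |ν - t₀ * μ| ≤ L * (Λ * Δ * Δ) := mul_le_mul hs b0 (abs_nonneg _) hL
        _ = L * Λ * Δ * Δ := by ring
    have s1 : |s * (t₁ * μ - ν)| ≤ m * Δ := by
      rw [abs_mul, hm]
      calc |s| * |t₁ * μ - ν| ≤ L * (Λ * Δ * Δ) := mul_le_mul hs b1 (abs_nonneg _) hL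
        _ = L * Λ * Δ * Δ := by ring
    obtain ⟨X, hX⟩ : ∃ X, X = ρ + s * μ := ⟨_, rfl⟩
    obtain ⟨Y, hY⟩ : ∃ Y, Y = ρ * τ + s * ν := ⟨_, rfl⟩
    have u0 : 0 ≤ Y - t₀ * X + m * Δ := by
      have : Y - t₀ * X = ρ * (τ - t₀) + s * (ν - t₀ * μ) := by rw [hX, hY]; ring
      rw [this]
      have h1 : 0 ≤ ρ * (τ - t₀) := mul_nonneg hρ.1 (by linarith [hτ.1])
      linarith [(abs_le.1 s0).1]
    have u1 : 0 ≤ t₁ * X - Y + m * Δ := by
      have : t₁ * X - Y = ρ * (t₁ - τ) + s * (t₁ * μ - ν) := by rw [hX, hY]; ring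
      rw [this]
      have h1 : 0 ≤ ρ * (t₁ - τ) := mul_nonneg hρ.1 (by linarith [hτ.2])
      linarith [(abs_le.1 s1).1]
    have u2 : 0 ≤ X₁ - X := by
      rw [hX₁, hX]; linarith [(abs_le.1 sμ).2, hρ.2]
    obtain ⟨S, hS⟩ : ∃ S, S = Δ * (X₁ + 2 * m) := ⟨_, rfl⟩
    have hS0 : 0 < S := by rw [hS, hX₁]; positivity
    have hx : p₀ + ρ • (a + τ • b) + s • (e + w τ) = (p₀ + (X • a + Y • b)) + s • d := by
      rw [hdiff, hd', hX, hY]; module
    have hcomb : p₀ + (X • a + Y • b) =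
        (Δ * (X₁ - X) / S) • (p₀ + ((-2 * m) • a + (-(m * Δ) - 2 * m * t₀) • b))
        + ((t₁ * X - Y + m * Δ) / S) • (p₀ + (X₁ • a + (t₀ * X₁ - m * Δ) • b))
        + ((Y - t₀ * X + m * Δ) / S) • (p₀ + (X₁ • a + (t₁ * X₁ + m * Δ) • b)) := by
      have h1 : Δ * (X₁ - X) / S + (t₁ * X - Y + m * Δ) / S + (Y - t₀ * X + m * Δ) / S = 1 := by
        rw [← add_div, ← add_div, div_eq_one_iff_eq hS0.ne', hS, hΔ]; ring
      have h2 : Δ * (X₁ - X) / S * (-2 * m) + (t₁ * X - Y + m * Δ) / S * X₁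
          + (Y - t₀ * X + m * Δ) / S * X₁ = X := by
        field_simp
        rw [hS, hΔ]; ring
      have h3 : Δ * (X₁ - X) / S * (-(m * Δ) - 2 * m * t₀)
          + (t₁ * X - Y + m * Δ) / S * (t₀ * X₁ - m * Δ)
          + (Y - t₀ * X + m * Δ) / S * (t₁ * X₁ + m * Δ) = Y := by
        field_simp
        rw [hS, hΔ]; ring
      calc p₀ + (X • a + Y • b)
          = (Δ * (X₁ - X) / S + (t₁ * X - Y + m * Δ) / S + (Y - t₀ * X + m * Δ) / S) • p₀
            + ((Δ * (X₁ - X) / S * (-2 * m) + (t₁ * X - Y + m * Δ) / S * X₁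
              + (Y - t₀ * X + m * Δ) / S * X₁) • a
            + (Δ * (X₁ - X) / S * (-(m * Δ) - 2 * m * t₀)
              + (t₁ * X - Y + m * Δ) / S * (t₀ * X₁ - m * Δ)
              + (Y - t₀ * X + m * Δ) / S * (t₁ * X₁ + m * Δ)) • b) := by
            rw [h1, h2, h3, one_smul]
        _ = _ := by module
    have hP : projL d (p₀ + ρ • (a + τ • b) + s • (e + w τ)) =
        (Δ * (X₁ - X) / S) • projL d (p₀ + ((-2 * m) • a + (-(m * Δ) - 2 * m * t₀) • b))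
        + ((t₁ * X - Y + m * Δ) / S) • projL d (p₀ + (X₁ • a + (t₀ * X₁ - m * Δ) • b))
        + ((Y - t₀ * X + m * Δ) / S) • projL d (p₀ + (X₁ • a + (t₁ * X₁ + m * Δ) • b)) := by
      rw [hx, map_add (projL d) _ (s • d), map_smul, projL_self d hd, smul_zero, add_zero]
      conv_lhs => rw [hcomb]
      simp only [map_add, map_smul]
    rw [hP]
    refine mem_tri (by positivity) (by positivity) (by positivity) ?_
    rw [← add_div, ← add_div, div_eq_one_iff_eq hS0.ne', hS, hΔ]; ring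
  · obtain ⟨x, y, hxy⟩ := exists_coords e a b he ha hb hab (w c) (hw c hc)
    have e1 : projL d (p₀ + (X₁ • a + (t₀ * X₁ - m * Δ) • b))
        - projL d (p₀ + ((-2 * m) • a + (-(m * Δ) - 2 * m * t₀) • b))
        = (X₁ + 2 * m) • projL d a + (t₀ * (X₁ + 2 * m)) • projL d b := by
      simp only [map_add, map_smul]; module
    have e2 : projL d (p₀ + (X₁ • a + (t₁ * X₁ + m * Δ) • b))
        - projL d (p₀ + ((-2 * m) • a + (-(m * Δ) - 2 * m * t₀) • b))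
        = (X₁ + 2 * m) • projL d a + (t₁ * (X₁ + 2 * m)) • projL d b := by
      simp only [map_add, map_smul]
      rw [hΔ]; module
    rw [e1, e2, gram2_comb, hd', hxy, gram2_projL e a b he ha hb, hX₁, hΔ]
    ring


open Crest.Agent.Lib_helper38_Area (gramArea muHE_triangle muHE_triangle_toReal mem_convexHull_triple)

lemma gramArea_eq (a b : E3) : gramArea a b = Real.sqrt (gram2 a b) := rfl

lemma sqrt_gram_form (x G D : ℝ) (hx : 0 ≤ x) (hD : 0 < D) :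
    Real.sqrt (x ^ 2 * G / D) = x * Real.sqrt G / Real.sqrt D := by
  rw [Real.sqrt_div' _ hD.le, Real.sqrt_mul (by positivity), Real.sqrt_sq hx]

theorem inner_tri (e a b p₀ : E3) (he : ‖e‖ = 1) (ha : inner ℝ a e = 0) (hb : inner ℝ b e = 0)
    (hab : LinearIndependent ℝ ![a, b]) (t₀ t₁ : ℝ) (h01 : t₀ ≤ t₁) (wc : E3)
    (hwc : inner ℝ wc e = 0) (ρ₀ : ℝ) (hρ₀ : 0 ≤ ρ₀) :
    ∃ p q r : E3,
      (∀ y ∈ convexHull ℝ {p, q, r}, ∃ τ ∈ Icc t₀ t₁, ∃ ρ ∈ Icc 0 ρ₀,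
        y = projL (e + wc) (p₀ + ρ • (a + τ • b))) ∧
      gram2 (q - p) (r - p) = ((t₁ - t₀) * ρ₀ ^ 2) ^ 2 * gram2 a b / (1 + ‖wc‖ ^ 2) := by
  obtain ⟨d, hd'⟩ : ∃ d, d = e + wc := ⟨_, rfl⟩
  rw [← hd']
  refine ⟨projL d p₀, projL d (p₀ + ρ₀ • (a + t₀ • b)), projL d (p₀ + ρ₀ • (a + t₁ • b)), ?_, ?_⟩
  · intro y hy
    rw [mem_convexHull_triple] at hy
    obtain ⟨s, t, hs, ht, hst, rfl⟩ := hy
    rcases (add_nonneg hs ht).eq_or_lt with h0 | h0
    · have hs0 : s = 0 := by linarith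
      have ht0 : t = 0 := by linarith
      refine ⟨t₀, ⟨le_rfl, h01⟩, 0, ⟨le_rfl, hρ₀⟩, ?_⟩
      rw [hs0, ht0]; simp
    · refine ⟨(s * t₀ + t * t₁) / (s + t), ⟨?_, ?_⟩, ρ₀ * (s + t), ⟨by positivity, ?_⟩, ?_⟩
      · rw [le_div_iff₀ h0]; nlinarith
      · rw [div_le_iff₀ h0]; nlinarith
      · nlinarith
      · have h1 : (ρ₀ * (s + t)) * ((s * t₀ + t * t₁) / (s + t)) = ρ₀ * (s * t₀ + t * t₁) := by
          field_simp
        have h2 : (ρ₀ * (s + t)) • (a + ((s * t₀ + t * t₁) / (s + t)) • b)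
            = (ρ₀ * (s + t)) • a + (ρ₀ * (s * t₀ + t * t₁)) • b := by
          rw [smul_add, smul_smul, h1]
        rw [h2]
        simp only [map_add, map_smul]
        module
  · obtain ⟨x, y, hxy⟩ := exists_coords e a b he ha hb hab wc hwc
    have e1 : projL d (p₀ + ρ₀ • (a + t₀ • b)) - projL d p₀
        = ρ₀ • projL d a + (ρ₀ * t₀) • projL d b := by
      simp only [map_add, map_smul]; module
    have e2 : projL d (p₀ + ρ₀ • (a + t₁ • b)) - projL d p₀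
        = ρ₀ • projL d a + (ρ₀ * t₁) • projL d b := by
      simp only [map_add, map_smul]; module
    rw [e1, e2, gram2_comb, hd', hxy, gram2_projL e a b he ha hb]
    ring


/-- the piece of the swept set with parameter in `[t₀, t₁]` (verbatim the set of S0328). -/
def pieceSet (e a b p₀ : E3) (L : ℝ) (R : ℝ → ℝ) (w : ℝ → E3) (t₀ t₁ : ℝ) : Set E3 :=
  {x | ∃ τ ∈ Set.Icc t₀ t₁, ∃ ρ ∈ Set.Icc 0 (R τ), ∃ s : ℝ, abs s ≤ L ∧
    x = p₀ + ρ • (a + τ • b) + s • (e + w τ)}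

theorem piece_est (e a b p₀ : E3) (he : ‖e‖ = 1) (ha : inner ℝ a e = 0) (hb : inner ℝ b e = 0)
    (hab : LinearIndependent ℝ ![a, b])
    (L Λ : ℝ) (hL : 0 ≤ L) (hΛ : 0 ≤ Λ) (t₀ t₁ c : ℝ) (h01 : t₀ < t₁) (hc : c ∈ Icc t₀ t₁)
    (R : ℝ → ℝ) (hR0 : ∀ t ∈ Icc t₀ t₁, 0 ≤ R t)
    (w : ℝ → E3) (hw : ∀ t ∈ Icc t₀ t₁, inner ℝ (w t) e = 0) (lam : ℝ → ℝ)
    (hlam : ∀ t ∈ Icc t₀ t₁, |lam t| ≤ Λ)
    (hw' : ∀ t ∈ Icc t₀ t₁, HasDerivWithinAt w (lam t • (a + t • b)) (Icc t₀ t₁) t)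
    (θ Rs : ℝ) (hθ : 0 < θ) (hθ1 : θ ≤ 1) (hosc : ∀ τ ∈ Icc t₀ t₁, |R τ - R c| ≤ θ)
    (hRs : R c ≤ Rs) (hm : 3 * (L * Λ * (t₁ - t₀)) ≤ θ) :
    ∃ p q r : E3,
      (inner ℝ p (e + w c) = 0 ∧ inner ℝ q (e + w c) = 0 ∧ inner ℝ r (e + w c) = 0) ∧
      AffineIndependent ℝ ![p, q, r] ∧
      (∀ x ∈ pieceSet e a b p₀ L R w t₀ t₁, projL (e + w c) x ∈ convexHull ℝ {p, q, r}) ∧
      |(μHE[2] (convexHull ℝ ({p, q, r} : Set E3))).toReal
        - Real.sqrt (gram2 a b) * (R c ^ 2 / (2 * Real.sqrt (1 + ‖w c‖ ^ 2))) * (t₁ - t₀)|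
        ≤ Real.sqrt (gram2 a b) * θ * (2 * Rs + 2) * (t₁ - t₀) ∧
      |(μHE[2] (projL (e + w c) '' pieceSet e a b p₀ L R w t₀ t₁)).toReal
        - Real.sqrt (gram2 a b) * (R c ^ 2 / (2 * Real.sqrt (1 + ‖w c‖ ^ 2))) * (t₁ - t₀)|
        ≤ Real.sqrt (gram2 a b) * θ * (2 * Rs + 2) * (t₁ - t₀) := by
  have hRc := hR0 c hc
  obtain ⟨p, q, r, hperp, hcov, hgram⟩ := piece e a b p₀ he ha hb hab L Λ hL hΛ t₀ t₁ c h01 hc w hw
    lam hlam hw' (R c + θ) (by linarith)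
  obtain ⟨p', q', r', hin, hgram'⟩ := inner_tri e a b p₀ he ha hb hab t₀ t₁ h01.le (w c) (hw c hc)
    (max (R c - θ) 0) (le_max_right _ _)
  have hGpos := gram2_pos_of_linearIndependent a b hab
  obtain ⟨κ, hκ⟩ : ∃ κ, κ = Real.sqrt (gram2 a b) := ⟨_, rfl⟩
  have hκ0 : 0 < κ := by rw [hκ]; exact Real.sqrt_pos.2 hGpos
  obtain ⟨Δ, hΔ⟩ : ∃ Δ, Δ = t₁ - t₀ := ⟨_, rfl⟩
  have hΔ0 : 0 < Δ := by rw [hΔ]; linarith
  obtain ⟨m, hmdef⟩ : ∃ m, m = 3 * (L * Λ * Δ) := ⟨_, rfl⟩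
  have hm0 : 0 ≤ m := by rw [hmdef]; positivity
  have hDpos : (0:ℝ) < 1 + ‖w c‖ ^ 2 := by positivity
  obtain ⟨j, hj⟩ : ∃ j, j = 1 / Real.sqrt (1 + ‖w c‖ ^ 2) := ⟨_, rfl⟩
  have hsD1 : 1 ≤ Real.sqrt (1 + ‖w c‖ ^ 2) := by
    rw [Real.one_le_sqrt]; linarith [sq_nonneg ‖w c‖]
  have hj0 : 0 < j := by rw [hj]; positivity
  have hj1 : j ≤ 1 := by rw [hj, div_le_one (by linarith)]; exact hsD1
  obtain ⟨ρ₀, hρ₀⟩ : ∃ ρ₀, ρ₀ = max (R c - θ) 0 := ⟨_, rfl⟩
  have hρ₀0 : 0 ≤ ρ₀ := by rw [hρ₀]; exact le_max_right _ _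
  rw [← hΔ] at hgram hgram' hm
  rw [← hmdef] at hgram hm
  rw [← hρ₀] at hgram' hin
  rw [← hκ, ← hΔ]
  have hU : (μHE[2] (convexHull ℝ ({p, q, r} : Set E3))).toReal
      = κ * Δ * (R c + θ + m) ^ 2 * j / 2 := by
    rw [muHE_triangle_toReal, gramArea_eq, hgram, sqrt_gram_form _ _ _ (by positivity) hDpos, hκ, hj]
    ring
  have hLo : (μHE[2] (convexHull ℝ ({p', q', r'} : Set E3))).toReal
      = κ * Δ * ρ₀ ^ 2 * j / 2 := by
    rw [muHE_triangle_toReal, gramArea_eq, hgram', sqrt_gram_form _ _ _ (by positivity) hDpos, hκ, hj]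
    ring
  have hX : κ * (R c ^ 2 / (2 * Real.sqrt (1 + ‖w c‖ ^ 2))) * Δ = κ * Δ * R c ^ 2 * j / 2 := by
    rw [hj]; field_simp
  rw [hX]
  have hκΔj : 0 ≤ κ * Δ * j := by positivity
  have hκΔ : 0 ≤ κ * Δ := by positivity
  -- upper estimate
  have hUge : κ * Δ * R c ^ 2 * j / 2 ≤ κ * Δ * (R c + θ + m) ^ 2 * j / 2 := by
    have : R c ^ 2 ≤ (R c + θ + m) ^ 2 := pow_le_pow_left₀ hRc (by linarith) 2
    linarith [mul_le_mul_of_nonneg_left this hκΔj]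
  have hUle : κ * Δ * (R c + θ + m) ^ 2 * j / 2 ≤ κ * Δ * R c ^ 2 * j / 2
      + κ * θ * (2 * Rs + 2) * Δ := by
    have h1 : (R c + θ + m) ^ 2 - R c ^ 2 ≤ 2 * θ * (2 * Rs + 2) := by
      have e1 : (R c + θ + m) ^ 2 - R c ^ 2 = (θ + m) * (2 * R c + θ + m) := by ring
      rw [e1]
      have a1 : θ + m ≤ 2 * θ := by linarith
      have a2 : 2 * R c + θ + m ≤ 2 * Rs + 2 := by linarith
      exact mul_le_mul a1 a2 (by positivity) (by positivity)
    have h2 : κ * Δ * j * ((R c + θ + m) ^ 2 - R c ^ 2) ≤ κ * Δ * 1 * (2 * θ * (2 * Rs + 2)) := by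
      have hb0 : 0 ≤ (R c + θ + m) ^ 2 - R c ^ 2 :=
        sub_nonneg.2 (pow_le_pow_left₀ hRc (by linarith) 2)
      have : κ * Δ * j ≤ κ * Δ * 1 := mul_le_mul_of_nonneg_left hj1 hκΔ
      exact mul_le_mul this h1 hb0 (by positivity)
    linarith [h2]
  have hLole : κ * Δ * ρ₀ ^ 2 * j / 2 ≤ κ * Δ * R c ^ 2 * j / 2 := by
    have h0 : ρ₀ ≤ R c := by rw [hρ₀]; exact max_le (by linarith) hRc
    have : ρ₀ ^ 2 ≤ R c ^ 2 := pow_le_pow_left₀ hρ₀0 h0 2
    linarith [mul_le_mul_of_nonneg_left this hκΔj]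
  have hLoge : κ * Δ * R c ^ 2 * j / 2 - κ * θ * (2 * Rs + 2) * Δ ≤ κ * Δ * ρ₀ ^ 2 * j / 2 := by
    have h1 : R c ^ 2 - ρ₀ ^ 2 ≤ 2 * θ * (2 * Rs + 2) := by
      have hρge : R c - θ ≤ ρ₀ := by rw [hρ₀]; exact le_max_left _ _
      have h0 : ρ₀ ≤ R c := by rw [hρ₀]; exact max_le (by linarith) hRc
      have e1 : R c ^ 2 - ρ₀ ^ 2 = (R c - ρ₀) * (R c + ρ₀) := by ring
      rw [e1]
      have a1 : R c - ρ₀ ≤ 2 * θ := by linarith
      have a2 : R c + ρ₀ ≤ 2 * Rs + 2 := by linarith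
      exact mul_le_mul a1 a2 (by positivity) (by positivity)
    have h2 : κ * Δ * j * (R c ^ 2 - ρ₀ ^ 2) ≤ κ * Δ * 1 * (2 * θ * (2 * Rs + 2)) := by
      have h0 : ρ₀ ≤ R c := by rw [hρ₀]; exact max_le (by linarith) hRc
      have hb0 : 0 ≤ R c ^ 2 - ρ₀ ^ 2 := sub_nonneg.2 (pow_le_pow_left₀ hρ₀0 h0 2)
      have : κ * Δ * j ≤ κ * Δ * 1 := mul_le_mul_of_nonneg_left hj1 hκΔ
      exact mul_le_mul this h1 hb0 (by positivity)
    linarith [h2]
  have hcov' : ∀ x ∈ pieceSet e a b p₀ L R w t₀ t₁, projL (e + w c) x ∈ convexHull ℝ {p, q, r} := by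
    rintro x ⟨τ, hτ, ρ, hρ, s, hs, rfl⟩
    refine hcov τ hτ ρ ⟨hρ.1, ?_⟩ s hs
    have := (abs_le.1 (hosc τ hτ)).2
    linarith [hρ.2]
  refine ⟨p, q, r, hperp, ?_, hcov', ?_, ?_⟩
  · apply affineIndependent_of_gram2
    rw [hgram]
    positivity
  · rw [hU, abs_le]; constructor <;> linarith
  · have hfinU : μHE[2] (convexHull ℝ ({p, q, r} : Set E3)) ≠ ⊤ := by
      rw [muHE_triangle]; exact ENNReal.ofReal_ne_top
    have hsub1 : projL (e + w c) '' pieceSet e a b p₀ L R w t₀ t₁ ⊆ convexHull ℝ {p, q, r} := by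
      rintro _ ⟨x, hx, rfl⟩; exact hcov' x hx
    have hsub2 : convexHull ℝ {p', q', r'} ⊆ projL (e + w c) '' pieceSet e a b p₀ L R w t₀ t₁ := by
      intro y hy
      obtain ⟨τ, hτ, ρ, hρ, rfl⟩ := hin y hy
      refine ⟨_, ⟨τ, hτ, ρ, ⟨hρ.1, ?_⟩, 0, by simpa using hL, ?_⟩, rfl⟩
      · have h1 := (abs_le.1 (hosc τ hτ)).1
        have h2 := hR0 τ hτ
        have : ρ₀ ≤ R τ := by rw [hρ₀]; exact max_le (by linarith) h2
        linarith [hρ.2]
      · simp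
    have hM1 := ENNReal.toReal_mono hfinU (measure_mono hsub1 (μ := μHE[2]))
    have hfinM : μHE[2] (projL (e + w c) '' pieceSet e a b p₀ L R w t₀ t₁) ≠ ⊤ :=
      ne_top_of_le_ne_top hfinU (measure_mono hsub1)
    have hM2 := ENNReal.toReal_mono hfinM (measure_mono hsub2 (μ := μHE[2]))
    rw [hU] at hM1
    rw [hLo] at hM2
    rw [abs_le]; constructor <;> linarith

end Crest.Agent.Lib_helper40_Sweep
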