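import Mathlib

/-!
# Core cover for row 211 (S0324 -- S0329), measure free part  (helper45)

Two "fans" of thin triangular cylinders cover the regular tetrahedron
`K = conv {(±1,0,0), (0,±1,√2)}` with total base area `< √2/2`.
-/

set_option autoImplicit false

namespace Crest.Agent.Lib_helper45_CC

/-! ## Part 1 : real algebra -/

/-- Sheet parameters: every `(y,z)` with `|y| ≤ z` lies on a sheet. -/
theorem sheet_exists (a y z : ℝ) (hy : |y| ≤ z) :
    ∃ t ρ : ℝ, |t| ≤ 1 ∧ 0 ≤ ρ ∧ z = a * t + ρ ∧ y = a * (t ^ 2 + 1) / 2 + ρ * t := by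
  have hz : 0 ≤ z := le_trans (abs_nonneg y) hy
  obtain ⟨hy1, hy2⟩ := abs_le.mp hy
  have hdisc : 0 ≤ z ^ 2 - 2 * a * y + a ^ 2 := by
    rcases le_total 0 a with ha | ha
    · nlinarith [sq_nonneg (z - a), mul_nonneg ha (sub_nonneg.mpr hy2)]
    · nlinarith [sq_nonneg (z + a), mul_nonneg (neg_nonneg.mpr ha) (by linarith : 0 ≤ z + y)]
  obtain ⟨D, hD0, hD2⟩ : ∃ D : ℝ, 0 ≤ D ∧ D ^ 2 = z ^ 2 - 2 * a * y + a ^ 2 :=
    ⟨Real.sqrt _, Real.sqrt_nonneg _, Real.sq_sqrt hdisc⟩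
  by_cases h0 : z + D = 0
  · have hz0 : z = 0 := by linarith
    have hD00 : D = 0 := by linarith
    have hy0 : y = 0 := by linarith
    have ha0 : a = 0 := by
      have : a ^ 2 = 0 := by rw [hD00, hz0, hy0] at hD2; linarith
      exact pow_eq_zero_iff (two_ne_zero) |>.mp this
    exact ⟨0, 0, by simp, le_refl _, by simp [hz0], by simp [hy0, ha0]⟩
  · have hpos : 0 < z + D := lt_of_le_of_ne (by positivity) (Ne.symm h0)
    have hat : a * ((2 * y - a) / (z + D)) = z - D := by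
      field_simp
      nlinarith
    have hzt : (z + D) * ((2 * y - a) / (z + D)) = 2 * y - a := by
      field_simp
    refine ⟨(2 * y - a) / (z + D), D, ?_, hD0, by linarith, ?_⟩
    · rw [abs_le]
      constructor
      · rw [le_div_iff₀ hpos]
        by_contra hcon
        rw [not_le] at hcon
        have h1 : D < a - 2 * y - z := by linarith
        have h2 : D ^ 2 < (a - 2 * y - z) ^ 2 := by nlinarith
        have h3 : 2 * y - a < 0 := by linarith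
        nlinarith [mul_nonneg (by linarith : 0 ≤ y + z) (by linarith : 0 ≤ -(2 * y - a))]
      · rw [div_le_iff₀ hpos]
        by_contra hcon
        rw [not_le] at hcon
        have h1 : D < 2 * y - a - z := by linarith
        have h2 : D ^ 2 < (2 * y - a - z) ^ 2 := by nlinarith
        have h3 : 0 < 2 * y - a := by linarith
        nlinarith [mul_nonneg (by linarith : 0 ≤ z - y) (by linarith : 0 ≤ (2 * y - a))]
    · set t := (2 * y - a) / (z + D) with ht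
      have : a * t ^ 2 = (z - D) * t := by rw [← hat]; ring
      nlinarith

/-- The radius function of the fans. -/
noncomputable def Rad (lam t : ℝ) : ℝ := 1 / 2 + lam ^ 2 * ((t ^ 2 + t ^ 4) / 4 + lam)

theorem two_fans_aux (lam E s1 s2 a1 a2 p : ℝ) (hl0 : 0 < lam) (hl : lam ≤ 1 / 4)
    (ha1 : 0 ≤ a1) (hb1 : a1 ≤ 1) (ha2 : 0 ≤ a2) (hb2 : a2 ≤ 1) (hp2 : -1 ≤ p) (hp1 : p ≤ 1)
    (hs1pos : lam ^ 2 * ((a1 + a1 ^ 2) / 4 + lam) < s1)
    (hs2pos : lam ^ 2 * ((a2 + a2 ^ 2) / 4 + lam) < s2)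
    (hsE : s1 + s2 = lam * E)
    (hstar : E * (1 + lam ^ 2 * (a1 + 1) * (a2 + 1) / 4) =
      (s1 - s2) * p + lam / 2 * ((s2 + 1 / 2) * a2 * (a1 + 1) + (s1 + 1 / 2) * a1 * (a2 + 1))) :
    False := by
  have hl2 : 0 < lam ^ 2 := by positivity
  have hs1p : 0 < s1 := lt_of_le_of_lt (by positivity) hs1pos
  have hs2p : 0 < s2 := lt_of_le_of_lt (by positivity) hs2pos
  have hEpos : 0 < E := by
    have : 0 < lam * E := by linarith
    exact (pos_iff_pos_of_mul_pos this).mp hl0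
  have hElow : lam * ((a1 + a1 ^ 2 + a2 + a2 ^ 2) / 4) + 2 * lam ^ 2 < E := by
    have : lam * (lam * ((a1 + a1 ^ 2 + a2 + a2 ^ 2) / 4) + 2 * lam ^ 2) < lam * E := by
      have e : lam * (lam * ((a1 + a1 ^ 2 + a2 + a2 ^ 2) / 4) + 2 * lam ^ 2) =
        lam ^ 2 * ((a1 + a1 ^ 2) / 4 + lam) + lam ^ 2 * ((a2 + a2 ^ 2) / 4 + lam) := by ring
      rw [e]; linarith
    exact lt_of_mul_lt_mul_left this hl0.le
  have hEup : E ≤ lam * E * (1 + lam) + lam / 4 * (a1 + a2 + 2 * a1 * a2) := by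
    have hA : E ≤ E * (1 + lam ^ 2 * (a1 + 1) * (a2 + 1) / 4) := by
      have : 0 ≤ E * (lam ^ 2 * (a1 + 1) * (a2 + 1) / 4) := by positivity
      linarith [mul_add E 1 (lam ^ 2 * (a1 + 1) * (a2 + 1) / 4)]
    have hB : (s1 - s2) * p ≤ s1 + s2 := by
      nlinarith [mul_nonneg hs1p.le (by linarith : 0 ≤ 1 - p),
        mul_nonneg hs2p.le (by linarith : 0 ≤ 1 + p)]
    have k1 : a2 * (a1 + 1) ≤ 2 := by nlinarith
    have k2 : a1 * (a2 + 1) ≤ 2 := by nlinarith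
    have k1' := mul_le_mul_of_nonneg_left k1 hs2p.le
    have k2' := mul_le_mul_of_nonneg_left k2 hs1p.le
    have hC : (s2 + 1 / 2) * a2 * (a1 + 1) + (s1 + 1 / 2) * a1 * (a2 + 1) ≤
        2 * (s1 + s2) + (a1 + a2 + 2 * a1 * a2) / 2 := by
      have e : (s2 + 1 / 2) * a2 * (a1 + 1) + (s1 + 1 / 2) * a1 * (a2 + 1) =
        s2 * (a2 * (a1 + 1)) + s1 * (a1 * (a2 + 1)) + (a1 + a2 + 2 * a1 * a2) / 2 := by ring
      rw [e]; linarith
    have hD := mul_le_mul_of_nonneg_left hC (by positivity : 0 ≤ lam / 2)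
    rw [hstar] at hA
    rw [hsE] at hB hD
    have e : lam / 2 * (2 * (lam * E) + (a1 + a2 + 2 * a1 * a2) / 2) =
      lam * E * lam + lam / 4 * (a1 + a2 + 2 * a1 * a2) := by ring
    rw [e] at hD
    linarith
  have hF0 : a1 + a2 + 2 * a1 * a2 ≤ a1 + a1 ^ 2 + a2 + a2 ^ 2 := by nlinarith [sq_nonneg (a1 - a2)]
  have hF1 : a1 + a1 ^ 2 + a2 + a2 ^ 2 ≤ 4 := by nlinarith
  obtain ⟨F1, hF1d⟩ : ∃ F1, F1 = a1 + a1 ^ 2 + a2 + a2 ^ 2 := ⟨_, rfl⟩
  rw [← hF1d] at hF0 hF1 hElow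
  have hlsq : lam ^ 2 ≤ 1 / 16 := by nlinarith
  have hc : 0 < 1 - lam - lam ^ 2 := by linarith
  have h5 : E * (1 - lam - lam ^ 2) ≤ lam / 4 * F1 := by
    have : lam / 4 * (a1 + a2 + 2 * a1 * a2) ≤ lam / 4 * F1 :=
      mul_le_mul_of_nonneg_left hF0 (by positivity)
    have e : E * (1 - lam - lam ^ 2) = E - lam * E * (1 + lam) := by ring
    rw [e]; linarith
  have h6 : (lam * (F1 / 4) + 2 * lam ^ 2) * (1 - lam - lam ^ 2) < E * (1 - lam - lam ^ 2) :=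
    mul_lt_mul_of_pos_right hElow hc
  have h7 : 2 * lam ^ 2 * (1 - lam - lam ^ 2) < lam * (F1 / 4) * (lam + lam ^ 2) := by
    have e : (lam * (F1 / 4) + 2 * lam ^ 2) * (1 - lam - lam ^ 2) =
      lam / 4 * F1 - lam * (F1 / 4) * (lam + lam ^ 2) + 2 * lam ^ 2 * (1 - lam - lam ^ 2) := by ring
    rw [e] at h6; linarith
  have h8 : lam * (F1 / 4) * (lam + lam ^ 2) ≤ lam * 1 * (lam + lam ^ 2) := by
    apply mul_le_mul_of_nonneg_right _ (by positivity)
    apply mul_le_mul_of_nonneg_left _ hl0.le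
    linarith
  have h9 : 2 * (1 - lam - lam ^ 2) < 1 + lam := by
    have : lam ^ 2 * (2 * (1 - lam - lam ^ 2)) < lam ^ 2 * (1 + lam) := by
      have e1 : lam ^ 2 * (2 * (1 - lam - lam ^ 2)) = 2 * lam ^ 2 * (1 - lam - lam ^ 2) := by ring
      have e2 : lam ^ 2 * (1 + lam) = lam * 1 * (lam + lam ^ 2) := by ring
      rw [e1, e2]; linarith
    exact lt_of_mul_lt_mul_left this hl2.le
  linarith

/-- If a point lies on sheet `(t1,r1)` of the lower fan and its mirror image on sheet `(t2,r2)`,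
then one of the two radii is within the allowed range. -/
theorem two_fans (lam x y z t1 r1 t2 r2 : ℝ) (hl0 : 0 < lam) (hl : lam ≤ 1 / 4)
    (ht1 : |t1| ≤ 1) (ht2 : |t2| ≤ 1)
    (e1 : z = lam * x * t1 + r1) (e2 : y = lam * x * (t1 ^ 2 + 1) / 2 + r1 * t1)
    (e3 : 1 - z = lam * (-y) * t2 + r2) (e4 : x = lam * (-y) * (t2 ^ 2 + 1) / 2 + r2 * t2) :
    r1 ≤ Rad lam t1 ∨ r2 ≤ Rad lam t2 := by
  by_contra hcon
  obtain ⟨h1, h2⟩ := not_or.mp hcon
  rw [not_le] at h1 h2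
  unfold Rad at h1 h2
  obtain ⟨ht1a, ht1b⟩ := abs_le.mp ht1
  obtain ⟨ht2a, ht2b⟩ := abs_le.mp ht2
  refine two_fans_aux lam (y * t2 - x * t1) (r1 - 1 / 2) (r2 - 1 / 2) (t1 ^ 2) (t2 ^ 2) (t1 * t2)
    hl0 hl (sq_nonneg _) (by nlinarith) (sq_nonneg _) (by nlinarith) (by nlinarith) (by nlinarith)
    ?_ ?_ ?_ ?_
  · have : (t1 ^ 2) ^ 2 = t1 ^ 4 := by ring
    rw [this]; linarith
  · have : (t2 ^ 2) ^ 2 = t2 ^ 4 := by ring
    rw [this]; linarith
  · linear_combination (-1 : ℝ) * e1 - e3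
  · linear_combination (t2 + lam / 2 * (t2 ^ 2 + 1) * t1) * e2 +
      (-t1 + lam / 2 * (t1 ^ 2 + 1) * t2) * e4

end Crest.Agent.Lib_helper45_CC
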