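import Mathlib

/-! # Core cover for row 211, part 2: slices and index selection (helper45) -/

set_option autoImplicit false

namespace Crest.Agent.Lib_helper45_CC

/-- barycentric coordinates of a fan point in the slice triangle -/
theorem slice_bary (lam k m Rtop x t ρ : ℝ) (hl0 : 0 < lam) (hk : 0 < k) (hx : |x| ≤ 1)
    (htm : |t - m| ≤ k) (hρ0 : 0 ≤ ρ) (hρ : ρ ≤ Rtop) :
    ∃ α β γ : ℝ, 0 ≤ α ∧ 0 ≤ β ∧ 0 ≤ γ ∧ α + β + γ = 1 ∧
      ρ * t + x * lam * (t ^ 2 - m ^ 2) / 2 =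
        α * (-(m * (3 * lam * k / 2))) + β * (m * (Rtop + lam * k) - (Rtop + 5 * lam * k / 2) * k)
          + γ * (m * (Rtop + lam * k) + (Rtop + 5 * lam * k / 2) * k) ∧
      ρ + x * lam * (t - m) =
        α * (-(3 * lam * k / 2)) + β * (Rtop + lam * k) + γ * (Rtop + lam * k) := by
  obtain ⟨e, he⟩ : ∃ e, e = t - m := ⟨_, rfl⟩
  obtain ⟨w, hw⟩ : ∃ w, w = x * lam := ⟨_, rfl⟩
  have ht : t = m + e := by rw [he]; ring
  rw [← he] at htm
  have hwabs : |w| ≤ lam := by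
    rw [hw, abs_mul, abs_of_pos hl0]
    nlinarith [abs_nonneg x]
  have hwe : |w * e| ≤ lam * k := by
    rw [abs_mul]; exact mul_le_mul hwabs htm (abs_nonneg _) hl0.le
  have hee : e ^ 2 ≤ k ^ 2 := by
    rw [← sq_abs e]; exact pow_le_pow_left₀ (abs_nonneg _) htm 2
  have hwee : |w * e ^ 2| ≤ lam * k ^ 2 := by
    rw [abs_mul, abs_of_nonneg (sq_nonneg e)]
    exact mul_le_mul hwabs hee (sq_nonneg _) hl0.le
  obtain ⟨hwe1, hwe2⟩ := abs_le.mp hwe
  obtain ⟨hwee1, hwee2⟩ := abs_le.mp hwee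
  obtain ⟨he1, he2⟩ := abs_le.mp htm
  obtain ⟨H, hH⟩ : ∃ H, H = Rtop + 5 * lam * k / 2 := ⟨_, rfl⟩
  have hlk : 0 < lam * k := mul_pos hl0 hk
  have hHpos : 0 < H := by rw [hH]; linarith
  have hHk : 0 < H * k := mul_pos hHpos hk
  obtain ⟨zz, hzz⟩ : ∃ zz, zz = ρ + w * e + 3 * lam * k / 2 := ⟨_, rfl⟩
  obtain ⟨d, hd⟩ : ∃ d, d = ρ * e + w * e ^ 2 / 2 := ⟨_, rfl⟩
  have hzz0 : 0 ≤ zz := by rw [hzz]; linarith
  have hzzH : zz ≤ H := by rw [hzz, hH]; linarith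
  have hd1 : d ≤ zz * k := by
    rw [hd, hzz]
    have h1 : 0 ≤ ρ * (k - e) := mul_nonneg hρ0 (by linarith)
    have h2 : -(lam * k) * k ≤ (w * e) * k := mul_le_mul_of_nonneg_right hwe1 hk.le
    nlinarith
  have hd2 : -(zz * k) ≤ d := by
    rw [hd, hzz]
    have h1 : 0 ≤ ρ * (k + e) := mul_nonneg hρ0 (by linarith)
    have h2 : -(lam * k) * k ≤ (w * e) * k := mul_le_mul_of_nonneg_right hwe1 hk.le
    nlinarith
  refine ⟨1 - zz / H, (zz / H - d / (H * k)) / 2, (zz / H + d / (H * k)) / 2, ?_, ?_, ?_, by ring,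
    ?_, ?_⟩
  · have : zz / H ≤ 1 := (div_le_one hHpos).mpr hzzH
    linarith
  · have : d / (H * k) ≤ zz / H := by
      rw [div_le_div_iff₀ hHk hHpos]
      nlinarith
    linarith
  · have : -(zz / H) ≤ d / (H * k) := by
      rw [← neg_div, div_le_div_iff₀ hHpos hHk]
      nlinarith
    linarith
  · rw [← hH, ← hw, ht]
    have hR : Rtop = H - 5 * lam * k / 2 := by rw [hH]; ring
    rw [hR]
    field_simp
    rw [hd, hzz]
    ring
  · rw [← hw, ← he]
    have hR : Rtop = H - 5 * lam * k / 2 := by rw [hH]; ring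
    rw [hR]
    field_simp
    rw [hzz]
    ring

/-- index selection -/
theorem exists_index (N : ℕ) (hN : 0 < N) (t : ℝ) (ht : |t| ≤ 1) :
    ∃ i : Fin N, |t - (-1 + (2 * (i : ℝ) + 1) * (1 / (N : ℝ)))| ≤ 1 / (N : ℝ) := by
  obtain ⟨ht1, ht2⟩ := abs_le.mp ht
  have hNr : (0 : ℝ) < N := by exact_mod_cast hN
  by_cases h : ⌊(t + 1) * N / 2⌋₊ < N
  · refine ⟨⟨_, h⟩, ?_⟩
    have h0 : 0 ≤ (t + 1) * N / 2 := by
      have : 0 ≤ t + 1 := by linarith
      positivity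
    have h1 := Nat.floor_le h0
    have h2 := Nat.lt_floor_add_one ((t + 1) * N / 2)
    simp only
    set j : ℝ := (⌊(t + 1) * N / 2⌋₊ : ℝ) with hj
    rw [abs_le]
    constructor
    · have : (2 * j + 1) * (1 / (N : ℝ)) - 1 / (N : ℝ) ≤ t + 1 := by
        have : (2 * j + 1) * (1 / (N : ℝ)) - 1 / (N : ℝ) = 2 * j / N := by field_simp; ring
        rw [this, div_le_iff₀ hNr]; linarith
      linarith
    · have : t + 1 ≤ (2 * j + 1) * (1 / (N : ℝ)) + 1 / (N : ℝ) := by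
        have : (2 * j + 1) * (1 / (N : ℝ)) + 1 / (N : ℝ) = (2 * j + 2) / N := by field_simp; ring
        rw [this, le_div_iff₀ hNr]; linarith
      linarith
  · rw [not_lt] at h
    refine ⟨⟨N - 1, by omega⟩, ?_⟩
    have h0 : 0 ≤ (t + 1) * N / 2 := by
      have : 0 ≤ t + 1 := by linarith
      positivity
    have h1 := Nat.floor_le h0
    have h3 : (N : ℝ) ≤ (t + 1) * N / 2 := le_trans (by exact_mod_cast h) h1
    have h4 : 1 ≤ t := by
      by_contra hc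
      rw [not_le] at hc
      nlinarith
    have ht' : t = 1 := le_antisymm ht2 h4
    simp only
    have hc : ((N - 1 : ℕ) : ℝ) = (N : ℝ) - 1 := by
      rw [Nat.cast_sub (by omega)]; simp
    rw [hc, ht']
    have : (1 : ℝ) - (-1 + (2 * ((N : ℝ) - 1) + 1) * (1 / (N : ℝ))) = 1 / N := by
      field_simp; ring
    rw [this, abs_of_pos (by positivity)]

end Crest.Agent.Lib_helper45_CC
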