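import Mathlib

/-! # Core cover for row 211, part 3: cylinders in `E3` (helper45) -/

set_option autoImplicit false

namespace Crest.Agent.Lib_helper45_CC

abbrev E3 := EuclideanSpace ℝ (Fin 3)

theorem inner_coord (a b : E3) : inner ℝ a b = a 0 * b 0 + a 1 * b 1 + a 2 * b 2 := by
  simp [PiLp.inner_apply, Fin.sum_univ_three]; ring

theorem normsq_coord (a : E3) : ‖a‖ ^ 2 = a 0 ^ 2 + a 1 ^ 2 + a 2 ^ 2 := by
  rw [← real_inner_self_eq_norm_sq, inner_coord]; ring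

/-- Gram determinant of two vectors. -/
noncomputable def gram (a b : E3) : ℝ := ‖a‖ ^ 2 * ‖b‖ ^ 2 - inner ℝ a b ^ 2

/-- 3x3 determinant in coordinates. -/
def det3 (a b u : E3) : ℝ :=
  a 0 * (b 1 * u 2 - b 2 * u 1) - a 1 * (b 0 * u 2 - b 2 * u 0) + a 2 * (b 0 * u 1 - b 1 * u 0)

noncomputable def unitv (d : E3) : E3 := ‖d‖⁻¹ • d

noncomputable def prj (d A : E3) : E3 := A - inner ℝ A (unitv d) • unitv d

theorem unitv_norm {d : E3} (hd : d ≠ 0) : ‖unitv d‖ = 1 := by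
  unfold unitv
  exact norm_smul_inv_norm hd

theorem prj_perp {d : E3} (hd : d ≠ 0) (A : E3) : inner ℝ (prj d A) (unitv d) = 0 := by
  unfold prj
  rw [inner_sub_left, inner_smul_left, real_inner_self_eq_norm_sq, unitv_norm hd]
  simp

theorem tri_mem (p q r : E3) (α β γ : ℝ) (hα : 0 ≤ α) (hβ : 0 ≤ β) (hγ : 0 ≤ γ)
    (hs : α + β + γ = 1) : α • p + β • q + γ • r ∈ convexHull ℝ ({p, q, r} : Set E3) := by
  have hp : p ∈ convexHull ℝ ({p, q, r} : Set E3) := subset_convexHull ℝ _ (by simp)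
  have hq : q ∈ convexHull ℝ ({p, q, r} : Set E3) := subset_convexHull ℝ _ (by simp)
  have hr : r ∈ convexHull ℝ ({p, q, r} : Set E3) := subset_convexHull ℝ _ (by simp)
  have hc := convex_convexHull ℝ ({p, q, r} : Set E3)
  rcases eq_or_lt_of_le (add_nonneg hα hβ) with h0 | hpos
  · have hα0 : α = 0 := by linarith
    have hβ0 : β = 0 := by linarith
    have hγ1 : γ = 1 := by linarith
    simp [hα0, hβ0, hγ1, hr]
  · have h1 : (α / (α + β)) • p + (β / (α + β)) • q ∈ convexHull ℝ ({p, q, r} : Set E3) :=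
      hc hp hq (by positivity) (by positivity) (by field_simp)
    have h2 := hc h1 hr hpos.le hγ hs
    have e : (α + β) • ((α / (α + β)) • p + (β / (α + β)) • q) + γ • r = α • p + β • q + γ • r := by
      rw [smul_add, smul_smul, smul_smul]
      congr 2 <;> congr 1 <;> field_simp
    rwa [e] at h2

theorem mem_cyl {d : E3} (hd : d ≠ 0) (A B C X : E3) (α β γ τ : ℝ) (hα : 0 ≤ α) (hβ : 0 ≤ β)
    (hγ : 0 ≤ γ) (hs : α + β + γ = 1) (hX : X = α • A + β • B + γ • C + τ • d) :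
    ∃ b ∈ convexHull ℝ ({prj d A, prj d B, prj d C} : Set E3), ∃ t : ℝ, X = b + t • unitv d := by
  refine ⟨α • prj d A + β • prj d B + γ • prj d C, tri_mem _ _ _ α β γ hα hβ hγ hs,
    τ * ‖d‖ + α * inner ℝ A (unitv d) + β * inner ℝ B (unitv d) + γ * inner ℝ C (unitv d), ?_⟩
  have hdn : ‖d‖ ≠ 0 := norm_ne_zero_iff.mpr hd
  have hdd : d = ‖d‖ • unitv d := by
    unfold unitv; rw [smul_smul, mul_inv_cancel₀ hdn, one_smul]
  rw [hX]
  unfold prj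
  conv_lhs => rw [hdd]
  module

theorem gram_proj_real (a0 a1 a2 b0 b1 b2 u0 u1 u2 : ℝ) (hu' : u0 ^ 2 + u1 ^ 2 + u2 ^ 2 = 1) :
    ((a0 - (a0 * u0 + a1 * u1 + a2 * u2) * u0) ^ 2 + (a1 - (a0 * u0 + a1 * u1 + a2 * u2) * u1) ^ 2
      + (a2 - (a0 * u0 + a1 * u1 + a2 * u2) * u2) ^ 2) *
    ((b0 - (b0 * u0 + b1 * u1 + b2 * u2) * u0) ^ 2 + (b1 - (b0 * u0 + b1 * u1 + b2 * u2) * u1) ^ 2
      + (b2 - (b0 * u0 + b1 * u1 + b2 * u2) * u2) ^ 2) -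
    ((a0 - (a0 * u0 + a1 * u1 + a2 * u2) * u0) * (b0 - (b0 * u0 + b1 * u1 + b2 * u2) * u0)
      + (a1 - (a0 * u0 + a1 * u1 + a2 * u2) * u1) * (b1 - (b0 * u0 + b1 * u1 + b2 * u2) * u1)
      + (a2 - (a0 * u0 + a1 * u1 + a2 * u2) * u2) * (b2 - (b0 * u0 + b1 * u1 + b2 * u2) * u2)) ^ 2
    = (a0 * (b1 * u2 - b2 * u1) - a1 * (b0 * u2 - b2 * u0) + a2 * (b0 * u1 - b1 * u0)) ^ 2 := by
  have h1 : (a0 - (a0 * u0 + a1 * u1 + a2 * u2) * u0) ^ 2 + (a1 - (a0 * u0 + a1 * u1 + a2 * u2) * u1) ^ 2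
      + (a2 - (a0 * u0 + a1 * u1 + a2 * u2) * u2) ^ 2
      = a0 ^ 2 + a1 ^ 2 + a2 ^ 2 - (a0 * u0 + a1 * u1 + a2 * u2) ^ 2 := by
    linear_combination ((a0 * u0 + a1 * u1 + a2 * u2) ^ 2) * hu'
  have h2 : (b0 - (b0 * u0 + b1 * u1 + b2 * u2) * u0) ^ 2 + (b1 - (b0 * u0 + b1 * u1 + b2 * u2) * u1) ^ 2
      + (b2 - (b0 * u0 + b1 * u1 + b2 * u2) * u2) ^ 2
      = b0 ^ 2 + b1 ^ 2 + b2 ^ 2 - (b0 * u0 + b1 * u1 + b2 * u2) ^ 2 := by
    linear_combination ((b0 * u0 + b1 * u1 + b2 * u2) ^ 2) * hu'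
  have h3 : (a0 - (a0 * u0 + a1 * u1 + a2 * u2) * u0) * (b0 - (b0 * u0 + b1 * u1 + b2 * u2) * u0)
      + (a1 - (a0 * u0 + a1 * u1 + a2 * u2) * u1) * (b1 - (b0 * u0 + b1 * u1 + b2 * u2) * u1)
      + (a2 - (a0 * u0 + a1 * u1 + a2 * u2) * u2) * (b2 - (b0 * u0 + b1 * u1 + b2 * u2) * u2)
      = a0 * b0 + a1 * b1 + a2 * b2
        - (a0 * u0 + a1 * u1 + a2 * u2) * (b0 * u0 + b1 * u1 + b2 * u2) := by
    linear_combination ((a0 * u0 + a1 * u1 + a2 * u2) * (b0 * u0 + b1 * u1 + b2 * u2)) * hu'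
  rw [h1, h2, h3]
  linear_combination (-((a0 ^ 2 + a1 ^ 2 + a2 ^ 2) * (b0 ^ 2 + b1 ^ 2 + b2 ^ 2)
    - (a0 * b0 + a1 * b1 + a2 * b2) ^ 2)) * hu'

theorem gram_proj (a b u : E3) (hu : ‖u‖ = 1) :
    gram (a - inner ℝ a u • u) (b - inner ℝ b u • u) = det3 a b u ^ 2 := by
  have hu' : u 0 ^ 2 + u 1 ^ 2 + u 2 ^ 2 = 1 := by rw [← normsq_coord, hu]; norm_num
  unfold gram det3
  rw [normsq_coord, normsq_coord, inner_coord (a - _)]
  simp only [PiLp.sub_apply, PiLp.smul_apply, smul_eq_mul]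
  rw [inner_coord a u, inner_coord b u]
  exact gram_proj_real _ _ _ _ _ _ _ _ _ hu'

/-- area (Gram form) of the projected triangle -/
theorem area_prj {d : E3} (hd : d ≠ 0) (A B C : E3) :
    Real.sqrt (‖prj d B - prj d A‖ ^ 2 * ‖prj d C - prj d A‖ ^ 2
      - inner ℝ (prj d B - prj d A) (prj d C - prj d A) ^ 2) / 2
      = |det3 (B - A) (C - A) d| / (2 * ‖d‖) := by
  have hdn : 0 < ‖d‖ := norm_pos_iff.mpr hd
  have e1 : prj d B - prj d A = (B - A) - inner ℝ (B - A) (unitv d) • unitv d := by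
    unfold prj; rw [inner_sub_left]; module
  have e2 : prj d C - prj d A = (C - A) - inner ℝ (C - A) (unitv d) • unitv d := by
    unfold prj; rw [inner_sub_left]; module
  have h := gram_proj (B - A) (C - A) (unitv d) (unitv_norm hd)
  unfold gram at h
  rw [e1, e2, h, Real.sqrt_sq_eq_abs]
  have e3 : det3 (B - A) (C - A) (unitv d) = det3 (B - A) (C - A) d / ‖d‖ := by
    unfold det3 unitv
    simp only [PiLp.smul_apply, smul_eq_mul]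
    field_simp
  rw [e3, abs_div, abs_of_pos hdn]
  field_simp

/-- coordinates of the points of the tetrahedron -/
theorem K_coord (X : E3)
    (hX : X ∈ convexHull ℝ ({!₂[1, 0, 0], !₂[-1, 0, 0], !₂[0, 1, Real.sqrt 2],
      !₂[0, -1, Real.sqrt 2]} : Set E3)) :
    ∃ z : ℝ, X 2 = Real.sqrt 2 * z ∧ |X 0| ≤ 1 - z ∧ |X 1| ≤ z := by
  have hs2 : (0 : ℝ) < Real.sqrt 2 := by positivity
  have hconv : Convex ℝ {Y : E3 | |Y 0| ≤ 1 - Y 2 / Real.sqrt 2 ∧ |Y 1| ≤ Y 2 / Real.sqrt 2} := by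
    intro Y hY Z hZ a b ha hb hab
    simp only [Set.mem_ofPred_eq, abs_le] at hY hZ ⊢
    simp only [PiLp.add_apply, PiLp.smul_apply, smul_eq_mul]
    obtain ⟨⟨h1, h2⟩, h3, h4⟩ := hY
    obtain ⟨⟨k1, k2⟩, k3, k4⟩ := hZ
    have e : (a * Y 2 + b * Z 2) / Real.sqrt 2 = a * (Y 2 / Real.sqrt 2) + b * (Z 2 / Real.sqrt 2) := by
      ring
    rw [e]
    have hb' : b = 1 - a := by linarith
    refine ⟨⟨?_, ?_⟩, ?_, ?_⟩ <;> nlinarith
  have hsub : convexHull ℝ ({!₂[1, 0, 0], !₂[-1, 0, 0], !₂[0, 1, Real.sqrt 2],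
      !₂[0, -1, Real.sqrt 2]} : Set E3) ⊆
      {Y : E3 | |Y 0| ≤ 1 - Y 2 / Real.sqrt 2 ∧ |Y 1| ≤ Y 2 / Real.sqrt 2} := by
    apply convexHull_min _ hconv
    intro Y hY
    simp only [Set.mem_insert_iff, Set.mem_singleton_iff] at hY
    rcases hY with rfl | rfl | rfl | rfl <;> simp [hs2.ne']
  obtain ⟨h1, h2⟩ := hsub hX
  exact ⟨X 2 / Real.sqrt 2, by field_simp, h1, h2⟩

end Crest.Agent.Lib_helper45_CC
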