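import Mathlib

/-! # Core cover for row 211, part 4: the area sum (helper45) -/

set_option autoImplicit false

namespace Crest.Agent.Lib_helper45_CC

noncomputable def lam : ℝ := 1 / 200
noncomputable def kk : ℝ := 1 / 1000000
def Nn : ℕ := 1000000

noncomputable def Gf (m : ℝ) : ℝ := (m ^ 2 + m ^ 4) / 4
noncomputable def Wf (m : ℝ) : ℝ := (m ^ 2 + 1) ^ 2 / 4 + 2 * m ^ 2
noncomputable def Rtop (m : ℝ) : ℝ := 1 / 2 + lam ^ 2 * (Gf m + lam + 3 * kk / 2)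
noncomputable def Hf (m : ℝ) : ℝ := Rtop m + 5 * lam * kk / 2
noncomputable def areaTerm (m : ℝ) : ℝ := kk * Hf m ^ 2 / Real.sqrt (1 + lam ^ 2 * Wf m)
noncomputable def Qf (t : ℝ) : ℝ := (7 * t ^ 5 / 5 - 2 * t ^ 3 / 3 - t) / 32
noncomputable def mid (i : ℕ) : ℝ := -1 + (2 * (i : ℝ) + 1) * kk

theorem inv_sqrt_le (w : ℝ) (h0 : 0 ≤ w) (h1 : w ≤ 1) :
    1 / Real.sqrt (1 + w) ≤ 1 - w / 2 + 3 * w ^ 2 / 8 := by
  have hs : 0 < Real.sqrt (1 + w) := Real.sqrt_pos.mpr (by linarith)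
  have hs2 : Real.sqrt (1 + w) ^ 2 = 1 + w := Real.sq_sqrt (by linarith)
  obtain ⟨s, hsd⟩ : ∃ s, s = Real.sqrt (1 + w) := ⟨_, rfl⟩
  rw [← hsd] at hs hs2 ⊢
  obtain ⟨P, hP⟩ : ∃ P, P = 1 - w / 2 + 3 * w ^ 2 / 8 := ⟨_, rfl⟩
  rw [← hP]
  have hPpos : 0 < P := by rw [hP]; nlinarith [sq_nonneg w]
  have hkey : 1 ≤ P ^ 2 * (1 + w) := by
    have e : P ^ 2 * (1 + w) = 1 + w ^ 3 * (5 / 8 - 15 * w / 64 + 9 * w ^ 2 / 64) := by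
      rw [hP]; ring
    rw [e]
    have : 0 ≤ w ^ 3 * (5 / 8 - 15 * w / 64 + 9 * w ^ 2 / 64) := by
      apply mul_nonneg (by positivity)
      nlinarith [sq_nonneg w]
    linarith
  rw [div_le_iff₀ hs]
  by_contra hc
  rw [not_le] at hc
  have hPs : 0 < P * s := mul_pos hPpos hs
  have : (P * s) ^ 2 < 1 := by nlinarith
  have e : (P * s) ^ 2 = P ^ 2 * (1 + w) := by rw [mul_pow, hs2]
  linarith

theorem HP_bound (e w : ℝ) (he0 : 0 ≤ e) (he1 : e ≤ 13 / 10 ^ 6) (hw0 : 0 ≤ w)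
    (hw1 : w ≤ 75 / 10 ^ 6) :
    (1 / 2 + e) ^ 2 * (1 - w / 2 + 3 * w ^ 2 / 8) ≤ 1 / 4 + e - w / 8 + 8 / 10 ^ 10 := by
  have ha : e ^ 2 ≤ (13 / 10 ^ 6) ^ 2 := pow_le_pow_left₀ he0 he1 2
  have hb : w ^ 2 ≤ (75 / 10 ^ 6) ^ 2 := pow_le_pow_left₀ hw0 hw1 2
  have hc : 1 / 4 + e + e ^ 2 ≤ 26 / 100 := by
    have : ((13 : ℝ) / 10 ^ 6) ^ 2 ≤ 1 / 1000 := by norm_num
    have : (13 : ℝ) / 10 ^ 6 ≤ 1 / 1000 := by norm_num
    linarith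
  have hd : w ^ 2 * (1 / 4 + e + e ^ 2) ≤ (75 / 10 ^ 6) ^ 2 * (26 / 100) :=
    mul_le_mul hb hc (by positivity) (by positivity)
  have he : 0 ≤ w * (e + e ^ 2) := by positivity
  have ex : (1 / 2 + e) ^ 2 * (1 - w / 2 + 3 * w ^ 2 / 8) =
      1 / 4 + e + e ^ 2 - w / 8 - (w * (e + e ^ 2)) / 2 + 3 / 8 * (w ^ 2 * (1 / 4 + e + e ^ 2)) := by
    ring
  rw [ex]
  have n1 : ((13 : ℝ) / 10 ^ 6) ^ 2 + 3 / 8 * ((75 / 10 ^ 6) ^ 2 * (26 / 100)) ≤ 8 / 10 ^ 10 := by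
    norm_num
  linarith

theorem Q_step (m k : ℝ) (hk : 0 ≤ k) :
    k * ((7 * m ^ 4 - 2 * m ^ 2 - 1) / 32) ≤ (Qf (m + k) - Qf (m - k)) / 2 + k ^ 3 / 48 := by
  have e : (Qf (m + k) - Qf (m - k)) / 2 + k ^ 3 / 48 - k * ((7 * m ^ 4 - 2 * m ^ 2 - 1) / 32)
      = (28 * k ^ 3 * m ^ 2 + 14 * k ^ 5 / 5) / 64 := by
    unfold Qf; ring
  have : 0 ≤ (28 * k ^ 3 * m ^ 2 + 14 * k ^ 5 / 5) / 64 := by positivity
  linarith

theorem term_bound (m : ℝ) (hm : |m| ≤ 1) :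
    areaTerm m ≤ kk / 4 + lam ^ 2 / 2 * (Qf (m + kk) - Qf (m - kk)) + kk * (1385 / 10 ^ 10) := by
  have hm2 : m ^ 2 ≤ 1 := by
    rw [← sq_abs m]; exact pow_le_one₀ (abs_nonneg _) hm
  have hm20 : 0 ≤ m ^ 2 := sq_nonneg _
  have hm4 : m ^ 4 ≤ 1 := by
    have : m ^ 4 = (m ^ 2) ^ 2 := by ring
    rw [this]; exact pow_le_one₀ hm20 hm2
  have hm40 : 0 ≤ m ^ 4 := by positivity
  have hG0 : 0 ≤ Gf m := by unfold Gf; positivity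
  have hG1 : Gf m ≤ 1 / 2 := by unfold Gf; linarith
  have hW0 : 0 ≤ Wf m := by unfold Wf; positivity
  have hW1 : Wf m ≤ 3 := by
    unfold Wf
    have : (m ^ 2 + 1) ^ 2 = m ^ 4 + 2 * m ^ 2 + 1 := by ring
    rw [this]; linarith
  obtain ⟨e, hed⟩ : ∃ e, e = lam ^ 2 * (Gf m + lam + 3 * kk / 2) + 5 * lam * kk / 2 := ⟨_, rfl⟩
  obtain ⟨w, hwd⟩ : ∃ w, w = lam ^ 2 * Wf m := ⟨_, rfl⟩
  have hH : Hf m = 1 / 2 + e := by unfold Hf Rtop; rw [hed]; ring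
  have he0 : 0 ≤ e := by rw [hed]; unfold lam kk; positivity
  have he1 : e ≤ 13 / 10 ^ 6 := by
    rw [hed]; unfold lam kk
    have : ((1 : ℝ) / 200) ^ 2 * (Gf m + 1 / 200 + 3 * (1 / 1000000) / 2) ≤
        (1 / 200) ^ 2 * (1 / 2 + 1 / 200 + 3 * (1 / 1000000) / 2) := by
      apply mul_le_mul_of_nonneg_left _ (by positivity); linarith
    have n : ((1 : ℝ) / 200) ^ 2 * (1 / 2 + 1 / 200 + 3 * (1 / 1000000) / 2)
      + 5 * (1 / 200) * (1 / 1000000) / 2 ≤ 13 / 10 ^ 6 := by norm_num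
    linarith
  have hw0 : 0 ≤ w := by rw [hwd]; unfold lam; positivity
  have hw1 : w ≤ 75 / 10 ^ 6 := by
    rw [hwd]; unfold lam
    have : ((1 : ℝ) / 200) ^ 2 * Wf m ≤ (1 / 200) ^ 2 * 3 := by
      apply mul_le_mul_of_nonneg_left hW1 (by positivity)
    have n : ((1 : ℝ) / 200) ^ 2 * 3 = 75 / 10 ^ 6 := by norm_num
    linarith
  have hkk : 0 < kk := by unfold kk; positivity
  have h1 := inv_sqrt_le w hw0 (by linarith [show (75 : ℝ) / 10 ^ 6 ≤ 1 by norm_num])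
  have h2 := HP_bound e w he0 he1 hw0 hw1
  have h3 := Q_step m kk hkk.le
  have hq : e - w / 8 = lam ^ 2 * ((7 * m ^ 4 - 2 * m ^ 2 - 1) / 32) + lam ^ 3
      + 3 * lam ^ 2 * kk / 2 + 5 * lam * kk / 2 := by
    rw [hed, hwd]; unfold Gf Wf; ring
  unfold areaTerm
  rw [← hwd, hH]
  have h4 : kk * (1 / 2 + e) ^ 2 / Real.sqrt (1 + w) = kk * ((1 / 2 + e) ^ 2 * (1 / Real.sqrt (1 + w))) := by
    ring
  rw [h4]
  have h5 : (1 / 2 + e) ^ 2 * (1 / Real.sqrt (1 + w)) ≤ (1 / 2 + e) ^ 2 * (1 - w / 2 + 3 * w ^ 2 / 8) :=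
    mul_le_mul_of_nonneg_left h1 (by positivity)
  have h6 : (1 / 2 + e) ^ 2 * (1 / Real.sqrt (1 + w)) ≤
      1 / 4 + (lam ^ 2 * ((7 * m ^ 4 - 2 * m ^ 2 - 1) / 32) + lam ^ 3
      + 3 * lam ^ 2 * kk / 2 + 5 * lam * kk / 2) + 8 / 10 ^ 10 := by
    rw [← hq]; linarith
  have h7 := mul_le_mul_of_nonneg_left h6 hkk.le
  have h8 : lam ^ 2 * (kk * ((7 * m ^ 4 - 2 * m ^ 2 - 1) / 32)) ≤
      lam ^ 2 * ((Qf (m + kk) - Qf (m - kk)) / 2 + kk ^ 3 / 48) :=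
    mul_le_mul_of_nonneg_left h3 (by unfold lam; positivity)
  have h9 : kk * (1 / 4 + (lam ^ 2 * ((7 * m ^ 4 - 2 * m ^ 2 - 1) / 32) + lam ^ 3
      + 3 * lam ^ 2 * kk / 2 + 5 * lam * kk / 2) + 8 / 10 ^ 10) =
      kk / 4 + lam ^ 2 * (kk * ((7 * m ^ 4 - 2 * m ^ 2 - 1) / 32)) +
      kk * (lam ^ 3 + 3 * lam ^ 2 * kk / 2 + 5 * lam * kk / 2 + 8 / 10 ^ 10) := by ring
  have h10 : lam ^ 2 * (kk ^ 3 / 48) + kk * (lam ^ 3 + 3 * lam ^ 2 * kk / 2 + 5 * lam * kk / 2 + 8 / 10 ^ 10)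
      ≤ kk * (1385 / 10 ^ 10) := by
    unfold lam kk; norm_num
  have h11 : lam ^ 2 * ((Qf (m + kk) - Qf (m - kk)) / 2 + kk ^ 3 / 48) =
      lam ^ 2 / 2 * (Qf (m + kk) - Qf (m - kk)) + lam ^ 2 * (kk ^ 3 / 48) := by ring
  linarith

theorem mid_abs (i : ℕ) (hi : i < Nn) : |mid i| ≤ 1 := by
  unfold mid kk
  have h1 : (i : ℝ) + 1 ≤ 1000000 := by
    have : i + 1 ≤ 1000000 := hi
    exact_mod_cast this
  have h0 : (0 : ℝ) ≤ i := Nat.cast_nonneg _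
  rw [abs_le]; constructor <;> linarith

theorem sum_bound : ∑ i ∈ Finset.range Nn, areaTerm (mid i) ≤ 1 / 4 - 5 / 10 ^ 8 := by
  have h1 : ∀ i ∈ Finset.range Nn, areaTerm (mid i) ≤
      (kk / 4 + kk * (1385 / 10 ^ 10)) +
      lam ^ 2 / 2 * (Qf (-1 + 2 * ((i + 1 : ℕ) : ℝ) * kk) - Qf (-1 + 2 * (i : ℝ) * kk)) := by
    intro i hi
    have hb := term_bound (mid i) (mid_abs i (Finset.mem_range.mp hi))
    have e1 : mid i + kk = -1 + 2 * ((i + 1 : ℕ) : ℝ) * kk := by unfold mid; push_cast; ring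
    have e2 : mid i - kk = -1 + 2 * (i : ℝ) * kk := by unfold mid; ring
    rw [e1, e2] at hb
    linarith
  refine le_trans (Finset.sum_le_sum h1) ?_
  rw [Finset.sum_add_distrib, ← Finset.mul_sum,
    Finset.sum_range_sub (fun i : ℕ => Qf (-1 + 2 * (i : ℝ) * kk)) Nn]
  simp only [Finset.sum_const, Finset.card_range, nsmul_eq_mul]
  unfold Nn Qf lam kk
  norm_num

end Crest.Agent.Lib_helper45_CC
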