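import Crest.Agent.Lib_helper45_CC1
import Crest.Agent.Lib_helper45_CC2
import Crest.Agent.Lib_helper45_CC3
import Crest.Agent.Lib_helper45_CC4

/-! # Core cover for row 211, part 5: the two fans (helper45) -/

set_option autoImplicit false

namespace Crest.Agent.Lib_helper45_CC

abbrev Cyl := E3 × E3 × E3 × E3

def cylSet (c : Cyl) : Set E3 :=
  {x | ∃ b ∈ convexHull ℝ ({c.2.1, c.2.2.1, c.2.2.2} : Set E3), ∃ t : ℝ, x = b + t • c.1}

noncomputable def cylArea (c : Cyl) : ℝ :=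
  Real.sqrt (‖c.2.2.1 - c.2.1‖ ^ 2 * ‖c.2.2.2 - c.2.1‖ ^ 2
    - inner ℝ (c.2.2.1 - c.2.1) (c.2.2.2 - c.2.1) ^ 2) / 2

def cylGood (c : Cyl) : Prop :=
  ‖c.1‖ = 1 ∧ inner ℝ c.2.1 c.1 = 0 ∧ inner ℝ c.2.2.1 c.1 = 0 ∧ inner ℝ c.2.2.2 c.1 = 0

noncomputable def cylOf (d A B C : E3) : Cyl := (unitv d, prj d A, prj d B, prj d C)

theorem cylOf_good {d : E3} (hd : d ≠ 0) (A B C : E3) : cylGood (cylOf d A B C) :=
  ⟨unitv_norm hd, prj_perp hd A, prj_perp hd B, prj_perp hd C⟩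

noncomputable def dLow (m : ℝ) : E3 := !₂[1, lam * (m ^ 2 + 1) / 2, Real.sqrt 2 * (lam * m)]
noncomputable def ptLow (y z : ℝ) : E3 := !₂[0, y, Real.sqrt 2 * z]
noncomputable def dUp (m : ℝ) : E3 := !₂[lam * (m ^ 2 + 1) / 2, -1, -(Real.sqrt 2 * (lam * m))]
noncomputable def ptUp (y z : ℝ) : E3 := !₂[y, 0, Real.sqrt 2 - Real.sqrt 2 * z]

noncomputable def yA (m : ℝ) : ℝ := -(m * (3 * lam * kk / 2))
noncomputable def zA : ℝ := -(3 * lam * kk / 2)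
noncomputable def yB (m : ℝ) : ℝ := m * (Rtop m + lam * kk) - (Rtop m + 5 * lam * kk / 2) * kk
noncomputable def yC (m : ℝ) : ℝ := m * (Rtop m + lam * kk) + (Rtop m + 5 * lam * kk / 2) * kk
noncomputable def zT (m : ℝ) : ℝ := Rtop m + lam * kk

noncomputable def lowCyl (m : ℝ) : Cyl :=
  cylOf (dLow m) (ptLow (yA m) zA) (ptLow (yB m) (zT m)) (ptLow (yC m) (zT m))
noncomputable def upCyl (m : ℝ) : Cyl :=
  cylOf (dUp m) (ptUp (yA m) zA) (ptUp (yB m) (zT m)) (ptUp (yC m) (zT m))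

theorem dLow_ne (m : ℝ) : dLow m ≠ 0 := by
  intro h
  have := congrArg (fun v : E3 => v 0) h
  simp [dLow] at this

theorem dUp_ne (m : ℝ) : dUp m ≠ 0 := by
  intro h
  have := congrArg (fun v : E3 => v 1) h
  simp [dUp] at this

theorem norm_dLow (m : ℝ) : ‖dLow m‖ = Real.sqrt (1 + lam ^ 2 * Wf m) := by
  have h : ‖dLow m‖ ^ 2 = 1 + lam ^ 2 * Wf m := by
    rw [normsq_coord]
    simp only [dLow, Wf]
    simp
    have h2 : Real.sqrt 2 ^ 2 = 2 := Real.sq_sqrt (by norm_num)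
    ring_nf
    rw [h2]; ring
  rw [← h, Real.sqrt_sq (norm_nonneg _)]

theorem norm_dUp (m : ℝ) : ‖dUp m‖ = Real.sqrt (1 + lam ^ 2 * Wf m) := by
  have h : ‖dUp m‖ ^ 2 = 1 + lam ^ 2 * Wf m := by
    rw [normsq_coord]
    simp only [dUp, Wf]
    simp
    have h2 : Real.sqrt 2 ^ 2 = 2 := Real.sq_sqrt (by norm_num)
    ring_nf
    rw [h2]; ring
  rw [← h, Real.sqrt_sq (norm_nonneg _)]

theorem kk_pos : 0 < kk := by unfold kk; positivity
theorem lam_pos : 0 < lam := by unfold lam; positivity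

theorem lowCyl_area (m : ℝ) : cylArea (lowCyl m) = Real.sqrt 2 * areaTerm m := by
  unfold cylArea lowCyl cylOf
  simp only
  rw [area_prj (dLow_ne m), norm_dLow]
  have hdet : det3 (ptLow (yB m) (zT m) - ptLow (yA m) zA) (ptLow (yC m) (zT m) - ptLow (yA m) zA)
      (dLow m) = -(2 * Real.sqrt 2 * kk * Hf m ^ 2) := by
    unfold det3 ptLow dLow yA yB yC zA zT Hf
    simp
    ring
  rw [hdet, abs_neg, abs_of_nonneg (by have := kk_pos; positivity)]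
  unfold areaTerm
  have hs : 0 < Real.sqrt (1 + lam ^ 2 * Wf m) := by
    apply Real.sqrt_pos.mpr
    have : 0 ≤ lam ^ 2 * Wf m := by unfold Wf; positivity
    linarith
  field_simp

theorem upCyl_area (m : ℝ) : cylArea (upCyl m) = Real.sqrt 2 * areaTerm m := by
  unfold cylArea upCyl cylOf
  simp only
  rw [area_prj (dUp_ne m), norm_dUp]
  have hdet : det3 (ptUp (yB m) (zT m) - ptUp (yA m) zA) (ptUp (yC m) (zT m) - ptUp (yA m) zA)
      (dUp m) = (2 * Real.sqrt 2 * kk * Hf m ^ 2) := by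
    unfold det3 ptUp dUp yA yB yC zA zT Hf
    simp
    ring
  rw [hdet, abs_of_nonneg (by have := kk_pos; positivity)]
  unfold areaTerm
  have hs : 0 < Real.sqrt (1 + lam ^ 2 * Wf m) := by
    apply Real.sqrt_pos.mpr
    have : 0 ≤ lam ^ 2 * Wf m := by unfold Wf; positivity
    linarith
  field_simp

theorem Rad_le_Rtop (t m : ℝ) (ht : |t| ≤ 1) (hm : |m| ≤ 1) (htm : |t - m| ≤ kk) :
    Rad lam t ≤ Rtop m := by
  unfold Rad Rtop Gf
  have hl2 : 0 ≤ lam ^ 2 := by positivity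
  apply add_le_add_right
  apply mul_le_mul_of_nonneg_left _ hl2
  obtain ⟨ht1, ht2⟩ := abs_le.mp ht
  obtain ⟨hm1, hm2⟩ := abs_le.mp hm
  have e : (t ^ 2 + t ^ 4) - (m ^ 2 + m ^ 4) = (t - m) * ((t + m) * (1 + t ^ 2 + m ^ 2)) := by ring
  have ht2' : t ^ 2 ≤ 1 := by nlinarith
  have hm2' : m ^ 2 ≤ 1 := by nlinarith
  have hb : |(t + m) * (1 + t ^ 2 + m ^ 2)| ≤ 6 := by
    rw [abs_mul]
    have h1 : |t + m| ≤ 2 := by rw [abs_le]; constructor <;> linarith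
    have h2 : |1 + t ^ 2 + m ^ 2| ≤ 3 := by
      rw [abs_of_nonneg (by positivity)]; linarith
    calc |t + m| * |1 + t ^ 2 + m ^ 2| ≤ 2 * 3 := mul_le_mul h1 h2 (abs_nonneg _) (by norm_num)
      _ = 6 := by norm_num
  have hc : (t - m) * ((t + m) * (1 + t ^ 2 + m ^ 2)) ≤ kk * 6 := by
    calc (t - m) * ((t + m) * (1 + t ^ 2 + m ^ 2)) ≤ |(t - m) * ((t + m) * (1 + t ^ 2 + m ^ 2))| :=
          le_abs_self _
      _ = |t - m| * |(t + m) * (1 + t ^ 2 + m ^ 2)| := abs_mul _ _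
      _ ≤ kk * 6 := mul_le_mul htm hb (abs_nonneg _) kk_pos.le
  linarith

theorem exists_mid (t : ℝ) (ht : |t| ≤ 1) : ∃ i : Fin Nn, |t - mid i| ≤ kk := by
  obtain ⟨i, hi⟩ := exists_index Nn (by unfold Nn; norm_num) t ht
  refine ⟨i, ?_⟩
  have e : (1 : ℝ) / (Nn : ℝ) = kk := by unfold Nn kk; norm_num
  rw [e] at hi
  exact hi

theorem low_cover (X : E3) (x y z t ρ : ℝ) (h0 : X 0 = x) (h1 : X 1 = y)
    (h2 : X 2 = Real.sqrt 2 * z) (hx : |x| ≤ 1) (ht : |t| ≤ 1) (hρ0 : 0 ≤ ρ) (hρ : ρ ≤ Rad lam t)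
    (e1 : z = lam * x * t + ρ) (e2 : y = lam * x * (t ^ 2 + 1) / 2 + ρ * t) :
    ∃ i : Fin Nn, X ∈ cylSet (lowCyl (mid i)) := by
  obtain ⟨i, hi⟩ := exists_mid t ht
  refine ⟨i, ?_⟩
  obtain ⟨α, β, γ, hα, hβ, hγ, hs, hy, hz⟩ := slice_bary lam kk (mid i) (Rtop (mid i)) x t ρ lam_pos
    kk_pos hx hi hρ0 (le_trans hρ (Rad_le_Rtop t (mid i) ht (mid_abs i i.2) hi))
  unfold cylSet lowCyl cylOf
  refine mem_cyl (dLow_ne _) _ _ _ X α β γ x hα hβ hγ hs ?_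
  ext j
  fin_cases j
  · simp [ptLow, dLow, h0]
  · simp [ptLow, dLow, h1, yA, yB, yC]
    rw [e2]; linarith
  · simp [ptLow, dLow, h2, zA, zT]
    have : z = α * (-(3 * lam * kk / 2)) + β * (Rtop (mid i) + lam * kk)
        + γ * (Rtop (mid i) + lam * kk) + x * (lam * mid i) := by
      rw [← hz, e1]; ring
    rw [this]; ring

theorem up_cover (X : E3) (x y z t ρ : ℝ) (h0 : X 0 = x) (h1 : X 1 = y)
    (h2 : X 2 = Real.sqrt 2 * z) (hy' : |y| ≤ 1) (ht : |t| ≤ 1) (hρ0 : 0 ≤ ρ) (hρ : ρ ≤ Rad lam t)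
    (e1 : 1 - z = lam * (-y) * t + ρ) (e2 : x = lam * (-y) * (t ^ 2 + 1) / 2 + ρ * t) :
    ∃ i : Fin Nn, X ∈ cylSet (upCyl (mid i)) := by
  obtain ⟨i, hi⟩ := exists_mid t ht
  refine ⟨i, ?_⟩
  obtain ⟨α, β, γ, hα, hβ, hγ, hs, hy, hz⟩ := slice_bary lam kk (mid i) (Rtop (mid i)) (-y) t ρ lam_pos
    kk_pos (by rwa [abs_neg]) hi hρ0 (le_trans hρ (Rad_le_Rtop t (mid i) ht (mid_abs i i.2) hi))
  unfold cylSet upCyl cylOf
  refine mem_cyl (dUp_ne _) _ _ _ X α β γ (-y) hα hβ hγ hs ?_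
  ext j
  fin_cases j
  · simp [ptUp, dUp, h0, yA, yB, yC]
    rw [e2]; linarith
  · simp [ptUp, dUp, h1]
  · simp [ptUp, dUp, h2, zA, zT]
    have hz' : z = 1 - (α * (-(3 * lam * kk / 2)) + β * (Rtop (mid i) + lam * kk)
        + γ * (Rtop (mid i) + lam * kk)) + y * (lam * mid i) := by
      rw [← hz]; linarith
    have hα' : α = 1 - β - γ := by linarith
    rw [hz', hα']; ring

theorem fans_cover (X : E3)
    (hX : X ∈ convexHull ℝ ({!₂[1, 0, 0], !₂[-1, 0, 0], !₂[0, 1, Real.sqrt 2],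
      !₂[0, -1, Real.sqrt 2]} : Set E3)) :
    (∃ i : Fin Nn, X ∈ cylSet (lowCyl (mid i))) ∨ (∃ i : Fin Nn, X ∈ cylSet (upCyl (mid i))) := by
  obtain ⟨z, h2, hx, hy⟩ := K_coord X hX
  have hz0 : 0 ≤ z := le_trans (abs_nonneg _) hy
  have hz1 : z ≤ 1 := by linarith [abs_nonneg (X 0)]
  obtain ⟨t1, r1, ht1, hr1, e1, e2⟩ := sheet_exists (lam * X 0) (X 1) z hy
  obtain ⟨t2, r2, ht2, hr2, e3, e4⟩ := sheet_exists (lam * (-(X 1))) (X 0) (1 - z) hx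
  rcases two_fans lam (X 0) (X 1) z t1 r1 t2 r2 lam_pos (by unfold lam; norm_num) ht1 ht2 e1 e2 e3 e4
    with h | h
  · exact Or.inl (low_cover X (X 0) (X 1) z t1 r1 rfl rfl h2 (by linarith) ht1 hr1 h e1 e2)
  · exact Or.inr (up_cover X (X 0) (X 1) z t2 r2 rfl rfl h2 (by linarith) ht2 hr2 h e3 e4)

end Crest.Agent.Lib_helper45_CC
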