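import Crest.Agent.Lib_helper45_CC5

/-! # Core cover for row 211 (S0324 -- S0329): exported statements (helper45)

`core_cover_exact`: for every `M ≥ 2000001` and every `S ≥ √2 (1/2 - 10⁻⁷)` the tetrahedron
`conv {(±1,0,0), (0,±1,√2)}` is covered by exactly `M` cylinders with triangular bases whose
"Gram areas" `√(‖q-p‖²‖r-p‖² - ⟪q-p,r-p⟫²)/2` add up to exactly `S`.
-/

set_option autoImplicit false

namespace Crest.Agent.Lib_helper45_CC

noncomputable def zeroCyl : Cyl := (!₂[1, 0, 0], 0, 0, 0)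
noncomputable def fillCyl (a : ℝ) : Cyl := (!₂[1, 0, 0], 0, !₂[0, 2 * a, 0], !₂[0, 0, 1])

theorem norm_e0 : ‖(!₂[1, 0, 0] : E3)‖ = 1 := by
  have h : ‖(!₂[1, 0, 0] : E3)‖ ^ 2 = 1 := by rw [normsq_coord]; simp
  have h0 := norm_nonneg (!₂[1, 0, 0] : E3)
  nlinarith

theorem zeroCyl_good : cylGood zeroCyl := by
  refine ⟨norm_e0, ?_, ?_, ?_⟩ <;> simp [zeroCyl]

theorem zeroCyl_area : cylArea zeroCyl = 0 := by
  simp [cylArea, zeroCyl]

theorem fillCyl_good (a : ℝ) : cylGood (fillCyl a) := by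
  refine ⟨norm_e0, ?_, ?_, ?_⟩ <;> simp [fillCyl, inner_coord]

theorem fillCyl_area (a : ℝ) (ha : 0 ≤ a) : cylArea (fillCyl a) = a := by
  unfold cylArea fillCyl
  simp only [sub_zero]
  rw [normsq_coord, normsq_coord, inner_coord]
  simp
  rw [show (2 * a) ^ 2 = (2 * a) ^ 2 from rfl, Real.sqrt_sq (by positivity)]
  ring

theorem assemble (Ks : Set E3) (n r : ℕ) (c : Fin n → Cyl) (hgood : ∀ i, cylGood (c i))
    (hcov : Ks ⊆ ⋃ i, cylSet (c i)) (S : ℝ) (hS : ∑ i, cylArea (c i) ≤ S) :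
    ∃ c' : Fin (n + 1 + r) → Cyl, (∀ i, cylGood (c' i)) ∧ Ks ⊆ ⋃ i, cylSet (c' i) ∧
      ∑ i, cylArea (c' i) = S := by
  refine ⟨Fin.append (Fin.append c (fun _ : Fin 1 => fillCyl (S - ∑ i, cylArea (c i))))
    (fun _ : Fin r => zeroCyl), ?_, ?_, ?_⟩
  · intro i
    refine Fin.addCases (fun i => ?_) (fun i => ?_) i
    · rw [Fin.append_left]
      refine Fin.addCases (fun i => ?_) (fun i => ?_) i
      · rw [Fin.append_left]; exact hgood i
      · rw [Fin.append_right]; exact fillCyl_good _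
    · rw [Fin.append_right]; exact zeroCyl_good
  · intro x hx
    obtain ⟨i, hi⟩ := Set.mem_iUnion.mp (hcov hx)
    refine Set.mem_iUnion.mpr ⟨Fin.castAdd r (Fin.castAdd 1 i), ?_⟩
    rw [Fin.append_left, Fin.append_left]; exact hi
  · rw [Fin.sum_univ_add, Fin.sum_univ_add]
    simp only [Fin.append_left, Fin.append_right]
    simp only [Finset.univ_unique, Finset.sum_const, Finset.card_singleton, one_smul,
      zeroCyl_area, Finset.card_univ, smul_zero, add_zero]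
    rw [fillCyl_area _ (by linarith)]
    ring

noncomputable def fans : Fin (Nn + Nn) → Cyl :=
  Fin.append (fun i : Fin Nn => lowCyl (mid i)) (fun i : Fin Nn => upCyl (mid i))

theorem fans_good (i : Fin (Nn + Nn)) : cylGood (fans i) := by
  unfold fans
  refine Fin.addCases (fun i => ?_) (fun i => ?_) i
  · rw [Fin.append_left]; exact cylOf_good (dLow_ne _) _ _ _
  · rw [Fin.append_right]; exact cylOf_good (dUp_ne _) _ _ _

theorem fans_cov : convexHull ℝ ({!₂[1, 0, 0], !₂[-1, 0, 0], !₂[0, 1, Real.sqrt 2],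
      !₂[0, -1, Real.sqrt 2]} : Set E3) ⊆ ⋃ i, cylSet (fans i) := by
  intro X hX
  rcases fans_cover X hX with ⟨i, hi⟩ | ⟨i, hi⟩
  · refine Set.mem_iUnion.mpr ⟨Fin.castAdd Nn i, ?_⟩
    unfold fans; rw [Fin.append_left]; exact hi
  · refine Set.mem_iUnion.mpr ⟨Fin.natAdd Nn i, ?_⟩
    unfold fans; rw [Fin.append_right]; exact hi

theorem fans_area : ∑ i, cylArea (fans i) ≤ Real.sqrt 2 * (1 / 2 - 1 / 10 ^ 7) := by
  unfold fans
  rw [Fin.sum_univ_add]
  simp only [Fin.append_left, Fin.append_right, lowCyl_area, upCyl_area]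
  rw [← Finset.mul_sum, ← Finset.sum_range (fun i => areaTerm (mid i))]
  have h := sum_bound
  have hs : 0 ≤ Real.sqrt 2 := Real.sqrt_nonneg _
  nlinarith

end Crest.Agent.Lib_helper45_CC

namespace Crest.Agent.Lib_helper45_CoreCover

open Crest.Agent.Lib_helper45_CC

/-- **Core cover**, measure free. -/
theorem core_cover_exact (M : ℕ) (hM : 2000001 ≤ M) (S : ℝ)
    (hS : Real.sqrt 2 * (1 / 2 - 1 / 10 ^ 7) ≤ S) :
    ∃ (u p q r : Fin M → EuclideanSpace ℝ (Fin 3)),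
      (∀ i, ‖u i‖ = 1) ∧
      (∀ i, inner ℝ (p i) (u i) = 0 ∧ inner ℝ (q i) (u i) = 0 ∧ inner ℝ (r i) (u i) = 0) ∧
      convexHull ℝ {!₂[1, 0, 0], !₂[-1, 0, 0], !₂[0, 1, Real.sqrt 2], !₂[0, -1, Real.sqrt 2]} ⊆
        ⋃ i, {x : EuclideanSpace ℝ (Fin 3) | ∃ b ∈ convexHull ℝ {p i, q i, r i}, ∃ t : ℝ,
          x = b + t • u i} ∧
      ∑ i, Real.sqrt (‖q i - p i‖ ^ 2 * ‖r i - p i‖ ^ 2 - inner ℝ (q i - p i) (r i - p i) ^ 2) / 2
        = S := by
  obtain ⟨r, hr⟩ : ∃ r, M = Nn + Nn + 1 + r := by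
    obtain ⟨r, hr⟩ := Nat.exists_eq_add_of_le hM
    exact ⟨r, by rw [hr]; unfold Nn; norm_num⟩
  subst hr
  obtain ⟨c, hg, hc, hs⟩ := assemble _ (Nn + Nn) r fans fans_good fans_cov S
    (le_trans fans_area hS)
  exact ⟨fun i => (c i).1, fun i => (c i).2.1, fun i => (c i).2.2.1, fun i => (c i).2.2.2,
    fun i => (hg i).1, fun i => (hg i).2, hc, hs⟩

end Crest.Agent.Lib_helper45_CoreCover
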