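import Mathlib

set_option autoImplicit false
open MeasureTheory Set
open scoped ENNReal NNReal

namespace Crest.Agent.PL

/-- 1-D Brunn–Minkowski for nonempty compact sets. -/
lemma bm1_compact {K L C : Set ℝ} (hK : IsCompact K) (hL : IsCompact L)
    (hKn : K.Nonempty) (hLn : L.Nonempty)
    (h : ∀ x ∈ K, ∀ y ∈ L, x + y ∈ C) : volume K + volume L ≤ volume C := by
  obtain ⟨a, haK, ha⟩ := hK.exists_isGreatest hKn
  obtain ⟨b, hbL, hb⟩ := hL.exists_isLeast hLn
  have h1 : volume K ≤ volume (C ∩ Iic (a + b)) := by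
    rw [← measure_preimage_add_right volume b (C ∩ Iic (a + b))]
    apply measure_mono
    intro x hx
    exact ⟨h x hx b hbL, by simpa using ha hx⟩
  have h2 : volume L ≤ volume (C \ Iic (a + b)) := by
    have h3 : volume L = volume (L \ {b}) := (measure_sdiff_null (by simp)).symm
    rw [h3, ← measure_preimage_add volume a (C \ Iic (a + b))]
    apply measure_mono
    intro y hy
    refine ⟨h a haK y hy.1, ?_⟩
    have h4 : b ≤ y := hb hy.1
    have h5 : y ≠ b := hy.2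
    simp only [mem_Iic, not_le]
    have : b < y := lt_of_le_of_ne h4 (Ne.symm h5)
    linarith
  calc volume K + volume L ≤ volume (C ∩ Iic (a + b)) + volume (C \ Iic (a + b)) :=
        add_le_add h1 h2
    _ = volume C := measure_inter_add_sdiff C measurableSet_Iic

/-- 1-D Brunn–Minkowski for nonempty measurable sets (`C` arbitrary). -/
lemma bm1 {A B C : Set ℝ} (hA : MeasurableSet A) (hB : MeasurableSet B)
    (hAn : A.Nonempty) (hBn : B.Nonempty)
    (h : ∀ x ∈ A, ∀ y ∈ B, x + y ∈ C) : volume A + volume B ≤ volume C := by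
  obtain ⟨x₀, hx₀⟩ := hAn
  obtain ⟨y₀, hy₀⟩ := hBn
  have hA' : volume A = ⨆ K, ⨆ (_ : K ⊆ A ∧ IsCompact K), volume K := by
    rw [hA.measure_eq_iSup_isCompact]; simp only [iSup_and]
  have hB' : volume B = ⨆ K, ⨆ (_ : K ⊆ B ∧ IsCompact K), volume K := by
    rw [hB.measure_eq_iSup_isCompact]; simp only [iSup_and]
  rw [hA', hB']
  refine ENNReal.biSup_add_biSup_le' ⟨∅, by simp⟩ ⟨∅, by simp⟩ ?_
  rintro K ⟨hKA, hK⟩ L ⟨hLB, hL⟩
  have := bm1_compact (K := insert x₀ K) (L := insert y₀ L) (C := C) (hK.insert x₀) (hL.insert y₀)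
    (insert_nonempty _ _) (insert_nonempty _ _)
    (fun x hx y hy => h x (insert_subset hx₀ hKA hx) y (insert_subset hy₀ hLB hy))
  exact (add_le_add (measure_mono (subset_insert _ _)) (measure_mono (subset_insert _ _))).trans this


/-- Layer cake for finite `ℝ≥0∞`-valued functions. -/
lemma lintegral_eq_layer {α : Type*} [MeasurableSpace α] (μ : Measure α) {f : α → ℝ≥0∞}
    (hf : Measurable f) (hfin : ∀ x, f x ≠ ∞) :
    ∫⁻ x, f x ∂μ = ∫⁻ s in Ioi (0:ℝ), μ {x | ENNReal.ofReal s < f x} := by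
  have h1 : ∫⁻ x, f x ∂μ = ∫⁻ x, ENNReal.ofReal (f x).toReal ∂μ := by
    apply lintegral_congr; intro x; rw [ENNReal.ofReal_toReal (hfin x)]
  rw [h1, lintegral_eq_lintegral_meas_lt μ
    (Filter.Eventually.of_forall fun x => ENNReal.toReal_nonneg) hf.ennreal_toReal.aemeasurable]
  apply setLIntegral_congr_fun measurableSet_Ioi
  intro s hs
  apply congrArg μ; ext x
  show s < (f x).toReal ↔ ENNReal.ofReal s < f x
  rw [ENNReal.ofReal_lt_iff_lt_toReal (le_of_lt hs) (hfin x)]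

lemma measurable_layer {α : Type*} [MeasurableSpace α] (μ : Measure α) (f : α → ℝ≥0∞) :
    Measurable (fun s : ℝ => μ {x | ENNReal.ofReal s < f x}) := by
  apply Antitone.measurable
  intro a b hab
  apply measure_mono
  intro x hx
  exact lt_of_le_of_lt (ENNReal.ofReal_le_ofReal hab) hx

lemma pl1_normalized {t : ℝ} (ht0 : 0 < t) (ht1 : t < 1) {f g h : ℝ → ℝ≥0∞}
    (hf : Measurable f) (hg : Measurable g) (hh : Measurable h)
    (hf1 : ∀ x, f x ≤ 1) (hg1 : ∀ x, g x ≤ 1)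
    (hfs : ∀ c < 1, ∃ x, c < f x) (hgs : ∀ c < 1, ∃ y, c < g y)
    (H : ∀ x y, f x ^ (1 - t) * g y ^ t ≤ h ((1 - t) * x + t * y)) :
    ENNReal.ofReal (1 - t) * (∫⁻ x, f x) + ENNReal.ofReal t * (∫⁻ x, g x) ≤ ∫⁻ x, h x := by
  have ht1' : 0 < 1 - t := by linarith
  set h₁ : ℝ → ℝ≥0∞ := fun x => min (h x) 1 with hh₁
  have hh₁m : Measurable h₁ := hh.min measurable_const
  have key : ∀ s ∈ Ioi (0:ℝ), ENNReal.ofReal (1 - t) * volume {x | ENNReal.ofReal s < f x}
      + ENNReal.ofReal t * volume {x | ENNReal.ofReal s < g x}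
      ≤ volume {x | ENNReal.ofReal s < h₁ x} := by
    intro s hs
    have hs0 : (0:ℝ) < s := hs
    rcases le_or_gt 1 s with hs1 | hs1
    · have e1 : {x | ENNReal.ofReal s < f x} = ∅ := by
        apply eq_empty_of_forall_notMem
        intro x hx
        exact absurd (lt_of_lt_of_le hx (hf1 x)) (not_lt.2 (by simpa using ENNReal.ofReal_le_ofReal hs1))
      have e2 : {x | ENNReal.ofReal s < g x} = ∅ := by
        apply eq_empty_of_forall_notMem
        intro x hx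
        exact absurd (lt_of_lt_of_le hx (hg1 x)) (not_lt.2 (by simpa using ENNReal.ofReal_le_ofReal hs1))
      rw [e1, e2]; simp
    · have hs1' : ENNReal.ofReal s < 1 := by
        simpa using (ENNReal.ofReal_lt_ofReal_iff one_pos).2 hs1
      set A := {x | ENNReal.ofReal s < f x} with hA
      set B := {x | ENNReal.ofReal s < g x} with hB
      have hAm : MeasurableSet A := measurableSet_lt measurable_const hf
      have hBm : MeasurableSet B := measurableSet_lt measurable_const hg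
      have hAn : A.Nonempty := hfs _ hs1'
      have hBn : B.Nonempty := hgs _ hs1'
      have vA : volume (((1 - t)⁻¹ * ·) ⁻¹' A) = ENNReal.ofReal (1 - t) * volume A := by
        rw [Real.volume_preimage_mul_left (inv_ne_zero ht1'.ne'), inv_inv, abs_of_pos ht1']
      have vB : volume ((t⁻¹ * ·) ⁻¹' B) = ENNReal.ofReal t * volume B := by
        rw [Real.volume_preimage_mul_left (inv_ne_zero ht0.ne'), inv_inv, abs_of_pos ht0]
      rw [← vA, ← vB]
      apply bm1 ((measurable_const_mul _) hAm) ((measurable_const_mul _) hBm)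
      · obtain ⟨x, hx⟩ := hAn
        refine ⟨(1 - t) * x, ?_⟩
        simp only [mem_preimage]
        rwa [inv_mul_cancel_left₀ ht1'.ne']
      · obtain ⟨x, hx⟩ := hBn
        refine ⟨t * x, ?_⟩
        simp only [mem_preimage]
        rwa [inv_mul_cancel_left₀ ht0.ne']
      · intro u hu v hv
        have hu' : ENNReal.ofReal s < f ((1 - t)⁻¹ * u) := hu
        have hv' : ENNReal.ofReal s < g (t⁻¹ * v) := hv
        have h1 := H ((1 - t)⁻¹ * u) (t⁻¹ * v)
        rw [mul_inv_cancel_left₀ ht1'.ne', mul_inv_cancel_left₀ ht0.ne'] at h1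
        have hs_ne : ENNReal.ofReal s ≠ 0 := by simpa using hs0
        have h2 : ENNReal.ofReal s = ENNReal.ofReal s ^ (1 - t) * ENNReal.ofReal s ^ t := by
          rw [← ENNReal.rpow_add _ _ hs_ne ENNReal.ofReal_ne_top]; simp
        have h3 : ENNReal.ofReal s < h (u + v) := by
          refine lt_of_lt_of_le ?_ h1
          rw [h2]
          conv_lhs => rw [← h2]
          rw [h2]
          exact ENNReal.mul_lt_mul (ENNReal.rpow_lt_rpow hu' ht1') (ENNReal.rpow_lt_rpow hv' ht0)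
        exact lt_min h3 hs1'
  calc ENNReal.ofReal (1 - t) * (∫⁻ x, f x) + ENNReal.ofReal t * (∫⁻ x, g x)
      = ENNReal.ofReal (1 - t) * (∫⁻ s in Ioi (0:ℝ), volume {x | ENNReal.ofReal s < f x})
        + ENNReal.ofReal t * (∫⁻ s in Ioi (0:ℝ), volume {x | ENNReal.ofReal s < g x}) := by
        rw [lintegral_eq_layer volume hf (fun x => ((hf1 x).trans_lt ENNReal.one_lt_top).ne),
          lintegral_eq_layer volume hg (fun x => ((hg1 x).trans_lt ENNReal.one_lt_top).ne)]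
    _ = ∫⁻ s in Ioi (0:ℝ), (ENNReal.ofReal (1 - t) * volume {x | ENNReal.ofReal s < f x}
        + ENNReal.ofReal t * volume {x | ENNReal.ofReal s < g x}) := by
        rw [lintegral_add_left ((measurable_layer volume f).const_mul _),
          lintegral_const_mul _ (measurable_layer volume f),
          lintegral_const_mul _ (measurable_layer volume g)]
    _ ≤ ∫⁻ s in Ioi (0:ℝ), volume {x | ENNReal.ofReal s < h₁ x} :=
        setLIntegral_mono' measurableSet_Ioi key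
    _ = ∫⁻ x, h₁ x := by
        rw [lintegral_eq_layer volume hh₁m
          (fun x => ((min_le_right _ _).trans_lt ENNReal.one_lt_top).ne)]
    _ ≤ ∫⁻ x, h x := lintegral_mono (fun x => min_le_left _ _)


lemma amgm {t : ℝ} (ht0 : 0 < t) (ht1 : t < 1) (A B : ℝ≥0∞) :
    A ^ (1 - t) * B ^ t ≤ ENNReal.ofReal (1 - t) * A + ENNReal.ofReal t * B := by
  have ht1' : 0 < 1 - t := by linarith
  rcases eq_or_ne A ∞ with rfl | hA
  · rw [ENNReal.mul_top (by simpa using ht1')]; simp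
  rcases eq_or_ne B ∞ with rfl | hB
  · rw [ENNReal.mul_top (by simpa using ht0)]; simp
  lift A to ℝ≥0 using hA
  lift B to ℝ≥0 using hB
  have h := NNReal.geom_mean_le_arith_mean2_weighted (Real.toNNReal (1 - t)) (Real.toNNReal t) A B
    (by rw [← Real.toNNReal_add ht1'.le ht0.le]; simp)
  rw [Real.coe_toNNReal _ ht1'.le, Real.coe_toNNReal _ ht0.le] at h
  rw [← ENNReal.coe_rpow_of_nonneg _ ht1'.le, ← ENNReal.coe_rpow_of_nonneg _ ht0.le]
  simp only [ENNReal.ofReal]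
  exact_mod_cast h

/-- 1-D Prékopa–Leindler when both suprema are finite and positive. -/
lemma pl1_sup {t : ℝ} (ht0 : 0 < t) (ht1 : t < 1) {f g h : ℝ → ℝ≥0∞}
    (hf : Measurable f) (hg : Measurable g) (hh : Measurable h)
    (hF0 : (⨆ x, f x) ≠ 0) (hFt : (⨆ x, f x) ≠ ∞)
    (hG0 : (⨆ x, g x) ≠ 0) (hGt : (⨆ x, g x) ≠ ∞)
    (H : ∀ x y, f x ^ (1 - t) * g y ^ t ≤ h ((1 - t) * x + t * y)) :
    (∫⁻ x, f x) ^ (1 - t) * (∫⁻ x, g x) ^ t ≤ ∫⁻ x, h x := by
  have ht1' : 0 < 1 - t := by linarith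
  set F := ⨆ x, f x with hF
  set G := ⨆ x, g x with hG
  set a := F⁻¹ with ha
  set b := G⁻¹ with hb
  have ha0 : a ≠ 0 := ENNReal.inv_ne_zero.2 hFt
  have hat : a ≠ ∞ := ENNReal.inv_ne_top.2 hF0
  have hb0 : b ≠ 0 := ENNReal.inv_ne_zero.2 hGt
  have hbt : b ≠ ∞ := ENNReal.inv_ne_top.2 hG0
  set c := a ^ (1 - t) * b ^ t with hc
  have hc0 : c ≠ 0 := by
    apply mul_ne_zero
    · simp [ENNReal.rpow_eq_zero_iff, ha0, hat]
    · simp [ENNReal.rpow_eq_zero_iff, hb0, hbt]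
  have hct : c ≠ ∞ :=
    ENNReal.mul_ne_top (ENNReal.rpow_ne_top_of_nonneg ht1'.le hat)
      (ENNReal.rpow_ne_top_of_nonneg ht0.le hbt)
  have sc : ∀ A B : ℝ≥0∞, (a * A) ^ (1 - t) * (b * B) ^ t = c * (A ^ (1 - t) * B ^ t) := by
    intro A B
    rw [ENNReal.mul_rpow_of_nonneg _ _ ht1'.le, ENNReal.mul_rpow_of_nonneg _ _ ht0.le, hc]
    ring
  have aux : ∀ (u : ℝ → ℝ≥0∞) (U : ℝ≥0∞), U = ⨆ x, u x → U ≠ 0 → U ≠ ∞ →
      (∀ x, U⁻¹ * u x ≤ 1) ∧ (∀ e < 1, ∃ x, e < U⁻¹ * u x) := by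
    intro u U hU hU0 hUt
    constructor
    · intro x
      calc U⁻¹ * u x ≤ U⁻¹ * U := by gcongr; rw [hU]; exact le_iSup u x
        _ = 1 := ENNReal.inv_mul_cancel hU0 hUt
    · intro e he
      have h1 : e * U < U := by
        calc e * U < 1 * U := (ENNReal.mul_lt_mul_iff_left hU0 hUt).2 he
          _ = U := one_mul U
      conv_rhs at h1 => rw [hU]
      obtain ⟨x, hx⟩ := lt_iSup_iff.1 h1
      refine ⟨x, ?_⟩
      calc e = U⁻¹ * (e * U) := by
            rw [mul_comm e U, ← mul_assoc, ENNReal.inv_mul_cancel hU0 hUt, one_mul]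
        _ < U⁻¹ * u x :=
            (ENNReal.mul_lt_mul_iff_right (ENNReal.inv_ne_zero.2 hUt) (ENNReal.inv_ne_top.2 hU0)).2 hx
  obtain ⟨hf1, hfs⟩ := aux f F hF hF0 hFt
  obtain ⟨hg1, hgs⟩ := aux g G hG hG0 hGt
  have key := pl1_normalized ht0 ht1 (f := fun x => a * f x) (g := fun x => b * g x)
    (h := fun x => c * h x) (hf.const_mul _) (hg.const_mul _) (hh.const_mul _) hf1 hg1 hfs hgs
    (by
      intro x y
      rw [sc]
      gcongr
      exact H x y)
  have key2 := (amgm ht0 ht1 (∫⁻ x, a * f x) (∫⁻ x, b * g x)).trans key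
  rw [lintegral_const_mul _ hf, lintegral_const_mul _ hg, lintegral_const_mul _ hh, sc] at key2
  exact (ENNReal.mul_le_mul_iff_right hc0 hct).1 key2


lemma pl1_bdd {t : ℝ} (ht0 : 0 < t) (ht1 : t < 1) {f g h : ℝ → ℝ≥0∞}
    (hf : Measurable f) (hg : Measurable g) (hh : Measurable h)
    (M : ℝ≥0∞) (hM : M ≠ ∞) (hfM : ∀ x, f x ≤ M) (hgM : ∀ x, g x ≤ M)
    (H : ∀ x y, f x ^ (1 - t) * g y ^ t ≤ h ((1 - t) * x + t * y)) :
    (∫⁻ x, f x) ^ (1 - t) * (∫⁻ x, g x) ^ t ≤ ∫⁻ x, h x := by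
  have ht1' : 0 < 1 - t := by linarith
  by_cases hF0 : (⨆ x, f x) = 0
  · have h0 : ∀ x, f x = 0 := ENNReal.iSup_eq_zero.1 hF0
    simp [h0, ENNReal.zero_rpow_of_pos ht1']
  by_cases hG0 : (⨆ x, g x) = 0
  · have h0 : ∀ x, g x = 0 := ENNReal.iSup_eq_zero.1 hG0
    simp [h0, ENNReal.zero_rpow_of_pos ht0]
  exact pl1_sup ht0 ht1 hf hg hh hF0 (ne_top_of_le_ne_top hM (iSup_le hfM)) hG0
    (ne_top_of_le_ne_top hM (iSup_le hgM)) H

lemma lintegral_eq_iSup_trunc {α : Type*} [MeasurableSpace α] (μ : Measure α) {u : α → ℝ≥0∞}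
    (hu : Measurable u) : ∫⁻ x, u x ∂μ = ⨆ n : ℕ, ∫⁻ x, min (u x) n ∂μ := by
  rw [← lintegral_iSup (fun n => hu.min measurable_const)]
  · apply lintegral_congr
    intro x
    rw [← inf_iSup_eq, ENNReal.iSup_natCast]; simp
  · intro n m hnm x
    exact min_le_min le_rfl (by exact_mod_cast hnm)

lemma iSup_rpow_mul_le {p q : ℝ} (hp : 0 < p) (hq : 0 < q) (a b : ℕ → ℝ≥0∞) (c : ℝ≥0∞)
    (h : ∀ n m, a n ^ p * b m ^ q ≤ c) : (⨆ n, a n) ^ p * (⨆ n, b n) ^ q ≤ c := by
  have rp : ∀ (p : ℝ) (hp : 0 < p) (a : ℕ → ℝ≥0∞), (⨆ n, a n) ^ p = ⨆ n, (a n) ^ p :=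
    fun p hp a => (ENNReal.orderIsoRpow p hp).map_iSup a
  rw [rp p hp, rp q hq, ENNReal.iSup_mul]
  refine iSup_le fun n => ?_
  rw [ENNReal.mul_iSup]
  exact iSup_le fun m => h n m

/-- **Prékopa–Leindler on the real line**, `ℝ≥0∞`-valued measurable functions. -/
theorem pl1 {t : ℝ} (ht0 : 0 < t) (ht1 : t < 1) {f g h : ℝ → ℝ≥0∞}
    (hf : Measurable f) (hg : Measurable g) (hh : Measurable h)
    (H : ∀ x y, f x ^ (1 - t) * g y ^ t ≤ h ((1 - t) * x + t * y)) :
    (∫⁻ x, f x) ^ (1 - t) * (∫⁻ x, g x) ^ t ≤ ∫⁻ x, h x := by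
  have ht1' : 0 < 1 - t := by linarith
  rw [lintegral_eq_iSup_trunc volume hf, lintegral_eq_iSup_trunc volume hg]
  apply iSup_rpow_mul_le ht1' ht0
  intro n m
  apply pl1_bdd ht0 ht1 (hf.min measurable_const) (hg.min measurable_const) hh
    (max (n : ℝ≥0∞) m) (by simp)
    (fun x => (min_le_right _ _).trans (le_max_left _ _))
    (fun x => (min_le_right _ _).trans (le_max_right _ _))
  intro x y
  refine le_trans ?_ (H x y)
  gcongr
  · exact min_le_left _ _
  · exact min_le_left _ _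

/-- The Prékopa–Leindler property of a measure on a real vector space. -/
def PLProp {E : Type*} [AddCommGroup E] [Module ℝ E] [MeasurableSpace E] (μ : Measure E) : Prop :=
  ∀ t : ℝ, 0 < t → t < 1 → ∀ f g h : E → ℝ≥0∞, Measurable f → Measurable g → Measurable h →
    (∀ x y, f x ^ (1 - t) * g y ^ t ≤ h ((1 - t) • x + t • y)) →
    (∫⁻ x, f x ∂μ) ^ (1 - t) * (∫⁻ x, g x ∂μ) ^ t ≤ ∫⁻ x, h x ∂μ

lemma plProp_real : PLProp (volume : Measure ℝ) := by
  intro t ht0 ht1 f g h hf hg hh H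
  exact pl1 ht0 ht1 hf hg hh (by simpa using H)

lemma PLProp.prod {E₁ E₂ : Type*} [AddCommGroup E₁] [Module ℝ E₁] [MeasurableSpace E₁]
    [AddCommGroup E₂] [Module ℝ E₂] [MeasurableSpace E₂] {μ₁ : Measure E₁} {μ₂ : Measure E₂}
    [SFinite μ₂] (h₁ : PLProp μ₁) (h₂ : PLProp μ₂) : PLProp (μ₁.prod μ₂) := by
  intro t ht0 ht1 f g h hf hg hh H
  rw [lintegral_prod _ hf.aemeasurable, lintegral_prod _ hg.aemeasurable,
    lintegral_prod _ hh.aemeasurable]
  apply h₁ t ht0 ht1 _ _ _ hf.lintegral_prod_right' hg.lintegral_prod_right'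
    hh.lintegral_prod_right'
  intro x₁ y₁
  apply h₂ t ht0 ht1 _ _ _ (hf.comp measurable_prodMk_left) (hg.comp measurable_prodMk_left)
    (hh.comp measurable_prodMk_left)
  intro x₂ y₂
  exact H (x₁, x₂) (y₁, y₂)

lemma PLProp.of_equiv {E E' : Type*} [AddCommGroup E] [Module ℝ E] [MeasurableSpace E]
    [AddCommGroup E'] [Module ℝ E'] [MeasurableSpace E'] {μ : Measure E} {μ' : Measure E'}
    (e : E → E') (hlin : ∀ (a b : ℝ) (x y : E), e (a • x + b • y) = a • e x + b • e y)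
    (hmp : MeasurePreserving e μ μ') (hP : PLProp μ) : PLProp μ' := by
  intro t ht0 ht1 f g h hf hg hh H
  rw [← hmp.lintegral_comp hf, ← hmp.lintegral_comp hg, ← hmp.lintegral_comp hh]
  apply hP t ht0 ht1 _ _ _ (hf.comp hmp.measurable) (hg.comp hmp.measurable)
    (hh.comp hmp.measurable)
  intro x y
  simp only [Function.comp, hlin]
  exact H (e x) (e y)


lemma plProp_dirac {E : Type*} [AddCommGroup E] [Module ℝ E] [MeasurableSpace E]
    [MeasurableSingletonClass E] : PLProp (Measure.dirac (0 : E)) := by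
  intro t ht0 ht1 f g h hf hg hh H
  rw [lintegral_dirac, lintegral_dirac, lintegral_dirac]
  simpa using H 0 0

lemma plProp_pi (n : ℕ) : PLProp (volume : Measure (Fin n → ℝ)) := by
  induction n with
  | zero =>
    rw [Measure.volume_pi_eq_dirac (0 : Fin 0 → ℝ)]
    exact plProp_dirac
  | succ n ih =>
    have hmp := (volume_preserving_piFinSuccAbove (fun _ : Fin (n + 1) => ℝ) 0).symm
    refine PLProp.of_equiv _ ?_ hmp (plProp_real.prod ih)
    intro a b x y
    apply (MeasurableEquiv.piFinSuccAbove (fun _ : Fin (n + 1) => ℝ) 0).injective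
    rw [MeasurableEquiv.apply_symm_apply]
    ext i <;> simp [MeasurableEquiv.piFinSuccAbove, Fin.tail, Fin.consEquiv]

/-- **Prékopa–Leindler inequality** on `EuclideanSpace ℝ (Fin d)`. -/
lemma plProp_euclidean (d : ℕ) : PLProp (volume : Measure (EuclideanSpace ℝ (Fin d))) :=
  PLProp.of_equiv _ (fun a b x y => by simp) (PiLp.volume_preserving_toLp (Fin d)) (plProp_pi d)

/-- **Prékopa–Leindler inequality** on `EuclideanSpace ℝ (Fin d)`, general `t`. -/
theorem prekopa_leindler {d : ℕ} {t : ℝ} (ht0 : 0 < t) (ht1 : t < 1)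
    (f g h : EuclideanSpace ℝ (Fin d) → ℝ≥0∞)
    (hf : Measurable f) (hg : Measurable g) (hh : Measurable h)
    (H : ∀ x y, f x ^ (1 - t) * g y ^ t ≤ h ((1 - t) • x + t • y)) :
    (∫⁻ x, f x) ^ (1 - t) * (∫⁻ x, g x) ^ t ≤ ∫⁻ x, h x :=
  plProp_euclidean d t ht0 ht1 f g h hf hg hh H

/-- **Prékopa–Leindler inequality**, midpoint form. -/
theorem prekopa_leindler_half {d : ℕ} (f g h : EuclideanSpace ℝ (Fin d) → ℝ≥0∞)
    (hf : Measurable f) (hg : Measurable g) (hh : Measurable h)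
    (H : ∀ x y, f x * g y ≤ h ((1 / 2 : ℝ) • (x + y)) ^ 2) :
    (∫⁻ x, f x) * (∫⁻ x, g x) ≤ (∫⁻ x, h x) ^ 2 := by
  have hhalf : (0:ℝ) ≤ 1 / 2 := by norm_num
  have sq : ∀ a : ℝ≥0∞, (a ^ 2) ^ (1 / 2 : ℝ) = a := by
    intro a
    rw [← ENNReal.rpow_natCast, ← ENNReal.rpow_mul]; norm_num
  have key := prekopa_leindler (d := d) (t := 1 / 2) (by norm_num) (by norm_num) f g h hf hg hh
    (by
      intro x y
      have h1 : (1 - 1 / 2 : ℝ) = 1 / 2 := by norm_num
      rw [h1, ← ENNReal.mul_rpow_of_nonneg _ _ hhalf, ← smul_add]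
      calc (f x * g y) ^ (1 / 2 : ℝ) ≤ (h ((1 / 2 : ℝ) • (x + y)) ^ 2) ^ (1 / 2 : ℝ) :=
            ENNReal.rpow_le_rpow (H x y) hhalf
        _ = h ((1 / 2 : ℝ) • (x + y)) := sq _)
  have h1 : (1 - 1 / 2 : ℝ) = 1 / 2 := by norm_num
  rw [h1, ← ENNReal.mul_rpow_of_nonneg _ _ hhalf] at key
  calc (∫⁻ x, f x) * (∫⁻ x, g x)
      = (((∫⁻ x, f x) * (∫⁻ x, g x)) ^ (1 / 2 : ℝ)) ^ 2 := by
        rw [← ENNReal.rpow_natCast, ← ENNReal.rpow_mul]; norm_num
    _ ≤ (∫⁻ x, h x) ^ 2 := by gcongr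

end Crest.Agent.PL
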