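import Mathlib
import Crest.Agent.Lib_helper3_R125Defs

/-! Row 125, task T1: closed finite-codimensional submodules. -/

namespace Crest.Agent.R125_Cof

open Crest.Agent.Lib_helper3_R125Defs Filter Topology

variable {X : Type*} [NormedAddCommGroup X] [NormedSpace ℝ X]
variable {Y : Type*} [NormedAddCommGroup Y] [NormedSpace ℝ Y]

theorem cofSub_top : CofSub (⊤ : Submodule ℝ X) := by
  refine ⟨by simp, ?_⟩
  have : Subsingleton (X ⧸ (⊤ : Submodule ℝ X)) := Submodule.Quotient.subsingleton_iff.mpr rfl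
  infer_instance

theorem cofSub_bot_of_finiteDimensional [FiniteDimensional ℝ X] :
    CofSub (⊥ : Submodule ℝ X) := by
  refine ⟨by simp, ?_⟩
  infer_instance

theorem cofSub_ker (φ : X →L[ℝ] ℝ) : CofSub (LinearMap.ker (φ : X →ₗ[ℝ] ℝ)) := by
  refine ⟨φ.isClosed_ker, ?_⟩
  exact LinearEquiv.finiteDimensional (LinearMap.quotKerEquivRange (φ : X →ₗ[ℝ] ℝ)).symm

theorem cofSub_inf {S T : Submodule ℝ X} (hS : CofSub S) (hT : CofSub T) : CofSub (S ⊓ T) := by
  refine ⟨?_, ?_⟩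
  · rw [Submodule.coe_inf]
    exact hS.1.inter hT.1
  · have := hS.2
    have := hT.2
    have hker : LinearMap.ker (LinearMap.prod S.mkQ T.mkQ) = S ⊓ T := by
      rw [LinearMap.ker_prod, Submodule.ker_mkQ, Submodule.ker_mkQ]
    let f : (X ⧸ (S ⊓ T)) →ₗ[ℝ] (X ⧸ S) × (X ⧸ T) :=
      Submodule.liftQ (S ⊓ T) (LinearMap.prod S.mkQ T.mkQ) hker.ge
    have hf : Function.Injective f := by
      rw [← LinearMap.ker_eq_bot]
      exact Submodule.ker_liftQ_eq_bot _ _ _ hker.le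
    exact FiniteDimensional.of_injective f hf

theorem cofSub_finset_inf {ι : Type*} (s : Finset ι) (S : ι → Submodule ℝ X)
    (h : ∀ i ∈ s, CofSub (S i)) : CofSub (s.inf S) := by
  classical
  induction s using Finset.induction_on with
  | empty => simpa using cofSub_top
  | insert a s ha ih =>
    rw [Finset.inf_insert]
    exact cofSub_inf (h a (Finset.mem_insert_self a s))
      (ih (fun i hi => h i (Finset.mem_insert_of_mem hi)))

theorem cofSub_comap (T : X →L[ℝ] Y) {S : Submodule ℝ Y} (hS : CofSub S) :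
    CofSub (S.comap (T : X →ₗ[ℝ] Y)) := by
  refine ⟨?_, ?_⟩
  · exact hS.1.preimage T.continuous
  · have := hS.2
    have hker : LinearMap.ker (S.mkQ ∘ₗ (T : X →ₗ[ℝ] Y)) = S.comap (T : X →ₗ[ℝ] Y) := by
      rw [LinearMap.ker_comp, Submodule.ker_mkQ]
    let f : (X ⧸ (S.comap (T : X →ₗ[ℝ] Y))) →ₗ[ℝ] (Y ⧸ S) :=
      Submodule.liftQ _ (S.mkQ ∘ₗ (T : X →ₗ[ℝ] Y)) hker.ge
    have hf : Function.Injective f := by
      rw [← LinearMap.ker_eq_bot]
      exact Submodule.ker_liftQ_eq_bot _ _ _ hker.le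
    exact FiniteDimensional.of_injective f hf

/-- If the class of `x` in the quotient has norm `< ε` then `x` is `ε`-close to `S`. -/
theorem exists_near_of_norm_mk_lt {S : Submodule ℝ X} [IsClosed (S : Set X)] {x : X} {ε : ℝ}
    (h : ‖S.mkQ x‖ < ε) : ∃ z ∈ S, ‖x - z‖ < ε := by
  obtain ⟨m, hm, hmε⟩ := (QuotientAddGroup.norm_lt_iff (S := S.toAddSubgroup) (x := S.mkQ x)).1 h
  refine ⟨x - m, ?_, by simpa using hmε⟩
  have : S.mkQ m = S.mkQ x := hm
  rw [← Submodule.Quotient.mk_eq_zero S (x := x - m), Submodule.Quotient.mk_sub]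
  have h2 : (Submodule.Quotient.mk m : X ⧸ S) = Submodule.Quotient.mk x := this
  rw [h2, sub_self]

/-- A weakly null sequence is eventually as close as one wishes to a closed finite-codimensional
submodule. -/
theorem eventually_near {S : Submodule ℝ X} (hS : CofSub S) (d : ℕ → X)
    (hd : ∀ φ : X →L[ℝ] ℝ, Tendsto (fun a => φ (d a)) atTop (𝓝 0)) {ε : ℝ} (hε : 0 < ε) :
    ∀ᶠ a in atTop, ∃ z ∈ S, ‖d a - z‖ < ε := by
  have : IsClosed (S : Set X) := hS.1
  have := hS.2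
  let b := Module.finBasis ℝ (X ⧸ S)
  have h1 : Tendsto (fun a => b.equivFunL (S.mkQL (d a))) atTop (𝓝 0) := by
    rw [tendsto_pi_nhds]
    intro i
    have := hd ((ContinuousLinearMap.proj i : (Fin _ → ℝ) →L[ℝ] ℝ) ∘L
      (b.equivFunL : (X ⧸ S) →L[ℝ] (Fin _ → ℝ)) ∘L S.mkQL)
    simpa using this
  have h2 : Tendsto (fun a => S.mkQL (d a)) atTop (𝓝 0) := by
    have := (b.equivFunL.symm.continuous.tendsto 0).comp h1
    simpa [Function.comp_def] using this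
  have h3 : ∀ᶠ a in atTop, ‖S.mkQL (d a)‖ < ε := by
    have := (tendsto_zero_iff_norm_tendsto_zero.1 h2).eventually (gt_mem_nhds hε)
    exact this
  filter_upwards [h3] with a ha
  exact exists_near_of_norm_mk_lt (by simpa using ha)

/-- In a bounded sequence two different terms have a difference close to a given closed
finite-codimensional submodule. -/
theorem exists_pair_near {S : Submodule ℝ X} (hS : CofSub S) (z : ℕ → X) (C : ℝ)
    (hz : ∀ i, ‖z i‖ ≤ C) {ε : ℝ} (hε : 0 < ε) :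
    ∃ i j : ℕ, i ≠ j ∧ ∃ w ∈ S, ‖z i - z j - w‖ < ε := by
  have : IsClosed (S : Set X) := hS.1
  have := hS.2
  have : ProperSpace (X ⧸ S) := FiniteDimensional.proper_real _
  have hb : ∀ n, S.mkQ (z n) ∈ Metric.closedBall (0 : X ⧸ S) C := by
    intro n
    rw [mem_closedBall_zero_iff]
    exact (Submodule.Quotient.norm_mk_le S (z n)).trans (hz n)
  obtain ⟨a, -, φ, hφ, hlim⟩ := tendsto_subseq_of_bounded Metric.isBounded_closedBall hb
  have hev : ∀ᶠ n in atTop, dist (S.mkQ (z (φ n))) a < ε / 2 :=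
    (tendsto_iff_dist_tendsto_zero.1 hlim).eventually (gt_mem_nhds (half_pos hε))
  obtain ⟨N, hN⟩ := eventually_atTop.1 hev
  refine ⟨φ N, φ (N + 1), (hφ (Nat.lt_succ_self N)).ne, ?_⟩
  apply exists_near_of_norm_mk_lt
  rw [map_sub, ← dist_eq_norm]
  calc dist (S.mkQ (z (φ N))) (S.mkQ (z (φ (N + 1))))
      ≤ dist (S.mkQ (z (φ N))) a + dist (S.mkQ (z (φ (N + 1)))) a := dist_triangle_right _ _ _
    _ < ε / 2 + ε / 2 := add_lt_add (hN N le_rfl) (hN (N + 1) (Nat.le_succ N))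
    _ = ε := add_halves ε

/-- An upper `ℓ²` estimate on signed sums forces weak nullity. -/
theorem tendsto_of_upper_l2 (d : ℕ → X) (C : ℝ)
    (h : ∀ (A : Finset ℕ) (σ : ℕ → ℝ), (∀ a, σ a = 1 ∨ σ a = -1) →
      ‖∑ a ∈ A, σ a • d a‖ ≤ C * Real.sqrt A.card)
    (φ : X →L[ℝ] ℝ) : Tendsto (fun a => φ (d a)) atTop (𝓝 0) := by
  by_contra hcon
  rw [Metric.tendsto_atTop] at hcon
  push Not at hcon
  obtain ⟨ε, hε, hfreq⟩ := hcon
  have hinf : Set.Infinite {a : ℕ | ε ≤ |φ (d a)|} := by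
    rw [Set.infinite_iff_exists_gt]
    intro N
    obtain ⟨n, hn, hn'⟩ := hfreq (N + 1)
    refine ⟨n, ?_, by omega⟩
    simpa [Real.dist_eq] using hn'
  let σ : ℕ → ℝ := fun a => if 0 ≤ φ (d a) then 1 else -1
  have hσ : ∀ a, σ a = 1 ∨ σ a = -1 := by
    intro a
    by_cases h0 : 0 ≤ φ (d a)
    · left; simp [σ, h0]
    · right; simp [σ, h0]
  have hσφ : ∀ a, σ a * φ (d a) = |φ (d a)| := by
    intro a
    by_cases h0 : 0 ≤ φ (d a)
    · simp [σ, h0, abs_of_nonneg h0]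
    · simp [σ, h0, abs_of_neg (not_le.1 h0)]
  have key : ∀ n : ℕ, (n : ℝ) * ε ≤ ‖φ‖ * (C * Real.sqrt n) := by
    intro n
    obtain ⟨A, hA, hcard⟩ := hinf.exists_subset_card_eq n
    have h1 : (n : ℝ) * ε ≤ ∑ a ∈ A, |φ (d a)| := by
      have : ∑ _a ∈ A, ε ≤ ∑ a ∈ A, |φ (d a)| := Finset.sum_le_sum (fun a ha => hA ha)
      simpa [hcard] using this
    have h2 : ∑ a ∈ A, |φ (d a)| = φ (∑ a ∈ A, σ a • d a) := by
      rw [map_sum]
      refine Finset.sum_congr rfl (fun a _ => ?_)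
      rw [map_smul, smul_eq_mul, hσφ]
    have h3 : φ (∑ a ∈ A, σ a • d a) ≤ ‖φ‖ * (C * Real.sqrt n) := by
      calc φ (∑ a ∈ A, σ a • d a) ≤ ‖φ (∑ a ∈ A, σ a • d a)‖ := Real.le_norm_self _
        _ ≤ ‖φ‖ * ‖∑ a ∈ A, σ a • d a‖ := φ.le_opNorm _
        _ ≤ ‖φ‖ * (C * Real.sqrt n) := by
          have := h A σ hσ
          rw [hcard] at this
          exact mul_le_mul_of_nonneg_left this (norm_nonneg _)
    linarith
  -- choose `n` with `√n * ε > ‖φ‖ * C`
  obtain ⟨n, hn⟩ := exists_nat_gt ((‖φ‖ * C / ε) ^ 2 + 1)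
  have hn0 : (0 : ℝ) < n := by nlinarith [sq_nonneg (‖φ‖ * C / ε)]
  have hs : 0 < Real.sqrt n := Real.sqrt_pos.2 hn0
  have hk := key n
  have hsq : Real.sqrt n * Real.sqrt n = n := Real.mul_self_sqrt hn0.le
  have h4 : Real.sqrt n * ε ≤ ‖φ‖ * C := by
    have : Real.sqrt n * (Real.sqrt n * ε) ≤ Real.sqrt n * (‖φ‖ * C) := by
      calc Real.sqrt n * (Real.sqrt n * ε) = (n : ℝ) * ε := by rw [← mul_assoc, hsq]
        _ ≤ ‖φ‖ * (C * Real.sqrt n) := hk
        _ = Real.sqrt n * (‖φ‖ * C) := by ring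
    exact le_of_mul_le_mul_left this hs
  have h5 : Real.sqrt n ≤ ‖φ‖ * C / ε := by
    rw [le_div_iff₀ hε]; exact h4
  have h6 : (n : ℝ) ≤ (‖φ‖ * C / ε) ^ 2 := by
    calc (n : ℝ) = Real.sqrt n ^ 2 := by rw [sq, hsq]
      _ ≤ (‖φ‖ * C / ε) ^ 2 := by
        exact pow_le_pow_left₀ hs.le h5 2
  linarith

theorem isCof_iff (E : Crest.AnalysisR.RealBanach) (F : Set E.X) :
    E.IsCof F ↔ ∃ S : Submodule ℝ E.X, (S : Set E.X) = F ∧ CofSub S := by
  constructor
  · rintro ⟨S, rfl, h1, h2⟩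
    exact ⟨S, rfl, h1, h2⟩
  · rintro ⟨S, rfl, h1, h2⟩
    exact ⟨S, rfl, h1, h2⟩

end Crest.Agent.R125_Cof
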