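import Mathlib
import Crest.Agent.Lib_helper3_R125Defs
import Crest.Agent.R125_Cof

/-! Row 125, task T2: asymptotic trees exclude asymptotically uniformly convex renormings;
transfer of the homogeneous midpoint inequality to the moduli of the Prelude. -/

namespace Crest.Agent.R125_NoAUC

open Crest.Agent.Lib_helper3_R125Defs Crest.Agent.R125_Cof Filter Topology

variable {X : Type*} [NormedAddCommGroup X] [NormedSpace ℝ X]
variable {Y : Type*} [NormedAddCommGroup Y] [NormedSpace ℝ Y]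

/-- The growth step, for an abstract equivalent norm `N` on a normed space. -/
private theorem t2_growth (N : X → ℝ)
    (hsub : ∀ x y : X, N (x + y) ≤ N x + N y) (hhom : ∀ (r : ℝ) (x : X), N (r • x) = |r| * N x)
    (a b : ℝ) (ha : 0 < a) (hb : 0 < b) (hab : ∀ x : X, a * ‖x‖ ≤ N x ∧ N x ≤ b * ‖x‖)
    (B δ : ℝ) (hB : 0 < B) (hδ : 0 < δ) (c : ℝ) (hc : 0 < c)
    (hauc : ∀ x : X, N x = 1 → ∃ S : Submodule ℝ X, CofSub S ∧
      ∀ y ∈ S, N y = 1 → c ≤ N (x + (a * δ / (2 * b * B)) • y) - 1) :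
    ∀ (k : ℕ) (x : X), Good B δ k x → (1 + c / 2) ^ k * N x ≤ b * B := by
  intro k
  induction k with
  | zero =>
    intro x hx
    have hx' : ‖x‖ ≤ B := hx
    have := (hab x).2
    have h2 : b * ‖x‖ ≤ b * B := mul_le_mul_of_nonneg_left hx' hb.le
    simp only [pow_zero, one_mul]
    linarith
  | succ k ih =>
    intro x hx
    obtain ⟨hxB, hx⟩ := hx
    have hN0 : 0 ≤ N x := le_trans (mul_nonneg ha.le (norm_nonneg x)) (hab x).1
    rcases hN0.eq_or_lt with h0 | hNpos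
    · rw [← h0, mul_zero]; positivity
    set t : ℝ := a * δ / (2 * b * B) with ht
    have htpos : 0 < t := by positivity
    have hNxB : N x ≤ b * B := (hab x).2.trans (mul_le_mul_of_nonneg_left hxB hb.le)
    -- normalise
    have hxhat : N ((N x)⁻¹ • x) = 1 := by
      rw [hhom, abs_of_pos (inv_pos.mpr hNpos), inv_mul_cancel₀ hNpos.ne']
    obtain ⟨S, hS, hSc⟩ := hauc _ hxhat
    set ε : ℝ := min (a * δ / (2 * b)) (c * N x / (2 * b)) with hε
    have hεpos : 0 < ε := lt_min (by positivity) (by positivity)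
    have hε1 : b * ε ≤ a * δ / 2 := by
      have : ε ≤ a * δ / (2 * b) := min_le_left _ _
      calc b * ε ≤ b * (a * δ / (2 * b)) := mul_le_mul_of_nonneg_left this hb.le
        _ = a * δ / 2 := by field_simp
    have hε2 : b * ε ≤ c * N x / 2 := by
      have : ε ≤ c * N x / (2 * b) := min_le_right _ _
      calc b * ε ≤ b * (c * N x / (2 * b)) := mul_le_mul_of_nonneg_left this hb.le
        _ = c * N x / 2 := by field_simp
    obtain ⟨x', hx'good, hx'δ, z, hzS, hz⟩ := hx S hS ε hεpos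
    -- the error term
    have herr : N (x' - x - z) ≤ b * ε :=
      (hab _).2.trans (mul_le_mul_of_nonneg_left hz.le hb.le)
    -- N z is large
    have hNz1 : a * δ ≤ N (x' - x) :=
      (mul_le_mul_of_nonneg_left hx'δ ha.le).trans (hab _).1
    have hNz2 : N (x' - x) ≤ N z + N (x' - x - z) := by
      have := hsub z (x' - x - z)
      have e : z + (x' - x - z) = x' - x := by abel
      rwa [e] at this
    have hNz : a * δ / 2 ≤ N z := by linarith
    have htN : t * N x ≤ a * δ / 2 := by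
      calc t * N x ≤ t * (b * B) := mul_le_mul_of_nonneg_left hNxB htpos.le
        _ = a * δ / 2 := by rw [ht]; field_simp
    have hNzpos : 0 < N z := lt_of_lt_of_le (by positivity) hNz
    have hyhat : N ((N z)⁻¹ • z) = 1 := by
      rw [hhom, abs_of_pos (inv_pos.mpr hNzpos), inv_mul_cancel₀ hNzpos.ne']
    have hyS : (N z)⁻¹ • z ∈ S := S.smul_mem _ hzS
    have hcc := hSc _ hyS hyhat
    -- convexity
    set s : ℝ := N z / N x with hs
    have hspos : 0 < s := by positivity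
    have hts : t ≤ s := by
      rw [hs, le_div_iff₀ hNpos]; linarith
    set lam : ℝ := t / s with hlam
    have hlam0 : 0 < lam := by positivity
    have hlam1 : lam ≤ 1 := by rw [hlam, div_le_one hspos]; exact hts
    have hdecomp : (N x)⁻¹ • x + t • ((N z)⁻¹ • z)
        = lam • ((N x)⁻¹ • (x + z)) + (1 - lam) • ((N x)⁻¹ • x) := by
      have e1 : t * (N z)⁻¹ = lam * (N x)⁻¹ := by
        rw [hlam, hs]; field_simp
      rw [smul_smul, e1, smul_add, smul_add, smul_smul, smul_smul, sub_smul, one_smul, smul_smul]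
      abel
    have hconv : N ((N x)⁻¹ • x + t • ((N z)⁻¹ • z))
        ≤ lam * ((N x)⁻¹ * N (x + z)) + (1 - lam) := by
      rw [hdecomp]
      refine (hsub _ _).trans ?_
      rw [hhom lam, hhom (1 - lam), hhom (N x)⁻¹ (x + z), hxhat, abs_of_pos hlam0,
        abs_of_nonneg (show (0 : ℝ) ≤ 1 - lam by linarith), abs_of_pos (inv_pos.mpr hNpos), mul_one]
    have h1 : 1 + c ≤ (N x)⁻¹ * N (x + z) := by
      have h2 : c + lam ≤ lam * ((N x)⁻¹ * N (x + z)) := by linarith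
      have h3 : lam * (1 + c) ≤ c + lam := by nlinarith
      have h4 : lam * (1 + c) ≤ lam * ((N x)⁻¹ * N (x + z)) := h3.trans h2
      exact le_of_mul_le_mul_left h4 hlam0
    have h2 : (1 + c) * N x ≤ N (x + z) := by
      have := mul_le_mul_of_nonneg_right h1 hNpos.le
      rwa [mul_comm (N x)⁻¹, mul_assoc, inv_mul_cancel₀ hNpos.ne', mul_one] at this
    have h3 : N (x + z) ≤ N x' + N (x' - x - z) := by
      have := hsub x' (-(1:ℝ) • (x' - x - z))
      have e : x' + (-(1:ℝ) • (x' - x - z)) = x + z := by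
        rw [neg_smul, one_smul]; abel
      rw [e, hhom] at this
      simpa using this
    have h4 : (1 + c / 2) * N x ≤ N x' := by nlinarith
    have h5 := ih x' hx'good
    have hpow : 0 ≤ (1 + c / 2) ^ k := by positivity
    calc (1 + c / 2) ^ (k + 1) * N x = (1 + c / 2) ^ k * ((1 + c / 2) * N x) := by ring
      _ ≤ (1 + c / 2) ^ k * N x' := mul_le_mul_of_nonneg_left h4 hpow
      _ ≤ b * B := h5

/-- Main lemma: roots of arbitrarily high asymptotic trees, of norm bounded below, exclude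
equivalent AUC norms. -/
theorem noAUC (E : Crest.AnalysisR.RealBanach) (B δ δ₀ : ℝ) (hδ : 0 < δ) (hδ₀ : 0 < δ₀)
    (h : ∀ k : ℕ, ∃ x : E.X, δ₀ ≤ ‖x‖ ∧ Good B δ k x) :
    ∀ N : E.X → ℝ, E.IsEquivNorm N → ¬ E.IsAUC N := by
  intro N hN hAUC
  obtain ⟨hsub, hhom, a, b, ha, hab⟩ := hN
  -- positivity of b and B
  obtain ⟨x₀, hx₀, hg₀⟩ := h 0
  have hx₀B : ‖x₀‖ ≤ B := hg₀
  have hB : 0 < B := lt_of_lt_of_le hδ₀ (hx₀.trans hx₀B)
  have hx₀pos : 0 < ‖x₀‖ := lt_of_lt_of_le hδ₀ hx₀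
  have hb : 0 < b := by
    have h1 := (hab x₀).1.trans (hab x₀).2
    have h2 : a ≤ b := le_of_mul_le_mul_right h1 hx₀pos
    linarith
  obtain ⟨c, hc, hF⟩ := hAUC (a * δ / (2 * b * B)) (by positivity)
  have hauc : ∀ x : E.X, N x = 1 → ∃ S : Submodule ℝ E.X, CofSub S ∧
      ∀ y ∈ S, N y = 1 → c ≤ N (x + (a * δ / (2 * b * B)) • y) - 1 := by
    intro x hx
    obtain ⟨F, hFc, hFy⟩ := hF x hx
    obtain ⟨S, hSF, hS⟩ := (isCof_iff E F).1 hFc
    refine ⟨S, hS, fun y hy hNy => hFy y ?_ hNy⟩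
    rw [← hSF]; exact hy
  have key := t2_growth N hsub hhom a b ha hb hab B δ hB hδ c hc hauc
  obtain ⟨k, hk⟩ := pow_unbounded_of_one_lt (b * B / (a * δ₀)) (show (1 : ℝ) < 1 + c / 2 by linarith)
  obtain ⟨x, hx, hg⟩ := h k
  have h1 := key k x hg
  have h2 : a * δ₀ ≤ N x := (mul_le_mul_of_nonneg_left hx ha.le).trans (hab x).1
  have hpow : 0 ≤ (1 + c / 2) ^ k := by positivity
  have h3 : (1 + c / 2) ^ k * (a * δ₀) ≤ b * B := (mul_le_mul_of_nonneg_left h2 hpow).trans h1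
  have h4 : b * B < (1 + c / 2) ^ k * (a * δ₀) := by
    rwa [div_lt_iff₀ (by positivity)] at hk
  linarith

theorem not_finiteDimensional_of_good {B δ : ℝ} (hδ : 0 < δ) {x : X} (h : Good B δ 1 x) :
    ¬ FiniteDimensional ℝ X := by
  intro hfd
  obtain ⟨_, h⟩ := h
  obtain ⟨x', _, hx', z, hz, hzz⟩ := h ⊥ cofSub_bot_of_finiteDimensional δ hδ
  have hz0 : z = 0 := by simpa using hz
  rw [hz0, sub_zero] at hzz
  linarith

/-- `Good` is transported by linear isometries. -/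
theorem good_map (T : X →ₗᵢ[ℝ] Y) {B δ : ℝ} {k : ℕ} {x : X} (h : Good B δ k x) :
    Good B δ k (T x) := by
  induction k generalizing x with
  | zero =>
    have h' : ‖x‖ ≤ B := h
    show ‖T x‖ ≤ B
    rwa [T.norm_map]
  | succ k ih =>
    obtain ⟨hxB, h⟩ := h
    refine ⟨by rwa [T.norm_map], fun S hS ε hε => ?_⟩
    have hS' := cofSub_comap T.toContinuousLinearMap hS
    obtain ⟨x', hx'g, hx'δ, z, hz, hzz⟩ := h _ hS' ε hε
    refine ⟨T x', ih hx'g, ?_, T z, hz, ?_⟩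
    · rw [← map_sub, T.norm_map]; exact hx'δ
    · rw [← map_sub, ← map_sub, T.norm_map]; exact hzz

/-- A bounded tree of height `n` with weakly null, `δ`-large increments. -/
theorem good_of_tree (b : List ℕ → X) (B δ : ℝ) (n : ℕ)
    (hB : ∀ v : List ℕ, v.length ≤ n → ‖b v‖ ≤ B)
    (hinc : ∀ (a : ℕ) (v : List ℕ), v.length < n → δ ≤ ‖b (a :: v) - b v‖)
    (hwn : ∀ v : List ℕ, v.length < n → ∀ φ : X →L[ℝ] ℝ,
      Tendsto (fun a : ℕ => φ (b (a :: v) - b v)) atTop (𝓝 0)) :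
    ∀ (k : ℕ) (v : List ℕ), v.length + k ≤ n → Good B δ k (b v) := by
  intro k
  induction k with
  | zero =>
    intro v hv
    exact hB v (by omega)
  | succ k ih =>
    intro v hv
    refine ⟨hB v (by omega), fun S hS ε hε => ?_⟩
    have hlt : v.length < n := by omega
    obtain ⟨a, z, hz, hzz⟩ :=
      (eventually_near hS (fun a => b (a :: v) - b v) (hwn v hlt) hε).exists
    refine ⟨b (a :: v), ih (a :: v) ?_, hinc a v hlt, z, hz, hzz⟩
    simp only [List.length_cons]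
    omega

private theorem t2_mid (E : Crest.AnalysisR.RealBanach) (h : MidIneq E.X) (t : ℝ) (ht : 0 < t)
    (x : E.X) (hx : ‖x‖ = 1) (η : ℝ) (hη : 0 < η) :
    ∃ F : Set E.X, E.IsCof F ∧ ∀ y ∈ F, ‖y‖ = 1 →
      Real.sqrt (1 + t ^ 2 / 4) - 1 - η ≤ (‖x + t • y‖ + ‖x - t • y‖) / 2 - 1 := by
  obtain ⟨S, hS, hSy⟩ := h x (2 * η) (by positivity)
  refine ⟨(S : Set E.X), (isCof_iff E _).2 ⟨S, rfl, hS⟩, fun y hy hy1 => ?_⟩
  have h1 := hSy (t • y) (S.smul_mem t hy)
  rw [hx, norm_smul, hy1, Real.norm_eq_abs, abs_of_pos ht, mul_one, one_pow] at h1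
  linarith

theorem midpointGE (E : Crest.AnalysisR.RealBanach) (h : MidIneq E.X) (t c : ℝ) (ht : 0 < t)
    (hc : c ≤ Real.sqrt (1 + t ^ 2 / 4) - 1) : E.MidpointModulusGE E.norm t c := by
  intro x hx η hη
  obtain ⟨F, hF, hFy⟩ := t2_mid E h t ht x hx η hη
  refine ⟨F, hF, fun y hy hy1 => ?_⟩
  have := hFy y hy hy1
  show c - η ≤ (‖x + t • y‖ + ‖x - t • y‖) / 2 - 1
  linarith

theorem maxMidpointGE (E : Crest.AnalysisR.RealBanach) (h : MidIneq E.X) (t c : ℝ) (ht : 0 < t)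
    (hc : c ≤ Real.sqrt (1 + t ^ 2 / 4) - 1) : E.MaxMidpointModulusGE E.norm t c := by
  intro x hx η hη
  obtain ⟨F, hF, hFy⟩ := t2_mid E h t ht x hx η hη
  refine ⟨F, hF, fun y hy hy1 => ?_⟩
  have h1 := hFy y hy hy1
  show c - η ≤ max ‖x + t • y‖ ‖x - t • y‖ - 1
  have h2 : ‖x + t • y‖ ≤ max ‖x + t • y‖ ‖x - t • y‖ := le_max_left _ _
  have h3 : ‖x - t • y‖ ≤ max ‖x + t • y‖ ‖x - t • y‖ := le_max_right _ _
  linarith

end Crest.Agent.R125_NoAUC
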