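import Mathlib
import Crest.Prelude.Def_TreeProducts
import Crest.Agent.R125_NoAUC

/-! Row 125, task T8 (helper53): probabilistic facts on path products of independent multipliers
(used by `Crest/Agent/S0169.lean`). -/

set_option autoImplicit false
open MeasureTheory ProbabilityTheory
open Crest Crest.AnalysisR Crest.AnalysisR.TreeProduct

namespace Crest.Agent.Lib_helper53_TreeProd

section general

variable {Ω : Type} [mΩ : MeasurableSpace Ω] {μ : Measure Ω}

lemma norm_toL1_eq_integral {f : Ω → ℝ} (hf : Integrable f μ) :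
    ‖hf.toL1 f‖ = ∫ a, |f a| ∂μ := by
  rw [L1.norm_eq_integral_norm]
  refine integral_congr_ae ?_
  filter_upwards [hf.coeFn_toL1] with a ha
  rw [ha, Real.norm_eq_abs]

lemma integral_abs_le_sqrt [IsProbabilityMeasure μ] {F : Ω → ℝ} (hF : AEStronglyMeasurable F μ)
    (hF2 : Integrable (fun ω => F ω ^ 2) μ) :
    ∫ ω, |F ω| ∂μ ≤ Real.sqrt (∫ ω, F ω ^ 2 ∂μ) := by
  have hmem : MemLp F 2 μ := (memLp_two_iff_integrable_sq hF).2 hF2
  have hint : Integrable F μ := hmem.integrable one_le_two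
  have habs : Integrable (fun ω => |F ω|) μ := hint.abs
  set m := ∫ ω, |F ω| ∂μ with hm
  have h0 : 0 ≤ ∫ ω, (|F ω| - m) ^ 2 ∂μ := integral_nonneg fun ω => sq_nonneg _
  have h1 : ∫ ω, (|F ω| - m) ^ 2 ∂μ = (∫ ω, F ω ^ 2 ∂μ) - m ^ 2 := by
    have : ∀ ω, (|F ω| - m) ^ 2 = F ω ^ 2 - (2 * m) * |F ω| + m ^ 2 := by
      intro ω; rw [sub_sq, sq_abs]; ring
    simp_rw [this]
    have hs : Integrable (fun ω => F ω ^ 2 - (2 * m) * |F ω|) μ := hF2.sub (habs.const_mul _)
    rw [integral_add hs (integrable_const _),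
      integral_sub hF2 (habs.const_mul _), integral_const_mul, integral_const]
    simp only [probReal_univ, smul_eq_mul, one_mul]
    rw [← hm]; ring
  apply Real.le_sqrt_of_sq_le
  linarith

end general

section sigma

variable {Ω : Type} [mΩ : MeasurableSpace Ω] {μ : Measure Ω} {W : List ℕ → Ω → ℝ}

/-- σ-algebra generated by `W u`, `u ∈ S` -/
@[reducible] def sig (W : List ℕ → Ω → ℝ) (S : Set (List ℕ)) : MeasurableSpace Ω :=
  ⨆ u ∈ S, MeasurableSpace.comap (W u) inferInstance

omit mΩ in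
lemma sig_mono {S T : Set (List ℕ)} (h : S ⊆ T) : sig W S ≤ sig W T :=
  biSup_mono h

lemma sig_le (hm : ∀ v, Measurable (W v)) (S : Set (List ℕ)) : sig W S ≤ mΩ :=
  iSup₂_le fun u _ => (hm u).comap_le

omit mΩ in
lemma measurable_sig_W {S : Set (List ℕ)} {u : List ℕ} (hu : u ∈ S) :
    Measurable[sig W S] (W u) :=
  Measurable.of_comap_le (le_iSup₂ (f := fun u (_ : u ∈ S) =>
    MeasurableSpace.comap (W u) inferInstance) u hu)

lemma indepFun_of_sig (hW : iIndepFun W μ) (hm : ∀ v, Measurable (W v)) {S T : Set (List ℕ)}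
    (hST : Disjoint S T) {f g : Ω → ℝ} (hf : Measurable[sig W S] f)
    (hg : Measurable[sig W T] g) : IndepFun f g μ := by
  have h1 : Indep (sig W S) (sig W T) μ :=
    indep_iSup_of_disjoint (fun i => (hm i).comap_le) hW hST
  exact indep_of_indep_of_le h1 hf.comap_le hg.comap_le

/-- the non-root vertices on the root path of `v` -/
def anc (v : List ℕ) : Set (List ℕ) := {u | u ≠ [] ∧ u <:+ v}

lemma anc_subset_cons (a : ℕ) (v : List ℕ) : anc v ⊆ anc (a :: v) :=
  fun _ hu => ⟨hu.1, hu.2.trans (List.suffix_cons a v)⟩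

lemma cons_mem_anc (a : ℕ) (v : List ℕ) : a :: v ∈ anc (a :: v) :=
  ⟨by simp, List.suffix_refl _⟩

lemma cons_notMem_anc (a : ℕ) (v : List ℕ) : a :: v ∉ anc v := by
  intro h
  have := h.2.length_le
  simp at this

lemma cons_notMem_anc_cons {a a' : ℕ} (h : a' ≠ a) (v : List ℕ) : a' :: v ∉ anc (a :: v) := by
  intro h'
  have := h'.2.eq_of_length (by simp)
  simp at this
  exact h this

omit mΩ in
lemma measurable_pathProduct_sig (v : List ℕ) :
    Measurable[sig W (anc v)] (pathProduct W v) := by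
  induction v with
  | nil => exact measurable_const
  | cons a v ih =>
    have h1 : Measurable[sig W (anc (a :: v))] (pathProduct W v) :=
      ih.mono (sig_mono (anc_subset_cons a v)) le_rfl
    have h2 : Measurable[sig W (anc (a :: v))] (W (a :: v)) :=
      measurable_sig_W (cons_mem_anc a v)
    exact Measurable.mul h1 h2

lemma measurable_pathProduct (hm : ∀ v, Measurable (W v)) (v : List ℕ) :
    Measurable (pathProduct W v) :=
  (measurable_pathProduct_sig v).mono (sig_le hm _) le_rfl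

end sigma

section moments

variable {ν : Measure ℝ} [IsProbabilityMeasure ν]
  {Ω : Type} [mΩ : MeasurableSpace Ω] {μ : Measure Ω} [IsProbabilityMeasure μ]
  {W : List ℕ → Ω → ℝ}

omit [IsProbabilityMeasure ν] [IsProbabilityMeasure μ] in
lemma integrable_comp (hW : IsRealization ν μ W) {u : List ℕ} (hu : u ≠ []) {g : ℝ → ℝ}
    (hg : Integrable g ν) : Integrable (fun ω => g (W u ω)) μ := by
  have h := hW.2.2 u hu
  rw [← h] at hg
  exact (integrable_map_measure hg.aestronglyMeasurable (hW.1 u).aemeasurable).mp hg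

omit [IsProbabilityMeasure ν] [IsProbabilityMeasure μ] in
lemma integral_comp (hW : IsRealization ν μ W) {u : List ℕ} (hu : u ≠ []) {g : ℝ → ℝ}
    (hg : AEStronglyMeasurable g ν) : ∫ ω, g (W u ω) ∂μ = ∫ x, g x ∂ν := by
  have h := hW.2.2 u hu
  rw [← h] at hg ⊢
  exact (integral_map (hW.1 u).aemeasurable hg).symm

omit [IsProbabilityMeasure μ] in
lemma ae_pos (hW : IsRealization ν μ W) (hpos : ν (Set.Ioi 0) = 1) {u : List ℕ} (hu : u ≠ []) :
    ∀ᵐ ω ∂μ, 0 < W u ω := by
  have h1 : ∀ᵐ x ∂ν, 0 < x := by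
    have : ν (Set.Ioi 0)ᶜ = 0 := (prob_compl_eq_zero_iff measurableSet_Ioi).mpr hpos
    exact mem_ae_iff.mpr this
  have h := hW.2.2 u hu
  rw [← h] at h1
  exact ae_of_ae_map (hW.1 u).aemeasurable h1

omit [IsProbabilityMeasure ν] in
lemma integrable_id (hmean : ∫ x, x ∂ν = 1) : Integrable (fun x : ℝ => x) ν := by
  by_contra h
  rw [integral_undef h] at hmean
  norm_num at hmean

lemma integrable_sub_one (hmean : ∫ x, x ∂ν = 1) : Integrable (fun x : ℝ => x - 1) ν :=
  (integrable_id hmean).sub (integrable_const _)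

lemma integral_sub_one (hmean : ∫ x, x ∂ν = 1) : ∫ x, (x - 1) ∂ν = 0 := by
  rw [integral_sub (integrable_id hmean) (integrable_const _), hmean]
  simp

lemma integrable_sub_one_sq (hmean : ∫ x, x ∂ν = 1) (hm2 : Integrable (fun x : ℝ => x ^ 2) ν) :
    Integrable (fun x : ℝ => (x - 1) ^ 2) ν := by
  have : (fun x : ℝ => (x - 1) ^ 2) = fun x => x ^ 2 - 2 * x + 1 := by
    funext x; ring
  rw [this]
  exact (hm2.sub ((integrable_id hmean).const_mul 2)).add (integrable_const _)

lemma delta_pos (hnc : ∀ c : ℝ, ν ≠ Measure.dirac c) (hmean : ∫ x, x ∂ν = 1) :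
    0 < ∫ x, |x - 1| ∂ν := by
  have h0 : 0 ≤ ∫ x, |x - 1| ∂ν := integral_nonneg fun x => abs_nonneg _
  rcases h0.lt_or_eq with h | h
  · exact h
  · exfalso
    have h1 : (fun x : ℝ => |x - 1|) =ᵐ[ν] 0 :=
      (integral_eq_zero_iff_of_nonneg (fun x => abs_nonneg _)
        (integrable_sub_one hmean).abs).mp h.symm
    have h2 : (fun x : ℝ => x) =ᵐ[ν] fun _ => (1 : ℝ) := by
      filter_upwards [h1] with x hx
      have : |x - 1| = 0 := hx
      linarith [abs_eq_zero.mp this]
    apply hnc 1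
    have h3 : ν.map (fun x : ℝ => x) = ν.map (fun _ => (1 : ℝ)) := Measure.map_congr h2
    rw [Measure.map_const] at h3
    simpa using h3

omit [IsProbabilityMeasure ν] [IsProbabilityMeasure μ] in
/-- independence of the path product at `v` from the multiplier at a child of `v` -/
lemma indep_path_child (hW : IsRealization ν μ W) (a : ℕ) (v : List ℕ) :
    IndepFun (pathProduct W v) (W (a :: v)) μ :=
  indepFun_of_sig hW.2.1 hW.1 (S := anc v) (T := {a :: v})
    (Set.disjoint_singleton_right.mpr (cons_notMem_anc a v))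
    (measurable_pathProduct_sig v) (measurable_sig_W (Set.mem_singleton _))

lemma path_facts (hW : IsRealization ν μ W) (hpos : ν (Set.Ioi 0) = 1)
    (hmean : ∫ x, x ∂ν = 1) (hm2 : Integrable (fun x : ℝ => x ^ 2) ν) (v : List ℕ) :
    Integrable (pathProduct W v) μ ∧ Integrable (fun ω => pathProduct W v ω ^ 2) μ ∧
      ∫ ω, pathProduct W v ω ∂μ = 1 ∧ ∀ᵐ ω ∂μ, 0 ≤ pathProduct W v ω := by
  induction v with
  | nil =>
    refine ⟨integrable_const _, ?_, ?_, ?_⟩
    · simp only [pathProduct]; exact integrable_const _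
    · simp [pathProduct]
    · exact Filter.Eventually.of_forall fun ω => by simp [pathProduct]
  | cons a v ih =>
    obtain ⟨h1, h2, h3, h4⟩ := ih
    have hne : a :: v ≠ [] := by simp
    have hind := indep_path_child hW a v
    have hWi : Integrable (W (a :: v)) μ := integrable_comp hW hne (integrable_id hmean)
    have hWi2 : Integrable (fun ω => W (a :: v) ω ^ 2) μ := integrable_comp hW hne hm2
    have hWm : ∫ ω, W (a :: v) ω ∂μ = 1 := by
      rw [integral_comp hW hne (g := fun x => x) (integrable_id hmean).aestronglyMeasurable, hmean]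
    refine ⟨hind.integrable_mul h1 hWi, ?_, ?_, ?_⟩
    · have hind2 : IndepFun (fun ω => pathProduct W v ω ^ 2) (fun ω => W (a :: v) ω ^ 2) μ :=
        hind.comp (φ := fun x : ℝ => x ^ 2) (ψ := fun x : ℝ => x ^ 2)
          (measurable_id.pow_const 2) (measurable_id.pow_const 2)
      have := hind2.integrable_mul h2 hWi2
      refine this.congr (Filter.Eventually.of_forall fun ω => ?_)
      simp only [Pi.mul_apply, pathProduct]; ring
    · have := hind.integral_fun_mul_eq_mul_integral h1.aestronglyMeasurable hWi.aestronglyMeasurable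
      simp only [pathProduct]
      rw [this, h3, hWm, one_mul]
    · filter_upwards [h4, ae_pos hW hpos hne] with ω h5 h6
      simp only [pathProduct]
      exact mul_nonneg h5 h6.le

/-- the increment `M_{a::v} - M_v = M_v (W_{a::v} - 1)` -/
def inc (W : List ℕ → Ω → ℝ) (a : ℕ) (v : List ℕ) (ω : Ω) : ℝ :=
  pathProduct W v ω * (W (a :: v) ω - 1)

omit mΩ in
lemma inc_eq (a : ℕ) (v : List ℕ) :
    inc W a v = pathProduct W (a :: v) - pathProduct W v := by
  funext ω
  simp only [inc, pathProduct, Pi.sub_apply]; ring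

omit [IsProbabilityMeasure ν] [IsProbabilityMeasure μ] in
lemma measurable_inc (hW : IsRealization ν μ W) (a : ℕ) (v : List ℕ) : Measurable (inc W a v) :=
  (measurable_pathProduct hW.1 v).mul ((hW.1 _).sub_const 1)

lemma integrable_inc (hW : IsRealization ν μ W) (hpos : ν (Set.Ioi 0) = 1)
    (hmean : ∫ x, x ∂ν = 1) (hm2 : Integrable (fun x : ℝ => x ^ 2) ν) (a : ℕ) (v : List ℕ) :
    Integrable (inc W a v) μ := by
  rw [inc_eq]
  exact (path_facts hW hpos hmean hm2 (a :: v)).1.sub (path_facts hW hpos hmean hm2 v).1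

lemma integral_abs_inc (hW : IsRealization ν μ W) (hpos : ν (Set.Ioi 0) = 1)
    (hmean : ∫ x, x ∂ν = 1) (hm2 : Integrable (fun x : ℝ => x ^ 2) ν) (a : ℕ) (v : List ℕ) :
    ∫ ω, |inc W a v ω| ∂μ = ∫ x, |x - 1| ∂ν := by
  obtain ⟨h1, _, h3, h4⟩ := path_facts hW hpos hmean hm2 v
  have hne : a :: v ≠ [] := by simp
  have hind : IndepFun (pathProduct W v) (fun ω => |W (a :: v) ω - 1|) μ :=
    (indep_path_child hW a v).comp (φ := fun x : ℝ => x) (ψ := fun x : ℝ => |x - 1|)
      measurable_id (measurable_id.sub_const 1).abs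
  have hWa : Integrable (fun ω => |W (a :: v) ω - 1|) μ :=
    integrable_comp hW hne (g := fun x => |x - 1|) (integrable_sub_one hmean).abs
  have e1 : ∫ ω, |inc W a v ω| ∂μ = ∫ ω, pathProduct W v ω * |W (a :: v) ω - 1| ∂μ := by
    refine integral_congr_ae ?_
    filter_upwards [h4] with ω hω
    simp only [inc]
    rw [abs_mul, abs_of_nonneg hω]
  rw [e1, hind.integral_fun_mul_eq_mul_integral h1.aestronglyMeasurable hWa.aestronglyMeasurable,
    h3, one_mul]
  exact integral_comp hW hne (g := fun x => |x - 1|) (integrable_sub_one hmean).abs.aestronglyMeasurable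

lemma inc_mul_self (hW : IsRealization ν μ W) (hpos : ν (Set.Ioi 0) = 1)
    (hmean : ∫ x, x ∂ν = 1) (hm2 : Integrable (fun x : ℝ => x ^ 2) ν) (a : ℕ) (v : List ℕ) :
    Integrable (fun ω => inc W a v ω * inc W a v ω) μ ∧
      ∫ ω, inc W a v ω * inc W a v ω ∂μ =
        (∫ ω, pathProduct W v ω ^ 2 ∂μ) * ∫ x, (x - 1) ^ 2 ∂ν := by
  obtain ⟨_, h2, _, _⟩ := path_facts hW hpos hmean hm2 v
  have hne : a :: v ≠ [] := by simp
  have hind : IndepFun (fun ω => pathProduct W v ω ^ 2) (fun ω => (W (a :: v) ω - 1) ^ 2) μ :=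
    (indep_path_child hW a v).comp (φ := fun x : ℝ => x ^ 2) (ψ := fun x : ℝ => (x - 1) ^ 2)
      (measurable_id.pow_const 2) ((measurable_id.sub_const 1).pow_const 2)
  have hWa : Integrable (fun ω => (W (a :: v) ω - 1) ^ 2) μ :=
    integrable_comp hW hne (g := fun x => (x - 1) ^ 2) (integrable_sub_one_sq hmean hm2)
  have e : (fun ω => inc W a v ω * inc W a v ω) =
      fun ω => pathProduct W v ω ^ 2 * (W (a :: v) ω - 1) ^ 2 := by
    funext ω; simp only [inc]; ring
  rw [e]
  refine ⟨hind.integrable_mul h2 hWa, ?_⟩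
  rw [hind.integral_fun_mul_eq_mul_integral h2.aestronglyMeasurable hWa.aestronglyMeasurable]
  congr 1
  exact integral_comp hW hne (g := fun x => (x - 1) ^ 2)
    (integrable_sub_one_sq hmean hm2).aestronglyMeasurable

lemma inc_mul_ne (hW : IsRealization ν μ W) (hpos : ν (Set.Ioi 0) = 1)
    (hmean : ∫ x, x ∂ν = 1) (hm2 : Integrable (fun x : ℝ => x ^ 2) ν) {a a' : ℕ} (haa : a' ≠ a)
    (v : List ℕ) :
    Integrable (fun ω => inc W a v ω * inc W a' v ω) μ ∧
      ∫ ω, inc W a v ω * inc W a' v ω ∂μ = 0 := by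
  obtain ⟨_, h2, _, _⟩ := path_facts hW hpos hmean hm2 v
  have hne : a :: v ≠ [] := by simp
  have hne' : a' :: v ≠ [] := by simp
  -- first factor
  have hind1 : IndepFun (fun ω => pathProduct W v ω ^ 2) (fun ω => W (a :: v) ω - 1) μ :=
    (indep_path_child hW a v).comp (φ := fun x : ℝ => x ^ 2) (ψ := fun x : ℝ => x - 1)
      (measurable_id.pow_const 2) (measurable_id.sub_const 1)
  have hWa : Integrable (fun ω => W (a :: v) ω - 1) μ :=
    integrable_comp hW hne (g := fun x => x - 1) (integrable_sub_one hmean)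
  have hWa' : Integrable (fun ω => W (a' :: v) ω - 1) μ :=
    integrable_comp hW hne' (g := fun x => x - 1) (integrable_sub_one hmean)
  have hf : Integrable (fun ω => pathProduct W v ω ^ 2 * (W (a :: v) ω - 1)) μ :=
    hind1.integrable_mul h2 hWa
  have hfm : Measurable[sig W (anc (a :: v))]
      (fun ω => pathProduct W v ω ^ 2 * (W (a :: v) ω - 1)) := by
    have h1 : Measurable[sig W (anc (a :: v))] (pathProduct W v) :=
      (measurable_pathProduct_sig v).mono (sig_mono (anc_subset_cons a v)) le_rfl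
    have h2 : Measurable[sig W (anc (a :: v))] (W (a :: v)) :=
      measurable_sig_W (cons_mem_anc a v)
    exact (h1.pow_const 2).mul (h2.sub_const 1)
  have hgm : Measurable[sig W {a' :: v}] (fun ω => W (a' :: v) ω - 1) :=
    (measurable_sig_W (Set.mem_singleton _)).sub_const 1
  have hind : IndepFun (fun ω => pathProduct W v ω ^ 2 * (W (a :: v) ω - 1))
      (fun ω => W (a' :: v) ω - 1) μ :=
    indepFun_of_sig hW.2.1 hW.1
      (Set.disjoint_singleton_right.mpr (cons_notMem_anc_cons haa v)) hfm hgm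
  have e : (fun ω => inc W a v ω * inc W a' v ω) =
      fun ω => (pathProduct W v ω ^ 2 * (W (a :: v) ω - 1)) * (W (a' :: v) ω - 1) := by
    funext ω; simp only [inc]; ring
  rw [e]
  refine ⟨hind.integrable_mul hf hWa', ?_⟩
  rw [hind.integral_fun_mul_eq_mul_integral hf.aestronglyMeasurable hWa'.aestronglyMeasurable]
  have : ∫ ω, (W (a' :: v) ω - 1) ∂μ = 0 := by
    rw [integral_comp hW hne' (g := fun x => x - 1) (integrable_sub_one hmean).aestronglyMeasurable,
      integral_sub_one hmean]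
  rw [this, mul_zero]

lemma integral_abs_sum_inc_le (hW : IsRealization ν μ W) (hpos : ν (Set.Ioi 0) = 1)
    (hmean : ∫ x, x ∂ν = 1) (hm2 : Integrable (fun x : ℝ => x ^ 2) ν) (v : List ℕ)
    (A : Finset ℕ) (σ : ℕ → ℝ) (hσ : ∀ a, σ a = 1 ∨ σ a = -1) :
    ∫ ω, |∑ a ∈ A, σ a * inc W a v ω| ∂μ ≤
      Real.sqrt ((∫ ω, pathProduct W v ω ^ 2 ∂μ) * ∫ x, (x - 1) ^ 2 ∂ν) * Real.sqrt A.card := by
  set C := (∫ ω, pathProduct W v ω ^ 2 ∂μ) * ∫ x, (x - 1) ^ 2 ∂ν with hC
  have hterm : ∀ a a' : ℕ, Integrable (fun ω => (σ a * inc W a v ω) * (σ a' * inc W a' v ω)) μ ∧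
      ∫ ω, (σ a * inc W a v ω) * (σ a' * inc W a' v ω) ∂μ = if a = a' then C else 0 := by
    intro a a'
    have e : (fun ω => (σ a * inc W a v ω) * (σ a' * inc W a' v ω)) =
        fun ω => (σ a * σ a') * (inc W a v ω * inc W a' v ω) := by
      funext ω; ring
    rw [e, integral_const_mul]
    by_cases h : a = a'
    · subst h
      obtain ⟨i1, i2⟩ := inc_mul_self hW hpos hmean hm2 a v
      refine ⟨i1.const_mul _, ?_⟩
      rw [i2, if_pos rfl]
      rcases hσ a with h | h <;> rw [h] <;> ring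
    · obtain ⟨i1, i2⟩ := inc_mul_ne hW hpos hmean hm2 (Ne.symm h) v
      refine ⟨i1.const_mul _, ?_⟩
      rw [i2, if_neg h, mul_zero]
  have hsq : ∀ ω, (∑ a ∈ A, σ a * inc W a v ω) ^ 2 =
      ∑ a ∈ A, ∑ a' ∈ A, (σ a * inc W a v ω) * (σ a' * inc W a' v ω) := by
    intro ω; rw [sq, Finset.sum_mul_sum]
  have hint2 : Integrable (fun ω => (∑ a ∈ A, σ a * inc W a v ω) ^ 2) μ := by
    simp_rw [hsq]
    exact integrable_finsetSum _ fun a _ => integrable_finsetSum _ fun a' _ => (hterm a a').1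
  have hval : ∫ ω, (∑ a ∈ A, σ a * inc W a v ω) ^ 2 ∂μ = C * A.card := by
    simp_rw [hsq]
    rw [integral_finsetSum _ fun a _ => integrable_finsetSum _ fun a' _ => (hterm a a').1]
    have : ∀ a ∈ A, ∫ ω, ∑ a' ∈ A, (σ a * inc W a v ω) * (σ a' * inc W a' v ω) ∂μ = C := by
      intro a ha
      rw [integral_finsetSum _ fun a' _ => (hterm a a').1]
      simp_rw [(hterm a _).2]
      simp [ha]
    rw [Finset.sum_congr rfl this]
    simp [mul_comm]
  have hmeas : AEStronglyMeasurable (fun ω => ∑ a ∈ A, σ a * inc W a v ω) μ :=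
    (Finset.measurable_sum A fun a _ => (measurable_inc hW a v).const_mul (σ a)).aestronglyMeasurable
  have hC0 : 0 ≤ C := mul_nonneg (integral_nonneg fun _ => sq_nonneg _)
    (integral_nonneg fun _ => sq_nonneg _)
  calc ∫ ω, |∑ a ∈ A, σ a * inc W a v ω| ∂μ
      ≤ Real.sqrt (∫ ω, (∑ a ∈ A, σ a * inc W a v ω) ^ 2 ∂μ) := integral_abs_le_sqrt hmeas hint2
    _ = Real.sqrt C * Real.sqrt A.card := by rw [hval, Real.sqrt_mul hC0]

end moments

section span

variable {ν : Measure ℝ} [IsProbabilityMeasure ν]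
  {Ω : Type} [mΩ : MeasurableSpace Ω] {μ : Measure Ω} [IsProbabilityMeasure μ]
  {W : List ℕ → Ω → ℝ}

omit [IsProbabilityMeasure μ] in
/-- the class of an integrable path product belongs to the product span -/
lemma toL1_mem_productSpan (v : List ℕ) (h : Integrable (pathProduct W v) μ) :
    h.toL1 (pathProduct W v) ∈ productSpan μ W :=
  Submodule.le_topologicalClosure _ (Submodule.subset_span ⟨v, h.coeFn_toL1⟩)

omit [IsProbabilityMeasure μ] in
lemma sum_smul_toL1 (A : Finset ℕ) (σ : ℕ → ℝ) (d : ℕ → Ω → ℝ) (hd : ∀ a, Integrable (d a) μ)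
    (hs : Integrable (fun ω => ∑ a ∈ A, σ a * d a ω) μ) :
    ∑ a ∈ A, σ a • (hd a).toL1 (d a) = hs.toL1 (fun ω => ∑ a ∈ A, σ a * d a ω) := by
  induction A using Finset.induction_on with
  | empty =>
    simp only [Finset.sum_empty]
    exact (Integrable.toL1_zero _).symm
  | insert a A ha ih =>
    have hs' : Integrable (fun ω => ∑ a ∈ A, σ a * d a ω) μ :=
      integrable_finsetSum _ fun a _ => (hd a).const_mul (σ a)
    rw [Finset.sum_insert ha, ih hs', ← Integrable.toL1_smul, ← Integrable.toL1_add]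
    rw [Integrable.toL1_eq_toL1_iff]
    refine Filter.Eventually.of_forall fun ω => ?_
    simp [Finset.sum_insert ha]

theorem main (hpos : ν (Set.Ioi 0) = 1)
    (hnc : ∀ c : ℝ, ν ≠ Measure.dirac c) (hmean : ∫ x, x ∂ν = 1)
    (hm2 : Integrable (fun x : ℝ => x ^ 2) ν) (hW : IsRealization ν μ W) :
    ∃ δ : ℝ, 0 < δ ∧ ∀ k : ℕ, ∃ x : productSpan μ W, (1 : ℝ) ≤ ‖x‖ ∧
      Crest.Agent.Lib_helper3_R125Defs.Good 1 δ k x := by
  have hI : ∀ v, Integrable (pathProduct W v) μ := fun v => (path_facts hW hpos hmean hm2 v).1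
  let b : List ℕ → productSpan μ W := fun v => ⟨(hI v).toL1 _, toL1_mem_productSpan v (hI v)⟩
  have hnorm : ∀ v, ‖b v‖ = 1 := by
    intro v
    obtain ⟨_, _, h3, h4⟩ := path_facts hW hpos hmean hm2 v
    show ‖(hI v).toL1 (pathProduct W v)‖ = 1
    rw [norm_toL1_eq_integral, ← h3]
    refine integral_congr_ae ?_
    filter_upwards [h4] with ω hω
    exact abs_of_nonneg hω
  have hIinc : ∀ a v, Integrable (inc W a v) μ := fun a v => integrable_inc hW hpos hmean hm2 a v
  have hdiff : ∀ a v, ((b (a :: v) - b v : productSpan μ W) : Lp ℝ 1 μ) =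
      (hIinc a v).toL1 (inc W a v) := by
    intro a v
    show (hI (a :: v)).toL1 _ - (hI v).toL1 _ = _
    rw [← Integrable.toL1_sub, Integrable.toL1_eq_toL1_iff, inc_eq]
  refine ⟨∫ x, |x - 1| ∂ν, delta_pos hnc hmean, fun k => ⟨b [], (hnorm []).ge, ?_⟩⟩
  refine Crest.Agent.R125_NoAUC.good_of_tree b 1 _ k (fun v _ => (hnorm v).le) ?_ ?_ k [] (by simp)
  · intro a v _
    show _ ≤ ‖((b (a :: v) - b v : productSpan μ W) : Lp ℝ 1 μ)‖
    rw [hdiff, norm_toL1_eq_integral, integral_abs_inc hW hpos hmean hm2]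
  · intro v _ φ
    refine Crest.Agent.R125_Cof.tendsto_of_upper_l2 (fun a => b (a :: v) - b v)
      (Real.sqrt ((∫ ω, pathProduct W v ω ^ 2 ∂μ) * ∫ x, (x - 1) ^ 2 ∂ν)) ?_ φ
    intro A σ hσ
    have hs : Integrable (fun ω => ∑ a ∈ A, σ a * inc W a v ω) μ :=
      integrable_finsetSum _ fun a _ => (hIinc a v).const_mul (σ a)
    have e : ((∑ a ∈ A, σ a • (b (a :: v) - b v) : productSpan μ W) : Lp ℝ 1 μ) =
        hs.toL1 (fun ω => ∑ a ∈ A, σ a * inc W a v ω) := by
      rw [← sum_smul_toL1 A σ (fun a => inc W a v) (fun a => hIinc a v) hs]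
      push_cast
      refine Finset.sum_congr rfl fun a _ => ?_
      rw [← hdiff]; rfl
    show ‖((∑ a ∈ A, σ a • (b (a :: v) - b v) : productSpan μ W) : Lp ℝ 1 μ)‖ ≤ _
    rw [e, norm_toL1_eq_integral]
    exact integral_abs_sum_inc_le hW hpos hmean hm2 v A σ hσ

end span

end Crest.Agent.Lib_helper53_TreeProd
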