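import Mathlib
import Crest.Prelude.Def_OrderedMatrix

/-!
Construction-independent part of S0066: from a labelled matrix on abstract finite linear orders,
a hitting set `Z` for all copies and a family of `4^h` pairwise disjoint forcing sets, to the
statement about `Fin n` and real numbers.
-/

set_option autoImplicit false

namespace Crest.Agent.OMTransfer

open Crest.CombinatoricsR.OrderedMatrix

/-- If every copy of `H` in `A` passes through `Z` at position `(i0, j0)`, the number of copies is
at most `|Z| * n^k * n^k`. -/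
theorem count_le {k n : ℕ} (H : Fin (k + 1) → Fin (k + 1) → Bool) (A : Fin n → Fin n → Bool)
    (i0 j0 : Fin (k + 1)) (Z : Finset (Fin n × Fin n))
    (hZ : ∀ f g : Fin (k + 1) → Fin n, StrictMono f → StrictMono g →
      (∀ i j, A (f i) (g j) = H i j) → (f i0, g j0) ∈ Z) :
    orderedCopyCount H A ≤ Z.card * (n ^ k * n ^ k) := by
  classical
  unfold orderedCopyCount
  let φ : {rc : (Fin (k + 1) → Fin n) × (Fin (k + 1) → Fin n) //
      StrictMono rc.1 ∧ StrictMono rc.2 ∧ ∀ i j : Fin (k + 1), A (rc.1 i) (rc.2 j) = H i j} →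
      Z × ((Fin k → Fin n) × (Fin k → Fin n)) := fun rc =>
    (⟨(rc.1.1 i0, rc.1.2 j0), hZ _ _ rc.2.1 rc.2.2.1 rc.2.2.2⟩,
      (fun i => rc.1.1 (i0.succAbove i), fun j => rc.1.2 (j0.succAbove j)))
  have hφ : Function.Injective φ := by
    rintro ⟨⟨f, g⟩, hf⟩ ⟨⟨f', g'⟩, hf'⟩ hEq
    simp only [φ, Prod.mk.injEq, Subtype.mk.injEq] at hEq
    obtain ⟨⟨h1, h2⟩, h3, h4⟩ := hEq
    have hff : f = f' := by
      funext i
      rcases Fin.eq_self_or_eq_succAbove i0 i with h | ⟨j, h⟩
      · rw [h]; exact h1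
      · rw [h]; exact congrFun h3 j
    have hgg : g = g' := by
      funext i
      rcases Fin.eq_self_or_eq_succAbove j0 i with h | ⟨j, h⟩
      · rw [h]; exact h2
      · rw [h]; exact congrFun h4 j
    subst hff hgg
    rfl
  have := Fintype.card_le_of_injective φ hφ
  simpa [Fintype.card_prod, Fintype.card_pi] using this

/-- If `B` differs from `A` somewhere on each member of a pairwise disjoint family indexed by `ι`,
then `B` differs from `A` in at least `|ι|` cells. -/
theorem far_ge {n : ℕ} {ι : Type} [Fintype ι] (A B : Fin n → Fin n → Bool)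
    (F : ι → Finset (Fin n × Fin n)) (hdisj : ∀ p q, p ≠ q → Disjoint (F p) (F q))
    (hdiff : ∀ p, ∃ c ∈ F p, A c.1 c.2 ≠ B c.1 c.2) :
    Fintype.card ι ≤ (Finset.univ.filter (fun rc : Fin n × Fin n => A rc.1 rc.2 ≠ B rc.1 rc.2)).card := by
  classical
  choose c hc hne using hdiff
  have hinj : Function.Injective c := by
    intro p q hpq
    by_contra hne'
    have := hdisj p q hne'
    exact (Finset.disjoint_left.mp this (hc p)) (hpq ▸ hc q)
  calc Fintype.card ι = (Finset.univ.image c).card := by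
        rw [Finset.card_image_of_injective _ hinj, Finset.card_univ]
    _ ≤ _ := by
        apply Finset.card_le_card
        intro x hx
        obtain ⟨p, -, rfl⟩ := Finset.mem_image.mp hx
        simp only [Finset.mem_filter, Finset.mem_univ, true_and]
        exact hne p

/-- The body of S0066 for a fixed pattern. -/
def Goal (H : Fin 66 → Fin 66 → Bool) : Prop :=
  ∀ h : ℕ, 1 ≤ h →
      ∃ A : Fin ((386 * h + 2) * 2 ^ h) → Fin ((386 * h + 2) * 2 ^ h) → Bool,
        (∀ B : Fin ((386 * h + 2) * 2 ^ h) → Fin ((386 * h + 2) * 2 ^ h) → Bool,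
          Crest.CombinatoricsR.OrderedMatrix.orderedCopyCount H B = 0 →
            ((386 * (h : ℝ) + 2) ^ 2)⁻¹ * (((386 * h + 2) * 2 ^ h : ℕ) : ℝ) ^ 2 ≤
              ((Finset.univ.filter (fun rc : Fin ((386 * h + 2) * 2 ^ h) × Fin ((386 * h + 2) * 2 ^ h) =>
                A rc.1 rc.2 ≠ B rc.1 rc.2)).card : ℝ)) ∧
        (Crest.CombinatoricsR.OrderedMatrix.orderedCopyCount H A : ℝ) /
            (((386 * h + 2) * 2 ^ h : ℕ) : ℝ) ^ 132 ≤
          ((386 * (h : ℝ) + 2) ^ 2)⁻¹ * (2 : ℝ)⁻¹ ^ h

/-- Natural-number version on `Fin n` implies the real statement. -/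
theorem goal_of_nat (H : Fin 66 → Fin 66 → Bool)
    (hyp : ∀ h : ℕ, 1 ≤ h →
      ∃ A : Fin ((386 * h + 2) * 2 ^ h) → Fin ((386 * h + 2) * 2 ^ h) → Bool,
        (∀ B : Fin ((386 * h + 2) * 2 ^ h) → Fin ((386 * h + 2) * 2 ^ h) → Bool,
          orderedCopyCount H B = 0 →
            2 ^ h * 2 ^ h ≤
              (Finset.univ.filter (fun rc : Fin ((386 * h + 2) * 2 ^ h) × Fin ((386 * h + 2) * 2 ^ h) =>
                A rc.1 rc.2 ≠ B rc.1 rc.2)).card) ∧
        orderedCopyCount H A ≤
          2 ^ h * (((386 * h + 2) * 2 ^ h) ^ 65 * ((386 * h + 2) * 2 ^ h) ^ 65)) : Goal H := by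
  intro h hh
  obtain ⟨A, hfar, hcount⟩ := hyp h hh
  refine ⟨A, ?_, ?_⟩
  · intro B hB
    have h1 := hfar B hB
    have h2 : ((2 ^ h * 2 ^ h : ℕ) : ℝ) ≤ _ := Nat.cast_le.mpr h1
    refine le_trans (le_of_eq ?_) h2
    have hpos : (386 * (h : ℝ) + 2) ≠ 0 := by positivity
    push_cast
    field_simp
  · have h2 : (orderedCopyCount H A : ℝ) ≤
        ((2 ^ h * (((386 * h + 2) * 2 ^ h) ^ 65 * ((386 * h + 2) * 2 ^ h) ^ 65) : ℕ) : ℝ) :=
      Nat.cast_le.mpr hcount
    have hpos : (0 : ℝ) < 386 * (h : ℝ) + 2 := by positivity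
    have hpos2 : (0 : ℝ) < (2 : ℝ) ^ h := by positivity
    rw [div_le_iff₀ (by positivity)]
    refine le_trans h2 (le_of_eq ?_)
    push_cast
    rw [inv_pow]
    field_simp

/-- **Reduction.** It suffices to give, for each `h ≥ 1`, a matrix `val` on abstract finite linear
orders `R` (rows), `C` (columns) of the right cardinality, a set `Z` of at most `2^h` cells through
which every copy of `H` passes at the fixed position `(i0, j0)`, and `4^h` pairwise disjoint forcing
sets. -/
theorem reduction (H : Fin 66 → Fin 66 → Bool) (i0 j0 : Fin 66)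
    (hyp : ∀ h : ℕ, 1 ≤ h →
      ∃ (R C : Type) (_ : Fintype R) (_ : LinearOrder R) (_ : Fintype C) (_ : LinearOrder C)
        (val : R → C → Bool) (Z : Finset (R × C))
        (F : Fin (2 ^ h) × Fin (2 ^ h) → Finset (R × C)),
        Fintype.card R = (386 * h + 2) * 2 ^ h ∧ Fintype.card C = (386 * h + 2) * 2 ^ h ∧
        Z.card ≤ 2 ^ h ∧
        (∀ (f : Fin 66 → R) (g : Fin 66 → C), StrictMono f → StrictMono g →
          (∀ i j, val (f i) (g j) = H i j) → (f i0, g j0) ∈ Z) ∧
        (∀ p q, p ≠ q → Disjoint (F p) (F q)) ∧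
        (∀ p (B : R → C → Bool), (∀ c ∈ F p, B c.1 c.2 = val c.1 c.2) →
          ∃ (f : Fin 66 → R) (g : Fin 66 → C), StrictMono f ∧ StrictMono g ∧
            ∀ i j, B (f i) (g j) = H i j)) : Goal H := by
  classical
  apply goal_of_nat
  intro h hh
  obtain ⟨R, C, _, _, _, _, val, Z, F, hR, hC, hZc, hZ, hdisj, hforce⟩ := hyp h hh
  set n := (386 * h + 2) * 2 ^ h with hn
  let eR : Fin n ≃o R := Fintype.orderIsoFinOfCardEq R hR
  let eC : Fin n ≃o C := Fintype.orderIsoFinOfCardEq C hC
  let ψ : R × C ↪ Fin n × Fin n :=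
    ⟨fun c => (eR.symm c.1, eC.symm c.2), by
      rintro ⟨a, b⟩ ⟨a', b'⟩ hab
      simp only [Prod.mk.injEq, EmbeddingLike.apply_eq_iff_eq] at hab
      exact Prod.ext hab.1 hab.2⟩
  have hψ : ∀ c, ψ c = (eR.symm c.1, eC.symm c.2) := fun _ => rfl
  refine ⟨fun i j => val (eR i) (eC j), ?_, ?_⟩
  · intro B hB
    have hcard : Fintype.card (Fin (2 ^ h) × Fin (2 ^ h)) = 2 ^ h * 2 ^ h := by
      simp [Fintype.card_prod]
    rw [← hcard]
    apply far_ge (fun i j => val (eR i) (eC j)) B (fun p => (F p).map ψ)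
    · intro p q hpq
      exact (Finset.disjoint_map ψ).mpr (hdisj p q hpq)
    · intro p
      by_contra hcon
      push Not at hcon
      obtain ⟨f, g, hf, hg, hfg⟩ := hforce p (fun r c => B (eR.symm r) (eC.symm c)) (by
        intro c hc
        have := hcon (ψ c) (Finset.mem_map_of_mem ψ hc)
        rw [hψ] at this
        simp only [OrderIso.apply_symm_apply] at this
        exact this.symm)
      unfold orderedCopyCount at hB
      rw [Fintype.card_eq_zero_iff] at hB
      exact hB.false ⟨(fun i => eR.symm (f i), fun j => eC.symm (g j)),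
        eR.symm.strictMono.comp hf, eC.symm.strictMono.comp hg, hfg⟩
  · have h1 := count_le (k := 65) H (fun i j => val (eR i) (eC j)) i0 j0 (Z.map ψ) (by
      intro f g hf hg hfg
      have := hZ (fun i => eR (f i)) (fun j => eC (g j)) (eR.strictMono.comp hf)
        (eC.strictMono.comp hg) hfg
      have h2 := Finset.mem_map_of_mem ψ this
      rw [hψ] at h2
      simpa using h2)
    rw [Finset.card_map] at h1
    exact le_trans h1 (Nat.mul_le_mul_right _ hZc)

/-- Pad a `5 × 5` pattern by zero rows and zero columns (at the end) to a `66 × 66` pattern. -/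
def pad (H' : Fin 5 → Fin 5 → Bool) : Fin 66 → Fin 66 → Bool :=
  fun i j => if h : i.val < 5 ∧ j.val < 5 then H' ⟨i.val, h.1⟩ ⟨j.val, h.2⟩ else false

theorem pad_castLE (H' : Fin 5 → Fin 5 → Bool) (i j : Fin 5) :
    pad H' (Fin.castLE (by norm_num) i) (Fin.castLE (by norm_num) j) = H' i j := by
  simp [pad, i.isLt, j.isLt]

/-- Set version of `far_ge`. -/
theorem far_ge' {n : ℕ} {ι : Type} [Fintype ι] (A B : Fin n → Fin n → Bool)
    (F : ι → Set (Fin n × Fin n)) (hdisj : ∀ p q c, c ∈ F p → c ∈ F q → p = q)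
    (hdiff : ∀ p, ∃ c ∈ F p, A c.1 c.2 ≠ B c.1 c.2) :
    Fintype.card ι ≤ (Finset.univ.filter (fun rc : Fin n × Fin n => A rc.1 rc.2 ≠ B rc.1 rc.2)).card := by
  classical
  choose c hc hne using hdiff
  have hinj : Function.Injective c := by
    intro p q hpq
    exact hdisj p q (c p) (hc p) (hpq ▸ hc q)
  calc Fintype.card ι = (Finset.univ.image c).card := by
        rw [Finset.card_image_of_injective _ hinj, Finset.card_univ]
    _ ≤ _ := by
        apply Finset.card_le_card
        intro x hx
        obtain ⟨p, -, rfl⟩ := Finset.mem_image.mp hx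
        simp only [Finset.mem_filter, Finset.mem_univ, true_and]
        exact hne p

/-- **Reduction, padded `5 × 5` version.** Labels are arbitrary types `R`, `C` with injective keys
into `ℕ` bounded by `n = (386 h + 2) 2^h` (`x < y` means `kR x < kR y`); positions of `Fin n` that
are not keys become zero lines. `z : κ → R × C` (with `|κ| ≤ 2^h`) lists the cells through which all
copies of the `5 × 5` pattern pass at position `(i0, j0)`; `F : ι → Set (R × C)` (with
`4^h ≤ |ι|`) are pairwise disjoint forcing sets for the padded pattern. -/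
theorem reduction5 (H' : Fin 5 → Fin 5 → Bool) (hrow : ∀ i, ∃ j, H' i j = true)
    (hcol : ∀ j, ∃ i, H' i j = true) (i0 j0 : Fin 5)
    (hyp : ∀ h : ℕ, 1 ≤ h →
      ∃ (R C : Type) (kR : R → ℕ) (kC : C → ℕ) (val : R → C → Bool)
        (κ : Type) (_ : Fintype κ) (z : κ → R × C)
        (ι : Type) (_ : Fintype ι) (F : ι → Set (R × C)),
        Function.Injective kR ∧ Function.Injective kC ∧
        (∀ x, kR x < (386 * h + 2) * 2 ^ h) ∧ (∀ y, kC y < (386 * h + 2) * 2 ^ h) ∧
        Fintype.card κ ≤ 2 ^ h ∧ 2 ^ h * 2 ^ h ≤ Fintype.card ι ∧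
        (∀ (f : Fin 5 → R) (g : Fin 5 → C), StrictMono (fun i => kR (f i)) →
          StrictMono (fun j => kC (g j)) →
          (∀ i j, val (f i) (g j) = H' i j) → ∃ l, z l = (f i0, g j0)) ∧
        (∀ p q c, c ∈ F p → c ∈ F q → p = q) ∧
        (∀ p (B : R → C → Bool), (∀ c ∈ F p, B c.1 c.2 = val c.1 c.2) →
          ∃ (f : Fin 66 → R) (g : Fin 66 → C), StrictMono (fun i => kR (f i)) ∧
            StrictMono (fun j => kC (g j)) ∧ ∀ i j, B (f i) (g j) = pad H' i j)) :
    Goal (pad H') := by
  classical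
  apply goal_of_nat
  intro h hh
  obtain ⟨R, C, kR, kC, val, κ, _, z, ι, _, F, hkR, hkC, hbR, hbC, hκ, hι, hhit, hdisj, hforce⟩ :=
    hyp h hh
  set n := (386 * h + 2) * 2 ^ h with hn
  let eR : R → Fin n := fun x => ⟨kR x, hbR x⟩
  let eC : C → Fin n := fun y => ⟨kC y, hbC y⟩
  have heR : Function.Injective eR := fun a b hab => hkR (congrArg Fin.val hab)
  have heC : Function.Injective eC := fun a b hab => hkC (congrArg Fin.val hab)
  let A : Fin n → Fin n → Bool := fun i j => decide (∃ x y, eR x = i ∧ eC y = j ∧ val x y = true)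
  have hA : ∀ x y, A (eR x) (eC y) = val x y := by
    intro x y
    by_cases hv : val x y = true
    · rw [hv]
      exact decide_eq_true ⟨x, y, rfl, rfl, hv⟩
    · have hv' : val x y = false := by simpa using hv
      rw [hv']
      apply decide_eq_false
      rintro ⟨x', y', hx, hy, hxy⟩
      rw [heR hx, heC hy] at hxy
      exact hv hxy
  have hAtrue : ∀ i j, A i j = true → (∃ x, eR x = i) ∧ (∃ y, eC y = j) := by
    intro i j hij
    obtain ⟨x, y, hx, hy, -⟩ := of_decide_eq_true hij
    exact ⟨⟨x, hx⟩, ⟨y, hy⟩⟩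
  refine ⟨A, ?_, ?_⟩
  · intro B hB
    refine le_trans hι ?_
    apply far_ge' A B (fun p => (fun c : R × C => (eR c.1, eC c.2)) '' F p)
    · rintro p q c ⟨c1, hc1, rfl⟩ ⟨c2, hc2, hEq⟩
      have h1 : c2.1 = c1.1 := heR (congrArg Prod.fst hEq)
      have h2 : c2.2 = c1.2 := heC (congrArg Prod.snd hEq)
      have : c2 = c1 := Prod.ext h1 h2
      exact hdisj p q c1 hc1 (this ▸ hc2)
    · intro p
      by_contra hcon
      push Not at hcon
      obtain ⟨f, g, hf, hg, hfg⟩ := hforce p (fun r c => B (eR r) (eC c)) (by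
        intro c hc
        have := hcon (eR c.1, eC c.2) ⟨c, hc, rfl⟩
        simp only at this
        rw [← this, hA])
      unfold orderedCopyCount at hB
      rw [Fintype.card_eq_zero_iff] at hB
      exact hB.false ⟨(fun i => eR (f i), fun j => eC (g j)),
        fun a b hab => hf hab, fun a b hab => hg hab, hfg⟩
  · have h1 := count_le (k := 65) (pad H') A (Fin.castLE (by norm_num) i0)
      (Fin.castLE (by norm_num) j0)
      (Finset.univ.image (fun l : κ => (eR (z l).1, eC (z l).2))) (by
      intro f g hf hg hfg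
      have hfr : ∀ i : Fin 5, ∃ x, eR x = f (Fin.castLE (by norm_num) i) := by
        intro i
        obtain ⟨j, hj⟩ := hrow i
        have := hfg (Fin.castLE (by norm_num) i) (Fin.castLE (by norm_num) j)
        rw [pad_castLE, hj] at this
        exact (hAtrue _ _ this).1
      have hgc : ∀ j : Fin 5, ∃ y, eC y = g (Fin.castLE (by norm_num) j) := by
        intro j
        obtain ⟨i, hi⟩ := hcol j
        have := hfg (Fin.castLE (by norm_num) i) (Fin.castLE (by norm_num) j)
        rw [pad_castLE, hi] at this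
        exact (hAtrue _ _ this).2
      choose f' hf' using hfr
      choose g' hg' using hgc
      obtain ⟨l, hl⟩ := hhit f' g'
        (by
          intro a b hab
          have h1 : f (Fin.castLE (by norm_num) a) < f (Fin.castLE (by norm_num) b) :=
            hf ((Fin.castLE_lt_castLE_iff _).mpr hab)
          rw [← hf' a, ← hf' b] at h1
          exact h1)
        (by
          intro a b hab
          have h1 : g (Fin.castLE (by norm_num) a) < g (Fin.castLE (by norm_num) b) :=
            hg ((Fin.castLE_lt_castLE_iff _).mpr hab)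
          rw [← hg' a, ← hg' b] at h1
          exact h1)
        (by
          intro i j
          rw [← hA, hf', hg', hfg, pad_castLE])
      refine Finset.mem_image.mpr ⟨l, Finset.mem_univ _, ?_⟩
      rw [hl, hf', hg'])
    refine le_trans h1 (Nat.mul_le_mul_right _ ?_)
    exact le_trans Finset.card_image_le (by simpa using hκ)

end Crest.Agent.OMTransfer
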