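import Mathlib

/-!
Riemann sums over `Fin`-indexed tagged partitions (for S0328).
-/

set_option autoImplicit false
open MeasureTheory

namespace Crest.Agent.Lib_helper72_Riemann

/-- Every point of `[t 0, t last]` lies in some piece of the partition. -/
theorem exists_piece {N : ℕ} (t : Fin (N + 1) → ℝ) (hlt : t 0 < t (Fin.last N)) (hmono : Monotone t)
    {τ : ℝ} (h0 : t 0 ≤ τ) (h1 : τ ≤ t (Fin.last N)) :
    ∃ i : Fin N, τ ∈ Set.Icc (t i.castSucc) (t i.succ) := by
  have hN : 0 < N := by
    rcases Nat.eq_zero_or_pos N with h | h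
    · subst h
      exact absurd hlt (by simp)
    · exact h
  have key : ∀ j : Fin (N + 1), τ ≤ t j → ∃ i : Fin N, τ ∈ Set.Icc (t i.castSucc) (t i.succ) := by
    intro j
    induction j using Fin.induction with
    | zero =>
      intro h
      refine ⟨⟨0, hN⟩, ?_, ?_⟩
      · have : (Fin.castSucc (⟨0, hN⟩ : Fin N)) = 0 := rfl
        rw [this]; exact h0
      · exact le_trans h (hmono (Fin.zero_le _))
    | succ j ih =>
      intro h
      by_cases hj : τ ≤ t j.castSucc
      · exact ih hj
      · exact ⟨j, le_of_lt (not_le.mp hj), h⟩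
  exact key _ h1

/-- extension of a `Fin`-indexed partition to `ℕ`. -/
noncomputable def ext {N : ℕ} (t : Fin (N + 1) → ℝ) (k : ℕ) : ℝ := t ⟨min k N, by omega⟩

theorem ext_castSucc {N : ℕ} (t : Fin (N + 1) → ℝ) (i : Fin N) : ext t (i : ℕ) = t i.castSucc := by
  unfold ext
  congr 1
  ext
  simp [le_of_lt i.2]

theorem ext_succ {N : ℕ} (t : Fin (N + 1) → ℝ) (i : Fin N) : ext t ((i : ℕ) + 1) = t i.succ := by
  unfold ext
  congr 1
  ext
  simp

theorem ext_zero {N : ℕ} (t : Fin (N + 1) → ℝ) : ext t 0 = t 0 := by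
  unfold ext
  congr 1

theorem ext_last {N : ℕ} (t : Fin (N + 1) → ℝ) : ext t N = t (Fin.last N) := by
  unfold ext
  congr 1
  ext
  simp

/-- The mesh widths telescope. -/
theorem sum_widths {N : ℕ} (t : Fin (N + 1) → ℝ) :
    ∑ i : Fin N, (t i.succ - t i.castSucc) = t (Fin.last N) - t 0 := by
  have h := Finset.sum_range_sub (ext t) N
  rw [← Fin.sum_univ_eq_sum_range (fun k => ext t (k + 1) - ext t k) N] at h
  rw [ext_zero, ext_last] at h
  rw [← h]
  refine Finset.sum_congr rfl (fun i _ => ?_)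
  rw [ext_succ, ext_castSucc]

/-- The integral splits along the partition. -/
theorem sum_integrals {N : ℕ} (t : Fin (N + 1) → ℝ) (hmono : Monotone t) (f : ℝ → ℝ)
    (hf : ContinuousOn f (Set.Icc (t 0) (t (Fin.last N)))) :
    ∑ i : Fin N, ∫ x in (t i.castSucc)..(t i.succ), f x = ∫ x in (t 0)..(t (Fin.last N)), f x := by
  have hint : ∀ k < N, IntervalIntegrable f volume (ext t k) (ext t (k + 1)) := by
    intro k hk
    have e1 := ext_castSucc t ⟨k, hk⟩
    have e2 := ext_succ t ⟨k, hk⟩
    simp only at e1 e2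
    rw [e1, e2]
    apply ContinuousOn.intervalIntegrable
    apply hf.mono
    rw [Set.uIcc_of_le (hmono (Fin.castSucc_lt_succ).le)]
    exact Set.Icc_subset_Icc (hmono (Fin.zero_le _)) (hmono (Fin.le_last _))
  have h := intervalIntegral.sum_integral_adjacent_intervals hint
  rw [← Fin.sum_univ_eq_sum_range (fun k => ∫ x in (ext t k)..(ext t (k + 1)), f x) N] at h
  rw [ext_zero, ext_last] at h
  rw [← h]
  refine Finset.sum_congr rfl (fun i _ => ?_)
  rw [ext_succ, ext_castSucc]

/-- Riemann sums with tags: uniform closeness. -/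
theorem riemann_close {α β : ℝ} (f : ℝ → ℝ) (hf : ContinuousOn f (Set.Icc α β))
    {ε : ℝ} (hε : 0 < ε) :
    ∃ δ : ℝ, 0 < δ ∧ ∀ (N : ℕ) (t : Fin (N + 1) → ℝ) (c : Fin N → ℝ),
      StrictMono t → t 0 = α → t (Fin.last N) = β →
      (∀ i : Fin N, t i.succ - t i.castSucc ≤ δ) →
      (∀ i : Fin N, t i.castSucc ≤ c i ∧ c i ≤ t i.succ) →
      ∀ F : Fin N → ℝ,
        (∀ i, |F i - f (c i) * (t i.succ - t i.castSucc)| ≤ ε * (t i.succ - t i.castSucc)) →
        |∑ i, F i - ∫ x in α..β, f x| ≤ 2 * ε * (β - α) := by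
  have huc : UniformContinuousOn f (Set.Icc α β) :=
    isCompact_Icc.uniformContinuousOn_of_continuous hf
  rw [Metric.uniformContinuousOn_iff] at huc
  obtain ⟨δ, hδ, hδf⟩ := huc ε hε
  refine ⟨δ / 2, by positivity, ?_⟩
  intro N t c hst h0 hl hmesh htag F hF
  have hmono := hst.monotone
  have hf' : ContinuousOn f (Set.Icc (t 0) (t (Fin.last N))) := by rw [h0, hl]; exact hf
  have hsplit := sum_integrals t hmono f hf'
  rw [h0, hl] at hsplit
  rw [← hsplit, ← Finset.sum_sub_distrib]
  have hpiece : ∀ i : Fin N, |F i - ∫ x in (t i.castSucc)..(t i.succ), f x|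
      ≤ 2 * ε * (t i.succ - t i.castSucc) := by
    intro i
    have hle : t i.castSucc ≤ t i.succ := hmono (Fin.castSucc_lt_succ).le
    have hsub : Set.Icc (t i.castSucc) (t i.succ) ⊆ Set.Icc α β := by
      rw [← h0, ← hl]
      exact Set.Icc_subset_Icc (hmono (Fin.zero_le _)) (hmono (Fin.le_last _))
    have hc : c i ∈ Set.Icc α β := hsub ⟨(htag i).1, (htag i).2⟩
    have hbound : ∀ x ∈ Set.uIoc (t i.castSucc) (t i.succ), ‖f x - f (c i)‖ ≤ ε := by
      intro x hx
      rw [Set.uIoc_of_le hle] at hx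
      have hx' : x ∈ Set.Icc α β := hsub ⟨hx.1.le, hx.2⟩
      have hd : dist x (c i) < δ := by
        rw [Real.dist_eq, abs_lt]
        constructor <;> linarith [hmesh i, (htag i).1, (htag i).2, hx.1, hx.2]
      have := hδf x hx' (c i) hc hd
      rw [Real.dist_eq] at this
      exact this.le
    have hint : IntervalIntegrable f volume (t i.castSucc) (t i.succ) := by
      apply ContinuousOn.intervalIntegrable
      rw [Set.uIcc_of_le hle]
      exact hf.mono hsub
    have h1 : ‖∫ x in (t i.castSucc)..(t i.succ), (f x - f (c i))‖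
        ≤ ε * |t i.succ - t i.castSucc| :=
      intervalIntegral.norm_integral_le_of_norm_le_const hbound
    rw [intervalIntegral.integral_sub hint (by simp), intervalIntegral.integral_const,
      abs_of_nonneg (by linarith), Real.norm_eq_abs, smul_eq_mul] at h1
    have h2 := hF i
    have h3 : F i - ∫ x in (t i.castSucc)..(t i.succ), f x
        = (F i - f (c i) * (t i.succ - t i.castSucc))
          - ((∫ x in (t i.castSucc)..(t i.succ), f x) - (t i.succ - t i.castSucc) * f (c i)) := by
      ring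
    rw [h3]
    calc _ ≤ |F i - f (c i) * (t i.succ - t i.castSucc)|
          + |(∫ x in (t i.castSucc)..(t i.succ), f x) - (t i.succ - t i.castSucc) * f (c i)| :=
          abs_sub _ _
      _ ≤ _ := by linarith
  calc |∑ i, (F i - ∫ x in (t i.castSucc)..(t i.succ), f x)|
      ≤ ∑ i, |F i - ∫ x in (t i.castSucc)..(t i.succ), f x| := Finset.abs_sum_le_sum_abs _ _
    _ ≤ ∑ i, 2 * ε * (t i.succ - t i.castSucc) := Finset.sum_le_sum (fun i _ => hpiece i)
    _ = 2 * ε * (β - α) := by rw [← Finset.mul_sum, sum_widths, h0, hl]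

end Crest.Agent.Lib_helper72_Riemann
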