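import Mathlib
import Crest.Prelude.Def_TruncExpWeight

/-!
Helper library for S0423 (helper79): Fubini on the positive orthant and the `ε`-approach half
(second conjunct) of the statement.
-/

set_option autoImplicit false
open MeasureTheory Set Real

namespace Crest.Agent.Lib_helper79_S0423Lower


lemma restrict_orth (n : ℕ) : (volume : Measure (Fin n → ℝ)).restrict (Set.pi Set.univ (fun _ : Fin n => Set.Ioi (0:ℝ)))
      = Measure.pi (fun _ : Fin n => (volume : Measure ℝ).restrict (Set.Ioi 0)) := by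
  rw [volume_pi, Measure.restrict_pi_pi]

/-- Fubini: peel off the first coordinate of an integral over the positive orthant. -/
lemma integral_orth_succ {n : ℕ} (G : (Fin (n+1) → ℝ) → ℝ)
    (hG : IntegrableOn G (Set.pi Set.univ (fun _ : Fin (n+1) => Set.Ioi (0:ℝ)))) :
    IntegrableOn (fun y : Fin n → ℝ => ∫ t in Set.Ioi (0:ℝ), G (Fin.cons t y))
      (Set.pi Set.univ (fun _ : Fin n => Set.Ioi (0:ℝ))) ∧
    ∫ x in Set.pi Set.univ (fun _ : Fin (n+1) => Set.Ioi (0:ℝ)), G x
      = ∫ y in Set.pi Set.univ (fun _ : Fin n => Set.Ioi (0:ℝ)), ∫ t in Set.Ioi (0:ℝ), G (Fin.cons t y) := by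
  unfold IntegrableOn at hG ⊢
  rw [restrict_orth] at hG ⊢
  rw [restrict_orth]
  have mp := (measurePreserving_piFinSuccAbove (fun _ : Fin (n+1) => (volume : Measure ℝ).restrict (Set.Ioi 0)) 0).symm
  rw [← mp.integral_comp']
  have hG' : Integrable (fun p : ℝ × (Fin n → ℝ) => G ((MeasurableEquiv.piFinSuccAbove (fun _ : Fin (n+1) => ℝ) 0).symm p))
      (((volume : Measure ℝ).restrict (Set.Ioi 0)).prod (Measure.pi (fun _ : Fin n => (volume : Measure ℝ).restrict (Set.Ioi 0)))) := by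
    exact (mp.integrable_comp_emb (MeasurableEquiv.measurableEmbedding _)).2 hG
  have e : ∀ (t : ℝ) (y : Fin n → ℝ), (MeasurableEquiv.piFinSuccAbove (fun _ : Fin (n+1) => ℝ) 0).symm (t, y) = Fin.cons t y := by
    intro t y
    simp [MeasurableEquiv.piFinSuccAbove_symm_apply, Fin.insertNthEquiv]
  rw [integral_prod_symm _ hG']
  have := hG'.integral_prod_right
  simp_rw [e] at this ⊢
  exact ⟨this, trivial⟩

lemma exp_neg_mul_sum {n : ℕ} (b : ℝ) (x : Fin n → ℝ) :
    Real.exp (-(b * ∑ i, x i)) = ∏ i, Real.exp ((-b) * x i) := by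
  rw [← Real.exp_sum]; congr 1; rw [Finset.mul_sum, ← Finset.sum_neg_distrib]
  exact Finset.sum_congr rfl (fun i _ => by ring)

lemma integrableOn_exp_neg_mul_sum (n : ℕ) {b : ℝ} (hb : 0 < b) :
    IntegrableOn (fun x : Fin n → ℝ => Real.exp (-(b * ∑ i, x i)))
      (Set.pi Set.univ (fun _ : Fin n => Set.Ioi (0:ℝ))) := by
  unfold IntegrableOn
  rw [restrict_orth]
  simp_rw [exp_neg_mul_sum]
  exact Integrable.fintype_prod (f := fun _ : Fin n => fun t : ℝ => Real.exp ((-b) * t))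
    (fun _ => integrableOn_exp_mul_Ioi (by linarith) 0)

lemma integral_exp_neg_mul_sum (n : ℕ) {b : ℝ} (hb : 0 < b) :
    ∫ x in Set.pi Set.univ (fun _ : Fin n => Set.Ioi (0:ℝ)), Real.exp (-(b * ∑ i, x i)) = (1/b)^n := by
  rw [restrict_orth]
  simp_rw [exp_neg_mul_sum]
  rw [integral_fintype_prod_eq_pow (fun t : ℝ => Real.exp ((-b) * t)), integral_exp_mul_Ioi (by linarith) 0]
  simp
  



local notation "g" => Crest.AlgGeometry.truncExpWeight

lemma g_nonneg (y : ℝ) : 0 ≤ g y := by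
  unfold Crest.AlgGeometry.truncExpWeight
  split_ifs with h
  · norm_num
  · push Not at h
    positivity

lemma g_le_one (y : ℝ) : g y ≤ 1 := by
  unfold Crest.AlgGeometry.truncExpWeight
  split_ifs with h
  · norm_num
  · have h1 : y + 1 ≤ Real.exp y := Real.add_one_le_exp y
    rw [Real.exp_neg, ← div_eq_mul_inv, div_le_one (Real.exp_pos y)]
    linarith

lemma g_measurable : Measurable g := by
  unfold Crest.AlgGeometry.truncExpWeight
  exact Measurable.ite measurableSet_Iic measurable_const (by fun_prop)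

/-- `φ z = (1 - g z) e^{-z/2}`. -/
noncomputable def phi (z : ℝ) : ℝ := (1 - g z) * Real.exp (-z / 2)

lemma phi_nonneg (z : ℝ) : 0 ≤ phi z :=
  mul_nonneg (sub_nonneg.2 (g_le_one z)) (Real.exp_pos _).le

lemma phi_eq_indicator : phi = (Set.Ioi (0:ℝ)).indicator
    (fun z => Real.exp ((-1/2) * z) - Real.exp ((-3/2) * z) - z ^ ((2:ℝ) - 1) * Real.exp (-((3/2) * z))) := by
  funext z
  unfold phi Crest.AlgGeometry.truncExpWeight
  by_cases hz : z ≤ 0
  · rw [Set.indicator_of_notMem (by simpa using hz)]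
    simp [hz]
  · rw [Set.indicator_of_mem (by simpa using hz)]
    simp only [hz, if_false]
    have e1 : Real.exp (-z) * Real.exp (-z/2) = Real.exp ((-3/2) * z) := by
      rw [← Real.exp_add]; congr 1; ring
    have e2 : Real.exp (-((3/2) * z)) = Real.exp ((-3/2) * z) := by congr 1; ring
    have e3 : Real.exp (-z/2) = Real.exp ((-1/2) * z) := by congr 1; ring
    have e4 : z ^ ((2:ℝ) - 1) = z := by norm_num
    rw [e2, e4, ← e1, ← e3]
    ring

lemma intOn_a : IntegrableOn (fun z : ℝ => Real.exp ((-1/2) * z)) (Set.Ioi 0) :=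
  integrableOn_exp_mul_Ioi (by norm_num) 0
lemma intOn_b : IntegrableOn (fun z : ℝ => Real.exp ((-3/2) * z)) (Set.Ioi 0) :=
  integrableOn_exp_mul_Ioi (by norm_num) 0
lemma intOn_c : IntegrableOn (fun z : ℝ => z ^ ((2:ℝ) - 1) * Real.exp (-((3/2) * z))) (Set.Ioi 0) := by
  by_contra h
  have h1 := Real.integral_rpow_mul_exp_neg_mul_Ioi (a := 2) (r := 3/2) (by norm_num) (by norm_num)
  rw [integral_undef h] at h1
  have : (0:ℝ) < (1 / (3/2)) ^ (2:ℝ) * Real.Gamma 2 := by positivity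
  linarith

lemma phi_integrable : Integrable phi := by
  rw [phi_eq_indicator, integrable_indicator_iff measurableSet_Ioi]
  exact (intOn_a.sub intOn_b).sub intOn_c

lemma integral_phi : ∫ z, phi z = 8/9 := by
  rw [phi_eq_indicator, integral_indicator measurableSet_Ioi]
  have hab : IntegrableOn (fun z : ℝ => Real.exp ((-1/2) * z) - Real.exp ((-3/2) * z)) (Set.Ioi 0) :=
    intOn_a.sub intOn_b
  rw [integral_sub hab intOn_c, integral_sub intOn_a intOn_b]
  rw [integral_exp_mul_Ioi (by norm_num) 0, integral_exp_mul_Ioi (by norm_num) 0,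
    Real.integral_rpow_mul_exp_neg_mul_Ioi (by norm_num) (by norm_num)]
  have : Real.Gamma 2 = 1 := by
    have := Real.Gamma_nat_eq_factorial 1
    norm_num at this
    simp
  rw [this]
  norm_num

lemma key1 (y : ℝ) : ∫ t in Set.Ioi (0:ℝ), (1 - g (y + 2 * t)) * Real.exp (-t) ≤ 4/9 * Real.exp (y/2) := by
  have e : ∀ t : ℝ, (1 - g (y + 2 * t)) * Real.exp (-t) = Real.exp (y/2) * phi (y + 2 * t) := by
    intro t
    unfold phi
    have : Real.exp (-t) = Real.exp (y/2) * Real.exp (-(y + 2 * t)/2) := by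
      rw [← Real.exp_add]; congr 1; ring
    rw [this]; ring
  simp_rw [e]
  have hint : Integrable (fun t : ℝ => phi (y + 2 * t)) :=
    (phi_integrable.comp_add_left y).comp_mul_left' (by norm_num : (2:ℝ) ≠ 0)
  have h1 : ∫ t in Set.Ioi (0:ℝ), Real.exp (y/2) * phi (y + 2 * t) ≤ ∫ t, Real.exp (y/2) * phi (y + 2 * t) := by
    apply setIntegral_le_integral (hint.const_mul _)
    exact Filter.Eventually.of_forall (fun t => mul_nonneg (Real.exp_pos _).le (phi_nonneg _))
  have h2 : ∫ t, Real.exp (y/2) * phi (y + 2 * t) = Real.exp (y/2) * (4/9) := by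
    rw [integral_const_mul]
    congr 1
    rw [Measure.integral_comp_mul_left (fun s => phi (y + s)) 2, integral_add_left_eq_self, integral_phi]
    norm_num
  linarith


lemma integrableOn_G {n : ℕ} (c : ℝ) (a : Fin n → ℝ) :
    IntegrableOn (fun x : Fin n → ℝ => g (c + ∑ i, a i * x i) * Real.exp (-∑ i, x i))
      (Set.pi Set.univ (fun _ : Fin n => Set.Ioi (0:ℝ))) := by
  have h1 := integrableOn_exp_neg_mul_sum n (b := 1) one_pos
  simp only [one_mul] at h1
  refine Integrable.mono' h1 ?_ ?_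
  · apply Measurable.aestronglyMeasurable
    apply Measurable.mul
    · exact g_measurable.comp (by fun_prop)
    · fun_prop
  · refine Filter.Eventually.of_forall (fun x => ?_)
    rw [Real.norm_eq_abs, abs_mul, abs_of_nonneg (g_nonneg _), abs_of_pos (Real.exp_pos _)]
    exact mul_le_of_le_one_left (Real.exp_pos _).le (g_le_one _)

lemma key2 (y : ℝ) : 1 - 4/9 * Real.exp (y/2) ≤ ∫ t in Set.Ioi (0:ℝ), g (y + 2 * t) * Real.exp (-t) := by
  have h := key1 y
  have i1 : IntegrableOn (fun t : ℝ => Real.exp (-t)) (Set.Ioi 0) := integrableOn_exp_neg_Ioi 0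
  have i2 : IntegrableOn (fun t : ℝ => g (y + 2 * t) * Real.exp (-t)) (Set.Ioi 0) := by
    refine Integrable.mono' i1 ?_ ?_
    · apply Measurable.aestronglyMeasurable
      apply Measurable.mul
      · exact g_measurable.comp (by fun_prop)
      · fun_prop
    · refine Filter.Eventually.of_forall (fun x => ?_)
      rw [Real.norm_eq_abs, abs_mul, abs_of_nonneg (g_nonneg _), abs_of_pos (Real.exp_pos _)]
      exact mul_le_of_le_one_left (Real.exp_pos _).le (g_le_one _)
  have e : ∫ t in Set.Ioi (0:ℝ), (1 - g (y + 2 * t)) * Real.exp (-t)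
      = 1 - ∫ t in Set.Ioi (0:ℝ), g (y + 2 * t) * Real.exp (-t) := by
    have e0 : ∫ t in Set.Ioi (0:ℝ), (1 - g (y + 2 * t)) * Real.exp (-t)
        = ∫ t in Set.Ioi (0:ℝ), (Real.exp (-t) - g (y + 2 * t) * Real.exp (-t)) := by
      congr 1
      funext t
      ring
    rw [e0, integral_sub i1 i2, integral_exp_neg_Ioi_zero]
  rw [e] at h
  linarith

/-- The coefficient vector `(2, -2/n, …, -2/n)`. -/
noncomputable def avec (n : ℕ) : Fin (n+1) → ℝ := Fin.cons 2 (fun _ => -2 / (n:ℝ))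

lemma avec_sum (n : ℕ) (hn : 1 ≤ n) : ∑ i, avec n i = 0 := by
  unfold avec
  rw [Fin.sum_univ_succ]
  simp only [Fin.cons_zero, Fin.cons_succ, Finset.sum_const, Finset.card_univ, Fintype.card_fin,
    nsmul_eq_mul]
  have : (n:ℝ) ≠ 0 := by positivity
  field_simp
  ring

lemma main_ineq (n : ℕ) (hn : 1 ≤ n) :
    1 - 4/9 * Real.exp (2/3) * (1 / (1 + 1/(n:ℝ)))^n ≤
      ∫ x in Set.pi Set.univ (fun _ : Fin (n+1) => Set.Ioi (0:ℝ)),
        g (4/3 + ∑ i, avec n i * x i) * Real.exp (-∑ i, x i) := by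
  have hn0 : (0:ℝ) < n := by positivity
  obtain ⟨hI, hE⟩ := integral_orth_succ _ (integrableOn_G (4/3) (avec n))
  rw [hE]
  have hb : (0:ℝ) < 1 + 1/(n:ℝ) := by positivity
  have j1 := integrableOn_exp_neg_mul_sum n (b := 1) one_pos
  have j2 := integrableOn_exp_neg_mul_sum n hb
  have e1 := integral_exp_neg_mul_sum n (b := 1) one_pos
  have e2 := integral_exp_neg_mul_sum n hb
  have lhs : 1 - 4/9 * Real.exp (2/3) * (1 / (1 + 1/(n:ℝ)))^n
      = ∫ y in Set.pi Set.univ (fun _ : Fin n => Set.Ioi (0:ℝ)),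
          (Real.exp (-(1 * ∑ i, y i)) - 4/9 * Real.exp (2/3) * Real.exp (-((1 + 1/(n:ℝ)) * ∑ i, y i))) := by
    rw [integral_sub j1 (j2.const_mul _), integral_const_mul, e1, e2]
    simp
  rw [lhs]
  refine setIntegral_mono (j1.sub (j2.const_mul _)) hI (fun y => ?_)
  have e3 : ∀ t : ℝ, g (4/3 + ∑ i, avec n i * (Fin.cons t y : Fin (n+1) → ℝ) i)
        * Real.exp (-∑ i, (Fin.cons t y : Fin (n+1) → ℝ) i)
      = Real.exp (-∑ i, y i) * (g ((4/3 - 2/(n:ℝ) * ∑ i, y i) + 2 * t) * Real.exp (-t)) := by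
    intro t
    rw [Fin.sum_univ_succ, Fin.sum_univ_succ]
    simp only [avec, Fin.cons_zero, Fin.cons_succ]
    have s1 : ∑ i : Fin n, -2 / (n:ℝ) * y i = - (2/(n:ℝ) * ∑ i, y i) := by
      rw [Finset.mul_sum, ← Finset.sum_neg_distrib]
      exact Finset.sum_congr rfl (fun i _ => by ring)
    rw [s1]
    have s2 : Real.exp (-(t + ∑ i, y i)) = Real.exp (-∑ i, y i) * Real.exp (-t) := by
      rw [← Real.exp_add]; congr 1; ring
    rw [s2]
    have s3 : (4/3 + (2 * t + -(2 / (n:ℝ) * ∑ i, y i))) = 4/3 - 2/(n:ℝ) * ∑ i, y i + 2 * t := by ring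
    rw [s3]; ring
  simp_rw [e3]
  rw [integral_const_mul]
  have k := key2 (4/3 - 2/(n:ℝ) * ∑ i, y i)
  have hpos := Real.exp_pos (-∑ i, y i)
  have e4 : Real.exp (-(1 * ∑ i, y i)) - 4/9 * Real.exp (2/3) * Real.exp (-((1 + 1/(n:ℝ)) * ∑ i, y i))
      = Real.exp (-∑ i, y i) * (1 - 4/9 * Real.exp ((4/3 - 2/(n:ℝ) * ∑ i, y i)/2)) := by
    have s4 : Real.exp (-((1 + 1/(n:ℝ)) * ∑ i, y i))
        = Real.exp (-∑ i, y i) * Real.exp (-(1/(n:ℝ) * ∑ i, y i)) := by
      rw [← Real.exp_add]; congr 1; ring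
    have s5 : Real.exp ((4/3 - 2/(n:ℝ) * ∑ i, y i)/2)
        = Real.exp (2/3) * Real.exp (-(1/(n:ℝ) * ∑ i, y i)) := by
      rw [← Real.exp_add]; congr 1; ring
    rw [s4, s5, one_mul]; ring
  rw [e4]
  exact mul_le_mul_of_nonneg_left k hpos.le

/-- The second conjunct of S0423. -/
theorem lower : ∀ ε : ℝ, 0 < ε → ∃ (N : ℕ) (a : Fin N → ℝ), 1 ≤ N ∧ ∑ i, a i = 0 ∧
      3 / 4 * Real.exp (4 / 3) - Real.exp 1 / 3 - ε <
        Real.exp (4 / 3) / (4 / 3) *
          ∫ x in Set.pi Set.univ (fun _ : Fin N => Set.Ioi (0 : ℝ)),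
            Crest.AlgGeometry.truncExpWeight (4 / 3 + ∑ i, a i * x i) * Real.exp (-∑ i, x i) := by
  intro ε hε
  -- the limit
  have hlim : Filter.Tendsto (fun n : ℕ => Real.exp (4/3) / (4/3) *
      (1 - 4/9 * Real.exp (2/3) * (1 / (1 + 1/(n:ℝ)))^n)) Filter.atTop
      (nhds (Real.exp (4/3) / (4/3) * (1 - 4/9 * Real.exp (2/3) * (1 / Real.exp 1)))) := by
    have h0 := Real.tendsto_one_add_div_pow_exp 1
    have h1 : Filter.Tendsto (fun n : ℕ => (1 / (1 + 1/(n:ℝ)))^n) Filter.atTop (nhds (1 / Real.exp 1)) := by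
      have := (h0.inv₀ (Real.exp_pos 1).ne')
      simpa [one_div, inv_pow] using this
    exact (tendsto_const_nhds.sub (h1.const_mul _)).const_mul _
  have hval : Real.exp (4/3) / (4/3) * (1 - 4/9 * Real.exp (2/3) * (1 / Real.exp 1))
      = 3 / 4 * Real.exp (4 / 3) - Real.exp 1 / 3 := by
    have h2 : Real.exp (4/3) * Real.exp (2/3) = Real.exp 1 * Real.exp 1 := by
      rw [← Real.exp_add, ← Real.exp_add]; congr 1; norm_num
    have hp := Real.exp_pos 1
    field_simp
    nlinarith [h2]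
  rw [hval] at hlim
  have hev := hlim.eventually (lt_mem_nhds (show 3 / 4 * Real.exp (4 / 3) - Real.exp 1 / 3 - ε
      < 3 / 4 * Real.exp (4 / 3) - Real.exp 1 / 3 by linarith))
  obtain ⟨n, hn1, hn2⟩ := (hev.and (Filter.eventually_ge_atTop 1)).exists
  refine ⟨n+1, avec n, by omega, avec_sum n hn2, lt_of_lt_of_le hn1 ?_⟩
  exact mul_le_mul_of_nonneg_left (main_ineq n hn2) (by positivity)

end Crest.Agent.Lib_helper79_S0423Lower
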