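import Mathlib
open MeasureTheory Set Real Filter Topology

namespace Crest.Agent.Lib_helper80_StopLoss

theorem int_exp {c : ℝ} (hc : 0 < c) : ∫ u in Ioi (0:ℝ), exp (-(c * u)) = 1 / c := by
  have := Real.integral_rpow_mul_exp_neg_mul_Ioi (a := 1) (r := c) one_pos hc
  simpa using this

theorem int_mul_exp {c : ℝ} (hc : 0 < c) : ∫ u in Ioi (0:ℝ), u * exp (-(c * u)) = 1 / c ^ 2 := by
  have := Real.integral_rpow_mul_exp_neg_mul_Ioi (a := 2) (r := c) two_pos hc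
  have e : (2:ℝ) - 1 = 1 := by norm_num
  rw [e] at this
  simp only [Real.rpow_one] at this
  rw [this]
  have : Real.Gamma 2 = 1 := by
    have := Real.Gamma_nat_eq_factorial 1
    simp
  rw [this]
  have : (1 / c) ^ (2:ℝ) = (1 / c) ^ (2:ℕ) := by
    rw [← Real.rpow_natCast]; norm_num
  rw [this]; field_simp

theorem integrableOn_exp' {c : ℝ} (hc : 0 < c) :
    IntegrableOn (fun u : ℝ => exp (-(c * u))) (Ioi 0) := by
  by_contra h
  have h1 := int_exp hc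
  rw [integral_undef h] at h1
  have h2 : (1 / c) ≠ 0 := by positivity
  exact h2 h1.symm

theorem integrableOn_mul_exp' {c : ℝ} (hc : 0 < c) :
    IntegrableOn (fun u : ℝ => u * exp (-(c * u))) (Ioi 0) := by
  by_contra h
  have h1 := int_mul_exp hc
  rw [integral_undef h] at h1
  have h2 : (1 / c ^ 2) ≠ 0 := by positivity
  exact h2 h1.symm

/-- A continuous function dominated by `C (1+|u|)^2 e^{-u}` is integrable on `(0,∞)`. -/
theorem integrableOn_of_bound {F : ℝ → ℝ} (hF : Continuous F) (C : ℝ)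
    (hb : ∀ u : ℝ, 0 < u → |F u| ≤ C * (1 + u) ^ 2 * exp (-u)) :
    IntegrableOn F (Ioi 0) := by
  have hI : IntegrableOn (fun u : ℝ => (8 * |C|) * exp (-((1/2) * u))) (Ioi 0) :=
    (integrableOn_exp' (by norm_num : (0:ℝ) < 1/2)).const_mul _
  refine Integrable.mono' hI hF.aestronglyMeasurable ?_
  rw [ae_restrict_iff' measurableSet_Ioi]
  refine Eventually.of_forall fun u hu => ?_
  have hu' : 0 < u := hu
  rw [Real.norm_eq_abs]
  refine (hb u hu').trans ?_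
  have h1 : (1 + u) ^ 2 ≤ 8 * exp ((1/2) * u) := by
    have := Real.quadratic_le_exp_of_nonneg (x := (1/2) * u) (by positivity)
    nlinarith
  have h2 : exp ((1/2) * u) * exp (-u) = exp (-((1/2) * u)) := by
    rw [← exp_add]; congr 1; ring
  have h5 : 0 < exp (-u) := exp_pos _
  calc C * (1 + u) ^ 2 * exp (-u) ≤ |C| * (1 + u) ^ 2 * exp (-u) := by
        gcongr; exact le_abs_self C
    _ ≤ |C| * (8 * exp ((1/2) * u)) * exp (-u) := by gcongr
    _ = 8 * |C| * (exp ((1/2) * u) * exp (-u)) := by ring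
    _ = 8 * |C| * exp (-(1 / 2 * u)) := by rw [h2]

/-- quasi-concavity from the one-sign-change property of all forward differences -/
theorem quasiconcave_of_step (φ : ℝ → ℝ) (hc : Continuous φ)
    (hstep : ∀ d : ℝ, 0 < d → ∀ v₁ v₂ : ℝ, v₁ < v₂ → φ (v₁ + d) < φ v₁ → φ (v₂ + d) ≤ φ v₂)
    (p₁ p₂ p₃ : ℝ) (h12 : p₁ < p₂) (h23 : p₂ < p₃) :
    min (φ p₁) (φ p₃) ≤ φ p₂ := by
  by_contra hcon
  rw [not_le, lt_min_iff] at hcon
  obtain ⟨h1, h3⟩ := hcon
  -- neighbourhood of p₃ on which φ > φ p₂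
  have hopen : IsOpen {v | φ p₂ < φ v} := isOpen_lt continuous_const hc
  obtain ⟨η, hη, hball⟩ := Metric.isOpen_iff.mp hopen p₃ h3
  -- choose m
  obtain ⟨m, hm⟩ := exists_nat_gt ((p₂ - p₁) / η)
  have hp : 0 < p₂ - p₁ := sub_pos.mpr h12
  have hmpos : (0 : ℝ) < m := lt_of_le_of_lt (div_nonneg hp.le hη.le) hm
  set d : ℝ := (p₂ - p₁) / m with hd
  have hdpos : 0 < d := div_pos hp hmpos
  have hdη : d < η := by
    rw [hd, div_lt_iff₀ hmpos]
    rw [div_lt_iff₀ hη] at hm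
    linarith
  have hmd : (m : ℝ) * d = p₂ - p₁ := by
    rw [hd]; field_simp
  -- claim 1
  have claim1 : ∃ j : ℕ, j < m ∧ φ (p₁ + j * d + d) < φ (p₁ + j * d) := by
    by_contra hno
    push Not at hno
    have : ∀ j : ℕ, j ≤ m → φ p₁ ≤ φ (p₁ + j * d) := by
      intro j
      induction j with
      | zero => intro _; simp
      | succ k ih =>
        intro hk
        have h1 := ih (Nat.le_of_succ_le hk)
        have h2 := hno k (Nat.lt_of_succ_le hk)
        have e : p₁ + ((k + 1 : ℕ) : ℝ) * d = p₁ + k * d + d := by push_cast; ring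
        rw [e]; exact h1.trans h2
    have h := this m le_rfl
    rw [hmd] at h
    have e : p₁ + (p₂ - p₁) = p₂ := by ring
    rw [e] at h
    exact absurd h (not_le.mpr h1)
  obtain ⟨j, hjm, hj⟩ := claim1
  have hjlt : p₁ + j * d < p₂ := by
    have : (j : ℝ) + 1 ≤ m := by exact_mod_cast hjm
    nlinarith
  -- claim 2
  have claim2 : ∀ i : ℕ, φ (p₂ + i * d) ≤ φ p₂ := by
    intro i
    induction i with
    | zero => simp
    | succ k ih =>
      have hlt : p₁ + j * d < p₂ + k * d := by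
        have : (0 : ℝ) ≤ k * d := by positivity
        linarith
      have h := hstep d hdpos _ _ hlt hj
      have e : p₂ + ((k + 1 : ℕ) : ℝ) * d = p₂ + k * d + d := by push_cast; ring
      rw [e]; exact h.trans ih
  -- choose i
  set i : ℕ := ⌊(p₃ - p₂) / d⌋₊ with hi
  have hq : 0 ≤ (p₃ - p₂) / d := div_nonneg (sub_pos.mpr h23).le hdpos.le
  have hi1 : (i : ℝ) ≤ (p₃ - p₂) / d := Nat.floor_le hq
  have hi2 : (p₃ - p₂) / d < i + 1 := Nat.lt_floor_add_one _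
  rw [le_div_iff₀ hdpos] at hi1
  rw [div_lt_iff₀ hdpos] at hi2
  have hmem : p₂ + i * d ∈ Metric.ball p₃ η := by
    rw [Metric.mem_ball, Real.dist_eq, abs_lt]
    constructor <;> nlinarith
  have := hball hmem
  exact absurd (claim2 i) (not_le.mpr this)


/-- The hypotheses on the stop-loss transform `A v = E (v+Y)_+`. -/
structure IsStopLoss (A : ℝ → ℝ) : Prop where
  cont : Continuous A
  ge : ∀ v, v ≤ A v
  step : ∀ σ : ℝ, 0 < σ → ∀ d : ℝ, 0 < d → ∀ v₁ v₂ : ℝ, v₁ < v₂ →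
    exp (-(σ * d)) * A (v₁ + d) < A v₁ → exp (-(σ * d)) * A (v₂ + d) ≤ A v₂
  growth : ∃ C : ℝ, ∀ v, |A v| ≤ C * (1 + |v|)

theorem IsStopLoss.qc {A : ℝ → ℝ} (hA : IsStopLoss A) {σ : ℝ} (hσ : 0 < σ)
    (p₁ p₂ p₃ : ℝ) (h12 : p₁ < p₂) (h23 : p₂ < p₃) :
    min (exp (-(σ * p₁)) * A p₁) (exp (-(σ * p₃)) * A p₃) ≤ exp (-(σ * p₂)) * A p₂ := by
  refine quasiconcave_of_step (fun v => exp (-(σ * v)) * A v) ?_ ?_ p₁ p₂ p₃ h12 h23
  · have := hA.cont
    fun_prop
  · intro d hd v₁ v₂ hv h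
    have e : ∀ v, exp (-(σ * (v + d))) * A (v + d) = exp (-(σ * v)) * (exp (-(σ * d)) * A (v + d)) := by
      intro v
      rw [← mul_assoc, ← exp_add]; congr 2; ring
    simp only [e] at h ⊢
    have h1 : exp (-(σ * d)) * A (v₁ + d) < A v₁ := lt_of_mul_lt_mul_left h (exp_pos _).le
    exact mul_le_mul_of_nonneg_left (hA.step σ hσ d hd v₁ v₂ hv h1) (exp_pos _).le

theorem IsStopLoss.cmp_strict {A : ℝ → ℝ} (hA : IsStopLoss A) {σ x₀ z : ℝ} (hσ : 0 < σ)
    (hz : x₀ < z) (h : exp (-(σ * x₀)) * A x₀ < exp (-(σ * z)) * A z) :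
    (∀ v, v < x₀ → A v ≤ A x₀ * exp (σ * (v - x₀))) ∧
    (∀ v, x₀ < v → v < z → A x₀ * exp (σ * (v - x₀)) ≤ A v) := by
  have key : ∀ v, exp (-(σ * v)) * (A x₀ * exp (σ * (v - x₀))) = exp (-(σ * x₀)) * A x₀ := by
    intro v
    rw [mul_comm (A x₀), ← mul_assoc, ← exp_add]; congr 2; ring
  constructor
  · intro v hv
    have h1 := hA.qc hσ v x₀ z hv hz
    rcases min_le_iff.mp h1 with h2 | h2
    · rw [← key v] at h2
      exact le_of_mul_le_mul_left h2 (exp_pos _)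
    · exact absurd h2 (not_le.mpr h)
  · intro v hv hvz
    have h1 := hA.qc hσ x₀ v z hv hvz
    rw [min_eq_left h.le, ← key v] at h1
    exact le_of_mul_le_mul_left h1 (exp_pos _)

theorem IsStopLoss.cmp {A : ℝ → ℝ} (hA : IsStopLoss A) {σ₀ x₀ z : ℝ} (hσ : 0 < σ₀)
    (hz : x₀ < z) (hz0 : 0 < z) (h : A x₀ ≤ z * exp (-(σ₀ * (z - x₀)))) :
    (∀ v, v < x₀ → A v ≤ A x₀ * exp (σ₀ * (v - x₀))) ∧
    (∀ v, x₀ < v → v < z → A x₀ * exp (σ₀ * (v - x₀)) ≤ A v) := by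
  have hs : ∀ σ ∈ Ioo 0 σ₀, (∀ v, v < x₀ → A v ≤ A x₀ * exp (σ * (v - x₀))) ∧
      (∀ v, x₀ < v → v < z → A x₀ * exp (σ * (v - x₀)) ≤ A v) := by
    intro σ hσ'
    refine hA.cmp_strict hσ'.1 hz ?_
    have h1 : z * exp (-(σ₀ * (z - x₀))) < z * exp (-(σ * (z - x₀))) := by
      apply mul_lt_mul_of_pos_left _ hz0
      apply exp_lt_exp.mpr
      have : 0 < z - x₀ := sub_pos.mpr hz
      nlinarith [hσ'.2]
    have h2 : A x₀ < z * exp (-(σ * (z - x₀))) := lt_of_le_of_lt h h1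
    have h3 : exp (-(σ * x₀)) * A x₀ < exp (-(σ * x₀)) * (z * exp (-(σ * (z - x₀)))) :=
      mul_lt_mul_of_pos_left h2 (exp_pos _)
    have h4 : exp (-(σ * x₀)) * (z * exp (-(σ * (z - x₀)))) = exp (-(σ * z)) * z := by
      rw [mul_comm z, ← mul_assoc, ← exp_add]; congr 2; ring
    rw [h4] at h3
    exact lt_of_lt_of_le h3 (mul_le_mul_of_nonneg_left (hA.ge z) (exp_pos _).le)
  have hev : ∀ᶠ σ in 𝓝[<] σ₀, σ ∈ Ioo 0 σ₀ := Ioo_mem_nhdsLT hσ
  have htend : ∀ v, Tendsto (fun σ : ℝ => A x₀ * exp (σ * (v - x₀))) (𝓝[<] σ₀)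
      (𝓝 (A x₀ * exp (σ₀ * (v - x₀)))) := by
    intro v
    have : Continuous (fun σ : ℝ => A x₀ * exp (σ * (v - x₀))) := by fun_prop
    exact (this.tendsto σ₀).mono_left nhdsWithin_le_nhds
  constructor
  · intro v hv
    exact ge_of_tendsto (htend v) (hev.mono fun σ hσ' => (hs σ hσ').1 v hv)
  · intro v hv hvz
    exact le_of_tendsto (htend v) (hev.mono fun σ hσ' => (hs σ hσ').2 v hv hvz)


theorem IsStopLoss.integrableOn {A : ℝ → ℝ} (hA : IsStopLoss A) :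
    IntegrableOn (fun u : ℝ => (1 - u) * exp (-u) * A (4/3 - u)) (Ioi 0) := by
  obtain ⟨C, hC⟩ := hA.growth
  have hc := hA.cont
  refine integrableOn_of_bound (by fun_prop) (3 * |C|) fun u hu => ?_
  have h1 : |A (4/3 - u)| ≤ |C| * (3 * (1 + u)) := by
    refine (hC _).trans ?_
    have h2 : |4/3 - u| ≤ 4/3 + u := by
      rw [abs_le]; constructor <;> linarith
    calc C * (1 + |4/3 - u|) ≤ |C| * (1 + |4/3 - u|) := by
          gcongr; exact le_abs_self C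
      _ ≤ |C| * (3 * (1 + u)) := by gcongr; linarith
  have h3 : |1 - u| ≤ 1 + u := by
    rw [abs_le]; constructor <;> linarith
  rw [abs_mul, abs_mul, abs_of_pos (exp_pos _)]
  calc |1 - u| * exp (-u) * |A (4/3 - u)| ≤ (1 + u) * exp (-u) * (|C| * (3 * (1 + u))) := by
        gcongr
    _ = 3 * |C| * (1 + u) ^ 2 * exp (-u) := by ring

theorem IsStopLoss.step1 {A : ℝ → ℝ} (hA : IsStopLoss A) {σ₀ z : ℝ} (hσ : 0 < σ₀)
    (hz : 4/3 ≤ z) (h : A (1/3) ≤ z * exp (-(σ₀ * (z - 1/3)))) :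
    A (1/3) * exp σ₀ * (σ₀ / (1 + σ₀) ^ 2) ≤
      ∫ u in Ioi (0:ℝ), (1 - u) * exp (-u) * A (4/3 - u) := by
  obtain ⟨hc1, hc2⟩ := hA.cmp hσ (x₀ := 1/3) (z := z) (by linarith) (by linarith) h
  have hc : 0 < 1 + σ₀ := by linarith
  have e : ∀ u : ℝ, (1 - u) * exp (-u) * (A (1/3) * exp (σ₀ * (4/3 - u - 1/3))) =
      (A (1/3) * exp σ₀) * (exp (-((1 + σ₀) * u)) - u * exp (-((1 + σ₀) * u))) := by
    intro u
    have : exp (-u) * exp (σ₀ * (4/3 - u - 1/3)) = exp σ₀ * exp (-((1 + σ₀) * u)) := by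
      rw [← exp_add, ← exp_add]; congr 1; ring
    calc (1 - u) * exp (-u) * (A (1/3) * exp (σ₀ * (4/3 - u - 1/3)))
        = (1 - u) * A (1/3) * (exp (-u) * exp (σ₀ * (4/3 - u - 1/3))) := by ring
      _ = _ := by rw [this]; ring
  have hint2 : IntegrableOn
      (fun u : ℝ => (1 - u) * exp (-u) * (A (1/3) * exp (σ₀ * (4/3 - u - 1/3)))) (Ioi 0) := by
    simp only [e]
    exact ((integrableOn_exp' hc).sub (integrableOn_mul_exp' hc)).const_mul _
  have hval : ∫ u in Ioi (0:ℝ), (1 - u) * exp (-u) * (A (1/3) * exp (σ₀ * (4/3 - u - 1/3))) =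
      A (1/3) * exp σ₀ * (σ₀ / (1 + σ₀) ^ 2) := by
    simp only [e]
    rw [integral_const_mul, integral_sub (integrableOn_exp' hc) (integrableOn_mul_exp' hc),
      int_exp hc, int_mul_exp hc]
    congr 1
    field_simp
    ring
  rw [← hval]
  refine setIntegral_mono_on hint2 hA.integrableOn measurableSet_Ioi fun u hu => ?_
  have hu' : 0 < u := hu
  have hE : 0 < exp (-u) := exp_pos _
  rcases lt_trichotomy u 1 with h1 | h1 | h1
  · have := hc2 (4/3 - u) (by linarith) (by linarith)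
    have h2 : 0 ≤ (1 - u) * exp (-u) := mul_nonneg (by linarith) hE.le
    exact mul_le_mul_of_nonneg_left this h2
  · subst h1; simp
  · have := hc1 (4/3 - u) (by linarith)
    have h2 : (1 - u) * exp (-u) ≤ 0 := mul_nonpos_of_nonpos_of_nonneg (by linarith) hE.le
    exact mul_le_mul_of_nonpos_left this h2

theorem exp_neg_third_le : exp (-(1/3 : ℝ)) ≤ 18 / 25 := by
  have h := Real.quadratic_le_exp_of_nonneg (x := (1/3 : ℝ)) (by norm_num)
  have h1 : (25 / 18 : ℝ) ≤ exp (1/3) := by linarith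
  rw [exp_neg]
  rw [inv_le_comm₀ (exp_pos _) (by norm_num)]
  linarith

theorem scalar (α : ℝ) (hα : 1/3 ≤ α) :
    ∃ σ₀ z : ℝ, 0 < σ₀ ∧ 4/3 ≤ z ∧ α ≤ z * exp (-(σ₀ * (z - 1/3))) ∧
      4/9 * exp (-(1/3 : ℝ)) ≤ α * exp σ₀ * (σ₀ / (1 + σ₀) ^ 2) := by
  have hα0 : 0 < α := by linarith
  by_cases hcase : 4/3 * exp (-(3/4 : ℝ)) ≤ α
  · -- large α : IVT
    set f : ℝ → ℝ := fun σ => (1 / σ) * exp (σ / 3 - 1) with hf
    set σ₁ : ℝ := 1 / (exp 1 * α) with hσ₁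
    have hσ₁pos : 0 < σ₁ := by positivity
    have hσ₁le : σ₁ ≤ 3/4 := by
      rw [hσ₁, div_le_iff₀ (by positivity)]
      have h1 : exp (-(1:ℝ)) ≤ exp (-(3/4 : ℝ)) := exp_le_exp.mpr (by norm_num)
      have h2 : exp 1 * exp (-(1:ℝ)) = 1 := by rw [← exp_add]; simp
      have h3 : 4/3 * exp (-(1:ℝ)) ≤ α := le_trans (by linarith) hcase
      have h4 : exp 1 * (4/3 * exp (-(1:ℝ))) ≤ exp 1 * α :=
        mul_le_mul_of_nonneg_left h3 (exp_pos _).le
      nlinarith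
    have hcont : ContinuousOn f (Icc σ₁ (3/4)) := by
      intro σ hσ
      have : σ ≠ 0 := (lt_of_lt_of_le hσ₁pos hσ.1).ne'
      apply ContinuousAt.continuousWithinAt
      simp only [hf]
      fun_prop (disch := assumption)
    have hfb : f (3/4) ≤ α := by
      simp only [hf]
      have : (3/4 : ℝ) / 3 - 1 = -(3/4) := by norm_num
      rw [this]
      have : (1 / (3/4) : ℝ) = 4/3 := by norm_num
      rw [this]; exact hcase
    have hfa : α ≤ f σ₁ := by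
      simp only [hf]
      have h1 : 1 / σ₁ = exp 1 * α := by rw [hσ₁]; field_simp
      rw [h1]
      have h2 : exp (-(1:ℝ)) ≤ exp (σ₁ / 3 - 1) := exp_le_exp.mpr (by
        have : 0 ≤ σ₁ / 3 := by positivity
        linarith)
      have h3 : exp 1 * exp (-(1:ℝ)) = 1 := by rw [← exp_add]; simp
      calc α = exp 1 * α * exp (-(1:ℝ)) := by
            rw [mul_right_comm, h3, one_mul]
        _ ≤ exp 1 * α * exp (σ₁ / 3 - 1) := by gcongr
    obtain ⟨σ₀, hσ₀mem, hσ₀⟩ := intermediate_value_Icc' hσ₁le hcont ⟨hfb, hfa⟩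
    have hσ₀pos : 0 < σ₀ := lt_of_lt_of_le hσ₁pos hσ₀mem.1
    refine ⟨σ₀, 1 / σ₀, hσ₀pos, ?_, ?_, ?_⟩
    · rw [le_div_iff₀ hσ₀pos]; linarith [hσ₀mem.2]
    · rw [← hσ₀]
      simp only [hf]
      apply le_of_eq
      congr 2
      field_simp
      ring
    · rw [← hσ₀]
      simp only [hf]
      have h1 : (1 / σ₀) * exp (σ₀ / 3 - 1) * exp σ₀ * (σ₀ / (1 + σ₀) ^ 2) =
          exp (σ₀ / 3 - 1) * exp σ₀ / (1 + σ₀) ^ 2 := by
        field_simp
      rw [h1, le_div_iff₀ (by positivity)]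
      set w : ℝ := (2 * σ₀ - 1) / 3 with hw
      have h2 : 1 + w ≤ exp w := by linarith [Real.add_one_le_exp w]
      have h3 : exp (σ₀ / 3 - 1) * exp σ₀ = exp (-(1/3 : ℝ)) * (exp w * exp w) := by
        rw [← exp_add, ← exp_add, ← exp_add]; congr 1; rw [hw]; ring
      rw [h3]
      have h4 : 0 ≤ 1 + w := by rw [hw]; linarith
      have h5 : (1 + w) * (1 + w) ≤ exp w * exp w := mul_le_mul h2 h2 h4 (exp_pos _).le
      have h6 : 4/9 * (1 + σ₀) ^ 2 = (1 + w) * (1 + w) := by rw [hw]; ring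
      have h7 : 0 < exp (-(1/3 : ℝ)) := exp_pos _
      calc 4/9 * exp (-(1/3 : ℝ)) * (1 + σ₀) ^ 2 = exp (-(1/3 : ℝ)) * (4/9 * (1 + σ₀) ^ 2) := by ring
        _ = exp (-(1/3 : ℝ)) * ((1 + w) * (1 + w)) := by rw [h6]
        _ ≤ exp (-(1/3 : ℝ)) * (exp w * exp w) := by gcongr
  · -- small α
    push Not at hcase
    set σ₀ : ℝ := Real.log ((4/3) / α) with hσ₀
    have hq : 0 < (4/3) / α := by positivity
    have hexp : exp σ₀ = (4/3) / α := by rw [hσ₀, exp_log hq]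
    have hlow : 3/4 < σ₀ := by
      rw [hσ₀, Real.lt_log_iff_exp_lt hq, lt_div_iff₀ hα0]
      have h2 : exp (3/4 : ℝ) * exp (-(3/4 : ℝ)) = 1 := by rw [← exp_add]; simp
      have h3 : exp (3/4 : ℝ) * α < exp (3/4 : ℝ) * (4/3 * exp (-(3/4 : ℝ))) :=
        mul_lt_mul_of_pos_left hcase (exp_pos _)
      nlinarith
    have hhigh : σ₀ ≤ 7/5 := by
      have h1 : (4/3) / α ≤ 4 := by
        rw [div_le_iff₀ hα0]; linarith
      have h2 : σ₀ ≤ Real.log 4 := Real.log_le_log hq h1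
      have h3 : Real.log 4 = 2 * Real.log 2 := by
        rw [show (4:ℝ) = 2 ^ 2 by norm_num, Real.log_pow]; norm_num
      have := Real.log_two_lt_d9
      linarith
    have hσpos : 0 < σ₀ := by linarith
    refine ⟨σ₀, 4/3, hσpos, le_rfl, ?_, ?_⟩
    · have : σ₀ * (4/3 - 1/3) = σ₀ := by ring
      rw [this, exp_neg, hexp]
      apply le_of_eq
      field_simp
    · rw [hexp]
      have h1 : α * ((4/3) / α) = 4/3 := by field_simp
      rw [h1]
      have h2 : 35 / 144 ≤ σ₀ / (1 + σ₀) ^ 2 := by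
        rw [le_div_iff₀ (by positivity)]
        nlinarith [mul_nonneg (sub_nonneg.mpr hlow.le) (sub_nonneg.mpr hhigh)]
      have := exp_neg_third_le
      linarith

/-- The abstract one-dimensional core of the upper bound. -/
theorem IsStopLoss.core {A : ℝ → ℝ} (hA : IsStopLoss A) :
    4/9 * exp (-(1/3 : ℝ)) ≤ ∫ u in Ioi (0:ℝ), (1 - u) * exp (-u) * A (4/3 - u) := by
  obtain ⟨σ₀, z, hσ, hz, h1, h2⟩ := scalar (A (1/3)) (hA.ge _)
  exact h2.trans (hA.step1 hσ hz h1)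

end Crest.Agent.Lib_helper80_StopLoss
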