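import Mathlib
import Crest.Prelude.Def_TruncExpWeight
import Crest.Agent.Lib_helper79_S0423Lower
import Crest.Agent.Lib_helper80_StopLoss

set_option autoImplicit false
open MeasureTheory Set Real Filter Topology
open Crest.Agent.Lib_helper80_StopLoss

namespace Crest.Agent.Lib_helper80_Upper

/-- `K a h s = E h(s + a X)` for a mean-one exponential `X`. -/
noncomputable def K (a : ℝ) (h : ℝ → ℝ) (s : ℝ) : ℝ :=
  ∫ x in Ioi (0:ℝ), h (s + a * x) * exp (-x)

/-- Lipschitz with constant `L`. -/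
def Lip (L : ℝ) (h : ℝ → ℝ) : Prop := 0 ≤ L ∧ ∀ x y, |h x - h y| ≤ L * |x - y|

theorem Lip.continuous {L : ℝ} {h : ℝ → ℝ} (hh : Lip L h) : Continuous h := by
  have : LipschitzWith ⟨L, hh.1⟩ h := by
    apply LipschitzWith.of_dist_le_mul
    intro x y
    rw [Real.dist_eq, Real.dist_eq]
    exact hh.2 x y
  exact this.continuous

theorem Lip.growth {L : ℝ} {h : ℝ → ℝ} (hh : Lip L h) (x : ℝ) : |h x| ≤ |h 0| + L * |x| := by
  have h1 := hh.2 x 0
  rw [sub_zero] at h1
  have h2 : |h x| ≤ |h x - h 0| + |h 0| := by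
    have := abs_add_le (h x - h 0) (h 0)
    simpa using this
  linarith

theorem Lip.integrableOn {L : ℝ} {h : ℝ → ℝ} (hh : Lip L h) (a s : ℝ) :
    IntegrableOn (fun x : ℝ => h (s + a * x) * exp (-x)) (Ioi 0) := by
  have hc := hh.continuous
  refine integrableOn_of_bound (by fun_prop) (|h 0| + L * |s| + L * |a|) fun u hu => ?_
  rw [abs_mul, abs_of_pos (exp_pos _)]
  have hL := hh.1
  have h1 : |h (s + a * u)| ≤ |h 0| + L * (|s| + |a| * u) := by
    refine (hh.growth _).trans ?_
    have : |s + a * u| ≤ |s| + |a| * u := by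
      refine (abs_add_le _ _).trans ?_
      rw [abs_mul, abs_of_pos hu]
    gcongr
  have h2 : |h 0| + L * (|s| + |a| * u) ≤ (|h 0| + L * |s| + L * |a|) * (1 + u) ^ 2 := by
    have e1 : 0 ≤ |h 0| := abs_nonneg _
    have e2 : 0 ≤ L * |s| := by positivity
    have e3 : 0 ≤ L * |a| := by positivity
    have e4 : 1 ≤ (1 + u) ^ 2 := by nlinarith
    have e5 : u ≤ (1 + u) ^ 2 := by nlinarith
    nlinarith
  exact mul_le_mul_of_nonneg_right (h1.trans h2) (exp_pos _).le

theorem K_lip {L : ℝ} {h : ℝ → ℝ} (hh : Lip L h) (a : ℝ) : Lip L (K a h) := by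
  refine ⟨hh.1, fun s s' => ?_⟩
  unfold K
  rw [← integral_sub (hh.integrableOn a s) (hh.integrableOn a s')]
  have hI : IntegrableOn (fun x : ℝ => (L * |s - s'|) * exp (-x)) (Ioi 0) :=
    (integrableOn_exp_neg_Ioi 0).const_mul _
  have := norm_integral_le_of_norm_le hI (f := fun x : ℝ => h (s + a * x) * exp (-x) - h (s' + a * x) * exp (-x))
    (Eventually.of_forall fun x => by
      rw [← sub_mul, norm_mul, Real.norm_eq_abs, Real.norm_eq_abs, abs_of_pos (exp_pos _)]
      have := hh.2 (s + a * x) (s' + a * x)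
      have e : s + a * x - (s' + a * x) = s - s' := by ring
      rw [e] at this
      exact mul_le_mul_of_nonneg_right this (exp_pos _).le)
  rw [Real.norm_eq_abs, integral_const_mul, integral_exp_neg_Ioi_zero, mul_one] at this
  exact this

theorem integral_Ioi_shift (F : ℝ → ℝ) (δ : ℝ) :
    ∫ x in Ioi δ, F x = ∫ y in Ioi (0:ℝ), F (y + δ) := by
  have := (measurePreserving_add_right (volume : Measure ℝ) δ).setIntegral_preimage_emb
    (measurableEmbedding_addRight δ) F (Ioi δ)
  rw [← this]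
  simp

/-- memoryless splitting -/
theorem K_split {L : ℝ} {h : ℝ → ℝ} (hh : Lip L h) (a s δ : ℝ) (hδ : 0 ≤ δ) :
    K a h s = (∫ x in Ioc 0 δ, h (s + a * x) * exp (-x)) + exp (-δ) * K a h (s + a * δ) := by
  have hI := hh.integrableOn a s
  have h1 : IntegrableOn (fun x : ℝ => h (s + a * x) * exp (-x)) (Ioc 0 δ) :=
    hI.mono_set Ioc_subset_Ioi_self
  have h2 : IntegrableOn (fun x : ℝ => h (s + a * x) * exp (-x)) (Ioi δ) :=
    hI.mono_set (Ioi_subset_Ioi hδ)
  have e0 : K a h s = ∫ x in Ioc 0 δ ∪ Ioi δ, h (s + a * x) * exp (-x) := by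
    unfold K; rw [Ioc_union_Ioi_eq_Ioi hδ]
  rw [e0, setIntegral_union Ioc_disjoint_Ioi_same measurableSet_Ioi h1 h2]
  congr 1
  unfold K
  rw [integral_Ioi_shift, ← integral_const_mul]
  congr 1
  funext y
  have e1 : s + a * (y + δ) = s + a * δ + a * y := by ring
  have e2 : exp (-(y + δ)) = exp (-δ) * exp (-y) := by rw [← exp_add]; congr 1; ring
  rw [e1, e2]; ring

/-- one sign change, from `+` to `-` -/
def P (h : ℝ → ℝ) : Prop := ∀ r₁ r₂ : ℝ, r₁ < r₂ → h r₁ < 0 → h r₂ ≤ 0

theorem K_zero (h : ℝ → ℝ) : K 0 h = h := by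
  funext s
  unfold K
  simp only [zero_mul, add_zero]
  rw [integral_const_mul, integral_exp_neg_Ioi_zero, mul_one]

theorem K_P {L : ℝ} {h : ℝ → ℝ} (hh : Lip L h) (hP : P h) (a : ℝ) : P (K a h) := by
  intro v₁ v₂ hv hneg
  rcases lt_trichotomy a 0 with ha | ha | ha
  · -- a < 0
    set δ : ℝ := (v₂ - v₁) / (-a) with hδ
    have hδpos : 0 < δ := div_pos (sub_pos.mpr hv) (neg_pos.mpr ha)
    have hane : a ≠ 0 := ha.ne
    have haδ : v₂ + a * δ = v₁ := by
      rw [hδ]; field_simp; ring
    have hsplit := K_split hh a v₂ δ hδpos.le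
    rw [haδ] at hsplit
    -- there is a point left of v₁ where h < 0
    have hex : ∃ x : ℝ, 0 < x ∧ h (v₁ + a * x) < 0 := by
      by_contra hno
      push Not at hno
      have : 0 ≤ K a h v₁ := by
        unfold K
        apply setIntegral_nonneg measurableSet_Ioi
        intro x hx
        exact mul_nonneg (hno x hx) (exp_pos _).le
      linarith
    obtain ⟨x₀, hx₀, hx₀neg⟩ := hex
    have hfirst : ∫ x in Ioc 0 δ, h (v₂ + a * x) * exp (-x) ≤ 0 := by
      apply setIntegral_nonpos measurableSet_Ioc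
      intro x hx
      have h1 : v₁ + a * x₀ < v₂ + a * x := by
        have : a * δ ≤ a * x := mul_le_mul_of_nonpos_left hx.2 ha.le
        have : a * x₀ < 0 := mul_neg_of_neg_of_pos ha hx₀
        linarith
      exact mul_nonpos_of_nonpos_of_nonneg (hP _ _ h1 hx₀neg) (exp_pos _).le
    have : exp (-δ) * K a h v₁ < 0 := mul_neg_of_pos_of_neg (exp_pos _) hneg
    linarith
  · subst ha
    rw [K_zero] at hneg ⊢
    exact hP _ _ hv hneg
  · -- a > 0
    set δ : ℝ := (v₂ - v₁) / a with hδ
    have hδpos : 0 < δ := div_pos (sub_pos.mpr hv) ha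
    have hane : a ≠ 0 := ha.ne'
    have haδ : v₁ + a * δ = v₂ := by
      rw [hδ]; field_simp; ring
    have hsplit := K_split hh a v₁ δ hδpos.le
    rw [haδ] at hsplit
    by_cases hall : ∀ r, v₂ < r → h r ≤ 0
    · unfold K
      apply setIntegral_nonpos measurableSet_Ioi
      intro x hx
      have hx' : 0 < x := hx
      have : v₂ < v₂ + a * x := by
        have : 0 < a * x := mul_pos ha hx'
        linarith
      exact mul_nonpos_of_nonpos_of_nonneg (hall _ this) (exp_pos _).le
    · push Not at hall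
      obtain ⟨r₁, hr₁, hr₁pos⟩ := hall
      have hnonneg : ∀ r, r < r₁ → 0 ≤ h r := by
        intro r hr
        by_contra hc
        push Not at hc
        exact absurd (hP _ _ hr hc) (not_le.mpr hr₁pos)
      have hfirst : 0 ≤ ∫ x in Ioc 0 δ, h (v₁ + a * x) * exp (-x) := by
        apply setIntegral_nonneg measurableSet_Ioc
        intro x hx
        have h1 : v₁ + a * x < r₁ := by
          have : a * x ≤ a * δ := mul_le_mul_of_nonneg_left hx.2 ha.le
          linarith
        exact mul_nonneg (hnonneg _ h1) (exp_pos _).le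
      have h3 : exp (-δ) * K a h v₂ < 0 := by linarith
      have h4 : K a h v₂ < 0 := by
        by_contra hc
        push Not at hc
        have := mul_nonneg (exp_pos (-δ)).le hc
        linarith
      exact h4.le


open Crest.Agent.Lib_helper79_S0423Lower in
/-- `S a h s = E h(s + ∑ a_i X_i)`, written as an integral over the positive orthant. -/
noncomputable def S {N : ℕ} (a : Fin N → ℝ) (h : ℝ → ℝ) (s : ℝ) : ℝ :=
  ∫ x in Set.pi Set.univ (fun _ : Fin N => Ioi (0:ℝ)), h (s + ∑ i, a i * x i) * exp (-∑ i, x i)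

theorem measurableSet_orth (N : ℕ) :
    MeasurableSet (Set.pi Set.univ (fun _ : Fin N => Ioi (0:ℝ))) :=
  MeasurableSet.univ_pi fun _ => measurableSet_Ioi

theorem abs_sum_le_orth {N : ℕ} (a x : Fin N → ℝ)
    (hx : x ∈ Set.pi Set.univ (fun _ : Fin N => Ioi (0:ℝ))) :
    |∑ i, a i * x i| ≤ (∑ i, |a i|) * ∑ i, x i := by
  have hx' : ∀ i, 0 < x i := fun i => hx i (mem_univ i)
  calc |∑ i, a i * x i| ≤ ∑ i, |a i * x i| := Finset.abs_sum_le_sum_abs _ _
    _ ≤ ∑ i, |a i| * ∑ j, x j := by
        apply Finset.sum_le_sum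
        intro i _
        rw [abs_mul, abs_of_pos (hx' i)]
        apply mul_le_mul_of_nonneg_left _ (abs_nonneg _)
        exact Finset.single_le_sum (f := x) (fun j _ => (hx' j).le) (Finset.mem_univ i)
    _ = (∑ i, |a i|) * ∑ i, x i := by rw [Finset.sum_mul]

theorem Lip.integrableOn_orth {L : ℝ} {h : ℝ → ℝ} (hh : Lip L h) {N : ℕ} (a : Fin N → ℝ) (s : ℝ) :
    IntegrableOn (fun x : Fin N → ℝ => h (s + ∑ i, a i * x i) * exp (-∑ i, x i))
      (Set.pi Set.univ (fun _ : Fin N => Ioi (0:ℝ))) := by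
  have h1 := Crest.Agent.Lib_helper79_S0423Lower.integrableOn_exp_neg_mul_sum N
    (b := 1/2) (by norm_num)
  have hc := hh.continuous
  have hL := hh.1
  set ā : ℝ := ∑ i, |a i| with hā
  have hā0 : 0 ≤ ā := Finset.sum_nonneg fun i _ => abs_nonneg _
  refine Integrable.mono' (h1.const_mul (|h 0| + L * |s| + 2 * (L * ā))) ?_ ?_
  · apply Continuous.aestronglyMeasurable
    fun_prop
  · rw [ae_restrict_iff' (measurableSet_orth N)]
    refine Eventually.of_forall fun x hx => ?_
    have hx' : ∀ i, 0 < x i := fun i => hx i (mem_univ i)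
    set y : ℝ := ∑ i, x i with hy
    have hy0 : 0 ≤ y := Finset.sum_nonneg fun i _ => (hx' i).le
    rw [norm_mul, Real.norm_eq_abs, Real.norm_eq_abs, abs_of_pos (exp_pos _)]
    have h2 : |h (s + ∑ i, a i * x i)| ≤ |h 0| + L * |s| + L * ā * y := by
      refine (hh.growth _).trans ?_
      have h3 : |s + ∑ i, a i * x i| ≤ |s| + ā * y :=
        (abs_add_le _ _).trans (by gcongr; exact abs_sum_le_orth a x hx)
      calc |h 0| + L * |s + ∑ i, a i * x i| ≤ |h 0| + L * (|s| + ā * y) := by gcongr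
        _ = _ := by ring
    have e1 : exp (-y) = exp (-(1/2 * y)) * exp (-(1/2 * y)) := by
      rw [← exp_add]; congr 1; ring
    have e2 : exp (-(1/2 * y)) ≤ 1 := by
      rw [exp_le_one_iff]; linarith
    have e3 : y * exp (-(1/2 * y)) ≤ 2 := by
      have := Real.add_one_le_exp (1/2 * y)
      have h4 : exp (1/2 * y) * exp (-(1/2 * y)) = 1 := by rw [← exp_add]; simp
      have h5 : 0 < exp (-(1/2 * y)) := exp_pos _
      nlinarith
    have h5 : 0 < exp (-(1/2 * y)) := exp_pos _
    have c1 : 0 ≤ |h 0| + L * |s| := by positivity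
    have c2 : 0 ≤ L * ā := by positivity
    calc |h (s + ∑ i, a i * x i)| * exp (-y)
        ≤ (|h 0| + L * |s| + L * ā * y) * exp (-y) := by gcongr
      _ = ((|h 0| + L * |s|) * exp (-(1/2 * y)) + L * ā * (y * exp (-(1/2 * y)))) * exp (-(1/2 * y)) := by
          rw [e1]; ring
      _ ≤ ((|h 0| + L * |s|) * 1 + L * ā * 2) * exp (-(1/2 * y)) := by gcongr
      _ = (|h 0| + L * |s| + 2 * (L * ā)) * exp (-(1/2 * y)) := by ring

theorem S_zero (a : Fin 0 → ℝ) (h : ℝ → ℝ) : S a h = h := by
  funext s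
  unfold S
  have hv : (volume : Measure (Fin 0 → ℝ)) (Set.pi Set.univ (fun _ : Fin 0 => Ioi (0:ℝ))) = 1 := by
    rw [volume_pi_pi]; simp
  simp [Measure.real, hv]

theorem S_succ {L : ℝ} {h : ℝ → ℝ} (hh : Lip L h) {N : ℕ} (a : Fin (N+1) → ℝ) :
    S a h = S (Fin.tail a) (K (a 0) h) := by
  funext s
  unfold S
  rw [(Crest.Agent.Lib_helper79_S0423Lower.integral_orth_succ _ (hh.integrableOn_orth a s)).2]
  congr 1
  funext y
  unfold K
  rw [← integral_mul_const]
  congr 1
  funext t
  rw [Fin.sum_univ_succ, Fin.sum_univ_succ]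
  simp only [Fin.cons_zero, Fin.cons_succ, Fin.tail]
  have e1 : s + (a 0 * t + ∑ i : Fin N, a i.succ * y i) = s + ∑ i : Fin N, a i.succ * y i + a 0 * t := by
    ring
  have e2 : exp (-(t + ∑ i, y i)) = exp (-t) * exp (-∑ i, y i) := by
    rw [← exp_add]; congr 1; ring
  rw [e1, e2]; ring

theorem S_lip {N : ℕ} : ∀ (a : Fin N → ℝ) {L : ℝ} {h : ℝ → ℝ}, Lip L h → Lip L (S a h) := by
  induction N with
  | zero => intro a L h hh; rw [S_zero]; exact hh
  | succ n ih =>
    intro a L h hh
    rw [S_succ hh]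
    exact ih _ (K_lip hh _)

theorem S_P {N : ℕ} : ∀ (a : Fin N → ℝ) {L : ℝ} {h : ℝ → ℝ}, Lip L h → P h → P (S a h) := by
  induction N with
  | zero => intro a L h hh hP; rw [S_zero]; exact hP
  | succ n ih =>
    intro a L h hh hP
    rw [S_succ hh]
    exact ih _ (K_lip hh _) (K_P hh hP _)

theorem K_ge {L : ℝ} {h : ℝ → ℝ} (hh : Lip L h) {c : ℝ} (hc : ∀ r, r + c ≤ h r) (a : ℝ) (r : ℝ) :
    r + (c + a) ≤ K a h r := by
  unfold K
  have i1 : IntegrableOn (fun x : ℝ => exp (-(1 * x))) (Ioi 0) := integrableOn_exp' one_pos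
  have i2 : IntegrableOn (fun x : ℝ => x * exp (-(1 * x))) (Ioi 0) := integrableOn_mul_exp' one_pos
  have e : r + (c + a) = ∫ x in Ioi (0:ℝ), ((r + c) * exp (-(1 * x)) + a * (x * exp (-(1 * x)))) := by
    rw [integral_add (i1.const_mul _) (i2.const_mul _), integral_const_mul, integral_const_mul,
      int_exp one_pos, int_mul_exp one_pos]
    ring
  rw [e]
  refine setIntegral_mono ((i1.const_mul _).add (i2.const_mul _)) (hh.integrableOn a r) fun x => ?_
  have := hc (r + a * x)
  have h5 : 0 < exp (-x) := exp_pos _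
  simp only [one_mul]
  nlinarith

theorem S_ge {N : ℕ} : ∀ (a : Fin N → ℝ) {L : ℝ} {h : ℝ → ℝ} {c : ℝ}, Lip L h →
    (∀ r, r + c ≤ h r) → ∀ r, r + (c + ∑ i, a i) ≤ S a h r := by
  induction N with
  | zero => intro a L h c hh hc r; rw [S_zero]; simpa using hc r
  | succ n ih =>
    intro a L h c hh hc r
    rw [S_succ hh]
    have := ih (Fin.tail a) (K_lip hh (a 0)) (K_ge hh hc (a 0)) r
    rw [Fin.sum_univ_succ]
    simp only [Fin.tail] at this ⊢
    linarith


/-- positive part -/
noncomputable def pos (r : ℝ) : ℝ := max r 0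

theorem pos_lip : Lip 1 pos := by
  refine ⟨zero_le_one, fun x y => ?_⟩
  rw [one_mul]
  exact abs_max_sub_max_le_abs x y 0

/-- the difference test function -/
noncomputable def D (q d : ℝ) (r : ℝ) : ℝ := q * pos (r + d) - pos r

theorem D_lip {q : ℝ} (hq : 0 ≤ q) (d : ℝ) : Lip (q + 1) (D q d) := by
  refine ⟨by linarith, fun x y => ?_⟩
  unfold D
  have h1 := pos_lip.2 (x + d) (y + d)
  have h2 := pos_lip.2 x y
  have e : x + d - (y + d) = x - y := by ring
  rw [e, one_mul] at h1
  rw [one_mul] at h2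
  have e2 : q * pos (x + d) - pos x - (q * pos (y + d) - pos y) =
      q * (pos (x + d) - pos (y + d)) - (pos x - pos y) := by ring
  rw [e2]
  calc |q * (pos (x + d) - pos (y + d)) - (pos x - pos y)|
      ≤ |q * (pos (x + d) - pos (y + d))| + |pos x - pos y| := abs_sub _ _
    _ = q * |pos (x + d) - pos (y + d)| + |pos x - pos y| := by rw [abs_mul, abs_of_nonneg hq]
    _ ≤ q * |x - y| + |x - y| := by gcongr
    _ = (q + 1) * |x - y| := by ring

theorem D_P {q d : ℝ} (hq0 : 0 ≤ q) (hq1 : q ≤ 1) (hd : 0 ≤ d) : P (D q d) := by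
  intro r₁ r₂ hr hneg
  unfold D pos at hneg ⊢
  have h0 : 0 < r₁ := by
    by_contra hc
    push Not at hc
    rw [max_eq_right hc] at hneg
    have : 0 ≤ q * max (r₁ + d) 0 := mul_nonneg hq0 (le_max_right _ _)
    linarith
  rw [max_eq_left h0.le, max_eq_left (by linarith)] at hneg
  rw [max_eq_left (by linarith : (0:ℝ) ≤ r₂), max_eq_left (by linarith)]
  nlinarith

theorem S_D {N : ℕ} (a : Fin N → ℝ) (q d v : ℝ) :
    S a (D q d) v = q * S a pos (v + d) - S a pos v := by
  unfold S
  rw [← integral_const_mul, ← integral_sub ((pos_lip.integrableOn_orth a (v + d)).const_mul q)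
    (pos_lip.integrableOn_orth a v)]
  congr 1
  funext x
  unfold D
  have e : v + ∑ i, a i * x i + d = v + d + ∑ i, a i * x i := by ring
  rw [e]; ring

theorem isStopLoss {N : ℕ} (a : Fin N → ℝ) (ha : ∑ i, a i = 0) : IsStopLoss (S a pos) where
  cont := (S_lip a pos_lip).continuous
  ge := by
    intro v
    have := S_ge a (c := 0) pos_lip (fun r => by simp [pos]) v
    rw [ha] at this
    simpa using this
  step := by
    intro σ hσ d hd v₁ v₂ hv h
    have hq0 : 0 ≤ exp (-(σ * d)) := (exp_pos _).le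
    have hq1 : exp (-(σ * d)) ≤ 1 := by
      rw [exp_le_one_iff]
      have : 0 < σ * d := mul_pos hσ hd
      linarith
    have hP := S_P a (D_lip hq0 d) (D_P hq0 hq1 hd.le)
    have := hP v₁ v₂ hv (by rw [S_D]; linarith)
    rw [S_D] at this
    linarith
  growth := by
    refine ⟨|S a pos 0| + 1, fun v => ?_⟩
    have := (S_lip a pos_lip).growth v
    have h1 : 0 ≤ |S a pos 0| := abs_nonneg _
    have h2 : 0 ≤ |v| := abs_nonneg _
    nlinarith

local notation "g" => Crest.AlgGeometry.truncExpWeight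

theorem kp_eq (r : ℝ) : 1 - g r = ∫ u in Ioi (0:ℝ), (1 - u) * exp (-u) * pos (r - u) := by
  unfold Crest.AlgGeometry.truncExpWeight
  by_cases hr : r ≤ 0
  · rw [if_pos hr, sub_self]
    symm
    apply setIntegral_eq_zero_of_forall_eq_zero
    intro u hu
    have hu' : 0 < u := hu
    have : pos (r - u) = 0 := by
      unfold pos; exact max_eq_right (by linarith)
    rw [this, mul_zero]
  · rw [if_neg hr]
    push Not at hr
    rw [setIntegral_eq_of_subset_of_forall_sdiff_eq_zero measurableSet_Ioi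
      (Ioc_subset_Ioi_self : Ioc 0 r ⊆ Ioi 0)]
    · rw [← intervalIntegral.integral_of_le hr.le]
      have hderiv : ∀ u ∈ uIcc 0 r, HasDerivAt (fun u : ℝ => -(u ^ 2 + (1 - r) * u + 1) * exp (-u))
          ((1 - u) * exp (-u) * (r - u)) u := by
        intro u _
        have h1 : HasDerivAt (fun u : ℝ => -(u ^ 2 + (1 - r) * u + 1)) (-(2 * u + (1 - r))) u := by
          have h := ((((hasDerivAt_id u).fun_pow 2).fun_add
            ((hasDerivAt_id u).const_mul (1 - r))).add_const 1).fun_neg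
          exact h.congr_deriv (by simp)
        have h2 : HasDerivAt (fun u : ℝ => exp (-u)) (-exp (-u)) u := by
          have := (hasDerivAt_neg u).exp
          simpa using this
        have := h1.fun_mul h2
        exact this.congr_deriv (by ring)
      have hcongr : ∫ u in (0:ℝ)..r, (1 - u) * exp (-u) * pos (r - u) =
          ∫ u in (0:ℝ)..r, (1 - u) * exp (-u) * (r - u) := by
        apply intervalIntegral.integral_congr
        intro u hu
        rw [uIcc_of_le hr.le] at hu
        have : pos (r - u) = r - u := by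
          unfold pos; exact max_eq_left (by linarith [hu.2])
        simp only [this]
      rw [hcongr, intervalIntegral.integral_eq_sub_of_hasDerivAt hderiv]
      · simp; ring
      · apply Continuous.intervalIntegrable
        fun_prop
    · intro u hu
      have h1 : 0 < u := hu.1
      have h2 : r < u := by
        by_contra hc
        push Not at hc
        exact hu.2 ⟨h1, hc⟩
      have : pos (r - u) = 0 := by
        unfold pos; exact max_eq_right (by linarith)
      rw [this, mul_zero]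


theorem abs_lip (c : ℝ) : Lip 1 (fun r : ℝ => c + |r|) := by
  refine ⟨zero_le_one, fun x y => ?_⟩
  rw [one_mul]
  have : c + |x| - (c + |y|) = |x| - |y| := by ring
  rw [this]
  exact abs_abs_sub_abs_le_abs_sub x y

theorem fubini {N : ℕ} (a : Fin N → ℝ) (t : ℝ) :
    ∫ x in Set.pi Set.univ (fun _ : Fin N => Ioi (0:ℝ)),
        (1 - g (t + ∑ i, a i * x i)) * exp (-∑ i, x i)
      = ∫ u in Ioi (0:ℝ), (1 - u) * exp (-u) * S a pos (t - u) := by
  set f : (Fin N → ℝ) → ℝ → ℝ := fun x u =>
    (1 - u) * exp (-u) * pos (t + ∑ i, a i * x i - u) * exp (-∑ i, x i) with hf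
  have hF₁ := (abs_lip (|t| + 1)).integrableOn_orth a 0
  have hF₂ : IntegrableOn (fun u : ℝ => (1 + |u|) ^ 2 * exp (-u)) (Ioi 0) := by
    refine integrableOn_of_bound (by fun_prop) 1 fun u hu => ?_
    rw [abs_mul, abs_of_pos (exp_pos _), abs_of_pos hu, abs_of_nonneg (by positivity), one_mul]
  have hint : Integrable (Function.uncurry f)
      (((volume : Measure (Fin N → ℝ)).restrict (Set.pi Set.univ (fun _ : Fin N => Ioi (0:ℝ)))).prod
        ((volume : Measure ℝ).restrict (Ioi 0))) := by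
    refine Integrable.mono' (hF₁.mul_prod hF₂) ?_ ?_
    · apply Continuous.aestronglyMeasurable
      simp only [hf, Function.uncurry_def, pos]
      fun_prop
    · refine Eventually.of_forall fun z => ?_
      obtain ⟨x, u⟩ := z
      simp only [Function.uncurry_apply_pair, hf]
      set w : ℝ := ∑ i, a i * x i with hw
      rw [norm_mul, norm_mul, norm_mul, Real.norm_eq_abs, Real.norm_eq_abs, Real.norm_eq_abs,
        Real.norm_eq_abs, abs_of_pos (exp_pos _), abs_of_pos (exp_pos _), zero_add]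
      have h1 : |1 - u| ≤ 1 + |u| := by
        have := abs_sub (1:ℝ) u
        simpa using this
      have h2 : |pos (t + w - u)| ≤ (1 + |u|) * (|t| + 1 + |w|) := by
        have e1 : |pos (t + w - u)| ≤ |t + w - u| := by
          unfold pos
          rw [abs_of_nonneg (le_max_right _ _)]
          exact max_le (le_abs_self _) (abs_nonneg _)
        have e2 : |t + w - u| ≤ |t| + |w| + |u| := by
          have := abs_sub (t + w) u
          have := abs_add_le t w
          linarith
        have p1 := abs_nonneg t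
        have p2 := abs_nonneg w
        have p3 := abs_nonneg u
        nlinarith
      have p3 := abs_nonneg u
      calc |1 - u| * exp (-u) * |pos (t + w - u)| * exp (-∑ i, x i)
          ≤ (1 + |u|) * exp (-u) * ((1 + |u|) * (|t| + 1 + |w|)) * exp (-∑ i, x i) := by
            gcongr
        _ = (|t| + 1 + |w|) * exp (-∑ i, x i) * ((1 + |u|) ^ 2 * exp (-u)) := by ring
  have h1 : ∫ x in Set.pi Set.univ (fun _ : Fin N => Ioi (0:ℝ)),
        (1 - g (t + ∑ i, a i * x i)) * exp (-∑ i, x i)
      = ∫ x in Set.pi Set.univ (fun _ : Fin N => Ioi (0:ℝ)), ∫ u in Ioi (0:ℝ), f x u := by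
    congr 1
    funext x
    rw [kp_eq, ← integral_mul_const]
  have h2 : ∫ u in Ioi (0:ℝ), (1 - u) * exp (-u) * S a pos (t - u)
      = ∫ u in Ioi (0:ℝ), ∫ x in Set.pi Set.univ (fun _ : Fin N => Ioi (0:ℝ)), f x u := by
    congr 1
    funext u
    unfold S
    rw [← integral_const_mul]
    congr 1
    funext x
    simp only [hf]
    have : t - u + ∑ i, a i * x i = t + ∑ i, a i * x i - u := by ring
    rw [this]; ring
  rw [h1, h2, integral_integral_swap hint]

/-- The first conjunct of S0423. -/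
theorem upper : ∀ (N : ℕ) (a : Fin N → ℝ), 1 ≤ N → ∑ i, a i = 0 →
      Real.exp (4 / 3) / (4 / 3) *
          ∫ x in Set.pi Set.univ (fun _ : Fin N => Set.Ioi (0 : ℝ)),
            Crest.AlgGeometry.truncExpWeight (4 / 3 + ∑ i, a i * x i) * Real.exp (-∑ i, x i)
        ≤ 3 / 4 * Real.exp (4 / 3) - Real.exp 1 / 3 := by
  intro N a _ ha
  have core := (isStopLoss a ha).core
  rw [← fubini a (4/3)] at core
  have i1 := Crest.Agent.Lib_helper79_S0423Lower.integrableOn_exp_neg_mul_sum N (b := 1) one_pos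
  have v1 := Crest.Agent.Lib_helper79_S0423Lower.integral_exp_neg_mul_sum N (b := 1) one_pos
  simp only [one_mul] at i1 v1
  have i2 := Crest.Agent.Lib_helper79_S0423Lower.integrableOn_G (4/3) a
  have e : ∫ x in Set.pi Set.univ (fun _ : Fin N => Ioi (0:ℝ)),
        (1 - g (4/3 + ∑ i, a i * x i)) * exp (-∑ i, x i)
      = 1 - ∫ x in Set.pi Set.univ (fun _ : Fin N => Ioi (0:ℝ)),
        g (4/3 + ∑ i, a i * x i) * exp (-∑ i, x i) := by
    have e0 : ∀ x : Fin N → ℝ, (1 - g (4/3 + ∑ i, a i * x i)) * exp (-∑ i, x i) =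
        exp (-∑ i, x i) - g (4/3 + ∑ i, a i * x i) * exp (-∑ i, x i) := by
      intro x; ring
    simp only [e0]
    rw [integral_sub i1 i2, v1]
    simp
  rw [e] at core
  set I : ℝ := ∫ x in Set.pi Set.univ (fun _ : Fin N => Ioi (0:ℝ)),
        g (4/3 + ∑ i, a i * x i) * exp (-∑ i, x i) with hI
  have hI' : I ≤ 1 - 4/9 * exp (-(1/3 : ℝ)) := by linarith
  have hE : exp (4/3 : ℝ) * exp (-(1/3 : ℝ)) = exp 1 := by
    rw [← exp_add]; congr 1; norm_num
  have hpos : 0 < exp (4/3 : ℝ) := exp_pos _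
  calc exp (4/3) / (4/3) * I ≤ exp (4/3) / (4/3) * (1 - 4/9 * exp (-(1/3 : ℝ))) := by
        gcongr
    _ = 3/4 * exp (4/3) - (exp (4/3 : ℝ) * exp (-(1/3 : ℝ))) / 3 := by ring
    _ = 3/4 * exp (4/3) - exp 1 / 3 := by rw [hE]

end Crest.Agent.Lib_helper80_Upper
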