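/-
Row 130 / S0175 team project (architect: helper68).  Shared definitions.  DO NOT EDIT (ask helper68).
See notes/mm3_plan_S0175.md for the paper proof.
-/
import Mathlib
import Crest.Prelude.Def_MultiMarginal

set_option autoImplicit false
open MeasureTheory Set
open scoped ENNReal ContDiff RealInnerProductSpace
open Crest.AnalysisR.OT

namespace Crest.Agent.MM3

/-! ## 1. Abstract "plus-shape" configuration (pure measure theory) -/

/-- Data of the abstract problem.  Five clusters `SB`, `SA j`, `SC j` (`j : Fin 2`); base measure `ν`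
living on `SB`; `fA j, fC j : SB → SA j, SC j` bijections with inverses `gA j, gC j`;
`u` the Kantorovich potential; `c` the (symmetric) three-body cost. -/
structure CfgData (X : Type*) [MeasurableSpace X] where
  c : X × X × X → ℝ≥0∞
  ν : Measure X
  fA : Fin 2 → X → X
  fC : Fin 2 → X → X
  gA : Fin 2 → X → X
  gC : Fin 2 → X → X
  SB : Set X
  SA : Fin 2 → Set X
  SC : Fin 2 → Set X
  u : X → ℝ≥0∞

namespace CfgData
variable {X : Type*} [MeasurableSpace X] (D : CfgData X)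

/-- union of the four outer clusters -/
def O : Set X := ⋃ j, (D.SA j ∪ D.SC j)
/-- union of all five clusters -/
def S : Set X := D.SB ∪ D.O
/-- the marginal: `2ν` on `SB`, push-forwards of `ν` on the outer clusters -/
noncomputable def μ : Measure X :=
  (2 : ℝ≥0∞) • D.ν + ∑ j : Fin 2, (D.ν.map (D.fA j) + D.ν.map (D.fC j))

/-- The hypotheses of the abstract problem. -/
structure Valid : Prop where
  c_meas : Measurable D.c
  c_swap12 : ∀ x y z, D.c (y, x, z) = D.c (x, y, z)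
  c_swap23 : ∀ x y z, D.c (x, z, y) = D.c (x, y, z)
  ν_fin : IsFiniteMeasure D.ν
  ν_pos : D.ν univ ≠ 0
  ν_SB : D.ν D.SBᶜ = 0
  fA_meas : ∀ j, Measurable (D.fA j)
  fC_meas : ∀ j, Measurable (D.fC j)
  gA_meas : ∀ j, Measurable (D.gA j)
  gC_meas : ∀ j, Measurable (D.gC j)
  SB_meas : MeasurableSet D.SB
  SA_meas : ∀ j, MeasurableSet (D.SA j)
  SC_meas : ∀ j, MeasurableSet (D.SC j)
  disj_BA : ∀ j, Disjoint D.SB (D.SA j)
  disj_BC : ∀ j, Disjoint D.SB (D.SC j)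
  disj_AC : ∀ i j, Disjoint (D.SA i) (D.SC j)
  disj_AA : Disjoint (D.SA 0) (D.SA 1)
  disj_CC : Disjoint (D.SC 0) (D.SC 1)
  fA_mem : ∀ j, ∀ b ∈ D.SB, D.fA j b ∈ D.SA j
  fC_mem : ∀ j, ∀ b ∈ D.SB, D.fC j b ∈ D.SC j
  gA_mem : ∀ j, ∀ x ∈ D.SA j, D.gA j x ∈ D.SB
  gC_mem : ∀ j, ∀ x ∈ D.SC j, D.gC j x ∈ D.SB
  gA_fA : ∀ j, ∀ b ∈ D.SB, D.gA j (D.fA j b) = b
  gC_fC : ∀ j, ∀ b ∈ D.SB, D.gC j (D.fC j b) = b
  fA_gA : ∀ j, ∀ x ∈ D.SA j, D.fA j (D.gA j x) = x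
  fC_gC : ∀ j, ∀ x ∈ D.SC j, D.fC j (D.gC j x) = x
  u_meas : Measurable D.u
  u_bdd : ∃ M : ℝ≥0∞, M ≠ ⊤ ∧ ∀ x, D.u x ≤ M
  /-- two points in the central cluster: strict inequality -/
  two_B : ∀ x ∈ D.SB, ∀ y ∈ D.SB, ∀ z ∈ D.S, D.u x + D.u y + D.u z < D.c (x, y, z)
  /-- no point in the central cluster: strict inequality -/
  no_B : ∀ x ∈ D.O, ∀ y ∈ D.O, ∀ z ∈ D.O, D.u x + D.u y + D.u z < D.c (x, y, z)
  /-- exactly one point in the central cluster: inequality ... -/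
  one_B : ∀ x ∈ D.SB, ∀ y ∈ D.O, ∀ z ∈ D.O, D.u x + D.u y + D.u z ≤ D.c (x, y, z)
  /-- ... with equality only on the two configurations through `x` -/
  one_B_eq : ∀ x ∈ D.SB, ∀ y ∈ D.O, ∀ z ∈ D.O, D.c (x, y, z) ≤ D.u x + D.u y + D.u z →
    ∃ j, (y = D.fA j x ∧ z = D.fC j x) ∨ (y = D.fC j x ∧ z = D.fA j x)
  /-- equality on the configurations -/
  cfg_eq : ∀ j, ∀ b ∈ D.SB, D.c (b, D.fA j b, D.fC j b) = D.u b + D.u (D.fA j b) + D.u (D.fC j b)

/-- the optimal value -/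
noncomputable def val : ℝ≥0∞ := 3 * ∫⁻ x, D.u x ∂D.μ

end CfgData

/-! ## 2. Kernel, potentials (real valued) -/

section Kernel
variable {E : Type*} [NormedAddCommGroup E] [InnerProductSpace ℝ E]

/-- `h(z) = ‖z‖^(-s)` -/
noncomputable def hK (s : ℝ) (z : E) : ℝ := ‖z‖ ^ (-s)
/-- `g(z) = ∇h(z) = -s ‖z‖^(-s-2) z` -/
noncomputable def gK (s : ℝ) (z : E) : E := (-s * ‖z‖ ^ (-s - 2)) • z
/-- `Dg(z) w = -s ‖z‖^(-s-2) w + s (s+2) ‖z‖^(-s-4) ⟪z,w⟫ z` -/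
noncomputable def HK (s : ℝ) (z : E) : E →L[ℝ] E :=
  (-s * ‖z‖ ^ (-s - 2)) • ContinuousLinearMap.id ℝ E
    + (s * (s + 2) * ‖z‖ ^ (-s - 4)) • (innerSL ℝ z).smulRight z
/-- real three-body cost -/
noncomputable def costR (s : ℝ) (x y z : E) : ℝ := hK s (x - y) + hK s (x - z) + hK s (y - z)
/-- potential on the central cluster `B` (centre `0`) -/
noncomputable def uB (s K t : ℝ) (b : E) : ℝ := 2 + (2 : ℝ) ^ (-s) - 2 * t - K / 2 * ‖b‖ ^ 2
/-- the slope `ℓ_e = g(2e) + g(e)` -/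
noncomputable def ellK (s : ℝ) (e : E) : E := gK s ((2 : ℝ) • e) + gK s e
/-- potential on the cluster `C` (centre `e`) -/
noncomputable def uC (s K t : ℝ) (e c : E) : ℝ := t + ⟪ellK s e, c - e⟫ - K / 2 * ‖c - e‖ ^ 2
/-- potential on the cluster `A` (centre `-e`); `β = α⁻¹ : A → B`, `γ : B → C` -/
noncomputable def uA (s K t : ℝ) (e : E) (β γ : E → E) (a : E) : ℝ :=
  costR s a (β a) (γ (β a)) - uB s K t (β a) - uC s K t e (γ (β a))
/-- first-order condition in `b` -/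
def EqB (s K : ℝ) (a b c : E) : Prop := gK s (b - a) + gK s (b - c) = -(K • b)
/-- first-order condition in `c` -/
def EqC (s K : ℝ) (e a b c : E) : Prop := gK s (c - a) + gK s (c - b) = ellK s e - K • (c - e)

end Kernel

/-! ## 3. Local diffeomorphisms -/

/-- `f : U → V` is a smooth diffeomorphism between open sets with inverse `g`. -/
structure LocDiffeo {F : Type*} [NormedAddCommGroup F] [NormedSpace ℝ F]
    (f g : F → F) (U V : Set F) : Prop where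
  openU : IsOpen U
  openV : IsOpen V
  mapsTo : MapsTo f U V
  mapsTo' : MapsTo g V U
  left : ∀ x ∈ U, g (f x) = x
  right : ∀ y ∈ V, f (g y) = y
  smooth : ContDiffOn ℝ ∞ f U
  smooth' : ContDiffOn ℝ ∞ g V

/-! ## 4. Concrete geometric package on `ℝ^d` -/

/-- `ℝ^d` -/
abbrev EE (d : ℕ) := EuclideanSpace ℝ (Fin d)

/-- data of the geometric package -/
structure GeoData (d : ℕ) where
  η : ℝ
  U : Fin 2 → Set (EE d)
  VA : Fin 2 → Set (EE d)
  VC : Fin 2 → Set (EE d)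
  fA : Fin 2 → EE d → EE d
  fC : Fin 2 → EE d → EE d
  gA : Fin 2 → EE d → EE d
  gC : Fin 2 → EE d → EE d
  u : EE d → ℝ≥0∞

namespace GeoData
variable {d : ℕ} (G : GeoData d)

def SB : Set (EE d) := Metric.ball 0 G.η
def SA (j : Fin 2) : Set (EE d) := G.VA j ∩ G.gA j ⁻¹' G.SB
def SC (j : Fin 2) : Set (EE d) := G.VC j ∩ G.gC j ⁻¹' G.SB
def O : Set (EE d) := ⋃ j, (G.SA j ∪ G.SC j)
def S : Set (EE d) := G.SB ∪ G.O

/-- properties of the geometric package (cost exponent `s`) -/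
structure Valid (s : ℝ) : Prop where
  η_pos : 0 < G.η
  ball_sub : ∀ j, Metric.ball 0 G.η ⊆ G.U j
  diffA : ∀ j, LocDiffeo (G.fA j) (G.gA j) (G.U j) (G.VA j)
  diffC : ∀ j, LocDiffeo (G.fC j) (G.gC j) (G.U j) (G.VC j)
  fA_meas : ∀ j, Measurable (G.fA j)
  fC_meas : ∀ j, Measurable (G.fC j)
  gA_meas : ∀ j, Measurable (G.gA j)
  gC_meas : ∀ j, Measurable (G.gC j)
  disj_BA : ∀ j, Disjoint G.SB (G.SA j)
  disj_BC : ∀ j, Disjoint G.SB (G.SC j)
  disj_AC : ∀ i j, Disjoint (G.SA i) (G.SC j)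
  disj_AA : Disjoint (G.SA 0) (G.SA 1)
  disj_CC : Disjoint (G.SC 0) (G.SC 1)
  u_meas : Measurable G.u
  u_bdd : ∃ M : ℝ≥0∞, M ≠ ⊤ ∧ ∀ x, G.u x ≤ M
  two_B : ∀ x ∈ G.SB, ∀ y ∈ G.SB, ∀ z ∈ G.S, G.u x + G.u y + G.u z < tripleCost s (x, y, z)
  no_B : ∀ x ∈ G.O, ∀ y ∈ G.O, ∀ z ∈ G.O, G.u x + G.u y + G.u z < tripleCost s (x, y, z)
  one_B : ∀ x ∈ G.SB, ∀ y ∈ G.O, ∀ z ∈ G.O, G.u x + G.u y + G.u z ≤ tripleCost s (x, y, z)
  one_B_eq : ∀ x ∈ G.SB, ∀ y ∈ G.O, ∀ z ∈ G.O, tripleCost s (x, y, z) ≤ G.u x + G.u y + G.u z →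
    ∃ j, (y = G.fA j x ∧ z = G.fC j x) ∨ (y = G.fC j x ∧ z = G.fA j x)
  cfg_eq : ∀ j, ∀ b ∈ G.SB,
    tripleCost s (b, G.fA j b, G.fC j b) = G.u b + G.u (G.fA j b) + G.u (G.fC j b)
  /-- modulus of continuity of the cost in the `B`-variable (used for the approximating Monge maps) -/
  modulus : ∀ ε : ℝ≥0∞, 0 < ε → ∃ δ : ℝ, 0 < δ ∧ ∀ b ∈ G.SB, ∀ b' ∈ G.SB, ‖b - b'‖ ≤ δ → ∀ j,
    tripleCost s (b, G.fC j b', G.fA j b') ≤ tripleCost s (b', G.fC j b', G.fA j b') + ε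

/-- the abstract configuration attached to a geometric package and a base measure -/
noncomputable def toCfg (s : ℝ) (ν : Measure (EE d)) : CfgData (EE d) where
  c := tripleCost s
  ν := ν
  fA := G.fA
  fC := G.fC
  gA := G.gA
  gC := G.gC
  SB := G.SB
  SA := G.SA
  SC := G.SC
  u := G.u

end GeoData

end Crest.Agent.MM3
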