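/-
Row 130 / S0175 project, task AT0 (symmetrisation of the dual inequality).  One owner; keep statements.
-/
import Crest.Agent.MM3_Defs

set_option autoImplicit false
open MeasureTheory Set
open scoped ENNReal
open Crest.AnalysisR.OT

namespace Crest.Agent.MM3
namespace CfgData
variable {X : Type*} [MeasurableSpace X] {D : CfgData X}

theorem Valid.SA_sub_O (_h : D.Valid) (j : Fin 2) : D.SA j ⊆ D.O := fun _ hx =>
  mem_iUnion.2 ⟨j, Or.inl hx⟩

theorem Valid.SC_sub_O (_h : D.Valid) (j : Fin 2) : D.SC j ⊆ D.O := fun _ hx =>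
  mem_iUnion.2 ⟨j, Or.inr hx⟩

theorem Valid.notMem_O_of_mem_SB (h : D.Valid) {x : X} (hx : x ∈ D.SB) : x ∉ D.O := by
  intro hO
  obtain ⟨j, hj⟩ := mem_iUnion.1 hO
  rcases hj with hj | hj
  · exact disjoint_left.1 (h.disj_BA j) hx hj
  · exact disjoint_left.1 (h.disj_BC j) hx hj

theorem Valid.SA_inj (h : D.Valid) {i j : Fin 2} {x : X} (hi : x ∈ D.SA i) (hj : x ∈ D.SA j) :
    i = j := by
  fin_cases i <;> fin_cases j
  · rfl
  · exact absurd hj (disjoint_left.1 h.disj_AA hi)
  · exact absurd hi (disjoint_left.1 h.disj_AA hj)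
  · rfl

theorem Valid.SC_inj (h : D.Valid) {i j : Fin 2} {x : X} (hi : x ∈ D.SC i) (hj : x ∈ D.SC j) :
    i = j := by
  fin_cases i <;> fin_cases j
  · rfl
  · exact absurd hj (disjoint_left.1 h.disj_CC hi)
  · exact absurd hi (disjoint_left.1 h.disj_CC hj)
  · rfl

theorem Valid.c_132 (h : D.Valid) (x y z : X) : D.c (x, y, z) = D.c (x, z, y) := h.c_swap23 x z y
theorem Valid.c_213 (h : D.Valid) (x y z : X) : D.c (x, y, z) = D.c (y, x, z) := h.c_swap12 y x z
theorem Valid.c_231 (h : D.Valid) (x y z : X) : D.c (x, y, z) = D.c (y, z, x) := by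
  rw [h.c_213 x y z, h.c_132 y x z]
theorem Valid.c_312 (h : D.Valid) (x y z : X) : D.c (x, y, z) = D.c (z, x, y) := by
  rw [h.c_132 x y z, h.c_213 x z y]

/-- AT0a.  Dual inequality on `S³`.
Proof: each of x,y,z is in `SB` or in `O`; 8 patterns; use `c_swap12`, `c_swap23` to move the `SB`-points to
the front and `two_B` (≥ 2 points in SB), `no_B` (0 points), `one_B` (1 point); `add_comm` etc. on the left. -/
theorem Valid.ineq (h : D.Valid) : ∀ x ∈ D.S, ∀ y ∈ D.S, ∀ z ∈ D.S,
    D.u x + D.u y + D.u z ≤ D.c (x, y, z) := by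
  intro x hx y hy z hz
  rcases hx with hxB | hxO
  · rcases hy with hyB | hyO
    · exact (h.two_B x hxB y hyB z hz).le
    · rcases hz with hzB | hzO
      · rw [h.c_132 x y z, add_right_comm]
        exact (h.two_B x hxB z hzB y (Or.inr hyO)).le
      · exact h.one_B x hxB y hyO z hzO
  · rcases hy with hyB | hyO
    · rcases hz with hzB | hzO
      · rw [h.c_231 x y z]
        have := (h.two_B y hyB z hzB x (Or.inr hxO)).le
        calc D.u x + D.u y + D.u z = D.u y + D.u z + D.u x := by ring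
          _ ≤ _ := this
      · rw [h.c_213 x y z, add_comm (D.u x) (D.u y)]
        exact h.one_B y hyB x hxO z hzO
    · rcases hz with hzB | hzO
      · rw [h.c_312 x y z]
        have := h.one_B z hzB x hxO y hyO
        calc D.u x + D.u y + D.u z = D.u z + D.u x + D.u y := by ring
          _ ≤ _ := this
      · exact (h.no_B x hxO y hyO z hzO).le

/-- one central point `b`, two outer points `x`, `w`, equality: `b`, `w` are determined by `x`. -/
theorem Valid.rigid_aux (h : D.Valid) {b x w : X} (hb : b ∈ D.SB) (hx : x ∈ D.O) (hw : w ∈ D.O)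
    (hc : D.c (b, x, w) ≤ D.u b + D.u x + D.u w) :
    (∀ j, x ∈ D.SA j → b = D.gA j x ∧ w = D.fC j (D.gA j x)) ∧
    (∀ j, x ∈ D.SC j → b = D.gC j x ∧ w = D.fA j (D.gC j x)) := by
  obtain ⟨i, hi⟩ := h.one_B_eq b hb x hx w hw hc
  rcases hi with ⟨h1, h2⟩ | ⟨h1, h2⟩
  · have hxi : x ∈ D.SA i := h1 ▸ h.fA_mem i b hb
    refine ⟨fun j hj => ?_, fun j hj => ?_⟩
    · obtain rfl := h.SA_inj hxi hj
      have : D.gA i x = b := by rw [h1, h.gA_fA i b hb]
      rw [this]
      exact ⟨rfl, h2⟩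
    · exact absurd hj (disjoint_left.1 (h.disj_AC i j) hxi)
  · have hxi : x ∈ D.SC i := h1 ▸ h.fC_mem i b hb
    refine ⟨fun j hj => ?_, fun j hj => ?_⟩
    · exact absurd hxi (disjoint_left.1 (h.disj_AC j i) hj)
    · obtain rfl := h.SC_inj hxi hj
      have : D.gC i x = b := by rw [h1, h.gC_fC i b hb]
      rw [this]
      exact ⟨rfl, h2⟩

/-- AT0b.  Rigidity: equality in the dual inequality forces a configuration.
Proof: same 8 patterns; the strict ones are contradictory; in the one-`SB`-point patterns use `one_B_eq`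
(after permuting) and the disjointness of the clusters + `gA_fA`, `gC_fC` to identify `j` and the point. -/
theorem Valid.rigid (h : D.Valid) : ∀ x ∈ D.S, ∀ y ∈ D.S, ∀ z ∈ D.S,
    D.c (x, y, z) ≤ D.u x + D.u y + D.u z →
    (x ∈ D.SB → ∃ j, (y = D.fA j x ∧ z = D.fC j x) ∨ (y = D.fC j x ∧ z = D.fA j x)) ∧
    (∀ j, x ∈ D.SA j → (y = D.gA j x ∧ z = D.fC j (D.gA j x)) ∨ (y = D.fC j (D.gA j x) ∧ z = D.gA j x)) ∧
    (∀ j, x ∈ D.SC j → (y = D.gC j x ∧ z = D.fA j (D.gC j x)) ∨ (y = D.fA j (D.gC j x) ∧ z = D.gC j x)) := by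
  intro x hx y hy z hz hc
  rcases hx with hxB | hxO
  · rcases hy with hyB | hyO
    · exact absurd hc (not_le.2 (h.two_B x hxB y hyB z hz))
    · rcases hz with hzB | hzO
      · exfalso
        rw [h.c_132 x y z, add_right_comm] at hc
        exact absurd hc (not_le.2 (h.two_B x hxB z hzB y (Or.inr hyO)))
      · refine ⟨fun _ => h.one_B_eq x hxB y hyO z hzO hc, fun j hj => ?_, fun j hj => ?_⟩
        · exact absurd (h.SA_sub_O j hj) (h.notMem_O_of_mem_SB hxB)
        · exact absurd (h.SC_sub_O j hj) (h.notMem_O_of_mem_SB hxB)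
  · rcases hy with hyB | hyO
    · rcases hz with hzB | hzO
      · exfalso
        rw [h.c_231 x y z] at hc
        have h1 := h.two_B y hyB z hzB x (Or.inr hxO)
        have h2 : D.u x + D.u y + D.u z = D.u y + D.u z + D.u x := by ring
        rw [h2] at hc
        exact absurd hc (not_le.2 h1)
      · rw [h.c_213 x y z, add_comm (D.u x) (D.u y)] at hc
        obtain ⟨hA, hC⟩ := h.rigid_aux hyB hxO hzO hc
        exact ⟨fun hB => absurd hxO (h.notMem_O_of_mem_SB hB), fun j hj => Or.inl (hA j hj),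
          fun j hj => Or.inl (hC j hj)⟩
    · rcases hz with hzB | hzO
      · rw [h.c_312 x y z] at hc
        have h2 : D.u x + D.u y + D.u z = D.u z + D.u x + D.u y := by ring
        rw [h2] at hc
        obtain ⟨hA, hC⟩ := h.rigid_aux hzB hxO hyO hc
        exact ⟨fun hB => absurd hxO (h.notMem_O_of_mem_SB hB),
          fun j hj => Or.inr ⟨(hA j hj).2, (hA j hj).1⟩,
          fun j hj => Or.inr ⟨(hC j hj).2, (hC j hj).1⟩⟩
      · exact absurd hc (not_le.2 (h.no_B x hxO y hyO z hzO))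

/-- AT0c. `S` is measurable and carries `μ`. -/
theorem Valid.S_meas (h : D.Valid) : MeasurableSet D.S :=
  h.SB_meas.union (MeasurableSet.iUnion fun j => (h.SA_meas j).union (h.SC_meas j))

theorem Valid.μ_compl_S (h : D.Valid) : D.μ D.Sᶜ = 0 := by
  have hS := h.S_meas
  have h0 : D.ν D.Sᶜ = 0 :=
    measure_mono_null (compl_subset_compl.2 subset_union_left) h.ν_SB
  have hA : ∀ j, (D.ν.map (D.fA j)) D.Sᶜ = 0 := by
    intro j
    rw [Measure.map_apply (h.fA_meas j) hS.compl]
    refine measure_mono_null ?_ h.ν_SB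
    intro b hb hbB
    exact hb (Or.inr (h.SA_sub_O j (h.fA_mem j b hbB)))
  have hC : ∀ j, (D.ν.map (D.fC j)) D.Sᶜ = 0 := by
    intro j
    rw [Measure.map_apply (h.fC_meas j) hS.compl]
    refine measure_mono_null ?_ h.ν_SB
    intro b hb hbB
    exact hb (Or.inr (h.SC_sub_O j (h.fC_mem j b hbB)))
  simp [μ, h0, hA, hC]

/-- AT0d. `μ` is finite; total mass `6 ν(univ)`. -/
theorem Valid.μ_univ (h : D.Valid) : D.μ univ = 6 * D.ν univ := by
  have hA : ∀ j, (D.ν.map (D.fA j)) univ = D.ν univ := by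
    intro j
    rw [Measure.map_apply (h.fA_meas j) MeasurableSet.univ, preimage_univ]
  have hC : ∀ j, (D.ν.map (D.fC j)) univ = D.ν univ := by
    intro j
    rw [Measure.map_apply (h.fC_meas j) MeasurableSet.univ, preimage_univ]
  simp only [μ, Measure.add_apply, Measure.smul_apply, hA, hC,
    Fin.sum_univ_two, smul_eq_mul]
  ring

theorem Valid.μ_fin (h : D.Valid) : IsFiniteMeasure D.μ := by
  have := h.ν_fin
  refine ⟨?_⟩
  rw [h.μ_univ]
  exact ENNReal.mul_lt_top (by simp) (measure_lt_top _ _)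

/-- AT0e. the value is finite -/
theorem Valid.val_lt_top (h : D.Valid) : D.val < ⊤ := by
  have := h.μ_fin
  obtain ⟨M, hM, hu⟩ := h.u_bdd
  have h1 : ∫⁻ x, D.u x ∂D.μ ≤ M * D.μ univ := by
    calc ∫⁻ x, D.u x ∂D.μ ≤ ∫⁻ _, M ∂D.μ := lintegral_mono hu
      _ = M * D.μ univ := lintegral_const _
  have h2 : ∫⁻ x, D.u x ∂D.μ < ⊤ :=
    lt_of_le_of_lt h1 (ENNReal.mul_lt_top (lt_top_iff_ne_top.2 hM) (measure_lt_top _ _))
  exact ENNReal.mul_lt_top (by simp) h2

end CfgData
end Crest.Agent.MM3
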