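/-
Row 130 / S0175 project, task ATA (weak duality).  One owner; keep statements.
-/
import Crest.Agent.MM3_Sym

set_option autoImplicit false
open MeasureTheory Set
open scoped ENNReal
open Crest.AnalysisR.OT

namespace Crest.Agent.MM3
namespace CfgData
variable {X : Type*} [MeasurableSpace X] {D : CfgData X}

/-- ATA1.  For a coupling `π` of `μ`: `∫ (u(p₁)+u(p₂)+u(p₃)) dπ = 3 ∫ u dμ`
(`lintegral_add_left`, `lintegral_map` with the three marginal identities). -/
theorem lintegral_sum_u_of_coupling (h : D.Valid) (π : Measure (X × X × X)) (hπ : IsCoupling₃ D.μ π) :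
    ∫⁻ p, (D.u p.1 + D.u p.2.1 + D.u p.2.2) ∂π = D.val := by
  obtain ⟨h1, h2, h3⟩ := hπ
  have hu := h.u_meas
  have m1 : Measurable (fun p : X × X × X => p.1) := measurable_fst
  have m2 : Measurable (fun p : X × X × X => p.2.1) := measurable_fst.comp measurable_snd
  have m3 : Measurable (fun p : X × X × X => p.2.2) := measurable_snd.comp measurable_snd
  have e1 : ∫⁻ p, D.u p.1 ∂π = ∫⁻ x, D.u x ∂D.μ := by
    rw [← h1, lintegral_map hu m1]
  have e2 : ∫⁻ p, D.u p.2.1 ∂π = ∫⁻ x, D.u x ∂D.μ := by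
    rw [← h2, lintegral_map hu m2]
  have e3 : ∫⁻ p, D.u p.2.2 ∂π = ∫⁻ x, D.u x ∂D.μ := by
    rw [← h3, lintegral_map hu m3]
  have k1 : Measurable (fun p : X × X × X => D.u p.1) := hu.comp m1
  have k2 : Measurable (fun p : X × X × X => D.u p.2.1) := hu.comp m2
  have k12 : Measurable (fun p : X × X × X => D.u p.1 + D.u p.2.1) := k1.add k2
  rw [lintegral_add_left k12, lintegral_add_left k1, e1, e2, e3, val]
  ring

/-- ATA2.  A coupling of `μ` is carried by `S³`. -/
theorem ae_mem_S_of_coupling (h : D.Valid) (π : Measure (X × X × X)) (hπ : IsCoupling₃ D.μ π) :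
    ∀ᵐ p ∂π, p.1 ∈ D.S ∧ p.2.1 ∈ D.S ∧ p.2.2 ∈ D.S := by
  obtain ⟨h1, h2, h3⟩ := hπ
  have hS := h.S_meas
  have m1 : Measurable (fun p : X × X × X => p.1) := measurable_fst
  have m2 : Measurable (fun p : X × X × X => p.2.1) := measurable_fst.comp measurable_snd
  have m3 : Measurable (fun p : X × X × X => p.2.2) := measurable_snd.comp measurable_snd
  have key : ∀ f : X × X × X → X, Measurable f → π.map f = D.μ → ∀ᵐ p ∂π, f p ∈ D.S := by
    intro f hf hm
    have h0 : (π.map f) D.Sᶜ = 0 := by rw [hm]; exact h.μ_compl_S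
    rw [Measure.map_apply hf hS.compl] at h0
    rw [ae_iff]
    exact h0
  filter_upwards [key _ m1 h1, key _ m2 h2, key _ m3 h3] with p a b c
  exact ⟨a, b, c⟩

/-- ATA3.  Weak duality. -/
theorem weak_duality (h : D.Valid) (π : Measure (X × X × X)) (hπ : IsCoupling₃ D.μ π) :
    D.val ≤ ∫⁻ p, D.c p ∂π := by
  rw [← lintegral_sum_u_of_coupling h π hπ]
  apply lintegral_mono_ae
  filter_upwards [ae_mem_S_of_coupling h π hπ] with p hp
  exact h.ineq p.1 hp.1 p.2.1 hp.2.1 p.2.2 hp.2.2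

/-- ATA4.  Complementary slackness: a coupling with cost `≤ val` is carried by the equality set
(`ae_eq_of_ae_le_of_lintegral_le`, using `val_lt_top`). -/
theorem ae_eq_of_cost_le (h : D.Valid) (π : Measure (X × X × X)) (hπ : IsCoupling₃ D.μ π)
    (hc : ∫⁻ p, D.c p ∂π ≤ D.val) :
    ∀ᵐ p ∂π, D.c p ≤ D.u p.1 + D.u p.2.1 + D.u p.2.2 := by
  have hsum := lintegral_sum_u_of_coupling h π hπ
  have hle : (fun p : X × X × X => D.u p.1 + D.u p.2.1 + D.u p.2.2) ≤ᵐ[π] D.c := by
    filter_upwards [ae_mem_S_of_coupling h π hπ] with p hp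
    exact h.ineq p.1 hp.1 p.2.1 hp.2.1 p.2.2 hp.2.2
  have heq := ae_eq_of_ae_le_of_lintegral_le hle (by rw [hsum]; exact h.val_lt_top.ne)
    h.c_meas.aemeasurable (by rw [hsum]; exact hc)
  filter_upwards [heq] with p hp
  exact hp.ge

/-- ATA5.  A Monge pair induces a coupling. -/
theorem coupling_of_monge (h : D.Valid) (T₂ T₃ : X → X) (h₂ : Measurable T₂) (h₃ : Measurable T₃)
    (m₂ : D.μ.map T₂ = D.μ) (m₃ : D.μ.map T₃ = D.μ) :
    IsCoupling₃ D.μ (D.μ.map fun x => (x, T₂ x, T₃ x)) := by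
  have hm : Measurable (fun x : X => (x, T₂ x, T₃ x)) := measurable_id.prodMk (h₂.prodMk h₃)
  have m1 : Measurable (fun p : X × X × X => p.1) := measurable_fst
  have m2 : Measurable (fun p : X × X × X => p.2.1) := measurable_fst.comp measurable_snd
  have m3 : Measurable (fun p : X × X × X => p.2.2) := measurable_snd.comp measurable_snd
  refine ⟨?_, ?_, ?_⟩
  · rw [Measure.map_map m1 hm]
    exact Measure.map_id
  · rw [Measure.map_map m2 hm]
    exact m₂
  · rw [Measure.map_map m3 hm]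
    exact m₃

end CfgData
end Crest.Agent.MM3
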