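/-
Row 130 / S0175 project, task ATD (approximating Monge pairs).  One owner; keep statements.
-/
import Crest.Agent.MM3_Duality

set_option autoImplicit false
open MeasureTheory Set
open scoped ENNReal
open Crest.AnalysisR.OT

namespace Crest.Agent.MM3
namespace CfgData
variable {X : Type*} [MeasurableSpace X] {D : CfgData X}

open scoped Classical in
/-- piecewise definition on the five clusters (identity elsewhere) -/
noncomputable def pw (D : CfgData X) (a c : Fin 2 → X → X) (b : X → X) (x : X) : X :=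
  if x ∈ D.SA 0 then a 0 x else if x ∈ D.SA 1 then a 1 x else
  if x ∈ D.SC 0 then c 0 x else if x ∈ D.SC 1 then c 1 x else
  if x ∈ D.SB then b x else x

theorem measurable_pw (h : D.Valid) {a c : Fin 2 → X → X} {b : X → X} (ha : ∀ j, Measurable (a j))
    (hc : ∀ j, Measurable (c j)) (hb : Measurable b) : Measurable (D.pw a c b) := by
  classical
  unfold pw
  exact Measurable.ite (h.SA_meas 0) (ha 0) (Measurable.ite (h.SA_meas 1) (ha 1)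
    (Measurable.ite (h.SC_meas 0) (hc 0) (Measurable.ite (h.SC_meas 1) (hc 1)
      (Measurable.ite h.SB_meas hb measurable_id))))

theorem pw_A (h : D.Valid) (a c : Fin 2 → X → X) (b : X → X) (j : Fin 2) {x : X}
    (hx : x ∈ D.SA j) : D.pw a c b x = a j x := by
  classical
  unfold pw
  fin_cases j
  · exact if_pos hx
  · have h0 : x ∉ D.SA 0 := fun h0 => (Set.disjoint_left.mp h.disj_AA) h0 hx
    rw [if_neg h0]
    exact if_pos hx

theorem pw_C (h : D.Valid) (a c : Fin 2 → X → X) (b : X → X) (j : Fin 2) {x : X}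
    (hx : x ∈ D.SC j) : D.pw a c b x = c j x := by
  classical
  unfold pw
  have h0 : x ∉ D.SA 0 := fun h0 => (Set.disjoint_left.mp (h.disj_AC 0 j)) h0 hx
  have h1 : x ∉ D.SA 1 := fun h0 => (Set.disjoint_left.mp (h.disj_AC 1 j)) h0 hx
  rw [if_neg h0, if_neg h1]
  fin_cases j
  · exact if_pos hx
  · have h2 : x ∉ D.SC 0 := fun h0 => (Set.disjoint_left.mp h.disj_CC) h0 hx
    rw [if_neg h2]
    exact if_pos hx

theorem pw_B (h : D.Valid) (a c : Fin 2 → X → X) (b : X → X) {x : X}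
    (hx : x ∈ D.SB) : D.pw a c b x = b x := by
  classical
  unfold pw
  have h0 : x ∉ D.SA 0 := fun h0 => (Set.disjoint_left.mp (h.disj_BA 0)) hx h0
  have h1 : x ∉ D.SA 1 := fun h0 => (Set.disjoint_left.mp (h.disj_BA 1)) hx h0
  have h2 : x ∉ D.SC 0 := fun h0 => (Set.disjoint_left.mp (h.disj_BC 0)) hx h0
  have h3 : x ∉ D.SC 1 := fun h0 => (Set.disjoint_left.mp (h.disj_BC 1)) hx h0
  rw [if_neg h0, if_neg h1, if_neg h2, if_neg h3, if_pos hx]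

theorem Valid.ae_mem_SB (h : D.Valid) : ∀ᵐ b ∂D.ν, b ∈ D.SB := by
  have := h.ν_SB
  rw [measure_eq_zero_iff_ae_notMem] at this
  filter_upwards [this] with b hb
  simpa using hb

/-- integral against `μ` -/
theorem Valid.lintegral_μ (h : D.Valid) (G : X → ℝ≥0∞) (hG : Measurable G) :
    ∫⁻ x, G x ∂D.μ = 2 * ∫⁻ x, G x ∂D.ν +
      ((∫⁻ b, G (D.fA 0 b) ∂D.ν + ∫⁻ b, G (D.fC 0 b) ∂D.ν) +
       (∫⁻ b, G (D.fA 1 b) ∂D.ν + ∫⁻ b, G (D.fC 1 b) ∂D.ν)) := by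
  unfold μ
  rw [Fin.sum_univ_two, lintegral_add_measure, lintegral_add_measure, lintegral_add_measure,
    lintegral_add_measure, lintegral_smul_measure, lintegral_map hG (h.fA_meas 0),
    lintegral_map hG (h.fA_meas 1), lintegral_map hG (h.fC_meas 0), lintegral_map hG (h.fC_meas 1),
    smul_eq_mul]

/-- push-forward of `μ` -/
theorem Valid.map_μ (h : D.Valid) (T : X → X) (hT : Measurable T) :
    D.μ.map T = (2 : ℝ≥0∞) • D.ν.map T +
      ((D.ν.map (fun b => T (D.fA 0 b)) + D.ν.map (fun b => T (D.fC 0 b))) +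
       (D.ν.map (fun b => T (D.fA 1 b)) + D.ν.map (fun b => T (D.fC 1 b)))) := by
  unfold μ
  rw [Fin.sum_univ_two, Measure.map_add _ _ hT, Measure.map_add _ _ hT, Measure.map_add _ _ hT,
    Measure.map_add _ _ hT, Measure.map_smul, Measure.map_map hT (h.fA_meas 0),
    Measure.map_map hT (h.fA_meas 1), Measure.map_map hT (h.fC_meas 0),
    Measure.map_map hT (h.fC_meas 1)]
  rfl

open scoped Classical in
/-- push-forward of `2ν` under a map which is `f 0 ∘ θ` on `B₁` and `f 1 ∘ θ` on `B₁ᶜ`. -/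
theorem map_two_nu (θ : X → X) (B₁ : Set X) (hθ : Measurable θ) (hB : MeasurableSet B₁)
    (h1 : ((2 : ℝ≥0∞) • D.ν.restrict B₁).map θ = D.ν)
    (h2 : ((2 : ℝ≥0∞) • D.ν.restrict B₁ᶜ).map θ = D.ν)
    (f : Fin 2 → X → X) (hf : ∀ j, Measurable (f j)) (T : X → X) (hT : Measurable T)
    (hTB : ∀ᵐ b ∂D.ν, T b = if b ∈ B₁ then f 0 (θ b) else f 1 (θ b)) :
    (2 : ℝ≥0∞) • D.ν.map T = D.ν.map (f 0) + D.ν.map (f 1) := by
  have e1 : (2 : ℝ≥0∞) • (D.ν.restrict B₁).map T = D.ν.map (f 0) := by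
    have : (D.ν.restrict B₁).map T = (D.ν.restrict B₁).map (fun b => f 0 (θ b)) := by
      apply Measure.map_congr
      filter_upwards [ae_restrict_of_ae hTB, ae_restrict_mem hB] with b hb hbB
      rw [hb, if_pos hbB]
    rw [this, ← Measure.map_smul]
    conv_rhs => rw [← h1]
    rw [Measure.map_map (hf 0) hθ]
    rfl
  have e2 : (2 : ℝ≥0∞) • (D.ν.restrict B₁ᶜ).map T = D.ν.map (f 1) := by
    have : (D.ν.restrict B₁ᶜ).map T = (D.ν.restrict B₁ᶜ).map (fun b => f 1 (θ b)) := by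
      apply Measure.map_congr
      filter_upwards [ae_restrict_of_ae hTB, ae_restrict_mem hB.compl] with b hb hbB
      rw [hb, if_neg hbB]
    rw [this, ← Measure.map_smul]
    conv_rhs => rw [← h2]
    rw [Measure.map_map (hf 1) hθ]
    rfl
  conv_lhs => rw [← Measure.restrict_add_restrict_compl (μ := D.ν) hB]
  rw [Measure.map_add _ _ hT, smul_add, e1, e2]

/-- ATD.  Approximating Monge pairs from a "doubling" map `θ` of the base measure.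

Paper proof.  Let j(b) = 0 on B₁, 1 on B₁ᶜ.  Define (piecewise on the measurable clusters, identity elsewhere)
  T₂ x = gA j x            (x ∈ SA j),   fA j (gC j x)  (x ∈ SC j),   fC (j x) (θ x)  (x ∈ SB),
  T₃ x = fC j (gA j x)     (x ∈ SA j),   gC j x         (x ∈ SC j),   fA (j x) (θ x)  (x ∈ SB).
Measure preservation: μ = 2ν + Σ_j (fA j)#ν + (fC j)#ν.
  ((fA j)#ν).map T₂ = ν.map (T₂ ∘ fA j) = ν  (T₂ ∘ fA j = id on SB, ν-a.e.: `Measure.map_congr`),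
  ((fC j)#ν).map T₂ = (fA j)#ν,
  (2ν).map T₂ = (2ν|B₁).map (fC 0 ∘ θ) + (2ν|B₁ᶜ).map (fC 1 ∘ θ) = (fC 0)#ν + (fC 1)#ν  by h1, h2.   Same for T₃.
Note θ b ∈ SB for ν-a.e. b (from h1, h2 and ν(SBᶜ)=0).
Cost: for x in an outer cluster (x,T₂x,T₃x) is a configuration: c = u x + u(T₂x) + u(T₃x) (cfg_eq + symmetry);
for ν-a.e. b ∈ SB: c(b,T₂b,T₃b) ≤ c(θb, fC j θb, fA j θb) + ε' = u(θ b) + u(T₂ b) + u(T₃ b) + ε'.
So ∫ c(x,T₂x,T₃x) dμ ≤ ∫ (u∘T₂ + u∘T₃) dμ + ∫_{outer} u dμ + ∫ u(θ b) 2dν(b) + ε' 2ν(univ)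
  = 2∫u dμ + ∫_{outer} u dμ + 2∫u dν + 2 ε' ν(univ) = 3∫u dμ + 2 ε' ν(univ),
using ∫ u(θ b) 2 dν = ∫_{B₁} + ∫_{B₁ᶜ} = ∫u dν + ∫u dν by h1, h2. -/
theorem monge_approx (h : D.Valid) (θ : X → X) (B₁ : Set X) (ε' : ℝ≥0∞)
    (hθ : Measurable θ) (hB : MeasurableSet B₁)
    (h1 : ((2 : ℝ≥0∞) • D.ν.restrict B₁).map θ = D.ν)
    (h2 : ((2 : ℝ≥0∞) • D.ν.restrict B₁ᶜ).map θ = D.ν)
    (hclose : ∀ᵐ b ∂D.ν, ∀ j, D.c (b, D.fC j (θ b), D.fA j (θ b))
        ≤ D.c (θ b, D.fC j (θ b), D.fA j (θ b)) + ε') :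
    ∃ T₂ T₃ : X → X, Measurable T₂ ∧ Measurable T₃ ∧ D.μ.map T₂ = D.μ ∧ D.μ.map T₃ = D.μ ∧
      ∫⁻ x, D.c (x, T₂ x, T₃ x) ∂D.μ ≤ D.val + ε' * (2 * D.ν univ) := by
  classical
  set bC : X → X := fun x => if x ∈ B₁ then D.fC 0 (θ x) else D.fC 1 (θ x) with hbC
  set bA : X → X := fun x => if x ∈ B₁ then D.fA 0 (θ x) else D.fA 1 (θ x) with hbA
  have hbCm : Measurable bC :=
    Measurable.ite hB ((h.fC_meas 0).comp hθ) ((h.fC_meas 1).comp hθ)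
  have hbAm : Measurable bA :=
    Measurable.ite hB ((h.fA_meas 0).comp hθ) ((h.fA_meas 1).comp hθ)
  set T₂ : X → X := D.pw D.gA (fun j x => D.fA j (D.gC j x)) bC with hT₂def
  set T₃ : X → X := D.pw (fun j x => D.fC j (D.gA j x)) D.gC bA with hT₃def
  have hT₂ : Measurable T₂ :=
    measurable_pw h h.gA_meas (fun j => (h.fA_meas j).comp (h.gC_meas j)) hbCm
  have hT₃ : Measurable T₃ :=
    measurable_pw h (fun j => (h.fC_meas j).comp (h.gA_meas j)) h.gC_meas hbAm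
  have hSB := h.ae_mem_SB
  -- pointwise values
  have T2A : ∀ j, ∀ b ∈ D.SB, T₂ (D.fA j b) = b := fun j b hb => by
    rw [show T₂ (D.fA j b) = D.gA j (D.fA j b) from pw_A h _ _ _ j (h.fA_mem j b hb),
      h.gA_fA j b hb]
  have T2C : ∀ j, ∀ b ∈ D.SB, T₂ (D.fC j b) = D.fA j b := fun j b hb => by
    rw [show T₂ (D.fC j b) = D.fA j (D.gC j (D.fC j b)) from pw_C h _ _ _ j (h.fC_mem j b hb),
      h.gC_fC j b hb]
  have T2B : ∀ b ∈ D.SB, T₂ b = bC b := fun b hb => pw_B h _ _ _ hb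
  have T3A : ∀ j, ∀ b ∈ D.SB, T₃ (D.fA j b) = D.fC j b := fun j b hb => by
    rw [show T₃ (D.fA j b) = D.fC j (D.gA j (D.fA j b)) from pw_A h _ _ _ j (h.fA_mem j b hb),
      h.gA_fA j b hb]
  have T3C : ∀ j, ∀ b ∈ D.SB, T₃ (D.fC j b) = b := fun j b hb => by
    rw [show T₃ (D.fC j b) = D.gC j (D.fC j b) from pw_C h _ _ _ j (h.fC_mem j b hb),
      h.gC_fC j b hb]
  have T3B : ∀ b ∈ D.SB, T₃ b = bA b := fun b hb => pw_B h _ _ _ hb
  -- measure preservation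
  have m₂ : D.μ.map T₂ = D.μ := by
    rw [h.map_μ T₂ hT₂, map_two_nu θ B₁ hθ hB h1 h2 D.fC h.fC_meas T₂ hT₂
      (hSB.mono fun b hb => T2B b hb)]
    have eA : ∀ j, D.ν.map (fun b => T₂ (D.fA j b)) = D.ν := fun j => by
      rw [Measure.map_congr (g := id) (hSB.mono fun b hb => T2A j b hb), Measure.map_id]
    have eC : ∀ j, D.ν.map (fun b => T₂ (D.fC j b)) = D.ν.map (D.fA j) := fun j =>
      Measure.map_congr (hSB.mono fun b hb => T2C j b hb)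
    rw [eA, eA, eC, eC]
    unfold μ
    rw [Fin.sum_univ_two, two_smul]
    abel
  have m₃ : D.μ.map T₃ = D.μ := by
    rw [h.map_μ T₃ hT₃, map_two_nu θ B₁ hθ hB h1 h2 D.fA h.fA_meas T₃ hT₃
      (hSB.mono fun b hb => T3B b hb)]
    have eC : ∀ j, D.ν.map (fun b => T₃ (D.fC j b)) = D.ν := fun j => by
      rw [Measure.map_congr (g := id) (hSB.mono fun b hb => T3C j b hb), Measure.map_id]
    have eA : ∀ j, D.ν.map (fun b => T₃ (D.fA j b)) = D.ν.map (D.fC j) := fun j =>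
      Measure.map_congr (hSB.mono fun b hb => T3A j b hb)
    rw [eA, eA, eC, eC]
    unfold μ
    rw [Fin.sum_univ_two, two_smul]
    abel
  refine ⟨T₂, T₃, hT₂, hT₃, m₂, m₃, ?_⟩
  -- the cost
  set U : Fin 2 → X → ℝ≥0∞ := fun j b => D.u b + D.u (D.fA j b) + D.u (D.fC j b) with hUdef
  have hU : ∀ j, Measurable (U j) := fun j =>
    (h.u_meas.add (h.u_meas.comp (h.fA_meas j))).add (h.u_meas.comp (h.fC_meas j))
  set F : X → ℝ≥0∞ := fun x => D.c (x, T₂ x, T₃ x) with hFdef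
  have hF : Measurable F := h.c_meas.comp (measurable_id.prodMk (hT₂.prodMk hT₃))
  have FA : ∀ j, ∫⁻ b, F (D.fA j b) ∂D.ν = ∫⁻ b, U j b ∂D.ν := fun j => by
    apply lintegral_congr_ae
    filter_upwards [hSB] with b hb
    show D.c (D.fA j b, T₂ (D.fA j b), T₃ (D.fA j b)) = _
    rw [T2A j b hb, T3A j b hb, h.c_swap12 b (D.fA j b) (D.fC j b), h.cfg_eq j b hb]
  have FC : ∀ j, ∫⁻ b, F (D.fC j b) ∂D.ν = ∫⁻ b, U j b ∂D.ν := fun j => by
    apply lintegral_congr_ae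
    filter_upwards [hSB] with b hb
    show D.c (D.fC j b, T₂ (D.fC j b), T₃ (D.fC j b)) = _
    rw [T2C j b hb, T3C j b hb, h.c_swap12 (D.fA j b) (D.fC j b) b,
      h.c_swap23 (D.fA j b) b (D.fC j b), h.c_swap12 b (D.fA j b) (D.fC j b), h.cfg_eq j b hb]
  have key : ∀ (j : Fin 2) (Bj : Set X), MeasurableSet Bj →
      ((2 : ℝ≥0∞) • D.ν.restrict Bj).map θ = D.ν →
      (∀ b ∈ Bj, bC b = D.fC j (θ b) ∧ bA b = D.fA j (θ b)) →
      2 * ∫⁻ b in Bj, F b ∂D.ν ≤ ∫⁻ b, U j b ∂D.ν + ε' * (2 * D.ν Bj) := by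
    intro j Bj hBj hj hb
    have hθSB : ∀ᵐ b ∂(D.ν.restrict Bj), θ b ∈ D.SB := by
      have t1 : ∀ᵐ y ∂(((2 : ℝ≥0∞) • D.ν.restrict Bj).map θ), y ∈ D.SB := by rw [hj]; exact hSB
      have t2 := ae_of_ae_map hθ.aemeasurable t1
      exact (Measure.ae_ennreal_smul_measure_iff two_ne_zero).mp t2
    have h3 : ∫⁻ b in Bj, F b ∂D.ν ≤ ∫⁻ b in Bj, (U j (θ b) + ε') ∂D.ν := by
      apply lintegral_mono_ae
      filter_upwards [hθSB, ae_restrict_of_ae hSB, ae_restrict_of_ae hclose,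
        ae_restrict_mem hBj] with b k1 k2 k3 k4
      show D.c (b, T₂ b, T₃ b) ≤ _
      rw [T2B b k2, T3B b k2, (hb b k4).1, (hb b k4).2]
      refine (k3 j).trans ?_
      rw [h.c_swap23 (θ b) (D.fA j (θ b)) (D.fC j (θ b)), h.cfg_eq j _ k1]
    have h4 : ∫⁻ b in Bj, (U j (θ b) + ε') ∂D.ν
        = ∫⁻ b in Bj, U j (θ b) ∂D.ν + ε' * D.ν Bj := by
      rw [lintegral_add_right _ measurable_const, setLIntegral_const]
    have h5 : 2 * ∫⁻ b in Bj, U j (θ b) ∂D.ν = ∫⁻ b, U j b ∂D.ν := by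
      conv_rhs => rw [← hj]
      rw [lintegral_map (hU j) hθ, lintegral_smul_measure, smul_eq_mul]
    calc 2 * ∫⁻ b in Bj, F b ∂D.ν
        ≤ 2 * (∫⁻ b in Bj, U j (θ b) ∂D.ν + ε' * D.ν Bj) := by
          rw [← h4]; gcongr
      _ = _ := by rw [mul_add, h5]; ring
  have hval : D.val = 3 * (∫⁻ b, U 0 b ∂D.ν + ∫⁻ b, U 1 b ∂D.ν) := by
    unfold val
    rw [h.lintegral_μ D.u h.u_meas]
    have hs : ∀ j, ∫⁻ b, U j b ∂D.ν = ∫⁻ b, D.u b ∂D.ν + ∫⁻ b, D.u (D.fA j b) ∂D.ν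
        + ∫⁻ b, D.u (D.fC j b) ∂D.ν := fun j => by
      show ∫⁻ b, (D.u b + D.u (D.fA j b) + D.u (D.fC j b)) ∂D.ν = _
      have mC : Measurable fun b => D.u (D.fC j b) := h.u_meas.comp (h.fC_meas j)
      have mA : Measurable fun b => D.u (D.fA j b) := h.u_meas.comp (h.fA_meas j)
      rw [lintegral_add_right _ mC, lintegral_add_right _ mA]
    rw [hs, hs]; ring
  have k0 := key 0 B₁ hB h1 (fun b hb => ⟨if_pos hb, if_pos hb⟩)
  have k1 := key 1 B₁ᶜ hB.compl h2 (fun b hb => ⟨if_neg hb, if_neg hb⟩)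
  have hm : D.ν B₁ + D.ν B₁ᶜ = D.ν univ := measure_add_measure_compl hB
  rw [h.lintegral_μ F hF, FA, FA, FC, FC, hval, ← lintegral_add_compl F hB]
  calc 2 * (∫⁻ b in B₁, F b ∂D.ν + ∫⁻ b in B₁ᶜ, F b ∂D.ν)
        + ((∫⁻ b, U 0 b ∂D.ν + ∫⁻ b, U 0 b ∂D.ν) + (∫⁻ b, U 1 b ∂D.ν + ∫⁻ b, U 1 b ∂D.ν))
      = (2 * ∫⁻ b in B₁, F b ∂D.ν + 2 * ∫⁻ b in B₁ᶜ, F b ∂D.ν)
        + 2 * (∫⁻ b, U 0 b ∂D.ν + ∫⁻ b, U 1 b ∂D.ν) := by ring
    _ ≤ ((∫⁻ b, U 0 b ∂D.ν + ε' * (2 * D.ν B₁)) + (∫⁻ b, U 1 b ∂D.ν + ε' * (2 * D.ν B₁ᶜ)))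
        + 2 * (∫⁻ b, U 0 b ∂D.ν + ∫⁻ b, U 1 b ∂D.ν) := by gcongr
    _ = 3 * (∫⁻ b, U 0 b ∂D.ν + ∫⁻ b, U 1 b ∂D.ν) + ε' * (2 * D.ν univ) := by
        rw [← hm]; ring

end CfgData
end Crest.Agent.MM3
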