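/-
Row 130 / S0175 project, task BD2 (CDF transport of a positive continuous density on an interval).
One owner; keep statements.
-/
import Crest.Agent.MM3_Defs

set_option autoImplicit false
open MeasureTheory Set
open scoped ENNReal

namespace Crest.Agent.MM3

/-- BD2.  `w` continuous, `> 0` on `(-r,r)`, `= 0` outside.  `W x = ∫_{-r}^x w` (C¹, `W' = w`, strictly increasing on
`[-r,r]`, `W(-r)=0`, `W r = m`), `Q` = inverse of `W : [-r,r] → [0,m]` (extended arbitrarily but measurably, e.g. constant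
outside `[0,m]`).
* `(vol|(0,m)).map Q = w dx`: for measurable `S`, `Q⁻¹ S ∩ (0,m) = W '' (S ∩ (-r,r))` and
  `vol (W '' A) = ∫_A |W'|` by `MeasureTheory.lintegral_image_eq_lintegral_abs_deriv_mul` (W injective on (-r,r)).
* `(w dx).map W = vol|(0,m)` follows from the previous one and `W ∘ Q = id` on `(0,m)`.
* `Q` is continuous on the compact `[0,m]` (inverse of a continuous strictly monotone map), hence uniformly continuous. -/
theorem exists_cdf (w : ℝ → ℝ) (hw : Continuous w) (r : ℝ) (hr : 0 < r)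
    (hpos : ∀ x ∈ Ioo (-r) r, 0 < w x) (hzero : ∀ x, x ∉ Ioo (-r) r → w x = 0) :
    ∃ (m : ℝ) (W Q : ℝ → ℝ), 0 < m ∧ Measurable W ∧ Measurable Q ∧
      (∀ x ∈ Ioo (-r) r, W x ∈ Ioo 0 m ∧ Q (W x) = x) ∧
      (∀ t ∈ Icc 0 m, Q t ∈ Icc (-r) r) ∧
      ((volume : Measure ℝ).withDensity fun x => ENNReal.ofReal (w x)).map W
        = (volume : Measure ℝ).restrict (Ioo 0 m) ∧
      ((volume : Measure ℝ).restrict (Ioo 0 m)).map Q
        = (volume : Measure ℝ).withDensity (fun x => ENNReal.ofReal (w x)) ∧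
      (∀ δ : ℝ, 0 < δ → ∃ h : ℝ, 0 < h ∧ ∀ t ∈ Icc 0 m, ∀ t' ∈ Icc 0 m, |t - t'| ≤ h → |Q t - Q t'| ≤ δ) := by
  classical
  have hrr : -r < r := by linarith
  set W : ℝ → ℝ := fun x => ∫ t in (-r)..x, w t with hWdef
  set m : ℝ := W r with hmdef
  have hWd : ∀ x, HasDerivAt W (w x) x := fun x =>
    intervalIntegral.integral_hasDerivAt_right (hw.intervalIntegrable _ _)
      (hw.stronglyMeasurableAtFilter _ _) hw.continuousAt
  have hWc : Continuous W := continuous_iff_continuousAt.2 fun x => (hWd x).continuousAt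
  have hW0 : W (-r) = 0 := by simp [hWdef]
  have hSM : StrictMonoOn W (Icc (-r) r) := by
    apply strictMonoOn_of_deriv_pos (convex_Icc _ _) hWc.continuousOn
    intro x hx
    rw [interior_Icc] at hx
    rw [(hWd x).deriv]
    exact hpos x hx
  have hm : 0 < m := by
    have := hSM (left_mem_Icc.2 hrr.le) (right_mem_Icc.2 hrr.le) hrr
    rwa [hW0] at this
  have himg : W '' Icc (-r) r = Icc 0 m := by
    rw [ContinuousOn.image_Icc_of_monotoneOn hrr.le hWc.continuousOn hSM.monotoneOn, hW0]
  let e : Icc (-r) r ≃o Icc (0:ℝ) m := (hSM.orderIso W _).trans (OrderIso.setCongr _ _ himg)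
  have he : ∀ x : Icc (-r) r, ((e x : Icc (0:ℝ) m) : ℝ) = W x := fun x => rfl
  set Q : ℝ → ℝ := IccExtend hm.le (fun t => ((e.symm t : Icc (-r) r) : ℝ)) with hQdef
  have hQc : Continuous Q := (continuous_subtype_val.comp e.symm.continuous).Icc_extend'
  have hQmem : ∀ t, Q t ∈ Icc (-r) r := fun t => (e.symm (projIcc 0 m hm.le t)).2
  have hWQ : ∀ t ∈ Icc 0 m, W (Q t) = t := by
    intro t ht
    have h1 : Q t = ((e.symm ⟨t, ht⟩ : Icc (-r) r) : ℝ) := by
      rw [hQdef, IccExtend_of_mem _ _ ht]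
    rw [h1, ← he, OrderIso.apply_symm_apply]
  have hQW : ∀ x ∈ Icc (-r) r, Q (W x) = x := by
    intro x hx
    have hWx : W x ∈ Icc 0 m := himg ▸ mem_image_of_mem W hx
    exact hSM.injOn (hQmem _) hx (hWQ _ hWx)
  have hWIoo : ∀ x ∈ Ioo (-r) r, W x ∈ Ioo 0 m := by
    intro x hx
    constructor
    · have := hSM (left_mem_Icc.2 hrr.le) (Ioo_subset_Icc_self hx) hx.1
      rwa [hW0] at this
    · exact hSM (Ioo_subset_Icc_self hx) (right_mem_Icc.2 hrr.le) hx.2
  have hmapQ : ((volume : Measure ℝ).restrict (Ioo 0 m)).map Q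
        = (volume : Measure ℝ).withDensity (fun x => ENNReal.ofReal (w x)) := by
    ext S hS
    rw [Measure.map_apply hQc.measurable hS, Measure.restrict_apply (hQc.measurable hS),
      withDensity_apply _ hS]
    have hset : Q ⁻¹' S ∩ Ioo 0 m = W '' (S ∩ Ioo (-r) r) := by
      ext t
      constructor
      · rintro ⟨htS, ht⟩
        have htI := Ioo_subset_Icc_self ht
        refine ⟨Q t, ⟨htS, ?_⟩, hWQ t htI⟩
        have hq := hQmem t
        refine ⟨lt_of_le_of_ne hq.1 ?_, lt_of_le_of_ne hq.2 ?_⟩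
        · intro h
          have := hWQ t htI
          rw [← h, hW0] at this
          exact ht.1.ne this
        · intro h
          have := hWQ t htI
          rw [h] at this
          exact ht.2.ne this.symm
      · rintro ⟨x, ⟨hxS, hx⟩, rfl⟩
        refine ⟨?_, hWIoo x hx⟩
        show Q (W x) ∈ S
        rw [hQW x (Ioo_subset_Icc_self hx)]
        exact hxS
    rw [hset]
    have hA : MeasurableSet (S ∩ Ioo (-r) r) := hS.inter measurableSet_Ioo
    have key := lintegral_image_eq_lintegral_abs_deriv_mul hA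
      (fun x _ => (hWd x).hasDerivWithinAt)
      (hSM.injOn.mono (inter_subset_right.trans Ioo_subset_Icc_self)) (fun _ => (1 : ℝ≥0∞))
    rw [setLIntegral_one] at key
    rw [key]
    have h2 : ∫⁻ x in S, ENNReal.ofReal (w x)
        = ∫⁻ x in S, (Ioo (-r) r).indicator (fun x => ENNReal.ofReal (w x)) x := by
      apply lintegral_congr
      intro x
      by_cases hx : x ∈ Ioo (-r) r
      · rw [indicator_of_mem hx]
      · rw [indicator_of_notMem hx, hzero x hx, ENNReal.ofReal_zero]
    rw [h2, setLIntegral_indicator measurableSet_Ioo, inter_comm (Ioo (-r) r) S]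
    apply setLIntegral_congr_fun hA
    intro x hx
    simp only [mul_one]
    rw [abs_of_pos (hpos x hx.2)]
  refine ⟨m, W, Q, hm, hWc.measurable, hQc.measurable,
    fun x hx => ⟨hWIoo x hx, hQW x (Ioo_subset_Icc_self hx)⟩, fun t _ => hQmem t, ?_, hmapQ, ?_⟩
  · rw [← hmapQ, Measure.map_map hWc.measurable hQc.measurable]
    have : (W ∘ Q) =ᵐ[(volume : Measure ℝ).restrict (Ioo 0 m)] id := by
      filter_upwards [ae_restrict_mem measurableSet_Ioo] with t ht
      exact hWQ t (Ioo_subset_Icc_self ht)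
    rw [Measure.map_congr this, Measure.map_id]
  · intro δ hδ
    have hu := isCompact_Icc.uniformContinuousOn_of_continuous (hQc.continuousOn (s := Icc 0 m))
    rw [Metric.uniformContinuousOn_iff] at hu
    obtain ⟨η, hη, hh⟩ := hu δ hδ
    refine ⟨η / 2, by positivity, fun t ht t' ht' htt => ?_⟩
    have := hh t ht t' ht' (by rw [Real.dist_eq]; linarith)
    rw [Real.dist_eq] at this
    exact this.le

end Crest.Agent.MM3
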