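/-
Row 130 / S0175 project, task BD1 (localised doubling map on ℝ, Lebesgue measure).  One owner; keep statements.
-/
import Crest.Agent.MM3_Defs

set_option autoImplicit false
open MeasureTheory Set
open scoped ENNReal

namespace Crest.Agent.MM3

/-- localised doubling map with cells `[kh,(k+1)h)`: on each cell `t ↦ kh + (2(t-kh) mod h)`. -/
noncomputable def dbl (h t : ℝ) : ℝ := h * ((⌊t / h⌋ : ℝ) + Int.fract (2 * (t / h)))
/-- the union of the left halves of the cells -/
def halfSet (h : ℝ) : Set ℝ := {t | Int.fract (t / h) < 1 / 2}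

theorem measurable_dbl (h : ℝ) : Measurable (dbl h) := by
  unfold dbl
  have h1 : Measurable (fun t : ℝ => ((⌊t / h⌋ : ℤ) : ℝ)) :=
    (measurable_from_top (f := fun z : ℤ => (z : ℝ))).comp
      (Int.measurable_floor.comp (measurable_id.div_const h))
  have h2 : Measurable (fun t : ℝ => Int.fract (2 * (t / h))) :=
    measurable_fract.comp ((measurable_id.div_const h).const_mul 2)
  exact (h1.add h2).const_mul h

theorem measurableSet_halfSet (h : ℝ) : MeasurableSet (halfSet h) :=
  measurableSet_lt (measurable_fract.comp (measurable_id.div_const h)) measurable_const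

theorem abs_dbl_sub_le (h : ℝ) (hh : 0 < h) (t : ℝ) : |dbl h t - t| ≤ h := by
  have e : dbl h t - t = h * (Int.fract (2 * (t / h)) - Int.fract (t / h)) := by
    unfold dbl
    have : t = h * (t / h) := by field_simp
    conv_lhs => rw [this]
    have h2 : t / h = (⌊t / h⌋ : ℝ) + Int.fract (t / h) := (Int.floor_add_fract _).symm
    have h3 : h * (t / h) / h = t / h := by field_simp
    rw [h3]
    nlinarith [h2]
  rw [e, abs_mul, abs_of_pos hh]
  have a1 := Int.fract_nonneg (2 * (t / h))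
  have a2 := Int.fract_lt_one (2 * (t / h))
  have b1 := Int.fract_nonneg (t / h)
  have b2 := Int.fract_lt_one (t / h)
  have : |Int.fract (2 * (t / h)) - Int.fract (t / h)| ≤ 1 := by
    rw [abs_le]; constructor <;> linarith
  nlinarith

/-- `dbl h` preserves every cell, hence `[0, n h)`. -/
theorem dbl_mem_Ico_iff (h : ℝ) (hh : 0 < h) (n : ℕ) (t : ℝ) :
    dbl h t ∈ Ico (0 : ℝ) (n * h) ↔ t ∈ Ico (0 : ℝ) (n * h) := by
  have a1 := Int.fract_nonneg (2 * (t / h))
  have a2 := Int.fract_lt_one (2 * (t / h))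
  have key1 : (0 ≤ dbl h t) ↔ (0 : ℤ) ≤ ⌊t / h⌋ := by
    unfold dbl
    constructor
    · intro H
      have : (0 : ℝ) ≤ (⌊t / h⌋ : ℝ) + Int.fract (2 * (t / h)) := by
        by_contra hc
        push Not at hc
        nlinarith
      have h2 : (-1 : ℝ) < (⌊t / h⌋ : ℝ) := by linarith
      have h3 : (-1 : ℤ) < ⌊t / h⌋ := by exact_mod_cast h2
      omega
    · intro H
      have : (0 : ℝ) ≤ (⌊t / h⌋ : ℝ) := by exact_mod_cast H
      positivity
  have key2 : (dbl h t < n * h) ↔ ⌊t / h⌋ < (n : ℤ) := by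
    unfold dbl
    constructor
    · intro H
      have : (⌊t / h⌋ : ℝ) + Int.fract (2 * (t / h)) < n := by
        by_contra hc
        push Not at hc
        nlinarith
      have h2 : (⌊t / h⌋ : ℝ) < (n : ℝ) := by linarith
      exact_mod_cast h2
    · intro H
      have h1 : ⌊t / h⌋ + 1 ≤ (n : ℤ) := by omega
      have h2 : (⌊t / h⌋ : ℝ) + 1 ≤ (n : ℝ) := by exact_mod_cast h1
      nlinarith
  have key3 : (0 ≤ t) ↔ (0 : ℤ) ≤ ⌊t / h⌋ := by
    rw [Int.le_floor]
    simp only [Int.cast_zero]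
    constructor
    · intro H; positivity
    · intro H
      have := mul_nonneg H hh.le
      rwa [div_mul_cancel₀ _ hh.ne'] at this
  have key4 : (t < n * h) ↔ ⌊t / h⌋ < (n : ℤ) := by
    rw [Int.floor_lt]
    simp only [Int.cast_natCast]
    rw [div_lt_iff₀ hh]
  simp only [mem_Ico]
  rw [key1, key2, key3, key4]

/-- general cell computation -/
private theorem map_dbl_aux (h : ℝ) (hh : 0 < h) (c : ℝ) (T : Set ℝ)
    (hT : ∀ t, t ∈ T ↔ t ∈ Ico ((⌊t / h⌋ : ℝ) * h + c) ((⌊t / h⌋ : ℝ) * h + c + h / 2))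
    (hc0 : 0 ≤ c) (hc1 : c ≤ h / 2)
    (hd : ∀ t ∈ T, dbl h t = 2 * t - (⌊t / h⌋ : ℝ) * h - 2 * c) :
    ((2 : ℝ≥0∞) • (volume : Measure ℝ).restrict T).map (dbl h) = volume := by
  have floor_eq : ∀ (k : ℤ) (t : ℝ), (k : ℝ) * h ≤ t → t < (k : ℝ) * h + h → ⌊t / h⌋ = k := by
    intro k t h1 h2
    rw [Int.floor_eq_iff]
    constructor
    · rw [le_div_iff₀ hh]; exact h1
    · rw [div_lt_iff₀ hh]; linarith
  have floor_mem : ∀ t : ℝ, (⌊t / h⌋ : ℝ) * h ≤ t ∧ t < (⌊t / h⌋ : ℝ) * h + h := by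
    intro t
    have h1 := Int.floor_le (t / h)
    have h2 := Int.lt_floor_add_one (t / h)
    rw [le_div_iff₀ hh] at h1
    rw [div_lt_iff₀ hh] at h2
    exact ⟨h1, by linarith⟩
  ext S hS
  rw [Measure.map_apply (measurable_dbl h) hS, Measure.smul_apply,
    Measure.restrict_apply (measurable_dbl h hS)]
  set I : ℤ → Set ℝ := fun k => Ico ((k : ℝ) * h) ((k : ℝ) * h + h) with hI
  set P : ℤ → Set ℝ := fun k => (fun t : ℝ => 2 * t + (-((k : ℝ) * h + 2 * c))) ⁻¹' (S ∩ I k) with hP
  have hPfloor : ∀ k t, t ∈ P k → ⌊t / h⌋ = k := by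
    intro k t ht
    have ht2 : 2 * t + (-((k : ℝ) * h + 2 * c)) ∈ I k := ht.2
    simp only [hI, mem_Ico] at ht2
    apply floor_eq <;> linarith [ht2.1, ht2.2]
  have e1 : dbl h ⁻¹' S ∩ T = ⋃ k, P k := by
    ext t
    simp only [mem_inter_iff, mem_preimage, mem_iUnion]
    constructor
    · rintro ⟨h1, h2⟩
      refine ⟨⌊t / h⌋, ?_⟩
      have h3 := (hT t).1 h2
      have h4 := hd t h2
      simp only [mem_Ico] at h3
      simp only [hP, hI, mem_preimage, mem_inter_iff, mem_Ico]
      refine ⟨?_, ?_, ?_⟩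
      · have : 2 * t + (-((⌊t / h⌋ : ℝ) * h + 2 * c)) = dbl h t := by rw [h4]; ring
        rw [this]; exact h1
      · linarith [h3.1]
      · linarith [h3.2]
    · rintro ⟨k, hk⟩
      have hfl := hPfloor k t hk
      have hk1 : 2 * t + (-((k : ℝ) * h + 2 * c)) ∈ S := hk.1
      have hk2 : 2 * t + (-((k : ℝ) * h + 2 * c)) ∈ I k := hk.2
      simp only [hI, mem_Ico] at hk2
      have htT : t ∈ T := by
        rw [hT t, hfl, mem_Ico]
        constructor <;> linarith [hk2.1, hk2.2]
      refine ⟨?_, htT⟩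
      rw [hd t htT, hfl]
      have : 2 * t - (k : ℝ) * h - 2 * c = 2 * t + (-((k : ℝ) * h + 2 * c)) := by ring
      rw [this]; exact hk1
  have hImeas : ∀ k, MeasurableSet (S ∩ I k) := fun k => hS.inter measurableSet_Ico
  have hPmeas : ∀ k, MeasurableSet (P k) := by
    intro k
    exact ((measurable_id.const_mul 2).add_const _) (hImeas k)
  have hPdisj : Pairwise (Function.onFun Disjoint P) := by
    intro i j hij
    rw [Function.onFun, Set.disjoint_left]
    intro t hi hj
    exact hij ((hPfloor i t hi).symm.trans (hPfloor j t hj))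
  have hIdisj : Pairwise (Function.onFun Disjoint (fun k => S ∩ I k)) := by
    intro i j hij
    rw [Function.onFun, Set.disjoint_left]
    intro t hi hj
    have hi2 : t ∈ I i := hi.2
    have hj2 : t ∈ I j := hj.2
    simp only [hI, mem_Ico] at hi2 hj2
    exact hij ((floor_eq i t hi2.1 hi2.2).symm.trans (floor_eq j t hj2.1 hj2.2))
  have e2 : S = ⋃ k, S ∩ I k := by
    ext t
    simp only [mem_iUnion, mem_inter_iff]
    constructor
    · intro ht
      exact ⟨⌊t / h⌋, ht, by simp only [hI, mem_Ico]; exact floor_mem t⟩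
    · rintro ⟨k, hk, -⟩; exact hk
  have hvol : ∀ k, volume (P k) = ENNReal.ofReal |(2 : ℝ)⁻¹| * volume (S ∩ I k) := by
    intro k
    have : P k = (fun t : ℝ => 2 * t) ⁻¹' ((fun y : ℝ => y + (-((k : ℝ) * h + 2 * c))) ⁻¹' (S ∩ I k)) := rfl
    rw [this, Real.volume_preimage_mul_left (two_ne_zero), measure_preimage_add_right]
  rw [e1, measure_iUnion hPdisj hPmeas]
  conv_rhs => rw [e2, measure_iUnion hIdisj hImeas]
  simp_rw [hvol]
  rw [ENNReal.tsum_mul_left, smul_eq_mul, ← mul_assoc]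
  have : (2 : ℝ≥0∞) * ENNReal.ofReal |(2 : ℝ)⁻¹| = 1 := by
    rw [abs_of_pos (by norm_num : (0 : ℝ) < 2⁻¹)]
    rw [ENNReal.ofReal_inv_of_pos (by norm_num : (0 : ℝ) < 2)]
    simp
    exact ENNReal.mul_inv_cancel (by norm_num) (by norm_num)
  rw [this, one_mul]

private theorem floor_bounds (h : ℝ) (hh : 0 < h) (t : ℝ) :
    (⌊t / h⌋ : ℝ) * h ≤ t ∧ t < (⌊t / h⌋ : ℝ) * h + h := by
  have h1 := Int.floor_le (t / h)
  have h2 := Int.lt_floor_add_one (t / h)
  rw [le_div_iff₀ hh] at h1
  rw [div_lt_iff₀ hh] at h2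
  exact ⟨h1, by linarith⟩

private theorem fract_lt_half_iff (h : ℝ) (hh : 0 < h) (t : ℝ) :
    Int.fract (t / h) < 1 / 2 ↔ t < (⌊t / h⌋ : ℝ) * h + h / 2 := by
  have : Int.fract (t / h) = t / h - (⌊t / h⌋ : ℝ) := rfl
  rw [this, sub_lt_iff_lt_add, div_lt_iff₀ hh]
  constructor <;> intro H <;> nlinarith

/-- BD1 main.  Suggested proof: inverse branch `σ v = h * (⌊v/h⌋ + fract (v/h) / 2)` is injective, has derivative
`1/2` off the null set `h ℤ`, `dbl h ⁻¹' S ∩ halfSet h = σ '' S`; so by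
`MeasureTheory.lintegral_image_eq_lintegral_abs_deriv_mul` (or `measure_image...`) `vol (σ '' S) = vol S / 2`.
(Alternative: `Measure.ext_of_Ioc`/`Real.measure_ext_Ioo_rat`, or reduce to `h = 1` by scaling.) -/
theorem map_dbl_half (h : ℝ) (hh : 0 < h) :
    ((2 : ℝ≥0∞) • (volume : Measure ℝ).restrict (halfSet h)).map (dbl h) = volume := by
  apply map_dbl_aux h hh 0 (halfSet h) _ le_rfl (by positivity)
  · intro t ht
    have ht' : Int.fract (t / h) < 1 / 2 := ht
    have hfr : Int.fract (2 * (t / h)) = 2 * Int.fract (t / h) := by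
      rw [Int.fract_eq_iff]
      refine ⟨by have := Int.fract_nonneg (t / h); linarith, by linarith, 2 * ⌊t / h⌋, ?_⟩
      have : Int.fract (t / h) = t / h - (⌊t / h⌋ : ℝ) := rfl
      rw [this]; push_cast; ring
    unfold dbl
    rw [hfr]
    have : Int.fract (t / h) = t / h - (⌊t / h⌋ : ℝ) := rfl
    rw [this]
    field_simp
    ring
  · intro t
    have hb := floor_bounds h hh t
    show Int.fract (t / h) < 1 / 2 ↔ _
    rw [fract_lt_half_iff h hh t, mem_Ico]
    constructor
    · intro H; exact ⟨by linarith [hb.1], by linarith⟩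
    · intro H; linarith [H.2]

/-- same with the right halves (inverse branch `σ v + h/2`) -/
theorem map_dbl_half_compl (h : ℝ) (hh : 0 < h) :
    ((2 : ℝ≥0∞) • (volume : Measure ℝ).restrict (halfSet h)ᶜ).map (dbl h) = volume := by
  apply map_dbl_aux h hh (h / 2) (halfSet h)ᶜ _ (by positivity) le_rfl
  · intro t ht
    have ht' : ¬ Int.fract (t / h) < 1 / 2 := ht
    have hlt := Int.fract_lt_one (t / h)
    have hfr : Int.fract (2 * (t / h)) = 2 * Int.fract (t / h) - 1 := by
      rw [Int.fract_eq_iff]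
      refine ⟨by linarith, by linarith, 2 * ⌊t / h⌋ + 1, ?_⟩
      have : Int.fract (t / h) = t / h - (⌊t / h⌋ : ℝ) := rfl
      rw [this]; push_cast; ring
    unfold dbl
    rw [hfr]
    have : Int.fract (t / h) = t / h - (⌊t / h⌋ : ℝ) := rfl
    rw [this]
    field_simp
    ring
  · intro t
    have hb := floor_bounds h hh t
    show ¬ (Int.fract (t / h) < 1 / 2) ↔ _
    rw [fract_lt_half_iff h hh t, mem_Ico]
    constructor
    · intro H; exact ⟨by linarith, by linarith [hb.2]⟩
    · intro H; linarith [H.1]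

private theorem map_restrict_aux (m : ℝ) (n : ℕ) (hn : 0 < n) (hm : 0 < m) (T : Set ℝ)
    (hTm : MeasurableSet T)
    (H : ((2 : ℝ≥0∞) • (volume : Measure ℝ).restrict T).map (dbl (m / n)) = volume) :
    ((2 : ℝ≥0∞) • ((volume : Measure ℝ).restrict (Ioo 0 m)).restrict T).map (dbl (m / n))
      = (volume : Measure ℝ).restrict (Ioo 0 m) := by
  have hn' : (0 : ℝ) < n := by exact_mod_cast hn
  have hh : 0 < m / n := by positivity
  have hnm : (n : ℝ) * (m / n) = m := by field_simp
  have hpre : dbl (m / n) ⁻¹' (Ico 0 m) = Ico 0 m := by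
    ext t
    have := dbl_mem_Ico_iff (m / n) hh n t
    rw [hnm] at this
    exact this
  have e0 : (volume : Measure ℝ).restrict (Ioo 0 m) = (volume : Measure ℝ).restrict (Ico 0 m) :=
    Measure.restrict_congr_set Ioo_ae_eq_Ico
  rw [e0]
  have e1 : ((volume : Measure ℝ).restrict (Ico 0 m)).restrict T
      = ((volume : Measure ℝ).restrict T).restrict (dbl (m / n) ⁻¹' (Ico 0 m)) := by
    rw [hpre, Measure.restrict_restrict hTm, Measure.restrict_restrict measurableSet_Ico, inter_comm]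
  rw [e1, ← Measure.restrict_smul, ← Measure.restrict_map (measurable_dbl _) measurableSet_Ico, H]

/-- restricted version on `(0,m)`, `m = n h` (use `Measure.restrict_map`, `dbl_mem_Ico_iff`,
`Ioo_ae_eq_Ico`/`restrict_congr_set`). -/
theorem map_dbl_half_Ioo (m : ℝ) (n : ℕ) (hn : 0 < n) (hm : 0 < m) :
    ((2 : ℝ≥0∞) • ((volume : Measure ℝ).restrict (Ioo 0 m)).restrict (halfSet (m / n))).map (dbl (m / n))
      = (volume : Measure ℝ).restrict (Ioo 0 m) := by
  have hn' : (0 : ℝ) < n := by exact_mod_cast hn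
  exact map_restrict_aux m n hn hm _ (measurableSet_halfSet _) (map_dbl_half _ (by positivity))

theorem map_dbl_half_compl_Ioo (m : ℝ) (n : ℕ) (hn : 0 < n) (hm : 0 < m) :
    ((2 : ℝ≥0∞) • ((volume : Measure ℝ).restrict (Ioo 0 m)).restrict (halfSet (m / n))ᶜ).map (dbl (m / n))
      = (volume : Measure ℝ).restrict (Ioo 0 m) := by
  have hn' : (0 : ℝ) < n := by exact_mod_cast hn
  exact map_restrict_aux m n hn hm _ (measurableSet_halfSet _).compl (map_dbl_half_compl _ (by positivity))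

end Crest.Agent.MM3
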