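/-
Row 130 / S0175 project, task BD3 (doubling map for a density on ℝ).  One owner; keep statements.
-/
import Crest.Agent.MM3_Dbl
import Crest.Agent.MM3_Cdf

set_option autoImplicit false
open MeasureTheory Set
open scoped ENNReal

namespace Crest.Agent.MM3

private theorem doubling_aux (ν : Measure ℝ) (m : ℝ) (W Q D : ℝ → ℝ) (T : Set ℝ)
    (mW : Measurable W) (mQ : Measurable Q) (mD : Measurable D) (hT : MeasurableSet T)
    (mapW : ν.map W = (volume : Measure ℝ).restrict (Ioo 0 m))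
    (mapQ : ((volume : Measure ℝ).restrict (Ioo 0 m)).map Q = ν)
    (H : ((2 : ℝ≥0∞) • ((volume : Measure ℝ).restrict (Ioo 0 m)).restrict T).map D
      = (volume : Measure ℝ).restrict (Ioo 0 m)) :
    ((2 : ℝ≥0∞) • ν.restrict (W ⁻¹' T)).map (fun x => Q (D (W x))) = ν := by
  have e1 : ((2 : ℝ≥0∞) • ν.restrict (W ⁻¹' T)).map W
      = (2 : ℝ≥0∞) • ((volume : Measure ℝ).restrict (Ioo 0 m)).restrict T := by
    rw [Measure.map_smul, ← Measure.restrict_map mW hT, mapW]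
  have e2 : (fun x => Q (D (W x))) = Q ∘ (D ∘ W) := rfl
  rw [e2, ← Measure.map_map mQ (mD.comp mW), ← Measure.map_map mD mW, e1, H, mapQ]

/-- BD3.  From `exists_cdf` get `m W Q`; from the modulus of `Q` get `h₀`; choose `n` with `m / n ≤ h₀`;
`θ = Q ∘ dbl (m/n) ∘ W`, `I = W ⁻¹' halfSet (m/n)`.
`(2 ν₁|I).map W = 2 (vol|(0,m))|half` (`Measure.restrict_map`/`MeasurePreserving.restrict_preimage`), then
`map_dbl_half_Ioo`, then `.map Q`.  Closeness: `x = Q (W x)`, `|dbl (W x) - W x| ≤ m/n`, both in `[0,m]`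
(`dbl_mem_Ico_iff` with `n * (m/n) = m`). -/
theorem exists_doubling_1d (w : ℝ → ℝ) (hw : Continuous w) (r : ℝ) (hr : 0 < r)
    (hpos : ∀ x ∈ Ioo (-r) r, 0 < w x) (hzero : ∀ x, x ∉ Ioo (-r) r → w x = 0) (δ : ℝ) (hδ : 0 < δ) :
    ∃ (θ : ℝ → ℝ) (I : Set ℝ), Measurable θ ∧ MeasurableSet I ∧ (∀ x ∈ Ioo (-r) r, |θ x - x| ≤ δ) ∧
      ((2 : ℝ≥0∞) • ((volume : Measure ℝ).withDensity fun x => ENNReal.ofReal (w x)).restrict I).map θ
        = (volume : Measure ℝ).withDensity (fun x => ENNReal.ofReal (w x)) ∧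
      ((2 : ℝ≥0∞) • ((volume : Measure ℝ).withDensity fun x => ENNReal.ofReal (w x)).restrict Iᶜ).map θ
        = (volume : Measure ℝ).withDensity (fun x => ENNReal.ofReal (w x)) := by
  obtain ⟨m, W, Q, hm, mW, mQ, hWQ, _hQI, mapW, mapQ, hmod⟩ := exists_cdf w hw r hr hpos hzero
  obtain ⟨h₀, hh₀, hQmod⟩ := hmod δ hδ
  obtain ⟨n, hn⟩ := exists_nat_gt (m / h₀)
  have hn0 : (0 : ℝ) < n := lt_trans (by positivity) hn
  have hnpos : 0 < n := by exact_mod_cast hn0
  have hh : 0 < m / n := by positivity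
  have hle : m / n ≤ h₀ := by
    rw [div_lt_iff₀ hh₀] at hn
    rw [div_le_iff₀ hn0]
    linarith
  have hnm : (n : ℝ) * (m / n) = m := by field_simp
  refine ⟨fun x => Q (dbl (m / n) (W x)), W ⁻¹' halfSet (m / n),
    mQ.comp ((measurable_dbl _).comp mW), mW (measurableSet_halfSet _), ?_, ?_, ?_⟩
  · intro x hx
    obtain ⟨hWx, hQW⟩ := hWQ x hx
    have h1 : dbl (m / n) (W x) ∈ Ico (0 : ℝ) m := by
      have := (dbl_mem_Ico_iff (m / n) hh n (W x)).mpr (by rw [hnm]; exact Ioo_subset_Ico_self hWx)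
      rwa [hnm] at this
    have h2 := hQmod (dbl (m / n) (W x)) (Ico_subset_Icc_self h1) (W x) (Ioo_subset_Icc_self hWx)
      (le_trans (abs_dbl_sub_le _ hh _) hle)
    rwa [hQW] at h2
  · exact doubling_aux _ m W Q (dbl (m / n)) (halfSet (m / n)) mW mQ (measurable_dbl _)
      (measurableSet_halfSet _) mapW mapQ (map_dbl_half_Ioo m n hnpos hm)
  · rw [← preimage_compl]
    exact doubling_aux _ m W Q (dbl (m / n)) (halfSet (m / n))ᶜ mW mQ (measurable_dbl _)
      (measurableSet_halfSet _).compl mapW mapQ (map_dbl_half_compl_Ioo m n hnpos hm)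

end Crest.Agent.MM3
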