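/-
Row 130 / S0175 project, task BD4 (lifting a 1-D measure identity to a product density on ℝ^d).
One owner; keep statements.
-/
import Crest.Agent.MM3_Defs

set_option autoImplicit false
open MeasureTheory Set
open scoped ENNReal

namespace Crest.Agent.MM3

/-- act by `θ` on the coordinate `i₀` -/
noncomputable def liftCoord {d : ℕ} (i₀ : Fin d) (θ : ℝ → ℝ) (b : EE d) : EE d :=
  WithLp.toLp 2 (Function.update (WithLp.ofLp b) i₀ (θ (b i₀)))

theorem measurable_liftCoord {d : ℕ} (i₀ : Fin d) (θ : ℝ → ℝ) (hθ : Measurable θ) :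
    Measurable (liftCoord i₀ θ) := by
  unfold liftCoord
  refine (WithLp.measurable_toLp 2 _).comp (measurable_pi_iff.2 fun j => ?_)
  have hev : ∀ k : Fin d, Measurable fun b : EE d => b k := fun k =>
    (measurable_pi_apply k).comp (WithLp.measurable_ofLp 2 _)
  by_cases hj : j = i₀
  · subst hj
    simpa [Function.comp_def] using hθ.comp (hev j)
  · simpa [Function.update_of_ne hj] using hev j

theorem norm_liftCoord_sub {d : ℕ} (i₀ : Fin d) (θ : ℝ → ℝ) (b : EE d) :
    ‖liftCoord i₀ θ b - b‖ = |θ (b i₀) - b i₀| := by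
  have : liftCoord i₀ θ b - b = EuclideanSpace.single i₀ (θ (b i₀) - b i₀) := by
    ext j
    by_cases hj : j = i₀
    · subst hj
      simp [liftCoord]
    · simp [liftCoord, Function.update_of_ne hj, hj]
  rw [this, PiLp.norm_single, Real.norm_eq_abs]

/-- Tonelli for a product of one-variable functions (`lintegral` version). -/
theorem lintegral_fin_prod_eq_prod {n : ℕ} (μ : Fin n → Measure ℝ) [∀ i, SigmaFinite (μ i)]
    (f : Fin n → ℝ → ℝ≥0∞) (hf : ∀ i, Measurable (f i)) :
    ∫⁻ x : Fin n → ℝ, ∏ i, f i (x i) ∂(Measure.pi μ) = ∏ i, ∫⁻ t, f i t ∂(μ i) := by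
  induction n with
  | zero => simp [Measure.pi_of_empty]
  | succ n ih =>
    have hm : Measurable fun x : Fin (n+1) → ℝ => ∏ i, f i (x i) :=
      Finset.measurable_prod _ fun i _ => (hf i).comp (measurable_pi_apply i)
    calc ∫⁻ x : Fin (n+1) → ℝ, ∏ i, f i (x i) ∂(Measure.pi μ)
        = ∫⁻ x : ℝ × (Fin n → ℝ), f 0 x.1 * ∏ i : Fin n, f (Fin.succ i) (x.2 i)
            ∂((μ 0).prod (Measure.pi (fun i => μ (Fin.succ i)))) := by
          rw [← ((measurePreserving_piFinSuccAbove μ 0).symm).lintegral_comp hm]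
          apply lintegral_congr
          intro x
          simp [MeasurableEquiv.piFinSuccAbove_symm_apply, Fin.insertNthEquiv,
            Fin.prod_univ_succ]
      _ = (∫⁻ t, f 0 t ∂(μ 0)) * ∏ i : Fin n, ∫⁻ t, f (Fin.succ i) t ∂(μ (Fin.succ i)) := by
          rw [← ih (fun i => μ (Fin.succ i)) (fun i => f (Fin.succ i)) (fun i => hf _)]
          exact lintegral_prod_mul (hf 0).aemeasurable
            (Finset.measurable_prod _ fun i _ => (hf _).comp (measurable_pi_apply i)).aemeasurable
      _ = ∏ i, ∫⁻ t, f i t ∂(μ i) := by rw [Fin.prod_univ_succ]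

/-- product of measures with density = product measure with the product density -/
theorem pi_withDensity_eq {n : ℕ} (w : Fin n → ℝ → ℝ≥0∞) (hw : ∀ i, Measurable (w i))
    (hfin : ∀ i, ∫⁻ x, w i x ≠ ⊤) :
    (Measure.pi fun i => (volume : Measure ℝ).withDensity (w i))
      = (volume : Measure (Fin n → ℝ)).withDensity (fun x => ∏ i, w i (x i)) := by
  have : ∀ i, IsFiniteMeasure ((volume : Measure ℝ).withDensity (w i)) := fun i =>
    isFiniteMeasure_withDensity (hfin i)
  apply Measure.pi_eq
  intro s hs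
  rw [withDensity_apply _ (MeasurableSet.univ_pi hs), ← lintegral_indicator (MeasurableSet.univ_pi hs)]
  have h1 : ∀ x : Fin n → ℝ, (univ.pi s).indicator (fun x => ∏ i, w i (x i)) x
      = ∏ i, (s i).indicator (w i) (x i) := by
    intro x
    by_cases hx : x ∈ univ.pi s
    · rw [indicator_of_mem hx]
      exact Finset.prod_congr rfl fun i _ => (indicator_of_mem (hx i (mem_univ i)) _).symm
    · rw [indicator_of_notMem hx]
      simp only [mem_pi, mem_univ, true_imp_iff, not_forall] at hx
      obtain ⟨i, hi⟩ := hx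
      exact (Finset.prod_eq_zero (Finset.mem_univ i) (indicator_of_notMem hi _)).symm
  simp_rw [h1]
  rw [volume_pi, lintegral_fin_prod_eq_prod _ _ fun i => (hw i).indicator (hs i)]
  refine Finset.prod_congr rfl fun i _ => ?_
  rw [withDensity_apply _ (hs i), lintegral_indicator (hs i)]

/-- BD4a.  A product density on `ℝ^d` is the image of a product measure.
(`PiLp.volume_preserving_toLp`, `Measure.pi_eq` on boxes + Tonelli for products, e.g. induction with
`MeasureTheory.volume_preserving_piFinSuccAbove`, or `lintegral` version of `integral_fintype_prod_eq_prod`.) -/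
theorem withDensity_prod_eq_map_pi {d : ℕ} (w : Fin d → ℝ → ℝ≥0∞) (hw : ∀ i, Measurable (w i))
    (hfin : ∀ i, ∫⁻ x, w i x ≠ ⊤) :
    (volume : Measure (EE d)).withDensity (fun b => ∏ i, w i (b i))
      = (Measure.pi fun i => (volume : Measure ℝ).withDensity (w i)).map (WithLp.toLp 2) := by
  rw [pi_withDensity_eq w hw hfin]
  ext S hS
  have hmeas : Measurable fun b : EE d => ∏ i, w i (b i) :=
    Finset.measurable_prod _ fun i _ =>
      (hw i).comp ((measurable_pi_apply i).comp (WithLp.measurable_ofLp 2 _))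
  rw [Measure.map_apply (WithLp.measurable_toLp 2 _) hS, withDensity_apply _ hS,
    withDensity_apply _ ((WithLp.measurable_toLp 2 _) hS),
    ← (PiLp.volume_preserving_toLp (Fin d)).setLIntegral_comp_preimage hS hmeas]

/-- the doubling identity on the product measure -/
theorem pi_doubling {d : ℕ} (i₀ : Fin d) (μ₁ : Measure ℝ) [IsFiniteMeasure μ₁]
    (θ : ℝ → ℝ) (I : Set ℝ) (hθ : Measurable θ) (hI : MeasurableSet I)
    (h1 : ((2 : ℝ≥0∞) • μ₁.restrict I).map θ = μ₁) :
    ((2 : ℝ≥0∞) • (Measure.pi fun _ : Fin d => μ₁).restrict {x | x i₀ ∈ I}).map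
        (fun x => Function.update x i₀ (θ (x i₀)))
      = Measure.pi fun _ : Fin d => μ₁ := by
  symm
  apply Measure.pi_eq
  intro s hs
  have hF : Measurable fun x : Fin d → ℝ => Function.update x i₀ (θ (x i₀)) := by
    refine measurable_pi_iff.2 fun j => ?_
    by_cases hj : j = i₀
    · subst hj
      simpa [Function.comp_def] using hθ.comp (measurable_pi_apply j)
    · simpa [Function.update_of_ne hj] using measurable_pi_apply j
  have hB : MeasurableSet {x : Fin d → ℝ | x i₀ ∈ I} := (measurable_pi_apply i₀) hI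
  rw [Measure.map_apply hF (MeasurableSet.univ_pi hs), Measure.smul_apply,
    Measure.restrict_apply (hF (MeasurableSet.univ_pi hs))]
  have hset : (fun x : Fin d → ℝ => Function.update x i₀ (θ (x i₀))) ⁻¹' (univ.pi s) ∩ {x | x i₀ ∈ I}
      = univ.pi (Function.update s i₀ (θ ⁻¹' (s i₀) ∩ I)) := by
    ext x
    simp only [mem_inter_iff, mem_preimage, mem_pi, mem_univ, true_imp_iff, mem_ofPred_eq]
    constructor
    · rintro ⟨h, hxI⟩ j
      by_cases hj : j = i₀
      · subst hj
        have := h j
        simp only [Function.update_self] at this ⊢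
        exact ⟨this, hxI⟩
      · have := h j
        rw [Function.update_of_ne hj] at this ⊢
        exact this
    · intro h
      have h0 := h i₀
      simp only [Function.update_self] at h0
      refine ⟨fun j => ?_, h0.2⟩
      by_cases hj : j = i₀
      · subst hj
        simp only [Function.update_self]
        exact h0.1
      · have := h j
        rw [Function.update_of_ne hj] at this ⊢
        exact this
  rw [hset, Measure.pi_pi]
  have h2 : (2 : ℝ≥0∞) * μ₁ (θ ⁻¹' (s i₀) ∩ I) = μ₁ (s i₀) := by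
    conv_rhs => rw [← h1]
    rw [Measure.map_apply hθ (hs i₀), Measure.smul_apply, Measure.restrict_apply (hθ (hs i₀)),
      smul_eq_mul]
  have h3 : (fun i => μ₁ (Function.update s i₀ (θ ⁻¹' (s i₀) ∩ I) i))
      = Function.update (fun i => μ₁ (s i)) i₀ (μ₁ (θ ⁻¹' (s i₀) ∩ I)) := by
    funext i
    by_cases hi : i = i₀
    · subst hi; simp
    · simp [Function.update_of_ne hi]
  rw [h3, Finset.prod_update_of_mem (Finset.mem_univ i₀), smul_eq_mul, ← mul_assoc, h2,
    ← Finset.prod_update_of_mem (Finset.mem_univ i₀), Function.update_eq_self]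

/-- BD4b.  Lifting.  `ν₁ = w dx` finite; `(2 ν₁|I).map θ = ν₁`  ⟹  `(2 ν|{b i₀ ∈ I}).map (liftCoord i₀ θ) = ν` for
`ν = κ ∏ w(b i) db`.   (Write `2 ν|B₁` as the product density with `i₀`-th factor `2 · 1_I · w`; use BD4a twice and
`Measure.pi_map_pi` / `measurePreserving_pi`.) -/
theorem lift_doubling {d : ℕ} (i₀ : Fin d) (w : ℝ → ℝ≥0∞) (hw : Measurable w) (hfin : ∫⁻ x, w x ≠ ⊤)
    (κ : ℝ≥0∞) (θ : ℝ → ℝ) (I : Set ℝ) (hθ : Measurable θ) (hI : MeasurableSet I)
    (h1 : ((2 : ℝ≥0∞) • ((volume : Measure ℝ).withDensity w).restrict I).map θ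
        = (volume : Measure ℝ).withDensity w) :
    ((2 : ℝ≥0∞) • ((volume : Measure (EE d)).withDensity fun b => κ * ∏ i, w (b i)).restrict
        {b | b i₀ ∈ I}).map (liftCoord i₀ θ)
      = (volume : Measure (EE d)).withDensity (fun b => κ * ∏ i, w (b i)) := by
  have : IsFiniteMeasure ((volume : Measure ℝ).withDensity w) := isFiniteMeasure_withDensity hfin
  have hmeas : Measurable fun b : EE d => ∏ i, w (b i) :=
    Finset.measurable_prod _ fun i _ =>
      hw.comp ((measurable_pi_apply i).comp (WithLp.measurable_ofLp 2 _))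
  have hκ : (volume : Measure (EE d)).withDensity (fun b => κ * ∏ i, w (b i))
      = κ • (Measure.pi fun _ : Fin d => (volume : Measure ℝ).withDensity w).map (WithLp.toLp 2) := by
    rw [← withDensity_prod_eq_map_pi (fun _ => w) (fun _ => hw) (fun _ => hfin),
      ← withDensity_smul _ hmeas]
    rfl
  have hT : Measurable (WithLp.toLp 2 : (Fin d → ℝ) → EE d) := WithLp.measurable_toLp 2 _
  have hB : MeasurableSet {b : EE d | b i₀ ∈ I} :=
    ((measurable_pi_apply i₀).comp (WithLp.measurable_ofLp 2 _)) hI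
  have hF : Measurable fun x : Fin d → ℝ => Function.update x i₀ (θ (x i₀)) := by
    refine measurable_pi_iff.2 fun j => ?_
    by_cases hj : j = i₀
    · subst hj
      simpa [Function.comp_def] using hθ.comp (measurable_pi_apply j)
    · simpa [Function.update_of_ne hj] using measurable_pi_apply j
  rw [hκ, Measure.restrict_smul, Measure.restrict_map hT hB, smul_comm, Measure.map_smul,
    ← Measure.map_smul (2 : ℝ≥0∞) _ (WithLp.toLp 2 : (Fin d → ℝ) → EE d),
    Measure.map_map (measurable_liftCoord i₀ θ hθ) hT]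
  congr 1
  have hcomp : liftCoord i₀ θ ∘ (WithLp.toLp 2 : (Fin d → ℝ) → EE d)
      = (WithLp.toLp 2 : (Fin d → ℝ) → EE d) ∘ fun x => Function.update x i₀ (θ (x i₀)) := by
    funext x
    rfl
  rw [hcomp, ← Measure.map_map hT hF]
  congr 1
  exact pi_doubling i₀ _ θ I hθ hI h1

/-- BD4c. total mass of a product density -/
theorem lintegral_prod_density {d : ℕ} (w : ℝ → ℝ≥0∞) (hw : Measurable w) (hfin : ∫⁻ x, w x ≠ ⊤) :
    ∫⁻ b : EE d, ∏ i, w (b i) = (∫⁻ x, w x) ^ d := by
  have hmeas : Measurable fun b : EE d => ∏ i, w (b i) :=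
    Finset.measurable_prod _ fun i _ =>
      hw.comp ((measurable_pi_apply i).comp (WithLp.measurable_ofLp 2 _))
  rw [← (PiLp.volume_preserving_toLp (Fin d)).lintegral_comp hmeas, volume_pi]
  have := lintegral_fin_prod_eq_prod (fun _ : Fin d => (volume : Measure ℝ)) (fun _ => w)
    (fun _ => hw)
  simpa using this

end Crest.Agent.MM3
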