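/-
Row 130 / S0175 project, task BD5 (the base measure: product bump + doubling maps).  One owner; keep statements.
-/
import Crest.Agent.MM3_Dbl1D
import Crest.Agent.MM3_Lift

set_option autoImplicit false
open MeasureTheory Set
open scoped ENNReal ContDiff
open Crest.AnalysisR.OT

namespace Crest.Agent.MM3

theorem measurable_coord {d : ℕ} (i : Fin d) : Measurable (fun b : EE d => b i) :=
  (EuclideanSpace.proj (𝕜 := ℝ) i).continuous.measurable

theorem contDiff_coord {d : ℕ} (i : Fin d) : ContDiff ℝ ∞ (fun b : EE d => b i) :=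
  (EuclideanSpace.proj (𝕜 := ℝ) i).contDiff

theorem norm_le_of_coord_le {d : ℕ} (hd : 0 < d) (r : ℝ) (hr : 0 ≤ r) (b : EE d)
    (hb : ∀ i, |b i| ≤ r) : ‖b‖ ≤ d * r := by
  have hd1 : (1 : ℝ) ≤ d := by exact_mod_cast hd
  have h1 : ‖b‖ ^ 2 ≤ (d * r) ^ 2 := by
    rw [EuclideanSpace.norm_sq_eq]
    calc ∑ i, ‖b i‖ ^ 2 ≤ ∑ _i : Fin d, r ^ 2 := by
          apply Finset.sum_le_sum
          intro i _
          rw [Real.norm_eq_abs]
          exact pow_le_pow_left₀ (abs_nonneg _) (hb i) 2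
      _ = d * r ^ 2 := by simp
      _ ≤ (d * r) ^ 2 := by
          have : 0 ≤ r ^ 2 := sq_nonneg r
          nlinarith
  exact (pow_le_pow_iff_left₀ (norm_nonneg _) (by positivity) two_ne_zero).mp h1

/-- BD5.  Take `ψ₀ : ℝ → ℝ` a `ContDiffBump (0:ℝ)` with `rOut = r := η / (2 d)` (support `= Ioo (-r) r`, smooth, `≥ 0`),
`w = ψ₀²`, `ψ b = κ₀ ∏ i, ψ₀ (b i)` with `κ₀² (∫ w)^d = 1/6`.  Support of `ψ` ⊆ cube ⊆ closedBall 0 (√d r) ⊆ ball 0 η.
Mass: `lintegral_prod_density`.  Doubling: `exists_doubling_1d` for `w`, then `lift_doubling` with `i₀ = ⟨0, hd⟩`,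
`θ̃ = liftCoord i₀ θ`, `B₁ = {b | b i₀ ∈ I}` (note `B₁ᶜ = {b | b i₀ ∈ Iᶜ}`); closeness by `norm_liftCoord_sub`, valid where
`b i₀ ∈ Ioo (-r) r`, i.e. wherever the density is non-zero, hence `ν`-a.e. -/
theorem exists_base_measure (d : ℕ) (hd : 0 < d) (η : ℝ) (hη : 0 < η) :
    ∃ ψ : EE d → ℝ, ContDiff ℝ ∞ ψ ∧ HasCompactSupport ψ ∧ (∀ x, 0 ≤ ψ x) ∧
      tsupport ψ ⊆ Metric.ball 0 η ∧ measOfDensity (fun x => ψ x ^ 2) univ = 1 / 6 ∧
      ∀ δ : ℝ, 0 < δ → ∃ (θ : EE d → EE d) (B₁ : Set (EE d)), Measurable θ ∧ MeasurableSet B₁ ∧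
        (∀ᵐ b ∂(measOfDensity fun x => ψ x ^ 2), ‖b - θ b‖ ≤ δ) ∧
        ((2 : ℝ≥0∞) • (measOfDensity fun x => ψ x ^ 2).restrict B₁).map θ
          = measOfDensity (fun x => ψ x ^ 2) ∧
        ((2 : ℝ≥0∞) • (measOfDensity fun x => ψ x ^ 2).restrict B₁ᶜ).map θ
          = measOfDensity (fun x => ψ x ^ 2) := by
  have hdR : (0 : ℝ) < d := by exact_mod_cast hd
  set r : ℝ := η / (2 * d) with hr_def
  have hr : 0 < r := by positivity
  have hdr : (d : ℝ) * r = η / 2 := by rw [hr_def]; field_simp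
  let ψ₀ : ContDiffBump (0 : ℝ) := ⟨r / 2, r, by positivity, by linarith⟩
  have hball : Metric.ball (0 : ℝ) r = Ioo (-r) r := by
    rw [Real.ball_eq_Ioo]; simp
  have hψ₀pos : ∀ x ∈ Ioo (-r) r, 0 < ψ₀ x := by
    intro x hx
    apply ψ₀.pos_of_mem_ball
    show x ∈ Metric.ball (0 : ℝ) r
    rw [hball]; exact hx
  have hψ₀zero : ∀ x, x ∉ Ioo (-r) r → ψ₀ x = 0 := by
    intro x hx
    apply ψ₀.zero_of_le_dist
    show r ≤ dist x 0
    by_contra hlt
    apply hx
    rw [← hball]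
    exact not_le.mp hlt
  have hψ₀nn : ∀ x, 0 ≤ ψ₀ x := fun x => ψ₀.nonneg
  have hψ₀smooth : ContDiff ℝ ∞ ψ₀ := ψ₀.contDiff
  set w : ℝ → ℝ := fun x => ψ₀ x ^ 2 with hw_def
  have hwcont : Continuous w := (ψ₀.continuous).pow 2
  have hwpos : ∀ x ∈ Ioo (-r) r, 0 < w x := fun x hx => pow_pos (hψ₀pos x hx) 2
  have hwzero : ∀ x, x ∉ Ioo (-r) r → w x = 0 := by
    intro x hx
    simp only [hw_def, hψ₀zero x hx]; norm_num
  have hwnn : ∀ x, 0 ≤ w x := fun x => sq_nonneg _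
  set W : ℝ → ℝ≥0∞ := fun x => ENNReal.ofReal (w x) with hW_def
  have hWmeas : Measurable W := hwcont.measurable.ennreal_ofReal
  set J : ℝ≥0∞ := ∫⁻ x, W x with hJ_def
  -- J finite
  have hJtop : J ≠ ⊤ := by
    have hle : ∀ x, W x ≤ (Icc (-r) r).indicator (fun _ => (1 : ℝ≥0∞)) x := by
      intro x
      by_cases hx : x ∈ Ioo (-r) r
      · rw [indicator_of_mem (Ioo_subset_Icc_self hx)]
        have h1 : ψ₀ x ≤ 1 := ψ₀.le_one
        have : w x ≤ 1 := by
          simp only [hw_def]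
          exact pow_le_one₀ (hψ₀nn x) h1
        simpa [hW_def] using this
      · simp [hW_def, hwzero x hx]
    have : J ≤ ∫⁻ x, (Icc (-r) r).indicator (fun _ => (1 : ℝ≥0∞)) x := lintegral_mono hle
    rw [lintegral_indicator measurableSet_Icc, lintegral_const, one_mul, Measure.restrict_apply_univ,
      Real.volume_Icc] at this
    exact ne_top_of_le_ne_top ENNReal.ofReal_ne_top this
  have hJ0 : J ≠ 0 := by
    intro h0
    rw [hJ_def, lintegral_eq_zero_iff hWmeas] at h0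
    have hsub : Ioo (-r) r ⊆ {x | ¬ (W x = (0 : ℝ → ℝ≥0∞) x)} := by
      intro x hx
      simp only [mem_setOf_eq, Pi.zero_apply, hW_def, ENNReal.ofReal_eq_zero, not_le]
      exact hwpos x hx
    have hnull : volume (Ioo (-r) r) = 0 := measure_mono_null hsub (ae_iff.mp h0)
    rw [Real.volume_Ioo] at hnull
    have : r - -r ≤ 0 := ENNReal.ofReal_eq_zero.mp hnull
    linarith
  set Jr : ℝ := J.toReal with hJr_def
  have hJr : 0 < Jr := ENNReal.toReal_pos hJ0 hJtop
  have hJof : J = ENNReal.ofReal Jr := (ENNReal.ofReal_toReal hJtop).symm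
  set κ₀ : ℝ := Real.sqrt (1 / (6 * Jr ^ d)) with hκ₀_def
  have hκ₀nn : 0 ≤ κ₀ := Real.sqrt_nonneg _
  have hκ₀sq : κ₀ ^ 2 = 1 / (6 * Jr ^ d) := Real.sq_sqrt (by positivity)
  set κ : ℝ≥0∞ := ENNReal.ofReal (κ₀ ^ 2) with hκ_def
  set ψ : EE d → ℝ := fun b => κ₀ * ∏ i, ψ₀ (b i) with hψ_def
  -- density identity
  have hdens : (fun x : EE d => ENNReal.ofReal (ψ x ^ 2)) = fun b => κ * ∏ i, W (b i) := by
    funext b
    simp only [hψ_def, hκ_def, hW_def, hw_def]
    rw [mul_pow, ← Finset.prod_pow, ENNReal.ofReal_mul (sq_nonneg _),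
      ENNReal.ofReal_prod_of_nonneg (fun i _ => sq_nonneg _)]
  have hmeasEq : measOfDensity (fun x => ψ x ^ 2)
      = (volume : Measure (EE d)).withDensity (fun b => κ * ∏ i, W (b i)) := by
    unfold measOfDensity
    rw [hdens]
  have hdensMeas : Measurable (fun b : EE d => κ * ∏ i, W (b i)) :=
    (Finset.measurable_prod _ (fun i _ => hWmeas.comp (measurable_coord i))).const_mul _
  -- support
  have hsupp : ∀ b : EE d, b ∉ Metric.closedBall (0 : EE d) (η / 2) → ψ b = 0 := by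
    intro b hb
    by_contra hne
    apply hb
    rw [mem_closedBall_zero_iff, ← hdr]
    apply norm_le_of_coord_le hd r hr.le
    intro i
    by_contra hlt
    apply hne
    have hi : b i ∉ Ioo (-r) r := by
      intro hmem
      apply hlt
      exact abs_le.mpr ⟨hmem.1.le, hmem.2.le⟩
    simp only [hψ_def]
    rw [Finset.prod_eq_zero (Finset.mem_univ i) (hψ₀zero _ hi), mul_zero]
  refine ⟨ψ, ?_, ?_, ?_, ?_, ?_, ?_⟩
  · exact contDiff_const.mul (contDiff_prod fun i _ => hψ₀smooth.comp (contDiff_coord i))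
  · exact HasCompactSupport.intro (isCompact_closedBall _ _) hsupp
  · intro x
    exact mul_nonneg hκ₀nn (Finset.prod_nonneg fun i _ => hψ₀nn _)
  · have h1 : tsupport ψ ⊆ Metric.closedBall (0 : EE d) (η / 2) := by
      apply closure_minimal _ Metric.isClosed_closedBall
      intro b hb
      by_contra hnot
      exact hb (hsupp b hnot)
    exact h1.trans (Metric.closedBall_subset_ball (by linarith))
  · rw [hmeasEq, withDensity_apply _ MeasurableSet.univ, Measure.restrict_univ,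
      lintegral_const_mul' _ _ ENNReal.ofReal_ne_top, lintegral_prod_density W hWmeas hJtop]
    show κ * J ^ d = 1 / 6
    rw [hκ_def, hJof, ← ENNReal.ofReal_pow hJr.le, ← ENNReal.ofReal_mul (sq_nonneg _), hκ₀sq]
    have : 1 / (6 * Jr ^ d) * Jr ^ d = 1 / 6 := by field_simp
    rw [this, ENNReal.ofReal_div_of_pos (by norm_num)]
    simp
  · intro δ hδ
    obtain ⟨θ, I, hθ, hI, hclose, hd1, hd2⟩ := exists_doubling_1d w hwcont r hr hwpos hwzero δ hδ
    let i₀ : Fin d := ⟨0, hd⟩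
    refine ⟨liftCoord i₀ θ, {b | b i₀ ∈ I}, measurable_liftCoord i₀ θ hθ,
      measurable_coord i₀ hI, ?_, ?_, ?_⟩
    · rw [hmeasEq, ae_withDensity_iff hdensMeas]
      refine Filter.Eventually.of_forall fun b hb => ?_
      have hmem : b i₀ ∈ Ioo (-r) r := by
        by_contra hnot
        apply hb
        have : W (b i₀) = 0 := by simp [hW_def, hwzero _ hnot]
        rw [Finset.prod_eq_zero (Finset.mem_univ i₀) this, mul_zero]
      rw [norm_sub_rev, norm_liftCoord_sub]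
      exact hclose _ hmem
    · rw [hmeasEq]
      exact lift_doubling i₀ W hWmeas hJtop κ θ I hθ hI hd1
    · rw [hmeasEq]
      exact lift_doubling i₀ W hWmeas hJtop κ θ Iᶜ hθ hI.compl hd2

end Crest.Agent.MM3
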