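/-
Row 130 / S0175 team project.  Shared definitions for the geometric package.  DO NOT EDIT (ask helper68).
-/
import Crest.Agent.MM3_Defs

set_option autoImplicit false
open MeasureTheory Set
open scoped ENNReal ContDiff RealInnerProductSpace
open Crest.AnalysisR.OT

namespace Crest.Agent.MM3

/-- The numerical constants: `K` curvature of the potentials, `t` shift, `ε` oscillation of the potentials on the outer
clusters, `r` bound for the radii of all clusters. -/
structure Consts (s K t ε r : ℝ) : Prop where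
  hs : 0 < s
  hε : 0 < ε
  hεt : ε < t
  ht : 2 * t ≤ 1
  hr : 0 < r
  hr' : r ≤ 1 / 25
  hK : 3 * (s * 2 ^ (s + 2)) < K
  hKr : K / 2 * r ^ 2 ≤ 1
  noB : 3 * (t + ε) < 3 * (3 : ℝ) ^ (-s)
  oneB : 2 + (2 : ℝ) ^ (-s) + 2 * ε < 2 * (1 + 2 * r) ^ (-s) + (3 / 2 : ℝ) ^ (-s)
  twoB : 3 * (2 + (2 : ℝ) ^ (-s)) < (2 * r) ^ (-s)

/-- One family of configurations `(α b, b, γ b)`, `b ∈ ball 0 η`, in direction `e` (a unit vector):
`α b` near `-e`, `γ b` near `e`. -/
structure OneType (d : ℕ) (s K t ε r : ℝ) (e : EE d) where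
  η : ℝ
  U : Set (EE d)
  VA : Set (EE d)
  VC : Set (EE d)
  α : EE d → EE d
  γ : EE d → EE d
  βA : EE d → EE d
  βC : EE d → EE d
  η_pos : 0 < η
  η_le : η ≤ r
  ball_sub : Metric.ball 0 η ⊆ U
  diffA : LocDiffeo α βA U VA
  diffC : LocDiffeo γ βC U VC
  α_meas : Measurable α
  γ_meas : Measurable γ
  βA_meas : Measurable βA
  βC_meas : Measurable βC
  nearA : ∀ b ∈ Metric.ball (0 : EE d) η, ‖α b + e‖ < r
  nearC : ∀ b ∈ Metric.ball (0 : EE d) η, ‖γ b - e‖ < r
  eqB : ∀ b ∈ Metric.ball (0 : EE d) η, EqB s K (α b) b (γ b)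
  eqC : ∀ b ∈ Metric.ball (0 : EE d) η, EqC s K e (α b) b (γ b)
  potA : ∀ b ∈ Metric.ball (0 : EE d) η, |uA s K t e βA γ (α b) - t| < ε
  potC : ∀ b ∈ Metric.ball (0 : EE d) η, |uC s K t e (γ b) - t| < ε

variable {d : ℕ} {s K t ε r : ℝ} {e : Fin 2 → EE d}

/-- geometric data without potential -/
noncomputable def mkGeo0 (T : ∀ j, OneType d s K t ε r (e j)) : GeoData d where
  η := min (T 0).η (T 1).η
  U := fun j => (T j).U
  VA := fun j => (T j).VA
  VC := fun j => (T j).VC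
  fA := fun j => (T j).α
  fC := fun j => (T j).γ
  gA := fun j => (T j).βA
  gC := fun j => (T j).βC
  u := fun _ => 0

open Classical in
/-- the Kantorovich potential, cluster by cluster -/
noncomputable def potential (G0 : GeoData d) (s K t : ℝ) (e : Fin 2 → EE d) (x : EE d) : ℝ≥0∞ :=
  if x ∈ G0.SB then ENNReal.ofReal (uB s K t x)
  else if x ∈ G0.SA 0 then ENNReal.ofReal (uA s K t (e 0) (G0.gA 0) (G0.fC 0) x)
  else if x ∈ G0.SA 1 then ENNReal.ofReal (uA s K t (e 1) (G0.gA 1) (G0.fC 1) x)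
  else if x ∈ G0.SC 0 then ENNReal.ofReal (uC s K t (e 0) x)
  else if x ∈ G0.SC 1 then ENNReal.ofReal (uC s K t (e 1) x)
  else 0

/-- the geometric data -/
noncomputable def mkGeo (T : ∀ j, OneType d s K t ε r (e j)) : GeoData d :=
  { mkGeo0 T with u := potential (mkGeo0 T) s K t e }

end Crest.Agent.MM3
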