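/-
Row 130 / S0175 project, task G8 (existence of the numerical constants).  One owner; keep statements.
-/
import Crest.Agent.MM3_GeoDefs

set_option autoImplicit false

namespace Crest.Agent.MM3

open Filter Topology in
/-- G8.  `K = max K₀ (3 s 2^(s+2) + 1)`, `t = 3^(-s)/2` (`≤ 1/2`), `Δ = (3/2)^(-s) - 2^(-s) > 0`, `ε = min (t/2) (Δ/8)`,
`r` small: `r ≤ 1/25`, `K/2 r² ≤ 1`, `4 s r ≤ Δ/4` (then `2(1+2r)^(-s) ≥ 2 - 4 s r` by Bernoulli
`Real.one_add_mul_self_le_rpow_one_add`-type lemma for negative exponent, or by continuity), `(2r)^(-s) > 3(2+2^(-s))`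
(e.g. `2r ≤ (3(2+2^(-s))+1)^(-1/s)`, or use `tendsto_rpow_neg_nhdsGT_zero`-type limits: all four conditions hold eventually as
`r → 0+`, so one may take the conjunction of `∀ᶠ r in 𝓝[>] 0`). -/
theorem exists_consts (s : ℝ) (hs : 0 < s) (K₀ : ℝ) :
    ∃ K : ℝ, K₀ ≤ K ∧ ∃ t ε r : ℝ, Consts s K t ε r := by
  set K : ℝ := max K₀ (3 * (s * 2 ^ (s + 2)) + 1) with hKdef
  set t : ℝ := (3 : ℝ) ^ (-s) / 2 with htdef
  set Δ : ℝ := (3 / 2 : ℝ) ^ (-s) - (2 : ℝ) ^ (-s) with hΔdef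
  set ε : ℝ := min (t / 2) (Δ / 8) with hεdef
  have h3pos : 0 < (3 : ℝ) ^ (-s) := Real.rpow_pos_of_pos (by norm_num) _
  have h3le : (3 : ℝ) ^ (-s) ≤ 1 :=
    Real.rpow_le_one_of_one_le_of_nonpos (by norm_num) (by linarith)
  have htpos : 0 < t := by positivity
  have hΔpos : 0 < Δ := by
    have : (2 : ℝ) ^ (-s) < (3 / 2 : ℝ) ^ (-s) :=
      Real.rpow_lt_rpow_of_neg (by norm_num) (by norm_num) (by linarith)
    simpa [hΔdef] using this
  have hεpos : 0 < ε := lt_min (by positivity) (by positivity)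
  have hε1 : ε ≤ t / 2 := min_le_left _ _
  have hε2 : ε ≤ Δ / 8 := min_le_right _ _
  -- eventual conditions
  have e1 : ∀ᶠ r : ℝ in 𝓝[>] 0, 0 < r := eventually_mem_nhdsWithin
  have e2 : ∀ᶠ r : ℝ in 𝓝[>] 0, r ≤ 1 / 25 := by
    have : ∀ᶠ r : ℝ in 𝓝 0, r < 1 / 25 := eventually_lt_nhds (by norm_num)
    exact (this.filter_mono nhdsWithin_le_nhds).mono fun r hr => hr.le
  have e3 : ∀ᶠ r : ℝ in 𝓝[>] 0, K / 2 * r ^ 2 ≤ 1 := by
    have hc : Tendsto (fun r : ℝ => K / 2 * r ^ 2) (𝓝 0) (𝓝 (K / 2 * 0 ^ 2)) :=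
      (Continuous.tendsto (by fun_prop) 0)
    have : ∀ᶠ r : ℝ in 𝓝 0, K / 2 * r ^ 2 < 1 :=
      hc.eventually_lt_const (by norm_num)
    exact (this.filter_mono nhdsWithin_le_nhds).mono fun r hr => hr.le
  have e4 : ∀ᶠ r : ℝ in 𝓝[>] 0,
      2 + (2 : ℝ) ^ (-s) + 2 * ε < 2 * (1 + 2 * r) ^ (-s) + (3 / 2 : ℝ) ^ (-s) := by
    have hc : ContinuousAt (fun r : ℝ => 2 * (1 + 2 * r) ^ (-s) + (3 / 2 : ℝ) ^ (-s)) 0 := by
      have h1 : ContinuousAt (fun r : ℝ => (1 + 2 * r) ^ (-s)) 0 := by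
        apply ContinuousAt.rpow_const (by fun_prop)
        left; norm_num
      exact (continuousAt_const.mul h1).add continuousAt_const
    have hv : 2 + (2 : ℝ) ^ (-s) + 2 * ε
        < (fun r : ℝ => 2 * (1 + 2 * r) ^ (-s) + (3 / 2 : ℝ) ^ (-s)) 0 := by
      simp only [mul_zero, add_zero, Real.one_rpow, mul_one]
      have : (3 / 2 : ℝ) ^ (-s) = Δ + (2 : ℝ) ^ (-s) := by simp [hΔdef]
      rw [this]; linarith
    have : ∀ᶠ r : ℝ in 𝓝 0,
        2 + (2 : ℝ) ^ (-s) + 2 * ε < 2 * (1 + 2 * r) ^ (-s) + (3 / 2 : ℝ) ^ (-s) :=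
      hc.tendsto.eventually_const_lt hv
    exact this.filter_mono nhdsWithin_le_nhds
  have e5 : ∀ᶠ r : ℝ in 𝓝[>] 0, 3 * (2 + (2 : ℝ) ^ (-s)) < (2 * r) ^ (-s) := by
    have h2 : Tendsto (fun r : ℝ => 2 * r) (𝓝[>] 0) (𝓝[>] 0) := by
      apply tendsto_nhdsWithin_of_tendsto_nhds_of_eventually_within
      · have : Tendsto (fun r : ℝ => 2 * r) (𝓝 0) (𝓝 (2 * 0)) :=
          (Continuous.tendsto (by fun_prop) 0)
        simpa using this.mono_left nhdsWithin_le_nhds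
      · filter_upwards [e1] with r hr
        simpa using hr
    have h3 : Tendsto (fun x : ℝ => x ^ (-s)) (𝓝[>] 0) atTop :=
      tendsto_rpow_neg_nhdsGT_zero (by linarith)
    exact (h3.comp h2).eventually_gt_atTop _
  obtain ⟨r, hr1, hr2, hr3, hr4, hr5⟩ := (e1.and (e2.and (e3.and (e4.and e5)))).exists
  refine ⟨K, le_max_left _ _, t, ε, r, ?_⟩
  refine ⟨hs, hεpos, by linarith, by simp only [htdef]; linarith, hr1, hr2, ?_, hr3, ?_, hr4, hr5⟩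
  · have : 3 * (s * 2 ^ (s + 2)) + 1 ≤ K := le_max_right _ _
    linarith
  · have : (3 : ℝ) ^ (-s) = 2 * t := by simp only [htdef]; ring
    rw [this]; linarith

end Crest.Agent.MM3
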