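/-
Row 130 / S0175 project, task G1 (kernel: tangent inequality, conversions ENNReal <-> ℝ).  One owner; keep statements.
-/
import Crest.Agent.MM3_Defs

set_option autoImplicit false
set_option linter.unusedSectionVars false
open MeasureTheory Set
open scoped ENNReal ContDiff RealInnerProductSpace
open Crest.AnalysisR.OT

namespace Crest.Agent.MM3

variable {E : Type*} [NormedAddCommGroup E] [InnerProductSpace ℝ E]

theorem hK_pos (s : ℝ) {z : E} (hz : z ≠ 0) : 0 < hK s z := by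
  exact Real.rpow_pos_of_pos (norm_pos_iff.mpr hz) _

theorem hK_nonneg (s : ℝ) (z : E) : 0 ≤ hK s z :=
  Real.rpow_nonneg (norm_nonneg _) _

theorem hK_neg (s : ℝ) (z : E) : hK s (-z) = hK s z := by
  simp [hK]

theorem gK_neg (s : ℝ) (z : E) : gK s (-z) = -gK s z := by
  simp [gK]

/-- `‖g(z)‖ = s ‖z‖^(-s-1)` -/
theorem norm_gK (s : ℝ) (hs : 0 < s) {z : E} (hz : z ≠ 0) : ‖gK s z‖ = s * ‖z‖ ^ (-s - 1) := by
  have hn : 0 < ‖z‖ := norm_pos_iff.mpr hz
  have h1 : ‖z‖ ^ (-s - 1) = ‖z‖ ^ (-s - 2) * ‖z‖ := by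
    have : (-s - 1 : ℝ) = (-s - 2) + 1 := by ring
    rw [this, Real.rpow_add hn, Real.rpow_one]
  have h2 : 0 ≤ ‖z‖ ^ (-s - 2) := Real.rpow_nonneg hn.le _
  rw [gK, norm_smul, Real.norm_eq_abs, abs_mul, abs_neg, abs_of_pos hs, abs_of_nonneg h2, h1]
  ring

/-- monotonicity: `‖z‖ ≤ R` ⟹ `R^(-s) ≤ h(z)` -/
theorem le_hK_of_norm_le (s : ℝ) (hs : 0 < s) {z : E} (hz : z ≠ 0) {R : ℝ} (hR : ‖z‖ ≤ R) :
    R ^ (-s) ≤ hK s z := by
  exact Real.rpow_le_rpow_of_nonpos (norm_pos_iff.mpr hz) hR (by linarith)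

/-- Bernoulli for negative exponents, in the form used below. -/
theorem bernoulli_neg (s : ℝ) (hs : 0 < s) {t : ℝ} (ht : 0 < t) :
    1 - s / 2 * (t ^ 2 - 1) ≤ t ^ (-s) := by
  have h1 : t ^ (-s) = Real.exp (-(s / 2) * Real.log (t ^ 2)) := by
    rw [Real.rpow_def_of_pos ht, Real.log_pow]
    congr 1
    push_cast
    ring
  have h2 : Real.log (t ^ 2) ≤ t ^ 2 - 1 := Real.log_le_sub_one_of_pos (by positivity)
  have h3 := Real.add_one_le_exp (-(s / 2) * Real.log (t ^ 2))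
  rw [h1]
  nlinarith

/-- G1 KEY.  Global tangent inequality. -/
theorem hK_tangent (s : ℝ) (hs : 0 < s) {z z' : E} (hz : z ≠ 0) (hz' : z' ≠ 0) :
    hK s z + ⟪gK s z, z' - z⟫ - s / 2 * ‖z‖ ^ (-s - 2) * ‖z' - z‖ ^ 2 ≤ hK s z' := by
  have hn : 0 < ‖z‖ := norm_pos_iff.mpr hz
  have hn' : 0 < ‖z'‖ := norm_pos_iff.mpr hz'
  have hB := bernoulli_neg s hs (div_pos hn' hn)
  have hA : 0 < ‖z‖ ^ (-s) := Real.rpow_pos_of_pos hn _
  have h1 : ‖z'‖ ^ (-s) = ‖z‖ ^ (-s) * (‖z'‖ / ‖z‖) ^ (-s) := by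
    rw [Real.div_rpow hn'.le hn.le]
    field_simp
  have h2 : ‖z‖ ^ (-s - 2) * ‖z‖ ^ 2 = ‖z‖ ^ (-s) := by
    have : (-s : ℝ) = (-s - 2) + (2 : ℕ) := by push_cast; ring
    conv_rhs => rw [this, Real.rpow_add hn, Real.rpow_natCast]
  have h3 : ‖z'‖ ^ 2 = ‖z‖ ^ 2 + 2 * ⟪z, z' - z⟫ + ‖z' - z‖ ^ 2 := by
    have : z' = z + (z' - z) := by abel
    conv_lhs => rw [this]
    rw [norm_add_sq_real]
  have h4 : ⟪gK s z, z' - z⟫ = -s * ‖z‖ ^ (-s - 2) * ⟪z, z' - z⟫ := by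
    rw [gK, real_inner_smul_left]
  have h5 : ‖z‖ ^ (-s) * (1 - s / 2 * ((‖z'‖ / ‖z‖) ^ 2 - 1))
      = ‖z‖ ^ (-s) - s / 2 * ‖z‖ ^ (-s - 2) * (‖z'‖ ^ 2 - ‖z‖ ^ 2) := by
    rw [← h2]
    field_simp
  have h6 := mul_le_mul_of_nonneg_left hB hA.le
  rw [h5, ← h1, h3] at h6
  simp only [hK]
  rw [h4]
  linarith

/-- version with a uniform constant when `‖z‖ ≥ 1/2` -/
theorem hK_tangent_half (s : ℝ) (hs : 0 < s) {z z' : E} (hz : 1 / 2 ≤ ‖z‖) (hz' : z' ≠ 0) :
    hK s z + ⟪gK s z, z' - z⟫ - (s * 2 ^ (s + 2)) / 2 * ‖z' - z‖ ^ 2 ≤ hK s z' := by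
  have hz0 : z ≠ 0 := by
    intro h
    rw [h, norm_zero] at hz
    norm_num at hz
  have h := hK_tangent s hs hz0 hz'
  have h1 : ‖z‖ ^ (-s - 2) ≤ (2 : ℝ) ^ (s + 2) := by
    have h2 : ‖z‖ ^ (-s - 2) ≤ (1 / 2 : ℝ) ^ (-s - 2) :=
      Real.rpow_le_rpow_of_nonpos (by norm_num) hz (by linarith)
    have h3 : (1 / 2 : ℝ) ^ (-s - 2) = (2 : ℝ) ^ (s + 2) := by
      rw [one_div, Real.inv_rpow (by norm_num), ← Real.rpow_neg (by norm_num)]
      congr 1
      ring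
    linarith
  have h4 : s / 2 * ‖z‖ ^ (-s - 2) * ‖z' - z‖ ^ 2 ≤ (s * 2 ^ (s + 2)) / 2 * ‖z' - z‖ ^ 2 := by
    apply mul_le_mul_of_nonneg_right _ (by positivity)
    nlinarith
  linarith

theorem pairCost_eq_ofReal (s : ℝ) {x y : E} (h : x ≠ y) :
    pairCost s x y = ENNReal.ofReal (hK s (x - y)) := by
  have hn : 0 < ‖x - y‖ := norm_pos_iff.mpr (sub_ne_zero.mpr h)
  rw [pairCost, hK, ENNReal.ofReal_rpow_of_pos hn]

theorem pairCost_self (s : ℝ) (hs : 0 < s) (x : E) : pairCost s x x = ⊤ := by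
  rw [pairCost, sub_self, norm_zero, ENNReal.ofReal_zero, ENNReal.zero_rpow_of_neg (by linarith)]

theorem pairCost_comm (s : ℝ) (x y : E) : pairCost s x y = pairCost s y x := by
  rw [pairCost, pairCost, norm_sub_rev]

theorem tripleCost_eq_ofReal (s : ℝ) {x y z : E} (h1 : x ≠ y) (h2 : x ≠ z) (h3 : y ≠ z) :
    tripleCost s (x, y, z) = ENNReal.ofReal (costR s x y z) := by
  simp only [tripleCost, costR]
  rw [pairCost_eq_ofReal s h1, pairCost_eq_ofReal s h2, pairCost_eq_ofReal s h3,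
    ENNReal.ofReal_add (add_nonneg (hK_nonneg _ _) (hK_nonneg _ _)) (hK_nonneg _ _),
    ENNReal.ofReal_add (hK_nonneg _ _) (hK_nonneg _ _)]

theorem tripleCost_eq_top (s : ℝ) (hs : 0 < s) {x y z : E} (h : x = y ∨ x = z ∨ y = z) :
    tripleCost s (x, y, z) = ⊤ := by
  simp only [tripleCost]
  rcases h with h | h | h
  · subst h; simp [pairCost_self s hs]
  · subst h; simp [pairCost_self s hs]
  · subst h; simp [pairCost_self s hs]

theorem tripleCost_swap12 (s : ℝ) (x y z : E) : tripleCost s (y, x, z) = tripleCost s (x, y, z) := by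
  simp only [tripleCost]
  rw [pairCost_comm s y x]
  ac_rfl

theorem tripleCost_swap23 (s : ℝ) (x y z : E) : tripleCost s (x, z, y) = tripleCost s (x, y, z) := by
  simp only [tripleCost]
  rw [pairCost_comm s z y]
  ac_rfl

theorem hK_sub_comm (s : ℝ) (x y : E) : hK s (x - y) = hK s (y - x) := by
  rw [← hK_neg, neg_sub]

theorem costR_swap12 (s : ℝ) (x y z : E) : costR s y x z = costR s x y z := by
  simp only [costR]
  rw [hK_sub_comm s y x]
  ring

theorem costR_swap23 (s : ℝ) (x y z : E) : costR s x z y = costR s x y z := by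
  simp only [costR]
  rw [hK_sub_comm s z y]
  ring

theorem measurable_tripleCost [MeasurableSpace E] [BorelSpace E] [SecondCountableTopology E] (s : ℝ) :
    Measurable (tripleCost s : E × E × E → ℝ≥0∞) := by
  unfold tripleCost pairCost
  have m1 : Measurable (fun p : E × E × E => p.1) := measurable_fst
  have m2 : Measurable (fun p : E × E × E => p.2.1) := measurable_fst.comp measurable_snd
  have m3 : Measurable (fun p : E × E × E => p.2.2) := measurable_snd.comp measurable_snd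
  exact (((m1.sub m2).norm.ennreal_ofReal.pow_const _).add
    ((m1.sub m3).norm.ennreal_ofReal.pow_const _)).add
    ((m2.sub m3).norm.ennreal_ofReal.pow_const _)

theorem measurable_hK [MeasurableSpace E] [BorelSpace E] (s : ℝ) : Measurable (hK s : E → ℝ) := by
  unfold hK
  exact measurable_norm.pow_const _

/-- crude strict lower bound of the cost from upper bounds on the three distances
(coinciding points give `⊤`). -/
theorem lt_tripleCost_of_dist (s : ℝ) (hs : 0 < s) {x y z : E} {R₁ R₂ R₃ v : ℝ}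
    (p₁ : 0 < R₁) (p₂ : 0 < R₂) (p₃ : 0 < R₃)
    (h₁ : ‖x - y‖ ≤ R₁) (h₂ : ‖x - z‖ ≤ R₂) (h₃ : ‖y - z‖ ≤ R₃)
    (hv : v < R₁ ^ (-s) + R₂ ^ (-s) + R₃ ^ (-s)) :
    ENNReal.ofReal v < tripleCost s (x, y, z) := by
  by_cases h : x = y ∨ x = z ∨ y = z
  · rw [tripleCost_eq_top s hs h]
    exact ENNReal.ofReal_lt_top
  · push Not at h
    obtain ⟨h1, h2, h3⟩ := h
    rw [tripleCost_eq_ofReal s h1 h2 h3]
    have a1 := le_hK_of_norm_le s hs (sub_ne_zero.mpr h1) h₁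
    have a2 := le_hK_of_norm_le s hs (sub_ne_zero.mpr h2) h₂
    have a3 := le_hK_of_norm_le s hs (sub_ne_zero.mpr h3) h₃
    have q1 : 0 < R₁ ^ (-s) := Real.rpow_pos_of_pos p₁ _
    have q2 : 0 < R₂ ^ (-s) := Real.rpow_pos_of_pos p₂ _
    have q3 : 0 < R₃ ^ (-s) := Real.rpow_pos_of_pos p₃ _
    apply (ENNReal.ofReal_lt_ofReal_iff _).mpr
    · simp only [costR]; linarith
    · simp only [costR]; linarith

/-- one-pair modulus -/
theorem hK_modulus (s : ℝ) (hs : 0 < s) {b b' y : E} (h : 1 / 2 ≤ ‖b - y‖) (h' : b' ≠ y) :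
    hK s (b - y) ≤ hK s (b' - y) + s * 2 ^ (s + 1) * ‖b - b'‖
      + (s * 2 ^ (s + 2)) / 2 * ‖b - b'‖ ^ 2 := by
  have hz0 : b - y ≠ 0 := by
    intro h0
    rw [h0, norm_zero] at h
    norm_num at h
  have ht := hK_tangent_half s hs h (sub_ne_zero.mpr h')
  have e : b' - y - (b - y) = -(b - b') := by abel
  rw [e, norm_neg] at ht
  have hg : ‖gK s (b - y)‖ ≤ s * 2 ^ (s + 1) := by
    rw [norm_gK s hs hz0]
    apply mul_le_mul_of_nonneg_left _ hs.le
    have h2 : ‖b - y‖ ^ (-s - 1) ≤ (1 / 2 : ℝ) ^ (-s - 1) :=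
      Real.rpow_le_rpow_of_nonpos (by norm_num) h (by linarith)
    have h3 : (1 / 2 : ℝ) ^ (-s - 1) = (2 : ℝ) ^ (s + 1) := by
      rw [one_div, Real.inv_rpow (by norm_num), ← Real.rpow_neg (by norm_num)]
      congr 1
      ring
    linarith
  have hi : -(s * 2 ^ (s + 1) * ‖b - b'‖) ≤ ⟪gK s (b - y), -(b - b')⟫ := by
    have h1 := abs_real_inner_le_norm (gK s (b - y)) (-(b - b'))
    rw [norm_neg] at h1
    have h2 := neg_abs_le ⟪gK s (b - y), -(b - b')⟫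
    have h3 : ‖gK s (b - y)‖ * ‖b - b'‖ ≤ s * 2 ^ (s + 1) * ‖b - b'‖ :=
      mul_le_mul_of_nonneg_right hg (norm_nonneg _)
    linarith
  linarith

/-- modulus of continuity in the first variable. -/
theorem tripleCost_modulus (s : ℝ) (hs : 0 < s) (ε : ℝ≥0∞) (hε : 0 < ε) :
    ∃ δ : ℝ, 0 < δ ∧ ∀ b b' y z : E, 1 / 2 ≤ ‖b - y‖ → 1 / 2 ≤ ‖b - z‖ → ‖b - b'‖ ≤ δ →
      tripleCost s (b, y, z) ≤ tripleCost s (b', y, z) + ε := by
  -- a positive real below ε
  obtain ⟨e, he0, heε⟩ : ∃ e : ℝ, 0 < e ∧ ENNReal.ofReal e ≤ ε := by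
    by_cases ht : ε = ⊤
    · exact ⟨1, one_pos, by rw [ht]; exact le_top⟩
    · exact ⟨ε.toReal, ENNReal.toReal_pos hε.ne' ht, by rw [ENNReal.ofReal_toReal ht]⟩
  set A : ℝ := s * 2 ^ (s + 1) with hA
  set B : ℝ := (s * 2 ^ (s + 2)) / 2 with hB
  have hApos : 0 < A := by positivity
  have hBpos : 0 < B := by positivity
  refine ⟨min 1 (e / (2 * (A + B))), lt_min one_pos (by positivity), ?_⟩
  intro b b' y z h1 h2 hδ
  by_cases h : b' = y ∨ b' = z ∨ y = z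
  · rw [tripleCost_eq_top s hs h]
    simp
  · push Not at h
    obtain ⟨n1, n2, n3⟩ := h
    have m1 : b ≠ y := by
      intro h0
      rw [h0, sub_self, norm_zero] at h1
      norm_num at h1
    have m2 : b ≠ z := by
      intro h0
      rw [h0, sub_self, norm_zero] at h2
      norm_num at h2
    rw [tripleCost_eq_ofReal s m1 m2 n3, tripleCost_eq_ofReal s n1 n2 n3]
    have k1 := hK_modulus s hs h1 n1
    have k2 := hK_modulus s hs h2 n2
    have d0 : 0 ≤ ‖b - b'‖ := norm_nonneg _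
    have d1 : ‖b - b'‖ ≤ 1 := hδ.trans (min_le_left _ _)
    have d2 : ‖b - b'‖ ≤ e / (2 * (A + B)) := hδ.trans (min_le_right _ _)
    have d3 : ‖b - b'‖ ^ 2 ≤ ‖b - b'‖ := by nlinarith
    have d4 : 2 * (A + B) * ‖b - b'‖ ≤ e := by
      have : 0 < 2 * (A + B) := by positivity
      calc 2 * (A + B) * ‖b - b'‖ ≤ 2 * (A + B) * (e / (2 * (A + B))) :=
            mul_le_mul_of_nonneg_left d2 this.le
        _ = e := by field_simp
    have key : costR s b y z ≤ costR s b' y z + e := by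
      simp only [costR]
      have : B * ‖b - b'‖ ^ 2 ≤ B * ‖b - b'‖ := mul_le_mul_of_nonneg_left d3 hBpos.le
      nlinarith
    have c0 : 0 ≤ costR s b' y z := by
      simp only [costR]
      exact add_nonneg (add_nonneg (hK_nonneg _ _) (hK_nonneg _ _)) (hK_nonneg _ _)
    calc ENNReal.ofReal (costR s b y z) ≤ ENNReal.ofReal (costR s b' y z + e) :=
          ENNReal.ofReal_le_ofReal key
      _ = ENNReal.ofReal (costR s b' y z) + ENNReal.ofReal e := ENNReal.ofReal_add c0 he0.le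
      _ ≤ ENNReal.ofReal (costR s b' y z) + ε := by gcongr

end Crest.Agent.MM3
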