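/-
Row 130 / S0175 project, task G6 (the dual inequality at a configuration).  One owner; keep statements.
-/
import Crest.Agent.MM3_Kernel

set_option autoImplicit false
open MeasureTheory Set
open scoped ENNReal ContDiff RealInnerProductSpace
open Crest.AnalysisR.OT

namespace Crest.Agent.MM3

variable {E : Type*} [NormedAddCommGroup E] [InnerProductSpace ℝ E]

/-- G6a (DI).  Apply `hK_tangent_half` to `(z,z') = (b-a, b'-a), (c-a, c'-a), (c-b, c'-b')`; with `δb = b'-b`, `δc = c'-c`: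
`‖δc-δb‖² ≤ 2‖δb‖²+2‖δc‖²`;  `-uB b' = -uB b + K⟪b,δb⟫ + (K/2)‖δb‖²`;
`-uC c' = -uC c - ⟪ℓ,δc⟫ + K⟪c-e,δc⟫ + (K/2)‖δc‖²`.
Linear terms: `⟪g(b-a) - g(c-b) + K b, δb⟫ = 0` by `Eb` (`gK_neg`), `⟪g(c-a)+g(c-b)-ℓ+K(c-e), δc⟫ = 0` by `Ec`. -/
theorem dual_ineq (s K t : ℝ) (hs : 0 < s) (e a b c b' c' : E)
    (h1 : 1 / 2 ≤ ‖b - a‖) (h2 : 1 / 2 ≤ ‖c - a‖) (h3 : 1 / 2 ≤ ‖c - b‖)
    (Eb : EqB s K a b c) (Ec : EqC s K e a b c) (hb' : b' ≠ a) (hc' : c' ≠ a) (hbc : c' ≠ b') :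
    costR s a b c - uB s K t b - uC s K t e c
        + (K - 3 * (s * 2 ^ (s + 2))) / 2 * (‖b' - b‖ ^ 2 + ‖c' - c‖ ^ 2)
      ≤ costR s a b' c' - uB s K t b' - uC s K t e c' := by
  have T1 := hK_tangent_half s hs h1 (sub_ne_zero.mpr hb')
  have T2 := hK_tangent_half s hs h2 (sub_ne_zero.mpr hc')
  have T3 := hK_tangent_half s hs h3 (sub_ne_zero.mpr hbc)
  have e1 : b' - a - (b - a) = b' - b := by abel
  have e2 : c' - a - (c - a) = c' - c := by abel
  have e3 : c' - b' - (c - b) = (c' - c) - (b' - b) := by abel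
  rw [e1] at T1
  rw [e2] at T2
  rw [e3, inner_sub_right] at T3
  set δb : E := b' - b with hδb
  set δc : E := c' - c with hδc
  set M : ℝ := s * 2 ^ (s + 2) with hM
  have hMpos : 0 < M := by positivity
  -- the parallelogram bound
  have hpar : ‖δc - δb‖ ^ 2 ≤ 2 * ‖δb‖ ^ 2 + 2 * ‖δc‖ ^ 2 := by
    have q1 := norm_sub_sq_real δc δb
    have q2 := norm_add_sq_real δc δb
    have q3 : 0 ≤ ‖δc + δb‖ ^ 2 := by positivity
    linarith
  have hpar' : M / 2 * ‖δc - δb‖ ^ 2 ≤ M / 2 * (2 * ‖δb‖ ^ 2 + 2 * ‖δc‖ ^ 2) :=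
    mul_le_mul_of_nonneg_left hpar (by positivity)
  -- first order conditions
  have Lb : ⟪gK s (b - a), δb⟫ - ⟪gK s (c - b), δb⟫ = -(K * ⟪b, δb⟫) := by
    have h := congrArg (fun v => ⟪v, δb⟫) Eb
    simp only [inner_add_left, inner_neg_left, real_inner_smul_left] at h
    have hneg : gK s (b - c) = -gK s (c - b) := by rw [← gK_neg, neg_sub]
    rw [hneg, inner_neg_left] at h
    linarith
  have Lc : ⟪gK s (c - a), δc⟫ + ⟪gK s (c - b), δc⟫ = ⟪ellK s e, δc⟫ - K * ⟪c - e, δc⟫ := by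
    have h := congrArg (fun v => ⟪v, δc⟫) Ec
    simp only [inner_add_left, inner_sub_left, real_inner_smul_left] at h
    rw [inner_sub_left]
    linarith
  -- expansions of the potentials
  have Ub : uB s K t b' = uB s K t b - K * ⟪b, δb⟫ - K / 2 * ‖δb‖ ^ 2 := by
    have hb : b' = b + δb := by rw [hδb]; abel
    simp only [uB]
    rw [hb, norm_add_sq_real]
    ring
  have Uc : uC s K t e c' = uC s K t e c + ⟪ellK s e, δc⟫ - K * ⟪c - e, δc⟫ - K / 2 * ‖δc‖ ^ 2 := by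
    have hc : c' - e = (c - e) + δc := by rw [hδc]; abel
    simp only [uC]
    rw [hc, norm_add_sq_real, inner_add_right]
    ring
  have C1 : costR s a b c = hK s (b - a) + hK s (c - a) + hK s (c - b) := by
    simp only [costR]
    rw [hK_sub_comm s a b, hK_sub_comm s a c, hK_sub_comm s b c]
  have C2 : costR s a b' c' = hK s (b' - a) + hK s (c' - a) + hK s (c' - b') := by
    simp only [costR]
    rw [hK_sub_comm s a b', hK_sub_comm s a c', hK_sub_comm s b' c']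
  rw [C1, C2, Ub, Uc]
  nlinarith [T1, T2, T3, hpar', Lb, Lc]

/-- G6b.  ENNReal form with rigidity.  `x` plays `b'`, `z` plays `c'`; order of the triple: (B-point, A-point, C-point).
If two of `x,a,z` coincide the cost is `⊤` (`tripleCost_eq_top`) and the right side of the second claim is finite.
Otherwise `tripleCost_eq_ofReal`, `costR_swap12`, `ENNReal.ofReal_add`, `ENNReal.ofReal_le_ofReal_iff`. -/
theorem one_B_opp (s K t : ℝ) (hs : 0 < s) (hK : 3 * (s * 2 ^ (s + 2)) < K) (e a b c x z : E)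
    (h1 : 1 / 2 ≤ ‖b - a‖) (h2 : 1 / 2 ≤ ‖c - a‖) (h3 : 1 / 2 ≤ ‖c - b‖)
    (Eb : EqB s K a b c) (Ec : EqC s K e a b c)
    (hx : 0 ≤ uB s K t x) (hz : 0 ≤ uC s K t e z)
    (ha : 0 ≤ costR s a b c - uB s K t b - uC s K t e c) :
    ENNReal.ofReal (uB s K t x) + ENNReal.ofReal (costR s a b c - uB s K t b - uC s K t e c)
        + ENNReal.ofReal (uC s K t e z) ≤ tripleCost s (x, a, z) ∧
    (tripleCost s (x, a, z) ≤ ENNReal.ofReal (uB s K t x)
        + ENNReal.ofReal (costR s a b c - uB s K t b - uC s K t e c) + ENNReal.ofReal (uC s K t e z) →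
      x = b ∧ z = c) := by
  rw [← ENNReal.ofReal_add hx ha, ← ENNReal.ofReal_add (add_nonneg hx ha) hz]
  by_cases h : x = a ∨ x = z ∨ a = z
  · rw [tripleCost_eq_top s hs h]
    refine ⟨le_top, fun hle => ?_⟩
    exact absurd (lt_of_le_of_lt hle ENNReal.ofReal_lt_top) (lt_irrefl _)
  · push Not at h
    obtain ⟨n1, n2, n3⟩ := h
    rw [tripleCost_eq_ofReal s n1 n2 n3, costR_swap12 s a x z]
    have D := dual_ineq s K t hs e a b c x z h1 h2 h3 Eb Ec n1 n3.symm n2.symm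
    have hpos : 0 < (K - 3 * (s * 2 ^ (s + 2))) / 2 := by linarith
    have q1 : 0 ≤ ‖x - b‖ ^ 2 := by positivity
    have q2 : 0 ≤ ‖z - c‖ ^ 2 := by positivity
    have q3 : 0 ≤ (K - 3 * (s * 2 ^ (s + 2))) / 2 * (‖x - b‖ ^ 2 + ‖z - c‖ ^ 2) :=
      mul_nonneg hpos.le (add_nonneg q1 q2)
    refine ⟨ENNReal.ofReal_le_ofReal (by linarith), fun hle => ?_⟩
    have hle' := (ENNReal.ofReal_le_ofReal_iff (add_nonneg (add_nonneg hx ha) hz)).mp hle
    have hzero : (K - 3 * (s * 2 ^ (s + 2))) / 2 * (‖x - b‖ ^ 2 + ‖z - c‖ ^ 2) ≤ 0 := by linarith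
    have hsum : ‖x - b‖ ^ 2 + ‖z - c‖ ^ 2 ≤ 0 := by
      by_contra hcon
      push Not at hcon
      have := mul_pos hpos hcon
      linarith
    have z1 : ‖x - b‖ ^ 2 = 0 := by linarith
    have z2 : ‖z - c‖ ^ 2 = 0 := by linarith
    constructor
    · have := pow_eq_zero_iff (two_ne_zero) |>.mp z1
      exact sub_eq_zero.mp (norm_eq_zero.mp this)
    · have := pow_eq_zero_iff (two_ne_zero) |>.mp z2
      exact sub_eq_zero.mp (norm_eq_zero.mp this)

end Crest.Agent.MM3
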