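/-
Row 130 / S0175 project, task P1 (smoothness of the determinant).  One owner; keep statements.
-/
import Crest.Agent.MM3_Defs

set_option autoImplicit false
open MeasureTheory Set
open scoped ENNReal ContDiff

namespace Crest.Agent.MM3

/-- P1.  `det` is a polynomial in the matrix entries, which are continuous linear functionals of `A`.
(`LinearMap.det_toMatrix`/`LinearMap.toMatrix`, `Matrix.det_apply`, `ContDiff.sum`, `contDiff_prod`, ...) -/
theorem contDiff_det {F : Type*} [NormedAddCommGroup F] [NormedSpace ℝ F] [FiniteDimensional ℝ F] :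
    ContDiff ℝ ∞ (fun A : F →L[ℝ] F => A.det) := by
  classical
  let b := Module.finBasis ℝ F
  have h : (fun A : F →L[ℝ] F => A.det) = fun A : F →L[ℝ] F =>
      ∑ σ : Equiv.Perm (Fin (Module.finrank ℝ F)), ((Equiv.Perm.sign σ : ℤ) : ℝ) *
        ∏ i, (LinearMap.toMatrix b b (A : F →ₗ[ℝ] F)) (σ i) i := by
    funext A
    rw [ContinuousLinearMap.det, ← LinearMap.det_toMatrix b, Matrix.det_apply']
  rw [h]
  refine ContDiff.sum fun σ _ => ?_
  refine contDiff_const.mul ?_
  refine contDiff_prod fun i _ => ?_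
  have h2 : (fun A : F →L[ℝ] F => (LinearMap.toMatrix b b (A : F →ₗ[ℝ] F)) (σ i) i)
      = fun A : F →L[ℝ] F => ((b.coord (σ i)).toContinuousLinearMap.comp
          (ContinuousLinearMap.apply ℝ F (b i))) A := by
    funext A
    simp [LinearMap.toMatrix_apply]
  rw [h2]
  exact ContinuousLinearMap.contDiff _

/-- P1b.  Consequence: for a local diffeomorphism, `y ↦ √|det Dg(y)|` is smooth and positive on `V`.
(`ContDiffOn.fderiv_of_isOpen`; `det (Dg y) ≠ 0` because `Df(g y) ∘ Dg(y) = id` by the chain rule applied to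
`f ∘ g = id` on the open set `V`; `contDiffAt_abs`, `Real.contDiffAt_sqrt`.) -/
theorem LocDiffeo.contDiffOn_sqrt_abs_det {F : Type*} [NormedAddCommGroup F] [NormedSpace ℝ F]
    [FiniteDimensional ℝ F] {f g : F → F} {U V : Set F} (h : LocDiffeo f g U V) :
    ContDiffOn ℝ ∞ (fun y => Real.sqrt |(fderiv ℝ g y).det|) V ∧ ∀ y ∈ V, (fderiv ℝ g y).det ≠ 0 := by
  have hne : ∀ y ∈ V, (fderiv ℝ g y).det ≠ 0 := by
    intro y hy hdet
    have hgy : g y ∈ U := h.mapsTo' hy
    have dg : HasFDerivAt g (fderiv ℝ g y) y :=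
      ((h.smooth'.contDiffAt (h.openV.mem_nhds hy)).differentiableAt (by simp)).hasFDerivAt
    have df : HasFDerivAt f (fderiv ℝ f (g y)) (g y) :=
      ((h.smooth.contDiffAt (h.openU.mem_nhds hgy)).differentiableAt (by simp)).hasFDerivAt
    have dcomp : HasFDerivAt (f ∘ g) ((fderiv ℝ f (g y)).comp (fderiv ℝ g y)) y := df.comp y dg
    have hid : HasFDerivAt (f ∘ g) (ContinuousLinearMap.id ℝ F) y := by
      refine (hasFDerivAt_id y).congr_of_eventuallyEq ?_
      filter_upwards [h.openV.mem_nhds hy] with z hz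
      simpa using h.right z hz
    have heq := dcomp.unique hid
    have hd : ((fderiv ℝ f (g y)).comp (fderiv ℝ g y)).det = 1 := by
      rw [heq]
      simp [ContinuousLinearMap.det]
    have hd2 : ((fderiv ℝ f (g y)).comp (fderiv ℝ g y)).det
        = (fderiv ℝ f (g y)).det * (fderiv ℝ g y).det := by
      simp [ContinuousLinearMap.det, ContinuousLinearMap.toLinearMap_comp, LinearMap.det_comp]
    rw [hd2, hdet, mul_zero] at hd
    exact zero_ne_one hd
  refine ⟨?_, hne⟩
  have h1 : ContDiffOn ℝ ∞ (fderiv ℝ g) V := h.smooth'.fderiv_of_isOpen h.openV (by simp)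
  have h2 : ContDiffOn ℝ ∞ (fun y => (fderiv ℝ g y).det) V := contDiff_det.comp_contDiffOn h1
  exact (h2.abs hne).sqrt fun y hy => abs_ne_zero.mpr (hne y hy)

end Crest.Agent.MM3
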