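/-
Row 130 / S0175 project, task G3 (generic: local diffeomorphism from the inverse function theorem).
One owner; keep statements.
-/
import Crest.Agent.MM3_Defs

set_option autoImplicit false
open MeasureTheory Set
open scoped ENNReal ContDiff

namespace Crest.Agent.MM3

variable {F : Type*} [NormedAddCommGroup F] [NormedSpace ℝ F]

/-- G3 main.  `f' ` injective endomorphism of a finite-dimensional space ⟹ `ContinuousLinearEquiv`
(`LinearEquiv.ofInjectiveEndo`, `.toContinuousLinearEquiv`).  `ContDiffAt.toOpenPartialHomeomorph` gives an open partial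
homeomorphism `φ`; restrict its source to `O ∩ {x | fderiv ℝ f x is invertible}` (open: `ContinuousLinearEquiv.isOpen` (range of
the coercion is open) + continuity of `fderiv ℝ f` on `O`), `U` = new source, `V` = new target, `g = φ.symm`; smoothness of `g`
at every point of `V` by `OpenPartialHomeomorph.contDiffAt_symm`.  (NB `ContDiffAt ℝ ∞` at one point does not give a
neighbourhood, this is why we ask `ContDiffOn` on an open set `O`.) -/
theorem exists_locDiffeo [FiniteDimensional ℝ F] (f : F → F) (O : Set F) (hO : IsOpen O) (x0 : F) (hx0 : x0 ∈ O)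
    (hf : ContDiffOn ℝ ∞ f O) (f' : F →L[ℝ] F) (hf' : HasFDerivAt f f' x0)
    (hinj : Function.Injective f') :
    ∃ (g : F → F) (U V : Set F), x0 ∈ U ∧ U ⊆ O ∧ LocDiffeo f g U V := by
  classical
  have : CompleteSpace F := FiniteDimensional.complete ℝ F
  -- the derivative as a continuous linear equivalence
  let e : F ≃L[ℝ] F := (LinearEquiv.ofInjectiveEndo (f' : F →ₗ[ℝ] F) hinj).toContinuousLinearEquiv
  have he : (e : F →L[ℝ] F) = f' := by
    ext x
    rfl
  have hfx0 : ContDiffAt ℝ ∞ f x0 := hf.contDiffAt (hO.mem_nhds hx0)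
  have hf'e : HasFDerivAt f (e : F →L[ℝ] F) x0 := by rw [he]; exact hf'
  have hn : (∞ : WithTop ℕ∞) ≠ 0 := by simp
  let φ : OpenPartialHomeomorph F F := hfx0.toOpenPartialHomeomorph f hf'e hn
  have hφ : (φ : F → F) = f := rfl
  have hx0φ : x0 ∈ φ.source := hfx0.mem_toOpenPartialHomeomorph_source hf'e hn
  -- the set where the derivative is invertible
  let I : Set F := O ∩ (fderiv ℝ f) ⁻¹' (range ((↑) : (F ≃L[ℝ] F) → F →L[ℝ] F))
  have hcont : ContinuousOn (fderiv ℝ f) O := hf.continuousOn_fderiv_of_isOpen hO (by simp)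
  have hI : IsOpen I := hcont.isOpen_inter_preimage hO ContinuousLinearEquiv.isOpen
  have hx0I : x0 ∈ I := ⟨hx0, ⟨e, by rw [hf'e.fderiv]⟩⟩
  let ψ : OpenPartialHomeomorph F F := φ.restrOpen I hI
  have hψ : (ψ : F → F) = f := rfl
  have hψs : ψ.source = φ.source ∩ I := rfl
  refine ⟨ψ.symm, ψ.source, ψ.target, ⟨hx0φ, hx0I⟩, fun x hx => hx.2.1, ?_⟩
  refine ⟨ψ.open_source, ψ.open_target, ψ.mapsTo, ψ.mapsTo_symm, fun x hx => ψ.left_inv hx,
    fun y hy => ψ.right_inv hy, hf.mono (fun x hx => hx.2.1), ?_⟩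
  intro y hy
  have hsy : ψ.symm y ∈ ψ.source := ψ.mapsTo_symm hy
  obtain ⟨e', he'⟩ := hsy.2.2
  have hsO : ψ.symm y ∈ O := hsy.2.1
  have hcd : ContDiffAt ℝ ∞ f (ψ.symm y) := hf.contDiffAt (hO.mem_nhds hsO)
  have hd : HasFDerivAt f (e' : F →L[ℝ] F) (ψ.symm y) := by
    rw [he']
    exact (hcd.differentiableAt (by simp)).hasFDerivAt
  exact (ψ.contDiffAt_symm hy hd hcd).contDiffWithinAt

/-- changing the maps off the relevant sets -/
theorem LocDiffeo.congr {f g f₁ g₁ : F → F} {U V : Set F} (h : LocDiffeo f g U V)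
    (hf : ∀ x ∈ U, f₁ x = f x) (hg : ∀ y ∈ V, g₁ y = g y) : LocDiffeo f₁ g₁ U V := by
  refine ⟨h.openU, h.openV, fun x hx => by rw [hf x hx]; exact h.mapsTo hx,
    fun y hy => by rw [hg y hy]; exact h.mapsTo' hy, fun x hx => ?_, fun y hy => ?_,
    h.smooth.congr hf, h.smooth'.congr hg⟩
  · rw [hf x hx, hg _ (h.mapsTo hx)]; exact h.left x hx
  · rw [hg y hy, hf _ (h.mapsTo' hy)]; exact h.right y hy

/-- a globally measurable representative: replace `f` by `0` off `U` and `g` by `0` off `V`. -/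
theorem LocDiffeo.exists_measurable [MeasurableSpace F] [BorelSpace F] {f g : F → F} {U V : Set F}
    (h : LocDiffeo f g U V) :
    ∃ f₁ g₁ : F → F, Measurable f₁ ∧ Measurable g₁ ∧ (∀ x ∈ U, f₁ x = f x) ∧ (∀ y ∈ V, g₁ y = g y) ∧
      LocDiffeo f₁ g₁ U V := by
  classical
  have hf1 : ∀ x ∈ U, U.piecewise f 0 x = f x := fun x hx => Set.piecewise_eq_of_mem _ _ _ hx
  have hg1 : ∀ y ∈ V, V.piecewise g 0 y = g y := fun y hy => Set.piecewise_eq_of_mem _ _ _ hy
  refine ⟨U.piecewise f 0, V.piecewise g 0, ?_, ?_, hf1, hg1, h.congr hf1 hg1⟩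
  · exact ContinuousOn.measurable_piecewise h.smooth.continuousOn continuous_zero.continuousOn
      h.openU.measurableSet
  · exact ContinuousOn.measurable_piecewise h.smooth'.continuousOn continuous_zero.continuousOn
      h.openV.measurableSet

theorem LocDiffeo.continuousOn {f g : F → F} {U V : Set F} (h : LocDiffeo f g U V) : ContinuousOn f U :=
  h.smooth.continuousOn

theorem LocDiffeo.continuousOn' {f g : F → F} {U V : Set F} (h : LocDiffeo f g U V) : ContinuousOn g V :=
  h.smooth'.continuousOn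

end Crest.Agent.MM3
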