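/-
Row 130 / S0175 project, task G5b (abstract gluing: a zero set which is a graph over each of the three coordinates).
One owner; keep statements.
-/
import Crest.Agent.MM3_LocDiffeo

set_option autoImplicit false
open MeasureTheory Set
open scoped ENNReal ContDiff

namespace Crest.Agent.MM3

/-- one half of the gluing lemma, for two abstract smooth "coordinates" `π₁ π₂`. -/
private theorem glue_half {E : Type*} [NormedAddCommGroup E] [NormedSpace ℝ E] (R1 R2 : E × E × E → E)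
    (π₁ π₂ : E × E × E → E) (hπ₂ : ContDiff ℝ ∞ π₂)
    (Ψ₁ Ψ₂ : E × E × E → E × E × E) (W₁ W₁' W₂ W₂' W₃ : Set (E × E × E)) (hW₃ : IsOpen W₃)
    (h₁ : LocDiffeo (fun p : E × E × E => (R1 p, R2 p, π₁ p)) Ψ₁ W₁ W₁')
    (h₂ : LocDiffeo (fun p : E × E × E => (R1 p, R2 p, π₂ p)) Ψ₂ W₂ W₂') :
    IsOpen {b : E | ((0 : E), (0 : E), b) ∈ W₁' ∧ Ψ₁ (0, 0, b) ∈ W₂ ∧ Ψ₁ (0, 0, b) ∈ W₃} ∧
    MapsTo (fun b => π₂ (Ψ₁ (0, 0, b)))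
      {b : E | ((0 : E), (0 : E), b) ∈ W₁' ∧ Ψ₁ (0, 0, b) ∈ W₂ ∧ Ψ₁ (0, 0, b) ∈ W₃}
      {a : E | ((0 : E), (0 : E), a) ∈ W₂' ∧ Ψ₂ (0, 0, a) ∈ W₁ ∧ Ψ₂ (0, 0, a) ∈ W₃} ∧
    (∀ b ∈ {b : E | ((0 : E), (0 : E), b) ∈ W₁' ∧ Ψ₁ (0, 0, b) ∈ W₂ ∧ Ψ₁ (0, 0, b) ∈ W₃},
      π₁ (Ψ₂ (0, 0, π₂ (Ψ₁ (0, 0, b)))) = b) ∧
    ContDiffOn ℝ ∞ (fun b => π₂ (Ψ₁ (0, 0, b)))
      {b : E | ((0 : E), (0 : E), b) ∈ W₁' ∧ Ψ₁ (0, 0, b) ∈ W₂ ∧ Ψ₁ (0, 0, b) ∈ W₃} := by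
  have hι : ContDiff ℝ ∞ (fun b : E => ((0 : E), (0 : E), b)) :=
    contDiff_const.prodMk (contDiff_const.prodMk contDiff_id)
  have key : ∀ b : E, ((0 : E), (0 : E), b) ∈ W₁' → Ψ₁ (0, 0, b) ∈ W₂ →
      π₁ (Ψ₁ (0, 0, b)) = b ∧ ((0 : E), (0 : E), π₂ (Ψ₁ (0, 0, b))) ∈ W₂' ∧
      Ψ₂ (0, 0, π₂ (Ψ₁ (0, 0, b))) = Ψ₁ (0, 0, b) := by
    intro b hb hb2
    have hr := h₁.right _ hb
    simp only [Prod.mk.injEq] at hr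
    obtain ⟨e1, e2, e3⟩ := hr
    have hm := h₂.mapsTo hb2
    have hl := h₂.left _ hb2
    simp only [e1, e2] at hm hl
    exact ⟨e3, hm, hl⟩
  refine ⟨?_, ?_, ?_, ?_⟩
  · have ho : IsOpen (W₁' ∩ Ψ₁ ⁻¹' (W₂ ∩ W₃)) :=
      h₁.continuousOn'.isOpen_inter_preimage h₁.openV (h₂.openU.inter hW₃)
    exact ho.preimage hι.continuous
  · rintro b ⟨hb, hb2, hb3⟩
    obtain ⟨_, k2, k3⟩ := key b hb hb2
    refine ⟨k2, ?_, ?_⟩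
    · show Ψ₂ (0, 0, π₂ (Ψ₁ (0, 0, b))) ∈ W₁
      rw [k3]; exact h₁.mapsTo' hb
    · show Ψ₂ (0, 0, π₂ (Ψ₁ (0, 0, b))) ∈ W₃
      rw [k3]; exact hb3
  · rintro b ⟨hb, hb2, _⟩
    obtain ⟨k1, _, k3⟩ := key b hb hb2
    rw [k3]; exact k1
  · have hs : ContDiffOn ℝ ∞ (fun b : E => Ψ₁ (0, 0, b))
        {b : E | ((0 : E), (0 : E), b) ∈ W₁' ∧ Ψ₁ (0, 0, b) ∈ W₂ ∧ Ψ₁ (0, 0, b) ∈ W₃} :=
      h₁.smooth'.comp hι.contDiffOn (fun b hb => hb.1)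
    exact hπ₂.comp_contDiffOn hs

/-- G5b.  Put `α b = (ΨB (0,0,b)).1`, `γ b = (ΨB (0,0,b)).2.2`, `βA a = (ΨA (0,0,a)).2.1`, `βC c = (ΨC (0,0,c)).2.1`,
`U = {b | (0,0,b) ∈ WB' ∧ ΨB (0,0,b) ∈ WA ∩ WC}`, `VA = {a | (0,0,a) ∈ WA' ∧ ΨA (0,0,a) ∈ WB ∩ WC}`,
`VC = {c | (0,0,c) ∈ WC' ∧ ΨC (0,0,c) ∈ WA ∩ WB}`.
Open: `ContinuousOn.isOpen_inter_preimage` for `ΨB` on the open `WB'`, composed with the continuous `b ↦ (0,0,b)`.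
For `b ∈ U`: `z = ΨB (0,0,b) ∈ WA ∩ WB ∩ WC`, `ΦB z = (0,0,b)`, i.e. `R1 z = R2 z = 0`, `z.2.1 = b`; `ΦA z = (0,0,z.1) ∈ WA'`,
`ΨA (ΦA z) = z`; so `α b = z.1 ∈ VA`, `βA (α b) = b`.  Symmetric for the other inclusions. -/
theorem glue_family {E : Type*} [NormedAddCommGroup E] [NormedSpace ℝ E] (R1 R2 : E × E × E → E)
    (z0 : E × E × E) (h1 : R1 z0 = 0) (h2 : R2 z0 = 0)
    (ΨA ΨB ΨC : E × E × E → E × E × E) (WA WA' WB WB' WC WC' : Set (E × E × E))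
    (zA : z0 ∈ WA) (zB : z0 ∈ WB) (zC : z0 ∈ WC)
    (hA : LocDiffeo (fun p : E × E × E => (R1 p, R2 p, p.1)) ΨA WA WA')
    (hB : LocDiffeo (fun p : E × E × E => (R1 p, R2 p, p.2.1)) ΨB WB WB')
    (hC : LocDiffeo (fun p : E × E × E => (R1 p, R2 p, p.2.2)) ΨC WC WC') :
    ∃ (U VA VC : Set E) (α γ βA βC : E → E), z0.2.1 ∈ U ∧ LocDiffeo α βA U VA ∧ LocDiffeo γ βC U VC ∧
      α z0.2.1 = z0.1 ∧ γ z0.2.1 = z0.2.2 ∧ ∀ b ∈ U, R1 (α b, b, γ b) = 0 ∧ R2 (α b, b, γ b) = 0 := by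
  have p1 : ContDiff ℝ ∞ (fun p : E × E × E => p.1) := contDiff_fst
  have p2 : ContDiff ℝ ∞ (fun p : E × E × E => p.2.1) := contDiff_fst.comp contDiff_snd
  have p3 : ContDiff ℝ ∞ (fun p : E × E × E => p.2.2) := contDiff_snd.comp contDiff_snd
  obtain ⟨a1, a2, a3, a4⟩ := glue_half R1 R2 (fun p => p.2.1) (fun p => p.1) p1 ΨB ΨA WB WB' WA WA' WC
    hC.openU hB hA
  obtain ⟨b1, b2, b3, b4⟩ := glue_half R1 R2 (fun p => p.1) (fun p => p.2.1) p2 ΨA ΨB WA WA' WB WB' WC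
    hC.openU hA hB
  obtain ⟨c1, c2, c3, c4⟩ := glue_half R1 R2 (fun p => p.2.1) (fun p => p.2.2) p3 ΨB ΨC WB WB' WC WC' WA
    hA.openU hB hC
  obtain ⟨d1, d2, d3, d4⟩ := glue_half R1 R2 (fun p => p.2.2) (fun p => p.2.1) p2 ΨC ΨB WC WC' WB WB' WA
    hA.openU hC hB
  have hU : {b : E | ((0 : E), (0 : E), b) ∈ WB' ∧ ΨB (0, 0, b) ∈ WC ∧ ΨB (0, 0, b) ∈ WA} =
      {b : E | ((0 : E), (0 : E), b) ∈ WB' ∧ ΨB (0, 0, b) ∈ WA ∧ ΨB (0, 0, b) ∈ WC} := by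
    ext b; simp only [mem_setOf_eq]; tauto
  rw [hU] at c1 c2 c3 c4 d2
  have hz : ΨB (0, 0, z0.2.1) = z0 := by
    have := hB.left _ zB
    simpa only [h1, h2] using this
  have hz' : ((0 : E), (0 : E), z0.2.1) ∈ WB' := by
    have := hB.mapsTo zB
    simpa only [h1, h2] using this
  refine ⟨_, _, _, fun b => (ΨB (0, 0, b)).1, fun b => (ΨB (0, 0, b)).2.2, fun a => (ΨA (0, 0, a)).2.1,
    fun c => (ΨC (0, 0, c)).2.1, ?_, ⟨a1, b1, a2, b2, a3, b3, a4, b4⟩, ⟨c1, d1, c2, d2, c3, d3, c4, d4⟩,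
    ?_, ?_, ?_⟩
  · refine ⟨hz', ?_, ?_⟩
    · rw [hz]; exact zA
    · rw [hz]; exact zC
  · simp only [hz]
  · simp only [hz]
  · rintro b ⟨hb, -, -⟩
    have hr := hB.right _ hb
    simp only [Prod.mk.injEq] at hr
    obtain ⟨e1, e2, e3⟩ := hr
    have hzb : ((ΨB (0, 0, b)).1, b, (ΨB (0, 0, b)).2.2) = ΨB (0, 0, b) := by
      ext1
      · rfl
      · ext1
        · exact e3.symm
        · rfl
    simp only [hzb]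
    exact ⟨e1, e2⟩

end Crest.Agent.MM3
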