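/-
Row 130 / S0175 project, task G2 (calculus of g(z) = -s ‖z‖^(-s-2) z).  One owner; keep statements.
-/
import Crest.Agent.MM3_Defs

set_option autoImplicit false
set_option linter.unusedSectionVars false
open MeasureTheory Set
open scoped ENNReal ContDiff RealInnerProductSpace

namespace Crest.Agent.MM3

variable {E : Type*} [NormedAddCommGroup E] [InnerProductSpace ℝ E]

/-- `contDiffAt_norm`, `ContDiffAt.rpow_const_of_ne`, `ContDiffAt.smul`. -/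
theorem contDiffAt_gK (s : ℝ) {z : E} (hz : z ≠ 0) : ContDiffAt ℝ ∞ (gK s) z := by
  unfold gK
  have h1 : ContDiffAt ℝ ∞ (fun x : E => ‖x‖) z := contDiffAt_norm ℝ hz
  have h2 : ContDiffAt ℝ ∞ (fun x : E => ‖x‖ ^ (-s - 2)) z :=
    h1.rpow_const_of_ne (norm_ne_zero_iff.mpr hz)
  exact (contDiffAt_const.mul h2).smul contDiffAt_id

theorem contDiffAt_hK (s : ℝ) {z : E} (hz : z ≠ 0) : ContDiffAt ℝ ∞ (hK s) z := by
  unfold hK
  have h1 : ContDiffAt ℝ ∞ (fun x : E => ‖x‖) z := contDiffAt_norm ℝ hz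
  exact h1.rpow_const_of_ne (norm_ne_zero_iff.mpr hz)

theorem HK_apply (s : ℝ) (z w : E) :
    HK s z w = (-s * ‖z‖ ^ (-s - 2)) • w + (s * (s + 2) * ‖z‖ ^ (-s - 4) * ⟪z, w⟫) • z := by
  simp [HK, smul_smul]

/-- derivative of `‖z‖^r` -/
theorem hasFDerivAt_norm_rpow (r : ℝ) {z : E} (hz : z ≠ 0) :
    HasFDerivAt (fun x : E => ‖x‖ ^ r) ((r * ‖z‖ ^ (r - 2)) • innerSL ℝ z) z := by
  have hn : 0 < ‖z‖ := norm_pos_iff.mpr hz
  have h1 : HasFDerivAt (fun x : E => ‖x‖ ^ 2) (2 • (innerSL ℝ z)) z :=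
    (hasStrictFDerivAt_norm_sq z).hasFDerivAt
  have h2 := h1.rpow_const (p := r / 2) (Or.inl (by positivity))
  have e1 : (fun x : E => (‖x‖ ^ 2) ^ (r / 2)) = fun x : E => ‖x‖ ^ r := by
    funext x
    rw [← Real.rpow_natCast, ← Real.rpow_mul (norm_nonneg _)]
    congr 1
    push_cast
    ring
  have e2 : (‖z‖ ^ 2) ^ (r / 2 - 1) = ‖z‖ ^ (r - 2) := by
    rw [← Real.rpow_natCast, ← Real.rpow_mul (norm_nonneg _)]
    congr 1
    push_cast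
    ring
  rw [e1, e2] at h2
  convert h2 using 1
  ext w
  simp
  ring

/-- product rule; `D(‖z‖^p) w = p ‖z‖^(p-2) ⟪z,w⟫`. -/
theorem hasFDerivAt_gK (s : ℝ) {z : E} (hz : z ≠ 0) : HasFDerivAt (gK s) (HK s z) z := by
  have h1 := hasFDerivAt_norm_rpow (-s - 2) hz
  have h2 : HasFDerivAt (fun x : E => -s * ‖x‖ ^ (-s - 2))
      ((-s) • (((-s - 2) * ‖z‖ ^ (-s - 2 - 2)) • innerSL ℝ z)) z := h1.const_mul (-s)
  have h3 := h2.smul (hasFDerivAt_id z)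
  have e : (-s - 2 - 2 : ℝ) = -s - 4 := by ring
  rw [e] at h3
  have key : HK s z = (-s * ‖z‖ ^ (-s - 2)) • ContinuousLinearMap.id ℝ E +
      (-s • ((-s - 2) * ‖z‖ ^ (-s - 4)) • (innerSL ℝ) z).smulRight (id z) := by
    ext w
    rw [HK_apply]
    simp only [add_apply, smul_apply,
      ContinuousLinearMap.id_apply, ContinuousLinearMap.smulRight_apply, innerSL_apply_apply, id,
      smul_eq_mul]
    congr 2
    ring
  rw [key]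
  exact h3

theorem HK_neg (s : ℝ) (z : E) : HK s (-z) = HK s z := by
  ext w
  rw [HK_apply, HK_apply]
  simp

theorem norm_rpow_split (s : ℝ) {z : E} (hz : z ≠ 0) :
    ‖z‖ ^ (-s - 2) = ‖z‖ ^ (-s - 4) * ‖z‖ ^ 2 := by
  have hn : 0 < ‖z‖ := norm_pos_iff.mpr hz
  have : (-s - 2 : ℝ) = (-s - 4) + (2 : ℕ) := by push_cast; ring
  rw [this, Real.rpow_add hn, Real.rpow_natCast]

theorem norm_HK_apply_le (s : ℝ) (hs : 0 < s) {z : E} (hz : z ≠ 0) (w : E) :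
    ‖HK s z w‖ ≤ s * (s + 3) * ‖z‖ ^ (-s - 2) * ‖w‖ := by
  have hn : 0 < ‖z‖ := norm_pos_iff.mpr hz
  have hb : 0 < ‖z‖ ^ (-s - 4) := Real.rpow_pos_of_pos hn _
  rw [HK_apply, norm_rpow_split s hz]
  set b := ‖z‖ ^ (-s - 4) with hbdef
  have h1 : ‖(-s * (b * ‖z‖ ^ 2)) • w‖ = s * (b * ‖z‖ ^ 2) * ‖w‖ := by
    rw [norm_smul, Real.norm_eq_abs, abs_mul, abs_neg, abs_of_pos hs,
      abs_of_nonneg (by positivity)]
  have h2 : ‖(s * (s + 2) * b * ⟪z, w⟫) • z‖ ≤ s * (s + 2) * b * (‖z‖ * ‖w‖) * ‖z‖ := by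
    rw [norm_smul, Real.norm_eq_abs, abs_mul, abs_of_nonneg (by positivity : 0 ≤ s * (s + 2) * b)]
    have := abs_real_inner_le_norm z w
    gcongr
  calc ‖(-s * (b * ‖z‖ ^ 2)) • w + (s * (s + 2) * b * ⟪z, w⟫) • z‖
      ≤ ‖(-s * (b * ‖z‖ ^ 2)) • w‖ + ‖(s * (s + 2) * b * ⟪z, w⟫) • z‖ := norm_add_le _ _
    _ ≤ s * (b * ‖z‖ ^ 2) * ‖w‖ + s * (s + 2) * b * (‖z‖ * ‖w‖) * ‖z‖ := by
        rw [h1]; gcongr
    _ = s * (s + 3) * (b * ‖z‖ ^ 2) * ‖w‖ := by ring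

/-- `‖-w + (s+2)⟪ẑ,w⟫ẑ‖² = ‖w‖² + s(s+2)⟪ẑ,w⟫² ≥ ‖w‖²`. -/
theorem le_norm_HK_apply (s : ℝ) (hs : 0 < s) {z : E} (hz : z ≠ 0) (w : E) :
    s * ‖z‖ ^ (-s - 2) * ‖w‖ ≤ ‖HK s z w‖ := by
  have hn : 0 < ‖z‖ := norm_pos_iff.mpr hz
  have hb : 0 < ‖z‖ ^ (-s - 4) := Real.rpow_pos_of_pos hn _
  rw [HK_apply, norm_rpow_split s hz]
  set b := ‖z‖ ^ (-s - 4) with hbdef
  have hsq : (s * (b * ‖z‖ ^ 2) * ‖w‖) ^ 2
      ≤ ‖(-s * (b * ‖z‖ ^ 2)) • w + (s * (s + 2) * b * ⟪z, w⟫) • z‖ ^ 2 := by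
    rw [norm_add_sq_real, norm_smul, norm_smul, real_inner_smul_left, real_inner_smul_right,
      Real.norm_eq_abs, Real.norm_eq_abs, real_inner_comm z w]
    simp only [mul_pow, sq_abs]
    have : 0 ≤ s ^ 3 * (s + 2) * b ^ 2 * ‖z‖ ^ 2 * ⟪z, w⟫ ^ 2 := by positivity
    nlinarith
  exact (pow_le_pow_iff_left₀ (by positivity) (norm_nonneg _) two_ne_zero).mp hsq

end Crest.Agent.MM3
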