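/-
Row 130 / S0175 project, task G4 (linear algebra: the linearised system is non-degenerate).  One owner; keep statements.
-/
import Crest.Agent.MM3_Defs

set_option autoImplicit false

namespace Crest.Agent.MM3

/-- auxiliary: from `u + v + K • x = 0` we get `K ‖x‖ ≤ ‖u‖ + ‖v‖`. -/
private theorem lin_aux {E : Type*} [NormedAddCommGroup E] [NormedSpace ℝ E] {K : ℝ} (hK : 0 ≤ K)
    {u v x : E} (h : u + v + K • x = 0) : K * ‖x‖ ≤ ‖u‖ + ‖v‖ := by
  have h2 : K • x = -(u + v) := by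
    rw [eq_neg_iff_add_eq_zero, add_comm]; exact h
  have h1 : ‖K • x‖ = K * ‖x‖ := by rw [norm_smul, Real.norm_of_nonneg hK]
  rw [← h1, h2, norm_neg]
  exact norm_add_le _ _

/-- G4.  Norm estimates only.
* `db = 0`: e1 gives `H₁ (da+dc) = 0`, so `da = -dc` (l1); e2 gives `K‖dc‖ ≤ 3C‖dc‖`.
* `da = 0`: e1: `K‖db‖ ≤ 2C‖db‖ + C‖dc‖`; e2: `K‖dc‖ ≤ 2C‖dc‖ + C‖db‖`; add.
* `dc = 0`: e2: `m‖da‖ ≤ ‖H₂ da‖ = ‖H₁ db‖ ≤ C‖db‖`; e1: `K‖db‖ ≤ 2C‖db‖ + C‖da‖ ≤ (2C + C²/m)‖db‖`. -/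
theorem lin_inj {E : Type*} [NormedAddCommGroup E] [NormedSpace ℝ E] (H₁ H₂ : E →L[ℝ] E) (C m K : ℝ)
    (hm : 0 < m) (hC : 0 ≤ C)
    (b1 : ∀ w, ‖H₁ w‖ ≤ C * ‖w‖) (b2 : ∀ w, ‖H₂ w‖ ≤ C * ‖w‖)
    (l1 : ∀ w, m * ‖w‖ ≤ ‖H₁ w‖) (l2 : ∀ w, m * ‖w‖ ≤ ‖H₂ w‖)
    (hK : 3 * C + C ^ 2 / m + 1 ≤ K) (da db dc : E)
    (e1 : H₁ (db - da) + H₁ (db - dc) + K • db = 0)
    (e2 : H₂ (dc - da) + H₁ (dc - db) + K • dc = 0)
    (h0 : da = 0 ∨ db = 0 ∨ dc = 0) : da = 0 ∧ db = 0 ∧ dc = 0 := by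
  have hCm : 0 ≤ C ^ 2 / m := by positivity
  have hKpos : 0 < K := by linarith
  have n1 := lin_aux hKpos.le e1
  have n2 := lin_aux hKpos.le e2
  rcases h0 with h | h | h
  · -- da = 0
    subst h
    simp only [sub_zero] at n1 n2
    have a1 : ‖H₁ db‖ ≤ C * ‖db‖ := b1 _
    have a2 : ‖H₁ (db - dc)‖ ≤ C * (‖db‖ + ‖dc‖) :=
      (b1 _).trans (mul_le_mul_of_nonneg_left (norm_sub_le _ _) hC)
    have a3 : ‖H₂ dc‖ ≤ C * ‖dc‖ := b2 _
    have a4 : ‖H₁ (dc - db)‖ ≤ C * (‖dc‖ + ‖db‖) :=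
      (b1 _).trans (mul_le_mul_of_nonneg_left (norm_sub_le _ _) hC)
    have hb := norm_nonneg db
    have hc := norm_nonneg dc
    have key : (K - 3 * C) * (‖db‖ + ‖dc‖) ≤ 0 := by nlinarith
    have hpos : 0 < K - 3 * C := by linarith
    have hs : ‖db‖ + ‖dc‖ ≤ 0 := by
      by_contra hcon
      push Not at hcon
      have := mul_pos hpos hcon
      linarith
    have hb0 : ‖db‖ = 0 := by linarith
    have hc0 : ‖dc‖ = 0 := by linarith
    exact ⟨rfl, norm_eq_zero.mp hb0, norm_eq_zero.mp hc0⟩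
  · -- db = 0
    subst h
    have e1' : H₁ (da + dc) = 0 := by
      have : H₁ (0 - da) + H₁ (0 - dc) + K • (0 : E) = -(H₁ (da + dc)) := by
        simp only [zero_sub, map_neg, smul_zero, add_zero, map_add]
        abel
      rw [this] at e1
      exact neg_eq_zero.mp e1
    have hsum : da + dc = 0 := by
      have h1 := l1 (da + dc)
      rw [e1', norm_zero] at h1
      have h2 : ‖da + dc‖ ≤ 0 := by
        by_contra hcon
        push Not at hcon
        have := mul_pos hm hcon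
        linarith
      exact norm_le_zero_iff.mp h2
    have hda : da = -dc := eq_neg_of_add_eq_zero_left hsum
    subst hda
    simp only [sub_zero, sub_neg_eq_add] at n2
    have a3 : ‖H₂ (dc + dc)‖ ≤ C * (‖dc‖ + ‖dc‖) :=
      (b2 _).trans (mul_le_mul_of_nonneg_left (norm_add_le _ _) hC)
    have a4 : ‖H₁ dc‖ ≤ C * ‖dc‖ := b1 _
    have hc := norm_nonneg dc
    have key : (K - 3 * C) * ‖dc‖ ≤ 0 := by nlinarith
    have hpos : 0 < K - 3 * C := by linarith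
    have hc0 : ‖dc‖ ≤ 0 := by
      by_contra hcon
      push Not at hcon
      have := mul_pos hpos hcon
      linarith
    have hdc : dc = 0 := norm_le_zero_iff.mp hc0
    subst hdc
    exact ⟨neg_zero, rfl, rfl⟩
  · -- dc = 0
    subst h
    have e2' : H₂ da = -(H₁ db) := by
      have : H₂ (0 - da) + H₁ (0 - db) + K • (0 : E) = -(H₂ da + H₁ db) := by
        simp only [zero_sub, map_neg, smul_zero, add_zero]
        abel
      rw [this] at e2
      exact eq_neg_of_add_eq_zero_left (neg_eq_zero.mp e2)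
    have hda : m * ‖da‖ ≤ C * ‖db‖ := by
      have h1 := l2 da
      rw [e2', norm_neg] at h1
      exact h1.trans (b1 _)
    have hda' : ‖da‖ ≤ C / m * ‖db‖ := by
      rw [div_mul_eq_mul_div, le_div_iff₀ hm]
      linarith
    simp only [sub_zero] at n1
    have a1 : ‖H₁ (db - da)‖ ≤ C * (‖db‖ + ‖da‖) :=
      (b1 _).trans (mul_le_mul_of_nonneg_left (norm_sub_le _ _) hC)
    have a2 : ‖H₁ db‖ ≤ C * ‖db‖ := b1 _
    have hb := norm_nonneg db
    have a5 : C * ‖da‖ ≤ C ^ 2 / m * ‖db‖ := by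
      calc C * ‖da‖ ≤ C * (C / m * ‖db‖) := mul_le_mul_of_nonneg_left hda' hC
        _ = C ^ 2 / m * ‖db‖ := by ring
    have key : (K - 2 * C - C ^ 2 / m) * ‖db‖ ≤ 0 := by nlinarith
    have hpos : 0 < K - 2 * C - C ^ 2 / m := by linarith
    have hb0 : ‖db‖ ≤ 0 := by
      by_contra hcon
      push Not at hcon
      have := mul_pos hpos hcon
      linarith
    have hdb : db = 0 := norm_le_zero_iff.mp hb0
    subst hdb
    have ha0 : ‖da‖ ≤ 0 := by
      rw [norm_zero, mul_zero] at hda'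
      exact hda'
    exact ⟨norm_le_zero_iff.mp ha0, rfl, rfl⟩

end Crest.Agent.MM3
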