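/-
Row 130 / S0175 project, task G5a (the three maps Φ_A, Φ_B, Φ_C are local diffeomorphisms at the base configuration).
One owner; keep statements.
-/
import Crest.Agent.MM3_GCalc
import Crest.Agent.MM3_LocDiffeo
import Crest.Agent.MM3_Lin

set_option autoImplicit false
open MeasureTheory Set
open scoped ENNReal ContDiff RealInnerProductSpace

namespace Crest.Agent.MM3

variable {E : Type*} [NormedAddCommGroup E] [InnerProductSpace ℝ E]

/-- residual of (EqB); `p = (a,b,c)` -/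
noncomputable def R1 (s K : ℝ) (p : E × E × E) : E :=
  gK s (p.2.1 - p.1) + gK s (p.2.1 - p.2.2) + K • p.2.1
/-- residual of (EqC) -/
noncomputable def R2 (s K : ℝ) (e : E) (p : E × E × E) : E :=
  gK s (p.2.2 - p.1) + gK s (p.2.2 - p.2.1) - ellK s e + K • (p.2.2 - e)

private theorem Phi_gK_neg (s : ℝ) (z : E) : gK s (-z) = - gK s z := by
  simp [gK]

theorem R1_base (s K : ℝ) (e : E) : R1 s K (-e, 0, e) = 0 := by
  simp [R1, Phi_gK_neg]

theorem R2_base (s K : ℝ) (e : E) : R2 s K e (-e, 0, e) = 0 := by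
  have h : e - -e = (2 : ℝ) • e := by rw [two_smul]; abel
  simp [R2, ellK, h]

theorem R1_eq_zero_iff (s K : ℝ) (a b c : E) : R1 s K (a, b, c) = 0 ↔ EqB s K a b c := by
  simp only [R1, EqB]
  exact add_eq_zero_iff_eq_neg

theorem R2_eq_zero_iff (s K : ℝ) (e a b c : E) : R2 s K e (a, b, c) = 0 ↔ EqC s K e a b c := by
  simp only [R2, EqC]
  constructor
  · intro h
    have := eq_neg_of_add_eq_zero_left h
    rw [sub_eq_iff_eq_add] at this
    rw [this]; abel
  · intro h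
    rw [h]; abel

/-- the open set of configurations with distinct points -/
private def PhiO (E : Type*) : Set (E × E × E) :=
  {p | p.2.1 ≠ p.1 ∧ p.2.1 ≠ p.2.2 ∧ p.2.2 ≠ p.1}

omit [InnerProductSpace ℝ E] in
private theorem PhiO_isOpen : IsOpen (PhiO E) := by
  have h1 : IsOpen {p : E × E × E | p.2.1 ≠ p.1} :=
    isOpen_ne_fun (continuous_fst.comp continuous_snd) continuous_fst
  have h2 : IsOpen {p : E × E × E | p.2.1 ≠ p.2.2} :=
    isOpen_ne_fun (continuous_fst.comp continuous_snd) (continuous_snd.comp continuous_snd)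
  have h3 : IsOpen {p : E × E × E | p.2.2 ≠ p.1} :=
    isOpen_ne_fun (continuous_snd.comp continuous_snd) continuous_fst
  exact h1.inter (h2.inter h3)

private theorem Phi_contDiffOn_R1 (s K : ℝ) : ContDiffOn ℝ ∞ (R1 (E := E) s K) (PhiO E) := by
  intro p hp
  apply ContDiffAt.contDiffWithinAt
  obtain ⟨h1, h2, h3⟩ := hp
  unfold R1
  have c1 : ContDiffAt ℝ ∞ (fun p : E × E × E => p.2.1 - p.1) p := by fun_prop
  have c2 : ContDiffAt ℝ ∞ (fun p : E × E × E => p.2.1 - p.2.2) p := by fun_prop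
  have c3 : ContDiffAt ℝ ∞ (fun p : E × E × E => K • p.2.1) p := by fun_prop
  have g1 : ContDiffAt ℝ ∞ (fun p : E × E × E => gK s (p.2.1 - p.1)) p :=
    ContDiffAt.comp (g := gK s) (f := fun p : E × E × E => p.2.1 - p.1) p
      (contDiffAt_gK s (sub_ne_zero.mpr h1)) c1
  have g2 : ContDiffAt ℝ ∞ (fun p : E × E × E => gK s (p.2.1 - p.2.2)) p :=
    ContDiffAt.comp (g := gK s) (f := fun p : E × E × E => p.2.1 - p.2.2) p
      (contDiffAt_gK s (sub_ne_zero.mpr h2)) c2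
  exact (g1.add g2).add c3

private theorem Phi_contDiffOn_R2 (s K : ℝ) (e : E) :
    ContDiffOn ℝ ∞ (R2 (E := E) s K e) (PhiO E) := by
  intro p hp
  apply ContDiffAt.contDiffWithinAt
  obtain ⟨h1, h2, h3⟩ := hp
  unfold R2
  have c1 : ContDiffAt ℝ ∞ (fun p : E × E × E => p.2.2 - p.1) p := by fun_prop
  have c2 : ContDiffAt ℝ ∞ (fun p : E × E × E => p.2.2 - p.2.1) p := by fun_prop
  have c3 : ContDiffAt ℝ ∞ (fun p : E × E × E => K • (p.2.2 - e)) p := by fun_prop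
  have g1 : ContDiffAt ℝ ∞ (fun p : E × E × E => gK s (p.2.2 - p.1)) p :=
    ContDiffAt.comp (g := gK s) (f := fun p : E × E × E => p.2.2 - p.1) p
      (contDiffAt_gK s (sub_ne_zero.mpr h3)) c1
  have g2 : ContDiffAt ℝ ∞ (fun p : E × E × E => gK s (p.2.2 - p.2.1)) p :=
    ContDiffAt.comp (g := gK s) (f := fun p : E × E × E => p.2.2 - p.2.1) p
      (contDiffAt_gK s (sub_ne_zero.mpr (Ne.symm h2))) c2
  exact ((g1.add g2).sub contDiffAt_const).add c3

/-- coordinate projections as continuous linear maps -/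
private noncomputable def PhiPa (E : Type*) [NormedAddCommGroup E] [InnerProductSpace ℝ E] :
    E × E × E →L[ℝ] E := ContinuousLinearMap.fst ℝ E (E × E)
private noncomputable def PhiPb (E : Type*) [NormedAddCommGroup E] [InnerProductSpace ℝ E] :
    E × E × E →L[ℝ] E := (ContinuousLinearMap.fst ℝ E E).comp (ContinuousLinearMap.snd ℝ E (E × E))
private noncomputable def PhiPc (E : Type*) [NormedAddCommGroup E] [InnerProductSpace ℝ E] :
    E × E × E →L[ℝ] E := (ContinuousLinearMap.snd ℝ E E).comp (ContinuousLinearMap.snd ℝ E (E × E))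

private noncomputable def PhiDR1 (s K : ℝ) (e : E) : E × E × E →L[ℝ] E :=
  (HK s e).comp (PhiPb E - PhiPa E) + (HK s e).comp (PhiPb E - PhiPc E) + K • PhiPb E

private noncomputable def PhiDR2 (s K : ℝ) (e : E) : E × E × E →L[ℝ] E :=
  (HK s ((2 : ℝ) • e)).comp (PhiPc E - PhiPa E) + (HK s e).comp (PhiPc E - PhiPb E) + K • PhiPc E

private theorem Phi_hasFDerivAt_R1 (s K : ℝ) (e : E) (he : e ≠ 0) :
    HasFDerivAt (R1 (E := E) s K) (PhiDR1 s K e) (-e, 0, e) := by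
  unfold R1 PhiDR1
  have a1 : HasFDerivAt (fun p : E × E × E => p.2.1 - p.1) (PhiPb E - PhiPa E) (-e, 0, e) :=
    (PhiPb E - PhiPa E).hasFDerivAt
  have a2 : HasFDerivAt (fun p : E × E × E => p.2.1 - p.2.2) (PhiPb E - PhiPc E) (-e, 0, e) :=
    (PhiPb E - PhiPc E).hasFDerivAt
  have a3 : HasFDerivAt (fun p : E × E × E => K • p.2.1) (K • PhiPb E) (-e, 0, e) :=
    (K • PhiPb E).hasFDerivAt
  have k1 : HasFDerivAt (gK s) (HK s e) ((fun p : E × E × E => p.2.1 - p.1) (-e, 0, e)) := by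
    have : (fun p : E × E × E => p.2.1 - p.1) (-e, 0, e) = e := by simp
    rw [this]; exact hasFDerivAt_gK s he
  have k2 : HasFDerivAt (gK s) (HK s e) ((fun p : E × E × E => p.2.1 - p.2.2) (-e, 0, e)) := by
    have : (fun p : E × E × E => p.2.1 - p.2.2) (-e, 0, e) = -e := by simp
    rw [this, ← HK_neg]; exact hasFDerivAt_gK s (neg_ne_zero.mpr he)
  have c1 := HasFDerivAt.comp (g := gK s) (f := fun p : E × E × E => p.2.1 - p.1)
    ((-e, 0, e) : E × E × E) k1 a1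
  have c2 := HasFDerivAt.comp (g := gK s) (f := fun p : E × E × E => p.2.1 - p.2.2)
    ((-e, 0, e) : E × E × E) k2 a2
  exact (c1.add c2).add a3

private theorem Phi_hasFDerivAt_R2 (s K : ℝ) (e : E) (he : e ≠ 0) :
    HasFDerivAt (R2 (E := E) s K e) (PhiDR2 s K e) (-e, 0, e) := by
  unfold R2 PhiDR2
  have a1 : HasFDerivAt (fun p : E × E × E => p.2.2 - p.1) (PhiPc E - PhiPa E) (-e, 0, e) :=
    (PhiPc E - PhiPa E).hasFDerivAt
  have a2 : HasFDerivAt (fun p : E × E × E => p.2.2 - p.2.1) (PhiPc E - PhiPb E) (-e, 0, e) :=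
    (PhiPc E - PhiPb E).hasFDerivAt
  have a3 : HasFDerivAt (fun p : E × E × E => K • (p.2.2 - e)) (K • PhiPc E) (-e, 0, e) :=
    ((PhiPc E).hasFDerivAt.sub_const e).const_smul K
  have k1 : HasFDerivAt (gK s) (HK s ((2 : ℝ) • e))
      ((fun p : E × E × E => p.2.2 - p.1) (-e, 0, e)) := by
    have : (fun p : E × E × E => p.2.2 - p.1) (-e, 0, e) = (2 : ℝ) • e := by
      simp only [two_smul]; abel
    rw [this]; exact hasFDerivAt_gK s (smul_ne_zero two_ne_zero he)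
  have k2 : HasFDerivAt (gK s) (HK s e) ((fun p : E × E × E => p.2.2 - p.2.1) (-e, 0, e)) := by
    have : (fun p : E × E × E => p.2.2 - p.2.1) (-e, 0, e) = e := by simp
    rw [this]; exact hasFDerivAt_gK s he
  have c1 := HasFDerivAt.comp (g := gK s) (f := fun p : E × E × E => p.2.2 - p.1)
    ((-e, 0, e) : E × E × E) k1 a1
  have c2 := HasFDerivAt.comp (g := gK s) (f := fun p : E × E × E => p.2.2 - p.2.1)
    ((-e, 0, e) : E × E × E) k2 a2
  exact ((c1.add c2).sub_const (ellK s e)).add a3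

/-- one selector at a time -/
private theorem Phi_one [FiniteDimensional ℝ E] (s : ℝ) (hs : 0 < s) (K : ℝ)
    (hK : 3 * (s * (s + 3)) + (s * (s + 3)) ^ 2 / (s * (2 : ℝ) ^ (-s - 2)) + 1 ≤ K)
    (e : E) (he : ‖e‖ = 1) (L : E × E × E →L[ℝ] E)
    (hL : ∀ v : E × E × E, L v = 0 → v.1 = 0 ∨ v.2.1 = 0 ∨ v.2.2 = 0) :
    ∃ (Ψ : E × E × E → E × E × E) (W W' : Set (E × E × E)),
      ((-e, 0, e) : E × E × E) ∈ W ∧
      LocDiffeo (fun p : E × E × E => (R1 s K p, R2 s K e p, L p)) Ψ W W' := by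
  have he0 : e ≠ 0 := by
    intro h; rw [h, norm_zero] at he; exact zero_ne_one he
  have h2e0 : (2 : ℝ) • e ≠ 0 := smul_ne_zero two_ne_zero he0
  have h2e : ‖(2 : ℝ) • e‖ = 2 := by rw [norm_smul, he]; simp
  have hx0 : ((-e, 0, e) : E × E × E) ∈ PhiO E := by
    refine ⟨?_, ?_, ?_⟩
    · simpa using he0
    · simpa using he0.symm
    · intro h
      have h' : e = -e := h
      have : (2 : ℝ) • e = 0 := by
        rw [two_smul]; nth_rewrite 1 [h']; simp
      exact h2e0 this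
  have hsm : ContDiffOn ℝ ∞ (fun p : E × E × E => (R1 s K p, R2 s K e p, L p)) (PhiO E) :=
    (Phi_contDiffOn_R1 s K).prodMk ((Phi_contDiffOn_R2 s K e).prodMk L.contDiff.contDiffOn)
  have hder : HasFDerivAt (fun p : E × E × E => (R1 s K p, R2 s K e p, L p))
      ((PhiDR1 s K e).prod ((PhiDR2 s K e).prod L)) (-e, 0, e) :=
    (Phi_hasFDerivAt_R1 s K e he0).prodMk ((Phi_hasFDerivAt_R2 s K e he0).prodMk L.hasFDerivAt)
  have hpow_le : (2 : ℝ) ^ (-s - 2) ≤ 1 :=
    Real.rpow_le_one_of_one_le_of_nonpos (by norm_num) (by linarith)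
  have hpow_pos : (0 : ℝ) < (2 : ℝ) ^ (-s - 2) := Real.rpow_pos_of_pos (by norm_num) _
  have hinj : Function.Injective ((PhiDR1 s K e).prod ((PhiDR2 s K e).prod L)) := by
    rw [injective_iff_map_eq_zero]
    intro v hv
    have hv' : (PhiDR1 s K e v, PhiDR2 s K e v, L v) = (0, 0, 0) := hv
    simp only [Prod.mk.injEq] at hv'
    obtain ⟨e1, e2, e3⟩ := hv'
    have key := lin_inj (HK s e) (HK s ((2 : ℝ) • e)) (s * (s + 3)) (s * (2 : ℝ) ^ (-s - 2)) K
      (by positivity) (by positivity)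
      (fun w => by
        have := norm_HK_apply_le s hs he0 w
        rwa [he, Real.one_rpow, mul_one] at this)
      (fun w => by
        have := norm_HK_apply_le s hs h2e0 w
        rw [h2e] at this
        refine this.trans ?_
        have hh : s * (s + 3) * (2 : ℝ) ^ (-s - 2) ≤ s * (s + 3) * 1 :=
          mul_le_mul_of_nonneg_left hpow_le (by positivity)
        calc s * (s + 3) * (2 : ℝ) ^ (-s - 2) * ‖w‖ ≤ s * (s + 3) * 1 * ‖w‖ :=
              mul_le_mul_of_nonneg_right hh (norm_nonneg _)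
          _ = s * (s + 3) * ‖w‖ := by ring)
      (fun w => by
        have := le_norm_HK_apply s hs he0 w
        rw [he, Real.one_rpow, mul_one] at this
        refine le_trans ?_ this
        have hh : s * (2 : ℝ) ^ (-s - 2) ≤ s * 1 := mul_le_mul_of_nonneg_left hpow_le hs.le
        calc s * (2 : ℝ) ^ (-s - 2) * ‖w‖ ≤ s * 1 * ‖w‖ :=
              mul_le_mul_of_nonneg_right hh (norm_nonneg _)
          _ = s * ‖w‖ := by ring)
      (fun w => by
        have := le_norm_HK_apply s hs h2e0 w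
        rwa [h2e] at this)
      hK v.1 v.2.1 v.2.2
      (by simpa [PhiDR1, PhiPa, PhiPb, PhiPc] using e1)
      (by simpa [PhiDR2, PhiPa, PhiPb, PhiPc] using e2)
      (hL v e3)
    obtain ⟨k1, k2, k3⟩ := key
    exact Prod.ext k1 (Prod.ext k2 k3)
  obtain ⟨g, U, V, hU, _, hloc⟩ := exists_locDiffeo _ (PhiO E) PhiO_isOpen _ hx0 hsm _ hder hinj
  exact ⟨g, U, V, hU, hloc⟩

/-- G5a main.  `O = {p | p.2.1 ≠ p.1 ∧ p.2.1 ≠ p.2.2 ∧ p.2.2 ≠ p.1}` is open, contains `(-e,0,e)`, `R1`, `R2` are smooth on it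
(`contDiffAt_gK`).  Derivatives at the base point (`hasFDerivAt_gK`, `HK_neg`; `H₁ = HK s e`, `H₂ = HK s (2•e)`):
`DR1 v = H₁ (v_b - v_a) + H₁ (v_b - v_c) + K v_b`, `DR2 v = H₂ (v_c - v_a) + H₁ (v_c - v_b) + K v_c`.
Injectivity of `v ↦ (DR1 v, DR2 v, v_i)` is `lin_inj` with `C = s(s+3)`, `m = s 2^(-s-2)`
(`norm_HK_apply_le`, `le_norm_HK_apply` at `‖e‖ = 1`, `‖2•e‖ = 2`), `K₀ = 3C + C²/m + 1`.  Then `exists_locDiffeo` three times. -/
theorem exists_locDiffeo_Phi [FiniteDimensional ℝ E] (s : ℝ) (hs : 0 < s) :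
    ∃ K₀ : ℝ, ∀ K : ℝ, K₀ ≤ K → ∀ e : E, ‖e‖ = 1 →
      ∃ (ΨA ΨB ΨC : E × E × E → E × E × E) (WA WA' WB WB' WC WC' : Set (E × E × E)),
        ((-e, 0, e) : E × E × E) ∈ WA ∧ ((-e, 0, e) : E × E × E) ∈ WB ∧ ((-e, 0, e) : E × E × E) ∈ WC ∧
        LocDiffeo (fun p : E × E × E => (R1 s K p, R2 s K e p, p.1)) ΨA WA WA' ∧
        LocDiffeo (fun p : E × E × E => (R1 s K p, R2 s K e p, p.2.1)) ΨB WB WB' ∧
        LocDiffeo (fun p : E × E × E => (R1 s K p, R2 s K e p, p.2.2)) ΨC WC WC' := by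
  refine ⟨3 * (s * (s + 3)) + (s * (s + 3)) ^ 2 / (s * (2 : ℝ) ^ (-s - 2)) + 1, ?_⟩
  intro K hK e he
  obtain ⟨ΨA, WA, WA', hA, lA⟩ := Phi_one s hs K hK e he (PhiPa E) (fun v hv => Or.inl hv)
  obtain ⟨ΨB, WB, WB', hB, lB⟩ := Phi_one s hs K hK e he (PhiPb E) (fun v hv => Or.inr (Or.inl hv))
  obtain ⟨ΨC, WC, WC', hC, lC⟩ := Phi_one s hs K hK e he (PhiPc E) (fun v hv => Or.inr (Or.inr hv))
  exact ⟨ΨA, ΨB, ΨC, WA, WA', WB, WB', WC, WC', hA, hB, hC, lA, lB, lC⟩

end Crest.Agent.MM3
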