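/-
Row 130 / S0175 project: the configuration family (assembly of G5a + G5b).  Owner: helper68.
-/
import Crest.Agent.MM3_Phi
import Crest.Agent.MM3_Glue

set_option autoImplicit false
open MeasureTheory Set
open scoped ENNReal ContDiff RealInnerProductSpace

namespace Crest.Agent.MM3

variable {E : Type*} [NormedAddCommGroup E] [InnerProductSpace ℝ E]

theorem exists_family [FiniteDimensional ℝ E] (s : ℝ) (hs : 0 < s) :
    ∃ K₀ : ℝ, ∀ K : ℝ, K₀ ≤ K → ∀ e : E, ‖e‖ = 1 →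
      ∃ (U VA VC : Set E) (α γ βA βC : E → E), (0 : E) ∈ U ∧ LocDiffeo α βA U VA ∧ LocDiffeo γ βC U VC ∧
        α 0 = -e ∧ γ 0 = e ∧ ∀ b ∈ U, EqB s K (α b) b (γ b) ∧ EqC s K e (α b) b (γ b) := by
  obtain ⟨K₀, hK₀⟩ := exists_locDiffeo_Phi (E := E) s hs
  refine ⟨K₀, fun K hK e he => ?_⟩
  obtain ⟨ΨA, ΨB, ΨC, WA, WA', WB, WB', WC, WC', zA, zB, zC, hA, hB, hC⟩ := hK₀ K hK e he
  obtain ⟨U, VA, VC, α, γ, βA, βC, h0, dA, dC, a0, c0, hR⟩ :=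
    glue_family (R1 s K) (R2 s K e) (-e, 0, e) (R1_base s K e) (R2_base s K e) ΨA ΨB ΨC WA WA' WB WB' WC WC'
      zA zB zC hA hB hC
  exact ⟨U, VA, VC, α, γ, βA, βC, h0, dA, dC, a0, c0, fun b hb =>
    ⟨(R1_eq_zero_iff s K _ _ _).1 (hR b hb).1, (R2_eq_zero_iff s K e _ _ _).1 (hR b hb).2⟩⟩

end Crest.Agent.MM3
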