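/-
Row 130 / S0175 project, task P3 (density = square of a sum of five disjointly supported functions).
One owner; keep statements.
-/
import Crest.Agent.MM3_Defs

set_option autoImplicit false
open MeasureTheory Set
open scoped ENNReal ContDiff
open Crest.AnalysisR.OT

namespace Crest.Agent.MM3

private lemma five_mul_eq_zero {X : Type*} (f g : X → ℝ) (S T : Set X)
    (hf : Function.support f ⊆ S) (hg : Function.support g ⊆ T) (hd : Disjoint S T) (x : X) :
    f x * g x = 0 := by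
  by_contra h
  have h1 : f x ≠ 0 := fun h0 => h (by rw [h0, zero_mul])
  have h2 : g x ≠ 0 := fun h0 => h (by rw [h0, mul_zero])
  exact (Set.disjoint_left.mp hd) (hf h1) (hg h2)

private lemma five_measOfDensity_add {d : ℕ} (f g : EE d → ℝ) (hf : Measurable f)
    (hf0 : ∀ x, 0 ≤ f x) (hg0 : ∀ x, 0 ≤ g x) :
    measOfDensity (fun x => f x + g x) = measOfDensity f + measOfDensity g := by
  unfold measOfDensity
  rw [← withDensity_add_left (by fun_prop)]
  congr 1
  funext x
  exact ENNReal.ofReal_add (hf0 x) (hg0 x)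

/-- P3.  Pointwise, at most one of the five functions is non-zero, so the square of the sum is the sum of the squares;
then `ENNReal.ofReal_add`, `withDensity_add_left`, `Fin.sum_univ_two`. -/
theorem measOfDensity_five {d : ℕ} (τB : EE d → ℝ) (τA τC : Fin 2 → EE d → ℝ)
    (mB : Measurable τB) (mA : ∀ j, Measurable (τA j)) (mC : ∀ j, Measurable (τC j))
    (SB : Set (EE d)) (SA SC : Fin 2 → Set (EE d))
    (sB : Function.support τB ⊆ SB) (sA : ∀ j, Function.support (τA j) ⊆ SA j)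
    (sC : ∀ j, Function.support (τC j) ⊆ SC j)
    (disj_BA : ∀ j, Disjoint SB (SA j)) (disj_BC : ∀ j, Disjoint SB (SC j))
    (disj_AC : ∀ i j, Disjoint (SA i) (SC j)) (disj_AA : Disjoint (SA 0) (SA 1))
    (disj_CC : Disjoint (SC 0) (SC 1)) :
    measOfDensity (fun x => (τB x + ∑ j, (τA j x + τC j x)) ^ 2)
      = measOfDensity (fun x => τB x ^ 2)
        + ∑ j, (measOfDensity (fun x => τA j x ^ 2) + measOfDensity (fun x => τC j x ^ 2)) := by
  have key : (fun x => (τB x + ∑ j, (τA j x + τC j x)) ^ 2)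
      = fun x => τB x ^ 2 + ((τA 0 x ^ 2 + τC 0 x ^ 2) + (τA 1 x ^ 2 + τC 1 x ^ 2)) := by
    funext x
    have h1 := five_mul_eq_zero τB (τA 0) SB (SA 0) sB (sA 0) (disj_BA 0) x
    have h2 := five_mul_eq_zero τB (τA 1) SB (SA 1) sB (sA 1) (disj_BA 1) x
    have h3 := five_mul_eq_zero τB (τC 0) SB (SC 0) sB (sC 0) (disj_BC 0) x
    have h4 := five_mul_eq_zero τB (τC 1) SB (SC 1) sB (sC 1) (disj_BC 1) x
    have h5 := five_mul_eq_zero (τA 0) (τC 0) (SA 0) (SC 0) (sA 0) (sC 0) (disj_AC 0 0) x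
    have h6 := five_mul_eq_zero (τA 0) (τC 1) (SA 0) (SC 1) (sA 0) (sC 1) (disj_AC 0 1) x
    have h7 := five_mul_eq_zero (τA 1) (τC 0) (SA 1) (SC 0) (sA 1) (sC 0) (disj_AC 1 0) x
    have h8 := five_mul_eq_zero (τA 1) (τC 1) (SA 1) (SC 1) (sA 1) (sC 1) (disj_AC 1 1) x
    have h9 := five_mul_eq_zero (τA 0) (τA 1) (SA 0) (SA 1) (sA 0) (sA 1) disj_AA x
    have h10 := five_mul_eq_zero (τC 0) (τC 1) (SC 0) (SC 1) (sC 0) (sC 1) disj_CC x
    rw [Fin.sum_univ_two]
    linear_combination 2 * h1 + 2 * h2 + 2 * h3 + 2 * h4 + 2 * h5 + 2 * h6 + 2 * h7 + 2 * h8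
      + 2 * h9 + 2 * h10
  rw [key, Fin.sum_univ_two]
  have mA0 := mA 0
  have mA1 := mA 1
  have mC0 := mC 0
  have mC1 := mC 1
  rw [five_measOfDensity_add (fun x => τB x ^ 2)
        (fun x => (τA 0 x ^ 2 + τC 0 x ^ 2) + (τA 1 x ^ 2 + τC 1 x ^ 2)) (by fun_prop)
        (fun x => by positivity) (fun x => by positivity),
    five_measOfDensity_add (fun x => τA 0 x ^ 2 + τC 0 x ^ 2)
        (fun x => τA 1 x ^ 2 + τC 1 x ^ 2) (by fun_prop)
        (fun x => by positivity) (fun x => by positivity),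
    five_measOfDensity_add (fun x => τA 0 x ^ 2) (fun x => τC 0 x ^ 2) (by fun_prop)
        (fun x => by positivity) (fun x => by positivity),
    five_measOfDensity_add (fun x => τA 1 x ^ 2) (fun x => τC 1 x ^ 2) (by fun_prop)
        (fun x => by positivity) (fun x => by positivity)]

/-- P3b. scaling: `measOfDensity ((√2 ψ)²) = 2 • measOfDensity (ψ²)`. -/
theorem measOfDensity_sqrt_two_mul {d : ℕ} (ψ : EE d → ℝ) (hψ : Measurable ψ) :
    measOfDensity (fun x => (Real.sqrt 2 * ψ x) ^ 2) = (2 : ℝ≥0∞) • measOfDensity (fun x => ψ x ^ 2) := by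
  unfold measOfDensity
  rw [← withDensity_smul _ (by fun_prop)]
  congr 1
  funext x
  show ENNReal.ofReal ((√2 * ψ x) ^ 2) = (2 : ℝ≥0∞) * ENNReal.ofReal (ψ x ^ 2)
  rw [mul_pow, Real.sq_sqrt (by norm_num), ENNReal.ofReal_mul (by norm_num)]
  simp

/-- P3c. Bochner integral of a nonnegative continuous compactly supported density from the total mass. -/
theorem integral_eq_of_measOfDensity_univ {d : ℕ} (ρ : EE d → ℝ) (hρ : Measurable ρ) (h0 : ∀ x, 0 ≤ ρ x)
    (h1 : measOfDensity ρ univ = 1) : ∫ x, ρ x = 1 := by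
  unfold measOfDensity at h1
  rw [withDensity_apply _ MeasurableSet.univ, Measure.restrict_univ] at h1
  rw [integral_eq_lintegral_of_nonneg_ae (Filter.Eventually.of_forall h0) hρ.aestronglyMeasurable,
    h1]
  simp

end Crest.Agent.MM3
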