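/-
Row 130 / S0175 project, task G9a (basic facts on `mkGeo`: clusters, disjointness).  One owner; keep statements.
-/
import Crest.Agent.MM3_GeoDefs
import Crest.Agent.MM3_Kernel

set_option autoImplicit false
open MeasureTheory Set
open scoped ENNReal ContDiff RealInnerProductSpace
open Crest.AnalysisR.OT

namespace Crest.Agent.MM3

variable {d : ℕ} {s K t ε r : ℝ} {e : Fin 2 → EE d}

section defeq
variable (T : ∀ j, OneType d s K t ε r (e j)) (j : Fin 2)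
@[simp] theorem mkGeo_η : (mkGeo T).η = min (T 0).η (T 1).η := rfl
@[simp] theorem mkGeo_U : (mkGeo T).U j = (T j).U := rfl
@[simp] theorem mkGeo_VA : (mkGeo T).VA j = (T j).VA := rfl
@[simp] theorem mkGeo_VC : (mkGeo T).VC j = (T j).VC := rfl
@[simp] theorem mkGeo_fA : (mkGeo T).fA j = (T j).α := rfl
@[simp] theorem mkGeo_fC : (mkGeo T).fC j = (T j).γ := rfl
@[simp] theorem mkGeo_gA : (mkGeo T).gA j = (T j).βA := rfl
@[simp] theorem mkGeo_gC : (mkGeo T).gC j = (T j).βC := rfl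
theorem mkGeo_u : (mkGeo T).u = potential (mkGeo0 T) s K t e := rfl
theorem mkGeo_SB : (mkGeo T).SB = Metric.ball 0 (min (T 0).η (T 1).η) := rfl
theorem mkGeo_SA : (mkGeo T).SA j = (T j).VA ∩ (T j).βA ⁻¹' (mkGeo T).SB := rfl
theorem mkGeo_SC : (mkGeo T).SC j = (T j).VC ∩ (T j).βC ⁻¹' (mkGeo T).SB := rfl
theorem mkGeo0_SB : (mkGeo0 T).SB = (mkGeo T).SB := rfl
theorem mkGeo0_SA : (mkGeo0 T).SA j = (mkGeo T).SA j := rfl
theorem mkGeo0_SC : (mkGeo0 T).SC j = (mkGeo T).SC j := rfl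
end defeq

/-! ### Part 1: clusters -/

theorem mkGeo_SB_sub (T : ∀ j, OneType d s K t ε r (e j)) (j : Fin 2) :
    (mkGeo T).SB ⊆ Metric.ball 0 (T j).η := by
  rw [mkGeo_SB]
  apply Metric.ball_subset_ball
  fin_cases j
  · exact min_le_left _ _
  · exact min_le_right _ _

theorem mkGeo_norm_SB (T : ∀ j, OneType d s K t ε r (e j)) {x : EE d} (hx : x ∈ (mkGeo T).SB) : ‖x‖ < r := by
  have h := mkGeo_SB_sub T 0 hx
  rw [mem_ball_zero_iff] at h
  exact lt_of_lt_of_le h (T 0).η_le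

theorem mkGeo_SA_spec (T : ∀ j, OneType d s K t ε r (e j)) {j : Fin 2} {x : EE d} (hx : x ∈ (mkGeo T).SA j) :
    (T j).βA x ∈ (mkGeo T).SB ∧ (T j).α ((T j).βA x) = x := by
  rw [mkGeo_SA] at hx
  exact ⟨hx.2, (T j).diffA.right x hx.1⟩

theorem mkGeo_SC_spec (T : ∀ j, OneType d s K t ε r (e j)) {j : Fin 2} {x : EE d} (hx : x ∈ (mkGeo T).SC j) :
    (T j).βC x ∈ (mkGeo T).SB ∧ (T j).γ ((T j).βC x) = x := by
  rw [mkGeo_SC] at hx
  exact ⟨hx.2, (T j).diffC.right x hx.1⟩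

theorem mkGeo_fA_mem (T : ∀ j, OneType d s K t ε r (e j)) (j : Fin 2) {b : EE d} (hb : b ∈ (mkGeo T).SB) :
    (T j).α b ∈ (mkGeo T).SA j ∧ (T j).βA ((T j).α b) = b := by
  have hU : b ∈ (T j).U := (T j).ball_sub (mkGeo_SB_sub T j hb)
  have hl : (T j).βA ((T j).α b) = b := (T j).diffA.left b hU
  refine ⟨?_, hl⟩
  rw [mkGeo_SA]
  refine ⟨(T j).diffA.mapsTo hU, ?_⟩
  rw [mem_preimage, hl]
  exact hb

theorem mkGeo_fC_mem (T : ∀ j, OneType d s K t ε r (e j)) (j : Fin 2) {b : EE d} (hb : b ∈ (mkGeo T).SB) :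
    (T j).γ b ∈ (mkGeo T).SC j ∧ (T j).βC ((T j).γ b) = b := by
  have hU : b ∈ (T j).U := (T j).ball_sub (mkGeo_SB_sub T j hb)
  have hl : (T j).βC ((T j).γ b) = b := (T j).diffC.left b hU
  refine ⟨?_, hl⟩
  rw [mkGeo_SC]
  refine ⟨(T j).diffC.mapsTo hU, ?_⟩
  rw [mem_preimage, hl]
  exact hb

theorem mkGeo_norm_SA (T : ∀ j, OneType d s K t ε r (e j)) {j : Fin 2} {x : EE d} (hx : x ∈ (mkGeo T).SA j) :
    ‖x + e j‖ < r := by
  obtain ⟨h1, h2⟩ := mkGeo_SA_spec T hx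
  have := (T j).nearA _ (mkGeo_SB_sub T j h1)
  rwa [h2] at this

theorem mkGeo_norm_SC (T : ∀ j, OneType d s K t ε r (e j)) {j : Fin 2} {x : EE d} (hx : x ∈ (mkGeo T).SC j) :
    ‖x - e j‖ < r := by
  obtain ⟨h1, h2⟩ := mkGeo_SC_spec T hx
  have := (T j).nearC _ (mkGeo_SB_sub T j h1)
  rwa [h2] at this

theorem mkGeo_measurableSet_SA (T : ∀ j, OneType d s K t ε r (e j)) (j : Fin 2) :
    MeasurableSet ((mkGeo T).SA j) := by
  rw [mkGeo_SA, mkGeo_SB]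
  exact (T j).diffA.openV.measurableSet.inter ((T j).βA_meas measurableSet_ball)

theorem mkGeo_measurableSet_SC (T : ∀ j, OneType d s K t ε r (e j)) (j : Fin 2) :
    MeasurableSet ((mkGeo T).SC j) := by
  rw [mkGeo_SC, mkGeo_SB]
  exact (T j).diffC.openV.measurableSet.inter ((T j).βC_meas measurableSet_ball)

/-! Disjointness: the centres `0, ±e 0, ±e 1` are at mutual distance `≥ 1`, the radii are `< r ≤ 1/25`. -/

/-- two balls of radius `r ≤ 1/25` around points at distance `≥ 1` do not meet -/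
private theorem geoBasic_far {x a b : EE d} {r : ℝ} (hr : r ≤ 1 / 25) (ha : ‖x - a‖ < r) (hb : ‖x - b‖ < r)
    (hab : 1 ≤ ‖a - b‖) : False := by
  have h : ‖a - b‖ ≤ ‖x - a‖ + ‖x - b‖ := by
    have : a - b = (x - b) - (x - a) := by abel
    rw [this]
    calc ‖(x - b) - (x - a)‖ ≤ ‖x - b‖ + ‖x - a‖ := norm_sub_le _ _
      _ = ‖x - a‖ + ‖x - b‖ := add_comm _ _
  linarith

private theorem geoBasic_norm_sq_add {a b : EE d} (ha : ‖a‖ = 1) (hb : ‖b‖ = 1) (hab : ⟪a, b⟫ = 0) :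
    1 ≤ ‖a + b‖ := by
  have h : ‖a + b‖ ^ 2 = 2 := by
    rw [@norm_add_sq_real, ha, hb, hab]; norm_num
  by_contra hlt
  rw [not_le] at hlt
  have h0 : 0 ≤ ‖a + b‖ := norm_nonneg _
  nlinarith

private theorem geoBasic_norm_sq_sub {a b : EE d} (ha : ‖a‖ = 1) (hb : ‖b‖ = 1) (hab : ⟪a, b⟫ = 0) :
    1 ≤ ‖a - b‖ := by
  have h : ‖a - b‖ ^ 2 = 2 := by
    rw [@norm_sub_sq_real, ha, hb, hab]; norm_num
  by_contra hlt
  rw [not_le] at hlt
  have h0 : 0 ≤ ‖a - b‖ := norm_nonneg _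
  nlinarith

theorem mkGeo_disj_BA (hC : Consts s K t ε r) (he : ∀ j, ‖e j‖ = 1) (T : ∀ j, OneType d s K t ε r (e j))
    (j : Fin 2) : Disjoint (mkGeo T).SB ((mkGeo T).SA j) := by
  rw [Set.disjoint_left]
  intro x hB hA
  have h1 := mkGeo_norm_SB T hB
  have h2 := mkGeo_norm_SA T hA
  refine geoBasic_far (x := x) (a := 0) (b := -e j) hC.hr' (by simpa using h1) (by simpa using h2) ?_
  simp [he j]

theorem mkGeo_disj_BC (hC : Consts s K t ε r) (he : ∀ j, ‖e j‖ = 1) (T : ∀ j, OneType d s K t ε r (e j))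
    (j : Fin 2) : Disjoint (mkGeo T).SB ((mkGeo T).SC j) := by
  rw [Set.disjoint_left]
  intro x hB hA
  have h1 := mkGeo_norm_SB T hB
  have h2 := mkGeo_norm_SC T hA
  refine geoBasic_far (x := x) (a := 0) (b := e j) hC.hr' (by simpa using h1) h2 ?_
  simp [he j]

theorem mkGeo_disj_AC (hC : Consts s K t ε r) (he : ∀ j, ‖e j‖ = 1) (h01 : ⟪e 0, e 1⟫ = 0)
    (T : ∀ j, OneType d s K t ε r (e j)) (i j : Fin 2) : Disjoint ((mkGeo T).SA i) ((mkGeo T).SC j) := by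
  rw [Set.disjoint_left]
  intro x hA hCc
  have h1 := mkGeo_norm_SA T hA
  have h2 := mkGeo_norm_SC T hCc
  refine geoBasic_far (x := x) (a := -e i) (b := e j) hC.hr' (by simpa using h1) h2 ?_
  have h10 : ⟪e 1, e 0⟫ = 0 := by rw [real_inner_comm]; exact h01
  have hn : ‖-e i - e j‖ = ‖e i + e j‖ := by
    rw [← norm_neg]; congr 1; abel
  rw [hn]
  fin_cases i <;> fin_cases j
  · have : e 0 + e 0 = (2 : ℝ) • e 0 := (two_smul ℝ _).symm
    simp only [Fin.zero_eta]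
    rw [this, norm_smul, he 0]; norm_num
  · exact geoBasic_norm_sq_add (he 0) (he 1) h01
  · exact geoBasic_norm_sq_add (he 1) (he 0) h10
  · have : e 1 + e 1 = (2 : ℝ) • e 1 := (two_smul ℝ _).symm
    simp only [Fin.mk_one]
    rw [this, norm_smul, he 1]; norm_num

theorem mkGeo_disj_AA (hC : Consts s K t ε r) (he : ∀ j, ‖e j‖ = 1) (h01 : ⟪e 0, e 1⟫ = 0)
    (T : ∀ j, OneType d s K t ε r (e j)) : Disjoint ((mkGeo T).SA 0) ((mkGeo T).SA 1) := by
  rw [Set.disjoint_left]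
  intro x hA hA'
  have h1 := mkGeo_norm_SA T hA
  have h2 := mkGeo_norm_SA T hA'
  refine geoBasic_far (x := x) (a := -e 0) (b := -e 1) hC.hr' (by simpa using h1) (by simpa using h2) ?_
  have hn : ‖-e 0 - -e 1‖ = ‖e 0 - e 1‖ := by
    rw [← norm_neg]; congr 1; abel
  rw [hn]
  exact geoBasic_norm_sq_sub (he 0) (he 1) h01

theorem mkGeo_disj_CC (hC : Consts s K t ε r) (he : ∀ j, ‖e j‖ = 1) (h01 : ⟪e 0, e 1⟫ = 0)
    (T : ∀ j, OneType d s K t ε r (e j)) : Disjoint ((mkGeo T).SC 0) ((mkGeo T).SC 1) := by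
  rw [Set.disjoint_left]
  intro x hA hA'
  have h1 := mkGeo_norm_SC T hA
  have h2 := mkGeo_norm_SC T hA'
  exact geoBasic_far (x := x) (a := e 0) (b := e 1) hC.hr' h1 h2
    (geoBasic_norm_sq_sub (he 0) (he 1) h01)

end Crest.Agent.MM3
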