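/-
Row 130 / S0175 project, task G9b (values, bounds, measurability of the potential of `mkGeo`).  One owner; keep statements.
-/
import Crest.Agent.MM3_GeoBasic

set_option autoImplicit false
open MeasureTheory Set
open scoped ENNReal ContDiff RealInnerProductSpace
open Crest.AnalysisR.OT

namespace Crest.Agent.MM3

variable {d : ℕ} {s K t ε r : ℝ} {e : Fin 2 → EE d}

/-! ### Part 2: the potential -/

theorem uB_bounds (hC : Consts s K t ε r) {x : EE d} (hx : ‖x‖ < r) :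
    0 ≤ uB s K t x ∧ uB s K t x ≤ 2 + (2 : ℝ) ^ (-s) - 2 * t := by
  have hs := hC.hs
  have h2 : (0 : ℝ) < (2 : ℝ) ^ (-s) := Real.rpow_pos_of_pos (by norm_num) _
  have h3 : (0 : ℝ) < (2 : ℝ) ^ (s + 2) := Real.rpow_pos_of_pos (by norm_num) _
  have hK0 : 0 < K := lt_trans (by positivity) hC.hK
  have hsq : ‖x‖ ^ 2 ≤ r ^ 2 := pow_le_pow_left₀ (norm_nonneg _) hx.le 2
  have h4 : K / 2 * ‖x‖ ^ 2 ≤ K / 2 * r ^ 2 := mul_le_mul_of_nonneg_left hsq (by positivity)
  have h5 : 0 ≤ K / 2 * ‖x‖ ^ 2 := by positivity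
  have h6 := hC.hKr
  have h7 := hC.ht
  unfold uB
  constructor <;> linarith

theorem mkGeo_u_SB (T : ∀ j, OneType d s K t ε r (e j)) {x : EE d} (hx : x ∈ (mkGeo T).SB) :
    (mkGeo T).u x = ENNReal.ofReal (uB s K t x) := by
  rw [mkGeo_u]
  unfold potential
  rw [if_pos (by rw [mkGeo0_SB]; exact hx)]

theorem mkGeo_u_SA (hC : Consts s K t ε r) (he : ∀ j, ‖e j‖ = 1) (h01 : ⟪e 0, e 1⟫ = 0)
    (T : ∀ j, OneType d s K t ε r (e j)) {j : Fin 2} {x : EE d} (hx : x ∈ (mkGeo T).SA j) :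
    (mkGeo T).u x = ENNReal.ofReal (uA s K t (e j) (T j).βA (T j).γ x) := by
  have hB : x ∉ (mkGeo0 T).SB := by
    rw [mkGeo0_SB]
    exact fun h => Set.disjoint_left.1 (mkGeo_disj_BA hC he T j) h hx
  rw [mkGeo_u]
  unfold potential
  rw [if_neg hB]
  fin_cases j
  · rw [if_pos (by rw [mkGeo0_SA]; exact hx)]
    rfl
  · have hA0 : x ∉ (mkGeo0 T).SA 0 := by
      rw [mkGeo0_SA]
      exact fun h => Set.disjoint_left.1 (mkGeo_disj_AA hC he h01 T) h hx
    rw [if_neg hA0, if_pos (by rw [mkGeo0_SA]; exact hx)]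
    rfl

theorem mkGeo_u_SC (hC : Consts s K t ε r) (he : ∀ j, ‖e j‖ = 1) (h01 : ⟪e 0, e 1⟫ = 0)
    (T : ∀ j, OneType d s K t ε r (e j)) {j : Fin 2} {x : EE d} (hx : x ∈ (mkGeo T).SC j) :
    (mkGeo T).u x = ENNReal.ofReal (uC s K t (e j) x) := by
  have hB : x ∉ (mkGeo0 T).SB := by
    rw [mkGeo0_SB]
    exact fun h => Set.disjoint_left.1 (mkGeo_disj_BC hC he T j) h hx
  have hA : ∀ i, x ∉ (mkGeo0 T).SA i := by
    intro i
    rw [mkGeo0_SA]
    exact fun h => Set.disjoint_left.1 (mkGeo_disj_AC hC he h01 T i j) h hx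
  rw [mkGeo_u]
  unfold potential
  rw [if_neg hB, if_neg (hA 0), if_neg (hA 1)]
  fin_cases j
  · rw [if_pos (by rw [mkGeo0_SC]; exact hx)]
    rfl
  · have hC0 : x ∉ (mkGeo0 T).SC 0 := by
      rw [mkGeo0_SC]
      exact fun h => Set.disjoint_left.1 (mkGeo_disj_CC hC he h01 T) h hx
    rw [if_neg hC0, if_pos (by rw [mkGeo0_SC]; exact hx)]
    rfl

theorem mkGeo_uA_bounds (T : ∀ j, OneType d s K t ε r (e j)) {j : Fin 2} {x : EE d}
    (hx : x ∈ (mkGeo T).SA j) : |uA s K t (e j) (T j).βA (T j).γ x - t| < ε := by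
  obtain ⟨h1, h2⟩ := mkGeo_SA_spec T hx
  have h3 := (T j).potA _ (mkGeo_SB_sub T j h1)
  rwa [h2] at h3

theorem mkGeo_uC_bounds (T : ∀ j, OneType d s K t ε r (e j)) {j : Fin 2} {x : EE d}
    (hx : x ∈ (mkGeo T).SC j) : |uC s K t (e j) x - t| < ε := by
  obtain ⟨h1, h2⟩ := mkGeo_SC_spec T hx
  have h3 := (T j).potC _ (mkGeo_SB_sub T j h1)
  rwa [h2] at h3

private theorem geoPot_measurable_uB : Measurable (uB s K t : EE d → ℝ) := by
  unfold uB
  fun_prop

private theorem geoPot_measurable_uC (v : EE d) : Measurable (uC s K t v : EE d → ℝ) := by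
  unfold uC
  fun_prop

private theorem geoPot_measurable_uA (v : EE d) {β γ : EE d → EE d} (hβ : Measurable β)
    (hγ : Measurable γ) : Measurable (uA s K t v β γ : EE d → ℝ) := by
  have hγβ : Measurable fun a => γ (β a) := hγ.comp hβ
  have h1 : Measurable fun a : EE d => costR s a (β a) (γ (β a)) := by
    unfold costR
    exact (((measurable_hK s).comp (measurable_id.sub hβ)).add
      ((measurable_hK s).comp (measurable_id.sub hγβ))).add
      ((measurable_hK s).comp (hβ.sub hγβ))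
  have h2 : Measurable fun a : EE d => uB s K t (β a) := geoPot_measurable_uB.comp hβ
  have h3 : Measurable fun a : EE d => uC s K t v (γ (β a)) := (geoPot_measurable_uC v).comp hγβ
  exact (h1.sub h2).sub h3

/-- `uA`, `uB`, `uC` are compositions of measurable maps (`measurable_hK`, `βA_meas`, `γ_meas`, inner products, norms);
`Measurable.ite` on the measurable clusters. -/
theorem mkGeo_u_meas (T : ∀ j, OneType d s K t ε r (e j)) : Measurable (mkGeo T).u := by
  classical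
  rw [mkGeo_u]
  unfold potential
  have hSB : MeasurableSet (mkGeo0 T).SB := measurableSet_ball
  have hSA : ∀ j, MeasurableSet ((mkGeo0 T).SA j) := fun j => mkGeo_measurableSet_SA T j
  have hSC : ∀ j, MeasurableSet ((mkGeo0 T).SC j) := fun j => mkGeo_measurableSet_SC T j
  refine Measurable.ite hSB geoPot_measurable_uB.ennreal_ofReal ?_
  refine Measurable.ite (hSA 0)
    (geoPot_measurable_uA (e 0) (T 0).βA_meas (T 0).γ_meas).ennreal_ofReal ?_
  refine Measurable.ite (hSA 1)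
    (geoPot_measurable_uA (e 1) (T 1).βA_meas (T 1).γ_meas).ennreal_ofReal ?_
  refine Measurable.ite (hSC 0) (geoPot_measurable_uC (e 0)).ennreal_ofReal ?_
  exact Measurable.ite (hSC 1) (geoPot_measurable_uC (e 1)).ennreal_ofReal measurable_const

/-- `u ≤ ofReal (2 + 2^(-s))` everywhere. -/
theorem mkGeo_u_bdd (hC : Consts s K t ε r) (T : ∀ j, OneType d s K t ε r (e j)) :
    ∃ M : ℝ≥0∞, M ≠ ⊤ ∧ ∀ x, (mkGeo T).u x ≤ M := by
  classical
  refine ⟨ENNReal.ofReal (2 + (2 : ℝ) ^ (-s)), ENNReal.ofReal_ne_top, fun x => ?_⟩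
  have h2 : (0 : ℝ) < (2 : ℝ) ^ (-s) := Real.rpow_pos_of_pos (by norm_num) _
  have hε := hC.hε
  have hεt := hC.hεt
  have ht := hC.ht
  rw [mkGeo_u]
  unfold potential
  split_ifs with hB hA0 hA1 hC0 hC1
  · have h := (uB_bounds hC (mkGeo_norm_SB T hB)).2
    exact ENNReal.ofReal_le_ofReal (by linarith)
  · have h := abs_lt.1 (mkGeo_uA_bounds T (j := 0) hA0)
    refine ENNReal.ofReal_le_ofReal ?_
    have h' : uA s K t (e 0) ((mkGeo0 T).gA 0) ((mkGeo0 T).fC 0) x - t < ε := h.2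
    linarith
  · have h := abs_lt.1 (mkGeo_uA_bounds T (j := 1) hA1)
    refine ENNReal.ofReal_le_ofReal ?_
    have h' : uA s K t (e 1) ((mkGeo0 T).gA 1) ((mkGeo0 T).fC 1) x - t < ε := h.2
    linarith
  · have h := abs_lt.1 (mkGeo_uC_bounds T (j := 0) hC0)
    exact ENNReal.ofReal_le_ofReal (by linarith [h.2])
  · have h := abs_lt.1 (mkGeo_uC_bounds T (j := 1) hC1)
    exact ENNReal.ofReal_le_ofReal (by linarith [h.2])
  · exact zero_le

end Crest.Agent.MM3
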