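/-
Row 130 / S0175 project, task G10a (strict dual inequalities by crude bounds).  One owner; keep statements.
-/
import Crest.Agent.MM3_GeoPot

set_option autoImplicit false
open MeasureTheory Set
open scoped ENNReal ContDiff RealInnerProductSpace
open Crest.AnalysisR.OT

namespace Crest.Agent.MM3

variable {d : ℕ} {s K t ε r : ℝ} {e : Fin 2 → EE d}

/-- sum of three `ofReal`s bounded by `ofReal` of the sum of nonnegative upper bounds -/
private theorem ofReal_add3_le {a b c A B C : ℝ} (ha : a ≤ A) (hb : b ≤ B) (hc : c ≤ C)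
    (hA : 0 ≤ A) (hB : 0 ≤ B) (hC : 0 ≤ C) :
    ENNReal.ofReal a + ENNReal.ofReal b + ENNReal.ofReal c ≤ ENNReal.ofReal (A + B + C) := by
  rw [ENNReal.ofReal_add (add_nonneg hA hB) hC, ENNReal.ofReal_add hA hB]
  exact add_le_add (add_le_add (ENNReal.ofReal_le_ofReal ha) (ENNReal.ofReal_le_ofReal hb))
    (ENNReal.ofReal_le_ofReal hc)

/-- every point of an outer cluster: a centre `p` (unit vector, `p = ± e j`), `‖x - p‖ < r`, and `u x = ofReal v`, `|v - t| < ε`. -/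
theorem mkGeo_O_spec (hC : Consts s K t ε r) (he : ∀ j, ‖e j‖ = 1) (h01 : ⟪e 0, e 1⟫ = 0)
    (T : ∀ j, OneType d s K t ε r (e j)) {x : EE d} (hx : x ∈ (mkGeo T).O) :
    ∃ (p : EE d) (v : ℝ), ‖p‖ = 1 ∧ ‖x - p‖ < r ∧ (mkGeo T).u x = ENNReal.ofReal v ∧ |v - t| < ε := by
  obtain ⟨j, hj⟩ := mem_iUnion.mp hx
  rcases hj with hj | hj
  · refine ⟨-e j, _, by rw [norm_neg]; exact he j, ?_, mkGeo_u_SA hC he h01 T hj, mkGeo_uA_bounds T hj⟩
    rw [sub_neg_eq_add]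
    exact mkGeo_norm_SA T hj
  · exact ⟨e j, _, he j, mkGeo_norm_SC T hj, mkGeo_u_SC hC he h01 T hj, mkGeo_uC_bounds T hj⟩

/-- norm of a point of an outer cluster -/
private theorem norm_le_of_centre {x p : EE d} (hp : ‖p‖ = 1) (hx : ‖x - p‖ < r) : ‖x‖ ≤ 1 + r := by
  have h : x = (x - p) + p := by abel
  have h2 : ‖x‖ ≤ ‖x - p‖ + ‖p‖ := by
    conv_lhs => rw [h]
    exact norm_add_le _ _
  linarith

/-- G10a.  `‖x - y‖ < 2r`; the other two distances are `≤ 3`; `u x + u y + u z ≤ ofReal (3 (2+2^(-s)))`;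
`lt_tripleCost_of_dist` with `R₁ = 2r`, `R₂ = R₃ = 3` and `Consts.twoB`. -/
theorem mkGeo_two_B (hC : Consts s K t ε r) (he : ∀ j, ‖e j‖ = 1) (h01 : ⟪e 0, e 1⟫ = 0)
    (T : ∀ j, OneType d s K t ε r (e j)) :
    ∀ x ∈ (mkGeo T).SB, ∀ y ∈ (mkGeo T).SB, ∀ z ∈ (mkGeo T).S,
      (mkGeo T).u x + (mkGeo T).u y + (mkGeo T).u z < tripleCost s (x, y, z) := by
  intro x hx y hy z hz
  have hr := hC.hr
  have hr' := hC.hr'
  have hε := hC.hε
  have hεt := hC.hεt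
  have ht := hC.ht
  have nx := mkGeo_norm_SB T hx
  have ny := mkGeo_norm_SB T hy
  have bx := uB_bounds hC nx
  have by' := uB_bounds hC ny
  have h2s : 0 < (2 : ℝ) ^ (-s) := Real.rpow_pos_of_pos (by norm_num) _
  have h3s : 0 < (3 : ℝ) ^ (-s) := Real.rpow_pos_of_pos (by norm_num) _
  -- the third point
  obtain ⟨v, hv, hvM, nz⟩ : ∃ v : ℝ, (mkGeo T).u z = ENNReal.ofReal v ∧ v ≤ 2 + (2 : ℝ) ^ (-s) ∧
      ‖z‖ ≤ 1 + r := by
    rcases hz with hz | hz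
    · have nz := mkGeo_norm_SB T hz
      have bz := uB_bounds hC nz
      exact ⟨_, mkGeo_u_SB T hz, by linarith [bz.2], by linarith⟩
    · obtain ⟨p, v, hp, hxp, hu, hv⟩ := mkGeo_O_spec hC he h01 T hz
      refine ⟨v, hu, ?_, norm_le_of_centre hp hxp⟩
      have := (abs_lt.mp hv).2
      linarith
  rw [mkGeo_u_SB T hx, mkGeo_u_SB T hy, hv]
  have hM : (0 : ℝ) ≤ 2 + (2 : ℝ) ^ (-s) := by linarith
  refine lt_of_le_of_lt (ofReal_add3_le (A := 2 + (2 : ℝ) ^ (-s)) (B := 2 + (2 : ℝ) ^ (-s))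
    (C := 2 + (2 : ℝ) ^ (-s)) (by linarith [bx.2]) (by linarith [by'.2]) hvM hM hM hM) ?_
  refine lt_tripleCost_of_dist s hC.hs (R₁ := 2 * r) (R₂ := 3) (R₃ := 3) (by linarith) (by norm_num)
    (by norm_num) ?_ ?_ ?_ ?_
  · have := norm_sub_le x y
    linarith
  · have := norm_sub_le x z
    linarith
  · have := norm_sub_le y z
    linarith
  · have := hC.twoB
    linarith

/-- distance of two points of outer clusters -/
private theorem dist_le_of_centres {x y p q : EE d} (hp : ‖p‖ = 1) (hq : ‖q‖ = 1) (hx : ‖x - p‖ < r)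
    (hy : ‖y - q‖ < r) : ‖x - y‖ ≤ 2 + 2 * r := by
  have h1 := norm_le_of_centre hp hx
  have h2 := norm_le_of_centre hq hy
  have := norm_sub_le x y
  linarith

/-- G10b.  All distances `≤ 2 + 2r ≤ 3`; `u ≤ ofReal (t+ε)`; `Consts.noB`. -/
theorem mkGeo_no_B (hC : Consts s K t ε r) (he : ∀ j, ‖e j‖ = 1) (h01 : ⟪e 0, e 1⟫ = 0)
    (T : ∀ j, OneType d s K t ε r (e j)) :
    ∀ x ∈ (mkGeo T).O, ∀ y ∈ (mkGeo T).O, ∀ z ∈ (mkGeo T).O,
      (mkGeo T).u x + (mkGeo T).u y + (mkGeo T).u z < tripleCost s (x, y, z) := by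
  intro x hx y hy z hz
  have hr := hC.hr
  have hr' := hC.hr'
  have hε := hC.hε
  have hεt := hC.hεt
  obtain ⟨p, a, hp, hxp, hua, ha⟩ := mkGeo_O_spec hC he h01 T hx
  obtain ⟨q, b, hq, hyq, hub, hb⟩ := mkGeo_O_spec hC he h01 T hy
  obtain ⟨w, c, hw, hzw, huc, hc⟩ := mkGeo_O_spec hC he h01 T hz
  rw [hua, hub, huc]
  have hM : (0 : ℝ) ≤ t + ε := by linarith
  refine lt_of_le_of_lt (ofReal_add3_le (A := t + ε) (B := t + ε) (C := t + ε)
    (by linarith [(abs_lt.mp ha).2]) (by linarith [(abs_lt.mp hb).2]) (by linarith [(abs_lt.mp hc).2])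
    hM hM hM) ?_
  refine lt_tripleCost_of_dist s hC.hs (R₁ := 3) (R₂ := 3) (R₃ := 3) (by norm_num) (by norm_num)
    (by norm_num) ?_ ?_ ?_ ?_
  · have := dist_le_of_centres hp hq hxp hyq
    linarith
  · have := dist_le_of_centres hp hw hxp hzw
    linarith
  · have := dist_le_of_centres hq hw hyq hzw
    linarith
  · have := hC.noB
    linarith

/-- G10c.  One point in `B`, two outer points whose clusters are not opposite, i.e. `‖y - z‖ ≤ 3/2`: strict.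
`‖x - y‖, ‖x - z‖ ≤ 1 + 2r`; `u x + u y + u z ≤ ofReal (2 + 2^(-s) + 2ε)`; `Consts.oneB`. -/
theorem mkGeo_one_B_adj (hC : Consts s K t ε r) (he : ∀ j, ‖e j‖ = 1) (h01 : ⟪e 0, e 1⟫ = 0)
    (T : ∀ j, OneType d s K t ε r (e j)) :
    ∀ x ∈ (mkGeo T).SB, ∀ y ∈ (mkGeo T).O, ∀ z ∈ (mkGeo T).O, ‖y - z‖ ≤ 3 / 2 →
      (mkGeo T).u x + (mkGeo T).u y + (mkGeo T).u z < tripleCost s (x, y, z) := by
  intro x hx y hy z hz hyz
  have hr := hC.hr
  have hr' := hC.hr'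
  have hε := hC.hε
  have hεt := hC.hεt
  have nx := mkGeo_norm_SB T hx
  have bx := uB_bounds hC nx
  obtain ⟨q, b, hq, hyq, hub, hb⟩ := mkGeo_O_spec hC he h01 T hy
  obtain ⟨w, c, hw, hzw, huc, hc⟩ := mkGeo_O_spec hC he h01 T hz
  rw [mkGeo_u_SB T hx, hub, huc]
  have hM : (0 : ℝ) ≤ t + ε := by linarith
  refine lt_of_le_of_lt (ofReal_add3_le (A := 2 + (2 : ℝ) ^ (-s) - 2 * t) (B := t + ε) (C := t + ε)
    bx.2 (by linarith [(abs_lt.mp hb).2]) (by linarith [(abs_lt.mp hc).2])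
    (le_trans bx.1 bx.2) hM hM) ?_
  refine lt_tripleCost_of_dist s hC.hs (R₁ := 1 + 2 * r) (R₂ := 1 + 2 * r) (R₃ := 3 / 2) (by linarith)
    (by linarith) (by norm_num) ?_ ?_ hyz ?_
  · have := norm_sub_le x y
    have := norm_le_of_centre hq hyq
    linarith
  · have := norm_sub_le x z
    have := norm_le_of_centre hw hzw
    linarith
  · have := hC.oneB
    linarith

end Crest.Agent.MM3
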