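/-
Row 130 / S0175 project, task G10b (dichotomy for two outer points).  One owner; keep statements.
-/
import Crest.Agent.MM3_GeoBasic

set_option autoImplicit false
open MeasureTheory Set
open scoped ENNReal ContDiff RealInnerProductSpace
open Crest.AnalysisR.OT

namespace Crest.Agent.MM3

variable {d : ℕ} {s K t ε r : ℝ} {e : Fin 2 → EE d}

/-- G10d.  Two outer points: either `‖y - z‖ ≤ 3/2` or they lie in opposite clusters.
(centres `p,q ∈ {±e 0, ±e 1}`: `q = -p` or `‖p - q‖ ≤ √2`; `√2 + 2r ≤ 3/2` since `r ≤ 1/25`.) -/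
theorem mkGeo_O_dichotomy (hC : Consts s K t ε r) (he : ∀ j, ‖e j‖ = 1) (h01 : ⟪e 0, e 1⟫ = 0)
    (T : ∀ j, OneType d s K t ε r (e j)) :
    ∀ y ∈ (mkGeo T).O, ∀ z ∈ (mkGeo T).O, ‖y - z‖ ≤ 3 / 2 ∨
      ∃ j, (y ∈ (mkGeo T).SA j ∧ z ∈ (mkGeo T).SC j) ∨ (y ∈ (mkGeo T).SC j ∧ z ∈ (mkGeo T).SA j) := by
  have hr := hC.hr'
  have key : ∀ (p q y z : EE d), ‖p‖ = 1 → ‖q‖ = 1 → 0 ≤ ⟪p, q⟫ → ‖y - p‖ < r → ‖z - q‖ < r →
      ‖y - z‖ ≤ 3 / 2 := by
    intro p q y z hp hq hpq hy hz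
    have h1 : ‖p - q‖ ^ 2 ≤ 2 := by
      rw [norm_sub_sq_real, hp, hq]; linarith
    have h2 : ‖p - q‖ ≤ 1.42 := by
      by_contra h
      push Not at h
      nlinarith [norm_nonneg (p - q)]
    have h3 : y - z = (y - p) + (p - q) - (z - q) := by abel
    calc ‖y - z‖ = ‖(y - p) + (p - q) - (z - q)‖ := by rw [h3]
      _ ≤ ‖(y - p) + (p - q)‖ + ‖z - q‖ := norm_sub_le _ _
      _ ≤ ‖y - p‖ + ‖p - q‖ + ‖z - q‖ := by gcongr; exact norm_add_le _ _
      _ ≤ 3 / 2 := by linarith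
  have hin : ∀ i j : Fin 2, i ≠ j → ⟪e i, e j⟫ = 0 := by
    intro i j hij
    fin_cases i <;> fin_cases j
    · exact absurd rfl hij
    · exact h01
    · simpa [real_inner_comm] using h01
    · exact absurd rfl hij
  have hnn : ∀ i j : Fin 2, 0 ≤ ⟪e i, e j⟫ := by
    intro i j
    by_cases hij : i = j
    · subst hij; exact real_inner_self_nonneg
    · exact (hin i j hij).ge
  intro y hy z hz
  simp only [GeoData.O, mem_iUnion, mem_union] at hy hz
  obtain ⟨i, hy⟩ := hy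
  obtain ⟨j, hz⟩ := hz
  rcases hy with hy | hy <;> rcases hz with hz | hz
  · left
    refine key (-e i) (-e j) y z (by simp [he]) (by simp [he]) (by simpa using hnn i j) ?_ ?_
    · simpa using mkGeo_norm_SA T hy
    · simpa using mkGeo_norm_SA T hz
  · by_cases hij : i = j
    · subst hij; exact Or.inr ⟨i, Or.inl ⟨hy, hz⟩⟩
    · left
      refine key (-e i) (e j) y z (by simp [he]) (he j) (by simp [hin i j hij]) ?_ ?_
      · simpa using mkGeo_norm_SA T hy
      · exact mkGeo_norm_SC T hz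
  · by_cases hij : i = j
    · subst hij; exact Or.inr ⟨i, Or.inr ⟨hy, hz⟩⟩
    · left
      refine key (e i) (-e j) y z (he i) (by simp [he]) (by simp [hin i j hij]) ?_ ?_
      · exact mkGeo_norm_SC T hy
      · simpa using mkGeo_norm_SA T hz
  · left
    exact key (e i) (e j) y z (he i) (he j) (hnn i j) (mkGeo_norm_SC T hy) (mkGeo_norm_SC T hz)

end Crest.Agent.MM3
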