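/-
Row 130 / S0175 project, task G10c (opposite clusters, equality on configurations, modulus).  One owner; keep statements.
-/
import Crest.Agent.MM3_GeoPot
import Crest.Agent.MM3_DI

set_option autoImplicit false
open MeasureTheory Set
open scoped ENNReal ContDiff RealInnerProductSpace
open Crest.AnalysisR.OT

namespace Crest.Agent.MM3

variable {d : ℕ} {s K t ε r : ℝ} {e : Fin 2 → EE d}

private theorem far_aux {x y p q : EE d} {r D : ℝ} (hx : ‖x - p‖ < r) (hy : ‖y - q‖ < r)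
    (hD : D ≤ ‖p - q‖) : D - 2 * r ≤ ‖x - y‖ := by
  have h3 : p - q = (x - y) - (x - p) + (y - q) := by abel
  have : ‖p - q‖ ≤ ‖x - y‖ + ‖x - p‖ + ‖y - q‖ := by
    calc ‖p - q‖ = ‖(x - y) - (x - p) + (y - q)‖ := by rw [h3]
      _ ≤ ‖(x - y) - (x - p)‖ + ‖y - q‖ := norm_add_le _ _
      _ ≤ ‖x - y‖ + ‖x - p‖ + ‖y - q‖ := by gcongr; exact norm_sub_le _ _
  linarith

/-- distances inside a (perturbed) configuration -/
private theorem cfg_dist (hC : Consts s K t ε r) (he : ∀ j, ‖e j‖ = 1)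
    (T : ∀ j, OneType d s K t ε r (e j)) (j : Fin 2) {b b' : EE d} (hb : b ∈ (mkGeo T).SB)
    (hb' : b' ∈ (mkGeo T).SB) :
    1 / 2 ≤ ‖b - (T j).α b'‖ ∧ 1 / 2 ≤ ‖b - (T j).γ b'‖ ∧ 1 / 2 ≤ ‖(T j).γ b' - (T j).α b'‖ := by
  have hr := hC.hr'
  have h0 : ‖b - 0‖ < r := by simpa using mkGeo_norm_SB T hb
  have hA : ‖(T j).α b' - (-e j)‖ < r := by
    simpa using (T j).nearA b' (mkGeo_SB_sub T j hb')
  have hG : ‖(T j).γ b' - e j‖ < r := (T j).nearC b' (mkGeo_SB_sub T j hb')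
  refine ⟨?_, ?_, ?_⟩
  · have := far_aux (D := 1) h0 hA (by simp [he])
    linarith
  · have := far_aux (D := 1) h0 hG (by simp [he])
    linarith
  · have := far_aux (D := 1) hG hA (by
      have : e j - -e j = (2 : ℝ) • e j := by rw [two_smul]; abel
      rw [this, norm_smul, he]; norm_num)
    linarith

theorem mkGeo_modulus (hC : Consts s K t ε r) (he : ∀ j, ‖e j‖ = 1)
    (T : ∀ j, OneType d s K t ε r (e j)) :
    ∀ ε' : ℝ≥0∞, 0 < ε' → ∃ δ : ℝ, 0 < δ ∧ ∀ b ∈ (mkGeo T).SB, ∀ b' ∈ (mkGeo T).SB, ‖b - b'‖ ≤ δ → ∀ j,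
      tripleCost s (b, (mkGeo T).fC j b', (mkGeo T).fA j b')
        ≤ tripleCost s (b', (mkGeo T).fC j b', (mkGeo T).fA j b') + ε' := by
  intro ε' hε'
  obtain ⟨δ, hδ, h⟩ := tripleCost_modulus (E := EE d) s hC.hs ε' hε'
  refine ⟨δ, hδ, fun b hb b' hb' hbb j => h b b' _ _ ?_ ?_ hbb⟩
  · exact (cfg_dist hC he T j hb hb').2.1
  · exact (cfg_dist hC he T j hb hb').1

theorem mkGeo_cfg_eq (hC : Consts s K t ε r) (he : ∀ j, ‖e j‖ = 1) (h01 : ⟪e 0, e 1⟫ = 0)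
    (T : ∀ j, OneType d s K t ε r (e j)) :
    ∀ j, ∀ b ∈ (mkGeo T).SB, tripleCost s (b, (mkGeo T).fA j b, (mkGeo T).fC j b)
      = (mkGeo T).u b + (mkGeo T).u ((mkGeo T).fA j b) + (mkGeo T).u ((mkGeo T).fC j b) := by
  intro j b hb
  obtain ⟨d1, d2, d3⟩ := cfg_dist hC he T j hb hb
  have hA := mkGeo_fA_mem T j hb
  have hG := mkGeo_fC_mem T j hb
  simp only [mkGeo_fA, mkGeo_fC]
  rw [mkGeo_u_SB T hb, mkGeo_u_SA hC he h01 T hA.1, mkGeo_u_SC hC he h01 T hG.1]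
  have n1 : b ≠ (T j).α b := by
    intro h; rw [← h, sub_self, norm_zero] at d1; norm_num at d1
  have n2 : b ≠ (T j).γ b := by
    intro h; rw [← h, sub_self, norm_zero] at d2; norm_num at d2
  have n3 : (T j).α b ≠ (T j).γ b := by
    intro h; rw [h, sub_self, norm_zero] at d3; norm_num at d3
  rw [tripleCost_eq_ofReal s n1 n2 n3]
  have pB := (uB_bounds hC (mkGeo_norm_SB T hb)).1
  have pA := mkGeo_uA_bounds T hA.1
  have pC := mkGeo_uC_bounds T hG.1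
  have hεt := hC.hεt
  have pA' : 0 ≤ uA s K t (e j) (T j).βA (T j).γ ((T j).α b) := by
    have := (abs_lt.1 pA).1; linarith
  have pC' : 0 ≤ uC s K t (e j) ((T j).γ b) := by
    have := (abs_lt.1 pC).1; linarith
  rw [← ENNReal.ofReal_add pB pA', ← ENNReal.ofReal_add (add_nonneg pB pA') pC']
  congr 1
  simp only [uA, hA.2]
  rw [costR_swap12 s ((T j).α b) b ((T j).γ b)]
  ring

theorem mkGeo_one_B_opp (hC : Consts s K t ε r) (he : ∀ j, ‖e j‖ = 1) (h01 : ⟪e 0, e 1⟫ = 0)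
    (T : ∀ j, OneType d s K t ε r (e j)) (j : Fin 2) :
    ∀ x ∈ (mkGeo T).SB, ∀ y ∈ (mkGeo T).SA j, ∀ z ∈ (mkGeo T).SC j,
      (mkGeo T).u x + (mkGeo T).u y + (mkGeo T).u z ≤ tripleCost s (x, y, z) ∧
      (tripleCost s (x, y, z) ≤ (mkGeo T).u x + (mkGeo T).u y + (mkGeo T).u z →
        y = (mkGeo T).fA j x ∧ z = (mkGeo T).fC j x) := by
  intro x hx y hy z hz
  obtain ⟨hb, hyb⟩ := mkGeo_SA_spec T hy
  set b := (T j).βA y with hbdef
  obtain ⟨d1, d2, d3⟩ := cfg_dist hC he T j hb hb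
  rw [hyb] at d1 d3
  have hεt := hC.hεt
  have pB := (uB_bounds hC (mkGeo_norm_SB T hx)).1
  have pA := mkGeo_uA_bounds T hy
  have pC := mkGeo_uC_bounds T hz
  have pA' : 0 ≤ uA s K t (e j) (T j).βA (T j).γ y := by
    have := (abs_lt.1 pA).1; linarith
  have pC' : 0 ≤ uC s K t (e j) z := by
    have := (abs_lt.1 pC).1; linarith
  have Eb := (T j).eqB b (mkGeo_SB_sub T j hb)
  have Ec := (T j).eqC b (mkGeo_SB_sub T j hb)
  rw [hyb] at Eb Ec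
  have d2' : 1 / 2 ≤ ‖(T j).γ b - b‖ := by rw [norm_sub_rev]; exact d2
  have main := one_B_opp s K t hC.hs hC.hK (e j) y b ((T j).γ b) x z d1 d3 d2' Eb Ec pB pC' pA'
  rw [mkGeo_u_SB T hx, mkGeo_u_SA hC he h01 T hy, mkGeo_u_SC hC he h01 T hz]
  refine ⟨main.1, fun h => ?_⟩
  obtain ⟨h1, h2⟩ := main.2 h
  simp only [mkGeo_fA, mkGeo_fC]
  rw [h1, h2]
  exact ⟨hyb.symm, rfl⟩

end Crest.Agent.MM3
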