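/-
Row 130 / S0175 project, task G7 (selection of the radius: from the family to a `OneType`).  One owner; keep statements.
-/
import Crest.Agent.MM3_GeoDefs
import Crest.Agent.MM3_Family
import Crest.Agent.MM3_Kernel

set_option autoImplicit false
open MeasureTheory Set
open scoped ENNReal ContDiff RealInnerProductSpace
open Crest.AnalysisR.OT

namespace Crest.Agent.MM3

/-- G7.  Take `U VA VC α γ βA βC` from `exists_family`; replace the four maps by measurable representatives
(`LocDiffeo.exists_measurable`; they agree with the old ones on `U`, `VA`, `VC`, so all identities on `U` survive; note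
`α b ∈ VA`, `βA (α b) = b` for `b ∈ U`).  For `b ∈ U`: `uA s K t e βA γ (α b) = costR s (α b) b (γ b) - uB s K t b - uC s K t e (γ b)`.
`α, γ` are continuous at `0 ∈ U` (open), `α 0 = -e`, `γ 0 = e`; `costR` is continuous at `(-e,0,e)` (`contDiffAt_hK`/continuity of
`rpow` away from 0) with value `1 + 2^(-s) + 1`; `uB 0 = 2 + 2^(-s) - 2t`, `uC e = t`; so the `A`-potential tends to `t`.
All six conditions hold eventually in `𝓝 0`; pick `η ≤ r` with `ball 0 η` inside (`Metric.eventually_nhds_iff_ball`). -/
theorem exists_oneType (d : ℕ) (s : ℝ) (hs : 0 < s) :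
    ∃ K₀ : ℝ, ∀ K : ℝ, K₀ ≤ K → ∀ t ε r : ℝ, 0 < ε → 0 < r → ∀ e : EE d, ‖e‖ = 1 →
      Nonempty (OneType d s K t ε r e) := by
  obtain ⟨K₀, hK₀⟩ := exists_family (E := EE d) s hs
  refine ⟨K₀, fun K hKK t ε r hε hr e he => ?_⟩
  obtain ⟨U, VA, VC, α', γ', βA', βC', h0, dA', dC', a0', c0', hE'⟩ := hK₀ K hKK e he
  obtain ⟨α, βA, mα, mβA, hα, hβA, dA⟩ := dA'.exists_measurable
  obtain ⟨γ, βC, mγ, mβC, hγ, hβC, dC⟩ := dC'.exists_measurable
  have a0 : α 0 = -e := by rw [hα 0 h0, a0']
  have c0 : γ 0 = e := by rw [hγ 0 h0, c0']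
  have hE : ∀ b ∈ U, EqB s K (α b) b (γ b) ∧ EqC s K e (α b) b (γ b) := by
    intro b hb; rw [hα b hb, hγ b hb]; exact hE' b hb
  have hU : U ∈ nhds (0 : EE d) := dA.openU.mem_nhds h0
  have cα : ContinuousAt α 0 := dA.continuousOn.continuousAt hU
  have cγ : ContinuousAt γ 0 := dC.continuousOn.continuousAt hU
  have he0 : e ≠ 0 := by intro h; rw [h, norm_zero] at he; exact zero_ne_one he
  let PA : EE d → ℝ := fun b => costR s (α b) b (γ b) - uB s K t b - uC s K t e (γ b)
  have hPA : ∀ b ∈ U, uA s K t e βA γ (α b) = PA b := by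
    intro b hb; simp only [uA, dA.left b hb, PA]
  have cid : ContinuousAt (fun b : EE d => b) 0 := continuousAt_id
  have c1 : ContinuousAt (fun b => hK s (α b - b)) 0 := by
    have : ContinuousAt (hK s : EE d → ℝ) (α 0 - 0) := by
      apply (contDiffAt_hK s _).continuousAt
      rw [a0, sub_zero]; exact neg_ne_zero.2 he0
    exact ContinuousAt.comp (f := fun b => α b - b) this (cα.sub cid)
  have c2 : ContinuousAt (fun b => hK s (α b - γ b)) 0 := by
    have : ContinuousAt (hK s : EE d → ℝ) (α 0 - γ 0) := by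
      apply (contDiffAt_hK s _).continuousAt
      rw [a0, c0]
      intro h
      have : (2 : ℝ) • e = 0 := by
        rw [two_smul]
        have h' := congrArg Neg.neg h
        simpa [sub_eq_add_neg, add_comm] using h'
      rcases smul_eq_zero.1 this with h | h
      · norm_num at h
      · exact he0 h
    exact ContinuousAt.comp (f := fun b => α b - γ b) this (cα.sub cγ)
  have c3 : ContinuousAt (fun b => hK s (b - γ b)) 0 := by
    have : ContinuousAt (hK s : EE d → ℝ) (0 - γ 0) := by
      apply (contDiffAt_hK s _).continuousAt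
      rw [c0, zero_sub]; exact neg_ne_zero.2 he0
    exact ContinuousAt.comp (f := fun b => b - γ b) this (cid.sub cγ)
  have cB : ContinuousAt (fun b : EE d => uB s K t b) 0 := by
    unfold uB
    fun_prop
  have cC : ContinuousAt (fun b : EE d => uC s K t e (γ b)) 0 := by
    unfold uC
    have h1 : ContinuousAt (fun b => γ b - e) 0 := cγ.sub continuousAt_const
    exact ((continuousAt_const.add (continuousAt_const.inner h1)).sub
      (continuousAt_const.mul (h1.norm.pow 2)))
  have cPA : ContinuousAt PA 0 := by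
    have : ContinuousAt (fun b => costR s (α b) b (γ b)) 0 := by
      unfold costR
      exact (c1.add c2).add c3
    exact (this.sub cB).sub cC
  have C0 : uC s K t e (γ 0) = t := by
    rw [c0]; simp [uC]
  have PA0 : PA 0 = t := by
    have h1 : hK s (-e - 0 : EE d) = 1 := by simp [hK, he]
    have h2 : hK s (-e - e : EE d) = (2 : ℝ) ^ (-s) := by
      have : (-e - e : EE d) = (-2 : ℝ) • e := by
        rw [neg_smul, two_smul]; abel
      rw [this, hK, norm_smul, he]; simp
    have h3 : hK s (0 - e : EE d) = 1 := by simp [hK, he]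
    have C0' : uC s K t e e = t := by rw [← c0]; rw [c0] at C0 ⊢; exact C0
    simp only [PA, costR, a0, c0, h1, h2, h3, C0']
    simp [uB]
    ring
  -- eventually statements
  have e1 : ∀ᶠ b in nhds (0 : EE d), ‖α b + e‖ < r := by
    have : ContinuousAt (fun b => ‖α b + e‖) 0 := (cα.add continuousAt_const).norm
    apply this.eventually_lt continuousAt_const
    simp [a0, hr]
  have e2 : ∀ᶠ b in nhds (0 : EE d), ‖γ b - e‖ < r := by
    have : ContinuousAt (fun b => ‖γ b - e‖) 0 := (cγ.sub continuousAt_const).norm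
    apply this.eventually_lt continuousAt_const
    simp [c0, hr]
  have e3 : ∀ᶠ b in nhds (0 : EE d), |PA b - t| < ε := by
    have : ContinuousAt (fun b => |PA b - t|) 0 := (cPA.sub continuousAt_const).abs
    apply this.eventually_lt continuousAt_const
    simp [PA0, hε]
  have e4 : ∀ᶠ b in nhds (0 : EE d), |uC s K t e (γ b) - t| < ε := by
    have : ContinuousAt (fun b => |uC s K t e (γ b) - t|) 0 := (cC.sub continuousAt_const).abs
    apply this.eventually_lt continuousAt_const
    simp [C0, hε]
  have e5 : ∀ᶠ b in nhds (0 : EE d), b ∈ U := hU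
  obtain ⟨η₀, hη₀, hball⟩ := Metric.eventually_nhds_iff_ball.1 (e1.and (e2.and (e3.and (e4.and e5))))
  have hsub : Metric.ball (0 : EE d) (min η₀ r) ⊆ Metric.ball 0 η₀ :=
    Metric.ball_subset_ball (min_le_left _ _)
  exact ⟨{
    η := min η₀ r
    U := U
    VA := VA
    VC := VC
    α := α
    γ := γ
    βA := βA
    βC := βC
    η_pos := lt_min hη₀ hr
    η_le := min_le_right _ _
    ball_sub := fun b hb => (hball b (hsub hb)).2.2.2.2
    diffA := dA
    diffC := dC
    α_meas := mα
    γ_meas := mγ
    βA_meas := mβA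
    βC_meas := mβC
    nearA := fun b hb => (hball b (hsub hb)).1
    nearC := fun b hb => (hball b (hsub hb)).2.1
    eqB := fun b hb => (hE b (hball b (hsub hb)).2.2.2.2).1
    eqC := fun b hb => (hE b (hball b (hsub hb)).2.2.2.2).2
    potA := fun b hb => by
      rw [hPA b (hball b (hsub hb)).2.2.2.2]
      exact (hball b (hsub hb)).2.2.1
    potC := fun b hb => (hball b (hsub hb)).2.2.2.1 }⟩

end Crest.Agent.MM3
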