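/-
Row 130 / S0175 project: the geometric package (assembly of the G-tasks).  Owner: helper68.
-/
import Crest.Agent.MM3_GeoIneq1
import Crest.Agent.MM3_GeoIneq2
import Crest.Agent.MM3_GeoIneq3
import Crest.Agent.MM3_OneType
import Crest.Agent.MM3_Consts

set_option autoImplicit false
open MeasureTheory Set
open scoped ENNReal ContDiff RealInnerProductSpace
open Crest.AnalysisR.OT

namespace Crest.Agent.MM3

variable {d : ℕ} {s K t ε r : ℝ} {e : Fin 2 → EE d}

theorem mkGeo_valid (hC : Consts s K t ε r) (he : ∀ j, ‖e j‖ = 1) (h01 : ⟪e 0, e 1⟫ = 0)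
    (T : ∀ j, OneType d s K t ε r (e j)) : (mkGeo T).Valid s where
  η_pos := lt_min (T 0).η_pos (T 1).η_pos
  ball_sub := fun j => (mkGeo_SB_sub T j).trans (T j).ball_sub
  diffA := fun j => (T j).diffA
  diffC := fun j => (T j).diffC
  fA_meas := fun j => (T j).α_meas
  fC_meas := fun j => (T j).γ_meas
  gA_meas := fun j => (T j).βA_meas
  gC_meas := fun j => (T j).βC_meas
  disj_BA := mkGeo_disj_BA hC he T
  disj_BC := mkGeo_disj_BC hC he T
  disj_AC := mkGeo_disj_AC hC he h01 T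
  disj_AA := mkGeo_disj_AA hC he h01 T
  disj_CC := mkGeo_disj_CC hC he h01 T
  u_meas := mkGeo_u_meas T
  u_bdd := mkGeo_u_bdd hC T
  two_B := mkGeo_two_B hC he h01 T
  no_B := mkGeo_no_B hC he h01 T
  one_B := by
    intro x hx y hy z hz
    rcases mkGeo_O_dichotomy hC he h01 T y hy z hz with h | ⟨j, ⟨h1, h2⟩ | ⟨h1, h2⟩⟩
    · exact (mkGeo_one_B_adj hC he h01 T x hx y hy z hz h).le
    · exact (mkGeo_one_B_opp hC he h01 T j x hx y h1 z h2).1
    · have := (mkGeo_one_B_opp hC he h01 T j x hx z h2 y h1).1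
      rw [tripleCost_swap23] at this
      calc (mkGeo T).u x + (mkGeo T).u y + (mkGeo T).u z
          = (mkGeo T).u x + (mkGeo T).u z + (mkGeo T).u y := by ring
        _ ≤ _ := this
  one_B_eq := by
    intro x hx y hy z hz hle
    rcases mkGeo_O_dichotomy hC he h01 T y hy z hz with h | ⟨j, ⟨h1, h2⟩ | ⟨h1, h2⟩⟩
    · exact absurd hle (not_le.2 (mkGeo_one_B_adj hC he h01 T x hx y hy z hz h))
    · exact ⟨j, Or.inl ((mkGeo_one_B_opp hC he h01 T j x hx y h1 z h2).2 hle)⟩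
    · refine ⟨j, Or.inr ?_⟩
      have := (mkGeo_one_B_opp hC he h01 T j x hx z h2 y h1).2 (by
        rw [tripleCost_swap23]
        calc tripleCost s (x, y, z) ≤ (mkGeo T).u x + (mkGeo T).u y + (mkGeo T).u z := hle
          _ = (mkGeo T).u x + (mkGeo T).u z + (mkGeo T).u y := by ring)
      exact ⟨this.2, this.1⟩
  cfg_eq := mkGeo_cfg_eq hC he h01 T
  modulus := mkGeo_modulus hC he T

theorem exists_geo (d : ℕ) (hd : 2 ≤ d) (s : ℝ) (hs : 0 < s) : ∃ G : GeoData d, G.Valid s := by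
  obtain ⟨K₀, hK₀⟩ := exists_oneType d s hs
  obtain ⟨K, hK, t, ε, r, hC⟩ := exists_consts s hs K₀
  let e : Fin 2 → EE d := fun j => EuclideanSpace.single ⟨j.1, by omega⟩ (1 : ℝ)
  have he : ∀ j, ‖e j‖ = 1 := fun j => by simp [e]
  have h01 : ⟪e 0, e 1⟫ = 0 := by
    simp [e, EuclideanSpace.inner_single_left]
  have T : ∀ j, OneType d s K t ε r (e j) := fun j => (hK₀ K hK t ε r hC.hε hC.hr (e j) (he j)).some
  exact ⟨mkGeo T, mkGeo_valid hC he h01 T⟩

end Crest.Agent.MM3
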