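/-
Row 130 / S0175 project, task ATC (no Monge minimiser).  One owner; keep statements.
-/
import Crest.Agent.MM3_Duality

set_option autoImplicit false
open MeasureTheory Set
open scoped ENNReal
open Crest.AnalysisR.OT

namespace Crest.Agent.MM3
namespace CfgData
variable {X : Type*} [MeasurableSpace X] {D : CfgData X}

theorem μ_apply' (h : D.Valid) {A : Set X} (hA : MeasurableSet A) :
    D.μ A = 2 * D.ν A + ((D.ν (D.fA 0 ⁻¹' A) + D.ν (D.fC 0 ⁻¹' A))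
      + (D.ν (D.fA 1 ⁻¹' A) + D.ν (D.fC 1 ⁻¹' A))) := by
  simp only [CfgData.μ, Fin.sum_univ_two, Measure.add_apply, Measure.smul_apply, smul_eq_mul,
    Measure.map_apply (h.fA_meas _) hA, Measure.map_apply (h.fC_meas _) hA]

theorem disj_AA' (h : D.Valid) {i j : Fin 2} {x : X} (hi : x ∈ D.SA i) (hj : x ∈ D.SA j) :
    i = j := by
  by_contra hne
  have h01 := Set.disjoint_left.mp h.disj_AA
  fin_cases i <;> fin_cases j <;> simp_all

theorem disj_CC' (h : D.Valid) {i j : Fin 2} {x : X} (hi : x ∈ D.SC i) (hj : x ∈ D.SC j) :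
    i = j := by
  by_contra hne
  have h01 := Set.disjoint_left.mp h.disj_CC
  fin_cases i <;> fin_cases j <;> simp_all

/-- ATC.  No Monge pair attains the value.

Paper proof.  Write m = ν(univ) ∈ (0,∞).  Suppose `∫ c(x,T₂x,T₃x) dμ ≤ val`.  By `coupling_of_monge`,
`ae_mem_S_of_coupling`, `ae_eq_of_cost_le` (transport the a.e. statements through `ae_map_iff`) we get: for μ-a.e. x,
x, T₂x, T₃x ∈ S and c(x,T₂x,T₃x) ≤ u+u+u, hence the three alternatives of `Valid.rigid` hold at (x,T₂x,T₃x).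
Put, for j : Fin 2,  N j = SB ∩ T₂⁻¹(SA j ∪ SC j)   (measurable, N 0 ∩ N 1 = ∅),
  G = ⋃ j, (SA j ∩ (gA j)⁻¹(N j)) ∪ (SC j ∩ (gC j)⁻¹(N j))   (measurable, disjoint from SB).
(1) μ(G) = 2 (ν(N 0) + ν(N 1)) ≤ 2m:  μ = 2ν + Σ (fA j)#ν + (fC j)#ν;  ν(G)=0 because G ∩ SB = ∅, ν(SBᶜ)=0;
    for b ∈ SB: fA j b ∈ G ↔ b ∈ N j (disjointness of the clusters, gA_fA), same for fC.
(2) for a.e. x ∈ SB: T₂x ∈ G and T₃x ∈ G (rigid, first alternative: {T₂x,T₃x} = {fA j x, fC j x}, so x ∈ N j).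
(3) for a.e. x ∈ G: T₂x ∈ G or T₃x ∈ G (x = fA j b, b = gA j x ∈ N j: partners are b and fC j b ∈ G; same for SC).
(4) μ(G) = μ(T₂⁻¹G) ≥ μ(SB) + μ(G ∩ T₂⁻¹G), μ(SB) ≥ 2m; same for T₃; and μ(G) ≤ μ(G∩T₂⁻¹G)+μ(G∩T₃⁻¹G).
    Hence 2 μ(G) ≥ 4m + μ(G), μ(G) ≥ 4m > 2m ≥ μ(G): contradiction. -/
theorem monge_strict (h : D.Valid) (T₂ T₃ : X → X) (h₂ : Measurable T₂) (h₃ : Measurable T₃)
    (m₂ : D.μ.map T₂ = D.μ) (m₃ : D.μ.map T₃ = D.μ) :
    D.val < ∫⁻ x, D.c (x, T₂ x, T₃ x) ∂D.μ := by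
  by_contra hcon
  rw [not_lt] at hcon
  have hF : Measurable (fun x => (x, T₂ x, T₃ x)) := measurable_id.prodMk (h₂.prodMk h₃)
  have hπ := coupling_of_monge h T₂ T₃ h₂ h₃ m₂ m₃
  have hcost : ∫⁻ p, D.c p ∂(D.μ.map fun x => (x, T₂ x, T₃ x)) ≤ D.val := by
    rw [lintegral_map h.c_meas hF]; exact hcon
  have ae1 := ae_of_ae_map hF.aemeasurable (ae_mem_S_of_coupling h _ hπ)
  have ae2 := ae_of_ae_map hF.aemeasurable (ae_eq_of_cost_le h _ hπ hcost)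
  -- the rigidity alternatives hold almost everywhere
  have hrig : ∀ᵐ x ∂D.μ,
      (x ∈ D.SB → ∃ j, (T₂ x = D.fA j x ∧ T₃ x = D.fC j x) ∨ (T₂ x = D.fC j x ∧ T₃ x = D.fA j x)) ∧
      (∀ j, x ∈ D.SA j → (T₂ x = D.gA j x ∧ T₃ x = D.fC j (D.gA j x)) ∨
        (T₂ x = D.fC j (D.gA j x) ∧ T₃ x = D.gA j x)) ∧
      (∀ j, x ∈ D.SC j → (T₂ x = D.gC j x ∧ T₃ x = D.fA j (D.gC j x)) ∨
        (T₂ x = D.fA j (D.gC j x) ∧ T₃ x = D.gC j x)) := by
    filter_upwards [ae1, ae2] with x hx1 hx2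
    exact h.rigid x hx1.1 (T₂ x) hx1.2.1 (T₃ x) hx1.2.2 hx2
  -- the sets
  set N : Fin 2 → Set X := fun j => D.SB ∩ T₂ ⁻¹' (D.SA j ∪ D.SC j) with hN
  have hNm : ∀ j, MeasurableSet (N j) := fun j =>
    h.SB_meas.inter (h₂ ((h.SA_meas j).union (h.SC_meas j)))
  set G : Set X := ⋃ j, ((D.SA j ∩ D.gA j ⁻¹' N j) ∪ (D.SC j ∩ D.gC j ⁻¹' N j)) with hG
  have hGm : MeasurableSet G := MeasurableSet.iUnion fun j =>
    ((h.SA_meas j).inter (h.gA_meas j (hNm j))).union ((h.SC_meas j).inter (h.gC_meas j (hNm j)))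
  have hGA : ∀ j, ∀ b ∈ N j, D.fA j b ∈ G := by
    intro j b hb
    refine mem_iUnion.mpr ⟨j, Or.inl ⟨h.fA_mem j b hb.1, ?_⟩⟩
    show D.gA j (D.fA j b) ∈ N j
    rw [h.gA_fA j b hb.1]; exact hb
  have hGC : ∀ j, ∀ b ∈ N j, D.fC j b ∈ G := by
    intro j b hb
    refine mem_iUnion.mpr ⟨j, Or.inr ⟨h.fC_mem j b hb.1, ?_⟩⟩
    show D.gC j (D.fC j b) ∈ N j
    rw [h.gC_fC j b hb.1]; exact hb
  have hGB : Disjoint D.SB G := by
    rw [Set.disjoint_left]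
    intro x hxB hxG
    obtain ⟨j, hj⟩ := mem_iUnion.mp hxG
    rcases hj with hj | hj
    · exact Set.disjoint_left.mp (h.disj_BA j) hxB hj.1
    · exact Set.disjoint_left.mp (h.disj_BC j) hxB hj.1
  have hpreA : ∀ j, D.fA j ⁻¹' G ⊆ N j ∪ D.SBᶜ := by
    intro j b hb
    by_cases hbB : b ∈ D.SB
    · left
      obtain ⟨i, hi⟩ := mem_iUnion.mp hb
      have hmem := h.fA_mem j b hbB
      rcases hi with hi | hi
      · have hij : i = j := disj_AA' h hi.1 hmem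
        subst hij
        have := hi.2
        change D.gA i (D.fA i b) ∈ N i at this
        rwa [h.gA_fA i b hbB] at this
      · exact absurd hi.1 (Set.disjoint_left.mp (h.disj_AC j i) hmem)
    · right; exact hbB
  have hpreC : ∀ j, D.fC j ⁻¹' G ⊆ N j ∪ D.SBᶜ := by
    intro j b hb
    by_cases hbB : b ∈ D.SB
    · left
      obtain ⟨i, hi⟩ := mem_iUnion.mp hb
      have hmem := h.fC_mem j b hbB
      rcases hi with hi | hi
      · exact absurd hmem (Set.disjoint_left.mp (h.disj_AC i j) hi.1)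
      · have hij : i = j := disj_CC' h hi.1 hmem
        subst hij
        have := hi.2
        change D.gC i (D.fC i b) ∈ N i at this
        rwa [h.gC_fC i b hbB] at this
    · right; exact hbB
  have hνle : ∀ (A : Set X) (j : Fin 2), A ⊆ N j ∪ D.SBᶜ → D.ν A ≤ D.ν (N j) := by
    intro A j hA
    calc D.ν A ≤ D.ν (N j ∪ D.SBᶜ) := measure_mono hA
      _ ≤ D.ν (N j) + D.ν D.SBᶜ := measure_union_le _ _
      _ = D.ν (N j) := by rw [h.ν_SB, add_zero]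
  have hνG : D.ν G = 0 := by
    apply measure_mono_null _ h.ν_SB
    intro x hx hxB
    exact Set.disjoint_left.mp hGB hxB hx
  have hN01 : Disjoint (N 0) (N 1) := by
    rw [Set.disjoint_left]
    intro x hx0 hx1
    rcases hx0.2 with ha | hc
    · rcases hx1.2 with ha' | hc'
      · exact Set.disjoint_left.mp h.disj_AA ha ha'
      · exact Set.disjoint_left.mp (h.disj_AC 0 1) ha hc'
    · rcases hx1.2 with ha' | hc'
      · exact Set.disjoint_left.mp (h.disj_AC 1 0) ha' hc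
      · exact Set.disjoint_left.mp h.disj_CC hc hc'
  set m : ℝ≥0∞ := D.ν univ with hm
  have hm0 : m ≠ 0 := h.ν_pos
  have hmtop : m ≠ ⊤ := by
    have := h.ν_fin
    exact measure_ne_top _ _
  have hNsum : D.ν (N 0) + D.ν (N 1) ≤ m := by
    rw [← measure_union hN01 (hNm 1)]
    exact measure_mono (subset_univ _)
  -- (1)
  have step1 : D.μ G ≤ m + m := by
    rw [μ_apply' h hGm, hνG, mul_zero, zero_add]
    calc (D.ν (D.fA 0 ⁻¹' G) + D.ν (D.fC 0 ⁻¹' G)) + (D.ν (D.fA 1 ⁻¹' G) + D.ν (D.fC 1 ⁻¹' G))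
        ≤ (D.ν (N 0) + D.ν (N 0)) + (D.ν (N 1) + D.ν (N 1)) :=
          add_le_add (add_le_add (hνle _ 0 (hpreA 0)) (hνle _ 0 (hpreC 0)))
            (add_le_add (hνle _ 1 (hpreA 1)) (hνle _ 1 (hpreC 1)))
      _ = (D.ν (N 0) + D.ν (N 1)) + (D.ν (N 0) + D.ν (N 1)) := by ring
      _ ≤ m + m := add_le_add hNsum hNsum
  -- mass of SB
  have hSB : m + m ≤ D.μ D.SB := by
    rw [μ_apply' h h.SB_meas]
    have : D.ν D.SB = m := by
      rw [hm, ← measure_add_measure_compl h.SB_meas, h.ν_SB, add_zero]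
    rw [this, two_mul]
    exact le_self_add
  -- (2)
  have step2 : ∀ᵐ x ∂D.μ, x ∈ D.SB → T₂ x ∈ G ∧ T₃ x ∈ G := by
    filter_upwards [hrig] with x hx hxB
    obtain ⟨j, hj⟩ := hx.1 hxB
    have hxN : x ∈ N j := by
      refine ⟨hxB, ?_⟩
      rcases hj with hj | hj
      · left; show T₂ x ∈ D.SA j; rw [hj.1]; exact h.fA_mem j x hxB
      · right; show T₂ x ∈ D.SC j; rw [hj.1]; exact h.fC_mem j x hxB
    rcases hj with hj | hj
    · rw [hj.1, hj.2]; exact ⟨hGA j x hxN, hGC j x hxN⟩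
    · rw [hj.1, hj.2]; exact ⟨hGC j x hxN, hGA j x hxN⟩
  -- (3)
  have step3 : ∀ᵐ x ∂D.μ, x ∈ G → T₂ x ∈ G ∨ T₃ x ∈ G := by
    filter_upwards [hrig] with x hx hxG
    obtain ⟨j, hj⟩ := mem_iUnion.mp hxG
    rcases hj with hj | hj
    · have hb : D.gA j x ∈ N j := hj.2
      rcases hx.2.1 j hj.1 with hh | hh
      · right; rw [hh.2]; exact hGC j _ hb
      · left; rw [hh.1]; exact hGC j _ hb
    · have hb : D.gC j x ∈ N j := hj.2
      rcases hx.2.2 j hj.1 with hh | hh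
      · right; rw [hh.2]; exact hGA j _ hb
      · left; rw [hh.1]; exact hGA j _ hb
  -- (4)
  have hT₂G : D.μ (T₂ ⁻¹' G) = D.μ G := by
    conv_rhs => rw [← m₂]
    rw [Measure.map_apply h₂ hGm]
  have hT₃G : D.μ (T₃ ⁻¹' G) = D.μ G := by
    conv_rhs => rw [← m₃]
    rw [Measure.map_apply h₃ hGm]
  have ineq2 : D.μ D.SB + D.μ (G ∩ T₂ ⁻¹' G) ≤ D.μ G := by
    rw [← hT₂G, ← measure_union (hGB.mono_right inter_subset_left) (hGm.inter (h₂ hGm))]
    apply measure_mono_ae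
    filter_upwards [step2] with x hx hxm
    rcases hxm with hxB | hxG
    · exact (hx hxB).1
    · exact hxG.2
  have ineq3 : D.μ D.SB + D.μ (G ∩ T₃ ⁻¹' G) ≤ D.μ G := by
    rw [← hT₃G, ← measure_union (hGB.mono_right inter_subset_left) (hGm.inter (h₃ hGm))]
    apply measure_mono_ae
    filter_upwards [step2] with x hx hxm
    rcases hxm with hxB | hxG
    · exact (hx hxB).2
    · exact hxG.2
  have ineqG : D.μ G ≤ D.μ (G ∩ T₂ ⁻¹' G) + D.μ (G ∩ T₃ ⁻¹' G) := by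
    refine le_trans ?_ (measure_union_le _ _)
    apply measure_mono_ae
    filter_upwards [step3] with x hx hxG
    rcases hx hxG with h2 | h3
    · exact Or.inl ⟨hxG, h2⟩
    · exact Or.inr ⟨hxG, h3⟩
  have hGtop : D.μ G ≠ ⊤ := ne_top_of_le_ne_top (ENNReal.add_ne_top.mpr ⟨hmtop, hmtop⟩) step1
  have key : (D.μ D.SB + D.μ D.SB) + D.μ G ≤ D.μ G + D.μ G := by
    calc (D.μ D.SB + D.μ D.SB) + D.μ G
        ≤ (D.μ D.SB + D.μ D.SB) + (D.μ (G ∩ T₂ ⁻¹' G) + D.μ (G ∩ T₃ ⁻¹' G)) := by gcongr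
      _ = (D.μ D.SB + D.μ (G ∩ T₂ ⁻¹' G)) + (D.μ D.SB + D.μ (G ∩ T₃ ⁻¹' G)) := by ring
      _ ≤ D.μ G + D.μ G := add_le_add ineq2 ineq3
  have key2 : D.μ D.SB + D.μ D.SB ≤ D.μ G := (ENNReal.add_le_add_iff_right hGtop).mp key
  have key3 : (m + m) + (m + m) ≤ 0 + (m + m) := by
    rw [zero_add]
    exact (add_le_add hSB hSB).trans (key2.trans step1)
  have key4 : m + m ≤ 0 :=
    (ENNReal.add_le_add_iff_right (ENNReal.add_ne_top.mpr ⟨hmtop, hmtop⟩)).mp key3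
  have : m = 0 := by
    have := le_antisymm key4 zero_le
    exact (add_eq_zero.mp this).1
  exact hm0 this

end CfgData
end Crest.Agent.MM3
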