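/-
Row 130 / S0175 project, task ATB (the optimal plan).  One owner; keep statements.
-/
import Crest.Agent.MM3_Duality

set_option autoImplicit false
open MeasureTheory Set
open scoped ENNReal
open Crest.AnalysisR.OT

namespace Crest.Agent.MM3
namespace CfgData
variable {X : Type*} [MeasurableSpace X] (D : CfgData X)

/-- the optimal plan: for both types `j`, the three cyclic arrangements of the configuration
`(fA j b, b, fC j b)`, `b ∼ ν`. -/
noncomputable def π₀ : Measure (X × X × X) :=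
  ∑ j : Fin 2, (D.ν.map (fun b => (D.fA j b, b, D.fC j b)) + D.ν.map (fun b => (b, D.fC j b, D.fA j b))
    + D.ν.map (fun b => (D.fC j b, D.fA j b, b)))

variable {D}

theorem Valid.meas_t1 (h : D.Valid) (j : Fin 2) :
    Measurable (fun b => (D.fA j b, b, D.fC j b)) :=
  (h.fA_meas j).prodMk (measurable_id.prodMk (h.fC_meas j))

theorem Valid.meas_t2 (h : D.Valid) (j : Fin 2) :
    Measurable (fun b => (b, D.fC j b, D.fA j b)) :=
  measurable_id.prodMk ((h.fC_meas j).prodMk (h.fA_meas j))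

theorem Valid.meas_t3 (h : D.Valid) (j : Fin 2) :
    Measurable (fun b => (D.fC j b, D.fA j b, b)) :=
  (h.fC_meas j).prodMk ((h.fA_meas j).prodMk measurable_id)

/-- push-forward of `π₀` -/
theorem map_π₀ (h : D.Valid) {Y : Type*} [MeasurableSpace Y] (f : X × X × X → Y)
    (hf : Measurable f) :
    D.π₀.map f = ∑ j : Fin 2, (D.ν.map (fun b => f (D.fA j b, b, D.fC j b))
      + D.ν.map (fun b => f (b, D.fC j b, D.fA j b)) + D.ν.map (fun b => f (D.fC j b, D.fA j b, b))) := by
  simp only [π₀, Fin.sum_univ_two, Measure.map_add _ _ hf, Measure.map_map hf (h.meas_t1 _),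
    Measure.map_map hf (h.meas_t2 _), Measure.map_map hf (h.meas_t3 _)]
  rfl

/-- ATB1. all three marginals of `π₀` are `μ` (`Measure.map_add`, `Measure.map_map`, `Finset.sum`,
`Fin.sum_univ_two`, `two_smul`, `add_comm` ...). -/
theorem π₀_coupling (h : D.Valid) : IsCoupling₃ D.μ D.π₀ := by
  have hid : D.ν.map (fun b => b) = D.ν := Measure.map_id
  have m1 : Measurable (fun p : X × X × X => p.1) := measurable_fst
  have m2 : Measurable (fun p : X × X × X => p.2.1) := measurable_fst.comp measurable_snd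
  have m3 : Measurable (fun p : X × X × X => p.2.2) := measurable_snd.comp measurable_snd
  refine ⟨?_, ?_, ?_⟩
  · rw [map_π₀ h _ m1]
    simp only [hid, Fin.sum_univ_two, μ, two_smul]
    abel
  · rw [map_π₀ h _ m2]
    simp only [hid, Fin.sum_univ_two, μ, two_smul]
    abel
  · rw [map_π₀ h _ m3]
    simp only [hid, Fin.sum_univ_two, μ, two_smul]
    abel

theorem Valid.ae_mem_SB (h : D.Valid) : ∀ᵐ b ∂D.ν, b ∈ D.SB := by
  rw [ae_iff]
  exact h.ν_SB

/-- `c = u + u + u` holds `π₀`-a.e. -/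
theorem π₀_ae_eq (h : D.Valid) : ∀ᵐ p ∂D.π₀, D.c p = D.u p.1 + D.u p.2.1 + D.u p.2.2 := by
  have hu := h.u_meas
  have m1 : Measurable (fun p : X × X × X => p.1) := measurable_fst
  have m2 : Measurable (fun p : X × X × X => p.2.1) := measurable_fst.comp measurable_snd
  have m3 : Measurable (fun p : X × X × X => p.2.2) := measurable_snd.comp measurable_snd
  have k : Measurable (fun p : X × X × X => D.u p.1 + D.u p.2.1 + D.u p.2.2) :=
    ((hu.comp m1).add (hu.comp m2)).add (hu.comp m3)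
  have hset : MeasurableSet {p : X × X × X | D.c p = D.u p.1 + D.u p.2.1 + D.u p.2.2} :=
    measurableSet_eq_fun h.c_meas k
  have a1 : ∀ j, ∀ᵐ p ∂(D.ν.map (fun b => (D.fA j b, b, D.fC j b))),
      D.c p = D.u p.1 + D.u p.2.1 + D.u p.2.2 := by
    intro j
    rw [ae_map_iff (h.meas_t1 j).aemeasurable hset]
    filter_upwards [h.ae_mem_SB] with b hb
    show D.c (D.fA j b, b, D.fC j b) = D.u (D.fA j b) + D.u b + D.u (D.fC j b)
    rw [h.c_213, h.cfg_eq j b hb, add_comm (D.u b)]
  have a2 : ∀ j, ∀ᵐ p ∂(D.ν.map (fun b => (b, D.fC j b, D.fA j b))),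
      D.c p = D.u p.1 + D.u p.2.1 + D.u p.2.2 := by
    intro j
    rw [ae_map_iff (h.meas_t2 j).aemeasurable hset]
    filter_upwards [h.ae_mem_SB] with b hb
    show D.c (b, D.fC j b, D.fA j b) = D.u b + D.u (D.fC j b) + D.u (D.fA j b)
    rw [h.c_132, h.cfg_eq j b hb, add_right_comm]
  have a3 : ∀ j, ∀ᵐ p ∂(D.ν.map (fun b => (D.fC j b, D.fA j b, b))),
      D.c p = D.u p.1 + D.u p.2.1 + D.u p.2.2 := by
    intro j
    rw [ae_map_iff (h.meas_t3 j).aemeasurable hset]
    filter_upwards [h.ae_mem_SB] with b hb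
    show D.c (D.fC j b, D.fA j b, b) = D.u (D.fC j b) + D.u (D.fA j b) + D.u b
    rw [h.c_312, h.c_132, h.cfg_eq j b hb]
    ring
  simp only [π₀, Fin.sum_univ_two, ae_add_measure_iff]
  exact ⟨⟨⟨a1 0, a2 0⟩, a3 0⟩, ⟨⟨a1 1, a2 1⟩, a3 1⟩⟩

/-- ATB2. cost of `π₀` = value.  (On each piece `c = u+u+u` for `b ∈ SB`, i.e. `ν`-a.e., by `cfg_eq` and the
symmetry of `c`; then use `lintegral_sum_u_of_coupling`, or `weak_duality` + `≤`.) -/
theorem π₀_cost (h : D.Valid) : ∫⁻ p, D.c p ∂D.π₀ = D.val := by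
  rw [lintegral_congr_ae (π₀_ae_eq h)]
  exact lintegral_sum_u_of_coupling h _ (π₀_coupling h)

end CfgData
end Crest.Agent.MM3
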