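/-
Row 130 / S0175 project, task P2 (push-forward of a smooth density under a local diffeomorphism).
One owner; keep statements.
-/
import Crest.Agent.MM3_Det

set_option autoImplicit false
open MeasureTheory Set
open scoped ENNReal ContDiff
open Crest.AnalysisR.OT

namespace Crest.Agent.MM3

/-- P2.  `τ y = ψ (g y) * √|det Dg(y)|` for `y ∈ V`, `0` otherwise.
* smooth: on the open set `V` by `contDiffOn_sqrt_abs_det`; on the open set `(f '' tsupport ψ)ᶜ` it vanishes
  (`y ∈ V`, `g y ∈ tsupport ψ` ⟹ `y = f (g y)`); `f '' tsupport ψ` is compact ⊆ V; the two open sets cover.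
* measure: for measurable `S`: `f ⁻¹' S ∩ U = g '' (S ∩ V)`, `ψ = 0` off `U`, and
  `∫⁻ x in g '' (S ∩ V), ofReal (ψ x ^2) = ∫⁻ y in S ∩ V, ofReal |det Dg y| * ofReal (ψ (g y)^2)` by
  `MeasureTheory.lintegral_image_eq_lintegral_abs_det_fderiv_mul` (`g` injective on `V`). -/
theorem pushforward_density {d : ℕ} (f g : EE d → EE d) (U V : Set (EE d)) (h : LocDiffeo f g U V)
    (hf : Measurable f) (ψ : EE d → ℝ) (hψ : ContDiff ℝ ∞ ψ) (hc : HasCompactSupport ψ)
    (hsupp : tsupport ψ ⊆ U) (hpos : ∀ x, 0 ≤ ψ x) :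
    ∃ τ : EE d → ℝ, ContDiff ℝ ∞ τ ∧ HasCompactSupport τ ∧ (∀ y, 0 ≤ τ y) ∧
      Function.support τ ⊆ f '' Function.support ψ ∧
      (measOfDensity fun x => ψ x ^ 2).map f = measOfDensity (fun y => τ y ^ 2) := by
  classical
  obtain ⟨hdet, hdet0⟩ := h.contDiffOn_sqrt_abs_det
  set σ : EE d → ℝ := fun y => ψ (g y) * Real.sqrt |(fderiv ℝ g y).det| with hσ
  set τ : EE d → ℝ := V.indicator σ with hτ
  set K : Set (EE d) := f '' tsupport ψ with hK
  have hKc : IsCompact K := hc.isCompact.image_of_continuousOn (h.smooth.continuousOn.mono hsupp)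
  have hKV : K ⊆ V := by
    rintro _ ⟨x, hx, rfl⟩
    exact h.mapsTo (hsupp hx)
  have hzero : ∀ y, y ∉ K → τ y = 0 := by
    intro y hy
    by_cases hyV : y ∈ V
    · have : g y ∉ tsupport ψ := fun hg => hy ⟨g y, hg, h.right y hyV⟩
      have h0 : ψ (g y) = 0 := image_eq_zero_of_notMem_tsupport this
      simp [hτ, hσ, hyV, h0]
    · simp [hτ, hyV]
  have hσsm : ContDiffOn ℝ ∞ σ V := (hψ.comp_contDiffOn h.smooth').mul hdet
  have hsm : ContDiff ℝ ∞ τ := by
    rw [contDiff_iff_contDiffAt]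
    intro y
    by_cases hyV : y ∈ V
    · have h1 : ContDiffAt ℝ ∞ σ y := hσsm.contDiffAt (h.openV.mem_nhds hyV)
      refine h1.congr_of_eventuallyEq ?_
      filter_upwards [h.openV.mem_nhds hyV] with z hz
      simp [hτ, hz]
    · have hyK : y ∈ Kᶜ := fun hy => hyV (hKV hy)
      have h1 : ContDiffAt ℝ ∞ (fun _ : EE d => (0 : ℝ)) y := contDiffAt_const
      refine h1.congr_of_eventuallyEq ?_
      filter_upwards [hKc.isClosed.isOpen_compl.mem_nhds hyK] with z hz
      exact hzero z hz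
  have hcs : HasCompactSupport τ := HasCompactSupport.intro hKc hzero
  have hnn : ∀ y, 0 ≤ τ y := by
    intro y
    by_cases hyV : y ∈ V
    · simp only [hτ, hσ, indicator_of_mem hyV]
      exact mul_nonneg (hpos _) (Real.sqrt_nonneg _)
    · simp [hτ, hyV]
  have hsub : Function.support τ ⊆ f '' Function.support ψ := by
    intro y hy
    have hyV : y ∈ V := by
      by_contra hyV
      exact hy (by simp [hτ, hyV])
    have h1 : ψ (g y) ≠ 0 := by
      intro h0
      exact hy (by simp [hτ, hσ, hyV, h0])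
    exact ⟨g y, h1, h.right y hyV⟩
  refine ⟨τ, hsm, hcs, hnn, hsub, ?_⟩
  ext S hS
  rw [Measure.map_apply hf hS]
  unfold measOfDensity
  rw [withDensity_apply _ (hf hS), withDensity_apply _ hS]
  have hUm : MeasurableSet U := h.openU.measurableSet
  have hVm : MeasurableSet V := h.openV.measurableSet
  -- left side: restrict to `U`
  have hL : ∫⁻ x in f ⁻¹' S, ENNReal.ofReal (ψ x ^ 2) =
      ∫⁻ x in f ⁻¹' S ∩ U, ENNReal.ofReal (ψ x ^ 2) := by
    rw [← lintegral_indicator (hf hS), ← lintegral_indicator ((hf hS).inter hUm)]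
    congr 1
    ext x
    by_cases hxU : x ∈ U
    · by_cases hxS : x ∈ f ⁻¹' S
      · rw [indicator_of_mem hxS, indicator_of_mem (show x ∈ f ⁻¹' S ∩ U from Set.mem_inter hxS hxU)]
      · rw [indicator_of_notMem hxS, indicator_of_notMem (fun hx => hxS hx.1)]
    · have h0 : ψ x = 0 := image_eq_zero_of_notMem_tsupport (fun hx => hxU (hsupp hx))
      rw [indicator_of_notMem (fun hx : x ∈ f ⁻¹' S ∩ U => hxU hx.2)]
      simp [indicator, h0]
  have hR : ∫⁻ y in S, ENNReal.ofReal (τ y ^ 2) =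
      ∫⁻ y in S ∩ V, ENNReal.ofReal (τ y ^ 2) := by
    rw [← lintegral_indicator hS, ← lintegral_indicator (hS.inter hVm)]
    congr 1
    ext y
    by_cases hyV : y ∈ V
    · by_cases hyS : y ∈ S
      · rw [indicator_of_mem hyS, indicator_of_mem (show y ∈ S ∩ V from Set.mem_inter hyS hyV)]
      · rw [indicator_of_notMem hyS, indicator_of_notMem (fun hy => hyS hy.1)]
    · have h0 : τ y = 0 := by simp [hτ, hyV]
      rw [indicator_of_notMem (fun hy : y ∈ S ∩ V => hyV hy.2)]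
      simp [indicator, h0]
  have himg : f ⁻¹' S ∩ U = g '' (S ∩ V) := by
    ext x
    constructor
    · rintro ⟨hxS, hxU⟩
      exact ⟨f x, ⟨hxS, h.mapsTo hxU⟩, h.left x hxU⟩
    · rintro ⟨y, ⟨hyS, hyV⟩, rfl⟩
      refine ⟨?_, h.mapsTo' hyV⟩
      show f (g y) ∈ S
      rw [h.right y hyV]; exact hyS
  have hinj : InjOn g (S ∩ V) := by
    intro y hy y' hy' he
    rw [← h.right y hy.2, ← h.right y' hy'.2, he]
  have hder : ∀ y ∈ S ∩ V, HasFDerivWithinAt g (fderiv ℝ g y) (S ∩ V) y := by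
    intro y hy
    have h1 : ContDiffAt ℝ ∞ g y := h.smooth'.contDiffAt (h.openV.mem_nhds hy.2)
    exact (h1.differentiableAt (by simp)).hasFDerivAt.hasFDerivWithinAt
  rw [hL, hR, himg,
    lintegral_image_eq_lintegral_abs_det_fderiv_mul volume (hS.inter hVm) hder hinj]
  refine setLIntegral_congr_fun (hS.inter hVm) ?_
  intro y hy
  have hyV : y ∈ V := hy.2
  have e1 : τ y = ψ (g y) * Real.sqrt |(fderiv ℝ g y).det| := by simp [hτ, hσ, hyV]
  show ENNReal.ofReal |(fderiv ℝ g y).det| * ENNReal.ofReal (ψ (g y) ^ 2) = ENNReal.ofReal (τ y ^ 2)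
  rw [e1, mul_pow, Real.sq_sqrt (abs_nonneg _), ← ENNReal.ofReal_mul (abs_nonneg _), mul_comm]

end Crest.Agent.MM3
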