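/-
Row 130 / S0175 project, task F1 (geometric package + base measure ⟹ abstract configuration).  One owner; keep statements.
-/
import Crest.Agent.MM3_Kernel

set_option autoImplicit false
open MeasureTheory Set
open scoped ENNReal ContDiff
open Crest.AnalysisR.OT

namespace Crest.Agent.MM3
namespace GeoData
variable {d : ℕ} {G : GeoData d}

/-- F1.  Field by field.  `c_meas`, `c_swap..` from `MM3_Kernel`; measurability of `SB` (open ball), `SA j = VA j ∩ gA j ⁻¹' SB`
(open ∩ preimage of a measurable set under a measurable map); `fA_mem` etc. from `LocDiffeo` and `ball_sub`: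
for `b ∈ SB ⊆ U j`: `fA j b ∈ VA j`, `gA j (fA j b) = b ∈ SB`; for `x ∈ SA j`: `fA j (gA j x) = x` by `LocDiffeo.right`. -/
theorem toCfg_valid {s : ℝ} (hG : G.Valid s) (ν : Measure (EE d)) (hfin : IsFiniteMeasure ν)
    (hpos : ν univ ≠ 0) (hSB : ν G.SBᶜ = 0) : (G.toCfg s ν).Valid := by
  have hSBm : MeasurableSet G.SB := measurableSet_ball
  exact
  { c_meas := measurable_tripleCost s
    c_swap12 := fun x y z => tripleCost_swap12 s x y z
    c_swap23 := fun x y z => tripleCost_swap23 s x y z
    ν_fin := hfin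
    ν_pos := hpos
    ν_SB := hSB
    fA_meas := hG.fA_meas
    fC_meas := hG.fC_meas
    gA_meas := hG.gA_meas
    gC_meas := hG.gC_meas
    SB_meas := hSBm
    SA_meas := fun j => (hG.diffA j).openV.measurableSet.inter (hG.gA_meas j hSBm)
    SC_meas := fun j => (hG.diffC j).openV.measurableSet.inter (hG.gC_meas j hSBm)
    disj_BA := hG.disj_BA
    disj_BC := hG.disj_BC
    disj_AC := hG.disj_AC
    disj_AA := hG.disj_AA
    disj_CC := hG.disj_CC
    fA_mem := fun j b hb => by
      have hU : b ∈ G.U j := hG.ball_sub j hb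
      refine ⟨(hG.diffA j).mapsTo hU, ?_⟩
      show G.gA j (G.fA j b) ∈ G.SB
      rw [(hG.diffA j).left b hU]
      exact hb
    fC_mem := fun j b hb => by
      have hU : b ∈ G.U j := hG.ball_sub j hb
      refine ⟨(hG.diffC j).mapsTo hU, ?_⟩
      show G.gC j (G.fC j b) ∈ G.SB
      rw [(hG.diffC j).left b hU]
      exact hb
    gA_mem := fun j x hx => hx.2
    gC_mem := fun j x hx => hx.2
    gA_fA := fun j b hb => (hG.diffA j).left b (hG.ball_sub j hb)
    gC_fC := fun j b hb => (hG.diffC j).left b (hG.ball_sub j hb)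
    fA_gA := fun j x hx => (hG.diffA j).right x hx.1
    fC_gC := fun j x hx => (hG.diffC j).right x hx.1
    u_meas := hG.u_meas
    u_bdd := hG.u_bdd
    two_B := hG.two_B
    no_B := hG.no_B
    one_B := hG.one_B
    one_B_eq := hG.one_B_eq
    cfg_eq := hG.cfg_eq }

end GeoData
end Crest.Agent.MM3
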