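/-
ROW 342 (S0536 + S0537), project PR.  Basic definitions (FROZEN once landed).  Blueprint: notes/r342_blueprint.md.
-/
import Crest.Prelude.Def_NonlocalGame

set_option autoImplicit false

namespace Crest.Agent.PR

open Crest.MathPhysics.NonlocalGame
open scoped Kronecker ComplexOrder

section basic
variable {ι ιA ιB : Type} [Fintype ι] [Fintype ιA] [Fintype ιB] [DecidableEq ιA] [DecidableEq ιB]

/-- squared norm of a finite complex vector -/
noncomputable def nsq (f : ι → ℂ) : ℝ := ∑ i, ‖f i‖ ^ 2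

/-- `⟨ψ, (X ⊗ Y) ψ⟩` (real part). -/
noncomputable def qf (ψ : ιA × ιB → ℂ) (X : Matrix ιA ιA ℂ) (Y : Matrix ιB ιB ℂ) : ℝ :=
  (dotProduct (star ψ) ((X ⊗ₖ Y).mulVec ψ)).re

end basic

/-- `p` is a correlation table realised by a finite-dimensional entangled one-shot strategy of `G`. -/
def IsQCorr (G : Game) (p : Fin G.nX → Fin G.nY → Fin G.nA → Fin G.nB → ℝ) : Prop :=
  ∃ (dA dB : ℕ) (ψ : Fin dA × Fin dB → ℂ)
    (M : Fin G.nX → Fin G.nA → Matrix (Fin dA) (Fin dA) ℂ)
    (N : Fin G.nY → Fin G.nB → Matrix (Fin dB) (Fin dB) ℂ),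
    nsq ψ = 1 ∧ (∀ x a, (M x a).PosSemidef) ∧ (∀ y b, (N y b).PosSemidef) ∧
    (∀ x, ∑ a, M x a = 1) ∧ (∀ y, ∑ b, N y b = 1) ∧
    ∀ x y a b, p x y a b = qf ψ (M x a) (N y b)

/-- value of a correlation table -/
noncomputable def gval (G : Game) (p : Fin G.nX → Fin G.nY → Fin G.nA → Fin G.nB → ℝ) : ℝ :=
  ∑ x, ∑ y, G.prob x y * ∑ a, ∑ b, if G.accept x y a b = true then p x y a b else 0

/-- marginals of the question distribution -/
noncomputable def piA (G : Game) (x : Fin G.nX) : ℝ := ∑ y, G.prob x y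
noncomputable def piB (G : Game) (y : Fin G.nY) : ℝ := ∑ x, G.prob x y

variable {G : Game} {k dA dB : ℕ}

/-- probability that all the coordinates of `C` are won -/
noncomputable def pW (S : Strategy G k dA dB) (C : Finset (Fin k)) : ℝ :=
  ∑ x : Fin k → Fin G.nX, ∑ y : Fin k → Fin G.nY, (∏ i, G.prob (x i) (y i)) *
    ∑ a : Fin k → Fin G.nA, ∑ b : Fin k → Fin G.nB,
      if (∀ i ∈ C, G.accept (x i) (y i) (a i) (b i) = true) then S.answerProb x y a b else 0

/-- The linearised one-step inequality (OS-lin) with constant `K` and slack `δ/4`. -/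
def OSlin (S : Strategy G k dA dB) (v δ K : ℝ) : Prop :=
  ∀ C : Finset (Fin k), C.card < k →
    ∑ j ∈ Cᶜ, pW S (insert j C) ≤
      pW S C * (((k : ℝ) - C.card) * (v + δ / 4)
        + K * (Real.log (1 / pW S C) + C.card * Real.log ((G.nA * G.nB : ℕ) : ℝ)))

/-- probability that all the coordinates of `C` are won and the `j`-th question pair is `(x0,y0)` -/
noncomputable def pWq (S : Strategy G k dA dB) (C : Finset (Fin k)) (j : Fin k)
    (x0 : Fin G.nX) (y0 : Fin G.nY) : ℝ :=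
  ∑ x : Fin k → Fin G.nX, ∑ y : Fin k → Fin G.nY,
    (if x j = x0 ∧ y j = y0 then (∏ i, G.prob (x i) (y i)) else 0) *
    ∑ a : Fin k → Fin G.nA, ∑ b : Fin k → Fin G.nB,
      if (∀ i ∈ C, G.accept (x i) (y i) (a i) (b i) = true) then S.answerProb x y a b else 0

/-- A family of matrices is a POVM. -/
def IsPOVM {ι α : Type} [Fintype ι] [DecidableEq ι] [Fintype α] (N : α → Matrix ι ι ℂ) : Prop :=
  (∀ a, (N a).PosSemidef) ∧ ∑ a, N a = 1

/-- The output of the one-coordinate embedding: (unnormalised) vectors `f x y ≈ g x ≈ g' y` in a common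
bipartite space and POVMs depending only on the player's own question. -/
structure CoreData (G : Game) where
  ιA : Type
  ιB : Type
  [fA : Fintype ιA]
  [fB : Fintype ιB]
  [dA : DecidableEq ιA]
  [dB : DecidableEq ιB]
  f : Fin G.nX → Fin G.nY → ιA × ιB → ℂ
  g : Fin G.nX → ιA × ιB → ℂ
  g' : Fin G.nY → ιA × ιB → ℂ
  N : Fin G.nX → Fin G.nA → Matrix ιA ιA ℂ
  N' : Fin G.nY → Fin G.nB → Matrix ιB ιB ℂ
  hN : ∀ x, IsPOVM (N x)
  hN' : ∀ y, IsPOVM (N' y)
  hg : ∀ x, piA G x * nsq (g x) = ∑ y, G.prob x y * nsq (f x y)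
  hg' : ∀ y, piB G y * nsq (g' y) = ∑ x, G.prob x y * nsq (f x y)

attribute [instance] CoreData.fA CoreData.fB CoreData.dA CoreData.dB

namespace CoreData
variable (D : CoreData G)

/-- `∑ π(x,y) ⟨f(x,y)| win operator |f(x,y)⟩` -/
noncomputable def win : ℝ :=
  ∑ x, ∑ y, G.prob x y * ∑ a, ∑ b,
    if G.accept x y a b = true then qf (D.f x y) (D.N x a) (D.N' y b) else 0
/-- total mass `∑ π(x,y) |f(x,y)|²` -/
noncomputable def gam : ℝ := ∑ x, ∑ y, G.prob x y * nsq (D.f x y)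
/-- `∑ π |f(x,y) - g'(y)|²` (Alice's operator varies) -/
noncomputable def errA : ℝ := ∑ x, ∑ y, G.prob x y * nsq (D.f x y - D.g' y)
/-- `∑ π |f(x,y) - g(x)|²` (Bob's operator varies) -/
noncomputable def errB : ℝ := ∑ x, ∑ y, G.prob x y * nsq (D.f x y - D.g x)
/-- Hellinger-type defect of the label weights for a label function `h` on question pairs -/
noncomputable def hell {Lbl : Type} [Fintype Lbl] [DecidableEq Lbl]
    (h : Fin G.nX × Fin G.nY → Lbl) : ℝ :=
  ∑ l : Lbl, (Real.sqrt (∑ w : Fin G.nX × Fin G.nY, if h w = l then G.prob w.1 w.2 * nsq (D.f w.1 w.2) else 0)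
    - Real.sqrt ((∑ w : Fin G.nX × Fin G.nY, if h w = l then G.prob w.1 w.2 else 0) * D.gam)) ^ 2
end CoreData

end Crest.Agent.PR
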