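/-
ROW 342, project PR.  Basic API for `qf` and `nsq` (shared by all blocks).  Owner: helper76.
-/
import Crest.Agent.PR_Defs

set_option autoImplicit false
set_option linter.unusedSectionVars false

namespace Crest.Agent.PR

open Crest.MathPhysics.NonlocalGame
open scoped Kronecker ComplexOrder

variable {ι ιA ιB κA κB : Type} [Fintype ι] [Fintype ιA] [Fintype ιB] [Fintype κA] [Fintype κB]
  [DecidableEq ιA] [DecidableEq ιB] [DecidableEq κA] [DecidableEq κB]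

theorem nsq_nonneg (f : ι → ℂ) : 0 ≤ nsq f := by
  unfold nsq; positivity

theorem nsq_eq_zero_iff (f : ι → ℂ) : nsq f = 0 ↔ f = 0 := by
  unfold nsq
  rw [Finset.sum_eq_zero_iff_of_nonneg (fun i _ => by positivity)]
  constructor
  · intro h
    funext i
    have := h i (Finset.mem_univ i)
    simpa using this
  · intro h i _
    simp [h]

theorem nsq_smul (c : ℂ) (f : ι → ℂ) : nsq (c • f) = ‖c‖ ^ 2 * nsq f := by
  unfold nsq
  rw [Finset.mul_sum]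
  refine Finset.sum_congr rfl fun i _ => ?_
  simp [mul_pow]

/-- `|f - h|² ≤ 2|f - g|² + 2|g - h|²` -/
theorem nsq_sub_le (f g h : ι → ℂ) : nsq (f - h) ≤ 2 * nsq (f - g) + 2 * nsq (g - h) := by
  unfold nsq
  rw [Finset.mul_sum, Finset.mul_sum, ← Finset.sum_add_distrib]
  refine Finset.sum_le_sum fun i _ => ?_
  simp only [Pi.sub_apply]
  have h1 : ‖f i - h i‖ ≤ ‖f i - g i‖ + ‖g i - h i‖ := by
    have : f i - h i = (f i - g i) + (g i - h i) := by ring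
    rw [this]; exact norm_add_le _ _
  have h0 : 0 ≤ ‖f i - h i‖ := norm_nonneg _
  nlinarith [sq_nonneg (‖f i - g i‖ - ‖g i - h i‖), norm_nonneg (f i - g i), norm_nonneg (g i - h i)]

theorem qf_add_left (ψ : ιA × ιB → ℂ) (X X' : Matrix ιA ιA ℂ) (Y : Matrix ιB ιB ℂ) :
    qf ψ (X + X') Y = qf ψ X Y + qf ψ X' Y := by
  simp [qf, Matrix.add_kronecker, Matrix.add_mulVec, dotProduct_add]

theorem qf_add_right (ψ : ιA × ιB → ℂ) (X : Matrix ιA ιA ℂ) (Y Y' : Matrix ιB ιB ℂ) :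
    qf ψ X (Y + Y') = qf ψ X Y + qf ψ X Y' := by
  simp [qf, Matrix.kronecker_add, Matrix.add_mulVec, dotProduct_add]

theorem qf_sub_left (ψ : ιA × ιB → ℂ) (X X' : Matrix ιA ιA ℂ) (Y : Matrix ιB ιB ℂ) :
    qf ψ (X - X') Y = qf ψ X Y - qf ψ X' Y := by
  have h := qf_add_left ψ (X - X') X' Y
  rw [sub_add_cancel] at h
  linarith

theorem qf_sub_right (ψ : ιA × ιB → ℂ) (X : Matrix ιA ιA ℂ) (Y Y' : Matrix ιB ιB ℂ) :
    qf ψ X (Y - Y') = qf ψ X Y - qf ψ X Y' := by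
  have h := qf_add_right ψ X (Y - Y') Y'
  rw [sub_add_cancel] at h
  linarith

theorem qf_smul_left (ψ : ιA × ιB → ℂ) (c : ℝ) (X : Matrix ιA ιA ℂ) (Y : Matrix ιB ιB ℂ) :
    qf ψ ((c : ℂ) • X) Y = c * qf ψ X Y := by
  simp [qf, Matrix.smul_kronecker, Matrix.smul_mulVec, dotProduct_smul]

theorem qf_smul_right (ψ : ιA × ιB → ℂ) (c : ℝ) (X : Matrix ιA ιA ℂ) (Y : Matrix ιB ιB ℂ) :
    qf ψ X ((c : ℂ) • Y) = c * qf ψ X Y := by
  simp [qf, Matrix.kronecker_smul, Matrix.smul_mulVec, dotProduct_smul]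

theorem qf_zero_left (ψ : ιA × ιB → ℂ) (Y : Matrix ιB ιB ℂ) : qf ψ 0 Y = 0 := by
  simp [qf]

theorem qf_zero_right (ψ : ιA × ιB → ℂ) (X : Matrix ιA ιA ℂ) : qf ψ X 0 = 0 := by
  simp [qf]

theorem qf_sum_left {α : Type} (s : Finset α) (ψ : ιA × ιB → ℂ) (X : α → Matrix ιA ιA ℂ)
    (Y : Matrix ιB ιB ℂ) : qf ψ (∑ i ∈ s, X i) Y = ∑ i ∈ s, qf ψ (X i) Y := by
  classical
  induction s using Finset.induction_on with
  | empty => simp [qf_zero_left]
  | insert i s hi ih => rw [Finset.sum_insert hi, Finset.sum_insert hi, qf_add_left, ih]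

theorem qf_sum_right {α : Type} (s : Finset α) (ψ : ιA × ιB → ℂ) (X : Matrix ιA ιA ℂ)
    (Y : α → Matrix ιB ιB ℂ) : qf ψ X (∑ i ∈ s, Y i) = ∑ i ∈ s, qf ψ X (Y i) := by
  classical
  induction s using Finset.induction_on with
  | empty => simp [qf_zero_right]
  | insert i s hi ih => rw [Finset.sum_insert hi, Finset.sum_insert hi, qf_add_right, ih]

theorem qf_nonneg (ψ : ιA × ιB → ℂ) {X : Matrix ιA ιA ℂ} {Y : Matrix ιB ιB ℂ}
    (hX : X.PosSemidef) (hY : Y.PosSemidef) : 0 ≤ qf ψ X Y := by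
  have h := (hX.kronecker hY).dotProduct_mulVec_nonneg ψ
  exact (Complex.le_def.mp h).1

theorem qf_mono_left (ψ : ιA × ιB → ℂ) {X X' : Matrix ιA ιA ℂ} {Y : Matrix ιB ιB ℂ}
    (h : (X' - X).PosSemidef) (hY : Y.PosSemidef) : qf ψ X Y ≤ qf ψ X' Y := by
  have := qf_nonneg ψ h hY
  rw [qf_sub_left] at this
  linarith

theorem qf_mono_right (ψ : ιA × ιB → ℂ) {X : Matrix ιA ιA ℂ} {Y Y' : Matrix ιB ιB ℂ}
    (hX : X.PosSemidef) (h : (Y' - Y).PosSemidef) : qf ψ X Y ≤ qf ψ X Y' := by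
  have := qf_nonneg ψ hX h
  rw [qf_sub_right] at this
  linarith

theorem qf_one_one (ψ : ιA × ιB → ℂ) : qf ψ 1 1 = nsq ψ := by
  unfold qf nsq
  rw [Matrix.one_kronecker_one, Matrix.one_mulVec]
  simp only [dotProduct, Pi.star_apply, Complex.re_sum]
  refine Finset.sum_congr rfl fun i _ => ?_
  rw [Complex.star_def, Complex.conj_mul', ← Complex.ofReal_pow, Complex.ofReal_re]

theorem qf_smul_vec (c : ℂ) (ψ : ιA × ιB → ℂ) (X : Matrix ιA ιA ℂ) (Y : Matrix ιB ιB ℂ) :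
    qf (c • ψ) X Y = ‖c‖ ^ 2 * qf ψ X Y := by
  unfold qf
  rw [Matrix.mulVec_smul, star_smul, smul_dotProduct, dotProduct_smul, smul_smul]
  rw [smul_eq_mul, Complex.star_def, Complex.conj_mul', ← Complex.ofReal_pow, Complex.re_ofReal_mul]

theorem sum_sum_qf_povm {α β : Type} [Fintype α] [Fintype β] (ψ : ιA × ιB → ℂ)
    {N : α → Matrix ιA ιA ℂ} {N' : β → Matrix ιB ιB ℂ} (hN : IsPOVM N) (hN' : IsPOVM N') :
    ∑ a, ∑ b, qf ψ (N a) (N' b) = nsq ψ := by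
  have h1 : ∀ a, ∑ b, qf ψ (N a) (N' b) = qf ψ (N a) 1 := fun a => by
    rw [← qf_sum_right, hN'.2]
  rw [Finset.sum_congr rfl fun a _ => h1 a, ← qf_sum_left, hN.2, qf_one_one]

/-- pull-back of the quadratic form along `R ⊗ R'` -/
theorem qf_kron_mulVec (ψ : ιA × ιB → ℂ) (R : Matrix κA ιA ℂ) (R' : Matrix κB ιB ℂ)
    (X : Matrix κA κA ℂ) (Y : Matrix κB κB ℂ) :
    qf ((R ⊗ₖ R').mulVec ψ) X Y
      = qf ψ (R.conjTranspose * X * R) (R'.conjTranspose * Y * R') := by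
  unfold qf
  rw [Matrix.star_mulVec, ← Matrix.dotProduct_mulVec, Matrix.mulVec_mulVec, Matrix.mulVec_mulVec,
    Matrix.conjTranspose_kronecker, ← Matrix.mul_kronecker_mul, ← Matrix.mul_kronecker_mul,
    Matrix.mul_assoc, Matrix.mul_assoc]

theorem nsq_kron_mulVec (ψ : ιA × ιB → ℂ) (R : Matrix κA ιA ℂ) (R' : Matrix κB ιB ℂ) :
    nsq ((R ⊗ₖ R').mulVec ψ) = qf ψ (R.conjTranspose * R) (R'.conjTranspose * R') := by
  rw [← qf_one_one, qf_kron_mulVec, Matrix.mul_one, Matrix.mul_one]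

variable {G : Game} {k dA dB : ℕ}

theorem answerProb_eq_qf (S : Strategy G k dA dB) (x : Fin k → Fin G.nX) (y : Fin k → Fin G.nY)
    (a : Fin k → Fin G.nA) (b : Fin k → Fin G.nB) :
    S.answerProb x y a b = qf S.ψ (S.M x a) (S.N y b) := rfl

theorem answerProb_nonneg (S : Strategy G k dA dB) (x : Fin k → Fin G.nX) (y : Fin k → Fin G.nY)
    (a : Fin k → Fin G.nA) (b : Fin k → Fin G.nB) : 0 ≤ S.answerProb x y a b :=
  qf_nonneg _ (S.M_posSemidef x a) (S.N_posSemidef y b)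

theorem sum_sum_answerProb (S : Strategy G k dA dB) (x : Fin k → Fin G.nX) (y : Fin k → Fin G.nY) :
    ∑ a, ∑ b, S.answerProb x y a b = 1 := by
  have := sum_sum_qf_povm S.ψ (N := S.M x) (N' := S.N y) ⟨S.M_posSemidef x, S.M_sum x⟩
    ⟨S.N_posSemidef y, S.N_sum y⟩
  simp only [answerProb_eq_qf]
  rw [this]
  exact S.ψ_norm

end Crest.Agent.PR
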