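/-
ROW 342, project PR.  Block-diagonal tools for (OC).  Owner: helper76.
-/
import Crest.Agent.PR_QfBasic

set_option autoImplicit false
set_option linter.unusedSectionVars false

namespace Crest.Agent.PR

open scoped Kronecker ComplexOrder MatrixOrder

variable {n m P : Type} [Fintype n] [Fintype m] [Fintype P]
  [DecidableEq n] [DecidableEq m] [DecidableEq P]

/-- diagonal embedding of `ψ` with a classical register `ρ` held by both players, amplitude `√(W ρ)` -/
noncomputable def diagVec (W : P → ℝ) (ψ : n × m → ℂ) : (n × P) × (m × P) → ℂ :=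
  fun p => if p.1.2 = p.2.2 then ((Real.sqrt (W p.1.2) : ℝ) : ℂ) * ψ (p.1.1, p.2.1) else 0

theorem posSemidef_blockDiagonal {X : P → Matrix n n ℂ} (hX : ∀ ρ, (X ρ).PosSemidef) :
    (Matrix.blockDiagonal X).PosSemidef := by
  have h : ∀ ρ, ∃ B : Matrix n n ℂ, X ρ = B.conjTranspose * B := fun ρ => by
    obtain ⟨b, hb⟩ := CStarAlgebra.nonneg_iff_eq_star_mul_self.mp (hX ρ).nonneg
    exact ⟨b, by simpa [Matrix.star_eq_conjTranspose] using hb⟩
  choose B hB using h
  have : Matrix.blockDiagonal X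
      = (Matrix.blockDiagonal B).conjTranspose * Matrix.blockDiagonal B := by
    rw [Matrix.blockDiagonal_conjTranspose, ← Matrix.blockDiagonal_mul]
    congr 1
    funext ρ
    exact hB ρ
  rw [this]
  exact Matrix.posSemidef_conjTranspose_mul_self _

theorem isPOVM_blockDiagonal {α : Type} [Fintype α] (N : P → α → Matrix n n ℂ)
    (h : ∀ ρ, IsPOVM (N ρ)) : IsPOVM (fun a => Matrix.blockDiagonal (fun ρ => N ρ a)) := by
  refine ⟨fun a => posSemidef_blockDiagonal fun ρ => (h ρ).1 a, ?_⟩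
  have : ∑ a, Matrix.blockDiagonal (fun ρ => N ρ a)
      = Matrix.blockDiagonal (∑ a, fun ρ => N ρ a) := by
    rw [← Matrix.blockDiagonalAddMonoidHom_apply, map_sum]
    rfl
  rw [this, ← Matrix.blockDiagonal_one]
  congr 1
  funext ρ
  rw [Finset.sum_apply]
  exact (h ρ).2

/-- family version of `diagVec` -/
def diagVecF (φ : P → n × m → ℂ) : (n × P) × (m × P) → ℂ :=
  fun p => if p.1.2 = p.2.2 then φ p.1.2 (p.1.1, p.2.1) else 0

theorem dotProduct_diagVecF (φ φ' : P → n × m → ℂ) :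
    dotProduct (star (diagVecF φ)) (diagVecF φ') = ∑ ρ, dotProduct (star (φ ρ)) (φ' ρ) := by
  simp only [dotProduct, Fintype.sum_prod_type, diagVecF, Pi.star_apply]
  calc ∑ i : n, ∑ ρ : P, ∑ i' : m, ∑ ρ' : P,
        star (if ρ = ρ' then φ ρ (i, i') else 0) * (if ρ = ρ' then φ' ρ (i, i') else 0)
      = ∑ i : n, ∑ ρ : P, ∑ i' : m, star (φ ρ (i, i')) * φ' ρ (i, i') := by
        refine Finset.sum_congr rfl fun i _ => Finset.sum_congr rfl fun ρ _ =>
          Finset.sum_congr rfl fun i' _ => ?_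
        rw [Finset.sum_eq_single ρ]
        · simp
        · intro ρ' _ hne
          simp [Ne.symm hne]
        · simp
    _ = ∑ ρ : P, ∑ i : n, ∑ i' : m, star (φ ρ (i, i')) * φ' ρ (i, i') := Finset.sum_comm

theorem kron_blockDiagonal_mulVec_diagVecF (X : P → Matrix n n ℂ) (Y : P → Matrix m m ℂ)
    (φ : P → n × m → ℂ) :
    (Matrix.blockDiagonal X ⊗ₖ Matrix.blockDiagonal Y).mulVec (diagVecF φ)
      = diagVecF (fun ρ => (X ρ ⊗ₖ Y ρ).mulVec (φ ρ)) := by
  funext p
  obtain ⟨⟨i, ρ⟩, ⟨i', ρ'⟩⟩ := p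
  simp only [Matrix.mulVec, dotProduct, Fintype.sum_prod_type, diagVecF,
    Matrix.kroneckerMap_apply, Matrix.blockDiagonal_apply]
  calc ∑ j : n, ∑ σ : P, ∑ j' : m, ∑ σ' : P,
        ((if ρ = σ then X ρ i j else 0) * (if ρ' = σ' then Y ρ' i' j' else 0))
          * (if σ = σ' then φ σ (j, j') else 0)
      = ∑ j : n, ∑ j' : m, (X ρ i j * Y ρ' i' j') * (if ρ = ρ' then φ ρ (j, j') else 0) := by
        refine Finset.sum_congr rfl fun j _ => ?_
        rw [Finset.sum_eq_single ρ]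
        · refine Finset.sum_congr rfl fun j' _ => ?_
          rw [Finset.sum_eq_single ρ']
          · simp
          · intro σ' _ hne
            simp [Ne.symm hne]
          · simp
        · intro σ _ hne
          simp [Ne.symm hne]
        · simp
    _ = _ := by
        by_cases h : ρ = ρ'
        · subst h; simp
        · simp [h]

theorem qf_diagVec (W : P → ℝ) (hW : ∀ ρ, 0 ≤ W ρ) (ψ : n × m → ℂ)
    (X : P → Matrix n n ℂ) (Y : P → Matrix m m ℂ) :
    qf (diagVec W ψ) (Matrix.blockDiagonal X) (Matrix.blockDiagonal Y)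
      = ∑ ρ, W ρ * qf ψ (X ρ) (Y ρ) := by
  have e : diagVec W ψ = diagVecF (fun ρ => ((Real.sqrt (W ρ) : ℝ) : ℂ) • ψ) := by
    funext p
    simp [diagVec, diagVecF]
  unfold qf
  rw [e, kron_blockDiagonal_mulVec_diagVecF, dotProduct_diagVecF, Complex.re_sum]
  refine Finset.sum_congr rfl fun ρ _ => ?_
  have := qf_smul_vec ((Real.sqrt (W ρ) : ℝ) : ℂ) ψ (X ρ) (Y ρ)
  unfold qf at this
  rw [this]
  congr 1
  rw [Complex.norm_real, Real.norm_eq_abs, sq_abs, Real.sq_sqrt (hW ρ)]

end Crest.Agent.PR
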