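/-
ROW 342, project PR.  BLOCK (D): generic one-shot strategies, blueprint section 1.  Architect: helper32.
-/
import Crest.Agent.PR_QfBasic

set_option autoImplicit false
set_option linter.unusedSectionVars false

namespace Crest.Agent.PR

open Finset Matrix
open Crest.MathPhysics.NonlocalGame
open scoped Kronecker ComplexOrder

/-- `⟨ψ, (X ⊗ Y) ψ⟩` as a complex number. -/
noncomputable def bil {α β : Type} [Fintype α] [Fintype β] (ψ : α × β → ℂ) (X : Matrix α α ℂ)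
    (Y : Matrix β β ℂ) : ℂ :=
  star ψ ⬝ᵥ ((X ⊗ₖ Y) *ᵥ ψ)

theorem qf_eq {α β : Type} [Fintype α] [Fintype β] [DecidableEq α] [DecidableEq β]
    (ψ : α × β → ℂ) (X : Matrix α α ℂ) (Y : Matrix β β ℂ) : qf ψ X Y = (bil ψ X Y).re := rfl

/-! ### basic calculus of `bil`, `qf`, `nsq` -/

section bil
variable {α β : Type} [Fintype α] [Fintype β] [DecidableEq α] [DecidableEq β]

theorem bil_add_left (ψ : α × β → ℂ) (X X' : Matrix α α ℂ) (Y : Matrix β β ℂ) :
    bil ψ (X + X') Y = bil ψ X Y + bil ψ X' Y := by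
  unfold bil; rw [add_kronecker, add_mulVec, dotProduct_add]

theorem bil_add_right (ψ : α × β → ℂ) (X : Matrix α α ℂ) (Y Y' : Matrix β β ℂ) :
    bil ψ X (Y + Y') = bil ψ X Y + bil ψ X Y' := by
  unfold bil; rw [kronecker_add, add_mulVec, dotProduct_add]

theorem bil_zero_left (ψ : α × β → ℂ) (Y : Matrix β β ℂ) : bil ψ 0 Y = 0 := by
  unfold bil; rw [zero_kronecker, zero_mulVec, dotProduct_zero]

theorem bil_zero_right (ψ : α × β → ℂ) (X : Matrix α α ℂ) : bil ψ X 0 = 0 := by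
  unfold bil; rw [kronecker_zero, zero_mulVec, dotProduct_zero]

theorem bil_smul_left (ψ : α × β → ℂ) (c : ℂ) (X : Matrix α α ℂ) (Y : Matrix β β ℂ) :
    bil ψ (c • X) Y = c * bil ψ X Y := by
  unfold bil; rw [smul_kronecker, smul_mulVec, dotProduct_smul, smul_eq_mul]

theorem bil_smul_right (ψ : α × β → ℂ) (c : ℂ) (X : Matrix α α ℂ) (Y : Matrix β β ℂ) :
    bil ψ X (c • Y) = c * bil ψ X Y := by
  unfold bil; rw [kronecker_smul, smul_mulVec, dotProduct_smul, smul_eq_mul]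

theorem bil_neg_left (ψ : α × β → ℂ) (X : Matrix α α ℂ) (Y : Matrix β β ℂ) :
    bil ψ (-X) Y = - bil ψ X Y := by
  have h := bil_smul_left ψ (-1) X Y
  simpa using h

theorem bil_neg_right (ψ : α × β → ℂ) (X : Matrix α α ℂ) (Y : Matrix β β ℂ) :
    bil ψ X (-Y) = - bil ψ X Y := by
  have h := bil_smul_right ψ (-1) X Y
  simpa using h

theorem bil_sub_left (ψ : α × β → ℂ) (X X' : Matrix α α ℂ) (Y : Matrix β β ℂ) :
    bil ψ (X - X') Y = bil ψ X Y - bil ψ X' Y := by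
  rw [sub_eq_add_neg, bil_add_left, bil_neg_left, ← sub_eq_add_neg]

theorem bil_sub_right (ψ : α × β → ℂ) (X : Matrix α α ℂ) (Y Y' : Matrix β β ℂ) :
    bil ψ X (Y - Y') = bil ψ X Y - bil ψ X Y' := by
  rw [sub_eq_add_neg, bil_add_right, bil_neg_right, ← sub_eq_add_neg]

theorem bil_sum_left {ι : Type} (ψ : α × β → ℂ) (s : Finset ι) (X : ι → Matrix α α ℂ)
    (Y : Matrix β β ℂ) : bil ψ (∑ i ∈ s, X i) Y = ∑ i ∈ s, bil ψ (X i) Y := by
  classical
  induction s using Finset.induction_on with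
  | empty => simp [bil_zero_left]
  | insert a s ha ih => rw [Finset.sum_insert ha, Finset.sum_insert ha, bil_add_left, ih]

theorem bil_sum_right {ι : Type} (ψ : α × β → ℂ) (s : Finset ι) (X : Matrix α α ℂ)
    (Y : ι → Matrix β β ℂ) : bil ψ X (∑ i ∈ s, Y i) = ∑ i ∈ s, bil ψ X (Y i) := by
  classical
  induction s using Finset.induction_on with
  | empty => simp [bil_zero_right]
  | insert a s ha ih => rw [Finset.sum_insert ha, Finset.sum_insert ha, bil_add_right, ih]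

theorem bil_nonneg (ψ : α × β → ℂ) {X : Matrix α α ℂ} {Y : Matrix β β ℂ}
    (hX : X.PosSemidef) (hY : Y.PosSemidef) : 0 ≤ bil ψ X Y :=
  (hX.kronecker hY).dotProduct_mulVec_nonneg ψ

theorem bil_im_eq_zero (ψ : α × β → ℂ) {X : Matrix α α ℂ} {Y : Matrix β β ℂ}
    (hX : X.PosSemidef) (hY : Y.PosSemidef) : (bil ψ X Y).im = 0 :=
  ((Complex.le_def.1 (bil_nonneg ψ hX hY)).2).symm

theorem bil_eq_qf (ψ : α × β → ℂ) {X : Matrix α α ℂ} {Y : Matrix β β ℂ}
    (hX : X.PosSemidef) (hY : Y.PosSemidef) : bil ψ X Y = (qf ψ X Y : ℂ) := by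
  apply Complex.ext
  · simp [qf_eq]
  · simp [bil_im_eq_zero ψ hX hY]

theorem star_dotProduct_self {ι : Type} [Fintype ι] (f : ι → ℂ) :
    star f ⬝ᵥ f = ((nsq f : ℝ) : ℂ) := by
  unfold nsq dotProduct
  rw [Complex.ofReal_sum]
  apply Finset.sum_congr rfl
  intro i _
  rw [Pi.star_apply, Complex.star_def, Complex.conj_mul']
  norm_cast

theorem bil_one_one (ψ : α × β → ℂ) :
    bil ψ 1 1 = ((nsq ψ : ℝ) : ℂ) := by
  unfold bil
  rw [one_kronecker_one, one_mulVec, star_dotProduct_self]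

/-- reindexing. -/
theorem bil_reindex {α' β' : Type} [Fintype α'] [Fintype β'] (e : α' ≃ α) (f : β' ≃ β)
    (ψ : α × β → ℂ) (X : Matrix α α ℂ) (Y : Matrix β β ℂ) :
    bil (fun z : α' × β' => ψ (e z.1, f z.2)) (X.submatrix e e) (Y.submatrix f f) = bil ψ X Y := by
  unfold bil
  have h1 : (X.submatrix e e ⊗ₖ Y.submatrix f f)
      = (X ⊗ₖ Y).submatrix (e.prodCongr f) (e.prodCongr f) := by
    ext ⟨i, i'⟩ ⟨j, j'⟩
    rfl
  have h2 : (fun z : α' × β' => ψ (e z.1, f z.2)) = ψ ∘ (e.prodCongr f) := by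
    funext z
    rfl
  rw [h1, h2, submatrix_mulVec_equiv]
  have h3 : (ψ ∘ (e.prodCongr f)) ∘ (e.prodCongr f).symm = ψ := by
    funext z
    show ψ ((e.prodCongr f) ((e.prodCongr f).symm z)) = ψ z
    rw [Equiv.apply_symm_apply]
  have h4 : star (ψ ∘ (e.prodCongr f)) = (star ψ) ∘ (e.prodCongr f) := by
    funext z
    rfl
  rw [h3, h4, comp_equiv_dotProduct_comp_equiv]

theorem nsq_reindex {ι ι' : Type} [Fintype ι] [Fintype ι'] (e : ι' ≃ ι) (f : ι → ℂ) :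
    nsq (fun z => f (e z)) = nsq f := by
  unfold nsq
  exact e.sum_comp (fun i => ‖f i‖ ^ 2)

end bil


variable {ι ιA ιB κA κB : Type} [Fintype ι] [Fintype ιA] [Fintype ιB] [Fintype κA] [Fintype κB]
  [DecidableEq ιA] [DecidableEq ιB] [DecidableEq κA] [DecidableEq κB]

theorem bil_smul_vec (c : ℂ) (ψ : ιA × ιB → ℂ) (X : Matrix ιA ιA ℂ) (Y : Matrix ιB ιB ℂ) :
    bil (c • ψ) X Y = (star c * c) * bil ψ X Y := by
  unfold bil
  rw [mulVec_smul, star_smul, smul_dotProduct, dotProduct_smul, smul_eq_mul, smul_eq_mul]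
  ring

theorem bil_kron_mulVec (ψ : ιA × ιB → ℂ) (R : Matrix κA ιA ℂ) (R' : Matrix κB ιB ℂ)
    (X : Matrix κA κA ℂ) (Y : Matrix κB κB ℂ) :
    bil ((R ⊗ₖ R') *ᵥ ψ) X Y = bil ψ (Rᴴ * X * R) (R'ᴴ * Y * R') := by
  unfold bil
  rw [mul_kronecker_mul, mul_kronecker_mul, ← conjTranspose_kronecker, ← mulVec_mulVec,
    ← mulVec_mulVec, star_mulVec, ← dotProduct_mulVec]



/-! ### (V) -/

theorem sum_fin_one_fun {γ : Type} [Fintype γ] [DecidableEq γ] (F : (Fin 1 → γ) → ℝ) :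
    ∑ x : Fin 1 → γ, F x = ∑ c : γ, F (fun _ => c) := by
  rw [← (Equiv.funUnique (Fin 1) γ).symm.sum_comp]
  rfl

theorem wins_one (G : Game) (x : Fin G.nX) (y : Fin G.nY) (a : Fin G.nA) (b : Fin G.nB) :
    ((1 : ℝ) ≤ (wins G 1 (fun _ => x) (fun _ => y) (fun _ => a) (fun _ => b) : ℝ))
      ↔ G.accept x y a b = true := by
  unfold wins
  by_cases h : G.accept x y a b = true
  · simp [h]
  · simp [h]

theorem gval_le_of_isQCorr {G : Game} (v : ℝ)
    (hv : ∀ (dA dB : ℕ) (S : Strategy G 1 dA dB), S.probWinsAtLeast 1 ≤ v)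
    {p : Fin G.nX → Fin G.nY → Fin G.nA → Fin G.nB → ℝ} (hp : IsQCorr G p) : gval G p ≤ v := by
  obtain ⟨dA, dB, ψ, M, N, hψ, hM, hN, hMs, hNs, hpq⟩ := hp
  let S : Strategy G 1 dA dB :=
    { ψ := ψ
      ψ_norm := hψ
      M := fun x a => M (x 0) (a 0)
      N := fun y b => N (y 0) (b 0)
      M_posSemidef := fun x a => hM _ _
      N_posSemidef := fun y b => hN _ _
      M_sum := fun x => by
        rw [← hMs (x 0), ← (Equiv.funUnique (Fin 1) (Fin G.nA)).symm.sum_comp]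
        rfl
      N_sum := fun y => by
        rw [← hNs (y 0), ← (Equiv.funUnique (Fin 1) (Fin G.nB)).symm.sum_comp]
        rfl }
  have h := hv dA dB S
  have h2 : S.probWinsAtLeast 1 = gval G p := by
    unfold Strategy.probWinsAtLeast gval
    rw [sum_fin_one_fun]
    apply Finset.sum_congr rfl
    intro x _
    rw [sum_fin_one_fun]
    apply Finset.sum_congr rfl
    intro y _
    rw [Fin.prod_univ_one, sum_fin_one_fun]
    congr 1
    apply Finset.sum_congr rfl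
    intro a _
    rw [sum_fin_one_fun]
    apply Finset.sum_congr rfl
    intro b _
    simp only [wins_one]
    by_cases hacc : G.accept x y a b = true
    · simp only [hacc, if_true]
      rw [hpq]
      rfl
    · simp only [hacc]
      rfl
  rw [← h2]
  exact h

/-! ### (F) Fintype-indexed data -/

theorem isQCorr_of_fintype {G : Game} {α β : Type} [Fintype α] [Fintype β] [DecidableEq α]
    [DecidableEq β] {p : Fin G.nX → Fin G.nY → Fin G.nA → Fin G.nB → ℝ}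
    (ψ : α × β → ℂ) (M : Fin G.nX → Fin G.nA → Matrix α α ℂ)
    (N : Fin G.nY → Fin G.nB → Matrix β β ℂ) (hψ : nsq ψ = 1)
    (hM : ∀ x a, (M x a).PosSemidef) (hN : ∀ y b, (N y b).PosSemidef)
    (hMs : ∀ x, ∑ a, M x a = 1) (hNs : ∀ y, ∑ b, N y b = 1)
    (hp : ∀ x y a b, p x y a b = qf ψ (M x a) (N y b)) : IsQCorr G p := by
  let e : Fin (Fintype.card α) ≃ α := (Fintype.equivFin α).symm
  let f : Fin (Fintype.card β) ≃ β := (Fintype.equivFin β).symm
  refine ⟨Fintype.card α, Fintype.card β, fun z => ψ (e z.1, f z.2),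
    fun x a => (M x a).submatrix e e, fun y b => (N y b).submatrix f f, ?_, ?_, ?_, ?_, ?_, ?_⟩
  · rw [← hψ]
    exact nsq_reindex (e.prodCongr f) ψ
  · intro x a
    exact (hM x a).submatrix e
  · intro y b
    exact (hN y b).submatrix f
  · intro x
    have : ∑ a, (M x a).submatrix e e = (∑ a, M x a).submatrix e e := by
      ext i j
      simp [Matrix.sum_apply]
    rw [this, hMs, submatrix_one_equiv]
  · intro y
    have : ∑ b, (N y b).submatrix f f = (∑ b, N y b).submatrix f f := by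
      ext i j
      simp [Matrix.sum_apply]
    rw [this, hNs, submatrix_one_equiv]
  · intro x y a b
    rw [hp]
    simp only [qf_eq]
    rw [bil_reindex]

/-! ### (T) tensor products -/

section tens
variable {α₁ α₂ β₁ β₂ : Type} [Fintype α₁] [Fintype α₂] [Fintype β₁] [Fintype β₂]
  [DecidableEq α₁] [DecidableEq α₂] [DecidableEq β₁] [DecidableEq β₂]

/-- tensor of two bipartite vectors, regrouped as (Alice, Alice) x (Bob, Bob). -/
def tens (U : α₁ × β₁ → ℂ) (ψ : α₂ × β₂ → ℂ) : (α₁ × α₂) × (β₁ × β₂) → ℂ :=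
  fun z => U (z.1.1, z.2.1) * ψ (z.1.2, z.2.2)

theorem sum_regroup (f : α₁ × β₁ → ℂ) (g : α₂ × β₂ → ℂ) :
    ∑ z : (α₁ × α₂) × (β₁ × β₂), f (z.1.1, z.2.1) * g (z.1.2, z.2.2)
      = (∑ u, f u) * ∑ w, g w := by
  simp only [Fintype.sum_prod_type, Finset.sum_mul_sum]

theorem kron_mulVec_tens (X₁ : Matrix α₁ α₁ ℂ) (X₂ : Matrix α₂ α₂ ℂ) (Y₁ : Matrix β₁ β₁ ℂ)
    (Y₂ : Matrix β₂ β₂ ℂ) (U : α₁ × β₁ → ℂ) (ψ : α₂ × β₂ → ℂ) :
    ((X₁ ⊗ₖ X₂) ⊗ₖ (Y₁ ⊗ₖ Y₂)) *ᵥ tens U ψ = tens ((X₁ ⊗ₖ Y₁) *ᵥ U) ((X₂ ⊗ₖ Y₂) *ᵥ ψ) := by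
  funext z
  obtain ⟨⟨i₁, i₂⟩, ⟨j₁, j₂⟩⟩ := z
  simp only [tens, mulVec, dotProduct]
  rw [← sum_regroup (fun u => (X₁ ⊗ₖ Y₁) (i₁, j₁) u * U u) (fun w => (X₂ ⊗ₖ Y₂) (i₂, j₂) w * ψ w)]
  apply Finset.sum_congr rfl
  intro w _
  simp only [kroneckerMap_apply]
  ring

theorem star_tens_dotProduct (U U' : α₁ × β₁ → ℂ) (ψ ψ' : α₂ × β₂ → ℂ) :
    star (tens U ψ) ⬝ᵥ tens U' ψ' = (star U ⬝ᵥ U') * (star ψ ⬝ᵥ ψ') := by
  simp only [dotProduct]
  rw [← sum_regroup (fun u => star U u * U' u) (fun w => star ψ w * ψ' w)]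
  apply Finset.sum_congr rfl
  intro w _
  simp only [tens, Pi.star_apply, star_mul']
  ring

/-- (T) -/
theorem bil_tens (X₁ : Matrix α₁ α₁ ℂ) (X₂ : Matrix α₂ α₂ ℂ) (Y₁ : Matrix β₁ β₁ ℂ)
    (Y₂ : Matrix β₂ β₂ ℂ) (U : α₁ × β₁ → ℂ) (ψ : α₂ × β₂ → ℂ) :
    bil (tens U ψ) (X₁ ⊗ₖ X₂) (Y₁ ⊗ₖ Y₂) = bil U X₁ Y₁ * bil ψ X₂ Y₂ := by
  unfold bil
  rw [kron_mulVec_tens, star_tens_dotProduct]

theorem qf_tens {X₁ : Matrix α₁ α₁ ℂ} (X₂ : Matrix α₂ α₂ ℂ) {Y₁ : Matrix β₁ β₁ ℂ}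
    (Y₂ : Matrix β₂ β₂ ℂ) (U : α₁ × β₁ → ℂ) (ψ : α₂ × β₂ → ℂ)
    (hX₁ : X₁.PosSemidef) (hY₁ : Y₁.PosSemidef) :
    qf (tens U ψ) (X₁ ⊗ₖ X₂) (Y₁ ⊗ₖ Y₂) = qf U X₁ Y₁ * qf ψ X₂ Y₂ := by
  simp only [qf_eq]
  rw [bil_tens, Complex.mul_re, bil_im_eq_zero U hX₁ hY₁]
  ring

theorem nsq_tens (U : α₁ × β₁ → ℂ) (ψ : α₂ × β₂ → ℂ) : nsq (tens U ψ) = nsq U * nsq ψ := by
  have h := star_tens_dotProduct U U ψ ψ
  rw [star_dotProduct_self, star_dotProduct_self, star_dotProduct_self] at h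
  exact_mod_cast h

end tens

/-! ### sums of Kronecker products -/

theorem sum_kron_left {ι α β : Type} (s : Finset ι) (X : ι → Matrix α α ℂ) (Y : Matrix β β ℂ) :
    (∑ i ∈ s, X i) ⊗ₖ Y = ∑ i ∈ s, X i ⊗ₖ Y := by
  ext ⟨i, i'⟩ ⟨j, j'⟩
  simp [Matrix.sum_apply, Finset.sum_mul]

theorem sum_kron_right {ι α β : Type} (s : Finset ι) (X : Matrix α α ℂ) (Y : ι → Matrix β β ℂ) :
    X ⊗ₖ (∑ i ∈ s, Y i) = ∑ i ∈ s, X ⊗ₖ Y i := by
  ext ⟨i, i'⟩ ⟨j, j'⟩
  simp [Matrix.sum_apply, Finset.mul_sum]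

/-! ### (T2) try-else -/

theorem try_else {G : Game} {iA iB : Type} [Fintype iA] [Fintype iB] [DecidableEq iA]
    [DecidableEq iB] (U : iA × iB → ℂ) (hU : nsq U = 1)
    (E : Fin G.nX → Fin G.nA → Matrix iA iA ℂ) (F : Fin G.nY → Fin G.nB → Matrix iB iB ℂ)
    (hE : ∀ x a, (E x a).PosSemidef) (hF : ∀ y b, (F y b).PosSemidef)
    (hE1 : ∀ x, (1 - ∑ a, E x a).PosSemidef) (hF1 : ∀ y, (1 - ∑ b, F y b).PosSemidef)
    {p : Fin G.nX → Fin G.nY → Fin G.nA → Fin G.nB → ℝ} (hp : IsQCorr G p) :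
    ∃ p', IsQCorr G p' ∧ ∀ x y a b,
      qf U (E x a) (F y b) + qf U (1 - ∑ a, E x a) (1 - ∑ b, F y b) * p x y a b ≤ p' x y a b := by
  obtain ⟨dA, dB, ψ, M, N, hψ, hM, hN, hMs, hNs, hpq⟩ := hp
  let M' : Fin G.nX → Fin G.nA → Matrix (iA × Fin dA) (iA × Fin dA) ℂ :=
    fun x a => E x a ⊗ₖ (1 : Matrix (Fin dA) (Fin dA) ℂ) + (1 - ∑ a, E x a) ⊗ₖ M x a
  let N' : Fin G.nY → Fin G.nB → Matrix (iB × Fin dB) (iB × Fin dB) ℂ :=
    fun y b => F y b ⊗ₖ (1 : Matrix (Fin dB) (Fin dB) ℂ) + (1 - ∑ b, F y b) ⊗ₖ N y b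
  refine ⟨fun x y a b => qf (tens U ψ) (M' x a) (N' y b), ?_, ?_⟩
  · refine isQCorr_of_fintype (tens U ψ) M' N' ?_ ?_ ?_ ?_ ?_ (fun _ _ _ _ => rfl)
    · rw [nsq_tens, hU, hψ, one_mul]
    · intro x a
      exact ((hE x a).kronecker PosSemidef.one).add ((hE1 x).kronecker (hM x a))
    · intro y b
      exact ((hF y b).kronecker PosSemidef.one).add ((hF1 y).kronecker (hN y b))
    · intro x
      simp only [M']
      rw [Finset.sum_add_distrib, ← sum_kron_left, ← sum_kron_right, hMs, ← add_kronecker,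
        add_sub_cancel, one_kronecker_one]
    · intro y
      simp only [N']
      rw [Finset.sum_add_distrib, ← sum_kron_left, ← sum_kron_right, hNs, ← add_kronecker,
        add_sub_cancel, one_kronecker_one]
  · intro x y a b
    simp only [M', N']
    rw [qf_add_left, qf_add_right, qf_add_right,
      qf_tens _ _ U ψ (hE x a) (hF y b), qf_tens _ _ U ψ (hE x a) (hF1 y),
      qf_tens _ _ U ψ (hE1 x) (hF y b), qf_tens _ _ U ψ (hE1 x) (hF1 y),
      qf_one_one, hψ, hpq]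
    have h1 : 0 ≤ qf U (E x a) (1 - ∑ b, F y b) * qf ψ 1 (N y b) :=
      mul_nonneg (qf_nonneg U (hE x a) (hF1 y)) (qf_nonneg ψ PosSemidef.one (hN y b))
    have h2 : 0 ≤ qf U (1 - ∑ a, E x a) (F y b) * qf ψ (M x a) 1 :=
      mul_nonneg (qf_nonneg U (hE1 x) (hF y b)) (qf_nonneg ψ (hM x a) PosSemidef.one)
    linarith

/-! ### combination of two strategies by local labels, and (T1') -/

theorem comb_two {G : Game} (sX : Fin G.nX → Prop) (sY : Fin G.nY → Prop)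
    {p₁ p₂ : Fin G.nX → Fin G.nY → Fin G.nA → Fin G.nB → ℝ}
    (h₁ : IsQCorr G p₁) (h₂ : IsQCorr G p₂) :
    ∃ p, IsQCorr G p ∧ (∀ x y, sX x → sY y → p x y = p₁ x y) ∧
      (∀ x y, ¬ sX x → ¬ sY y → p x y = p₂ x y) := by
  classical
  obtain ⟨dA, dB, ψ, M, N, hψ, hM, hN, hMs, hNs, hpq⟩ := h₁
  obtain ⟨dA', dB', ψ', M₂, N₂, hψ', hM', hN', hMs', hNs', hpq'⟩ := h₂
  let MM : Fin G.nX → Fin G.nA → Matrix (Fin dA × Fin dA') (Fin dA × Fin dA') ℂ :=
    fun x a => if sX x then M x a ⊗ₖ (1 : Matrix (Fin dA') (Fin dA') ℂ)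
      else (1 : Matrix (Fin dA) (Fin dA) ℂ) ⊗ₖ M₂ x a
  let NN : Fin G.nY → Fin G.nB → Matrix (Fin dB × Fin dB') (Fin dB × Fin dB') ℂ :=
    fun y b => if sY y then N y b ⊗ₖ (1 : Matrix (Fin dB') (Fin dB') ℂ)
      else (1 : Matrix (Fin dB) (Fin dB) ℂ) ⊗ₖ N₂ y b
  refine ⟨fun x y a b => qf (tens ψ ψ') (MM x a) (NN y b), ?_, ?_, ?_⟩
  · refine isQCorr_of_fintype (tens ψ ψ') MM NN ?_ ?_ ?_ ?_ ?_ (fun _ _ _ _ => rfl)
    · rw [nsq_tens, hψ, hψ', one_mul]
    · intro x a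
      by_cases h : sX x
      · simp only [MM, h, if_true]
        exact (hM x a).kronecker PosSemidef.one
      · simp only [MM, h, if_false]
        exact PosSemidef.one.kronecker (hM' x a)
    · intro y b
      by_cases h : sY y
      · simp only [NN, h, if_true]
        exact (hN y b).kronecker PosSemidef.one
      · simp only [NN, h, if_false]
        exact PosSemidef.one.kronecker (hN' y b)
    · intro x
      by_cases h : sX x
      · simp only [MM, h, if_true]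
        rw [← sum_kron_left, hMs, one_kronecker_one]
      · simp only [MM, h, if_false]
        rw [← sum_kron_right, hMs', one_kronecker_one]
    · intro y
      by_cases h : sY y
      · simp only [NN, h, if_true]
        rw [← sum_kron_left, hNs, one_kronecker_one]
      · simp only [NN, h, if_false]
        rw [← sum_kron_right, hNs', one_kronecker_one]
  · intro x y hx hy
    funext a b
    simp only [MM, NN, hx, hy, if_true]
    rw [qf_tens _ _ ψ ψ' (hM x a) (hN y b), qf_one_one, hψ', mul_one, hpq]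
  · intro x y hx hy
    funext a b
    simp only [MM, NN, hx, hy, if_false]
    rw [qf_tens _ _ ψ ψ' PosSemidef.one PosSemidef.one, qf_one_one, hψ, one_mul, hpq']

/-- (T1') -/
theorem comb_labels {G : Game} {Lbl : Type} (cX : Fin G.nX → Lbl) (cY : Fin G.nY → Lbl)
    (p : Lbl → Fin G.nX → Fin G.nY → Fin G.nA → Fin G.nB → ℝ) (hp : ∀ c, IsQCorr G (p c)) :
    ∃ p', IsQCorr G p' ∧ ∀ x y c, cX x = c → cY y = c → p' x y = p c x y := by
  classical
  have hne : Nonempty (Fin G.nX) := by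
    by_contra h
    rw [not_nonempty_iff] at h
    have := G.prob_sum
    simp at this
  obtain ⟨x₀⟩ := hne
  have key : ∀ s : Finset Lbl, ∃ p', IsQCorr G p' ∧
      ∀ x y c, c ∈ s → cX x = c → cY y = c → p' x y = p c x y := by
    intro s
    induction s using Finset.induction_on with
    | empty => exact ⟨p (cX x₀), hp _, fun x y c hc => absurd hc (Finset.notMem_empty c)⟩
    | insert c₀ s hc₀ ih =>
      obtain ⟨q, hq, hqs⟩ := ih
      obtain ⟨p', hp', h1, h2⟩ := comb_two (fun x => cX x = c₀) (fun y => cY y = c₀) (hp c₀) hq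
      refine ⟨p', hp', ?_⟩
      intro x y c hc hx hy
      by_cases hcc : c = c₀
      · subst hcc
        exact h1 x y hx hy
      · have hcs : c ∈ s := (Finset.mem_insert.1 hc).resolve_left hcc
        rw [h2 x y (fun h => hcc (hx ▸ h)) (fun h => hcc (hy ▸ h))]
        exact hqs x y c hcs hx hy
  obtain ⟨p', hp', h⟩ := key (Finset.univ.image cX)
  exact ⟨p', hp', fun x y c hx hy =>
    h x y c (hx ▸ Finset.mem_image_of_mem cX (Finset.mem_univ x)) hx hy⟩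

/-! ### (PERT) -/

section pert
variable {ι : Type} [Fintype ι]

theorem sqrt_nsq_eq_norm (f : ι → ℂ) : Real.sqrt (nsq f) = ‖(WithLp.toLp 2 f : EuclideanSpace ℂ ι)‖ := by
  rw [EuclideanSpace.norm_eq]
  rfl

theorem sqrt_nsq_add_le (f h : ι → ℂ) :
    Real.sqrt (nsq (f + h)) ≤ Real.sqrt (nsq f) + Real.sqrt (nsq h) := by
  rw [sqrt_nsq_eq_norm, sqrt_nsq_eq_norm, sqrt_nsq_eq_norm]
  exact norm_add_le _ _

open scoped MatrixOrder in
theorem exists_factor [DecidableEq ι] {P : Matrix ι ι ℂ} (hP : P.PosSemidef) :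
    ∃ B : Matrix ι ι ℂ, P = Bᴴ * B := by
  obtain ⟨B, hB⟩ := CStarAlgebra.nonneg_iff_eq_star_mul_self.mp hP.nonneg
  exact ⟨B, by rw [hB, star_eq_conjTranspose]⟩

theorem form_factor (B : Matrix ι ι ℂ) (f : ι → ℂ) :
    star f ⬝ᵥ ((Bᴴ * B) *ᵥ f) = ((nsq (B *ᵥ f) : ℝ) : ℂ) := by
  rw [← star_dotProduct_self, ← mulVec_mulVec, dotProduct_mulVec, star_mulVec]

theorem form_le_nsq [DecidableEq ι] {P : Matrix ι ι ℂ} (hP1 : (1 - P).PosSemidef) (f : ι → ℂ) :
    (star f ⬝ᵥ (P *ᵥ f)).re ≤ nsq f := by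
  have h := (Complex.le_def.1 (hP1.dotProduct_mulVec_nonneg f)).1
  rw [sub_mulVec, one_mulVec, dotProduct_sub, star_dotProduct_self, Complex.sub_re,
    Complex.ofReal_re, Complex.zero_re] at h
  linarith

/-- (PERT) -/
theorem pert [DecidableEq ι] {P : Matrix ι ι ℂ} (hP : P.PosSemidef) (hP1 : (1 - P).PosSemidef)
    (f h : ι → ℂ) :
    (star f ⬝ᵥ (P *ᵥ f)).re ≤ (star h ⬝ᵥ (P *ᵥ h)).re
      + Real.sqrt (nsq (f - h)) * (Real.sqrt (nsq f) + Real.sqrt (nsq h)) := by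
  obtain ⟨B, hB⟩ := exists_factor hP
  have e : ∀ u : ι → ℂ, (star u ⬝ᵥ (P *ᵥ u)).re = nsq (B *ᵥ u) := by
    intro u
    rw [hB, form_factor, Complex.ofReal_re]
  have hle : ∀ u : ι → ℂ, Real.sqrt (nsq (B *ᵥ u)) ≤ Real.sqrt (nsq u) := by
    intro u
    apply Real.sqrt_le_sqrt
    rw [← e u]
    exact form_le_nsq hP1 u
  have htri : Real.sqrt (nsq (B *ᵥ f)) ≤ Real.sqrt (nsq (B *ᵥ h)) + Real.sqrt (nsq (B *ᵥ (f - h))) := by
    have : B *ᵥ f = B *ᵥ h + B *ᵥ (f - h) := by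
      rw [← mulVec_add, add_sub_cancel]
    rw [this]
    exact sqrt_nsq_add_le _ _
  rw [e f, e h]
  set a := Real.sqrt (nsq (B *ᵥ f)) with ha
  set b := Real.sqrt (nsq (B *ᵥ h)) with hb
  set c := Real.sqrt (nsq (B *ᵥ (f - h))) with hc
  have ha2 : nsq (B *ᵥ f) = a ^ 2 := (Real.sq_sqrt (nsq_nonneg _)).symm
  have hb2 : nsq (B *ᵥ h) = b ^ 2 := (Real.sq_sqrt (nsq_nonneg _)).symm
  have ha0 : 0 ≤ a := Real.sqrt_nonneg _
  have hb0 : 0 ≤ b := Real.sqrt_nonneg _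
  have hc0 : 0 ≤ c := Real.sqrt_nonneg _
  have h1 := hle f
  have h2 := hle h
  have h3 := hle (f - h)
  rw [ha2, hb2]
  have h4 : c * (a + b) ≤ Real.sqrt (nsq (f - h)) * (Real.sqrt (nsq f) + Real.sqrt (nsq h)) :=
    mul_le_mul h3 (add_le_add h1 h2) (by positivity) (Real.sqrt_nonneg _)
  nlinarith [mul_nonneg (sub_nonneg.2 htri) (add_nonneg ha0 hb0)]

end pert

/-! ### the interface of block (D) -/

variable {G : Game}

theorem IsQCorr.nonneg {p : Fin G.nX → Fin G.nY → Fin G.nA → Fin G.nB → ℝ} (hp : IsQCorr G p)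
    (x : Fin G.nX) (y : Fin G.nY) (a : Fin G.nA) (b : Fin G.nB) : 0 ≤ p x y a b := by
  obtain ⟨dA, dB, ψ, M, N, hψ, hM, hN, hMs, hNs, hpq⟩ := hp
  rw [hpq]
  exact qf_nonneg ψ (hM x a) (hN y b)

theorem IsQCorr.sum_eq_one {p : Fin G.nX → Fin G.nY → Fin G.nA → Fin G.nB → ℝ} (hp : IsQCorr G p)
    (x : Fin G.nX) (y : Fin G.nY) : ∑ a, ∑ b, p x y a b = 1 := by
  obtain ⟨dA, dB, ψ, M, N, hψ, hM, hN, hMs, hNs, hpq⟩ := hp
  simp only [hpq]
  simp only [← qf_sum_right, ← qf_sum_left, hMs, hNs, qf_one_one, hψ]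

/-- a trivial strategy exists as soon as both answer sets are nonempty -/
theorem exists_isQCorr (hA : 0 < G.nA) (hB : 0 < G.nB) :
    ∃ p : Fin G.nX → Fin G.nY → Fin G.nA → Fin G.nB → ℝ, IsQCorr G p := by
  refine ⟨_, 1, 1, fun _ => 1, fun _ a => if a = ⟨0, hA⟩ then 1 else 0,
    fun _ b => if b = ⟨0, hB⟩ then 1 else 0, ?_, ?_, ?_, ?_, ?_, fun _ _ _ _ => rfl⟩
  · simp [nsq]
  · intro x a
    by_cases h : a = ⟨0, hA⟩
    · simp only [h, if_true]; exact PosSemidef.one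
    · simp only [h, if_false]; exact PosSemidef.zero
  · intro y b
    by_cases h : b = ⟨0, hB⟩
    · simp only [h, if_true]; exact PosSemidef.one
    · simp only [h, if_false]; exact PosSemidef.zero
  · intro x
    rw [Finset.sum_ite_eq' Finset.univ (⟨0, hA⟩ : Fin G.nA) (fun _ => (1 : Matrix (Fin 1) (Fin 1) ℂ))]
    simp
  · intro y
    rw [Finset.sum_ite_eq' Finset.univ (⟨0, hB⟩ : Fin G.nB) (fun _ => (1 : Matrix (Fin 1) (Fin 1) ℂ))]
    simp

section fintype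
variable {ιA ιB : Type} [Fintype ιA] [Fintype ιB] [DecidableEq ιA] [DecidableEq ιB]

/-- **(F)** strategies indexed by arbitrary finite types -/
theorem IsQCorr.of_fintype (ψ : ιA × ιB → ℂ) (hψ : nsq ψ = 1)
    (M : Fin G.nX → Fin G.nA → Matrix ιA ιA ℂ) (N : Fin G.nY → Fin G.nB → Matrix ιB ιB ℂ)
    (hM : ∀ x, IsPOVM (M x)) (hN : ∀ y, IsPOVM (N y)) :
    IsQCorr G (fun x y a b => qf ψ (M x a) (N y b)) :=
  isQCorr_of_fintype ψ M N hψ (fun x a => (hM x).1 a) (fun y b => (hN y).1 b)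
    (fun x => (hM x).2) (fun y => (hN y).2) (fun _ _ _ _ => rfl)

theorem gval_smul (c : ℝ) (p : Fin G.nX → Fin G.nY → Fin G.nA → Fin G.nB → ℝ) :
    gval G (fun x y a b => c * p x y a b) = c * gval G p := by
  unfold gval
  rw [Finset.mul_sum]
  apply Finset.sum_congr rfl
  intro x _
  rw [Finset.mul_sum]
  apply Finset.sum_congr rfl
  intro y _
  rw [mul_left_comm]
  congr 1
  rw [Finset.mul_sum]
  apply Finset.sum_congr rfl
  intro a _
  rw [Finset.mul_sum]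
  apply Finset.sum_congr rfl
  intro b _
  split_ifs <;> simp

/-- **(V')** value bound for an arbitrary (unnormalised) vector -/
theorem gval_qf_le (v : ℝ)
    (hv : ∀ (dA dB : ℕ) (S : Strategy G 1 dA dB), S.probWinsAtLeast 1 ≤ v)
    (ψ : ιA × ιB → ℂ)
    (M : Fin G.nX → Fin G.nA → Matrix ιA ιA ℂ) (N : Fin G.nY → Fin G.nB → Matrix ιB ιB ℂ)
    (hM : ∀ x, IsPOVM (M x)) (hN : ∀ y, IsPOVM (N y)) :
    gval G (fun x y a b => qf ψ (M x a) (N y b)) ≤ v * nsq ψ := by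
  by_cases h0 : nsq ψ = 0
  · have hψ : ψ = 0 := (nsq_eq_zero_iff ψ).1 h0
    rw [h0, mul_zero]
    apply le_of_eq
    unfold gval
    have hq : ∀ x y a b, qf ψ (M x a) (N y b) = 0 := by
      intro x y a b
      rw [hψ, qf_eq]
      simp [bil]
    simp [hq]
  · have hpos : 0 < nsq ψ := lt_of_le_of_ne (nsq_nonneg ψ) (Ne.symm h0)
    set t := Real.sqrt (nsq ψ) with ht
    have htpos : 0 < t := Real.sqrt_pos.2 hpos
    have ht2 : t ^ 2 = nsq ψ := Real.sq_sqrt hpos.le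
    have hnorm : ‖((t⁻¹ : ℝ) : ℂ)‖ ^ 2 = (t⁻¹) ^ 2 := by
      rw [Complex.norm_real, Real.norm_eq_abs, sq_abs]
    have hn : nsq (((t⁻¹ : ℝ) : ℂ) • ψ) = 1 := by
      rw [nsq_smul, hnorm, ← ht2]
      field_simp
    have h1 := gval_le_of_isQCorr v hv (IsQCorr.of_fintype (((t⁻¹ : ℝ) : ℂ) • ψ) hn M N hM hN)
    simp only [qf_smul_vec, hnorm] at h1
    rw [gval_smul] at h1
    have h2 : gval G (fun x y a b => qf ψ (M x a) (N y b))
        = t ^ 2 * ((t⁻¹) ^ 2 * gval G (fun x y a b => qf ψ (M x a) (N y b))) := by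
      field_simp
    rw [h2, ← ht2, mul_comm v]
    exact mul_le_mul_of_nonneg_left h1 (by positivity)

/-- **(T2)** try-else composition -/
theorem IsQCorr.tryElse (U : ιA × ιB → ℂ) (hU : nsq U = 1)
    (E : Fin G.nX → Fin G.nA → Matrix ιA ιA ℂ) (F : Fin G.nY → Fin G.nB → Matrix ιB ιB ℂ)
    (hE : ∀ x a, (E x a).PosSemidef) (hF : ∀ y b, (F y b).PosSemidef)
    (hE1 : ∀ x, (1 - ∑ a, E x a).PosSemidef) (hF1 : ∀ y, (1 - ∑ b, F y b).PosSemidef)
    {p : Fin G.nX → Fin G.nY → Fin G.nA → Fin G.nB → ℝ} (hp : IsQCorr G p) :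
    ∃ q, IsQCorr G q ∧ ∀ x y a b,
      qf U (E x a) (F y b) + qf U (1 - ∑ a, E x a) (1 - ∑ b, F y b) * p x y a b ≤ q x y a b :=
  try_else U hU E F hE hF hE1 hF1 hp

/-- **(PERT)** perturbation of the winning probability, for an arbitrary set `Win` of answer pairs -/
theorem qf_win_pert {α β : Type} [Fintype α] [Fintype β]
    (N : α → Matrix ιA ιA ℂ) (N' : β → Matrix ιB ιB ℂ) (hN : IsPOVM N) (hN' : IsPOVM N')
    (Win : α → β → Bool) (f h : ιA × ιB → ℂ) :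
    (∑ a, ∑ b, if Win a b = true then qf f (N a) (N' b) else 0) ≤
      (∑ a, ∑ b, if Win a b = true then qf h (N a) (N' b) else 0)
        + Real.sqrt (nsq (f - h)) * (Real.sqrt (nsq f) + Real.sqrt (nsq h)) := by
  set P : Matrix (ιA × ιB) (ιA × ιB) ℂ :=
    ∑ a, ∑ b, if Win a b = true then N a ⊗ₖ N' b else 0 with hPdef
  set P' : Matrix (ιA × ιB) (ιA × ιB) ℂ :=
    ∑ a, ∑ b, if Win a b = true then 0 else N a ⊗ₖ N' b with hP'def
  have hP : P.PosSemidef := by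
    apply posSemidef_sum
    intro a _
    apply posSemidef_sum
    intro b _
    split_ifs
    · exact (hN.1 a).kronecker (hN'.1 b)
    · exact PosSemidef.zero
  have hP' : P'.PosSemidef := by
    apply posSemidef_sum
    intro a _
    apply posSemidef_sum
    intro b _
    split_ifs
    · exact PosSemidef.zero
    · exact (hN.1 a).kronecker (hN'.1 b)
  have hsum : P + P' = 1 := by
    rw [hPdef, hP'def, ← Finset.sum_add_distrib]
    have : ∀ a, (∑ b, (if Win a b = true then N a ⊗ₖ N' b else 0))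
        + (∑ b, (if Win a b = true then 0 else N a ⊗ₖ N' b)) = N a ⊗ₖ (1 : Matrix ιB ιB ℂ) := by
      intro a
      rw [← Finset.sum_add_distrib, ← hN'.2, sum_kron_right]
      apply Finset.sum_congr rfl
      intro b _
      split_ifs <;> simp
    rw [Finset.sum_congr rfl (fun a _ => this a), ← sum_kron_left, hN.2, one_kronecker_one]
  have hP1 : (1 - P).PosSemidef := by
    rw [← hsum, add_sub_cancel_left]
    exact hP'
  have e : ∀ u : ιA × ιB → ℂ, (∑ a, ∑ b, if Win a b = true then qf u (N a) (N' b) else 0)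
      = (star u ⬝ᵥ (P *ᵥ u)).re := by
    intro u
    rw [hPdef, Matrix.sum_mulVec, dotProduct_sum, Complex.re_sum]
    apply Finset.sum_congr rfl
    intro a _
    rw [Matrix.sum_mulVec, dotProduct_sum, Complex.re_sum]
    apply Finset.sum_congr rfl
    intro b _
    split_ifs
    · rfl
    · simp
  rw [e f, e h]
  exact pert hP hP1 f h

end fintype

/-- **(T1')** gluing strategies along a labelling of the questions -/
theorem IsQCorr.glue {Lbl : Type} [Fintype Lbl] [DecidableEq Lbl]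
    (cX : Fin G.nX → Lbl) (cY : Fin G.nY → Lbl)
    (p : Lbl → Fin G.nX → Fin G.nY → Fin G.nA → Fin G.nB → ℝ) (hp : ∀ c, IsQCorr G (p c)) :
    ∃ q, IsQCorr G q ∧ ∀ x y, cX x = cY y → q x y = p (cX x) x y := by
  obtain ⟨q, hq, h⟩ := comb_labels cX cY p hp
  exact ⟨q, hq, fun x y hxy => h x y (cX x) rfl hxy.symm⟩

/-- a `k`-fold strategy with `k ≥ 1` forces nonempty answer sets -/
theorem nA_nB_pos_of_strategy {k dA dB : ℕ} (S : Strategy G k dA dB) (hk : 1 ≤ k) :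
    0 < G.nA ∧ 0 < G.nB := by
  have hneX : Nonempty (Fin G.nX) := by
    by_contra h
    rw [not_nonempty_iff] at h
    have := G.prob_sum
    simp at this
  have hneY : Nonempty (Fin G.nY) := by
    by_contra h
    rw [not_nonempty_iff] at h
    have := G.prob_sum
    simp at this
  obtain ⟨x₀⟩ := hneX
  obtain ⟨y₀⟩ := hneY
  have hne : Nonempty (Fin dA × Fin dB) := by
    by_contra h
    rw [not_nonempty_iff] at h
    have := S.ψ_norm
    simp at this
  obtain ⟨⟨i, j⟩⟩ := hne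
  constructor
  · by_contra h
    have h0 : G.nA = 0 := by omega
    have hemp : IsEmpty (Fin k → Fin G.nA) := by
      refine ⟨fun a => ?_⟩
      have := a ⟨0, hk⟩
      rw [h0] at this
      exact this.elim0
    have h1 := S.M_sum (fun _ => x₀)
    rw [Finset.univ_eq_empty, Finset.sum_empty] at h1
    have h2 := congrFun (congrFun h1 i) i
    simp at h2
  · by_contra h
    have h0 : G.nB = 0 := by omega
    have hemp : IsEmpty (Fin k → Fin G.nB) := by
      refine ⟨fun a => ?_⟩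
      have := a ⟨0, hk⟩
      rw [h0] at this
      exact this.elim0
    have h1 := S.N_sum (fun _ => y₀)
    rw [Finset.univ_eq_empty, Finset.sum_empty] at h1
    have h2 := congrFun (congrFun h1 j) j
    simp at h2

theorem gval_nonneg {p : Fin G.nX → Fin G.nY → Fin G.nA → Fin G.nB → ℝ}
    (hp : ∀ x y a b, 0 ≤ p x y a b) : 0 ≤ gval G p := by
  unfold gval
  apply Finset.sum_nonneg
  intro x _
  apply Finset.sum_nonneg
  intro y _
  apply mul_nonneg (G.prob_nonneg x y)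
  apply Finset.sum_nonneg
  intro a _
  apply Finset.sum_nonneg
  intro b _
  split_ifs
  · exact hp x y a b
  · exact le_rfl

/-- the value bound `v` is nonnegative as soon as a strategy exists -/
theorem v_nonneg_of_strategy (v : ℝ)
    (hv : ∀ (dA dB : ℕ) (S : Strategy G 1 dA dB), S.probWinsAtLeast 1 ≤ v)
    {k dA dB : ℕ} (S : Strategy G k dA dB) (hk : 1 ≤ k) : 0 ≤ v := by
  obtain ⟨hA, hB⟩ := nA_nB_pos_of_strategy S hk
  obtain ⟨p, hp⟩ := exists_isQCorr (G := G) hA hB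
  exact (gval_nonneg hp.nonneg).trans (gval_le_of_isQCorr v hv hp)

end Crest.Agent.PR
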