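/-
ROW 342, project PR.  Iterated try-else (blueprint 6.3, "N copies").  helper32.
-/
import Crest.Agent.PR_Strat

set_option autoImplicit false

namespace Crest.Agent.PR

open Finset Matrix
open Crest.MathPhysics.NonlocalGame
open scoped Kronecker ComplexOrder

variable {G : Game} {ιA ιB : Type} [Fintype ιA] [Fintype ιB] [DecidableEq ιA] [DecidableEq ιB]

/-- `N` independent attempts: with `q = Q_U(E x a, F y b)` (both accept and answer `a`, `b`) and
`p00 = Q_U(1 - ∑ E x, 1 - ∑ F y)` (both reject) one gets at least `q * (1 + p00 + ... + p00^(N-1))`. -/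
theorem IsQCorr.tryElse_iter (U : ιA × ιB → ℂ) (hU : nsq U = 1)
    (E : Fin G.nX → Fin G.nA → Matrix ιA ιA ℂ) (F : Fin G.nY → Fin G.nB → Matrix ιB ιB ℂ)
    (hE : ∀ x a, (E x a).PosSemidef) (hF : ∀ y b, (F y b).PosSemidef)
    (hE1 : ∀ x, (1 - ∑ a, E x a).PosSemidef) (hF1 : ∀ y, (1 - ∑ b, F y b).PosSemidef)
    {p : Fin G.nX → Fin G.nY → Fin G.nA → Fin G.nB → ℝ} (hp : IsQCorr G p) (N : ℕ) :
    ∃ q, IsQCorr G q ∧ ∀ x y a b,
      qf U (E x a) (F y b) * ∑ i ∈ Finset.range N, (qf U (1 - ∑ a, E x a) (1 - ∑ b, F y b)) ^ i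
        ≤ q x y a b := by
  induction N with
  | zero =>
    refine ⟨p, hp, fun x y a b => ?_⟩
    simpa using hp.nonneg x y a b
  | succ N ih =>
    obtain ⟨q, hq, hqN⟩ := ih
    obtain ⟨q', hq', h'⟩ := IsQCorr.tryElse U hU E F hE hF hE1 hF1 hq
    refine ⟨q', hq', fun x y a b => ?_⟩
    have h0 : 0 ≤ qf U (1 - ∑ a, E x a) (1 - ∑ b, F y b) := qf_nonneg U (hE1 x) (hF1 y)
    have h1 := mul_le_mul_of_nonneg_left (hqN x y a b) h0
    have h2 := h' x y a b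
    rw [geom_sum_succ]
    nlinarith

/-- closed form of the geometric factor. -/
theorem IsQCorr.tryElse_iter' (U : ιA × ιB → ℂ) (hU : nsq U = 1)
    (E : Fin G.nX → Fin G.nA → Matrix ιA ιA ℂ) (F : Fin G.nY → Fin G.nB → Matrix ιB ιB ℂ)
    (hE : ∀ x a, (E x a).PosSemidef) (hF : ∀ y b, (F y b).PosSemidef)
    (hE1 : ∀ x, (1 - ∑ a, E x a).PosSemidef) (hF1 : ∀ y, (1 - ∑ b, F y b).PosSemidef)
    {p : Fin G.nX → Fin G.nY → Fin G.nA → Fin G.nB → ℝ} (hp : IsQCorr G p) (N : ℕ) :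
    ∃ q, IsQCorr G q ∧ ∀ x y a b,
      qf U (E x a) (F y b) * (1 - (qf U (1 - ∑ a, E x a) (1 - ∑ b, F y b)) ^ N)
        ≤ (1 - qf U (1 - ∑ a, E x a) (1 - ∑ b, F y b)) * q x y a b := by
  obtain ⟨q, hq, h⟩ := IsQCorr.tryElse_iter U hU E F hE hF hE1 hF1 hp N
  refine ⟨q, hq, fun x y a b => ?_⟩
  set t := qf U (1 - ∑ a, E x a) (1 - ∑ b, F y b) with ht
  have ht1 : t ≤ 1 := by
    have h1 : t ≤ qf U 1 (1 - ∑ b, F y b) := by
      apply qf_mono_left U _ (hF1 y)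
      have : (1 : Matrix ιA ιA ℂ) - (1 - ∑ a, E x a) = ∑ a, E x a := by abel
      rw [this]
      exact posSemidef_sum _ (fun a _ => hE x a)
    have h2 : qf U 1 (1 - ∑ b, F y b) ≤ qf U 1 1 := by
      apply qf_mono_right U PosSemidef.one
      have : (1 : Matrix ιB ιB ℂ) - (1 - ∑ b, F y b) = ∑ b, F y b := by abel
      rw [this]
      exact posSemidef_sum _ (fun b _ => hF y b)
    rw [qf_one_one, hU] at h2
    linarith
  have hg : (1 - t) * ∑ i ∈ Finset.range N, t ^ i = 1 - t ^ N := by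
    have := mul_neg_geom_sum t N
    linarith
  have h3 := mul_le_mul_of_nonneg_left (h x y a b) (sub_nonneg.2 ht1)
  calc qf U (E x a) (F y b) * (1 - t ^ N)
      = (1 - t) * (qf U (E x a) (F y b) * ∑ i ∈ Finset.range N, t ^ i) := by rw [← hg]; ring
    _ ≤ (1 - t) * q x y a b := h3

end Crest.Agent.PR
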