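import Crest.Agent.PR_SpecFun

/-!
# Row 342, block (C): Douglas lifting (R4)
-/

namespace Crest.Agent.PR.GA

open Matrix
open scoped ComplexOrder MatrixOrder

variable {n : Type*} [Fintype n] [DecidableEq n]

/-- pseudo-inverse of a Hermitian matrix -/
noncomputable def pinv (A : Matrix n n ℂ) : Matrix n n ℂ := sfun (fun u => u⁻¹) A

theorem pinv_isHermitian (A : Matrix n n ℂ) : (pinv A).IsHermitian := sfun_isHermitian _ _

theorem mul_pinv_mul {A : Matrix n n ℂ} (hA : A.IsHermitian) : A * pinv A * A = A := by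
  have h : A * pinv A * A = sfun (fun u => u * u⁻¹ * u) A := by
    rw [sfun_mul hA (fun u => u * u⁻¹) (fun u => u), sfun_mul hA (fun u => u) (fun u => u⁻¹),
      sfun_id hA, pinv]
  rw [h]
  conv_rhs => rw [← sfun_id hA]
  apply sfun_congr hA
  intro i
  by_cases h0 : hA.eigenvalues i = 0
  · simp [h0]
  · field_simp

theorem pinv_mul_mul {A : Matrix n n ℂ} (hA : A.IsHermitian) : pinv A * A * pinv A = pinv A := by
  have h : pinv A * A * pinv A = sfun (fun u => u⁻¹ * u * u⁻¹) A := by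
    rw [sfun_mul hA (fun u => u⁻¹ * u) (fun u => u⁻¹), sfun_mul hA (fun u => u⁻¹) (fun u => u),
      sfun_id hA, pinv]
  rw [h, pinv]
  apply sfun_congr hA
  intro i
  by_cases h0 : hA.eigenvalues i = 0
  · simp [h0]
  · field_simp

theorem pinv_comm {A : Matrix n n ℂ} (hA : A.IsHermitian) : pinv A * A = A * pinv A := by
  have := sfun_commute hA (fun u => u⁻¹) (fun u => u)
  rw [sfun_id hA] at this
  exact this

/-- if a finite sum of PSD matrices vanishes, every term vanishes -/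
theorem psd_sum_eq_zero {α : Type*} [Fintype α] {X : α → Matrix n n ℂ}
    (hX : ∀ a, (X a).PosSemidef) (h : ∑ a, X a = 0) (a : α) : X a = 0 := by
  have h1 := (Finset.sum_eq_zero_iff_of_nonneg
    (fun a _ => Matrix.nonneg_iff_posSemidef.mpr (hX a))).mp h
  exact h1 a (Finset.mem_univ a)

/-- PSD `c` with `Q c Q = 0` (`Q` Hermitian) satisfies `c Q = 0` -/
theorem psd_mul_eq_zero {c Q : Matrix n n ℂ} (hc : c.PosSemidef) (hQ : Q.IsHermitian)
    (h : Q * c * Q = 0) : c * Q = 0 := by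
  -- c = B^H B with B = sqrt c
  set B := sfun Real.sqrt c with hB
  have hBB : Bᴴ * B = c := by
    rw [(sfun_isHermitian Real.sqrt c).eq, ← sfun_mul hc.1]
    conv_rhs => rw [← sfun_id hc.1]
    exact sfun_congr hc.1 (fun i => Real.mul_self_sqrt (eig_nonneg hc i))
  have h1 : (B * Q)ᴴ * (B * Q) = 0 := by
    rw [conjTranspose_mul, hQ.eq]
    calc Q * Bᴴ * (B * Q) = Q * (Bᴴ * B) * Q := by simp only [Matrix.mul_assoc]
      _ = 0 := by rw [hBB, h]
  have h2 : B * Q = 0 := conjTranspose_mul_self_eq_zero.mp h1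
  calc c * Q = Bᴴ * (B * Q) := by rw [← hBB, Matrix.mul_assoc]
    _ = 0 := by rw [h2, Matrix.mul_zero]

/-- **(R4)** Douglas lifting -/
theorem exists_lift' {m α : Type*} [Fintype m] [DecidableEq m] [Fintype α] [Nonempty α]
    (r : Matrix m n ℂ) (c : α → Matrix n n ℂ) (hc : ∀ a, (c a).PosSemidef)
    (hsum : ∑ a, c a = rᴴ * r) :
    ∃ N : α → Matrix m m ℂ, ((∀ a, (N a).PosSemidef) ∧ ∑ a, N a = 1) ∧
      ∀ a, rᴴ * N a * r = c a := by
  classical
  obtain ⟨A, hAdef⟩ : ∃ A, A = rᴴ * r := ⟨_, rfl⟩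
  rw [← hAdef] at hsum
  have hA : A.IsHermitian := by rw [hAdef]; exact isHermitian_conjTranspose_mul_self r
  obtain ⟨Ap, hAp⟩ : ∃ Ap, Ap = pinv A := ⟨_, rfl⟩
  have hApH : Apᴴ = Ap := by rw [hAp]; exact (pinv_isHermitian A).eq
  obtain ⟨Q, hQdef⟩ : ∃ Q, Q = 1 - A * Ap := ⟨_, rfl⟩
  have hQH : Q.IsHermitian := by
    unfold Matrix.IsHermitian
    rw [hQdef, conjTranspose_sub, conjTranspose_one, conjTranspose_mul, hApH, hA.eq, hAp,
      pinv_comm hA]
  have hAQ : A * Q = 0 := by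
    rw [hQdef, Matrix.mul_sub, Matrix.mul_one, ← Matrix.mul_assoc]
    have : A * A * Ap = A * Ap * A := by
      rw [Matrix.mul_assoc, Matrix.mul_assoc, hAp, pinv_comm hA]
    rw [this, hAp, mul_pinv_mul hA, sub_self]
  -- c a * Q = 0
  have hcQ : ∀ a, c a * Q = 0 := by
    intro a
    apply psd_mul_eq_zero (hc a) hQH
    have hX : ∀ b, (Q * c b * Q).PosSemidef := by
      intro b
      have := (hc b).conjTranspose_mul_mul_same Q
      rwa [hQH.eq] at this
    apply psd_sum_eq_zero hX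
    rw [← Finset.sum_mul, ← Finset.mul_sum, hsum, Matrix.mul_assoc, hAQ, Matrix.mul_zero]
  have hcP : ∀ a, c a * (A * Ap) = c a := by
    intro a
    have := hcQ a
    rw [hQdef, Matrix.mul_sub, Matrix.mul_one, sub_eq_zero] at this
    exact this.symm
  have hPc : ∀ a, (A * Ap) * c a = c a := by
    intro a
    have h1 := congrArg conjTranspose (hcP a)
    rw [conjTranspose_mul, conjTranspose_mul, hApH, hA.eq, (hc a).1.eq, hAp, pinv_comm hA] at h1
    rw [hAp]
    exact h1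
  obtain ⟨L, hL⟩ : ∃ L, L = r * Ap := ⟨_, rfl⟩
  have hLH : Lᴴ = Ap * rᴴ := by rw [hL, conjTranspose_mul, hApH]
  obtain ⟨Pi, hPi⟩ : ∃ Pi, Pi = r * Ap * rᴴ := ⟨_, rfl⟩
  have hPiH : Piᴴ = Pi := by
    rw [hPi, conjTranspose_mul, conjTranspose_mul, conjTranspose_conjTranspose, hApH,
      Matrix.mul_assoc]
  have hPi2 : Pi * Pi = Pi := by
    calc Pi * Pi = r * (Ap * (rᴴ * r) * Ap) * rᴴ := by
          rw [hPi]; simp only [Matrix.mul_assoc]
      _ = Pi := by rw [← hAdef, hPi, hAp, pinv_mul_mul hA]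
  have h1Pi : (1 - Pi).PosSemidef := by
    have : (1 - Pi) = (1 - Pi)ᴴ * (1 - Pi) := by
      rw [conjTranspose_sub, conjTranspose_one, hPiH, Matrix.sub_mul, Matrix.mul_sub,
        Matrix.mul_sub, hPi2]
      simp
    rw [this]
    exact posSemidef_conjTranspose_mul_self _
  obtain ⟨a0⟩ := ‹Nonempty α›
  refine ⟨fun a => L * c a * Lᴴ + (if a = a0 then 1 - Pi else 0), ⟨?_, ?_⟩, ?_⟩
  · intro a
    apply PosSemidef.add
    · exact (hc a).mul_mul_conjTranspose_same L
    · split_ifs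
      · exact h1Pi
      · exact PosSemidef.zero
  · rw [Finset.sum_add_distrib, ← Matrix.sum_mul, ← Matrix.mul_sum, hsum, Finset.sum_ite_eq']
    simp only [Finset.mem_univ, if_true]
    have : L * A * Lᴴ = Pi := by
      rw [hLH, hL, hPi]
      calc r * Ap * A * (Ap * rᴴ) = r * (Ap * A * Ap) * rᴴ := by simp only [Matrix.mul_assoc]
        _ = r * Ap * rᴴ := by rw [hAp, pinv_mul_mul hA]
    rw [this]
    abel
  · intro a
    rw [Matrix.mul_add, Matrix.add_mul]
    have e1 : rᴴ * (L * c a * Lᴴ) * r = c a := by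
      rw [hLH, hL]
      calc rᴴ * (r * Ap * c a * (Ap * rᴴ)) * r
          = ((rᴴ * r) * Ap) * c a * (Ap * (rᴴ * r)) := by simp only [Matrix.mul_assoc]
        _ = (A * Ap) * c a * (A * Ap) := by rw [← hAdef, hAp, pinv_comm hA]
        _ = c a := by rw [hPc, hcP]
    have e2 : rᴴ * (if a = a0 then 1 - Pi else 0) * r = 0 := by
      split_ifs
      · rw [Matrix.mul_sub, Matrix.sub_mul, Matrix.mul_one, hPi]
        have : rᴴ * (r * Ap * rᴴ) * r = (rᴴ * r) * Ap * (rᴴ * r) := by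
          simp only [Matrix.mul_assoc]
        rw [this, ← hAdef, hAp, mul_pinv_mul hA, sub_self]
      · simp
    rw [e1, e2, add_zero]

end Crest.Agent.PR.GA
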