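import Crest.Agent.PR_Mint

/-!
# Row 342, block (C): the resolvent gauge (R3) and the bounds (R2)
-/

namespace Crest.Agent.PR.GA

open MeasureTheory intervalIntegral Set Matrix
open scoped ComplexOrder

variable {n : Type*} [Fintype n] [DecidableEq n]

/-- every PSD matrix is `Rᴴ R` -/
theorem exists_factor {A : Matrix n n ℂ} (hA : A.PosSemidef) : ∃ R : Matrix n n ℂ, Rᴴ * R = A := by
  refine ⟨sfun Real.sqrt A, ?_⟩
  rw [(sfun_isHermitian Real.sqrt A).eq, ← sfun_mul hA.1]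
  conv_rhs => rw [← sfun_id hA.1]
  exact sfun_congr hA.1 (fun i => Real.mul_self_sqrt (eig_nonneg hA i))

/-- **(R2a)** -/
theorem ent_le' {a : Matrix n n ℂ} (ha : a.PosSemidef) (ha1 : (1 - a).PosSemidef) :
    (1 - a - ent a).PosSemidef := by
  have e1 : (1 : Matrix n n ℂ) - a = sfun (fun u => 1 - u) a := by
    rw [sfun_sub ha.1 (fun _ => 1) (fun u => u), sfun_one ha.1, sfun_id ha.1]
  rw [e1]
  exact sfun_le ha.1 (fun i => entR_le (eig_nonneg ha i) (eig_le_one ha.1 ha1 i))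

/-- **(R2b)** tangent-line bound -/
theorem ent_ge' {a : Matrix n n ℂ} (ha : a.PosSemidef) {g : ℝ} (hg : 0 < g) :
    (ent a - (((1 - g : ℝ) : ℂ) • (1 : Matrix n n ℂ) + ((Real.log g : ℝ) : ℂ) • a)).PosSemidef := by
  have e1 : ((1 - g : ℝ) : ℂ) • (1 : Matrix n n ℂ) + ((Real.log g : ℝ) : ℂ) • a
      = sfun (fun u => (1 - g) + Real.log g * u) a := by
    rw [sfun_add ha.1 (fun _ => 1 - g) (fun u => Real.log g * u), sfun_const ha.1,
      sfun_smul ha.1, sfun_id ha.1]
  rw [e1]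
  exact sfun_le ha.1 (fun i => entR_ge (eig_nonneg ha i) hg)

/-- **(R3)** the resolvent gauge -/
theorem exists_gauge' {T : Type*} [Fintype T] [DecidableEq T] (a : T → Matrix n n ℂ)
    (ha : ∀ t, (a t).PosSemidef) :
    ∃ r : T → Matrix (T × n) n ℂ, (∀ t, (r t)ᴴ * r t = a t) ∧
      ∀ (p : T → ℝ) (t0 : T), (∀ t, 0 ≤ p t) → ∑ t, p t = 1 → ∑ t, ((p t : ℝ) : ℂ) • a t = a t0 →
        (∑ t, ((p t : ℝ) : ℂ) • ent (a t) - ent (a t0)
          - ∑ t, ((p t : ℝ) : ℂ) • ((r t - r t0)ᴴ * (r t - r t0))).PosSemidef := by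
  -- the block Gram function
  set Fb : ℝ → Matrix (T × n) (T × n) ℂ :=
    fun s x y => (cs s (a x.1) * cs s (a y.1)) x.2 y.2 with hFb
  have hcc : ∀ t t', MCont (fun s => cs s (a t) * cs s (a t')) :=
    fun t t' => (MCont_cs (ha t)).mul (MCont_cs (ha t'))
  have hFbc : MCont Fb := fun x y => hcc x.1 y.1 x.2 y.2
  have hFbp : ∀ s, (Fb s).PosSemidef := by
    intro s
    set C : Matrix n (T × n) ℂ := fun i y => cs s (a y.1) i y.2 with hC
    have : Fb s = Cᴴ * C := by
      ext x y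
      rw [Matrix.mul_apply]
      simp only [hFb, Matrix.mul_apply, conjTranspose_apply, hC]
      apply Finset.sum_congr rfl
      intro i _
      congr 1
      have h1 := (cs_isHermitian s (a x.1))
      have h2 : (cs s (a x.1))ᴴ x.2 i = cs s (a x.1) x.2 i := by rw [h1]
      rw [conjTranspose_apply] at h2
      exact h2.symm
    rw [this]
    exact posSemidef_conjTranspose_mul_self C
  obtain ⟨R, hR⟩ := exists_factor (Mint_posSemidef hFbc (fun s _ => hFbp s))
  set r : T → Matrix (T × n) n ℂ := fun t x j => R x (t, j) with hr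
  have hB : ∀ t t', (r t)ᴴ * r t' = Mint (fun s => cs s (a t) * cs s (a t')) := by
    intro t t'
    ext i j
    have h1 : (Rᴴ * R) (t, i) (t', j) = Mint Fb (t, i) (t', j) := by rw [hR]
    rw [Matrix.mul_apply] at h1 ⊢
    simp only [conjTranspose_apply] at h1 ⊢
    exact h1
  refine ⟨r, fun t => by rw [hB, Mint_cs_sq (ha t)], ?_⟩
  intro p t0 hp hsum hmean
  have hdiff : ∀ t, (r t - r t0)ᴴ * (r t - r t0)
      = Mint (fun s => (cs s (a t) - cs s (a t0)) * (cs s (a t) - cs s (a t0))) := by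
    intro t
    have e1 : (fun s => (cs s (a t) - cs s (a t0)) * (cs s (a t) - cs s (a t0)))
        = fun s => ((cs s (a t) * cs s (a t) - cs s (a t) * cs s (a t0))
            - (cs s (a t0) * cs s (a t) - cs s (a t0) * cs s (a t0))) := by
      ext1 s
      noncomm_ring
    rw [e1, Mint_sub ((hcc _ _).sub (hcc _ _)) ((hcc _ _).sub (hcc _ _)),
      Mint_sub (hcc _ _) (hcc _ _), Mint_sub (hcc _ _) (hcc _ _), ← hB, ← hB, ← hB, ← hB,
      conjTranspose_sub, Matrix.sub_mul, Matrix.mul_sub, Matrix.mul_sub]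
  have hcd : ∀ t, MCont (fun s => (cs s (a t) - cs s (a t0)) * (cs s (a t) - cs s (a t0))) :=
    fun t => ((MCont_cs (ha t)).sub (MCont_cs (ha t0))).mul ((MCont_cs (ha t)).sub (MCont_cs (ha t0)))
  have hfin : ∑ t, ((p t : ℝ) : ℂ) • ent (a t) - ent (a t0)
          - ∑ t, ((p t : ℝ) : ℂ) • ((r t - r t0)ᴴ * (r t - r t0))
      = Mint (fun s => ∑ t, ((p t : ℝ) : ℂ) • es s (a t) - es s (a t0)
          - ∑ t, ((p t : ℝ) : ℂ) • ((cs s (a t) - cs s (a t0)) * (cs s (a t) - cs s (a t0)))) := by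
    rw [Mint_sub ((MCont.sum _ (fun t => (MCont_es (ha t)).smul _)).sub (MCont_es (ha t0)))
        (MCont.sum _ (fun t => (hcd t).smul _)),
      Mint_sub (MCont.sum _ (fun t => (MCont_es (ha t)).smul _)) (MCont_es (ha t0)),
      Mint_sum _ (fun t => (MCont_es (ha t)).smul _), Mint_sum _ (fun t => (hcd t).smul _),
      Mint_es (ha t0)]
    simp only [Mint_smul, Mint_es (ha _), hdiff]
  rw [hfin]
  apply Mint_posSemidef
  · exact ((MCont.sum _ (fun t => (MCont_es (ha t)).smul _)).sub (MCont_es (ha t0))).sub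
      (MCont.sum _ (fun t => (hcd t).smul _))
  · intro s hs
    have := gauge_pointwise hs.1 hs.2 p hp hsum a ha
    rw [hmean] at this
    exact this

end Crest.Agent.PR.GA
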