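/-
ROW 342, project PR.  BLOCK (C): resolvent gauge and Douglas lifting, blueprint section 2.  Architect: helper53.
`ent a` is the spectral sum `GA.sfun GA.entR a`, `entR u = u log u - u + 1` (junk 0 for non-Hermitian `a`);
only `ent_isHermitian` and the four theorems below are used outside.
Proofs (all in the sub-namespace `Crest.Agent.PR.GA`): PR_SpecFun (spectral functions), PR_GaugeR1 (R1), PR_GaugeScalar (scalar integrals), PR_Mint (entrywise
integrals), PR_GaugeR3 (R2, R3), PR_Douglas (R4).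
-/
import Crest.Agent.PR_Defs
import Crest.Agent.PR_GaugeR3
import Crest.Agent.PR_Douglas

set_option autoImplicit false

namespace Crest.Agent.PR

open scoped ComplexOrder

variable {n : Type} [Fintype n] [DecidableEq n]

/-- matrix function of `u ↦ u log u - u + 1` -/
noncomputable def ent (a : Matrix n n ℂ) : Matrix n n ℂ := GA.ent a

theorem ent_isHermitian (a : Matrix n n ℂ) : (ent a).IsHermitian := GA.ent_isHermitian a

/-- **(R2a)** -/
theorem ent_le {a : Matrix n n ℂ} (ha : a.PosSemidef) (ha1 : (1 - a).PosSemidef) :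
    (1 - a - ent a).PosSemidef :=
  GA.ent_le' ha ha1

/-- **(R2b)** tangent-line bound -/
theorem ent_ge {a : Matrix n n ℂ} (ha : a.PosSemidef) {g : ℝ} (hg : 0 < g) :
    (ent a - (((1 - g : ℝ) : ℂ) • (1 : Matrix n n ℂ) + ((Real.log g : ℝ) : ℂ) • a)).PosSemidef :=
  GA.ent_ge' ha hg

/-- **(R3)** the resolvent gauge -/
theorem exists_gauge {T : Type} [Fintype T] [DecidableEq T] (a : T → Matrix n n ℂ)
    (ha : ∀ t, (a t).PosSemidef) (ha1 : ∀ t, (1 - a t).PosSemidef) :
    ∃ r : T → Matrix (T × n) n ℂ, (∀ t, (r t).conjTranspose * r t = a t) ∧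
      ∀ (p : T → ℝ) (t0 : T), (∀ t, 0 ≤ p t) → ∑ t, p t = 1 → ∑ t, ((p t : ℝ) : ℂ) • a t = a t0 →
        (∑ t, ((p t : ℝ) : ℂ) • ent (a t) - ent (a t0)
          - ∑ t, ((p t : ℝ) : ℂ) • ((r t - r t0).conjTranspose * (r t - r t0))).PosSemidef :=
  GA.exists_gauge' a ha

/-- **(R4)** Douglas lifting -/
theorem exists_lift {m α : Type} [Fintype m] [DecidableEq m] [Fintype α] [Nonempty α]
    (r : Matrix m n ℂ) (c : α → Matrix n n ℂ) (hc : ∀ a, (c a).PosSemidef)
    (hsum : ∑ a, c a = r.conjTranspose * r) :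
    ∃ N : α → Matrix m m ℂ, IsPOVM N ∧ ∀ a, r.conjTranspose * N a * r = c a :=
  GA.exists_lift' r c hc hsum

end Crest.Agent.PR
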