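/-
ROW 342, project PR.  BLOCK (A2) = (KB) k-fold bookkeeping, blueprint section 3.  Architect: helper91.
DEFINITIONS (FROZEN once landed).  Everything of this block lives in `namespace Crest.Agent.PR.KF`.

Idea.  A *kernel* for Alice at one coordinate is a function `κ : X → A → ℝ`; a family of kernels `κ i` gives the operator
`kop M κ = ∑_{x,a} (∏ i, κ i (x i) (a i)) • M x a` (multilinear in the kernels).
A *label* `l : Lam G` of one coordinate is one of
  `T`-label `((x,y),(a,b))`  (tested coordinate: both questions and both answers are public),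
  `F`-label `(x,y)`          (both questions public),
  `Om`-label `x` or `y`      (one question public, the other player's question is averaged with the conditional law).
A label gives a kernel for Alice (`kerA`) and for Bob (`kerB`).  A *mode* gives weights on the labels (`wt`).
A configuration is `ρ : Fin k → Lam G`.  In the hybrid `modeAt C t` the coordinates of `C` are tested, the untested
coordinates `i < t` are in mode `F`, the untested `i ≥ t` in mode `Om`.
-/
import Crest.Agent.PR_Gauge

set_option autoImplicit false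

namespace Crest.Agent.PR.KF

open Crest.MathPhysics.NonlocalGame
open scoped ComplexOrder

/-- multilinear extension of a `k`-fold measurement family to kernels -/
noncomputable def kop {k nQ nR d : ℕ}
    (M : (Fin k → Fin nQ) → (Fin k → Fin nR) → Matrix (Fin d) (Fin d) ℂ)
    (κ : Fin k → Fin nQ → Fin nR → ℝ) : Matrix (Fin d) (Fin d) ℂ :=
  ∑ x : Fin k → Fin nQ, ∑ a : Fin k → Fin nR, ((∏ i, κ i (x i) (a i) : ℝ) : ℂ) • M x a

/-- point kernel: question `x`, all answers -/
def dQ {nQ nR : ℕ} (x : Fin nQ) : Fin nQ → Fin nR → ℝ := fun x' _ => if x' = x then 1 else 0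

/-- point kernel: question `x`, answer `a` -/
def dQR {nQ nR : ℕ} (x : Fin nQ) (a : Fin nR) : Fin nQ → Fin nR → ℝ :=
  fun x' a' => if x' = x ∧ a' = a then 1 else 0

/-- labels of one coordinate -/
abbrev Lam (G : Game) : Type :=
  ((Fin G.nX × Fin G.nY) × (Fin G.nA × Fin G.nB)) ⊕ ((Fin G.nX × Fin G.nY) ⊕ (Fin G.nX ⊕ Fin G.nY))

/-- modes of one coordinate -/
inductive Mode
  | T | F | Om
  deriving DecidableEq

/-- Alice's kernel of a label -/
noncomputable def kerA (G : Game) : Lam G → Fin G.nX → Fin G.nA → ℝ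
  | .inl w => dQR w.1.1 w.2.1
  | .inr (.inl w) => dQ w.1
  | .inr (.inr (.inl x)) => dQ x
  | .inr (.inr (.inr y)) => fun x' _ => G.prob x' y / piB G y

/-- Bob's kernel of a label -/
noncomputable def kerB (G : Game) : Lam G → Fin G.nY → Fin G.nB → ℝ
  | .inl w => dQR w.1.2 w.2.2
  | .inr (.inl w) => dQ w.2
  | .inr (.inr (.inl x)) => fun y' _ => G.prob x y' / piA G x
  | .inr (.inr (.inr y)) => dQ y

/-- an answer-independent majorant of `kerA` (a sub-probability vector on Alice's questions) -/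
noncomputable def majA (G : Game) : Lam G → Fin G.nX → ℝ
  | .inl w => fun x' => if x' = w.1.1 then 1 else 0
  | .inr (.inl w) => fun x' => if x' = w.1 then 1 else 0
  | .inr (.inr (.inl x)) => fun x' => if x' = x then 1 else 0
  | .inr (.inr (.inr y)) => fun x' => G.prob x' y / piB G y

/-- an answer-independent majorant of `kerB` -/
noncomputable def majB (G : Game) : Lam G → Fin G.nY → ℝ
  | .inl w => fun y' => if y' = w.1.2 then 1 else 0
  | .inr (.inl w) => fun y' => if y' = w.2 then 1 else 0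
  | .inr (.inr (.inl x)) => fun y' => G.prob x y' / piA G x
  | .inr (.inr (.inr y)) => fun y' => if y' = y then 1 else 0

/-- weight of a label in a mode (zero on the labels of the other modes) -/
noncomputable def wt (G : Game) : Mode → Lam G → ℝ
  | .T, .inl w => if G.accept w.1.1 w.1.2 w.2.1 w.2.2 = true then G.prob w.1.1 w.1.2 else 0
  | .F, .inr (.inl w) => G.prob w.1 w.2
  | .Om, .inr (.inr (.inl x)) => piA G x / 2
  | .Om, .inr (.inr (.inr y)) => piB G y / 2
  | _, _ => 0

/-- joint kernel of a mode: `∑_l wt m l * kerA l x a * kerB l y b` -/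
noncomputable def jk (G : Game) : Mode → Fin G.nX → Fin G.nY → Fin G.nA → Fin G.nB → ℝ
  | .T => fun x y a b => if G.accept x y a b = true then G.prob x y else 0
  | .F => fun x y _ _ => G.prob x y
  | .Om => fun x y _ _ => G.prob x y

variable {G : Game} {k dA dB : ℕ}

/-- the hybrid mode assignment -/
def modeAt (C : Finset (Fin k)) (t : ℕ) (i : Fin k) : Mode :=
  if i ∈ C then .T else if (i : ℕ) < t then .F else .Om

/-- weight of a configuration in the hybrid `t` -/
noncomputable def wtAll (G : Game) (C : Finset (Fin k)) (t : ℕ) (ρ : Fin k → Lam G) : ℝ :=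
  ∏ i, wt G (modeAt C t i) (ρ i)

/-- Alice's operator of a configuration -/
noncomputable def opA (S : Strategy G k dA dB) (ρ : Fin k → Lam G) : Matrix (Fin dA) (Fin dA) ℂ :=
  kop S.M (fun i => kerA G (ρ i))

/-- Bob's operator of a configuration -/
noncomputable def opB (S : Strategy G k dA dB) (ρ : Fin k → Lam G) : Matrix (Fin dB) (Fin dB) ℂ :=
  kop S.N (fun i => kerB G (ρ i))

/-- Alice's potential in the hybrid `t` -/
noncomputable def PhiA (S : Strategy G k dA dB) (C : Finset (Fin k)) (t : ℕ) : ℝ :=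
  ∑ ρ : Fin k → Lam G, wtAll G C t ρ * qf S.ψ (ent (opA S ρ)) (opB S ρ)

/-- Bob's potential in the hybrid `t` -/
noncomputable def PhiB (S : Strategy G k dA dB) (C : Finset (Fin k)) (t : ℕ) : ℝ :=
  ∑ ρ : Fin k → Lam G, wtAll G C t ρ * qf S.ψ (opA S ρ) (ent (opB S ρ))

/-- total mass seen by Alice's potential -/
noncomputable def TotA (S : Strategy G k dA dB) (C : Finset (Fin k)) (t : ℕ) : ℝ :=
  ∑ ρ : Fin k → Lam G, wtAll G C t ρ * qf S.ψ 1 (opB S ρ)

/-- total mass seen by Bob's potential -/
noncomputable def TotB (S : Strategy G k dA dB) (C : Finset (Fin k)) (t : ℕ) : ℝ :=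
  ∑ ρ : Fin k → Lam G, wtAll G C t ρ * qf S.ψ (opA S ρ) 1

/-- the mass `= P(W_C)` -/
noncomputable def Gam (S : Strategy G k dA dB) (C : Finset (Fin k)) (t : ℕ) : ℝ :=
  ∑ ρ : Fin k → Lam G, wtAll G C t ρ * qf S.ψ (opA S ρ) (opB S ρ)

/-- THE WEIGHTS of `kfold`: the `j`-th label of `ρ` is a dummy (probability weight `wt F`), the others are in the hybrid `j`. -/
noncomputable def Wj (G : Game) (C : Finset (Fin k)) (j : Fin k) (ρ : Fin k → Lam G) : ℝ :=
  wt G .F (ρ j) * ∏ i ∈ Finset.univ.erase j, wt G (modeAt C j i) (ρ i)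

/-- THE OPERATORS of `kfold` (Alice): kernel of coordinate `j` replaced by the point kernel `(x,a)` -/
noncomputable def alj (S : Strategy G k dA dB) (j : Fin k) (ρ : Fin k → Lam G) (x : Fin G.nX) (a : Fin G.nA) :
    Matrix (Fin dA) (Fin dA) ℂ :=
  kop S.M (Function.update (fun i => kerA G (ρ i)) j (dQR x a))

/-- THE OPERATORS of `kfold` (Bob) -/
noncomputable def bej (S : Strategy G k dA dB) (j : Fin k) (ρ : Fin k → Lam G) (y : Fin G.nY) (b : Fin G.nB) :
    Matrix (Fin dB) (Fin dB) ℂ :=
  kop S.N (Function.update (fun i => kerB G (ρ i)) j (dQR y b))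

/-- Alice's operator with question `x` at coordinate `j`, all answers (`= ∑ a, alj S j ρ x a`) -/
noncomputable def aj (S : Strategy G k dA dB) (j : Fin k) (ρ : Fin k → Lam G) (x : Fin G.nX) :
    Matrix (Fin dA) (Fin dA) ℂ :=
  kop S.M (Function.update (fun i => kerA G (ρ i)) j (dQ x))

/-- Bob's operator with question `y` at coordinate `j`, all answers (`= ∑ b, bej S j ρ y b`) -/
noncomputable def bj (S : Strategy G k dA dB) (j : Fin k) (ρ : Fin k → Lam G) (y : Fin G.nY) :
    Matrix (Fin dB) (Fin dB) ℂ :=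
  kop S.N (Function.update (fun i => kerB G (ρ i)) j (dQ y))

/-! ### evaluation lemmas (all `rfl`) and forcing of the equation lemmas in this module -/

section eval
variable (G : Game)

@[simp] theorem kerA_T (w : (Fin G.nX × Fin G.nY) × (Fin G.nA × Fin G.nB)) :
    kerA G (.inl w) = dQR w.1.1 w.2.1 := rfl
@[simp] theorem kerA_F (w : Fin G.nX × Fin G.nY) : kerA G (.inr (.inl w)) = dQ w.1 := rfl
@[simp] theorem kerA_OmX (x : Fin G.nX) : kerA G (.inr (.inr (.inl x))) = dQ x := rfl
@[simp] theorem kerA_OmY (y : Fin G.nY) :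
    kerA G (.inr (.inr (.inr y))) = fun x' _ => G.prob x' y / piB G y := rfl
@[simp] theorem kerB_T (w : (Fin G.nX × Fin G.nY) × (Fin G.nA × Fin G.nB)) :
    kerB G (.inl w) = dQR w.1.2 w.2.2 := rfl
@[simp] theorem kerB_F (w : Fin G.nX × Fin G.nY) : kerB G (.inr (.inl w)) = dQ w.2 := rfl
@[simp] theorem kerB_OmX (x : Fin G.nX) :
    kerB G (.inr (.inr (.inl x))) = fun y' _ => G.prob x y' / piA G x := rfl
@[simp] theorem kerB_OmY (y : Fin G.nY) : kerB G (.inr (.inr (.inr y))) = dQ y := rfl

@[simp] theorem majA_T (w : (Fin G.nX × Fin G.nY) × (Fin G.nA × Fin G.nB)) :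
    majA G (.inl w) = fun x' => if x' = w.1.1 then 1 else 0 := rfl
@[simp] theorem majA_F (w : Fin G.nX × Fin G.nY) :
    majA G (.inr (.inl w)) = fun x' => if x' = w.1 then 1 else 0 := rfl
@[simp] theorem majA_OmX (x : Fin G.nX) :
    majA G (.inr (.inr (.inl x))) = fun x' => if x' = x then 1 else 0 := rfl
@[simp] theorem majA_OmY (y : Fin G.nY) :
    majA G (.inr (.inr (.inr y))) = fun x' => G.prob x' y / piB G y := rfl
@[simp] theorem majB_T (w : (Fin G.nX × Fin G.nY) × (Fin G.nA × Fin G.nB)) :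
    majB G (.inl w) = fun y' => if y' = w.1.2 then 1 else 0 := rfl
@[simp] theorem majB_F (w : Fin G.nX × Fin G.nY) :
    majB G (.inr (.inl w)) = fun y' => if y' = w.2 then 1 else 0 := rfl
@[simp] theorem majB_OmX (x : Fin G.nX) :
    majB G (.inr (.inr (.inl x))) = fun y' => G.prob x y' / piA G x := rfl
@[simp] theorem majB_OmY (y : Fin G.nY) :
    majB G (.inr (.inr (.inr y))) = fun y' => if y' = y then 1 else 0 := rfl

@[simp] theorem wt_T_T (w : (Fin G.nX × Fin G.nY) × (Fin G.nA × Fin G.nB)) :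
    wt G .T (.inl w) = if G.accept w.1.1 w.1.2 w.2.1 w.2.2 = true then G.prob w.1.1 w.1.2 else 0 := rfl
@[simp] theorem wt_T_inr (l : (Fin G.nX × Fin G.nY) ⊕ (Fin G.nX ⊕ Fin G.nY)) : wt G .T (.inr l) = 0 := rfl
@[simp] theorem wt_F_T (w : (Fin G.nX × Fin G.nY) × (Fin G.nA × Fin G.nB)) : wt G .F (.inl w) = 0 := rfl
@[simp] theorem wt_F_F (w : Fin G.nX × Fin G.nY) : wt G .F (.inr (.inl w)) = G.prob w.1 w.2 := rfl
@[simp] theorem wt_F_Om (l : Fin G.nX ⊕ Fin G.nY) : wt G .F (.inr (.inr l)) = 0 := rfl
@[simp] theorem wt_Om_T (w : (Fin G.nX × Fin G.nY) × (Fin G.nA × Fin G.nB)) : wt G .Om (.inl w) = 0 := rfl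
@[simp] theorem wt_Om_F (w : Fin G.nX × Fin G.nY) : wt G .Om (.inr (.inl w)) = 0 := rfl
@[simp] theorem wt_Om_OmX (x : Fin G.nX) : wt G .Om (.inr (.inr (.inl x))) = piA G x / 2 := rfl
@[simp] theorem wt_Om_OmY (y : Fin G.nY) : wt G .Om (.inr (.inr (.inr y))) = piB G y / 2 := rfl

@[simp] theorem jk_T : jk G .T = fun x y a b => if G.accept x y a b = true then G.prob x y else 0 := rfl
@[simp] theorem jk_F : jk G .F = fun x y _ _ => G.prob x y := rfl
@[simp] theorem jk_Om : jk G .Om = fun x y _ _ => G.prob x y := rfl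

end eval

/-- forces the auto-generated equation lemmas to be realised in THIS module -/
theorem force_eqs : True := by
  have := @kop.eq_1; have := @dQ.eq_1; have := @dQR.eq_1
  have := @kerA.eq_1; have := @kerA.eq_2; have := @kerA.eq_3; have := @kerA.eq_4; have := @kerA.eq_def
  have := @kerB.eq_1; have := @kerB.eq_2; have := @kerB.eq_3; have := @kerB.eq_4; have := @kerB.eq_def
  have := @majA.eq_1; have := @majA.eq_2; have := @majA.eq_3; have := @majA.eq_4; have := @majA.eq_def
  have := @majB.eq_1; have := @majB.eq_2; have := @majB.eq_3; have := @majB.eq_4; have := @majB.eq_def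
  have := @wt.eq_1; have := @wt.eq_2; have := @wt.eq_3; have := @wt.eq_4; have := @wt.eq_5; have := @wt.eq_def
  have := @jk.eq_1; have := @jk.eq_2; have := @jk.eq_3; have := @jk.eq_def
  have := @modeAt.eq_1; have := @wtAll.eq_1; have := @opA.eq_1; have := @opB.eq_1
  have := @PhiA.eq_1; have := @PhiB.eq_1; have := @TotA.eq_1; have := @TotB.eq_1; have := @Gam.eq_1
  have := @Wj.eq_1; have := @alj.eq_1; have := @bej.eq_1; have := @aj.eq_1; have := @bj.eq_1
  trivial

end Crest.Agent.PR.KF
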