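/-
ROW 342, project PR, block (KB).  TASK K4: sums over the labels of one coordinate.  Architect: helper91.

All proofs: `Fintype.sum_sum_type` (three times), `Fintype.sum_prod_type`, the `rfl`-simp lemmas of `PR_KDefs` (`wt_T_T`, `kerA_F`, ...),
`Finset.sum_ite_eq`, `dQ`, `dQR` unfolded.  `piA G x = ∑ y, G.prob x y`, `piB G y = ∑ x, G.prob x y`.
`piA_mul_div`: if `piA G x = 0` then every `G.prob x y = 0` (`Finset.sum_eq_zero_iff_of_nonneg`), else `mul_div_cancel₀`.
`sum_wt_ker`, mode `Om`:  `∑ x', piA x'/2 * [x = x'] * (prob x' y / piA x') + ∑ y', piB y'/2 * (prob x y'/piB y') * [y = y'] = prob x y`.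
-/
import Crest.Agent.PR_KDefs

set_option autoImplicit false

namespace Crest.Agent.PR.KF

open Crest.MathPhysics.NonlocalGame

variable (G : Game)

theorem piA_nonneg (x : Fin G.nX) : 0 ≤ piA G x :=
  Finset.sum_nonneg (fun y _ => G.prob_nonneg x y)
theorem piB_nonneg (y : Fin G.nY) : 0 ≤ piB G y :=
  Finset.sum_nonneg (fun x _ => G.prob_nonneg x y)
theorem sum_piA : ∑ x, piA G x = 1 := G.prob_sum
theorem sum_piB : ∑ y, piB G y = 1 := by
  unfold piB
  rw [Finset.sum_comm]
  exact G.prob_sum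
theorem piA_mul_div (x : Fin G.nX) (y : Fin G.nY) : piA G x * (G.prob x y / piA G x) = G.prob x y := by
  by_cases h : piA G x = 0
  · have h0 : G.prob x y = 0 :=
      (Finset.sum_eq_zero_iff_of_nonneg (fun y _ => G.prob_nonneg x y)).1 h y (Finset.mem_univ _)
    rw [h0]; simp
  · field_simp
theorem piB_mul_div (x : Fin G.nX) (y : Fin G.nY) : piB G y * (G.prob x y / piB G y) = G.prob x y := by
  by_cases h : piB G y = 0
  · have h0 : G.prob x y = 0 :=
      (Finset.sum_eq_zero_iff_of_nonneg (fun x _ => G.prob_nonneg x y)).1 h x (Finset.mem_univ _)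
    rw [h0]; simp
  · field_simp

theorem sum_wt_T (F : Lam G → ℝ) :
    ∑ l, wt G .T l * F l = ∑ x, ∑ y, ∑ a, ∑ b,
      (if G.accept x y a b = true then G.prob x y else 0) * F (.inl ((x, y), (a, b))) := by
  simp only [Fintype.sum_sum_type, Fintype.sum_prod_type, wt_T_T, wt_T_inr, zero_mul,
    Finset.sum_const_zero, add_zero]

theorem sum_wt_F (F : Lam G → ℝ) :
    ∑ l, wt G .F l * F l = ∑ x, ∑ y, G.prob x y * F (.inr (.inl (x, y))) := by
  simp only [Fintype.sum_sum_type, Fintype.sum_prod_type, wt_F_T, wt_F_F, wt_F_Om, zero_mul,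
    Finset.sum_const_zero, add_zero, zero_add]

theorem sum_wt_Om (F : Lam G → ℝ) :
    ∑ l, wt G .Om l * F l = ∑ x, piA G x / 2 * F (.inr (.inr (.inl x)))
      + ∑ y, piB G y / 2 * F (.inr (.inr (.inr y))) := by
  simp only [Fintype.sum_sum_type, Fintype.sum_prod_type, wt_Om_T, wt_Om_F, wt_Om_OmX, wt_Om_OmY,
    zero_mul, Finset.sum_const_zero, add_zero, zero_add]

theorem wt_nonneg (m : Mode) (l : Lam G) : 0 ≤ wt G m l := by
  cases m <;> rcases l with w | w | x | y
  · rw [wt_T_T]; split_ifs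
    · exact G.prob_nonneg _ _
    · exact le_rfl
  · rw [wt_T_inr]
  · rw [wt_T_inr]
  · rw [wt_T_inr]
  · rw [wt_F_T]
  · rw [wt_F_F]; exact G.prob_nonneg _ _
  · rw [wt_F_Om]
  · rw [wt_F_Om]
  · rw [wt_Om_T]
  · rw [wt_Om_F]
  · rw [wt_Om_OmX]; exact div_nonneg (piA_nonneg G x) (by norm_num)
  · rw [wt_Om_OmY]; exact div_nonneg (piB_nonneg G y) (by norm_num)

theorem sum_wt_F_one : ∑ l, wt G .F l = 1 := by
  have := sum_wt_F G (fun _ => 1)
  simp only [mul_one] at this
  rw [this]
  exact G.prob_sum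

theorem kerA_nonneg (l : Lam G) (x : Fin G.nX) (a : Fin G.nA) : 0 ≤ kerA G l x a := by
  rcases l with w | w | x' | y
  · rw [kerA_T]; unfold dQR; split_ifs <;> norm_num
  · rw [kerA_F]; unfold dQ; split_ifs <;> norm_num
  · rw [kerA_OmX]; unfold dQ; split_ifs <;> norm_num
  · rw [kerA_OmY]; exact div_nonneg (G.prob_nonneg _ _) (piB_nonneg G y)
theorem kerB_nonneg (l : Lam G) (y : Fin G.nY) (b : Fin G.nB) : 0 ≤ kerB G l y b := by
  rcases l with w | w | x | y'
  · rw [kerB_T]; unfold dQR; split_ifs <;> norm_num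
  · rw [kerB_F]; unfold dQ; split_ifs <;> norm_num
  · rw [kerB_OmX]; exact div_nonneg (G.prob_nonneg _ _) (piA_nonneg G x)
  · rw [kerB_OmY]; unfold dQ; split_ifs <;> norm_num
theorem kerA_le_majA (l : Lam G) (x : Fin G.nX) (a : Fin G.nA) : kerA G l x a ≤ majA G l x := by
  rcases l with w | w | x' | y
  · rw [kerA_T, majA_T]; unfold dQR
    by_cases h1 : x = w.1.1 <;> by_cases h2 : a = w.2.1 <;> simp [h1, h2]
  · rw [kerA_F, majA_F]; exact le_rfl
  · rw [kerA_OmX, majA_OmX]; exact le_rfl
  · rw [kerA_OmY, majA_OmY]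
theorem kerB_le_majB (l : Lam G) (y : Fin G.nY) (b : Fin G.nB) : kerB G l y b ≤ majB G l y := by
  rcases l with w | w | x | y'
  · rw [kerB_T, majB_T]; unfold dQR
    by_cases h1 : y = w.1.2 <;> by_cases h2 : b = w.2.2 <;> simp [h1, h2]
  · rw [kerB_F, majB_F]; exact le_rfl
  · rw [kerB_OmX, majB_OmX]
  · rw [kerB_OmY, majB_OmY]; exact le_rfl
theorem majA_nonneg (l : Lam G) (x : Fin G.nX) : 0 ≤ majA G l x := by
  rcases l with w | w | x' | y
  · rw [majA_T]; dsimp only; split_ifs <;> norm_num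
  · rw [majA_F]; dsimp only; split_ifs <;> norm_num
  · rw [majA_OmX]; dsimp only; split_ifs <;> norm_num
  · rw [majA_OmY]; exact div_nonneg (G.prob_nonneg _ _) (piB_nonneg G y)
theorem majB_nonneg (l : Lam G) (y : Fin G.nY) : 0 ≤ majB G l y := by
  rcases l with w | w | x | y'
  · rw [majB_T]; dsimp only; split_ifs <;> norm_num
  · rw [majB_F]; dsimp only; split_ifs <;> norm_num
  · rw [majB_OmX]; exact div_nonneg (G.prob_nonneg _ _) (piA_nonneg G x)
  · rw [majB_OmY]; dsimp only; split_ifs <;> norm_num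
theorem sum_majA_le_one (l : Lam G) : ∑ x, majA G l x ≤ 1 := by
  rcases l with w | w | x' | y
  · rw [majA_T]; simp
  · rw [majA_F]; simp
  · rw [majA_OmX]; simp
  · rw [majA_OmY]; dsimp only
    rw [← Finset.sum_div]
    exact div_self_le_one _
theorem sum_majB_le_one (l : Lam G) : ∑ y, majB G l y ≤ 1 := by
  rcases l with w | w | x | y'
  · rw [majB_T]; simp
  · rw [majB_F]; simp
  · rw [majB_OmX]; dsimp only
    rw [← Finset.sum_div]
    exact div_self_le_one _
  · rw [majB_OmY]; simp

private theorem KLab_ind {n : ℕ} (f : Fin n → ℝ) (c : Fin n) :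
    ∑ i, f i * (if c = i then 1 else 0) = f c := by
  simp

private theorem KLab_ind2 {n m : ℕ} (f : Fin n → Fin m → ℝ) (c : Fin n) (d : Fin m) :
    ∑ i, ∑ j, f i j * (if c = i ∧ d = j then 1 else 0) = f c d := by
  have : ∀ i j, f i j * (if c = i ∧ d = j then (1 : ℝ) else 0)
      = (f i j * (if d = j then 1 else 0)) * (if c = i then 1 else 0) := by
    intro i j
    by_cases h1 : c = i <;> by_cases h2 : d = j <;> simp [h1, h2]
  simp only [this, ← Finset.sum_mul, KLab_ind]

/-- the joint kernel of a mode -/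
theorem sum_wt_ker (m : Mode) (x : Fin G.nX) (y : Fin G.nY) (a : Fin G.nA) (b : Fin G.nB) :
    ∑ l, wt G m l * kerA G l x a * kerB G l y b = jk G m x y a b := by
  simp only [mul_assoc]
  cases m
  · rw [sum_wt_T G (fun l => kerA G l x a * kerB G l y b)]
    simp only [kerA_T, kerB_T, jk_T, dQR]
    have : ∀ (x' : Fin G.nX) (y' : Fin G.nY) (a' : Fin G.nA) (b' : Fin G.nB),
        (if G.accept x' y' a' b' = true then G.prob x' y' else 0) *
          ((if x = x' ∧ a = a' then (1 : ℝ) else 0) * (if y = y' ∧ b = b' then 1 else 0))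
        = ((if G.accept x' y' a' b' = true then G.prob x' y' else 0) *
            (if y = y' ∧ b = b' then 1 else 0)) * (if x = x' ∧ a = a' then (1 : ℝ) else 0) := by
      intro x' y' a' b'; ring
    simp only [this]
    have h2 : ∀ x' : Fin G.nX, ∑ y', ∑ a', ∑ b',
        ((if G.accept x' y' a' b' = true then G.prob x' y' else 0) *
            (if y = y' ∧ b = b' then 1 else 0)) * (if x = x' ∧ a = a' then (1 : ℝ) else 0)
        = ∑ a', (if G.accept x' y a' b = true then G.prob x' y else 0)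
            * (if x = x' ∧ a = a' then (1 : ℝ) else 0) := by
      intro x'
      rw [Finset.sum_comm]
      apply Finset.sum_congr rfl
      intro a' _
      simp only [← Finset.sum_mul]
      rw [KLab_ind2 (fun y' b' => (if G.accept x' y' a' b' = true then G.prob x' y' else 0)) y b]
    simp only [h2]
    rw [KLab_ind2 (fun x' a' => (if G.accept x' y a' b = true then G.prob x' y else 0)) x a]
  · rw [sum_wt_F G (fun l => kerA G l x a * kerB G l y b)]
    simp only [kerA_F, kerB_F, jk_F, dQ]
    have : ∀ (x' : Fin G.nX) (y' : Fin G.nY),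
        G.prob x' y' * ((if x = x' then (1 : ℝ) else 0) * (if y = y' then 1 else 0))
        = (G.prob x' y' * (if y = y' then 1 else 0)) * (if x = x' then (1 : ℝ) else 0) := by
      intro x' y'; ring
    simp only [this, ← Finset.sum_mul, KLab_ind]
  · rw [sum_wt_Om G (fun l => kerA G l x a * kerB G l y b)]
    simp only [kerA_OmX, kerB_OmX, kerA_OmY, kerB_OmY, jk_Om, dQ]
    have h1 : ∀ x' : Fin G.nX,
        piA G x' / 2 * ((if x = x' then (1 : ℝ) else 0) * (G.prob x' y / piA G x'))
        = (G.prob x' y / 2) * (if x = x' then (1 : ℝ) else 0) := by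
      intro x'
      calc piA G x' / 2 * ((if x = x' then (1 : ℝ) else 0) * (G.prob x' y / piA G x'))
          = (piA G x' * (G.prob x' y / piA G x')) / 2 * (if x = x' then (1 : ℝ) else 0) := by ring
        _ = _ := by rw [piA_mul_div]
    have h2 : ∀ y' : Fin G.nY,
        piB G y' / 2 * (G.prob x y' / piB G y' * (if y = y' then (1 : ℝ) else 0))
        = (G.prob x y' / 2) * (if y = y' then (1 : ℝ) else 0) := by
      intro y'
      calc piB G y' / 2 * (G.prob x y' / piB G y' * (if y = y' then (1 : ℝ) else 0))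
          = (piB G y' * (G.prob x y' / piB G y')) / 2 * (if y = y' then (1 : ℝ) else 0) := by ring
        _ = _ := by rw [piB_mul_div]
    simp only [h1, h2, KLab_ind]
    ring

/-- Bob's marginal kernel: modes `F` and `Om` -/
theorem sum_wt_kerB_F (y : Fin G.nY) (b : Fin G.nB) : ∑ l, wt G .F l * kerB G l y b = piB G y := by
  rw [sum_wt_F G (fun l => kerB G l y b)]
  simp only [kerB_F, dQ, KLab_ind]
  rfl
theorem sum_wt_kerB_Om (y : Fin G.nY) (b : Fin G.nB) : ∑ l, wt G .Om l * kerB G l y b = piB G y := by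
  rw [sum_wt_Om G (fun l => kerB G l y b)]
  simp only [kerB_OmX, kerB_OmY, dQ, KLab_ind]
  have h1 : ∀ x' : Fin G.nX, piA G x' / 2 * (G.prob x' y / piA G x') = G.prob x' y / 2 := by
    intro x'
    calc piA G x' / 2 * (G.prob x' y / piA G x')
        = (piA G x' * (G.prob x' y / piA G x')) / 2 := by ring
      _ = _ := by rw [piA_mul_div]
  simp only [h1, ← Finset.sum_div]
  have : ∑ x', G.prob x' y = piB G y := rfl
  rw [this]; ring
/-- Bob's marginal kernel: mode `T` -/
theorem sum_wt_kerB_T_le (y : Fin G.nY) (b : Fin G.nB) :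
    ∑ l, wt G .T l * kerB G l y b ≤ (G.nA : ℝ) * piB G y := by
  rw [sum_wt_T G (fun l => kerB G l y b)]
  simp only [kerB_T, dQR]
  have h2 : ∀ x' : Fin G.nX, ∑ y', ∑ a', ∑ b',
      (if G.accept x' y' a' b' = true then G.prob x' y' else 0) *
          (if y = y' ∧ b = b' then (1 : ℝ) else 0)
      = ∑ a', (if G.accept x' y a' b = true then G.prob x' y else 0) := by
    intro x'
    rw [Finset.sum_comm]
    apply Finset.sum_congr rfl
    intro a' _
    rw [KLab_ind2 (fun y' b' => (if G.accept x' y' a' b' = true then G.prob x' y' else 0)) y b]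
  simp only [h2]
  calc ∑ x', ∑ a', (if G.accept x' y a' b = true then G.prob x' y else 0)
      ≤ ∑ x', ∑ _a' : Fin G.nA, G.prob x' y := by
        apply Finset.sum_le_sum; intro x' _
        apply Finset.sum_le_sum; intro a' _
        split_ifs
        · exact le_rfl
        · exact G.prob_nonneg _ _
    _ = (G.nA : ℝ) * piB G y := by
        simp only [Finset.sum_const, Finset.card_univ, Fintype.card_fin, nsmul_eq_mul]
        rw [← Finset.mul_sum]; rfl

theorem sum_wt_kerA_F (x : Fin G.nX) (a : Fin G.nA) : ∑ l, wt G .F l * kerA G l x a = piA G x := by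
  rw [sum_wt_F G (fun l => kerA G l x a)]
  simp only [kerA_F, dQ]
  have e1 : ∀ x' : Fin G.nX, ∑ y', G.prob x' y' * (if x = x' then (1 : ℝ) else 0)
      = (∑ y', G.prob x' y') * (if x = x' then (1 : ℝ) else 0) := by
    intro x'; rw [Finset.sum_mul]
  simp only [e1]
  rw [KLab_ind (fun x' => ∑ y', G.prob x' y') x]
  rfl
theorem sum_wt_kerA_Om (x : Fin G.nX) (a : Fin G.nA) : ∑ l, wt G .Om l * kerA G l x a = piA G x := by
  rw [sum_wt_Om G (fun l => kerA G l x a)]
  simp only [kerA_OmX, kerA_OmY, dQ, KLab_ind]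
  have h1 : ∀ y' : Fin G.nY, piB G y' / 2 * (G.prob x y' / piB G y') = G.prob x y' / 2 := by
    intro y'
    calc piB G y' / 2 * (G.prob x y' / piB G y')
        = (piB G y' * (G.prob x y' / piB G y')) / 2 := by ring
      _ = _ := by rw [piB_mul_div]
  simp only [h1, ← Finset.sum_div]
  have : ∑ y', G.prob x y' = piA G x := rfl
  rw [this]; ring
theorem sum_wt_kerA_T_le (x : Fin G.nX) (a : Fin G.nA) :
    ∑ l, wt G .T l * kerA G l x a ≤ (G.nB : ℝ) * piA G x := by
  rw [sum_wt_T G (fun l => kerA G l x a)]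
  simp only [kerA_T, dQR]
  have h2 : ∑ x', ∑ y', ∑ a', ∑ b',
      (if G.accept x' y' a' b' = true then G.prob x' y' else 0) *
          (if x = x' ∧ a = a' then (1 : ℝ) else 0)
      = ∑ y', ∑ b', (if G.accept x y' a b' = true then G.prob x y' else 0) := by
    have e1 : ∀ x' : Fin G.nX, ∑ y', ∑ a', ∑ b',
        (if G.accept x' y' a' b' = true then G.prob x' y' else 0) *
          (if x = x' ∧ a = a' then (1 : ℝ) else 0)
        = ∑ a', (∑ y', ∑ b', (if G.accept x' y' a' b' = true then G.prob x' y' else 0)) *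
          (if x = x' ∧ a = a' then (1 : ℝ) else 0) := by
      intro x'
      rw [Finset.sum_comm]
      apply Finset.sum_congr rfl
      intro a' _
      simp only [Finset.sum_mul]
    simp only [e1]
    rw [KLab_ind2 (fun x' a' => ∑ y', ∑ b', (if G.accept x' y' a' b' = true then G.prob x' y' else 0)) x a]
  rw [h2]
  calc ∑ y', ∑ b', (if G.accept x y' a b' = true then G.prob x y' else 0)
      ≤ ∑ y', ∑ _b' : Fin G.nB, G.prob x y' := by
        apply Finset.sum_le_sum; intro y' _
        apply Finset.sum_le_sum; intro b' _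
        split_ifs
        · exact le_rfl
        · exact G.prob_nonneg _ _
    _ = (G.nB : ℝ) * piA G x := by
        simp only [Finset.sum_const, Finset.card_univ, Fintype.card_fin, nsmul_eq_mul]
        rw [← Finset.mul_sum]; rfl

end Crest.Agent.PR.KF
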