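/-
ROW 342, project PR, block (KB).  TASK K2: the multilinear extension `kop`.  Architect: helper91.

`kop M κ = ∑ x, ∑ a, ((∏ i, κ i (x i) (a i) : ℝ) : ℂ) • M x a`.

PROOFS.
* `kop_update_sum`: for fixed `x a`,  `∏ i, update κ j K i (x i) (a i) = K (x j) (a j) * ∏ i ∈ univ.erase j, κ i (x i) (a i)`
  (`Finset.mul_prod_erase` backwards + `Function.update_self`, `Function.update_of_ne`); so the coefficient is linear in `K`;
  then `Finset.sum_mul`, `Complex.ofReal_sum`, `Finset.sum_smul`, `Finset.sum_comm`, `Finset.smul_sum`, `mul_smul`.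
* `kop_posSemidef`: `Matrix.posSemidef_sum`, `Matrix.PosSemidef.smul` with a nonnegative real scalar (`Finset.prod_nonneg`).
* `kop_le`:   `c • 1 - kop M κ = ∑ x, ∑ a, ((∏ i, q i (x i) - ∏ i, κ i (x i) (a i) : ℝ):ℂ) • M x a` because
  `∑ x, ∑ a, (∏ i, q i (x i)) • M x a = ∑ x, (∏ i, q i (x i)) • 1 = (∏ i, ∑ x, q i x) • 1` (`Finset.prod_univ_sum`, `Fintype.piFinset_univ`);
  coefficients are `≥ 0` by `Finset.prod_le_prod`.
* `kop_sum_pi`: expand, swap sums, `Finset.prod_univ_sum` applied to `fun i l => w i l * κ i l (x i) (a i)` and `Finset.prod_mul_distrib`.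
-/
import Crest.Agent.PR_KDefs

set_option autoImplicit false

namespace Crest.Agent.PR.KF

open scoped ComplexOrder

variable {k nQ nR d : ℕ} (M : (Fin k → Fin nQ) → (Fin k → Fin nR) → Matrix (Fin d) (Fin d) ℂ)

/-- product of an updated family -/
theorem prod_update_eq {α : Type} (h : Fin k → α → ℝ) (ρ : Fin k → α) (j : Fin k) (l : α) :
    ∏ i, h i (Function.update ρ j l i) = h j l * ∏ i ∈ Finset.univ.erase j, h i (ρ i) := by
  rw [← Finset.mul_prod_erase Finset.univ _ (Finset.mem_univ j), Function.update_self]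
  congr 1
  apply Finset.prod_congr rfl
  intro i hi
  rw [Function.update_of_ne (Finset.ne_of_mem_erase hi)]

private theorem prod_update_ker (κ : Fin k → Fin nQ → Fin nR → ℝ) (j : Fin k) (K : Fin nQ → Fin nR → ℝ)
    (x : Fin k → Fin nQ) (a : Fin k → Fin nR) :
    ∏ i, Function.update κ j K i (x i) (a i) = K (x j) (a j) * ∏ i ∈ Finset.univ.erase j, κ i (x i) (a i) := by
  rw [← Finset.mul_prod_erase Finset.univ _ (Finset.mem_univ j), Function.update_self]
  congr 1
  apply Finset.prod_congr rfl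
  intro i hi
  rw [Function.update_of_ne (Finset.ne_of_mem_erase hi)]

/-- linearity of `kop` in the `j`-th kernel -/
theorem kop_update_sum {T : Type} [Fintype T] (κ : Fin k → Fin nQ → Fin nR → ℝ) (j : Fin k)
    (c : T → ℝ) (K : T → Fin nQ → Fin nR → ℝ) :
    kop M (Function.update κ j (fun x a => ∑ t, c t * K t x a))
      = ∑ t, ((c t : ℝ) : ℂ) • kop M (Function.update κ j (K t)) := by
  unfold kop
  simp only [Finset.smul_sum]
  symm
  rw [Finset.sum_comm]
  apply Finset.sum_congr rfl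
  intro x _
  rw [Finset.sum_comm]
  apply Finset.sum_congr rfl
  intro a _
  symm
  simp only [prod_update_ker, smul_smul]
  rw [← Finset.sum_smul]
  congr 1
  rw [Finset.sum_mul]
  push_cast
  apply Finset.sum_congr rfl
  intro t _
  ring

theorem kop_posSemidef (hM : ∀ x a, (M x a).PosSemidef) (κ : Fin k → Fin nQ → Fin nR → ℝ)
    (hκ : ∀ i x a, 0 ≤ κ i x a) : (kop M κ).PosSemidef := by
  unfold kop
  apply Matrix.posSemidef_sum
  intro x _
  apply Matrix.posSemidef_sum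
  intro a _
  apply Matrix.PosSemidef.smul (hM x a)
  have : (0:ℝ) ≤ ∏ i, κ i (x i) (a i) := Finset.prod_nonneg (fun i _ => hκ i _ _)
  exact_mod_cast this

/-- domination by answer-independent majorants -/
theorem kop_le (hM : ∀ x a, (M x a).PosSemidef) (hM1 : ∀ x, ∑ a, M x a = 1)
    (κ : Fin k → Fin nQ → Fin nR → ℝ) (hκ : ∀ i x a, 0 ≤ κ i x a)
    (q : Fin k → Fin nQ → ℝ) (hq : ∀ i x a, κ i x a ≤ q i x) (hq0 : ∀ i x, 0 ≤ q i x) :
    (((∏ i, ∑ x, q i x : ℝ) : ℂ) • (1 : Matrix (Fin d) (Fin d) ℂ) - kop M κ).PosSemidef := by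
  have h1 : ((∏ i, ∑ x, q i x : ℝ) : ℂ) • (1 : Matrix (Fin d) (Fin d) ℂ)
      = ∑ x : Fin k → Fin nQ, ∑ a : Fin k → Fin nR, ((∏ i, q i (x i) : ℝ) : ℂ) • M x a := by
    simp only [← Finset.smul_sum, hM1]
    rw [← Finset.sum_smul]
    congr 1
    rw [Finset.prod_univ_sum, Fintype.piFinset_univ]
    push_cast
    rfl
  rw [h1]
  unfold kop
  rw [← Finset.sum_sub_distrib]
  apply Matrix.posSemidef_sum
  intro x _
  rw [← Finset.sum_sub_distrib]
  apply Matrix.posSemidef_sum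
  intro a _
  rw [← sub_smul]
  apply Matrix.PosSemidef.smul (hM x a)
  have : ∏ i, κ i (x i) (a i) ≤ ∏ i, q i (x i) :=
    Finset.prod_le_prod (fun i _ => hκ i _ _) (fun i _ => hq i _ _)
  have h2 : (0:ℝ) ≤ ∏ i, q i (x i) - ∏ i, κ i (x i) (a i) := by linarith
  exact_mod_cast h2

/-- the same with total mass at most one -/
theorem kop_le_one (hM : ∀ x a, (M x a).PosSemidef) (hM1 : ∀ x, ∑ a, M x a = 1)
    (κ : Fin k → Fin nQ → Fin nR → ℝ) (hκ : ∀ i x a, 0 ≤ κ i x a)
    (q : Fin k → Fin nQ → ℝ) (hq : ∀ i x a, κ i x a ≤ q i x) (hq0 : ∀ i x, 0 ≤ q i x)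
    (hq1 : ∀ i, ∑ x, q i x ≤ 1) :
    (1 - kop M κ).PosSemidef := by
  have h := kop_le M hM hM1 κ hκ q hq hq0
  have hc : ∏ i, ∑ x, q i x ≤ 1 :=
    Finset.prod_le_one (fun i _ => Finset.sum_nonneg (fun x _ => hq0 i x)) (fun i _ => hq1 i)
  have h2 : (((1 - ∏ i, ∑ x, q i x : ℝ) : ℂ) • (1 : Matrix (Fin d) (Fin d) ℂ)).PosSemidef := by
    apply Matrix.PosSemidef.smul Matrix.PosSemidef.one
    have : (0:ℝ) ≤ 1 - ∏ i, ∑ x, q i x := by linarith
    exact_mod_cast this
  have h3 := h.add h2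
  have e : ((∏ i, ∑ x, q i x : ℝ) : ℂ) • (1 : Matrix (Fin d) (Fin d) ℂ) - kop M κ
      + ((1 - ∏ i, ∑ x, q i x : ℝ) : ℂ) • (1 : Matrix (Fin d) (Fin d) ℂ) = 1 - kop M κ := by
    push_cast
    rw [sub_smul, one_smul]
    abel
  rwa [e] at h3

/-- full multilinear expansion over configurations -/
theorem kop_sum_pi {L : Type} [Fintype L] [DecidableEq L] (w : Fin k → L → ℝ)
    (κ : Fin k → L → Fin nQ → Fin nR → ℝ) :
    ∑ ρ : Fin k → L, ((∏ i, w i (ρ i) : ℝ) : ℂ) • kop M (fun i => κ i (ρ i))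
      = kop M (fun i x a => ∑ l, w i l * κ i l x a) := by
  unfold kop
  simp only [Finset.smul_sum]
  rw [Finset.sum_comm]
  apply Finset.sum_congr rfl
  intro x _
  rw [Finset.sum_comm]
  apply Finset.sum_congr rfl
  intro a _
  simp only [smul_smul]
  rw [← Finset.sum_smul]
  congr 1
  rw [Finset.prod_univ_sum, Fintype.piFinset_univ]
  push_cast
  apply Finset.sum_congr rfl
  intro ρ _
  rw [Finset.prod_mul_distrib]

end Crest.Agent.PR.KF
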