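/-
ROW 342, project PR.  BLOCK (A1): the one-coordinate embedding (OC), blueprint section 3.  Architect: helper76.
-/
import Crest.Agent.PR_Gauge
import Crest.Agent.PR_Block

set_option autoImplicit false
set_option linter.unusedSectionVars false

namespace Crest.Agent.PR

open Crest.MathPhysics.NonlocalGame
open scoped ComplexOrder Kronecker

variable {dA dB : ℕ}

/-- conditional average of Alice's operators given Bob's question `y` (zero if `piB y = 0`) -/
noncomputable def avgA (G : Game) (a : Fin G.nX → Matrix (Fin dA) (Fin dA) ℂ) (y : Fin G.nY) :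
    Matrix (Fin dA) (Fin dA) ℂ := ∑ x, ((G.prob x y / piB G y : ℝ) : ℂ) • a x

/-- conditional average of Bob's operators given Alice's question `x` -/
noncomputable def avgB (G : Game) (b : Fin G.nY → Matrix (Fin dB) (Fin dB) ℂ) (x : Fin G.nX) :
    Matrix (Fin dB) (Fin dB) ℂ := ∑ y, ((G.prob x y / piA G x : ℝ) : ℂ) • b y

/-- entropic drop of Alice's operators, weighted by Bob's -/
noncomputable def dropA (G : Game) (ψ : Fin dA × Fin dB → ℂ)
    (a : Fin G.nX → Matrix (Fin dA) (Fin dA) ℂ) (b : Fin G.nY → Matrix (Fin dB) (Fin dB) ℂ) : ℝ :=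
  ∑ x, ∑ y, G.prob x y * qf ψ (ent (a x)) (b y) - ∑ y, piB G y * qf ψ (ent (avgA G a y)) (b y)

/-- entropic drop of Bob's operators, weighted by Alice's -/
noncomputable def dropB (G : Game) (ψ : Fin dA × Fin dB → ℂ)
    (a : Fin G.nX → Matrix (Fin dA) (Fin dA) ℂ) (b : Fin G.nY → Matrix (Fin dB) (Fin dB) ℂ) : ℝ :=
  ∑ x, ∑ y, G.prob x y * qf ψ (a x) (ent (b y)) - ∑ x, piA G x * qf ψ (a x) (ent (avgB G b x))

/-! ### generic facts on weighted averages of PSD contractions -/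

section avg
variable {n α : Type} [Fintype n] [DecidableEq n] [Fintype α]

theorem oc_psd_wsum (p : α → ℝ) (hp : ∀ i, 0 ≤ p i) (a : α → Matrix n n ℂ)
    (ha : ∀ i, (a i).PosSemidef) : (∑ i, ((p i : ℝ) : ℂ) • a i).PosSemidef := by
  refine Matrix.posSemidef_sum _ fun i _ => ?_
  exact (ha i).smul (by exact_mod_cast hp i)

theorem oc_one_sub_wsum (p : α → ℝ) (hp : ∀ i, 0 ≤ p i) (hp1 : ∑ i, p i = 1 ∨ ∀ i, p i = 0)
    (a : α → Matrix n n ℂ) (ha1 : ∀ i, (1 - a i).PosSemidef) :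
    (1 - ∑ i, ((p i : ℝ) : ℂ) • a i).PosSemidef := by
  rcases hp1 with h | h
  · have e : (1 : Matrix n n ℂ) - ∑ i, ((p i : ℝ) : ℂ) • a i
        = ∑ i, ((p i : ℝ) : ℂ) • (1 - a i) := by
      simp only [smul_sub, Finset.sum_sub_distrib]
      rw [← Finset.sum_smul, ← Complex.ofReal_sum, h]
      simp
    rw [e]
    exact oc_psd_wsum p hp _ ha1
  · simp only [h, Complex.ofReal_zero, zero_smul, Finset.sum_const_zero, sub_zero]
    exact Matrix.PosSemidef.one

end avg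

theorem oc_prob_eq_zero_of_piB (G : Game) {y : Fin G.nY} (h : piB G y = 0) (x : Fin G.nX) :
    G.prob x y = 0 := by
  have := (Finset.sum_eq_zero_iff_of_nonneg (fun x _ => G.prob_nonneg x y)).mp h
  exact this x (Finset.mem_univ x)

theorem oc_prob_eq_zero_of_piA (G : Game) {x : Fin G.nX} (h : piA G x = 0) (y : Fin G.nY) :
    G.prob x y = 0 := by
  have := (Finset.sum_eq_zero_iff_of_nonneg (fun y _ => G.prob_nonneg x y)).mp h
  exact this y (Finset.mem_univ y)

theorem oc_piB_nonneg (G : Game) (y : Fin G.nY) : 0 ≤ piB G y :=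
  Finset.sum_nonneg fun x _ => G.prob_nonneg x y

theorem oc_piA_nonneg (G : Game) (x : Fin G.nX) : 0 ≤ piA G x :=
  Finset.sum_nonneg fun y _ => G.prob_nonneg x y

theorem oc_wB (G : Game) (y : Fin G.nY) :
    (∑ x, G.prob x y / piB G y = 1) ∨ ∀ x, G.prob x y / piB G y = 0 := by
  by_cases h : piB G y = 0
  · right; intro x; simp [h]
  · left; rw [← Finset.sum_div]; exact div_self h

theorem oc_wA (G : Game) (x : Fin G.nX) :
    (∑ y, G.prob x y / piA G x = 1) ∨ ∀ y, G.prob x y / piA G x = 0 := by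
  by_cases h : piA G x = 0
  · right; intro y; simp [h]
  · left; rw [← Finset.sum_div]; exact div_self h

/-- one step for Alice: fixed `y`, fixed public data -/
theorem oc_stepA (G : Game) (ψ : Fin dA × Fin dB → ℂ)
    (a : Fin G.nX → Matrix (Fin dA) (Fin dA) ℂ) (by' : Matrix (Fin dB) (Fin dB) ℂ)
    (hb : by'.PosSemidef) {κ : Type} [Fintype κ] [DecidableEq κ]
    (r : Fin G.nX ⊕ Fin G.nY → Matrix κ (Fin dA) ℂ)
    (hr : ∀ (p : Fin G.nX ⊕ Fin G.nY → ℝ) (t0 : Fin G.nX ⊕ Fin G.nY), (∀ t, 0 ≤ p t) → ∑ t, p t = 1 →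
      ∑ t, ((p t : ℝ) : ℂ) • (Sum.elim a (avgA G a) t) = Sum.elim a (avgA G a) t0 →
        (∑ t, ((p t : ℝ) : ℂ) • ent (Sum.elim a (avgA G a) t) - ent (Sum.elim a (avgA G a) t0)
          - ∑ t, ((p t : ℝ) : ℂ) • ((r t - r t0).conjTranspose * (r t - r t0))).PosSemidef)
    (y : Fin G.nY) :
    ∑ x, G.prob x y * qf ψ ((r (Sum.inl x) - r (Sum.inr y)).conjTranspose
        * (r (Sum.inl x) - r (Sum.inr y))) by'
      ≤ ∑ x, G.prob x y * qf ψ (ent (a x)) by' - piB G y * qf ψ (ent (avgA G a y)) by' := by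
  by_cases h0 : piB G y = 0
  · simp [oc_prob_eq_zero_of_piB G h0, h0]
  have hpos : 0 < piB G y := lt_of_le_of_ne (oc_piB_nonneg G y) (Ne.symm h0)
  have key := hr (Sum.elim (fun x => G.prob x y / piB G y) (fun _ => 0)) (Sum.inr y)
    (by
      intro t
      rcases t with x | y'
      · exact div_nonneg (G.prob_nonneg x y) hpos.le
      · exact le_rfl)
    (by
      rw [Fintype.sum_sum_type]
      simp only [Sum.elim_inl, Sum.elim_inr, Finset.sum_const_zero, add_zero]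
      rw [← Finset.sum_div]; exact div_self h0)
    (by
      rw [Fintype.sum_sum_type]
      simp only [Sum.elim_inl, Sum.elim_inr, Complex.ofReal_zero, zero_smul,
        Finset.sum_const_zero, add_zero]
      rfl)
  have h1 := qf_nonneg ψ key hb
  rw [qf_sub_left, qf_sub_left, qf_sum_left, qf_sum_left, Fintype.sum_sum_type,
    Fintype.sum_sum_type] at h1
  simp only [Sum.elim_inl, Sum.elim_inr, Complex.ofReal_zero, zero_smul, qf_zero_left,
    Finset.sum_const_zero, add_zero, qf_smul_left] at h1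
  have h2 := mul_nonneg hpos.le h1
  have e1 : ∀ (c : Fin G.nX → ℝ), piB G y * ∑ x, G.prob x y / piB G y * c x
      = ∑ x, G.prob x y * c x := by
    intro c
    rw [Finset.mul_sum]
    refine Finset.sum_congr rfl fun x _ => ?_
    field_simp
  rw [mul_sub, mul_sub, e1, e1] at h2
  linarith

/-- one step for Bob: fixed `x`, fixed public data -/
theorem oc_stepB (G : Game) (ψ : Fin dA × Fin dB → ℂ)
    (b : Fin G.nY → Matrix (Fin dB) (Fin dB) ℂ) (ax : Matrix (Fin dA) (Fin dA) ℂ)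
    (ha : ax.PosSemidef) {κ : Type} [Fintype κ] [DecidableEq κ]
    (s : Fin G.nX ⊕ Fin G.nY → Matrix κ (Fin dB) ℂ)
    (hs : ∀ (p : Fin G.nX ⊕ Fin G.nY → ℝ) (t0 : Fin G.nX ⊕ Fin G.nY), (∀ t, 0 ≤ p t) → ∑ t, p t = 1 →
      ∑ t, ((p t : ℝ) : ℂ) • (Sum.elim (avgB G b) b t) = Sum.elim (avgB G b) b t0 →
        (∑ t, ((p t : ℝ) : ℂ) • ent (Sum.elim (avgB G b) b t) - ent (Sum.elim (avgB G b) b t0)
          - ∑ t, ((p t : ℝ) : ℂ) • ((s t - s t0).conjTranspose * (s t - s t0))).PosSemidef)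
    (x : Fin G.nX) :
    ∑ y, G.prob x y * qf ψ ax ((s (Sum.inr y) - s (Sum.inl x)).conjTranspose
        * (s (Sum.inr y) - s (Sum.inl x)))
      ≤ ∑ y, G.prob x y * qf ψ ax (ent (b y)) - piA G x * qf ψ ax (ent (avgB G b x)) := by
  by_cases h0 : piA G x = 0
  · simp [oc_prob_eq_zero_of_piA G h0, h0]
  have hpos : 0 < piA G x := lt_of_le_of_ne (oc_piA_nonneg G x) (Ne.symm h0)
  have key := hs (Sum.elim (fun _ => 0) (fun y => G.prob x y / piA G x)) (Sum.inl x)
    (by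
      intro t
      rcases t with x' | y
      · exact le_rfl
      · exact div_nonneg (G.prob_nonneg x y) hpos.le)
    (by
      rw [Fintype.sum_sum_type]
      simp only [Sum.elim_inl, Sum.elim_inr, Finset.sum_const_zero, zero_add]
      rw [← Finset.sum_div]; exact div_self h0)
    (by
      rw [Fintype.sum_sum_type]
      simp only [Sum.elim_inl, Sum.elim_inr, Complex.ofReal_zero, zero_smul,
        Finset.sum_const_zero, zero_add]
      rfl)
  have h1 := qf_nonneg ψ ha key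
  rw [qf_sub_right, qf_sub_right, qf_sum_right, qf_sum_right, Fintype.sum_sum_type,
    Fintype.sum_sum_type] at h1
  simp only [Sum.elim_inl, Sum.elim_inr, Complex.ofReal_zero, zero_smul, qf_zero_right,
    Finset.sum_const_zero, zero_add, qf_smul_right] at h1
  have h2 := mul_nonneg hpos.le h1
  have e1 : ∀ (c : Fin G.nY → ℝ), piA G x * ∑ y, G.prob x y / piA G x * c y
      = ∑ y, G.prob x y * c y := by
    intro c
    rw [Finset.mul_sum]
    refine Finset.sum_congr rfl fun y _ => ?_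
    field_simp
  rw [mul_sub, mul_sub, e1, e1] at h2
  linarith

theorem oc_sub_kron {l m n p : Type} (R R' : Matrix l m ℂ) (S : Matrix n p ℂ) :
    (R - R') ⊗ₖ S = R ⊗ₖ S - R' ⊗ₖ S := by
  ext i j
  simp [Matrix.kroneckerMap_apply, sub_mul]

theorem oc_kron_sub {l m n p : Type} (R : Matrix l m ℂ) (S S' : Matrix n p ℂ) :
    R ⊗ₖ (S - S') = R ⊗ₖ S - R ⊗ₖ S' := by
  ext i j
  simp [Matrix.kroneckerMap_apply, mul_sub]

theorem oc_sum3 {α β γ : Type} [Fintype α] [Fintype β] [Fintype γ] (t : α → β → γ → ℝ) :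
    ∑ x, ∑ y, ∑ ρ, t x y ρ = ∑ ρ, ∑ y, ∑ x, t x y ρ := by
  calc ∑ x, ∑ y, ∑ ρ, t x y ρ = ∑ x, ∑ ρ, ∑ y, t x y ρ :=
        Finset.sum_congr rfl fun x _ => Finset.sum_comm
    _ = ∑ ρ, ∑ x, ∑ y, t x y ρ := Finset.sum_comm
    _ = ∑ ρ, ∑ y, ∑ x, t x y ρ := Finset.sum_congr rfl fun ρ _ => Finset.sum_comm

/-- **(OC)** -/
theorem one_coord (G : Game) (hA : 0 < G.nA) (hB : 0 < G.nB) (ψ : Fin dA × Fin dB → ℂ)
    {P : Type} [Fintype P] [DecidableEq P] (W : P → ℝ) (hW : ∀ ρ, 0 ≤ W ρ)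
    (al : P → Fin G.nX → Fin G.nA → Matrix (Fin dA) (Fin dA) ℂ)
    (be : P → Fin G.nY → Fin G.nB → Matrix (Fin dB) (Fin dB) ℂ)
    (hal : ∀ ρ x a, (al ρ x a).PosSemidef) (hbe : ∀ ρ y b, (be ρ y b).PosSemidef)
    (hal1 : ∀ ρ x, (1 - ∑ a, al ρ x a).PosSemidef) (hbe1 : ∀ ρ y, (1 - ∑ b, be ρ y b).PosSemidef) :
    ∃ D : CoreData G,
      (∀ x y a b, qf (D.f x y) (D.N x a) (D.N' y b) = ∑ ρ, W ρ * qf ψ (al ρ x a) (be ρ y b)) ∧
      (∀ x y, nsq (D.f x y) = ∑ ρ, W ρ * qf ψ (∑ a, al ρ x a) (∑ b, be ρ y b)) ∧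
      D.errA ≤ ∑ ρ, W ρ * dropA G ψ (fun x => ∑ a, al ρ x a) (fun y => ∑ b, be ρ y b) ∧
      D.errB ≤ ∑ ρ, W ρ * dropB G ψ (fun x => ∑ a, al ρ x a) (fun y => ∑ b, be ρ y b) := by
  classical
  have : Nonempty (Fin G.nA) := ⟨⟨0, hA⟩⟩
  have : Nonempty (Fin G.nB) := ⟨⟨0, hB⟩⟩
  let T := Fin G.nX ⊕ Fin G.nY
  let a : P → Fin G.nX → Matrix (Fin dA) (Fin dA) ℂ := fun ρ x => ∑ c, al ρ x c
  let b : P → Fin G.nY → Matrix (Fin dB) (Fin dB) ℂ := fun ρ y => ∑ c, be ρ y c
  have ha : ∀ ρ x, (a ρ x).PosSemidef := fun ρ x => Matrix.posSemidef_sum _ fun c _ => hal ρ x c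
  have hb : ∀ ρ y, (b ρ y).PosSemidef := fun ρ y => Matrix.posSemidef_sum _ fun c _ => hbe ρ y c
  let aT : P → T → Matrix (Fin dA) (Fin dA) ℂ := fun ρ => Sum.elim (a ρ) (avgA G (a ρ))
  let bT : P → T → Matrix (Fin dB) (Fin dB) ℂ := fun ρ => Sum.elim (avgB G (b ρ)) (b ρ)
  have haT : ∀ ρ t, (aT ρ t).PosSemidef := by
    intro ρ t
    rcases t with x | y
    · exact ha ρ x
    · exact oc_psd_wsum _ (fun x => div_nonneg (G.prob_nonneg x y) (oc_piB_nonneg G y)) _ (ha ρ)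
  have haT1 : ∀ ρ t, (1 - aT ρ t).PosSemidef := by
    intro ρ t
    rcases t with x | y
    · exact hal1 ρ x
    · exact oc_one_sub_wsum _ (fun x => div_nonneg (G.prob_nonneg x y) (oc_piB_nonneg G y))
        (oc_wB G y) _ (hal1 ρ)
  have hbT : ∀ ρ t, (bT ρ t).PosSemidef := by
    intro ρ t
    rcases t with x | y
    · exact oc_psd_wsum _ (fun y => div_nonneg (G.prob_nonneg x y) (oc_piA_nonneg G x)) _ (hb ρ)
    · exact hb ρ y
  have hbT1 : ∀ ρ t, (1 - bT ρ t).PosSemidef := by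
    intro ρ t
    rcases t with x | y
    · exact oc_one_sub_wsum _ (fun y => div_nonneg (G.prob_nonneg x y) (oc_piA_nonneg G x))
        (oc_wA G x) _ (hbe1 ρ)
    · exact hbe1 ρ y
  choose r hr1 hr2 using fun ρ => exists_gauge (aT ρ) (haT ρ) (haT1 ρ)
  choose s hs1 hs2 using fun ρ => exists_gauge (bT ρ) (hbT ρ) (hbT1 ρ)
  choose NA hNA1 hNA2 using fun ρ x =>
    exists_lift (r ρ (Sum.inl x)) (al ρ x) (hal ρ x) (by rw [hr1 ρ (Sum.inl x)]; rfl)
  choose NB hNB1 hNB2 using fun ρ y =>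
    exists_lift (s ρ (Sum.inr y)) (be ρ y) (hbe ρ y) (by rw [hs1 ρ (Sum.inr y)]; rfl)
  let R : T → Matrix ((T × Fin dA) × P) (Fin dA × P) ℂ :=
    fun t => Matrix.blockDiagonal (fun ρ => r ρ t)
  let Sm : T → Matrix ((T × Fin dB) × P) (Fin dB × P) ℂ :=
    fun t => Matrix.blockDiagonal (fun ρ => s ρ t)
  let F : T → T → ((T × Fin dA) × P) × ((T × Fin dB) × P) → ℂ :=
    fun t t' => (R t ⊗ₖ Sm t').mulVec (diagVec W ψ)
  -- norms
  have hFn : ∀ t t', nsq (F t t') = ∑ ρ, W ρ * qf ψ (aT ρ t) (bT ρ t') := by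
    intro t t'
    show nsq ((R t ⊗ₖ Sm t').mulVec (diagVec W ψ)) = _
    rw [nsq_kron_mulVec]
    show qf _ ((Matrix.blockDiagonal fun ρ => r ρ t).conjTranspose * Matrix.blockDiagonal fun ρ => r ρ t)
      ((Matrix.blockDiagonal fun ρ => s ρ t').conjTranspose * Matrix.blockDiagonal fun ρ => s ρ t') = _
    rw [Matrix.blockDiagonal_conjTranspose, Matrix.blockDiagonal_conjTranspose,
      ← Matrix.blockDiagonal_mul, ← Matrix.blockDiagonal_mul, qf_diagVec W hW]
    refine Finset.sum_congr rfl fun ρ _ => ?_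
    rw [hr1 ρ t, hs1 ρ t']
  have hFdA : ∀ t t0 t', nsq (F t t' - F t0 t')
      = ∑ ρ, W ρ * qf ψ ((r ρ t - r ρ t0).conjTranspose * (r ρ t - r ρ t0)) (bT ρ t') := by
    intro t t0 t'
    have e : F t t' - F t0 t' = ((R t - R t0) ⊗ₖ Sm t').mulVec (diagVec W ψ) := by
      rw [oc_sub_kron, Matrix.sub_mulVec]
    rw [e, nsq_kron_mulVec]
    show qf _ (((Matrix.blockDiagonal fun ρ => r ρ t) - Matrix.blockDiagonal fun ρ => r ρ t0).conjTranspose
        * ((Matrix.blockDiagonal fun ρ => r ρ t) - Matrix.blockDiagonal fun ρ => r ρ t0))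
      ((Matrix.blockDiagonal fun ρ => s ρ t').conjTranspose * Matrix.blockDiagonal fun ρ => s ρ t') = _
    rw [← Matrix.blockDiagonal_sub, Matrix.blockDiagonal_conjTranspose,
      Matrix.blockDiagonal_conjTranspose,
      ← Matrix.blockDiagonal_mul, ← Matrix.blockDiagonal_mul, qf_diagVec W hW]
    refine Finset.sum_congr rfl fun ρ _ => ?_
    rw [hs1 ρ t']
    rfl
  have hFdB : ∀ t t' t0, nsq (F t t' - F t t0)
      = ∑ ρ, W ρ * qf ψ (aT ρ t) ((s ρ t' - s ρ t0).conjTranspose * (s ρ t' - s ρ t0)) := by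
    intro t t' t0
    have e : F t t' - F t t0 = (R t ⊗ₖ (Sm t' - Sm t0)).mulVec (diagVec W ψ) := by
      rw [oc_kron_sub, Matrix.sub_mulVec]
    rw [e, nsq_kron_mulVec]
    show qf _ ((Matrix.blockDiagonal fun ρ => r ρ t).conjTranspose * Matrix.blockDiagonal fun ρ => r ρ t)
      (((Matrix.blockDiagonal fun ρ => s ρ t') - Matrix.blockDiagonal fun ρ => s ρ t0).conjTranspose
        * ((Matrix.blockDiagonal fun ρ => s ρ t') - Matrix.blockDiagonal fun ρ => s ρ t0)) = _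
    rw [← Matrix.blockDiagonal_sub, Matrix.blockDiagonal_conjTranspose,
      Matrix.blockDiagonal_conjTranspose,
      ← Matrix.blockDiagonal_mul, ← Matrix.blockDiagonal_mul, qf_diagVec W hW]
    refine Finset.sum_congr rfl fun ρ _ => ?_
    rw [hr1 ρ t]
    rfl
  -- the marginal identities
  have hg : ∀ x, piA G x * nsq (F (Sum.inl x) (Sum.inl x))
      = ∑ y, G.prob x y * nsq (F (Sum.inl x) (Sum.inr y)) := by
    intro x
    simp only [hFn]
    rw [Finset.mul_sum]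
    simp only [Finset.mul_sum]
    rw [Finset.sum_comm]
    refine Finset.sum_congr rfl fun ρ _ => ?_
    show piA G x * (W ρ * qf ψ (a ρ x) (avgB G (b ρ) x)) = ∑ y, G.prob x y * (W ρ * qf ψ (a ρ x) (b ρ y))
    unfold avgB
    rw [qf_sum_right]
    simp only [qf_smul_right]
    rw [Finset.mul_sum, Finset.mul_sum]
    refine Finset.sum_congr rfl fun y _ => ?_
    by_cases h0 : piA G x = 0
    · simp [h0, oc_prob_eq_zero_of_piA G h0 y]
    · field_simp
  have hg' : ∀ y, piB G y * nsq (F (Sum.inr y) (Sum.inr y))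
      = ∑ x, G.prob x y * nsq (F (Sum.inl x) (Sum.inr y)) := by
    intro y
    simp only [hFn]
    rw [Finset.mul_sum]
    simp only [Finset.mul_sum]
    rw [Finset.sum_comm]
    refine Finset.sum_congr rfl fun ρ _ => ?_
    show piB G y * (W ρ * qf ψ (avgA G (a ρ) y) (b ρ y)) = ∑ x, G.prob x y * (W ρ * qf ψ (a ρ x) (b ρ y))
    unfold avgA
    rw [qf_sum_left]
    simp only [qf_smul_left]
    rw [Finset.mul_sum, Finset.mul_sum]
    refine Finset.sum_congr rfl fun x _ => ?_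
    by_cases h0 : piB G y = 0
    · simp [h0, oc_prob_eq_zero_of_piB G h0 x]
    · field_simp
  refine ⟨{ ιA := (T × Fin dA) × P, ιB := (T × Fin dB) × P,
            f := fun x y => F (Sum.inl x) (Sum.inr y),
            g := fun x => F (Sum.inl x) (Sum.inl x),
            g' := fun y => F (Sum.inr y) (Sum.inr y),
            N := fun x c => Matrix.blockDiagonal (fun ρ => NA ρ x c),
            N' := fun y c => Matrix.blockDiagonal (fun ρ => NB ρ y c),
            hN := fun x => isPOVM_blockDiagonal (fun ρ => NA ρ x) (fun ρ => hNA1 ρ x),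
            hN' := fun y => isPOVM_blockDiagonal (fun ρ => NB ρ y) (fun ρ => hNB1 ρ y),
            hg := hg, hg' := hg' }, ?_, ?_, ?_, ?_⟩
  · intro x y c c'
    show qf ((R (Sum.inl x) ⊗ₖ Sm (Sum.inr y)).mulVec (diagVec W ψ))
      (Matrix.blockDiagonal (fun ρ => NA ρ x c)) (Matrix.blockDiagonal (fun ρ => NB ρ y c')) = _
    rw [qf_kron_mulVec]
    show qf _ ((Matrix.blockDiagonal fun ρ => r ρ (Sum.inl x)).conjTranspose
        * Matrix.blockDiagonal (fun ρ => NA ρ x c) * Matrix.blockDiagonal fun ρ => r ρ (Sum.inl x))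
      ((Matrix.blockDiagonal fun ρ => s ρ (Sum.inr y)).conjTranspose
        * Matrix.blockDiagonal (fun ρ => NB ρ y c') * Matrix.blockDiagonal fun ρ => s ρ (Sum.inr y)) = _
    rw [Matrix.blockDiagonal_conjTranspose, Matrix.blockDiagonal_conjTranspose,
      ← Matrix.blockDiagonal_mul, ← Matrix.blockDiagonal_mul, ← Matrix.blockDiagonal_mul,
      ← Matrix.blockDiagonal_mul, qf_diagVec W hW]
    refine Finset.sum_congr rfl fun ρ _ => ?_
    rw [hNA2 ρ x c, hNB2 ρ y c']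
  · intro x y
    exact hFn (Sum.inl x) (Sum.inr y)
  · show ∑ x, ∑ y, G.prob x y * nsq (F (Sum.inl x) (Sum.inr y) - F (Sum.inr y) (Sum.inr y)) ≤ _
    calc ∑ x, ∑ y, G.prob x y * nsq (F (Sum.inl x) (Sum.inr y) - F (Sum.inr y) (Sum.inr y))
        = ∑ ρ, W ρ * ∑ y, ∑ x, G.prob x y * qf ψ
            ((r ρ (Sum.inl x) - r ρ (Sum.inr y)).conjTranspose * (r ρ (Sum.inl x) - r ρ (Sum.inr y)))
            (b ρ y) := by
          simp only [hFdA, Finset.mul_sum]
          rw [oc_sum3]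
          refine Finset.sum_congr rfl fun ρ _ => Finset.sum_congr rfl fun y _ =>
            Finset.sum_congr rfl fun x _ => ?_
          have hbb : bT ρ (Sum.inr y) = b ρ y := rfl
          rw [hbb]
          ring
      _ ≤ ∑ ρ, W ρ * ∑ y, (∑ x, G.prob x y * qf ψ (ent (a ρ x)) (b ρ y)
            - piB G y * qf ψ (ent (avgA G (a ρ) y)) (b ρ y)) := by
          refine Finset.sum_le_sum fun ρ _ => mul_le_mul_of_nonneg_left ?_ (hW ρ)
          refine Finset.sum_le_sum fun y _ => ?_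
          exact oc_stepA G ψ (a ρ) (b ρ y) (hb ρ y) (r ρ) (hr2 ρ) y
      _ = ∑ ρ, W ρ * dropA G ψ (fun x => ∑ c, al ρ x c) (fun y => ∑ c, be ρ y c) := by
          refine Finset.sum_congr rfl fun ρ _ => ?_
          congr 1
          unfold dropA
          rw [Finset.sum_sub_distrib, Finset.sum_comm]
  · show ∑ x, ∑ y, G.prob x y * nsq (F (Sum.inl x) (Sum.inr y) - F (Sum.inl x) (Sum.inl x)) ≤ _
    calc ∑ x, ∑ y, G.prob x y * nsq (F (Sum.inl x) (Sum.inr y) - F (Sum.inl x) (Sum.inl x))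
        = ∑ ρ, W ρ * ∑ x, ∑ y, G.prob x y * qf ψ (a ρ x)
            ((s ρ (Sum.inr y) - s ρ (Sum.inl x)).conjTranspose * (s ρ (Sum.inr y) - s ρ (Sum.inl x))) := by
          simp only [hFdB, Finset.mul_sum]
          rw [oc_sum3]
          refine Finset.sum_congr rfl fun ρ _ => ?_
          rw [Finset.sum_comm]
          refine Finset.sum_congr rfl fun x _ =>
            Finset.sum_congr rfl fun y _ => ?_
          have haa : aT ρ (Sum.inl x) = a ρ x := rfl
          rw [haa]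
          ring
      _ ≤ ∑ ρ, W ρ * ∑ x, (∑ y, G.prob x y * qf ψ (a ρ x) (ent (b ρ y))
            - piA G x * qf ψ (a ρ x) (ent (avgB G (b ρ) x))) := by
          refine Finset.sum_le_sum fun ρ _ => mul_le_mul_of_nonneg_left ?_ (hW ρ)
          refine Finset.sum_le_sum fun x _ => ?_
          exact oc_stepB G ψ (b ρ) (a ρ x) (ha ρ x) (s ρ) (hs2 ρ) x
      _ = ∑ ρ, W ρ * dropB G ψ (fun x => ∑ c, al ρ x c) (fun y => ∑ c, be ρ y c) := by
          refine Finset.sum_congr rfl fun ρ _ => ?_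
          congr 1
          unfold dropB
          rw [Finset.sum_sub_distrib]

end Crest.Agent.PR
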