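/-
ROW 342, project PR, block (KB).  TASK K6: the operators `opA, opB, alj, bej, aj, bj` of a configuration.  Architect: helper91.

PROOFS (all from `PR_KOp` + `PR_KLab`).
* `opA_update`: `funext i`, `Function.update_apply`, split on `i = j`.
* `sum_alj`:  `dQ x = fun x' a' => ∑ a, 1 * dQR x a x' a'` (`Finset.sum_ite_eq`-type computation), then `kop_update_sum` with `T = Fin G.nA`, `c = 1`.
* `kop_update_OmY`:  `(fun x' _ => prob x' y / piB y) = fun x' a' => ∑ x, (prob x y / piB y) * dQ x x' a'`, then `kop_update_sum`; compare with `avgA`.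
* PSD: `kop_posSemidef` with kernels `Function.update (fun i => kerA G (ρ i)) j K`, nonnegative by cases `i = j`.
* `≤ 1`: `kop_le_one` with majorants `Function.update (fun i => majA G (ρ i)) j (fun x' => if x' = x then 1 else 0)`.
-/
import Crest.Agent.PR_KOp
import Crest.Agent.PR_KLab
import Crest.Agent.PR_OneCoord

set_option autoImplicit false

namespace Crest.Agent.PR.KF

open Crest.MathPhysics.NonlocalGame
open scoped ComplexOrder

variable {G : Game} {k dA dB : ℕ} (S : Strategy G k dA dB)

private theorem upd_forall {α : Type} {P : α → Prop} (f : Fin k → α) (j : Fin k) (v : α)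
    (hf : ∀ i, P (f i)) (hv : P v) : ∀ i, P (Function.update f j v i) := by
  intro i
  by_cases h : i = j
  · subst h
    rw [Function.update_self]
    exact hv
  · rw [Function.update_of_ne h]
    exact hf i

private theorem upd_forall₂ {α β : Type} {P : α → β → Prop} (f : Fin k → α) (g : Fin k → β)
    (j : Fin k) (v : α) (v' : β) (hf : ∀ i, P (f i) (g i)) (hv : P v v') :
    ∀ i, P (Function.update f j v i) (Function.update g j v' i) := by
  intro i
  by_cases h : i = j
  · subst h
    rw [Function.update_self, Function.update_self]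
    exact hv
  · rw [Function.update_of_ne h, Function.update_of_ne h]
    exact hf i

private theorem dQ_eq_sum {nQ nR : ℕ} (x : Fin nQ) :
    (dQ x : Fin nQ → Fin nR → ℝ) = fun x' a' => ∑ a, (fun _ : Fin nR => (1 : ℝ)) a * dQR x a x' a' := by
  funext x' a'
  unfold dQ dQR
  by_cases h : x' = x
  · simp [h]
  · simp [h]

private theorem cond_eq_sum {nQ nR : ℕ} (c : Fin nQ → ℝ) :
    (fun (x' : Fin nQ) (_ : Fin nR) => c x') = fun x' a' => ∑ x, c x * (dQ x : Fin nQ → Fin nR → ℝ) x' a' := by
  funext x' a'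
  unfold dQ
  simp

private theorem dQ_nonneg {nQ nR : ℕ} (x x' : Fin nQ) (a : Fin nR) : 0 ≤ dQ x x' a := by
  unfold dQ
  split_ifs <;> norm_num

private theorem dQR_nonneg {nQ nR : ℕ} (x x' : Fin nQ) (a a' : Fin nR) : 0 ≤ dQR x a x' a' := by
  unfold dQR
  split_ifs <;> norm_num

theorem opA_update (ρ : Fin k → Lam G) (j : Fin k) (l : Lam G) :
    opA S (Function.update ρ j l) = kop S.M (Function.update (fun i => kerA G (ρ i)) j (kerA G l)) := by
  unfold opA
  congr 1
  funext i
  by_cases h : i = j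
  · subst h
    rw [Function.update_self, Function.update_self]
  · rw [Function.update_of_ne h, Function.update_of_ne h]

theorem opB_update (ρ : Fin k → Lam G) (j : Fin k) (l : Lam G) :
    opB S (Function.update ρ j l) = kop S.N (Function.update (fun i => kerB G (ρ i)) j (kerB G l)) := by
  unfold opB
  congr 1
  funext i
  by_cases h : i = j
  · subst h
    rw [Function.update_self, Function.update_self]
  · rw [Function.update_of_ne h, Function.update_of_ne h]

theorem sum_alj (j : Fin k) (ρ : Fin k → Lam G) (x : Fin G.nX) : ∑ a, alj S j ρ x a = aj S j ρ x := by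
  unfold alj aj
  rw [dQ_eq_sum x, kop_update_sum]
  simp

theorem sum_bej (j : Fin k) (ρ : Fin k → Lam G) (y : Fin G.nY) : ∑ b, bej S j ρ y b = bj S j ρ y := by
  unfold bej bj
  rw [dQ_eq_sum y, kop_update_sum]
  simp

/-- averaging Alice's question at coordinate `j` with the conditional law given `y` -/
theorem kop_update_OmY (j : Fin k) (ρ : Fin k → Lam G) (y : Fin G.nY) :
    kop S.M (Function.update (fun i => kerA G (ρ i)) j (fun x' _ => G.prob x' y / piB G y))
      = avgA G (aj S j ρ) y := by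
  unfold avgA aj
  rw [cond_eq_sum (fun x' => G.prob x' y / piB G y), kop_update_sum]

/-- averaging Bob's question at coordinate `j` with the conditional law given `x` -/
theorem kop_update_OmX (j : Fin k) (ρ : Fin k → Lam G) (x : Fin G.nX) :
    kop S.N (Function.update (fun i => kerB G (ρ i)) j (fun y' _ => G.prob x y' / piA G x))
      = avgB G (bj S j ρ) x := by
  unfold avgB bj
  rw [cond_eq_sum (fun y' => G.prob x y' / piA G x), kop_update_sum]

theorem opA_posSemidef (ρ : Fin k → Lam G) : (opA S ρ).PosSemidef :=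
  kop_posSemidef S.M S.M_posSemidef _ (fun i x a => kerA_nonneg G (ρ i) x a)
theorem opB_posSemidef (ρ : Fin k → Lam G) : (opB S ρ).PosSemidef :=
  kop_posSemidef S.N S.N_posSemidef _ (fun i y b => kerB_nonneg G (ρ i) y b)
theorem one_sub_opA_posSemidef (ρ : Fin k → Lam G) : (1 - opA S ρ).PosSemidef :=
  kop_le_one S.M S.M_posSemidef S.M_sum _ (fun i x a => kerA_nonneg G (ρ i) x a)
    (fun i => majA G (ρ i)) (fun i x a => kerA_le_majA G (ρ i) x a)
    (fun i x => majA_nonneg G (ρ i) x) (fun i => sum_majA_le_one G (ρ i))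
theorem one_sub_opB_posSemidef (ρ : Fin k → Lam G) : (1 - opB S ρ).PosSemidef :=
  kop_le_one S.N S.N_posSemidef S.N_sum _ (fun i y b => kerB_nonneg G (ρ i) y b)
    (fun i => majB G (ρ i)) (fun i y b => kerB_le_majB G (ρ i) y b)
    (fun i y => majB_nonneg G (ρ i) y) (fun i => sum_majB_le_one G (ρ i))
theorem alj_posSemidef (j : Fin k) (ρ : Fin k → Lam G) (x : Fin G.nX) (a : Fin G.nA) :
    (alj S j ρ x a).PosSemidef :=
  kop_posSemidef S.M S.M_posSemidef _
    (upd_forall (P := fun K : Fin G.nX → Fin G.nA → ℝ => ∀ x a, 0 ≤ K x a) _ j _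
      (fun i x a => kerA_nonneg G (ρ i) x a) (fun x' a' => dQR_nonneg x x' a a'))
theorem bej_posSemidef (j : Fin k) (ρ : Fin k → Lam G) (y : Fin G.nY) (b : Fin G.nB) :
    (bej S j ρ y b).PosSemidef :=
  kop_posSemidef S.N S.N_posSemidef _
    (upd_forall (P := fun K : Fin G.nY → Fin G.nB → ℝ => ∀ y b, 0 ≤ K y b) _ j _
      (fun i y b => kerB_nonneg G (ρ i) y b) (fun y' b' => dQR_nonneg y y' b b'))
theorem one_sub_aj_posSemidef (j : Fin k) (ρ : Fin k → Lam G) (x : Fin G.nX) :
    (1 - aj S j ρ x).PosSemidef :=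
  kop_le_one S.M S.M_posSemidef S.M_sum _
    (upd_forall (P := fun K : Fin G.nX → Fin G.nA → ℝ => ∀ x a, 0 ≤ K x a) _ j _
      (fun i x a => kerA_nonneg G (ρ i) x a) (fun x' a' => dQ_nonneg x x' a'))
    (Function.update (fun i => majA G (ρ i)) j (fun x' => if x' = x then 1 else 0))
    (upd_forall₂ (P := fun (K : Fin G.nX → Fin G.nA → ℝ) (q : Fin G.nX → ℝ) => ∀ x a, K x a ≤ q x)
      _ _ j _ _ (fun i x a => kerA_le_majA G (ρ i) x a) (fun x' a' => le_refl _))
    (upd_forall (P := fun q : Fin G.nX → ℝ => ∀ x, 0 ≤ q x) _ j _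
      (fun i x => majA_nonneg G (ρ i) x) (fun x' => by split_ifs <;> norm_num))
    (upd_forall (P := fun q : Fin G.nX → ℝ => ∑ x, q x ≤ 1) _ j _
      (fun i => sum_majA_le_one G (ρ i)) (by simp))
theorem one_sub_bj_posSemidef (j : Fin k) (ρ : Fin k → Lam G) (y : Fin G.nY) :
    (1 - bj S j ρ y).PosSemidef :=
  kop_le_one S.N S.N_posSemidef S.N_sum _
    (upd_forall (P := fun K : Fin G.nY → Fin G.nB → ℝ => ∀ y b, 0 ≤ K y b) _ j _
      (fun i y b => kerB_nonneg G (ρ i) y b) (fun y' b' => dQ_nonneg y y' b'))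
    (Function.update (fun i => majB G (ρ i)) j (fun y' => if y' = y then 1 else 0))
    (upd_forall₂ (P := fun (K : Fin G.nY → Fin G.nB → ℝ) (q : Fin G.nY → ℝ) => ∀ y b, K y b ≤ q y)
      _ _ j _ _ (fun i y b => kerB_le_majB G (ρ i) y b) (fun y' b' => le_refl _))
    (upd_forall (P := fun q : Fin G.nY → ℝ => ∀ y, 0 ≤ q y) _ j _
      (fun i y => majB_nonneg G (ρ i) y) (fun y' => by split_ifs <;> norm_num))
    (upd_forall (P := fun q : Fin G.nY → ℝ => ∑ y, q y ≤ 1) _ j _
      (fun i => sum_majB_le_one G (ρ i)) (by simp))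

end Crest.Agent.PR.KF
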