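/-
ROW 342, project PR, block (KB).  TASK K1: elementary API for `qf ψ X Y = Re ⟨ψ, (X ⊗ Y) ψ⟩`.  Architect: helper91.
Everything is routine: `qf` unfolds to `(dotProduct (star ψ) ((X ⊗ₖ Y).mulVec ψ)).re`;
use `Matrix.add_kronecker`, `Matrix.kronecker_add`, `Matrix.smul_kronecker`, `Matrix.kronecker_smul`, `Matrix.add_mulVec`,
`Matrix.smul_mulVec`, `dotProduct_add`, `dotProduct_smul`, `Matrix.zero_kronecker`, `Matrix.one_kronecker_one`, `Matrix.one_mulVec`.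
`qf_nonneg`: `Matrix.PosSemidef.kronecker hX hY` (Mathlib/Analysis/Matrix/Order.lean) and the second component of `PosSemidef`
(`0 ≤ star ψ ⬝ᵥ (A *ᵥ ψ)` in the order of `ℂ`; take real parts, `Complex.le_def`).
The sums: induction on the finset (`Finset.induction_on`, classical) or `map_sum` for a bundled additive map.
-/
import Crest.Agent.PR_KDefs
import Crest.Agent.PR_QfBasic

set_option autoImplicit false

namespace Crest.Agent.PR.KF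

open Crest.MathPhysics.NonlocalGame
open scoped Kronecker ComplexOrder

variable {ιA ιB : Type} [Fintype ιA] [Fintype ιB] [DecidableEq ιA] [DecidableEq ιB]
variable (ψ : ιA × ιB → ℂ)

theorem qf_add_left (X X' : Matrix ιA ιA ℂ) (Y : Matrix ιB ιB ℂ) :
    qf ψ (X + X') Y = qf ψ X Y + qf ψ X' Y :=
  PR.qf_add_left ψ X X' Y

theorem qf_add_right (X : Matrix ιA ιA ℂ) (Y Y' : Matrix ιB ιB ℂ) :
    qf ψ X (Y + Y') = qf ψ X Y + qf ψ X Y' :=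
  PR.qf_add_right ψ X Y Y'

theorem qf_smul_left (c : ℝ) (X : Matrix ιA ιA ℂ) (Y : Matrix ιB ιB ℂ) :
    qf ψ (((c : ℝ) : ℂ) • X) Y = c * qf ψ X Y :=
  PR.qf_smul_left ψ c X Y

theorem qf_smul_right (c : ℝ) (X : Matrix ιA ιA ℂ) (Y : Matrix ιB ιB ℂ) :
    qf ψ X (((c : ℝ) : ℂ) • Y) = c * qf ψ X Y :=
  PR.qf_smul_right ψ c X Y

theorem qf_zero_left (Y : Matrix ιB ιB ℂ) : qf ψ 0 Y = 0 :=
  PR.qf_zero_left ψ Y

theorem qf_zero_right (X : Matrix ιA ιA ℂ) : qf ψ X 0 = 0 :=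
  PR.qf_zero_right ψ X

theorem qf_sub_left (X X' : Matrix ιA ιA ℂ) (Y : Matrix ιB ιB ℂ) :
    qf ψ (X - X') Y = qf ψ X Y - qf ψ X' Y :=
  PR.qf_sub_left ψ X X' Y

theorem qf_sub_right (X : Matrix ιA ιA ℂ) (Y Y' : Matrix ιB ιB ℂ) :
    qf ψ X (Y - Y') = qf ψ X Y - qf ψ X Y' :=
  PR.qf_sub_right ψ X Y Y'

theorem qf_sum_left {T : Type} (s : Finset T) (X : T → Matrix ιA ιA ℂ) (Y : Matrix ιB ιB ℂ) :
    qf ψ (∑ t ∈ s, X t) Y = ∑ t ∈ s, qf ψ (X t) Y :=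
  PR.qf_sum_left s ψ X Y

theorem qf_sum_right {T : Type} (s : Finset T) (X : Matrix ιA ιA ℂ) (Y : T → Matrix ιB ιB ℂ) :
    qf ψ X (∑ t ∈ s, Y t) = ∑ t ∈ s, qf ψ X (Y t) :=
  PR.qf_sum_right s ψ X Y

theorem qf_nonneg {X : Matrix ιA ιA ℂ} {Y : Matrix ιB ιB ℂ} (hX : X.PosSemidef) (hY : Y.PosSemidef) :
    0 ≤ qf ψ X Y :=
  PR.qf_nonneg ψ hX hY

theorem qf_le_left {X X' : Matrix ιA ιA ℂ} {Y : Matrix ιB ιB ℂ} (h : (X' - X).PosSemidef)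
    (hY : Y.PosSemidef) : qf ψ X Y ≤ qf ψ X' Y :=
  PR.qf_mono_left ψ h hY

theorem qf_le_right {X : Matrix ιA ιA ℂ} {Y Y' : Matrix ιB ιB ℂ} (hX : X.PosSemidef)
    (h : (Y' - Y).PosSemidef) : qf ψ X Y ≤ qf ψ X Y' :=
  PR.qf_mono_right ψ hX h

theorem qf_one_one : qf ψ 1 1 = nsq ψ :=
  PR.qf_one_one ψ

theorem answerProb_eq_qf {G : Game} {k dA dB : ℕ} (S : Strategy G k dA dB) (x : Fin k → Fin G.nX)
    (y : Fin k → Fin G.nY) (a : Fin k → Fin G.nA) (b : Fin k → Fin G.nB) :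
    S.answerProb x y a b = qf S.ψ (S.M x a) (S.N y b) := rfl

theorem nsq_strategy {G : Game} {k dA dB : ℕ} (S : Strategy G k dA dB) : nsq S.ψ = 1 := S.ψ_norm

end Crest.Agent.PR.KF
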