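/-
ROW 342, project PR, block (KB).  TASK K3: resummation over one coordinate of a configuration, and the hybrid modes.  Architect: helper91.

PROOFS.
* `sum_resample`: with `e := Equiv.funSplitAt j L : (Fin k → L) ≃ L × ({i // i ≠ j} → L)` both sides become sums over `L × (..)`
  (`Fintype.sum_equiv` / `Equiv.sum_comp`, `Fintype.sum_prod_type`); `update (e.symm (m, r)) j l = e.symm (l, r)`; then
  `∑ m, u m * c = c`.  (Alternative without `funSplitAt`: `∑ ρ, u (ρ j) * ∑ l, f (update ρ j l) = ∑ l, ∑ ρ, u (ρ j) * f (update ρ j l)` and the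
  bijection `(l, ρ) ↦ (ρ j, update ρ j l)` of `L × (Fin k → L)`, an involution: `Finset.sum_bij'`/`Equiv.sum_comp`.)
* the `modeAt` lemmas: `unfold modeAt`, `split_ifs`, `omega` (use `Fin.ext_iff`/`Fin.val_ne_of_ne`).
* `wtAll_update`: `prod_update_eq` from `PR_KOp`.
-/
import Crest.Agent.PR_KOp

set_option autoImplicit false

namespace Crest.Agent.PR.KF

open Crest.MathPhysics.NonlocalGame

variable {G : Game} {k : ℕ}

theorem sum_resample {L : Type} [Fintype L] [DecidableEq L] (j : Fin k) (u : L → ℝ) (hu : ∑ l, u l = 1)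
    (f : (Fin k → L) → ℝ) :
    ∑ ρ : Fin k → L, f ρ = ∑ ρ : Fin k → L, u (ρ j) * ∑ l, f (Function.update ρ j l) := by
  let e : ((Fin k → L) × L) ≃ ((Fin k → L) × L) :=
    { toFun := fun p => (Function.update p.1 j p.2, p.1 j)
      invFun := fun p => (Function.update p.1 j p.2, p.1 j)
      left_inv := by
        intro p
        simp
      right_inv := by
        intro p
        simp }
  calc ∑ ρ : Fin k → L, f ρ = ∑ ρ : Fin k → L, ∑ l, u l * f ρ := by
        refine Finset.sum_congr rfl (fun ρ _ => ?_)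
        rw [← Finset.sum_mul, hu, one_mul]
    _ = ∑ p : (Fin k → L) × L, u p.2 * f p.1 :=
        (Fintype.sum_prod_type (fun p : (Fin k → L) × L => u p.2 * f p.1)).symm
    _ = ∑ p : (Fin k → L) × L, u ((e p).2) * f ((e p).1) :=
        (Equiv.sum_comp e (fun p : (Fin k → L) × L => u p.2 * f p.1)).symm
    _ = ∑ p : (Fin k → L) × L, u (p.1 j) * f (Function.update p.1 j p.2) := rfl
    _ = ∑ ρ : Fin k → L, ∑ l, u (ρ j) * f (Function.update ρ j l) :=
        Fintype.sum_prod_type (fun p : (Fin k → L) × L => u (p.1 j) * f (Function.update p.1 j p.2))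
    _ = ∑ ρ : Fin k → L, u (ρ j) * ∑ l, f (Function.update ρ j l) := by
        refine Finset.sum_congr rfl (fun ρ _ => ?_)
        rw [Finset.mul_sum]

theorem modeAt_of_mem (C : Finset (Fin k)) (t : ℕ) {i : Fin k} (hi : i ∈ C) : modeAt C t i = .T := by
  unfold modeAt
  rw [if_pos hi]

theorem modeAt_succ_of_ne (C : Finset (Fin k)) {i j : Fin k} (hij : i ≠ j) :
    modeAt C ((j : ℕ) + 1) i = modeAt C (j : ℕ) i := by
  have hne : (i : ℕ) ≠ (j : ℕ) := Fin.val_ne_of_ne hij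
  unfold modeAt
  by_cases hi : i ∈ C
  · rw [if_pos hi, if_pos hi]
  · rw [if_neg hi, if_neg hi]
    by_cases hlt : (i : ℕ) < (j : ℕ)
    · rw [if_pos hlt, if_pos (by omega)]
    · rw [if_neg hlt, if_neg (by omega)]

theorem modeAt_succ_self (C : Finset (Fin k)) {j : Fin k} (hj : j ∉ C) : modeAt C ((j : ℕ) + 1) j = .F := by
  unfold modeAt
  rw [if_neg hj, if_pos (Nat.lt_succ_self _)]

theorem modeAt_self (C : Finset (Fin k)) {j : Fin k} (hj : j ∉ C) : modeAt C (j : ℕ) j = .Om := by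
  unfold modeAt
  rw [if_neg hj, if_neg (lt_irrefl _)]

theorem modeAt_succ_of_mem (C : Finset (Fin k)) {j : Fin k} (hj : j ∈ C) :
    modeAt C ((j : ℕ) + 1) = modeAt C (j : ℕ) := by
  funext i
  by_cases hij : i = j
  · subst hij
    rw [modeAt_of_mem C _ hj, modeAt_of_mem C _ hj]
  · exact modeAt_succ_of_ne C hij

/-- an untested coordinate is never in mode `T` -/
theorem modeAt_ne_T (C : Finset (Fin k)) (t : ℕ) {i : Fin k} (hi : i ∉ C) :
    modeAt C t i = .F ∨ modeAt C t i = .Om := by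
  unfold modeAt
  rw [if_neg hi]
  by_cases hlt : (i : ℕ) < t
  · left; rw [if_pos hlt]
  · right; rw [if_neg hlt]

theorem wtAll_update (C : Finset (Fin k)) (t : ℕ) (ρ : Fin k → Lam G) (j : Fin k) (l : Lam G) :
    wtAll G C t (Function.update ρ j l)
      = wt G (modeAt C t j) l * ∏ i ∈ Finset.univ.erase j, wt G (modeAt C t i) (ρ i) := by
  unfold wtAll
  exact prod_update_eq (fun i => wt G (modeAt C t i)) ρ j l

/-- the weights `Wj` in product form -/
theorem Wj_eq_prod (C : Finset (Fin k)) (j : Fin k) (ρ : Fin k → Lam G) :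
    Wj G C j ρ = ∏ i, wt G (if i = j then .F else modeAt C (j : ℕ) i) (ρ i) := by
  unfold Wj
  rw [← Finset.mul_prod_erase Finset.univ
    (fun i => wt G (if i = j then .F else modeAt C (j : ℕ) i) (ρ i)) (Finset.mem_univ j)]
  simp only [if_true]
  congr 1
  refine Finset.prod_congr rfl (fun i hi => ?_)
  rw [if_neg (Finset.ne_of_mem_erase hi)]

/-- generic telescoping along `Fin k` -/
theorem telescope (Φ : ℕ → ℝ) (D : Fin k → ℝ) (C : Finset (Fin k))
    (h1 : ∀ j ∈ C, Φ ((j : ℕ) + 1) = Φ (j : ℕ))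
    (h2 : ∀ j : Fin k, j ∉ C → Φ ((j : ℕ) + 1) - Φ (j : ℕ) = 1 / 2 * D j) :
    ∑ j ∈ Cᶜ, D j = 2 * (Φ k - Φ 0) := by
  have htel : Φ k - Φ 0 = ∑ j : Fin k, (Φ ((j : ℕ) + 1) - Φ (j : ℕ)) := by
    rw [Fin.sum_univ_eq_sum_range (fun i => Φ (i + 1) - Φ i) k, Finset.sum_range_sub]
  have hsplit : ∑ j : Fin k, (Φ ((j : ℕ) + 1) - Φ (j : ℕ))
      = ∑ j ∈ C, (Φ ((j : ℕ) + 1) - Φ (j : ℕ)) + ∑ j ∈ Cᶜ, (Φ ((j : ℕ) + 1) - Φ (j : ℕ)) :=
    (Finset.sum_add_sum_compl C _).symm
  have hC : ∑ j ∈ C, (Φ ((j : ℕ) + 1) - Φ (j : ℕ)) = 0 :=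
    Finset.sum_eq_zero (fun j hj => by rw [h1 j hj, sub_self])
  have hCc : ∑ j ∈ Cᶜ, (Φ ((j : ℕ) + 1) - Φ (j : ℕ)) = ∑ j ∈ Cᶜ, 1 / 2 * D j :=
    Finset.sum_congr rfl (fun j hj => h2 j (Finset.mem_compl.1 hj))
  rw [htel, hsplit, hC, hCc, zero_add, ← Finset.mul_sum]
  ring

/-- the final numerical step -/
theorem final_num (Φk Φ0 T g n : ℝ) (l : ℕ) (hg0 : 0 ≤ g) (hgT : g ≤ T) (hT : T ≤ n ^ l)
    (h1 : Φk ≤ T - g) (h2 : ∀ γ : ℝ, 0 < γ → (1 - γ) * T + Real.log γ * g ≤ Φ0) :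
    Φk - Φ0 ≤ g * (Real.log (1 / g) + l * Real.log n) := by
  rcases hg0.eq_or_lt with hg | hg
  · subst hg
    have hT0 : 0 ≤ T := hgT
    have hΦ0 : T ≤ Φ0 := by
      apply le_of_forall_pos_le_add
      intro ε hε
      have hγ : 0 < ε / (T + 1) := div_pos hε (by linarith)
      have h := h2 _ hγ
      have h3 : ε / (T + 1) * T ≤ ε := by
        rw [div_mul_eq_mul_div, div_le_iff₀ (by linarith)]
        nlinarith
      nlinarith
    simp only [zero_mul]
    linarith
  · have hT0 : 0 < T := lt_of_lt_of_le hg hgT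
    have h := h2 (g / T) (div_pos hg hT0)
    have e1 : (1 - g / T) * T = T - g := by
      field_simp
    have e2 : Real.log (g / T) = Real.log g - Real.log T := Real.log_div hg.ne' hT0.ne'
    have e3 : Real.log (1 / g) = - Real.log g := by
      rw [one_div, Real.log_inv]
    have e4 : Real.log T ≤ l * Real.log n := by
      rw [← Real.log_pow]
      exact Real.log_le_log hT0 hT
    rw [e1, e2] at h
    rw [e3]
    nlinarith

end Crest.Agent.PR.KF
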