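/-
ROW 342, project PR, block (KB).  TASK K9A: the two ends of the hybrid chain, ALICE's potential.  Architect: helper91.

PROOFS.  `wtAll G C t ρ ≥ 0` (`Finset.prod_nonneg`, `wt_nonneg`).
* `PhiA_le`: termwise; `ent_le (opA_posSemidef S ρ) (one_sub_opA_posSemidef S ρ) : (1 - opA - ent opA).PosSemidef`, so by `qf_le_left` (with `opB_posSemidef`)
   `qf ψ (ent opA) opB ≤ qf ψ (1 - opA) opB = qf ψ 1 opB - qf ψ opA opB` (`qf_sub_left`).
* `PhiA_ge`: termwise; `ent_ge (opA_posSemidef S ρ) hγ`, `qf_le_left`, `qf_add_left`, `qf_smul_left`.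
* `Gam_le_TotA`: termwise from `one_sub_opA_posSemidef`.
* `TotA_eq_kop`: `qf ψ 1` is linear: `∑ ρ, w ρ * qf ψ 1 (opB S ρ) = qf ψ 1 (∑ ρ, (w ρ : ℂ) • opB S ρ)` (`qf_sum_right`, `qf_smul_right`), then `kop_sum_pi`.
* `TotA_eq`: by `TotA_eq_kop` it is enough that `mkB G (modeAt C t i) = mkB G (modeAt C 0 i)`: for `i ∈ C` both modes are `T`; for `i ∉ C` the modes are `F`/`Om`
   (`modeAt_ne_T`) and `mkB G .F = mkB G .Om` by `sum_wt_kerB_F`, `sum_wt_kerB_Om`.
* `TotA_le`: `kop_le` for `S.N` with kernels `mkB G (modeAt C t i)` and majorants `q i y = (if i ∈ C then (nA:ℝ) else 1) * piB G y` (`sum_wt_kerB_T_le`, ..);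
   `∏ i, ∑ y, q i y = ∏ i, (if i ∈ C then nA else 1) = nA ^ C.card` (`sum_piB`, `Finset.prod_ite_mem`/`Finset.prod_pow_boole`-style, `Finset.prod_const`);
   then `qf_le_right` (with `Matrix.PosSemidef.one`), `qf_smul_right`, `qf_one_one`, `nsq_strategy`.
-/
import Crest.Agent.PR_KSum
import Crest.Agent.PR_KOps
import Crest.Agent.PR_KQf

set_option autoImplicit false

namespace Crest.Agent.PR.KF

open Crest.MathPhysics.NonlocalGame

variable {G : Game} {k dA dB : ℕ}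

theorem wtAll_nonneg (C : Finset (Fin k)) (t : ℕ) (ρ : Fin k → Lam G) : 0 ≤ wtAll G C t ρ := by
  unfold wtAll
  exact Finset.prod_nonneg (fun i _ => wt_nonneg G _ _)

theorem Wj_nonneg (C : Finset (Fin k)) (j : Fin k) (ρ : Fin k → Lam G) : 0 ≤ Wj G C j ρ := by
  unfold Wj
  exact mul_nonneg (wt_nonneg G _ _) (Finset.prod_nonneg (fun i _ => wt_nonneg G _ _))

/-- Bob's marginal kernel of a mode -/
noncomputable def mkB (G : Game) (m : Mode) : Fin G.nY → Fin G.nB → ℝ := fun y b => ∑ l, wt G m l * kerB G l y b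

theorem PhiA_le (S : Strategy G k dA dB) (C : Finset (Fin k)) (t : ℕ) :
    PhiA S C t ≤ TotA S C t - Gam S C t := by
  unfold PhiA TotA Gam
  rw [← Finset.sum_sub_distrib]
  refine Finset.sum_le_sum (fun ρ _ => ?_)
  rw [← mul_sub]
  refine mul_le_mul_of_nonneg_left ?_ (wtAll_nonneg C t ρ)
  rw [← KF.qf_sub_left]
  exact KF.qf_le_left S.ψ (ent_le (opA_posSemidef S ρ) (one_sub_opA_posSemidef S ρ)) (opB_posSemidef S ρ)

theorem PhiA_ge (S : Strategy G k dA dB) (C : Finset (Fin k)) (t : ℕ) (γ : ℝ) (hγ : 0 < γ) :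
    (1 - γ) * TotA S C t + Real.log γ * Gam S C t ≤ PhiA S C t := by
  unfold PhiA TotA Gam
  rw [Finset.mul_sum, Finset.mul_sum, ← Finset.sum_add_distrib]
  refine Finset.sum_le_sum (fun ρ _ => ?_)
  have h := KF.qf_le_left S.ψ (ent_ge (opA_posSemidef S ρ) hγ) (opB_posSemidef S ρ)
  rw [KF.qf_add_left, KF.qf_smul_left, KF.qf_smul_left] at h
  have h2 := mul_le_mul_of_nonneg_left h (wtAll_nonneg C t ρ)
  calc (1 - γ) * (wtAll G C t ρ * qf S.ψ 1 (opB S ρ)) + Real.log γ * (wtAll G C t ρ * qf S.ψ (opA S ρ) (opB S ρ))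
      = wtAll G C t ρ * ((1 - γ) * qf S.ψ 1 (opB S ρ) + Real.log γ * qf S.ψ (opA S ρ) (opB S ρ)) := by ring
    _ ≤ _ := h2

theorem Gam_le_TotA (S : Strategy G k dA dB) (C : Finset (Fin k)) (t : ℕ) : Gam S C t ≤ TotA S C t := by
  unfold TotA Gam
  refine Finset.sum_le_sum (fun ρ _ => ?_)
  refine mul_le_mul_of_nonneg_left ?_ (wtAll_nonneg C t ρ)
  exact KF.qf_le_left S.ψ (one_sub_opA_posSemidef S ρ) (opB_posSemidef S ρ)

theorem TotA_eq_kop (S : Strategy G k dA dB) (C : Finset (Fin k)) (t : ℕ) :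
    TotA S C t = qf S.ψ 1 (kop S.N (fun i => mkB G (modeAt C t i))) := by
  have h := kop_sum_pi S.N (fun i => wt G (modeAt C t i)) (fun _ l => kerB G l)
  have h' : kop S.N (fun i => mkB G (modeAt C t i))
      = ∑ ρ : Fin k → Lam G, ((wtAll G C t ρ : ℝ) : ℂ) • opB S ρ := by
    unfold mkB wtAll opB
    exact h.symm
  rw [h', KF.qf_sum_right]
  unfold TotA
  refine Finset.sum_congr rfl (fun ρ _ => ?_)
  rw [KF.qf_smul_right]

private theorem mkB_F_eq_Om : mkB G .F = mkB G .Om := by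
  funext y b
  unfold mkB
  rw [sum_wt_kerB_F, sum_wt_kerB_Om]

theorem TotA_eq (S : Strategy G k dA dB) (C : Finset (Fin k)) (t : ℕ) : TotA S C t = TotA S C 0 := by
  rw [TotA_eq_kop, TotA_eq_kop]
  have : (fun i => mkB G (modeAt C t i)) = (fun i => mkB G (modeAt C 0 i)) := by
    funext i
    by_cases hi : i ∈ C
    · rw [modeAt_of_mem C t hi, modeAt_of_mem C 0 hi]
    · rcases modeAt_ne_T C t hi with h1 | h1 <;> rcases modeAt_ne_T C 0 hi with h2 | h2 <;>
        rw [h1, h2] <;> first | rfl | exact mkB_F_eq_Om | exact mkB_F_eq_Om.symm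
  rw [this]

open scoped ComplexOrder in
theorem TotA_le (S : Strategy G k dA dB) (C : Finset (Fin k)) (t : ℕ) :
    TotA S C t ≤ (G.nA : ℝ) ^ C.card := by
  rw [TotA_eq_kop]
  have hκ : ∀ (i : Fin k) (y : Fin G.nY) (b : Fin G.nB), 0 ≤ mkB G (modeAt C t i) y b := by
    intro i y b
    unfold mkB
    exact Finset.sum_nonneg (fun l _ => mul_nonneg (wt_nonneg G _ _) (kerB_nonneg G _ _ _))
  have hq : ∀ (i : Fin k) (y : Fin G.nY) (b : Fin G.nB),
      mkB G (modeAt C t i) y b ≤ (if i ∈ C then (G.nA : ℝ) else 1) * piB G y := by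
    intro i y b
    by_cases hi : i ∈ C
    · rw [modeAt_of_mem C t hi, if_pos hi]
      exact sum_wt_kerB_T_le G y b
    · rw [if_neg hi, one_mul]
      rcases modeAt_ne_T C t hi with h1 | h1 <;> rw [h1]
      · exact le_of_eq (sum_wt_kerB_F G y b)
      · exact le_of_eq (sum_wt_kerB_Om G y b)
  have hq0 : ∀ (i : Fin k) (y : Fin G.nY), 0 ≤ (if i ∈ C then (G.nA : ℝ) else 1) * piB G y := by
    intro i y
    refine mul_nonneg ?_ (piB_nonneg G y)
    split_ifs
    · exact Nat.cast_nonneg _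
    · exact zero_le_one
  have h := kop_le S.N S.N_posSemidef S.N_sum (fun i => mkB G (modeAt C t i)) hκ
    (fun i y => (if i ∈ C then (G.nA : ℝ) else 1) * piB G y) hq hq0
  have hprod : (∏ i : Fin k, ∑ y, (if i ∈ C then (G.nA : ℝ) else 1) * piB G y) = (G.nA : ℝ) ^ C.card := by
    have : ∀ i : Fin k, ∑ y, (if i ∈ C then (G.nA : ℝ) else 1) * piB G y = if i ∈ C then (G.nA : ℝ) else 1 := by
      intro i
      rw [← Finset.mul_sum, sum_piB, mul_one]
    simp only [this]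
    rw [Finset.prod_ite_mem, Finset.univ_inter, Finset.prod_const]
  rw [hprod] at h
  have h2 := KF.qf_le_right S.ψ (Matrix.PosSemidef.one (n := Fin dA) (R := ℂ)) h
  rw [KF.qf_smul_right, KF.qf_one_one, nsq_strategy, mul_one] at h2
  exact h2

end Crest.Agent.PR.KF
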