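/-
ROW 342, project PR, block (KB).  TASK K9B: the two ends of the hybrid chain, BOB's potential (mirror image of K9A).  Architect: helper91.

PROOFS.  `wtAll_nonneg` is in `PR_KEndA` (import it; use it by statement).
* `PhiB_le`: termwise; `ent_le (opB_posSemidef S ρ) (one_sub_opB_posSemidef S ρ)`, `qf_le_right` (with `opA_posSemidef`), `qf_sub_right`.
* `PhiB_ge`: termwise; `ent_ge (opB_posSemidef S ρ) hγ`, `qf_le_right`, `qf_add_right`, `qf_smul_right`.
* `Gam_le_TotB`: termwise from `one_sub_opB_posSemidef`.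
* `TotB_eq_kop`: `qf_sum_left`, `qf_smul_left`, `kop_sum_pi`.
* `TotB_eq`: `mkA G .F = mkA G .Om` by `sum_wt_kerA_F`, `sum_wt_kerA_Om`; `modeAt_of_mem`, `modeAt_ne_T`.
* `TotB_le`: `kop_le` for `S.M` with majorants `q i x = (if i ∈ C then (nB:ℝ) else 1) * piA G x`, `sum_piA`, `qf_le_left`, `qf_smul_left`, `qf_one_one`, `nsq_strategy`.
-/
import Crest.Agent.PR_KEndA

set_option autoImplicit false

namespace Crest.Agent.PR.KF

open Crest.MathPhysics.NonlocalGame
open scoped ComplexOrder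

variable {G : Game} {k dA dB : ℕ}

/-- Alice's marginal kernel of a mode -/
noncomputable def mkA (G : Game) (m : Mode) : Fin G.nX → Fin G.nA → ℝ := fun x a => ∑ l, wt G m l * kerA G l x a

theorem PhiB_le (S : Strategy G k dA dB) (C : Finset (Fin k)) (t : ℕ) :
    PhiB S C t ≤ TotB S C t - Gam S C t := by
  unfold PhiB TotB Gam
  rw [← Finset.sum_sub_distrib]
  refine Finset.sum_le_sum fun ρ _ => ?_
  rw [← mul_sub]
  refine mul_le_mul_of_nonneg_left ?_ (wtAll_nonneg C t ρ)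
  have h := qf_le_right S.ψ (opA_posSemidef S ρ)
    (ent_le (opB_posSemidef S ρ) (one_sub_opB_posSemidef S ρ))
  rw [qf_sub_right] at h
  exact h

theorem PhiB_ge (S : Strategy G k dA dB) (C : Finset (Fin k)) (t : ℕ) (γ : ℝ) (hγ : 0 < γ) :
    (1 - γ) * TotB S C t + Real.log γ * Gam S C t ≤ PhiB S C t := by
  unfold PhiB TotB Gam
  rw [Finset.mul_sum, Finset.mul_sum, ← Finset.sum_add_distrib]
  refine Finset.sum_le_sum fun ρ _ => ?_
  have h := qf_le_right S.ψ (opA_posSemidef S ρ) (ent_ge (opB_posSemidef S ρ) hγ)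
  rw [qf_add_right, qf_smul_right, qf_smul_right] at h
  have h2 := mul_le_mul_of_nonneg_left h (wtAll_nonneg C t ρ)
  calc (1 - γ) * (wtAll G C t ρ * qf S.ψ (opA S ρ) 1)
        + Real.log γ * (wtAll G C t ρ * qf S.ψ (opA S ρ) (opB S ρ))
      = wtAll G C t ρ * ((1 - γ) * qf S.ψ (opA S ρ) 1
          + Real.log γ * qf S.ψ (opA S ρ) (opB S ρ)) := by ring
    _ ≤ _ := h2

theorem Gam_le_TotB (S : Strategy G k dA dB) (C : Finset (Fin k)) (t : ℕ) : Gam S C t ≤ TotB S C t := by
  unfold TotB Gam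
  refine Finset.sum_le_sum fun ρ _ => ?_
  refine mul_le_mul_of_nonneg_left ?_ (wtAll_nonneg C t ρ)
  exact qf_le_right S.ψ (opA_posSemidef S ρ) (one_sub_opB_posSemidef S ρ)

theorem TotB_eq_kop (S : Strategy G k dA dB) (C : Finset (Fin k)) (t : ℕ) :
    TotB S C t = qf S.ψ (kop S.M (fun i => mkA G (modeAt C t i))) 1 := by
  have h := kop_sum_pi S.M (fun i l => wt G (modeAt C t i) l) (fun _ l => kerA G l)
  have h2 : kop S.M (fun i => mkA G (modeAt C t i))
      = ∑ ρ : Fin k → Lam G, ((wtAll G C t ρ : ℝ) : ℂ) • opA S ρ := h.symm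
  rw [h2, qf_sum_left]
  unfold TotB
  refine Finset.sum_congr rfl fun ρ _ => ?_
  rw [qf_smul_left]

private theorem mkA_F_eq_Om (G : Game) : mkA G .F = mkA G .Om := by
  funext x a
  unfold mkA
  rw [sum_wt_kerA_F, sum_wt_kerA_Om]

theorem TotB_eq (S : Strategy G k dA dB) (C : Finset (Fin k)) (t : ℕ) : TotB S C t = TotB S C 0 := by
  rw [TotB_eq_kop, TotB_eq_kop]
  have : (fun i => mkA G (modeAt C t i)) = (fun i => mkA G (modeAt C 0 i)) := by
    funext i
    by_cases hi : i ∈ C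
    · rw [modeAt_of_mem C t hi, modeAt_of_mem C 0 hi]
    · rcases modeAt_ne_T C t hi with h1 | h1 <;> rcases modeAt_ne_T C 0 hi with h2 | h2 <;>
        rw [h1, h2] <;> first | rfl | exact mkA_F_eq_Om G | exact (mkA_F_eq_Om G).symm
  rw [this]

theorem TotB_le (S : Strategy G k dA dB) (C : Finset (Fin k)) (t : ℕ) :
    TotB S C t ≤ (G.nB : ℝ) ^ C.card := by
  rw [TotB_eq_kop]
  have hκ : ∀ (i : Fin k) (x : Fin G.nX) (a : Fin G.nA), 0 ≤ mkA G (modeAt C t i) x a := by
    intro i x a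
    unfold mkA
    exact Finset.sum_nonneg fun l _ => mul_nonneg (wt_nonneg G _ l) (kerA_nonneg G l x a)
  have hq : ∀ (i : Fin k) (x : Fin G.nX) (a : Fin G.nA), mkA G (modeAt C t i) x a
      ≤ (if i ∈ C then (G.nB : ℝ) else 1) * piA G x := by
    intro i x a
    by_cases hi : i ∈ C
    · rw [modeAt_of_mem C t hi, if_pos hi]
      exact sum_wt_kerA_T_le G x a
    · rw [if_neg hi, one_mul]
      rcases modeAt_ne_T C t hi with h1 | h1
      · rw [h1]; exact (sum_wt_kerA_F G x a).le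
      · rw [h1]; exact (sum_wt_kerA_Om G x a).le
  have hq0 : ∀ (i : Fin k) (x : Fin G.nX), 0 ≤ (if i ∈ C then (G.nB : ℝ) else 1) * piA G x := by
    intro i x
    refine mul_nonneg ?_ (piA_nonneg G x)
    split_ifs
    · exact Nat.cast_nonneg _
    · exact zero_le_one
  have h := kop_le S.M S.M_posSemidef S.M_sum (fun i => mkA G (modeAt C t i)) hκ
    (fun i x => (if i ∈ C then (G.nB : ℝ) else 1) * piA G x) hq hq0
  have hprod : (∏ i : Fin k, ∑ x, (if i ∈ C then (G.nB : ℝ) else 1) * piA G x)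
      = (G.nB : ℝ) ^ C.card := by
    have : ∀ i : Fin k, ∑ x, (if i ∈ C then (G.nB : ℝ) else 1) * piA G x
        = if i ∈ C then (G.nB : ℝ) else 1 := by
      intro i
      rw [← Finset.mul_sum, sum_piA, mul_one]
    simp only [this]
    rw [Finset.prod_ite_mem, Finset.univ_inter, Finset.prod_const]
  rw [hprod] at h
  have h2 := qf_le_left S.ψ h (Matrix.PosSemidef.one)
  rw [qf_smul_left, qf_one_one, nsq_strategy, mul_one] at h2
  exact h2

end Crest.Agent.PR.KF
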