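/-
ROW 342, project PR, block (KB).  TASK K5: bilinear evaluation of a sum over configurations.  Architect: helper91.

PROOF.  Unfold both `kop`, use `qf_sum_left`, `qf_sum_right`, `qf_smul_left`, `qf_smul_right` (PR_KQf) to get
 `qf ψ (kop M ..) (kop N ..) = ∑ x, ∑ a, ∑ y, ∑ b, (∏ i, κA i (ρ i) (x i) (a i)) * (∏ i, κB i (ρ i) (y i) (b i)) * qf ψ (M x a) (N y b)`;
 multiply by `∏ i, w i (ρ i)`, merge the three products (`Finset.prod_mul_distrib`), move `∑ ρ` inside (`Finset.sum_comm`, `Finset.sum_mul`),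
 and use `Finset.prod_univ_sum` + `Fintype.piFinset_univ`:  `∏ i, ∑ l, F i l = ∑ ρ : Fin k → L, ∏ i, F i (ρ i)`.
-/
import Crest.Agent.PR_KQf
import Crest.Agent.PR_KOp

set_option autoImplicit false

namespace Crest.Agent.PR.KF

variable {k nX nY nA nB dA dB : ℕ}

theorem bil_eval {L : Type} [Fintype L] [DecidableEq L] (ψ : Fin dA × Fin dB → ℂ)
    (M : (Fin k → Fin nX) → (Fin k → Fin nA) → Matrix (Fin dA) (Fin dA) ℂ)
    (N : (Fin k → Fin nY) → (Fin k → Fin nB) → Matrix (Fin dB) (Fin dB) ℂ)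
    (w : Fin k → L → ℝ) (κA : Fin k → L → Fin nX → Fin nA → ℝ) (κB : Fin k → L → Fin nY → Fin nB → ℝ) :
    ∑ ρ : Fin k → L, (∏ i, w i (ρ i)) *
        qf ψ (kop M (fun i => κA i (ρ i))) (kop N (fun i => κB i (ρ i)))
      = ∑ x : Fin k → Fin nX, ∑ y : Fin k → Fin nY, ∑ a : Fin k → Fin nA, ∑ b : Fin k → Fin nB,
          (∏ i, ∑ l, w i l * κA i l (x i) (a i) * κB i l (y i) (b i)) * qf ψ (M x a) (N y b) := by
  have hq : ∀ ρ : Fin k → L,
      qf ψ (kop M (fun i => κA i (ρ i))) (kop N (fun i => κB i (ρ i)))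
        = ∑ x : Fin k → Fin nX, ∑ y : Fin k → Fin nY, ∑ a : Fin k → Fin nA,
            ∑ b : Fin k → Fin nB,
            ((∏ i, κA i (ρ i) (x i) (a i)) * (∏ i, κB i (ρ i) (y i) (b i))) *
              qf ψ (M x a) (N y b) := by
    intro ρ
    unfold kop
    rw [qf_sum_left]
    refine Finset.sum_congr rfl (fun x _ => ?_)
    rw [qf_sum_left]
    simp_rw [qf_sum_right, qf_smul_left, qf_smul_right]
    rw [Finset.sum_comm]
    refine Finset.sum_congr rfl (fun y _ => ?_)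
    refine Finset.sum_congr rfl (fun a _ => ?_)
    refine Finset.sum_congr rfl (fun b _ => ?_)
    ring
  simp_rw [hq, Finset.mul_sum]
  rw [Finset.sum_comm]
  refine Finset.sum_congr rfl (fun x _ => ?_)
  rw [Finset.sum_comm]
  refine Finset.sum_congr rfl (fun y _ => ?_)
  rw [Finset.sum_comm]
  refine Finset.sum_congr rfl (fun a _ => ?_)
  rw [Finset.sum_comm]
  refine Finset.sum_congr rfl (fun b _ => ?_)
  rw [Finset.prod_univ_sum, Fintype.piFinset_univ, Finset.sum_mul]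
  refine Finset.sum_congr rfl (fun ρ _ => ?_)
  rw [Finset.prod_mul_distrib, Finset.prod_mul_distrib]
  ring

end Crest.Agent.PR.KF
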