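/-
ROW 342, project PR, block (KB).  TASK K7a: `Gam S C t = pW S C`.  Architect: helper91.

PROOF.  `Gam S C t = ∑ ρ, (∏ i, wt G (modeAt C t i) (ρ i)) * qf ψ (kop M (fun i => kerA G (ρ i))) (kop N (fun i => kerB G (ρ i)))`;
apply `bil_eval` with `w i = wt G (modeAt C t i)`, `κA i = kerA G`, `κB i = kerB G`; by `sum_wt_ker` the coefficient is `∏ i, jk G (modeAt C t i) (x i) (y i) (a i) (b i)`.
`prod_jk`:  for `i ∈ C` the factor is `if accept then prob else 0`, for `i ∉ C` it is `prob` (`modeAt_of_mem`, `modeAt_ne_T`), so the product is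
`if (∀ i ∈ C, accept ..) then ∏ i, prob (x i) (y i) else 0`  (if some `i ∈ C` is not accepted the factor `i` vanishes: `Finset.prod_eq_zero`;
otherwise `Finset.prod_congr`).  Finally reorder `∑ x ∑ y ∑ a ∑ b` and pull `∏ prob` out (`Finset.mul_sum`, `ite_mul`/`mul_ite`), `answerProb_eq_qf`.
-/
import Crest.Agent.PR_KBil
import Crest.Agent.PR_KSum
import Crest.Agent.PR_KLab

set_option autoImplicit false

namespace Crest.Agent.PR.KF

open Crest.MathPhysics.NonlocalGame

variable {G : Game} {k dA dB : ℕ}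

/-- product of joint kernels for a mode assignment that is `T` exactly on `C` -/
theorem prod_jk (C : Finset (Fin k)) (m : Fin k → Mode) (hT : ∀ i ∈ C, m i = .T)
    (hN : ∀ i, i ∉ C → m i = .F ∨ m i = .Om)
    (x : Fin k → Fin G.nX) (y : Fin k → Fin G.nY) (a : Fin k → Fin G.nA) (b : Fin k → Fin G.nB) :
    ∏ i, jk G (m i) (x i) (y i) (a i) (b i)
      = if (∀ i ∈ C, G.accept (x i) (y i) (a i) (b i) = true) then ∏ i, G.prob (x i) (y i) else 0 := by
  by_cases h : ∀ i ∈ C, G.accept (x i) (y i) (a i) (b i) = true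
  · rw [if_pos h]
    refine Finset.prod_congr rfl fun i _ => ?_
    by_cases hi : i ∈ C
    · rw [hT i hi, jk_T]
      exact if_pos (h i hi)
    · rcases hN i hi with h' | h'
      · rw [h', jk_F]
      · rw [h', jk_Om]
  · rw [if_neg h]
    simp only [not_forall] at h
    obtain ⟨i, hi, hacc⟩ := h
    refine Finset.prod_eq_zero (Finset.mem_univ i) ?_
    rw [hT i hi, jk_T]
    exact if_neg hacc

theorem Gam_eq (S : Strategy G k dA dB) (C : Finset (Fin k)) (t : ℕ) : Gam S C t = pW S C := by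
  unfold Gam wtAll opA opB
  rw [bil_eval S.ψ S.M S.N (fun i => wt G (modeAt C t i)) (fun _ => kerA G) (fun _ => kerB G)]
  simp only [sum_wt_ker]
  unfold pW
  refine Finset.sum_congr rfl fun x _ => Finset.sum_congr rfl fun y _ => ?_
  rw [Finset.mul_sum]
  refine Finset.sum_congr rfl fun a _ => ?_
  rw [Finset.mul_sum]
  refine Finset.sum_congr rfl fun b _ => ?_
  rw [prod_jk C (modeAt C t) (fun i hi => modeAt_of_mem C t hi) (fun i hi => modeAt_ne_T C t hi),
    answerProb_eq_qf]
  split_ifs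
  · rfl
  · rw [zero_mul, mul_zero]

end Crest.Agent.PR.KF
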