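/-
ROW 342, project PR, block (KB).  TASK K7b: the law of the `j`-th question pair together with `W_C`.  Architect: helper91.

PROOF.  Rewrite `Wj` with `Wj_eq_prod`, and
 `aj S j ρ x = kop S.M (fun i => (if i = j then (fun _ => dQ x) else kerA G) (ρ i))` (funext + `Function.update_apply`), same for `bj`.
 `bil_eval` with `w i = wt G (if i = j then .F else modeAt C j i)`, `κA i = if i = j then fun _ => dQ x0 else kerA G`, `κB` alike.
 Coefficient: factor `i = j`:  `∑ l, wt F l * dQ x0 (x j) (a j) * dQ y0 (y j) (b j) = [x j = x0] * [y j = y0]` (`sum_wt_F_one`);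
 factor `i ≠ j`: `jk G (modeAt C j i) ..` (`sum_wt_ker`).  Since `j ∉ C`:
 `prob x0 y0 * ∏ i, (..) = if x j = x0 ∧ y j = y0 then (if ∀ i ∈ C, accept then ∏ i, prob (x i) (y i) else 0) else 0`
 (split off `j` with `Finset.mul_prod_erase`, use `prod_jk` for the mode assignment `modeAt C j`, whose `j`-th factor is `prob (x j) (y j)`).
 Compare with the definition of `pWq`.
-/
import Crest.Agent.PR_KProbG
import Crest.Agent.PR_KOps

set_option autoImplicit false

namespace Crest.Agent.PR.KF

open Crest.MathPhysics.NonlocalGame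

variable {G : Game} {k dA dB : ℕ}

/-- the coefficient of `qf ψ (M x a) (N y b)` in `prob_pWq` -/
theorem prob_pWq_coeff (C : Finset (Fin k)) {j : Fin k} (hj : j ∉ C)
    (x0 : Fin G.nX) (y0 : Fin G.nY)
    (x : Fin k → Fin G.nX) (y : Fin k → Fin G.nY) (a : Fin k → Fin G.nA) (b : Fin k → Fin G.nB) :
    G.prob x0 y0 * ∏ i, ∑ l, wt G (if i = j then .F else modeAt C (j : ℕ) i) l
        * (if i = j then (fun _ => dQ x0) else kerA G) l (x i) (a i)
        * (if i = j then (fun _ => dQ y0) else kerB G) l (y i) (b i)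
      = if x j = x0 ∧ y j = y0 then
          (if (∀ i ∈ C, G.accept (x i) (y i) (a i) (b i) = true) then ∏ i, G.prob (x i) (y i) else 0)
        else 0 := by
  have hfac : ∀ i : Fin k, (∑ l, wt G (if i = j then .F else modeAt C (j : ℕ) i) l
        * (if i = j then (fun _ => dQ x0) else kerA G) l (x i) (a i)
        * (if i = j then (fun _ => dQ y0) else kerB G) l (y i) (b i))
      = if i = j then (if x j = x0 ∧ y j = y0 then 1 else 0)
        else jk G (modeAt C (j : ℕ) i) (x i) (y i) (a i) (b i) := by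
    intro i
    by_cases hi : i = j
    · subst hi
      simp only [if_true]
      have : ∀ l : Lam G, wt G .F l * (dQ x0 (x i) (a i) : ℝ) * (dQ y0 (y i) (b i) : ℝ)
          = wt G .F l * ((dQ x0 (x i) (a i) : ℝ) * (dQ y0 (y i) (b i) : ℝ)) := fun l => by ring
      rw [Finset.sum_congr rfl (fun l _ => this l), ← Finset.sum_mul, sum_wt_F_one, one_mul]
      unfold dQ
      by_cases h1 : x i = x0 <;> by_cases h2 : y i = y0 <;> simp [h1, h2]
    · simp only [if_neg hi]
      exact sum_wt_ker G _ _ _ _ _
  rw [Finset.prod_congr rfl (fun i _ => hfac i)]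
  by_cases h : x j = x0 ∧ y j = y0
  · rw [if_pos h, ← prod_jk C (modeAt C (j : ℕ)) (fun i hi => modeAt_of_mem C _ hi)
      (fun i hi => modeAt_ne_T C _ hi) x y a b]
    rw [← Finset.mul_prod_erase Finset.univ _ (Finset.mem_univ j),
      ← Finset.mul_prod_erase Finset.univ (fun i => jk G (modeAt C (j : ℕ) i) (x i) (y i) (a i) (b i))
        (Finset.mem_univ j)]
    have e1 : jk G (modeAt C (j : ℕ) j) (x j) (y j) (a j) (b j) = G.prob x0 y0 := by
      rw [modeAt_self C hj, h.1, h.2]; rfl
    rw [e1]
    simp only [if_true, if_pos h, one_mul]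
    congr 1
    apply Finset.prod_congr rfl
    intro i hi
    rw [if_neg (Finset.ne_of_mem_erase hi)]
  · have hz : (∏ i, if i = j then (if x j = x0 ∧ y j = y0 then (1 : ℝ) else 0)
        else jk G (modeAt C (j : ℕ) i) (x i) (y i) (a i) (b i)) = 0 :=
      Finset.prod_eq_zero (Finset.mem_univ j) (by rw [if_pos rfl, if_neg h])
    rw [hz, mul_zero, if_neg h]

theorem prob_pWq (S : Strategy G k dA dB) (C : Finset (Fin k)) {j : Fin k} (hj : j ∉ C)
    (x0 : Fin G.nX) (y0 : Fin G.nY) :
    G.prob x0 y0 * ∑ ρ, Wj G C j ρ * qf S.ψ (aj S j ρ x0) (bj S j ρ y0) = pWq S C j x0 y0 := by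
  have h1 : ∀ ρ : Fin k → Lam G, Wj G C j ρ * qf S.ψ (aj S j ρ x0) (bj S j ρ y0)
      = (∏ i, (fun i => wt G (if i = j then .F else modeAt C (j : ℕ) i)) i (ρ i)) *
        qf S.ψ (kop S.M (fun i => (fun i => if i = j then (fun _ => dQ x0) else kerA G) i (ρ i)))
          (kop S.N (fun i => (fun i => if i = j then (fun _ => dQ y0) else kerB G) i (ρ i))) := by
    intro ρ
    rw [Wj_eq_prod]
    have ea : aj S j ρ x0
        = kop S.M (fun i => (fun i => if i = j then (fun _ => dQ x0) else kerA G) i (ρ i)) := by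
      unfold aj
      congr 1
      funext i
      by_cases hi : i = j
      · subst hi; simp
      · simp [hi]
    have eb : bj S j ρ y0
        = kop S.N (fun i => (fun i => if i = j then (fun _ => dQ y0) else kerB G) i (ρ i)) := by
      unfold bj
      congr 1
      funext i
      by_cases hi : i = j
      · subst hi; simp
      · simp [hi]
    rw [ea, eb]
  rw [Finset.sum_congr rfl (fun ρ _ => h1 ρ), bil_eval]
  unfold pWq
  rw [Finset.mul_sum]
  apply Finset.sum_congr rfl; intro x _
  rw [Finset.mul_sum]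
  apply Finset.sum_congr rfl; intro y _
  rw [Finset.mul_sum, Finset.mul_sum]
  apply Finset.sum_congr rfl; intro a _
  rw [Finset.mul_sum, Finset.mul_sum]
  apply Finset.sum_congr rfl; intro b _
  rw [← mul_assoc, prob_pWq_coeff C hj x0 y0 x y a b, answerProb_eq_qf]
  split_ifs <;> simp

end Crest.Agent.PR.KF
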