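/-
ROW 342, project PR, block (KB).  TASK K7c: winning coordinate `j` together with `W_C`.  Architect: helper91.

PROOF.  As in K7b (`PR_KProbQ`), with the point kernels `dQR x0 a0`, `dQR y0 b0` at coordinate `j`:
 `∑ ρ, Wj G C j ρ * qf ψ (alj S j ρ x0 a0) (bej S j ρ y0 b0)
    = ∑ x y a b, [x j = x0 ∧ a j = a0] [y j = y0 ∧ b j = b0] (∏ i ∈ univ.erase j, jk G (modeAt C j i) ..) * qf ψ (M x a) (N y b)`   (`key` below).
 Multiply by `if accept x0 y0 a0 b0 then prob x0 y0 else 0 = jk G .T x0 y0 a0 b0`, sum over `x0 y0 a0 b0` (the indicators select `x0 = x j`, ...):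
 the coefficient becomes `∏ i, jk G (if i = j then .T else modeAt C j i) ..`, and `prod_jk` for the set `insert j C` gives `pW S (insert j C)`.
-/
import Crest.Agent.PR_KProbG
import Crest.Agent.PR_KOps

set_option autoImplicit false

namespace Crest.Agent.PR.KF

open Crest.MathPhysics.NonlocalGame

variable {G : Game} {k dA dB : ℕ}

theorem prob_key (S : Strategy G k dA dB) (C : Finset (Fin k)) (j : Fin k)
    (x0 : Fin G.nX) (y0 : Fin G.nY) (a0 : Fin G.nA) (b0 : Fin G.nB) :
    ∑ ρ, Wj G C j ρ * qf S.ψ (alj S j ρ x0 a0) (bej S j ρ y0 b0)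
      = ∑ x : Fin k → Fin G.nX, ∑ y : Fin k → Fin G.nY, ∑ a : Fin k → Fin G.nA, ∑ b : Fin k → Fin G.nB,
          ((if x j = x0 ∧ a j = a0 ∧ y j = y0 ∧ b j = b0 then 1 else 0) *
            ∏ i ∈ Finset.univ.erase j, jk G (modeAt C (j : ℕ) i) (x i) (y i) (a i) (b i)) *
          qf S.ψ (S.M x a) (S.N y b) := by
  classical
  have hA : ∀ ρ : Fin k → Lam G, alj S j ρ x0 a0
      = kop S.M (fun i => (if i = j then (fun _ => dQR x0 a0) else kerA G) (ρ i)) := by
    intro ρ
    unfold alj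
    congr 1
    funext i
    by_cases hi : i = j
    · subst hi; simp
    · simp [Function.update_of_ne hi, hi]
  have hB : ∀ ρ : Fin k → Lam G, bej S j ρ y0 b0
      = kop S.N (fun i => (if i = j then (fun _ => dQR y0 b0) else kerB G) (ρ i)) := by
    intro ρ
    unfold bej
    congr 1
    funext i
    by_cases hi : i = j
    · subst hi; simp
    · simp [Function.update_of_ne hi, hi]
  simp only [hA, hB, Wj_eq_prod]
  rw [bil_eval S.ψ S.M S.N (fun i => wt G (if i = j then .F else modeAt C (j : ℕ) i))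
    (fun i => if i = j then (fun _ => dQR x0 a0) else kerA G)
    (fun i => if i = j then (fun _ => dQR y0 b0) else kerB G)]
  refine Finset.sum_congr rfl fun x _ => Finset.sum_congr rfl fun y _ =>
    Finset.sum_congr rfl fun a _ => Finset.sum_congr rfl fun b _ => ?_
  congr 1
  rw [← Finset.mul_prod_erase Finset.univ _ (Finset.mem_univ j)]
  congr 1
  · simp only [if_true]
    rw [← Finset.sum_mul, ← Finset.sum_mul, sum_wt_F_one]
    unfold dQR
    by_cases h1 : x j = x0 <;> by_cases h2 : a j = a0 <;> by_cases h3 : y j = y0 <;>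
      by_cases h4 : b j = b0 <;> simp [h1, h2, h3, h4]
  · refine Finset.prod_congr rfl fun i hi => ?_
    have hij : i ≠ j := Finset.ne_of_mem_erase hi
    simp only [if_neg hij]
    exact sum_wt_ker G _ _ _ _ _

private theorem kw_sel {T U : Type} [Fintype T] [Fintype U] [DecidableEq U] (π : T → U) (g : U → ℝ)
    (F : T → ℝ) (c : T → U → Prop) [∀ t u, Decidable (c t u)] (hc : ∀ t u, c t u ↔ π t = u) :
    ∑ u, g u * ∑ t, (if c t u then 1 else 0) * F t = ∑ t, g (π t) * F t := by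
  simp only [Finset.mul_sum]
  rw [Finset.sum_comm]
  refine Finset.sum_congr rfl fun t _ => ?_
  rw [Finset.sum_eq_single (π t)]
  · rw [if_pos ((hc _ _).2 rfl), one_mul]
  · intro u _ hu
    rw [if_neg (fun h => hu ((hc _ _).1 h).symm)]
    simp
  · simp

private theorem kw_sel4 (j : Fin k) (g : Fin G.nX → Fin G.nY → Fin G.nA → Fin G.nB → ℝ)
    (F : (Fin k → Fin G.nX) → (Fin k → Fin G.nY) → (Fin k → Fin G.nA) → (Fin k → Fin G.nB) → ℝ) :
    ∑ x0, ∑ y0, ∑ a0, ∑ b0, g x0 y0 a0 b0 * ∑ x, ∑ y, ∑ a, ∑ b,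
        (if x j = x0 ∧ a j = a0 ∧ y j = y0 ∧ b j = b0 then 1 else 0) * F x y a b
      = ∑ x, ∑ y, ∑ a, ∑ b, g (x j) (y j) (a j) (b j) * F x y a b := by
  have := kw_sel
    (T := (Fin k → Fin G.nX) × (Fin k → Fin G.nY) × (Fin k → Fin G.nA) × (Fin k → Fin G.nB))
    (U := Fin G.nX × Fin G.nY × Fin G.nA × Fin G.nB)
    (fun t => (t.1 j, t.2.1 j, t.2.2.1 j, t.2.2.2 j)) (fun u => g u.1 u.2.1 u.2.2.1 u.2.2.2)
    (fun t => F t.1 t.2.1 t.2.2.1 t.2.2.2)
    (fun t u => t.1 j = u.1 ∧ t.2.2.1 j = u.2.2.1 ∧ t.2.1 j = u.2.1 ∧ t.2.2.2 j = u.2.2.2)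
    (by
      rintro ⟨x, y, a, b⟩ ⟨x0, y0, a0, b0⟩
      simp only [Prod.mk.injEq]
      tauto)
  simpa only [Fintype.sum_prod_type] using this

theorem prob_win (S : Strategy G k dA dB) (C : Finset (Fin k)) {j : Fin k} (hj : j ∉ C) :
    ∑ x, ∑ y, G.prob x y * ∑ a, ∑ b,
        (if G.accept x y a b = true then ∑ ρ, Wj G C j ρ * qf S.ψ (alj S j ρ x a) (bej S j ρ y b) else 0)
      = pW S (insert j C) := by
  classical
  have h1 : ∑ x, ∑ y, G.prob x y * ∑ a, ∑ b,
        (if G.accept x y a b = true then ∑ ρ, Wj G C j ρ * qf S.ψ (alj S j ρ x a) (bej S j ρ y b) else 0)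
      = ∑ x0, ∑ y0, ∑ a0, ∑ b0, jk G .T x0 y0 a0 b0 *
          ∑ x : Fin k → Fin G.nX, ∑ y : Fin k → Fin G.nY, ∑ a : Fin k → Fin G.nA, ∑ b : Fin k → Fin G.nB,
          (if x j = x0 ∧ a j = a0 ∧ y j = y0 ∧ b j = b0 then 1 else 0) *
            ((∏ i ∈ Finset.univ.erase j, jk G (modeAt C (j : ℕ) i) (x i) (y i) (a i) (b i)) *
          qf S.ψ (S.M x a) (S.N y b)) := by
    refine Finset.sum_congr rfl fun x0 _ => Finset.sum_congr rfl fun y0 _ => ?_
    rw [Finset.mul_sum]
    refine Finset.sum_congr rfl fun a0 _ => ?_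
    rw [Finset.mul_sum]
    refine Finset.sum_congr rfl fun b0 _ => ?_
    rw [prob_key]
    simp only [mul_assoc, jk_T]
    split_ifs <;> simp
  rw [h1, kw_sel4 j (jk G .T)]
  unfold pW
  refine Finset.sum_congr rfl fun x _ => Finset.sum_congr rfl fun y _ => ?_
  rw [Finset.mul_sum]
  refine Finset.sum_congr rfl fun a _ => ?_
  rw [Finset.mul_sum]
  refine Finset.sum_congr rfl fun b _ => ?_
  have h2 : jk G .T (x j) (y j) (a j) (b j) *
      ∏ i ∈ Finset.univ.erase j, jk G (modeAt C (j : ℕ) i) (x i) (y i) (a i) (b i)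
      = ∏ i, jk G (if i = j then .T else modeAt C (j : ℕ) i) (x i) (y i) (a i) (b i) := by
    rw [← Finset.mul_prod_erase Finset.univ _ (Finset.mem_univ j)]
    congr 1
    · simp only [if_true]
    · refine Finset.prod_congr rfl fun i hi => ?_
      rw [if_neg (Finset.ne_of_mem_erase hi)]
  rw [← mul_assoc, h2, prod_jk (insert j C) (fun i => if i = j then .T else modeAt C (j : ℕ) i)
    (by
      intro i hi
      by_cases hij : i = j
      · simp [hij]
      · simp only [if_neg hij]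
        exact modeAt_of_mem C _ ((Finset.mem_insert.1 hi).resolve_left hij))
    (by
      intro i hi
      have hij : i ≠ j := fun h => hi (h ▸ Finset.mem_insert_self _ _)
      have hiC : i ∉ C := fun h => hi (Finset.mem_insert_of_mem h)
      simp only [if_neg hij]
      exact modeAt_ne_T C _ hiC)]
  rw [answerProb_eq_qf]
  split_ifs <;> simp

end Crest.Agent.PR.KF
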