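/-
ROW 342, project PR, block (KB).  TASK K8A: one step of the hybrid for ALICE's potential.  Architect: helper91.

PROOF of `PhiA_succ_of_not_mem`.  Put `Ψ ρ = qf ψ (ent (opA S ρ)) (opB S ρ)` and `R ρ = ∏ i ∈ univ.erase j, wt G (modeAt C j i) (ρ i)`.
(1) By `sum_resample j (wt G .F) (sum_wt_F_one G)`, `wtAll_update`, `modeAt_succ_self`, `modeAt_self`, `modeAt_succ_of_ne` (inside `Finset.prod_congr`):
      PhiA S C (j+1) = ∑ ρ, Wj G C j ρ * ∑ l, wt G .F  l * Ψ (update ρ j l),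
      PhiA S C j     = ∑ ρ, Wj G C j ρ * ∑ l, wt G .Om l * Ψ (update ρ j l).
(2) `sum_wt_F`, `opA_update`, `opB_update`, `kerA_F`, `kerB_F`:   ∑ l, wt F l * Ψ (update ρ j l) = ∑ x, ∑ y, prob x y * qf ψ (ent (aj S j ρ x)) (bj S j ρ y).
(3) `sum_wt_Om`, `kerA_OmX`, `kerB_OmX`, `kop_update_OmX`, `kerA_OmY`, `kop_update_OmY`, `kerB_OmY`:
      ∑ l, wt Om l * Ψ (update ρ j l) = ∑ x, piA x / 2 * qf ψ (ent (aj x)) (avgB G (bj S j ρ) x) + ∑ y, piB y / 2 * qf ψ (ent (avgA G (aj S j ρ) y)) (bj y).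
(4) LINEARITY IN BOB'S OPERATOR: `avgB G b x = ∑ y, (prob x y / piA x) • b y`, `qf_sum_right`, `qf_smul_right`, `piA_mul_div`:
      ∑ x, piA x / 2 * qf ψ (ent (aj x)) (avgB G b x) = (1/2) ∑ x, ∑ y, prob x y * qf ψ (ent (aj x)) (b y).
(5) (2) - (3) = (1/2) * dropA G ψ (aj S j ρ) (bj S j ρ)  (`step_alg` below); sum over ρ.
-/
import Crest.Agent.PR_KSum
import Crest.Agent.PR_KOps
import Crest.Agent.PR_KQf

set_option autoImplicit false

namespace Crest.Agent.PR.KF

open Crest.MathPhysics.NonlocalGame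

variable {G : Game} {k dA dB : ℕ}

/-- steps (4)+(5) for arbitrary operator families -/
theorem stepA_alg (ψ : Fin dA × Fin dB → ℂ) (a : Fin G.nX → Matrix (Fin dA) (Fin dA) ℂ)
    (b : Fin G.nY → Matrix (Fin dB) (Fin dB) ℂ) :
    (∑ x, ∑ y, G.prob x y * qf ψ (ent (a x)) (b y))
      - (∑ x, piA G x / 2 * qf ψ (ent (a x)) (avgB G b x) + ∑ y, piB G y / 2 * qf ψ (ent (avgA G a y)) (b y))
      = 1 / 2 * dropA G ψ a b := by
  have h1 : ∀ x, piA G x / 2 * qf ψ (ent (a x)) (avgB G b x)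
      = 1 / 2 * ∑ y, G.prob x y * qf ψ (ent (a x)) (b y) := by
    intro x
    unfold avgB
    rw [qf_sum_right, Finset.mul_sum, Finset.mul_sum]
    refine Finset.sum_congr rfl fun y _ => ?_
    rw [qf_smul_right]
    have h := piA_mul_div G x y
    calc piA G x / 2 * (G.prob x y / piA G x * qf ψ (ent (a x)) (b y))
        = 1 / 2 * ((piA G x * (G.prob x y / piA G x)) * qf ψ (ent (a x)) (b y)) := by ring
      _ = 1 / 2 * (G.prob x y * qf ψ (ent (a x)) (b y)) := by rw [h]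
  have h2 : ∑ y, piB G y / 2 * qf ψ (ent (avgA G a y)) (b y)
      = 1 / 2 * ∑ y, piB G y * qf ψ (ent (avgA G a y)) (b y) := by
    rw [Finset.mul_sum]
    exact Finset.sum_congr rfl fun y _ => by ring
  unfold dropA
  rw [Finset.sum_congr rfl fun x _ => h1 x, ← Finset.mul_sum, h2]
  ring

theorem PhiA_succ_of_mem (S : Strategy G k dA dB) (C : Finset (Fin k)) {j : Fin k} (hj : j ∈ C) :
    PhiA S C ((j : ℕ) + 1) = PhiA S C (j : ℕ) := by
  unfold PhiA wtAll
  rw [modeAt_succ_of_mem C hj]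

/-- step (1) -/
private theorem PhiA_resample (S : Strategy G k dA dB) (C : Finset (Fin k)) (j : Fin k) (t : ℕ) (m : Mode)
    (hm : modeAt C t j = m) (hne : ∀ i, i ≠ j → modeAt C t i = modeAt C (j : ℕ) i) :
    PhiA S C t = ∑ ρ, Wj G C j ρ * ∑ l, wt G m l *
      qf S.ψ (ent (opA S (Function.update ρ j l))) (opB S (Function.update ρ j l)) := by
  unfold PhiA
  rw [sum_resample j (wt G .F) (sum_wt_F_one G)]
  refine Finset.sum_congr rfl fun ρ _ => ?_
  unfold Wj
  have h : ∏ i ∈ Finset.univ.erase j, wt G (modeAt C t i) (ρ i)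
      = ∏ i ∈ Finset.univ.erase j, wt G (modeAt C (j : ℕ) i) (ρ i) :=
    Finset.prod_congr rfl fun i hi => by rw [hne i (Finset.ne_of_mem_erase hi)]
  have h2 : ∀ l, wtAll G C t (Function.update ρ j l) *
        qf S.ψ (ent (opA S (Function.update ρ j l))) (opB S (Function.update ρ j l))
      = (∏ i ∈ Finset.univ.erase j, wt G (modeAt C (j : ℕ) i) (ρ i)) * (wt G m l *
        qf S.ψ (ent (opA S (Function.update ρ j l))) (opB S (Function.update ρ j l))) := by
    intro l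
    rw [wtAll_update, hm, h]
    ring
  rw [Finset.sum_congr rfl fun l _ => h2 l, ← Finset.mul_sum, mul_assoc]

/-- step (2) -/
private theorem sumA_F (S : Strategy G k dA dB) (j : Fin k) (ρ : Fin k → Lam G) :
    ∑ l, wt G .F l * qf S.ψ (ent (opA S (Function.update ρ j l))) (opB S (Function.update ρ j l))
      = ∑ x, ∑ y, G.prob x y * qf S.ψ (ent (aj S j ρ x)) (bj S j ρ y) := by
  rw [sum_wt_F G (fun l => qf S.ψ (ent (opA S (Function.update ρ j l))) (opB S (Function.update ρ j l)))]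
  refine Finset.sum_congr rfl fun x _ => Finset.sum_congr rfl fun y _ => ?_
  rw [opA_update, opB_update, kerA_F, kerB_F, aj, bj]

/-- step (3) -/
private theorem sumA_Om (S : Strategy G k dA dB) (j : Fin k) (ρ : Fin k → Lam G) :
    ∑ l, wt G .Om l * qf S.ψ (ent (opA S (Function.update ρ j l))) (opB S (Function.update ρ j l))
      = ∑ x, piA G x / 2 * qf S.ψ (ent (aj S j ρ x)) (avgB G (bj S j ρ) x)
        + ∑ y, piB G y / 2 * qf S.ψ (ent (avgA G (aj S j ρ) y)) (bj S j ρ y) := by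
  rw [sum_wt_Om G (fun l => qf S.ψ (ent (opA S (Function.update ρ j l))) (opB S (Function.update ρ j l)))]
  have hX : ∀ x : Fin G.nX,
      qf S.ψ (ent (opA S (Function.update ρ j (.inr (.inr (.inl x))))))
        (opB S (Function.update ρ j (.inr (.inr (.inl x)))))
      = qf S.ψ (ent (aj S j ρ x)) (avgB G (bj S j ρ) x) := by
    intro x
    rw [opA_update, opB_update, kerA_OmX, kerB_OmX, kop_update_OmX, aj]
  have hY : ∀ y : Fin G.nY,
      qf S.ψ (ent (opA S (Function.update ρ j (.inr (.inr (.inr y))))))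
        (opB S (Function.update ρ j (.inr (.inr (.inr y)))))
      = qf S.ψ (ent (avgA G (aj S j ρ) y)) (bj S j ρ y) := by
    intro y
    rw [opA_update, opB_update, kerA_OmY, kerB_OmY, kop_update_OmY, bj]
  simp only [hX, hY]

theorem PhiA_succ_of_not_mem (S : Strategy G k dA dB) (C : Finset (Fin k)) {j : Fin k} (hj : j ∉ C) :
    PhiA S C ((j : ℕ) + 1) - PhiA S C (j : ℕ)
      = 1 / 2 * ∑ ρ, Wj G C j ρ * dropA G S.ψ (aj S j ρ) (bj S j ρ) := by
  rw [PhiA_resample S C j ((j : ℕ) + 1) .F (modeAt_succ_self C hj)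
      (fun i hi => modeAt_succ_of_ne C hi),
    PhiA_resample S C j (j : ℕ) .Om (modeAt_self C hj) (fun _ _ => rfl),
    ← Finset.sum_sub_distrib, Finset.mul_sum]
  refine Finset.sum_congr rfl fun ρ _ => ?_
  rw [← mul_sub, sumA_F, sumA_Om, stepA_alg]
  ring

end Crest.Agent.PR.KF
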