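/-
ROW 342, project PR, block (KB).  TASK K8B: one step of the hybrid for BOB's potential (mirror image of K8A).  Architect: helper91.

PROOF of `PhiB_succ_of_not_mem`.  Put `Ψ ρ = qf ψ (opA S ρ) (ent (opB S ρ))`.
(1) By `sum_resample j (wt G .F) (sum_wt_F_one G)`, `wtAll_update`, `modeAt_succ_self`, `modeAt_self`, `modeAt_succ_of_ne`:
      PhiB S C (j+1) = ∑ ρ, Wj G C j ρ * ∑ l, wt G .F  l * Ψ (update ρ j l),
      PhiB S C j     = ∑ ρ, Wj G C j ρ * ∑ l, wt G .Om l * Ψ (update ρ j l).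
(2) ∑ l, wt F l * Ψ (update ρ j l) = ∑ x, ∑ y, prob x y * qf ψ (aj S j ρ x) (ent (bj S j ρ y)).
(3) ∑ l, wt Om l * Ψ (update ρ j l) = ∑ x, piA x / 2 * qf ψ (aj x) (ent (avgB G (bj S j ρ) x)) + ∑ y, piB y / 2 * qf ψ (avgA G (aj S j ρ) y) (ent (bj y)).
(4) LINEARITY IN ALICE'S OPERATOR: `avgA G a y = ∑ x, (prob x y / piB y) • a x`, `qf_sum_left`, `qf_smul_left`, `piB_mul_div`.
(5) (2) - (3) = (1/2) * dropB G ψ (aj S j ρ) (bj S j ρ).
-/
import Crest.Agent.PR_KSum
import Crest.Agent.PR_KOps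
import Crest.Agent.PR_KQf

set_option autoImplicit false

namespace Crest.Agent.PR.KF

open Crest.MathPhysics.NonlocalGame

variable {G : Game} {k dA dB : ℕ}

theorem stepB_alg (ψ : Fin dA × Fin dB → ℂ) (a : Fin G.nX → Matrix (Fin dA) (Fin dA) ℂ)
    (b : Fin G.nY → Matrix (Fin dB) (Fin dB) ℂ) :
    (∑ x, ∑ y, G.prob x y * qf ψ (a x) (ent (b y)))
      - (∑ x, piA G x / 2 * qf ψ (a x) (ent (avgB G b x)) + ∑ y, piB G y / 2 * qf ψ (avgA G a y) (ent (b y)))
      = 1 / 2 * dropB G ψ a b := by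
  have h1 : ∑ y, piB G y / 2 * qf ψ (avgA G a y) (ent (b y))
      = 1 / 2 * ∑ x, ∑ y, G.prob x y * qf ψ (a x) (ent (b y)) := by
    rw [Finset.sum_comm, Finset.mul_sum]
    apply Finset.sum_congr rfl
    intro y _
    unfold avgA
    rw [qf_sum_left, Finset.mul_sum, Finset.mul_sum]
    apply Finset.sum_congr rfl
    intro x _
    rw [qf_smul_left]
    have := piB_mul_div G x y
    calc piB G y / 2 * (G.prob x y / piB G y * qf ψ (a x) (ent (b y)))
        = 1 / 2 * ((piB G y * (G.prob x y / piB G y)) * qf ψ (a x) (ent (b y))) := by ring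
      _ = _ := by rw [this]
  have h2 : ∑ x, piA G x / 2 * qf ψ (a x) (ent (avgB G b x))
      = 1 / 2 * ∑ x, piA G x * qf ψ (a x) (ent (avgB G b x)) := by
    rw [Finset.mul_sum]
    apply Finset.sum_congr rfl
    intro x _
    ring
  rw [h1, h2]
  unfold dropB
  ring

theorem PhiB_succ_of_mem (S : Strategy G k dA dB) (C : Finset (Fin k)) {j : Fin k} (hj : j ∈ C) :
    PhiB S C ((j : ℕ) + 1) = PhiB S C (j : ℕ) := by
  unfold PhiB wtAll
  rw [modeAt_succ_of_mem C hj]

/-- resummation of the potential over the `j`-th label -/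
private theorem PhiB_resample (S : Strategy G k dA dB) (C : Finset (Fin k)) (j : Fin k) (t : ℕ)
    (ht : ∀ i : Fin k, i ≠ j → modeAt C t i = modeAt C (j : ℕ) i) :
    PhiB S C t = ∑ ρ, Wj G C j ρ * ∑ l, wt G (modeAt C t j) l
      * qf S.ψ (opA S (Function.update ρ j l)) (ent (opB S (Function.update ρ j l))) := by
  unfold PhiB
  rw [sum_resample j (wt G .F) (sum_wt_F_one G)]
  apply Finset.sum_congr rfl
  intro ρ _
  unfold Wj
  rw [mul_assoc]
  congr 1
  rw [Finset.mul_sum]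
  apply Finset.sum_congr rfl
  intro l _
  rw [wtAll_update]
  have : ∏ i ∈ Finset.univ.erase j, wt G (modeAt C t i) (ρ i)
      = ∏ i ∈ Finset.univ.erase j, wt G (modeAt C (j : ℕ) i) (ρ i) := by
    apply Finset.prod_congr rfl
    intro i hi
    rw [ht i (Finset.ne_of_mem_erase hi)]
  rw [this]
  ring

theorem PhiB_succ_of_not_mem (S : Strategy G k dA dB) (C : Finset (Fin k)) {j : Fin k} (hj : j ∉ C) :
    PhiB S C ((j : ℕ) + 1) - PhiB S C (j : ℕ)
      = 1 / 2 * ∑ ρ, Wj G C j ρ * dropB G S.ψ (aj S j ρ) (bj S j ρ) := by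
  rw [PhiB_resample S C j ((j : ℕ) + 1) (fun i hi => modeAt_succ_of_ne C hi),
    PhiB_resample S C j (j : ℕ) (fun _ _ => rfl), modeAt_succ_self C hj, modeAt_self C hj,
    ← Finset.sum_sub_distrib, Finset.mul_sum]
  apply Finset.sum_congr rfl
  intro ρ _
  rw [← mul_sub, sum_wt_F G, sum_wt_Om G]
  have hF : ∀ x y, qf S.ψ (opA S (Function.update ρ j (.inr (.inl (x, y)))))
      (ent (opB S (Function.update ρ j (.inr (.inl (x, y))))))
      = qf S.ψ (aj S j ρ x) (ent (bj S j ρ y)) := by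
    intro x y
    rw [opA_update, opB_update]
    rfl
  have hX : ∀ x, qf S.ψ (opA S (Function.update ρ j (.inr (.inr (.inl x)))))
      (ent (opB S (Function.update ρ j (.inr (.inr (.inl x))))))
      = qf S.ψ (aj S j ρ x) (ent (avgB G (bj S j ρ) x)) := by
    intro x
    rw [opA_update, opB_update, kerB_OmX, kop_update_OmX]
    rfl
  have hY : ∀ y, qf S.ψ (opA S (Function.update ρ j (.inr (.inr (.inr y)))))
      (ent (opB S (Function.update ρ j (.inr (.inr (.inr y))))))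
      = qf S.ψ (avgA G (aj S j ρ) y) (ent (bj S j ρ y)) := by
    intro y
    rw [opA_update, opB_update, kerA_OmY, kop_update_OmY]
    rfl
  simp only [hF, hX, hY]
  rw [stepB_alg]
  ring

end Crest.Agent.PR.KF
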