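/-
ROW 342, project PR.  BLOCK (A2): k-fold bookkeeping (KB), blueprint section 3.  Architect: helper91.
Assembly of the tasks K1-K9 (files PR_KDefs, PR_KQf, PR_KOp, PR_KSum, PR_KLab, PR_KBil, PR_KOps, PR_KProbG/Q/W, PR_KStepA/B, PR_KEndA/B).
-/
import Crest.Agent.PR_OneCoord
import Crest.Agent.PR_Strat
import Crest.Agent.PR_KProbQ
import Crest.Agent.PR_KProbW
import Crest.Agent.PR_KStepA
import Crest.Agent.PR_KStepB
import Crest.Agent.PR_KEndB

set_option autoImplicit false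

namespace Crest.Agent.PR

open Crest.MathPhysics.NonlocalGame
open scoped ComplexOrder

variable {G : Game} {k dA dB : ℕ}

namespace KF

theorem pW_nonneg' (S : Strategy G k dA dB) (C : Finset (Fin k)) : 0 ≤ pW S C := by
  rw [← Gam_eq S C 0]
  unfold Gam
  exact Finset.sum_nonneg fun ρ _ =>
    mul_nonneg (wtAll_nonneg C 0 ρ) (qf_nonneg _ (opA_posSemidef S ρ) (opB_posSemidef S ρ))

theorem sum_dropA_le (S : Strategy G k dA dB) (C : Finset (Fin k)) :
    ∑ j ∈ Cᶜ, ∑ ρ, Wj G C j ρ * dropA G S.ψ (aj S j ρ) (bj S j ρ)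
      ≤ 2 * (pW S C * (Real.log (1 / pW S C) + C.card * Real.log (G.nA : ℝ))) := by
  rw [telescope (PhiA S C) (fun j => ∑ ρ, Wj G C j ρ * dropA G S.ψ (aj S j ρ) (bj S j ρ)) C
    (fun j hj => PhiA_succ_of_mem S C hj) (fun j hj => PhiA_succ_of_not_mem S C hj)]
  refine mul_le_mul_of_nonneg_left ?_ (by norm_num)
  refine final_num (PhiA S C k) (PhiA S C 0) (TotA S C 0) (pW S C) (G.nA : ℝ) C.card
    (pW_nonneg' S C) ?_ (TotA_le S C 0) ?_ ?_
  · rw [← Gam_eq S C 0]; exact Gam_le_TotA S C 0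
  · have := PhiA_le S C k
    rwa [TotA_eq S C k, Gam_eq] at this
  · intro γ hγ
    have := PhiA_ge S C 0 γ hγ
    rwa [Gam_eq] at this

theorem sum_dropB_le (S : Strategy G k dA dB) (C : Finset (Fin k)) :
    ∑ j ∈ Cᶜ, ∑ ρ, Wj G C j ρ * dropB G S.ψ (aj S j ρ) (bj S j ρ)
      ≤ 2 * (pW S C * (Real.log (1 / pW S C) + C.card * Real.log (G.nB : ℝ))) := by
  rw [telescope (PhiB S C) (fun j => ∑ ρ, Wj G C j ρ * dropB G S.ψ (aj S j ρ) (bj S j ρ)) C
    (fun j hj => PhiB_succ_of_mem S C hj) (fun j hj => PhiB_succ_of_not_mem S C hj)]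
  refine mul_le_mul_of_nonneg_left ?_ (by norm_num)
  refine final_num (PhiB S C k) (PhiB S C 0) (TotB S C 0) (pW S C) (G.nB : ℝ) C.card
    (pW_nonneg' S C) ?_ (TotB_le S C 0) ?_ ?_
  · rw [← Gam_eq S C 0]; exact Gam_le_TotB S C 0
  · have := PhiB_le S C k
    rwa [TotB_eq S C k, Gam_eq] at this
  · intro γ hγ
    have := PhiB_ge S C 0 γ hγ
    rwa [Gam_eq] at this

end KF

open KF in
/-- **(KB)**  public configurations `ρ`, their weights, and the averaged (answer-refined) operators of coordinate `j`. -/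
theorem kfold (S : Strategy G k dA dB) (C : Finset (Fin k)) :
    ∃ (P : Type) (_ : Fintype P) (_ : DecidableEq P) (W : Fin k → P → ℝ)
      (al : Fin k → P → Fin G.nX → Fin G.nA → Matrix (Fin dA) (Fin dA) ℂ)
      (be : Fin k → P → Fin G.nY → Fin G.nB → Matrix (Fin dB) (Fin dB) ℂ),
      (∀ j ρ, 0 ≤ W j ρ) ∧
      (∀ j ρ x a, (al j ρ x a).PosSemidef) ∧ (∀ j ρ y b, (be j ρ y b).PosSemidef) ∧
      (∀ j ρ x, (1 - ∑ a, al j ρ x a).PosSemidef) ∧ (∀ j ρ y, (1 - ∑ b, be j ρ y b).PosSemidef) ∧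
      (∀ j ∈ Cᶜ, ∀ x y, G.prob x y * ∑ ρ, W j ρ * qf S.ψ (∑ a, al j ρ x a) (∑ b, be j ρ y b)
          = pWq S C j x y) ∧
      (∀ j ∈ Cᶜ, ∑ x, ∑ y, G.prob x y * ∑ a, ∑ b,
          (if G.accept x y a b = true then ∑ ρ, W j ρ * qf S.ψ (al j ρ x a) (be j ρ y b) else 0)
          = pW S (insert j C)) ∧
      ∑ j ∈ Cᶜ, ∑ ρ, W j ρ * dropA G S.ψ (fun x => ∑ a, al j ρ x a) (fun y => ∑ b, be j ρ y b)
        ≤ 2 * (pW S C * (Real.log (1 / pW S C) + C.card * Real.log (G.nA : ℝ))) ∧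
      ∑ j ∈ Cᶜ, ∑ ρ, W j ρ * dropB G S.ψ (fun x => ∑ a, al j ρ x a) (fun y => ∑ b, be j ρ y b)
        ≤ 2 * (pW S C * (Real.log (1 / pW S C) + C.card * Real.log (G.nB : ℝ))) := by
  classical
  refine ⟨Fin k → Lam G, inferInstance, inferInstance, Wj G C, alj S, bej S,
    fun j ρ => Wj_nonneg C j ρ, alj_posSemidef S, bej_posSemidef S, ?_, ?_, ?_, ?_, ?_, ?_⟩
  · intro j ρ x; rw [sum_alj]; exact one_sub_aj_posSemidef S j ρ x
  · intro j ρ y; rw [sum_bej]; exact one_sub_bj_posSemidef S j ρ y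
  · intro j hj x y
    simp only [sum_alj, sum_bej]
    exact prob_pWq S C (Finset.mem_compl.mp hj) x y
  · intro j hj
    exact prob_win S C (Finset.mem_compl.mp hj)
  · simp only [sum_alj, sum_bej]
    exact sum_dropA_le S C
  · simp only [sum_alj, sum_bej]
    exact sum_dropB_le S C

end Crest.Agent.PR
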