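/-
ROW 342, project PR.  BLOCK (A): the core theorem = (OC)+(KB), blueprint section 3.  Architect: helper76.
-/
import Crest.Agent.PR_KFold
import Crest.Agent.PR_Strat

set_option autoImplicit false

namespace Crest.Agent.PR

open Crest.MathPhysics.NonlocalGame

variable {G : Game} {k dA dB : ℕ}

/-- **Core theorem.**  For every tested set `C` there are, for all `j ∉ C`, embeddings of coordinate `j` conditioned on `W_C`
into a one-shot situation, with total errors controlled by `P(W_C) (log 1/P(W_C) + |C| log n)`. -/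
theorem exists_core (S : Strategy G k dA dB) (hk : 1 ≤ k) (C : Finset (Fin k)) :
    ∃ (D : Fin k → CoreData G),
      (∀ j ∈ Cᶜ, (∀ x y, G.prob x y * nsq ((D j).f x y) = pWq S C j x y) ∧
        (D j).win = pW S (insert j C)) ∧
      ∑ j ∈ Cᶜ, (D j).errA ≤ 2 * (pW S C * (Real.log (1 / pW S C) + C.card * Real.log (G.nA : ℝ))) ∧
      ∑ j ∈ Cᶜ, (D j).errB ≤ 2 * (pW S C * (Real.log (1 / pW S C) + C.card * Real.log (G.nB : ℝ))) := by
  classical
  obtain ⟨hA, hB⟩ := nA_nB_pos_of_strategy S hk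
  obtain ⟨P, _, _, W, al, be, hW, hal, hbe, hal1, hbe1, h1, h2, h3, h4⟩ := kfold S C
  choose D hD1 hD2 hD3 hD4 using fun j =>
    one_coord G hA hB S.ψ (W j) (hW j) (al j) (be j) (hal j) (hbe j) (hal1 j) (hbe1 j)
  refine ⟨D, fun j hj => ⟨fun x y => ?_, ?_⟩, ?_, ?_⟩
  · rw [hD2 j x y]; exact h1 j hj x y
  · rw [← h2 j hj]
    unfold CoreData.win
    refine Finset.sum_congr rfl fun x _ => Finset.sum_congr rfl fun y _ => ?_
    congr 1
    refine Finset.sum_congr rfl fun a _ => Finset.sum_congr rfl fun b _ => ?_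
    rw [hD1 j x y a b]
  · exact (Finset.sum_le_sum fun j _ => hD3 j).trans h3
  · exact (Finset.sum_le_sum fun j _ => hD4 j).trans h4

end Crest.Agent.PR
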