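import Crest.Agent.PR_SpecFun

/-!
# Row 342, block (C): the pointwise resolvent-gauge inequality (R1)
-/

namespace Crest.Agent.PR.GA

open Matrix
open scoped ComplexOrder

variable {n : Type*} [Fintype n] [DecidableEq n]

/-- scalar `c_s(u) = u / ((1-s)u+s)` -/
noncomputable def csR (s u : ℝ) : ℝ := u / ((1 - s) * u + s)
/-- scalar `e_s(u) = (1-u)(1-c_s(u)) = s (1-u)^2/((1-s)u+s)` -/
noncomputable def esR (s u : ℝ) : ℝ := (1 - u) * (1 - csR s u)
/-- scalar `ent(u) = u log u - u + 1` -/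
noncomputable def entR (u : ℝ) : ℝ := u * Real.log u - u + 1

noncomputable def cs (s : ℝ) (a : Matrix n n ℂ) : Matrix n n ℂ := sfun (csR s) a
noncomputable def es (s : ℝ) (a : Matrix n n ℂ) : Matrix n n ℂ := sfun (esR s) a
/-- matrix entropy function `ent(a) = a log a - a + 1` -/
noncomputable def ent (a : Matrix n n ℂ) : Matrix n n ℂ := sfun entR a
noncomputable def rinv (s : ℝ) (a : Matrix n n ℂ) : Matrix n n ℂ :=
  sfun (fun u => 1 / ((1 - s) * u + s)) a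
noncomputable def Ds (s : ℝ) (a : Matrix n n ℂ) : Matrix n n ℂ :=
  ((1 - s : ℝ) : ℂ) • a + ((s : ℝ) : ℂ) • 1

theorem cs_isHermitian (s : ℝ) (a : Matrix n n ℂ) : (cs s a).IsHermitian := sfun_isHermitian _ _
theorem es_isHermitian (s : ℝ) (a : Matrix n n ℂ) : (es s a).IsHermitian := sfun_isHermitian _ _
theorem ent_isHermitian (a : Matrix n n ℂ) : (ent a).IsHermitian := sfun_isHermitian _ _
theorem rinv_isHermitian (s : ℝ) (a : Matrix n n ℂ) : (rinv s a).IsHermitian :=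
  sfun_isHermitian _ _

theorem Dpos {s u : ℝ} (hs0 : 0 < s) (hs1 : s < 1) (hu : 0 ≤ u) : 0 < (1 - s) * u + s := by
  have : 0 ≤ (1 - s) * u := mul_nonneg (by linarith) hu
  linarith

theorem csR_eq_aux {s u : ℝ} (hD : (1 - s) * u + s ≠ 0) (h1 : 1 - s ≠ 0) :
    csR s u = 1 / (1 - s) * (1 - s * (1 / ((1 - s) * u + s))) := by
  unfold csR
  obtain ⟨D, hDdef⟩ : ∃ D, D = (1 - s) * u + s := ⟨_, rfl⟩
  rw [← hDdef] at hD ⊢
  have hu : u = (D - s) / (1 - s) := by rw [hDdef]; field_simp; ring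
  rw [hu]
  field_simp

theorem esR_eq_aux {s u : ℝ} (hD : (1 - s) * u + s ≠ 0) (h1 : 1 - s ≠ 0) :
    esR s u = s / (1 - s) ^ 2 * (1 / ((1 - s) * u + s) - 1 - (1 - s) * (1 - u)) := by
  unfold esR csR
  obtain ⟨D, hDdef⟩ : ∃ D, D = (1 - s) * u + s := ⟨_, rfl⟩
  rw [← hDdef] at hD ⊢
  have hu : u = (D - s) / (1 - s) := by rw [hDdef]; field_simp; ring
  rw [hu]
  field_simp
  ring

theorem Ds_eq_sfun {a : Matrix n n ℂ} (ha : a.IsHermitian) (s : ℝ) :
    Ds s a = sfun (fun u => (1 - s) * u + s) a := by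
  rw [sfun_add ha (fun u => (1 - s) * u) (fun _ => s), sfun_smul ha, sfun_id ha, sfun_const ha]
  rfl

theorem Ds_mul_rinv {a : Matrix n n ℂ} (ha : a.PosSemidef) {s : ℝ} (hs0 : 0 < s) (hs1 : s < 1) :
    Ds s a * rinv s a = 1 := by
  rw [Ds_eq_sfun ha.1, rinv, ← sfun_mul ha.1, ← sfun_one ha.1]
  apply sfun_congr ha.1
  intro i
  have := Dpos hs0 hs1 (eig_nonneg ha i)
  field_simp

theorem rinv_mul_Ds {a : Matrix n n ℂ} (ha : a.PosSemidef) {s : ℝ} (hs0 : 0 < s) (hs1 : s < 1) :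
    rinv s a * Ds s a = 1 := by
  rw [Ds_eq_sfun ha.1, rinv, ← sfun_mul ha.1, ← sfun_one ha.1]
  apply sfun_congr ha.1
  intro i
  have := Dpos hs0 hs1 (eig_nonneg ha i)
  field_simp

theorem cs_eq_rinv {a : Matrix n n ℂ} (ha : a.PosSemidef) {s : ℝ} (hs0 : 0 < s) (hs1 : s < 1) :
    cs s a = ((1 / (1 - s) : ℝ) : ℂ) • (1 - ((s : ℝ) : ℂ) • rinv s a) := by
  rw [rinv, ← sfun_smul ha.1, ← sfun_one ha.1, ← sfun_sub ha.1, ← sfun_smul ha.1, cs]
  apply sfun_congr ha.1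
  intro i
  exact csR_eq_aux (Dpos hs0 hs1 (eig_nonneg ha i)).ne' (by linarith)

theorem es_eq_rinv {a : Matrix n n ℂ} (ha : a.PosSemidef) {s : ℝ} (hs0 : 0 < s) (hs1 : s < 1) :
    es s a = ((s / (1 - s) ^ 2 : ℝ) : ℂ) • (rinv s a - 1 - ((1 - s : ℝ) : ℂ) • (1 - a)) := by
  have e1 : (1 : Matrix n n ℂ) - a = sfun (fun u => 1 - u) a := by
    rw [sfun_sub ha.1 (fun _ => 1) (fun u => u), sfun_one ha.1, sfun_id ha.1]
  rw [e1, rinv, ← sfun_smul ha.1, ← sfun_one ha.1, ← sfun_sub ha.1, ← sfun_sub ha.1,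
    ← sfun_smul ha.1, es]
  apply sfun_congr ha.1
  intro i
  exact esR_eq_aux (Dpos hs0 hs1 (eig_nonneg ha i)).ne' (by linarith)

/-- the resolvent variance identity `E[D X D] = E X⁻¹ - (E X)⁻¹`, `D = X⁻¹ - (E X)⁻¹` -/
theorem resolvent_variance {ι : Type*} [Fintype ι] (p : ι → ℝ) (hsum : ∑ i, p i = 1)
    (X Y : ι → Matrix n n ℂ) (M N : Matrix n n ℂ)
    (hXY : ∀ i, X i * Y i = 1) (hYX : ∀ i, Y i * X i = 1) (hNM : N * M = 1)
    (hM : M = ∑ i, (p i : ℂ) • X i) :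
    ∑ i, (p i : ℂ) • ((Y i - N) * X i * (Y i - N)) = ∑ i, (p i : ℂ) • Y i - N := by
  have h1 : ∀ i, (Y i - N) * X i * (Y i - N) = Y i - N - N + N * X i * N := by
    intro i
    have e1 : (Y i - N) * X i * (Y i - N)
        = (Y i * X i) * Y i - (Y i * X i) * N - N * (X i * Y i) + N * X i * N := by
      noncomm_ring
    rw [e1, hYX, hXY]
    noncomm_ring
  simp only [h1, smul_add, smul_sub, Finset.sum_add_distrib, Finset.sum_sub_distrib]
  have h2 : ∑ i, (p i : ℂ) • N = N := by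
    rw [← Finset.sum_smul]
    have : ∑ i, (p i : ℂ) = 1 := by exact_mod_cast hsum
    rw [this, one_smul]
  have h3 : ∑ i, (p i : ℂ) • (N * X i * N) = N := by
    have : ∑ i, (p i : ℂ) • (N * X i * N) = N * (∑ i, (p i : ℂ) • X i) * N := by
      rw [Finset.mul_sum, Finset.sum_mul]
      apply Finset.sum_congr rfl
      intro i _
      rw [Matrix.mul_smul, Matrix.smul_mul]
    rw [this, ← hM, hNM, Matrix.one_mul]
  rw [h2, h3]
  abel

theorem Ds_sum {ι : Type*} [Fintype ι] (p : ι → ℝ) (hsum : ∑ i, p i = 1) (s : ℝ)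
    (a : ι → Matrix n n ℂ) :
    Ds s (∑ i, (p i : ℂ) • a i) = ∑ i, (p i : ℂ) • Ds s (a i) := by
  unfold Ds
  simp only [smul_add, Finset.sum_add_distrib]
  congr 1
  · rw [Finset.smul_sum]
    apply Finset.sum_congr rfl
    intro i _
    rw [smul_comm]
  · rw [← Finset.sum_smul]
    have : ∑ i, (p i : ℂ) = 1 := by exact_mod_cast hsum
    rw [this, one_smul]

theorem posSemidef_wsum {ι : Type*} [Fintype ι] (p : ι → ℝ) (hp : ∀ i, 0 ≤ p i)
    (a : ι → Matrix n n ℂ) (ha : ∀ i, (a i).PosSemidef) :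
    (∑ i, (p i : ℂ) • a i).PosSemidef := by
  apply posSemidef_sum
  intro i _
  apply (ha i).smul
  exact_mod_cast hp i

/-- **(R1)** the pointwise resolvent gauge inequality. -/
theorem gauge_pointwise {ι : Type*} [Fintype ι] {s : ℝ} (hs0 : 0 < s) (hs1 : s < 1)
    (p : ι → ℝ) (hp : ∀ i, 0 ≤ p i) (hsum : ∑ i, p i = 1)
    (a : ι → Matrix n n ℂ) (ha : ∀ i, (a i).PosSemidef) :
    (∑ i, (p i : ℂ) • es s (a i) - es s (∑ i, (p i : ℂ) • a i)
      - ∑ i, (p i : ℂ) • ((cs s (a i) - cs s (∑ i, (p i : ℂ) • a i)) *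
          (cs s (a i) - cs s (∑ i, (p i : ℂ) • a i)))).PosSemidef := by
  set ab := ∑ i, (p i : ℂ) • a i with hab
  have hA : ab.PosSemidef := posSemidef_wsum p hp a ha
  set N := rinv s ab with hN
  set Y : ι → Matrix n n ℂ := fun i => rinv s (a i) with hY
  have hvar := resolvent_variance p hsum (fun i => Ds s (a i)) Y (Ds s ab) N
    (fun i => Ds_mul_rinv (ha i) hs0 hs1) (fun i => rinv_mul_Ds (ha i) hs0 hs1)
    (rinv_mul_Ds hA hs0 hs1) (Ds_sum p hsum s a)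
  have hsumC : ∑ i, (p i : ℂ) = 1 := by exact_mod_cast hsum
  have h1s : ((1 - s : ℝ) : ℂ) ≠ 0 := by
    have : (1 - s : ℝ) ≠ 0 := by linarith
    exact_mod_cast this
  -- the difference of the `c`'s
  have hc : ∀ i, cs s (a i) - cs s ab = ((-(s / (1 - s)) : ℝ) : ℂ) • (Y i - N) := by
    intro i
    rw [cs_eq_rinv (ha i) hs0 hs1, cs_eq_rinv hA hs0 hs1, ← smul_sub]
    have : (1 - ((s : ℝ) : ℂ) • rinv s (a i)) - (1 - ((s : ℝ) : ℂ) • rinv s ab)
        = (-((s : ℝ) : ℂ)) • (Y i - N) := by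
      rw [neg_smul, smul_sub]; abel
    rw [this, smul_smul]
    congr 1
    push_cast
    field_simp
  -- the Jensen gap of `e`
  have he : ∑ i, (p i : ℂ) • es s (a i) - es s ab
      = ((s / (1 - s) ^ 2 : ℝ) : ℂ) • (∑ i, (p i : ℂ) • Y i - N) := by
    rw [es_eq_rinv hA hs0 hs1]
    simp only [es_eq_rinv (ha _) hs0 hs1]
    have e1 : ∑ i, (p i : ℂ) • (((s / (1 - s) ^ 2 : ℝ) : ℂ) •
        (rinv s (a i) - 1 - ((1 - s : ℝ) : ℂ) • (1 - a i)))
        = ((s / (1 - s) ^ 2 : ℝ) : ℂ) • (∑ i, (p i : ℂ) • Y i - 1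
            - ((1 - s : ℝ) : ℂ) • (1 - ab)) := by
      have e2 : ∀ i, (p i : ℂ) • (((s / (1 - s) ^ 2 : ℝ) : ℂ) •
        (rinv s (a i) - 1 - ((1 - s : ℝ) : ℂ) • (1 - a i)))
          = ((s / (1 - s) ^ 2 : ℝ) : ℂ) • ((p i : ℂ) • Y i - (p i : ℂ) • 1
            - ((1 - s : ℝ) : ℂ) • ((p i : ℂ) • 1 - (p i : ℂ) • a i)) := by
        intro i
        rw [smul_comm]
        congr 1
        rw [smul_sub, smul_sub, smul_comm (p i : ℂ) (((1 - s : ℝ)) : ℂ), smul_sub]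
      simp only [e2]
      rw [← Finset.smul_sum, Finset.sum_sub_distrib, Finset.sum_sub_distrib, ← Finset.smul_sum,
        Finset.sum_sub_distrib, ← Finset.sum_smul, hsumC, one_smul]
    rw [e1, ← smul_sub]
    congr 1
    abel
  rw [he, ← hvar]
  simp only [hc]
  -- now everything is a weighted sum of `Dl (X - s) Dl`
  have hfin : ((s / (1 - s) ^ 2 : ℝ) : ℂ) • ∑ i, (p i : ℂ) • ((Y i - N) * Ds s (a i) * (Y i - N))
      - ∑ i, (p i : ℂ) • ((((-(s / (1 - s)) : ℝ) : ℂ) • (Y i - N)) *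
          (((-(s / (1 - s)) : ℝ) : ℂ) • (Y i - N)))
      = ∑ i, ((p i * (s / (1 - s) ^ 2 * (1 - s)) : ℝ) : ℂ) • ((Y i - N)ᴴ * a i * (Y i - N)) := by
    rw [Finset.smul_sum, ← Finset.sum_sub_distrib]
    apply Finset.sum_congr rfl
    intro i _
    have hH : (Y i - N)ᴴ = Y i - N :=
      ((rinv_isHermitian s (a i)).sub (rinv_isHermitian s ab))
    rw [hH]
    unfold Ds
    rw [Matrix.mul_add, Matrix.add_mul, Matrix.mul_smul, Matrix.smul_mul, Matrix.mul_smul,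
      Matrix.smul_mul, Matrix.mul_one, Matrix.smul_mul, Matrix.mul_smul]
    simp only [smul_add, smul_smul]
    have hs' : ((s / (1 - s) ^ 2 : ℝ) : ℂ) * ((p i : ℂ) * ((s : ℝ) : ℂ))
        = (p i : ℂ) * (((-(s / (1 - s)) : ℝ) : ℂ) * ((-(s / (1 - s)) : ℝ) : ℂ)) := by
      push_cast
      field_simp
    rw [hs', add_sub_cancel_right]
    congr 1
    push_cast
    ring
  rw [hfin]
  apply posSemidef_sum
  intro i _
  apply PosSemidef.smul
  · exact (ha i).conjTranspose_mul_mul_same _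
  · have h1 : 0 ≤ p i * (s / (1 - s) ^ 2 * (1 - s)) := by
      apply mul_nonneg (hp i)
      apply mul_nonneg
      · positivity
      · linarith
    exact_mod_cast h1

end Crest.Agent.PR.GA
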