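import Crest.Agent.PR_GaugeR1

/-!
# Row 342, block (C): scalar integrals for the resolvent gauge
-/

namespace Crest.Agent.PR.GA

open MeasureTheory intervalIntegral Set

theorem Dpos' {s u : ℝ} (hs : s ∈ Icc (0:ℝ) 1) (hu : 0 < u) : 0 < (1 - s) * u + s := by
  obtain ⟨h0, h1⟩ := hs
  rcases eq_or_lt_of_le h1 with h | h
  · subst h; simp
  · have : 0 < (1 - s) * u := mul_pos (by linarith) hu
    linarith

theorem csR_zero (s : ℝ) : csR s 0 = 0 := by simp [csR]

theorem csR_continuousOn {u : ℝ} (hu : 0 ≤ u) : ContinuousOn (fun s => csR s u) (Icc 0 1) := by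
  rcases eq_or_lt_of_le hu with h | h
  · subst h
    simp only [csR_zero]
    exact continuousOn_const
  · unfold csR
    apply ContinuousOn.div continuousOn_const
    · fun_prop
    · intro s hs
      exact (Dpos' hs h).ne'

theorem esR_continuousOn {u : ℝ} (hu : 0 ≤ u) : ContinuousOn (fun s => esR s u) (Icc 0 1) := by
  unfold esR
  exact continuousOn_const.mul (continuousOn_const.sub (csR_continuousOn hu))

theorem integral_csR_sq {u : ℝ} (hu : 0 ≤ u) : ∫ s in (0:ℝ)..1, csR s u * csR s u = u := by
  rcases eq_or_lt_of_le hu with h | h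
  · subst h
    simp [csR_zero]
  · have hderiv : ∀ s ∈ uIcc (0:ℝ) 1, HasDerivAt (fun s => u * s / ((1 - s) * u + s))
        (csR s u * csR s u) s := by
      intro s hs
      rw [uIcc_of_le zero_le_one] at hs
      have hD := (Dpos' hs h).ne'
      have h1 : HasDerivAt (fun s : ℝ => u * s) u s := by
        simpa using (hasDerivAt_id' s).const_mul u
      have h2 : HasDerivAt (fun s : ℝ => (1 - s) * u + s) (-u + 1) s := by
        have h := (((hasDerivAt_id' s).const_sub 1).mul_const u).add (hasDerivAt_id' s)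
        refine h.congr_deriv ?_
        ring
      refine (h1.div h2 hD).congr_deriv ?_
      unfold csR
      obtain ⟨D, hDdef⟩ : ∃ D, D = (1 - s) * u + s := ⟨_, rfl⟩
      rw [← hDdef] at hD ⊢
      field_simp
      rw [hDdef]; ring
    have hint : IntervalIntegrable (fun s => csR s u * csR s u) volume 0 1 := by
      apply ContinuousOn.intervalIntegrable
      rw [uIcc_of_le zero_le_one]
      exact (csR_continuousOn hu).mul (csR_continuousOn hu)
    rw [integral_eq_sub_of_hasDerivAt hderiv hint]
    simp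

theorem integral_esR {u : ℝ} (hu : 0 ≤ u) : ∫ s in (0:ℝ)..1, esR s u = entR u := by
  rcases eq_or_lt_of_le hu with h | h
  · subst h
    simp [esR, csR_zero, entR]
  · have hderiv : ∀ s ∈ uIcc (0:ℝ) 1,
        HasDerivAt (fun s => (1 - u) * s - u * Real.log ((1 - s) * u + s)) (esR s u) s := by
      intro s hs
      rw [uIcc_of_le zero_le_one] at hs
      have hD := (Dpos' hs h).ne'
      have h1 : HasDerivAt (fun s : ℝ => (1 - u) * s) (1 - u) s := by
        simpa using (hasDerivAt_id' s).const_mul (1 - u)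
      have h2 : HasDerivAt (fun s : ℝ => (1 - s) * u + s) (-u + 1) s := by
        have h := (((hasDerivAt_id' s).const_sub 1).mul_const u).add (hasDerivAt_id' s)
        refine h.congr_deriv ?_
        ring
      refine (h1.sub ((h2.log hD).const_mul u)).congr_deriv ?_
      unfold esR csR
      obtain ⟨D, hDdef⟩ : ∃ D, D = (1 - s) * u + s := ⟨_, rfl⟩
      rw [← hDdef] at hD ⊢
      field_simp
      ring
    have hint : IntervalIntegrable (fun s => esR s u) volume 0 1 := by
      apply ContinuousOn.intervalIntegrable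
      rw [uIcc_of_le zero_le_one]
      exact esR_continuousOn hu
    rw [integral_eq_sub_of_hasDerivAt hderiv hint]
    simp [entR]
    ring

/-- `ent u ≤ 1 - u` on `[0,1]` -/
theorem entR_le {u : ℝ} (hu0 : 0 ≤ u) (hu1 : u ≤ 1) : entR u ≤ 1 - u := by
  unfold entR
  have : u * Real.log u ≤ 0 := mul_nonpos_of_nonneg_of_nonpos hu0 (Real.log_nonpos hu0 hu1)
  linarith

/-- tangent line: `ent u ≥ (1-g) + (log g) u` for `u ≥ 0`, `g > 0` -/
theorem entR_ge {u g : ℝ} (hu0 : 0 ≤ u) (hg : 0 < g) : (1 - g) + Real.log g * u ≤ entR u := by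
  unfold entR
  rcases eq_or_lt_of_le hu0 with h | h
  · subst h; simp; linarith
  · -- u log(u/g) ≥ u - g  ⟸ log(g/u) ≤ g/u - 1
    have h1 : Real.log (g / u) ≤ g / u - 1 := Real.log_le_sub_one_of_pos (div_pos hg h)
    rw [Real.log_div hg.ne' h.ne'] at h1
    have h2 : u * (Real.log g - Real.log u) ≤ u * (g / u - 1) := mul_le_mul_of_nonneg_left h1 hu0
    have h3 : u * (g / u - 1) = g - u := by field_simp
    nlinarith

theorem entR_nonneg {u : ℝ} (hu0 : 0 ≤ u) : 0 ≤ entR u := by
  have := entR_ge hu0 (zero_lt_one)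
  simpa using this

end Crest.Agent.PR.GA
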