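import Mathlib

/-!
# Row 342, block (F), task F1: the classical (KL) lemma  (Raz lemma in Hellinger form)

`Z` = question pairs with law `π`; `w : Fin k → Z` i.i.d.; `φ w ∈ [0,1]` = P(W_C | w).
`h : Z → Lbl` a label.  `hell π h n g = ∑_l p_l (√G_l - √g)^2`, `p_l = π(h = l)`,
`p_l G_l = ∑_{h z = l} π z * n z`.
-/

namespace Crest.Agent.PR

open Finset

variable {Z Lbl : Type*} [Fintype Z] [DecidableEq Z] [Fintype Lbl] [DecidableEq Lbl]

/-- `p_l = π (h = l)` -/
noncomputable def lblP (π : Z → ℝ) (h : Z → Lbl) (l : Lbl) : ℝ :=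
  ∑ z ∈ univ.filter (fun z => h z = l), π z

/-- `G_l = (∑_{h z = l} π z * n z) / p_l` : conditional mean of `n` given the label -/
noncomputable def lblMean (π : Z → ℝ) (h : Z → Lbl) (n : Z → ℝ) (l : Lbl) : ℝ :=
  (∑ z ∈ univ.filter (fun z => h z = l), π z * n z) / lblP π h l

/-- `∑_l p_l (√G_l - √g)^2` -/
noncomputable def hell (π : Z → ℝ) (h : Z → Lbl) (n : Z → ℝ) (g : ℝ) : ℝ :=
  ∑ l, lblP π h l * (Real.sqrt (lblMean π h n l) - Real.sqrt g) ^ 2

theorem lblP_nonneg (π : Z → ℝ) (hπ0 : ∀ z, 0 ≤ π z) (h : Z → Lbl) (l : Lbl) :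
    0 ≤ lblP π h l :=
  Finset.sum_nonneg (fun z _ => hπ0 z)

theorem hell_nonneg (π : Z → ℝ) (hπ0 : ∀ z, 0 ≤ π z) (h : Z → Lbl) (n : Z → ℝ) (g : ℝ) :
    0 ≤ hell π h n g :=
  Finset.sum_nonneg (fun l _ => mul_nonneg (lblP_nonneg π hπ0 h l) (sq_nonneg _))

/-- scalar inequality `(√u - √g)^2 ≤ u log (u/g) - u + g` -/
theorem sqrt_sub_sq_le (u g : ℝ) (hu : 0 ≤ u) (hg : 0 < g) :
    (Real.sqrt u - Real.sqrt g) ^ 2 ≤ u * Real.log (u / g) - u + g := by
  rcases hu.eq_or_lt with rfl | hu'
  · simp [Real.sq_sqrt hg.le]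
  · have hsu : 0 < Real.sqrt u := Real.sqrt_pos.mpr hu'
    have hsg : 0 < Real.sqrt g := Real.sqrt_pos.mpr hg
    have h1 : Real.log (Real.sqrt g / Real.sqrt u) ≤ Real.sqrt g / Real.sqrt u - 1 :=
      Real.log_le_sub_one_of_pos (div_pos hsg hsu)
    have h2 : Real.log (Real.sqrt g / Real.sqrt u) = -(1 / 2) * Real.log (u / g) := by
      rw [Real.log_div hsg.ne' hsu.ne', Real.log_div hu'.ne' hg.ne', Real.log_sqrt hg.le,
        Real.log_sqrt hu'.le]
      ring
    rw [h2] at h1
    have h3 : u * (Real.sqrt g / Real.sqrt u) = Real.sqrt u * Real.sqrt g := by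
      have : u = Real.sqrt u * Real.sqrt u := (Real.mul_self_sqrt hu'.le).symm
      field_simp
      nlinarith [Real.mul_self_sqrt hu'.le]
    have h4 : u * (-(1 / 2) * Real.log (u / g)) ≤ u * (Real.sqrt g / Real.sqrt u - 1) :=
      mul_le_mul_of_nonneg_left h1 hu'.le
    have h5 : (Real.sqrt u - Real.sqrt g) ^ 2 = u - 2 * (Real.sqrt u * Real.sqrt g) + g := by
      have e1 := Real.sq_sqrt hu'.le
      have e2 := Real.sq_sqrt hg.le
      nlinarith
    rw [h5]
    nlinarith

theorem sum_lblP_mul (π : Z → ℝ) (h : Z → Lbl) (F : Lbl → ℝ) :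
    ∑ l, lblP π h l * F l = ∑ z, π z * F (h z) := by
  unfold lblP
  rw [← Finset.sum_fiberwise (s := univ) (g := h) (f := fun z => π z * F (h z))]
  refine Finset.sum_congr rfl (fun l _ => ?_)
  rw [Finset.sum_mul]
  refine Finset.sum_congr rfl (fun z hz => ?_)
  rw [(Finset.mem_filter.mp hz).2]

theorem lblP_mul_lblMean (π : Z → ℝ) (hπ0 : ∀ z, 0 ≤ π z) (h : Z → Lbl) (n : Z → ℝ) (l : Lbl) :
    lblP π h l * lblMean π h n l = ∑ z ∈ univ.filter (fun z => h z = l), π z * n z := by
  unfold lblMean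
  by_cases hp : lblP π h l = 0
  · rw [hp, zero_mul]
    symm
    apply Finset.sum_eq_zero
    intro z hz
    have : π z = 0 := (Finset.sum_eq_zero_iff_of_nonneg (fun z _ => hπ0 z)).mp hp z hz
    rw [this, zero_mul]
  · field_simp

/-- `∑_z π z G(h z) X(h z) = ∑_z π z n z X(h z)` -/
theorem sum_mul_lblMean_mul (π : Z → ℝ) (hπ0 : ∀ z, 0 ≤ π z) (h : Z → Lbl) (n : Z → ℝ)
    (X : Lbl → ℝ) :
    ∑ z, π z * (lblMean π h n (h z) * X (h z)) = ∑ z, π z * n z * X (h z) := by
  rw [← sum_lblP_mul π h (fun l => lblMean π h n l * X l)]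
  rw [← Finset.sum_fiberwise (s := univ) (g := h) (f := fun z => π z * n z * X (h z))]
  refine Finset.sum_congr rfl (fun l _ => ?_)
  rw [← mul_assoc, lblP_mul_lblMean π hπ0, Finset.sum_mul]
  refine Finset.sum_congr rfl (fun z hz => ?_)
  rw [(Finset.mem_filter.mp hz).2]

theorem lblMean_nonneg (π : Z → ℝ) (hπ0 : ∀ z, 0 ≤ π z) (h : Z → Lbl) (n : Z → ℝ)
    (hn : ∀ z, 0 ≤ π z * n z) (l : Lbl) : 0 ≤ lblMean π h n l :=
  div_nonneg (Finset.sum_nonneg (fun z _ => hn z)) (lblP_nonneg π hπ0 h l)

/-- (KL) of the blueprint.  `n j z` is (a version of) `E[φ | w_j = z]`. -/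
theorem kl_lemma {k : ℕ} (π : Z → ℝ) (hπ0 : ∀ z, 0 ≤ π z) (hπ1 : ∑ z, π z = 1)
    (φ : (Fin k → Z) → ℝ) (hφ0 : ∀ w, 0 ≤ φ w) (hφ1 : ∀ w, φ w ≤ 1) (h : Z → Lbl)
    (g : ℝ) (hg : g = ∑ w : Fin k → Z, (∏ i, π (w i)) * φ w)
    (n : Fin k → Z → ℝ)
    (hn : ∀ j z, π z * n j z
      = ∑ w ∈ univ.filter (fun w : Fin k → Z => w j = z), (∏ i, π (w i)) * φ w) :
    ∑ j, hell π h (n j) g ≤ g * Real.log (1 / g) := by
  classical
  set P : (Fin k → Z) → ℝ := fun w => ∏ i, π (w i) with hP
  set a : (Fin k → Z) → ℝ := fun w => P w * φ w with ha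
  have hP0 : ∀ w, 0 ≤ P w := fun w => Finset.prod_nonneg (fun i _ => hπ0 _)
  have ha0 : ∀ w, 0 ≤ a w := fun w => mul_nonneg (hP0 w) (hφ0 w)
  have hga : g = ∑ w, a w := hg
  have hg0 : 0 ≤ g := hga ▸ Finset.sum_nonneg (fun w _ => ha0 w)
  have hn' : ∀ j z, π z * n j z = ∑ w ∈ univ.filter (fun w : Fin k → Z => w j = z), a w := hn
  have hn0 : ∀ j z, 0 ≤ π z * n j z := fun j z => by
    rw [hn']; exact Finset.sum_nonneg (fun w _ => ha0 w)
  have htot : ∀ j, ∑ z, π z * n j z = g := by
    intro j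
    rw [hga, ← Finset.sum_fiberwise (s := univ) (g := fun w : Fin k → Z => w j) (f := a)]
    exact Finset.sum_congr rfl (fun z _ => hn' j z)
  rcases hg0.eq_or_lt with hg00 | hgpos
  · have hz0 : ∀ j, hell π h (n j) g = 0 := by
      intro j
      unfold hell
      apply Finset.sum_eq_zero
      intro l _
      have hz : ∀ z, π z * n j z = 0 := by
        intro z
        exact (Finset.sum_eq_zero_iff_of_nonneg (fun z _ => hn0 j z)).mp
          ((htot j).trans hg00.symm) z (mem_univ z)
      have hm : lblMean π h (n j) l = 0 := by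
        unfold lblMean
        rw [Finset.sum_eq_zero (fun z _ => hz z), zero_div]
      rw [hm, ← hg00]; simp
    rw [Finset.sum_eq_zero (fun j _ => hz0 j), ← hg00]; simp
  · set G : Fin k → Lbl → ℝ := fun j l => lblMean π h (n j) l with hG
    have hG0 : ∀ j l, 0 ≤ G j l := fun j l => lblMean_nonneg π hπ0 h (n j) (hn0 j) l
    have hGtot : ∀ j, ∑ z, π z * G j (h z) = g := by
      intro j
      have e4 := sum_mul_lblMean_mul π hπ0 h (n j) (fun _ => 1)
      simp only [mul_one] at e4
      rw [← htot j, ← e4]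
    have step1 : ∀ j, hell π h (n j) g ≤ ∑ z, π z * n j z * Real.log (G j (h z) / g) := by
      intro j
      have e1 : hell π h (n j) g
          ≤ ∑ l, lblP π h l * (G j l * Real.log (G j l / g) - G j l + g) :=
        Finset.sum_le_sum (fun l _ => mul_le_mul_of_nonneg_left
          (sqrt_sub_sq_le _ _ (hG0 j l) hgpos) (lblP_nonneg π hπ0 h l))
      have e2 : ∑ l, lblP π h l * (G j l * Real.log (G j l / g) - G j l + g)
          = ∑ z, π z * n j z * Real.log (G j (h z) / g) := by
        rw [sum_lblP_mul π h (fun l => G j l * Real.log (G j l / g) - G j l + g)]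
        have e3 := sum_mul_lblMean_mul π hπ0 h (n j) (fun l => Real.log (G j l / g))
        calc ∑ z, π z * (G j (h z) * Real.log (G j (h z) / g) - G j (h z) + g)
            = ∑ z, π z * (G j (h z) * Real.log (G j (h z) / g)) - ∑ z, π z * G j (h z)
                + (∑ z, π z) * g := by
              rw [Finset.sum_mul, ← Finset.sum_sub_distrib, ← Finset.sum_add_distrib]
              exact Finset.sum_congr rfl (fun z _ => by ring)
          _ = _ := by rw [e3, hGtot j, hπ1]; ring
      exact e1.trans e2.le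
    have step2 : ∀ j, ∑ z, π z * n j z * Real.log (G j (h z) / g)
        = ∑ w, a w * Real.log (G j (h (w j)) / g) := by
      intro j
      rw [← Finset.sum_fiberwise (s := univ) (g := fun w : Fin k → Z => w j)
        (f := fun w => a w * Real.log (G j (h (w j)) / g))]
      refine Finset.sum_congr rfl (fun z _ => ?_)
      rw [hn' j z, Finset.sum_mul]
      refine Finset.sum_congr rfl (fun w hw => ?_)
      rw [(Finset.mem_filter.mp hw).2]
    set c : Fin k → Z → ℝ := fun j z => G j (h z) / g with hc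
    have hc0 : ∀ j z, 0 ≤ c j z := fun j z => div_nonneg (hG0 j _) hg0
    have hcsum : ∀ j, ∑ z, π z * c j z = 1 := by
      intro j
      have e5 : ∑ z, π z * c j z = (∑ z, π z * G j (h z)) / g := by
        rw [Finset.sum_div]; exact Finset.sum_congr rfl (fun z _ => by simp only [hc]; ring)
      rw [e5, hGtot j, div_self hgpos.ne']
    set R : (Fin k → Z) → ℝ := fun w => ∏ j, (π (w j) * c j (w j)) with hR
    have hR0 : ∀ w, 0 ≤ R w :=
      fun w => Finset.prod_nonneg (fun j _ => mul_nonneg (hπ0 _) (hc0 _ _))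
    have hRsum : ∑ w, R w = 1 := by
      have e6 := Finset.prod_univ_sum (fun _ : Fin k => (univ : Finset Z))
        (fun j z => π z * c j z)
      rw [Fintype.piFinset_univ] at e6
      rw [← e6]
      exact Finset.prod_eq_one (fun j _ => hcsum j)
    have hcpos : ∀ w, 0 < a w → ∀ j, 0 < c j (w j) := by
      intro w hw j
      apply div_pos _ hgpos
      have hle : a w ≤ π (w j) * n j (w j) := by
        rw [hn']
        exact Finset.single_le_sum (f := a) (fun w' _ => ha0 w')
          (Finset.mem_filter.mpr ⟨mem_univ _, rfl⟩)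
      have hle2 : π (w j) * n j (w j) ≤ lblP π h (h (w j)) * G j (h (w j)) := by
        rw [lblP_mul_lblMean π hπ0]
        exact Finset.single_le_sum (f := fun z => π z * n j z) (fun z _ => hn0 j z)
          (Finset.mem_filter.mpr ⟨mem_univ _, rfl⟩)
      have hpos : 0 < lblP π h (h (w j)) * G j (h (w j)) := lt_of_lt_of_le hw (hle.trans hle2)
      exact (hG0 j _).lt_of_ne (fun h0 => by rw [← h0, mul_zero] at hpos; exact lt_irrefl _ hpos)
    have key : ∀ w, a w * (∑ j, Real.log (c j (w j)) - Real.log (φ w / g))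
        ≤ g * R w - a w := by
      intro w
      rcases (ha0 w).eq_or_lt with h0 | hpos
      · rw [← h0]; simpa using mul_nonneg hg0 (hR0 w)
      · have hPpos : 0 < P w := (hP0 w).lt_of_ne (fun h0 => by
          have : a w = 0 := by simp only [ha]; rw [← h0, zero_mul]
          exact hpos.ne' this)
        have hφpos : 0 < φ w := (hφ0 w).lt_of_ne (fun h0 => by
          have : a w = 0 := by simp only [ha]; rw [← h0, mul_zero]
          exact hpos.ne' this)
        have hRw : R w = P w * ∏ j, c j (w j) := by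
          simp only [hR, hP]; rw [Finset.prod_mul_distrib]
        have hx : g * R w / a w = (∏ j, c j (w j)) * (g / φ w) := by
          rw [hRw]; simp only [ha]
          field_simp
        have hprodpos : 0 < ∏ j, c j (w j) := Finset.prod_pos (fun j _ => hcpos w hpos j)
        have hlog : Real.log (g * R w / a w)
            = ∑ j, Real.log (c j (w j)) - Real.log (φ w / g) := by
          rw [hx, Real.log_mul hprodpos.ne' (div_pos hgpos hφpos).ne',
            Real.log_prod (fun j _ => (hcpos w hpos j).ne'), Real.log_div hgpos.ne' hφpos.ne',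
            Real.log_div hφpos.ne' hgpos.ne']
          ring
        have hxpos : 0 < g * R w / a w := by
          rw [hx]; exact mul_pos hprodpos (div_pos hgpos hφpos)
        have hl := Real.log_le_sub_one_of_pos hxpos
        rw [hlog] at hl
        calc a w * (∑ j, Real.log (c j (w j)) - Real.log (φ w / g))
            ≤ a w * (g * R w / a w - 1) := mul_le_mul_of_nonneg_left hl hpos.le
          _ = g * R w - a w := by field_simp
    have hsum : ∑ w, a w * (∑ j, Real.log (c j (w j)) - Real.log (φ w / g)) ≤ 0 := by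
      calc ∑ w, a w * (∑ j, Real.log (c j (w j)) - Real.log (φ w / g))
          ≤ ∑ w, (g * R w - a w) := Finset.sum_le_sum (fun w _ => key w)
        _ = g * ∑ w, R w - ∑ w, a w := by rw [Finset.sum_sub_distrib, Finset.mul_sum]
        _ = 0 := by rw [hRsum, ← hga]; ring
    have hφlog : ∑ w, a w * Real.log (φ w / g) ≤ g * Real.log (1 / g) := by
      have e7 : ∑ w, a w * Real.log (φ w / g) ≤ ∑ w, a w * Real.log (1 / g) := by
        refine Finset.sum_le_sum (fun w _ => ?_)
        rcases (ha0 w).eq_or_lt with h0 | hpos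
        · rw [← h0]; simp
        · have hφpos : 0 < φ w := (hφ0 w).lt_of_ne (fun h0 => by
            have : a w = 0 := by simp only [ha]; rw [← h0, mul_zero]
            exact hpos.ne' this)
          exact mul_le_mul_of_nonneg_left (Real.log_le_log (div_pos hφpos hgpos)
            (div_le_div_of_nonneg_right (hφ1 w) hgpos.le)) hpos.le
      rw [← Finset.sum_mul, ← hga] at e7
      exact e7
    calc ∑ j, hell π h (n j) g
        ≤ ∑ j, ∑ w, a w * Real.log (c j (w j)) :=
          Finset.sum_le_sum (fun j _ => (step1 j).trans (step2 j).le)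
      _ = ∑ w, a w * ∑ j, Real.log (c j (w j)) := by
          rw [Finset.sum_comm]
          exact Finset.sum_congr rfl (fun w _ => (Finset.mul_sum _ _ _).symm)
      _ = ∑ w, a w * (∑ j, Real.log (c j (w j)) - Real.log (φ w / g))
            + ∑ w, a w * Real.log (φ w / g) := by
          rw [← Finset.sum_add_distrib]
          exact Finset.sum_congr rfl (fun w _ => by ring)
      _ ≤ 0 + g * Real.log (1 / g) := add_le_add hsum hφlog
      _ = g * Real.log (1 / g) := zero_add _

end Crest.Agent.PR
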