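/-
ROW 342, project PR.  BLOCK (F1): classical lemma (KL), blueprint section 3 (KL).  Architect: helper89.
Task F5 (helper41): interface form `kl_labels` from the abstract `kl_lemma`.
-/
import Crest.Agent.PR_Defs
import Crest.Agent.PR_KLAbs
import Crest.Agent.PR_QfBasic

set_option autoImplicit false

namespace Crest.Agent.PR

open Crest.MathPhysics.NonlocalGame

variable {G : Game} {k dA dB : ℕ}

/-- `P(W_C | w)` as a function of the string of question pairs. -/
private noncomputable def klPhi (S : Strategy G k dA dB) (C : Finset (Fin k))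
    (w : Fin k → Fin G.nX × Fin G.nY) : ℝ :=
  ∑ a : Fin k → Fin G.nA, ∑ b : Fin k → Fin G.nB,
    if (∀ i ∈ C, G.accept (w i).1 (w i).2 (a i) (b i) = true)
      then S.answerProb (fun i => (w i).1) (fun i => (w i).2) a b else 0

private theorem klPhi_nonneg (S : Strategy G k dA dB) (C : Finset (Fin k))
    (w : Fin k → Fin G.nX × Fin G.nY) : 0 ≤ klPhi S C w := by
  unfold klPhi
  refine Finset.sum_nonneg fun a _ => Finset.sum_nonneg fun b _ => ?_
  split_ifs
  · exact answerProb_nonneg S _ _ a b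
  · exact le_rfl

private theorem klPhi_le_one (S : Strategy G k dA dB) (C : Finset (Fin k))
    (w : Fin k → Fin G.nX × Fin G.nY) : klPhi S C w ≤ 1 := by
  unfold klPhi
  rw [← sum_sum_answerProb S (fun i => (w i).1) (fun i => (w i).2)]
  refine Finset.sum_le_sum fun a _ => Finset.sum_le_sum fun b _ => ?_
  split_ifs
  · exact le_rfl
  · exact answerProb_nonneg S _ _ a b

/-- reindexing of a double sum over question strings as a sum over strings of pairs -/
private theorem kl_sum_reindex (F : (Fin k → Fin G.nX) → (Fin k → Fin G.nY) → ℝ) :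
    ∑ x : Fin k → Fin G.nX, ∑ y : Fin k → Fin G.nY, F x y
      = ∑ w : Fin k → Fin G.nX × Fin G.nY, F (fun i => (w i).1) (fun i => (w i).2) := by
  rw [← Fintype.sum_prod_type' (f := F)]
  exact (Equiv.sum_comp (Equiv.arrowProdEquivProdArrow (Fin k) (fun _ => Fin G.nX)
    (fun _ => Fin G.nY)) (fun p => F p.1 p.2)).symm

private theorem kl_pW_eq (S : Strategy G k dA dB) (C : Finset (Fin k)) :
    pW S C = ∑ w : Fin k → Fin G.nX × Fin G.nY,
      (∏ i, G.prob (w i).1 (w i).2) * klPhi S C w := by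
  unfold pW
  rw [kl_sum_reindex]
  rfl

private theorem kl_pWq_eq (S : Strategy G k dA dB) (C : Finset (Fin k)) (j : Fin k)
    (z : Fin G.nX × Fin G.nY) :
    pWq S C j z.1 z.2 = ∑ w ∈ Finset.univ.filter
        (fun w : Fin k → Fin G.nX × Fin G.nY => w j = z),
      (∏ i, G.prob (w i).1 (w i).2) * klPhi S C w := by
  unfold pWq
  rw [kl_sum_reindex, Finset.sum_filter]
  refine Finset.sum_congr rfl fun w _ => ?_
  by_cases hw : w j = z
  · have h1 : (w j).1 = z.1 ∧ (w j).2 = z.2 := by rw [hw]; exact ⟨rfl, rfl⟩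
    rw [if_pos h1, if_pos hw]
    rfl
  · have h1 : ¬ ((w j).1 = z.1 ∧ (w j).2 = z.2) := fun h => hw (Prod.ext h.1 h.2)
    rw [if_neg h1, if_neg hw, zero_mul]

/-- **(KL)**  For any labelling `h` of question pairs: the laws of the labels `h(w_j)`, `j ∉ C`, conditioned on `W_C`
are on average Hellinger-close to the prior. -/
theorem kl_labels (S : Strategy G k dA dB) (C : Finset (Fin k))
    {Lbl : Type} [Fintype Lbl] [DecidableEq Lbl] (h : Fin G.nX × Fin G.nY → Lbl) :
    ∑ j ∈ Cᶜ, ∑ l : Lbl,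
      (Real.sqrt (∑ w : Fin G.nX × Fin G.nY, if h w = l then pWq S C j w.1 w.2 else 0)
        - Real.sqrt ((∑ w : Fin G.nX × Fin G.nY, if h w = l then G.prob w.1 w.2 else 0) * pW S C)) ^ 2
      ≤ pW S C * Real.log (1 / pW S C) := by
  classical
  set π : Fin G.nX × Fin G.nY → ℝ := fun z => G.prob z.1 z.2 with hπ
  have hπ0 : ∀ z, 0 ≤ π z := fun z => G.prob_nonneg z.1 z.2
  have hπ1 : ∑ z, π z = 1 := by
    rw [Fintype.sum_prod_type]; exact G.prob_sum
  set n : Fin k → Fin G.nX × Fin G.nY → ℝ := fun j z => pWq S C j z.1 z.2 / π z with hn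
  have hpn : ∀ j z, π z * n j z = pWq S C j z.1 z.2 := by
    intro j z
    by_cases hz : π z = 0
    · rw [hz, zero_mul, kl_pWq_eq]
      symm
      refine Finset.sum_eq_zero fun w hw => ?_
      have hwj : w j = z := (Finset.mem_filter.mp hw).2
      have : ∏ i, G.prob (w i).1 (w i).2 = 0 :=
        Finset.prod_eq_zero (Finset.mem_univ j) (by rw [hwj]; exact hz)
      rw [this, zero_mul]
    · simp only [hn]
      field_simp
  have hmain := kl_lemma (k := k) π hπ0 hπ1 (klPhi S C) (klPhi_nonneg S C) (klPhi_le_one S C) h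
    (pW S C) (kl_pW_eq S C) n (fun j z => by rw [hpn, kl_pWq_eq])
  have hterm : ∀ j, ∑ l : Lbl,
      (Real.sqrt (∑ w : Fin G.nX × Fin G.nY, if h w = l then pWq S C j w.1 w.2 else 0)
        - Real.sqrt ((∑ w : Fin G.nX × Fin G.nY, if h w = l then G.prob w.1 w.2 else 0) * pW S C)) ^ 2
      = hell π h (n j) (pW S C) := by
    intro j
    unfold hell
    refine Finset.sum_congr rfl fun l _ => ?_
    have hp : (∑ w : Fin G.nX × Fin G.nY, if h w = l then G.prob w.1 w.2 else 0) = lblP π h l := by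
      unfold lblP; rw [Finset.sum_filter]
    have hm : (∑ w : Fin G.nX × Fin G.nY, if h w = l then pWq S C j w.1 w.2 else 0)
        = lblP π h l * lblMean π h (n j) l := by
      rw [lblP_mul_lblMean π hπ0, Finset.sum_filter]
      exact Finset.sum_congr rfl fun w _ => by rw [hpn]
    rw [hp, hm]
    have hp0 : 0 ≤ lblP π h l := lblP_nonneg π hπ0 h l
    rw [Real.sqrt_mul hp0, Real.sqrt_mul hp0, ← mul_sub, mul_pow, Real.sq_sqrt hp0]
  calc ∑ j ∈ Cᶜ, ∑ l : Lbl,
      (Real.sqrt (∑ w : Fin G.nX × Fin G.nY, if h w = l then pWq S C j w.1 w.2 else 0)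
        - Real.sqrt ((∑ w : Fin G.nX × Fin G.nY, if h w = l then G.prob w.1 w.2 else 0) * pW S C)) ^ 2
      = ∑ j ∈ Cᶜ, hell π h (n j) (pW S C) := Finset.sum_congr rfl fun j _ => hterm j
    _ ≤ ∑ j, hell π h (n j) (pW S C) :=
        Finset.sum_le_sum_of_subset_of_nonneg (Finset.subset_univ _)
          (fun j _ _ => hell_nonneg π hπ0 h (n j) _)
    _ ≤ pW S C * Real.log (1 / pW S C) := hmain

end Crest.Agent.PR
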