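import Mathlib

/-!
# Row 342, block (F), task F4: summation over the coordinates `j ∉ C` and AM-GM  => (OS-lin)
-/

namespace Crest.Agent.PR

open Finset

/-- weighted AM-GM: `2 a b ≤ (δ/c) a² + (c/δ) b²`. -/
private theorem two_mul_le_amgm (a b δ c : ℝ) (hδ : 0 < δ) (hc : 0 < c) :
    2 * a * b ≤ δ / c * a ^ 2 + c / δ * b ^ 2 := by
  have h : δ / c * a ^ 2 + c / δ * b ^ 2 - 2 * a * b = (δ * a - c * b) ^ 2 / (c * δ) := by
    field_simp
    ring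
  have h2 : 0 ≤ (δ * a - c * b) ^ 2 / (c * δ) := by positivity
  linarith

/-- from the one-coordinate bounds to (OS-lin) with `K = 21 (1+κ)/δ`. -/
theorem os_kappa_sum {ι : Type*} (J : Finset ι) (win H E2 : ι → ℝ) (g v δ κ U0 : ℝ)
    (hg0 : 0 ≤ g) (hg1 : g ≤ 1) (hδ0 : 0 < δ) (hδ1 : δ ≤ 1) (hκ : 0 ≤ κ) (hU0 : 0 ≤ U0)
    (hH0 : ∀ j ∈ J, 0 ≤ H j) (hE0 : ∀ j ∈ J, 0 ≤ E2 j)
    (hstep : ∀ j ∈ J, win j ≤ v * g + 2 * Real.sqrt g * Real.sqrt (H j) + H j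
      + 2 * Real.sqrt g * Real.sqrt (κ * E2 j))
    (hH : ∑ j ∈ J, H j ≤ g * Real.log (1 / g))
    (hE : ∑ j ∈ J, E2 j ≤ 2 * g * (2 * Real.log (1 / g) + U0)) :
    ∑ j ∈ J, win j ≤ g * ((J.card : ℝ) * (v + δ / 4)
      + 21 * (1 + κ) / δ * (Real.log (1 / g) + U0)) := by
  set L := Real.log (1 / g) with hL
  have hL0 : 0 ≤ L := by
    rcases hg0.eq_or_lt with h | h
    · rw [hL, ← h]; simp
    · apply Real.log_nonneg
      rw [le_div_iff₀ h]; linarith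
  -- pointwise bound
  have hpt : ∀ j ∈ J, win j ≤ g * (v + δ / 4) + (20 / δ + 1) * H j + 5 / δ * κ * E2 j := by
    intro j hj
    have h1 := two_mul_le_amgm (Real.sqrt g) (Real.sqrt (H j)) δ 20 hδ0 (by norm_num)
    have h2 := two_mul_le_amgm (Real.sqrt g) (Real.sqrt (κ * E2 j)) δ 5 hδ0 (by norm_num)
    rw [Real.sq_sqrt hg0, Real.sq_sqrt (hH0 j hj)] at h1
    rw [Real.sq_sqrt hg0, Real.sq_sqrt (mul_nonneg hκ (hE0 j hj))] at h2
    have h3 := hstep j hj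
    have e : g * (v + δ / 4) + (20 / δ + 1) * H j + 5 / δ * κ * E2 j
        = v * g + (δ / 20 * g + 20 / δ * H j) + H j + (δ / 5 * g + 5 / δ * (κ * E2 j)) := by
      ring
    rw [e]
    linarith
  have hsum : ∑ j ∈ J, win j
      ≤ (J.card : ℝ) * (g * (v + δ / 4)) + (20 / δ + 1) * ∑ j ∈ J, H j
        + 5 / δ * κ * ∑ j ∈ J, E2 j := by
    calc ∑ j ∈ J, win j
        ≤ ∑ j ∈ J, (g * (v + δ / 4) + (20 / δ + 1) * H j + 5 / δ * κ * E2 j) :=
          Finset.sum_le_sum hpt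
      _ = _ := by
          rw [Finset.sum_add_distrib, Finset.sum_add_distrib, Finset.sum_const, nsmul_eq_mul,
            Finset.mul_sum, Finset.mul_sum]
  -- `d = 1/δ ≥ 1`
  obtain ⟨d, hd⟩ : ∃ d : ℝ, d = 1 / δ := ⟨_, rfl⟩
  have hd1 : 1 ≤ d := by
    rw [hd, le_div_iff₀ hδ0]; linarith
  have e20 : 20 / δ = 20 * d := by rw [hd]; ring
  have e5 : 5 / δ = 5 * d := by rw [hd]; ring
  have e21 : 21 * (1 + κ) / δ = 21 * (1 + κ) * d := by rw [hd]; ring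
  rw [e20, e5] at hsum
  rw [e21]
  have hA : (20 * d + 1) * ∑ j ∈ J, H j ≤ (20 * d + 1) * (g * L) :=
    mul_le_mul_of_nonneg_left hH (by positivity)
  have hB : 5 * d * κ * ∑ j ∈ J, E2 j ≤ 5 * d * κ * (2 * g * (2 * L + U0)) :=
    mul_le_mul_of_nonneg_left hE (by positivity)
  have hfin : (20 * d + 1) * (g * L) + 5 * d * κ * (2 * g * (2 * L + U0))
      ≤ g * (21 * (1 + κ) * d * (L + U0)) := by
    have hgL : 0 ≤ g * L := mul_nonneg hg0 hL0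
    have hgU : 0 ≤ g * U0 := mul_nonneg hg0 hU0
    have hd0 : 0 ≤ d := by linarith
    have t1 : 0 ≤ (d - 1) * (g * L) := mul_nonneg (by linarith) hgL
    have t2 : 0 ≤ d * κ * (g * L) := by positivity
    have t3 : 0 ≤ d * κ * (g * U0) := by positivity
    have t4 : 0 ≤ d * (g * U0) := by positivity
    nlinarith [t1, t2, t3, t4]
  calc ∑ j ∈ J, win j
      ≤ (J.card : ℝ) * (g * (v + δ / 4)) + (20 * d + 1) * ∑ j ∈ J, H j
        + 5 * d * κ * ∑ j ∈ J, E2 j := hsum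
    _ ≤ (J.card : ℝ) * (g * (v + δ / 4)) + g * (21 * (1 + κ) * d * (L + U0)) := by linarith
    _ = _ := by ring

end Crest.Agent.PR
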