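import Crest.Agent.PR_KLAbs

/-!
# Row 342, block (F), task F3: one coordinate, abstract Hilbert-space form

`E` a real normed space, `f : Z → E` the post-selected (unnormalised) states, `q z : E → ℝ` the
quadratic form "probability of winning on question pair z".  `Θ_l` = conditional mean of `f` given
the label.
-/

namespace Crest.Agent.PR

open Finset

/-- weighted Cauchy-Schwarz -/
theorem ks_weighted_cs {ι : Type*} (s : Finset ι) (w a b : ι → ℝ) (hw : ∀ i ∈ s, 0 ≤ w i) :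
    ∑ i ∈ s, w i * (a i * b i)
      ≤ Real.sqrt (∑ i ∈ s, w i * a i ^ 2) * Real.sqrt (∑ i ∈ s, w i * b i ^ 2) := by
  have h := Finset.sum_mul_sq_le_sq_mul_sq s (fun i => Real.sqrt (w i) * a i)
    (fun i => Real.sqrt (w i) * b i)
  have e1 : ∑ i ∈ s, (Real.sqrt (w i) * a i) * (Real.sqrt (w i) * b i)
      = ∑ i ∈ s, w i * (a i * b i) := by
    apply Finset.sum_congr rfl
    intro i hi
    have := Real.mul_self_sqrt (hw i hi)
    calc (Real.sqrt (w i) * a i) * (Real.sqrt (w i) * b i)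
        = (Real.sqrt (w i) * Real.sqrt (w i)) * (a i * b i) := by ring
      _ = _ := by rw [this]
  have e2 : ∀ c : ι → ℝ, ∑ i ∈ s, (Real.sqrt (w i) * c i) ^ 2 = ∑ i ∈ s, w i * c i ^ 2 := by
    intro c
    apply Finset.sum_congr rfl
    intro i hi
    rw [mul_pow, Real.sq_sqrt (hw i hi)]
  rw [e1, e2, e2] at h
  have hA : 0 ≤ ∑ i ∈ s, w i * a i ^ 2 :=
    Finset.sum_nonneg (fun i hi => mul_nonneg (hw i hi) (sq_nonneg _))
  rw [← Real.sqrt_mul hA]
  exact (le_abs_self _).trans (Real.abs_le_sqrt h)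

variable {Z Lbl : Type*} [Fintype Z] [DecidableEq Z] [Fintype Lbl] [DecidableEq Lbl]

theorem ks_lblP_nonneg (π : Z → ℝ) (hπ0 : ∀ z, 0 ≤ π z) (h : Z → Lbl) (l : Lbl) :
    0 ≤ lblP π h l :=
  Finset.sum_nonneg (fun z _ => hπ0 z)

/-- sums of functions of the label -/
theorem ks_sum_mul_lbl (π : Z → ℝ) (h : Z → Lbl) (F : Lbl → ℝ) :
    ∑ z, π z * F (h z) = ∑ l, lblP π h l * F l := by
  rw [← Finset.sum_fiberwise univ h]
  apply Finset.sum_congr rfl
  intro l _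
  rw [lblP, Finset.sum_mul]
  apply Finset.sum_congr rfl
  intro z hz
  rw [(Finset.mem_filter.mp hz).2]

theorem ks_sum_lblP (π : Z → ℝ) (h : Z → Lbl) : ∑ l, lblP π h l = ∑ z, π z := by
  have := ks_sum_mul_lbl π h (fun _ => 1)
  simpa using this.symm

/-- `p_l G_l = ∑_{h z = l} π z n z` -/
theorem ks_lblP_mul_lblMean (π : Z → ℝ) (hπ0 : ∀ z, 0 ≤ π z) (h : Z → Lbl) (n : Z → ℝ) (l : Lbl) :
    lblP π h l * lblMean π h n l = ∑ z ∈ univ.filter (fun z => h z = l), π z * n z := by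
  by_cases hp : lblP π h l = 0
  · rw [hp, zero_mul]
    symm
    apply Finset.sum_eq_zero
    intro z hz
    have := (Finset.sum_eq_zero_iff_of_nonneg (fun z _ => hπ0 z)).mp hp z hz
    rw [this, zero_mul]
  · rw [lblMean, mul_div_cancel₀ _ hp]

theorem ks_lblMean_nonneg (π : Z → ℝ) (hπ0 : ∀ z, 0 ≤ π z) (h : Z → Lbl) (n : Z → ℝ)
    (hn : ∀ z, 0 ≤ n z) (l : Lbl) : 0 ≤ lblMean π h n l :=
  div_nonneg (Finset.sum_nonneg (fun z _ => mul_nonneg (hπ0 z) (hn z))) (ks_lblP_nonneg π hπ0 h l)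

/-- `∑_l p_l G_l = ∑_z π z n z` -/
theorem ks_sum_mul_lblMean (π : Z → ℝ) (hπ0 : ∀ z, 0 ≤ π z) (h : Z → Lbl) (n : Z → ℝ) :
    ∑ z, π z * lblMean π h n (h z) = ∑ z, π z * n z := by
  rw [ks_sum_mul_lbl π h (fun l => lblMean π h n l), ← Finset.sum_fiberwise univ h]
  apply Finset.sum_congr rfl
  intro l _
  exact ks_lblP_mul_lblMean π hπ0 h n l

variable {E : Type*} [SeminormedAddCommGroup E] [NormedSpace ℝ E]

/-- conditional mean of the vectors `f z` given the label -/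
noncomputable def lblVec (π : Z → ℝ) (h : Z → Lbl) (f : Z → E) (l : Lbl) : E :=
  (lblP π h l)⁻¹ • ∑ z ∈ univ.filter (fun z => h z = l), π z • f z

/-- Jensen: `‖Θ_l‖² ≤ G_l` -/
theorem norm_lblVec_sq_le (π : Z → ℝ) (hπ0 : ∀ z, 0 ≤ π z) (h : Z → Lbl) (f : Z → E) (l : Lbl) :
    ‖lblVec π h f l‖ ^ 2 ≤ lblMean π h (fun z => ‖f z‖ ^ 2) l := by
  have hp0 := ks_lblP_nonneg π hπ0 h l
  rcases hp0.eq_or_lt with hp | hp
  · rw [lblVec, lblMean, ← hp]
    simp
  · set s := univ.filter (fun z => h z = l) with hs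
    have h1 : ‖∑ z ∈ s, π z • f z‖ ≤ ∑ z ∈ s, π z * ‖f z‖ := by
      refine (norm_sum_le _ _).trans (le_of_eq ?_)
      apply Finset.sum_congr rfl
      intro z _
      rw [norm_smul, Real.norm_eq_abs, abs_of_nonneg (hπ0 z)]
    have h2 : (∑ z ∈ s, π z * ‖f z‖) ^ 2 ≤ lblP π h l * ∑ z ∈ s, π z * ‖f z‖ ^ 2 := by
      have := ks_weighted_cs s π (fun _ => 1) (fun z => ‖f z‖) (fun z _ => hπ0 z)
      simp only [one_mul, one_pow, mul_one] at this
      have hS0 : 0 ≤ ∑ z ∈ s, π z * ‖f z‖ :=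
        Finset.sum_nonneg (fun z _ => mul_nonneg (hπ0 z) (norm_nonneg _))
      have hT0 : 0 ≤ ∑ z ∈ s, π z * ‖f z‖ ^ 2 :=
        Finset.sum_nonneg (fun z _ => mul_nonneg (hπ0 z) (sq_nonneg _))
      calc (∑ z ∈ s, π z * ‖f z‖) ^ 2
          ≤ (Real.sqrt (∑ z ∈ s, π z) * Real.sqrt (∑ z ∈ s, π z * ‖f z‖ ^ 2)) ^ 2 :=
            pow_le_pow_left₀ hS0 this 2
        _ = _ := by
            rw [mul_pow, Real.sq_sqrt hT0, Real.sq_sqrt (Finset.sum_nonneg (fun z _ => hπ0 z))]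
            rfl
    have h3 : ‖lblVec π h f l‖ = (lblP π h l)⁻¹ * ‖∑ z ∈ s, π z • f z‖ := by
      rw [lblVec, norm_smul, Real.norm_eq_abs, abs_of_nonneg (inv_nonneg.mpr hp0)]
    rw [h3, lblMean, mul_pow]
    have h4 : ‖∑ z ∈ s, π z • f z‖ ^ 2 ≤ lblP π h l * ∑ z ∈ s, π z * ‖f z‖ ^ 2 :=
      (pow_le_pow_left₀ (norm_nonneg _) h1 2).trans h2
    calc (lblP π h l)⁻¹ ^ 2 * ‖∑ z ∈ s, π z • f z‖ ^ 2
        ≤ (lblP π h l)⁻¹ ^ 2 * (lblP π h l * ∑ z ∈ s, π z * ‖f z‖ ^ 2) :=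
          mul_le_mul_of_nonneg_left h4 (sq_nonneg _)
      _ = (∑ z ∈ s, π z * ‖f z‖ ^ 2) / lblP π h l := by
          field_simp

/-- `∑_l p_l (G_l - g)^+ ≤ 2 √g √H + H` -/
theorem sum_pos_part_le (π : Z → ℝ) (hπ0 : ∀ z, 0 ≤ π z) (hπ1 : ∑ z, π z = 1) (h : Z → Lbl)
    (n : Z → ℝ) (hn : ∀ z, 0 ≤ n z) (g : ℝ) (hg : 0 ≤ g) :
    ∑ z, π z * max (lblMean π h n (h z) - g) 0
      ≤ 2 * Real.sqrt g * Real.sqrt (hell π h n g) + hell π h n g := by
  rw [ks_sum_mul_lbl π h (fun l => max (lblMean π h n l - g) 0)]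
  set p := lblP π h with hp
  set d : Lbl → ℝ := fun l => Real.sqrt (lblMean π h n l) - Real.sqrt g with hd
  have hp0 : ∀ l, 0 ≤ p l := ks_lblP_nonneg π hπ0 h
  have hH : hell π h n g = ∑ l, p l * d l ^ 2 := rfl
  have hpt : ∀ l, max (lblMean π h n l - g) 0 ≤ 2 * Real.sqrt g * (1 * |d l|) + d l ^ 2 := by
    intro l
    have hG := ks_lblMean_nonneg π hπ0 h n hn l
    have e : lblMean π h n l - g = 2 * Real.sqrt g * d l + d l ^ 2 := by
      have h1 := Real.sq_sqrt hG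
      have h2 := Real.sq_sqrt hg
      simp only [hd]
      nlinarith
    have hb := Real.sqrt_nonneg g
    apply max_le
    · rw [e]
      have := mul_le_mul_of_nonneg_left (le_abs_self (d l)) (mul_nonneg zero_le_two hb)
      linarith
    · have := mul_nonneg (mul_nonneg zero_le_two hb) (abs_nonneg (d l))
      nlinarith [sq_nonneg (d l)]
  have hcs := ks_weighted_cs univ p (fun _ => 1) (fun l => |d l|) (fun l _ => hp0 l)
  simp only [one_pow, mul_one, sq_abs] at hcs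
  have hsum1 : ∑ l, p l = 1 := by rw [hp, ks_sum_lblP, hπ1]
  rw [hsum1, Real.sqrt_one, one_mul, ← hH] at hcs
  calc ∑ l, p l * max (lblMean π h n l - g) 0
      ≤ ∑ l, p l * (2 * Real.sqrt g * (1 * |d l|) + d l ^ 2) :=
        Finset.sum_le_sum (fun l _ => mul_le_mul_of_nonneg_left (hpt l) (hp0 l))
    _ = 2 * Real.sqrt g * ∑ l, p l * (1 * |d l|) + ∑ l, p l * d l ^ 2 := by
        rw [Finset.mul_sum, ← Finset.sum_add_distrib]
        apply Finset.sum_congr rfl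
        intro l _
        ring
    _ ≤ 2 * Real.sqrt g * Real.sqrt (hell π h n g) + hell π h n g := by
        rw [← hH]
        have := mul_le_mul_of_nonneg_left hcs (mul_nonneg zero_le_two (Real.sqrt_nonneg g))
        linarith

/-- ONE COORDINATE, abstract form. -/
theorem kappa_step_abstract (π : Z → ℝ) (hπ0 : ∀ z, 0 ≤ π z) (hπ1 : ∑ z, π z = 1) (h : Z → Lbl)
    (f : Z → E) (q : Z → E → ℝ)
    (hq0 : ∀ z u, 0 ≤ q z u) (hq1 : ∀ z u, q z u ≤ ‖u‖ ^ 2)
    (hqs : ∀ z (c : ℝ) u, q z (c • u) = c ^ 2 * q z u)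
    (hpert : ∀ z u u', q z u ≤ q z u' + ‖u - u'‖ * (‖u‖ + ‖u'‖))
    (v : ℝ) (hVC : ∀ θ : Lbl → E, (∀ l, ‖θ l‖ = 1) → ∑ z, π z * q z (θ (h z)) ≤ v)
    (g : ℝ) (hg : g = ∑ z, π z * ‖f z‖ ^ 2)
    (D : ℝ) (hD : ∑ z, π z * ‖f z - lblVec π h f (h z)‖ ^ 2 ≤ D) :
    ∑ z, π z * q z (f z) ≤ v * g
      + 2 * Real.sqrt g * Real.sqrt (hell π h (fun z => ‖f z‖ ^ 2) g)
      + hell π h (fun z => ‖f z‖ ^ 2) g + 2 * Real.sqrt g * Real.sqrt D := by
  set n : Z → ℝ := fun z => ‖f z‖ ^ 2 with hn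
  set Θ : Lbl → E := lblVec π h f with hΘ
  set H := hell π h n g with hH
  have hn0 : ∀ z, 0 ≤ n z := fun z => sq_nonneg _
  have hg0 : 0 ≤ g := by
    rw [hg]; exact Finset.sum_nonneg (fun z _ => mul_nonneg (hπ0 z) (sq_nonneg _))
  have hH0 : 0 ≤ H :=
    Finset.sum_nonneg (fun l _ => mul_nonneg (ks_lblP_nonneg π hπ0 h l) (sq_nonneg _))
  have hΘG : ∀ l, ‖Θ l‖ ^ 2 ≤ lblMean π h n l := norm_lblVec_sq_le π hπ0 h f
  have hD0 : 0 ≤ D := le_trans
    (Finset.sum_nonneg (fun z _ => mul_nonneg (hπ0 z) (sq_nonneg _))) hD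
  -- `∑ π ‖Θ‖² ≤ g`
  have hΘg : ∑ z, π z * ‖Θ (h z)‖ ^ 2 ≤ g := by
    calc ∑ z, π z * ‖Θ (h z)‖ ^ 2 ≤ ∑ z, π z * lblMean π h n (h z) :=
          Finset.sum_le_sum (fun z _ => mul_le_mul_of_nonneg_left (hΘG _) (hπ0 z))
      _ = g := by rw [ks_sum_mul_lblMean π hπ0 h n, hg]
  -- the perturbation term
  have hP : ∑ z, π z * (‖f z - Θ (h z)‖ * (‖f z‖ + ‖Θ (h z)‖))
      ≤ 2 * Real.sqrt g * Real.sqrt D := by
    have hcs := ks_weighted_cs univ π (fun z => ‖f z - Θ (h z)‖)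
      (fun z => ‖f z‖ + ‖Θ (h z)‖) (fun z _ => hπ0 z)
    have h2 : ∑ z, π z * (‖f z‖ + ‖Θ (h z)‖) ^ 2 ≤ 4 * g := by
      calc ∑ z, π z * (‖f z‖ + ‖Θ (h z)‖) ^ 2
          ≤ ∑ z, (2 * (π z * ‖f z‖ ^ 2) + 2 * (π z * ‖Θ (h z)‖ ^ 2)) := by
            apply Finset.sum_le_sum
            intro z _
            have : (‖f z‖ + ‖Θ (h z)‖) ^ 2 ≤ 2 * ‖f z‖ ^ 2 + 2 * ‖Θ (h z)‖ ^ 2 := by
              nlinarith [sq_nonneg (‖f z‖ - ‖Θ (h z)‖)]
            have := mul_le_mul_of_nonneg_left this (hπ0 z)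
            linarith
        _ = 2 * ∑ z, π z * ‖f z‖ ^ 2 + 2 * ∑ z, π z * ‖Θ (h z)‖ ^ 2 := by
            rw [Finset.sum_add_distrib, Finset.mul_sum, Finset.mul_sum]
        _ ≤ 4 * g := by rw [← hg]; linarith
    have h3 : Real.sqrt (∑ z, π z * (‖f z‖ + ‖Θ (h z)‖) ^ 2) ≤ 2 * Real.sqrt g := by
      calc Real.sqrt (∑ z, π z * (‖f z‖ + ‖Θ (h z)‖) ^ 2) ≤ Real.sqrt (4 * g) :=
            Real.sqrt_le_sqrt h2
        _ = 2 * Real.sqrt g := by
            rw [Real.sqrt_mul (by norm_num : (0:ℝ) ≤ 4),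
              show (4:ℝ) = 2 ^ 2 by norm_num, Real.sqrt_sq (by norm_num : (0:ℝ) ≤ 2)]
    calc ∑ z, π z * (‖f z - Θ (h z)‖ * (‖f z‖ + ‖Θ (h z)‖))
        ≤ Real.sqrt (∑ z, π z * ‖f z - Θ (h z)‖ ^ 2)
          * Real.sqrt (∑ z, π z * (‖f z‖ + ‖Θ (h z)‖) ^ 2) := hcs
      _ ≤ Real.sqrt D * (2 * Real.sqrt g) :=
          mul_le_mul (Real.sqrt_le_sqrt hD) h3 (Real.sqrt_nonneg _) (Real.sqrt_nonneg _)
      _ = _ := by ring
  -- the main term
  have hM : ∑ z, π z * q z (Θ (h z)) ≤ v * g + (2 * Real.sqrt g * Real.sqrt H + H) := by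
    by_cases hex : ∃ e : E, ‖e‖ = 1
    · obtain ⟨e0, he0⟩ := hex
      classical
      set θ : Lbl → E := fun l => if ‖Θ l‖ = 0 then e0 else (‖Θ l‖)⁻¹ • Θ l with hθ
      have hθ1 : ∀ l, ‖θ l‖ = 1 := by
        intro l
        by_cases hl : ‖Θ l‖ = 0
        · simp only [hθ, if_pos hl, he0]
        · simp only [hθ, if_neg hl]
          rw [norm_smul, norm_inv, norm_norm, inv_mul_cancel₀ hl]
      have hqΘ : ∀ z l, q z (Θ l) = ‖Θ l‖ ^ 2 * q z (θ l) := by
        intro z l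
        by_cases hl : ‖Θ l‖ = 0
        · have h1 := hq1 z (Θ l)
          have h0 := hq0 z (Θ l)
          rw [hl] at h1 ⊢
          have : q z (Θ l) = 0 := le_antisymm (by simpa using h1) h0
          rw [this]; simp
        · have : Θ l = ‖Θ l‖ • θ l := by
            simp only [hθ, if_neg hl]
            rw [smul_smul, mul_inv_cancel₀ hl, one_smul]
          conv_lhs => rw [this]
          rw [hqs]
      have hqθ1 : ∀ z l, q z (θ l) ≤ 1 := by
        intro z l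
        have := hq1 z (θ l)
        rw [hθ1 l] at this
        simpa using this
      have hv := hVC θ hθ1
      have hpp := sum_pos_part_le π hπ0 hπ1 h n hn0 g hg0
      calc ∑ z, π z * q z (Θ (h z))
          ≤ ∑ z, (g * (π z * q z (θ (h z))) + π z * max (lblMean π h n (h z) - g) 0) := by
            apply Finset.sum_le_sum
            intro z _
            rw [hqΘ]
            have hq := hq0 z (θ (h z))
            have hq' := hqθ1 z (h z)
            have hmax0 : 0 ≤ max (lblMean π h n (h z) - g) 0 := le_max_right _ _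
            have hmax1 : lblMean π h n (h z) - g ≤ max (lblMean π h n (h z) - g) 0 :=
              le_max_left _ _
            have h1 : ‖Θ (h z)‖ ^ 2 ≤ g + max (lblMean π h n (h z) - g) 0 := by
              have := hΘG (h z); linarith
            have h2 : ‖Θ (h z)‖ ^ 2 * q z (θ (h z))
                ≤ g * q z (θ (h z)) + max (lblMean π h n (h z) - g) 0 := by
              calc ‖Θ (h z)‖ ^ 2 * q z (θ (h z))
                  ≤ (g + max (lblMean π h n (h z) - g) 0) * q z (θ (h z)) :=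
                    mul_le_mul_of_nonneg_right h1 hq
                _ = g * q z (θ (h z)) + max (lblMean π h n (h z) - g) 0 * q z (θ (h z)) := by
                    ring
                _ ≤ g * q z (θ (h z)) + max (lblMean π h n (h z) - g) 0 * 1 := by
                    have := mul_le_mul_of_nonneg_left hq' hmax0
                    linarith
                _ = _ := by ring
            have := mul_le_mul_of_nonneg_left h2 (hπ0 z)
            linarith
        _ = g * ∑ z, π z * q z (θ (h z)) + ∑ z, π z * max (lblMean π h n (h z) - g) 0 := by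
            rw [Finset.sum_add_distrib, Finset.mul_sum]
        _ ≤ g * v + (2 * Real.sqrt g * Real.sqrt H + H) :=
            add_le_add (mul_le_mul_of_nonneg_left hv hg0) hpp
        _ = _ := by ring
    · -- every vector has norm zero
      have hz : ∀ u : E, ‖u‖ = 0 := by
        intro u
        by_contra hu
        apply hex
        refine ⟨(‖u‖)⁻¹ • u, ?_⟩
        rw [norm_smul, norm_inv, norm_norm, inv_mul_cancel₀ hu]
      have hgz : g = 0 := by
        rw [hg]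
        apply Finset.sum_eq_zero
        intro z _
        rw [hz]; simp
      have hl : ∑ z, π z * q z (Θ (h z)) ≤ 0 := by
        apply Finset.sum_nonpos
        intro z _
        have := hq1 z (Θ (h z))
        rw [hz] at this
        have h0 : q z (Θ (h z)) ≤ 0 := by simpa using this
        exact mul_nonpos_of_nonneg_of_nonpos (hπ0 z) h0
      rw [hgz]
      simp only [mul_zero, Real.sqrt_zero, zero_mul, zero_add]
      exact hl.trans hH0
  calc ∑ z, π z * q z (f z)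
      ≤ ∑ z, (π z * q z (Θ (h z)) + π z * (‖f z - Θ (h z)‖ * (‖f z‖ + ‖Θ (h z)‖))) := by
        apply Finset.sum_le_sum
        intro z _
        have := mul_le_mul_of_nonneg_left (hpert z (f z) (Θ (h z))) (hπ0 z)
        linarith
    _ = ∑ z, π z * q z (Θ (h z)) + ∑ z, π z * (‖f z - Θ (h z)‖ * (‖f z‖ + ‖Θ (h z)‖)) :=
        Finset.sum_add_distrib
    _ ≤ _ := by linarith

end Crest.Agent.PR
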