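import Crest.Prelude.Def_NonlocalGame
import Crest.Agent.PR_KappaStep

/-!
# Row 342, block (F), task F2: canonical-path Poincare inequality on the support graph
(lossy constants: `κ` instead of `κ/4`; there is a lot of slack.)
-/

namespace Crest.Agent.PR

open Finset Crest.MathPhysics.NonlocalGame

variable {E : Type*} [SeminormedAddCommGroup E] [NormedSpace ℝ E]

/-- the question law as a function on pairs -/
def qlaw (G : Game) (z : Fin G.nX × Fin G.nY) : ℝ := G.prob z.1 z.2

theorem qlaw_nonneg (G : Game) (z) : 0 ≤ qlaw G z := G.prob_nonneg _ _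

theorem qlaw_sum (G : Game) : ∑ z, qlaw G z = 1 := by
  rw [Fintype.sum_prod_type]
  exact G.prob_sum

/-- the hypothesis of S0537 -/
def KappaHyp (G : Game) (κ : ℝ) : Prop :=
  ∀ z : Fin G.nX × Fin G.nY, 0 < G.prob z.1 z.2 → ∀ w ∈ G.supportComponent z,
      8 * ((G.supportComponent z).card - 1 : ℝ) * (∑ u ∈ G.supportComponent z, G.prob u.1 u.2)
        ≤ κ * G.prob w.1 w.2

theorem mem_supportComponent (G : Game) (z w : Fin G.nX × Fin G.nY) :
    w ∈ G.supportComponent z ↔ G.supportGraph.Reachable z w := by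
  unfold Game.supportComponent
  simp

theorem self_mem_supportComponent (G : Game) (z : Fin G.nX × Fin G.nY) :
    z ∈ G.supportComponent z := (mem_supportComponent G z z).2 (SimpleGraph.Reachable.refl z)

theorem one_le_card_supportComponent (G : Game) (z : Fin G.nX × Fin G.nY) :
    (1 : ℝ) ≤ ((G.supportComponent z).card : ℝ) := by
  have : 0 < (G.supportComponent z).card := Finset.card_pos.mpr ⟨z, self_mem_supportComponent G z⟩
  exact_mod_cast this

theorem kappa_nonneg (G : Game) (κ : ℝ) (hκ : KappaHyp G κ) : 0 ≤ κ := by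
  have hex : ∃ z, 0 < qlaw G z := by
    by_contra hcon
    push Not at hcon
    have h0 : ∑ z, qlaw G z ≤ 0 := Finset.sum_nonpos (fun z _ => hcon z)
    rw [qlaw_sum] at h0
    linarith
  obtain ⟨z, hz⟩ := hex
  have h := hκ z hz z (self_mem_supportComponent G z)
  have h1 := one_le_card_supportComponent G z
  have h2 : 0 ≤ ∑ u ∈ G.supportComponent z, G.prob u.1 u.2 :=
    Finset.sum_nonneg (fun u _ => G.prob_nonneg _ _)
  have h3 : 0 ≤ 8 * ((G.supportComponent z).card - 1 : ℝ) *
      (∑ u ∈ G.supportComponent z, G.prob u.1 u.2) :=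
    mul_nonneg (by linarith) h2
  have h4 : 0 ≤ κ * G.prob z.1 z.2 := h3.trans h
  by_contra hneg
  push Not at hneg
  have : κ * G.prob z.1 z.2 < 0 := mul_neg_of_neg_of_pos hneg hz
  linarith

/-- fibres of the label `supportComponent` are the components -/
theorem supportComponent_eq_iff (G : Game) (z w : Fin G.nX × Fin G.nY) :
    G.supportComponent w = G.supportComponent z ↔ w ∈ G.supportComponent z := by
  constructor
  · intro h
    rw [← h]
    exact self_mem_supportComponent G w
  · intro h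
    rw [mem_supportComponent] at h
    ext u
    rw [mem_supportComponent, mem_supportComponent]
    exact ⟨fun h' => h.trans h', fun h' => h.symm.trans h'⟩

/-- all members of the component of a positive pair are positive -/
theorem pos_of_mem_supportComponent (G : Game) (z w : Fin G.nX × Fin G.nY)
    (hz : 0 < qlaw G z) (hw : w ∈ G.supportComponent z) : 0 < qlaw G w := by
  rw [mem_supportComponent, SimpleGraph.reachable_iff_reflTransGen] at hw
  induction hw with
  | refl => exact hz
  | tail _ hadj _ => exact hadj.2.2.1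

/-- two pairs of positive probability with the same first (second) question have the same
component -/
theorem supportComponent_eq_of_fst (G : Game) (z w : Fin G.nX × Fin G.nY)
    (hz : 0 < qlaw G z) (hw : 0 < qlaw G w) (h : z.1 = w.1) :
    G.supportComponent z = G.supportComponent w := by
  by_cases hzw : z = w
  · rw [hzw]
  · rw [supportComponent_eq_iff, mem_supportComponent]
    exact (SimpleGraph.Adj.reachable (G := G.supportGraph) ⟨hzw, hz, hw, Or.inl h⟩).symm

theorem supportComponent_eq_of_snd (G : Game) (z w : Fin G.nX × Fin G.nY)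
    (hz : 0 < qlaw G z) (hw : 0 < qlaw G w) (h : z.2 = w.2) :
    G.supportComponent z = G.supportComponent w := by
  by_cases hzw : z = w
  · rw [hzw]
  · rw [supportComponent_eq_iff, mem_supportComponent]
    exact (SimpleGraph.Adj.reachable (G := G.supportGraph) ⟨hzw, hz, hw, Or.inr h⟩).symm

theorem walk_bound (G : Game) (f : Fin G.nX × Fin G.nY → E)
    (gA : Fin G.nX → E) (gB : Fin G.nY → E) (s : Fin G.nX × Fin G.nY → ℝ)
    (hsA : ∀ u, ‖f u - gA u.1‖ ≤ s u) (hsB : ∀ u, ‖f u - gB u.2‖ ≤ s u)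
    {a b : Fin G.nX × Fin G.nY} (p : G.supportGraph.Walk a b) :
    ‖f a - f b‖ + s a + s b ≤ 2 * (p.support.map s).sum := by
  induction p with
  | nil => simp; linarith
  | @cons u v w hadj p ih =>
    have h1 : ‖f u - f v‖ ≤ s u + s v := by
      rcases hadj.2.2.2 with h | h
      · calc ‖f u - f v‖ = ‖(f u - gA u.1) - (f v - gA v.1)‖ := by rw [h]; congr 1; abel
          _ ≤ ‖f u - gA u.1‖ + ‖f v - gA v.1‖ := norm_sub_le _ _
          _ ≤ s u + s v := add_le_add (hsA u) (hsA v)
      · calc ‖f u - f v‖ = ‖(f u - gB u.2) - (f v - gB v.2)‖ := by rw [h]; congr 1; abel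
          _ ≤ ‖f u - gB u.2‖ + ‖f v - gB v.2‖ := norm_sub_le _ _
          _ ≤ s u + s v := add_le_add (hsB u) (hsB v)
    have h2 : ‖f u - f w‖ ≤ ‖f u - f v‖ + ‖f v - f w‖ := by
      calc ‖f u - f w‖ = ‖(f u - f v) + (f v - f w)‖ := by congr 1; abel
        _ ≤ _ := norm_add_le _ _
    simp only [SimpleGraph.Walk.support_cons, List.map_cons, List.sum_cons]
    linarith

/-- path bound -/
theorem norm_sub_le_of_mem_component (G : Game) (f : Fin G.nX × Fin G.nY → E)
    (gA : Fin G.nX → E) (gB : Fin G.nY → E) (s : Fin G.nX × Fin G.nY → ℝ)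
    (hsA : ∀ u, ‖f u - gA u.1‖ ≤ s u) (hsB : ∀ u, ‖f u - gB u.2‖ ≤ s u)
    (z w w' : Fin G.nX × Fin G.nY) (hw : w ∈ G.supportComponent z)
    (hw' : w' ∈ G.supportComponent z) :
    ‖f w - f w'‖ ≤ 2 * ∑ u ∈ G.supportComponent z, s u := by
  have hs0 : ∀ u, 0 ≤ s u := fun u => (norm_nonneg _).trans (hsA u)
  rw [mem_supportComponent] at hw hw'
  obtain ⟨p, hp⟩ := (hw.symm.trans hw').exists_isPath
  have h1 := walk_bound G f gA gB s hsA hsB p
  have h2 : (p.support.map s).sum = ∑ u ∈ p.support.toFinset, s u :=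
    (List.sum_toFinset s hp.support_nodup).symm
  have h3 : ∑ u ∈ p.support.toFinset, s u ≤ ∑ u ∈ G.supportComponent z, s u := by
    refine Finset.sum_le_sum_of_subset_of_nonneg ?_ (fun u _ _ => hs0 u)
    intro u hu
    rw [List.mem_toFinset] at hu
    rw [mem_supportComponent]
    exact hw.trans (p.takeUntil u hu).reachable
  have := hs0 w
  have := hs0 w'
  linarith


theorem filter_supportComponent (G : Game) (z : Fin G.nX × Fin G.nY) :
    univ.filter (fun w => G.supportComponent w = G.supportComponent z) = G.supportComponent z := by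
  ext w
  simp [supportComponent_eq_iff]

theorem poincare_point (G : Game) (κ : ℝ) (hκ : KappaHyp G κ)
    (f : Fin G.nX × Fin G.nY → E) (gA : Fin G.nX → E) (gB : Fin G.nY → E)
    (z : Fin G.nX × Fin G.nY) (hz : 0 < qlaw G z) :
    ‖f z - lblVec (qlaw G) G.supportComponent f (G.supportComponent z)‖ ^ 2 ≤
      κ * lblMean (qlaw G) G.supportComponent
        (fun u => ‖f u - gA u.1‖ ^ 2 + ‖f u - gB u.2‖ ^ 2) (G.supportComponent z) := by
  have hκ0 := kappa_nonneg G κ hκ
  set e : Fin G.nX × Fin G.nY → ℝ := fun u => ‖f u - gA u.1‖ ^ 2 + ‖f u - gB u.2‖ ^ 2 with he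
  have he0 : ∀ u, 0 ≤ e u := fun u => by positivity
  set c := G.supportComponent z with hc
  have hzc : z ∈ c := self_mem_supportComponent G z
  have hp : lblP (qlaw G) G.supportComponent c = ∑ w ∈ c, qlaw G w := by
    unfold lblP; rw [hc, filter_supportComponent]
  set p := ∑ w ∈ c, qlaw G w with hpdef
  have hp0 : 0 < p :=
    lt_of_lt_of_le hz (Finset.single_le_sum (f := qlaw G) (fun w _ => qlaw_nonneg G w) hzc)
  have hM : lblMean (qlaw G) G.supportComponent e c = (∑ w ∈ c, qlaw G w * e w) / p := by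
    unfold lblMean; rw [hp, hc, filter_supportComponent]
  have hΘ : f z - lblVec (qlaw G) G.supportComponent f c
      = p⁻¹ • ∑ w ∈ c, qlaw G w • (f z - f w) := by
    unfold lblVec
    rw [hp, hc, filter_supportComponent, ← hc]
    simp only [smul_sub]
    rw [Finset.sum_sub_distrib, ← Finset.sum_smul, ← hpdef, smul_sub, smul_smul,
      inv_mul_cancel₀ hp0.ne', one_smul]
  have hMnn : 0 ≤ (∑ w ∈ c, qlaw G w * e w) / p :=
    div_nonneg (Finset.sum_nonneg fun w _ => mul_nonneg (qlaw_nonneg G w) (he0 w)) hp0.le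
  rw [hM, hΘ]
  by_cases hcard : c.card = 1
  · -- singleton component
    obtain ⟨a, ha⟩ := Finset.card_eq_one.mp hcard
    have hza : z = a := by rw [ha] at hzc; simpa using hzc
    rw [ha, Finset.sum_singleton, ← hza]
    simp only [sub_self, smul_zero, norm_zero]
    have : 0 ≤ κ * ((∑ w ∈ c, qlaw G w * e w) / p) := mul_nonneg hκ0 hMnn
    rw [ha, Finset.sum_singleton, ← hza] at this
    simpa using this
  · have hcard2 : (2 : ℝ) ≤ (c.card : ℝ) := by
      have h1 : 0 < c.card := Finset.card_pos.mpr ⟨z, hzc⟩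
      have : 2 ≤ c.card := by omega
      exact_mod_cast this
    set s : Fin G.nX × Fin G.nY → ℝ := fun u => Real.sqrt (e u) with hs
    have hsA : ∀ u, ‖f u - gA u.1‖ ≤ s u := fun u =>
      Real.le_sqrt_of_sq_le (by simp only [he]; nlinarith [sq_nonneg ‖f u - gB u.2‖])
    have hsB : ∀ u, ‖f u - gB u.2‖ ≤ s u := fun u =>
      Real.le_sqrt_of_sq_le (by simp only [he]; nlinarith [sq_nonneg ‖f u - gA u.1‖])
    set B := 2 * ∑ u ∈ c, s u with hB
    have hB0 : 0 ≤ B := by
      have : 0 ≤ ∑ u ∈ c, s u := Finset.sum_nonneg fun u _ => Real.sqrt_nonneg _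
      positivity
    have hnorm : ‖p⁻¹ • ∑ w ∈ c, qlaw G w • (f z - f w)‖ ≤ B := by
      rw [norm_smul, Real.norm_eq_abs, abs_of_pos (inv_pos.mpr hp0)]
      have h1 : ‖∑ w ∈ c, qlaw G w • (f z - f w)‖ ≤ ∑ w ∈ c, qlaw G w * B := by
        refine (norm_sum_le _ _).trans (Finset.sum_le_sum fun w hw => ?_)
        rw [norm_smul, Real.norm_eq_abs, abs_of_nonneg (qlaw_nonneg G w)]
        exact mul_le_mul_of_nonneg_left
          (norm_sub_le_of_mem_component G f gA gB s hsA hsB z z w hzc hw) (qlaw_nonneg G w)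
      rw [← Finset.sum_mul, ← hpdef] at h1
      calc p⁻¹ * ‖∑ w ∈ c, qlaw G w • (f z - f w)‖ ≤ p⁻¹ * (p * B) :=
            mul_le_mul_of_nonneg_left h1 (inv_pos.mpr hp0).le
        _ = B := by field_simp
    have hsq : ‖p⁻¹ • ∑ w ∈ c, qlaw G w • (f z - f w)‖ ^ 2 ≤ B ^ 2 :=
      pow_le_pow_left₀ (norm_nonneg _) hnorm 2
    have hCS : (∑ u ∈ c, s u) ^ 2 ≤ (c.card : ℝ) * ∑ u ∈ c, e u := by
      have := sq_sum_le_card_mul_sum_sq (s := c) (f := s)
      have h2 : ∑ u ∈ c, s u ^ 2 = ∑ u ∈ c, e u :=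
        Finset.sum_congr rfl fun u _ => Real.sq_sqrt (he0 u)
      rw [h2] at this
      exact this
    have hterm : ∀ u ∈ c, 4 * (c.card : ℝ) * p * e u ≤ κ * (qlaw G u * e u) := by
      intro u hu
      have h1 := hκ z hz u hu
      have h2 : 4 * (c.card : ℝ) * p ≤ κ * qlaw G u := by
        have h3 : 4 * (c.card : ℝ) * p ≤ 8 * ((c.card : ℝ) - 1) * p := by nlinarith
        exact h3.trans h1
      calc 4 * (c.card : ℝ) * p * e u ≤ κ * qlaw G u * e u :=
            mul_le_mul_of_nonneg_right h2 (he0 u)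
        _ = _ := by ring
    have hsum : 4 * (c.card : ℝ) * p * ∑ u ∈ c, e u ≤ κ * ∑ u ∈ c, qlaw G u * e u := by
      calc 4 * (c.card : ℝ) * p * ∑ u ∈ c, e u = ∑ u ∈ c, 4 * (c.card : ℝ) * p * e u :=
            Finset.mul_sum _ _ _
        _ ≤ ∑ u ∈ c, κ * (qlaw G u * e u) := Finset.sum_le_sum hterm
        _ = κ * ∑ u ∈ c, qlaw G u * e u := (Finset.mul_sum _ _ _).symm
    have hfin : B ^ 2 ≤ κ * ((∑ w ∈ c, qlaw G w * e w) / p) := by
      rw [← mul_div_assoc, le_div_iff₀ hp0]
      calc B ^ 2 * p = 4 * (∑ u ∈ c, s u) ^ 2 * p := by rw [hB]; ring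
        _ ≤ 4 * ((c.card : ℝ) * ∑ u ∈ c, e u) * p := by
            apply mul_le_mul_of_nonneg_right _ hp0.le
            linarith
        _ = 4 * (c.card : ℝ) * p * ∑ u ∈ c, e u := by ring
        _ ≤ _ := hsum
    exact hsq.trans hfin

/-- Poincare inequality, summed over all components. -/
theorem poincare_support (G : Game) (κ : ℝ) (hκ : KappaHyp G κ)
    (f : Fin G.nX × Fin G.nY → E) (gA : Fin G.nX → E) (gB : Fin G.nY → E) :
    ∑ z, qlaw G z * ‖f z - lblVec (qlaw G) G.supportComponent f (G.supportComponent z)‖ ^ 2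
      ≤ κ * ∑ z, qlaw G z * (‖f z - gA z.1‖ ^ 2 + ‖f z - gB z.2‖ ^ 2) := by
  have h1 : ∑ z, qlaw G z * ‖f z - lblVec (qlaw G) G.supportComponent f (G.supportComponent z)‖ ^ 2
      ≤ ∑ z, qlaw G z * (κ * lblMean (qlaw G) G.supportComponent
        (fun u => ‖f u - gA u.1‖ ^ 2 + ‖f u - gB u.2‖ ^ 2) (G.supportComponent z)) := by
    refine Finset.sum_le_sum fun z _ => ?_
    rcases (qlaw_nonneg G z).eq_or_lt with h0 | hpos
    · rw [← h0]; simp
    · exact mul_le_mul_of_nonneg_left (poincare_point G κ hκ f gA gB z hpos) hpos.le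
  refine h1.trans (le_of_eq ?_)
  have h2 := sum_mul_lblMean_mul (qlaw G) (qlaw_nonneg G) G.supportComponent
    (fun u => ‖f u - gA u.1‖ ^ 2 + ‖f u - gB u.2‖ ^ 2) (fun _ => κ)
  rw [Finset.mul_sum]
  calc _ = ∑ z, qlaw G z * (lblMean (qlaw G) G.supportComponent
        (fun u => ‖f u - gA u.1‖ ^ 2 + ‖f u - gB u.2‖ ^ 2) (G.supportComponent z) * κ) :=
        Finset.sum_congr rfl fun z _ => by ring
    _ = _ := h2
    _ = _ := Finset.sum_congr rfl fun z _ => by ring

end Crest.Agent.PR
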