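import Mathlib

/-!
# Row 342, block (B), task B3: the numerical part (c) of the threshold lemma
-/

namespace Crest.Agent.PR

/-- (c) of the blueprint, as a statement on a real sequence `b`. -/
theorem threshold_numeric (k : ℕ) (hk : 1 ≤ k) (b : ℕ → ℝ) (PE v δ K Lam : ℝ)
    (hv : 0 ≤ v) (hδ : 0 < δ) (hδv : δ < 1 - v) (hK : 1 ≤ K) (hLam : 0 ≤ Lam)
    (hb0 : b 0 = 1) (hbn : ∀ l, 0 ≤ b l)
    (hlow : ∀ l : ℕ, l ≤ k → (l : ℝ) - 1 ≤ δ * k / 4 → PE * (v + 3 * δ / 4) ^ l ≤ b l)
    (hrec : ∀ l : ℕ, l < k → b (l + 1) ≤ b l *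
      (v + δ / 4 + K * (Real.log (1 / b l) + l * Lam) / ((k : ℝ) - l))) :
    PE ≤ Real.exp (-(δ ^ 2 * k / (32 * K * (1 + Lam)))) := by
  by_contra hcon
  push Not at hcon
  set L : ℝ := 1 + Lam with hL
  have hL1 : 1 ≤ L := by linarith
  have hk1 : (1 : ℝ) ≤ (k : ℝ) := by exact_mod_cast hk
  have hkpos : (0 : ℝ) < (k : ℝ) := by linarith
  have hKpos : 0 < K := by linarith
  have hLpos : 0 < L := by linarith
  have hδ1 : δ < 1 := by linarith
  set T : ℝ := δ ^ 2 * k / (32 * K * L) with hT
  have hTpos : 0 < T := by positivity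
  set p' : ℝ := v + 3 * δ / 4 with hp'
  have hp'pos : 0 < p' := by positivity
  have hp'1 : p' < 1 := by linarith
  set A : ℝ := 4 * p' * T / δ with hA
  have hApos : 0 < A := by positivity
  -- `K L T = δ² k / 32`
  have hKLT : K * L * T = δ ^ 2 * k / 32 := by
    rw [hT]; field_simp
  have hKL1 : 1 ≤ K * L := by nlinarith
  have hT_le : T ≤ δ ^ 2 * k / 32 := by
    have : T ≤ K * L * T := by nlinarith
    linarith
  have hA4 : A / p' = 4 * T / δ := by
    rw [hA]; field_simp
  have h4T : 4 * T / δ ≤ δ * k / 8 := by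
    rw [div_le_iff₀ hδ]
    nlinarith
  have hA_le : A ≤ 4 * T / δ := by
    rw [← hA4, le_div_iff₀ hp'pos]
    nlinarith
  have hA8 : A ≤ δ * k / 8 := hA_le.trans h4T
  set m : ℕ := ⌈A⌉₊ with hm
  have hmA : A ≤ (m : ℝ) := Nat.le_ceil A
  have hmA1 : (m : ℝ) < A + 1 := Nat.ceil_lt_add_one hApos.le
  have hδk : δ * k / 8 < k := by nlinarith
  have hmk : m ≤ k := by
    have : (m : ℝ) < (k : ℝ) + 1 := by linarith
    have : m < k + 1 := by exact_mod_cast this
    omega
  have hPEpos : 0 < PE := lt_trans (Real.exp_pos _) hcon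
  -- for `l ≤ m` the lower bound applies
  have hlow' : ∀ l : ℕ, l ≤ m → PE * p' ^ l ≤ b l := by
    intro l hl
    refine hlow l (hl.trans hmk) ?_
    have : (l : ℝ) ≤ m := by exact_mod_cast hl
    nlinarith
  -- the bracket
  have hbr : ∀ l : ℕ, l < m →
      v + δ / 4 + K * (Real.log (1 / b l) + l * Lam) / ((k : ℝ) - l) ≤ v + δ / 2 := by
    intro l hl
    have hl1 : (l : ℝ) + 1 ≤ m := by exact_mod_cast hl
    have hlA : (l : ℝ) < A := by linarith
    have hl0 : (0 : ℝ) ≤ (l : ℝ) := Nat.cast_nonneg l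
    have hbl := hlow' l hl.le
    have hppos : 0 < p' ^ l := pow_pos hp'pos l
    have hlb : Real.exp (-T) * p' ^ l < b l := by
      have : Real.exp (-T) * p' ^ l < PE * p' ^ l := mul_lt_mul_of_pos_right hcon hppos
      linarith
    have hlbpos : 0 < Real.exp (-T) * p' ^ l := by positivity
    have hlog1 : Real.log (1 / b l) ≤ T - l * Real.log p' := by
      rw [one_div, Real.log_inv]
      have := Real.log_le_log hlbpos hlb.le
      rw [Real.log_mul (Real.exp_pos _).ne' hppos.ne', Real.log_exp, Real.log_pow] at this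
      linarith
    have hlogp : -Real.log p' ≤ 1 / p' := by
      have := Real.log_le_sub_one_of_pos (show 0 < 1 / p' by positivity)
      rw [one_div, Real.log_inv] at this
      rw [one_div]
      linarith
    have h1 : -(l * Real.log p') ≤ 4 * T / δ := by
      have h2 : (l : ℝ) * (-Real.log p') ≤ l * (1 / p') := mul_le_mul_of_nonneg_left hlogp hl0
      have h3 : (l : ℝ) * (1 / p') ≤ A / p' := by
        rw [mul_one_div]
        exact div_le_div_of_nonneg_right hlA.le hp'pos.le
      rw [hA4] at h3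
      linarith
    have h2 : (l : ℝ) * Lam ≤ 4 * T / δ * Lam :=
      mul_le_mul_of_nonneg_right (hlA.le.trans hA_le) hLam
    have hTd : T ≤ T * L / δ := by
      rw [le_div_iff₀ hδ]
      nlinarith
    have hX : Real.log (1 / b l) + l * Lam ≤ 5 * T * L / δ := by
      have e : 4 * T / δ + 4 * T / δ * Lam = 4 * (T * L / δ) := by
        rw [hL]; ring
      have e2 : 5 * T * L / δ = 5 * (T * L / δ) := by ring
      rw [e2]
      linarith
    have hkl : 7 * (k : ℝ) / 8 ≤ (k : ℝ) - l := by nlinarith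
    have hklpos : (0 : ℝ) < (k : ℝ) - l := by
      have : (0:ℝ) < 7 * (k : ℝ) / 8 := by positivity
      linarith
    have h3 : K * (Real.log (1 / b l) + l * Lam) / ((k : ℝ) - l) ≤ δ / 4 := by
      rw [div_le_iff₀ hklpos]
      have h4 : K * (Real.log (1 / b l) + l * Lam) ≤ K * (5 * T * L / δ) :=
        mul_le_mul_of_nonneg_left hX hKpos.le
      have h5 : K * (5 * T * L / δ) = 5 * δ * k / 32 := by
        have : K * (5 * T * L / δ) = 5 * (K * L * T) / δ := by ring
        rw [this, hKLT]
        field_simp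
      have h6 : δ / 4 * (7 * (k : ℝ) / 8) ≤ δ / 4 * ((k : ℝ) - l) :=
        mul_le_mul_of_nonneg_left hkl (by positivity)
      nlinarith
    linarith
  -- induction
  have hind : ∀ l : ℕ, l ≤ m → b l ≤ (v + δ / 2) ^ l := by
    intro l
    induction l with
    | zero => intro _; simp [hb0]
    | succ l ih =>
      intro hl
      have hl' : l < m := hl
      calc b (l + 1) ≤ b l * _ := hrec l (lt_of_lt_of_le hl' hmk)
        _ ≤ b l * (v + δ / 2) := mul_le_mul_of_nonneg_left (hbr l hl') (hbn l)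
        _ ≤ (v + δ / 2) ^ l * (v + δ / 2) :=
            mul_le_mul_of_nonneg_right (ih hl'.le) (by positivity)
        _ = _ := by ring
  have hfin : PE * p' ^ m ≤ (v + δ / 2) ^ m := (hlow' m le_rfl).trans (hind m le_rfl)
  have hratio : (v + δ / 2) ≤ p' * Real.exp (-(δ / (4 * p'))) := by
    have := Real.add_one_le_exp (-(δ / (4 * p')))
    have h2 : p' * (-(δ / (4 * p')) + 1) ≤ p' * Real.exp (-(δ / (4 * p'))) :=
      mul_le_mul_of_nonneg_left this hp'pos.le
    have h3 : p' * (-(δ / (4 * p')) + 1) = v + δ / 2 := by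
      have : p' * (-(δ / (4 * p')) + 1) = p' - δ / 4 := by
        field_simp
        ring
      rw [this, hp']; ring
    linarith
  have hpow : (v + δ / 2) ^ m ≤ p' ^ m * Real.exp (-T) := by
    calc (v + δ / 2) ^ m ≤ (p' * Real.exp (-(δ / (4 * p')))) ^ m :=
          pow_le_pow_left₀ (by positivity) hratio m
      _ = p' ^ m * Real.exp (-(δ / (4 * p'))) ^ m := by rw [mul_pow]
      _ = p' ^ m * Real.exp (m * -(δ / (4 * p'))) := by rw [← Real.exp_nat_mul]
      _ ≤ p' ^ m * Real.exp (-T) := by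
          refine mul_le_mul_of_nonneg_left ?_ (by positivity)
          apply Real.exp_le_exp.mpr
          have h1 : A * (δ / (4 * p')) = T := by
            rw [hA]; field_simp
          have h2 : A * (δ / (4 * p')) ≤ m * (δ / (4 * p')) :=
            mul_le_mul_of_nonneg_right hmA (by positivity)
          linarith
  have hpm : 0 < p' ^ m := pow_pos hp'pos m
  have : PE * p' ^ m ≤ Real.exp (-T) * p' ^ m := by linarith [hfin.trans hpow]
  have := le_of_mul_le_mul_right this hpm
  linarith

end Crest.Agent.PR
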