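import Crest.Agent.PR_ThrRec
import Crest.Agent.PR_ThrNum

/-!
# Row 342, block (B): the abstract threshold lemma (TL)
-/

namespace Crest.Agent.PR

open Finset

variable {k : ℕ}

/-- (TL) THRESHOLD LEMMA, abstract form. -/
theorem threshold_abstract (hk : 1 ≤ k) (μ : Finset (Fin k) → ℝ) (h0 : ∀ W, 0 ≤ μ W)
    (h1 : ∑ W, μ W = 1) (v δ K Lam : ℝ)
    (hv : 0 ≤ v) (hδ : 0 < δ) (hδv : δ < 1 - v) (hK : 1 ≤ K) (hLam : 0 ≤ Lam)
    (hOS : OSlinAbs μ v δ K Lam) :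
    tailP μ ((v + δ) * k) ≤ Real.exp (-(δ ^ 2 * k / (32 * K * (1 + Lam)))) :=
  threshold_numeric k hk (bAvg μ) _ v δ K Lam hv hδ hδv hK hLam (bAvg_zero μ h1)
    (bAvg_nonneg μ h0)
    (fun l hlk hl => tail_mul_pow_le_bAvg μ h0 v δ hv hδ l hlk hl)
    (fun l hl => bAvg_succ_le μ h0 v δ K Lam (by linarith) hOS l hl)

end Crest.Agent.PR
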