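/-
ROW 342, project PR.  BLOCK (B): threshold lemma (TL), blueprint section 0.  Architect: helper89.
-/
import Crest.Agent.PR_Defs
import Crest.Agent.PR_QfBasic
import Crest.Agent.PR_Threshold

set_option autoImplicit false

namespace Crest.Agent.PR

open Crest.MathPhysics.NonlocalGame Finset

variable {G : Game} {k dA dB : ℕ}

/-- the set of coordinates that are won -/
def winSet (G : Game) (k : ℕ) (x : Fin k → Fin G.nX) (y : Fin k → Fin G.nY)
    (a : Fin k → Fin G.nA) (b : Fin k → Fin G.nB) : Finset (Fin k) :=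
  Finset.univ.filter fun i => G.accept (x i) (y i) (a i) (b i) = true

/-- the law of the win set under the strategy `S` -/
noncomputable def winLaw (S : Strategy G k dA dB) (W : Finset (Fin k)) : ℝ :=
  ∑ x : Fin k → Fin G.nX, ∑ y : Fin k → Fin G.nY, (∏ i, G.prob (x i) (y i)) *
    ∑ a : Fin k → Fin G.nA, ∑ b : Fin k → Fin G.nB,
      if winSet G k x y a b = W then S.answerProb x y a b else 0

theorem winLaw_nonneg (S : Strategy G k dA dB) (W : Finset (Fin k)) : 0 ≤ winLaw S W := by
  unfold winLaw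
  refine Finset.sum_nonneg fun x _ => Finset.sum_nonneg fun y _ => mul_nonneg
    (Finset.prod_nonneg fun i _ => G.prob_nonneg _ _)
    (Finset.sum_nonneg fun a _ => Finset.sum_nonneg fun b _ => ?_)
  split_ifs
  · exact answerProb_nonneg S x y a b
  · exact le_rfl

/-- integration against the law of the win set -/
theorem sum_winLaw_mul (S : Strategy G k dA dB) (F : Finset (Fin k) → ℝ) :
    ∑ W, winLaw S W * F W =
      ∑ x : Fin k → Fin G.nX, ∑ y : Fin k → Fin G.nY, (∏ i, G.prob (x i) (y i)) *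
        ∑ a : Fin k → Fin G.nA, ∑ b : Fin k → Fin G.nB,
          S.answerProb x y a b * F (winSet G k x y a b) := by
  have h1 : ∀ W, winLaw S W * F W =
      ∑ x : Fin k → Fin G.nX, ∑ y : Fin k → Fin G.nY, (∏ i, G.prob (x i) (y i)) *
        ∑ a : Fin k → Fin G.nA, ∑ b : Fin k → Fin G.nB,
          if winSet G k x y a b = W then S.answerProb x y a b * F W else 0 := by
    intro W
    unfold winLaw
    rw [Finset.sum_mul]
    refine Finset.sum_congr rfl fun x _ => ?_
    rw [Finset.sum_mul]
    refine Finset.sum_congr rfl fun y _ => ?_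
    rw [mul_assoc, Finset.sum_mul]
    congr 1
    refine Finset.sum_congr rfl fun a _ => ?_
    rw [Finset.sum_mul]
    refine Finset.sum_congr rfl fun b _ => ?_
    split_ifs <;> simp
  simp_rw [h1]
  rw [Finset.sum_comm]
  refine Finset.sum_congr rfl fun x _ => ?_
  rw [Finset.sum_comm]
  refine Finset.sum_congr rfl fun y _ => ?_
  rw [← Finset.mul_sum]
  congr 1
  rw [Finset.sum_comm]
  refine Finset.sum_congr rfl fun a _ => ?_
  rw [Finset.sum_comm]
  refine Finset.sum_congr rfl fun b _ => ?_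
  rw [Finset.sum_ite_eq]
  simp

theorem sum_prod_prob (G : Game) (k : ℕ) :
    ∑ x : Fin k → Fin G.nX, ∑ y : Fin k → Fin G.nY, (∏ i, G.prob (x i) (y i)) = 1 := by
  have h1 : ∀ x : Fin k → Fin G.nX,
      ∑ y : Fin k → Fin G.nY, (∏ i, G.prob (x i) (y i)) = ∏ i, ∑ y0, G.prob (x i) y0 := by
    intro x
    rw [Finset.prod_univ_sum]
    simp
  simp_rw [h1]
  have h2 := (Finset.prod_univ_sum (fun _ : Fin k => (Finset.univ : Finset (Fin G.nX)))
    (fun _ x0 => ∑ y0, G.prob x0 y0)).symm
  simp only [Fintype.piFinset_univ] at h2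
  rw [h2]
  simp [G.prob_sum]

theorem winLaw_sum (S : Strategy G k dA dB) : ∑ W, winLaw S W = 1 := by
  have h := sum_winLaw_mul S (fun _ => 1)
  simp only [mul_one] at h
  rw [h]
  simp_rw [sum_sum_answerProb, mul_one]
  exact sum_prod_prob G k

theorem tailP_winLaw (S : Strategy G k dA dB) (t : ℝ) :
    tailP (winLaw S) t = S.probWinsAtLeast t := by
  have h := sum_winLaw_mul S (fun W => if t ≤ (W.card : ℝ) then 1 else 0)
  unfold tailP
  rw [Finset.sum_filter]
  have e : ∀ W : Finset (Fin k), (if t ≤ (W.card : ℝ) then winLaw S W else 0)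
      = winLaw S W * (if t ≤ (W.card : ℝ) then 1 else 0) := by
    intro W; split_ifs <;> simp
  simp_rw [e]
  rw [h]
  unfold Strategy.probWinsAtLeast
  refine Finset.sum_congr rfl fun x _ => Finset.sum_congr rfl fun y _ => ?_
  congr 1
  refine Finset.sum_congr rfl fun a _ => Finset.sum_congr rfl fun b _ => ?_
  have : ((winSet G k x y a b).card : ℝ) = (wins G k x y a b : ℝ) := rfl
  rw [this]
  split_ifs <;> simp

theorem pSup_winLaw (S : Strategy G k dA dB) (C : Finset (Fin k)) :
    pSup (winLaw S) C = pW S C := by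
  have h := sum_winLaw_mul S (fun W => if C ⊆ W then 1 else 0)
  unfold pSup
  rw [Finset.sum_filter]
  have e : ∀ W : Finset (Fin k), (if C ⊆ W then winLaw S W else 0)
      = winLaw S W * (if C ⊆ W then 1 else 0) := by
    intro W; split_ifs <;> simp
  simp_rw [e]
  rw [h]
  unfold pW
  refine Finset.sum_congr rfl fun x _ => Finset.sum_congr rfl fun y _ => ?_
  congr 1
  refine Finset.sum_congr rfl fun a _ => Finset.sum_congr rfl fun b _ => ?_
  have hiff : C ⊆ winSet G k x y a b ↔ ∀ i ∈ C, G.accept (x i) (y i) (a i) (b i) = true := by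
    unfold winSet
    constructor
    · intro hs i hi
      exact (Finset.mem_filter.mp (hs hi)).2
    · intro hs i hi
      exact Finset.mem_filter.mpr ⟨Finset.mem_univ i, hs i hi⟩
  by_cases hc : C ⊆ winSet G k x y a b
  · rw [if_pos hc, if_pos (hiff.mp hc), mul_one]
  · rw [if_neg hc, if_neg (fun h' => hc (hiff.mpr h')), mul_zero]

theorem pW_nonneg (S : Strategy G k dA dB) (C : Finset (Fin k)) : 0 ≤ pW S C := by
  rw [← pSup_winLaw]
  exact pSup_nonneg _ (winLaw_nonneg S) C

theorem pW_le_one (S : Strategy G k dA dB) (C : Finset (Fin k)) : pW S C ≤ 1 := by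
  rw [← pSup_winLaw, ← winLaw_sum S]
  unfold pSup
  exact Finset.sum_le_sum_of_subset_of_nonneg (Finset.filter_subset _ _)
    (fun W _ _ => winLaw_nonneg S W)

/-- **(TL)** the linearised one-step inequality implies the threshold bound. -/
theorem threshold_of_OSlin (G : Game) (v δ K : ℝ) (hv0 : 0 ≤ v) (hδ : 0 < δ) (hδv : δ < 1 - v)
    (hK : 1 ≤ K) (k dA dB : ℕ) (S : Strategy G k dA dB) (hk : 1 ≤ k) (hOS : OSlin S v δ K) :
    S.probWinsAtLeast ((v + δ) * k) ≤
      Real.exp (-(δ ^ 2 / (32 * K * (1 + Real.log ((G.nA * G.nB : ℕ) : ℝ))) * k)) := by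
  have hLam : 0 ≤ Real.log ((G.nA * G.nB : ℕ) : ℝ) := Real.log_natCast_nonneg _
  have hOS' : OSlinAbs (winLaw S) v δ K (Real.log ((G.nA * G.nB : ℕ) : ℝ)) := by
    intro C hC
    have := hOS C hC
    simp only [pSup_winLaw]
    exact this
  have h := threshold_abstract hk (winLaw S) (winLaw_nonneg S) (winLaw_sum S) v δ K _ hv0 hδ hδv hK
    hLam hOS'
  rw [tailP_winLaw] at h
  refine h.trans (le_of_eq ?_)
  congr 2
  ring

end Crest.Agent.PR
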