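/-
ROW 342, project PR.  BLOCK (F2): Poincare on the support graph, kappa-finish, (OS-kappa).  Blueprint section 4.  Architect: helper89.
-/
import Crest.Agent.PR_Core
import Crest.Agent.PR_KL
import Crest.Agent.PR_Poincare
import Crest.Agent.PR_KappaSum
import Crest.Agent.PR_Thresh

set_option autoImplicit false

namespace Crest.Agent.PR

open Crest.MathPhysics.NonlocalGame Finset

variable {G : Game}

/-- division-free form of `hell` -/
theorem kf_hell_eq {Z Lbl : Type} [Fintype Z] [DecidableEq Z] [Fintype Lbl] [DecidableEq Lbl]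
    (π : Z → ℝ) (hπ0 : ∀ z, 0 ≤ π z) (h : Z → Lbl) (n : Z → ℝ) (g : ℝ) :
    hell π h n g = ∑ l : Lbl, (Real.sqrt (∑ w : Z, if h w = l then π w * n w else 0)
      - Real.sqrt ((∑ w : Z, if h w = l then π w else 0) * g)) ^ 2 := by
  unfold hell
  refine Finset.sum_congr rfl fun l _ => ?_
  unfold lblMean lblP
  rw [Finset.sum_filter, Finset.sum_filter]
  set p : ℝ := ∑ w : Z, if h w = l then π w else 0 with hp
  set m : ℝ := ∑ w : Z, if h w = l then π w * n w else 0 with hm
  have hp0 : 0 ≤ p := Finset.sum_nonneg fun w _ => by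
    split_ifs
    · exact hπ0 w
    · exact le_rfl
  rcases hp0.eq_or_lt with hp00 | hppos
  · have hz : ∀ w, (if h w = l then π w else 0) = 0 := by
      intro w
      have := (Finset.sum_eq_zero_iff_of_nonneg (fun w _ => by
        split_ifs
        · exact hπ0 w
        · exact le_rfl)).mp hp00.symm w (Finset.mem_univ w)
      exact this
    have hm0 : m = 0 := by
      rw [hm]
      refine Finset.sum_eq_zero fun w _ => ?_
      have := hz w
      split_ifs at this ⊢ with hw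
      · rw [this, zero_mul]
      · rfl
    rw [← hp00, hm0]
    simp
  · have h1 : Real.sqrt m = Real.sqrt p * Real.sqrt (m / p) := by
      rw [← Real.sqrt_mul hp0]
      congr 1
      field_simp
    have h2 : Real.sqrt (p * g) = Real.sqrt p * Real.sqrt g := Real.sqrt_mul hp0 g
    rw [h1, h2, ← mul_sub, mul_pow, Real.sq_sqrt hp0]

section finish
variable (D : CoreData G)

/-- the vectors of the core data as elements of a Euclidean space -/
noncomputable def kfF (z : Fin G.nX × Fin G.nY) : EuclideanSpace ℂ (D.ιA × D.ιB) :=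
  WithLp.toLp 2 (D.f z.1 z.2)

/-- winning quadratic form -/
noncomputable def kfq (z : Fin G.nX × Fin G.nY) (u : EuclideanSpace ℂ (D.ιA × D.ιB)) : ℝ :=
  ∑ a, ∑ b, if G.accept z.1 z.2 a b = true then qf (WithLp.ofLp u) (D.N z.1 a) (D.N' z.2 b) else 0

theorem kf_norm_sq {ι : Type} [Fintype ι] (u : EuclideanSpace ℂ ι) :
    ‖u‖ ^ 2 = nsq (WithLp.ofLp u) := by
  have := sqrt_nsq_eq_norm (WithLp.ofLp u)
  rw [show (WithLp.toLp 2 (WithLp.ofLp u) : EuclideanSpace ℂ ι) = u from rfl] at this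
  rw [← this, Real.sq_sqrt (nsq_nonneg _)]

theorem kf_norm {ι : Type} [Fintype ι] (u : EuclideanSpace ℂ ι) :
    ‖u‖ = Real.sqrt (nsq (WithLp.ofLp u)) := by
  have := sqrt_nsq_eq_norm (WithLp.ofLp u)
  rw [show (WithLp.toLp 2 (WithLp.ofLp u) : EuclideanSpace ℂ ι) = u from rfl] at this
  exact this.symm

theorem kfq_nonneg (z : Fin G.nX × Fin G.nY) (u : EuclideanSpace ℂ (D.ιA × D.ιB)) :
    0 ≤ kfq D z u := by
  unfold kfq
  refine Finset.sum_nonneg fun a _ => Finset.sum_nonneg fun b _ => ?_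
  split_ifs
  · exact qf_nonneg _ ((D.hN z.1).1 a) ((D.hN' z.2).1 b)
  · exact le_rfl

theorem kfq_le (z : Fin G.nX × Fin G.nY) (u : EuclideanSpace ℂ (D.ιA × D.ιB)) :
    kfq D z u ≤ ‖u‖ ^ 2 := by
  rw [kf_norm_sq, ← sum_sum_qf_povm (WithLp.ofLp u) (D.hN z.1) (D.hN' z.2)]
  unfold kfq
  refine Finset.sum_le_sum fun a _ => Finset.sum_le_sum fun b _ => ?_
  split_ifs
  · exact le_rfl
  · exact qf_nonneg _ ((D.hN z.1).1 a) ((D.hN' z.2).1 b)

theorem kfq_smul (z : Fin G.nX × Fin G.nY) (c : ℝ) (u : EuclideanSpace ℂ (D.ιA × D.ιB)) :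
    kfq D z (c • u) = c ^ 2 * kfq D z u := by
  unfold kfq
  have e : WithLp.ofLp (c • u) = (c : ℂ) • WithLp.ofLp u := by
    ext i
    simp
  rw [e, Finset.mul_sum]
  refine Finset.sum_congr rfl fun a _ => ?_
  rw [Finset.mul_sum]
  refine Finset.sum_congr rfl fun b _ => ?_
  split_ifs
  · rw [qf_smul_vec]
    simp
  · simp

theorem kfq_pert (z : Fin G.nX × Fin G.nY) (u u' : EuclideanSpace ℂ (D.ιA × D.ιB)) :
    kfq D z u ≤ kfq D z u' + ‖u - u'‖ * (‖u‖ + ‖u'‖) := by
  have := qf_win_pert (D.N z.1) (D.N' z.2) (D.hN z.1) (D.hN' z.2) (G.accept z.1 z.2)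
    (WithLp.ofLp u) (WithLp.ofLp u')
  rw [kf_norm, kf_norm u, kf_norm u']
  exact this

/-- value of a family of unit vectors indexed by the components -/
theorem kf_value (v : ℝ)
    (hv : ∀ (dA dB : ℕ) (S : Strategy G 1 dA dB), S.probWinsAtLeast 1 ≤ v)
    (θ : Finset (Fin G.nX × Fin G.nY) → EuclideanSpace ℂ (D.ιA × D.ιB)) (hθ : ∀ l, ‖θ l‖ = 1) :
    ∑ z, qlaw G z * kfq D z (θ (G.supportComponent z)) ≤ v := by
  classical
  -- labels
  let cX : Fin G.nX → Finset (Fin G.nX × Fin G.nY) := fun x =>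
    if hx : ∃ y, 0 < qlaw G (x, y) then G.supportComponent (x, hx.choose) else ∅
  let cY : Fin G.nY → Finset (Fin G.nX × Fin G.nY) := fun y =>
    if hy : ∃ x, 0 < qlaw G (x, y) then G.supportComponent (hy.choose, y) else ∅
  have hcX : ∀ z, 0 < qlaw G z → cX z.1 = G.supportComponent z := by
    intro z hz
    have hx : ∃ y, 0 < qlaw G (z.1, y) := ⟨z.2, hz⟩
    simp only [cX, dif_pos hx]
    exact supportComponent_eq_of_fst G _ z hx.choose_spec hz rfl
  have hcY : ∀ z, 0 < qlaw G z → cY z.2 = G.supportComponent z := by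
    intro z hz
    have hy : ∃ x, 0 < qlaw G (x, z.2) := ⟨z.1, hz⟩
    simp only [cY, dif_pos hy]
    exact supportComponent_eq_of_snd G _ z hy.choose_spec hz rfl
  have hp : ∀ c, IsQCorr G (fun x y a b => qf (WithLp.ofLp (θ c)) (D.N x a) (D.N' y b)) := by
    intro c
    refine IsQCorr.of_fintype _ ?_ D.N D.N' D.hN D.hN'
    rw [← kf_norm_sq, hθ c]
    norm_num
  obtain ⟨q, hq, hglue⟩ := IsQCorr.glue cX cY _ hp
  refine le_trans (le_of_eq ?_) (gval_le_of_isQCorr v hv hq)
  unfold gval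
  rw [Fintype.sum_prod_type]
  refine Finset.sum_congr rfl fun x _ => Finset.sum_congr rfl fun y _ => ?_
  rcases (G.prob_nonneg x y).eq_or_lt with h0 | hpos
  · simp [qlaw, ← h0]
  · have h1 := hcX (x, y) hpos
    have h2 := hcY (x, y) hpos
    have h3 := hglue x y (h1.trans h2.symm)
    simp only [qlaw]
    congr 1
    unfold kfq
    refine Finset.sum_congr rfl fun a _ => Finset.sum_congr rfl fun b _ => ?_
    rw [h3]
    simp only
    rw [h1]

end finish

/-- **kappa-finish** (one coordinate, generic).  `h = G.supportComponent` is the label function. -/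
theorem kappa_finish (v : ℝ)
    (hv : ∀ (dA dB : ℕ) (S : Strategy G 1 dA dB), S.probWinsAtLeast 1 ≤ v) (κ : ℝ)
    (hκ : ∀ z : Fin G.nX × Fin G.nY, 0 < G.prob z.1 z.2 → ∀ w ∈ G.supportComponent z,
      8 * ((G.supportComponent z).card - 1 : ℝ) * (∑ u ∈ G.supportComponent z, G.prob u.1 u.2)
        ≤ κ * G.prob w.1 w.2)
    (D : CoreData G) :
    D.win ≤ v * D.gam + 2 * Real.sqrt D.gam * Real.sqrt (D.hell G.supportComponent)
      + D.hell G.supportComponent
      + 2 * Real.sqrt D.gam * Real.sqrt (κ * (D.errA + D.errB)) := by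
  classical
  have hnF : ∀ z, ‖kfF D z‖ ^ 2 = nsq (D.f z.1 z.2) := fun z => kf_norm_sq _
  have hgam : D.gam = ∑ z, qlaw G z * ‖kfF D z‖ ^ 2 := by
    unfold CoreData.gam
    rw [Fintype.sum_prod_type]
    refine Finset.sum_congr rfl fun x _ => Finset.sum_congr rfl fun y _ => ?_
    rw [hnF]
    rfl
  have hP := poincare_support G κ hκ (kfF D)
    (fun x => (WithLp.toLp 2 (D.g x) : EuclideanSpace ℂ (D.ιA × D.ιB)))
    (fun y => (WithLp.toLp 2 (D.g' y) : EuclideanSpace ℂ (D.ιA × D.ιB)))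
  have herr : ∑ z, qlaw G z * (‖kfF D z - (WithLp.toLp 2 (D.g z.1) : EuclideanSpace ℂ (D.ιA × D.ιB))‖ ^ 2
      + ‖kfF D z - (WithLp.toLp 2 (D.g' z.2) : EuclideanSpace ℂ (D.ιA × D.ιB))‖ ^ 2)
      = D.errA + D.errB := by
    unfold CoreData.errA CoreData.errB
    rw [Fintype.sum_prod_type, ← Finset.sum_add_distrib]
    refine Finset.sum_congr rfl fun x _ => ?_
    rw [← Finset.sum_add_distrib]
    refine Finset.sum_congr rfl fun y _ => ?_
    rw [kf_norm_sq, kf_norm_sq]
    simp only [qlaw, kfF]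
    have e1 : WithLp.ofLp ((WithLp.toLp 2 (D.f x y) : EuclideanSpace ℂ (D.ιA × D.ιB))
        - WithLp.toLp 2 (D.g x)) = D.f x y - D.g x := rfl
    have e2 : WithLp.ofLp ((WithLp.toLp 2 (D.f x y) : EuclideanSpace ℂ (D.ιA × D.ιB))
        - WithLp.toLp 2 (D.g' y)) = D.f x y - D.g' y := rfl
    rw [e1, e2]
    ring
  rw [herr] at hP
  have hmain := kappa_step_abstract (qlaw G) (qlaw_nonneg G) (qlaw_sum G) G.supportComponent
    (kfF D) (kfq D) (kfq_nonneg D) (kfq_le D) (kfq_smul D) (kfq_pert D) v (kf_value D v hv)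
    D.gam hgam (κ * (D.errA + D.errB)) hP
  have hwin : D.win = ∑ z, qlaw G z * kfq D z (kfF D z) := by
    unfold CoreData.win
    rw [Fintype.sum_prod_type]
    rfl
  have hhell : hell (qlaw G) G.supportComponent (fun z => ‖kfF D z‖ ^ 2) D.gam
      = D.hell G.supportComponent := by
    rw [kf_hell_eq _ (qlaw_nonneg G)]
    unfold CoreData.hell
    simp only [hnF]
    rfl
  rw [hhell, ← hwin] at hmain
  exact hmain

/-- summing `pWq` over the question pair gives `pW` -/
theorem sum_pWq {k dA dB : ℕ} (S : Strategy G k dA dB) (C : Finset (Fin k)) (j : Fin k) :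
    ∑ x0, ∑ y0, pWq S C j x0 y0 = pW S C := by
  classical
  unfold pWq pW
  have h1 : ∀ x0 : Fin G.nX, ∑ y0 : Fin G.nY, ∑ x : Fin k → Fin G.nX, ∑ y : Fin k → Fin G.nY,
      (if x j = x0 ∧ y j = y0 then (∏ i, G.prob (x i) (y i)) else 0) *
      ∑ a : Fin k → Fin G.nA, ∑ b : Fin k → Fin G.nB,
        (if (∀ i ∈ C, G.accept (x i) (y i) (a i) (b i) = true) then S.answerProb x y a b else 0)
      = ∑ x : Fin k → Fin G.nX, ∑ y : Fin k → Fin G.nY,
      (if x j = x0 then (∏ i, G.prob (x i) (y i)) else 0) *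
      ∑ a : Fin k → Fin G.nA, ∑ b : Fin k → Fin G.nB,
        (if (∀ i ∈ C, G.accept (x i) (y i) (a i) (b i) = true) then S.answerProb x y a b else 0) := by
    intro x0
    rw [Finset.sum_comm]
    refine Finset.sum_congr rfl fun x _ => ?_
    rw [Finset.sum_comm]
    refine Finset.sum_congr rfl fun y _ => ?_
    rw [← Finset.sum_mul]
    congr 1
    by_cases hx : x j = x0
    · simp [hx]
    · simp [hx]
  simp_rw [h1]
  rw [Finset.sum_comm]
  refine Finset.sum_congr rfl fun x _ => ?_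
  rw [Finset.sum_comm]
  refine Finset.sum_congr rfl fun y _ => ?_
  rw [← Finset.sum_mul]
  congr 1
  simp

/-- **(OS-kappa)** -/
theorem OSlin_kappa (v : ℝ)
    (hv : ∀ (dA dB : ℕ) (S : Strategy G 1 dA dB), S.probWinsAtLeast 1 ≤ v) (κ : ℝ)
    (hκ : ∀ z : Fin G.nX × Fin G.nY, 0 < G.prob z.1 z.2 → ∀ w ∈ G.supportComponent z,
      8 * ((G.supportComponent z).card - 1 : ℝ) * (∑ u ∈ G.supportComponent z, G.prob u.1 u.2)
        ≤ κ * G.prob w.1 w.2)
    (δ : ℝ) (hδ : 0 < δ) (hδ1 : δ < 1) (k dA dB : ℕ) (S : Strategy G k dA dB) :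
    OSlin S v δ (21 * (1 + κ) / δ) := by
  classical
  intro C hC
  have hk : 1 ≤ k := by omega
  obtain ⟨hA, hB⟩ := nA_nB_pos_of_strategy S hk
  obtain ⟨D, hD, hEA, hEB⟩ := exists_core S hk C
  have hκ0 : 0 ≤ κ := kappa_nonneg G κ hκ
  set g := pW S C with hg
  have hgam : ∀ j ∈ Cᶜ, (D j).gam = g := by
    intro j hj
    unfold CoreData.gam
    rw [hg, ← sum_pWq S C j]
    refine Finset.sum_congr rfl fun x _ => Finset.sum_congr rfl fun y _ => ?_
    exact (hD j hj).1 x y
  have hhell : ∀ j ∈ Cᶜ, (D j).hell G.supportComponent = ∑ l : Finset (Fin G.nX × Fin G.nY),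
      (Real.sqrt (∑ w : Fin G.nX × Fin G.nY,
          if G.supportComponent w = l then pWq S C j w.1 w.2 else 0)
        - Real.sqrt ((∑ w : Fin G.nX × Fin G.nY,
          if G.supportComponent w = l then G.prob w.1 w.2 else 0) * pW S C)) ^ 2 := by
    intro j hj
    unfold CoreData.hell
    rw [hgam j hj]
    refine Finset.sum_congr rfl fun l _ => ?_
    congr 3
    refine Finset.sum_congr rfl fun w _ => ?_
    rw [(hD j hj).1 w.1 w.2]
  have hH : ∑ j ∈ Cᶜ, (D j).hell G.supportComponent ≤ g * Real.log (1 / g) := by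
    rw [Finset.sum_congr rfl hhell]
    exact kl_labels S C G.supportComponent
  have hlog : Real.log ((G.nA * G.nB : ℕ) : ℝ) = Real.log (G.nA : ℝ) + Real.log (G.nB : ℝ) := by
    push_cast
    rw [Real.log_mul]
    · exact_mod_cast hA.ne'
    · exact_mod_cast hB.ne'
  have hE : ∑ j ∈ Cᶜ, ((D j).errA + (D j).errB)
      ≤ 2 * g * (2 * Real.log (1 / g) + C.card * Real.log ((G.nA * G.nB : ℕ) : ℝ)) := by
    rw [Finset.sum_add_distrib, hlog]
    calc _ ≤ _ := add_le_add hEA hEB
      _ = _ := by ring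
  have hstep : ∀ j ∈ Cᶜ, pW S (insert j C) ≤ v * g
      + 2 * Real.sqrt g * Real.sqrt ((D j).hell G.supportComponent)
      + (D j).hell G.supportComponent
      + 2 * Real.sqrt g * Real.sqrt (κ * ((D j).errA + (D j).errB)) := by
    intro j hj
    have := kappa_finish v hv κ hκ (D j)
    rw [(hD j hj).2, hgam j hj] at this
    exact this
  have hnn : ∀ (E : CoreData G), 0 ≤ E.errA + E.errB := by
    intro E
    unfold CoreData.errA CoreData.errB
    refine add_nonneg ?_ ?_ <;>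
    exact Finset.sum_nonneg fun x _ => Finset.sum_nonneg fun y _ =>
      mul_nonneg (G.prob_nonneg x y) (nsq_nonneg _)
  have hfin := os_kappa_sum Cᶜ (fun j => pW S (insert j C))
    (fun j => (D j).hell G.supportComponent) (fun j => (D j).errA + (D j).errB) g v δ κ
    (C.card * Real.log ((G.nA * G.nB : ℕ) : ℝ)) (pW_nonneg S C) (pW_le_one S C) hδ hδ1.le hκ0
    (mul_nonneg (Nat.cast_nonneg _) (Real.log_natCast_nonneg _))
    (fun j _ => by
      unfold CoreData.hell
      exact Finset.sum_nonneg fun l _ => sq_nonneg _)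
    (fun j _ => hnn (D j)) hstep hH hE
  have hcard : ((Cᶜ).card : ℝ) = (k : ℝ) - C.card := by
    rw [Finset.card_compl, Fintype.card_fin, Nat.cast_sub hC.le]
  rw [hcard] at hfin
  exact hfin

end Crest.Agent.PR
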