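import Crest.Agent.PR_GaugeScalar

/-!
# Row 342, block (C): entrywise integrals of matrix functions over `[0,1]`
-/

namespace Crest.Agent.PR.GA

open MeasureTheory intervalIntegral Set Matrix
open scoped ComplexOrder

variable {m n l : Type*} [Fintype m] [Fintype n] [Fintype l]

/-- entrywise integral over `[0,1]` -/
noncomputable def Mint (F : ℝ → Matrix m n ℂ) : Matrix m n ℂ :=
  fun i j => ∫ s in (0:ℝ)..1, F s i j

/-- all entries are continuous on `[0,1]` -/
def MCont (F : ℝ → Matrix m n ℂ) : Prop := ∀ i j, ContinuousOn (fun s => F s i j) (Icc 0 1)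

omit [Fintype m] [Fintype n] in
theorem MCont.ible {F : ℝ → Matrix m n ℂ} (hF : MCont F) (i : m) (j : n) :
    IntervalIntegrable (fun s => F s i j) volume 0 1 := by
  apply ContinuousOn.intervalIntegrable
  rw [uIcc_of_le zero_le_one]
  exact hF i j

omit [Fintype m] [Fintype n] in
theorem MCont.add {F G : ℝ → Matrix m n ℂ} (hF : MCont F) (hG : MCont G) :
    MCont (fun s => F s + G s) := fun i j => (hF i j).add (hG i j)

omit [Fintype m] [Fintype n] in
theorem MCont.sub {F G : ℝ → Matrix m n ℂ} (hF : MCont F) (hG : MCont G) :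
    MCont (fun s => F s - G s) := fun i j => (hF i j).sub (hG i j)

omit [Fintype m] [Fintype n] in
theorem MCont.smul {F : ℝ → Matrix m n ℂ} (c : ℂ) (hF : MCont F) :
    MCont (fun s => c • F s) := fun i j => continuousOn_const.mul (hF i j)

omit [Fintype m] [Fintype l] in
theorem MCont.mul {F : ℝ → Matrix m n ℂ} {G : ℝ → Matrix n l ℂ} (hF : MCont F) (hG : MCont G) :
    MCont (fun s => F s * G s) := by
  intro i j
  simp only [Matrix.mul_apply]
  exact continuousOn_finsetSum _ (fun k _ => (hF i k).mul (hG k j))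

omit [Fintype m] [Fintype n] in
theorem MCont.sum {ι : Type*} (S : Finset ι) {F : ι → ℝ → Matrix m n ℂ} (hF : ∀ t, MCont (F t)) :
    MCont (fun s => ∑ t ∈ S, F t s) := by
  intro i j
  simp only [Matrix.sum_apply]
  exact continuousOn_finsetSum _ (fun k _ => hF k i j)

omit [Fintype m] [Fintype n] in
theorem Mint_add {F G : ℝ → Matrix m n ℂ} (hF : MCont F) (hG : MCont G) :
    Mint (fun s => F s + G s) = Mint F + Mint G := by
  ext i j
  exact intervalIntegral.integral_add (hF.ible i j) (hG.ible i j)

omit [Fintype m] [Fintype n] in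
theorem Mint_sub {F G : ℝ → Matrix m n ℂ} (hF : MCont F) (hG : MCont G) :
    Mint (fun s => F s - G s) = Mint F - Mint G := by
  ext i j
  exact intervalIntegral.integral_sub (hF.ible i j) (hG.ible i j)

omit [Fintype m] [Fintype n] in
theorem Mint_smul (c : ℂ) (F : ℝ → Matrix m n ℂ) :
    Mint (fun s => c • F s) = c • Mint F := by
  ext i j
  exact intervalIntegral.integral_const_mul c _

omit [Fintype m] [Fintype n] in
theorem Mint_sum {ι : Type*} (S : Finset ι) {F : ι → ℝ → Matrix m n ℂ} (hF : ∀ t, MCont (F t)) :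
    Mint (fun s => ∑ t ∈ S, F t s) = ∑ t ∈ S, Mint (F t) := by
  ext i j
  simp only [Mint, Matrix.sum_apply]
  exact intervalIntegral.integral_finsetSum (fun t _ => (hF t).ible i j)

theorem integral_eq_Ioo (f : ℝ → ℂ) : ∫ s in (0:ℝ)..1, f s = ∫ s in Ioo (0:ℝ) 1, f s := by
  rw [intervalIntegral.integral_of_le zero_le_one, integral_Ioc_eq_integral_Ioo]

/-- the integral of a PSD-valued function is PSD -/
theorem Mint_posSemidef {F : ℝ → Matrix n n ℂ} (hF : MCont F)
    (h : ∀ s ∈ Ioo (0:ℝ) 1, (F s).PosSemidef) : (Mint F).PosSemidef := by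
  apply PosSemidef.of_dotProduct_mulVec_nonneg
  · ext i j
    rw [conjTranspose_apply]
    simp only [Mint]
    rw [integral_eq_Ioo, integral_eq_Ioo]
    have : star (∫ s in Ioo (0:ℝ) 1, F s j i) = ∫ s in Ioo (0:ℝ) 1, (starRingEnd ℂ) (F s j i) :=
      (integral_conj).symm
    rw [this]
    apply setIntegral_congr_fun measurableSet_Ioo
    intro s hs
    have h1 := (h s hs).1
    have h2 : (F s)ᴴ i j = F s i j := by rw [h1]
    rw [conjTranspose_apply] at h2
    exact h2
  · intro x
    have e1 : star x ⬝ᵥ (Mint F *ᵥ x) = ∫ s in (0:ℝ)..1, star x ⬝ᵥ (F s *ᵥ x) := by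
      simp only [dotProduct, mulVec, Mint]
      rw [intervalIntegral.integral_finsetSum]
      · apply Finset.sum_congr rfl
        intro i _
        rw [intervalIntegral.integral_const_mul, intervalIntegral.integral_finsetSum]
        · congr 1
          apply Finset.sum_congr rfl
          intro j _
          rw [intervalIntegral.integral_mul_const]
        · intro j _
          exact (hF.ible i j).mul_const _
      · intro i _
        apply IntervalIntegrable.const_mul
        apply ContinuousOn.intervalIntegrable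
        rw [uIcc_of_le zero_le_one]
        exact continuousOn_finsetSum _ (fun j _ => (hF i j).mul continuousOn_const)
    rw [e1, integral_eq_Ioo]
    have e2 : ∫ s in Ioo (0:ℝ) 1, star x ⬝ᵥ (F s *ᵥ x)
        = ∫ s in Ioo (0:ℝ) 1, (((star x ⬝ᵥ (F s *ᵥ x)).re : ℝ) : ℂ) := by
      apply setIntegral_congr_fun measurableSet_Ioo
      intro s hs
      have h1 := (h s hs).dotProduct_mulVec_nonneg x
      have h2 := (Complex.le_def.mp h1).2
      apply Complex.ext
      · simp
      · simpa using h2.symm
    rw [e2, integral_complex_ofReal]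
    have e3 : 0 ≤ ∫ s in Ioo (0:ℝ) 1, (star x ⬝ᵥ (F s *ᵥ x)).re := by
      apply setIntegral_nonneg measurableSet_Ioo
      intro s hs
      have h1 := (h s hs).dotProduct_mulVec_nonneg x
      exact (Complex.le_def.mp h1).1
    exact_mod_cast e3

variable [DecidableEq n]

/-- the integral of a spectral function is the spectral function of the integral -/
theorem Mint_sfun {a : Matrix n n ℂ} (ha : a.IsHermitian) (f : ℝ → ℝ → ℝ)
    (hf : ∀ k, IntervalIntegrable (fun s => f s (ha.eigenvalues k)) volume 0 1) :
    Mint (fun s => sfun (f s) a) = sfun (fun u => ∫ s in (0:ℝ)..1, f s u) a := by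
  ext i j
  simp only [Mint, sfun_apply ha]
  rw [intervalIntegral.integral_finsetSum]
  · apply Finset.sum_congr rfl
    intro k _
    rw [intervalIntegral.integral_mul_const, intervalIntegral.integral_ofReal]
  · intro k _
    apply IntervalIntegrable.mul_const
    exact ⟨(hf k).1.ofReal, (hf k).2.ofReal⟩

theorem MCont_sfun {a : Matrix n n ℂ} (ha : a.IsHermitian) (f : ℝ → ℝ → ℝ)
    (hf : ∀ k, ContinuousOn (fun s => f s (ha.eigenvalues k)) (Icc 0 1)) :
    MCont (fun s => sfun (f s) a) := by
  intro i j
  simp only [sfun_apply ha]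
  apply continuousOn_finsetSum
  intro k _
  apply ContinuousOn.mul _ continuousOn_const
  exact Complex.continuous_ofReal.comp_continuousOn (hf k)

theorem MCont_cs {a : Matrix n n ℂ} (ha : a.PosSemidef) : MCont (fun s => cs s a) :=
  MCont_sfun ha.1 csR (fun k => csR_continuousOn (eig_nonneg ha k))

theorem MCont_es {a : Matrix n n ℂ} (ha : a.PosSemidef) : MCont (fun s => es s a) :=
  MCont_sfun ha.1 esR (fun k => esR_continuousOn (eig_nonneg ha k))

theorem Mint_es {a : Matrix n n ℂ} (ha : a.PosSemidef) : Mint (fun s => es s a) = ent a := by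
  unfold es
  rw [Mint_sfun ha.1 esR]
  · exact sfun_congr ha.1 (fun i => integral_esR (eig_nonneg ha i))
  · intro k
    apply ContinuousOn.intervalIntegrable
    rw [uIcc_of_le zero_le_one]
    exact esR_continuousOn (eig_nonneg ha k)

theorem Mint_cs_sq {a : Matrix n n ℂ} (ha : a.PosSemidef) :
    Mint (fun s => cs s a * cs s a) = a := by
  unfold cs
  simp only [← sfun_mul ha.1]
  rw [Mint_sfun ha.1 (fun s u => csR s u * csR s u)]
  · conv_rhs => rw [← sfun_id ha.1]
    exact sfun_congr ha.1 (fun i => integral_csR_sq (eig_nonneg ha i))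
  · intro k
    apply ContinuousOn.intervalIntegrable
    rw [uIcc_of_le zero_le_one]
    exact (csR_continuousOn (eig_nonneg ha k)).mul (csR_continuousOn (eig_nonneg ha k))

end Crest.Agent.PR.GA
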