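/-
ROW 342, project PR.  BLOCK (E): quantum correlated sampling.  Definitions (FROZEN).  Architect: helper57.

MATRIX PICTURE.  A vector on `ιA × ιB` is a matrix `Ψ : Matrix ιA ιB ℂ` (`ofMat Ψ`), `(A ⊗ B) ψ = A Ψ Bᵀ`,
`nsq (ofMat Ψ) = fsq Ψ` (squared Frobenius norm).

ONE-REGISTER LADDER.  `W ≥ 1` smear width, ratio `q = qW W = W²/(W²+1)`, ladder kernel
`Kl W i j = q^(i+j) * tent W (i-j)`, `tent W d = (W-|d|)⁺`; window length `nW W = W²+W`.
Exact covariance: `Kl W (i+m) (j+m') = q^(m+m') * q^(i+j) * tent W (i-j+m-m')`.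
A player who sees the eigenvalue `lam ≠ 0` keeps the window `[m, m + nW W)`, `m = mOf W |lam|` = least `k` with `q^(2k) ≤ |lam|`,
and shifts it down to `[0, nW W)` (`shiftMat`); Alice also multiplies by the sign of `lam`.
-/
import Crest.Agent.PR_Defs

set_option autoImplicit false

namespace Crest.Agent.PR

open scoped Kronecker ComplexOrder Matrix

section mat
variable {m n : Type} [Fintype m] [Fintype n]

/-- squared Frobenius norm -/
noncomputable def fsq (X : Matrix m n ℂ) : ℝ := ∑ i, ∑ j, ‖X i j‖ ^ 2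

/-- a matrix as a bipartite vector -/
def ofMat (X : Matrix m n ℂ) : m × n → ℂ := fun p => X p.1 p.2

/-- contraction -/
def IsContr (A : Matrix m n ℂ) : Prop := ∀ x : n → ℂ, nsq (A.mulVec x) ≤ nsq x

end mat

/-! ### the ladder -/

/-- tent function of half-width `W` -/
noncomputable def tent (W : ℕ) (d : ℤ) : ℝ := max 0 ((W : ℝ) - |(d : ℝ)|)

/-- ratio of the geometric ladder -/
noncomputable def qW (W : ℕ) : ℝ := (W : ℝ) ^ 2 / ((W : ℝ) ^ 2 + 1)

/-- ladder kernel -/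
noncomputable def Kl (W : ℕ) (i j : ℕ) : ℝ := qW W ^ (i + j) * tent W ((i : ℤ) - (j : ℤ))

/-- window length -/
def nW (W : ℕ) : ℕ := W ^ 2 + W

/-- squared norm of the reference ancilla state -/
noncomputable def X0 (W : ℕ) : ℝ :=
  ∑ i ∈ Finset.range (nW W), ∑ j ∈ Finset.range (nW W), Kl W i j ^ 2

/-- the ladder state of length `L`, as a matrix -/
noncomputable def ladMat (W L : ℕ) : Matrix (Fin L) (Fin L) ℂ := fun i j => ((Kl W i j : ℝ) : ℂ)

/-- the reference ancilla state -/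
noncomputable def chiMat (W : ℕ) : Matrix (Fin (nW W)) (Fin (nW W)) ℂ := ladMat W (nW W)

/-- window `[m, m+n)` of `Fin L` shifted down to `Fin n` -/
def shiftMat (n L m : ℕ) : Matrix (Fin n) (Fin L) ℂ := fun i j => if (j : ℕ) = (i : ℕ) + m then 1 else 0

/-- least `k` with `q^(2k) ≤ a` -/
noncomputable def mOf (W : ℕ) (a : ℝ) : ℕ := sInf {k : ℕ | qW W ^ (2 * k) ≤ a}

/-- Alice's ladder operator for the eigenvalue `lam` -/
noncomputable def kapA (W L : ℕ) (lam : ℝ) : Matrix (Fin (nW W)) (Fin L) ℂ :=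
  if lam = 0 then 0 else (if 0 < lam then (1 : ℂ) else -1) • shiftMat (nW W) L (mOf W |lam|)

/-- Bob's ladder operator for the eigenvalue `mu` -/
noncomputable def kapB (W L : ℕ) (mu : ℝ) : Matrix (Fin (nW W)) (Fin L) ℂ :=
  if mu = 0 then 0 else shiftMat (nW W) L (mOf W |mu|)

/-! ### spectral lift -/

section lift
variable {H I J : Type} [Fintype H] [DecidableEq H] [Fintype I] [DecidableEq I] [Fintype J] [DecidableEq J]

/-- block diagonal matrix with blocks `κ (α k)` -/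
def dblk (α : H → ℝ) (κ : ℝ → Matrix I J ℂ) : Matrix (H × I) (H × J) ℂ :=
  fun p p' => if p.1 = p'.1 then κ (α p.1) p.2 p'.2 else 0

/-- `∑ₖ |vₖ⟩⟨vₖ| ⊗ κ(αₖ)` for the unitary `V` with columns `vₖ` -/
def lift (V : Matrix H H ℂ) (α : H → ℝ) (κ : ℝ → Matrix I J ℂ) : Matrix (H × I) (H × J) ℂ :=
  (V ⊗ₖ (1 : Matrix I I ℂ)) * dblk α κ * (Vᴴ ⊗ₖ (1 : Matrix J J ℂ))

/-- `V diag(α) Vᴴ` -/
def specMat (V : Matrix H H ℂ) (α : H → ℝ) : Matrix H H ℂ :=
  V * Matrix.diagonal (fun k => ((α k : ℝ) : ℂ)) * Vᴴ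

end lift

/-- Hermitian dilation (with the factor `1/2`) of a rectangular matrix -/
noncomputable def dil {ιA ιB : Type} (Gm : Matrix ιA ιB ℂ) : Matrix (ιA ⊕ ιB) (ιA ⊕ ιB) ℂ :=
  (1 / 2 : ℂ) • Matrix.fromBlocks 0 Gm Gmᴴ 0

end Crest.Agent.PR
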