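/-
ROW 342, project PR, block (E).  Task QC: contractions.  Architect: helper57.
`IsContr A := ∀ x, nsq (A *ᵥ x) ≤ nsq x`.
-/
import Crest.Agent.PR_QDefs

set_option autoImplicit false
set_option linter.unusedSectionVars false

namespace Crest.Agent.PR

open scoped Kronecker ComplexOrder Matrix

section
variable {m n p m' : Type} [Fintype m] [Fintype n] [Fintype p] [Fintype m']

private theorem qc_nsq_nonneg (x : n → ℂ) : 0 ≤ nsq x := by
  unfold nsq; positivity

private theorem qc_nsq_eq (x : n → ℂ) : ((nsq x : ℝ) : ℂ) = star x ⬝ᵥ x := by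
  unfold nsq dotProduct
  push_cast
  refine Finset.sum_congr rfl fun i _ => ?_
  rw [Pi.star_apply, Complex.star_def, Complex.conj_mul']

private theorem qc_nsq_mulVec (A : Matrix m n ℂ) (x : n → ℂ) :
    ((nsq (A *ᵥ x) : ℝ) : ℂ) = star x ⬝ᵥ ((Aᴴ * A) *ᵥ x) := by
  rw [qc_nsq_eq, Matrix.star_mulVec, ← Matrix.mulVec_mulVec, Matrix.dotProduct_mulVec (star x) Aᴴ]

private theorem qc_nsq_smul (c : ℂ) (f : n → ℂ) : nsq (c • f) = ‖c‖ ^ 2 * nsq f := by
  unfold nsq
  rw [Finset.mul_sum]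
  refine Finset.sum_congr rfl fun i _ => ?_
  simp [mul_pow]

/-- `xᴴ (1 - AᴴA) x = nsq x - nsq (A x)` -/
theorem IsContr.posSemidef_one_sub [DecidableEq n] {A : Matrix m n ℂ} (h : IsContr A) :
    (1 - Aᴴ * A).PosSemidef := by
  refine Matrix.PosSemidef.of_dotProduct_mulVec_nonneg ?_ ?_
  · exact Matrix.isHermitian_one.sub (Matrix.isHermitian_conjTranspose_mul_self A)
  · intro x
    rw [Matrix.sub_mulVec, Matrix.one_mulVec, dotProduct_sub, ← qc_nsq_mulVec, ← qc_nsq_eq,
      ← Complex.ofReal_sub]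
    exact_mod_cast sub_nonneg.2 (h x)

theorem IsContr.mul {A : Matrix m n ℂ} {B : Matrix n p ℂ} (hA : IsContr A) (hB : IsContr B) :
    IsContr (A * B) := by
  intro x
  rw [← Matrix.mulVec_mulVec]
  exact (hA _).trans (hB x)

theorem IsContr.submatrix_rows {A : Matrix m n ℂ} (h : IsContr A) (r : m' → m)
    (hr : Function.Injective r) : IsContr (A.submatrix r id) := by
  classical
  intro x
  refine le_trans ?_ (h x)
  have h1 : (A.submatrix r id) *ᵥ x = (A *ᵥ x) ∘ r := by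
    funext i
    simp [Matrix.mulVec, dotProduct]
  rw [h1]
  unfold nsq
  have h2 : ∑ i, ‖((A *ᵥ x) ∘ r) i‖ ^ 2 = ∑ j ∈ Finset.univ.image r, ‖(A *ᵥ x) j‖ ^ 2 := by
    rw [Finset.sum_image (fun a _ b _ hab => hr hab)]
    rfl
  rw [h2]
  exact Finset.sum_le_sum_of_subset_of_nonneg (Finset.subset_univ _) (fun _ _ _ => by positivity)

/-- entrywise complex conjugate: `(conj A) x = conj (A (conj x))` -/
theorem IsContr.map_star {A : Matrix m n ℂ} (h : IsContr A) : IsContr (A.map star) := by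
  intro x
  have h1 : (A.map star) *ᵥ x = star (A *ᵥ star x) := by
    funext i
    simp [Matrix.mulVec, dotProduct]
  have h2 : ∀ {k : Type} [Fintype k] (v : k → ℂ), nsq (star v) = nsq v := by
    intro k _ v
    unfold nsq
    simp
  rw [h1, h2, ← h2 x]
  exact h _

theorem isContr_zero : IsContr (0 : Matrix m n ℂ) := by
  intro x
  rw [Matrix.zero_mulVec]
  have : nsq (0 : m → ℂ) = 0 := by simp [nsq]
  rw [this]
  exact qc_nsq_nonneg x

theorem IsContr.smul_unit {A : Matrix m n ℂ} (h : IsContr A) (c : ℂ) (hc : ‖c‖ = 1) : IsContr (c • A) := by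
  intro x
  rw [Matrix.smul_mulVec, qc_nsq_smul, hc]
  simpa using h x

theorem isContr_of_unitary [DecidableEq m] {V : Matrix m m ℂ} (h : Vᴴ * V = 1) : IsContr V := by
  intro x
  have h1 : ((nsq (V *ᵥ x) : ℝ) : ℂ) = ((nsq x : ℝ) : ℂ) := by
    rw [qc_nsq_mulVec, h, Matrix.one_mulVec, qc_nsq_eq]
  exact le_of_eq (by exact_mod_cast h1)

end

section
variable {H I J : Type} [Fintype H] [DecidableEq H] [Fintype I] [DecidableEq I] [Fintype J] [DecidableEq J]

theorem isContr_kron_one {V : Matrix H H ℂ} (hV : Vᴴ * V = 1) : IsContr (V ⊗ₖ (1 : Matrix I I ℂ)) := by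
  apply isContr_of_unitary
  rw [Matrix.conjTranspose_kronecker, ← Matrix.mul_kronecker_mul, hV, Matrix.conjTranspose_one,
    Matrix.one_mul, Matrix.one_kronecker_one]

/-- block by block -/
theorem isContr_dblk (α : H → ℝ) (κ : ℝ → Matrix I J ℂ) (h : ∀ a, IsContr (κ a)) :
    IsContr (dblk α κ) := by
  intro x
  have h1 : ∀ (k : H) (i : I), (dblk α κ *ᵥ x) (k, i) = (κ (α k) *ᵥ fun j => x (k, j)) i := by
    intro k i
    simp only [Matrix.mulVec, dotProduct, dblk, Fintype.sum_prod_type]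
    rw [Finset.sum_eq_single k]
    · simp
    · intro b _ hb
      simp [Ne.symm hb]
    · simp
  unfold nsq
  rw [Fintype.sum_prod_type, Fintype.sum_prod_type]
  refine Finset.sum_le_sum fun k _ => ?_
  have := h (α k) (fun j => x (k, j))
  unfold nsq at this
  simpa [h1] using this

theorem isContr_lift {V : Matrix H H ℂ} (hV : Vᴴ * V = 1) (hV' : V * Vᴴ = 1) (α : H → ℝ)
    (κ : ℝ → Matrix I J ℂ) (h : ∀ a, IsContr (κ a)) : IsContr (lift V α κ) := by
  unfold lift
  refine ((isContr_kron_one hV).mul (isContr_dblk α κ h)).mul (isContr_kron_one ?_)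
  rw [Matrix.conjTranspose_conjTranspose]
  exact hV'

end

/-- `(shiftMat n L m *ᵥ x) i = x (i+m)` if `i + m < L`, else `0`; `i ↦ i+m` is injective -/
theorem isContr_shiftMat (n L m : ℕ) : IsContr (shiftMat n L m) := by
  intro x
  have h1 : ∀ i : Fin n, ‖(shiftMat n L m *ᵥ x) i‖ ^ 2
      = ∑ j : Fin L, if (j : ℕ) = (i : ℕ) + m then ‖x j‖ ^ 2 else 0 := by
    intro i
    simp only [Matrix.mulVec, dotProduct, shiftMat]
    by_cases hi : (i : ℕ) + m < L
    · rw [Finset.sum_eq_single (⟨(i : ℕ) + m, hi⟩ : Fin L),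
        Finset.sum_eq_single (⟨(i : ℕ) + m, hi⟩ : Fin L)]
      · simp
      · intro b _ hb
        have : (b : ℕ) ≠ (i : ℕ) + m := fun hh => hb (Fin.ext hh)
        simp [this]
      · simp
      · intro b _ hb
        have : (b : ℕ) ≠ (i : ℕ) + m := fun hh => hb (Fin.ext hh)
        simp [this]
      · simp
    · have : ∀ b : Fin L, (b : ℕ) ≠ (i : ℕ) + m := fun b hh => hi (hh ▸ b.2)
      simp [this]
  unfold nsq
  simp only [h1]
  rw [Finset.sum_comm]
  refine Finset.sum_le_sum fun j _ => ?_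
  by_cases hj : ∃ i : Fin n, (j : ℕ) = (i : ℕ) + m
  · obtain ⟨i0, hi0⟩ := hj
    rw [Finset.sum_eq_single i0]
    · simp [hi0]
    · intro b _ hb
      have : (j : ℕ) ≠ (b : ℕ) + m := by
        intro hh
        apply hb
        apply Fin.ext
        omega
      simp [this]
    · simp
  · push Not at hj
    simp [hj]

theorem isContr_kapA (W L : ℕ) (lam : ℝ) : IsContr (kapA W L lam) := by
  unfold kapA
  split_ifs
  · exact isContr_zero
  · exact (isContr_shiftMat _ _ _).smul_unit _ (by simp)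
  · exact (isContr_shiftMat _ _ _).smul_unit _ (by simp)

theorem isContr_kapB (W L : ℕ) (mu : ℝ) : IsContr (kapB W L mu) := by
  unfold kapB
  split_ifs
  · exact isContr_zero
  · exact isContr_shiftMat _ _ _

section
variable {m n a α : Type} [Fintype m] [Fintype n] [DecidableEq n] [Fintype a] [DecidableEq a] [DecidableEq m]
  [Fintype α]

/-- the sub-POVM elements `Cᴴ (N ⊗ 1) C` are PSD -/
theorem posSemidef_conj_kron (C : Matrix (m × a) n ℂ) {N : Matrix m m ℂ} (hN : N.PosSemidef) :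
    (Cᴴ * (N ⊗ₖ (1 : Matrix a a ℂ)) * C).PosSemidef :=
  (hN.kronecker Matrix.PosSemidef.one).conjTranspose_mul_mul_same C

private theorem qc_sum_kron (N : α → Matrix m m ℂ) :
    ∑ x, N x ⊗ₖ (1 : Matrix a a ℂ) = (∑ x, N x) ⊗ₖ (1 : Matrix a a ℂ) := by
  ext i j
  simp [Matrix.kroneckerMap_apply, Matrix.sum_apply, Finset.sum_mul]

/-- they sum to `Cᴴ C` -/
theorem sum_conj_kron_povm (C : Matrix (m × a) n ℂ) {N : α → Matrix m m ℂ} (hN : IsPOVM N) :
    ∑ x, Cᴴ * (N x ⊗ₖ (1 : Matrix a a ℂ)) * C = Cᴴ * C := by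
  rw [← Matrix.sum_mul, ← Matrix.mul_sum, qc_sum_kron, hN.2, Matrix.one_kronecker_one, Matrix.mul_one]

/-- `N ⊗ 1` is again a POVM -/
theorem isPOVM_kron_one {N : α → Matrix m m ℂ} (hN : IsPOVM N) :
    IsPOVM (fun x => N x ⊗ₖ (1 : Matrix a a ℂ)) := by
  refine ⟨fun x => (hN.1 x).kronecker Matrix.PosSemidef.one, ?_⟩
  rw [qc_sum_kron, hN.2, Matrix.one_kronecker_one]

end

end Crest.Agent.PR
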