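/-
ROW 342, project PR, block (E).  Task QM: the matrix picture (Frobenius norm, `ofMat`, `qf`).  Architect: helper57.
All statements are elementary finite-sum / matrix identities.  PR_QfBasic (sorry-free) has qf_nonneg, qf_one_one, qf_smul_vec,
qf_kron_mulVec, nsq_kron_mulVec, qf_sub_left/right, nsq_smul, ...: use them.
-/
import Crest.Agent.PR_QDefs
import Crest.Agent.PR_QfBasic

set_option autoImplicit false

namespace Crest.Agent.PR

open scoped Kronecker ComplexOrder Matrix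

section
variable {m n m' n' : Type} [Fintype m] [Fintype n] [Fintype m'] [Fintype n']

theorem fsq_nonneg (X : Matrix m n ℂ) : 0 ≤ fsq X := by
  unfold fsq
  exact Finset.sum_nonneg fun i _ => Finset.sum_nonneg fun j _ => by positivity

theorem nsq_ofMat (X : Matrix m n ℂ) : nsq (ofMat X) = fsq X := by
  unfold nsq fsq ofMat
  rw [Fintype.sum_prod_type]

theorem ofMat_sub (X Y : Matrix m n ℂ) : ofMat (X - Y) = ofMat X - ofMat Y := by
  rfl

theorem ofMat_smul (c : ℂ) (X : Matrix m n ℂ) : ofMat (c • X) = c • ofMat X := by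
  rfl

theorem fsq_smul (c : ℂ) (X : Matrix m n ℂ) : fsq (c • X) = ‖c‖ ^ 2 * fsq X := by
  rw [← nsq_ofMat, ofMat_smul, nsq_smul, nsq_ofMat]

theorem fsq_conjTranspose (X : Matrix m n ℂ) : fsq Xᴴ = fsq X := by
  unfold fsq
  rw [Finset.sum_comm]
  simp only [Matrix.conjTranspose_apply, norm_star]

theorem fsq_transpose (X : Matrix m n ℂ) : fsq Xᵀ = fsq X := by
  unfold fsq
  rw [Finset.sum_comm]
  simp only [Matrix.transpose_apply]

theorem fsq_sub_comm (X Y : Matrix m n ℂ) : fsq (X - Y) = fsq (Y - X) := by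
  unfold fsq
  simp only [Matrix.sub_apply]
  refine Finset.sum_congr rfl fun i _ => Finset.sum_congr rfl fun j _ => ?_
  rw [norm_sub_rev]

/-- `fsq X = Re tr (Xᴴ X)` -/
theorem fsq_eq_trace (X : Matrix m n ℂ) : fsq X = (Matrix.trace (Xᴴ * X)).re := by
  unfold fsq
  simp only [Matrix.trace, Matrix.diag_apply, Matrix.mul_apply, Matrix.conjTranspose_apply,
    Complex.re_sum]
  rw [Finset.sum_comm]
  refine Finset.sum_congr rfl fun i _ => Finset.sum_congr rfl fun j _ => ?_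
  rw [Complex.star_def, Complex.conj_mul', ← Complex.ofReal_pow, Complex.ofReal_re]

theorem fsq_submatrix_le (X : Matrix m n ℂ) (r : m' → m) (c : n' → n)
    (hr : Function.Injective r) (hc : Function.Injective c) : fsq (X.submatrix r c) ≤ fsq X := by
  rw [← nsq_ofMat, ← nsq_ofMat]
  unfold nsq ofMat
  have h := Finset.sum_map (Finset.univ : Finset (m' × n'))
    (⟨Prod.map r c, hr.prodMap hc⟩ : m' × n' ↪ m × n) (fun p : m × n => ‖X p.1 p.2‖ ^ 2)
  simp only [Function.Embedding.coeFn_mk, Prod.map_fst, Prod.map_snd] at h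
  simp only [Matrix.submatrix_apply]
  rw [← h]
  exact Finset.sum_le_sum_of_subset_of_nonneg (Finset.subset_univ _) fun _ _ _ => by positivity

theorem fsq_kronecker (X : Matrix m n ℂ) (Y : Matrix m' n' ℂ) : fsq (X ⊗ₖ Y) = fsq X * fsq Y := by
  unfold fsq
  simp only [Fintype.sum_prod_type, Matrix.kroneckerMap_apply, norm_mul, mul_pow]
  rw [Finset.sum_mul_sum]
  refine Finset.sum_congr rfl fun i _ => Finset.sum_congr rfl fun i' _ => ?_
  rw [Finset.sum_mul_sum]

private theorem sqrt_nsq_eq_norm' {ι : Type} [Fintype ι] (f : ι → ℂ) :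
    Real.sqrt (nsq f) = ‖(WithLp.toLp 2 f : EuclideanSpace ℂ ι)‖ := by
  rw [EuclideanSpace.norm_eq]
  rfl

/-- triangle inequality for the Frobenius norm -/
theorem sqrt_fsq_add_le (X Y : Matrix m n ℂ) :
    Real.sqrt (fsq (X + Y)) ≤ Real.sqrt (fsq X) + Real.sqrt (fsq Y) := by
  rw [← nsq_ofMat, ← nsq_ofMat, ← nsq_ofMat]
  have e : ofMat (X + Y) = ofMat X + ofMat Y := rfl
  rw [e, sqrt_nsq_eq_norm', sqrt_nsq_eq_norm', sqrt_nsq_eq_norm']
  exact norm_add_le (WithLp.toLp 2 (ofMat X) : EuclideanSpace ℂ (m × n)) (WithLp.toLp 2 (ofMat Y))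

theorem fsq_add_le_two (X Y : Matrix m n ℂ) : fsq (X + Y) ≤ 2 * fsq X + 2 * fsq Y := by
  unfold fsq
  simp only [Finset.mul_sum, ← Finset.sum_add_distrib, Matrix.add_apply]
  refine Finset.sum_le_sum fun i _ => Finset.sum_le_sum fun j _ => ?_
  have h := norm_add_le (X i j) (Y i j)
  have h0 := norm_nonneg (X i j + Y i j)
  nlinarith [sq_nonneg (‖X i j‖ - ‖Y i j‖)]

/-- `(A ⊗ B) vec(X) = vec(A X Bᵀ)` -/
theorem kronecker_mulVec_ofMat (A : Matrix m' m ℂ) (B : Matrix n' n ℂ) (X : Matrix m n ℂ) :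
    (A ⊗ₖ B).mulVec (ofMat X) = ofMat (A * X * Bᵀ) := by
  funext p
  obtain ⟨i, j⟩ := p
  simp only [Matrix.mulVec, dotProduct, ofMat, Fintype.sum_prod_type, Matrix.kroneckerMap_apply,
    Matrix.mul_apply, Matrix.transpose_apply, Finset.sum_mul]
  rw [Finset.sum_comm]
  refine Finset.sum_congr rfl fun a _ => Finset.sum_congr rfl fun b _ => ?_
  ring

/-- conjugating the observables = moving the state -/
theorem qf_conj (Ψ : Matrix m n ℂ) (CA : Matrix m' m ℂ) (CB : Matrix n' n ℂ)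
    (M : Matrix m' m' ℂ) (M' : Matrix n' n' ℂ) :
    qf (ofMat Ψ) (CAᴴ * M * CA) (CBᴴ * M' * CB) = qf (ofMat (CA * Ψ * CBᵀ)) M M' := by
  classical
  rw [← kronecker_mulVec_ofMat, qf_kron_mulVec]

/-- both players reject: inclusion-exclusion -/
theorem qf_defect [DecidableEq m] [DecidableEq n] (Ψ : Matrix m n ℂ)
    (CA : Matrix m' m ℂ) (CB : Matrix n' n ℂ) :
    qf (ofMat Ψ) (1 - CAᴴ * CA) (1 - CBᴴ * CB)
      = fsq Ψ - fsq (CA * Ψ) - fsq (Ψ * CBᵀ) + fsq (CA * Ψ * CBᵀ) := by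
  classical
  rw [qf_sub_left, qf_sub_right, qf_sub_right, qf_one_one, nsq_ofMat]
  have h1 : qf (ofMat Ψ) 1 (CBᴴ * CB) = fsq (Ψ * CBᵀ) := by
    have := nsq_kron_mulVec (ofMat Ψ) (1 : Matrix m m ℂ) CB
    rw [kronecker_mulVec_ofMat, nsq_ofMat, Matrix.one_mul, Matrix.conjTranspose_one,
      Matrix.one_mul] at this
    exact this.symm
  have h2 : qf (ofMat Ψ) (CAᴴ * CA) 1 = fsq (CA * Ψ) := by
    have := nsq_kron_mulVec (ofMat Ψ) CA (1 : Matrix n n ℂ)
    rw [kronecker_mulVec_ofMat, nsq_ofMat, Matrix.transpose_one, Matrix.mul_one,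
      Matrix.conjTranspose_one, Matrix.one_mul] at this
    exact this.symm
  have h3 : qf (ofMat Ψ) (CAᴴ * CA) (CBᴴ * CB) = fsq (CA * Ψ * CBᵀ) := by
    have := nsq_kron_mulVec (ofMat Ψ) CA CB
    rw [kronecker_mulVec_ofMat, nsq_ofMat] at this
    exact this.symm
  rw [h1, h2, h3]
  ring

private theorem dot_ofMat_kron (A C : Matrix m n ℂ) (B D : Matrix m' n' ℂ) :
    dotProduct (star (ofMat (A ⊗ₖ B))) (ofMat (C ⊗ₖ D))
      = dotProduct (star (ofMat A)) (ofMat C) * dotProduct (star (ofMat B)) (ofMat D) := by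
  simp only [dotProduct, ofMat, Pi.star_apply, Fintype.sum_prod_type, Matrix.kroneckerMap_apply,
    star_mul']
  rw [Finset.sum_mul_sum]
  refine Finset.sum_congr rfl fun i _ => Finset.sum_congr rfl fun i' _ => ?_
  rw [Finset.sum_mul_sum]
  refine Finset.sum_congr rfl fun j _ => Finset.sum_congr rfl fun j' _ => ?_
  ring

private theorem dot_ofMat_self (B : Matrix m n ℂ) :
    dotProduct (star (ofMat B)) (ofMat B) = ((fsq B : ℝ) : ℂ) := by
  rw [← nsq_ofMat]
  unfold nsq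
  simp only [dotProduct, Pi.star_apply]
  push_cast
  refine Finset.sum_congr rfl fun i _ => ?_
  rw [Complex.star_def, Complex.conj_mul']

/-- observables acting trivially on the ancilla -/
theorem qf_kron_anc [DecidableEq m'] [DecidableEq n'] (Gm : Matrix m n ℂ) (χ : Matrix m' n' ℂ)
    (N : Matrix m m ℂ) (N' : Matrix n n ℂ) :
    qf (ofMat (Gm ⊗ₖ χ)) (N ⊗ₖ (1 : Matrix m' m' ℂ)) (N' ⊗ₖ (1 : Matrix n' n' ℂ))
      = qf (ofMat Gm) N N' * fsq χ := by
  unfold qf
  rw [kronecker_mulVec_ofMat, kronecker_mulVec_ofMat, ← Matrix.kroneckerMap_transpose,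
    Matrix.transpose_one, ← Matrix.mul_kronecker_mul, ← Matrix.mul_kronecker_mul, Matrix.one_mul,
    Matrix.mul_one, dot_ofMat_kron, dot_ofMat_self, mul_comm, Complex.re_ofReal_mul, mul_comm]

end

end Crest.Agent.PR
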