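/-
ROW 342, project PR, block (E).  Task QD: Hermitian dilation and diagonalisation.  Architect: helper57.
`dil G = (1/2) • fromBlocks 0 G Gᴴ 0`.
-/
import Crest.Agent.PR_QMat

set_option autoImplicit false

namespace Crest.Agent.PR

open scoped Kronecker ComplexOrder Matrix

/-- spectral theorem in the form we use (`Matrix.IsHermitian.spectral_theorem`, `eigenvectorUnitary`, `eigenvalues`) -/
theorem exists_diag {H : Type} [Fintype H] [DecidableEq H] (T : Matrix H H ℂ) (hT : T.IsHermitian) :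
    ∃ (V : Matrix H H ℂ) (α : H → ℝ), Vᴴ * V = 1 ∧ V * Vᴴ = 1 ∧ specMat V α = T := by
  refine ⟨(hT.eigenvectorUnitary : Matrix H H ℂ), hT.eigenvalues, ?_, ?_, ?_⟩
  · have := Unitary.star_mul_self_of_mem hT.eigenvectorUnitary.2
    simpa [Matrix.star_eq_conjTranspose] using this
  · have := Unitary.mul_star_self_of_mem hT.eigenvectorUnitary.2
    simpa [Matrix.star_eq_conjTranspose] using this
  · have h := hT.spectral_theorem
    rw [Unitary.conjStarAlgAut_apply] at h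
    unfold specMat
    rw [← Matrix.star_eq_conjTranspose]
    exact h.symm

section
variable {ιA ιB I : Type} [Fintype ιA] [Fintype ιB] [Fintype I]

theorem dil_isHermitian (Gm : Matrix ιA ιB ℂ) : (dil Gm).IsHermitian := by
  unfold dil Matrix.IsHermitian
  rw [Matrix.conjTranspose_smul, Matrix.fromBlocks_conjTranspose]
  simp

/-- `fsq` of a block matrix -/
private theorem qdil_fsq_fromBlocks (A : Matrix ιA ιA ℂ) (B : Matrix ιA ιB ℂ) (C : Matrix ιB ιA ℂ)
    (D : Matrix ιB ιB ℂ) : fsq (Matrix.fromBlocks A B C D) = fsq A + fsq B + fsq C + fsq D := by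
  unfold fsq
  simp only [Fintype.sum_sum_type, Matrix.fromBlocks_apply₁₁, Matrix.fromBlocks_apply₁₂,
    Matrix.fromBlocks_apply₂₁, Matrix.fromBlocks_apply₂₂, Finset.sum_add_distrib]
  ring

private theorem qdil_fsq_zero {m n : Type} [Fintype m] [Fintype n] : fsq (0 : Matrix m n ℂ) = 0 := by
  unfold fsq
  simp

theorem fsq_dil (Gm : Matrix ιA ιB ℂ) : fsq (dil Gm) = fsq Gm / 2 := by
  unfold dil
  rw [fsq_smul, qdil_fsq_fromBlocks, qdil_fsq_zero, qdil_fsq_zero, fsq_conjTranspose]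
  norm_num
  ring

theorem fsq_dil_sub (Gm Gm' : Matrix ιA ιB ℂ) : fsq (dil Gm - dil Gm') = fsq (Gm - Gm') / 2 := by
  have h : dil Gm - dil Gm' = dil (Gm - Gm') := by
    ext (i | i) (j | j) <;> simp [dil, mul_sub]
  rw [h, fsq_dil]

private theorem qdil_norm_half (z : ℂ) : ‖(1 / 2 : ℂ) * z‖ ^ 2 = (1 / 4) * ‖z‖ ^ 2 := by
  rw [norm_mul, mul_pow]
  norm_num

theorem fsq_dil_rows (Gm : Matrix ιA ιB ℂ) : fsq ((dil Gm).submatrix Sum.inl id) = fsq Gm / 4 := by
  have h1 : ∀ (i a : ιA), dil Gm (Sum.inl i) (Sum.inl a) = 0 := by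
    intro i a; simp [dil]
  have h2 : ∀ (i : ιA) (b : ιB), dil Gm (Sum.inl i) (Sum.inr b) = (1 / 2 : ℂ) * Gm i b := by
    intro i b; simp [dil]
  unfold fsq
  simp only [Matrix.submatrix_apply, id, Fintype.sum_sum_type, h1, h2, qdil_norm_half, norm_zero]
  rw [Finset.sum_div]
  refine Finset.sum_congr rfl fun i _ => ?_
  rw [← Finset.mul_sum]
  simp
  ring

theorem fsq_dil_cols (Gm : Matrix ιA ιB ℂ) : fsq ((dil Gm).submatrix id Sum.inr) = fsq Gm / 4 := by
  have h1 : ∀ (i b : ιB), dil Gm (Sum.inr i) (Sum.inr b) = 0 := by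
    intro i b; simp [dil]
  have h2 : ∀ (i : ιA) (b : ιB), dil Gm (Sum.inl i) (Sum.inr b) = (1 / 2 : ℂ) * Gm i b := by
    intro i b; simp [dil]
  unfold fsq
  simp only [Matrix.submatrix_apply, id, Fintype.sum_sum_type, h1, h2, qdil_norm_half, norm_zero,
    ← Finset.mul_sum]
  simp
  ring

/-- the (Alice = `inl`, Bob = `inr`) corner of `dil G ⊗ χ` -/
theorem dil_kron_submatrix (Gm : Matrix ιA ιB ℂ) (χ : Matrix I I ℂ) :
    (dil Gm ⊗ₖ χ).submatrix (Prod.map Sum.inl id) (Prod.map Sum.inr id) = (1 / 2 : ℂ) • (Gm ⊗ₖ χ) := by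
  ext p q
  obtain ⟨a, i⟩ := p
  obtain ⟨b, j⟩ := q
  simp only [dil, Matrix.submatrix_apply, Prod.map_apply, id, Matrix.kroneckerMap_apply,
    Matrix.smul_apply, Matrix.fromBlocks_apply₁₂, smul_eq_mul]
  ring

end

end Crest.Agent.PR
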