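/-
ROW 342, project PR, block (E).  Task QL1: elementary facts on the ladder.  Architect: helper57.
q = qW W = W²/(W²+1), n = nW W = W²+W, tent W d = (W-|d|)⁺, Kl W i j = q^(i+j) tent W (i-j), Sg W = ∑_{k<n} q^(4k).
-/
import Crest.Agent.PR_QDefs

set_option autoImplicit false

namespace Crest.Agent.PR

open Finset

/-- geometric sum -/
noncomputable def Sg (W : ℕ) : ℝ := ∑ k ∈ range (nW W), qW W ^ (4 * k)

private theorem W_pos {W : ℕ} (hW : 1 ≤ W) : (1 : ℝ) ≤ (W : ℝ) := by exact_mod_cast hW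

theorem qW_pos {W : ℕ} (hW : 1 ≤ W) : 0 < qW W := by
  have := W_pos hW
  unfold qW
  positivity

theorem qW_lt_one (W : ℕ) : qW W < 1 := by
  unfold qW
  rw [div_lt_one (by positivity)]
  linarith

theorem one_sub_qW (W : ℕ) : 1 - qW W = 1 / ((W : ℝ) ^ 2 + 1) := by
  unfold qW
  have : (W : ℝ) ^ 2 + 1 ≠ 0 := by positivity
  field_simp
  ring

theorem inv_qW {W : ℕ} (hW : 1 ≤ W) : (qW W)⁻¹ = 1 + 1 / (W : ℝ) ^ 2 := by
  have h := W_pos hW
  unfold qW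
  have h1 : (W : ℝ) ^ 2 + 1 ≠ 0 := by positivity
  have h2 : (W : ℝ) ≠ 0 := by positivity
  field_simp

/-- Bernoulli: `q^W ≥ 1 - W/(W²+1) ≥ 1/2` -/
theorem half_le_qW_pow {W : ℕ} (hW : 1 ≤ W) : 1 / 2 ≤ qW W ^ W := by
  have h := W_pos hW
  have h1 : (-2 : ℝ) ≤ qW W - 1 := by linarith [qW_pos hW]
  have h2 := one_add_mul_le_pow h1 W
  have h3 : 1 + (qW W - 1) = qW W := by ring
  rw [h3] at h2
  refine le_trans ?_ h2
  have h4 : qW W - 1 = -(1 / ((W : ℝ) ^ 2 + 1)) := by rw [← one_sub_qW]; ring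
  rw [h4]
  have h5 : (W : ℝ) * (1 / ((W : ℝ) ^ 2 + 1)) ≤ 1 / 2 := by
    rw [mul_one_div, div_le_div_iff₀ (by positivity) (by norm_num)]
    nlinarith [sq_nonneg ((W : ℝ) - 1)]
  linarith

/-- Bernoulli: `(1+1/W²)^(W²) ≥ 2` -/
theorem qW_pow_sq_le_half {W : ℕ} (hW : 1 ≤ W) : qW W ^ (W ^ 2) ≤ 1 / 2 := by
  have h := W_pos hW
  have hq := qW_pos hW
  have h1 : (-2 : ℝ) ≤ 1 / (W : ℝ) ^ 2 := by
    have : (0 : ℝ) ≤ 1 / (W : ℝ) ^ 2 := by positivity
    linarith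
  have h2 := one_add_mul_le_pow h1 (W ^ 2)
  rw [← inv_qW hW] at h2
  have h3 : (1 : ℝ) + ((W ^ 2 : ℕ) : ℝ) * (1 / (W : ℝ) ^ 2) = 2 := by
    have : (W : ℝ) ≠ 0 := by positivity
    push_cast
    field_simp
    norm_num
  rw [h3, inv_pow] at h2
  have h4 : 0 < qW W ^ (W ^ 2) := by positivity
  rw [le_inv_comm₀ (by norm_num) h4] at h2
  linarith

theorem tent_nonneg (W : ℕ) (d : ℤ) : 0 ≤ tent W d := le_max_left _ _

theorem tent_le (W : ℕ) (d : ℤ) : tent W d ≤ W := by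
  unfold tent
  exact max_le (Nat.cast_nonneg _) (by linarith [abs_nonneg (d : ℝ)])

theorem tent_eq_zero {W : ℕ} {d : ℤ} (h : (W : ℤ) ≤ |d|) : tent W d = 0 := by
  unfold tent
  have h1 : (W : ℝ) ≤ |(d : ℝ)| := by exact_mod_cast h
  exact max_eq_left (by linarith)

theorem tent_of_lt {W : ℕ} {d : ℤ} (h : |d| ≤ (W : ℤ)) : tent W d = (W : ℝ) - |(d : ℝ)| := by
  unfold tent
  have h1 : |(d : ℝ)| ≤ (W : ℝ) := by exact_mod_cast h
  exact max_eq_right (by linarith)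

theorem tent_neg (W : ℕ) (d : ℤ) : tent W (-d) = tent W d := by
  unfold tent
  simp

/-- the tent is 1-Lipschitz and bounded by `W` -/
theorem abs_tent_sub_le (W : ℕ) (d e : ℤ) : |tent W (d + e) - tent W d| ≤ min |(e : ℝ)| W := by
  refine le_min ?_ ?_
  · unfold tent
    rw [max_comm (0 : ℝ), max_comm (0 : ℝ)]
    refine (abs_max_sub_max_le_abs ((W : ℝ) - |((d + e : ℤ) : ℝ)|)
      ((W : ℝ) - |(d : ℝ)|) (0 : ℝ)).trans ?_
    have h1 : (W : ℝ) - |((d + e : ℤ) : ℝ)| - ((W : ℝ) - |(d : ℝ)|)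
        = |(d : ℝ)| - |((d + e : ℤ) : ℝ)| := by ring
    rw [h1]
    refine (abs_abs_sub_abs_le (d : ℝ) ((d + e : ℤ) : ℝ)).trans (le_of_eq ?_)
    push_cast
    rw [← abs_neg]
    congr 1
    ring
  · rw [abs_le]
    constructor <;>
    linarith [tent_nonneg W (d + e), tent_nonneg W d, tent_le W (d + e), tent_le W d]

theorem Kl_symm (W i j : ℕ) : Kl W i j = Kl W j i := by
  unfold Kl
  rw [add_comm i j, ← tent_neg W ((i : ℤ) - (j : ℤ)), neg_sub]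

/-- exact covariance of the ladder -/
theorem Kl_shift (W i j m m' : ℕ) :
    Kl W (i + m) (j + m') =
      qW W ^ (m + m') * (qW W ^ (i + j) * tent W ((i : ℤ) - (j : ℤ) + ((m : ℤ) - (m' : ℤ)))) := by
  unfold Kl
  have h1 : (((i + m : ℕ) : ℤ) - ((j + m' : ℕ) : ℤ)) = (i : ℤ) - (j : ℤ) + ((m : ℤ) - (m' : ℤ)) := by
    push_cast; ring
  have h2 : i + m + (j + m') = (m + m') + (i + j) := by ring
  rw [h1, h2, pow_add]
  ring

private theorem Sg_eq (W : ℕ) : Sg W = ∑ k ∈ range (nW W), (qW W ^ 4) ^ k := by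
  unfold Sg
  exact Finset.sum_congr rfl (fun k _ => by rw [pow_mul])

private theorem one_sub_q4_le {W : ℕ} (hW : 1 ≤ W) :
    1 - qW W ^ 4 ≤ 4 / ((W : ℝ) ^ 2 + 1) := by
  have hq := qW_pos hW
  have hq1 := qW_lt_one W
  have h1 : 1 - qW W ^ 4 = (1 - qW W) * (1 + qW W + qW W ^ 2 + qW W ^ 3) := by ring
  have h2 : 1 + qW W + qW W ^ 2 + qW W ^ 3 ≤ 4 := by
    have : qW W ^ 2 ≤ 1 := pow_le_one₀ hq.le hq1.le
    have : qW W ^ 3 ≤ 1 := pow_le_one₀ hq.le hq1.le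
    linarith
  rw [h1, one_sub_qW]
  rw [div_mul_eq_mul_div, one_mul]
  exact div_le_div_of_nonneg_right h2 (by positivity)

private theorem q4W2_le {W : ℕ} (hW : 1 ≤ W) : (qW W ^ 4) ^ (W ^ 2) ≤ 1 / 16 := by
  have hq := qW_pos hW
  have h := qW_pow_sq_le_half hW
  have h1 : (qW W ^ 4) ^ (W ^ 2) = (qW W ^ (W ^ 2)) ^ 4 := by
    rw [← pow_mul, ← pow_mul, mul_comm]
  rw [h1]
  calc (qW W ^ (W ^ 2)) ^ 4 ≤ (1 / 2 : ℝ) ^ 4 := pow_le_pow_left₀ (by positivity) h 4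
    _ = 1 / 16 := by norm_num

/-- `(1-q⁴) Sg = 1 - q^(4n) ≥ 15/16`, `1 - q⁴ ≤ 4(1-q) = 4/(W²+1)` -/
theorem Sg_ge {W : ℕ} (hW : 1 ≤ W) : (W : ℝ) ^ 2 / 8 ≤ Sg W := by
  have h := W_pos hW
  have hq := qW_pos hW
  have hq1 := qW_lt_one W
  have hS0 : 0 ≤ Sg W := by
    unfold Sg
    exact Finset.sum_nonneg (fun k _ => by positivity)
  have h1 : (1 - qW W ^ 4) * Sg W = 1 - (qW W ^ 4) ^ (nW W) := by
    rw [Sg_eq]
    exact mul_neg_geom_sum _ _
  have h2 : (qW W ^ 4) ^ (nW W) ≤ 1 / 16 := by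
    refine le_trans ?_ (q4W2_le hW)
    apply pow_le_pow_of_le_one (by positivity) (pow_le_one₀ hq.le hq1.le)
    unfold nW
    omega
  have h3 : (15 : ℝ) / 16 ≤ 4 / ((W : ℝ) ^ 2 + 1) * Sg W := by
    calc (15 : ℝ) / 16 ≤ 1 - (qW W ^ 4) ^ (nW W) := by linarith
      _ = (1 - qW W ^ 4) * Sg W := h1.symm
      _ ≤ 4 / ((W : ℝ) ^ 2 + 1) * Sg W := mul_le_mul_of_nonneg_right (one_sub_q4_le hW) hS0
  have h4 : 4 / ((W : ℝ) ^ 2 + 1) * Sg W = 4 * Sg W / ((W : ℝ) ^ 2 + 1) := by ring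
  rw [h4, le_div_iff₀ (by positivity)] at h3
  nlinarith

theorem Sg_pos {W : ℕ} (hW : 1 ≤ W) : 0 < Sg W := by
  have h := W_pos hW
  refine lt_of_lt_of_le ?_ (Sg_ge hW)
  positivity

private theorem band_card_le (W n : ℕ) (a : ℤ) :
    ∑ j ∈ range n, (if |a - (j : ℤ)| < (W : ℤ) then (1 : ℝ) else 0) ≤ 2 * W := by
  rw [← Finset.sum_filter, Finset.sum_const, nsmul_eq_mul, mul_one]
  have h1 : ((range n).filter (fun j : ℕ => |a - (j : ℤ)| < (W : ℤ))).card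
      ≤ (Finset.Ioo (a - W) (a + W)).card := by
    apply Finset.card_le_card_of_injOn (fun j : ℕ => (j : ℤ))
    · intro j hj
      have hj' := (Finset.mem_filter.mp (Finset.mem_coe.mp hj)).2
      rw [abs_lt] at hj'
      simp only [Finset.coe_Ioo, Set.mem_Ioo]
      constructor <;> linarith [hj'.1, hj'.2]
    · intro i _ j _ hij
      have hij' : (i : ℤ) = (j : ℤ) := hij
      exact_mod_cast hij'
  rw [Int.card_Ioo] at h1
  have h2 : (a + W - (a - W) - 1).toNat ≤ 2 * W := by omega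
  exact_mod_cast h1.trans h2

/-- mass of a band `|i - j + c| < W`: `q^(2(i+j)) ≤ q^(4 min(i,j))`, and for a given value `k` of `min(i,j)` there are at most
`2(2W-1)` pairs in the band. -/
theorem band_sum_le {W : ℕ} (hW : 1 ≤ W) (c : ℤ) :
    ∑ i ∈ range (nW W), ∑ j ∈ range (nW W),
      (if |(i : ℤ) - (j : ℤ) + c| < (W : ℤ) then qW W ^ (2 * (i + j)) else 0) ≤ 4 * W * Sg W := by
  have hq := qW_pos hW
  have hS := Sg_pos hW
  have hW0 : (0 : ℝ) ≤ W := Nat.cast_nonneg _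
  -- AM-GM
  have ham : ∀ i j : ℕ, qW W ^ (2 * (i + j)) ≤ (qW W ^ (4 * i) + qW W ^ (4 * j)) / 2 := by
    intro i j
    have h1 : qW W ^ (2 * (i + j)) = qW W ^ (2 * i) * qW W ^ (2 * j) := by
      rw [← pow_add]; congr 1; ring
    have h2 : qW W ^ (4 * i) = (qW W ^ (2 * i)) ^ 2 := by rw [← pow_mul]; congr 1; ring
    have h3 : qW W ^ (4 * j) = (qW W ^ (2 * j)) ^ 2 := by rw [← pow_mul]; congr 1; ring
    rw [h1, h2, h3]
    nlinarith [sq_nonneg (qW W ^ (2 * i) - qW W ^ (2 * j))]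
  have hstep : ∀ i j : ℕ,
      (if |(i : ℤ) - (j : ℤ) + c| < (W : ℤ) then qW W ^ (2 * (i + j)) else 0)
      ≤ qW W ^ (4 * i) / 2 * (if |((i : ℤ) + c) - (j : ℤ)| < (W : ℤ) then (1 : ℝ) else 0)
        + qW W ^ (4 * j) / 2 * (if |((j : ℤ) - c) - (i : ℤ)| < (W : ℤ) then (1 : ℝ) else 0) := by
    intro i j
    have e1 : ((i : ℤ) + c) - (j : ℤ) = (i : ℤ) - (j : ℤ) + c := by ring
    have e2 : |((j : ℤ) - c) - (i : ℤ)| = |(i : ℤ) - (j : ℤ) + c| := by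
      rw [← abs_neg]; congr 1; ring
    rw [e1, e2]
    split_ifs with h
    · have := ham i j
      linarith
    · simp
  calc ∑ i ∈ range (nW W), ∑ j ∈ range (nW W),
      (if |(i : ℤ) - (j : ℤ) + c| < (W : ℤ) then qW W ^ (2 * (i + j)) else 0)
      ≤ ∑ i ∈ range (nW W), ∑ j ∈ range (nW W),
        (qW W ^ (4 * i) / 2 * (if |((i : ℤ) + c) - (j : ℤ)| < (W : ℤ) then (1 : ℝ) else 0)
        + qW W ^ (4 * j) / 2 * (if |((j : ℤ) - c) - (i : ℤ)| < (W : ℤ) then (1 : ℝ) else 0)) :=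
        Finset.sum_le_sum (fun i _ => Finset.sum_le_sum (fun j _ => hstep i j))
    _ = ∑ i ∈ range (nW W), qW W ^ (4 * i) / 2 * ∑ j ∈ range (nW W),
          (if |((i : ℤ) + c) - (j : ℤ)| < (W : ℤ) then (1 : ℝ) else 0)
        + ∑ j ∈ range (nW W), qW W ^ (4 * j) / 2 * ∑ i ∈ range (nW W),
          (if |((j : ℤ) - c) - (i : ℤ)| < (W : ℤ) then (1 : ℝ) else 0) := by
        simp only [Finset.sum_add_distrib, Finset.mul_sum]
        congr 1
        rw [Finset.sum_comm]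
    _ ≤ ∑ i ∈ range (nW W), qW W ^ (4 * i) / 2 * (2 * W)
        + ∑ j ∈ range (nW W), qW W ^ (4 * j) / 2 * (2 * W) := by
        apply add_le_add
        · exact Finset.sum_le_sum (fun i _ =>
            mul_le_mul_of_nonneg_left (band_card_le W _ _) (by positivity))
        · exact Finset.sum_le_sum (fun j _ =>
            mul_le_mul_of_nonneg_left (band_card_le W _ _) (by positivity))
    _ = 2 * W * Sg W := by
        unfold Sg
        rw [← Finset.sum_add_distrib, Finset.mul_sum]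
        exact Finset.sum_congr rfl (fun i _ => by ring)
    _ ≤ 4 * W * Sg W := by nlinarith

private theorem sum_sq_ge (W : ℕ) : (W : ℝ) ^ 3 / 3 ≤ ∑ u ∈ range W, ((W : ℝ) - u) ^ 2 := by
  have key : ∀ n : ℕ, ∑ u ∈ range n, ((n : ℝ) - u) ^ 2 = (n : ℝ) * (n + 1) * (2 * n + 1) / 6 := by
    intro n
    induction n with
    | zero => simp
    | succ n ih =>
      rw [Finset.sum_range_succ']
      have : ∀ u ∈ range n, (((n + 1 : ℕ) : ℝ) - ((u + 1 : ℕ) : ℝ)) ^ 2 = ((n : ℝ) - u) ^ 2 := by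
        intro u _
        push_cast
        ring
      rw [Finset.sum_congr rfl this, ih]
      push_cast
      ring
  rw [key]
  have : (0 : ℝ) ≤ W := Nat.cast_nonneg _
  nlinarith [mul_nonneg this this]

private theorem Sg_half_le {W : ℕ} (hW : 1 ≤ W) :
    Sg W / 2 ≤ ∑ j ∈ range (W ^ 2), qW W ^ (4 * j) := by
  have hq := qW_pos hW
  have hq1 := qW_lt_one W
  have h1 : Sg W = ∑ j ∈ range (W ^ 2), qW W ^ (4 * j)
      + ∑ k ∈ range W, qW W ^ (4 * (W ^ 2 + k)) := by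
    unfold Sg nW
    rw [Finset.sum_range_add]
  have h2 : ∑ k ∈ range W, qW W ^ (4 * (W ^ 2 + k))
      ≤ ∑ j ∈ range (W ^ 2), qW W ^ (4 * j) := by
    calc ∑ k ∈ range W, qW W ^ (4 * (W ^ 2 + k)) ≤ ∑ k ∈ range W, qW W ^ (4 * k) := by
          refine Finset.sum_le_sum (fun k _ => ?_)
          exact pow_le_pow_of_le_one hq.le hq1.le (by omega)
      _ ≤ ∑ j ∈ range (W ^ 2), qW W ^ (4 * j) := by
          refine Finset.sum_le_sum_of_subset_of_nonneg (Finset.range_mono ?_)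
            (fun j _ _ => by positivity)
          nlinarith
  linarith

/-- restrict to `i = j + u`, `j < W²`, `u < W`: `X0 ≥ q^(2W) (∑_{u<W} (W-u)²) ∑_{j<W²} q^(4j) ≥ (1/4)(W³/3)(Sg/2)` -/
theorem X0_ge {W : ℕ} (hW : 1 ≤ W) : (W : ℝ) ^ 3 * Sg W / 24 ≤ X0 W := by
  have hq := qW_pos hW
  have hq1 := qW_lt_one W
  have hS := Sg_pos hW
  have hW0 : (0 : ℝ) ≤ W := Nat.cast_nonneg _
  have hterm : ∀ j u : ℕ, u < W →
      qW W ^ (4 * j) * (1 / 4 * ((W : ℝ) - u) ^ 2) ≤ Kl W (j + u) j ^ 2 := by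
    intro j u hu
    unfold Kl
    have h1 : (((j + u : ℕ) : ℤ) - (j : ℤ)) = (u : ℤ) := by push_cast; ring
    have h2 : tent W (u : ℤ) = (W : ℝ) - u := by
      rw [tent_of_lt (by rw [abs_of_nonneg (by positivity)]; exact_mod_cast hu.le)]
      simp
    rw [h1, h2, mul_pow]
    have h3 : (qW W ^ (j + u + j)) ^ 2 = qW W ^ (4 * j) * (qW W ^ u) ^ 2 := by
      rw [← pow_mul, ← pow_mul, ← pow_add]; congr 1; ring
    rw [h3, mul_assoc]
    apply mul_le_mul_of_nonneg_left _ (by positivity)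
    apply mul_le_mul_of_nonneg_right _ (sq_nonneg _)
    have h4 : 1 / 2 ≤ qW W ^ u :=
      (half_le_qW_pow hW).trans (pow_le_pow_of_le_one hq.le hq1.le hu.le)
    nlinarith
  have hinner : ∀ j ∈ range (W ^ 2),
      qW W ^ (4 * j) * (1 / 4 * ((W : ℝ) ^ 3 / 3)) ≤ ∑ i ∈ range (nW W), Kl W i j ^ 2 := by
    intro j hj
    have hj' : j < W ^ 2 := Finset.mem_range.mp hj
    calc qW W ^ (4 * j) * (1 / 4 * ((W : ℝ) ^ 3 / 3))
        ≤ qW W ^ (4 * j) * (1 / 4 * ∑ u ∈ range W, ((W : ℝ) - u) ^ 2) := by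
          apply mul_le_mul_of_nonneg_left _ (by positivity)
          linarith [sum_sq_ge W]
      _ = ∑ u ∈ range W, qW W ^ (4 * j) * (1 / 4 * ((W : ℝ) - u) ^ 2) := by
          rw [Finset.mul_sum, Finset.mul_sum]
      _ ≤ ∑ u ∈ range W, Kl W (j + u) j ^ 2 :=
          Finset.sum_le_sum (fun u hu => hterm j u (Finset.mem_range.mp hu))
      _ = ∑ i ∈ Finset.Ico j (j + W), Kl W i j ^ 2 := by
          rw [Finset.sum_Ico_eq_sum_range, Nat.add_sub_cancel_left]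
      _ ≤ ∑ i ∈ range (nW W), Kl W i j ^ 2 := by
          refine Finset.sum_le_sum_of_subset_of_nonneg ?_ (fun i _ _ => sq_nonneg _)
          intro i hi
          rw [Finset.mem_Ico] at hi
          rw [Finset.mem_range]
          unfold nW
          omega
  unfold X0
  rw [Finset.sum_comm]
  calc (W : ℝ) ^ 3 * Sg W / 24 = (Sg W / 2) * (1 / 4 * ((W : ℝ) ^ 3 / 3)) := by ring
    _ ≤ (∑ j ∈ range (W ^ 2), qW W ^ (4 * j)) * (1 / 4 * ((W : ℝ) ^ 3 / 3)) :=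
        mul_le_mul_of_nonneg_right (Sg_half_le hW) (by positivity)
    _ = ∑ j ∈ range (W ^ 2), qW W ^ (4 * j) * (1 / 4 * ((W : ℝ) ^ 3 / 3)) := by
        rw [Finset.sum_mul]
    _ ≤ ∑ j ∈ range (W ^ 2), ∑ i ∈ range (nW W), Kl W i j ^ 2 := Finset.sum_le_sum hinner
    _ ≤ ∑ j ∈ range (nW W), ∑ i ∈ range (nW W), Kl W i j ^ 2 := by
        refine Finset.sum_le_sum_of_subset_of_nonneg (Finset.range_mono ?_)
          (fun j _ _ => Finset.sum_nonneg (fun i _ => sq_nonneg _))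
        unfold nW
        omega

theorem X0_ge' {W : ℕ} (hW : 1 ≤ W) : (W : ℝ) ^ 5 / 192 ≤ X0 W := by
  have hW0 : (0 : ℝ) ≤ W := Nat.cast_nonneg _
  refine le_trans ?_ (X0_ge hW)
  have h := Sg_ge hW
  have h3 : (0 : ℝ) ≤ (W : ℝ) ^ 3 := by positivity
  nlinarith [mul_le_mul_of_nonneg_left h h3]

theorem X0_pos {W : ℕ} (hW : 1 ≤ W) : 0 < X0 W := by
  have h := W_pos hW
  refine lt_of_lt_of_le ?_ (X0_ge' hW)
  positivity

end Crest.Agent.PR
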