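/-
ROW 342, project PR, block (E).  Task QL3: (G2) the mass of the rows `[m, m+n)` of the ladder is `(1+O(1/W)) q^(4m) X0`.
Architect: helper57.
Proof.  Split the column index `j < L` into (a) `m ≤ j < m+n`: with `j = j'+m`, `Kl_shift` gives `Kl (i+m) (j'+m) = q^(2m) Kl i j'`,
total `≤ (q^(2m))² X0`;  (b) `j < m`: nonzero only if `i + m - j < W`, so `i < W`, `m - W < j`: at most `W²` pairs, each
`≤ q^(2(i+m+j)) W² ≤ q^(4m-2W) W² ≤ 4 (q^(2m))² W²` (`half_le_qW_pow`; note `i+m+j ≥ 2m - W`);  (c) `j ≥ m+n`: nonzero only if `j - i - m < W`, so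
`n - W < i < n`, `m+n ≤ j < m+n+W`: at most `W²` pairs, each `≤ (q^(2m))² W²`.  So the excess is `≤ 5 W⁴ (q^(2m))² ≤ (960/W) X0 (q^(2m))²` (`X0_ge'`).
-/
import Crest.Agent.PR_QLadA

set_option autoImplicit false

namespace Crest.Agent.PR

open Finset

private lemma QLadC_sum_le_card_mul {α : Type} [DecidableEq α] (s t : Finset α) (f : α → ℝ) (C : ℝ)
    (hC : 0 ≤ C) (h1 : ∀ x ∈ s, x ∉ t → f x ≤ 0) (h2 : ∀ x ∈ s, f x ≤ C) :
    ∑ x ∈ s, f x ≤ (t.card : ℝ) * C := by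
  calc ∑ x ∈ s, f x ≤ ∑ x ∈ s, (if x ∈ t then C else 0) := by
        apply sum_le_sum
        intro x hx
        by_cases hxt : x ∈ t
        · simp [hxt, h2 x hx]
        · simp [hxt, h1 x hx hxt]
    _ = ((s.filter (· ∈ t)).card : ℝ) * C := by
        rw [← sum_filter, sum_const, nsmul_eq_mul]
    _ ≤ (t.card : ℝ) * C := by
        apply mul_le_mul_of_nonneg_right _ hC
        exact_mod_cast card_le_card (fun x hx => (mem_filter.1 hx).2)

private lemma QLadC_Kl_eq_zero {W a b : ℕ} (h : b + W ≤ a) : Kl W a b = 0 := by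
  unfold Kl
  rw [tent_eq_zero, mul_zero]
  have h' : (W : ℤ) ≤ (a : ℤ) - (b : ℤ) := by omega
  exact h'.trans (le_abs_self _)

private lemma QLadC_Kl_eq_zero' {W a b : ℕ} (h : a + W ≤ b) : Kl W a b = 0 := by
  rw [Kl_symm]; exact QLadC_Kl_eq_zero h

private lemma QLadC_qW_nonneg (W : ℕ) : 0 ≤ qW W := by
  unfold qW; positivity

private lemma QLadC_Kl_sq_le (W a b : ℕ) : Kl W a b ^ 2 ≤ qW W ^ (2 * (a + b)) * (W : ℝ) ^ 2 := by
  unfold Kl
  rw [mul_pow, ← pow_mul, mul_comm (a + b) 2]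
  apply mul_le_mul_of_nonneg_left
  · exact pow_le_pow_left₀ (tent_nonneg W _) (tent_le W _) 2
  · exact pow_nonneg (QLadC_qW_nonneg W) _

private lemma QLadC_sq_eq (W m : ℕ) : (qW W ^ (2 * m)) ^ 2 = qW W ^ (4 * m) := by
  rw [← pow_mul]; ring_nf

private lemma QLadC_qpow_le_four {W : ℕ} (hW : 1 ≤ W) {a m : ℕ} (h : 2 * m ≤ a + W) :
    qW W ^ (2 * a) ≤ 4 * (qW W ^ (2 * m)) ^ 2 := by
  have hq0 := qW_pos hW
  have hq1 := (qW_lt_one W).le
  have h1 : qW W ^ (2 * (a + W)) ≤ qW W ^ (4 * m) := pow_le_pow_of_le_one hq0.le hq1 (by omega)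
  have h2 : (1:ℝ) / 4 ≤ qW W ^ (2 * W) := by
    have := half_le_qW_pow hW
    rw [mul_comm, pow_mul]
    nlinarith
  have h3 : qW W ^ (2 * (a + W)) = qW W ^ (2 * a) * qW W ^ (2 * W) := by
    rw [← pow_add]; ring_nf
  have h5 : 0 ≤ qW W ^ (2 * a) := by positivity
  rw [QLadC_sq_eq]
  nlinarith

private lemma QLadC_qpow_le {W : ℕ} (hW : 1 ≤ W) {a m : ℕ} (h : 2 * m ≤ a) :
    qW W ^ (2 * a) ≤ (qW W ^ (2 * m)) ^ 2 := by
  rw [QLadC_sq_eq]
  exact pow_le_pow_of_le_one (qW_pos hW).le (qW_lt_one W).le (by omega)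

theorem ladder_row_mass {W : ℕ} (hW : 1 ≤ W) (m L : ℕ) :
    ∑ i ∈ range (nW W), ∑ j ∈ range L, Kl W (i + m) j ^ 2
      ≤ (1 + 2000 / (W : ℝ)) * X0 W * (qW W ^ (2 * m)) ^ 2 := by
  set Q : ℝ := (qW W ^ (2 * m)) ^ 2 with hQ
  have hQ0 : 0 ≤ Q := by positivity
  have hWpos : (0:ℝ) < W := by exact_mod_cast hW
  -- split the columns
  have step1 : ∀ i, ∑ j ∈ range L, Kl W (i + m) j ^ 2 ≤
      ∑ j ∈ range m, Kl W (i + m) j ^ 2 + ∑ j ∈ range (nW W), Kl W (i + m) (m + j) ^ 2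
        + ∑ j ∈ range L, Kl W (i + m) (m + nW W + j) ^ 2 := by
    intro i
    have h : ∑ j ∈ range L, Kl W (i + m) j ^ 2 ≤ ∑ j ∈ range (m + nW W + L), Kl W (i + m) j ^ 2 := by
      apply sum_le_sum_of_subset_of_nonneg
      · intro x hx
        simp only [mem_range] at hx ⊢
        omega
      · intros; positivity
    rw [sum_range_add, sum_range_add] at h
    exact h
  -- (a)
  have hA : ∑ i ∈ range (nW W), ∑ j ∈ range (nW W), Kl W (i + m) (m + j) ^ 2 = X0 W * Q := by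
    unfold X0
    rw [sum_mul]
    apply sum_congr rfl
    intro i _
    rw [sum_mul]
    apply sum_congr rfl
    intro j _
    rw [add_comm m j, Kl_shift W i j m m, sub_self, add_zero, hQ, ← two_mul, mul_pow]
    unfold Kl
    ring
  -- (b)
  have hB : ∑ i ∈ range (nW W), ∑ j ∈ range m, Kl W (i + m) j ^ 2
      ≤ ((W * W : ℕ) : ℝ) * (4 * Q * (W : ℝ) ^ 2) := by
    rw [← sum_product' (range (nW W)) (range m) (fun i j => Kl W (i + m) j ^ 2)]
    have hcard : (range W ×ˢ Ico (m - W) m).card ≤ W * W := by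
      rw [card_product, card_range, Nat.card_Ico]
      exact Nat.mul_le_mul_left _ (by omega)
    refine (QLadC_sum_le_card_mul _ (range W ×ˢ Ico (m - W) m) _ (4 * Q * (W : ℝ) ^ 2)
      (by positivity) ?_ ?_).trans ?_
    · rintro ⟨i, j⟩ hx hxt
      simp only [mem_product, mem_range, mem_Ico, not_and, not_lt] at hx hxt
      have : j + W ≤ i + m := by
        by_contra hcon
        have h1 : i < W := by omega
        have h2 : m - W ≤ j := by omega
        have := hxt h1 h2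
        omega
      simp [QLadC_Kl_eq_zero this]
    · rintro ⟨i, j⟩ hx
      simp only [mem_product, mem_range] at hx
      by_cases hc : j + W ≤ i + m
      · rw [QLadC_Kl_eq_zero hc]
        have : (0:ℝ) ≤ 4 * Q * (W : ℝ) ^ 2 := by positivity
        simpa using this
      · refine (QLadC_Kl_sq_le W (i + m) j).trans ?_
        apply mul_le_mul_of_nonneg_right _ (by positivity)
        exact QLadC_qpow_le_four hW (by omega)
    · apply mul_le_mul_of_nonneg_right _ (by positivity)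
      exact_mod_cast hcard
  -- (c)
  have hC : ∑ i ∈ range (nW W), ∑ j ∈ range L, Kl W (i + m) (m + nW W + j) ^ 2
      ≤ ((W * W : ℕ) : ℝ) * (Q * (W : ℝ) ^ 2) := by
    rw [← sum_product' (range (nW W)) (range L) (fun i j => Kl W (i + m) (m + nW W + j) ^ 2)]
    have hcard : (Ico (nW W - W) (nW W) ×ˢ range W).card ≤ W * W := by
      rw [card_product, card_range, Nat.card_Ico]
      exact Nat.mul_le_mul_right _ (by omega)
    refine (QLadC_sum_le_card_mul _ (Ico (nW W - W) (nW W) ×ˢ range W) _ (Q * (W : ℝ) ^ 2)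
      (by positivity) ?_ ?_).trans ?_
    · rintro ⟨i, j⟩ hx hxt
      simp only [mem_product, mem_range, mem_Ico, not_and, not_lt] at hx hxt
      have : i + m + W ≤ m + nW W + j := by
        by_contra hcon
        have h1 : nW W - W ≤ i := by omega
        have := hxt ⟨h1, hx.1⟩
        omega
      simp [QLadC_Kl_eq_zero' this]
    · rintro ⟨i, j⟩ hx
      refine (QLadC_Kl_sq_le W (i + m) (m + nW W + j)).trans ?_
      apply mul_le_mul_of_nonneg_right _ (by positivity)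
      exact QLadC_qpow_le hW (by omega)
    · apply mul_le_mul_of_nonneg_right _ (by positivity)
      exact_mod_cast hcard
  have hX := X0_ge' hW
  have hsum : ∑ i ∈ range (nW W), ∑ j ∈ range L, Kl W (i + m) j ^ 2
      ≤ X0 W * Q + 5 * (W : ℝ) ^ 4 * Q := by
    calc ∑ i ∈ range (nW W), ∑ j ∈ range L, Kl W (i + m) j ^ 2
        ≤ ∑ i ∈ range (nW W), (∑ j ∈ range m, Kl W (i + m) j ^ 2
            + ∑ j ∈ range (nW W), Kl W (i + m) (m + j) ^ 2
            + ∑ j ∈ range L, Kl W (i + m) (m + nW W + j) ^ 2) := sum_le_sum (fun i _ => step1 i)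
      _ = ∑ i ∈ range (nW W), ∑ j ∈ range m, Kl W (i + m) j ^ 2
            + ∑ i ∈ range (nW W), ∑ j ∈ range (nW W), Kl W (i + m) (m + j) ^ 2
            + ∑ i ∈ range (nW W), ∑ j ∈ range L, Kl W (i + m) (m + nW W + j) ^ 2 := by
          rw [sum_add_distrib, sum_add_distrib]
      _ ≤ ((W * W : ℕ) : ℝ) * (4 * Q * (W : ℝ) ^ 2) + X0 W * Q
            + ((W * W : ℕ) : ℝ) * (Q * (W : ℝ) ^ 2) := by
          rw [hA]; gcongr
      _ = X0 W * Q + 5 * (W : ℝ) ^ 4 * Q := by push_cast; ring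
  have h4 : 5 * (W : ℝ) ^ 4 ≤ 2000 / (W : ℝ) * X0 W := by
    rw [div_mul_eq_mul_div, le_div_iff₀ hWpos]
    have h5 : 5 * (W : ℝ) ^ 4 * W = 5 * (W : ℝ) ^ 5 := by ring
    have h6 : (0:ℝ) ≤ (W : ℝ) ^ 5 := by positivity
    rw [h5]
    linarith
  calc ∑ i ∈ range (nW W), ∑ j ∈ range L, Kl W (i + m) j ^ 2
      ≤ X0 W * Q + 5 * (W : ℝ) ^ 4 * Q := hsum
    _ ≤ X0 W * Q + 2000 / (W : ℝ) * X0 W * Q := by gcongr
    _ = (1 + 2000 / (W : ℝ)) * X0 W * Q := by ring

end Crest.Agent.PR
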