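/-
ROW 342, project PR, block (E).  Task QL2: (G1) a relative shift `d = m - m'` changes the ancilla state by `O(|d|/W)`.
Architect: helper57.
Proof.  By `Kl_shift` the summand is `(q^(m+m'))² q^(2(i+j)) (tent(i-j+d) - tent(i-j))²`.  By `abs_tent_sub_le` the last factor is
`≤ δ²`, `δ = min |d| W`, and it vanishes unless `|i-j| < W` or `|i-j+d| < W` (`tent_eq_zero`).  So the sum is
`≤ (q^(m+m'))² δ² (band(0) + band(d)) ≤ (q^(m+m'))² δ² 8 W Sg` (`band_sum_le`) and `W³ Sg ≤ 24 X0` (`X0_ge`): constant `192 ≤ 200`.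
-/
import Crest.Agent.PR_QLadA

set_option autoImplicit false

namespace Crest.Agent.PR

open Finset

/-- pointwise bound of one summand of `ladder_shift_diff` -/
private theorem ladder_shift_term (W : ℕ) (m m' i j : ℕ) (hq : 0 ≤ qW W) :
    (Kl W (i + m) (j + m') - qW W ^ (m + m') * Kl W i j) ^ 2 ≤
      (qW W ^ (m + m')) ^ 2 * (min |(m : ℝ) - (m' : ℝ)| W) ^ 2 *
        ((if |(i : ℤ) - (j : ℤ) + 0| < (W : ℤ) then qW W ^ (2 * (i + j)) else 0) +
          (if |(i : ℤ) - (j : ℤ) + ((m : ℤ) - (m' : ℤ))| < (W : ℤ) then qW W ^ (2 * (i + j))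
            else 0)) := by
  set q := qW W with hqdef
  set d : ℤ := (m : ℤ) - (m' : ℤ) with hd
  set e : ℤ := (i : ℤ) - (j : ℤ) with he
  set δ := min |(m : ℝ) - (m' : ℝ)| (W : ℝ) with hδ
  have hδ0 : 0 ≤ δ := le_min (abs_nonneg _) (Nat.cast_nonneg W)
  have hterm : Kl W (i + m) (j + m') - q ^ (m + m') * Kl W i j =
      q ^ (m + m') * (q ^ (i + j) * (tent W (e + d) - tent W e)) := by
    rw [Kl_shift, Kl]
    ring
  have habs : |tent W (e + d) - tent W e| ≤ δ := by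
    have := abs_tent_sub_le W e d
    have hc : ((d : ℤ) : ℝ) = (m : ℝ) - (m' : ℝ) := by rw [hd]; push_cast; ring
    rw [hc] at this
    exact this
  have hsq : (tent W (e + d) - tent W e) ^ 2 ≤ δ ^ 2 := by
    rw [← sq_abs]
    exact pow_le_pow_left₀ (abs_nonneg _) habs 2
  have hq2 : (q ^ (i + j)) ^ 2 = q ^ (2 * (i + j)) := by rw [← pow_mul, mul_comm]
  have hq2nn : 0 ≤ q ^ (2 * (i + j)) := pow_nonneg hq _
  have hQ : 0 ≤ (q ^ (m + m')) ^ 2 := sq_nonneg _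
  rw [hterm, add_zero]
  have hexp : (q ^ (m + m') * (q ^ (i + j) * (tent W (e + d) - tent W e))) ^ 2 =
      (q ^ (m + m')) ^ 2 * ((tent W (e + d) - tent W e) ^ 2 * q ^ (2 * (i + j))) := by
    rw [← hq2]; ring
  rw [hexp, mul_assoc]
  apply mul_le_mul_of_nonneg_left _ hQ
  by_cases h1 : |e| < (W : ℤ)
  · rw [if_pos h1]
    have h2 : 0 ≤ (if |e + d| < (W : ℤ) then q ^ (2 * (i + j)) else 0) := by
      split_ifs
      · exact hq2nn
      · exact le_rfl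
    calc (tent W (e + d) - tent W e) ^ 2 * q ^ (2 * (i + j)) ≤ δ ^ 2 * q ^ (2 * (i + j)) :=
          mul_le_mul_of_nonneg_right hsq hq2nn
      _ ≤ δ ^ 2 * (q ^ (2 * (i + j)) + (if |e + d| < (W : ℤ) then q ^ (2 * (i + j)) else 0)) :=
          mul_le_mul_of_nonneg_left (by linarith) (sq_nonneg _)
  · rw [if_neg h1, zero_add]
    by_cases h2 : |e + d| < (W : ℤ)
    · rw [if_pos h2]
      exact mul_le_mul_of_nonneg_right hsq hq2nn
    · rw [if_neg h2, tent_eq_zero (not_lt.1 h1), tent_eq_zero (not_lt.1 h2)]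
      simp

theorem ladder_shift_diff {W : ℕ} (hW : 1 ≤ W) (m m' : ℕ) :
    ∑ i ∈ range (nW W), ∑ j ∈ range (nW W),
        (Kl W (i + m) (j + m') - qW W ^ (m + m') * Kl W i j) ^ 2
      ≤ 200 * (qW W ^ (m + m')) ^ 2 * (min |(m : ℝ) - (m' : ℝ)| W / W) ^ 2 * X0 W := by
  have hq : 0 ≤ qW W := (qW_pos hW).le
  have hWpos : (0 : ℝ) < W := by exact_mod_cast hW
  set Q := (qW W ^ (m + m')) ^ 2 with hQ
  set δ := min |(m : ℝ) - (m' : ℝ)| (W : ℝ) with hδ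
  have hQ0 : 0 ≤ Q := sq_nonneg _
  have hb0 := band_sum_le hW 0
  have hbd := band_sum_le hW ((m : ℤ) - (m' : ℤ))
  have hX := X0_ge hW
  have hSg := (Sg_pos hW).le
  have h1 : ∑ i ∈ range (nW W), ∑ j ∈ range (nW W),
        (Kl W (i + m) (j + m') - qW W ^ (m + m') * Kl W i j) ^ 2 ≤
      ∑ i ∈ range (nW W), ∑ j ∈ range (nW W), Q * δ ^ 2 *
        ((if |(i : ℤ) - (j : ℤ) + 0| < (W : ℤ) then qW W ^ (2 * (i + j)) else 0) +
          (if |(i : ℤ) - (j : ℤ) + ((m : ℤ) - (m' : ℤ))| < (W : ℤ) then qW W ^ (2 * (i + j))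
            else 0)) :=
    sum_le_sum fun i _ => sum_le_sum fun j _ => ladder_shift_term W m m' i j hq
  have h2 : ∑ i ∈ range (nW W), ∑ j ∈ range (nW W), Q * δ ^ 2 *
        ((if |(i : ℤ) - (j : ℤ) + 0| < (W : ℤ) then qW W ^ (2 * (i + j)) else 0) +
          (if |(i : ℤ) - (j : ℤ) + ((m : ℤ) - (m' : ℤ))| < (W : ℤ) then qW W ^ (2 * (i + j))
            else 0)) =
      Q * δ ^ 2 * ((∑ i ∈ range (nW W), ∑ j ∈ range (nW W),
          (if |(i : ℤ) - (j : ℤ) + 0| < (W : ℤ) then qW W ^ (2 * (i + j)) else 0)) +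
        ∑ i ∈ range (nW W), ∑ j ∈ range (nW W),
          (if |(i : ℤ) - (j : ℤ) + ((m : ℤ) - (m' : ℤ))| < (W : ℤ) then qW W ^ (2 * (i + j))
            else 0)) := by
    simp only [mul_sum, sum_add_distrib, mul_add]
  have hc : 0 ≤ Q * δ ^ 2 := mul_nonneg hQ0 (sq_nonneg _)
  have h3 : Q * δ ^ 2 * ((∑ i ∈ range (nW W), ∑ j ∈ range (nW W),
          (if |(i : ℤ) - (j : ℤ) + 0| < (W : ℤ) then qW W ^ (2 * (i + j)) else 0)) +
        ∑ i ∈ range (nW W), ∑ j ∈ range (nW W),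
          (if |(i : ℤ) - (j : ℤ) + ((m : ℤ) - (m' : ℤ))| < (W : ℤ) then qW W ^ (2 * (i + j))
            else 0)) ≤ Q * δ ^ 2 * (8 * W * Sg W) :=
    mul_le_mul_of_nonneg_left (by linarith) hc
  have h4 : Q * δ ^ 2 * (8 * W * Sg W) ≤ 200 * Q * (δ / W) ^ 2 * X0 W := by
    have e1 : 200 * Q * (δ / W) ^ 2 * X0 W = Q * δ ^ 2 * (200 * X0 W / (W : ℝ) ^ 2) := by
      field_simp
    rw [e1]
    apply mul_le_mul_of_nonneg_left _ hc
    rw [le_div_iff₀ (by positivity)]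
    have e2 : 8 * (W : ℝ) * Sg W * (W : ℝ) ^ 2 = 192 * ((W : ℝ) ^ 3 * Sg W / 24) := by ring
    rw [e2]
    have : 0 ≤ X0 W := (X0_pos hW).le
    linarith
  calc _ ≤ _ := h1
    _ = _ := h2
    _ ≤ _ := h3
    _ ≤ _ := h4

end Crest.Agent.PR
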