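/-
ROW 342, project PR, block (E).  Task QL4: rounding `mOf` and the scalar error bound (G3).  Architect: helper57.

Let 0 < a, b ≤ 1, m = mOf W a, m' = mOf W b, P = q^m, P' = q^m', so q² a < P² ≤ a, q² b < P'² ≤ b, q^(m+m') = P P'.
(1) ∑∑ (Kl(i+m)(j+m') - a Kl i j)² ≤ 2 ∑∑ (Kl(i+m)(j+m') - P P' Kl i j)² + 2 (P P' - a)² X0.
(2) |P P' - a| ≤ P |P' - P| + (a - P²) ≤ |P'² - P²| + (1-q²) a ≤ |a-b| + (1-q²)(2a + |a-b|) ≤ 2|a-b| + 4 a / W   (1-q² ≤ 2(1-q) ≤ 2/W² ≤ 2/W).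
(3) P P' min(|m-m'|, W)/W ≤ 2a/W + W |a-b|:
    say b ≤ a (then m ≤ m'), D = m'-m.  D ≤ 1: P P' ≤ a.  D ≥ 2: a/b > q^(-2(D-1)) ≥ 1 + 2(D-1)/W² (Bernoulli, 1/q² ≥ 1+2/W²), i.e. D - 1 < W²(a-b)/(2b).
    If a ≤ 4b: P P' ≤ 2b, so P P' D/W ≤ 2b/W + W(a-b).  If a > 4b: P P' ≤ a/2 ≤ (2/3)(a-b) ≤ W(a-b).   The case a < b is symmetric
    (P P' ≤ 2a if b ≤ 4a, D - 1 < W²(b-a)/(2a); else P P' ≤ b/2 ≤ (2/3)(b-a)).
(4) `ladder_shift_diff`: first sum ≤ 200 (P P' δ/W)² X0 ≤ 200 (2a/W + W|a-b|)² X0.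
Total ≤ [400 (8a²/W² + 2W²(a-b)²) + 2 (8 (a-b)² + 32 a²/W²)] X0 ≤ 4000 (a²/W² + W²(a-b)²) X0.
-/
import Crest.Agent.PR_QLadB

set_option autoImplicit false

namespace Crest.Agent.PR

open Finset

private theorem mOf_nonempty {W : ℕ} (hW : 1 ≤ W) {a : ℝ} (ha : 0 < a) :
    {k : ℕ | qW W ^ (2 * k) ≤ a}.Nonempty := by
  have hq0 := qW_pos hW
  have hq1 := qW_lt_one W
  have h2 : qW W ^ 2 < 1 := by nlinarith
  obtain ⟨n, hn⟩ := exists_pow_lt_of_lt_one ha h2
  refine ⟨n, ?_⟩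
  simp only [Set.mem_setOf_eq]
  rw [pow_mul]
  exact hn.le

theorem mOf_spec {W : ℕ} (hW : 1 ≤ W) {a : ℝ} (ha : 0 < a) : qW W ^ (2 * mOf W a) ≤ a :=
  Nat.sInf_mem (mOf_nonempty hW ha)

theorem mOf_lower {W : ℕ} (hW : 1 ≤ W) {a : ℝ} (ha : 0 < a) (ha1 : a ≤ 1) :
    qW W ^ 2 * a < qW W ^ (2 * mOf W a) := by
  have hq0 := qW_pos hW
  have hq1 := qW_lt_one W
  have h2 : qW W ^ 2 < 1 := by nlinarith
  have h20 : 0 < qW W ^ 2 := by positivity
  rcases Nat.eq_zero_or_pos (mOf W a) with h | h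
  · rw [h]
    simp only [mul_zero, pow_zero]
    nlinarith
  · obtain ⟨k, hk⟩ : ∃ k, mOf W a = k + 1 := ⟨mOf W a - 1, by omega⟩
    have hnot : k ∉ {k : ℕ | qW W ^ (2 * k) ≤ a} := by
      apply Nat.notMem_of_lt_sInf
      change k < mOf W a
      omega
    simp only [Set.mem_setOf_eq, not_le] at hnot
    rw [hk]
    have : qW W ^ (2 * (k + 1)) = qW W ^ 2 * qW W ^ (2 * k) := by
      rw [← pow_add]; congr 1; ring
    rw [this]
    exact mul_lt_mul_of_pos_left hnot h20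

theorem mOf_anti {W : ℕ} (hW : 1 ≤ W) {a b : ℝ} (hb : 0 < b) (hab : b ≤ a) : mOf W a ≤ mOf W b := by
  apply Nat.sInf_le
  simp only [Set.mem_setOf_eq]
  exact (mOf_spec hW hb).trans hab

private theorem half_le_qW {W : ℕ} (hW : 1 ≤ W) : 1 / 2 ≤ qW W := by
  have hW' : (1 : ℝ) ≤ W := by exact_mod_cast hW
  unfold qW
  rw [div_le_div_iff₀ (by norm_num) (by positivity)]
  nlinarith

/-- the core of step (3), for `b ≤ a` -/
private theorem shift_amp_core {W : ℕ} (hW : 1 ≤ W) {a b : ℝ} (ha1 : a ≤ 1) (hb : 0 < b)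
    (hab : b ≤ a) :
    qW W ^ (mOf W a + mOf W b) * (min |(mOf W a : ℝ) - (mOf W b : ℝ)| W / W)
      ≤ 2 * b / W + W * (a - b) := by
  have ha : 0 < a := lt_of_lt_of_le hb hab
  have hb1 : b ≤ 1 := hab.trans ha1
  have hq0 := qW_pos hW
  have hq1 := qW_lt_one W
  have hqh := half_le_qW hW
  have hW' : (1 : ℝ) ≤ W := by exact_mod_cast hW
  have hW0 : (0 : ℝ) < W := by linarith
  obtain ⟨D, hD⟩ : ∃ D, mOf W b = mOf W a + D := ⟨mOf W b - mOf W a, by
    have := mOf_anti hW hb hab; omega⟩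
  set m := mOf W a with hm
  set m' := mOf W b with hm'
  have hPa : qW W ^ (2 * m) ≤ a := mOf_spec hW ha
  have hPb : qW W ^ (2 * m') ≤ b := mOf_spec hW hb
  have hLb : qW W ^ 2 * b < qW W ^ (2 * m') := mOf_lower hW hb hb1
  set R := qW W ^ (m + m') with hR
  have hR0 : 0 < R := by positivity
  have hRsq : R ^ 2 = qW W ^ (2 * m) * qW W ^ (2 * m') := by
    rw [hR, ← pow_mul, ← pow_add]; congr 1; ring
  have hRab : R ^ 2 ≤ a * b := by
    rw [hRsq]
    exact mul_le_mul hPa hPb (by positivity) ha.le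
  have habs : |(m : ℝ) - (m' : ℝ)| = D := by
    rw [hD]; push_cast
    rw [show (m : ℝ) - ((m : ℝ) + D) = -(D : ℝ) by ring, abs_neg, abs_of_nonneg (Nat.cast_nonneg D)]
  rw [habs]
  have hmin1 : min (D : ℝ) W / W ≤ D / W := by
    apply div_le_div_of_nonneg_right (min_le_left _ _) hW0.le
  have hmin2 : min (D : ℝ) W / W ≤ 1 := by
    rw [div_le_one hW0]; exact min_le_right _ _
  have hmin0 : 0 ≤ min (D : ℝ) W / W := by
    apply div_nonneg (le_min (Nat.cast_nonneg D) hW0.le) hW0.le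
  have hWab : 0 ≤ (W : ℝ) * (a - b) := mul_nonneg hW0.le (by linarith)
  by_cases hD1 : D ≤ 1
  · -- `R q^D = P'^2 ≤ b`
    have h1 : R * qW W ^ D = qW W ^ (2 * m') := by
      rw [hR, ← pow_add]; congr 1; omega
    have h2 : qW W ≤ qW W ^ D := by
      interval_cases D
      · simp; exact hq1.le
      · simp
    have h3 : R ≤ 2 * b := by
      have : R * (1 / 2) ≤ b := by
        calc R * (1 / 2) ≤ R * qW W ^ D := by
              apply mul_le_mul_of_nonneg_left (hqh.trans h2) hR0.le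
          _ = qW W ^ (2 * m') := h1
          _ ≤ b := hPb
      linarith
    have h4 : (D : ℝ) / W ≤ 1 / W := by
      apply div_le_div_of_nonneg_right _ hW0.le
      exact_mod_cast hD1
    calc R * (min (D : ℝ) W / W) ≤ (2 * b) * (1 / W) := by
          apply mul_le_mul h3 (hmin1.trans h4) hmin0 (by linarith)
      _ = 2 * b / W := by ring
      _ ≤ 2 * b / W + W * (a - b) := by linarith
  · have hD1 := not_le.mp hD1
    obtain ⟨E, hE⟩ : ∃ E, D = E + 1 := ⟨D - 1, by omega⟩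
    -- `b < a q^(2E)`
    have h1 : qW W ^ (2 * m') = qW W ^ 2 * (qW W ^ (2 * m) * qW W ^ (2 * E)) := by
      rw [← pow_add, ← pow_add]; congr 1; omega
    have h2 : b < a * qW W ^ (2 * E) := by
      have h20 : 0 < qW W ^ 2 := by positivity
      have : qW W ^ 2 * b < qW W ^ 2 * (a * qW W ^ (2 * E)) := by
        calc qW W ^ 2 * b < qW W ^ (2 * m') := hLb
          _ = qW W ^ 2 * (qW W ^ (2 * m) * qW W ^ (2 * E)) := h1
          _ ≤ qW W ^ 2 * (a * qW W ^ (2 * E)) := by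
              apply mul_le_mul_of_nonneg_left _ h20.le
              apply mul_le_mul_of_nonneg_right hPa (by positivity)
      exact lt_of_mul_lt_mul_left this h20.le
    have h3 : 1 + ((2 * E : ℕ) : ℝ) * (1 / (W : ℝ) ^ 2) ≤ ((qW W)⁻¹) ^ (2 * E) := by
      rw [inv_qW hW]
      apply one_add_mul_le_pow
      have : (0 : ℝ) ≤ 1 / (W : ℝ) ^ 2 := by positivity
      linarith
    have h4 : b * (1 + ((2 * E : ℕ) : ℝ) * (1 / (W : ℝ) ^ 2)) < a := by
      calc b * (1 + ((2 * E : ℕ) : ℝ) * (1 / (W : ℝ) ^ 2)) ≤ b * ((qW W)⁻¹) ^ (2 * E) := by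
            apply mul_le_mul_of_nonneg_left h3 hb.le
        _ < (a * qW W ^ (2 * E)) * ((qW W)⁻¹) ^ (2 * E) := by
            apply mul_lt_mul_of_pos_right h2 (by positivity)
        _ = a := by
            rw [mul_assoc, ← mul_pow, mul_inv_cancel₀ hq0.ne', one_pow, mul_one]
    -- `2 b E / W² < a - b`
    have h5 : 2 * b * (E : ℝ) / (W : ℝ) ^ 2 < a - b := by
      have : b * (1 + ((2 * E : ℕ) : ℝ) * (1 / (W : ℝ) ^ 2)) = b + 2 * b * (E : ℝ) / (W : ℝ) ^ 2 := by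
        push_cast; ring
      linarith
    have h6 : 2 * b * (E : ℝ) / W < W * (a - b) := by
      have : 2 * b * (E : ℝ) / W = W * (2 * b * (E : ℝ) / (W : ℝ) ^ 2) := by
        field_simp
      rw [this]
      exact mul_lt_mul_of_pos_left h5 hW0
    by_cases h4b : a ≤ 4 * b
    · have hR2 : R ≤ 2 * b := by
        have : R ^ 2 ≤ (2 * b) ^ 2 := by nlinarith
        exact le_of_sq_le_sq this (by linarith) |>.trans le_rfl
      calc R * (min (D : ℝ) W / W) ≤ (2 * b) * (D / W) := by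
            apply mul_le_mul hR2 hmin1 hmin0 (by linarith)
        _ = 2 * b / W + 2 * b * (E : ℝ) / W := by
            rw [hE]; push_cast; ring
        _ ≤ 2 * b / W + W * (a - b) := by linarith
    · have h4b := not_le.mp h4b
      have hR2 : R ≤ a / 2 := by
        have : R ^ 2 ≤ (a / 2) ^ 2 := by nlinarith
        exact le_of_sq_le_sq this (by linarith) |>.trans le_rfl
      have h7 : a / 2 ≤ W * (a - b) := by nlinarith
      have h8 : 0 ≤ 2 * b / W := by positivity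
      calc R * (min (D : ℝ) W / W) ≤ R * 1 := by
            apply mul_le_mul_of_nonneg_left hmin2 hR0.le
        _ ≤ 2 * b / W + W * (a - b) := by linarith

/-- step (3) -/
theorem ladder_shift_amp {W : ℕ} (hW : 1 ≤ W) {a b : ℝ} (ha : 0 < a) (ha1 : a ≤ 1) (hb : 0 < b) (hb1 : b ≤ 1) :
    qW W ^ (mOf W a + mOf W b) * (min |(mOf W a : ℝ) - (mOf W b : ℝ)| W / W)
      ≤ 2 * a / W + W * |a - b| := by
  have hW' : (1 : ℝ) ≤ W := by exact_mod_cast hW
  have hW0 : (0 : ℝ) < W := by linarith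
  rcases le_total b a with hab | hab
  · have h := shift_amp_core hW ha1 hb hab
    rw [abs_of_nonneg (by linarith : 0 ≤ a - b)]
    have : 2 * b / W ≤ 2 * a / W := by
      apply div_le_div_of_nonneg_right (by linarith) hW0.le
    linarith
  · have h := shift_amp_core hW hb1 ha hab
    rw [abs_of_nonpos (by linarith : a - b ≤ 0), add_comm (mOf W a),
      abs_sub_comm (mOf W a : ℝ) (mOf W b : ℝ)]
    linarith

/-- step (2) -/
theorem ladder_amp_err {W : ℕ} (hW : 1 ≤ W) {a b : ℝ} (ha : 0 < a) (ha1 : a ≤ 1) (hb : 0 < b) (hb1 : b ≤ 1) :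
    |qW W ^ (mOf W a + mOf W b) - a| ≤ 2 * |a - b| + 4 * a / W := by
  have hq0 := qW_pos hW
  have hq1 := qW_lt_one W
  have hW' : (1 : ℝ) ≤ W := by exact_mod_cast hW
  have hW0 : (0 : ℝ) < W := by linarith
  set P := qW W ^ (mOf W a) with hP
  set P' := qW W ^ (mOf W b) with hP'
  have hP0 : 0 < P := by positivity
  have hP'0 : 0 < P' := by positivity
  have e1 : qW W ^ (mOf W a + mOf W b) = P * P' := pow_add _ _ _
  have e2 : qW W ^ (2 * mOf W a) = P ^ 2 := by rw [hP, ← pow_mul, mul_comm]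
  have e3 : qW W ^ (2 * mOf W b) = P' ^ 2 := by rw [hP', ← pow_mul, mul_comm]
  have hPa := mOf_spec hW ha
  have hPb := mOf_spec hW hb
  have hLa := mOf_lower hW ha ha1
  have hLb := mOf_lower hW hb hb1
  rw [e2] at hPa hLa
  rw [e3] at hPb hLb
  rw [e1]
  -- `t = 1 - q² ≤ 2 / W`
  set t := 1 - qW W ^ 2 with ht
  have ht0 : 0 ≤ t := by nlinarith
  have ht1 : t ≤ 1 := by
    have : 0 ≤ qW W ^ 2 := by positivity
    linarith
  have ht2 : t ≤ 2 / W := by
    have h1 : t ≤ 2 * (1 - qW W) := by nlinarith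
    have h2 : 1 - qW W ≤ 1 / W := by
      rw [one_sub_qW]
      apply one_div_le_one_div_of_le hW0
      nlinarith
    calc t ≤ 2 * (1 - qW W) := h1
      _ ≤ 2 * (1 / W) := by linarith
      _ = 2 / W := by ring
  have hq2 : qW W ^ 2 = 1 - t := by rw [ht]; ring
  rw [hq2] at hLa hLb
  have hab0 := abs_nonneg (a - b)
  have hab1 := le_abs_self (a - b)
  have hab2 := neg_abs_le (a - b)
  -- `|P'² - P²| ≤ |a-b| + t (a + |a-b|)`
  have h1 : |P' ^ 2 - P ^ 2| ≤ |a - b| + t * (a + |a - b|) := by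
    rw [abs_le]
    constructor
    · nlinarith
    · nlinarith
  have h2 : P * |P' - P| ≤ |P' ^ 2 - P ^ 2| := by
    have : P' ^ 2 - P ^ 2 = (P' + P) * (P' - P) := by ring
    rw [this, abs_mul, abs_of_pos (by linarith : 0 < P' + P)]
    apply mul_le_mul_of_nonneg_right (by linarith) (abs_nonneg _)
  have h3 : |P * P' - a| ≤ P * |P' - P| + (a - P ^ 2) := by
    have : P * P' - a = P * (P' - P) + (P ^ 2 - a) := by ring
    rw [this]
    refine (abs_add_le _ _).trans ?_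
    rw [abs_mul, abs_of_pos hP0, abs_of_nonpos (by linarith : P ^ 2 - a ≤ 0)]
    linarith
  have h4 : t * a ≤ 2 * a / W := by
    calc t * a ≤ (2 / W) * a := by apply mul_le_mul_of_nonneg_right ht2 ha.le
      _ = 2 * a / W := by ring
  have h5 : t * |a - b| ≤ |a - b| := by nlinarith
  have h6 : 4 * a / W = 2 * (2 * a / W) := by ring
  nlinarith

/-- **(G3)** -/
theorem ladder_err {W : ℕ} (hW : 1 ≤ W) {a b : ℝ} (ha : 0 < a) (ha1 : a ≤ 1) (hb : 0 < b) (hb1 : b ≤ 1) :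
    ∑ i ∈ range (nW W), ∑ j ∈ range (nW W),
        (Kl W (i + mOf W a) (j + mOf W b) - a * Kl W i j) ^ 2
      ≤ 4000 * (a ^ 2 / (W : ℝ) ^ 2 + (W : ℝ) ^ 2 * (a - b) ^ 2) * X0 W := by
  have hW' : (1 : ℝ) ≤ W := by exact_mod_cast hW
  have hW0 : (0 : ℝ) < W := by linarith
  have hX0 := X0_pos hW
  set R := qW W ^ (mOf W a + mOf W b) with hR
  have hR0 : 0 < R := by have := qW_pos hW; positivity
  set δ := min |(mOf W a : ℝ) - (mOf W b : ℝ)| W / W with hδ
  have hδ0 : 0 ≤ δ := by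
    apply div_nonneg (le_min (abs_nonneg _) hW0.le) hW0.le
  have h1 : ∑ i ∈ range (nW W), ∑ j ∈ range (nW W),
        (Kl W (i + mOf W a) (j + mOf W b) - a * Kl W i j) ^ 2
      ≤ 2 * (∑ i ∈ range (nW W), ∑ j ∈ range (nW W),
        (Kl W (i + mOf W a) (j + mOf W b) - R * Kl W i j) ^ 2) + 2 * (R - a) ^ 2 * X0 W := by
    unfold X0
    rw [Finset.mul_sum, Finset.mul_sum, ← Finset.sum_add_distrib]
    refine Finset.sum_le_sum fun i _ => ?_
    rw [Finset.mul_sum, Finset.mul_sum, ← Finset.sum_add_distrib]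
    refine Finset.sum_le_sum fun j _ => ?_
    nlinarith [sq_nonneg ((Kl W (i + mOf W a) (j + mOf W b) - R * Kl W i j) - (R - a) * Kl W i j)]
  have h2 := ladder_shift_diff hW (mOf W a) (mOf W b)
  rw [← hR, ← hδ] at h2
  have h3 := ladder_shift_amp hW ha ha1 hb hb1
  rw [← hR, ← hδ] at h3
  have h4 := ladder_amp_err hW ha ha1 hb hb1
  rw [← hR] at h4
  set u := a / W with hu
  set v := (W : ℝ) * |a - b| with hv
  have hu0 : 0 ≤ u := by positivity
  have hv0 : 0 ≤ v := by positivity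
  have hab0 := abs_nonneg (a - b)
  have habv : |a - b| ≤ v := by
    rw [hv]; nlinarith
  have h3' : R * δ ≤ 2 * u + v := by
    have : 2 * a / W = 2 * u := by rw [hu]; ring
    linarith
  have h4' : |R - a| ≤ 2 * v + 4 * u := by
    have : 4 * a / W = 4 * u := by rw [hu]; ring
    linarith
  have h5 : (R * δ) ^ 2 ≤ 8 * u ^ 2 + 2 * v ^ 2 := by
    have h0 : 0 ≤ R * δ := by positivity
    have : (R * δ) ^ 2 ≤ (2 * u + v) ^ 2 := by
      apply pow_le_pow_left₀ h0 h3'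
    nlinarith [sq_nonneg (2 * u - v)]
  have h6 : (R - a) ^ 2 ≤ 8 * v ^ 2 + 32 * u ^ 2 := by
    have : (R - a) ^ 2 ≤ (2 * v + 4 * u) ^ 2 := by
      rw [← sq_abs]
      apply pow_le_pow_left₀ (abs_nonneg _) h4'
    nlinarith [sq_nonneg (2 * v - 4 * u)]
  have hu2 : a ^ 2 / (W : ℝ) ^ 2 = u ^ 2 := by rw [hu]; ring
  have hv2 : (W : ℝ) ^ 2 * (a - b) ^ 2 = v ^ 2 := by
    rw [hv, mul_pow, sq_abs]
  rw [hu2, hv2]
  have h7 : 200 * R ^ 2 * δ ^ 2 * X0 W = 200 * (R * δ) ^ 2 * X0 W := by ring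
  rw [h7] at h2
  have h8 : 200 * (R * δ) ^ 2 * X0 W ≤ 200 * (8 * u ^ 2 + 2 * v ^ 2) * X0 W := by
    apply mul_le_mul_of_nonneg_right _ hX0.le
    linarith
  have h9 : 2 * (R - a) ^ 2 * X0 W ≤ 2 * (8 * v ^ 2 + 32 * u ^ 2) * X0 W := by
    apply mul_le_mul_of_nonneg_right _ hX0.le
    linarith
  have h10 : 0 ≤ u ^ 2 * X0 W := by positivity
  have h11 : 0 ≤ v ^ 2 * X0 W := by positivity
  nlinarith

end Crest.Agent.PR
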