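/-
ROW 342, project PR, block (E).  Task QK: the ladder estimates in matrix form.  Architect: helper57.
Entries (for `i j : Fin (nW W)`, `m + nW W ≤ L`, `m' + nW W ≤ L`):
  (shiftMat n L m * ladMat W L) i j' = Kl W (i+m) j',   (shiftMat n L m * ladMat W L * (shiftMat n L m')ᴴ) i j = Kl W (i+m) (j+m').
`fsq` of a real matrix indexed by `Fin` = double sum over `Finset.range` of squares (`Fin.sum_univ_eq_sum_range` / `Finset.sum_range`).
-/
import Crest.Agent.PR_QMat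
import Crest.Agent.PR_QLadC
import Crest.Agent.PR_QLadD

set_option autoImplicit false

namespace Crest.Agent.PR

open scoped Kronecker ComplexOrder Matrix
open Finset

theorem shiftMat_mul_apply {β : Type} (n L m : ℕ) (hL : m + n ≤ L) (M : Matrix (Fin L) β ℂ)
    (i : Fin n) (b : β) :
    (shiftMat n L m * M) i b = M ⟨(i : ℕ) + m, by have := i.2; omega⟩ b := by
  have hi : (i : ℕ) + m < L := by have := i.2; omega
  rw [Matrix.mul_apply, Finset.sum_eq_single (⟨(i : ℕ) + m, hi⟩ : Fin L)]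
  · simp [shiftMat]
  · intro k _ hk
    have : (k : ℕ) ≠ (i : ℕ) + m := fun h => hk (Fin.ext h)
    simp [shiftMat, this]
  · intro h; exact absurd (Finset.mem_univ _) h

theorem mul_shiftMat_conjTranspose_apply {α : Type} (n L m' : ℕ) (hL' : m' + n ≤ L)
    (M : Matrix α (Fin L) ℂ) (a : α) (j : Fin n) :
    (M * (shiftMat n L m')ᴴ) a j = M a ⟨(j : ℕ) + m', by have := j.2; omega⟩ := by
  have hj : (j : ℕ) + m' < L := by have := j.2; omega
  rw [Matrix.mul_apply, Finset.sum_eq_single (⟨(j : ℕ) + m', hj⟩ : Fin L)]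
  · simp [shiftMat, Matrix.conjTranspose_apply]
  · intro k _ hk
    have : (k : ℕ) ≠ (j : ℕ) + m' := fun h => hk (Fin.ext h)
    simp [shiftMat, Matrix.conjTranspose_apply, this]
  · intro h; exact absurd (Finset.mem_univ _) h

theorem shiftMat_mul_ladMat_apply (W n L m : ℕ) (hL : m + n ≤ L) (i : Fin n) (j : Fin L) :
    (shiftMat n L m * ladMat W L) i j = ((Kl W (i + m) j : ℝ) : ℂ) := by
  rw [shiftMat_mul_apply n L m hL]
  rfl

theorem shift_lad_shift_apply (W n L m m' : ℕ) (hL : m + n ≤ L) (hL' : m' + n ≤ L) (i j : Fin n) :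
    (shiftMat n L m * ladMat W L * (shiftMat n L m')ᴴ) i j = ((Kl W (i + m) (j + m') : ℝ) : ℂ) := by
  rw [mul_shiftMat_conjTranspose_apply n L m' hL', shiftMat_mul_ladMat_apply W n L m hL]

theorem ladMat_mul_shift_apply (W n L m' : ℕ) (hL' : m' + n ≤ L) (i : Fin L) (j : Fin n) :
    (ladMat W L * (shiftMat n L m')ᴴ) i j = ((Kl W i (j + m') : ℝ) : ℂ) := by
  rw [mul_shiftMat_conjTranspose_apply n L m' hL']
  rfl

/-- `fsq` of a matrix with real entries given by a function on `ℕ × ℕ`. -/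
theorem fsq_eq_sum_range (a b : ℕ) (X : Matrix (Fin a) (Fin b) ℂ) (f : ℕ → ℕ → ℝ)
    (h : ∀ i j, X i j = ((f i j : ℝ) : ℂ)) :
    fsq X = ∑ i ∈ range a, ∑ j ∈ range b, f i j ^ 2 := by
  unfold fsq
  rw [Finset.sum_range]
  refine Finset.sum_congr rfl (fun i _ => ?_)
  rw [Finset.sum_range]
  refine Finset.sum_congr rfl (fun j _ => ?_)
  rw [h, Complex.norm_real, Real.norm_eq_abs, sq_abs]

theorem fsq_zero' {α β : Type} [Fintype α] [Fintype β] : fsq (0 : Matrix α β ℂ) = 0 := by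
  simp [fsq]

theorem fsq_chiMat (W : ℕ) : fsq (chiMat W) = X0 W := by
  rw [fsq_eq_sum_range (nW W) (nW W) (chiMat W) (fun i j => Kl W i j) (fun i j => rfl)]
  rfl

/-- `ladMat W L 0 0 = W > 0` -/
theorem fsq_ladMat_pos {W L : ℕ} (hW : 1 ≤ W) (hL : 1 ≤ L) : 0 < fsq (ladMat W L) := by
  rw [fsq_eq_sum_range L L (ladMat W L) (fun i j => Kl W i j) (fun i j => rfl)]
  have h0 : (0 : ℕ) ∈ range L := Finset.mem_range.2 (by omega)
  have hK : Kl W 0 0 = (W : ℝ) := by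
    have hW' : (0 : ℝ) ≤ (W : ℝ) := Nat.cast_nonneg W
    simp [Kl, tent, hW']
  have hWpos : (0 : ℝ) < (W : ℝ) := by exact_mod_cast hW
  have h1 : Kl W 0 0 ^ 2 ≤ ∑ j ∈ range L, Kl W 0 j ^ 2 :=
    Finset.single_le_sum (f := fun j => Kl W 0 j ^ 2) (fun j _ => sq_nonneg _) h0
  have h2 : ∑ j ∈ range L, Kl W 0 j ^ 2 ≤ ∑ i ∈ range L, ∑ j ∈ range L, Kl W i j ^ 2 :=
    Finset.single_le_sum (f := fun i => ∑ j ∈ range L, Kl W i j ^ 2)
      (fun i _ => Finset.sum_nonneg (fun j _ => sq_nonneg _)) h0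
  have h3 : 0 < Kl W 0 0 ^ 2 := by rw [hK]; positivity
  linarith

/-- **(G3), matrix form.**  Cases: `lam = 0` (both terms vanish); `lam ≠ 0 = mu`: the left side is `lam² X0 = (lam-mu)² X0`;
both nonzero: `ladder_err` with `a = |lam|`, `b = |mu|`, `||lam|-|mu|| ≤ |lam-mu|`, and `sgn(lam) Kl.. - lam Kl = sgn(lam)(Kl.. - |lam| Kl)`. -/
theorem kap_sandwich_err {W : ℕ} (hW : 1 ≤ W) (L : ℕ) (lam mu : ℝ) (h1 : |lam| ≤ 1) (h2 : |mu| ≤ 1)
    (hL : lam ≠ 0 → mOf W |lam| + nW W ≤ L) (hL' : mu ≠ 0 → mOf W |mu| + nW W ≤ L) :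
    fsq (kapA W L lam * ladMat W L * (kapB W L mu)ᴴ - ((lam : ℝ) : ℂ) • chiMat W)
      ≤ 4000 * (lam ^ 2 / (W : ℝ) ^ 2 + (W : ℝ) ^ 2 * (lam - mu) ^ 2) * X0 W := by
  have hX : 0 < X0 W := X0_pos hW
  have hW1 : (1 : ℝ) ≤ (W : ℝ) := by exact_mod_cast hW
  have hWpos : (0 : ℝ) < (W : ℝ) := by linarith
  have hW2 : (1 : ℝ) ≤ (W : ℝ) ^ 2 := by nlinarith
  by_cases hlam : lam = 0
  · subst hlam
    have : kapA W L 0 * ladMat W L * (kapB W L mu)ᴴ - (((0 : ℝ) : ℝ) : ℂ) • chiMat W = 0 := by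
      simp [kapA]
    rw [this, fsq_zero']
    positivity
  by_cases hmu : mu = 0
  · subst hmu
    have : kapA W L lam * ladMat W L * (kapB W L 0)ᴴ - ((lam : ℝ) : ℂ) • chiMat W
        = (-((lam : ℝ) : ℂ)) • chiMat W := by
      simp [kapB]
    rw [this, fsq_smul, fsq_chiMat, norm_neg, Complex.norm_real, Real.norm_eq_abs, sq_abs]
    have h3 : lam ^ 2 ≤ 4000 * (lam ^ 2 / (W : ℝ) ^ 2 + (W : ℝ) ^ 2 * (lam - 0) ^ 2) := by
      have h4 : 0 ≤ lam ^ 2 / (W : ℝ) ^ 2 := by positivity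
      have h5 : lam ^ 2 ≤ (W : ℝ) ^ 2 * (lam - 0) ^ 2 := by
        rw [sub_zero]; nlinarith [sq_nonneg lam]
      nlinarith [sq_nonneg lam]
    exact mul_le_mul_of_nonneg_right h3 hX.le
  -- both nonzero
  have ha : 0 < |lam| := abs_pos.2 hlam
  have hb : 0 < |mu| := abs_pos.2 hmu
  set m := mOf W |lam| with hm
  set m' := mOf W |mu| with hm'
  set sg : ℝ := if 0 < lam then 1 else -1 with hsg
  have hsg2 : sg ^ 2 = 1 := by
    rw [hsg]; split_ifs <;> norm_num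
  have hsglam : lam = sg * |lam| := by
    rw [hsg]
    split_ifs with h
    · rw [abs_of_pos h, one_mul]
    · have : lam < 0 := lt_of_le_of_ne (not_lt.1 h) hlam
      rw [abs_of_neg this]; ring
  have hent : ∀ i j : Fin (nW W),
      (kapA W L lam * ladMat W L * (kapB W L mu)ᴴ - ((lam : ℝ) : ℂ) • chiMat W) i j
        = ((sg * (Kl W ((i : ℕ) + m) ((j : ℕ) + m') - |lam| * Kl W i j) : ℝ) : ℂ) := by
    intro i j
    have hA : kapA W L lam = ((sg : ℝ) : ℂ) • shiftMat (nW W) L m := by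
      unfold kapA
      rw [if_neg hlam, hsg, hm]
      split_ifs <;> simp
    have hB : kapB W L mu = shiftMat (nW W) L m' := by
      unfold kapB
      rw [if_neg hmu]
    rw [hA, hB, Matrix.smul_mul, Matrix.smul_mul, Matrix.sub_apply, Matrix.smul_apply,
      Matrix.smul_apply, shift_lad_shift_apply W (nW W) L m m' (hL hlam) (hL' hmu)]
    have hchi : chiMat W i j = ((Kl W i j : ℝ) : ℂ) := rfl
    rw [hchi, smul_eq_mul, smul_eq_mul]
    conv_lhs => rw [hsglam]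
    push_cast
    ring
  rw [fsq_eq_sum_range (nW W) (nW W) _
    (fun i j => sg * (Kl W (i + m) (j + m') - |lam| * Kl W i j)) hent]
  have hsum : ∑ i ∈ range (nW W), ∑ j ∈ range (nW W),
        (sg * (Kl W (i + m) (j + m') - |lam| * Kl W i j)) ^ 2
      = ∑ i ∈ range (nW W), ∑ j ∈ range (nW W),
        (Kl W (i + m) (j + m') - |lam| * Kl W i j) ^ 2 := by
    refine Finset.sum_congr rfl (fun i _ => Finset.sum_congr rfl (fun j _ => ?_))
    rw [mul_pow, hsg2, one_mul]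
  rw [hsum]
  refine (ladder_err hW ha h1 hb h2).trans ?_
  refine mul_le_mul_of_nonneg_right ?_ hX.le
  have h6 : (|lam| - |mu|) ^ 2 ≤ (lam - mu) ^ 2 := by
    rw [← sq_abs (|lam| - |mu|), ← sq_abs (lam - mu)]
    exact pow_le_pow_left₀ (abs_nonneg _) (abs_abs_sub_abs_le_abs_sub lam mu) 2
  have h7 : (W : ℝ) ^ 2 * (|lam| - |mu|) ^ 2 ≤ (W : ℝ) ^ 2 * (lam - mu) ^ 2 :=
    mul_le_mul_of_nonneg_left h6 (by positivity)
  rw [sq_abs]
  linarith

/-- **(G2), Alice.**  `ladder_row_mass` and `q^(2m) ≤ |lam|` (`mOf_spec`). -/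
theorem kapA_row_mass {W : ℕ} (hW : 1 ≤ W) (L : ℕ) (lam : ℝ)
    (hL : lam ≠ 0 → mOf W |lam| + nW W ≤ L) :
    fsq (kapA W L lam * ladMat W L) ≤ (1 + 2000 / (W : ℝ)) * X0 W * lam ^ 2 := by
  have hX : 0 < X0 W := X0_pos hW
  have hW1 : (1 : ℝ) ≤ (W : ℝ) := by exact_mod_cast hW
  have hWpos : (0 : ℝ) < (W : ℝ) := by linarith
  by_cases hlam : lam = 0
  · subst hlam
    have : kapA W L 0 * ladMat W L = 0 := by simp [kapA]
    rw [this, fsq_zero']
    simp
  have ha : 0 < |lam| := abs_pos.2 hlam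
  set m := mOf W |lam| with hm
  have hA : kapA W L lam = (if 0 < lam then (1 : ℂ) else -1) • shiftMat (nW W) L m := by
    unfold kapA
    rw [if_neg hlam]
  have hnorm : ‖(if 0 < lam then (1 : ℂ) else -1)‖ ^ 2 = 1 := by
    split_ifs <;> simp
  rw [hA, Matrix.smul_mul, fsq_smul, hnorm, one_mul,
    fsq_eq_sum_range (nW W) L _ (fun i j => Kl W (i + m) j)
      (fun i j => shiftMat_mul_ladMat_apply W (nW W) L m (hL hlam) i j)]
  refine (ladder_row_mass hW m L).trans ?_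
  have hq0 : 0 ≤ qW W ^ (2 * m) := pow_nonneg (qW_pos hW).le _
  have hq1 : qW W ^ (2 * m) ≤ |lam| := mOf_spec hW ha
  have h3 : (qW W ^ (2 * m)) ^ 2 ≤ lam ^ 2 := by
    rw [← sq_abs lam]
    exact pow_le_pow_left₀ hq0 hq1 2
  exact mul_le_mul_of_nonneg_left h3 (by positivity)

/-- **(G2), Bob.**  Same with `Kl_symm`. -/
theorem kapB_col_mass {W : ℕ} (hW : 1 ≤ W) (L : ℕ) (mu : ℝ)
    (hL : mu ≠ 0 → mOf W |mu| + nW W ≤ L) :
    fsq (ladMat W L * (kapB W L mu)ᴴ) ≤ (1 + 2000 / (W : ℝ)) * X0 W * mu ^ 2 := by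
  have hX : 0 < X0 W := X0_pos hW
  have hW1 : (1 : ℝ) ≤ (W : ℝ) := by exact_mod_cast hW
  have hWpos : (0 : ℝ) < (W : ℝ) := by linarith
  by_cases hmu : mu = 0
  · subst hmu
    have : ladMat W L * (kapB W L 0)ᴴ = 0 := by simp [kapB]
    rw [this, fsq_zero']
    simp
  have hb : 0 < |mu| := abs_pos.2 hmu
  set m := mOf W |mu| with hm
  have hB : kapB W L mu = shiftMat (nW W) L m := by
    unfold kapB
    rw [if_neg hmu]
  rw [hB, fsq_eq_sum_range L (nW W) _ (fun i j => Kl W i (j + m))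
      (fun i j => ladMat_mul_shift_apply W (nW W) L m (hL hmu) i j), Finset.sum_comm]
  have hsymm : ∑ j ∈ range (nW W), ∑ i ∈ range L, Kl W i (j + m) ^ 2
      = ∑ j ∈ range (nW W), ∑ i ∈ range L, Kl W (j + m) i ^ 2 := by
    refine Finset.sum_congr rfl (fun j _ => Finset.sum_congr rfl (fun i _ => ?_))
    rw [Kl_symm]
  rw [hsymm]
  refine (ladder_row_mass hW m L).trans ?_
  have hq0 : 0 ≤ qW W ^ (2 * m) := pow_nonneg (qW_pos hW).le _
  have hq1 : qW W ^ (2 * m) ≤ |mu| := mOf_spec hW hb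
  have h3 : (qW W ^ (2 * m)) ^ 2 ≤ mu ^ 2 := by
    rw [← sq_abs mu]
    exact pow_le_pow_left₀ hq0 hq1 2
  exact mul_le_mul_of_nonneg_left h3 (by positivity)

end Crest.Agent.PR
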