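/-
ROW 342, project PR, block (E).  Task QS1: the joint-distribution identity for two spectral lifts.  Architect: helper57.

`lift V α κ = (V ⊗ 1) * dblk α κ * (Vᴴ ⊗ 1)`, `specMat V α = V diag(α) Vᴴ`.  With `R = Vᴴ V'`:
  lift V α κ * (1 ⊗ K) * (lift V' β κ')ᴴ - specMat V α ⊗ χ
    = (V ⊗ 1) * B * (V'ᴴ ⊗ 1),   B ((k,i),(l,j)) = R k l * (κ(α k) K κ'(β l)ᴴ - α k • χ) i j
(use `(Vᴴ ⊗ 1)(1 ⊗ K)(V' ⊗ 1) = R ⊗ K`, `specMat V α = V diag(α) R V'ᴴ`), the Frobenius norm is invariant under the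
unitaries `V ⊗ 1`, `V'ᴴ ⊗ 1`, and `fsq B = ∑ₖₗ |R k l|² fsq(block k l)`.
-/
import Crest.Agent.PR_QMat

set_option autoImplicit false

namespace Crest.Agent.PR

open scoped Kronecker ComplexOrder Matrix

section
variable {m n : Type} [Fintype m] [Fintype n] [DecidableEq m] [DecidableEq n]

/-- unitary invariance (left) : `fsq X = Re tr(Xᴴ X)` -/
theorem fsq_unitary_mul {V : Matrix m m ℂ} (hV : Vᴴ * V = 1) (X : Matrix m n ℂ) : fsq (V * X) = fsq X := by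
  rw [fsq_eq_trace, fsq_eq_trace, Matrix.conjTranspose_mul, Matrix.mul_assoc, ← Matrix.mul_assoc Vᴴ,
    hV, Matrix.one_mul]

/-- unitary invariance (right) -/
theorem fsq_mul_unitary {V : Matrix n n ℂ} (hV : V * Vᴴ = 1) (X : Matrix m n ℂ) : fsq (X * V) = fsq X := by
  rw [← fsq_conjTranspose, Matrix.conjTranspose_mul,
    fsq_unitary_mul (V := Vᴴ) (by rw [Matrix.conjTranspose_conjTranspose]; exact hV),
    fsq_conjTranspose]

end

section
variable {H I J : Type} [Fintype H] [DecidableEq H] [Fintype I] [DecidableEq I] [Fintype J] [DecidableEq J]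

theorem kron_one_unitary {V : Matrix H H ℂ} (hV : Vᴴ * V = 1) :
    (V ⊗ₖ (1 : Matrix I I ℂ))ᴴ * (V ⊗ₖ (1 : Matrix I I ℂ)) = 1 := by
  rw [Matrix.conjTranspose_kronecker, ← Matrix.mul_kronecker_mul, hV, Matrix.conjTranspose_one,
    Matrix.one_mul, Matrix.one_kronecker_one]

theorem kron_one_unitary' {V : Matrix H H ℂ} (hV : V * Vᴴ = 1) :
    (V ⊗ₖ (1 : Matrix I I ℂ)) * (V ⊗ₖ (1 : Matrix I I ℂ))ᴴ = 1 := by
  rw [Matrix.conjTranspose_kronecker, ← Matrix.mul_kronecker_mul, hV, Matrix.conjTranspose_one,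
    Matrix.one_mul, Matrix.one_kronecker_one]

/-- entries of `dblk α κ * (R ⊗ K) * (dblk β κ')ᴴ` -/
theorem dblk_mul_kron_mul_dblk (α β : H → ℝ) (κ κ' : ℝ → Matrix I J ℂ) (R : Matrix H H ℂ)
    (K : Matrix J J ℂ) (k l : H) (i j : I) :
    (dblk α κ * (R ⊗ₖ K) * (dblk β κ')ᴴ) (k, i) (l, j) = R k l * (κ (α k) * K * (κ' (β l))ᴴ) i j := by
  have h1 : ∀ (l' : H) (j' : J), (dblk α κ * (R ⊗ₖ K)) (k, i) (l', j')
      = R k l' * (κ (α k) * K) i j' := by
    intro l' j'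
    rw [Matrix.mul_apply, Fintype.sum_prod_type, Finset.sum_eq_single k]
    · rw [Matrix.mul_apply, Finset.mul_sum]
      apply Finset.sum_congr rfl
      intro i' _
      simp only [dblk, if_true, Matrix.kroneckerMap_apply]
      ring
    · intro k' _ hk'
      apply Finset.sum_eq_zero
      intro i' _
      simp only [dblk, if_neg (Ne.symm hk'), zero_mul]
    · intro h; exact absurd (Finset.mem_univ k) h
  rw [Matrix.mul_apply, Fintype.sum_prod_type, Finset.sum_eq_single l]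
  · rw [Matrix.mul_apply, Finset.mul_sum]
    apply Finset.sum_congr rfl
    intro j' _
    rw [h1]
    simp only [dblk, if_true, Matrix.conjTranspose_apply]
    ring
  · intro l' _ hl'
    apply Finset.sum_eq_zero
    intro j' _
    simp only [dblk, Matrix.conjTranspose_apply, if_neg (Ne.symm hl'), star_zero, mul_zero]
  · intro h; exact absurd (Finset.mem_univ l) h

/-- Frobenius norm of a matrix given by blocks `R k l • C k l` -/
theorem fsq_blocks (R : Matrix H H ℂ) (C : H → H → Matrix I I ℂ) :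
    fsq (fun (p p' : H × I) => R p.1 p'.1 * C p.1 p'.1 p.2 p'.2 : Matrix (H × I) (H × I) ℂ)
      = ∑ k, ∑ l, ‖R k l‖ ^ 2 * fsq (C k l) := by
  unfold fsq
  rw [Fintype.sum_prod_type]
  apply Finset.sum_congr rfl
  intro k _
  simp only [Fintype.sum_prod_type]
  rw [Finset.sum_comm]
  apply Finset.sum_congr rfl
  intro l _
  rw [Finset.mul_sum]
  apply Finset.sum_congr rfl
  intro i _
  rw [Finset.mul_sum]
  apply Finset.sum_congr rfl
  intro j _
  rw [norm_mul, mul_pow]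

/-- **joint-distribution identity** -/
theorem fsq_lift_sandwich {V V' : Matrix H H ℂ} (hV : Vᴴ * V = 1) (hV2 : V * Vᴴ = 1)
    (hV' : V'ᴴ * V' = 1) (hV2' : V' * V'ᴴ = 1) (α β : H → ℝ) (κ κ' : ℝ → Matrix I J ℂ)
    (K : Matrix J J ℂ) (χ : Matrix I I ℂ) :
    fsq (lift V α κ * ((1 : Matrix H H ℂ) ⊗ₖ K) * (lift V' β κ')ᴴ - specMat V α ⊗ₖ χ)
      = ∑ k, ∑ l, ‖(Vᴴ * V') k l‖ ^ 2 *
          fsq (κ (α k) * K * (κ' (β l))ᴴ - ((α k : ℝ) : ℂ) • χ) := by
  set R := Vᴴ * V' with hR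
  set Dg : Matrix H H ℂ := Matrix.diagonal (fun k => ((α k : ℝ) : ℂ)) with hDg
  -- the middle factor
  have hmid : (Vᴴ ⊗ₖ (1 : Matrix J J ℂ)) * ((1 : Matrix H H ℂ) ⊗ₖ K) * (V' ⊗ₖ (1 : Matrix J J ℂ))
      = R ⊗ₖ K := by
    rw [← Matrix.mul_kronecker_mul, ← Matrix.mul_kronecker_mul, Matrix.mul_one, Matrix.one_mul,
      Matrix.mul_one]
  have hliftH : (lift V' β κ')ᴴ
      = (V' ⊗ₖ (1 : Matrix J J ℂ)) * (dblk β κ')ᴴ * (V'ᴴ ⊗ₖ (1 : Matrix I I ℂ)) := by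
    unfold lift
    rw [Matrix.conjTranspose_mul, Matrix.conjTranspose_mul, Matrix.conjTranspose_kronecker,
      Matrix.conjTranspose_kronecker, Matrix.conjTranspose_conjTranspose, Matrix.conjTranspose_one,
      Matrix.conjTranspose_one, Matrix.mul_assoc]
  have hfirst : lift V α κ * ((1 : Matrix H H ℂ) ⊗ₖ K) * (lift V' β κ')ᴴ
      = (V ⊗ₖ (1 : Matrix I I ℂ)) * (dblk α κ * (R ⊗ₖ K) * (dblk β κ')ᴴ)
        * (V'ᴴ ⊗ₖ (1 : Matrix I I ℂ)) := by
    rw [hliftH, ← hmid]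
    unfold lift
    simp only [Matrix.mul_assoc]
  have hsecond : specMat V α ⊗ₖ χ
      = (V ⊗ₖ (1 : Matrix I I ℂ)) * ((Dg * R) ⊗ₖ χ) * (V'ᴴ ⊗ₖ (1 : Matrix I I ℂ)) := by
    rw [← Matrix.mul_kronecker_mul, ← Matrix.mul_kronecker_mul, Matrix.mul_one, Matrix.one_mul]
    congr 1
    unfold specMat
    rw [hR]
    calc V * Dg * Vᴴ = V * Dg * Vᴴ * (V' * V'ᴴ) := by rw [hV2', Matrix.mul_one]
      _ = _ := by simp only [Matrix.mul_assoc]
  rw [hfirst, hsecond, ← Matrix.sub_mul, ← Matrix.mul_sub,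
    fsq_mul_unitary (V := V'ᴴ ⊗ₖ (1 : Matrix I I ℂ))
      (kron_one_unitary' (V := V'ᴴ) (by rw [Matrix.conjTranspose_conjTranspose]; exact hV')),
    fsq_unitary_mul (kron_one_unitary hV)]
  rw [← fsq_blocks R (fun k l => κ (α k) * K * (κ' (β l))ᴴ - ((α k : ℝ) : ℂ) • χ)]
  congr 1
  funext p p'
  obtain ⟨k, i⟩ := p
  obtain ⟨l, j⟩ := p'
  rw [Matrix.sub_apply, dblk_mul_kron_mul_dblk]
  simp only [Matrix.kroneckerMap_apply, Matrix.sub_apply, Matrix.smul_apply, smul_eq_mul, hDg,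
    Matrix.diagonal_mul]
  ring

end

end Crest.Agent.PR
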