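/-
ROW 342, project PR, block (E).  Task QS2: sum rules for the joint distribution `w k l = |(Vᴴ V') k l|²`
and the one-sided mass bounds.  Architect: helper57.
Uses `fsq_unitary_mul`, `fsq_mul_unitary`, `kron_one_unitary(')` of PR_QSpecA by statement.
-/
import Crest.Agent.PR_QSpecA

set_option autoImplicit false

namespace Crest.Agent.PR

open scoped Kronecker ComplexOrder Matrix

section
variable {H I J ι : Type} [Fintype H] [DecidableEq H] [Fintype I] [DecidableEq I] [Fintype J] [DecidableEq J]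
  [Fintype ι]

omit [DecidableEq H] in
private theorem qsb_row_sq (R : Matrix H H ℂ) (k : H) :
    ((∑ l, ‖R k l‖ ^ 2 : ℝ) : ℂ) = (R * Rᴴ) k k := by
  rw [Matrix.mul_apply]
  push_cast
  refine Finset.sum_congr rfl (fun l _ => ?_)
  rw [Matrix.conjTranspose_apply, Complex.star_def, Complex.mul_conj']

/-- rows of the unitary `Vᴴ V'` have norm one -/
theorem sum_w_row {V V' : Matrix H H ℂ} (hV : Vᴴ * V = 1) (hV2' : V' * V'ᴴ = 1) (k : H) :
    ∑ l, ‖(Vᴴ * V') k l‖ ^ 2 = 1 := by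
  have h := qsb_row_sq (Vᴴ * V') k
  have e : (Vᴴ * V') * (Vᴴ * V')ᴴ = 1 := by
    rw [Matrix.conjTranspose_mul, Matrix.conjTranspose_conjTranspose, Matrix.mul_assoc,
      ← Matrix.mul_assoc V', hV2', Matrix.one_mul, hV]
  rw [e, Matrix.one_apply_eq] at h
  exact_mod_cast h

omit [DecidableEq I] [DecidableEq J] [Fintype I] [Fintype J] [Fintype ι] in
private theorem qsb_fsq_diagonal (α : H → ℝ) :
    fsq (Matrix.diagonal (fun k => ((α k : ℝ) : ℂ))) = ∑ k, α k ^ 2 := by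
  unfold fsq
  refine Finset.sum_congr rfl (fun k _ => ?_)
  rw [Finset.sum_eq_single k]
  · rw [Matrix.diagonal_apply_eq, Complex.norm_real, Real.norm_eq_abs, sq_abs]
  · intro b _ hb
    rw [Matrix.diagonal_apply_ne _ (Ne.symm hb)]; simp
  · intro h; exact absurd (Finset.mem_univ k) h

/-- `fsq (V diag(α) Vᴴ) = ∑ α²` -/
theorem fsq_specMat {V : Matrix H H ℂ} (hV : Vᴴ * V = 1) (hV2 : V * Vᴴ = 1) (α : H → ℝ) :
    fsq (specMat V α) = ∑ k, α k ^ 2 := by
  unfold specMat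
  rw [fsq_mul_unitary (V := Vᴴ) (by rw [Matrix.conjTranspose_conjTranspose]; exact hV),
    fsq_unitary_mul hV, qsb_fsq_diagonal]

theorem sum_w_sq {V V' : Matrix H H ℂ} (hV : Vᴴ * V = 1) (hV2 : V * Vᴴ = 1) (hV2' : V' * V'ᴴ = 1)
    (α : H → ℝ) :
    ∑ k, ∑ l, ‖(Vᴴ * V') k l‖ ^ 2 * α k ^ 2 = fsq (specMat V α) := by
  rw [fsq_specMat hV hV2]
  refine Finset.sum_congr rfl (fun k _ => ?_)
  rw [← Finset.sum_mul, sum_w_row hV hV2', one_mul]

/-- `Vᴴ (T - T') V' = diag(α) R - R diag(β)` has entries `(α k - β l) R k l` -/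
theorem sum_w_sub_sq {V V' : Matrix H H ℂ} (hV : Vᴴ * V = 1) (hV2 : V * Vᴴ = 1)
    (hV' : V'ᴴ * V' = 1) (hV2' : V' * V'ᴴ = 1) (α β : H → ℝ) :
    ∑ k, ∑ l, ‖(Vᴴ * V') k l‖ ^ 2 * (α k - β l) ^ 2 = fsq (specMat V α - specMat V' β) := by
  have e1 : fsq (specMat V α - specMat V' β) = fsq (Vᴴ * (specMat V α - specMat V' β) * V') := by
    rw [fsq_mul_unitary hV2', fsq_unitary_mul (V := Vᴴ)
      (by rw [Matrix.conjTranspose_conjTranspose]; exact hV2)]
  have e2 : Vᴴ * (specMat V α - specMat V' β) * V'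
      = Matrix.diagonal (fun k => ((α k : ℝ) : ℂ)) * (Vᴴ * V')
        - (Vᴴ * V') * Matrix.diagonal (fun k => ((β k : ℝ) : ℂ)) := by
    unfold specMat
    rw [Matrix.mul_sub, Matrix.sub_mul]
    congr 1
    · rw [← Matrix.mul_assoc, ← Matrix.mul_assoc, hV, Matrix.one_mul, Matrix.mul_assoc]
    · rw [Matrix.mul_assoc, Matrix.mul_assoc, Matrix.mul_assoc, hV', Matrix.mul_one,
        ← Matrix.mul_assoc]
  rw [e1, e2]
  unfold fsq
  refine Finset.sum_congr rfl (fun k _ => Finset.sum_congr rfl (fun l _ => ?_))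
  rw [Matrix.sub_apply, Matrix.diagonal_mul, Matrix.mul_diagonal]
  have : ((α k : ℝ) : ℂ) * (Vᴴ * V') k l - (Vᴴ * V') k l * ((β l : ℝ) : ℂ)
      = (Vᴴ * V') k l * (((α k - β l : ℝ)) : ℂ) := by push_cast; ring
  rw [this, norm_mul, mul_pow, Complex.norm_real, Real.norm_eq_abs, sq_abs]

theorem abs_eig_le_one {V : Matrix H H ℂ} (hV : Vᴴ * V = 1) (hV2 : V * Vᴴ = 1) (α : H → ℝ)
    (h : fsq (specMat V α) ≤ 1) (k : H) : |α k| ≤ 1 := by
  rw [fsq_specMat hV hV2] at h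
  have h1 : α k ^ 2 ≤ ∑ k, α k ^ 2 :=
    Finset.single_le_sum (f := fun k => α k ^ 2) (fun i _ => sq_nonneg _) (Finset.mem_univ k)
  have h2 : α k ^ 2 ≤ 1 ^ 2 := by linarith
  have := abs_le_of_sq_le_sq' h2 (by norm_num)
  exact abs_le.mpr this

omit [DecidableEq I] [Fintype I] [DecidableEq J] in
private theorem qsb_dblk_mul (α : H → ℝ) (κ : ℝ → Matrix I J ℂ) (K : Matrix J J ℂ) :
    dblk α κ * ((1 : Matrix H H ℂ) ⊗ₖ K) = dblk α (fun t => κ t * K) := by
  ext ⟨k, i⟩ ⟨l, j⟩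
  rw [Matrix.mul_apply, Fintype.sum_prod_type]
  simp only [dblk, Matrix.kroneckerMap_apply, Matrix.one_apply]
  rw [Finset.sum_eq_single l]
  · by_cases h : k = l
    · simp [h, Matrix.mul_apply]
    · simp [h]
  · intro b _ hb
    simp [hb]
  · intro h; exact absurd (Finset.mem_univ l) h

omit [DecidableEq J] [Fintype J] in
private theorem qsb_kron_mul_dblk (V : Matrix H H ℂ) (α : H → ℝ) (κ : ℝ → Matrix I J ℂ)
    (h : H) (i : I) (k : H) (j : J) :
    ((V ⊗ₖ (1 : Matrix I I ℂ)) * dblk α κ) (h, i) (k, j) = V h k * κ (α k) i j := by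
  rw [Matrix.mul_apply, Fintype.sum_prod_type]
  simp only [dblk, Matrix.kroneckerMap_apply, Matrix.one_apply]
  rw [Finset.sum_eq_single k]
  · rw [Finset.sum_eq_single i]
    · simp
    · intro b _ hb; simp [Ne.symm hb]
    · intro h; exact absurd (Finset.mem_univ i) h
  · intro b _ hb
    simp [hb]
  · intro h; exact absurd (Finset.mem_univ k) h

omit [DecidableEq H] [DecidableEq I] [DecidableEq J] in
private theorem qsb_fsq_blocks (A : Matrix ι H ℂ) (C : H → Matrix I J ℂ) :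
    fsq (fun (p : ι × I) (p' : H × J) => A p.1 p'.1 * C p'.1 p.2 p'.2 : Matrix (ι × I) (H × J) ℂ)
      = ∑ a, ∑ k, ‖A a k‖ ^ 2 * fsq (C k) := by
  unfold fsq
  rw [Fintype.sum_prod_type]
  refine Finset.sum_congr rfl (fun a _ => ?_)
  simp only [Fintype.sum_prod_type, norm_mul, mul_pow, Finset.mul_sum]
  rw [Finset.sum_comm]

private theorem qsb_lift_mul (V : Matrix H H ℂ) (α : H → ℝ) (κ : ℝ → Matrix I J ℂ)
    (K : Matrix J J ℂ) :
    lift V α κ * ((1 : Matrix H H ℂ) ⊗ₖ K)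
      = ((V ⊗ₖ (1 : Matrix I I ℂ)) * dblk α (fun t => κ t * K)) * (Vᴴ ⊗ₖ (1 : Matrix J J ℂ)) := by
  unfold lift
  have e : (Vᴴ ⊗ₖ (1 : Matrix J J ℂ)) * ((1 : Matrix H H ℂ) ⊗ₖ K)
      = ((1 : Matrix H H ℂ) ⊗ₖ K) * (Vᴴ ⊗ₖ (1 : Matrix J J ℂ)) := by
    rw [← Matrix.mul_kronecker_mul, ← Matrix.mul_kronecker_mul, Matrix.mul_one, Matrix.one_mul,
      Matrix.mul_one, Matrix.one_mul]
  rw [Matrix.mul_assoc, e, ← Matrix.mul_assoc, Matrix.mul_assoc (V ⊗ₖ (1 : Matrix I I ℂ)),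
    qsb_dblk_mul]

omit [DecidableEq I] [DecidableEq J] [Fintype I] [Fintype J] in
private theorem qsb_fsq_spec_rows {V : Matrix H H ℂ} (hV : Vᴴ * V = 1) (α : H → ℝ) (r : ι → H) :
    fsq ((specMat V α).submatrix r id) = ∑ a, ∑ k, ‖V (r a) k‖ ^ 2 * α k ^ 2 := by
  classical
  have e : (specMat V α).submatrix r id
      = ((V * Matrix.diagonal (fun k => ((α k : ℝ) : ℂ))).submatrix r id) * Vᴴ := by
    unfold specMat
    ext a b
    simp only [Matrix.submatrix_apply, Matrix.mul_apply, id]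
  rw [e, fsq_mul_unitary (V := Vᴴ) (by rw [Matrix.conjTranspose_conjTranspose]; exact hV)]
  unfold fsq
  refine Finset.sum_congr rfl (fun a _ => Finset.sum_congr rfl (fun k _ => ?_))
  rw [Matrix.submatrix_apply, id, Matrix.mul_diagonal, norm_mul, mul_pow, Complex.norm_real,
    Real.norm_eq_abs, sq_abs]

/-- **one-sided mass, rows.**  `lift V α κ * (1 ⊗ K) = (V ⊗ 1) * dblk α (κ · * K) * (Vᴴ ⊗ 1)`; drop the right unitary;
the entry at `((r a, i), (k, j))` is `V (r a) k * (κ (α k) * K) i j`; compare with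
`fsq ((specMat V α).submatrix r id) = ∑ a k, |V (r a) k|² (α k)²`. -/
theorem fsq_lift_rows_le {V : Matrix H H ℂ} (hV : Vᴴ * V = 1) (hV2 : V * Vᴴ = 1) (α : H → ℝ)
    (κ : ℝ → Matrix I J ℂ) (K : Matrix J J ℂ) (r : ι → H) (c : ℝ)
    (h : ∀ k, fsq (κ (α k) * K) ≤ c * α k ^ 2) :
    fsq ((lift V α κ * ((1 : Matrix H H ℂ) ⊗ₖ K)).submatrix (Prod.map r id) id)
      ≤ c * fsq ((specMat V α).submatrix r id) := by
  classical
  have e : (lift V α κ * ((1 : Matrix H H ℂ) ⊗ₖ K)).submatrix (Prod.map r id) id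
      = (((V ⊗ₖ (1 : Matrix I I ℂ)) * dblk α (fun t => κ t * K)).submatrix (Prod.map r id) id)
        * (Vᴴ ⊗ₖ (1 : Matrix J J ℂ)) := by
    rw [qsb_lift_mul]
    ext a b
    simp only [Matrix.submatrix_apply, Matrix.mul_apply, id]
  have hU : (Vᴴ ⊗ₖ (1 : Matrix J J ℂ)) * (Vᴴ ⊗ₖ (1 : Matrix J J ℂ))ᴴ = 1 :=
    kron_one_unitary' (V := Vᴴ) (by rw [Matrix.conjTranspose_conjTranspose]; exact hV)
  have e2 : ((V ⊗ₖ (1 : Matrix I I ℂ)) * dblk α (fun t => κ t * K)).submatrix (Prod.map r id) id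
      = (fun (p : ι × I) (p' : H × J) => (V.submatrix r id) p.1 p'.1 * (κ (α p'.1) * K) p.2 p'.2) := by
    ext ⟨a, i⟩ ⟨k, j⟩
    rw [Matrix.submatrix_apply]
    exact qsb_kron_mul_dblk V α (fun t => κ t * K) (r a) i k j
  rw [e, fsq_mul_unitary hU, e2, qsb_fsq_blocks (V.submatrix r id) (fun k => κ (α k) * K),
    qsb_fsq_spec_rows hV, Finset.mul_sum]
  refine Finset.sum_le_sum (fun a _ => ?_)
  rw [Finset.mul_sum]
  refine Finset.sum_le_sum (fun k _ => ?_)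
  have := mul_le_mul_of_nonneg_left (h k) (sq_nonneg ‖V (r a) k‖)
  rw [Matrix.submatrix_apply, id]
  linarith

omit [DecidableEq I] [DecidableEq J] [Fintype I] [Fintype J] [Fintype ι] in
private theorem qsb_specMat_herm (V : Matrix H H ℂ) (β : H → ℝ) : (specMat V β)ᴴ = specMat V β := by
  have hd : (Matrix.diagonal (fun k => ((β k : ℝ) : ℂ)))ᴴ
      = Matrix.diagonal (fun k => ((β k : ℝ) : ℂ)) := by
    rw [Matrix.diagonal_conjTranspose]
    congr 1
    funext k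
    simp
  unfold specMat
  rw [Matrix.conjTranspose_mul, Matrix.conjTranspose_mul, Matrix.conjTranspose_conjTranspose,
    hd, Matrix.mul_assoc]

/-- **one-sided mass, columns** (conjugate transpose of the previous statement, with `Kᴴ`) -/
theorem fsq_lift_cols_le {V : Matrix H H ℂ} (hV : Vᴴ * V = 1) (hV2 : V * Vᴴ = 1) (β : H → ℝ)
    (κ : ℝ → Matrix I J ℂ) (K : Matrix J J ℂ) (r : ι → H) (c : ℝ)
    (h : ∀ l, fsq (K * (κ (β l))ᴴ) ≤ c * β l ^ 2) :
    fsq ((((1 : Matrix H H ℂ) ⊗ₖ K) * (lift V β κ)ᴴ).submatrix id (Prod.map r id))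
      ≤ c * fsq ((specMat V β).submatrix id r) := by
  have h' : ∀ l, fsq (κ (β l) * Kᴴ) ≤ c * β l ^ 2 := by
    intro l
    have : (κ (β l) * Kᴴ) = (K * (κ (β l))ᴴ)ᴴ := by
      rw [Matrix.conjTranspose_mul, Matrix.conjTranspose_conjTranspose]
    rw [this, fsq_conjTranspose]
    exact h l
  have key := fsq_lift_rows_le hV hV2 β κ Kᴴ r c h'
  have e1 : (((1 : Matrix H H ℂ) ⊗ₖ K) * (lift V β κ)ᴴ).submatrix id (Prod.map r id)
      = ((lift V β κ * ((1 : Matrix H H ℂ) ⊗ₖ Kᴴ)).submatrix (Prod.map r id) id)ᴴ := by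
    rw [Matrix.conjTranspose_submatrix, Matrix.conjTranspose_mul, Matrix.conjTranspose_kronecker,
      Matrix.conjTranspose_one, Matrix.conjTranspose_conjTranspose]
  have e2 : (specMat V β).submatrix id r = ((specMat V β).submatrix r id)ᴴ := by
    rw [Matrix.conjTranspose_submatrix, qsb_specMat_herm]
  rw [e1, e2, fsq_conjTranspose, fsq_conjTranspose]
  exact key

end

end Crest.Agent.PR
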