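/-
ROW 342, project PR, block (E).  The single-copy theorem (blueprint 6.2 in the matrix picture).  helper57.
-/
import Crest.Agent.PR_QContr
import Crest.Agent.PR_QSpecB
import Crest.Agent.PR_QDil
import Crest.Agent.PR_QKap

set_option autoImplicit false

namespace Crest.Agent.PR

open scoped Kronecker ComplexOrder Matrix

variable {X Y ιA ιB : Type} [Fintype X] [Fintype Y] [Fintype ιA] [Fintype ιB]
  [DecidableEq ιA] [DecidableEq ιB]

private theorem inj_inl {I : Type} : Function.Injective (Prod.map (Sum.inl : ιA → ιA ⊕ ιB) (id : I → I)) :=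
  Function.Injective.prodMap Sum.inl_injective Function.injective_id

private theorem inj_inr {I : Type} : Function.Injective (Prod.map (Sum.inr : ιB → ιA ⊕ ιB) (id : I → I)) :=
  Function.Injective.prodMap Sum.inr_injective Function.injective_id

theorem single_copy {W : ℕ} (hW : 1 ≤ W) (Gm : X → Matrix ιA ιB ℂ) (Gm' : Y → Matrix ιA ιB ℂ)
    (h : ∀ x, fsq (Gm x) = 1) (h' : ∀ y, fsq (Gm' y) = 1) :
    ∃ (L : ℕ) (CA : X → Matrix (ιA × Fin (nW W)) ((ιA ⊕ ιB) × Fin L) ℂ)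
      (CB : Y → Matrix (ιB × Fin (nW W)) ((ιA ⊕ ιB) × Fin L) ℂ),
      1 ≤ L ∧ (∀ x, IsContr (CA x)) ∧ (∀ y, IsContr (CB y)) ∧
      (∀ x y, fsq (CA x * ((1 : Matrix (ιA ⊕ ιB) (ιA ⊕ ιB) ℂ) ⊗ₖ ladMat W L) * (CB y)ᵀ
            - (1 / 2 : ℂ) • (Gm x ⊗ₖ chiMat W))
          ≤ 2000 * (1 / (W : ℝ) ^ 2 + (W : ℝ) ^ 2 * fsq (Gm x - Gm' y)) * X0 W) ∧
      (∀ x, fsq (CA x * ((1 : Matrix (ιA ⊕ ιB) (ιA ⊕ ιB) ℂ) ⊗ₖ ladMat W L))
          ≤ (1 + 2000 / (W : ℝ)) * X0 W / 4) ∧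
      (∀ y, fsq (((1 : Matrix (ιA ⊕ ιB) (ιA ⊕ ιB) ℂ) ⊗ₖ ladMat W L) * (CB y)ᵀ)
          ≤ (1 + 2000 / (W : ℝ)) * X0 W / 4) := by
  classical
  choose V α hV hV2 hT using fun x => exists_diag (dil (Gm x)) (dil_isHermitian (Gm x))
  choose V' β hV' hV2' hT' using fun y => exists_diag (dil (Gm' y)) (dil_isHermitian (Gm' y))
  -- the length of the ladder
  set M1 : ℕ := Finset.univ.sup (fun p : X × (ιA ⊕ ιB) => mOf W |α p.1 p.2|) with hM1
  set M2 : ℕ := Finset.univ.sup (fun p : Y × (ιA ⊕ ιB) => mOf W |β p.1 p.2|) with hM2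
  set L : ℕ := max M1 M2 + nW W with hL
  have hLα : ∀ x k, mOf W |α x k| + nW W ≤ L := fun x k => by
    have : mOf W |α x k| ≤ M1 :=
      Finset.le_sup (f := fun p : X × (ιA ⊕ ιB) => mOf W |α p.1 p.2|) (Finset.mem_univ (x, k))
    have := le_max_left M1 M2
    omega
  have hLβ : ∀ y l, mOf W |β y l| + nW W ≤ L := fun y l => by
    have : mOf W |β y l| ≤ M2 :=
      Finset.le_sup (f := fun p : Y × (ιA ⊕ ιB) => mOf W |β p.1 p.2|) (Finset.mem_univ (y, l))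
    have := le_max_right M1 M2
    omega
  have hα1 : ∀ x k, |α x k| ≤ 1 := fun x k => by
    apply abs_eig_le_one (hV x) (hV2 x) (α x)
    rw [hT x, fsq_dil, h x]; norm_num
  have hβ1 : ∀ y l, |β y l| ≤ 1 := fun y l => by
    apply abs_eig_le_one (hV' y) (hV2' y) (β y)
    rw [hT' y, fsq_dil, h' y]; norm_num
  have hX0 : 0 < X0 W := X0_pos hW
  have hWpos : (0 : ℝ) < W := by exact_mod_cast hW
  refine ⟨L, fun x => (lift (V x) (α x) (kapA W L)).submatrix (Prod.map Sum.inl id) id,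
    fun y => ((lift (V' y) (β y) (kapB W L)).map star).submatrix (Prod.map Sum.inr id) id,
    ?_, ?_, ?_, ?_, ?_, ?_⟩
  · have : 1 ≤ nW W := by unfold nW; nlinarith
    omega
  · intro x
    exact (isContr_lift (hV x) (hV2 x) (α x) _ (isContr_kapA W L)).submatrix_rows _ inj_inl
  · intro y
    exact ((isContr_lift (hV' y) (hV2' y) (β y) _ (isContr_kapB W L)).map_star).submatrix_rows _ inj_inr
  · intro x y
    have hCB : (((lift (V' y) (β y) (kapB W L)).map star).submatrix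
        (Prod.map (Sum.inr : ιB → ιA ⊕ ιB) (id : Fin (nW W) → Fin (nW W))) id)ᵀ
        = ((lift (V' y) (β y) (kapB W L))ᴴ).submatrix id (Prod.map Sum.inr id) := by
      ext p p'; simp [Matrix.conjTranspose_apply]
    have hprod : (lift (V x) (α x) (kapA W L)).submatrix (Prod.map Sum.inl id) id
          * ((1 : Matrix (ιA ⊕ ιB) (ιA ⊕ ιB) ℂ) ⊗ₖ ladMat W L)
          * ((lift (V' y) (β y) (kapB W L))ᴴ).submatrix id (Prod.map Sum.inr id)
        = (lift (V x) (α x) (kapA W L) * ((1 : Matrix (ιA ⊕ ιB) (ιA ⊕ ιB) ℂ) ⊗ₖ ladMat W L)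
          * (lift (V' y) (β y) (kapB W L))ᴴ).submatrix (Prod.map Sum.inl id) (Prod.map Sum.inr id) := by
      ext p p'; simp [Matrix.mul_apply]
    rw [hCB, hprod, ← dil_kron_submatrix]
    rw [show ∀ (A B : Matrix ((ιA ⊕ ιB) × Fin (nW W)) ((ιA ⊕ ιB) × Fin (nW W)) ℂ),
        A.submatrix (Prod.map (Sum.inl : ιA → ιA ⊕ ιB) id) (Prod.map (Sum.inr : ιB → ιA ⊕ ιB) id)
          - B.submatrix (Prod.map Sum.inl id) (Prod.map Sum.inr id)
        = (A - B).submatrix (Prod.map Sum.inl id) (Prod.map Sum.inr id) from fun A B => rfl]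
    refine le_trans (fsq_submatrix_le _ _ _ inj_inl inj_inr) ?_
    rw [← hT x, fsq_lift_sandwich (hV x) (hV2 x) (hV' y) (hV2' y)]
    have hb : ∀ k l, ‖((V x)ᴴ * V' y) k l‖ ^ 2 *
          fsq (kapA W L (α x k) * ladMat W L * (kapB W L (β y l))ᴴ - ((α x k : ℝ) : ℂ) • chiMat W)
        ≤ 4000 * X0 W / (W : ℝ) ^ 2 * (‖((V x)ᴴ * V' y) k l‖ ^ 2 * α x k ^ 2)
          + 4000 * X0 W * (W : ℝ) ^ 2 * (‖((V x)ᴴ * V' y) k l‖ ^ 2 * (α x k - β y l) ^ 2) := by
      intro k l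
      have := kap_sandwich_err hW L (α x k) (β y l) (hα1 x k) (hβ1 y l) (fun _ => hLα x k)
        (fun _ => hLβ y l)
      have hw : 0 ≤ ‖((V x)ᴴ * V' y) k l‖ ^ 2 := by positivity
      calc _ ≤ ‖((V x)ᴴ * V' y) k l‖ ^ 2 *
            (4000 * (α x k ^ 2 / (W : ℝ) ^ 2 + (W : ℝ) ^ 2 * (α x k - β y l) ^ 2) * X0 W) :=
            mul_le_mul_of_nonneg_left this hw
        _ = _ := by ring
    calc _ ≤ ∑ k, ∑ l, (4000 * X0 W / (W : ℝ) ^ 2 * (‖((V x)ᴴ * V' y) k l‖ ^ 2 * α x k ^ 2)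
          + 4000 * X0 W * (W : ℝ) ^ 2 * (‖((V x)ᴴ * V' y) k l‖ ^ 2 * (α x k - β y l) ^ 2)) :=
          Finset.sum_le_sum fun k _ => Finset.sum_le_sum fun l _ => hb k l
      _ = 4000 * X0 W / (W : ℝ) ^ 2 * fsq (specMat (V x) (α x))
          + 4000 * X0 W * (W : ℝ) ^ 2 * fsq (specMat (V x) (α x) - specMat (V' y) (β y)) := by
          rw [← sum_w_sq (hV x) (hV2 x) (hV2' y), ← sum_w_sub_sq (hV x) (hV2 x) (hV' y) (hV2' y)]
          simp only [Finset.sum_add_distrib, Finset.mul_sum]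
      _ = _ := by
          rw [hT x, hT' y, fsq_dil, fsq_dil_sub, h x]; ring
  · intro x
    have hprod : (lift (V x) (α x) (kapA W L)).submatrix (Prod.map Sum.inl id) id
          * ((1 : Matrix (ιA ⊕ ιB) (ιA ⊕ ιB) ℂ) ⊗ₖ ladMat W L)
        = (lift (V x) (α x) (kapA W L) * ((1 : Matrix (ιA ⊕ ιB) (ιA ⊕ ιB) ℂ) ⊗ₖ ladMat W L)).submatrix
            (Prod.map Sum.inl id) id := by
      ext p p'; simp [Matrix.mul_apply]
    rw [hprod]
    refine le_trans (fsq_lift_rows_le (hV x) (hV2 x) (α x) (kapA W L) (ladMat W L) Sum.inl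
      ((1 + 2000 / (W : ℝ)) * X0 W) (fun k => kapA_row_mass hW L (α x k) (fun _ => hLα x k))) ?_
    rw [hT x, fsq_dil_rows, h x]; apply le_of_eq; ring
  · intro y
    have hCB : (((lift (V' y) (β y) (kapB W L)).map star).submatrix
        (Prod.map (Sum.inr : ιB → ιA ⊕ ιB) (id : Fin (nW W) → Fin (nW W))) id)ᵀ
        = ((lift (V' y) (β y) (kapB W L))ᴴ).submatrix id (Prod.map Sum.inr id) := by
      ext p p'; simp [Matrix.conjTranspose_apply]
    have hprod : ((1 : Matrix (ιA ⊕ ιB) (ιA ⊕ ιB) ℂ) ⊗ₖ ladMat W L)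
          * ((lift (V' y) (β y) (kapB W L))ᴴ).submatrix id (Prod.map Sum.inr id)
        = (((1 : Matrix (ιA ⊕ ιB) (ιA ⊕ ιB) ℂ) ⊗ₖ ladMat W L)
          * (lift (V' y) (β y) (kapB W L))ᴴ).submatrix id (Prod.map Sum.inr id) := by
      ext p p'; simp [Matrix.mul_apply]
    rw [hCB, hprod]
    refine le_trans (fsq_lift_cols_le (hV' y) (hV2' y) (β y) (kapB W L) (ladMat W L) Sum.inr
      ((1 + 2000 / (W : ℝ)) * X0 W) (fun l => kapB_col_mass hW L (β y l) (fun _ => hLβ y l))) ?_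
    rw [hT' y, fsq_dil_cols, h' y]; apply le_of_eq; ring

end Crest.Agent.PR
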