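/-
ROW 342, project PR.  BLOCK (E): quantum correlated sampling, blueprint sections 5-6.  Assembly: helper57.
-/
import Crest.Agent.PR_Copies
import Crest.Agent.PR_QCopy

set_option autoImplicit false

namespace Crest.Agent.PR

open Crest.MathPhysics.NonlocalGame
open scoped Kronecker ComplexOrder Matrix

private theorem qcs_arith {n0 Z ω A e r s p00 S P pWin c t η' : ℝ}
    (hn0 : 0 < n0) (hr : r ^ 2 = n0) (hr0 : 0 ≤ r) (_hs0 : 0 ≤ s) (he0 : 0 ≤ e) (hZ : 0 < Z)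
    (hω1 : ω ≤ 1) (htri1 : r ≤ s + e) (htri2 : s ≤ r + e)
    (hpert : n0 * ω ≤ A + e * (r + s)) (hA0 : 0 ≤ A)
    (hD1 : Z * (1 - p00) ≤ 2 * (1 + c) * n0 - s ^ 2) (hD2 : s ^ 2 ≤ Z * (1 - p00))
    (hS : (1 - p00) * S = 1 - P) (hP : p00 < 1 → P ≤ η')
    (hwin : A / Z * S ≤ pWin) (hp : 0 ≤ pWin)
    (he : e ^ 2 ≤ 32000 * t ^ 2 * n0) (hc : c ≤ 2000 * t) (hc0 : 0 ≤ c) (_ht : 0 ≤ t) (hη' : 0 < η') :
    ω - 5000 * t - η' ≤ pWin := by
  have hrpos : 0 < r := by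
    rcases hr0.lt_or_eq with h | h
    · exact h
    · rw [← h] at hr; norm_num at hr; linarith
  obtain ⟨u, hu⟩ : ∃ u, e = u * r := ⟨e / r, by field_simp⟩
  have hu0 : 0 ≤ u := by
    rcases le_or_gt 0 u with h | h
    · exact h
    · nlinarith
  have hu2 : u ^ 2 ≤ 32000 * t ^ 2 := by
    have : u ^ 2 * n0 ≤ 32000 * t ^ 2 * n0 := by
      calc u ^ 2 * n0 = e ^ 2 := by rw [hu, ← hr]; ring
        _ ≤ _ := he
    exact le_of_mul_le_mul_right this hn0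
  have hut : u ≤ 179 * t := by
    rcases le_or_gt u (179 * t) with h | h
    · exact h
    · nlinarith
  rcases le_or_gt (1 / 4) u with h4 | h4
  · linarith
  rcases le_or_gt (ω - 3 * u) 0 with hB | hB
  · linarith
  rcases le_or_gt 1 η' with hη1 | hη1
  · linarith
  have hs1 : r * (1 - u) ≤ s := by rw [hu] at htri1; linarith
  have hs2 : s ≤ r * (1 + u) := by rw [hu] at htri2; linarith
  have hs3 : n0 * (1 - u) ^ 2 ≤ s ^ 2 := by
    have h1 : 0 ≤ r * (1 - u) := by apply mul_nonneg hr0; linarith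
    calc n0 * (1 - u) ^ 2 = (r * (1 - u)) ^ 2 := by rw [← hr]; ring
      _ ≤ s ^ 2 := by gcongr
  obtain ⟨D, hD⟩ : ∃ D, D = Z * (1 - p00) := ⟨_, rfl⟩
  rw [← hD] at hD1 hD2
  have hDpos : 0 < D := by
    have : 0 < n0 * (1 - u) ^ 2 := by
      apply mul_pos hn0; apply pow_pos; linarith
    linarith
  have hp00 : p00 < 1 := by
    rcases lt_or_ge p00 1 with h | h
    · exact h
    · have : D ≤ 0 := by rw [hD]; apply mul_nonpos_of_nonneg_of_nonpos hZ.le; linarith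
      linarith
  have hPle := hP hp00
  have hDle : D ≤ n0 * (1 + (2 * c + 2 * u)) := by
    have : n0 * (1 - 2 * u) ≤ n0 * (1 - u) ^ 2 := by
      apply mul_le_mul_of_nonneg_left _ hn0.le; nlinarith
    linarith
  have hAge : n0 * (ω - 3 * u) ≤ A := by
    have h1 : e * (r + s) ≤ n0 * (2 * u + u ^ 2) := by
      calc e * (r + s) ≤ e * (r + r * (1 + u)) := by gcongr
        _ = n0 * (2 * u + u ^ 2) := by rw [hu, ← hr]; ring
    have h2 : u ^ 2 ≤ u := by nlinarith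
    have h3 : n0 * (2 * u + u ^ 2) ≤ n0 * (3 * u) := by
      apply mul_le_mul_of_nonneg_left _ hn0.le; linarith
    linarith
  have hSeq : A / Z * S = A * (1 - P) / D := by
    have h1 : (1 - p00) ≠ 0 := by linarith
    have : S = (1 - P) / (1 - p00) := by field_simp; linarith
    rw [this, hD]; field_simp
  obtain ⟨k, hk⟩ : ∃ k, k = 2 * c + 2 * u := ⟨_, rfl⟩
  obtain ⟨B, hBd⟩ : ∃ B, B = ω - 3 * u := ⟨_, rfl⟩
  rw [← hk] at hDle
  rw [← hBd] at hAge hB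
  have hk0 : 0 ≤ k := by rw [hk]; linarith
  have hB1 : B ≤ 1 := by rw [hBd]; linarith
  have hmain : B - k - η' ≤ A * (1 - P) / D := by
    rw [le_div_iff₀ hDpos]
    rcases le_or_gt (B - k - η') 0 with hneg | hneg
    · have h1 : 0 ≤ A * (1 - P) := mul_nonneg hA0 (by linarith)
      have h2 : (B - k - η') * D ≤ 0 := mul_nonpos_of_nonpos_of_nonneg hneg hDpos.le
      linarith
    calc (B - k - η') * D ≤ (B - k - η') * (n0 * (1 + k)) :=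
          mul_le_mul_of_nonneg_left hDle hneg.le
      _ = n0 * ((B - k - η') * (1 + k)) := by ring
      _ ≤ n0 * (B * (1 - η')) := by
          apply mul_le_mul_of_nonneg_left _ hn0.le
          nlinarith [mul_nonneg hη'.le (sub_nonneg.2 hB1), mul_nonneg hk0 (sub_nonneg.2 hB1),
            mul_nonneg hk0 hk0, mul_nonneg hη'.le hk0]
      _ = n0 * B * (1 - η') := by ring
      _ ≤ A * (1 - P) := by
          apply mul_le_mul hAge (by linarith) (by linarith) hA0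
  rw [hSeq] at hwin
  rw [hBd, hk] at hmain
  linarith

section pair
variable {ιA ιB mA mB I α β : Type} [Fintype ιA] [Fintype ιB] [Fintype mA] [Fintype mB] [Fintype I]
  [Fintype α] [Fintype β] [DecidableEq ιA] [DecidableEq ιB] [DecidableEq mA] [DecidableEq mB]
  [DecidableEq I]

private theorem fsq_both_le_right (Ψ : Matrix mA mB ℂ) (CA : Matrix (ιA × I) mA ℂ)
    (CB : Matrix (ιB × I) mB ℂ) (hCA : IsContr CA) :
    fsq (CA * Ψ * CBᵀ) ≤ fsq (Ψ * CBᵀ) := by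
  have h1 := qf_defect Ψ CA CB
  have h2 := qf_defect Ψ CA (0 : Matrix (ιB × I) mB ℂ)
  have hO : (1 : Matrix mB mB ℂ) - (0 : Matrix (ιB × I) mB ℂ)ᴴ * (0 : Matrix (ιB × I) mB ℂ) = 1 := by
    simp
  rw [hO] at h2
  have h3 : qf (ofMat Ψ) (1 - CAᴴ * CA) (CBᴴ * CB)
      = qf (ofMat Ψ) (1 - CAᴴ * CA) 1 - qf (ofMat Ψ) (1 - CAᴴ * CA) (1 - CBᴴ * CB) := by
    rw [← qf_sub_right]; congr 1; abel
  have h4 : 0 ≤ qf (ofMat Ψ) (1 - CAᴴ * CA) (CBᴴ * CB) :=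
    qf_nonneg _ hCA.posSemidef_one_sub (Matrix.posSemidef_conjTranspose_mul_self CB)
  have h5 : fsq (Ψ * (0 : Matrix (ιB × I) mB ℂ)ᵀ) = 0 := by simp [fsq]
  have h6 : fsq (CA * Ψ * (0 : Matrix (ιB × I) mB ℂ)ᵀ) = 0 := by simp [fsq]
  rw [h5, h6] at h2
  linarith

private theorem fsq_both_le_left (Ψ : Matrix mA mB ℂ) (CA : Matrix (ιA × I) mA ℂ)
    (CB : Matrix (ιB × I) mB ℂ) (hCB : IsContr CB) :
    fsq (CA * Ψ * CBᵀ) ≤ fsq (CA * Ψ) := by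
  have h1 := qf_defect Ψ CA CB
  have h2 := qf_defect Ψ (0 : Matrix (ιA × I) mA ℂ) CB
  have hO : (1 : Matrix mA mA ℂ) - (0 : Matrix (ιA × I) mA ℂ)ᴴ * (0 : Matrix (ιA × I) mA ℂ) = 1 := by
    simp
  rw [hO] at h2
  have h3 : qf (ofMat Ψ) (CAᴴ * CA) (1 - CBᴴ * CB)
      = qf (ofMat Ψ) 1 (1 - CBᴴ * CB) - qf (ofMat Ψ) (1 - CAᴴ * CA) (1 - CBᴴ * CB) := by
    rw [← qf_sub_left]; congr 1; abel
  have h4 : 0 ≤ qf (ofMat Ψ) (CAᴴ * CA) (1 - CBᴴ * CB) :=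
    qf_nonneg _ (Matrix.posSemidef_conjTranspose_mul_self CA) hCB.posSemidef_one_sub
  have h5 : fsq ((0 : Matrix (ιA × I) mA ℂ) * Ψ) = 0 := by simp [fsq]
  have h6 : fsq ((0 : Matrix (ιA × I) mA ℂ) * Ψ * CBᵀ) = 0 := by simp [fsq]
  rw [h5, h6] at h2
  linarith

/-- the estimate for one pair of questions -/
private theorem qcs_pair (Gm : Matrix ιA ιB ℂ) (hG : fsq Gm = 1) (χ : Matrix I I ℂ) (hχ : 0 < fsq χ)
    (U0 : Matrix mA mB ℂ) (hZ : 0 < fsq U0) (CA : Matrix (ιA × I) mA ℂ) (CB : Matrix (ιB × I) mB ℂ)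
    (hCA : IsContr CA) (hCB : IsContr CB)
    (N : α → Matrix ιA ιA ℂ) (N' : β → Matrix ιB ιB ℂ) (hN : IsPOVM N) (hN' : IsPOVM N')
    (c t η' : ℝ) (hc0 : 0 ≤ c) (hc : c ≤ 2000 * t) (ht : 0 ≤ t) (hη' : 0 < η')
    (herr : fsq (CA * U0 * CBᵀ - (1 / 2 : ℂ) • (Gm ⊗ₖ χ)) ≤ 32000 * t ^ 2 * (fsq χ / 4))
    (hPA : fsq (CA * U0) ≤ (1 + c) * fsq χ / 4) (hPB : fsq (U0 * CBᵀ) ≤ (1 + c) * fsq χ / 4)
    (Win : α → β → Bool) (Nn : ℕ) (pWin : ℝ) (hp0 : 0 ≤ pWin)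
    (hNn : qf (ofMat ((((Real.sqrt (fsq U0))⁻¹ : ℝ) : ℂ) • U0))
        (1 - ∑ a, CAᴴ * (N a ⊗ₖ (1 : Matrix I I ℂ)) * CA)
        (1 - ∑ b, CBᴴ * (N' b ⊗ₖ (1 : Matrix I I ℂ)) * CB) < 1 →
      (qf (ofMat ((((Real.sqrt (fsq U0))⁻¹ : ℝ) : ℂ) • U0))
        (1 - ∑ a, CAᴴ * (N a ⊗ₖ (1 : Matrix I I ℂ)) * CA)
        (1 - ∑ b, CBᴴ * (N' b ⊗ₖ (1 : Matrix I I ℂ)) * CB)) ^ Nn ≤ η')
    (hwin : (∑ a, ∑ b, if Win a b = true then
        qf (ofMat ((((Real.sqrt (fsq U0))⁻¹ : ℝ) : ℂ) • U0))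
          (CAᴴ * (N a ⊗ₖ (1 : Matrix I I ℂ)) * CA) (CBᴴ * (N' b ⊗ₖ (1 : Matrix I I ℂ)) * CB) else 0)
      * ∑ i ∈ Finset.range Nn, (qf (ofMat ((((Real.sqrt (fsq U0))⁻¹ : ℝ) : ℂ) • U0))
        (1 - ∑ a, CAᴴ * (N a ⊗ₖ (1 : Matrix I I ℂ)) * CA)
        (1 - ∑ b, CBᴴ * (N' b ⊗ₖ (1 : Matrix I I ℂ)) * CB)) ^ i ≤ pWin) :
    (∑ a, ∑ b, if Win a b = true then qf (ofMat Gm) (N a) (N' b) else 0) - 5000 * t - η' ≤ pWin := by
  set Z := fsq U0 with hZdef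
  set Θ := CA * U0 * CBᵀ with hΘ
  set Id := (1 / 2 : ℂ) • (Gm ⊗ₖ χ) with hId
  set p00 := qf (ofMat ((((Real.sqrt Z)⁻¹ : ℝ) : ℂ) • U0))
        (1 - ∑ a, CAᴴ * (N a ⊗ₖ (1 : Matrix I I ℂ)) * CA)
        (1 - ∑ b, CBᴴ * (N' b ⊗ₖ (1 : Matrix I I ℂ)) * CB) with hp00
  have hnorm : ‖(((Real.sqrt Z)⁻¹ : ℝ) : ℂ)‖ ^ 2 = 1 / Z := by
    rw [Complex.norm_real, Real.norm_eq_abs, sq_abs, inv_pow, Real.sq_sqrt hZ.le, one_div]
  have hK : IsPOVM (fun a => N a ⊗ₖ (1 : Matrix I I ℂ)) := isPOVM_kron_one hN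
  have hK' : IsPOVM (fun b => N' b ⊗ₖ (1 : Matrix I I ℂ)) := isPOVM_kron_one hN'
  -- (i)
  have hq : ∀ a b, qf (ofMat ((((Real.sqrt Z)⁻¹ : ℝ) : ℂ) • U0))
      (CAᴴ * (N a ⊗ₖ (1 : Matrix I I ℂ)) * CA) (CBᴴ * (N' b ⊗ₖ (1 : Matrix I I ℂ)) * CB)
      = 1 / Z * qf (ofMat Θ) (N a ⊗ₖ (1 : Matrix I I ℂ)) (N' b ⊗ₖ (1 : Matrix I I ℂ)) := by
    intro a b
    rw [ofMat_smul, qf_smul_vec, hnorm, qf_conj]
  -- (ii)
  have hp00' : p00 = 1 / Z * (Z - fsq (CA * U0) - fsq (U0 * CBᵀ) + fsq Θ) := by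
    rw [hp00, sum_conj_kron_povm CA hN, sum_conj_kron_povm CB hN', ofMat_smul, qf_smul_vec, hnorm,
      qf_defect]
  set A := ∑ a, ∑ b, if Win a b = true then
      qf (ofMat Θ) (N a ⊗ₖ (1 : Matrix I I ℂ)) (N' b ⊗ₖ (1 : Matrix I I ℂ)) else 0 with hA
  have hA0 : 0 ≤ A := by
    apply Finset.sum_nonneg; intro a _; apply Finset.sum_nonneg; intro b _
    split_ifs
    · exact qf_nonneg _ (hK.1 a) (hK'.1 b)
    · exact le_rfl
  have hsumq : (∑ a, ∑ b, if Win a b = true then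
        qf (ofMat ((((Real.sqrt Z)⁻¹ : ℝ) : ℂ) • U0))
          (CAᴴ * (N a ⊗ₖ (1 : Matrix I I ℂ)) * CA) (CBᴴ * (N' b ⊗ₖ (1 : Matrix I I ℂ)) * CB) else 0)
      = A / Z := by
    rw [hA, div_eq_mul_one_div, mul_comm, Finset.mul_sum]
    refine Finset.sum_congr rfl fun a _ => ?_
    rw [Finset.mul_sum]
    refine Finset.sum_congr rfl fun b _ => ?_
    split_ifs
    · exact hq a b
    · simp
  set ω := ∑ a, ∑ b, if Win a b = true then qf (ofMat Gm) (N a) (N' b) else 0 with hω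
  -- (iv)
  have hIdq : (∑ a, ∑ b, if Win a b = true then
      qf (ofMat Id) (N a ⊗ₖ (1 : Matrix I I ℂ)) (N' b ⊗ₖ (1 : Matrix I I ℂ)) else 0)
      = fsq χ / 4 * ω := by
    rw [hω, Finset.mul_sum]
    refine Finset.sum_congr rfl fun a _ => ?_
    rw [Finset.mul_sum]
    refine Finset.sum_congr rfl fun b _ => ?_
    split_ifs
    · rw [hId, ofMat_smul, qf_smul_vec, qf_kron_anc]
      have : ‖(1 / 2 : ℂ)‖ ^ 2 = 1 / 4 := by norm_num
      rw [this]; ring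
    · simp
  have hfId : fsq Id = fsq χ / 4 := by
    rw [hId, fsq_smul, fsq_kronecker, hG]
    have : ‖(1 / 2 : ℂ)‖ ^ 2 = 1 / 4 := by norm_num
    rw [this]; ring
  -- (v)
  have hpert := qf_win_pert (fun a => N a ⊗ₖ (1 : Matrix I I ℂ)) (fun b => N' b ⊗ₖ (1 : Matrix I I ℂ))
    hK hK' Win (ofMat Id) (ofMat Θ)
  rw [hIdq, ← ofMat_sub, nsq_ofMat, nsq_ofMat, nsq_ofMat, fsq_sub_comm] at hpert
  -- (vii)
  have htri1 : Real.sqrt (fsq Id) ≤ Real.sqrt (fsq Θ) + Real.sqrt (fsq (Θ - Id)) := by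
    have := sqrt_fsq_add_le Θ (Id - Θ)
    rw [fsq_sub_comm Id Θ] at this
    simpa using this
  have htri2 : Real.sqrt (fsq Θ) ≤ Real.sqrt (fsq Id) + Real.sqrt (fsq (Θ - Id)) := by
    have := sqrt_fsq_add_le Id (Θ - Id)
    simpa using this
  have hω1 : ω ≤ 1 := by
    have h1 : ω ≤ ∑ a, ∑ b, qf (ofMat Gm) (N a) (N' b) := by
      apply Finset.sum_le_sum; intro a _; apply Finset.sum_le_sum; intro b _
      split_ifs
      · exact le_rfl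
      · exact qf_nonneg _ (hN.1 a) (hN'.1 b)
    rw [sum_sum_qf_povm _ hN hN', nsq_ofMat, hG] at h1
    exact h1
  have hs2 : Real.sqrt (fsq Θ) ^ 2 = fsq Θ := Real.sq_sqrt (fsq_nonneg _)
  have hZne : Z ≠ 0 := hZ.ne'
  have hZp : Z * (1 - p00) = fsq (CA * U0) + fsq (U0 * CBᵀ) - fsq Θ := by
    rw [hp00']; field_simp; ring
  refine qcs_arith (n0 := fsq χ / 4) (Z := Z) (ω := ω) (A := A) (e := Real.sqrt (fsq (Θ - Id)))
    (r := Real.sqrt (fsq Id)) (s := Real.sqrt (fsq Θ)) (p00 := p00)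
    (S := ∑ i ∈ Finset.range Nn, p00 ^ i) (P := p00 ^ Nn) (c := c) (t := t) (by linarith) ?_
    (Real.sqrt_nonneg _) (Real.sqrt_nonneg _) (Real.sqrt_nonneg _) hZ hω1 htri1 htri2 hpert hA0
    ?_ ?_ (mul_neg_geom_sum p00 Nn) hNn ?_ hp0 ?_ hc hc0 ht hη'
  · rw [Real.sq_sqrt (fsq_nonneg _), hfId]
  · rw [hZp, hs2]; linarith
  · rw [hZp, hs2]
    have h1 := fsq_both_le_left U0 CA CB hCB
    have h2 := fsq_both_le_right U0 CA CB hCA
    linarith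
  · rw [← hsumq]; exact hwin
  · rw [Real.sq_sqrt (fsq_nonneg _)]; exact herr

end pair

private theorem fsq_one_pos {H : Type} [Fintype H] [DecidableEq H] (h0 : H) :
    0 < fsq (1 : Matrix H H ℂ) := by
  have h1 : (1 : ℝ) ≤ fsq (1 : Matrix H H ℂ) := by
    unfold fsq
    calc (1 : ℝ) = ‖(1 : Matrix H H ℂ) h0 h0‖ ^ 2 := by simp
      _ ≤ ∑ j, ‖(1 : Matrix H H ℂ) h0 j‖ ^ 2 :=
          Finset.single_le_sum (f := fun j => ‖(1 : Matrix H H ℂ) h0 j‖ ^ 2)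
            (fun _ _ => by positivity) (Finset.mem_univ h0)
      _ ≤ _ := Finset.single_le_sum (f := fun i => ∑ j, ‖(1 : Matrix H H ℂ) i j‖ ^ 2)
            (fun _ _ => by positivity) (Finset.mem_univ h0)
  linarith

/-- **(QCS)** quantum correlated sampling with loss `O(η + ε/η)`. -/
theorem qcs : ∃ CQ : ℝ, 0 < CQ ∧ ∀ (G : Game) (ιA ιB : Type) [Fintype ιA] [Fintype ιB]
    [DecidableEq ιA] [DecidableEq ιB]
    (g : Fin G.nX → ιA × ιB → ℂ) (g' : Fin G.nY → ιA × ιB → ℂ)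
    (_ : ∀ x, nsq (g x) = 1) (_ : ∀ y, nsq (g' y) = 1)
    (N : Fin G.nX → Fin G.nA → Matrix ιA ιA ℂ) (N' : Fin G.nY → Fin G.nB → Matrix ιB ιB ℂ)
    (_ : ∀ x, IsPOVM (N x)) (_ : ∀ y, IsPOVM (N' y))
    (η η' : ℝ), 0 < η → η ≤ 1 → 0 < η' →
    ∃ p, IsQCorr G p ∧ ∀ (x : Fin G.nX) (y : Fin G.nY) (Win : Fin G.nA → Fin G.nB → Bool),
      (∑ a, ∑ b, if Win a b = true then qf (g x) (N x a) (N' y b) else 0)
        - CQ * (η + Real.sqrt (nsq (g x - g' y)) / η) - η'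
      ≤ ∑ a, ∑ b, if Win a b = true then p x y a b else 0 := by
  refine ⟨5000, by norm_num, ?_⟩
  intro G ιA ιB _ _ _ _ g g' hg hg' N N' hN hN' η η' hη hη1 hη'
  -- nonemptiness
  have hX : 0 < G.nX := by
    rcases Nat.eq_zero_or_pos G.nX with h | h
    · haveI : IsEmpty (Fin G.nX) := by rw [h]; infer_instance
      have := G.prob_sum
      simp at this
    · exact h
  have hY : 0 < G.nY := by
    rcases Nat.eq_zero_or_pos G.nY with h | h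
    · haveI : IsEmpty (Fin G.nY) := by rw [h]; infer_instance
      have := G.prob_sum
      simp at this
    · exact h
  obtain ⟨i0, -⟩ : ∃ i0 : ιA × ιB, True := by
    by_contra hcon
    haveI : IsEmpty (ιA × ιB) := ⟨fun i => hcon ⟨i, trivial⟩⟩
    have := hg ⟨0, hX⟩
    simp [nsq] at this
  have hA : 0 < G.nA := by
    rcases Nat.eq_zero_or_pos G.nA with h | h
    · haveI : IsEmpty (Fin G.nA) := by rw [h]; infer_instance
      have := congrFun (congrFun (hN ⟨0, hX⟩).2 i0.1) i0.1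
      simp at this
    · exact h
  have hB : 0 < G.nB := by
    rcases Nat.eq_zero_or_pos G.nB with h | h
    · haveI : IsEmpty (Fin G.nB) := by rw [h]; infer_instance
      have := congrFun (congrFun (hN' ⟨0, hY⟩).2 i0.2) i0.2
      simp at this
    · exact h
  -- the smear width
  obtain ⟨W, hWdef⟩ : ∃ W : ℕ, W = ⌈1 / η⌉₊ := ⟨_, rfl⟩
  have hinv : 1 ≤ 1 / η := by rw [le_div_iff₀ hη]; linarith
  have hW1 : 1 / η ≤ (W : ℝ) := by rw [hWdef]; exact Nat.le_ceil _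
  have hW2 : (W : ℝ) ≤ 2 / η := by
    have : (W : ℝ) < 1 / η + 1 := by rw [hWdef]; exact Nat.ceil_lt_add_one (by positivity)
    have h2 : 2 / η = 1 / η + 1 / η := by ring
    linarith
  have hWpos : (0 : ℝ) < W := by linarith
  have hW : 1 ≤ W := by exact_mod_cast (by linarith : (1 : ℝ) ≤ W)
  have hWinv : 1 / (W : ℝ) ≤ η := by
    rw [div_le_iff₀ hWpos]
    have := mul_le_mul_of_nonneg_left hW1 hη.le
    rw [mul_one_div, div_self hη.ne'] at this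
    exact this
  -- matrices
  set Gm : Fin G.nX → Matrix ιA ιB ℂ := fun x i j => g x (i, j) with hGm
  set Gm' : Fin G.nY → Matrix ιA ιB ℂ := fun y i j => g' y (i, j) with hGm'
  have hofG : ∀ x, ofMat (Gm x) = g x := fun x => rfl
  have hofG' : ∀ y, ofMat (Gm' y) = g' y := fun y => rfl
  have hfG : ∀ x, fsq (Gm x) = 1 := fun x => by rw [← nsq_ofMat, hofG, hg]
  have hfG' : ∀ y, fsq (Gm' y) = 1 := fun y => by rw [← nsq_ofMat, hofG', hg']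
  obtain ⟨L, CA, CB, hL, hCA, hCB, herr, hPA, hPB⟩ := single_copy hW Gm Gm' hfG hfG'
  set U0 : Matrix ((ιA ⊕ ιB) × Fin L) ((ιA ⊕ ιB) × Fin L) ℂ :=
    (1 : Matrix (ιA ⊕ ιB) (ιA ⊕ ιB) ℂ) ⊗ₖ ladMat W L with hU0
  have hZ : 0 < fsq U0 := by
    rw [hU0, fsq_kronecker]
    exact mul_pos (fsq_one_pos (Sum.inl i0.1)) (fsq_ladMat_pos hW hL)
  set Uh : ((ιA ⊕ ιB) × Fin L) × ((ιA ⊕ ιB) × Fin L) → ℂ :=
    ofMat ((((Real.sqrt (fsq U0))⁻¹ : ℝ) : ℂ) • U0) with hUh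
  have hUn : nsq Uh = 1 := by
    rw [hUh, nsq_ofMat, fsq_smul, Complex.norm_real, Real.norm_eq_abs, sq_abs, inv_pow,
      Real.sq_sqrt hZ.le, inv_mul_cancel₀ hZ.ne']
  set E : Fin G.nX → Fin G.nA → Matrix ((ιA ⊕ ιB) × Fin L) ((ιA ⊕ ιB) × Fin L) ℂ :=
    fun x a => (CA x)ᴴ * (N x a ⊗ₖ (1 : Matrix (Fin (nW W)) (Fin (nW W)) ℂ)) * CA x with hE
  set F : Fin G.nY → Fin G.nB → Matrix ((ιA ⊕ ιB) × Fin L) ((ιA ⊕ ιB) × Fin L) ℂ :=
    fun y b => (CB y)ᴴ * (N' y b ⊗ₖ (1 : Matrix (Fin (nW W)) (Fin (nW W)) ℂ)) * CB y with hF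
  have hEp : ∀ x a, (E x a).PosSemidef := fun x a => posSemidef_conj_kron (CA x) ((hN x).1 a)
  have hFp : ∀ y b, (F y b).PosSemidef := fun y b => posSemidef_conj_kron (CB y) ((hN' y).1 b)
  have hE1 : ∀ x, (1 - ∑ a, E x a).PosSemidef := fun x => by
    rw [hE]; simp only []
    rw [sum_conj_kron_povm (CA x) (hN x)]
    exact (hCA x).posSemidef_one_sub
  have hF1 : ∀ y, (1 - ∑ b, F y b).PosSemidef := fun y => by
    rw [hF]; simp only []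
    rw [sum_conj_kron_povm (CB y) (hN' y)]
    exact (hCB y).posSemidef_one_sub
  obtain ⟨p0, hp0⟩ := exists_isQCorr (G := G) hA hB
  have h00 : ∀ x y, 0 ≤ qf Uh (1 - ∑ a, E x a) (1 - ∑ b, F y b) :=
    fun x y => qf_nonneg _ (hE1 x) (hF1 y)
  have hev : ∀ x y, ∀ᶠ n : ℕ in Filter.atTop, qf Uh (1 - ∑ a, E x a) (1 - ∑ b, F y b) < 1 →
      (qf Uh (1 - ∑ a, E x a) (1 - ∑ b, F y b)) ^ n ≤ η' := by
    intro x y
    by_cases h : qf Uh (1 - ∑ a, E x a) (1 - ∑ b, F y b) < 1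
    · have := (tendsto_pow_atTop_nhds_zero_of_lt_one (h00 x y) h).eventually (Iic_mem_nhds hη')
      filter_upwards [this] with n hn _ using hn
    · exact Filter.Eventually.of_forall (fun n hh => absurd hh h)
  obtain ⟨Nn, hNn⟩ := (Filter.eventually_all.2 (fun x => Filter.eventually_all.2 (hev x))).exists
  obtain ⟨q, hq, hqb⟩ := IsQCorr.tryElse_iter Uh hUn E F hEp hFp hE1 hF1 hp0 Nn
  refine ⟨q, hq, fun x y Win => ?_⟩
  set ε := Real.sqrt (nsq (g x - g' y)) with hε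
  have hε0 : 0 ≤ ε := Real.sqrt_nonneg _
  have hε2 : ε ^ 2 = fsq (Gm x - Gm' y) := by
    rw [hε, Real.sq_sqrt (nsq_nonneg _), ← nsq_ofMat, ofMat_sub, hofG, hofG']
  have ht0 : 0 ≤ η + ε / η := by positivity
  have hX0 : 0 < X0 W := X0_pos hW
  rw [← hofG x]
  refine qcs_pair (Gm x) (hfG x) (chiMat W) (by rw [fsq_chiMat]; exact hX0) U0 hZ (CA x) (CB y)
    (hCA x) (hCB y) (N x) (N' y) (hN x) (hN' y) (2000 / (W : ℝ)) (η + ε / η) η' (by positivity) ?_ ht0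
    hη' ?_ ?_ ?_ Win Nn _ ?_ (hNn x y) ?_
  · have : 2000 / (W : ℝ) = 2000 * (1 / (W : ℝ)) := by ring
    rw [this]
    have h1 : 0 ≤ ε / η := by positivity
    nlinarith
  · refine le_trans (herr x y) ?_
    rw [fsq_chiMat, ← hε2]
    have h1 : 1 / (W : ℝ) ^ 2 ≤ η ^ 2 := by
      have : 1 / (W : ℝ) ^ 2 = (1 / (W : ℝ)) ^ 2 := by ring
      rw [this]
      have h0 : 0 ≤ 1 / (W : ℝ) := by positivity
      gcongr
    have h2 : (W : ℝ) ^ 2 * ε ^ 2 ≤ 4 * (ε / η) ^ 2 := by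
      have : 4 * (ε / η) ^ 2 = (2 / η) ^ 2 * ε ^ 2 := by ring
      rw [this]
      gcongr
    have h3 : η ^ 2 + (ε / η) ^ 2 ≤ (η + ε / η) ^ 2 := by
      have : 0 ≤ η * (ε / η) := by positivity
      nlinarith
    have h4 : 2000 * (1 / (W : ℝ) ^ 2 + (W : ℝ) ^ 2 * ε ^ 2) ≤ 8000 * (η + ε / η) ^ 2 := by
      have : 0 ≤ η ^ 2 := by positivity
      nlinarith
    calc 2000 * (1 / (W : ℝ) ^ 2 + (W : ℝ) ^ 2 * ε ^ 2) * X0 W
        ≤ 8000 * (η + ε / η) ^ 2 * X0 W := mul_le_mul_of_nonneg_right h4 hX0.le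
      _ = _ := by ring
  · rw [fsq_chiMat]; exact hPA x
  · rw [fsq_chiMat]; exact hPB y
  · apply Finset.sum_nonneg; intro a _; apply Finset.sum_nonneg; intro b _
    split_ifs
    · exact hq.nonneg x y a b
    · exact le_rfl
  · rw [Finset.sum_mul]
    apply Finset.sum_le_sum; intro a _
    rw [Finset.sum_mul]
    apply Finset.sum_le_sum; intro b _
    split_ifs
    · exact hqb x y a b
    · simp

end Crest.Agent.PR
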