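import Mathlib

/-!
# Row 342, block (C): spectral functions of Hermitian matrices (light API)

`sfun f a = U diag(f(λ)) U*` for Hermitian `a` (junk `0` otherwise).
-/

namespace Crest.Agent.PR.GA

open Matrix
open scoped ComplexOrder

variable {n : Type*} [Fintype n] [DecidableEq n]

/-- spectral function of a Hermitian matrix (junk value `0` for non-Hermitian input) -/
noncomputable def sfun (f : ℝ → ℝ) (a : Matrix n n ℂ) : Matrix n n ℂ :=
  if h : a.IsHermitian then h.cfc f else 0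

/-- the eigenvector unitary as a plain matrix -/
noncomputable def eU {a : Matrix n n ℂ} (ha : a.IsHermitian) : Matrix n n ℂ :=
  (ha.eigenvectorUnitary : Matrix n n ℂ)

theorem eU_mul_star {a : Matrix n n ℂ} (ha : a.IsHermitian) : eU ha * (eU ha)ᴴ = 1 := by
  have := Unitary.coe_mul_star_self ha.eigenvectorUnitary
  simpa [eU, star_eq_conjTranspose] using this

theorem eU_star_mul {a : Matrix n n ℂ} (ha : a.IsHermitian) : (eU ha)ᴴ * eU ha = 1 := by
  have := Unitary.coe_star_mul_self ha.eigenvectorUnitary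
  simpa [eU, star_eq_conjTranspose] using this

theorem sfun_eq {a : Matrix n n ℂ} (ha : a.IsHermitian) (f : ℝ → ℝ) :
    sfun f a = eU ha * diagonal (fun i => ((f (ha.eigenvalues i) : ℝ) : ℂ)) * (eU ha)ᴴ := by
  unfold sfun
  rw [dif_pos ha, Matrix.IsHermitian.cfc, Unitary.conjStarAlgAut_apply]
  rfl

theorem sfun_id {a : Matrix n n ℂ} (ha : a.IsHermitian) : sfun (fun u => u) a = a := by
  rw [sfun_eq ha]
  conv_rhs => rw [ha.spectral_theorem, Unitary.conjStarAlgAut_apply]
  rfl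

theorem sfun_congr {a : Matrix n n ℂ} (ha : a.IsHermitian) {f g : ℝ → ℝ}
    (h : ∀ i, f (ha.eigenvalues i) = g (ha.eigenvalues i)) : sfun f a = sfun g a := by
  rw [sfun_eq ha, sfun_eq ha]
  congr 2
  ext i j
  by_cases hij : i = j
  · subst hij; simp [h]
  · simp [hij]

theorem sfun_const {a : Matrix n n ℂ} (ha : a.IsHermitian) (c : ℝ) :
    sfun (fun _ => c) a = (c : ℂ) • (1 : Matrix n n ℂ) := by
  rw [sfun_eq ha]
  have : diagonal (fun _ : n => ((c : ℝ) : ℂ)) = (c : ℂ) • (1 : Matrix n n ℂ) := by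
    ext i j
    by_cases hij : i = j
    · subst hij; simp
    · simp [hij]
  rw [this, Matrix.mul_smul, Matrix.smul_mul, Matrix.mul_one, eU_mul_star]

theorem sfun_one {a : Matrix n n ℂ} (ha : a.IsHermitian) :
    sfun (fun _ => 1) a = (1 : Matrix n n ℂ) := by
  rw [sfun_const ha]; simp

theorem sfun_add {a : Matrix n n ℂ} (ha : a.IsHermitian) (f g : ℝ → ℝ) :
    sfun (fun u => f u + g u) a = sfun f a + sfun g a := by
  rw [sfun_eq ha, sfun_eq ha, sfun_eq ha, ← Matrix.add_mul, ← Matrix.mul_add, diagonal_add]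
  congr 3
  ext i
  push_cast; ring

theorem sfun_sub {a : Matrix n n ℂ} (ha : a.IsHermitian) (f g : ℝ → ℝ) :
    sfun (fun u => f u - g u) a = sfun f a - sfun g a := by
  rw [sfun_eq ha, sfun_eq ha, sfun_eq ha, ← Matrix.sub_mul, ← Matrix.mul_sub, diagonal_sub]
  congr 3
  ext i
  push_cast; ring

theorem sfun_smul {a : Matrix n n ℂ} (ha : a.IsHermitian) (c : ℝ) (f : ℝ → ℝ) :
    sfun (fun u => c * f u) a = (c : ℂ) • sfun f a := by
  rw [sfun_eq ha, sfun_eq ha, ← Matrix.smul_mul, ← Matrix.mul_smul, ← diagonal_smul]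
  congr 3
  ext i
  simp

theorem sfun_mul {a : Matrix n n ℂ} (ha : a.IsHermitian) (f g : ℝ → ℝ) :
    sfun (fun u => f u * g u) a = sfun f a * sfun g a := by
  rw [sfun_eq ha, sfun_eq ha, sfun_eq ha]
  have : eU ha * diagonal (fun i => ((f (ha.eigenvalues i) : ℝ) : ℂ)) * (eU ha)ᴴ *
      (eU ha * diagonal (fun i => ((g (ha.eigenvalues i) : ℝ) : ℂ)) * (eU ha)ᴴ) =
      eU ha * (diagonal (fun i => ((f (ha.eigenvalues i) : ℝ) : ℂ)) * ((eU ha)ᴴ * eU ha) *
        diagonal (fun i => ((g (ha.eigenvalues i) : ℝ) : ℂ))) * (eU ha)ᴴ := by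
    simp only [Matrix.mul_assoc]
  rw [this, eU_star_mul, Matrix.mul_one, diagonal_mul_diagonal]
  congr 3
  ext i
  push_cast; ring

theorem sfun_isHermitian (f : ℝ → ℝ) (a : Matrix n n ℂ) : (sfun f a).IsHermitian := by
  by_cases ha : a.IsHermitian
  · rw [sfun_eq ha]
    unfold Matrix.IsHermitian
    rw [conjTranspose_mul, conjTranspose_mul, conjTranspose_conjTranspose, diagonal_conjTranspose,
      Matrix.mul_assoc]
    congr 3
    ext i
    simp
  · unfold sfun; rw [dif_neg ha]; exact isHermitian_zero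

theorem sfun_posSemidef {a : Matrix n n ℂ} (ha : a.IsHermitian) {f : ℝ → ℝ}
    (h : ∀ i, 0 ≤ f (ha.eigenvalues i)) : (sfun f a).PosSemidef := by
  rw [sfun_eq ha]
  apply PosSemidef.mul_mul_conjTranspose_same
  apply PosSemidef.diagonal
  intro i
  simpa using h i

theorem sfun_commute {a : Matrix n n ℂ} (ha : a.IsHermitian) (f g : ℝ → ℝ) :
    sfun f a * sfun g a = sfun g a * sfun f a := by
  rw [← sfun_mul ha, ← sfun_mul ha]
  exact sfun_congr ha (fun i => mul_comm _ _)

/-- monotonicity: `f ≤ g` on the eigenvalues gives `sfun f a ≤ sfun g a` in Loewner order -/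
theorem sfun_le {a : Matrix n n ℂ} (ha : a.IsHermitian) {f g : ℝ → ℝ}
    (h : ∀ i, f (ha.eigenvalues i) ≤ g (ha.eigenvalues i)) :
    (sfun g a - sfun f a).PosSemidef := by
  rw [← sfun_sub ha]
  exact sfun_posSemidef ha (fun i => sub_nonneg.mpr (h i))

/-- entries of a spectral function -/
theorem sfun_apply {a : Matrix n n ℂ} (ha : a.IsHermitian) (f : ℝ → ℝ) (i j : n) :
    sfun f a i j = ∑ k, ((f (ha.eigenvalues k) : ℝ) : ℂ) * (eU ha i k * star (eU ha j k)) := by
  rw [sfun_eq ha, Matrix.mul_apply]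
  apply Finset.sum_congr rfl
  intro k _
  rw [Matrix.mul_diagonal, conjTranspose_apply]
  ring

/-- eigenvalues of a PSD matrix `≤ 1` are in `[0,1]` -/
theorem eig_nonneg {a : Matrix n n ℂ} (ha : a.PosSemidef) (i : n) : 0 ≤ ha.1.eigenvalues i :=
  ha.eigenvalues_nonneg i

theorem eig_le_one {a : Matrix n n ℂ} (ha : a.IsHermitian) (h1 : (1 - a).PosSemidef) (i : n) :
    ha.eigenvalues i ≤ 1 := by
  have h2 : ((eU ha)ᴴ * (1 - a) * eU ha).PosSemidef := h1.conjTranspose_mul_mul_same _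
  have h3 : (eU ha)ᴴ * (1 - a) * eU ha = diagonal (fun i => ((1 - ha.eigenvalues i : ℝ) : ℂ)) := by
    have e1 : a = eU ha * diagonal (fun i => ((ha.eigenvalues i : ℝ) : ℂ)) * (eU ha)ᴴ := by
      conv_lhs => rw [← sfun_id ha, sfun_eq ha]
    have e2 : (eU ha)ᴴ * a * eU ha = diagonal (fun i => ((ha.eigenvalues i : ℝ) : ℂ)) := by
      have : (eU ha)ᴴ * (eU ha * diagonal (fun i => ((ha.eigenvalues i : ℝ) : ℂ)) * (eU ha)ᴴ) * eU ha
        = ((eU ha)ᴴ * eU ha) * diagonal (fun i => ((ha.eigenvalues i : ℝ) : ℂ)) * ((eU ha)ᴴ * eU ha) := by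
        simp only [Matrix.mul_assoc]
      rw [eU_star_mul, Matrix.one_mul, Matrix.mul_one, ← e1] at this
      exact this
    rw [Matrix.mul_sub, Matrix.sub_mul, Matrix.mul_one, eU_star_mul, e2]
    ext i j
    by_cases hij : i = j
    · subst hij; simp
    · simp [hij]
  rw [h3, posSemidef_diagonal_iff] at h2
  have := h2 i
  have h4 : (0:ℝ) ≤ 1 - ha.eigenvalues i := by exact_mod_cast this
  linarith

end Crest.Agent.PR.GA
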