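import Crest.Agent.PR_ThrDefs

/-!
# Row 342, block (B), task B1: binomial moments
-/

namespace Crest.Agent.PR

open Finset

variable {k : ℕ}

theorem pSup_nonneg (μ : Finset (Fin k) → ℝ) (h0 : ∀ W, 0 ≤ μ W) (C : Finset (Fin k)) :
    0 ≤ pSup μ C :=
  Finset.sum_nonneg fun W _ => h0 W

theorem pSup_empty (μ : Finset (Fin k) → ℝ) : pSup μ ∅ = ∑ W, μ W := by
  simp [pSup]

/-- `∑_{|C|=l} P(C ⊆ W) = E binom(|W|,l)` -/
theorem bMom_eq (μ : Finset (Fin k) → ℝ) (l : ℕ) :
    bMom μ l = ∑ W, μ W * (W.card.choose l : ℝ) := by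
  unfold bMom pSup
  simp_rw [Finset.sum_filter]
  rw [Finset.sum_comm]
  refine Finset.sum_congr rfl fun W _ => ?_
  rw [← Finset.sum_filter, Finset.sum_const, nsmul_eq_mul, mul_comm]
  congr 2
  rw [← Finset.card_powersetCard]
  congr 1
  ext C
  simp only [mem_filter, mem_powersetCard, subset_univ, true_and]
  tauto

theorem bAvg_zero (μ : Finset (Fin k) → ℝ) (h1 : ∑ W, μ W = 1) : bAvg μ 0 = 1 := by
  unfold bAvg
  rw [bMom_eq]
  simp [h1]

theorem bAvg_nonneg (μ : Finset (Fin k) → ℝ) (h0 : ∀ W, 0 ≤ μ W) (l : ℕ) : 0 ≤ bAvg μ l := by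
  unfold bAvg bMom
  exact div_nonneg (Finset.sum_nonneg fun C _ => pSup_nonneg μ h0 C) (Nat.cast_nonneg _)

/-- double counting: `(l+1) B_{l+1} = ∑_{|C|=l} ∑_{j∉C} P(C+j ⊆ W)` -/
theorem succ_mul_bMom (μ : Finset (Fin k) → ℝ) (l : ℕ) :
    ((l : ℝ) + 1) * bMom μ (l + 1)
      = ∑ C ∈ powersetCard l (univ : Finset (Fin k)), ∑ j ∈ Cᶜ, pSup μ (insert j C) := by
  have h1 : ((l : ℝ) + 1) * bMom μ (l + 1)
      = ∑ D ∈ powersetCard (l + 1) (univ : Finset (Fin k)), ∑ _j ∈ D, pSup μ D := by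
    unfold bMom
    rw [Finset.mul_sum]
    refine Finset.sum_congr rfl fun D hD => ?_
    rw [Finset.sum_const, (mem_powersetCard.mp hD).2, nsmul_eq_mul]
    push_cast
    ring
  rw [h1, Finset.sum_sigma', Finset.sum_sigma']
  refine Finset.sum_bij' (fun p _ => ⟨p.1.erase p.2, p.2⟩) (fun p _ => ⟨insert p.2 p.1, p.2⟩)
    ?_ ?_ ?_ ?_ ?_
  · rintro ⟨D, j⟩ h
    simp only [mem_sigma, mem_powersetCard, subset_univ, true_and] at h
    simp only [mem_sigma, mem_powersetCard, subset_univ, true_and, mem_compl, mem_erase, ne_eq,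
      not_true_eq_false, false_and, not_false_eq_true, and_true]
    rw [Finset.card_erase_of_mem h.2, h.1]
    rfl
  · rintro ⟨C, j⟩ h
    simp only [mem_sigma, mem_powersetCard, subset_univ, true_and, mem_compl] at h
    simp only [mem_sigma, mem_powersetCard, subset_univ, true_and, mem_insert, true_or, and_true]
    rw [Finset.card_insert_of_notMem h.2, h.1]
  · rintro ⟨D, j⟩ h
    simp only [mem_sigma, mem_powersetCard, subset_univ, true_and] at h
    simp [Finset.insert_erase h.2]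
  · rintro ⟨C, j⟩ h
    simp only [mem_sigma, mem_powersetCard, subset_univ, true_and, mem_compl] at h
    simp [Finset.erase_insert h.2]
  · rintro ⟨D, j⟩ h
    simp only [mem_sigma, mem_powersetCard, subset_univ, true_and] at h
    simp [Finset.insert_erase h.2]

/-- comparison of binomial coefficients -/
theorem pow_mul_choose_le (t l : ℕ) (p' : ℝ) (hp : 0 ≤ p')
    (h : ∀ i < l, p' * ((k : ℝ) - i) ≤ (t : ℝ) - i) :
    p' ^ l * (k.choose l : ℝ) ≤ (t.choose l : ℝ) := by
  rcases lt_or_ge k l with hkl | hlk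
  · rw [Nat.choose_eq_zero_of_lt hkl]
    simp
  have hfac : (0 : ℝ) < (l.factorial : ℝ) := by exact_mod_cast Nat.factorial_pos l
  have e1 : ∀ n : ℕ, (n.descFactorial l : ℝ) = (l.factorial : ℝ) * (n.choose l : ℝ) := by
    intro n
    exact_mod_cast Nat.descFactorial_eq_factorial_mul_choose n l
  have key : p' ^ l * (k.descFactorial l : ℝ) ≤ (t.descFactorial l : ℝ) := by
    rw [Nat.descFactorial_eq_prod_range, Nat.descFactorial_eq_prod_range]
    push_cast
    have hpow : p' ^ l = ∏ _i ∈ range l, p' := by simp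
    rw [hpow, ← Finset.prod_mul_distrib]
    refine Finset.prod_le_prod ?_ ?_
    · intro i hi
      exact mul_nonneg hp (Nat.cast_nonneg _)
    · intro i hi
      have hi' := Finset.mem_range.mp hi
      have hik : i ≤ k := by omega
      have h2 := h i hi'
      have hk0 : (0 : ℝ) ≤ (k : ℝ) - i := by
        have : (i : ℝ) ≤ k := by exact_mod_cast hik
        linarith
      have hit : (i : ℝ) ≤ t := by
        have := mul_nonneg hp hk0
        linarith
      have hit' : i ≤ t := by exact_mod_cast hit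
      rw [Nat.cast_sub hik, Nat.cast_sub hit']
      exact h2
  rw [e1, e1] at key
  have : (l.factorial : ℝ) * (p' ^ l * (k.choose l : ℝ)) ≤ (l.factorial : ℝ) * (t.choose l : ℝ) := by
    calc (l.factorial : ℝ) * (p' ^ l * (k.choose l : ℝ))
        = p' ^ l * ((l.factorial : ℝ) * (k.choose l : ℝ)) := by ring
      _ ≤ _ := key
  exact le_of_mul_le_mul_left this hfac

/-- (a) of the blueprint: lower bound for the normalised binomial moments -/
theorem tail_mul_pow_le_bAvg (μ : Finset (Fin k) → ℝ) (h0 : ∀ W, 0 ≤ μ W)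
    (v δ : ℝ) (hv : 0 ≤ v) (hδ : 0 < δ) (l : ℕ) (hlk : l ≤ k)
    (hl : (l : ℝ) - 1 ≤ δ * k / 4) :
    tailP μ ((v + δ) * k) * (v + 3 * δ / 4) ^ l ≤ bAvg μ l := by
  have hN : (0 : ℝ) < (k.choose l : ℝ) := by exact_mod_cast Nat.choose_pos hlk
  unfold bAvg
  rw [le_div_iff₀ hN, bMom_eq]
  unfold tailP
  rw [Finset.sum_mul, Finset.sum_mul, Finset.sum_filter]
  refine Finset.sum_le_sum fun W _ => ?_
  split_ifs with hW
  · rw [mul_assoc]
    refine mul_le_mul_of_nonneg_left ?_ (h0 W)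
    refine pow_mul_choose_le W.card l _ (by positivity) ?_
    intro i hi
    have hi1 : (i : ℝ) + 1 ≤ l := by exact_mod_cast hi
    have hi0 : (0 : ℝ) ≤ (i : ℝ) := Nat.cast_nonneg i
    have hp' : 0 ≤ (v + 3 * δ / 4) * (i : ℝ) := by positivity
    nlinarith
  · exact mul_nonneg (h0 W) (Nat.cast_nonneg _)

end Crest.Agent.PR
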