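import Mathlib

/-!
# Row 342, block (B): abstract threshold lemma -- definitions

`μ` is the law of the random "win set" `W ⊆ Fin k`.
* `pSup μ C`  = P(C ⊆ W)
* `bMom μ l`  = ∑_{|C| = l} P(C ⊆ W) = E binom(|W|, l)
* `bAvg μ l`  = bMom / binom(k,l)
* `tailP μ t` = P(t ≤ |W|)
* `OSlinAbs μ v δ K Lam` : the one-step inequality (OS-lin) of the blueprint.
-/

namespace Crest.Agent.PR

open Finset

variable {k : ℕ}

/-- `P(C ⊆ W)` -/
noncomputable def pSup (μ : Finset (Fin k) → ℝ) (C : Finset (Fin k)) : ℝ :=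
  ∑ W ∈ univ.filter (fun W => C ⊆ W), μ W

/-- `∑_{|C|=l} P(C ⊆ W)` -/
noncomputable def bMom (μ : Finset (Fin k) → ℝ) (l : ℕ) : ℝ :=
  ∑ C ∈ powersetCard l (univ : Finset (Fin k)), pSup μ C

/-- normalised binomial moment -/
noncomputable def bAvg (μ : Finset (Fin k) → ℝ) (l : ℕ) : ℝ :=
  bMom μ l / (k.choose l : ℝ)

/-- `P(t ≤ |W|)` -/
noncomputable def tailP (μ : Finset (Fin k) → ℝ) (t : ℝ) : ℝ :=
  ∑ W ∈ univ.filter (fun W : Finset (Fin k) => t ≤ (W.card : ℝ)), μ W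

/-- the one-step inequality (OS-lin) -/
def OSlinAbs (μ : Finset (Fin k) → ℝ) (v δ K Lam : ℝ) : Prop :=
  ∀ C : Finset (Fin k), C.card < k →
    ∑ j ∈ Cᶜ, pSup μ (insert j C) ≤
      pSup μ C * (((k : ℝ) - C.card) * (v + δ / 4)
        + K * (Real.log (1 / pSup μ C) + C.card * Lam))

end Crest.Agent.PR
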