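import Crest.Agent.PR_ThrBinom

/-!
# Row 342, block (B), task B2: the recursion (b) of the blueprint (Jensen for `x log (1/x)`)
-/

namespace Crest.Agent.PR

open Finset

variable {k : ℕ}

/-- Jensen: `∑ g log(1/g) ≤ B log (N/B)` -/
theorem sum_mul_log_inv_le {ι : Type*} (s : Finset ι) (hs : s.Nonempty) (g : ι → ℝ)
    (hg : ∀ i ∈ s, 0 ≤ g i) :
    ∑ i ∈ s, g i * Real.log (1 / g i)
      ≤ (∑ i ∈ s, g i) * Real.log (1 / ((∑ i ∈ s, g i) / (s.card : ℝ))) := by
  have hN : (0 : ℝ) < (s.card : ℝ) := by exact_mod_cast Finset.card_pos.mpr hs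
  have hJ := Real.concaveOn_negMulLog.le_map_sum (t := s) (w := fun _ => (s.card : ℝ)⁻¹) (p := g)
    (fun i _ => by positivity) (by simp [Finset.sum_const, nsmul_eq_mul, hN.ne'])
    (fun i hi => hg i hi)
  simp only [smul_eq_mul, Real.negMulLog] at hJ
  rw [← Finset.mul_sum, ← Finset.mul_sum] at hJ
  have e1 : ∀ x : ℝ, x * Real.log (1 / x) = -x * Real.log x := by
    intro x
    rw [one_div, Real.log_inv]; ring
  simp_rw [e1]
  have e2 : (∑ i ∈ s, g i) / (s.card : ℝ) = (s.card : ℝ)⁻¹ * ∑ i ∈ s, g i := by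
    rw [div_eq_inv_mul]
  rw [one_div, Real.log_inv, e2]
  have := mul_le_mul_of_nonneg_left hJ hN.le
  calc ∑ i ∈ s, -g i * Real.log (g i)
      = (s.card : ℝ) * ((s.card : ℝ)⁻¹ * ∑ i ∈ s, -g i * Real.log (g i)) := by
        field_simp
    _ ≤ _ := this
    _ = _ := by field_simp

/-- (b) of the blueprint -/
theorem bAvg_succ_le (μ : Finset (Fin k) → ℝ) (h0 : ∀ W, 0 ≤ μ W)
    (v δ K Lam : ℝ) (hK : 0 ≤ K) (hOS : OSlinAbs μ v δ K Lam) (l : ℕ) (hl : l < k) :
    bAvg μ (l + 1) ≤ bAvg μ l *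
      (v + δ / 4 + K * (Real.log (1 / bAvg μ l) + l * Lam) / ((k : ℝ) - l)) := by
  have hN : (0 : ℝ) < (k.choose l : ℝ) := by exact_mod_cast Nat.choose_pos hl.le
  have hN1 : (0 : ℝ) < (k.choose (l + 1) : ℝ) := by exact_mod_cast Nat.choose_pos hl
  have hkl : (0 : ℝ) < (k : ℝ) - l := by
    have : (l : ℝ) < k := by exact_mod_cast hl
    linarith
  have hch : (k.choose (l + 1) : ℝ) * ((l : ℝ) + 1) = (k.choose l : ℝ) * ((k : ℝ) - l) := by
    have := Nat.choose_succ_right_eq k l
    have h2 : ((k.choose (l + 1) * (l + 1) : ℕ) : ℝ) = ((k.choose l * (k - l) : ℕ) : ℝ) := by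
      exact_mod_cast this
    push_cast [Nat.cast_sub hl.le] at h2
    exact h2
  set P := powersetCard l (univ : Finset (Fin k)) with hP
  have hPne : P.Nonempty := by
    rw [← Finset.card_pos, hP, Finset.card_powersetCard, Finset.card_univ, Fintype.card_fin]
    exact Nat.choose_pos hl.le
  have hPcard : (P.card : ℝ) = (k.choose l : ℝ) := by
    rw [hP, Finset.card_powersetCard, Finset.card_univ, Fintype.card_fin]
  -- the main estimate
  have hmain : ((l : ℝ) + 1) * bMom μ (l + 1) ≤ bMom μ l *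
      (((k : ℝ) - l) * (v + δ / 4) + K * (Real.log (1 / bAvg μ l) + l * Lam)) := by
    rw [succ_mul_bMom]
    calc ∑ C ∈ P, ∑ j ∈ Cᶜ, pSup μ (insert j C)
        ≤ ∑ C ∈ P, (pSup μ C * (((k : ℝ) - l) * (v + δ / 4) + K * (l * Lam))
            + K * (pSup μ C * Real.log (1 / pSup μ C))) := by
          refine Finset.sum_le_sum fun C hC => ?_
          have hc : C.card = l := (mem_powersetCard.mp hC).2
          have := hOS C (by omega)
          rw [hc] at this
          calc _ ≤ _ := this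
            _ = _ := by ring
      _ = bMom μ l * (((k : ℝ) - l) * (v + δ / 4) + K * (l * Lam))
            + K * ∑ C ∈ P, pSup μ C * Real.log (1 / pSup μ C) := by
          rw [Finset.sum_add_distrib, ← Finset.sum_mul, ← Finset.mul_sum]
          rfl
      _ ≤ bMom μ l * (((k : ℝ) - l) * (v + δ / 4) + K * (l * Lam))
            + K * (bMom μ l * Real.log (1 / bAvg μ l)) := by
          have := sum_mul_log_inv_le P hPne (pSup μ) (fun C _ => pSup_nonneg μ h0 C)
          rw [hPcard] at this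
          have h3 := mul_le_mul_of_nonneg_left this hK
          have : K * ((∑ i ∈ P, pSup μ i) * Real.log (1 / ((∑ i ∈ P, pSup μ i) / (k.choose l : ℝ))))
              = K * (bMom μ l * Real.log (1 / bAvg μ l)) := rfl
          linarith
      _ = _ := by ring
  -- divide
  have e1 : bAvg μ (l + 1) = (((l : ℝ) + 1) * bMom μ (l + 1)) / ((k.choose l : ℝ) * ((k : ℝ) - l)) := by
    unfold bAvg
    rw [← hch]
    have : (0 : ℝ) < (l : ℝ) + 1 := by positivity
    field_simp
  rw [e1, div_le_iff₀ (by positivity)]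
  calc _ ≤ _ := hmain
    _ = _ := by
      unfold bAvg
      field_simp

end Crest.Agent.PR
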