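/-
ROW 342, project PR.  Helper lemmas for the universal finish: `nsq`, `qf`, normalisation of vectors,
and the abstract (scalar) form of the one-coordinate inequality.   (helper42)
-/
import Crest.Agent.PR_Defs

set_option autoImplicit false

namespace Crest.Agent.PR.Univ

open Crest.MathPhysics.NonlocalGame
open scoped Kronecker ComplexOrder

section vec
variable {ι : Type} [Fintype ι]

theorem nsq_nonneg (f : ι → ℂ) : 0 ≤ nsq f :=
  Finset.sum_nonneg (fun _ _ => by positivity)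

theorem sqrt_nsq_eq (f : ι → ℂ) :
    Real.sqrt (nsq f) = ‖(WithLp.toLp 2 f : EuclideanSpace ℂ ι)‖ := by
  rw [EuclideanSpace.norm_eq]; rfl

theorem sqrt_nsq_sub_le (f u h : ι → ℂ) :
    Real.sqrt (nsq (f - h)) ≤ Real.sqrt (nsq (f - u)) + Real.sqrt (nsq (u - h)) := by
  rw [sqrt_nsq_eq, sqrt_nsq_eq, sqrt_nsq_eq, WithLp.toLp_sub, WithLp.toLp_sub, WithLp.toLp_sub]
  exact norm_sub_le_norm_sub_add_norm_sub _ _ _

theorem nsq_sub_comm (f h : ι → ℂ) : nsq (f - h) = nsq (h - f) := by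
  unfold nsq
  refine Finset.sum_congr rfl (fun i _ => ?_)
  rw [Pi.sub_apply, Pi.sub_apply, norm_sub_rev]

theorem nsq_sub_le (f u h : ι → ℂ) :
    nsq (f - h) ≤ 2 * nsq (f - u) + 2 * nsq (u - h) := by
  have h1 := sqrt_nsq_sub_le f u h
  have a0 := Real.sqrt_nonneg (nsq (f - u))
  have b0 := Real.sqrt_nonneg (nsq (u - h))
  have c0 := Real.sqrt_nonneg (nsq (f - h))
  have ha := Real.sq_sqrt (nsq_nonneg (f - u))
  have hb := Real.sq_sqrt (nsq_nonneg (u - h))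
  have hc := Real.sq_sqrt (nsq_nonneg (f - h))
  nlinarith [sq_nonneg (Real.sqrt (nsq (f - u)) - Real.sqrt (nsq (u - h)))]

theorem nsq_smul (c : ℂ) (f : ι → ℂ) : nsq (c • f) = ‖c‖ ^ 2 * nsq f := by
  unfold nsq
  rw [Finset.mul_sum]
  refine Finset.sum_congr rfl (fun i _ => ?_)
  rw [Pi.smul_apply, smul_eq_mul, norm_mul, mul_pow]

theorem nsq_ofReal_smul (c : ℝ) (f : ι → ℂ) : nsq ((c : ℂ) • f) = c ^ 2 * nsq f := by
  rw [nsq_smul, Complex.norm_real, Real.norm_eq_abs, sq_abs]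

theorem eq_zero_of_nsq_eq_zero {f : ι → ℂ} (h : nsq f = 0) : f = 0 := by
  unfold nsq at h
  rw [Finset.sum_eq_zero_iff_of_nonneg (fun _ _ => by positivity)] at h
  funext i
  have := h i (Finset.mem_univ i)
  simpa using this

/-- normalisation of a vector, with a default unit vector `u0` for the zero vector -/
noncomputable def normalize (u0 g : ι → ℂ) : ι → ℂ :=
  if nsq g = 0 then u0 else (((Real.sqrt (nsq g))⁻¹ : ℝ) : ℂ) • g

theorem nsq_normalize {u0 : ι → ℂ} (hu0 : nsq u0 = 1) (g : ι → ℂ) : nsq (normalize u0 g) = 1 := by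
  unfold normalize
  split_ifs with h
  · exact hu0
  · rw [nsq_ofReal_smul, inv_pow, Real.sq_sqrt (nsq_nonneg g)]
    exact inv_mul_cancel₀ h

theorem nsq_sub_smul_normalize {u0 : ι → ℂ} (hu0 : nsq u0 = 1) (g : ι → ℂ) (s : ℝ) :
    nsq (g - (s : ℂ) • normalize u0 g) = (Real.sqrt (nsq g) - s) ^ 2 := by
  unfold normalize
  split_ifs with h
  · have hg : g = 0 := eq_zero_of_nsq_eq_zero h
    rw [h, Real.sqrt_zero, hg, zero_sub, ← neg_smul, ← Complex.ofReal_neg, nsq_ofReal_smul, hu0]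
    ring
  · have hpos : 0 < nsq g := lt_of_le_of_ne (nsq_nonneg g) (Ne.symm h)
    have hs : 0 < Real.sqrt (nsq g) := Real.sqrt_pos.mpr hpos
    have : g - (s : ℂ) • (((Real.sqrt (nsq g))⁻¹ : ℝ) : ℂ) • g
        = ((1 - s * (Real.sqrt (nsq g))⁻¹ : ℝ) : ℂ) • g := by
      rw [smul_smul, ← Complex.ofReal_mul]
      push_cast
      rw [sub_smul, one_smul]
    rw [this, nsq_ofReal_smul]
    have h2 : nsq g = Real.sqrt (nsq g) ^ 2 := (Real.sq_sqrt hpos.le).symm
    rw [h2, Real.sqrt_sq hs.le]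
    field_simp

end vec

section qf
variable {ιA ιB : Type} [Fintype ιA] [Fintype ιB] [DecidableEq ιA] [DecidableEq ιB]

theorem qf_smul (c : ℝ) (ψ : ιA × ιB → ℂ) (X : Matrix ιA ιA ℂ) (Y : Matrix ιB ιB ℂ) :
    qf ((c : ℂ) • ψ) X Y = c ^ 2 * qf ψ X Y := by
  unfold qf
  rw [Matrix.mulVec_smul, star_smul, smul_dotProduct, dotProduct_smul, smul_smul]
  simp only [Complex.star_def, Complex.conj_ofReal, smul_eq_mul]
  rw [← Complex.ofReal_mul, Complex.re_ofReal_mul]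
  ring

end qf

section abstract
variable {Z : Type} [Fintype Z]

theorem wsum_mul_le (π a b : Z → ℝ) (hπ : ∀ z, 0 ≤ π z) :
    ∑ z, π z * (a z * b z) ≤ Real.sqrt (∑ z, π z * a z ^ 2) * Real.sqrt (∑ z, π z * b z ^ 2) := by
  have h := Finset.sum_sq_le_sum_mul_sum_of_sq_eq_mul (Finset.univ : Finset Z)
    (r := fun z => π z * (a z * b z)) (f := fun z => π z * a z ^ 2) (g := fun z => π z * b z ^ 2)
    (fun z _ => mul_nonneg (hπ z) (sq_nonneg _)) (fun z _ => mul_nonneg (hπ z) (sq_nonneg _))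
    (fun z _ => by ring)
  rw [← Real.sqrt_mul (Finset.sum_nonneg (fun z _ => mul_nonneg (hπ z) (sq_nonneg _)))]
  exact Real.le_sqrt_of_sq_le h

theorem wsum_le_sqrt (π a : Z → ℝ) (hπ : ∀ z, 0 ≤ π z) (hπ1 : ∑ z, π z = 1) :
    ∑ z, π z * a z ≤ Real.sqrt (∑ z, π z * a z ^ 2) := by
  have h := wsum_mul_le π a (fun _ => 1) hπ
  simpa [hπ1] using h

/-- abstract scalar form of the universal finish -/
theorem univ_abstract (π W Wh P a a' nf d : Z → ℝ) (hπ : ∀ z, 0 ≤ π z) (hπ1 : ∑ z, π z = 1)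
    (s CQ η η' v XA XA' : ℝ) (hs : 0 ≤ s) (hCQ : 0 < CQ) (hη : 0 < η)
    (ha : ∀ z, 0 ≤ a z) (ha' : ∀ z, 0 ≤ a' z) (hnf : ∀ z, 0 ≤ nf z)
    (h1 : ∀ z, W z ≤ s ^ 2 * Wh z + a z * (nf z + s))
    (h2 : ∀ z, Wh z - CQ * (η + d z / η) - η' ≤ P z)
    (h3 : ∑ z, π z * P z ≤ v)
    (h4 : ∀ z, s * d z ≤ a z + a' z)
    (h5 : ∑ z, π z * nf z ^ 2 = s ^ 2)
    (h6 : ∑ z, π z * a z ^ 2 ≤ XA) (h6' : ∑ z, π z * a' z ^ 2 ≤ XA') :
    ∑ z, π z * W z ≤ v * s ^ 2 + CQ * η * s ^ 2 + η' * s ^ 2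
      + (CQ / η + 2) * s * (Real.sqrt XA + Real.sqrt XA') := by
  have hA : ∑ z, π z * a z ≤ Real.sqrt XA :=
    (wsum_le_sqrt π a hπ hπ1).trans (Real.sqrt_le_sqrt h6)
  have hA' : ∑ z, π z * a' z ≤ Real.sqrt XA' :=
    (wsum_le_sqrt π a' hπ hπ1).trans (Real.sqrt_le_sqrt h6')
  -- the perturbation term
  have hB : ∑ z, π z * (a z * (nf z + s)) ≤ Real.sqrt XA * (2 * s) := by
    refine (wsum_mul_le π a (fun z => nf z + s) hπ).trans ?_
    refine mul_le_mul (Real.sqrt_le_sqrt h6) ?_ (Real.sqrt_nonneg _) (Real.sqrt_nonneg _)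
    refine Real.sqrt_le_iff.mpr ⟨by positivity, ?_⟩
    have : ∑ z, π z * (nf z + s) ^ 2 ≤ ∑ z, (2 * (π z * nf z ^ 2) + 2 * s ^ 2 * π z) := by
      refine Finset.sum_le_sum (fun z _ => ?_)
      nlinarith [hπ z, sq_nonneg (nf z - s), mul_nonneg (hπ z) (sq_nonneg (nf z - s))]
    refine this.trans ?_
    rw [Finset.sum_add_distrib, ← Finset.mul_sum, ← Finset.mul_sum, h5, hπ1]
    nlinarith
  -- the sampling term
  have hD : s ^ 2 * ∑ z, π z * d z ≤ s * (Real.sqrt XA + Real.sqrt XA') := by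
    have : s * ∑ z, π z * d z ≤ Real.sqrt XA + Real.sqrt XA' := by
      rw [Finset.mul_sum]
      calc ∑ z, s * (π z * d z) ≤ ∑ z, (π z * a z + π z * a' z) := by
            refine Finset.sum_le_sum (fun z _ => ?_)
            nlinarith [hπ z, h4 z, mul_le_mul_of_nonneg_left (h4 z) (hπ z)]
        _ ≤ _ := by rw [Finset.sum_add_distrib]; exact add_le_add hA hA'
    calc s ^ 2 * ∑ z, π z * d z = s * (s * ∑ z, π z * d z) := by ring
      _ ≤ _ := mul_le_mul_of_nonneg_left this hs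
  have hWh : ∑ z, π z * Wh z ≤ v + CQ * η + η' + CQ / η * ∑ z, π z * d z := by
    calc ∑ z, π z * Wh z ≤ ∑ z, (π z * P z + (CQ * η + η') * π z + CQ / η * (π z * d z)) := by
          refine Finset.sum_le_sum (fun z _ => ?_)
          have := mul_le_mul_of_nonneg_left (h2 z) (hπ z)
          have e : π z * (Wh z - CQ * (η + d z / η) - η')
              = π z * Wh z - ((CQ * η + η') * π z + CQ / η * (π z * d z)) := by
            field_simp; ring
          rw [e] at this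
          linarith
      _ = ∑ z, π z * P z + (CQ * η + η') + CQ / η * ∑ z, π z * d z := by
          rw [Finset.sum_add_distrib, Finset.sum_add_distrib, ← Finset.mul_sum, ← Finset.mul_sum,
            hπ1, mul_one]
      _ ≤ _ := by linarith
  have hW : ∑ z, π z * W z ≤ s ^ 2 * ∑ z, π z * Wh z + ∑ z, π z * (a z * (nf z + s)) := by
    rw [Finset.mul_sum, ← Finset.sum_add_distrib]
    refine Finset.sum_le_sum (fun z _ => ?_)
    have := mul_le_mul_of_nonneg_left (h1 z) (hπ z)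
    nlinarith
  have hs2 : 0 ≤ s ^ 2 := sq_nonneg s
  have hq : 0 ≤ CQ / η := (div_pos hCQ hη).le
  have h7 := mul_le_mul_of_nonneg_left hWh hs2
  have h8 := mul_le_mul_of_nonneg_left hD hq
  have h9 : 0 ≤ s * Real.sqrt XA' := mul_nonneg hs (Real.sqrt_nonneg _)
  nlinarith
end abstract

end Crest.Agent.PR.Univ
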