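/-
ROW 342, project PR.  Bridge between the `k`-fold strategy quantities (`pW`, `pWq`), `CoreData.gam`,
`CoreData.hell` and the classical (KL) lemma.  Valid for ANY label function `h`.   (helper42)
-/
import Crest.Agent.PR_UnivVec
import Crest.Agent.PR_KL

set_option autoImplicit false

namespace Crest.Agent.PR.Univ

open Crest.MathPhysics.NonlocalGame
open scoped Kronecker ComplexOrder

section qf
variable {ιA ιB : Type} [Fintype ιA] [Fintype ιB] [DecidableEq ιA] [DecidableEq ιB]

omit [DecidableEq ιA] [DecidableEq ιB] in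
theorem qf_nonneg (ψ : ιA × ιB → ℂ) {X : Matrix ιA ιA ℂ} {Y : Matrix ιB ιB ℂ}
    (hX : X.PosSemidef) (hY : Y.PosSemidef) : 0 ≤ qf ψ X Y := by
  have h := (hX.kronecker hY).dotProduct_mulVec_nonneg ψ
  exact (Complex.le_def.mp h).1

theorem sum_qf {α β : Type} [Fintype α] [Fintype β] (ψ : ιA × ιB → ℂ)
    (N : α → Matrix ιA ιA ℂ) (N' : β → Matrix ιB ιB ℂ) (hN : ∑ a, N a = 1) (hN' : ∑ b, N' b = 1) :
    ∑ a, ∑ b, qf ψ (N a) (N' b) = nsq ψ := by
  have hK : ∑ a, ∑ b, (N a ⊗ₖ N' b) = (1 : Matrix (ιA × ιB) (ιA × ιB) ℂ) := by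
    rw [← Matrix.one_kronecker_one, ← hN, ← hN']
    ext ⟨i, i'⟩ ⟨j, j'⟩
    simp only [Matrix.sum_apply, Matrix.kronecker_apply, Finset.sum_mul_sum]
  unfold qf
  simp only [← Complex.re_sum, ← dotProduct_sum, ← Matrix.sum_mulVec]
  rw [hK, Matrix.one_mulVec]
  unfold nsq dotProduct
  rw [Complex.re_sum]
  refine Finset.sum_congr rfl (fun i _ => ?_)
  rw [Pi.star_apply, Complex.star_def, Complex.conj_mul', ← Complex.ofReal_pow, Complex.ofReal_re]

end qf

variable {G : Game} {k dA dB : ℕ}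

/-- conditional probability of `W_C` given the question strings -/
noncomputable def phi (S : Strategy G k dA dB) (C : Finset (Fin k))
    (x : Fin k → Fin G.nX) (y : Fin k → Fin G.nY) : ℝ :=
  ∑ a : Fin k → Fin G.nA, ∑ b : Fin k → Fin G.nB,
    if (∀ i ∈ C, G.accept (x i) (y i) (a i) (b i) = true) then S.answerProb x y a b else 0

theorem answerProb_nonneg (S : Strategy G k dA dB) (x y a b) : 0 ≤ S.answerProb x y a b :=
  qf_nonneg S.ψ (S.M_posSemidef x a) (S.N_posSemidef y b)

theorem sum_answerProb (S : Strategy G k dA dB) (x y) : ∑ a, ∑ b, S.answerProb x y a b = 1 := by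
  have h := sum_qf S.ψ (S.M x) (S.N y) (S.M_sum x) (S.N_sum y)
  rw [show nsq S.ψ = 1 from S.ψ_norm] at h
  exact h

theorem phi_nonneg (S : Strategy G k dA dB) (C x y) : 0 ≤ phi S C x y :=
  Finset.sum_nonneg (fun a _ => Finset.sum_nonneg (fun b _ => by
    split_ifs
    · exact answerProb_nonneg S x y a b
    · exact le_rfl))

theorem phi_le_one (S : Strategy G k dA dB) (C x y) : phi S C x y ≤ 1 := by
  rw [← sum_answerProb S x y]
  refine Finset.sum_le_sum (fun a _ => Finset.sum_le_sum (fun b _ => ?_))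
  split_ifs
  · exact le_rfl
  · exact answerProb_nonneg S x y a b

/-- the question law on pairs -/
def ql (G : Game) (z : Fin G.nX × Fin G.nY) : ℝ := G.prob z.1 z.2

theorem ql_nonneg (z : Fin G.nX × Fin G.nY) : 0 ≤ ql G z := G.prob_nonneg _ _

theorem ql_sum : ∑ z, ql G z = 1 := by
  rw [Fintype.sum_prod_type]; exact G.prob_sum

/-- `phi` as a function of the string of question pairs -/
noncomputable def Phi (S : Strategy G k dA dB) (C : Finset (Fin k))
    (w : Fin k → Fin G.nX × Fin G.nY) : ℝ :=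
  phi S C (fun i => (w i).1) (fun i => (w i).2)

theorem sum_pairs (F : (Fin k → Fin G.nX) → (Fin k → Fin G.nY) → ℝ) :
    ∑ x, ∑ y, F x y = ∑ w : Fin k → Fin G.nX × Fin G.nY, F (fun i => (w i).1) (fun i => (w i).2) := by
  rw [← Fintype.sum_prod_type']
  exact (Fintype.sum_equiv (Equiv.arrowProdEquivProdArrow (Fin k) (fun _ => Fin G.nX) (fun _ => Fin G.nY)) _ _
    (fun w => rfl)).symm

theorem pW_eq (S : Strategy G k dA dB) (C : Finset (Fin k)) :
    pW S C = ∑ w : Fin k → Fin G.nX × Fin G.nY, (∏ i, ql G (w i)) * Phi S C w := by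
  unfold pW
  exact sum_pairs (fun x y => (∏ i, G.prob (x i) (y i)) * phi S C x y)

theorem pWq_eq (S : Strategy G k dA dB) (C : Finset (Fin k)) (j : Fin k)
    (z : Fin G.nX × Fin G.nY) :
    pWq S C j z.1 z.2 = ∑ w ∈ Finset.univ.filter (fun w : Fin k → Fin G.nX × Fin G.nY => w j = z),
      (∏ i, ql G (w i)) * Phi S C w := by
  have e : pWq S C j z.1 z.2 = ∑ x, ∑ y,
      (if x j = z.1 ∧ y j = z.2 then (∏ i, G.prob (x i) (y i)) else 0) * phi S C x y := rfl
  rw [e, sum_pairs (fun x y => (if x j = z.1 ∧ y j = z.2 then (∏ i, G.prob (x i) (y i)) else 0)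
    * phi S C x y), Finset.sum_filter]
  refine Finset.sum_congr rfl (fun w _ => ?_)
  have : ((w j).1 = z.1 ∧ (w j).2 = z.2) ↔ w j = z := by
    rw [Prod.ext_iff]
  by_cases h : w j = z
  · rw [if_pos h, if_pos (this.mpr h)]; rfl
  · rw [if_neg h, if_neg (fun h' => h (this.mp h')), zero_mul]

theorem sum_pWq (S : Strategy G k dA dB) (C : Finset (Fin k)) (j : Fin k) :
    ∑ z : Fin G.nX × Fin G.nY, pWq S C j z.1 z.2 = pW S C := by
  simp only [pWq_eq, pW_eq]
  exact Finset.sum_fiberwise (Finset.univ) (fun w : Fin k → Fin G.nX × Fin G.nY => w j) _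

theorem sum_prod_ql : ∑ w : Fin k → Fin G.nX × Fin G.nY, ∏ i, ql G (w i) = 1 := by
  have h := Finset.prod_univ_sum (fun _ : Fin k => (Finset.univ : Finset (Fin G.nX × Fin G.nY)))
    (fun _ z => ql G z)
  rw [Fintype.piFinset_univ] at h
  rw [← h]
  simp [ql_sum]

theorem pW_nonneg (S : Strategy G k dA dB) (C : Finset (Fin k)) : 0 ≤ pW S C := by
  rw [pW_eq]
  exact Finset.sum_nonneg (fun w _ => mul_nonneg
    (Finset.prod_nonneg (fun i _ => ql_nonneg _)) (phi_nonneg S C _ _))

theorem pW_le_one (S : Strategy G k dA dB) (C : Finset (Fin k)) : pW S C ≤ 1 := by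
  rw [pW_eq, ← sum_prod_ql (G := G) (k := k)]
  refine Finset.sum_le_sum (fun w _ => ?_)
  exact mul_le_of_le_one_right (Finset.prod_nonneg (fun i _ => ql_nonneg _)) (phi_le_one S C _ _)

theorem gam_eq (S : Strategy G k dA dB) (C : Finset (Fin k)) (j : Fin k) (D : CoreData G)
    (hD : ∀ x y, G.prob x y * nsq (D.f x y) = pWq S C j x y) : D.gam = pW S C := by
  rw [← sum_pWq S C j, Fintype.sum_prod_type]
  unfold CoreData.gam
  exact Finset.sum_congr rfl (fun x _ => Finset.sum_congr rfl (fun y _ => hD x y))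

section hell
variable {Lbl : Type} [Fintype Lbl] [DecidableEq Lbl]

theorem coreHell_nonneg (D : CoreData G) (h : Fin G.nX × Fin G.nY → Lbl) : 0 ≤ D.hell h :=
  Finset.sum_nonneg (fun _ _ => sq_nonneg _)

/-- the two forms of the Hellinger defect agree -/
theorem hell_bridge (D : CoreData G) (h : Fin G.nX × Fin G.nY → Lbl)
    (n : Fin G.nX × Fin G.nY → ℝ) (hn : ∀ z, ql G z * n z = ql G z * nsq (D.f z.1 z.2)) :
    D.hell h = hell (ql G) h n D.gam := by
  unfold CoreData.hell hell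
  refine Finset.sum_congr rfl (fun l _ => ?_)
  have hP : (∑ w : Fin G.nX × Fin G.nY, if h w = l then G.prob w.1 w.2 else 0) = lblP (ql G) h l := by
    unfold lblP; rw [Finset.sum_filter]; rfl
  have hP0 : 0 ≤ lblP (ql G) h l := Finset.sum_nonneg (fun z _ => ql_nonneg z)
  have hT : (∑ w : Fin G.nX × Fin G.nY, if h w = l then G.prob w.1 w.2 * nsq (D.f w.1 w.2) else 0)
      = lblP (ql G) h l * lblMean (ql G) h n l := by
    unfold lblMean
    rw [← Finset.sum_filter]
    have e : ∑ z ∈ Finset.univ.filter (fun z => h z = l), G.prob z.1 z.2 * nsq (D.f z.1 z.2)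
        = ∑ z ∈ Finset.univ.filter (fun z => h z = l), ql G z * n z :=
      Finset.sum_congr rfl (fun z _ => (hn z).symm)
    rw [e]
    by_cases h0 : lblP (ql G) h l = 0
    · rw [h0, zero_mul]
      unfold lblP at h0
      rw [Finset.sum_eq_zero_iff_of_nonneg (fun z _ => ql_nonneg z)] at h0
      exact Finset.sum_eq_zero (fun z hz => by rw [h0 z hz, zero_mul])
    · field_simp
  rw [hP, hT, Real.sqrt_mul hP0, Real.sqrt_mul hP0, ← mul_sub, mul_pow, Real.sq_sqrt hP0]

/-- **(KL) for a strategy.**  Sum over `j ∉ C` of the Hellinger defects. -/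
theorem sum_hell_le (S : Strategy G k dA dB) (C : Finset (Fin k)) (D : Fin k → CoreData G)
    (hD : ∀ j ∈ Cᶜ, ∀ x y, G.prob x y * nsq ((D j).f x y) = pWq S C j x y)
    (h : Fin G.nX × Fin G.nY → Lbl) :
    ∑ j ∈ Cᶜ, (D j).hell h ≤ pW S C * Real.log (1 / pW S C) := by
  set n : Fin k → Fin G.nX × Fin G.nY → ℝ := fun j z =>
    (∑ w ∈ Finset.univ.filter (fun w : Fin k → Fin G.nX × Fin G.nY => w j = z),
      (∏ i, ql G (w i)) * Phi S C w) / ql G z with hn
  have hn' : ∀ j z, ql G z * n j z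
      = ∑ w ∈ Finset.univ.filter (fun w : Fin k → Fin G.nX × Fin G.nY => w j = z),
        (∏ i, ql G (w i)) * Phi S C w := by
    intro j z
    by_cases h0 : ql G z = 0
    · rw [h0, zero_mul]
      symm
      refine Finset.sum_eq_zero (fun w hw => ?_)
      have hwj : w j = z := (Finset.mem_filter.mp hw).2
      rw [Finset.prod_eq_zero (Finset.mem_univ j) (by rw [hwj, h0]), zero_mul]
    · simp only [hn]; field_simp
  have hkl := kl_lemma (ql G) ql_nonneg ql_sum (Phi S C) (fun w => phi_nonneg S C _ _)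
    (fun w => phi_le_one S C _ _) h (pW S C) (pW_eq S C) n hn'
  refine le_trans ?_ hkl
  calc ∑ j ∈ Cᶜ, (D j).hell h = ∑ j ∈ Cᶜ, hell (ql G) h (n j) (pW S C) := by
        refine Finset.sum_congr rfl (fun j hj => ?_)
        rw [hell_bridge (D j) h (n j) (fun z => by
          rw [hn' j z, ← pWq_eq]; exact (hD j hj z.1 z.2).symm), gam_eq S C j (D j) (hD j hj)]
    _ ≤ ∑ j, hell (ql G) h (n j) (pW S C) :=
        Finset.sum_le_sum_of_subset_of_nonneg (Finset.subset_univ _)
          (fun j _ _ => hell_nonneg _ ql_nonneg _ _ _)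

end hell

end Crest.Agent.PR.Univ
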