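/-
ROW 342, project PR.  Universal finish: summation over the coordinates `j ∉ C` and AM-GM => (OS-lin)
with `K = C'/δ^3`.  Pure real analysis.   (helper42)
-/
import Mathlib

set_option autoImplicit false

namespace Crest.Agent.PR.Univ

open Finset

/-- the universal constant as a function of the constant of (QCS) -/
noncomputable def Cuniv (CQ : ℝ) : ℝ := 48 * (8 * (max CQ 1) ^ 2 + 2) ^ 2

theorem one_le_Cuniv (CQ : ℝ) : 1 ≤ Cuniv CQ := by
  unfold Cuniv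
  have : 0 ≤ (max CQ 1) ^ 2 := sq_nonneg _
  nlinarith

theorem sum_sqrt_le {ι : Type*} (J : Finset ι) (X : ι → ℝ) (hX : ∀ j ∈ J, 0 ≤ X j) (T : ℝ)
    (hT : ∑ j ∈ J, X j ≤ T) :
    ∑ j ∈ J, Real.sqrt (X j) ≤ Real.sqrt ((J.card : ℝ) * T) := by
  refine Real.le_sqrt_of_sq_le ?_
  have h := sq_sum_le_card_mul_sum_sq (s := J) (f := fun j => Real.sqrt (X j))
  refine h.trans ?_
  refine mul_le_mul_of_nonneg_left ?_ (Nat.cast_nonneg _)
  refine le_trans (le_of_eq ?_) hT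
  exact Finset.sum_congr rfl (fun j hj => Real.sq_sqrt (hX j hj))

theorem amgm_step (B t n δ U : ℝ) (hB : 0 ≤ B) (ht : 0 ≤ t) (hn : 0 ≤ n) (hδ : 0 < δ) (hU : 0 ≤ U)
    (ht2 : t ^ 2 = 6 * n * U) : 2 * B * t ≤ n * δ / 8 + 48 * B ^ 2 * U / δ := by
  have key : 2 * B * t * δ ≤ n * δ ^ 2 / 8 + 48 * B ^ 2 * U := by
    set p := n * δ ^ 2 / 8 with hp
    set q := 48 * B ^ 2 * U with hq
    have hp0 : 0 ≤ p := by positivity
    have hq0 : 0 ≤ q := by positivity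
    have hpq : (2 * B * t * δ) ^ 2 = 4 * (p * q) := by
      have : (2 * B * t * δ) ^ 2 = 4 * B ^ 2 * δ ^ 2 * t ^ 2 := by ring
      rw [this, ht2, hp, hq]; ring
    have h2 : (2 * B * t * δ) ^ 2 ≤ (p + q) ^ 2 := by
      rw [hpq]; nlinarith [sq_nonneg (p - q)]
    exact (abs_le_of_sq_le_sq' h2 (by positivity)).2
  have : n * δ / 8 + 48 * B ^ 2 * U / δ = (n * δ ^ 2 / 8 + 48 * B ^ 2 * U) / δ := by
    field_simp
  rw [this, le_div_iff₀ hδ]
  exact key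

/-- from the one-coordinate bounds to (OS-lin) with `K = Cuniv CQ / δ^3`. -/
theorem os_univ_sum {ι : Type*} (J : Finset ι) (win XA XB : ι → ℝ) (g v δ CQ U : ℝ)
    (hg0 : 0 ≤ g) (hδ0 : 0 < δ) (hδ1 : δ ≤ 1) (hCQ : 0 < CQ) (hU : 0 ≤ U)
    (hXA : ∀ j ∈ J, 0 ≤ XA j) (hXB : ∀ j ∈ J, 0 ≤ XB j)
    (hstep : ∀ η : ℝ, 0 < η → η ≤ 1 → ∀ j ∈ J, win j ≤ v * g + CQ * η * g
      + (CQ / η + 2) * Real.sqrt g * (Real.sqrt (XB j) + Real.sqrt (XA j)))
    (hA : ∑ j ∈ J, XA j ≤ 6 * g * U) (hB : ∑ j ∈ J, XB j ≤ 6 * g * U) :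
    ∑ j ∈ J, win j ≤ g * ((J.card : ℝ) * (v + δ / 4) + Cuniv CQ / δ ^ 3 * U) := by
  set c : ℝ := max CQ 1 with hc
  have hc1 : 1 ≤ c := le_max_right _ _
  have hcQ : CQ ≤ c := le_max_left _ _
  set η : ℝ := δ / (8 * c) with hη
  have hη0 : 0 < η := by positivity
  have hη1 : η ≤ 1 := by
    rw [hη, div_le_one (by positivity)]; nlinarith
  set n : ℝ := (J.card : ℝ) with hn
  have hn0 : 0 ≤ n := Nat.cast_nonneg _
  set B : ℝ := CQ / η + 2 with hBdef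
  have hB0 : 0 ≤ B := by positivity
  set t : ℝ := Real.sqrt (6 * n * U) with htdef
  have ht0 : 0 ≤ t := Real.sqrt_nonneg _
  have ht2 : t ^ 2 = 6 * n * U := Real.sq_sqrt (by positivity)
  -- sums of square roots
  have hsq : ∀ X : ι → ℝ, (∀ j ∈ J, 0 ≤ X j) → ∑ j ∈ J, X j ≤ 6 * g * U →
      Real.sqrt g * ∑ j ∈ J, Real.sqrt (X j) ≤ g * t := by
    intro X hX hs
    have h1 := sum_sqrt_le J X hX _ hs
    calc Real.sqrt g * ∑ j ∈ J, Real.sqrt (X j)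
        ≤ Real.sqrt g * Real.sqrt ((J.card : ℝ) * (6 * g * U)) :=
          mul_le_mul_of_nonneg_left h1 (Real.sqrt_nonneg _)
      _ = g * t := by
          rw [htdef, ← Real.sqrt_mul hg0]
          have : g * ((J.card : ℝ) * (6 * g * U)) = g ^ 2 * (6 * n * U) := by rw [hn]; ring
          rw [this, Real.sqrt_mul (sq_nonneg g), Real.sqrt_sq hg0]
  have hsA := hsq XA hXA hA
  have hsB := hsq XB hXB hB
  have hsum : ∑ j ∈ J, win j ≤ n * (v * g + CQ * η * g) + B * (2 * (g * t)) := by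
    calc ∑ j ∈ J, win j ≤ ∑ j ∈ J, (v * g + CQ * η * g
          + B * Real.sqrt g * (Real.sqrt (XB j) + Real.sqrt (XA j))) :=
          Finset.sum_le_sum (fun j hj => hstep η hη0 hη1 j hj)
      _ = n * (v * g + CQ * η * g) + B * (Real.sqrt g * ∑ j ∈ J, Real.sqrt (XB j)
            + Real.sqrt g * ∑ j ∈ J, Real.sqrt (XA j)) := by
          rw [Finset.sum_add_distrib, Finset.sum_const, nsmul_eq_mul, ← Finset.mul_sum,
            Finset.sum_add_distrib]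
          ring
      _ ≤ _ := by
          have := mul_le_mul_of_nonneg_left (add_le_add hsB hsA) hB0
          linarith
  have hCη : CQ * η ≤ δ / 8 := by
    rw [hη, mul_div_assoc']
    rw [div_le_div_iff₀ (by positivity) (by norm_num)]
    nlinarith
  have hBle : B ≤ (8 * c ^ 2 + 2) / δ := by
    rw [hBdef, hη, le_div_iff₀ hδ0]
    have e : (CQ / (δ / (8 * c)) + 2) * δ = 8 * c * CQ + 2 * δ := by field_simp
    rw [e]; nlinarith
  have hB2 : 48 * B ^ 2 * U / δ ≤ Cuniv CQ / δ ^ 3 * U := by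
    have h1 : B ^ 2 ≤ ((8 * c ^ 2 + 2) / δ) ^ 2 := pow_le_pow_left₀ hB0 hBle 2
    have e : Cuniv CQ / δ ^ 3 * U = 48 * ((8 * c ^ 2 + 2) / δ) ^ 2 * U / δ := by
      unfold Cuniv; rw [← hc]; field_simp
    rw [e]
    gcongr
  have ham := amgm_step B t n δ U hB0 ht0 hn0 hδ0 hU ht2
  have hfin : n * (v + CQ * η) + 2 * B * t ≤ n * (v + δ / 4) + Cuniv CQ / δ ^ 3 * U := by
    have := mul_le_mul_of_nonneg_left hCη hn0
    nlinarith
  calc ∑ j ∈ J, win j ≤ g * (n * (v + CQ * η) + 2 * B * t) := by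
        refine hsum.trans (le_of_eq ?_); ring
    _ ≤ _ := mul_le_mul_of_nonneg_left hfin hg0

end Crest.Agent.PR.Univ
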