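/-
ROW 342, project PR.  Universal finish, one coordinate (blueprint section 5).   (helper42)
-/
import Crest.Agent.PR_UnivVec
import Crest.Agent.PR_Strat

set_option autoImplicit false

namespace Crest.Agent.PR.Univ

open Crest.MathPhysics.NonlocalGame

variable {G : Game}

theorem sum_fst_ite {α β : Type} [Fintype α] [Fintype β] [DecidableEq α] (F : α → β → ℝ) (l : α) :
    ∑ w : α × β, (if w.1 = l then F w.1 w.2 else 0) = ∑ y, F l y := by
  rw [Fintype.sum_prod_type, Finset.sum_eq_single l]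
  · simp
  · intro b _ hb; simp [hb]
  · intro h; exact absurd (Finset.mem_univ l) h

theorem sum_snd_ite {α β : Type} [Fintype α] [Fintype β] [DecidableEq β] (F : α → β → ℝ) (l : β) :
    ∑ w : α × β, (if w.2 = l then F w.1 w.2 else 0) = ∑ x, F x l := by
  rw [Fintype.sum_prod_type]
  refine Finset.sum_congr rfl (fun x _ => ?_)
  rw [Finset.sum_eq_single l]
  · simp
  · intro b _ hb; simp [hb]
  · intro h; exact absurd (Finset.mem_univ l) h

theorem piA_nonneg (x : Fin G.nX) : 0 ≤ piA G x := Finset.sum_nonneg (fun y _ => G.prob_nonneg x y)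
theorem piB_nonneg (y : Fin G.nY) : 0 ≤ piB G y := Finset.sum_nonneg (fun x _ => G.prob_nonneg x y)

theorem gam_nonneg (D : CoreData G) : 0 ≤ D.gam :=
  Finset.sum_nonneg (fun x _ => Finset.sum_nonneg
    (fun y _ => mul_nonneg (G.prob_nonneg x y) (nsq_nonneg _)))

theorem sqrt_mul_sub_sq (p n γ : ℝ) (hp : 0 ≤ p) :
    (Real.sqrt (p * n) - Real.sqrt (p * γ)) ^ 2 = p * (Real.sqrt n - Real.sqrt γ) ^ 2 := by
  rw [Real.sqrt_mul hp, Real.sqrt_mul hp, ← mul_sub, mul_pow, Real.sq_sqrt hp]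

theorem hell_fst (D : CoreData G) :
    D.hell Prod.fst = ∑ x, piA G x * (Real.sqrt (nsq (D.g x)) - Real.sqrt D.gam) ^ 2 := by
  unfold CoreData.hell
  refine Finset.sum_congr rfl (fun l _ => ?_)
  rw [sum_fst_ite (fun x y => G.prob x y * nsq (D.f x y)) l, sum_fst_ite (fun x y => G.prob x y) l,
    ← D.hg l]
  exact sqrt_mul_sub_sq _ _ _ (piA_nonneg l)

theorem hell_snd (D : CoreData G) :
    D.hell Prod.snd = ∑ y, piB G y * (Real.sqrt (nsq (D.g' y)) - Real.sqrt D.gam) ^ 2 := by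
  unfold CoreData.hell
  refine Finset.sum_congr rfl (fun l _ => ?_)
  rw [sum_snd_ite (fun x y => G.prob x y * nsq (D.f x y)) l, sum_snd_ite (fun x y => G.prob x y) l,
    ← D.hg' l]
  exact sqrt_mul_sub_sq _ _ _ (piB_nonneg l)

theorem distA_le (D : CoreData G) {u0 : D.ιA × D.ιB → ℂ} (hu0 : nsq u0 = 1) :
    ∑ z : Fin G.nX × Fin G.nY, G.prob z.1 z.2 *
      Real.sqrt (nsq (D.f z.1 z.2 - ((Real.sqrt D.gam : ℝ) : ℂ) • normalize u0 (D.g z.1))) ^ 2
      ≤ 2 * D.errB + 2 * D.hell Prod.fst := by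
  rw [hell_fst, Fintype.sum_prod_type]
  unfold CoreData.errB piA
  simp only [Finset.mul_sum, Finset.sum_mul]
  rw [← Finset.sum_add_distrib]
  refine Finset.sum_le_sum (fun x _ => ?_)
  rw [← Finset.sum_add_distrib]
  refine Finset.sum_le_sum (fun y _ => ?_)
  rw [Real.sq_sqrt (nsq_nonneg _)]
  have h := nsq_sub_le (D.f x y) (D.g x) (((Real.sqrt D.gam : ℝ) : ℂ) • normalize u0 (D.g x))
  rw [nsq_sub_smul_normalize hu0] at h
  have := mul_le_mul_of_nonneg_left h (G.prob_nonneg x y)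
  linarith

theorem distB_le (D : CoreData G) {u0 : D.ιA × D.ιB → ℂ} (hu0 : nsq u0 = 1) :
    ∑ z : Fin G.nX × Fin G.nY, G.prob z.1 z.2 *
      Real.sqrt (nsq (D.f z.1 z.2 - ((Real.sqrt D.gam : ℝ) : ℂ) • normalize u0 (D.g' z.2))) ^ 2
      ≤ 2 * D.errA + 2 * D.hell Prod.snd := by
  rw [hell_snd, Fintype.sum_prod_type]
  unfold CoreData.errA piB
  simp only [Finset.mul_sum, Finset.sum_mul]
  rw [Finset.sum_comm (f := fun y x => 2 * (G.prob x y * (Real.sqrt (nsq (D.g' y)) - Real.sqrt D.gam) ^ 2))]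
  rw [← Finset.sum_add_distrib]
  refine Finset.sum_le_sum (fun x _ => ?_)
  rw [← Finset.sum_add_distrib]
  refine Finset.sum_le_sum (fun y _ => ?_)
  rw [Real.sq_sqrt (nsq_nonneg _)]
  have h := nsq_sub_le (D.f x y) (D.g' y) (((Real.sqrt D.gam : ℝ) : ℂ) • normalize u0 (D.g' y))
  rw [nsq_sub_smul_normalize hu0] at h
  have := mul_le_mul_of_nonneg_left h (G.prob_nonneg x y)
  linarith

/-- **universal finish** (one coordinate, generic), `CQ` the constant of `qcs`. -/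
theorem univ_finish' {CQ : ℝ} (hCQ : 0 < CQ)
    (hq : ∀ (ιA ιB : Type) [Fintype ιA] [Fintype ιB] [DecidableEq ιA] [DecidableEq ιB]
    (g : Fin G.nX → ιA × ιB → ℂ) (g' : Fin G.nY → ιA × ιB → ℂ)
    (_ : ∀ x, nsq (g x) = 1) (_ : ∀ y, nsq (g' y) = 1)
    (N : Fin G.nX → Fin G.nA → Matrix ιA ιA ℂ) (N' : Fin G.nY → Fin G.nB → Matrix ιB ιB ℂ)
    (_ : ∀ x, IsPOVM (N x)) (_ : ∀ y, IsPOVM (N' y))
    (η η' : ℝ), 0 < η → η ≤ 1 → 0 < η' →
    ∃ p, IsQCorr G p ∧ ∀ (x : Fin G.nX) (y : Fin G.nY) (Win : Fin G.nA → Fin G.nB → Bool),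
      (∑ a, ∑ b, if Win a b = true then qf (g x) (N x a) (N' y b) else 0)
        - CQ * (η + Real.sqrt (nsq (g x - g' y)) / η) - η'
      ≤ ∑ a, ∑ b, if Win a b = true then p x y a b else 0)
    (v : ℝ) (hv : ∀ (dA dB : ℕ) (S : Strategy G 1 dA dB), S.probWinsAtLeast 1 ≤ v)
    (D : CoreData G) (η : ℝ) (hη : 0 < η) (hη1 : η ≤ 1) :
    D.win ≤ v * D.gam + CQ * η * D.gam
      + (CQ / η + 2) * Real.sqrt D.gam *
        (Real.sqrt (2 * D.errB + 2 * D.hell Prod.fst) + Real.sqrt (2 * D.errA + 2 * D.hell Prod.snd)) := by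
  rcases isEmpty_or_nonempty (D.ιA × D.ιB) with hE | ⟨⟨i0⟩⟩
  · -- degenerate case: everything vanishes
    have hw : D.win = 0 := by
      unfold CoreData.win qf
      simp [dotProduct, Finset.univ_eq_empty]
    have hg : D.gam = 0 := by
      unfold CoreData.gam nsq
      simp [Finset.univ_eq_empty]
    rw [hw, hg]; simp
  set u0 : D.ιA × D.ιB → ℂ := Pi.single i0 1 with hu0def
  have hu0 : nsq u0 = 1 := by
    unfold nsq
    rw [Finset.sum_eq_single i0]
    · simp [hu0def]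
    · intro b _ hb; simp [hu0def, hb]
    · intro h; exact absurd (Finset.mem_univ i0) h
  set s : ℝ := Real.sqrt D.gam with hs
  have hs0 : 0 ≤ s := Real.sqrt_nonneg _
  have hs2 : s ^ 2 = D.gam := Real.sq_sqrt (gam_nonneg D)
  set gh : Fin G.nX → D.ιA × D.ιB → ℂ := fun x => normalize u0 (D.g x) with hgh
  set gh' : Fin G.nY → D.ιA × D.ιB → ℂ := fun y => normalize u0 (D.g' y) with hgh'
  have hπ1 : ∑ z : Fin G.nX × Fin G.nY, G.prob z.1 z.2 = 1 := by
    rw [Fintype.sum_prod_type]; exact G.prob_sum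
  refine le_of_forall_pos_le_add (fun ε hε => ?_)
  -- choose η'
  obtain ⟨η', hη', hη'ε⟩ : ∃ η' : ℝ, 0 < η' ∧ η' * s ^ 2 ≤ ε := by
    refine ⟨ε / (s ^ 2 + 1), by positivity, ?_⟩
    rw [div_mul_eq_mul_div, div_le_iff₀ (by positivity)]
    nlinarith [sq_nonneg s]
  obtain ⟨p, hp, hpq⟩ := hq D.ιA D.ιB gh gh' (fun x => nsq_normalize hu0 _)
    (fun y => nsq_normalize hu0 _) D.N D.N' D.hN D.hN' η η' hη hη1 hη'
  have hval := gval_le_of_isQCorr v hv hp
  have key := univ_abstract (Z := Fin G.nX × Fin G.nY) (fun z => G.prob z.1 z.2)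
    (fun z => ∑ a, ∑ b, if G.accept z.1 z.2 a b = true
      then qf (D.f z.1 z.2) (D.N z.1 a) (D.N' z.2 b) else 0)
    (fun z => ∑ a, ∑ b, if G.accept z.1 z.2 a b = true
      then qf (gh z.1) (D.N z.1 a) (D.N' z.2 b) else 0)
    (fun z => ∑ a, ∑ b, if G.accept z.1 z.2 a b = true then p z.1 z.2 a b else 0)
    (fun z => Real.sqrt (nsq (D.f z.1 z.2 - (s : ℂ) • gh z.1)))
    (fun z => Real.sqrt (nsq (D.f z.1 z.2 - (s : ℂ) • gh' z.2)))
    (fun z => Real.sqrt (nsq (D.f z.1 z.2)))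
    (fun z => Real.sqrt (nsq (gh z.1 - gh' z.2)))
    (fun z => G.prob_nonneg _ _) hπ1 s CQ η η' v
    (2 * D.errB + 2 * D.hell Prod.fst) (2 * D.errA + 2 * D.hell Prod.snd) hs0 hCQ hη
    (fun z => Real.sqrt_nonneg _) (fun z => Real.sqrt_nonneg _) (fun z => Real.sqrt_nonneg _)
    ?h1 ?h2 ?h3 ?h4 ?h5 ?h6 ?h6'
  case h1 =>
    intro z
    have h := qf_win_pert (D.N z.1) (D.N' z.2) (D.hN z.1) (D.hN' z.2) (G.accept z.1 z.2)
      (D.f z.1 z.2) ((s : ℂ) • gh z.1)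
    have e1 : (∑ a, ∑ b, if G.accept z.1 z.2 a b = true
        then qf ((s : ℂ) • gh z.1) (D.N z.1 a) (D.N' z.2 b) else 0)
        = s ^ 2 * ∑ a, ∑ b, if G.accept z.1 z.2 a b = true
          then qf (gh z.1) (D.N z.1 a) (D.N' z.2 b) else 0 := by
      simp only [Finset.mul_sum]
      refine Finset.sum_congr rfl (fun a _ => Finset.sum_congr rfl (fun b _ => ?_))
      split_ifs
      · exact qf_smul _ _ _ _
      · simp
    have e2 : Real.sqrt (nsq ((s : ℂ) • gh z.1)) = s := by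
      rw [nsq_ofReal_smul, nsq_normalize hu0, mul_one, Real.sqrt_sq hs0]
    rw [e1, e2] at h
    exact h
  case h2 =>
    intro z
    exact hpq z.1 z.2 (G.accept z.1 z.2)
  case h3 =>
    rw [Fintype.sum_prod_type]
    exact hval
  case h4 =>
    intro z
    have e : s * Real.sqrt (nsq (gh z.1 - gh' z.2))
        = Real.sqrt (nsq ((s : ℂ) • gh z.1 - (s : ℂ) • gh' z.2)) := by
      rw [← smul_sub, nsq_ofReal_smul, Real.sqrt_mul (sq_nonneg s), Real.sqrt_sq hs0]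
    rw [e]
    have h := sqrt_nsq_sub_le ((s : ℂ) • gh z.1) (D.f z.1 z.2) ((s : ℂ) • gh' z.2)
    rwa [nsq_sub_comm ((s : ℂ) • gh z.1) (D.f z.1 z.2)] at h
  case h5 =>
    rw [hs2, Fintype.sum_prod_type]
    unfold CoreData.gam
    refine Finset.sum_congr rfl (fun x _ => Finset.sum_congr rfl (fun y _ => ?_))
    rw [Real.sq_sqrt (nsq_nonneg _)]
  case h6 => exact distA_le D hu0
  case h6' => exact distB_le D hu0
  have hwin : D.win = ∑ z : Fin G.nX × Fin G.nY, G.prob z.1 z.2 *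
      ∑ a, ∑ b, if G.accept z.1 z.2 a b = true
        then qf (D.f z.1 z.2) (D.N z.1 a) (D.N' z.2 b) else 0 := by
    rw [Fintype.sum_prod_type]; rfl
  rw [hwin]
  rw [hs2] at key hη'ε
  linarith

end Crest.Agent.PR.Univ
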