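/-
ROW 342, project PR.  Universal finish and (OS-univ).  Blueprint section 5.
-/
import Crest.Agent.PR_Core
import Crest.Agent.PR_KL
import Crest.Agent.PR_QCS
import Crest.Agent.PR_UnivStep
import Crest.Agent.PR_UnivBridge
import Crest.Agent.PR_UnivNum

set_option autoImplicit false

namespace Crest.Agent.PR

open Crest.MathPhysics.NonlocalGame

variable {G : Game}

/-- **universal finish** (one coordinate, generic), `CQ` the constant of `qcs`. -/
theorem univ_finish {CQ : ℝ} (hCQ : 0 < CQ)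
    (hq : ∀ (ιA ιB : Type) [Fintype ιA] [Fintype ιB] [DecidableEq ιA] [DecidableEq ιB]
    (g : Fin G.nX → ιA × ιB → ℂ) (g' : Fin G.nY → ιA × ιB → ℂ)
    (_ : ∀ x, nsq (g x) = 1) (_ : ∀ y, nsq (g' y) = 1)
    (N : Fin G.nX → Fin G.nA → Matrix ιA ιA ℂ) (N' : Fin G.nY → Fin G.nB → Matrix ιB ιB ℂ)
    (_ : ∀ x, IsPOVM (N x)) (_ : ∀ y, IsPOVM (N' y))
    (η η' : ℝ), 0 < η → η ≤ 1 → 0 < η' →
    ∃ p, IsQCorr G p ∧ ∀ (x : Fin G.nX) (y : Fin G.nY) (Win : Fin G.nA → Fin G.nB → Bool),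
      (∑ a, ∑ b, if Win a b = true then qf (g x) (N x a) (N' y b) else 0)
        - CQ * (η + Real.sqrt (nsq (g x - g' y)) / η) - η'
      ≤ ∑ a, ∑ b, if Win a b = true then p x y a b else 0)
    (v : ℝ) (hv : ∀ (dA dB : ℕ) (S : Strategy G 1 dA dB), S.probWinsAtLeast 1 ≤ v)
    (D : CoreData G) (η : ℝ) (hη : 0 < η) (hη1 : η ≤ 1) :
    D.win ≤ v * D.gam + CQ * η * D.gam
      + (CQ / η + 2) * Real.sqrt D.gam *
        (Real.sqrt (2 * D.errB + 2 * D.hell Prod.fst) + Real.sqrt (2 * D.errA + 2 * D.hell Prod.snd)) :=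
  Univ.univ_finish' hCQ hq v hv D η hη hη1

namespace Univ

theorem errA_nonneg (D : CoreData G) : 0 ≤ D.errA :=
  Finset.sum_nonneg (fun x _ => Finset.sum_nonneg
    (fun y _ => mul_nonneg (G.prob_nonneg x y) (nsq_nonneg _)))

theorem errB_nonneg (D : CoreData G) : 0 ≤ D.errB :=
  Finset.sum_nonneg (fun x _ => Finset.sum_nonneg
    (fun y _ => mul_nonneg (G.prob_nonneg x y) (nsq_nonneg _)))

end Univ

/-- **(OS-univ)** -/
theorem OSlin_univ : ∃ C' : ℝ, 1 ≤ C' ∧ ∀ (G : Game) (v : ℝ),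
    (∀ (dA dB : ℕ) (S : Strategy G 1 dA dB), S.probWinsAtLeast 1 ≤ v) →
    ∀ δ : ℝ, 0 < δ → δ < 1 → ∀ (k dA dB : ℕ) (S : Strategy G k dA dB),
      OSlin S v δ (C' / δ ^ 3) := by
  obtain ⟨CQ, hCQ, hqcs⟩ := qcs
  refine ⟨Univ.Cuniv CQ, Univ.one_le_Cuniv CQ, ?_⟩
  intro G v hv δ hδ hδ1 k dA dB S C hC
  have hk : 1 ≤ k := by omega
  obtain ⟨hnA, hnB⟩ := nA_nB_pos_of_strategy S hk
  obtain ⟨D, hD, hEA, hEB⟩ := exists_core S hk C
  set g : ℝ := pW S C with hg
  have hg0 : 0 ≤ g := Univ.pW_nonneg S C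
  have hg1 : g ≤ 1 := Univ.pW_le_one S C
  have hlog0 : 0 ≤ Real.log (1 / g) := by
    rcases eq_or_lt_of_le hg0 with h0 | hpos
    · rw [← h0]; simp
    · exact Real.log_nonneg (by rw [le_div_iff₀ hpos]; linarith)
  have hlA : 0 ≤ Real.log (G.nA : ℝ) := Real.log_natCast_nonneg _
  have hlB : 0 ≤ Real.log (G.nB : ℝ) := Real.log_natCast_nonneg _
  have hLam : Real.log ((G.nA * G.nB : ℕ) : ℝ) = Real.log (G.nA : ℝ) + Real.log (G.nB : ℝ) := by
    rw [Nat.cast_mul, Real.log_mul (by positivity) (by positivity)]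
  set U : ℝ := Real.log (1 / g) + C.card * Real.log ((G.nA * G.nB : ℕ) : ℝ) with hU
  have hcard0 : (0 : ℝ) ≤ (C.card : ℝ) := Nat.cast_nonneg _
  have hU0 : 0 ≤ U := by rw [hU, hLam]; positivity
  have hgam : ∀ j ∈ Cᶜ, (D j).gam = g := fun j hj => Univ.gam_eq S C j (D j) (hD j hj).1
  have hH1 := Univ.sum_hell_le S C D (fun j hj => (hD j hj).1) Prod.fst
  have hH2 := Univ.sum_hell_le S C D (fun j hj => (hD j hj).1) Prod.snd
  have hcardJ : ((Cᶜ : Finset (Fin k)).card : ℝ) = (k : ℝ) - C.card := by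
    rw [Finset.card_compl, Fintype.card_fin, Nat.cast_sub hC.le]
  have key := Univ.os_univ_sum (Cᶜ) (fun j => pW S (insert j C))
    (fun j => 2 * (D j).errA + 2 * (D j).hell Prod.snd)
    (fun j => 2 * (D j).errB + 2 * (D j).hell Prod.fst) g v δ CQ U hg0 hδ hδ1.le hCQ hU0
    (fun j _ => by
      have := Univ.errA_nonneg (D j); have := Univ.coreHell_nonneg (D j) Prod.snd; positivity)
    (fun j _ => by
      have := Univ.errB_nonneg (D j); have := Univ.coreHell_nonneg (D j) Prod.fst; positivity)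
    (fun η hη hη1 j hj => by
      have h := univ_finish hCQ (fun ιA ιB _ _ _ _ g g' h1 h2 N N' h3 h4 η η' h5 h6 h7 =>
        hqcs G ιA ιB g g' h1 h2 N N' h3 h4 η η' h5 h6 h7) v hv (D j) η hη hη1
      rw [(hD j hj).2, hgam j hj] at h
      exact h)
    (by
      rw [Finset.sum_add_distrib, ← Finset.mul_sum, ← Finset.mul_sum]
      have h1 : g * (C.card * Real.log (G.nA : ℝ)) ≤ g * (C.card * Real.log ((G.nA * G.nB : ℕ) : ℝ)) := by
        rw [hLam]; gcongr; linarith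
      have e : 6 * g * U = 6 * (g * Real.log (1 / g))
          + 6 * (g * (C.card * Real.log ((G.nA * G.nB : ℕ) : ℝ))) := by rw [hU]; ring
      have h3 : 0 ≤ g * (C.card * Real.log ((G.nA * G.nB : ℕ) : ℝ)) := by
        rw [hLam]; positivity
      rw [e]
      nlinarith)
    (by
      rw [Finset.sum_add_distrib, ← Finset.mul_sum, ← Finset.mul_sum]
      have h1 : g * (C.card * Real.log (G.nB : ℝ)) ≤ g * (C.card * Real.log ((G.nA * G.nB : ℕ) : ℝ)) := by
        rw [hLam]; gcongr; linarith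
      have e : 6 * g * U = 6 * (g * Real.log (1 / g))
          + 6 * (g * (C.card * Real.log ((G.nA * G.nB : ℕ) : ℝ))) := by rw [hU]; ring
      have h3 : 0 ≤ g * (C.card * Real.log ((G.nA * G.nB : ℕ) : ℝ)) := by
        rw [hLam]; positivity
      rw [e]
      nlinarith)
  rw [hcardJ] at key
  exact key

end Crest.Agent.PR
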