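import Crest.Agent.PT_Defs

/-! Row 149, task IB: cubes, balls, translation invariance (blueprint I4). -/

set_option autoImplicit false

namespace Crest.Agent.PT

open MeasureTheory Crest.ProbabilityR.Continuum

theorem cube_eq_cubeAt (ℓ : ℝ) : cube ℓ = cubeAt 0 ℓ := by
  ext x
  simp [cube, cubeAt]

theorem cubeAt_eq_image (v : Pt) (ℓ : ℝ) : cubeAt v ℓ = (fun x => x + v) '' cube ℓ := by
  ext x
  constructor
  · intro hx
    refine ⟨x - v, ?_, by simp⟩
    intro k
    have := hx k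
    simp only [PiLp.sub_apply]
    constructor <;> linarith [this.1, this.2]
  · rintro ⟨y, hy, rfl⟩
    intro k
    have := hy k
    simp only [PiLp.add_apply]
    constructor <;> linarith [this.1, this.2]

private theorem cubeAt_eq_preimage (v : Pt) (ℓ : ℝ) :
    cubeAt v ℓ = (@WithLp.ofLp 2 (Fin 3 → ℝ)) ⁻¹'
      (Set.pi Set.univ (fun k : Fin 3 => Set.Icc (v k) (v k + ℓ))) := by
  ext x
  simp only [cubeAt, Set.mem_setOf_eq, Set.mem_preimage, Set.mem_pi, Set.mem_univ, forall_true_left,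
    Set.mem_Icc]

private theorem volume_cubeAt (v : Pt) (ℓ : ℝ) :
    volume (cubeAt v ℓ) = ENNReal.ofReal ℓ ^ 3 := by
  rw [cubeAt_eq_preimage,
    (PiLp.volume_preserving_ofLp (Fin 3)).measure_preimage
      (MeasurableSet.univ_pi (fun _ => measurableSet_Icc)).nullMeasurableSet,
    volume_pi_pi]
  simp

theorem reg_cubeAt (v : Pt) (ℓ : ℝ) : Reg (cubeAt v ℓ) := by
  constructor
  · rw [cubeAt_eq_preimage]
    exact (PiLp.volume_preserving_ofLp (Fin 3)).measurable
      (MeasurableSet.univ_pi (fun _ => measurableSet_Icc))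
  · rw [volume_cubeAt]
    exact ENNReal.pow_ne_top ENNReal.ofReal_ne_top

theorem reg_cube (ℓ : ℝ) : Reg (cube ℓ) := by
  rw [cube_eq_cubeAt]
  exact reg_cubeAt 0 ℓ

theorem vol_cubeAt (v : Pt) {ℓ : ℝ} (hℓ : 0 ≤ ℓ) : vol (cubeAt v ℓ) = ℓ ^ 3 := by
  rw [vol, volume_cubeAt, ENNReal.toReal_pow, ENNReal.toReal_ofReal hℓ]

theorem vol_cube {ℓ : ℝ} (hℓ : 0 ≤ ℓ) : vol (cube ℓ) = ℓ ^ 3 := by
  rw [cube_eq_cubeAt]
  exact vol_cubeAt 0 hℓ

theorem reg_ball (y : Pt) (r : ℝ) : Reg (Metric.ball y r) :=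
  ⟨measurableSet_ball, measure_ball_lt_top.ne⟩

theorem vol_ball (y : Pt) {r : ℝ} (hr : 0 ≤ r) : vol (Metric.ball y r) = vol (Metric.ball (0 : Pt) 1) * r ^ 3 := by
  rw [vol, vol, Measure.addHaar_ball volume y hr, ENNReal.toReal_mul,
    ENNReal.toReal_ofReal (pow_nonneg hr _), finrank_euclideanSpace_fin, mul_comm]

theorem vol_ball_one_pos : 0 < vol (Metric.ball (0 : Pt) 1) :=
  ENNReal.toReal_pos (Metric.measure_ball_pos volume (0 : Pt) one_pos).ne' measure_ball_lt_top.ne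

/-- the unit ball is contained in a cube of side 2 -/
theorem vol_ball_one_le : vol (Metric.ball (0 : Pt) 1) ≤ 8 := by
  have hsub : Metric.ball (0 : Pt) 1 ⊆ cubeAt (WithLp.toLp 2 (fun _ => (-1 : ℝ))) 2 := by
    intro x hx k
    have h1 : ‖x‖ < 1 := by simpa using hx
    have h2 : ‖x k‖ ≤ ‖x‖ := PiLp.norm_apply_le x k
    have h3 : |x k| < 1 := lt_of_le_of_lt (by simpa using h2) h1
    have h4 := abs_lt.1 h3
    simp only [PiLp.toLp_apply]
    constructor <;> linarith [h4.1, h4.2]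
  have h := ENNReal.toReal_mono (reg_cubeAt _ _).fin (measure_mono hsub)
  have h8 : vol (cubeAt (WithLp.toLp 2 (fun _ => (-1 : ℝ))) 2) = 2 ^ 3 :=
    vol_cubeAt _ (by norm_num)
  calc vol (Metric.ball (0 : Pt) 1) ≤ vol (cubeAt (WithLp.toLp 2 (fun _ => (-1 : ℝ))) 2) := h
    _ = 8 := by rw [h8]; norm_num

/-- I4 -/
theorem ZW_translate {w : Pt → Pt → ℝ} (hw : Adm w) (hinv : ∀ v x y, w (x + v) (y + v) = w x y)
    (Λ : Set Pt) (v : Pt) (N : ℕ) : ZW w ((fun x => x + v) '' Λ) N = ZW w Λ N := by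
  unfold ZW
  congr 1
  have hmp : MeasurePreserving (fun x : Fin N → Pt => x + fun _ => v) volume volume :=
    measurePreserving_add_right volume (fun _ : Fin N => v)
  have hemb : MeasurableEmbedding (fun x : Fin N → Pt => x + fun _ => v) :=
    measurableEmbedding_addRight (fun _ : Fin N => v)
  rw [← hmp.setIntegral_preimage_emb hemb]
  have hset : (fun x : Fin N → Pt => x + fun _ => v) ⁻¹'
      (Set.pi Set.univ (fun _ : Fin N => (fun x => x + v) '' Λ)) =
      Set.pi Set.univ (fun _ : Fin N => Λ) := by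
    ext x
    simp only [Set.mem_preimage, Set.mem_pi, Set.mem_univ, forall_true_left, Pi.add_apply,
      Set.mem_image, add_left_inj, exists_eq_right]
  rw [hset]
  congr 1
  ext x
  congr 2
  unfold energyW
  refine Finset.sum_congr rfl (fun p _ => ?_)
  simp only [Pi.add_apply]
  exact hinv v _ _

private theorem adm_radW {φ : ℝ → ℝ} (hφ : Measurable φ) {c : ℝ} (hc : ∀ r, -c ≤ φ r) {β : ℝ}
    (hβ : 0 ≤ β) : Adm (radW β φ) := by
  refine ⟨fun x y => by simp [radW, dist_comm], ?_, ⟨β * c, fun x y => ?_⟩⟩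
  · unfold radW
    exact (hφ.comp (measurable_fst.dist measurable_snd)).const_mul β
  · unfold radW
    have := mul_le_mul_of_nonneg_left (hc (dist x y)) hβ
    linarith

theorem ZW_radW_cubeAt {φ : ℝ → ℝ} (hφ : Measurable φ) {c : ℝ} (hc : ∀ r, -c ≤ φ r) {β : ℝ}
    (hβ : 0 ≤ β) (v : Pt) (ℓ : ℝ) (N : ℕ) :
    ZW (radW β φ) (cubeAt v ℓ) N = partitionFn φ ℓ N β := by
  rw [cubeAt_eq_image, ZW_translate (adm_radW hφ hc hβ) (fun v x y => by simp [radW])]
  unfold ZW partitionFn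
  congr 2
  ext x
  congr 1
  unfold energyW energy radW
  rw [neg_mul, Finset.mul_sum]

/-- a cell of mesh `h` is contained in a translated closed cube of side `h` -/
theorem cell_subset_cubeAt {h : ℝ} (hh : 0 < h) (t : Pt) (α : Fin 3 → ℤ) :
    {x : Pt | idx h t x = α} ⊆ cubeAt (WithLp.toLp 2 (fun a => (α a : ℝ) * h - t a)) h := by
  intro x hx k
  have hk : ⌊(x k + t k) / h⌋ = α k := congrFun hx k
  have h1 : (α k : ℝ) ≤ (x k + t k) / h := by rw [← hk]; exact Int.floor_le _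
  have h2 : (x k + t k) / h < (α k : ℝ) + 1 := by rw [← hk]; exact Int.lt_floor_add_one _
  rw [le_div_iff₀ hh] at h1
  rw [div_lt_iff₀ hh] at h2
  simp only [PiLp.toLp_apply]
  constructor <;> nlinarith [h1, h2]

theorem measurableSet_cell (h : ℝ) (t : Pt) (α : Fin 3 → ℤ) :
    MeasurableSet {x : Pt | idx h t x = α} := by
  have hm : Measurable (idx h t) := by
    refine measurable_pi_iff.2 (fun a => ?_)
    unfold idx
    have h1 : Measurable (fun x : Pt => x a) :=
      (measurable_pi_apply a).comp (PiLp.volume_preserving_ofLp (Fin 3)).measurable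
    exact ((h1.add_const (t a)).div_const h).floor
  exact hm (measurableSet_singleton α)

/-- the cells meeting `cube L` (shift `t ∈ [0,h)^3`) have indices in `{0,…,⌈L/h⌉}^3` -/
theorem idx_mem_of_mem_cube {h L : ℝ} (hh : 0 < h) (hL : 0 ≤ L) (t : Pt) (ht : ∀ a, 0 ≤ t a ∧ t a < h)
    {x : Pt} (hx : x ∈ cube L) (a : Fin 3) : 0 ≤ idx h t x a ∧ idx h t x a ≤ ⌈L / h⌉₊ := by
  have hxa := hx a
  have hta := ht a
  constructor
  · exact Int.floor_nonneg.2 (div_nonneg (by linarith [hxa.1, hta.1]) hh.le)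
  · show ⌊(x a + t a) / h⌋ ≤ ((⌈L / h⌉₊ : ℕ) : ℤ)
    rw [Int.floor_le_iff]
    have h1 : (x a + t a) / h < L / h + 1 := by
      rw [div_lt_iff₀ hh, add_mul, div_mul_cancel₀ _ hh.ne']
      linarith [hxa.2, hta.2]
    have h2 : L / h ≤ (⌈L / h⌉₊ : ℝ) := Nat.le_ceil _
    push_cast
    linarith

end Crest.Agent.PT
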