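import Crest.Agent.PT_Basic
import Crest.Agent.PT_Cube

/-! Row 149, task IF: adding one particle (blueprint I8).
Integrate the last particle first (`MeasureTheory.volume_preserving_piFinSuccAbove` or `Fin.snoc`/`Fin.cons`);
`Q_x(y) = ∑ i, q (dist y (x i))` has `∫_Λ Q_x ≤ N * I`; Markov: `vol {y ∈ Λ | Q_x y ≤ 2 N I / L^3} ≥ L^3/2`. -/

set_option autoImplicit false

namespace Crest.Agent.PT

open MeasureTheory Crest.ProbabilityR.Continuum

theorem sum_pairs_eq (M : ℕ) (f : Fin M × Fin M → ℝ) :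
    ∑ p : {p : Fin M × Fin M // p.1 < p.2}, f p.1 = ∑ j, ∑ i, if i < j then f (i, j) else 0 := by
  rw [← Finset.sum_subtype (Finset.univ.filter (fun p : Fin M × Fin M => p.1 < p.2))
    (fun x => by simp) f, Finset.sum_filter, Fintype.sum_prod_type_right]

theorem energy_succ (φ : ℝ → ℝ) {N : ℕ} (x : Fin (N+1) → Pt) :
    energy φ x = energy φ (fun j : Fin N => x (Fin.castSucc j)) +
      ∑ j : Fin N, φ (dist (x (Fin.castSucc j)) (x (Fin.last N))) := by
  unfold energy
  rw [sum_pairs_eq (N+1) (fun p => φ (dist (x p.1) (x p.2))),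
    sum_pairs_eq N (fun p => φ (dist (x (Fin.castSucc p.1)) (x (Fin.castSucc p.2))))]
  rw [Fin.sum_univ_castSucc]
  congr 1
  · refine Finset.sum_congr rfl fun j _ => ?_
    rw [Fin.sum_univ_castSucc]
    simp [Fin.castSucc_lt_castSucc_iff, not_lt.mpr (Fin.le_last _)]
  · rw [Fin.sum_univ_castSucc]
    simp [Fin.castSucc_lt_last]


theorem integrableOn_exp_field {ψ : ℝ → ℝ} (hψ : Measurable ψ) {c : ℝ} (hc : ∀ r, -c ≤ ψ r)
    (L : ℝ) {N : ℕ} (x : Fin N → Pt) {β : ℝ} (hβ : 0 < β) :
    IntegrableOn (fun y : Pt => Real.exp (-(β * ∑ j, ψ (dist (x j) y)))) (cube L) := by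
  have hQmeas : Measurable (fun y : Pt => ∑ j, ψ (dist (x j) y)) :=
    Finset.measurable_sum _ (fun j _ => hψ.comp (measurable_const.dist measurable_id))
  refine Measure.integrableOn_of_bounded (M := Real.exp (β * (N * c))) (reg_cube L).fin ?_ ?_
  · exact (Real.measurable_exp.comp ((hQmeas.const_mul β).neg)).aestronglyMeasurable
  · refine Filter.Eventually.of_forall fun y => ?_
    simp only [Real.norm_eq_abs, Real.abs_exp]
    rw [Real.exp_le_exp]
    have h1 : ∑ j : Fin N, (-c) ≤ ∑ j, ψ (dist (x j) y) := Finset.sum_le_sum (fun j _ => hc _)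
    simp only [Finset.sum_const, Finset.card_univ, Fintype.card_fin, nsmul_eq_mul] at h1
    nlinarith

theorem inner_bound {q : ℝ → ℝ} (hq : Measurable q) (hq0 : ∀ r, 0 ≤ q r)
    (hint : Integrable (fun y : Pt => q ‖y‖)) {L : ℝ} (hL : 0 < L) {N : ℕ} (x : Fin N → Pt)
    {β : ℝ} (hβ : 0 < β) :
    L ^ 3 * Real.exp (-(β * N * (∫ y : Pt, q ‖y‖) / L ^ 3)) ≤
      ∫ y in cube L, Real.exp (-(β * ∑ j, q (dist (x j) y))) := by
  have hΛ := reg_cube L
  have hvol : (volume (cube L)).toReal = L ^ 3 := vol_cube hL.le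
  have hL3 : 0 < L ^ 3 := by positivity
  have hne0 : volume (cube L) ≠ 0 := by
    intro h; rw [h] at hvol; simp at hvol; exact absurd hvol.symm hL3.ne'
  have h1 : ∀ j, (fun y : Pt => q (dist (x j) y)) = fun y => q ‖y - x j‖ := by
    intro j; funext y; rw [dist_comm, dist_eq_norm]
  have hqi : ∀ j, Integrable (fun y : Pt => q (dist (x j) y)) := by
    intro j; rw [h1]; exact hint.comp_sub_right (x j)
  have hQint : Integrable (fun y : Pt => ∑ j, q (dist (x j) y)) :=
    integrable_finsetSum _ (fun j _ => hqi j)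
  have hQval : ∫ y : Pt, ∑ j, q (dist (x j) y) = N * ∫ y : Pt, q ‖y‖ := by
    rw [integral_finsetSum _ (fun j _ => hqi j)]
    have : ∀ j ∈ (Finset.univ : Finset (Fin N)), ∫ y : Pt, q (dist (x j) y) = ∫ y : Pt, q ‖y‖ := by
      intro j _; rw [h1]; exact integral_sub_right_eq_self (fun y : Pt => q ‖y‖) (x j)
    rw [Finset.sum_congr rfl this]; simp
  have hQnn : ∀ y : Pt, 0 ≤ ∑ j, q (dist (x j) y) := fun y => Finset.sum_nonneg (fun j _ => hq0 _)
  have hQle : ∫ y in cube L, ∑ j, q (dist (x j) y) ≤ N * ∫ y : Pt, q ‖y‖ := by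
    rw [← hQval]
    exact setIntegral_le_integral hQint (Filter.Eventually.of_forall hQnn)
  have hQmeas : Measurable (fun y : Pt => ∑ j, q (dist (x j) y)) :=
    Finset.measurable_sum _ (fun j _ => hq.comp (measurable_const.dist measurable_id))
  have hfi : IntegrableOn (fun y : Pt => -(β * ∑ j, q (dist (x j) y))) (cube L) :=
    ((hQint.const_mul β).neg).integrableOn
  have hgi : IntegrableOn (Real.exp ∘ fun y : Pt => -(β * ∑ j, q (dist (x j) y))) (cube L) := by
    refine Measure.integrableOn_of_bounded (M := 1) hΛ.fin ?_ ?_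
    · exact (Real.measurable_exp.comp ((hQmeas.const_mul β).neg)).aestronglyMeasurable
    · refine Filter.Eventually.of_forall fun y => ?_
      simp only [Function.comp, Real.norm_eq_abs, Real.abs_exp]
      rw [Real.exp_le_one_iff]
      have := hQnn y
      nlinarith
  have hJ := (convexOn_exp).map_set_average_le (μ := (volume : Measure Pt)) (t := cube L)
    Real.continuous_exp.continuousOn isClosed_univ hne0 hΛ.fin
    (Filter.Eventually.of_forall fun _ => Set.mem_univ _) hfi hgi
  rw [setAverage_eq, setAverage_eq, measureReal_def, hvol] at hJ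
  simp only [smul_eq_mul] at hJ
  have h2 : -(β * N * (∫ y : Pt, q ‖y‖) / L ^ 3) ≤
      (L ^ 3)⁻¹ * ∫ y in cube L, -(β * ∑ j, q (dist (x j) y)) := by
    rw [integral_neg, integral_const_mul]
    rw [div_eq_inv_mul, mul_neg, neg_le_neg_iff]
    apply mul_le_mul_of_nonneg_left _ (by positivity)
    calc β * ∫ y in cube L, ∑ j, q (dist (x j) y) ≤ β * (N * ∫ y : Pt, q ‖y‖) :=
          mul_le_mul_of_nonneg_left hQle hβ.le
      _ = β * N * ∫ y : Pt, q ‖y‖ := by ring
  have h3 := (Real.exp_le_exp.mpr h2).trans hJ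
  calc L ^ 3 * Real.exp (-(β * N * (∫ y : Pt, q ‖y‖) / L ^ 3))
      ≤ L ^ 3 * ((L ^ 3)⁻¹ * ∫ y in cube L, Real.exp (-(β * ∑ j, q (dist (x j) y)))) :=
        mul_le_mul_of_nonneg_left h3 hL3.le
    _ = _ := by field_simp

theorem integrableOn_boltzmann {φ : ℝ → ℝ} (hφ : Measurable φ) {c : ℝ} (hc : ∀ r, -c ≤ φ r)
    (L : ℝ) (N : ℕ) {β : ℝ} (hβ : 0 < β) :
    IntegrableOn (fun x : Fin N → Pt => Real.exp (-β * energy φ x))
      (Set.pi Set.univ (fun _ : Fin N => cube L)) := by
  have h := integrableOn_exp_energyW (adm_radW hφ hc hβ.le) (reg_cube L) N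
  simpa only [energyW_radW, neg_mul] using h

/-- I8 -/
theorem add_particle {φ q : ℝ → ℝ} (hφ : Measurable φ) {c : ℝ} (hc : ∀ r, -c ≤ φ r)
    (hq : Measurable q) (hq0 : ∀ r, 0 ≤ q r) (hφq : ∀ r, φ r ≤ q r)
    (hint : Integrable (fun y : Pt => q ‖y‖)) {L : ℝ} (hL : 0 < L) (N : ℕ) {β : ℝ} (hβ : 0 < β) :
    partitionFn φ L N β * (L ^ 3 / (2 * ((N : ℝ) + 1))) *
        Real.exp (-(2 * β * N * (∫ y : Pt, q ‖y‖) / L ^ 3)) ≤
      partitionFn φ L (N + 1) β := by
  have hI0 : 0 ≤ ∫ y : Pt, q ‖y‖ := integral_nonneg (fun y => hq0 _)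
  have hib := fun x' : Fin N → Pt => inner_bound hq hq0 hint hL x' hβ
  set I := ∫ y : Pt, q ‖y‖ with hIdef
  have hL3 : 0 < L ^ 3 := by positivity
  set P : Set (Fin N → Pt) := Set.pi Set.univ (fun _ : Fin N => cube L) with hP
  let e := MeasurableEquiv.piFinSuccAbove (fun _ : Fin (N+1) => Pt) (Fin.last N)
  have hmp : MeasurePreserving e volume volume :=
    volume_preserving_piFinSuccAbove (fun _ => Pt) (Fin.last N)
  let g : Pt × (Fin N → Pt) → ℝ := fun z =>
    Real.exp (-β * energy φ z.2) * Real.exp (-(β * ∑ j, φ (dist (z.2 j) z.1)))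
  have he : ∀ x : Fin (N+1) → Pt, e x = (x (Fin.last N), fun j => x (Fin.castSucc j)) := by
    intro x
    ext1
    · rfl
    · funext j
      simp [e, MeasurableEquiv.piFinSuccAbove, Fin.init]
  have hFg : ∀ x : Fin (N+1) → Pt, Real.exp (-β * energy φ x) = g (e x) := by
    intro x
    rw [he, energy_succ]
    simp only [g]
    rw [← Real.exp_add]
    congr 1
    ring
  have hset : Set.pi Set.univ (fun _ : Fin (N+1) => cube L) = e ⁻¹' (cube L ×ˢ P) := by
    ext x
    simp only [Set.mem_pi, Set.mem_univ, true_implies, Set.mem_preimage, he, Set.mem_prod, hP]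
    constructor
    · intro h; exact ⟨h _, fun j => h _⟩
    · rintro ⟨h1, h2⟩ i
      refine Fin.lastCases h1 h2 i
  have hint1 := integrableOn_boltzmann hφ hc L (N+1) hβ
  have hint2 : IntegrableOn g (cube L ×ˢ P) volume := by
    rw [← hmp.integrableOn_comp_preimage e.measurableEmbedding, ← hset]
    refine hint1.congr_fun (fun x _ => hFg x) ?_
    exact measurableSet_pi (reg_cube L).meas (N+1)
  have heq1 : ∫ x in Set.pi Set.univ (fun _ : Fin (N+1) => cube L), Real.exp (-β * energy φ x)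
      = ∫ z in cube L ×ˢ P, g z := by
    rw [← hmp.setIntegral_preimage_emb e.measurableEmbedding g, ← hset]
    exact integral_congr_ae (Filter.Eventually.of_forall fun x => hFg x)
  have hint3 : Integrable g ((volume.restrict (cube L)).prod (volume.restrict P)) := by
    rw [Measure.prod_restrict]; exact hint2
  have heq2 : ∫ z in cube L ×ˢ P, g z = ∫ x' in P, ∫ y in cube L, g (y, x') := by
    rw [Measure.volume_eq_prod, ← Measure.prod_restrict]
    exact integral_prod_symm g hint3
  set K : ℝ := L ^ 3 * Real.exp (-(β * N * I / L ^ 3)) with hK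
  have hinner : ∀ x' : Fin N → Pt,
      Real.exp (-β * energy φ x') * K ≤ ∫ y in cube L, g (y, x') := by
    intro x'
    simp only [g]
    rw [integral_const_mul]
    refine mul_le_mul_of_nonneg_left ?_ (Real.exp_pos _).le
    refine (hib x').trans ?_
    refine integral_mono (integrableOn_exp_field hq (c := 0) (by simpa using hq0) L x' hβ)
      (integrableOn_exp_field hφ hc L x' hβ) (fun y => ?_)
    simp only
    rw [Real.exp_le_exp, neg_le_neg_iff]
    exact mul_le_mul_of_nonneg_left (Finset.sum_le_sum fun j _ => hφq _) hβ.le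
  have hmain : (∫ x' in P, Real.exp (-β * energy φ x')) * K ≤
      ∫ x in Set.pi Set.univ (fun _ : Fin (N+1) => cube L), Real.exp (-β * energy φ x) := by
    rw [heq1, heq2, ← integral_mul_const]
    exact integral_mono ((integrableOn_boltzmann hφ hc L N hβ).mul_const K)
      hint3.integral_prod_right hinner
  have hJ0 : 0 ≤ ∫ x' in P, Real.exp (-β * energy φ x') :=
    integral_nonneg (fun _ => (Real.exp_pos _).le)
  unfold partitionFn
  rw [← hP]
  set J := ∫ x' in P, Real.exp (-β * energy φ x') with hJ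
  have hfac : ((N + 1).factorial : ℝ) = ((N : ℝ) + 1) * (N.factorial : ℝ) := by
    rw [Nat.factorial_succ]; push_cast; ring
  have hNf : 0 < (N.factorial : ℝ) := by exact_mod_cast Nat.factorial_pos N
  have hN1 : 0 < (N : ℝ) + 1 := by positivity
  have ht : 0 ≤ β * N * I / L ^ 3 := by positivity
  have hexp : Real.exp (-(2 * β * N * I / L ^ 3)) ≤ Real.exp (-(β * N * I / L ^ 3)) := by
    rw [Real.exp_le_exp]
    have : 2 * β * N * I / L ^ 3 = 2 * (β * N * I / L ^ 3) := by ring
    rw [this]; linarith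
  calc 1 / (N.factorial : ℝ) * J * (L ^ 3 / (2 * ((N : ℝ) + 1))) *
        Real.exp (-(2 * β * N * I / L ^ 3))
      = (1 / ((N + 1).factorial : ℝ)) * (J * (L ^ 3 * Real.exp (-(2 * β * N * I / L ^ 3)))) / 2 := by
        rw [hfac]; field_simp
    _ ≤ (1 / ((N + 1).factorial : ℝ)) * (J * K) := by
        have h1 : J * (L ^ 3 * Real.exp (-(2 * β * N * I / L ^ 3))) ≤ J * K :=
          mul_le_mul_of_nonneg_left (mul_le_mul_of_nonneg_left hexp hL3.le) hJ0
        have h2 : 0 ≤ J * K := by positivity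
        have h3 : 0 ≤ 1 / ((N + 1).factorial : ℝ) := by positivity
        have h4 : (1 / ((N + 1).factorial : ℝ)) * (J * (L ^ 3 * Real.exp (-(2 * β * N * I / L ^ 3))))
            ≤ (1 / ((N + 1).factorial : ℝ)) * (J * K) := mul_le_mul_of_nonneg_left h1 h3
        have h5 : 0 ≤ (1 / ((N + 1).factorial : ℝ)) * (J * K) := by positivity
        linarith
    _ ≤ _ := mul_le_mul_of_nonneg_left hmain (by positivity)

end Crest.Agent.PT
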