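import Crest.Agent.PT_Defs

/-! Row 149, task IA: basic facts on `ZW` (blueprint I1, I2, I3, I11). -/

set_option autoImplicit false

namespace Crest.Agent.PT

open MeasureTheory Crest.ProbabilityR.Continuum

theorem energyW_radW (β : ℝ) (φ : ℝ → ℝ) {N : ℕ} (x : Fin N → Pt) :
    energyW (radW β φ) x = β * energy φ x := by
  unfold energyW radW energy
  rw [Finset.mul_sum]

theorem partitionFn_eq_ZW (φ : ℝ → ℝ) (L : ℝ) (N : ℕ) (β : ℝ) :
    partitionFn φ L N β = ZW (radW β φ) (cube L) N := by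
  unfold partitionFn ZW
  have : (fun x : Fin N → Pt => Real.exp (-β * energy φ x))
      = fun x : Fin N → Pt => Real.exp (-(energyW (radW β φ) x)) := by
    funext x
    rw [energyW_radW, neg_mul]
  rw [this]

theorem adm_radW {φ : ℝ → ℝ} (hφ : Measurable φ) {c : ℝ} (hc : ∀ r, -c ≤ φ r) {β : ℝ}
    (hβ : 0 ≤ β) : Adm (radW β φ) := by
  refine ⟨fun x y => ?_, ?_, ⟨β * c, fun x y => ?_⟩⟩
  · unfold radW; rw [dist_comm]
  · unfold radW
    exact (hφ.comp (measurable_fst.dist measurable_snd)).const_mul β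
  · unfold radW
    have := mul_le_mul_of_nonneg_left (hc (dist x y)) hβ
    linarith

theorem measurable_energyW {w : Pt → Pt → ℝ} (hw : Adm w) (N : ℕ) :
    Measurable (fun x : Fin N → Pt => energyW w x) := by
  unfold energyW
  refine Finset.measurable_sum _ (fun p _ => ?_)
  have h : Measurable (fun x : Fin N → Pt => (x p.1.1, x p.1.2)) :=
    (measurable_pi_apply p.1.1).prodMk (measurable_pi_apply p.1.2)
  exact hw.meas.comp h

/-- number of pairs -/
theorem card_pairs (N : ℕ) :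
    (Fintype.card {p : Fin N × Fin N // p.1 < p.2} : ℝ) = (N : ℝ) * ((N : ℝ) - 1) / 2 := by
  have h1 : Fintype.card {p : Fin N × Fin N // p.1 < p.2} = ∑ i ∈ Finset.range N, i := by
    rw [Fintype.card_subtype, Finset.card_filter, Fintype.sum_prod_type_right]
    rw [← Fin.sum_univ_eq_sum_range (fun i => i) N]
    refine Finset.sum_congr rfl (fun j _ => ?_)
    rw [← Finset.card_filter]
    have : (Finset.univ.filter (fun i : Fin N => i < j)) = Finset.Iio j := by
      ext i; simp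
    rw [this, Fin.card_Iio]
  have h2 := Finset.sum_range_id_mul_two N
  rw [← h1] at h2
  have h3 : ((Fintype.card {p : Fin N × Fin N // p.1 < p.2} : ℕ) : ℝ) * 2 = (N : ℝ) * ((N : ℝ) - 1) := by
    have := congrArg (fun k : ℕ => (k : ℝ)) h2
    simp only [Nat.cast_mul, Nat.cast_ofNat] at this
    rw [this]
    rcases N with _ | n
    · simp
    · simp
  linarith

theorem measurableSet_pi {Λ : Set Pt} (hΛ : MeasurableSet Λ) (N : ℕ) :
    MeasurableSet (Set.pi Set.univ (fun _ : Fin N => Λ)) :=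
  MeasurableSet.univ_pi (fun _ => hΛ)

theorem volume_pi_eq (Λ : Set Pt) (N : ℕ) :
    volume (Set.pi Set.univ (fun _ : Fin N => Λ)) = volume Λ ^ N := by
  rw [volume_pi_pi]
  simp

theorem vol_pi (Λ : Set Pt) (N : ℕ) :
    (volume (Set.pi Set.univ (fun _ : Fin N => Λ))).toReal = vol Λ ^ N := by
  rw [volume_pi_eq, ENNReal.toReal_pow]
  rfl

theorem volume_pi_ne_top {Λ : Set Pt} (hΛ : Reg Λ) (N : ℕ) :
    volume (Set.pi Set.univ (fun _ : Fin N => Λ)) ≠ ⊤ := by
  rw [volume_pi_eq]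
  exact ENNReal.pow_ne_top hΛ.fin

theorem energyW_lower {w : Pt → Pt → ℝ} {c : ℝ} (hc : ∀ x y, -c ≤ w x y) {N : ℕ}
    (x : Fin N → Pt) :
    -(c * (Fintype.card {p : Fin N × Fin N // p.1 < p.2} : ℝ)) ≤ energyW w x := by
  unfold energyW
  have : ∑ _p : {p : Fin N × Fin N // p.1 < p.2}, (-c) ≤
      ∑ p : {p : Fin N × Fin N // p.1 < p.2}, w (x p.1.1) (x p.1.2) :=
    Finset.sum_le_sum (fun p _ => hc _ _)
  simp only [Finset.sum_const, Finset.card_univ, nsmul_eq_mul] at this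
  linarith

theorem integrableOn_exp_energyW {w : Pt → Pt → ℝ} (hw : Adm w) {Λ : Set Pt} (hΛ : Reg Λ) (N : ℕ) :
    IntegrableOn (fun x : Fin N → Pt => Real.exp (-(energyW w x)))
      (Set.pi Set.univ (fun _ : Fin N => Λ)) := by
  obtain ⟨c, hc⟩ := hw.lower
  refine Measure.integrableOn_of_bounded (M := Real.exp (c * (Fintype.card {p : Fin N × Fin N // p.1 < p.2} : ℝ)))
    (volume_pi_ne_top hΛ N) ?_ ?_
  · exact ((measurable_energyW hw N).neg.exp).aestronglyMeasurable
  · refine Filter.Eventually.of_forall (fun x => ?_)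
    rw [Real.norm_eq_abs, abs_of_pos (Real.exp_pos _)]
    apply Real.exp_le_exp.mpr
    have := energyW_lower hc x
    linarith

theorem ZW_zero (w : Pt → Pt → ℝ) (Λ : Set Pt) : ZW w Λ 0 = 1 := by
  unfold ZW
  have : (fun x : Fin 0 → Pt => Real.exp (-(energyW w x))) = fun _ => 1 := by
    funext x
    have : energyW w x = 0 := by
      unfold energyW
      apply Finset.sum_eq_zero
      rintro ⟨⟨i, _⟩, _⟩
      exact i.elim0
    rw [this]; simp
  rw [this, setIntegral_const]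
  simp only [Measure.real, vol_pi]
  simp

theorem ZW_one (w : Pt → Pt → ℝ) (Λ : Set Pt) : ZW w Λ 1 = vol Λ := by
  unfold ZW
  have : (fun x : Fin 1 → Pt => Real.exp (-(energyW w x))) = fun _ => 1 := by
    funext x
    have : energyW w x = 0 := by
      unfold energyW
      apply Finset.sum_eq_zero
      rintro ⟨⟨i, j⟩, hij⟩
      exfalso
      have : i = j := Subsingleton.elim _ _
      simp [this] at hij
    rw [this]; simp
  rw [this, setIntegral_const]
  simp only [Measure.real, vol_pi]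
  simp

theorem ZW_nonneg (w : Pt → Pt → ℝ) (Λ : Set Pt) (N : ℕ) : 0 ≤ ZW w Λ N := by
  unfold ZW
  exact mul_nonneg (by positivity) (integral_nonneg (fun x => (Real.exp_pos _).le))

theorem ZW_pos {w : Pt → Pt → ℝ} (hw : Adm w) {Λ : Set Pt} (hΛ : Reg Λ) (h0 : 0 < vol Λ) (N : ℕ) :
    0 < ZW w Λ N := by
  unfold ZW
  refine mul_pos (by positivity) ?_
  rw [integral_pos_iff_support_of_nonneg (fun x => (Real.exp_pos _).le)
    (integrableOn_exp_energyW hw hΛ N)]
  have : Function.support (fun x : Fin N → Pt => Real.exp (-(energyW w x))) = Set.univ := by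
    ext x; simp [(Real.exp_pos _).ne']
  rw [this, Measure.restrict_apply_univ, volume_pi_eq]
  have h1 : volume Λ ≠ 0 := by
    intro h
    unfold vol at h0
    rw [h] at h0
    simp at h0
  exact pos_iff_ne_zero.mpr (pow_ne_zero _ h1)

/-- I2 -/
theorem ZW_mono_set {w : Pt → Pt → ℝ} (hw : Adm w) {Λ Λ' : Set Pt} (hΛ : MeasurableSet Λ)
    (hΛ' : Reg Λ') (h : Λ ⊆ Λ') (N : ℕ) : ZW w Λ N ≤ ZW w Λ' N := by
  unfold ZW
  refine mul_le_mul_of_nonneg_left ?_ (by positivity)
  refine setIntegral_mono_set (integrableOn_exp_energyW hw hΛ' N)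
    (Filter.Eventually.of_forall (fun x => (Real.exp_pos _).le)) ?_
  exact (Set.pi_mono (fun _ _ => h)).eventuallyLE

theorem mem_pi_iff {Λ : Set Pt} {N : ℕ} (x : Fin N → Pt) :
    x ∈ Set.pi Set.univ (fun _ : Fin N => Λ) ↔ ∀ i, x i ∈ Λ := by
  simp [Set.mem_pi]

/-- I3 -/
theorem ZW_le_of_energy {w w' : Pt → Pt → ℝ} (hw : Adm w) (hw' : Adm w') {Λ : Set Pt} (hΛ : Reg Λ)
    (N : ℕ) (c : ℝ) (h : ∀ x : Fin N → Pt, (∀ i, x i ∈ Λ) → energyW w' x - c ≤ energyW w x) :
    ZW w Λ N ≤ Real.exp c * ZW w' Λ N := by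
  unfold ZW
  rw [mul_left_comm]
  refine mul_le_mul_of_nonneg_left ?_ (by positivity)
  rw [← integral_const_mul]
  refine setIntegral_mono_on (integrableOn_exp_energyW hw hΛ N)
    ((integrableOn_exp_energyW hw' hΛ N).const_mul _) (measurableSet_pi hΛ.meas N) (fun x hx => ?_)
  rw [← Real.exp_add]
  apply Real.exp_le_exp.mpr
  have := h x ((mem_pi_iff x).mp hx)
  linarith

/-- I11 -/
theorem ZW_le_of_lower {w : Pt → Pt → ℝ} (hw : Adm w) {Λ : Set Pt} (hΛ : Reg Λ)
    (N : ℕ) (c : ℝ) (h : ∀ x : Fin N → Pt, (∀ i, x i ∈ Λ) → -c ≤ energyW w x) :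
    ZW w Λ N ≤ Real.exp c * vol Λ ^ N / (Nat.factorial N : ℝ) := by
  unfold ZW
  have h1 : ∫ x in Set.pi Set.univ (fun _ : Fin N => Λ), Real.exp (-(energyW w x))
      ≤ ∫ _x in Set.pi Set.univ (fun _ : Fin N => Λ), Real.exp c := by
    refine setIntegral_mono_on (integrableOn_exp_energyW hw hΛ N)
      (integrableOn_const (volume_pi_ne_top hΛ N)) (measurableSet_pi hΛ.meas N) (fun x hx => ?_)
    apply Real.exp_le_exp.mpr
    have := h x ((mem_pi_iff x).mp hx)
    linarith
  rw [setIntegral_const] at h1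
  simp only [Measure.real, vol_pi, smul_eq_mul] at h1
  rw [one_div, inv_mul_eq_div]
  apply div_le_div_of_nonneg_right _ (by positivity)
  linarith

/-- lower bound by restriction to a measurable set of configurations -/
theorem ZW_ge_of_subset {w : Pt → Pt → ℝ} (hw : Adm w) {Λ : Set Pt} (hΛ : Reg Λ)
    (N : ℕ) (𝒜 : Set (Fin N → Pt)) (h𝒜 : MeasurableSet 𝒜) (hsub : ∀ x ∈ 𝒜, ∀ i, x i ∈ Λ)
    (E : ℝ) (hE : ∀ x ∈ 𝒜, energyW w x ≤ E) :
    Real.exp (-E) * (volume 𝒜).toReal / (Nat.factorial N : ℝ) ≤ ZW w Λ N := by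
  unfold ZW
  have hss : 𝒜 ⊆ Set.pi Set.univ (fun _ : Fin N => Λ) := fun x hx => (mem_pi_iff x).mpr (hsub x hx)
  have hfin : volume 𝒜 ≠ ⊤ := ne_top_of_le_ne_top (volume_pi_ne_top hΛ N) (measure_mono hss)
  have h1 : ∫ x in 𝒜, Real.exp (-(energyW w x))
      ≤ ∫ x in Set.pi Set.univ (fun _ : Fin N => Λ), Real.exp (-(energyW w x)) :=
    setIntegral_mono_set (integrableOn_exp_energyW hw hΛ N)
      (Filter.Eventually.of_forall (fun x => (Real.exp_pos _).le)) hss.eventuallyLE
  have h2 : ∫ _x in 𝒜, Real.exp (-E) ≤ ∫ x in 𝒜, Real.exp (-(energyW w x)) := by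
    refine setIntegral_mono_on (integrableOn_const hfin)
      ((integrableOn_exp_energyW hw hΛ N).mono_set hss) h𝒜 (fun x hx => ?_)
    apply Real.exp_le_exp.mpr
    have := hE x hx
    linarith
  rw [setIntegral_const] at h2
  simp only [Measure.real, smul_eq_mul] at h2
  rw [one_div, inv_mul_eq_div]
  apply div_le_div_of_nonneg_right _ (by positivity)
  linarith

/-- upper bound by a finite cover of the configuration space
(`hfin` added: false without it, `toReal ⊤ = 0`). -/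
theorem ZW_le_of_cover {w : Pt → Pt → ℝ} (hw : Adm w) {Λ : Set Pt} (hΛ : Reg Λ)
    (N : ℕ) {ι : Type*} (s : Finset ι) (𝒜 : ι → Set (Fin N → Pt)) (h𝒜 : ∀ i ∈ s, MeasurableSet (𝒜 i))
    (hfin : ∀ i ∈ s, volume (𝒜 i) ≠ ⊤)
    (hcov : ∀ x : Fin N → Pt, (∀ i, x i ∈ Λ) → ∃ i ∈ s, x ∈ 𝒜 i)
    (E : ι → ℝ) (hE : ∀ i ∈ s, ∀ x ∈ 𝒜 i, (∀ j, x j ∈ Λ) → E i ≤ energyW w x) :
    ZW w Λ N ≤ (∑ i ∈ s, Real.exp (-(E i)) * (volume (𝒜 i)).toReal) / (Nat.factorial N : ℝ) := by
  unfold ZW
  set S := Set.pi Set.univ (fun _ : Fin N => Λ) with hS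
  have hSm : MeasurableSet S := measurableSet_pi hΛ.meas N
  have hint := integrableOn_exp_energyW hw hΛ N
  -- pointwise bound by a sum of indicators
  have hpt : ∀ x ∈ S, Real.exp (-(energyW w x)) ≤
      ∑ i ∈ s, (𝒜 i).indicator (fun _ => Real.exp (-(E i))) x := by
    intro x hx
    have hx' := (mem_pi_iff x).mp hx
    obtain ⟨i, his, hxi⟩ := hcov x hx'
    have h1 : Real.exp (-(energyW w x)) ≤ (𝒜 i).indicator (fun _ => Real.exp (-(E i))) x := by
      rw [Set.indicator_of_mem hxi]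
      apply Real.exp_le_exp.mpr
      have := hE i his x hxi hx'
      linarith
    refine h1.trans (Finset.single_le_sum
      (f := fun i => (𝒜 i).indicator (fun _ => Real.exp (-(E i))) x) (fun j _ => ?_) his)
    exact Set.indicator_nonneg (fun _ _ => (Real.exp_pos _).le) x
  have hind : ∀ i ∈ s, Integrable ((𝒜 i).indicator (fun _ : Fin N → Pt => Real.exp (-(E i)))) volume :=
    fun i hi => (integrable_indicator_iff (h𝒜 i hi)).mpr (integrableOn_const (hfin i hi))
  have h1 : ∫ x in S, Real.exp (-(energyW w x)) ≤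
      ∫ x in S, ∑ i ∈ s, (𝒜 i).indicator (fun _ => Real.exp (-(E i))) x := by
    refine setIntegral_mono_on hint ?_ hSm hpt
    exact (integrable_finsetSum s hind).integrableOn
  have h2 : ∫ x in S, ∑ i ∈ s, (𝒜 i).indicator (fun _ => Real.exp (-(E i))) x ≤
      ∫ x, ∑ i ∈ s, (𝒜 i).indicator (fun _ => Real.exp (-(E i))) x := by
    refine setIntegral_le_integral (integrable_finsetSum s hind) ?_
    refine Filter.Eventually.of_forall (fun x => Finset.sum_nonneg (fun j _ => ?_))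
    exact Set.indicator_nonneg (fun _ _ => (Real.exp_pos _).le) x
  have h3 : ∫ x, ∑ i ∈ s, (𝒜 i).indicator (fun _ => Real.exp (-(E i))) x =
      ∑ i ∈ s, Real.exp (-(E i)) * (volume (𝒜 i)).toReal := by
    rw [integral_finsetSum s hind]
    refine Finset.sum_congr rfl (fun i hi => ?_)
    rw [integral_indicator (h𝒜 i hi), setIntegral_const]
    simp only [Measure.real, smul_eq_mul]
    ring
  rw [one_div, inv_mul_eq_div]
  apply div_le_div_of_nonneg_right _ (by positivity)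
  linarith

end Crest.Agent.PT
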