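import Crest.Agent.PT_Defs

/-! Row 149, task D1: Caro–Wei and the Turán-type edge bound (blueprint D1, A5a). -/

set_option autoImplicit false

namespace Crest.Agent.PT

/-- Caro–Wei relative to a finite vertex set `W` (greedy removal of a vertex of minimal degree). -/
theorem caro_wei_aux {V : Type*} [DecidableEq V] (G : SimpleGraph V) [DecidableRel G.Adj] :
    ∀ (k : ℕ) (W : Finset V), W.card = k →
      ∃ s : Finset V, s ⊆ W ∧ G.IsIndepSet (s : Set V) ∧
        ∑ v ∈ W, (1 : ℝ) / (1 + ((W.filter (G.Adj v)).card : ℝ)) ≤ s.card := by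
  intro k
  induction k using Nat.strong_induction_on with
  | _ k ih =>
    intro W hW
    rcases W.eq_empty_or_nonempty with rfl | hne
    · exact ⟨∅, by simp, by simp, by simp⟩
    · obtain ⟨v₀, hv₀, hmin⟩ := Finset.exists_min_image W
        (fun v => (W.filter (G.Adj v)).card) hne
      set Nb : Finset V := insert v₀ (W.filter (G.Adj v₀)) with hNb
      have hNbW : Nb ⊆ W := by
        intro x hx
        rw [hNb, Finset.mem_insert] at hx
        rcases hx with rfl | hx
        · exact hv₀
        · exact (Finset.mem_filter.mp hx).1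
      have hv₀Nb : v₀ ∈ Nb := Finset.mem_insert_self _ _
      set W' : Finset V := W \ Nb with hW'
      have hW'W : W' ⊆ W := Finset.sdiff_subset
      have hcard : W'.card < k := by
        rw [← hW]
        apply Finset.card_lt_card
        refine ⟨hW'W, fun h => ?_⟩
        have := h hv₀
        rw [hW', Finset.mem_sdiff] at this
        exact this.2 hv₀Nb
      obtain ⟨s', hs'W, hs'ind, hs'sum⟩ := ih W'.card hcard W' rfl
      have hv₀s' : v₀ ∉ s' := by
        intro h
        have := hs'W h
        rw [hW', Finset.mem_sdiff] at this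
        exact this.2 hv₀Nb
      refine ⟨insert v₀ s', ?_, ?_, ?_⟩
      · intro x hx
        rw [Finset.mem_insert] at hx
        rcases hx with rfl | hx
        · exact hv₀
        · exact hW'W (hs'W hx)
      · have hnadj : ∀ y ∈ s', ¬ G.Adj v₀ y := by
          intro y hy hadj
          have h1 := hs'W hy
          rw [hW', Finset.mem_sdiff] at h1
          apply h1.2
          rw [hNb, Finset.mem_insert]
          right
          exact Finset.mem_filter.mpr ⟨h1.1, hadj⟩
        rw [SimpleGraph.isIndepSet_iff] at hs'ind ⊢
        intro x hx y hy hxy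
        rw [Finset.mem_coe, Finset.mem_insert] at hx hy
        rcases hx with rfl | hx
        · rcases hy with rfl | hy
          · exact absurd rfl hxy
          · exact hnadj y hy
        · rcases hy with rfl | hy
          · exact fun h => hnadj x hx h.symm
          · exact hs'ind (Finset.mem_coe.mpr hx) (Finset.mem_coe.mpr hy) hxy
      · rw [Finset.card_insert_of_notMem hv₀s']
        have hsplit : ∑ v ∈ W, (1 : ℝ) / (1 + ((W.filter (G.Adj v)).card : ℝ)) =
            ∑ v ∈ W', (1 : ℝ) / (1 + ((W.filter (G.Adj v)).card : ℝ)) +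
              ∑ v ∈ Nb, (1 : ℝ) / (1 + ((W.filter (G.Adj v)).card : ℝ)) := by
          rw [hW']
          exact (Finset.sum_sdiff hNbW).symm
        have h1 : ∑ v ∈ W', (1 : ℝ) / (1 + ((W.filter (G.Adj v)).card : ℝ)) ≤
            ∑ v ∈ W', (1 : ℝ) / (1 + ((W'.filter (G.Adj v)).card : ℝ)) := by
          apply Finset.sum_le_sum
          intro v _
          apply one_div_le_one_div_of_le
          · positivity
          · have : (W'.filter (G.Adj v)).card ≤ (W.filter (G.Adj v)).card :=
              Finset.card_le_card (Finset.filter_subset_filter _ hW'W)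
            have : ((W'.filter (G.Adj v)).card : ℝ) ≤ ((W.filter (G.Adj v)).card : ℝ) := by
              exact_mod_cast this
            linarith
        have hNbcard : (Nb.card : ℝ) = 1 + ((W.filter (G.Adj v₀)).card : ℝ) := by
          rw [hNb, Finset.card_insert_of_notMem]
          · push_cast; ring
          · intro h
            exact G.loopless.irrefl v₀ (Finset.mem_filter.mp h).2
        have h2 : ∑ v ∈ Nb, (1 : ℝ) / (1 + ((W.filter (G.Adj v)).card : ℝ)) ≤ 1 := by
          calc ∑ v ∈ Nb, (1 : ℝ) / (1 + ((W.filter (G.Adj v)).card : ℝ))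
              ≤ ∑ _v ∈ Nb, (1 : ℝ) / (1 + ((W.filter (G.Adj v₀)).card : ℝ)) := by
                apply Finset.sum_le_sum
                intro v hv
                apply one_div_le_one_div_of_le
                · positivity
                · have : ((W.filter (G.Adj v₀)).card : ℝ) ≤ ((W.filter (G.Adj v)).card : ℝ) := by
                    exact_mod_cast hmin v (hNbW hv)
                  linarith
            _ = 1 := by
                rw [Finset.sum_const, nsmul_eq_mul, hNbcard]
                have : (1 + ((W.filter (G.Adj v₀)).card : ℝ)) ≠ 0 := by positivity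
                field_simp
        push_cast
        linarith

/-- D1 (Caro–Wei). Proof: induction on the number of vertices, removing the closed neighbourhood of a vertex of
minimal degree; or the random-order argument. -/
theorem caro_wei {V : Type*} [Fintype V] [DecidableEq V] (G : SimpleGraph V) [DecidableRel G.Adj] :
    ∃ s : Finset V, G.IsIndepSet (s : Set V) ∧ ∑ v : V, (1 : ℝ) / (1 + G.degree v) ≤ s.card := by
  obtain ⟨s, _, hs, hsum⟩ := caro_wei_aux G _ (Finset.univ : Finset V) rfl
  refine ⟨s, hs, ?_⟩
  have : ∀ v : V, ((Finset.univ.filter (G.Adj v)).card : ℝ) = (G.degree v : ℝ) := by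
    intro v
    rw [← SimpleGraph.card_neighborFinset_eq_degree, SimpleGraph.neighborFinset_eq_filter]
  simpa only [this] using hsum

/-- A5a: if every independent set has at most `P` elements then `|E| ≥ n²/(2P) - n/2`. -/
theorem turan_edges {V : Type*} [Fintype V] [DecidableEq V] (G : SimpleGraph V) [DecidableRel G.Adj]
    (P : ℕ) (hP : 0 < P) (h : ∀ s : Finset V, G.IsIndepSet (s : Set V) → s.card ≤ P) :
    (Fintype.card V : ℝ) ^ 2 / (2 * P) - (Fintype.card V : ℝ) / 2 ≤ G.edgeFinset.card := by
  obtain ⟨s, hs, hsum⟩ := caro_wei G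
  have hsP : (s.card : ℝ) ≤ P := by exact_mod_cast h s hs
  have hPpos : (0 : ℝ) < P := by exact_mod_cast hP
  have hsed := Finset.sq_sum_div_le_sum_sq_div (Finset.univ : Finset V) (fun _ => (1 : ℝ))
    (g := fun v => (1 : ℝ) + G.degree v) (fun v _ => by positivity)
  have hdeg : ∑ v : V, ((1 : ℝ) + G.degree v) = Fintype.card V + 2 * G.edgeFinset.card := by
    rw [Finset.sum_add_distrib]
    have := G.sum_degrees_eq_twice_card_edges
    have h2 : (∑ v : V, (G.degree v : ℝ)) = 2 * (G.edgeFinset.card : ℝ) := by exact_mod_cast this
    rw [h2]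
    simp
  have hone : (∑ _v : V, (1 : ℝ)) = Fintype.card V := by simp
  rw [hdeg, hone] at hsed
  simp only [one_pow] at hsed
  set n : ℝ := (Fintype.card V : ℝ) with hn
  set e : ℝ := (G.edgeFinset.card : ℝ) with he
  have hn0 : 0 ≤ n := by positivity
  have he0 : 0 ≤ e := by positivity
  have hle : n ^ 2 / (n + 2 * e) ≤ P := le_trans hsed (le_trans hsum hsP)
  rcases eq_or_lt_of_le hn0 with h0 | hpos
  · rw [← h0]
    simp
    exact he0
  · have hden : 0 < n + 2 * e := by linarith
    rw [div_le_iff₀ hden] at hle
    rw [sub_le_iff_le_add, div_le_iff₀ (by positivity)]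
    nlinarith
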