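import Crest.Agent.PT_Basic
import Crest.Agent.PT_Cube

/-! Row 149, task IE: Hölder (blueprint I7, A7).  Mathlib: `ENNReal.lintegral_prod_norm_pow_le`. -/

set_option autoImplicit false

namespace Crest.Agent.PT

open MeasureTheory Crest.ProbabilityR.Continuum

/-- I7 -/
theorem ZW_holder {w : Pt → Pt → ℝ} (hw : Adm w) {Λ : Set Pt} (hΛ : Reg Λ) (N : ℕ)
    {ι : Type*} (s : Finset ι) (q : ι → ℝ) (hq0 : ∀ t ∈ s, 0 ≤ q t) (hq1 : ∑ t ∈ s, q t = 1)
    (wt : ι → Pt → Pt → ℝ) (hwt : ∀ t ∈ s, Adm (wt t)) (c : ℝ)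
    (h : ∀ x : Fin N → Pt, (∀ i, x i ∈ Λ) → ∑ t ∈ s, q t * energyW (wt t) x - c ≤ energyW w x) :
    ZW w Λ N ≤ Real.exp c * ∏ t ∈ s, (ZW (wt t) Λ N) ^ (q t) := by
  classical
  set S : Set (Fin N → Pt) := Set.pi Set.univ (fun _ : Fin N => Λ) with hS
  have hSm : MeasurableSet S := measurableSet_pi hΛ.meas N
  set I : ℝ := ∫ x in S, Real.exp (-(energyW w x)) with hI
  set J : ι → ℝ := fun t => ∫ x in S, Real.exp (-(energyW (wt t) x)) with hJ
  have hJ0 : ∀ t, 0 ≤ J t := fun t => integral_nonneg (fun x => (Real.exp_pos _).le)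
  have hI0 : 0 ≤ I := integral_nonneg (fun x => (Real.exp_pos _).le)
  -- the core inequality
  have hcore : I ≤ Real.exp c * ∏ t ∈ s, (J t) ^ (q t) := by
    have hR0 : 0 ≤ Real.exp c * ∏ t ∈ s, (J t) ^ (q t) :=
      mul_nonneg (Real.exp_pos _).le (Finset.prod_nonneg fun t _ => Real.rpow_nonneg (hJ0 t) _)
    rw [← ENNReal.ofReal_le_ofReal_iff hR0]
    have e1 : ENNReal.ofReal I = ∫⁻ x in S, ENNReal.ofReal (Real.exp (-(energyW w x))) :=
      ofReal_integral_eq_lintegral_ofReal (integrableOn_exp_energyW hw hΛ N)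
        (Filter.Eventually.of_forall fun x => (Real.exp_pos _).le)
    have e2 : ∀ t ∈ s, ENNReal.ofReal (J t) =
        ∫⁻ x in S, ENNReal.ofReal (Real.exp (-(energyW (wt t) x))) := fun t ht =>
      ofReal_integral_eq_lintegral_ofReal (integrableOn_exp_energyW (hwt t ht) hΛ N)
        (Filter.Eventually.of_forall fun x => (Real.exp_pos _).le)
    have hpt : ∀ x ∈ S, ENNReal.ofReal (Real.exp (-(energyW w x))) ≤
        ENNReal.ofReal (Real.exp c) *
          ∏ t ∈ s, (ENNReal.ofReal (Real.exp (-(energyW (wt t) x)))) ^ (q t) := by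
      intro x hx
      have hx' : ∀ i, x i ∈ Λ := fun i => hx i (Set.mem_univ i)
      have h1 : ∏ t ∈ s, (ENNReal.ofReal (Real.exp (-(energyW (wt t) x)))) ^ (q t) =
          ENNReal.ofReal (∏ t ∈ s, (Real.exp (-(energyW (wt t) x))) ^ (q t)) := by
        rw [ENNReal.ofReal_prod_of_nonneg
          (fun t _ => Real.rpow_nonneg (Real.exp_pos _).le _)]
        refine Finset.prod_congr rfl fun t ht => ?_
        exact ENNReal.ofReal_rpow_of_nonneg (Real.exp_pos _).le (hq0 t ht)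
      rw [h1, ← ENNReal.ofReal_mul (Real.exp_pos _).le]
      apply ENNReal.ofReal_le_ofReal
      have h2 : ∏ t ∈ s, (Real.exp (-(energyW (wt t) x))) ^ (q t) =
          Real.exp (-(∑ t ∈ s, q t * energyW (wt t) x)) := by
        rw [← Finset.sum_neg_distrib, Real.exp_sum]
        refine Finset.prod_congr rfl fun t _ => ?_
        rw [← Real.exp_mul]
        congr 1
        ring
      rw [h2, ← Real.exp_add]
      apply Real.exp_le_exp.mpr
      have := h x hx'
      linarith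
    calc ENNReal.ofReal I
        = ∫⁻ x in S, ENNReal.ofReal (Real.exp (-(energyW w x))) := e1
      _ ≤ ∫⁻ x in S, ENNReal.ofReal (Real.exp c) *
          ∏ t ∈ s, (ENNReal.ofReal (Real.exp (-(energyW (wt t) x)))) ^ (q t) :=
          setLIntegral_mono' hSm hpt
      _ = ENNReal.ofReal (Real.exp c) * ∫⁻ x in S,
          ∏ t ∈ s, (ENNReal.ofReal (Real.exp (-(energyW (wt t) x)))) ^ (q t) := by
          rw [lintegral_const_mul' _ _ ENNReal.ofReal_ne_top]
      _ ≤ ENNReal.ofReal (Real.exp c) * ∏ t ∈ s,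
          (∫⁻ x in S, ENNReal.ofReal (Real.exp (-(energyW (wt t) x)))) ^ (q t) := by
          gcongr
          apply ENNReal.lintegral_prod_norm_pow_le s _ hq1 hq0
          intro t ht
          exact ((measurable_energyW (hwt t ht) N).neg.exp.ennreal_ofReal).aemeasurable
      _ = ENNReal.ofReal (Real.exp c * ∏ t ∈ s, (J t) ^ (q t)) := by
          rw [ENNReal.ofReal_mul (Real.exp_pos _).le, ENNReal.ofReal_prod_of_nonneg
            (fun t _ => Real.rpow_nonneg (hJ0 t) _)]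
          congr 1
          refine Finset.prod_congr rfl fun t ht => ?_
          rw [← e2 t ht, ENNReal.ofReal_rpow_of_nonneg (hJ0 t) (hq0 t ht)]
  have hfac : (0 : ℝ) < 1 / (Nat.factorial N : ℝ) := by positivity
  have hprod : ∏ t ∈ s, (ZW (wt t) Λ N) ^ (q t) =
      (1 / (Nat.factorial N : ℝ)) * ∏ t ∈ s, (J t) ^ (q t) := by
    have : ∀ t ∈ s, (ZW (wt t) Λ N) ^ (q t) =
        (1 / (Nat.factorial N : ℝ)) ^ (q t) * (J t) ^ (q t) := by
      intro t _
      exact Real.mul_rpow hfac.le (hJ0 t)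
    rw [Finset.prod_congr rfl this, Finset.prod_mul_distrib, ← Real.rpow_sum_of_pos hfac, hq1,
      Real.rpow_one]
  rw [hprod]
  have : ZW w Λ N = (1 / (Nat.factorial N : ℝ)) * I := rfl
  rw [this]
  calc (1 / (Nat.factorial N : ℝ)) * I
      ≤ (1 / (Nat.factorial N : ℝ)) * (Real.exp c * ∏ t ∈ s, (J t) ^ (q t)) :=
        mul_le_mul_of_nonneg_left hcore hfac.le
    _ = _ := by ring

/-- uniform weights: bound by the maximum -/
theorem ZW_le_of_avg {w : Pt → Pt → ℝ} (hw : Adm w) {Λ : Set Pt} (hΛ : Reg Λ) (N : ℕ)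
    {ι : Type*} (s : Finset ι) (hs : s.Nonempty)
    (wt : ι → Pt → Pt → ℝ) (hwt : ∀ t ∈ s, Adm (wt t)) (c Y : ℝ)
    (h : ∀ x : Fin N → Pt, (∀ i, x i ∈ Λ) →
      (∑ t ∈ s, energyW (wt t) x) / s.card - c ≤ energyW w x)
    (hY : ∀ t ∈ s, ZW (wt t) Λ N ≤ Y) :
    ZW w Λ N ≤ Real.exp c * Y := by
  have hcard : (0 : ℝ) < s.card := by exact_mod_cast hs.card_pos
  have hY0 : 0 ≤ Y := by
    obtain ⟨t, ht⟩ := hs
    exact le_trans (ZW_nonneg _ _ _) (hY t ht)
  have hq1 : ∑ _t ∈ s, (1 / (s.card : ℝ)) = 1 := by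
    rw [Finset.sum_const, nsmul_eq_mul]
    field_simp
  have key := ZW_holder hw hΛ N s (fun _ => 1 / (s.card : ℝ)) (fun _ _ => by positivity) hq1 wt hwt c
    (by
      intro x hx
      have := h x hx
      have e : ∑ t ∈ s, 1 / (s.card : ℝ) * energyW (wt t) x =
          (∑ t ∈ s, energyW (wt t) x) / s.card := by
        rw [← Finset.mul_sum]
        ring
      rw [e]
      exact this)
  refine le_trans key ?_
  apply mul_le_mul_of_nonneg_left _ (Real.exp_pos _).le
  calc ∏ t ∈ s, (ZW (wt t) Λ N) ^ (1 / (s.card : ℝ))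
      ≤ ∏ _t ∈ s, Y ^ (1 / (s.card : ℝ)) := by
        apply Finset.prod_le_prod
        · intro t _
          exact Real.rpow_nonneg (ZW_nonneg _ _ _) _
        · intro t ht
          exact Real.rpow_le_rpow (ZW_nonneg _ _ _) (hY t ht) (by positivity)
    _ = Y := by
        rw [Finset.prod_const, ← Real.rpow_natCast, ← Real.rpow_mul hY0]
        have : 1 / (s.card : ℝ) * (s.card : ℝ) = 1 := by field_simp
        rw [this, Real.rpow_one]

/-- two-term Hölder for `partitionFn`-type quantities -/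
theorem ZW_holder_two {w w₁ w₂ : Pt → Pt → ℝ} (hw : Adm w) (hw₁ : Adm w₁) (hw₂ : Adm w₂)
    {Λ : Set Pt} (hΛ : Reg Λ) (N : ℕ) {a b : ℝ} (ha : 0 ≤ a) (hb : 0 ≤ b) (hab : a + b = 1)
    (h : ∀ x : Fin N → Pt, (∀ i, x i ∈ Λ) →
      a * energyW w₁ x + b * energyW w₂ x ≤ energyW w x) :
    ZW w Λ N ≤ (ZW w₁ Λ N) ^ a * (ZW w₂ Λ N) ^ b := by
  have key := ZW_holder hw hΛ N (Finset.univ : Finset (Fin 2)) ![a, b]
    (by intro t _; fin_cases t <;> simp [ha, hb])
    (by simp [Fin.sum_univ_two, hab]) ![w₁, w₂]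
    (by intro t _; fin_cases t <;> simp [hw₁, hw₂]) 0
    (by
      intro x hx
      have := h x hx
      simp only [Fin.sum_univ_two, Matrix.cons_val_zero, Matrix.cons_val_one, sub_zero]
      exact this)
  simpa [Fin.prod_univ_two] using key

/-- `β ↦ log Z` is convex -/
theorem convexOn_log_partitionFn {φ : ℝ → ℝ} (hφ : Measurable φ) {c : ℝ} (hc : ∀ r, -c ≤ φ r)
    {L : ℝ} (hL : 0 < L) (N : ℕ) :
    ConvexOn ℝ (Set.Ioi (0 : ℝ)) (fun β => Real.log (partitionFn φ L N β)) := by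
  refine ⟨convex_Ioi 0, ?_⟩
  intro β₁ hβ₁ β₂ hβ₂ a b ha hb hab
  have hβ₁' : (0 : ℝ) < β₁ := hβ₁
  have hβ₂' : (0 : ℝ) < β₂ := hβ₂
  have hβ : 0 ≤ a * β₁ + b * β₂ := by positivity
  have hvol : 0 < vol (cube L) := by
    rw [vol_cube hL.le]; positivity
  have hreg := reg_cube L
  have A := adm_radW hφ hc hβ
  have A₁ := adm_radW hφ hc hβ₁'.le
  have A₂ := adm_radW hφ hc hβ₂'.le
  have key := ZW_holder_two A A₁ A₂ hreg N ha hb hab
    (by
      intro x _
      rw [energyW_radW, energyW_radW, energyW_radW]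
      apply le_of_eq
      ring)
  simp only [smul_eq_mul]
  rw [partitionFn_eq_ZW, partitionFn_eq_ZW, partitionFn_eq_ZW]
  have p := ZW_pos A hreg hvol N
  have p₁ := ZW_pos A₁ hreg hvol N
  have p₂ := ZW_pos A₂ hreg hvol N
  calc Real.log (ZW (radW (a * β₁ + b * β₂) φ) (cube L) N)
      ≤ Real.log ((ZW (radW β₁ φ) (cube L) N) ^ a * (ZW (radW β₂ φ) (cube L) N) ^ b) :=
        Real.log_le_log p key
    _ = a * Real.log (ZW (radW β₁ φ) (cube L) N) + b * Real.log (ZW (radW β₂ φ) (cube L) N) := by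
        rw [Real.log_mul (Real.rpow_pos_of_pos p₁ _).ne' (Real.rpow_pos_of_pos p₂ _).ne',
          Real.log_rpow p₁, Real.log_rpow p₂]

/-- A7: convexity in the coupling of the attraction -/
theorem partitionFn_interp {U As : ℝ → ℝ} (hU : Measurable U) (hU0 : ∀ r, 0 ≤ U r)
    (hAs : Measurable As) {a : ℝ} (hAsa : ∀ r, As r ≤ a) {L : ℝ} (hL : 0 < L) (N : ℕ) {β : ℝ}
    (hβ : 0 < β) {s : ℝ} (hs0 : 0 ≤ s) (hs1 : s ≤ 1) :
    partitionFn (fun r => U r - (1 + s) * As r) L N β ≤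
      (partitionFn (fun r => U r - As r) L N β) ^ (1 - s) *
        (partitionFn (fun r => U r - 2 * As r) L N β) ^ s := by
  have hreg := reg_cube L
  have adm : ∀ k : ℝ, 0 ≤ k → Adm (radW β (fun r => U r - k * As r)) := by
    intro k hk
    have hm : Measurable (fun r => U r - k * As r) := hU.sub (hAs.const_mul k)
    refine adm_radW hm (c := k * a) ?_ hβ.le
    intro r
    have h1 := mul_le_mul_of_nonneg_left (hAsa r) hk
    have h2 := hU0 r
    show -(k * a) ≤ U r - k * As r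
    linarith
  have A := adm (1 + s) (by linarith)
  have A₁ : Adm (radW β (fun r => U r - As r)) := by
    have := adm 1 zero_le_one
    simpa using this
  have A₂ := adm 2 (by norm_num)
  rw [partitionFn_eq_ZW, partitionFn_eq_ZW, partitionFn_eq_ZW]
  refine ZW_holder_two A A₁ A₂ hreg N (by linarith) hs0 (by ring) ?_
  intro x _
  apply le_of_eq
  unfold energyW radW
  rw [Finset.mul_sum, Finset.mul_sum, ← Finset.sum_add_distrib]
  refine Finset.sum_congr rfl fun p _ => ?_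
  ring

end Crest.Agent.PT
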