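import Crest.Agent.PT_ThermoInst
import Crest.Agent.PT_Holder

/-! Row 149, task TI2: convexity of `Fk`, `Phat` on the strip; `Phat` is an honest supremum (blueprint §1 last line, C2). -/

set_option autoImplicit false

namespace Crest.Agent.PT

open Filter MeasureTheory Crest.ProbabilityR.Continuum

variable {p δ lam T : ℝ}

/-- pointwise limit of the concave functions `β ↦ -log Z(L,N;β)/L^3` -/
theorem Gf_concave_beta (hP : Par p δ lam T) {om : ℝ → ℝ} (hom : CoreOK lam om) {ρ : ℝ} (hρ : 0 ≤ ρ) :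
    ConcaveOn ℝ (Set.Ioi 0) (fun β => Gf (phi om p δ lam T) β ρ) := by
  refine ⟨convex_Ioi 0, ?_⟩
  intro β₁ hβ₁ β₂ hβ₂ a b ha hb hab
  have hβ₁' : (0 : ℝ) < β₁ := hβ₁
  have hβ₂' : (0 : ℝ) < β₂ := hβ₂
  have hβ : a • β₁ + b • β₂ ∈ Set.Ioi (0 : ℝ) := (convex_Ioi (0 : ℝ)) hβ₁ hβ₂ ha hb hab
  have hβ' : (0 : ℝ) < a • β₁ + b • β₂ := hβ
  have t₁ := tendsto_Gf hP hom hβ₁' hρ
  have t₂ := tendsto_Gf hP hom hβ₂' hρ
  have t := tendsto_Gf hP hom hβ' hρ
  have t₁₂ := (t₁.const_mul a).add (t₂.const_mul b)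
  have hle : -(Gf (phi om p δ lam T) (a • β₁ + b • β₂) ρ) ≤
      a * -(Gf (phi om p δ lam T) β₁ ρ) + b * -(Gf (phi om p δ lam T) β₂ ρ) := by
    refine le_of_tendsto_of_tendsto t t₁₂ ?_
    filter_upwards [eventually_gt_atTop (0 : ℝ)] with L hL
    have hc := (convexOn_log_partitionFn (phi_measurable hP hom) (phi_lower hP hom) hL
      ⌊ρ * L ^ 3⌋₊).2 hβ₁ hβ₂ ha hb hab
    simp only [smul_eq_mul] at hc ⊢
    have hL3 : 0 < L ^ 3 := by positivity
    rw [div_le_iff₀ hL3]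
    calc Real.log (partitionFn (phi om p δ lam T) L ⌊ρ * L ^ 3⌋₊ (a * β₁ + b * β₂))
        ≤ a * Real.log (partitionFn (phi om p δ lam T) L ⌊ρ * L ^ 3⌋₊ β₁) +
          b * Real.log (partitionFn (phi om p δ lam T) L ⌊ρ * L ^ 3⌋₊ β₂) := hc
      _ = _ := by field_simp
  simp only [smul_eq_mul] at hle ⊢
  linarith

theorem phik_measurable (hP : Par p δ lam T) {om : ℝ → ℝ} (hom : CoreOK lam om) (k : ℕ) :
    Measurable (phik om p δ lam T k) := by
  unfold phik
  exact ((continuous_U0 δ lam).measurable.add hom.meas).sub (continuous_Alt p lam T k).measurable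

theorem phik_lower (hP : Par p δ lam T) {om : ℝ → ℝ} (hom : CoreOK lam om) (k : ℕ) (r : ℝ) :
    -(kap1 * lam / (pb p * iota)) ≤ phik om p δ lam T k r := by
  have hlam : 0 < lam := by linarith [hP.hlam]
  have hU := U0_nonneg (δ := δ) hlam.le r
  have ho := hom.nonneg r
  have hA := Atot_le hP.hp hlam hP.hT r
  have hAlt : Alt p lam T k r ≤ Atot p lam T r := by
    rcases Nat.eq_zero_or_pos k with rfl | hk
    · have h0 : Alt p lam T 0 r = 0 := by simp [Alt]
      rw [h0, Atot_eq_Age]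
      exact Age_nonneg hP.hp hlam hP.hT 1 r
    · rw [Atot_split hP.hp hlam hP.hT hk r]
      linarith [Age_nonneg hP.hp hlam hP.hT k r]
  unfold phik
  linarith

private theorem convex_Strip : Convex ℝ Strip := (convex_Icc _ _).prod convex_univ

private theorem Strip_fst_pos {z : ℝ × ℝ} (hz : z ∈ Strip) : 0 < z.1 := by
  have : (1 / 2 : ℝ) ≤ z.1 := hz.1.1
  linarith

/-- finite max of `ν n + (convex in β)` -/
theorem Fk_convex (hP : Par p δ lam T) {om : ℝ → ℝ} (hom : CoreOK lam om) (k : ℕ) :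
    ConvexOn ℝ Strip (Fk om p δ lam T k) := by
  refine ⟨convex_Strip, ?_⟩
  intro x hx y hy a b ha hb hab
  have hT : 0 < T := by linarith [hP.hT]
  have hlam : 0 < lam := by linarith [hP.hlam]
  have hpb : 0 < pb p := by linarith [pb_pos hP.hp]
  have hl : 0 < lk T k := lk_pos hT k
  have hc : 0 < lam * pb p * (lk T k) ^ 3 := by positivity
  unfold Fk FkM
  refine Finset.sup'_le _ _ ?_
  intro N hN
  have hx1 : x.1 ∈ Set.Ioi (0 : ℝ) := Strip_fst_pos hx
  have hy1 : y.1 ∈ Set.Ioi (0 : ℝ) := Strip_fst_pos hy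
  have hcv := (convexOn_log_partitionFn (phik_measurable hP hom k) (phik_lower hP hom k) hl N).2
    hx1 hy1 ha hb hab
  have hxs := Finset.le_sup' (fun N : ℕ =>
    x.2 * ((N : ℝ) / (pb p * (lk T k) ^ 3)) + x.1 * 0 * ((N : ℝ) / (pb p * (lk T k) ^ 3)) ^ 2 / 2 +
      Real.log (zk om p δ lam T k x.1 N) / (lam * pb p * (lk T k) ^ 3)) hN
  have hys := Finset.le_sup' (fun N : ℕ =>
    y.2 * ((N : ℝ) / (pb p * (lk T k) ^ 3)) + y.1 * 0 * ((N : ℝ) / (pb p * (lk T k) ^ 3)) ^ 2 / 2 +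
      Real.log (zk om p δ lam T k y.1 N) / (lam * pb p * (lk T k) ^ 3)) hN
  have hxs' := mul_le_mul_of_nonneg_left hxs ha
  have hys' := mul_le_mul_of_nonneg_left hys hb
  simp only [smul_eq_mul, Prod.fst_add, Prod.snd_add, Prod.smul_fst, Prod.smul_snd] at hcv ⊢
  refine le_trans ?_ (add_le_add hxs' hys')
  have hdiv : Real.log (zk om p δ lam T k (a * x.1 + b * y.1) N) / (lam * pb p * (lk T k) ^ 3) ≤
      a * (Real.log (zk om p δ lam T k x.1 N) / (lam * pb p * (lk T k) ^ 3)) +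
        b * (Real.log (zk om p δ lam T k y.1 N) / (lam * pb p * (lk T k) ^ 3)) := by
    rw [div_le_iff₀ hc]
    unfold zk
    calc _ ≤ _ := hcv
      _ = _ := by field_simp
  nlinarith [hdiv]

theorem Phat_isLUB (hP : Par p δ lam T) {om : ℝ → ℝ} (hom : CoreOK lam om) {z : ℝ × ℝ} (hz : 0 < z.1) :
    IsLUB ((fun n : ℝ => z.2 * n - Gf (phi om p δ lam T) z.1 (pb p * n) / (lam * pb p)) ''
      Set.Icc (0 : ℝ) 20) (Phat (phi om p δ lam T) p lam z) := by
  have hlam : 0 < lam := by linarith [hP.hlam]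
  have hpb : 0 < pb p := by linarith [pb_pos hP.hp]
  have hc : 0 < lam * pb p := by positivity
  unfold Phat
  refine isLUB_csSup ?_ ?_
  · exact ⟨_, ⟨0, ⟨le_refl _, by norm_num⟩, rfl⟩⟩
  · refine ⟨|z.2| * 20 + (z.1 * lam * (pb p * 20) + 1) / (lam * pb p), ?_⟩
    rintro _ ⟨n, ⟨hn0, hn20⟩, rfl⟩
    have hG := Gf_lower hP hom hz (ρ := pb p * n) (by positivity)
    have h1 : z.2 * n ≤ |z.2| * 20 := by
      calc z.2 * n ≤ |z.2| * n := by gcongr; exact le_abs_self _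
        _ ≤ |z.2| * 20 := by gcongr
    have h2 : -(Gf (phi om p δ lam T) z.1 (pb p * n)) / (lam * pb p) ≤
        (z.1 * lam * (pb p * 20) + 1) / (lam * pb p) := by
      apply div_le_div_of_nonneg_right _ hc.le
      have : z.1 * lam * (pb p * n) ≤ z.1 * lam * (pb p * 20) := by gcongr
      linarith
    show z.2 * n - Gf (phi om p δ lam T) z.1 (pb p * n) / (lam * pb p) ≤ _
    rw [neg_div] at h2
    linarith

theorem Phat_convex (hP : Par p δ lam T) {om : ℝ → ℝ} (hom : CoreOK lam om) :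
    ConvexOn ℝ Strip (Phat (phi om p δ lam T) p lam) := by
  refine ⟨convex_Strip, ?_⟩
  intro x hx y hy a b ha hb hab
  have hlam : 0 < lam := by linarith [hP.hlam]
  have hpb : 0 < pb p := by linarith [pb_pos hP.hp]
  have hc : 0 < lam * pb p := by positivity
  have hxy : a • x + b • y ∈ Strip := convex_Strip hx hy ha hb hab
  have hx1 : x.1 ∈ Set.Ioi (0 : ℝ) := Strip_fst_pos hx
  have hy1 : y.1 ∈ Set.Ioi (0 : ℝ) := Strip_fst_pos hy
  refine (Phat_isLUB hP hom (Strip_fst_pos hxy)).2 ?_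
  rintro _ ⟨n, hn, rfl⟩
  have hX := (Phat_isLUB hP hom (Strip_fst_pos hx)).1 ⟨n, hn, rfl⟩
  have hY := (Phat_isLUB hP hom (Strip_fst_pos hy)).1 ⟨n, hn, rfl⟩
  have hX' := mul_le_mul_of_nonneg_left hX ha
  have hY' := mul_le_mul_of_nonneg_left hY hb
  have hcc := (Gf_concave_beta hP hom (ρ := pb p * n) (by have := hn.1; positivity)).2
    hx1 hy1 ha hb hab
  simp only [smul_eq_mul, Prod.fst_add, Prod.snd_add, Prod.smul_fst, Prod.smul_snd] at hcc hX' hY' ⊢
  refine le_trans ?_ (add_le_add hX' hY')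
  have hdiv : a * (Gf (phi om p δ lam T) x.1 (pb p * n) / (lam * pb p)) +
      b * (Gf (phi om p δ lam T) y.1 (pb p * n) / (lam * pb p)) ≤
      Gf (phi om p δ lam T) (a * x.1 + b * y.1) (pb p * n) / (lam * pb p) := by
    rw [le_div_iff₀ hc]
    calc _ = a * Gf (phi om p δ lam T) x.1 (pb p * n) + b * Gf (phi om p δ lam T) y.1 (pb p * n) := by
          field_simp
      _ ≤ _ := hcc
  nlinarith [hdiv]

/-- un-rescaled pressure: `P(β,ν') = λ p_b P̂(β, ν'/λ) = sup_{ρ ∈ [0, 20 p_b]} [ν' ρ - G(β,ρ)]` -/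
theorem Phat_isLUB' (hP : Par p δ lam T) {om : ℝ → ℝ} (hom : CoreOK lam om) {β : ℝ} (hβ : 0 < β)
    (ν : ℝ) :
    IsLUB ((fun ρ : ℝ => ν * ρ - Gf (phi om p δ lam T) β ρ) '' Set.Icc (0 : ℝ) (20 * pb p))
      (lam * pb p * Phat (phi om p δ lam T) p lam (β, ν / lam)) := by
  have hlam : 0 < lam := by linarith [hP.hlam]
  have hpb : 0 < pb p := by linarith [pb_pos hP.hp]
  have hc : 0 < lam * pb p := by positivity
  have hL := Phat_isLUB hP hom (z := (β, ν / lam)) hβ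
  constructor
  · rintro _ ⟨ρ, ⟨h0, h1⟩, rfl⟩
    have hmem : ρ / pb p ∈ Set.Icc (0 : ℝ) 20 := by
      refine ⟨by positivity, ?_⟩
      rw [div_le_iff₀ hpb]; exact h1
    have := hL.1 ⟨ρ / pb p, hmem, rfl⟩
    have h2 := mul_le_mul_of_nonneg_left this hc.le
    refine le_trans (le_of_eq ?_) h2
    have hρ : pb p * (ρ / pb p) = ρ := by field_simp
    simp only [hρ]
    field_simp
  · intro B hB
    have : Phat (phi om p δ lam T) p lam (β, ν / lam) ≤ B / (lam * pb p) := by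
      refine hL.2 ?_
      rintro _ ⟨n, ⟨h0, h1⟩, rfl⟩
      have hmem : pb p * n ∈ Set.Icc (0 : ℝ) (20 * pb p) := by
        refine ⟨by positivity, ?_⟩
        nlinarith
      have h2 := hB ⟨pb p * n, hmem, rfl⟩
      rw [le_div_iff₀ hc]
      refine le_trans (le_of_eq ?_) h2
      simp only
      field_simp
    rw [le_div_iff₀ hc] at this
    linarith

end Crest.Agent.PT
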