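import Crest.Agent.PT_Defs

/-! Row 149, task D0: packing numbers (blueprint D0). -/

set_option autoImplicit false

namespace Crest.Agent.PT

open Filter Crest.ProbabilityR.Continuum

/-! ### coordinates -/

private theorem pk_abs_sub_le_dist (x y : Pt) (k : Fin 3) : |x k - y k| ≤ dist x y := by
  have h := PiLp.norm_apply_le (p := 2) (x - y) k
  rw [dist_eq_norm]
  simpa [Real.norm_eq_abs] using h

private theorem pk_dist_lt_one (x y : Pt) (h : ∀ k, |x k - y k| < 1 / 2) : dist x y < 1 := by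
  rw [EuclideanSpace.dist_eq, Real.sqrt_lt' one_pos, Fin.sum_univ_three]
  have h0 := h 0
  have h1 := h 1
  have h2 := h 2
  simp only [Real.dist_eq, sq_abs]
  rw [abs_lt] at h0 h1 h2
  nlinarith [h0.1, h0.2, h1.1, h1.2, h2.1, h2.2]

/-- cell index for the mesh `1/2` -/
private noncomputable def pkCell (x : Pt) : Fin 3 → ℤ := fun k => ⌊2 * x k⌋

private theorem pk_cell_inj (x y : Pt) (h : pkCell x = pkCell y) : dist x y < 1 := by
  apply pk_dist_lt_one
  intro k
  have hk : ⌊2 * x k⌋ = ⌊2 * y k⌋ := congrFun h k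
  have := Int.abs_sub_lt_one_of_floor_eq_floor hk
  rw [abs_lt] at this ⊢
  constructor <;> linarith [this.1, this.2]

private theorem pk_card_le (L : ℝ) (X : Finset Pt) (hX : ∀ x ∈ X, x ∈ cube L)
    (hsep : ∀ x ∈ X, ∀ y ∈ X, x ≠ y → 1 ≤ dist x y) :
    X.card ≤ (Fintype.piFinset (fun _ : Fin 3 => Finset.Icc (0 : ℤ) ⌊2 * L⌋)).card := by
  apply Finset.card_le_card_of_injOn pkCell
  · intro x hx
    rw [Finset.mem_coe, Fintype.mem_piFinset]
    intro k
    rw [Finset.mem_Icc]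
    have := hX x hx k
    constructor
    · exact Int.floor_nonneg.2 (by linarith [this.1])
    · exact Int.floor_le_floor (by linarith [this.2])
  · intro x hx y hy hxy
    by_contra hne
    have h1 := hsep x hx y hy hne
    have h2 := pk_cell_inj x y hxy
    linarith

theorem packingSet_bddAbove (L : ℝ) : BddAbove (packingSet L) := by
  refine ⟨(Fintype.piFinset (fun _ : Fin 3 => Finset.Icc (0 : ℤ) ⌊2 * L⌋)).card, ?_⟩
  rintro n ⟨X, rfl, hX, hsep⟩
  exact pk_card_le L X hX hsep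

private theorem pk_zero_mem (L : ℝ) : 0 ∈ packingSet L :=
  ⟨∅, by simp, by simp, by simp⟩

private theorem pk_mem (L : ℝ) : packingNumber L ∈ packingSet L :=
  Nat.sSup_mem ⟨0, pk_zero_mem L⟩ (packingSet_bddAbove L)

private theorem pk_le_of_mem {L : ℝ} {n : ℕ} (h : n ∈ packingSet L) : n ≤ packingNumber L :=
  le_csSup (packingSet_bddAbove L) h

/-- explicit upper bound -/
private theorem pk_upper {L : ℝ} (hL : 0 ≤ L) : (packingNumber L : ℝ) ≤ (2 * L + 1) ^ 3 := by
  obtain ⟨X, hc, hX, hsep⟩ := pk_mem L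
  have h := pk_card_le L X hX hsep
  rw [hc, Fintype.card_piFinset] at h
  simp only [Int.card_Icc, Finset.prod_const, Finset.card_univ, Fintype.card_fin, sub_zero] at h
  have h0 : (0 : ℤ) ≤ ⌊2 * L⌋ := Int.floor_nonneg.2 (by linarith)
  have h1 : (((⌊2 * L⌋ + 1).toNat : ℕ) : ℝ) ≤ 2 * L + 1 := by
    have : (((⌊2 * L⌋ + 1).toNat : ℕ) : ℤ) = ⌊2 * L⌋ + 1 := Int.toNat_of_nonneg (by omega)
    have h2 : (((⌊2 * L⌋ + 1).toNat : ℕ) : ℝ) = (⌊2 * L⌋ : ℝ) + 1 := by exact_mod_cast this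
    rw [h2]
    linarith [Int.floor_le (2 * L)]
  calc (packingNumber L : ℝ) ≤ (((⌊2 * L⌋ + 1).toNat ^ 3 : ℕ) : ℝ) := by exact_mod_cast h
    _ = (((⌊2 * L⌋ + 1).toNat : ℕ) : ℝ) ^ 3 := by push_cast; ring
    _ ≤ (2 * L + 1) ^ 3 := pow_le_pow_left₀ (by positivity) h1 3

/-- points with mutual distances `≥ s` in a translated cube of side `ℓ` -/
theorem packing_card_le {s ℓ : ℝ} (hs : 0 < s) (v : Pt) (X : Finset Pt)
    (hX : ∀ x ∈ X, x ∈ cubeAt v ℓ) (hsep : ∀ x ∈ X, ∀ y ∈ X, x ≠ y → s ≤ dist x y) :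
    X.card ≤ packingNumber (ℓ / s) := by
  classical
  apply pk_le_of_mem
  have hinj : Function.Injective (fun x : Pt => s⁻¹ • (x - v)) := by
    intro x y hxy
    have := smul_right_injective Pt (inv_ne_zero hs.ne') hxy
    exact sub_left_injective this
  refine ⟨X.image (fun x : Pt => s⁻¹ • (x - v)), Finset.card_image_of_injective _ hinj, ?_, ?_⟩
  · intro z hz
    obtain ⟨x, hx, rfl⟩ := Finset.mem_image.1 hz
    intro k
    have := hX x hx k
    simp only [PiLp.smul_apply, PiLp.sub_apply, smul_eq_mul]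
    constructor
    · exact mul_nonneg (inv_nonneg.2 hs.le) (by linarith [this.1])
    · rw [div_eq_inv_mul]
      exact mul_le_mul_of_nonneg_left (by linarith [this.2]) (inv_nonneg.2 hs.le)
  · intro z hz w hw hzw
    obtain ⟨x, hx, rfl⟩ := Finset.mem_image.1 hz
    obtain ⟨y, hy, rfl⟩ := Finset.mem_image.1 hw
    have hxy : x ≠ y := fun h => hzw (by rw [h])
    have h1 := hsep x hx y hy hxy
    rw [dist_smul₀, dist_sub_right, norm_inv, Real.norm_eq_abs, abs_of_pos hs]
    rw [← div_eq_inv_mul, le_div_iff₀ hs]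
    linarith

theorem packing_exists {s ℓ : ℝ} (hs : 0 < s) (v : Pt) :
    ∃ X : Finset Pt, X.card = packingNumber (ℓ / s) ∧ (∀ x ∈ X, x ∈ cubeAt v ℓ) ∧
      ∀ x ∈ X, ∀ y ∈ X, x ≠ y → s ≤ dist x y := by
  classical
  obtain ⟨X, hc, hX, hsep⟩ := pk_mem (ℓ / s)
  have hinj : Function.Injective (fun x : Pt => v + s • x) := by
    intro x y hxy
    exact smul_right_injective Pt hs.ne' (add_left_cancel hxy)
  refine ⟨X.image (fun x : Pt => v + s • x), ?_, ?_, ?_⟩
  · rw [Finset.card_image_of_injective _ hinj, hc]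
  · intro z hz
    obtain ⟨x, hx, rfl⟩ := Finset.mem_image.1 hz
    intro k
    have := hX x hx k
    simp only [PiLp.add_apply, PiLp.smul_apply, smul_eq_mul]
    constructor
    · have := mul_nonneg hs.le this.1
      linarith
    · have h2 := mul_le_mul_of_nonneg_left this.2 hs.le
      rw [mul_div_cancel₀ _ hs.ne'] at h2
      linarith
  · intro z hz w hw hzw
    obtain ⟨x, hx, rfl⟩ := Finset.mem_image.1 hz
    obtain ⟨y, hy, rfl⟩ := Finset.mem_image.1 hw
    have hxy : x ≠ y := fun h => hzw (by rw [h])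
    have h1 := hsep x hx y hy hxy
    rw [dist_add_left, dist_smul₀, Real.norm_eq_abs, abs_of_pos hs]
    nlinarith

theorem packingNumber_mono {L L' : ℝ} (h : L ≤ L') : packingNumber L ≤ packingNumber L' := by
  apply pk_le_of_mem
  obtain ⟨X, hc, hX, hsep⟩ := pk_mem L
  exact ⟨X, hc, fun x hx k => ⟨(hX x hx k).1, le_trans (hX x hx k).2 h⟩, hsep⟩

/-! ### the limit -/

/-- translation vector of the copy with index `α` -/
private noncomputable def pkTr (L : ℝ) (α : Fin 3 → ℕ) : Pt :=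
  WithLp.toLp 2 (fun k => (α k : ℝ) * (L + 1))

private theorem pkTr_apply (L : ℝ) (α : Fin 3 → ℕ) (k : Fin 3) :
    pkTr L α k = (α k : ℝ) * (L + 1) := rfl

private theorem pk_sep_copies {L : ℝ} (hL : 0 ≤ L) {α β : Fin 3 → ℕ} (hαβ : α ≠ β) {x y : Pt}
    (hx : x ∈ cube L) (hy : y ∈ cube L) : 1 ≤ dist (pkTr L α + x) (pkTr L β + y) := by
  obtain ⟨k, hk⟩ := Function.ne_iff.1 hαβ
  refine le_trans ?_ (pk_abs_sub_le_dist _ _ k)
  simp only [PiLp.add_apply, pkTr_apply]
  have hxk := hx k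
  have hyk := hy k
  rw [le_abs]
  rcases Nat.lt_or_gt_of_ne hk with h | h
  · right
    have : (α k : ℝ) + 1 ≤ β k := by exact_mod_cast h
    nlinarith
  · left
    have : (β k : ℝ) + 1 ≤ α k := by exact_mod_cast h
    nlinarith

private theorem pk_mul {L : ℝ} (hL : 0 ≤ L) (m : ℕ) :
    m ^ 3 * packingNumber L ≤ packingNumber (m * (L + 1)) := by
  classical
  obtain ⟨X, hc, hX, hsep⟩ := pk_mem L
  set I : Finset (Fin 3 → ℕ) := Fintype.piFinset (fun _ : Fin 3 => Finset.range m) with hI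
  have hIcard : I.card = m ^ 3 := by
    rw [hI, Fintype.card_piFinset]
    simp
  set F : (Fin 3 → ℕ) × Pt → Pt := fun q => pkTr L q.1 + q.2 with hF
  have hsepF : ∀ q ∈ I ×ˢ X, ∀ q' ∈ I ×ˢ X, q ≠ q' → 1 ≤ dist (F q) (F q') := by
    rintro ⟨α, x⟩ hq ⟨β, y⟩ hq' hne
    rw [Finset.mem_product] at hq hq'
    by_cases hαβ : α = β
    · subst hαβ
      have hxy : x ≠ y := fun h => hne (by rw [h])
      simp only [hF, dist_add_left]
      exact hsep x hq.2 y hq'.2 hxy
    · exact pk_sep_copies hL hαβ (hX x hq.2) (hX y hq'.2)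
  have hinj : Set.InjOn F (I ×ˢ X : Finset ((Fin 3 → ℕ) × Pt)) := by
    intro q hq q' hq' h
    by_contra hne
    have := hsepF q hq q' hq' hne
    rw [h, dist_self] at this
    linarith
  apply pk_le_of_mem
  refine ⟨(I ×ˢ X).image F, ?_, ?_, ?_⟩
  · rw [Finset.card_image_of_injOn hinj, Finset.card_product, hIcard, hc]
  · intro z hz
    obtain ⟨⟨α, x⟩, hq, rfl⟩ := Finset.mem_image.1 hz
    rw [Finset.mem_product] at hq
    intro k
    have hxk := hX x hq.2 k
    have hα : α k < m := by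
      have := Fintype.mem_piFinset.1 hq.1 k
      exact Finset.mem_range.1 this
    have hα' : (α k : ℝ) + 1 ≤ m := by exact_mod_cast hα
    simp only [hF, PiLp.add_apply, pkTr_apply]
    constructor
    · have : 0 ≤ (α k : ℝ) * (L + 1) := by positivity
      linarith [hxk.1]
    · nlinarith [hxk.2]
  · intro z hz w hw hzw
    obtain ⟨q, hq, rfl⟩ := Finset.mem_image.1 hz
    obtain ⟨q', hq', rfl⟩ := Finset.mem_image.1 hw
    exact hsepF q hq q' hq' (fun h => hzw (by rw [h]))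

private theorem pk_one_le_zero : 1 ≤ packingNumber 0 := by
  apply pk_le_of_mem
  refine ⟨{0}, by simp, ?_, ?_⟩
  · intro x hx k
    rw [Finset.mem_singleton] at hx
    subst hx
    simp
  · intro x hx y hy hxy
    rw [Finset.mem_singleton] at hx hy
    exact absurd (hx.trans hy.symm) hxy

private theorem pk_nat_cube (m : ℕ) : m ^ 3 ≤ packingNumber (m : ℝ) := by
  have h := pk_mul (le_refl (0 : ℝ)) m
  rw [zero_add, mul_one] at h
  calc m ^ 3 = m ^ 3 * 1 := (mul_one _).symm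
    _ ≤ m ^ 3 * packingNumber 0 := Nat.mul_le_mul_left _ pk_one_le_zero
    _ ≤ _ := h

/-- lower bound for large cubes from a fixed cube -/
private theorem pk_lower {L₀ L : ℝ} (h0 : 0 ≤ L₀) (hL : L₀ + 1 ≤ L) :
    (1 - (L₀ + 1) / L) ^ 3 * ((packingNumber L₀ : ℝ) / (L₀ + 1) ^ 3) ≤
      (packingNumber L : ℝ) / L ^ 3 := by
  set c := L₀ + 1 with hc
  have hcpos : 0 < c := by linarith
  have hLpos : 0 < L := by linarith
  set m := ⌊L / c⌋₊ with hm
  have hm1 : (m : ℝ) ≤ L / c := Nat.floor_le (by positivity)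
  have hm2 : L / c < (m : ℝ) + 1 := Nat.lt_floor_add_one _
  have hmc : (m : ℝ) * c ≤ L := by rwa [le_div_iff₀ hcpos] at hm1
  have hmc2 : L - c ≤ (m : ℝ) * c := by
    rw [div_lt_iff₀ hcpos] at hm2
    linarith
  have h1 : m ^ 3 * packingNumber L₀ ≤ packingNumber L :=
    le_trans (pk_mul h0 m) (packingNumber_mono hmc)
  have h1' : (m : ℝ) ^ 3 * (packingNumber L₀ : ℝ) ≤ (packingNumber L : ℝ) := by exact_mod_cast h1
  have h2 : (L - c) ^ 3 ≤ ((m : ℝ) * c) ^ 3 := pow_le_pow_left₀ (by linarith) hmc2 3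
  have hP0 : (0 : ℝ) ≤ (packingNumber L₀ : ℝ) := by positivity
  have e1 : (1 - c / L) ^ 3 * ((packingNumber L₀ : ℝ) / c ^ 3) =
      ((L - c) ^ 3 * (packingNumber L₀ : ℝ)) / (c ^ 3 * L ^ 3) := by
    field_simp
  rw [e1, div_le_div_iff₀ (by positivity) (by positivity)]
  have h3 : (L - c) ^ 3 * (packingNumber L₀ : ℝ) ≤ c ^ 3 * (packingNumber L : ℝ) := by
    calc (L - c) ^ 3 * (packingNumber L₀ : ℝ) ≤ ((m : ℝ) * c) ^ 3 * (packingNumber L₀ : ℝ) :=
          mul_le_mul_of_nonneg_right h2 hP0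
      _ = c ^ 3 * ((m : ℝ) ^ 3 * (packingNumber L₀ : ℝ)) := by ring
      _ ≤ c ^ 3 * (packingNumber L : ℝ) := mul_le_mul_of_nonneg_left h1' (by positivity)
  calc (L - c) ^ 3 * (packingNumber L₀ : ℝ) * L ^ 3 ≤ c ^ 3 * (packingNumber L : ℝ) * L ^ 3 :=
        mul_le_mul_of_nonneg_right h3 (by positivity)
    _ = (packingNumber L : ℝ) * (c ^ 3 * L ^ 3) := by ring

/-- D0: the packing density exists and is `≥ 1`. -/
theorem packing_limit : ∃ p : ℝ, 1 ≤ p ∧
    Tendsto (fun L : ℝ => (packingNumber L : ℝ) / L ^ 3) atTop (nhds p) := by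
  set g : ℝ → ℝ := fun L => (packingNumber L : ℝ) / (L + 1) ^ 3 with hg
  set S : Set ℝ := g '' Set.Ici 0 with hS
  have hbdd : BddAbove S := by
    refine ⟨8, ?_⟩
    rintro _ ⟨L, hL, rfl⟩
    have hL0 : (0 : ℝ) ≤ L := hL
    simp only [hg]
    rw [div_le_iff₀ (by positivity)]
    refine le_trans (pk_upper hL0) ?_
    have : (2 * L + 1) ^ 3 ≤ (2 * (L + 1)) ^ 3 := pow_le_pow_left₀ (by positivity) (by linarith) 3
    calc (2 * L + 1) ^ 3 ≤ (2 * (L + 1)) ^ 3 := this
      _ = 8 * (L + 1) ^ 3 := by ring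
  have hne : S.Nonempty := ⟨g 0, 0, Set.mem_Ici.2 le_rfl, rfl⟩
  set p := sSup S with hp
  have hp0 : 0 ≤ p := by
    refine le_trans ?_ (le_csSup hbdd ⟨0, Set.mem_Ici.2 le_rfl, rfl⟩)
    simp only [hg]
    positivity
  have htend : Tendsto (fun L : ℝ => (packingNumber L : ℝ) / L ^ 3) atTop (nhds p) := by
    rw [tendsto_order]
    constructor
    · intro a ha
      obtain ⟨_, ⟨L₀, hL₀, rfl⟩, hlt⟩ := exists_lt_of_lt_csSup hne ha
      have hL₀' : (0 : ℝ) ≤ L₀ := hL₀
      have ht : Tendsto (fun L : ℝ => (1 - (L₀ + 1) / L) ^ 3 * g L₀) atTop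
          (nhds ((1 - 0) ^ 3 * g L₀)) := by
        apply Tendsto.mul_const
        apply Tendsto.pow
        exact tendsto_const_nhds.sub (tendsto_const_nhds.div_atTop tendsto_id)
      rw [sub_zero, one_pow, one_mul] at ht
      filter_upwards [ht.eventually (lt_mem_nhds hlt), eventually_ge_atTop (L₀ + 1)] with L h1 h2
      exact lt_of_lt_of_le h1 (pk_lower hL₀' h2)
    · intro a ha
      have ht : Tendsto (fun L : ℝ => p * (1 + 1 / L) ^ 3) atTop (nhds (p * (1 + 0) ^ 3)) := by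
        apply Tendsto.const_mul
        apply Tendsto.pow
        exact tendsto_const_nhds.add (tendsto_const_nhds.div_atTop tendsto_id)
      rw [add_zero, one_pow, mul_one] at ht
      filter_upwards [ht.eventually (gt_mem_nhds ha), eventually_gt_atTop (0 : ℝ)] with L h1 h2
      refine lt_of_le_of_lt ?_ h1
      have hgL : g L ≤ p := le_csSup hbdd ⟨L, Set.mem_Ici.2 h2.le, rfl⟩
      have e : (packingNumber L : ℝ) / L ^ 3 = g L * (1 + 1 / L) ^ 3 := by
        simp only [hg]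
        field_simp
      rw [e]
      exact mul_le_mul_of_nonneg_right hgL (by positivity)
  refine ⟨p, ?_, htend⟩
  -- `p ≥ 1` from the integer lattice
  have hnat : Tendsto (fun m : ℕ => (packingNumber (m : ℝ) : ℝ) / (m : ℝ) ^ 3) atTop (nhds p) :=
    htend.comp tendsto_natCast_atTop_atTop
  refine ge_of_tendsto hnat ?_
  filter_upwards [eventually_gt_atTop 0] with m hm
  have hm' : (0 : ℝ) < m := by exact_mod_cast hm
  rw [le_div_iff₀ (by positivity), one_mul]
  exact_mod_cast pk_nat_cube m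

end Crest.Agent.PT
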