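import Crest.Agent.PT_PotDefs

/-! Row 149: rooted spanning forests with exactly one root per connected component (used in D3),
and the component inequality of D2. -/

set_option autoImplicit false

namespace Crest.Agent.PT

open Crest.ProbabilityR.Continuum

/-- Every finite graph has a rooted spanning forest with exactly one root per connected component:
roots `S`, parent map `π`, rank `h` (= distance to the root). -/
theorem exists_span_forest {V : Type*} [Fintype V] (G : SimpleGraph V) :
    ∃ (S : Finset V) (π : V → V) (h : V → ℕ),
      S.card = Nat.card G.ConnectedComponent ∧ (∀ i, i ∉ S → h (π i) < h i) ∧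
        ∀ i, i ∉ S → G.Adj i (π i) := by
  classical
  let root : V → V := fun i => (G.connectedComponentMk i).out
  have hroot : ∀ i, G.connectedComponentMk (root i) = G.connectedComponentMk i := fun i =>
    Quot.out_eq _
  have hreach : ∀ i, G.Reachable i (root i) := fun i =>
    (SimpleGraph.ConnectedComponent.exact (hroot i)).symm
  let S : Finset V := Finset.univ.image (fun c : G.ConnectedComponent => c.out)
  let h : V → ℕ := fun i => G.dist i (root i)
  have hS : S.card = Nat.card G.ConnectedComponent := by
    have hinj : Function.Injective (fun c : G.ConnectedComponent => c.out) := by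
      intro a b hab
      rw [← Quot.out_eq a, ← Quot.out_eq b]
      exact congrArg _ hab
    rw [Finset.card_image_of_injective _ hinj, Finset.card_univ, Nat.card_eq_fintype_card]
  have hex : ∀ i, ∃ j, i ∉ S → (h j < h i ∧ G.Adj i j) := by
    intro i
    by_cases hi : i ∈ S
    · exact ⟨i, fun h' => absurd hi h'⟩
    · have hne : i ≠ root i := by
        intro e
        apply hi
        rw [e]
        exact Finset.mem_image_of_mem _ (Finset.mem_univ _)
      obtain ⟨p, hp⟩ := (hreach i).exists_walk_length_eq_dist
      obtain ⟨v, hadj, q, rfl⟩ := SimpleGraph.Walk.exists_eq_cons_of_ne hne p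
      refine ⟨v, fun _ => ⟨?_, hadj⟩⟩
      have hv : root v = root i := by
        have : G.connectedComponentMk v = G.connectedComponentMk i :=
          SimpleGraph.ConnectedComponent.sound hadj.symm.reachable
        simp only [root, this]
      have h1 : G.dist v (root i) ≤ q.length := SimpleGraph.dist_le q
      have h2 : q.length + 1 = G.dist i (root i) := by
        simpa using hp
      show G.dist v (root v) < G.dist i (root i)
      rw [hv]; omega
  choose π hπ using hex
  exact ⟨S, π, h, hS, fun i hi => (hπ i hi).1, fun i hi => (hπ i hi).2⟩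

/-- The form used with `forest_volume`. -/
theorem exists_forest_dG {N : ℕ} (x : Fin N → Pt) (s : ℝ) :
    ∃ (S : Finset (Fin N)) (π : Fin N → Fin N) (h : Fin N → ℕ),
      S.card = ncomp x s ∧ (∀ i, i ∉ S → h (π i) < h i) ∧
        ∀ i, i ∉ S → dist (x i) (x (π i)) < s := by
  obtain ⟨S, π, h, h1, h2, h3⟩ := exists_span_forest (dG x s)
  exact ⟨S, π, h, h1, h2, fun i hi => (h3 i hi).2⟩

open Classical in
/-- `∑_v 1/|comp v| = ` number of components. -/
theorem sum_inv_card_comp {V : Type*} [Fintype V] [DecidableEq V] (G : SimpleGraph V) :
    ∑ v : V, (1 : ℝ) / ((Finset.univ.filter (fun u : V =>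
      G.connectedComponentMk u = G.connectedComponentMk v)).card : ℝ) =
      Nat.card G.ConnectedComponent := by
  classical
  rw [← Finset.sum_fiberwise (s := Finset.univ) (g := fun v : V => G.connectedComponentMk v)]
  have : ∀ c : G.ConnectedComponent, ∑ v ∈ Finset.univ.filter (fun v : V => G.connectedComponentMk v = c),
      (1 : ℝ) / ((Finset.univ.filter (fun u : V =>
        G.connectedComponentMk u = G.connectedComponentMk v)).card : ℝ) = 1 := by
    intro c
    have h1 : ∀ v ∈ Finset.univ.filter (fun v : V => G.connectedComponentMk v = c),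
        (1 : ℝ) / ((Finset.univ.filter (fun u : V =>
          G.connectedComponentMk u = G.connectedComponentMk v)).card : ℝ) =
        (1 : ℝ) / ((Finset.univ.filter (fun u : V => G.connectedComponentMk u = c)).card : ℝ) := by
      intro v hv
      rw [(Finset.mem_filter.1 hv).2]
    rw [Finset.sum_congr rfl h1, Finset.sum_const, nsmul_eq_mul]
    have hpos : 0 < (Finset.univ.filter (fun u : V => G.connectedComponentMk u = c)).card := by
      obtain ⟨v, hv⟩ := c.exists_rep
      exact Finset.card_pos.2 ⟨v, Finset.mem_filter.2 ⟨Finset.mem_univ _, hv⟩⟩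
    have : ((Finset.univ.filter (fun u : V => G.connectedComponentMk u = c)).card : ℝ) ≠ 0 := by
      positivity
    field_simp
  rw [Finset.sum_congr rfl (fun c _ => this c)]
  simp [Nat.card_eq_fintype_card]

/-- D2, component inequality: `∑_v t_v/(1+t_v) ≤ N - K`. -/
theorem sum_degree_div_le {V : Type*} [Fintype V] [DecidableEq V] (G : SimpleGraph V)
    [DecidableRel G.Adj] :
    ∑ v : V, (G.degree v : ℝ) / (1 + G.degree v) ≤
      (Fintype.card V : ℝ) - Nat.card G.ConnectedComponent := by
  classical
  rw [← sum_inv_card_comp G]
  have hcard : (Fintype.card V : ℝ) = ∑ _v : V, (1 : ℝ) := by simp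
  rw [hcard, ← Finset.sum_sub_distrib]
  apply Finset.sum_le_sum
  intro v _
  have hsub : insert v (G.neighborFinset v) ⊆ Finset.univ.filter (fun u : V =>
      G.connectedComponentMk u = G.connectedComponentMk v) := by
    intro u hu
    rw [Finset.mem_insert] at hu
    rw [Finset.mem_filter]
    refine ⟨Finset.mem_univ _, ?_⟩
    rcases hu with rfl | hu
    · rfl
    · exact SimpleGraph.ConnectedComponent.sound
        ((G.mem_neighborFinset v u).1 hu).symm.reachable
  have hle := Finset.card_le_card hsub
  rw [Finset.card_insert_of_notMem (by simp)] at hle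
  have hle' : (1 : ℝ) + G.degree v ≤ ((Finset.univ.filter (fun u : V =>
      G.connectedComponentMk u = G.connectedComponentMk v)).card : ℝ) := by
    have : G.degree v + 1 ≤ (Finset.univ.filter (fun u : V =>
      G.connectedComponentMk u = G.connectedComponentMk v)).card := by
      simpa [SimpleGraph.card_neighborFinset_eq_degree] using hle
    have h' : ((G.degree v + 1 : ℕ) : ℝ) ≤ _ := Nat.cast_le.2 this
    push_cast at h'
    linarith
  have hpos : (0 : ℝ) < 1 + G.degree v := by positivity
  have h1 : (G.degree v : ℝ) / (1 + G.degree v) = 1 - 1 / (1 + G.degree v) := by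
    field_simp; ring
  rw [h1]
  have := one_div_le_one_div_of_le hpos hle'
  linarith

end Crest.Agent.PT
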