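import Crest.Agent.PT_PotDefs
import Crest.Agent.PT_Cube
import Crest.Agent.PT_Pack
import Crest.Agent.PT_CaroWei
import Crest.Agent.PT_SpanForest

/-! Row 149, D2: the cost inequality. -/

set_option autoImplicit false

namespace Crest.Agent.PT

open Crest.ProbabilityR.Continuum

/-- sum over ordered pairs `i<j` of a symmetric function vanishing on the diagonal -/
theorem sum_pairs_eq_half {N : ℕ} (F : Fin N → Fin N → ℝ) (hsymm : ∀ i j, F i j = F j i)
    (hdiag : ∀ i, F i i = 0) :
    ∑ p : {p : Fin N × Fin N // p.1 < p.2}, F p.1.1 p.1.2 = (∑ i, ∑ j, F i j) / 2 := by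
  classical
  have h1 : ∑ p : {p : Fin N × Fin N // p.1 < p.2}, F p.1.1 p.1.2 =
      ∑ p ∈ Finset.univ.filter (fun p : Fin N × Fin N => p.1 < p.2), F p.1 p.2 := by
    rw [Finset.sum_subtype (Finset.univ.filter (fun p : Fin N × Fin N => p.1 < p.2))
      (p := fun p : Fin N × Fin N => p.1 < p.2) (by simp) (fun p => F p.1 p.2)]
  have h2 : ∑ p ∈ Finset.univ.filter (fun p : Fin N × Fin N => p.2 < p.1), F p.1 p.2 =
      ∑ p ∈ Finset.univ.filter (fun p : Fin N × Fin N => p.1 < p.2), F p.1 p.2 := by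
    apply Finset.sum_nbij' Prod.swap Prod.swap
    · intro p hp; simpa using hp
    · intro p hp; simpa using hp
    · intro p _; simp
    · intro p _; simp
    · intro p _; exact hsymm _ _
  have h3 : ∑ i, ∑ j, F i j = ∑ p : Fin N × Fin N, F p.1 p.2 := (Fintype.sum_prod_type (fun p : Fin N × Fin N => F p.1 p.2)).symm
  have h4 : ∑ p : Fin N × Fin N, F p.1 p.2 =
      ∑ p ∈ Finset.univ.filter (fun p : Fin N × Fin N => p.1 < p.2), F p.1 p.2 +
      ∑ p ∈ Finset.univ.filter (fun p : Fin N × Fin N => ¬ p.1 < p.2), F p.1 p.2 :=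
    (Finset.sum_filter_add_sum_filter_not _ _ _).symm
  have h5 : ∑ p ∈ Finset.univ.filter (fun p : Fin N × Fin N => ¬ p.1 < p.2), F p.1 p.2 =
      ∑ p ∈ Finset.univ.filter (fun p : Fin N × Fin N => p.2 < p.1), F p.1 p.2 := by
    symm
    apply Finset.sum_subset
    · intro p hp
      simp only [Finset.mem_filter, Finset.mem_univ, true_and] at hp ⊢
      exact not_lt.2 hp.le
    · intro p hp hp'
      simp only [Finset.mem_filter, Finset.mem_univ, true_and] at hp hp'
      have : p.1 = p.2 := le_antisymm (not_lt.1 hp') (not_lt.1 hp)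
      rw [this]; exact hdiag _
  rw [h1, h3, h4, h5, h2]; ring

/-- D2, the per-vertex inequality. -/
theorem cost_vertex {β μ π : ℝ} (hc : ∀ n : ℕ, 1 ≤ n → μ * n - π ≤ cN β n)
    (t l : ℕ) :
    μ - π / (1 + ((t + l : ℕ) : ℝ)) ≤
      (t : ℝ) / (1 + t) + β / 2 * ((1 / 4) * t + l) := by
  have h := hc (1 + t + l) (by omega)
  have hn : (0 : ℝ) < 1 + ((t + l : ℕ) : ℝ) := by positivity
  have ht : (0 : ℝ) ≤ t := Nat.cast_nonneg _
  have hl : (0 : ℝ) ≤ l := Nat.cast_nonneg _
  set n : ℝ := 1 + ((t + l : ℕ) : ℝ) with hn_def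
  have hn' : n = 1 + t + l := by simp [hn_def]; ring
  have hcast : (((1 + t + l : ℕ)) : ℝ) = n := by rw [hn']; push_cast; ring
  rw [hcast] at h
  -- lower bound for `t/(1+t)`
  have h1 : (t : ℝ) / n ≤ (t : ℝ) / (1 + t) := by
    apply div_le_div_of_nonneg_left ht (by positivity)
    rw [hn']; linarith
  -- the convex combination
  have h2 : cN β (1 + t + l) ≤ t + β / 2 * n * ((1 / 4) * t + l) := by
    unfold cN
    rw [hcast]
    have hn1 : n - 1 = t + l := by rw [hn']; ring
    rw [hn1]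
    by_cases hab : β * n / 2 ≤ 1 + β * (1 / 4) * n / 2
    · refine (min_le_left _ _).trans ?_
      nlinarith [mul_nonneg ht (sub_nonneg.2 hab)]
    · refine (min_le_right _ _).trans ?_
      push Not at hab
      nlinarith [mul_nonneg hl (sub_nonneg.2 hab.le)]
  have h3 : μ - π / n = (μ * n - π) / n := by field_simp
  rw [h3]
  have h4 : (μ * n - π) / n ≤ (t + β / 2 * n * ((1 / 4) * t + l)) / n :=
    div_le_div_of_nonneg_right (h.trans h2) hn.le
  have h5 : (t + β / 2 * n * ((1 / 4) * t + l)) / n = t / n + β / 2 * ((1 / 4) * t + l) := by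
    field_simp
  linarith

private theorem costaux_bb_pos : 0 < bb := by unfold bb; positivity

private theorem costaux_s2_pos (lam : ℝ) : 0 < s2 lam := by
  unfold s2
  have := vol_ball_one_pos
  positivity

private theorem costaux_U0_nonneg {δ lam : ℝ} (hlam : 0 ≤ lam) (r : ℝ) : 0 ≤ U0 δ lam r := by
  unfold U0
  refine le_min (le_min ?_ hlam) (le_max_left _ _)
  exact le_max_of_le_left (by linarith)

/-- `U0 ≥ λ/4` below `s1`. -/
private theorem costaux_U0_ge_quarter {δ lam : ℝ} (hlam : 0 ≤ lam) (hδ0 : 0 < δ) {r : ℝ} (hr : r < s1 δ) :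
    lam / 4 ≤ U0 δ lam r := by
  unfold U0
  have hb := costaux_bb_pos
  refine le_min (le_min (le_max_left _ _) (by linarith)) (le_max_of_le_right ?_)
  rw [le_div_iff₀ (by positivity)]
  unfold s1 at hr
  nlinarith [mul_nonneg hlam (mul_pos hδ0 hb).le]

/-- `U0 ≥ λ` on `[s2,s1)`. -/
private theorem costaux_U0_ge_lam {δ lam : ℝ} (hlam : 0 ≤ lam) (hδ0 : 0 < δ) {r : ℝ} (hr2 : s2 lam ≤ r)
    (hr : r < s1 δ) : lam ≤ U0 δ lam r := by
  unfold U0
  have hb := costaux_bb_pos
  have hs := costaux_s2_pos lam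
  refine le_min (le_min (le_max_of_le_right ?_) le_rfl) (le_max_of_le_right ?_)
  · have h1 : 3 * lam / (2 * s2 lam) * (s2 lam / 2) ≤ 3 * lam / (2 * s2 lam) * (r - s2 lam / 2) := by
      apply mul_le_mul_of_nonneg_left (by linarith) (by positivity)
    have h2 : 3 * lam / (2 * s2 lam) * (s2 lam / 2) = 3 * lam / 4 := by field_simp; ring
    linarith
  · rw [le_div_iff₀ (by positivity)]
    unfold s1 at hr
    nlinarith [mul_nonneg hlam (mul_pos hδ0 hb).le]

/-- D2 (cost inequality). -/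
theorem cost_inequality {N : ℕ} {om : ℝ → ℝ} {δ lam : ℝ} (hom : ∀ r, 0 ≤ om r) (hlam : 0 ≤ lam)
    (hδ0 : 0 < δ) (hδ1 : δ < 1) (hs : s2 lam ≤ s1 δ) (v : Pt) (ℓ : ℝ) (x : Fin N → Pt)
    (hx : ∀ i, x i ∈ cubeAt v ℓ) {β μ π : ℝ} (hβ : 0 < β) (hπ : 0 ≤ π)
    (hc : ∀ n : ℕ, 1 ≤ n → μ * n - π ≤ cN β n) :
    lam * (μ * N - π * packingNumber (ℓ / s1 δ)) ≤
      lam * (N - ncomp x (s2 lam)) + β * energy (fun r => U0 δ lam r + om r) x := by
  classical
  set Gt := dG x (s2 lam) with hGt
  set G1 := dG x (s1 δ) with hG1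
  have hs1 : 0 < s1 δ := by
    unfold s1; exact mul_pos (by linarith) costaux_bb_pos
  have hle : ∀ i j, Gt.Adj i j → G1.Adj i j := fun i j h => ⟨h.1, h.2.trans_le hs⟩
  have hdeg : ∀ i, Gt.degree i ≤ G1.degree i := by
    intro i
    rw [← SimpleGraph.card_neighborFinset_eq_degree, ← SimpleGraph.card_neighborFinset_eq_degree]
    apply Finset.card_le_card
    intro j hj
    rw [SimpleGraph.mem_neighborFinset] at hj ⊢
    exact hle i j hj
  let a : SimpleGraph (Fin N) → Fin N → Fin N → ℝ := fun G i j => if G.Adj i j then 1 else 0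
  have ha : ∀ (G : SimpleGraph (Fin N)) (i : Fin N), ∑ j, a G i j = G.degree i := by
    intro G i
    simp only [a]
    rw [Finset.sum_boole, ← SimpleGraph.card_neighborFinset_eq_degree,
      SimpleGraph.neighborFinset_eq_filter]
  let W : Fin N → Fin N → ℝ := fun i j => lam / 4 * a Gt i j + lam * (a G1 i j - a Gt i j)
  have hsumW : ∀ i, ∑ j, W i j = lam / 4 * Gt.degree i + lam * (G1.degree i - Gt.degree i) := by
    intro i
    simp only [W]
    rw [Finset.sum_add_distrib, ← Finset.mul_sum, ← Finset.mul_sum, Finset.sum_sub_distrib,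
      ha, ha]
  have hWsymm : ∀ i j, W i j = W j i := by
    intro i j
    simp only [W, a, SimpleGraph.adj_comm]
  have hWdiag : ∀ i, W i i = 0 := by
    intro i
    simp [W, a]
  have hWle : ∀ i j, W i j ≤ U0 δ lam (dist (x i) (x j)) + om (dist (x i) (x j)) := by
    intro i j
    have ho := hom (dist (x i) (x j))
    by_cases h1 : Gt.Adj i j
    · have h2 := hle i j h1
      have : W i j = lam / 4 := by simp [W, a, h1, h2]
      rw [this]
      have := costaux_U0_ge_quarter (δ := δ) hlam hδ0 h2.2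
      linarith
    · by_cases h2 : G1.Adj i j
      · have : W i j = lam := by simp [W, a, h1, h2]
        rw [this]
        have h3 : s2 lam ≤ dist (x i) (x j) := by
          by_contra hcon
          exact h1 ⟨h2.1, not_le.1 hcon⟩
        have := costaux_U0_ge_lam (δ := δ) hlam hδ0 h3 h2.2
        linarith
      · have : W i j = 0 := by simp [W, a, h1, h2]
        rw [this]
        have := costaux_U0_nonneg (δ := δ) hlam (dist (x i) (x j))
        linarith
  have hE : (∑ i, ∑ j, W i j) / 2 ≤ energy (fun r => U0 δ lam r + om r) x := by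
    rw [← sum_pairs_eq_half W hWsymm hWdiag]
    unfold energy
    exact Finset.sum_le_sum fun p _ => hWle _ _
  -- Caro–Wei and packing
  obtain ⟨s, hsind, hscard⟩ := caro_wei G1
  have hsP : s.card ≤ packingNumber (ℓ / s1 δ) := by
    have hsep : ∀ i ∈ s, ∀ j ∈ s, i ≠ j → s1 δ ≤ dist (x i) (x j) := by
      intro i hi j hj hij
      by_contra hcon
      exact hsind (Finset.mem_coe.2 hi) (Finset.mem_coe.2 hj) hij ⟨hij, not_le.1 hcon⟩
    have hinj : Set.InjOn x (s : Set (Fin N)) := by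
      intro i hi j hj hij
      by_contra hne
      have := hsep i hi j hj hne
      rw [hij, dist_self] at this
      linarith
    rw [← Finset.card_image_of_injOn hinj]
    apply packing_card_le hs1 v
    · intro y hy
      obtain ⟨i, _, rfl⟩ := Finset.mem_image.1 hy
      exact hx i
    · intro y hy y' hy' hne
      obtain ⟨i, hi, rfl⟩ := Finset.mem_image.1 hy
      obtain ⟨j, hj, rfl⟩ := Finset.mem_image.1 hy'
      exact hsep i hi j hj (fun e => hne (by rw [e]))
  have hsP' : ∑ v : Fin N, (1 : ℝ) / (1 + G1.degree v) ≤ packingNumber (ℓ / s1 δ) :=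
    hscard.trans (Nat.cast_le.2 hsP)
  have hK := sum_degree_div_le Gt
  rw [Fintype.card_fin] at hK
  have hK' : ∑ v : Fin N, (Gt.degree v : ℝ) / (1 + Gt.degree v) ≤ (N : ℝ) - ncomp x (s2 lam) := hK
  -- per vertex
  have hv : ∀ i : Fin N, μ - π * (1 / (1 + (G1.degree i : ℝ))) ≤
      (Gt.degree i : ℝ) / (1 + Gt.degree i) +
        β / 2 * ((1 / 4) * Gt.degree i + ((G1.degree i : ℝ) - Gt.degree i)) := by
    intro i
    have h := cost_vertex hc (Gt.degree i) (G1.degree i - Gt.degree i)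
    rw [Nat.add_sub_cancel' (hdeg i), Nat.cast_sub (hdeg i)] at h
    rw [mul_one_div]
    exact h
  have hsum := Finset.sum_le_sum (fun i (_ : i ∈ Finset.univ) => hv i)
  rw [Finset.sum_sub_distrib, Finset.sum_add_distrib, ← Finset.mul_sum, ← Finset.mul_sum] at hsum
  simp only [Finset.sum_const, Finset.card_univ, Fintype.card_fin, nsmul_eq_mul] at hsum
  have hW2 : ∑ i, ∑ j, W i j =
      lam * ∑ i : Fin N, ((1 / 4) * (Gt.degree i : ℝ) + ((G1.degree i : ℝ) - Gt.degree i)) := by
    rw [Finset.mul_sum]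
    apply Finset.sum_congr rfl
    intro i _
    rw [hsumW]; ring
  rw [hW2] at hE
  set A := ∑ i : Fin N, ((1 / 4) * (Gt.degree i : ℝ) + ((G1.degree i : ℝ) - Gt.degree i)) with hA
  set B := ∑ v : Fin N, (1 : ℝ) / (1 + G1.degree v) with hB
  set C := ∑ v : Fin N, (Gt.degree v : ℝ) / (1 + Gt.degree v) with hC
  have h1 : μ * N - π * packingNumber (ℓ / s1 δ) ≤ (N : ℝ) - ncomp x (s2 lam) + β / 2 * A := by
    have := mul_le_mul_of_nonneg_left hsP' hπ
    linarith
  have h2 := mul_le_mul_of_nonneg_left h1 hlam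
  have h3 := mul_le_mul_of_nonneg_left hE hβ.le
  nlinarith

end Crest.Agent.PT
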