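import Mathlib
import Crest.Prelude.Def_PairPotential
import Crest.Prelude.Def_UnitPacking

/-!
# Row 149 (S0209, S0210): frozen definitions.  Blueprint: `notes/r149_blueprint.md`.
-/

set_option autoImplicit false

namespace Crest.Agent.PT

open MeasureTheory Crest.ProbabilityR.Continuum

noncomputable section

/-- Energy of a configuration for a general pair interaction `w` (inverse temperature absorbed). -/
def energyW (w : Pt → Pt → ℝ) {N : ℕ} (x : Fin N → Pt) : ℝ :=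
  ∑ p : {p : Fin N × Fin N // p.1 < p.2}, w (x p.1.1) (x p.1.2)

/-- Canonical partition function of `N` particles in a set `Λ` for the pair interaction `w`. -/
def ZW (w : Pt → Pt → ℝ) (Λ : Set Pt) (N : ℕ) : ℝ :=
  (1 / (Nat.factorial N : ℝ)) *
    ∫ x in Set.pi Set.univ (fun _ : Fin N => Λ), Real.exp (-(energyW w x))

/-- The radial interaction `β φ(|x-y|)`. -/
def radW (β : ℝ) (φ : ℝ → ℝ) : Pt → Pt → ℝ := fun x y => β * φ (dist x y)

/-- Admissible interactions: symmetric, measurable, bounded below. -/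
structure Adm (w : Pt → Pt → ℝ) : Prop where
  symm : ∀ x y, w x y = w y x
  meas : Measurable (fun q : Pt × Pt => w q.1 q.2)
  lower : ∃ c : ℝ, ∀ x y, -c ≤ w x y

/-- Regions: measurable of finite volume. -/
structure Reg (Λ : Set Pt) : Prop where
  meas : MeasurableSet Λ
  fin : volume Λ ≠ ⊤

/-- volume of a region as a real number -/
def vol (Λ : Set Pt) : ℝ := (volume Λ).toReal

/-- translated closed cube `v + [0,ℓ]^3` -/
def cubeAt (v : Pt) (ℓ : ℝ) : Set Pt := {x | ∀ k : Fin 3, v k ≤ x k ∧ x k ≤ v k + ℓ}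

/-- index of the cell (mesh `h`, shift `t`) containing `x` -/
def idx (h : ℝ) (t : Pt) (x : Pt) : Fin 3 → ℤ := fun a => ⌊(x a + t a) / h⌋

/-- number of pairs `i<j` lying in the same cell -/
def sc (h : ℝ) (t : Pt) {N : ℕ} (x : Fin N → Pt) : ℕ :=
  (Finset.univ.filter (fun p : Fin N × Fin N => p.1 < p.2 ∧ idx h t (x p.1) = idx h t (x p.2))).card

/-! ### convex analysis in the plane `(β, ν)` -/

def Box (z : ℝ × ℝ) (r : ℝ) : Set (ℝ × ℝ) := {y | |y.1 - z.1| ≤ r ∧ |y.2 - z.2| ≤ r}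

def Strip : Set (ℝ × ℝ) := Set.Icc (1 / 2 : ℝ) 2 ×ˢ (Set.univ : Set ℝ)

/-- `Q` has "gradient `(-e, n)` up to `d`" on `D`. -/
def Grad (Q : ℝ × ℝ → ℝ) (D : Set (ℝ × ℝ)) (e n d : ℝ) : Prop :=
  ∀ z₁ ∈ D, ∀ z₂ ∈ D, Q z₂ - Q z₁ ≤
    -e * (z₂.1 - z₁.1) + n * (z₂.2 - z₁.2) + d * (|z₂.1 - z₁.1| + |z₂.2 - z₁.2|)

/-- `ξ` is a subgradient of `Q` at `z` (relative to the strip). -/
def Sub (Q : ℝ × ℝ → ℝ) (z ξ : ℝ × ℝ) : Prop :=
  ∀ y ∈ Strip, Q z + ξ.1 * (y.1 - z.1) + ξ.2 * (y.2 - z.2) ≤ Q y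

/-- `MF` is the transform `M[κ,𝒩] F` (on the strip). -/
def IsM (κ : ℝ) (𝒩 : Finset ℝ) (F MF : ℝ × ℝ → ℝ) : Prop :=
  ∀ z ∈ Strip, IsGreatest ((fun m : ℝ => F (z.1, z.2 + z.1 * κ * m) - z.1 * κ * m ^ 2 / 2) '' (𝒩 : Set ℝ)) (MF z)

/-- densities of the three phases -/
def nX : Fin 3 → ℝ := ![2, 3, 4]
/-- nominal energies of the three phases -/
def eX : Fin 3 → ℝ := ![1, 3 / 4, 3 / 2]

def max3 (f : Fin 3 → ℝ) : ℝ := max (f 0) (max (f 1) (f 2))

end

end Crest.Agent.PT
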