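import Crest.Agent.PT_SplitGe
import Crest.Agent.PT_Cube

/-! Row 149, task A6: the easy direction of Lebowitz–Penrose / superadditivity (blueprint A6, F1, F2). -/

set_option autoImplicit false

namespace Crest.Agent.PT

open MeasureTheory Crest.ProbabilityR.Continuum

/-- F1 -/
theorem partitionFn_mono_L {φ : ℝ → ℝ} (hφ : Measurable φ) {c : ℝ} (hc : ∀ r, -c ≤ φ r)
    {β : ℝ} (hβ : 0 ≤ β) {L L' : ℝ} (h : L ≤ L') (N : ℕ) :
    partitionFn φ L N β ≤ partitionFn φ L' N β := by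
  rw [partitionFn_eq_ZW, partitionFn_eq_ZW]
  refine ZW_mono_set (adm_radW hφ hc hβ) (reg_cube L).meas (reg_cube L') ?_ N
  intro x hx k
  exact ⟨(hx k).1, (hx k).2.trans h⟩

/-- monotonicity in the potential -/
theorem partitionFn_anti_pot {φ φ' : ℝ → ℝ} (hφ : Measurable φ) (hφ' : Measurable φ') {c : ℝ}
    (hc : ∀ r, -c ≤ φ r) (hle : ∀ r, φ r ≤ φ' r) {β : ℝ} (hβ : 0 ≤ β) (L : ℝ) (N : ℕ) :
    partitionFn φ' L N β ≤ partitionFn φ L N β := by
  rw [partitionFn_eq_ZW, partitionFn_eq_ZW]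
  have h := ZW_le_of_energy (adm_radW hφ' (fun r => (hc r).trans (hle r)) hβ)
    (adm_radW hφ hc hβ) (reg_cube L) N 0 (fun x _ => by
      rw [energyW_radW, energyW_radW, sub_zero]
      refine mul_le_mul_of_nonneg_left ?_ hβ
      unfold energy
      exact Finset.sum_le_sum fun p _ => hle _)
  simpa using h

/-- two points of `cube L` are at distance at most `2 L` -/
private theorem easy_dist_le {L : ℝ} {x y : Pt} (hx : x ∈ cube L) (hy : y ∈ cube L) :
    dist x y ≤ 2 * L := by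
  have hL : 0 ≤ L := (hx 0).1.trans (hx 0).2
  rw [EuclideanSpace.dist_eq]
  have h1 : ∀ i : Fin 3, dist (x i) (y i) ^ 2 ≤ L ^ 2 := by
    intro i
    rw [Real.dist_eq, sq_abs]
    have h1 := hx i
    have h2 := hy i
    nlinarith [h1.1, h1.2, h2.1, h2.2]
  have h2 : ∑ i : Fin 3, dist (x i) (y i) ^ 2 ≤ (2 * L) ^ 2 := by
    calc ∑ i : Fin 3, dist (x i) (y i) ^ 2 ≤ ∑ _i : Fin 3, L ^ 2 :=
          Finset.sum_le_sum fun i _ => h1 i
      _ = 3 * L ^ 2 := by simp
      _ ≤ (2 * L) ^ 2 := by nlinarith [sq_nonneg L]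
  calc √(∑ i : Fin 3, dist (x i) (y i) ^ 2) ≤ √((2 * L) ^ 2) := Real.sqrt_le_sqrt h2
    _ = 2 * L := Real.sqrt_sq (by positivity)

/-- potentials that agree on `[0, √3 L]` have the same partition function in `cube L` -/
theorem partitionFn_congr {φ φ' : ℝ → ℝ} {L : ℝ} (h : ∀ r, 0 ≤ r → r ≤ 2 * L → φ r = φ' r)
    (N : ℕ) (β : ℝ) : partitionFn φ L N β = partitionFn φ' L N β := by
  unfold partitionFn
  congr 1
  refine setIntegral_congr_fun (measurableSet_pi (reg_cube L).meas N) ?_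
  intro x hx
  have hx' : ∀ i, x i ∈ cube L := fun i => hx i (Set.mem_univ i)
  show Real.exp (-β * energy φ x) = Real.exp (-β * energy φ' x)
  congr 2
  unfold energy
  exact Finset.sum_congr rfl fun p _ => h _ dist_nonneg (easy_dist_le (hx' _) (hx' _))

/-- corner of the cube number `α` -/
private noncomputable def easyCorner (h : ℝ) {m : ℕ} (α : Fin 3 → Fin m) : Pt :=
  WithLp.toLp 2 (fun a => ((α a : ℕ) : ℝ) * h)

private theorem easy_idx {ℓ b : ℝ} (hb : 0 < b) (hℓ : 0 < ℓ) {m : ℕ} (α : Fin 3 → Fin m) {x : Pt}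
    (hx : x ∈ cubeAt (easyCorner (ℓ + b) α) ℓ) :
    idx (ℓ + b) 0 x = fun a => ((α a : ℕ) : ℤ) := by
  funext a
  have hh : 0 < ℓ + b := by positivity
  have h1 := hx a
  have hv : easyCorner (ℓ + b) α a = ((α a : ℕ) : ℝ) * (ℓ + b) := rfl
  rw [hv] at h1
  unfold idx
  rw [Int.floor_eq_iff]
  have h0 : (0 : Pt) a = 0 := rfl
  rw [h0, add_zero]
  constructor
  · rw [le_div_iff₀ hh]
    push_cast
    exact h1.1
  · rw [div_lt_iff₀ hh]
    push_cast
    nlinarith [h1.2]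

private theorem easy_dist_ge {ℓ b : ℝ} (hb : 0 < b) (hℓ : 0 < ℓ) {m : ℕ} {α α' : Fin 3 → Fin m}
    (hne : α ≠ α') {x y : Pt} (hx : x ∈ cubeAt (easyCorner (ℓ + b) α) ℓ)
    (hy : y ∈ cubeAt (easyCorner (ℓ + b) α') ℓ) : b ≤ dist x y := by
  obtain ⟨a, ha⟩ : ∃ a, α a ≠ α' a := by
    by_contra hcon
    simp only [not_exists, not_not] at hcon
    exact hne (funext hcon)
  have hh : 0 < ℓ + b := by positivity
  have h1 := hx a
  have h2 := hy a
  have hv : easyCorner (ℓ + b) α a = ((α a : ℕ) : ℝ) * (ℓ + b) := rfl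
  have hv' : easyCorner (ℓ + b) α' a = ((α' a : ℕ) : ℝ) * (ℓ + b) := rfl
  rw [hv] at h1
  rw [hv'] at h2
  have hle : |x a - y a| ≤ dist x y := by
    rw [dist_eq_norm]
    have := PiLp.norm_apply_le (x - y) a
    simpa [Real.norm_eq_abs] using this
  refine le_trans ?_ hle
  have hna : ((α a : ℕ)) ≠ ((α' a : ℕ)) := fun hcon => ha (Fin.ext hcon)
  rcases Nat.lt_or_gt_of_ne hna with hlt | hlt
  · have h3 : ((α a : ℕ) : ℝ) + 1 ≤ ((α' a : ℕ) : ℝ) := by exact_mod_cast hlt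
    have h4 : b ≤ y a - x a := by nlinarith [h1.2, h2.1]
    rw [abs_sub_comm]
    exact h4.trans (le_abs_self _)
  · have h3 : ((α' a : ℕ) : ℝ) + 1 ≤ ((α a : ℕ) : ℝ) := by exact_mod_cast hlt
    have h4 : b ≤ x a - y a := by nlinarith [h2.2, h1.1]
    exact h4.trans (le_abs_self _)

/-- A6 (Lemma E): `m^3` cubes of side `ℓ` at mesh `ℓ + b`, occupation numbers `n α`. -/
theorem easy_bound {U As Al : ℝ → ℝ} (hU : Measurable U) (hU0 : ∀ r, 0 ≤ U r)
    (hAs : Measurable As) (hAs0 : ∀ r, 0 ≤ As r) (hAl : Measurable Al) (hAl0 : ∀ r, 0 ≤ Al r)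
    {a : ℝ} (hAsa : ∀ r, As r ≤ a) (hAla : ∀ r, Al r ≤ a)
    {b : ℝ} (hb : 0 < b) (hUb : ∀ r, b ≤ r → U r = 0) {ℓ : ℝ} (hℓ : 0 < ℓ) (m : ℕ)
    (n : (Fin 3 → Fin m) → ℕ) (γ : (Fin 3 → ℤ) → ℝ)
    (hγ : ∀ x y : Pt, γ (idx (ℓ + b) 0 y - idx (ℓ + b) 0 x) ≤ Al (dist x y))
    {β : ℝ} (hβ : 0 < β) :
    (∏ α, partitionFn (fun r => U r - As r) ℓ (n α) β) *
        Real.exp (β * ((1 / 2) * ∑ α : Fin 3 → Fin m, ∑ α' ∈ Finset.univ.erase α,
          γ (fun i => ((α' i : ℕ) : ℤ) - ((α i : ℕ) : ℤ)) * n α * n α')) ≤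
      partitionFn (fun r => U r - As r - Al r) (m * (ℓ + b)) (∑ α, n α) β := by
  classical
  set φ : ℝ → ℝ := fun r => U r - As r - Al r with hφdef
  have hφ : Measurable φ := (hU.sub hAs).sub hAl
  have hφc : ∀ r, -(2 * a) ≤ φ r := by
    intro r
    have h1 := hU0 r
    have h2 := hAsa r
    have h3 := hAla r
    show -(2 * a) ≤ U r - As r - Al r
    linarith
  have hw : Adm (radW β φ) := adm_radW hφ hφc hβ.le
  set Λ : (Fin 3 → Fin m) → Set Pt := fun α => cubeAt (easyCorner (ℓ + b) α) ℓ with hΛdef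
  set df : (Fin 3 → Fin m) → (Fin 3 → Fin m) → (Fin 3 → ℤ) :=
    fun α α' => fun i => ((α' i : ℕ) : ℤ) - ((α i : ℕ) : ℤ) with hdf
  set g : (Fin 3 → Fin m) → (Fin 3 → Fin m) → ℝ :=
    fun α α' => β * max (γ (df α α')) (γ (df α' α)) with hg
  have hh : 0 < ℓ + b := by positivity
  have hreg : ∀ α ∈ (Finset.univ : Finset (Fin 3 → Fin m)), Reg (Λ α) :=
    fun α _ => reg_cubeAt _ _
  have hdisj : ((Finset.univ : Finset (Fin 3 → Fin m)) : Set (Fin 3 → Fin m)).PairwiseDisjoint Λ := by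
    intro α _ α' _ hne
    rw [Function.onFun, Set.disjoint_left]
    intro x hx hx'
    have h1 := easy_dist_ge hb hℓ hne hx hx'
    rw [dist_self] at h1
    linarith
  have hgs : ∀ α α', g α α' = g α' α := by
    intro α α'
    show β * max (γ (df α α')) (γ (df α' α)) = β * max (γ (df α' α)) (γ (df α α'))
    rw [max_comm]
  have hcross : ∀ α ∈ (Finset.univ : Finset (Fin 3 → Fin m)),
      ∀ α' ∈ (Finset.univ : Finset (Fin 3 → Fin m)), α ≠ α' → ∀ x ∈ Λ α, ∀ y ∈ Λ α',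
        radW β φ x y ≤ -(g α α') := by
    intro α _ α' _ hne x hx y hy
    have hd := easy_dist_ge hb hℓ hne hx hy
    have hix := easy_idx hb hℓ α hx
    have hiy := easy_idx hb hℓ α' hy
    have h1 : γ (df α α') ≤ Al (dist x y) := by
      have := hγ x y
      rw [hix, hiy] at this
      exact this
    have h2 : γ (df α' α) ≤ Al (dist x y) := by
      have := hγ y x
      rw [hix, hiy, dist_comm] at this
      exact this
    have h3 : max (γ (df α α')) (γ (df α' α)) ≤ Al (dist x y) := max_le h1 h2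
    show β * (U (dist x y) - As (dist x y) - Al (dist x y)) ≤
      -(β * max (γ (df α α')) (γ (df α' α)))
    rw [hUb _ hd]
    have h4 := hAs0 (dist x y)
    nlinarith [mul_le_mul_of_nonneg_left h3 hβ.le, mul_nonneg hβ.le h4]
  have hmain := ZW_biUnion_ge hw (Finset.univ : Finset (Fin 3 → Fin m)) Λ hreg hdisj g hgs hcross n
  -- the union is contained in the big cube
  have hsub : (⋃ α ∈ (Finset.univ : Finset (Fin 3 → Fin m)), Λ α) ⊆ cube (m * (ℓ + b)) := by
    intro x hx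
    simp only [Set.mem_iUnion] at hx
    obtain ⟨α, -, hx⟩ := hx
    intro k
    have h1 := hx k
    have hv : easyCorner (ℓ + b) α k = ((α k : ℕ) : ℝ) * (ℓ + b) := rfl
    rw [hv] at h1
    have h2 : ((α k : ℕ) : ℝ) + 1 ≤ (m : ℝ) := by exact_mod_cast (α k).isLt
    have h3 : (0 : ℝ) ≤ ((α k : ℕ) : ℝ) := Nat.cast_nonneg _
    constructor
    · exact le_trans (by positivity) h1.1
    · nlinarith [h1.2]
  have hmono := ZW_mono_set hw
    (Finset.measurableSet_biUnion Finset.univ fun α hα => (hreg α hα).meas)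
    (reg_cube (m * (ℓ + b))) hsub
    (∑ α, n α)
  rw [partitionFn_eq_ZW φ]
  refine le_trans ?_ (hmain.trans hmono)
  refine mul_le_mul ?_ ?_ (Real.exp_pos _).le
    (Finset.prod_nonneg fun α _ => ZW_nonneg _ _ _)
  · refine Finset.prod_le_prod (fun α _ => ?_) (fun α _ => ?_)
    · rw [partitionFn_eq_ZW]; exact ZW_nonneg _ _ _
    · show partitionFn (fun r => U r - As r) ℓ (n α) β ≤
        ZW (radW β φ) (cubeAt (easyCorner (ℓ + b) α) ℓ) (n α)
      rw [ZW_radW_cubeAt hφ hφc hβ.le]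
      refine partitionFn_anti_pot hφ (hU.sub hAs) hφc (fun r => ?_) hβ.le ℓ (n α)
      show U r - As r - Al r ≤ U r - As r
      linarith [hAl0 r]
  · rw [Real.exp_le_exp, ← mul_assoc, mul_comm β (1 / 2), mul_assoc, Finset.mul_sum]
    refine mul_le_mul_of_nonneg_left ?_ (by norm_num)
    refine Finset.sum_le_sum fun α _ => ?_
    rw [Finset.mul_sum]
    refine Finset.sum_le_sum fun α' _ => ?_
    show β * (γ (df α α') * n α * n α') ≤ β * max (γ (df α α')) (γ (df α' α)) * n α * n α'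
    have h1 : γ (df α α') ≤ max (γ (df α α')) (γ (df α' α)) := le_max_left _ _
    have h2 : (0 : ℝ) ≤ β * ((n α : ℝ) * (n α' : ℝ)) := by positivity
    nlinarith [mul_le_mul_of_nonneg_right h1 h2]

/-- counting: if `γ ≥ 0` vanishes outside `D ⊆ {|d|_∞ ≤ Dm}` then the double sum over `[m]^3` is at least
`(m - 2 Dm)^3 ∑_{d ∈ D, d ≠ 0} γ d`. -/
theorem deep_sum_ge (m Dm : ℕ) (γ : (Fin 3 → ℤ) → ℝ) (D : Finset (Fin 3 → ℤ)) (hγ0 : ∀ d, 0 ≤ γ d)
    (hD : ∀ d ∈ D, ∀ a, |d a| ≤ (Dm : ℤ)) :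
    ((m : ℝ) - 2 * Dm) ^ 3 * ∑ d ∈ D.erase 0, γ d ≤
      ∑ α : Fin 3 → Fin m, ∑ α' ∈ Finset.univ.erase α,
        γ (fun i => ((α' i : ℕ) : ℤ) - ((α i : ℕ) : ℤ)) := by
  classical
  have hS : 0 ≤ ∑ d ∈ D.erase 0, γ d := Finset.sum_nonneg fun d _ => hγ0 d
  have hR : ∀ α : Fin 3 → Fin m, 0 ≤ ∑ α' ∈ Finset.univ.erase α,
      γ (fun i => ((α' i : ℕ) : ℤ) - ((α i : ℕ) : ℤ)) :=
    fun α => Finset.sum_nonneg fun α' _ => hγ0 _
  rcases lt_or_ge m (2 * Dm) with hlt | hge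
  · have h1 : (m : ℝ) - 2 * Dm ≤ 0 := by
      have : (m : ℝ) ≤ 2 * Dm := by exact_mod_cast hlt.le
      linarith
    have h2 : ((m : ℝ) - 2 * Dm) ^ 3 ≤ 0 := by
      have : ((m : ℝ) - 2 * Dm) ^ 3 = ((m : ℝ) - 2 * Dm) * ((m : ℝ) - 2 * Dm) ^ 2 := by ring
      rw [this]
      exact mul_nonpos_of_nonpos_of_nonneg h1 (sq_nonneg _)
    exact (mul_nonpos_of_nonpos_of_nonneg h2 hS).trans (Finset.sum_nonneg fun α _ => hR α)
  · set k : ℕ := m - 2 * Dm with hk
    have hkm : k + 2 * Dm = m := by omega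
    have hkr : ((m : ℝ) - 2 * Dm) = (k : ℝ) := by
      have : (m : ℝ) = (k : ℝ) + 2 * Dm := by exact_mod_cast hkm.symm
      linarith
    -- the embedding of the deep cells
    let e : (Fin 3 → Fin k) → (Fin 3 → Fin m) := fun β a => ⟨(β a : ℕ) + Dm, by
      have := (β a).isLt
      omega⟩
    have he : Function.Injective e := by
      intro β β' hββ
      funext a
      have := congrArg (fun f => ((f a : Fin m) : ℕ)) hββ
      simp only [e] at this
      exact Fin.ext (by omega)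
    -- step 2
    have hstep : ∀ β : Fin 3 → Fin k, ∑ d ∈ D.erase 0, γ d ≤
        ∑ α' ∈ Finset.univ.erase (e β),
          γ (fun i => ((α' i : ℕ) : ℤ) - (((e β) i : ℕ) : ℤ)) := by
      intro β
      have hbd : ∀ d ∈ D.erase 0, ∀ a, 0 ≤ ((β a : ℕ) : ℤ) + Dm + d a ∧
          ((β a : ℕ) : ℤ) + Dm + d a < m := by
        intro d hd a
        have h1 := hD d (Finset.mem_of_mem_erase hd) a
        rw [abs_le] at h1
        have h2 := (β a).isLt
        constructor
        · have : (0 : ℤ) ≤ ((β a : ℕ) : ℤ) := Int.natCast_nonneg _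
          omega
        · omega
      let t : (Fin 3 → ℤ) → (Fin 3 → Fin m) := fun d a =>
        if h : (((β a : ℕ) : ℤ) + Dm + d a).toNat < m then
          ⟨(((β a : ℕ) : ℤ) + Dm + d a).toNat, h⟩ else e β a
      have ht : ∀ d ∈ D.erase 0, ∀ a, (((t d a : Fin m) : ℕ) : ℤ) = ((β a : ℕ) : ℤ) + Dm + d a := by
        intro d hd a
        have h1 := hbd d hd a
        have h2 : (((β a : ℕ) : ℤ) + Dm + d a).toNat < m := by omega
        simp only [t, dif_pos h2]
        omega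
      have hdiff : ∀ d ∈ D.erase 0,
          (fun i => (((t d i : Fin m) : ℕ) : ℤ) - (((e β) i : ℕ) : ℤ)) = d := by
        intro d hd
        funext i
        rw [ht d hd i]
        simp only [e]
        push_cast
        ring
      have htinj : Set.InjOn t (D.erase 0 : Finset (Fin 3 → ℤ)) := by
        intro d hd d' hd' hdd
        rw [← hdiff d hd, ← hdiff d' hd', hdd]
      calc ∑ d ∈ D.erase 0, γ d
          = ∑ d ∈ D.erase 0, γ (fun i => (((t d i : Fin m) : ℕ) : ℤ) - (((e β) i : ℕ) : ℤ)) :=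
            Finset.sum_congr rfl fun d hd => by rw [hdiff d hd]
        _ = ∑ α' ∈ (D.erase 0).image t,
              γ (fun i => ((α' i : ℕ) : ℤ) - (((e β) i : ℕ) : ℤ)) :=
            (Finset.sum_image (f := fun α' : Fin 3 → Fin m =>
              γ (fun i => ((α' i : ℕ) : ℤ) - (((e β) i : ℕ) : ℤ))) htinj).symm
        _ ≤ ∑ α' ∈ Finset.univ.erase (e β),
              γ (fun i => ((α' i : ℕ) : ℤ) - (((e β) i : ℕ) : ℤ)) := by
            refine Finset.sum_le_sum_of_subset_of_nonneg ?_ (fun _ _ _ => hγ0 _)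
            intro α' hα'
            rw [Finset.mem_image] at hα'
            obtain ⟨d, hd, rfl⟩ := hα'
            rw [Finset.mem_erase]
            refine ⟨?_, Finset.mem_univ _⟩
            intro hcon
            have h1 := hdiff d hd
            rw [hcon] at h1
            have h2 : d = 0 := by
              rw [← h1]
              funext i
              simp
            exact (Finset.ne_of_mem_erase hd) h2
    calc ((m : ℝ) - 2 * Dm) ^ 3 * ∑ d ∈ D.erase 0, γ d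
        = ∑ _β : Fin 3 → Fin k, ∑ d ∈ D.erase 0, γ d := by
          rw [Finset.sum_const, hkr]
          simp
      _ ≤ ∑ β : Fin 3 → Fin k, ∑ α' ∈ Finset.univ.erase (e β),
            γ (fun i => ((α' i : ℕ) : ℤ) - (((e β) i : ℕ) : ℤ)) :=
          Finset.sum_le_sum fun β _ => hstep β
      _ = ∑ α ∈ Finset.univ.image e, ∑ α' ∈ Finset.univ.erase α,
            γ (fun i => ((α' i : ℕ) : ℤ) - ((α i : ℕ) : ℤ)) :=
          (Finset.sum_image (f := fun α : Fin 3 → Fin m => ∑ α' ∈ Finset.univ.erase α,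
            γ (fun i => ((α' i : ℕ) : ℤ) - ((α i : ℕ) : ℤ))) (fun x _ y _ hxy => he hxy)).symm
      _ ≤ ∑ α : Fin 3 → Fin m, ∑ α' ∈ Finset.univ.erase α,
            γ (fun i => ((α' i : ℕ) : ℤ) - ((α i : ℕ) : ℤ)) :=
          Finset.sum_le_sum_of_subset_of_nonneg (Finset.subset_univ _) (fun α _ _ => hR α)

end Crest.Agent.PT
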