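import Crest.Agent.PT_EnergyAlg

/-! Row 149, task A5-0 (done): `Uf`, pairs at short distance (used in A5, A8).  Linearity of `energy`: see `PT_EnergyAlg`. -/

set_option autoImplicit false

namespace Crest.Agent.PT

open Crest.ProbabilityR.Continuum

/-- the repulsive part `U = U0 + ω` of the potential -/
noncomputable def Uf (om : ℝ → ℝ) (δ lam : ℝ) (r : ℝ) : ℝ := U0 δ lam r + om r

theorem phik_eq (om : ℝ → ℝ) (p δ lam T : ℝ) (k : ℕ) :
    phik om p δ lam T k = fun r => Uf om δ lam r - Alt p lam T k r := rfl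

theorem phi_eq (om : ℝ → ℝ) (p δ lam T : ℝ) :
    phi om p δ lam T = fun r => Uf om δ lam r - Atot p lam T r := rfl

/-- number of pairs `i<j` at distance `< s` -/
noncomputable def closePairs (s : ℝ) {N : ℕ} (x : Fin N → Pt) : ℕ :=
  (Finset.univ.filter (fun q : Fin N × Fin N => q.1 < q.2 ∧ dist (x q.1) (x q.2) < s)).card

variable {N : ℕ} (x : Fin N → Pt)

theorem energy_congr {f g : ℝ → ℝ} (h : ∀ i j, f (dist (x i) (x j)) = g (dist (x i) (x j))) :
    energy f x = energy g x := by
  simp only [energy]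
  exact Finset.sum_congr rfl (fun q _ => h _ _)

/-- `energy` as a sum over a filter of `Fin N × Fin N` -/
theorem energy_eq_sum_filter (f : ℝ → ℝ) :
    energy f x = ∑ q ∈ Finset.univ.filter (fun q : Fin N × Fin N => q.1 < q.2),
      f (dist (x q.1) (x q.2)) := by
  simp only [energy]
  rw [Finset.sum_subtype (Finset.univ.filter (fun q : Fin N × Fin N => q.1 < q.2))
    (p := fun q : Fin N × Fin N => q.1 < q.2) (by simp)]

/-- a nonnegative potential which is `≥ c` below distance `s` -/
theorem energy_ge_closePairs {U : ℝ → ℝ} (hU0 : ∀ r, 0 ≤ U r) {c s : ℝ}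
    (hUs : ∀ r, 0 ≤ r → r < s → c ≤ U r) : c * closePairs s x ≤ energy U x := by
  rw [energy_eq_sum_filter, closePairs]
  have hsub : Finset.univ.filter (fun q : Fin N × Fin N => q.1 < q.2 ∧ dist (x q.1) (x q.2) < s) ⊆
      Finset.univ.filter (fun q : Fin N × Fin N => q.1 < q.2) := by
    intro q hq
    simp only [Finset.mem_filter, Finset.mem_univ, true_and] at hq ⊢
    exact hq.1
  refine le_trans ?_ (Finset.sum_le_sum_of_subset_of_nonneg hsub (fun q _ _ => hU0 _))
  rw [mul_comm, ← nsmul_eq_mul]
  apply Finset.card_nsmul_le_sum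
  intro q hq
  simp only [Finset.mem_filter, Finset.mem_univ, true_and] at hq
  exact hUs _ dist_nonneg hq.2

end Crest.Agent.PT
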