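import Crest.Agent.PT_PotA

/-! Row 149, task POT4: `energy` is additive and monotone in the potential; exchange with the series `Atot`, `Age`. -/

set_option autoImplicit false

namespace Crest.Agent.PT

open MeasureTheory Crest.ProbabilityR.Continuum

theorem energy_add (f g : ℝ → ℝ) {N : ℕ} (x : Fin N → Pt) :
    energy (fun r => f r + g r) x = energy f x + energy g x := by
  unfold energy
  exact Finset.sum_add_distrib
theorem energy_sub (f g : ℝ → ℝ) {N : ℕ} (x : Fin N → Pt) :
    energy (fun r => f r - g r) x = energy f x - energy g x := by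
  unfold energy
  exact Finset.sum_sub_distrib _ _
theorem energy_smul (c : ℝ) (f : ℝ → ℝ) {N : ℕ} (x : Fin N → Pt) :
    energy (fun r => c * f r) x = c * energy f x := by
  unfold energy
  exact (Finset.mul_sum _ _ _).symm
theorem energy_sum {ι : Type*} (s : Finset ι) (f : ι → ℝ → ℝ) {N : ℕ} (x : Fin N → Pt) :
    energy (fun r => ∑ i ∈ s, f i r) x = ∑ i ∈ s, energy (f i) x := by
  unfold energy
  exact Finset.sum_comm
theorem energy_mono {f g : ℝ → ℝ} (h : ∀ r, 0 ≤ r → f r ≤ g r) {N : ℕ} (x : Fin N → Pt) :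
    energy f x ≤ energy g x := by
  unfold energy
  exact Finset.sum_le_sum (fun p _ => h _ dist_nonneg)
theorem energy_nonneg {f : ℝ → ℝ} (h : ∀ r, 0 ≤ r → 0 ≤ f r) {N : ℕ} (x : Fin N → Pt) :
    0 ≤ energy f x := by
  unfold energy
  exact Finset.sum_nonneg (fun p _ => h _ dist_nonneg)
theorem energy_tsum (f : ℕ → ℝ → ℝ) (hf : ∀ r, Summable (fun j => f j r)) {N : ℕ} (x : Fin N → Pt) :
    Summable (fun j => energy (f j) x) ∧ energy (fun r => ∑' j, f j r) x = ∑' j, energy (f j) x := by
  unfold energy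
  constructor
  · exact summable_sum (fun p _ => hf _)
  · exact (Summable.tsum_finsetSum (fun p _ => hf _)).symm

/-- if `c_j E[A_{R_j}](x) ≤ κ_j Q` for all `j ≥ k` then `E[A_{≥k}](x) ≤ K_k Q` -/
theorem energy_Age_le {p lam T : ℝ} (hp : 1 ≤ p) (hlam : 0 < lam) (hT : 12 ≤ T) (k : ℕ) {N : ℕ}
    (x : Fin N → Pt) (Q : ℝ)
    (h : ∀ j, k ≤ j → ck p lam T j * energy (AR (Rk T j)) x ≤ kap T j * Q) :
    energy (Age p lam T k) x ≤ Kap T k * Q := by
  have h1 := energy_tsum (fun j r => ck p lam T (k + j) * AR (Rk T (k + j)) r)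
    (fun r => summable_Age hp hlam hT k r) x
  have h2 : energy (Age p lam T k) x
      = ∑' j : ℕ, energy (fun r => ck p lam T (k + j) * AR (Rk T (k + j)) r) x := h1.2
  rw [h2]
  unfold Kap
  rw [← tsum_mul_right]
  refine Summable.tsum_le_tsum (fun j => ?_) h1.1 ((summable_kap hT k).mul_right Q)
  rw [energy_smul]
  exact h (k + j) (Nat.le_add_right k j)

end Crest.Agent.PT
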