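import Crest.Agent.PT_Basic
import Crest.Agent.PT_Cube

/-! Row 149, task IG: volume of configurations following a rooted forest (blueprint I9), and cluster volume (I10).
I9: induct on the number of non-roots; integrate out a non-root of maximal rank (nobody points to it).
Implemented with `lmarginal` (no re-indexing): `volume_iInter_of_rank`, `forest_volume_eq`. -/

set_option autoImplicit false

namespace Crest.Agent.PT

open MeasureTheory Crest.ProbabilityR.Continuum
open scoped ENNReal

/-- Abstract form of I9/I10: sets `E i` of configurations such that `E i` has sections of volume `c i` in the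
coordinate `i` and does not depend on the coordinates `a ≠ i` of rank `≥` the rank of `i`. -/
theorem volume_iInter_of_rank {N : ℕ} (E : Fin N → Set (Fin N → Pt)) (hE : ∀ i, MeasurableSet (E i))
    (c : Fin N → ℝ≥0∞) (h : Fin N → ℕ)
    (H1 : ∀ a x, volume {t : Pt | Function.update x a t ∈ E a} = c a)
    (H2 : ∀ i a, i ≠ a → h i ≤ h a → ∀ (x : Fin N → Pt) (t : Pt),
      (Function.update x a t ∈ E i ↔ x ∈ E i)) :
    volume (⋂ i, E i) = ∏ i, c i := by
  classical
  set μ : Fin N → Measure Pt := fun _ => volume with hμ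
  set F : (Fin N → Pt) → ℝ≥0∞ := fun x => ∏ i, (E i).indicator 1 x with hF
  have hFm : Measurable F := by
    apply Finset.measurable_fun_prod
    intro i _
    exact measurable_one.indicator (hE i)
  have key : ∀ A : Finset (Fin N), (∀ i, i ∉ A → ∀ j ∈ A, h i ≤ h j) → ∀ x,
      (∫⋯∫⁻_A, F ∂μ) x = (∏ i ∈ A, c i) * ∏ i ∈ Aᶜ, (E i).indicator 1 x := by
    intro A
    induction A using Finset.induction_on_min_value h with
    | empty => intro _ x; simp [hF]
    | insert a s has hmin ih =>
      intro htop x
      have htop' : ∀ i, i ∉ s → ∀ j ∈ s, h i ≤ h j := by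
        intro i hi j hj
        by_cases hia : i = a
        · subst hia; exact hmin j hj
        · exact htop i (by simp [hia, hi]) j (Finset.mem_insert_of_mem hj)
      rw [lmarginal_insert F hFm has x]
      have hpt : ∀ t, (∫⋯∫⁻_s, F ∂μ) (Function.update x a t) =
          ((∏ i ∈ s, c i) * ∏ i ∈ (insert a s)ᶜ, (E i).indicator 1 x) *
            {t : Pt | Function.update x a t ∈ E a}.indicator 1 t := by
        intro t
        rw [ih htop']
        have hc : sᶜ = insert a (insert a s)ᶜ := by
          ext i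
          simp only [Finset.mem_compl, Finset.mem_insert, not_or]
          by_cases hia : i = a
          · subst hia; simp [has]
          · simp [hia]
        rw [hc, Finset.prod_insert (by simp)]
        have h2 : ∏ i ∈ (insert a s)ᶜ, (E i).indicator (1 : (Fin N → Pt) → ℝ≥0∞) (Function.update x a t) =
            ∏ i ∈ (insert a s)ᶜ, (E i).indicator (1 : (Fin N → Pt) → ℝ≥0∞) x := by
          apply Finset.prod_congr rfl
          intro i hi
          have hi' : i ∉ insert a s := by simpa using hi
          have hia : i ≠ a := fun e => hi' (by simp [e])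
          have := H2 i a hia (htop i hi' a (Finset.mem_insert_self _ _)) x t
          simp [Set.indicator_apply, this]
        rw [h2]
        have h3 : (E a).indicator (1 : (Fin N → Pt) → ℝ≥0∞) (Function.update x a t) =
            {t : Pt | Function.update x a t ∈ E a}.indicator 1 t := by
          simp [Set.indicator_apply]
        rw [h3]
        ring
      simp_rw [hpt]
      have hm : MeasurableSet {t : Pt | Function.update x a t ∈ E a} :=
        (measurable_update x) (hE a)
      rw [lintegral_const_mul _ (measurable_one.indicator hm), lintegral_indicator_one hm, H1,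
        Finset.prod_insert has]
      ring
  have h1 : volume (⋂ i, E i) = ∫⁻ x, F x ∂(Measure.pi μ) := by
    have : F = (⋂ i, E i).indicator 1 := by
      funext x
      simp only [hF]
      by_cases hx : x ∈ ⋂ i, E i
      · rw [Set.indicator_of_mem hx]
        apply Finset.prod_eq_one
        intro i _
        rw [Set.indicator_of_mem (Set.mem_iInter.1 hx i)]; rfl
      · rw [Set.indicator_of_notMem hx]
        obtain ⟨i, hi⟩ := by simpa using hx
        exact Finset.prod_eq_zero (Finset.mem_univ i) (Set.indicator_of_notMem hi _)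
    rw [this, lintegral_indicator_one (MeasurableSet.iInter hE)]
    rfl
  have h2 := key Finset.univ (by simp) 0
  rw [lmarginal_univ] at h2
  rw [h1]
  refine h2.trans ?_
  simp

/-- exact volume of the configurations following a rooted forest with offsets -/
theorem forest_volume_eq {N : ℕ} {Λ : Set Pt} (hΛ : MeasurableSet Λ) (S : Finset (Fin N))
    (π : Fin N → Fin N) (h : Fin N → ℕ) (hπ : ∀ i, i ∉ S → h (π i) < h i) (o : Fin N → Pt) (s : ℝ) :
    volume {x : Fin N → Pt | (∀ i, i ∈ S → x i ∈ Λ) ∧
        ∀ i, i ∉ S → x i ∈ Metric.ball (x (π i) + o i) s} =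
      volume Λ ^ S.card * volume (Metric.ball (0 : Pt) s) ^ (N - S.card) := by
  classical
  set E : Fin N → Set (Fin N → Pt) := fun i =>
    if i ∈ S then {x | x i ∈ Λ} else {x | x i ∈ Metric.ball (x (π i) + o i) s} with hE
  set c : Fin N → ℝ≥0∞ := fun i => if i ∈ S then volume Λ else volume (Metric.ball (0 : Pt) s) with hc
  have hEm : ∀ i, MeasurableSet (E i) := by
    intro i
    by_cases hi : i ∈ S
    · simp only [hE, hi, if_true]
      exact (measurable_pi_apply i) hΛ
    · simp only [hE, hi, if_false]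
      have : {x : Fin N → Pt | x i ∈ Metric.ball (x (π i) + o i) s} =
          {x | dist (x i) (x (π i) + o i) < s} := by ext x; simp [Metric.mem_ball]
      rw [this]
      exact measurableSet_lt ((measurable_pi_apply i).dist
        ((measurable_pi_apply (π i)).add measurable_const)) measurable_const
  have H1 : ∀ a x, volume {t : Pt | Function.update x a t ∈ E a} = c a := by
    intro a x
    by_cases ha : a ∈ S
    · simp [hE, hc, ha]
    · have hne : π a ≠ a := fun e => by have := hπ a ha; rw [e] at this; exact lt_irrefl _ this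
      simp only [hE, hc, ha, if_false, Set.mem_ofPred_eq, Function.update_self,
        Function.update_of_ne hne]
      exact Measure.addHaar_ball_center volume _ s
  have H2 : ∀ i a, i ≠ a → h i ≤ h a → ∀ (x : Fin N → Pt) (t : Pt),
      (Function.update x a t ∈ E i ↔ x ∈ E i) := by
    intro i a hia hle x t
    by_cases hi : i ∈ S
    · simp [hE, hi, Function.update_of_ne hia]
    · have hne : π i ≠ a := fun e => by
        have := hπ i hi; rw [e] at this; exact absurd hle (not_le.2 this)
      simp [hE, hi, Function.update_of_ne hia, Function.update_of_ne hne]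
  have hset : {x : Fin N → Pt | (∀ i, i ∈ S → x i ∈ Λ) ∧
      ∀ i, i ∉ S → x i ∈ Metric.ball (x (π i) + o i) s} = ⋂ i, E i := by
    ext x
    simp only [Set.mem_ofPred_eq, Set.mem_iInter]
    constructor
    · rintro ⟨h1, h2⟩ i
      by_cases hi : i ∈ S
      · simpa [hE, hi] using h1 i hi
      · simpa [hE, hi] using h2 i hi
    · intro hx
      refine ⟨fun i hi => ?_, fun i hi => ?_⟩
      · simpa [hE, hi] using hx i
      · simpa [hE, hi] using hx i
  rw [hset, volume_iInter_of_rank E hEm c h H1 H2]
  simp only [hc]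
  rw [Finset.prod_ite, Finset.prod_const, Finset.prod_const]
  congr 2
  · congr 1; ext i; simp
  · have : (Finset.univ.filter fun i => i ∉ S) = Sᶜ := by ext i; simp
    rw [this, Finset.card_compl, Fintype.card_fin]

/-- I9 -/
theorem forest_volume {N : ℕ} {Λ : Set Pt} (hΛ : Reg Λ) (S : Finset (Fin N)) (π : Fin N → Fin N)
    (h : Fin N → ℕ) (hπ : ∀ i, i ∉ S → h (π i) < h i) {s : ℝ} (hs : 0 < s) :
    (volume {x : Fin N → Pt | (∀ i, x i ∈ Λ) ∧ ∀ i, i ∉ S → dist (x i) (x (π i)) < s}).toReal ≤
      vol Λ ^ S.card * vol (Metric.ball (0 : Pt) s) ^ (N - S.card) := by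
  have h1 := forest_volume_eq hΛ.meas S π h hπ 0 s
  have hsub : {x : Fin N → Pt | (∀ i, x i ∈ Λ) ∧ ∀ i, i ∉ S → dist (x i) (x (π i)) < s} ⊆
      {x : Fin N → Pt | (∀ i, i ∈ S → x i ∈ Λ) ∧
        ∀ i, i ∉ S → x i ∈ Metric.ball (x (π i) + (0 : Fin N → Pt) i) s} := by
    rintro x ⟨hx1, hx2⟩
    exact ⟨fun i _ => hx1 i, fun i hi => by simpa [Metric.mem_ball] using hx2 i hi⟩
  have h2 := (measure_mono hsub).trans_eq h1
  have hfin : volume Λ ^ S.card * volume (Metric.ball (0 : Pt) s) ^ (N - S.card) ≠ ⊤ :=
    ENNReal.mul_ne_top (ENNReal.pow_ne_top hΛ.fin) (ENNReal.pow_ne_top measure_ball_lt_top.ne)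
  have h3 := ENNReal.toReal_mono hfin h2
  simpa [vol, ENNReal.toReal_mul, ENNReal.toReal_pow] using h3

theorem forest_measurable {N : ℕ} {Λ : Set Pt} (hΛ : MeasurableSet Λ) (S : Finset (Fin N))
    (π : Fin N → Fin N) (s : ℝ) :
    MeasurableSet {x : Fin N → Pt | (∀ i, x i ∈ Λ) ∧ ∀ i, i ∉ S → dist (x i) (x (π i)) < s} := by
  have h1 : MeasurableSet {x : Fin N → Pt | ∀ i, x i ∈ Λ} := by
    have : {x : Fin N → Pt | ∀ i, x i ∈ Λ} = ⋂ i, (fun x : Fin N → Pt => x i) ⁻¹' Λ := by
      ext x; simp
    rw [this]
    exact MeasurableSet.iInter fun i => (measurable_pi_apply i) hΛ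
  have h2 : MeasurableSet {x : Fin N → Pt | ∀ i, i ∉ S → dist (x i) (x (π i)) < s} := by
    have : {x : Fin N → Pt | ∀ i, i ∉ S → dist (x i) (x (π i)) < s} =
        ⋂ i, ⋂ (_ : i ∉ S), {x : Fin N → Pt | dist (x i) (x (π i)) < s} := by
      ext x; simp
    rw [this]
    exact MeasurableSet.iInter fun i => MeasurableSet.iInter fun _ =>
      measurableSet_lt ((measurable_pi_apply i).dist (measurable_pi_apply (π i))) measurable_const
  exact h1.inter h2

/-- I10: particle `0` free in a ball, the others in small balls around prescribed offsets from particle `0`. -/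
theorem cluster_volume {n : ℕ} (y : Pt) (o : Fin (n + 1) → Pt) {ϱ σ : ℝ} (hϱ : 0 < ϱ) (hσ : 0 < σ) :
    (volume {x : Fin (n + 1) → Pt | x 0 ∈ Metric.ball y ϱ ∧
        ∀ j, j ≠ 0 → x j ∈ Metric.ball (x 0 + o j) σ}).toReal =
      vol (Metric.ball (0 : Pt) ϱ) * vol (Metric.ball (0 : Pt) σ) ^ n := by
  have h1 := forest_volume_eq (N := n + 1) (Λ := Metric.ball y ϱ) measurableSet_ball {0}
    (fun _ => 0) (fun i => if i = 0 then 0 else 1) (by
      intro i hi
      have hi' : i ≠ 0 := by simpa using hi
      simp [hi']) o σ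
  have hset : {x : Fin (n + 1) → Pt | x 0 ∈ Metric.ball y ϱ ∧
        ∀ j, j ≠ 0 → x j ∈ Metric.ball (x 0 + o j) σ} =
      {x : Fin (n + 1) → Pt | (∀ i, i ∈ ({0} : Finset (Fin (n + 1))) → x i ∈ Metric.ball y ϱ) ∧
        ∀ i, i ∉ ({0} : Finset (Fin (n + 1))) → x i ∈ Metric.ball (x 0 + o i) σ} := by
    ext x; simp
  rw [hset, h1, Measure.addHaar_ball_center]
  simp [vol, ENNReal.toReal_mul, ENNReal.toReal_pow]

theorem cluster_measurable {n : ℕ} (y : Pt) (o : Fin (n + 1) → Pt) (ϱ σ : ℝ) :
    MeasurableSet {x : Fin (n + 1) → Pt | x 0 ∈ Metric.ball y ϱ ∧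
        ∀ j, j ≠ 0 → x j ∈ Metric.ball (x 0 + o j) σ} := by
  have h1 : MeasurableSet {x : Fin (n + 1) → Pt | x 0 ∈ Metric.ball y ϱ} :=
    (measurable_pi_apply 0) measurableSet_ball
  have h2 : MeasurableSet {x : Fin (n + 1) → Pt | ∀ j, j ≠ 0 → x j ∈ Metric.ball (x 0 + o j) σ} := by
    have : {x : Fin (n + 1) → Pt | ∀ j, j ≠ 0 → x j ∈ Metric.ball (x 0 + o j) σ} =
        ⋂ j, ⋂ (_ : j ≠ 0), {x : Fin (n + 1) → Pt | dist (x j) (x 0 + o j) < σ} := by
      ext x; simp [Metric.mem_ball]
    rw [this]
    exact MeasurableSet.iInter fun j => MeasurableSet.iInter fun _ =>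
      measurableSet_lt ((measurable_pi_apply j).dist
        ((measurable_pi_apply 0).add measurable_const)) measurable_const
  exact h1.inter h2

end Crest.Agent.PT
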