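import Mathlib

/-!
# Row 149, I-block: abstract partition functions on a σ-finite measure space

Generic (index-type independent) pair energy, reindexing, two-block splitting.
-/

set_option autoImplicit false
set_option linter.unusedSectionVars false

open MeasureTheory Set

namespace Crest.Agent.PTG

section Defs

variable {X : Type}

/-- pair energy `∑_{i<j} w (x i) (x j)`. -/
noncomputable def En (w : X → X → ℝ) {N : ℕ} (x : Fin N → X) : ℝ :=
  ∑ p : {p : Fin N × Fin N // p.1 < p.2}, w (x p.1.1) (x p.1.2)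

open Classical in
/-- symmetric form of the pair energy on an arbitrary finite index type. -/
noncomputable def EnG (w : X → X → ℝ) {ι : Type} [Fintype ι] (x : ι → X) : ℝ :=
  (1 / 2) * ∑ i, ∑ j, if i = j then 0 else w (x i) (x j)

/-- one-body field energy. -/
noncomputable def Fld (u : X → ℝ) {ι : Type} [Fintype ι] (x : ι → X) : ℝ := ∑ i, u (x i)

/-- Boltzmann factor. -/
noncomputable def Bz (w : X → X → ℝ) (u : X → ℝ) {ι : Type} [Fintype ι] (x : ι → X) : ℝ :=
  Real.exp (-(EnG w x) - Fld u x)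

lemma EnG_def (w : X → X → ℝ) {ι : Type} [Fintype ι] [DecidableEq ι] (x : ι → X) :
    EnG w x = (1 / 2) * ∑ i, ∑ j, if i = j then 0 else w (x i) (x j) := by
  unfold EnG
  congr! 5

lemma En_eq_EnG {w : X → X → ℝ} (hw : ∀ x y, w x y = w y x) {N : ℕ} (x : Fin N → X) :
    En w x = EnG w x := by
  rw [EnG_def]
  unfold En
  set F : Fin N × Fin N → ℝ := fun p => w (x p.1) (x p.2) with hF
  have h1 : ∑ p : {p : Fin N × Fin N // p.1 < p.2}, w (x p.1.1) (x p.1.2)
      = ∑ p : Fin N × Fin N, if p.1 < p.2 then F p else 0 := by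
    rw [← Finset.sum_filter]
    rw [← Finset.sum_subtype_eq_sum_filter, Finset.subtype_univ]
  have h2 : ∑ p : Fin N × Fin N, (if p.2 < p.1 then F p else 0)
      = ∑ p : Fin N × Fin N, if p.1 < p.2 then F p else 0 := by
    rw [← (Equiv.prodComm (Fin N) (Fin N)).sum_comp]
    refine Finset.sum_congr rfl fun p _ => ?_
    simp [hF, hw (x p.2) (x p.1)]
  have h3 : ∑ i, ∑ j, (if i = j then 0 else w (x i) (x j))
      = ∑ p : Fin N × Fin N, ((if p.1 < p.2 then F p else 0) + (if p.2 < p.1 then F p else 0)) := by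
    rw [← Finset.univ_product_univ, Finset.sum_product]
    refine Finset.sum_congr rfl fun i _ => Finset.sum_congr rfl fun j _ => ?_
    rcases lt_trichotomy i j with h | h | h
    · simp [h, h.ne, h.le.not_gt, hF]
    · simp [h]
    · simp [h, h.ne', h.le.not_gt, hF]
  rw [h3, Finset.sum_add_distrib, h2, h1]
  ring

end Defs

section Meas

variable {X : Type} [MeasurableSpace X]

/-- admissible pair function: symmetric, measurable, bounded below. -/
structure Adm (w : X → X → ℝ) : Prop where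
  symm : ∀ x y, w x y = w y x
  meas : Measurable (Function.uncurry w)
  bdd : ∃ c : ℝ, ∀ x y, -c ≤ w x y

/-- admissible one-body field: measurable, bounded below. -/
structure AdmF (u : X → ℝ) : Prop where
  meas : Measurable u
  bdd : ∃ c : ℝ, ∀ x, -c ≤ u x

lemma admF_zero : AdmF (fun _ : X => (0 : ℝ)) := ⟨measurable_const, 0, fun _ => by simp⟩

variable {w : X → X → ℝ} {u : X → ℝ} {ι : Type} [Fintype ι]

lemma measurable_EnG (hw : Measurable (Function.uncurry w)) :
    Measurable (fun x : ι → X => EnG w x) := by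
  classical
  unfold EnG
  refine Measurable.const_mul ?_ _
  refine Finset.measurable_sum _ fun i _ => Finset.measurable_sum _ fun j _ => ?_
  by_cases h : i = j
  · simp [h]
  · simp only [h, if_false]
    exact hw.comp (g := Function.uncurry w) (f := fun x : ι → X => (x i, x j))
      ((measurable_pi_apply i).prodMk (measurable_pi_apply j))

lemma measurable_Fld (hu : Measurable u) : Measurable (fun x : ι → X => Fld u x) := by
  unfold Fld
  exact Finset.measurable_sum _ fun i _ => hu.comp (measurable_pi_apply i)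

lemma measurable_Bz (hw : Measurable (Function.uncurry w)) (hu : Measurable u) :
    Measurable (fun x : ι → X => Bz w u x) := by
  unfold Bz
  exact Real.measurable_exp.comp ((measurable_EnG hw).neg.sub (measurable_Fld hu))

lemma Bz_pos (x : ι → X) : 0 < Bz w u x := Real.exp_pos _

lemma Bz_bdd (hw : Adm w) (hu : AdmF u) : ∃ C : ℝ, ∀ x : ι → X, Bz w u x ≤ C := by
  classical
  obtain ⟨c, hc⟩ := hw.bdd
  obtain ⟨d, hd⟩ := hu.bdd
  refine ⟨Real.exp ((1 / 2) * ∑ _i : ι, ∑ _j : ι, |c| + ∑ _i : ι, d), fun x => ?_⟩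
  unfold Bz
  apply Real.exp_le_exp.mpr
  have h1 : -((1 / 2) * ∑ _i : ι, ∑ _j : ι, |c|) ≤ EnG w x := by
    unfold EnG
    rw [← mul_neg, ← Finset.sum_neg_distrib]
    refine mul_le_mul_of_nonneg_left ?_ (by norm_num)
    refine Finset.sum_le_sum fun i _ => ?_
    rw [← Finset.sum_neg_distrib]
    refine Finset.sum_le_sum fun j _ => ?_
    split_ifs
    · simp
    · exact le_trans (neg_le_neg (le_abs_self c)) (hc _ _)
  have h2 : -(∑ _i : ι, d) ≤ Fld u x := by
    unfold Fld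
    rw [← Finset.sum_neg_distrib]
    exact Finset.sum_le_sum fun i _ => hd _
  linarith

end Meas

section Int

variable {X : Type} [MeasureSpace X] [SigmaFinite (volume : Measure X)]
variable {w : X → X → ℝ} {u : X → ℝ} {ι : Type} [Fintype ι]

lemma volume_box_lt_top {B : ι → Set X} (hB : ∀ i, volume (B i) < ⊤) :
    volume (Set.pi univ B) < ⊤ := by
  rw [volume_pi_pi]
  exact ENNReal.prod_lt_top fun i _ => hB i

lemma measurableSet_box {B : ι → Set X} (hB : ∀ i, MeasurableSet (B i)) :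
    MeasurableSet (Set.pi univ B) := MeasurableSet.univ_pi hB

lemma integrableOn_Bz (hw : Adm w) (hu : AdmF u) {s : Set (ι → X)} (hs : volume s < ⊤) :
    IntegrableOn (fun x : ι → X => Bz w u x) s := by
  obtain ⟨C, hC⟩ := Bz_bdd (ι := ι) hw hu
  refine Measure.integrableOn_of_bounded (M := C) hs.ne
    (measurable_Bz hw.meas hu.meas).aestronglyMeasurable ?_
  refine Filter.Eventually.of_forall fun x => ?_
  rw [Real.norm_eq_abs, abs_of_pos (Bz_pos x)]
  exact hC x

/-- reindexing of a box integral. -/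
lemma setIntegral_box_reindex {ι' : Type} [Fintype ι'] (e : ι ≃ ι') (Λ : Set X)
    (f : (ι' → X) → ℝ) :
    ∫ x in Set.pi univ (fun _ : ι' => Λ), f x
      = ∫ y in Set.pi univ (fun _ : ι => Λ), f (fun i' => y (e.symm i')) := by
  have mp := volume_preserving_arrowCongr' (β₁ := X) (β₂ := X) e (MeasurableEquiv.refl X)
    (MeasurePreserving.id _)
  rw [← mp.setIntegral_preimage_emb (MeasurableEquiv.measurableEmbedding _) f]
  congr 1
  congr 1
  ext y
  simp only [mem_preimage, mem_pi, mem_univ, forall_true_left]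
  constructor
  · intro h i
    have := h (e i)
    simpa [MeasurableEquiv.arrowCongr', Equiv.arrowCongr', Equiv.arrowCongr] using this
  · intro h i'
    exact h (e.symm i')

/-- Fubini for a box split along a predicate. -/
lemma setIntegral_box_prod (p : ι → Prop) [DecidablePred p] (B : ι → Set X)
    (f1 : ({i // p i} → X) → ℝ) (f2 : ({i // ¬ p i} → X) → ℝ) :
    ∫ x in Set.pi univ B, f1 (fun i => x i) * f2 (fun i => x i)
      = (∫ y in Set.pi univ (fun i : {i // p i} => B i), f1 y)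
        * ∫ z in Set.pi univ (fun i : {i // ¬ p i} => B i), f2 z := by
  have mp := volume_preserving_piEquivPiSubtypeProd (fun _ : ι => X) p
  rw [← setIntegral_prod_mul]
  have := mp.setIntegral_preimage_emb (MeasurableEquiv.measurableEmbedding _)
    (fun z : ({i // p i} → X) × ({i // ¬ p i} → X) => f1 z.1 * f2 z.2)
    ((Set.pi univ (fun i : {i // p i} => B i)) ×ˢ (Set.pi univ (fun i : {i // ¬ p i} => B i)))
  rw [Measure.volume_eq_prod] at this
  rw [← this]
  congr 1
  congr 1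
  ext x
  simp only [mem_preimage, mem_prod, mem_pi, mem_univ, forall_true_left]
  constructor
  · intro h
    exact ⟨fun i => h i, fun i => h i⟩
  · rintro ⟨h1, h2⟩ i
    by_cases hi : p i
    · exact h1 ⟨i, hi⟩
    · exact h2 ⟨i, hi⟩

/-- the box `{x | x i ∈ Λ1 for i ∈ S, x i ∈ Λ2 for i ∉ S}`. -/
def boxS [DecidableEq ι] (Λ1 Λ2 : Set X) (S : Finset ι) : Set (ι → X) :=
  Set.pi univ (fun i => if i ∈ S then Λ1 else Λ2)

lemma box_union_eq [DecidableEq ι] (Λ1 Λ2 : Set X) :
    Set.pi univ (fun _ : ι => Λ1 ∪ Λ2)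
      = ⋃ S ∈ (Finset.univ : Finset (Finset ι)), boxS Λ1 Λ2 S := by
  classical
  ext x
  simp only [mem_pi, mem_univ, forall_true_left, mem_union, Finset.mem_univ, iUnion_true,
    mem_iUnion, boxS]
  constructor
  · intro h
    refine ⟨Finset.univ.filter (fun i => x i ∈ Λ1), fun i => ?_⟩
    by_cases hi : x i ∈ Λ1
    · simp [hi]
    · simpa [hi] using (h i).resolve_left hi
  · rintro ⟨S, hS⟩ i
    have := hS i
    by_cases hi : i ∈ S
    · left; simpa [hi] using this
    · right; simpa [hi] using this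

lemma boxS_disjoint [DecidableEq ι] {Λ1 Λ2 : Set X} (hd : Disjoint Λ1 Λ2) {S T : Finset ι}
    (hST : S ≠ T) : Disjoint (boxS Λ1 Λ2 S) (boxS Λ1 Λ2 T) := by
  rw [Set.disjoint_left]
  intro x hxS hxT
  apply hST
  ext i
  have h1 := hxS i (mem_univ i)
  have h2 := hxT i (mem_univ i)
  by_cases hiS : i ∈ S <;> by_cases hiT : i ∈ T <;> simp only [hiS, hiT, if_true, if_false] at h1 h2 ⊢
  · exact (Set.disjoint_left.mp hd h1 h2).elim
  · exact (Set.disjoint_left.mp hd h2 h1).elim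

lemma measurableSet_boxS [DecidableEq ι] {Λ1 Λ2 : Set X} (h1 : MeasurableSet Λ1)
    (h2 : MeasurableSet Λ2) (S : Finset ι) : MeasurableSet (boxS Λ1 Λ2 S) := by
  refine MeasurableSet.univ_pi fun i => ?_
  split_ifs <;> assumption

lemma volume_boxS_lt_top [DecidableEq ι] {Λ1 Λ2 : Set X} (h1 : volume Λ1 < ⊤)
    (h2 : volume Λ2 < ⊤) (S : Finset ι) : volume (boxS Λ1 Λ2 S) < ⊤ := by
  refine volume_box_lt_top fun i => ?_
  split_ifs <;> assumption

/-- splitting of the integral over `(Λ1 ∪ Λ2)^ι`. -/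
lemma setIntegral_box_union [DecidableEq ι] {Λ1 Λ2 : Set X} (hd : Disjoint Λ1 Λ2)
    (h1 : MeasurableSet Λ1) (h2 : MeasurableSet Λ2) {f : (ι → X) → ℝ}
    (hf : ∀ S : Finset ι, IntegrableOn f (boxS Λ1 Λ2 S)) :
    ∫ x in Set.pi univ (fun _ : ι => Λ1 ∪ Λ2), f x
      = ∑ S : Finset ι, ∫ x in boxS Λ1 Λ2 S, f x := by
  rw [box_union_eq]
  exact integral_biUnion_finset _ (fun S _ => measurableSet_boxS h1 h2 S)
    (fun S _ T _ hST => boxS_disjoint hd hST) (fun S _ => hf S)

end Int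

section Energy

variable {X : Type} {w : X → X → ℝ} {u : X → ℝ} {ι : Type} [Fintype ι]

lemma sum_sum_split (p : ι → Prop) [DecidablePred p] (g : ι → ι → ℝ) :
    ∑ i, ∑ j, g i j
      = ∑ i : {i // p i}, ∑ j : {j // p j}, g i j + ∑ i : {i // p i}, ∑ j : {j // ¬ p j}, g i j
        + ∑ i : {i // ¬ p i}, ∑ j : {j // p j}, g i j
        + ∑ i : {i // ¬ p i}, ∑ j : {j // ¬ p j}, g i j := by
  rw [← Fintype.sum_subtype_add_sum_subtype p (fun i => ∑ j, g i j)]
  have h : ∀ i, ∑ j, g i j = ∑ j : {j // p j}, g i j + ∑ j : {j // ¬ p j}, g i j := fun i =>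
    (Fintype.sum_subtype_add_sum_subtype p (fun j => g i j)).symm
  simp only [h, Finset.sum_add_distrib]
  ring

lemma EnG_split (hw : ∀ x y, w x y = w y x) (p : ι → Prop) [DecidablePred p] (x : ι → X) :
    EnG w x = EnG w (fun i : {i // p i} => x i) + EnG w (fun i : {i // ¬ p i} => x i)
      + ∑ i : {i // p i}, ∑ j : {j // ¬ p j}, w (x i) (x j) := by
  classical
  rw [EnG_def, EnG_def, EnG_def, sum_sum_split p]
  have h1 : ∑ i : {i // p i}, ∑ j : {j // ¬ p j}, (if (i : ι) = j then 0 else w (x i) (x j))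
      = ∑ i : {i // p i}, ∑ j : {j // ¬ p j}, w (x i) (x j) := by
    refine Finset.sum_congr rfl fun i _ => Finset.sum_congr rfl fun j _ => ?_
    have : (i : ι) ≠ j := fun h => j.2 (h ▸ i.2)
    simp [this]
  have h2 : ∑ i : {i // ¬ p i}, ∑ j : {j // p j}, (if (i : ι) = j then 0 else w (x i) (x j))
      = ∑ i : {i // p i}, ∑ j : {j // ¬ p j}, w (x i) (x j) := by
    rw [Finset.sum_comm]
    refine Finset.sum_congr rfl fun i _ => Finset.sum_congr rfl fun j _ => ?_
    have : (j : ι) ≠ i := fun h => j.2 (h ▸ i.2)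
    simp [this, hw (x j) (x i)]
  rw [h1, h2]
  simp only [Subtype.coe_inj]
  ring

lemma Fld_split (p : ι → Prop) [DecidablePred p] (x : ι → X) :
    Fld u x = Fld u (fun i : {i // p i} => x i) + Fld u (fun i : {i // ¬ p i} => x i) := by
  unfold Fld
  exact (Fintype.sum_subtype_add_sum_subtype p (fun i => u (x i))).symm

lemma EnG_reindex {ι' : Type} [Fintype ι'] (e : ι ≃ ι') (x : ι → X) :
    EnG w (fun i' => x (e.symm i')) = EnG w x := by
  classical
  rw [EnG_def, EnG_def]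
  congr 1
  rw [← e.symm.sum_comp]
  refine Finset.sum_congr rfl fun i _ => ?_
  rw [← e.symm.sum_comp]
  refine Finset.sum_congr rfl fun j _ => ?_
  simp

lemma Fld_reindex {ι' : Type} [Fintype ι'] (e : ι ≃ ι') (x : ι → X) :
    Fld u (fun i' => x (e.symm i')) = Fld u x := by
  unfold Fld
  exact e.symm.sum_comp (fun i => u (x i))

lemma Bz_reindex {ι' : Type} [Fintype ι'] (e : ι ≃ ι') (x : ι → X) :
    Bz w u (fun i' => x (e.symm i')) = Bz w u x := by
  unfold Bz
  rw [EnG_reindex, Fld_reindex]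

end Energy

section Two

variable {X : Type} [MeasureSpace X] [SigmaFinite (volume : Measure X)]
variable {w : X → X → ℝ} {u : X → ℝ}

/-- unnormalised partition function over an arbitrary finite index type. -/
noncomputable def IG (ι : Type) [Fintype ι] (w : X → X → ℝ) (u : X → ℝ) (Λ : Set X) : ℝ :=
  ∫ x in Set.pi univ (fun _ : ι => Λ), Bz w u x

/-- partition function with a one-body field. -/
noncomputable def ZF (w : X → X → ℝ) (u : X → ℝ) (Λ : Set X) (N : ℕ) : ℝ :=
  (1 / (N.factorial : ℝ)) * IG (Fin N) w u Λ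

lemma IG_nonneg (ι : Type) [Fintype ι] (w : X → X → ℝ) (u : X → ℝ) (Λ : Set X) :
    0 ≤ IG ι w u Λ :=
  integral_nonneg fun x => (Bz_pos x).le

lemma ZF_nonneg (w : X → X → ℝ) (u : X → ℝ) (Λ : Set X) (N : ℕ) : 0 ≤ ZF w u Λ N :=
  mul_nonneg (by positivity) (IG_nonneg _ _ _ _)

lemma IG_eq_ZF (w : X → X → ℝ) (u : X → ℝ) (Λ : Set X) (N : ℕ) :
    IG (Fin N) w u Λ = (N.factorial : ℝ) * ZF w u Λ N := by
  unfold ZF
  have : (N.factorial : ℝ) ≠ 0 := by positivity
  field_simp

lemma IG_congr {ι ι' : Type} [Fintype ι] [Fintype ι'] (e : ι ≃ ι') (Λ : Set X) :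
    IG ι' w u Λ = IG ι w u Λ := by
  unfold IG
  rw [setIntegral_box_reindex e]
  simp only [Bz_reindex]

lemma IG_of_card {ι : Type} [Fintype ι] {n : ℕ} (h : Fintype.card ι = n) (Λ : Set X) :
    IG ι w u Λ = (n.factorial : ℝ) * ZF w u Λ n := by
  rw [← IG_eq_ZF]
  exact IG_congr (Fintype.equivFinOfCardEq h).symm Λ

variable {ι : Type} [Fintype ι]

/-- the box `{x | x i ∈ Λ1 if p i, x i ∈ Λ2 otherwise}`. -/
def boxP (Λ1 Λ2 : Set X) (p : ι → Prop) [DecidablePred p] : Set (ι → X) :=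
  Set.pi univ (fun i => if p i then Λ1 else Λ2)

lemma boxS_eq_boxP [DecidableEq ι] (Λ1 Λ2 : Set X) (S : Finset ι) :
    boxS Λ1 Λ2 S = boxP Λ1 Λ2 (fun i => i ∈ S) := rfl

variable (p : ι → Prop) [DecidablePred p]

lemma mem_of_boxP_pos {Λ1 Λ2 : Set X} {x : ι → X} (hx : x ∈ boxP Λ1 Λ2 p) (i : {i // p i}) :
    x i ∈ Λ1 := by
  have := hx i (mem_univ _)
  simpa [i.2] using this

lemma mem_of_boxP_neg {Λ1 Λ2 : Set X} {x : ι → X} (hx : x ∈ boxP Λ1 Λ2 p) (i : {i // ¬ p i}) :
    x i ∈ Λ2 := by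
  have := hx i (mem_univ _)
  simpa [i.2] using this

/-- integral of a product function over `boxP`. -/
lemma setIntegral_boxP_prod (Λ1 Λ2 : Set X) (u1 u2 : X → ℝ) :
    ∫ x in boxP Λ1 Λ2 p, Bz w u1 (fun i : {i // p i} => x i)
        * Bz w u2 (fun i : {i // ¬ p i} => x i)
      = IG {i // p i} w u1 Λ1 * IG {i // ¬ p i} w u2 Λ2 := by
  unfold boxP IG
  rw [setIntegral_box_prod p]
  congr 1
  · congr 1
    congr 1
    ext x
    simp only [mem_pi, mem_univ, forall_true_left]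
    refine forall_congr' fun i => ?_
    rw [if_pos i.2]
  · congr 1
    congr 1
    ext x
    simp only [mem_pi, mem_univ, forall_true_left]
    refine forall_congr' fun i => ?_
    rw [if_neg i.2]

/-- upper bound for the Boltzmann factor on `boxP`. -/
lemma Bz_le_on_boxP (hw : ∀ x y, w x y = w y x) {Λ1 Λ2 : Set X}
    (hc : ∀ x ∈ Λ1, ∀ y ∈ Λ2, 0 ≤ w x y) {x : ι → X} (hx : x ∈ boxP Λ1 Λ2 p) :
    Bz w u x ≤ Bz w u (fun i : {i // p i} => x i) * Bz w u (fun i : {i // ¬ p i} => x i) := by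
  unfold Bz
  rw [← Real.exp_add]
  apply Real.exp_le_exp.mpr
  rw [EnG_split hw p x, Fld_split p x]
  have : 0 ≤ ∑ i : {i // p i}, ∑ j : {j // ¬ p j}, w (x i) (x j) :=
    Finset.sum_nonneg fun i _ => Finset.sum_nonneg fun j _ =>
      hc _ (mem_of_boxP_pos p hx i) _ (mem_of_boxP_neg p hx j)
  linarith

/-- lower bound for the Boltzmann factor on `boxP`. -/
lemma Bz_ge_on_boxP (hw : ∀ x y, w x y = w y x) {Λ1 Λ2 : Set X} (g : X → ℝ)
    (hc : ∀ x ∈ Λ1, ∀ y ∈ Λ2, w x y ≤ -(g y)) {x : ι → X} (hx : x ∈ boxP Λ1 Λ2 p) :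
    Bz w u (fun i : {i // p i} => x i)
        * Bz w (fun y => u y - (Fintype.card {i // p i} : ℝ) * g y)
            (fun i : {i // ¬ p i} => x i) ≤ Bz w u x := by
  unfold Bz
  rw [← Real.exp_add]
  apply Real.exp_le_exp.mpr
  rw [EnG_split hw p x, Fld_split p x]
  have h1 : ∑ i : {i // p i}, ∑ j : {j // ¬ p j}, w (x i) (x j)
      ≤ ∑ i : {i // p i}, ∑ j : {j // ¬ p j}, -(g (x j)) :=
    Finset.sum_le_sum fun i _ => Finset.sum_le_sum fun j _ =>
      hc _ (mem_of_boxP_pos p hx i) _ (mem_of_boxP_neg p hx j)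
  have h2 : ∑ _i : {i // p i}, ∑ j : {j // ¬ p j}, -(g (x j))
      = -((Fintype.card {i // p i} : ℝ) * ∑ j : {j // ¬ p j}, g (x j)) := by
    rw [Finset.sum_const, Finset.card_univ, Finset.sum_neg_distrib]
    simp
  have h3 : Fld (fun y => u y - (Fintype.card {i // p i} : ℝ) * g y)
        (fun i : {i // ¬ p i} => x i)
      = Fld u (fun i : {i // ¬ p i} => x i)
        - (Fintype.card {i // p i} : ℝ) * ∑ j : {j // ¬ p j}, g (x j) := by
    unfold Fld
    rw [Finset.sum_sub_distrib, Finset.mul_sum]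
  rw [h3]
  rw [h2] at h1
  linarith

lemma measurable_Bz_sub (hw : Measurable (Function.uncurry w)) (hu : Measurable u)
    (q : ι → Prop) [Fintype {i // q i}] :
    Measurable (fun x : ι → X => Bz w u (fun i : {i // q i} => x i)) :=
  (measurable_Bz (ι := {i // q i}) hw hu).comp
    (measurable_pi_lambda _ fun i => measurable_pi_apply (i : ι))

lemma integrableOn_Bz_mul (hw : Adm w) {u1 u2 : X → ℝ} (hu1 : AdmF u1) (hu2 : AdmF u2)
    {s : Set (ι → X)} (hs : volume s < ⊤) :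
    IntegrableOn (fun x : ι → X => Bz w u1 (fun i : {i // p i} => x i)
        * Bz w u2 (fun i : {i // ¬ p i} => x i)) s := by
  obtain ⟨C1, hC1⟩ := Bz_bdd (ι := {i // p i}) hw hu1
  obtain ⟨C2, hC2⟩ := Bz_bdd (ι := {i // ¬ p i}) hw hu2
  refine Measure.integrableOn_of_bounded (M := C1 * C2) hs.ne
    ((measurable_Bz_sub hw.meas hu1.meas _).mul
      (measurable_Bz_sub hw.meas hu2.meas _)).aestronglyMeasurable ?_
  refine Filter.Eventually.of_forall fun x => ?_
  rw [Real.norm_eq_abs, abs_of_pos (mul_pos (Bz_pos _) (Bz_pos _))]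
  exact mul_le_mul (hC1 _) (hC2 _) (Bz_pos _).le
    ((Bz_pos (fun i : {i // p i} => x i)).le.trans (hC1 _))

lemma measurableSet_boxP {Λ1 Λ2 : Set X} (h1 : MeasurableSet Λ1)
    (h2 : MeasurableSet Λ2) : MeasurableSet (boxP Λ1 Λ2 p) := by
  refine MeasurableSet.univ_pi fun i => ?_
  split_ifs <;> assumption

lemma volume_boxP_lt_top {Λ1 Λ2 : Set X} (h1 : volume Λ1 < ⊤)
    (h2 : volume Λ2 < ⊤) : volume (boxP Λ1 Λ2 p) < ⊤ := by
  refine volume_box_lt_top fun i => ?_
  split_ifs <;> assumption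

lemma card_sub_pos {k : ℕ} (hk : (Finset.univ.filter p).card = k) :
    Fintype.card {i // p i} = k := by
  rw [Fintype.card_subtype, hk]

lemma card_sub_neg {k : ℕ} (hk : (Finset.univ.filter p).card = k) :
    Fintype.card {i // ¬ p i} = Fintype.card ι - k := by
  rw [Fintype.card_subtype_compl, card_sub_pos p hk]

lemma setIntegral_boxP_le (hw : Adm w) (hu : AdmF u) {Λ1 Λ2 : Set X} (m1 : MeasurableSet Λ1)
    (f1 : volume Λ1 < ⊤) (m2 : MeasurableSet Λ2) (f2 : volume Λ2 < ⊤)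
    (hc : ∀ x ∈ Λ1, ∀ y ∈ Λ2, 0 ≤ w x y) {k : ℕ} (hk : (Finset.univ.filter p).card = k) :
    ∫ x in boxP Λ1 Λ2 p, Bz w u x
      ≤ ((k.factorial : ℝ) * ZF w u Λ1 k)
        * (((Fintype.card ι - k).factorial : ℝ) * ZF w u Λ2 (Fintype.card ι - k)) := by
  have hle : ∫ x in boxP Λ1 Λ2 p, Bz w u x
      ≤ ∫ x in boxP Λ1 Λ2 p, Bz w u (fun i : {i // p i} => x i)
        * Bz w u (fun i : {i // ¬ p i} => x i) :=
    setIntegral_mono_on (integrableOn_Bz hw hu (volume_boxP_lt_top p f1 f2))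
      (integrableOn_Bz_mul p hw hu hu (volume_boxP_lt_top p f1 f2))
      (measurableSet_boxP p m1 m2)
      (fun x hx => Bz_le_on_boxP p hw.symm hc hx)
  refine hle.trans (le_of_eq ?_)
  rw [setIntegral_boxP_prod, IG_of_card (card_sub_pos p hk), IG_of_card (card_sub_neg p hk)]

lemma setIntegral_boxP_ge (hw : Adm w) (hu : AdmF u) {Λ1 Λ2 : Set X} (m1 : MeasurableSet Λ1)
    (f1 : volume Λ1 < ⊤) (m2 : MeasurableSet Λ2) (f2 : volume Λ2 < ⊤) (g : X → ℝ)
    (hc : ∀ x ∈ Λ1, ∀ y ∈ Λ2, w x y ≤ -(g y)) {k : ℕ} (hk : (Finset.univ.filter p).card = k)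
    (hug : AdmF (fun y => u y - (k : ℝ) * g y)) :
    ((k.factorial : ℝ) * ZF w u Λ1 k)
        * (((Fintype.card ι - k).factorial : ℝ)
          * ZF w (fun y => u y - (k : ℝ) * g y) Λ2 (Fintype.card ι - k))
      ≤ ∫ x in boxP Λ1 Λ2 p, Bz w u x := by
  have hle : ∫ x in boxP Λ1 Λ2 p, Bz w u (fun i : {i // p i} => x i)
        * Bz w (fun y => u y - (k : ℝ) * g y) (fun i : {i // ¬ p i} => x i)
      ≤ ∫ x in boxP Λ1 Λ2 p, Bz w u x :=
    setIntegral_mono_on (integrableOn_Bz_mul p hw hu hug (volume_boxP_lt_top p f1 f2))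
      (integrableOn_Bz hw hu (volume_boxP_lt_top p f1 f2))
      (measurableSet_boxP p m1 m2)
      (fun x hx => by
        have := Bz_ge_on_boxP (u := u) p hw.symm g hc hx
        rwa [card_sub_pos p hk] at this)
  refine le_trans (le_of_eq ?_) hle
  rw [setIntegral_boxP_prod, IG_of_card (card_sub_pos p hk), IG_of_card (card_sub_neg p hk)]

end Two

section Main

variable {X : Type} [MeasureSpace X] [SigmaFinite (volume : Measure X)]
variable {w : X → X → ℝ} {u : X → ℝ}

lemma IG_union_eq (hw : Adm w) (hu : AdmF u) {Λ1 Λ2 : Set X} (m1 : MeasurableSet Λ1)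
    (f1 : volume Λ1 < ⊤) (m2 : MeasurableSet Λ2) (f2 : volume Λ2 < ⊤) (hd : Disjoint Λ1 Λ2)
    (N : ℕ) :
    IG (Fin N) w u (Λ1 ∪ Λ2) = ∑ S : Finset (Fin N), ∫ x in boxS Λ1 Λ2 S, Bz w u x :=
  setIntegral_box_union hd m1 m2 fun S => integrableOn_Bz hw hu (volume_boxS_lt_top f1 f2 S)

lemma filter_mem_card {N : ℕ} (S : Finset (Fin N)) :
    (Finset.univ.filter (fun i => i ∈ S)).card = S.card := by
  congr 1
  ext i
  simp

/-- two blocks, upper bound (with a one-body field). -/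
theorem ZF_union_le (hw : Adm w) (hu : AdmF u) {Λ1 Λ2 : Set X} (m1 : MeasurableSet Λ1)
    (f1 : volume Λ1 < ⊤) (m2 : MeasurableSet Λ2) (f2 : volume Λ2 < ⊤) (hd : Disjoint Λ1 Λ2)
    (hc : ∀ x ∈ Λ1, ∀ y ∈ Λ2, 0 ≤ w x y) (N : ℕ) :
    ZF w u (Λ1 ∪ Λ2) N ≤ ∑ k ∈ Finset.range (N + 1), ZF w u Λ1 k * ZF w u Λ2 (N - k) := by
  have hS : ∀ S : Finset (Fin N), ∫ x in boxS Λ1 Λ2 S, Bz w u x
      ≤ (fun k : ℕ => ((k.factorial : ℝ) * ZF w u Λ1 k)
          * (((N - k).factorial : ℝ) * ZF w u Λ2 (N - k))) S.card := by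
    intro S
    have := setIntegral_boxP_le (fun i => i ∈ S) hw hu m1 f1 m2 f2 hc (filter_mem_card S)
    rw [Fintype.card_fin] at this
    exact this
  have hsum : IG (Fin N) w u (Λ1 ∪ Λ2)
      ≤ ∑ k ∈ Finset.range (N + 1), (N.choose k : ℝ) * (((k.factorial : ℝ) * ZF w u Λ1 k)
          * (((N - k).factorial : ℝ) * ZF w u Λ2 (N - k))) := by
    rw [IG_union_eq hw hu m1 f1 m2 f2 hd]
    refine (Finset.sum_le_sum fun S _ => hS S).trans (le_of_eq ?_)
    rw [← Finset.powerset_univ]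
    rw [Finset.sum_powerset_apply_card (fun k : ℕ => ((k.factorial : ℝ) * ZF w u Λ1 k)
          * (((N - k).factorial : ℝ) * ZF w u Λ2 (N - k)))]
    simp [nsmul_eq_mul]
  have hN : (0 : ℝ) < (N.factorial : ℝ) := by positivity
  have hterm : ∀ k ∈ Finset.range (N + 1), (N.choose k : ℝ) * (((k.factorial : ℝ) * ZF w u Λ1 k)
          * (((N - k).factorial : ℝ) * ZF w u Λ2 (N - k)))
        = (N.factorial : ℝ) * (ZF w u Λ1 k * ZF w u Λ2 (N - k)) := by
    intro k hk
    have hk' : k ≤ N := Nat.lt_succ_iff.mp (Finset.mem_range.mp hk)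
    have := Nat.choose_mul_factorial_mul_factorial hk'
    have h2 : (N.choose k : ℝ) * (k.factorial : ℝ) * ((N - k).factorial : ℝ) = (N.factorial : ℝ) := by
      exact_mod_cast this
    rw [← h2]
    ring
  rw [Finset.sum_congr rfl hterm, ← Finset.mul_sum, IG_eq_ZF] at hsum
  exact le_of_mul_le_mul_left hsum hN

/-- two blocks, lower bound (with a one-body field). -/
theorem ZF_union_ge (hw : Adm w) (hu : AdmF u) {Λ1 Λ2 : Set X} (m1 : MeasurableSet Λ1)
    (f1 : volume Λ1 < ⊤) (m2 : MeasurableSet Λ2) (f2 : volume Λ2 < ⊤) (hd : Disjoint Λ1 Λ2)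
    (g : X → ℝ) (hc : ∀ x ∈ Λ1, ∀ y ∈ Λ2, w x y ≤ -(g y)) (N1 N2 : ℕ)
    (hug : AdmF (fun y => u y - (N1 : ℝ) * g y)) :
    ZF w u Λ1 N1 * ZF w (fun y => u y - (N1 : ℝ) * g y) Λ2 N2 ≤ ZF w u (Λ1 ∪ Λ2) (N1 + N2) := by
  set c : ℝ := ((N1.factorial : ℝ) * ZF w u Λ1 N1)
        * ((N2.factorial : ℝ) * ZF w (fun y => u y - (N1 : ℝ) * g y) Λ2 N2) with hcdef
  have hS : ∀ S ∈ Finset.powersetCard N1 (Finset.univ : Finset (Fin (N1 + N2))),
      c ≤ ∫ x in boxS Λ1 Λ2 S, Bz w u x := by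
    intro S hS
    have hcard : S.card = N1 := (Finset.mem_powersetCard.mp hS).2
    have := setIntegral_boxP_ge (fun i => i ∈ S) hw hu m1 f1 m2 f2 g hc
      ((filter_mem_card S).trans hcard) hug
    rw [Fintype.card_fin, Nat.add_sub_cancel_left] at this
    exact this
  have hsum : ((N1 + N2).choose N1 : ℝ) * c ≤ IG (Fin (N1 + N2)) w u (Λ1 ∪ Λ2) := by
    rw [IG_union_eq hw hu m1 f1 m2 f2 hd]
    calc ((N1 + N2).choose N1 : ℝ) * c
        = ∑ _S ∈ Finset.powersetCard N1 (Finset.univ : Finset (Fin (N1 + N2))), c := by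
          rw [Finset.sum_const, Finset.card_powersetCard, Finset.card_univ, Fintype.card_fin,
            nsmul_eq_mul]
      _ ≤ ∑ S ∈ Finset.powersetCard N1 (Finset.univ : Finset (Fin (N1 + N2))),
            ∫ x in boxS Λ1 Λ2 S, Bz w u x := Finset.sum_le_sum hS
      _ ≤ ∑ S : Finset (Fin (N1 + N2)), ∫ x in boxS Λ1 Λ2 S, Bz w u x :=
          Finset.sum_le_sum_of_subset_of_nonneg (Finset.subset_univ _)
            (fun S _ _ => integral_nonneg fun x => (Bz_pos x).le)
  have hN : (0 : ℝ) < ((N1 + N2).factorial : ℝ) := by positivity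
  have h2 : ((N1 + N2).choose N1 : ℝ) * (N1.factorial : ℝ) * (N2.factorial : ℝ)
      = ((N1 + N2).factorial : ℝ) := by
    have := Nat.choose_mul_factorial_mul_factorial (Nat.le_add_right N1 N2)
    rw [Nat.add_sub_cancel_left] at this
    exact_mod_cast this
  rw [IG_eq_ZF] at hsum
  have h3 : ((N1 + N2).choose N1 : ℝ) * c = ((N1 + N2).factorial : ℝ)
      * (ZF w u Λ1 N1 * ZF w (fun y => u y - (N1 : ℝ) * g y) Λ2 N2) := by
    rw [← h2, hcdef]
    ring
  rw [h3] at hsum
  exact le_of_mul_le_mul_left hsum hN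

/-- a field which differs by a constant on `Λ`. -/
lemma ZF_field_shift {u u' : X → ℝ} {Λ : Set X} (hΛ : MeasurableSet Λ) (c : ℝ)
    (h : ∀ y ∈ Λ, u y = u' y + c) (N : ℕ) :
    ZF w u Λ N = Real.exp (-(c * N)) * ZF w u' Λ N := by
  unfold ZF IG
  rw [mul_left_comm]
  congr 1
  rw [← integral_const_mul]
  refine setIntegral_congr_fun (measurableSet_box (ι := Fin N) fun _ => hΛ) fun x hx => ?_
  simp only [Bz]
  rw [← Real.exp_add]
  congr 1
  have : Fld u x = Fld u' x + c * N := by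
    unfold Fld
    rw [Finset.sum_congr rfl fun i _ => h (x i) (hx i (mem_univ i)), Finset.sum_add_distrib]
    simp [mul_comm]
  rw [this]
  ring

/-- field-free partition function in the `∑_{i<j}` form. -/
lemma ZF_zero_eq (hw : ∀ x y, w x y = w y x) (Λ : Set X) (N : ℕ) :
    ZF w (fun _ => 0) Λ N
      = (1 / (N.factorial : ℝ)) * ∫ x in Set.pi univ (fun _ : Fin N => Λ), Real.exp (-(En w x)) := by
  unfold ZF IG
  congr 1
  refine integral_congr_ae (Filter.Eventually.of_forall fun x => ?_)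
  simp only [Bz, Fld, Finset.sum_const_zero, sub_zero, En_eq_EnG hw]

end Main

end Crest.Agent.PTG
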