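import Crest.Agent.PT_SplitFam
import Crest.Agent.PT_Holder
import Crest.Agent.PT_Cube

/-! Row 149, task A4: the hard direction of Lebowitz–Penrose for a general finite family of
shifts of the grid (blueprint A4); `PT_Hard.hard_bound` is the special case of the `M^3` shifts. -/

set_option autoImplicit false

namespace Crest.Agent.PT

open MeasureTheory Crest.ProbabilityR.Continuum

/-- the interaction `β (ψ(|x-y|) - S)` restricted to pairs lying in a common cell -/
noncomputable def cellW (h : ℝ) (t : Pt) (β S : ℝ) (ψ : ℝ → ℝ) : Pt → Pt → ℝ := fun x y =>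
  if idx h t x = idx h t y then β * (ψ (dist x y) - S) else 0

theorem measurable_idx (h : ℝ) (t : Pt) : Measurable (idx h t) := by
  refine measurable_pi_iff.2 fun a => ?_
  have h1 : Measurable (fun x : Pt => (x a + t a) / h) := by fun_prop
  exact Int.measurable_floor.comp h1

theorem adm_cellW (h : ℝ) (t : Pt) {β : ℝ} (S : ℝ) (hβ : 0 ≤ β) {ψ : ℝ → ℝ} (hψ : Measurable ψ)
    {c : ℝ} (hc : ∀ r, -c ≤ ψ r) : Adm (cellW h t β S ψ) where
  symm x y := by
    unfold cellW
    rw [dist_comm x y]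
    by_cases hxy : idx h t x = idx h t y
    · rw [if_pos hxy, if_pos hxy.symm]
    · rw [if_neg hxy, if_neg (fun e => hxy e.symm)]
  meas := by
    unfold cellW
    refine Measurable.ite ?_ ?_ measurable_const
    · exact measurableSet_eq_fun ((measurable_idx h t).comp measurable_fst)
        ((measurable_idx h t).comp measurable_snd)
    · exact ((hψ.comp measurable_dist).sub_const S).const_mul β
  lower := ⟨|β * (c + S)|, fun x y => by
    unfold cellW
    have h2 := le_abs_self (β * (c + S))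
    have h3 := abs_nonneg (β * (c + S))
    split_ifs
    · have := hc (dist x y)
      have h1 : -(β * (c + S)) ≤ β * (ψ (dist x y) - S) := by nlinarith
      linarith
    · linarith⟩

theorem sc_eq_sum (h : ℝ) (t : Pt) {N : ℕ} (x : Fin N → Pt) :
    (sc h t x : ℝ) = ∑ p : {p : Fin N × Fin N // p.1 < p.2},
      if idx h t (x p.1.1) = idx h t (x p.1.2) then (1 : ℝ) else 0 := by
  unfold sc
  rw [Finset.card_filter]
  push_cast
  rw [← Finset.sum_subtype (Finset.univ.filter (fun p : Fin N × Fin N => p.1 < p.2))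
    (by simp) (fun p => if idx h t (x p.1) = idx h t (x p.2) then (1 : ℝ) else 0)]
  rw [Finset.sum_filter]
  refine Finset.sum_congr rfl fun p _ => ?_
  by_cases h1 : p.1 < p.2 <;> by_cases h2 : idx h t (x p.1) = idx h t (x p.2) <;> simp [h1, h2]

theorem energyW_cellW_eq (h : ℝ) (t : Pt) (β S : ℝ) (ψ : ℝ → ℝ) {N : ℕ} (x : Fin N → Pt) :
    energyW (cellW h t β S ψ) x =
      (∑ p : {p : Fin N × Fin N // p.1 < p.2},
        if idx h t (x p.1.1) = idx h t (x p.1.2) then β * ψ (dist (x p.1.1) (x p.1.2)) else 0)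
      - β * S * sc h t x := by
  rw [sc_eq_sum, Finset.mul_sum, ← Finset.sum_sub_distrib]
  unfold energyW cellW
  refine Finset.sum_congr rfl fun p _ => ?_
  split_ifs <;> ring

/-- the pointwise inequality behind Lemma H -/
theorem avg_energy_le {U As Al : ℝ → ℝ} (hU0 : ∀ r, 0 ≤ U r) (hAs0 : ∀ r, 0 ≤ As r)
    {h r0 σ : ℝ} (hsupp : ∀ r, r0 ≤ r → As r = 0)
    {ι : Type*} (T : Finset ι) (hT : T.Nonempty) (sh : ι → Pt)
    (hcount : ∀ x y : Pt, dist x y < r0 →
      (T.card : ℝ) ≤ σ * ((T.filter (fun t => idx h (sh t) x = idx h (sh t) y)).card : ℝ))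
    {S : ℝ}
    (hS : ∀ (t : Pt) (N : ℕ) (x : Fin N → Pt), energy Al x ≤ S / 2 * ((N : ℝ) + 2 * sc h t x))
    {β : ℝ} (hβ : 0 ≤ β) {N : ℕ} (x : Fin N → Pt) :
    (∑ t ∈ T, energyW (cellW h (sh t) β S (fun r => U r - σ * As r)) x) / T.card
        - β * S * N / 2 ≤
      energyW (radW β (fun r => U r - As r - Al r)) x := by
  have hm : (0 : ℝ) < T.card := by exact_mod_cast hT.card_pos
  rw [energyW_radW, sub_le_iff_le_add, div_le_iff₀ hm]
  have hsplit : energy (fun r => U r - As r - Al r) x =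
      energy (fun r => U r - As r) x - energy Al x := by
    unfold energy; rw [← Finset.sum_sub_distrib]
  have h1 : ∑ t ∈ T, energyW (cellW h (sh t) β S (fun r => U r - σ * As r)) x ≤
      ∑ t ∈ T, ((∑ p : {p : Fin N × Fin N // p.1 < p.2},
        if idx h (sh t) (x p.1.1) = idx h (sh t) (x p.1.2) then
          β * (U (dist (x p.1.1) (x p.1.2)) - σ * As (dist (x p.1.1) (x p.1.2))) else 0) +
        (β * S * N / 2 - β * energy Al x)) := by
    refine Finset.sum_le_sum fun t _ => ?_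
    rw [energyW_cellW_eq]
    have h2 := mul_le_mul_of_nonneg_left (hS (sh t) N x) hβ
    nlinarith
  have h2 : ∑ t ∈ T, (∑ p : {p : Fin N × Fin N // p.1 < p.2},
        if idx h (sh t) (x p.1.1) = idx h (sh t) (x p.1.2) then
          β * (U (dist (x p.1.1) (x p.1.2)) - σ * As (dist (x p.1.1) (x p.1.2))) else 0) ≤
      (T.card : ℝ) * (β * energy (fun r => U r - As r) x) := by
    rw [Finset.sum_comm]
    unfold energy
    rw [Finset.mul_sum, Finset.mul_sum]
    refine Finset.sum_le_sum fun p _ => ?_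
    rw [← Finset.sum_filter, Finset.sum_const, nsmul_eq_mul]
    set d := dist (x p.1.1) (x p.1.2) with hd
    set cnt : ℝ := ((T.filter (fun t => idx h (sh t) (x p.1.1) = idx h (sh t) (x p.1.2))).card : ℝ)
      with hcnt
    have hc0 : 0 ≤ cnt := Nat.cast_nonneg _
    have hc1 : cnt ≤ T.card := by
      rw [hcnt]; exact_mod_cast Finset.card_filter_le _ _
    have hA : (T.card : ℝ) * As d ≤ cnt * (σ * As d) := by
      by_cases hdr : d < r0
      · have := hcount (x p.1.1) (x p.1.2) hdr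
        have h3 := mul_le_mul_of_nonneg_right this (hAs0 d)
        calc (T.card : ℝ) * As d ≤ σ * cnt * As d := h3
          _ = cnt * (σ * As d) := by ring
      · rw [hsupp d (not_lt.1 hdr)]; simp
    have hB : cnt * U d ≤ (T.card : ℝ) * U d := mul_le_mul_of_nonneg_right hc1 (hU0 d)
    have h4 : cnt * (U d - σ * As d) ≤ (T.card : ℝ) * (U d - As d) := by nlinarith
    calc cnt * (β * (U d - σ * As d)) = β * (cnt * (U d - σ * As d)) := by ring
      _ ≤ β * ((T.card : ℝ) * (U d - As d)) := mul_le_mul_of_nonneg_left h4 hβ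
      _ = (T.card : ℝ) * (β * (U d - As d)) := by ring
  rw [Finset.sum_add_distrib, Finset.sum_const, nsmul_eq_mul] at h1
  rw [hsplit]
  nlinarith

/-- inside one cell the restricted interaction is the full one, shifted by `-β S` per pair -/
theorem energyW_cellW_of_cell (h : ℝ) (t : Pt) (β S : ℝ) (ψ : ℝ → ℝ) (α : Fin 3 → ℤ) {n : ℕ}
    (x : Fin n → Pt) (hx : ∀ i, idx h t (x i) = α) :
    energyW (cellW h t β S ψ) x =
      energyW (radW β ψ) x - β * S * ((n : ℝ) * ((n : ℝ) - 1) / 2) := by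
  unfold energyW cellW radW
  have h1 : ∀ p : {p : Fin n × Fin n // p.1 < p.2},
      (if idx h t (x p.1.1) = idx h t (x p.1.2) then β * (ψ (dist (x p.1.1) (x p.1.2)) - S) else 0)
        = β * ψ (dist (x p.1.1) (x p.1.2)) - β * S := by
    intro p; rw [if_pos (by rw [hx, hx])]; ring
  simp_rw [h1]
  rw [Finset.sum_sub_distrib, Finset.sum_const, nsmul_eq_mul, Finset.card_univ, card_pairs]
  ring

theorem reg_cube_inter_cell (L h : ℝ) (t : Pt) (α : Fin 3 → ℤ) :
    Reg (cube L ∩ {x | idx h t x = α}) where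
  meas := (reg_cube L).meas.inter (measurableSet_cell h t α)
  fin := ne_top_of_le_ne_top (reg_cube L).fin (measure_mono Set.inter_subset_left)

theorem ZW_cellW_cell_le {h : ℝ} (hh : 0 < h) (t : Pt) {β : ℝ} (hβ : 0 ≤ β) (S : ℝ) {ψ : ℝ → ℝ}
    (hψ : Measurable ψ) {c : ℝ} (hc : ∀ r, -c ≤ ψ r) (L : ℝ) (α : Fin 3 → ℤ) (n : ℕ) :
    ZW (cellW h t β S ψ) (cube L ∩ {x | idx h t x = α}) n ≤
      Real.exp (β * S * ((n : ℝ) * ((n : ℝ) - 1) / 2)) * partitionFn ψ h n β := by
  have hreg : Reg (cube L ∩ {x | idx h t x = α}) := reg_cube_inter_cell L h t α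
  have h1 := ZW_le_of_energy (adm_cellW h t S hβ hψ hc) (adm_radW hψ hc hβ) hreg n
    (β * S * ((n : ℝ) * ((n : ℝ) - 1) / 2)) (fun x hx => by
      rw [energyW_cellW_of_cell h t β S ψ α x (fun i => (hx i).2)])
  refine h1.trans (mul_le_mul_of_nonneg_left ?_ (Real.exp_pos _).le)
  rw [← ZW_radW_cubeAt hψ hc hβ (WithLp.toLp 2 (fun a => (α a : ℝ) * h - t a)) h n]
  exact ZW_mono_set (adm_radW hψ hc hβ) hreg.meas (reg_cubeAt _ _)
    (Set.inter_subset_right.trans (cell_subset_cubeAt hh t α)) n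

theorem cube_eq_biUnion_cells {h L : ℝ} (hh : 0 < h) (hL : 0 ≤ L) (t : Pt)
    (ht : ∀ a, 0 ≤ t a ∧ t a < h) :
    cube L = ⋃ α ∈ Fintype.piFinset (fun _ : Fin 3 => Finset.Icc (0 : ℤ) ⌈L / h⌉₊),
      (cube L ∩ {x | idx h t x = α}) := by
  ext x
  simp only [Set.mem_iUnion, Set.mem_inter_iff, Set.mem_ofPred_eq, exists_prop,
    Fintype.mem_piFinset, Finset.mem_Icc]
  constructor
  · intro hx
    exact ⟨idx h t x, fun a => idx_mem_of_mem_cube hh hL t ht hx a, hx, rfl⟩
  · rintro ⟨α, _, hx, _⟩; exact hx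

theorem card_cells (K : ℕ) :
    (Fintype.piFinset (fun _ : Fin 3 => Finset.Icc (0 : ℤ) K)).card = (K + 1) ^ 3 := by
  rw [Fintype.card_piFinset]
  simp only [Int.card_Icc, Finset.prod_const, Finset.card_univ, Fintype.card_fin]
  congr 1

/-- one shift: product bound over the cells -/
theorem ZW_cellW_cube_le {h : ℝ} (hh : 0 < h) (t : Pt) (ht : ∀ a, 0 ≤ t a ∧ t a < h) {β : ℝ}
    (hβ : 0 ≤ β) (S : ℝ) {ψ : ℝ → ℝ} (hψ : Measurable ψ) {c : ℝ} (hc : ∀ r, -c ≤ ψ r) {L : ℝ}
    (hL : 0 ≤ L) (ν : ℝ) (N : ℕ) {Y : ℝ}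
    (hY : ∑ n ∈ Finset.range (N + 1), Real.exp (ν * n) * partitionFn ψ h n β *
      Real.exp (β * S * (n : ℝ) ^ 2 / 2) ≤ Y) :
    Real.exp ((ν + β * S / 2) * N) * ZW (cellW h t β S ψ) (cube L) N ≤
      Y ^ ((⌈L / h⌉₊ + 1) ^ 3) := by
  have hadm := adm_cellW h t S hβ hψ hc
  have h1 := ZW_biUnion_le hadm (Fintype.piFinset (fun _ : Fin 3 => Finset.Icc (0 : ℤ) ⌈L / h⌉₊))
    (fun α => cube L ∩ {x | idx h t x = α}) (fun α _ => reg_cube_inter_cell L h t α)
    (fun α _ α' _ hne => Set.disjoint_left.2 fun x hx hx' => hne (hx.2.symm.trans hx'.2))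
    (fun α _ α' _ hne x hx y hy => by
      unfold cellW
      rw [if_neg (fun e => hne (hx.2.symm.trans (e.trans hy.2)))])
    (ν + β * S / 2) N
  rw [← cube_eq_biUnion_cells hh hL t ht] at h1
  refine h1.trans ?_
  rw [← card_cells, ← Finset.prod_const]
  refine Finset.prod_le_prod (fun α _ => Finset.sum_nonneg fun n _ =>
    mul_nonneg (Real.exp_pos _).le (ZW_nonneg _ _ _)) (fun α _ => ?_)
  refine le_trans (Finset.sum_le_sum fun n _ => ?_) hY
  have h2 := ZW_cellW_cell_le hh t hβ S hψ hc L α n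
  calc Real.exp ((ν + β * S / 2) * n) * ZW (cellW h t β S ψ) (cube L ∩ {x | idx h t x = α}) n
      ≤ Real.exp ((ν + β * S / 2) * n) *
        (Real.exp (β * S * ((n : ℝ) * ((n : ℝ) - 1) / 2)) * partitionFn ψ h n β) :=
        mul_le_mul_of_nonneg_left h2 (Real.exp_pos _).le
    _ = Real.exp (ν * n) * partitionFn ψ h n β * Real.exp (β * S * (n : ℝ) ^ 2 / 2) := by
        rw [← mul_assoc, ← Real.exp_add, mul_right_comm (Real.exp (ν * n)), ← Real.exp_add]
        congr 2; ring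

/-- Lemma H for a general finite family of shifts. -/
theorem hard_bound_aux {U As Al : ℝ → ℝ} (hU : Measurable U) (hU0 : ∀ r, 0 ≤ U r)
    (hAs : Measurable As) (hAs0 : ∀ r, 0 ≤ As r) (hAl : Measurable Al)
    {a : ℝ} (hAsa : ∀ r, As r ≤ a) (hAla : ∀ r, Al r ≤ a)
    {h : ℝ} (hh : 0 < h) {r0 σ : ℝ} (hσ : 0 ≤ σ) (hsupp : ∀ r, r0 ≤ r → As r = 0)
    {ι : Type*} (T : Finset ι) (hT : T.Nonempty) (sh : ι → Pt)
    (hsh : ∀ t ∈ T, ∀ a, 0 ≤ sh t a ∧ sh t a < h)
    (hcount : ∀ x y : Pt, dist x y < r0 →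
      (T.card : ℝ) ≤ σ * ((T.filter (fun t => idx h (sh t) x = idx h (sh t) y)).card : ℝ))
    {S : ℝ}
    (hS : ∀ (t : Pt) (N : ℕ) (x : Fin N → Pt), energy Al x ≤ S / 2 * ((N : ℝ) + 2 * sc h t x))
    {β : ℝ} (hβ : 0 < β) (ν : ℝ) {L : ℝ} (hL : 0 < L) (N : ℕ) {Y : ℝ}
    (hY : ∑ n ∈ Finset.range (N + 1), Real.exp (ν * n) *
      partitionFn (fun r => U r - σ * As r) h n β *
        Real.exp (β * S * (n : ℝ) ^ 2 / 2) ≤ Y) :
    Real.exp (ν * N) * partitionFn (fun r => U r - As r - Al r) L N β ≤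
      Y ^ ((⌈L / h⌉₊ + 1) ^ 3) := by
  have hψ : Measurable (fun r => U r - σ * As r) := hU.sub (hAs.const_mul σ)
  have hψc : ∀ r, -(σ * a) ≤ U r - σ * As r := fun r => by
    have h1 := mul_le_mul_of_nonneg_left (hAsa r) hσ
    have h2 := hU0 r
    linarith
  have hφ : Measurable (fun r => U r - As r - Al r) := (hU.sub hAs).sub hAl
  have hφc : ∀ r, -(a + a) ≤ U r - As r - Al r := fun r => by
    have h1 := hAsa r
    have h2 := hAla r
    have h3 := hU0 r
    linarith
  rw [partitionFn_eq_ZW]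
  have key := ZW_le_of_avg (adm_radW hφ hφc hβ.le) (reg_cube L) N T hT
    (fun t => cellW h (sh t) β S (fun r => U r - σ * As r))
    (fun t _ => adm_cellW h (sh t) S hβ.le hψ hψc) (β * S * N / 2)
    (Real.exp (-((ν + β * S / 2) * N)) * Y ^ ((⌈L / h⌉₊ + 1) ^ 3))
    (fun x _ => avg_energy_le hU0 hAs0 hsupp T hT sh hcount hS hβ.le x)
    (fun t ht => by
      have h1 := ZW_cellW_cube_le hh (sh t) (hsh t ht) hβ.le S hψ hψc hL.le ν N hY
      calc ZW (cellW h (sh t) β S (fun r => U r - σ * As r)) (cube L) N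
          = Real.exp (-((ν + β * S / 2) * N)) * (Real.exp ((ν + β * S / 2) * N) *
            ZW (cellW h (sh t) β S (fun r => U r - σ * As r)) (cube L) N) := by
            rw [← mul_assoc, ← Real.exp_add, neg_add_cancel, Real.exp_zero, one_mul]
        _ ≤ _ := mul_le_mul_of_nonneg_left h1 (Real.exp_pos _).le)
  calc Real.exp (ν * N) * ZW (radW β (fun r => U r - As r - Al r)) (cube L) N
      ≤ Real.exp (ν * N) * (Real.exp (β * S * N / 2) *
        (Real.exp (-((ν + β * S / 2) * N)) * Y ^ ((⌈L / h⌉₊ + 1) ^ 3))) :=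
        mul_le_mul_of_nonneg_left key (Real.exp_pos _).le
    _ = Y ^ ((⌈L / h⌉₊ + 1) ^ 3) := by
        rw [← mul_assoc, ← mul_assoc, ← Real.exp_add, ← Real.exp_add]
        have : ν * N + β * S * N / 2 + -((ν + β * S / 2) * N) = 0 := by ring
        rw [this, Real.exp_zero, one_mul]

end Crest.Agent.PT
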