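import Crest.Agent.PT_Defs

/-! Row 149, task A3: translates of the grid (blueprint A3). -/

set_option autoImplicit false

namespace Crest.Agent.PT

open MeasureTheory Crest.ProbabilityR.Continuum

/-- the shift `(h/M)(t_0,t_1,t_2)` -/
noncomputable def shiftOf (h : ℝ) (M : ℕ) (t : Fin 3 → Fin M) : Pt :=
  WithLp.toLp 2 (fun a => ((t a : ℕ) : ℝ) * h / M)

/-- ordered one-dimensional step: two bad shifts `s < s'` are impossible when `u ≤ v < u + 1/M`. -/
private theorem shift_aux_lt {M : ℕ} (hM : 0 < M) {u v : ℝ} (huv : u ≤ v) (hd : v - u < 1 / M)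
    {s s' : ℕ} (hss : s < s') (hs' : s' < M)
    (h1 : ⌊u + (s : ℝ) / M⌋ ≠ ⌊v + (s : ℝ) / M⌋)
    (h2 : ⌊u + (s' : ℝ) / M⌋ ≠ ⌊v + (s' : ℝ) / M⌋) : False := by
  have hMr : (0 : ℝ) < M := by exact_mod_cast hM
  have key : ∀ r : ℕ, ⌊u + (r : ℝ) / M⌋ ≠ ⌊v + (r : ℝ) / M⌋ →
      (u + (r : ℝ) / M < (⌊v + (r : ℝ) / M⌋ : ℝ)) ∧ ((⌊v + (r : ℝ) / M⌋ : ℝ) ≤ v + (r : ℝ) / M) := by
    intro r hr
    refine ⟨?_, Int.floor_le _⟩
    have hmono : ⌊u + (r : ℝ) / M⌋ ≤ ⌊v + (r : ℝ) / M⌋ := Int.floor_le_floor (by linarith)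
    have hlt : ⌊u + (r : ℝ) / M⌋ < ⌊v + (r : ℝ) / M⌋ := lt_of_le_of_ne hmono hr
    exact Int.floor_lt.mp hlt
  obtain ⟨a1, b1⟩ := key s h1
  obtain ⟨a2, b2⟩ := key s' h2
  set k : ℤ := ⌊v + (s : ℝ) / M⌋ with hk
  set k' : ℤ := ⌊v + (s' : ℝ) / M⌋ with hk'
  have hsr : (s : ℝ) + 1 ≤ s' := by exact_mod_cast hss
  have hsM : (s' : ℝ) + 1 ≤ M := by exact_mod_cast hs'
  have hs0 : (0 : ℝ) ≤ s := Nat.cast_nonneg s
  -- scale by M
  have A1 : u * M + s < k * M := by
    have := mul_lt_mul_of_pos_right a1 hMr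
    rwa [add_mul, div_mul_cancel₀ _ hMr.ne'] at this
  have B1 : (k : ℝ) * M ≤ v * M + s := by
    have := mul_le_mul_of_nonneg_right b1 hMr.le
    rwa [add_mul, div_mul_cancel₀ _ hMr.ne'] at this
  have A2 : u * M + s' < k' * M := by
    have := mul_lt_mul_of_pos_right a2 hMr
    rwa [add_mul, div_mul_cancel₀ _ hMr.ne'] at this
  have B2 : (k' : ℝ) * M ≤ v * M + s' := by
    have := mul_le_mul_of_nonneg_right b2 hMr.le
    rwa [add_mul, div_mul_cancel₀ _ hMr.ne'] at this
  have D : v * M - u * M < 1 := by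
    have := mul_lt_mul_of_pos_right hd hMr
    rwa [sub_mul, one_div, inv_mul_cancel₀ hMr.ne'] at this
  -- (k' - k) * M > 0 and < M
  have P1 : (0 : ℝ) < ((k' - k : ℤ) : ℝ) * M := by
    push_cast
    nlinarith
  have P2 : ((k' - k : ℤ) : ℝ) * M < M := by
    push_cast
    nlinarith
  have Q1 : (0 : ℝ) < ((k' - k : ℤ) : ℝ) := by
    by_contra hcon
    push Not at hcon
    have := mul_nonpos_of_nonpos_of_nonneg hcon hMr.le
    linarith
  have Q2 : ((k' - k : ℤ) : ℝ) < 1 := by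
    by_contra hcon
    push Not at hcon
    have := mul_le_mul_of_nonneg_right hcon hMr.le
    linarith
  have R1 : (0 : ℤ) < k' - k := by exact_mod_cast Q1
  have R2 : k' - k < (1 : ℤ) := by exact_mod_cast Q2
  omega

/-- one-dimensional step: at most one bad shift. -/
private theorem shift_aux_card {M : ℕ} (hM : 0 < M) {u v : ℝ} (hd : |u - v| < 1 / M) :
    (Finset.univ.filter (fun s : Fin M =>
      ⌊u + ((s : ℕ) : ℝ) / M⌋ ≠ ⌊v + ((s : ℕ) : ℝ) / M⌋)).card ≤ 1 := by
  rw [Finset.card_le_one]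
  intro s hs s' hs'
  simp only [Finset.mem_filter, Finset.mem_univ, true_and] at hs hs'
  by_contra hne
  have hne' : (s : ℕ) ≠ (s' : ℕ) := fun h => hne (Fin.ext h)
  rw [abs_lt] at hd
  rcases le_total u v with huv | huv
  · rcases lt_or_gt_of_ne hne' with hlt | hlt
    · exact shift_aux_lt hM huv (by linarith [hd.1]) hlt s'.2 hs hs'
    · exact shift_aux_lt hM huv (by linarith [hd.1]) hlt s.2 hs' hs
  · rcases lt_or_gt_of_ne hne' with hlt | hlt
    · exact shift_aux_lt hM huv (by linarith [hd.2]) hlt s'.2 (Ne.symm hs) (Ne.symm hs')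
    · exact shift_aux_lt hM huv (by linarith [hd.2]) hlt s.2 (Ne.symm hs') (Ne.symm hs)

/-- A3: a pair at distance `< h/M` lies in a common cell for at least `(M-1)^3` of the `M^3` shifts. -/
theorem same_cell_count {h : ℝ} (hh : 0 < h) (M : ℕ) (hM : 2 ≤ M) (x y : Pt)
    (hxy : dist x y < h / M) :
    (M - 1) ^ 3 ≤ (Finset.univ.filter (fun t : Fin 3 → Fin M =>
      idx h (shiftOf h M t) x = idx h (shiftOf h M t) y)).card := by
  classical
  have hM0 : 0 < M := by omega
  have hMr : (0 : ℝ) < M := by exact_mod_cast hM0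
  -- coordinatewise closeness
  have hco : ∀ a : Fin 3, |x a / h - y a / h| < 1 / M := by
    intro a
    have h1 : |x a - y a| ≤ dist x y := by
      have := PiLp.norm_apply_le (p := 2) (x - y) a
      rw [dist_eq_norm]
      simpa [Real.norm_eq_abs] using this
    have h2 : x a / h - y a / h = (x a - y a) / h := by ring
    rw [h2, abs_div, abs_of_pos hh, div_lt_iff₀ hh]
    calc |x a - y a| ≤ dist x y := h1
      _ < h / M := hxy
      _ = 1 / M * h := by ring
  -- good shifts in each coordinate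
  set good : Fin 3 → Finset (Fin M) := fun a => Finset.univ.filter (fun s : Fin M =>
      ⌊x a / h + ((s : ℕ) : ℝ) / M⌋ = ⌊y a / h + ((s : ℕ) : ℝ) / M⌋) with hgood
  have hcard : ∀ a, M - 1 ≤ (good a).card := by
    intro a
    have hbad := shift_aux_card hM0 (hco a)
    have hsplit := Finset.card_filter_add_card_filter_not (s := (Finset.univ : Finset (Fin M)))
      (fun s : Fin M => ⌊x a / h + ((s : ℕ) : ℝ) / M⌋ = ⌊y a / h + ((s : ℕ) : ℝ) / M⌋)
    rw [Finset.card_univ, Fintype.card_fin] at hsplit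
    have : (good a).card + (Finset.univ.filter (fun s : Fin M =>
      ⌊x a / h + ((s : ℕ) : ℝ) / M⌋ ≠ ⌊y a / h + ((s : ℕ) : ℝ) / M⌋)).card = M := hsplit
    omega
  have hsub : Fintype.piFinset good ⊆ Finset.univ.filter (fun t : Fin 3 → Fin M =>
      idx h (shiftOf h M t) x = idx h (shiftOf h M t) y) := by
    intro t ht
    rw [Fintype.mem_piFinset] at ht
    simp only [Finset.mem_filter, Finset.mem_univ, true_and]
    funext a
    have hta := ht a
    simp only [hgood, Finset.mem_filter, Finset.mem_univ, true_and] at hta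
    have e1 : ∀ z : Pt, (z a + (shiftOf h M t) a) / h = z a / h + (((t a : ℕ) : ℝ)) / M := by
      intro z
      have : (shiftOf h M t) a = ((t a : ℕ) : ℝ) * h / M := rfl
      rw [this]
      field_simp
    simp only [idx, e1]
    exact hta
  calc (M - 1) ^ 3 = ∏ _a : Fin 3, (M - 1) := by simp
    _ ≤ ∏ a : Fin 3, (good a).card := Finset.prod_le_prod' fun a _ => hcard a
    _ = (Fintype.piFinset good).card := (Fintype.card_piFinset good).symm
    _ ≤ _ := Finset.card_le_card hsub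

end Crest.Agent.PT
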