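import Crest.Agent.PT_SplitFam
import Crest.Agent.PT_Holder
import Crest.Agent.PT_Cube
import Crest.Agent.PT_Shift
import Crest.Agent.PT_HardAux

/-! Row 149, task A4: the hard direction of Lebowitz–Penrose (blueprint A4). -/

set_option autoImplicit false

namespace Crest.Agent.PT

open MeasureTheory Crest.ProbabilityR.Continuum

/-- A4 (Lemma H). -/
theorem hard_bound {U As Al : ℝ → ℝ} (hU : Measurable U) (hU0 : ∀ r, 0 ≤ U r)
    (hAs : Measurable As) (hAs0 : ∀ r, 0 ≤ As r) (hAl : Measurable Al) (hAl0 : ∀ r, 0 ≤ Al r)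
    {a : ℝ} (hAsa : ∀ r, As r ≤ a) (hAla : ∀ r, Al r ≤ a)
    {h : ℝ} (hh : 0 < h) (M : ℕ) (hM : 2 ≤ M) (hsupp : ∀ r, h / M ≤ r → As r = 0)
    {S : ℝ} (hS0 : 0 ≤ S)
    (hS : ∀ (t : Pt) (N : ℕ) (x : Fin N → Pt), energy Al x ≤ S / 2 * ((N : ℝ) + 2 * sc h t x))
    {β : ℝ} (hβ : 0 < β) (ν : ℝ) {L : ℝ} (hL : 0 < L) (N : ℕ) {Y : ℝ}
    (hY : ∑ n ∈ Finset.range (N + 1), Real.exp (ν * n) *
      partitionFn (fun r => U r - ((1 - 1 / (M : ℝ)) ^ 3)⁻¹ * As r) h n β *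
        Real.exp (β * S * (n : ℝ) ^ 2 / 2) ≤ Y) :
    Real.exp (ν * N) * partitionFn (fun r => U r - As r - Al r) L N β ≤
      Y ^ ((⌈L / h⌉₊ + 1) ^ 3) := by
  have : NeZero M := ⟨by omega⟩
  have hM2 : (2 : ℝ) ≤ M := by exact_mod_cast hM
  have hM0 : (0 : ℝ) < M := by linarith
  have hM1 : (0 : ℝ) < (M : ℝ) - 1 := by linarith
  have hσ : (1 - 1 / (M : ℝ)) ^ 3 = ((M : ℝ) - 1) ^ 3 / (M : ℝ) ^ 3 := by
    field_simp
  refine hard_bound_aux hU hU0 hAs hAs0 hAl hAsa hAla hh (r0 := h / M)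
    (σ := ((1 - 1 / (M : ℝ)) ^ 3)⁻¹) ?_ hsupp Finset.univ Finset.univ_nonempty (shiftOf h M)
    ?_ ?_ hS hβ ν hL N hY
  · rw [hσ]; positivity
  · intro t _ a
    have h1 : shiftOf h M t a = ((t a : ℕ) : ℝ) * h / M := rfl
    have h2 : ((t a : ℕ) : ℝ) < M := by exact_mod_cast (t a).2
    rw [h1]
    refine ⟨by positivity, ?_⟩
    rw [div_lt_iff₀ hM0, mul_comm]
    exact mul_lt_mul_of_pos_left h2 hh
  · intro x y hxy
    have h1 := same_cell_count hh M hM x y hxy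
    have h2 : (((M - 1 : ℕ) : ℝ)) ^ 3 ≤ ((Finset.univ.filter (fun t : Fin 3 → Fin M =>
        idx h (shiftOf h M t) x = idx h (shiftOf h M t) y)).card : ℝ) := by exact_mod_cast h1
    rw [Nat.cast_sub (by omega), Nat.cast_one] at h2
    have h3 : ((Finset.univ : Finset (Fin 3 → Fin M)).card : ℝ) = (M : ℝ) ^ 3 := by
      simp [Finset.card_univ]
    rw [h3, hσ, inv_div, div_mul_eq_mul_div, le_div_iff₀ (by positivity)]
    exact mul_le_mul_of_nonneg_left h2 (by positivity)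

end Crest.Agent.PT
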