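import Crest.Agent.PT_PotDefs

/-! Row 149, task NUM1: elementary facts on the scales `bb, Rk, lk, kap, Kap`, the grids, and the choice of `T`
(blueprint §1 Constants, §E). -/

set_option autoImplicit false

namespace Crest.Agent.PT

open Crest.ProbabilityR.Continuum

theorem bb_pos : 0 < bb := by
  unfold bb
  exact Real.rpow_pos_of_pos (by norm_num) _
theorem bb_cube : bb ^ 3 = 9 / 5 := by
  unfold bb
  rw [← Real.rpow_natCast, ← Real.rpow_mul (by norm_num)]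
  norm_num
theorem one_lt_bb : 1 < bb := by
  unfold bb
  exact Real.one_lt_rpow (by norm_num) (by norm_num)
theorem bb_lt : bb < 5 / 4 := by
  refine lt_of_pow_lt_pow_left₀ 3 (by norm_num) ?_
  rw [bb_cube]; norm_num
theorem pb_pos {p : ℝ} (hp : 1 ≤ p) : 5 / 9 ≤ pb p := by
  unfold pb; linarith
theorem pb_eq (p : ℝ) : pb p = p / bb ^ 3 := by
  rw [bb_cube]; unfold pb; ring

theorem Rk_pos {T : ℝ} (hT : 0 < T) (k : ℕ) : 0 < Rk T k := by
  unfold Rk; exact pow_pos hT _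
theorem Rk_succ (T : ℝ) (k : ℕ) : Rk T (k + 1) = (Rk T k) ^ 3 := by
  unfold Rk
  rw [← pow_mul]
  congr 1
  ring
theorem Rk_ge {T : ℝ} (hT : 1 ≤ T) (k : ℕ) : T ^ 32 ≤ Rk T k := by
  unfold Rk
  exact pow_le_pow_right₀ hT (Nat.le_mul_of_pos_right _ (pow_pos (by norm_num) _))
theorem Rk_mono {T : ℝ} (hT : 1 ≤ T) {j k : ℕ} (h : j ≤ k) : Rk T j ≤ Rk T k := by
  unfold Rk
  exact pow_le_pow_right₀ hT (Nat.mul_le_mul_left _ (Nat.pow_le_pow_right (by norm_num) h))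

private theorem num_succ_le_three_pow (k : ℕ) : k + 1 ≤ 3 ^ k := by
  induction k with
  | zero => simp
  | succ n ih => rw [pow_succ]; omega

/-- crude growth, convenient for summability -/
theorem Rk_ge_pow {T : ℝ} (hT : 2 ≤ T) (k : ℕ) : (2 : ℝ) ^ (k + 32) ≤ Rk T k := by
  unfold Rk
  have h1 : k + 32 ≤ 32 * 3 ^ k := by
    have := num_succ_le_three_pow k
    omega
  calc (2 : ℝ) ^ (k + 32) ≤ 2 ^ (32 * 3 ^ k) := pow_le_pow_right₀ (by norm_num) h1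
    _ ≤ T ^ (32 * 3 ^ k) := pow_le_pow_left₀ (by norm_num) hT _
theorem lk_zero (T : ℝ) : lk T 0 = lk T 1 := by
  simp [lk]
theorem lk_succ (T : ℝ) (k : ℕ) : lk T (k + 1) = (Rk T k) ^ 2 := by
  simp [lk]
theorem lk_pos {T : ℝ} (hT : 0 < T) (k : ℕ) : 0 < lk T k := by
  unfold lk; exact pow_pos (Rk_pos hT _) _
theorem lk_mono {T : ℝ} (hT : 1 ≤ T) {j k : ℕ} (h : j ≤ k) : lk T j ≤ lk T k := by
  unfold lk
  exact pow_le_pow_left₀ (Rk_pos (by linarith) _).le (Rk_mono hT (Nat.sub_le_sub_right h 1)) 2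
/-- `ℓ_k / R_k = 1 / R_{k-1}` -/
theorem lk_div_Rk {T : ℝ} (hT : 0 < T) (k : ℕ) : lk T (k + 1) / Rk T (k + 1) = 1 / Rk T k := by
  rw [lk_succ, Rk_succ]
  have := (Rk_pos hT k).ne'
  field_simp

theorem kap_one {T : ℝ} (hT : 0 < T) : kap T 1 = kap1 := by
  unfold kap
  have := hT.ne'
  simp only [pow_one]
  field_simp
theorem kap_pos {T : ℝ} (hT : 0 < T) (k : ℕ) : 0 < kap T k := by
  unfold kap kap1
  positivity
theorem kap_succ_le {T : ℝ} (hT : 12 ≤ T) {k : ℕ} (hk : 1 ≤ k) : kap T (k + 1) ≤ kap T k / 100000 := by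
  have hT0 : (0 : ℝ) < T := by linarith
  have hT1 : (1 : ℝ) ≤ T := by linarith
  unfold kap
  have h3 : 3 ^ (k + 1) = 3 ^ k + 2 * 3 ^ k := by ring
  have h6 : 6 ≤ 2 * 3 ^ k := by
    have := num_succ_le_three_pow k
    have h3k : 3 ^ 1 ≤ 3 ^ k := Nat.pow_le_pow_right (by norm_num) hk
    omega
  have hbig : (100000 : ℝ) ≤ T ^ (2 * 3 ^ k) := by
    calc (100000 : ℝ) ≤ 12 ^ 6 := by norm_num
      _ ≤ T ^ 6 := pow_le_pow_left₀ (by norm_num) hT _
      _ ≤ T ^ (2 * 3 ^ k) := pow_le_pow_right₀ hT1 h6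
  rw [h3, pow_add, div_div]
  have hA : (0 : ℝ) < T ^ 3 ^ k := pow_pos hT0 _
  have hnum : (0 : ℝ) ≤ kap1 * T ^ 3 := by unfold kap1; positivity
  apply div_le_div_of_nonneg_left hnum (by positivity)
  exact mul_le_mul_of_nonneg_left hbig hA.le
theorem kap_le_kap1 {T : ℝ} (hT : 12 ≤ T) {k : ℕ} (hk : 1 ≤ k) : kap T k ≤ kap1 := by
  have hT0 : (0 : ℝ) < T := by linarith
  have hT1 : (1 : ℝ) ≤ T := by linarith
  unfold kap
  have h3k : 3 ≤ 3 ^ k := by
    calc 3 = 3 ^ 1 := by norm_num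
      _ ≤ 3 ^ k := Nat.pow_le_pow_right (by norm_num) hk
  have h : T ^ 3 ≤ T ^ 3 ^ k := pow_le_pow_right₀ hT1 h3k
  rw [div_le_iff₀ (pow_pos hT0 _)]
  exact mul_le_mul_of_nonneg_left h (by unfold kap1; norm_num)

private theorem num_kap_geom {T : ℝ} (hT : 12 ≤ T) {k : ℕ} (hk : 1 ≤ k) (j : ℕ) :
    kap T (k + j) ≤ kap T k * (1 / 100000) ^ j := by
  induction j with
  | zero => simp
  | succ n ih =>
    have h1 : kap T (k + n + 1) ≤ kap T (k + n) / 100000 := kap_succ_le hT (by omega)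
    calc kap T (k + (n + 1)) = kap T (k + n + 1) := by rw [add_assoc]
      _ ≤ kap T (k + n) / 100000 := h1
      _ ≤ kap T k * (1 / 100000) ^ n / 100000 := by
          apply div_le_div_of_nonneg_right ih (by norm_num)
      _ = kap T k * (1 / 100000) ^ (n + 1) := by rw [pow_succ]; ring

private theorem num_summable_kap_one {T : ℝ} (hT : 12 ≤ T) {k : ℕ} (hk : 1 ≤ k) :
    Summable (fun j : ℕ => kap T (k + j)) := by
  have hT0 : (0 : ℝ) < T := by linarith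
  refine Summable.of_nonneg_of_le (fun j => (kap_pos hT0 _).le) (fun j => num_kap_geom hT hk j) ?_
  exact (summable_geometric_of_lt_one (by norm_num) (by norm_num)).mul_left _

theorem summable_kap {T : ℝ} (hT : 12 ≤ T) (k : ℕ) : Summable (fun j : ℕ => kap T (k + j)) := by
  rcases Nat.eq_zero_or_pos k with rfl | hk
  · have h := num_summable_kap_one hT (le_refl 1)
    have h2 : Summable (fun j : ℕ => kap T (j + 1)) := by
      simpa [add_comm] using h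
    have h3 := (summable_nat_add_iff (f := fun j : ℕ => kap T j) 1).1 h2
    simpa using h3
  · exact num_summable_kap_one hT hk
theorem Kap_rec {T : ℝ} (hT : 12 ≤ T) (k : ℕ) : Kap T k = kap T k + Kap T (k + 1) := by
  unfold Kap
  rw [(summable_kap hT k).tsum_eq_zero_add]
  simp only [add_zero]
  congr 1
  apply tsum_congr
  intro j
  congr 1
  ring
theorem Kap_pos {T : ℝ} (hT : 12 ≤ T) (k : ℕ) : 0 < Kap T k := by
  have hT0 : (0 : ℝ) < T := by linarith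
  rw [Kap_rec hT k]
  have h1 := kap_pos hT0 k
  have h2 : 0 ≤ Kap T (k + 1) := tsum_nonneg (fun j => (kap_pos hT0 _).le)
  linarith
theorem Kap_le {T : ℝ} (hT : 12 ≤ T) {k : ℕ} (hk : 1 ≤ k) : Kap T k ≤ 2 * kap T k := by
  have hT0 : (0 : ℝ) < T := by linarith
  unfold Kap
  have hg : Summable (fun j : ℕ => kap T k * (1 / 2 : ℝ) ^ j) :=
    (summable_geometric_of_lt_one (by norm_num) (by norm_num)).mul_left _
  have hle : ∀ j : ℕ, kap T (k + j) ≤ kap T k * (1 / 2 : ℝ) ^ j := by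
    intro j
    refine (num_kap_geom hT hk j).trans ?_
    apply mul_le_mul_of_nonneg_left _ (kap_pos hT0 k).le
    exact pow_le_pow_left₀ (by norm_num) (by norm_num) _
  calc ∑' j : ℕ, kap T (k + j) ≤ ∑' j : ℕ, kap T k * (1 / 2 : ℝ) ^ j :=
        (summable_kap hT k).tsum_le_tsum hle hg
    _ = kap T k * 2 := by rw [tsum_mul_left, tsum_geometric_two]
    _ = 2 * kap T k := by ring

/-- blueprint "Summability": `C/R_{k-1} ≤ 10^{-8} 2^{-k} κ_{k+1}` for `T` large.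
(`R_{k-1} = T^{32·3^{k-1}}`, `κ_{k+1} = κ_1 T^3 / T^{9·3^{k-1}}`.) -/
theorem eps_small (C : ℝ) : ∃ T0 : ℝ, ∀ T, T0 ≤ T → ∀ k : ℕ, 1 ≤ k →
    C / Rk T (k - 1) ≤ kap T (k + 1) / (100000000 * 2 ^ k) := by
  refine ⟨max 2 (|C| * 100000000000000), ?_⟩
  intro T hT k hk
  obtain ⟨m, rfl⟩ : ∃ m, k = m + 1 := ⟨k - 1, by omega⟩
  have hT2 : (2 : ℝ) ≤ T := le_trans (le_max_left _ _) hT
  have hTC : |C| * 100000000000000 ≤ T := le_trans (le_max_right _ _) hT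
  have hT0 : (0 : ℝ) < T := by linarith
  have hT1 : (1 : ℝ) ≤ T := by linarith
  simp only [Nat.add_sub_cancel]
  unfold Rk kap kap1
  have e1 : 3 ^ (m + 1 + 1) = 9 * 3 ^ m := by ring
  have e2 : 32 * 3 ^ m = 9 * 3 ^ m + 23 * 3 ^ m := by ring
  rw [e1, e2, pow_add]
  set A : ℝ := T ^ (9 * 3 ^ m) with hA
  set B : ℝ := T ^ (23 * 3 ^ m) with hB
  have hA0 : 0 < A := pow_pos hT0 _
  have hB0 : 0 < B := pow_pos hT0 _
  have hexp : m + 2 ≤ 23 * 3 ^ m := by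
    have := num_succ_le_three_pow m
    omega
  have hBge : T * 2 ^ (m + 1) ≤ B := by
    calc T * 2 ^ (m + 1) ≤ T * T ^ (m + 1) :=
          mul_le_mul_of_nonneg_left (pow_le_pow_left₀ (by norm_num) hT2 _) hT0.le
      _ = T ^ (m + 2) := by ring
      _ ≤ B := pow_le_pow_right₀ hT1 hexp
  have hT3 : (1 : ℝ) ≤ T ^ 3 := one_le_pow₀ hT1
  have h2pos : (0 : ℝ) < 2 ^ (m + 1) := by positivity
  rw [div_le_div_iff₀ (by positivity) (by positivity)]
  have hC : C ≤ |C| := le_abs_self C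
  -- goal: C * (100000000 * 2 ^ (m + 1)) ≤ 1 / 1000000 * T ^ 3 / A * (A * B)
  have hr : 1 / 1000000 * T ^ 3 / A * (A * B) = 1 / 1000000 * T ^ 3 * B := by
    field_simp
  rw [hr]
  have h1 : |C| * 100000000000000 * 2 ^ (m + 1) ≤ B :=
    le_trans (mul_le_mul_of_nonneg_right hTC h2pos.le) hBge
  have h2 : B ≤ T ^ 3 * B := by nlinarith
  have h3 : C * (100000000 * 2 ^ (m + 1)) ≤ |C| * (100000000 * 2 ^ (m + 1)) :=
    mul_le_mul_of_nonneg_right hC (by positivity)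
  nlinarith

private theorem num_den_large {p T : ℝ} (hp : 1 ≤ p) (hT : 12 ≤ T) (k : ℕ) :
    1000 ≤ pb p * (lk T k) ^ 3 := by
  have hT1 : (1 : ℝ) ≤ T := by linarith
  have h1 : (12 : ℝ) ≤ Rk T (k - 1) := by
    calc (12 : ℝ) ≤ T := hT
      _ = T ^ 1 := (pow_one T).symm
      _ ≤ T ^ 32 := pow_le_pow_right₀ hT1 (by norm_num)
      _ ≤ Rk T (k - 1) := Rk_ge hT1 _
  have h2 : (144 : ℝ) ≤ lk T k := by
    unfold lk
    nlinarith
  have h3 : (1800 : ℝ) ≤ (lk T k) ^ 3 := by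
    calc (1800 : ℝ) ≤ 144 ^ 3 := by norm_num
      _ ≤ (lk T k) ^ 3 := pow_le_pow_left₀ (by norm_num) h2 _
  have h4 := pb_pos hp
  nlinarith

theorem Ngrid_mem {p T : ℝ} (hp : 1 ≤ p) (hT : 12 ≤ T) (k : ℕ) :
    ∀ m ∈ Ngrid p T k, 0 ≤ m ∧ m ≤ 20 := by
  intro m hm
  have hden := num_den_large hp hT k
  have hden0 : 0 < pb p * (lk T k) ^ 3 := by linarith
  unfold Ngrid at hm
  rw [Finset.mem_image] at hm
  obtain ⟨N, hN, rfl⟩ := hm
  rw [Finset.mem_range] at hN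
  refine ⟨by positivity, ?_⟩
  rw [div_le_iff₀ hden0]
  have hN' : N ≤ Nmax p T k := by omega
  have h1 : ((Nmax p T k : ℕ) : ℝ) ≤ 20 * pb p * (lk T k) ^ 3 := by
    unfold Nmax
    exact Nat.floor_le (by nlinarith)
  have h2 : (N : ℝ) ≤ (Nmax p T k : ℕ) := by exact_mod_cast hN'
  nlinarith

theorem Ngrid_dense {p T : ℝ} (hp : 1 ≤ p) (hT : 12 ≤ T) (k : ℕ) (X : Fin 3) :
    ∃ m ∈ Ngrid p T k, |m - nX X| ≤ 1 / 1000 := by
  have hden := num_den_large hp hT k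
  set d : ℝ := pb p * (lk T k) ^ 3 with hd
  have hden0 : 0 < d := by linarith
  have hX : 0 ≤ nX X ∧ nX X ≤ 20 := by
    fin_cases X <;> simp [nX] <;> norm_num
  refine ⟨((⌊nX X * d⌋₊ : ℕ) : ℝ) / d, ?_, ?_⟩
  · unfold Ngrid
    rw [Finset.mem_image]
    refine ⟨⌊nX X * d⌋₊, ?_, rfl⟩
    rw [Finset.mem_range, Nat.lt_succ_iff]
    unfold Nmax
    apply Nat.floor_le_floor
    have : nX X * d ≤ 20 * d := mul_le_mul_of_nonneg_right hX.2 hden0.le
    calc nX X * d ≤ 20 * d := this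
      _ = 20 * pb p * (lk T k) ^ 3 := by rw [hd]; ring
  · have hnn : 0 ≤ nX X * d := mul_nonneg hX.1 hden0.le
    have h1 : ((⌊nX X * d⌋₊ : ℕ) : ℝ) ≤ nX X * d := Nat.floor_le hnn
    have h2 : nX X * d < ((⌊nX X * d⌋₊ : ℕ) : ℝ) + 1 := Nat.lt_floor_add_one _
    have e : ((⌊nX X * d⌋₊ : ℕ) : ℝ) / d - nX X = (((⌊nX X * d⌋₊ : ℕ) : ℝ) - nX X * d) / d := by
      field_simp
    rw [e, abs_le]
    constructor
    · rw [le_div_iff₀ hden0]
      nlinarith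
    · rw [div_le_iff₀ hden0]
      nlinarith

end Crest.Agent.PT
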