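import Crest.Agent.PT_Kac
import Crest.Agent.PT_Num

/-! Row 149, task A5i: a crude lower bound for `ι = ∫ J(|y|) dy` (so that `400/(ι R_j)` is tiny as soon as `T ≥ 12`). -/

set_option autoImplicit false

namespace Crest.Agent.PT

open MeasureTheory Crest.ProbabilityR.Continuum

/-- Hint: the ball `B(c, 1/8)`, `c = (3/4,0,0)`, lies in the shell `5/8 ≤ ‖y‖ ≤ 7/8` where `Jf ≥ 1/2` (`Jf_ge_half`), so
`ι ≥ (1/2) vol B(c,1/8)` (`setIntegral_mono_on`/`integral_mono` against the indicator, `integrable_Jf`, `Jf_nonneg`);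
`EuclideanSpace.volume_ball_fin_three : volume (ball x r) = ENNReal.ofReal (r ^ 3 * π * 4 / 3)`, `π > 3`:
`(1/2) (1/8)^3 · 4 = 1/256 ≥ 1/1000`. -/
theorem iota_ge : 1 / 1000 ≤ iota := by
  set c : Pt := EuclideanSpace.single (0 : Fin 3) (3 / 4 : ℝ) with hc
  have hcn : ‖c‖ = 3 / 4 := by
    rw [hc, EuclideanSpace.norm_single]
    norm_num
  set B : Set Pt := Metric.ball c (1 / 8) with hB
  have hBm : MeasurableSet B := measurableSet_ball
  have hvol : volume B = ENNReal.ofReal (1 / 8) ^ 3 * ENNReal.ofReal (Real.pi * 4 / 3) :=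
    EuclideanSpace.volume_ball_fin_three c (1 / 8)
  have hvr : (volume B).toReal = (1 / 8 : ℝ) ^ 3 * (Real.pi * 4 / 3) := by
    rw [hvol, ENNReal.toReal_mul, ENNReal.toReal_pow, ENNReal.toReal_ofReal (by positivity),
      ENNReal.toReal_ofReal (by positivity)]
  have hfin : volume B ≠ ⊤ := by
    rw [hvol]
    exact ENNReal.mul_ne_top (ENNReal.pow_ne_top ENNReal.ofReal_ne_top) ENNReal.ofReal_ne_top
  have h1 : ∫ y in B, (1 / 2 : ℝ) ≤ ∫ y in B, Jf ‖y‖ := by
    refine setIntegral_mono_on ?_ integrable_Jf.integrableOn hBm ?_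
    · exact integrableOn_const hfin
    · intro y hy
      have hd : ‖y - c‖ < 1 / 8 := by
        rw [← dist_eq_norm]; exact hy
      have ha : ‖y‖ ≤ ‖y - c‖ + ‖c‖ := by
        have := norm_add_le (y - c) c
        simpa using this
      have hb : ‖c‖ ≤ ‖y - c‖ + ‖y‖ := by
        have := norm_sub_le y (y - c)
        have h2 : y - (y - c) = c := by abel
        rw [h2] at this
        linarith
      exact Jf_ge_half (by linarith) (by linarith)
  have h2 : ∫ y in B, Jf ‖y‖ ≤ iota := by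
    unfold iota
    exact setIntegral_le_integral integrable_Jf (Filter.Eventually.of_forall fun y => Jf_nonneg _)
  have h3 : ∫ y in B, (1 / 2 : ℝ) = (volume B).toReal * (1 / 2) := by
    rw [setIntegral_const]
    simp [Measure.real]
  have hpi := Real.pi_gt_three
  rw [h3, hvr] at h1
  nlinarith

/-- Hint: `Rk_ge : T ^ 32 ≤ Rk T j`, `12 ^ 32 ≥ 10 ^ 12`. -/
theorem iota_Rk {T : ℝ} (hT : 12 ≤ T) (j : ℕ) : 1000000 ≤ iota * Rk T j := by
  have h1 : T ^ 32 ≤ Rk T j := Rk_ge (by linarith) j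
  have h2 : (12 : ℝ) ^ 32 ≤ T ^ 32 := pow_le_pow_left₀ (by norm_num) hT 32
  have h3 : (10 : ℝ) ^ 9 ≤ 12 ^ 32 := by norm_num
  have h4 : (10 : ℝ) ^ 9 ≤ Rk T j := by linarith
  have h5 := iota_ge
  calc (1000000 : ℝ) = 1 / 1000 * 10 ^ 9 := by norm_num
    _ ≤ iota * Rk T j := mul_le_mul h5 h4 (by norm_num) iota_pos.le

/-- Hint: from `iota_Rk`. -/
theorem err_Rk {T : ℝ} (hT : 12 ≤ T) (j : ℕ) : 400 / (iota * Rk T j) ≤ 1 / 2500 := by
  have h := iota_Rk hT j
  rw [div_le_div_iff₀ (by linarith) (by norm_num)]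
  linarith

end Crest.Agent.PT
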