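import Crest.Agent.PT_Sharp

/-! Row 149, task B23: iteration of the Sharpening Lemma and passage to the limit (blueprint B2, B3). -/

set_option autoImplicit false

namespace Crest.Agent.PT

/-- the region on which the Lebowitz–Penrose estimates are uniform -/
def Rg : Set (ℝ × ℝ) := Set.Icc (0.9 : ℝ) 1.1 ×ˢ Set.Icc (1.6 : ℝ) 1.9

/-- the three affine branches of the tropical pressure -/
noncomputable def LX (X : Fin 3) (z : ℝ × ℝ) : ℝ := nX X * z.2 - (![0, 2, 3] X : ℝ) - eX X * z.1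

private theorem nX_sq_bd (X : Fin 3) : 0 ≤ (nX X) ^ 2 ∧ (nX X) ^ 2 ≤ 16 := by
  fin_cases X <;> simp [nX] <;> norm_num

private theorem box_trans {y z w : ℝ × ℝ} {r s : ℝ} (h1 : y ∈ Box z r) (h2 : z ∈ Box w s) :
    y ∈ Box w (r + s) := by
  constructor
  · have := abs_sub_le y.1 z.1 w.1
    linarith [h1.1, h2.1]
  · have := abs_sub_le y.2 z.2 w.2
    linarith [h1.2, h2.2]

private theorem box_mono {y z : ℝ × ℝ} {r s : ℝ} (h1 : y ∈ Box z r) (h : r ≤ s) : y ∈ Box z s :=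
  ⟨h1.1.trans h, h1.2.trans h⟩

private theorem mem_Rg_of_box {y : ℝ × ℝ} {r : ℝ} (h1 : y ∈ Box (1, 7 / 4) r) (h : r ≤ 1 / 10) :
    y ∈ Rg := by
  have a1 := abs_le.1 h1.1
  have a2 := abs_le.1 h1.2
  simp only at a1 a2
  refine ⟨⟨?_, ?_⟩, ⟨?_, ?_⟩⟩ <;> norm_num <;> linarith [a1.1, a1.2, a2.1, a2.2]

private theorem kappa_bound (κ : ℕ → ℝ) (hκ1 : κ 1 ≤ 1 / 1000000) (hκ0 : ∀ k, 0 < κ k)
    (hκs : ∀ k, 1 ≤ k → κ (k + 1) ≤ κ k / 100000) :
    ∀ j : ℕ, κ (j + 1) ≤ 1 / 1000000 * (1 / 2) ^ j := by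
  intro j
  induction j with
  | zero => simpa using hκ1
  | succ j ih =>
    have h1 := hκs (j + 1) (by omega)
    have h0 := hκ0 (j + 1)
    rw [pow_succ]
    linarith

/-- the numerical recursion for the gradient defect -/
private theorem d_step {d q κ a : ℝ} (hd0 : 0 ≤ d) (hq0 : 0 ≤ q) (hκ0 : 0 < κ) (ha0 : 0 ≤ a)
    (ha1 : a ≤ 1) (hd : d ≤ 3 / 1000000 * (1 - a)) (hq : q ≤ a / 1000000)
    (hκ : κ ≤ 1 / 1000000 * a) :
    (d + q) * (1 + 5 * κ) + κ / 800 ≤ 3 / 1000000 * (1 - a * (1 / 2)) := by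
  have h1 : d + q ≤ 3 / 1000000 := by nlinarith
  have h2 : κ * (d + q) ≤ (1 / 1000000 * a) * (3 / 1000000) :=
    mul_le_mul hκ h1 (by linarith) (by positivity)
  nlinarith

/-- B2 + B3. Levels are indexed by `k ≥ 1`; `ε 0` is the error of the base. -/
theorem triple_limit (F : ℕ → ℝ × ℝ → ℝ) (hF : ∀ k, ConvexOn ℝ Strip (F k))
    (𝒩 : ℕ → Finset ℝ) (h𝒩 : ∀ k, ∀ m ∈ 𝒩 k, 0 ≤ m ∧ m ≤ 20)
    (h𝒩' : ∀ k X, ∃ m ∈ 𝒩 k, |m - nX X| ≤ 1 / 1000)
    (κ K ε : ℕ → ℝ) (Mκ MK : ℕ → ℝ × ℝ → ℝ)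
    (hMκ : ∀ k, IsM (κ k) (𝒩 k) (F k) (Mκ k)) (hMK : ∀ k, IsM (K k) (𝒩 k) (F k) (MK k))
    (P : ℝ × ℝ → ℝ) (hP : ConvexOn ℝ Strip P)
    (base : ∀ z ∈ Box (1, 7 / 4) (1 / 100), |F 1 z - max3 (fun X => LX X z)| ≤ ε 0)
    (step : ∀ k, 1 ≤ k → ∀ z ∈ Rg, |F (k + 1) z - Mκ k z| ≤ ε k)
    (full : ∀ k, 1 ≤ k → ∀ z ∈ Rg, |P z - MK k z| ≤ ε k)
    (hκ1 : κ 1 ≤ 1 / 1000000) (hκ0 : ∀ k, 0 < κ k) (hκs : ∀ k, 1 ≤ k → κ (k + 1) ≤ κ k / 100000)
    (hK : ∀ k, 1 ≤ k → K k = κ k + K (k + 1)) (hK2 : ∀ k, 1 ≤ k → K k ≤ 2 * κ k)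
    (hKpos : ∀ k, 0 < K k)
    (hε0 : ∀ k, 0 ≤ ε k) (hε : ∀ k, ε k ≤ κ (k + 1) / (100000000 * 2 ^ k)) :
    ∃ zc ∈ Box (1, 7 / 4) (1 / 10000), ∃ ξ : Fin 3 → ℝ × ℝ, ∀ X,
      Sub P zc (ξ X) ∧ |(ξ X).1 + (eX X - K 1 * (nX X) ^ 2 / 2)| ≤ 1 / 100000 ∧
        |(ξ X).2 - nX X| ≤ 1 / 100000 := by
  classical
  have hκb := kappa_bound κ hκ1 hκ0 hκs
  have hpow0 : ∀ j : ℕ, (0 : ℝ) < (1 / 2) ^ j := fun j => by positivity
  have hpow1 : ∀ j : ℕ, ((1 : ℝ) / 2) ^ j ≤ 1 := fun j => pow_le_one₀ (by norm_num) (by norm_num)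
  have hκsmall : ∀ j : ℕ, κ (j + 1) ≤ 1 / 1000000 := fun j => by
    have := hκb j
    have := hpow1 j
    nlinarith
  have hK1 : K 1 ≤ 2 / 1000000 := by
    have := hK2 1 le_rfl
    linarith
  have hKdiff : ∀ j : ℕ, 0 ≤ K 1 - K (j + 1) := by
    intro j
    induction j with
    | zero => simp
    | succ j ih =>
      have h1 := hK (j + 1) (by omega)
      have h2 := hκ0 (j + 1)
      linarith
  have hκK : ∀ j : ℕ, κ (j + 1) ≤ K (j + 1) := fun j => by
    have h1 := hK (j + 1) (by omega)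
    have h2 := hKpos (j + 1 + 1)
    linarith
  -- `ε j ≤ κ (j+1) * a / 10^8`
  have hεa : ∀ j : ℕ, ε j ≤ κ (j + 1) * (1 / 2) ^ j / 100000000 := by
    intro j
    have h1 := hε j
    have h2 : κ (j + 1) / (100000000 * 2 ^ j) = κ (j + 1) * (1 / 2) ^ j / 100000000 := by
      rw [one_div_pow]
      field_simp
    linarith
  have hεκ : ∀ j : ℕ, ε j ≤ κ (j + 1) / 100000000 := by
    intro j
    have h1 := hεa j
    have h2 := hpow1 j
    have h3 := hκ0 (j + 1)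
    have h4 : κ (j + 1) * (1 / 2) ^ j ≤ κ (j + 1) * 1 := mul_le_mul_of_nonneg_left h2 h3.le
    linarith
  -- the state of the induction
  have state : ∀ j : ℕ, ∃ (zt : ℝ × ℝ) (r : ℝ) (Pi : Fin 3 → ℝ × ℝ → ℝ) (d : ℝ),
      zt ∈ Box (1, 7 / 4) (4 * (K 1 - K (j + 1))) ∧ r ≤ 0.02 ∧ 100 * K (j + 1) ≤ r ∧ 0 ≤ d ∧
      d ≤ 3 / 1000000 * (1 - (1 / 2) ^ j) ∧ (∀ X, Pi X zt = Pi 0 zt) ∧
      (∀ X, Grad (Pi X) (Box zt r) (eX X - (K 1 - K (j + 1)) * (nX X) ^ 2 / 2) (nX X) d) ∧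
      (∀ z ∈ Box zt r, |F (j + 1) z - max3 (fun X => Pi X z)| ≤ ε j) := by
    intro j
    induction j with
    | zero =>
      refine ⟨(1, 7 / 4), 1 / 100, LX, 0, ?_, by norm_num, by simp only [zero_add]; linarith,
        le_rfl, by simp, ?_, ?_, ?_⟩
      · constructor <;> simp
      · intro X
        fin_cases X <;> simp [LX, nX, eX] <;> norm_num
      · intro X z₁ _ z₂ _
        simp only [LX, zero_add, sub_self, zero_mul, zero_div, sub_zero]
        apply le_of_eq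
        ring
      · intro z hz
        exact base z hz
    | succ j ih =>
      obtain ⟨zt, r, Pi, d, hzt, hr, hKr, hd0, hd, h1, h2, h3⟩ := ih
      have hdiff := hKdiff j
      have hKp := hKpos (j + 1)
      have a1 := abs_le.1 hzt.1
      simp only at a1
      have hβ0 : 0.95 ≤ zt.1 ∧ zt.1 ≤ 1.05 := by
        constructor <;> norm_num <;> linarith [a1.1, a1.2]
      have hd' : d ≤ 1 / 100000 := by
        have := hpow0 j
        linarith
      have he : ∀ X, |(eX X - (K 1 - K (j + 1)) * (nX X) ^ 2 / 2) - eX X| ≤ 1 / 100 := by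
        intro X
        obtain ⟨n0, n1⟩ := nX_sq_bd X
        rw [abs_le]
        constructor <;> nlinarith
      have hκr : 100 * κ (j + 1) ≤ r := by
        have := hκK j
        linarith
      obtain ⟨z1, hz1, Psi, o1, o2, o3, _⟩ := sharpen (F (j + 1)) (hF (j + 1)) zt hβ0 r hr d hd0 hd'
        (fun X => eX X - (K 1 - K (j + 1)) * (nX X) ^ 2 / 2) he Pi h1 h2 (ε j) (hε0 j) h3
        (κ (j + 1)) (hκ0 _) hκr (hεκ j) (𝒩 (j + 1)) (h𝒩 _) (h𝒩' _) (Mκ (j + 1)) (hMκ _)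
        ((d + 100 * ε j / κ (j + 1)) * (1 + 5 * κ (j + 1)) + κ (j + 1) / 800) rfl
      have hKs := hK (j + 1) (by omega)
      have hκp := hκ0 (j + 1)
      have hq0 : 0 ≤ 100 * ε j / κ (j + 1) := by
        have := hε0 j
        positivity
      have hq : 100 * ε j / κ (j + 1) ≤ (1 / 2) ^ j / 1000000 := by
        rw [div_le_iff₀ hκp]
        have := hεa j
        linarith
      have hz1box : z1 ∈ Box (1, 7 / 4) (4 * (K 1 - K (j + 1 + 1))) := by
        have := box_trans hz1 hzt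
        refine box_mono this (le_of_eq ?_)
        rw [hKs]
        ring
      refine ⟨z1, κ (j + 1) / 100, Psi,
        (d + 100 * ε j / κ (j + 1)) * (1 + 5 * κ (j + 1)) + κ (j + 1) / 800, hz1box, ?_, ?_, ?_, ?_,
        o1, ?_, ?_⟩
      · have := hκsmall j
        norm_num
        linarith
      · have e1 := hK2 (j + 1 + 1) (by omega)
        have e2 := hκs (j + 1) (by omega)
        linarith
      · positivity
      · rw [pow_succ]
        exact d_step hd0 hq0 hκp (hpow0 j).le (hpow1 j) hd hq (hκb j)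
      · intro X
        have := o2 X
        have e1 : eX X - (K 1 - K (j + 1)) * (nX X) ^ 2 / 2 - κ (j + 1) * (nX X) ^ 2 / 2
            = eX X - (K 1 - K (j + 1 + 1)) * (nX X) ^ 2 / 2 := by
          rw [hKs]
          ring
        rw [e1] at this
        exact this
      · intro z hz
        have hzbox := box_trans hz hz1box
        have hKp2 := hKpos (j + 1 + 1)
        have hzRg : z ∈ Rg := by
          refine mem_Rg_of_box hzbox ?_
          have := hκsmall j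
          linarith
        have := step (j + 1) (by omega) z hzRg
        rw [o3 z hz] at this
        exact this
  -- the approximate triple points
  have key : ∀ j : ℕ, ∃ (z : ℝ × ℝ) (ξ : Fin 3 → ℝ × ℝ), z ∈ Box (1, 7 / 4) (1 / 100000) ∧
      ∀ X, Sub (MK (j + 1)) z (ξ X) ∧ |(ξ X).1 + (eX X - K 1 * (nX X) ^ 2 / 2)| ≤ 1 / 100000 ∧
        |(ξ X).2 - nX X| ≤ 1 / 100000 := by
    intro j
    obtain ⟨zt, r, Pi, d, hzt, hr, hKr, hd0, hd, h1, h2, h3⟩ := state j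
    have hdiff := hKdiff j
    have hKp := hKpos (j + 1)
    have a1 := abs_le.1 hzt.1
    simp only at a1
    have hβ0 : 0.95 ≤ zt.1 ∧ zt.1 ≤ 1.05 := by
      constructor <;> norm_num <;> linarith [a1.1, a1.2]
    have hd' : d ≤ 1 / 100000 := by
      have := hpow0 j
      linarith
    have hd3 : d ≤ 3 / 1000000 := by
      have := hpow0 j
      linarith
    have he : ∀ X, |(eX X - (K 1 - K (j + 1)) * (nX X) ^ 2 / 2) - eX X| ≤ 1 / 100 := by
      intro X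
      obtain ⟨n0, n1⟩ := nX_sq_bd X
      rw [abs_le]
      constructor <;> nlinarith
    have hεK : ε j ≤ K (j + 1) / 100000000 := by
      have e1 := hεκ j
      have e2 := hκK j
      linarith
    obtain ⟨z1, hz1, Psi, _, _, _, o4⟩ := sharpen (F (j + 1)) (hF (j + 1)) zt hβ0 r hr d hd0 hd'
      (fun X => eX X - (K 1 - K (j + 1)) * (nX X) ^ 2 / 2) he Pi h1 h2 (ε j) (hε0 j) h3
      (K (j + 1)) hKp hKr hεK (𝒩 (j + 1)) (h𝒩 _) (h𝒩' _) (MK (j + 1)) (hMK _)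
      ((d + 100 * ε j / K (j + 1)) * (1 + 5 * K (j + 1)) + K (j + 1) / 800) rfl
    have hKle : K (j + 1) ≤ 2 / 1000000 := by linarith
    have hq0 : 0 ≤ 100 * ε j / K (j + 1) := by
      have := hε0 j
      positivity
    have hq : 100 * ε j / K (j + 1) ≤ 1 / 1000000 := by
      rw [div_le_iff₀ hKp]
      linarith
    have hdd : (d + 100 * ε j / K (j + 1)) * (1 + 5 * K (j + 1)) + K (j + 1) / 800 ≤ 1 / 100000 := by
      have e1 : d + 100 * ε j / K (j + 1) ≤ 4 / 1000000 := by linarith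
      have e2 : K (j + 1) * (d + 100 * ε j / K (j + 1)) ≤ (2 / 1000000) * (4 / 1000000) :=
        mul_le_mul hKle e1 (by linarith) (by norm_num)
      nlinarith
    choose ξ hξ using o4
    refine ⟨z1, ξ, ?_, ?_⟩
    · have := box_trans hz1 hzt
      refine box_mono this ?_
      linarith
    · intro X
      obtain ⟨s1, s2, s3⟩ := hξ X
      refine ⟨s1, ?_, s3.trans hdd⟩
      have e1 : eX X - (K 1 - K (j + 1)) * (nX X) ^ 2 / 2 - K (j + 1) * (nX X) ^ 2 / 2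
          = eX X - K 1 * (nX X) ^ 2 / 2 := by ring
      rw [e1] at s2
      exact s2.trans hdd
  choose zs ξs hzs hξs using key
  -- compactness
  set lo : (ℝ × ℝ) × (Fin 3 → ℝ × ℝ) := ((1 - 1 / 100000, 7 / 4 - 1 / 100000),
    fun X => (-(eX X - K 1 * (nX X) ^ 2 / 2) - 1 / 100000, nX X - 1 / 100000)) with hlo
  set hi : (ℝ × ℝ) × (Fin 3 → ℝ × ℝ) := ((1 + 1 / 100000, 7 / 4 + 1 / 100000),
    fun X => (-(eX X - K 1 * (nX X) ^ 2 / 2) + 1 / 100000, nX X + 1 / 100000)) with hhi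
  have hmem : ∀ j, ((zs j, ξs j) : (ℝ × ℝ) × (Fin 3 → ℝ × ℝ)) ∈ Set.Icc lo hi := by
    intro j
    have b1 := abs_le.1 (hzs j).1
    have b2 := abs_le.1 (hzs j).2
    simp only at b1 b2
    refine ⟨⟨⟨by simp only [hlo]; linarith [b1.1], by simp only [hlo]; linarith [b2.1]⟩, fun X => ?_⟩,
      ⟨⟨by simp only [hhi]; linarith [b1.2], by simp only [hhi]; linarith [b2.2]⟩, fun X => ?_⟩⟩
    · have c1 := abs_le.1 (hξs j X).2.1
      have c2 := abs_le.1 (hξs j X).2.2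
      exact ⟨by simp only [hlo]; linarith [c1.1], by simp only [hlo]; linarith [c2.1]⟩
    · have c1 := abs_le.1 (hξs j X).2.1
      have c2 := abs_le.1 (hξs j X).2.2
      exact ⟨by simp only [hhi]; linarith [c1.2], by simp only [hhi]; linarith [c2.2]⟩
  obtain ⟨⟨zc, ξc⟩, hlim, φ, hφ, ht⟩ := isCompact_Icc.tendsto_subseq hmem
  have hzt : Filter.Tendsto (fun i => zs (φ i)) Filter.atTop (nhds zc) :=
    (continuous_fst.tendsto (zc, ξc)).comp ht
  have hξt : ∀ X, Filter.Tendsto (fun i => ξs (φ i) X) Filter.atTop (nhds (ξc X)) := fun X =>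
    ((continuous_apply X).tendsto ξc).comp ((continuous_snd.tendsto (zc, ξc)).comp ht)
  have hzc1 : 1 - 1 / 100000 ≤ zc.1 ∧ zc.1 ≤ 1 + 1 / 100000 := ⟨hlim.1.1.1, hlim.2.1.1⟩
  have hzc2 : 7 / 4 - 1 / 100000 ≤ zc.2 ∧ zc.2 ≤ 7 / 4 + 1 / 100000 := ⟨hlim.1.1.2, hlim.2.1.2⟩
  have hzcbox : zc ∈ Box (1, 7 / 4) (1 / 100000) := by
    constructor <;> rw [abs_le] <;> constructor <;> simp only <;>
      linarith [hzc1.1, hzc1.2, hzc2.1, hzc2.2]
  have hzcS : zc ∈ Strip := ⟨⟨by linarith [hzc1.1], by linarith [hzc1.2]⟩, trivial⟩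
  -- continuity of `P` at `zc`
  have hPc : ContinuousAt P zc := by
    set U : Set (ℝ × ℝ) := Set.Ioo (1 / 2 : ℝ) 2 ×ˢ (Set.univ : Set ℝ) with hU
    have hUo : IsOpen U := isOpen_Ioo.prod isOpen_univ
    have hUS : U ⊆ Strip := Set.prod_mono Set.Ioo_subset_Icc_self le_rfl
    have hUint : U ⊆ interior Strip := interior_maximal hUS hUo
    have hcont : ContinuousOn P U := hP.continuousOn_interior.mono hUint
    have hzU : zc ∈ U := ⟨⟨by linarith [hzc1.1], by linarith [hzc1.2]⟩, trivial⟩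
    exact hcont.continuousAt (hUo.mem_nhds hzU)
  have hεt : Filter.Tendsto ε Filter.atTop (nhds 0) := by
    have hg : Filter.Tendsto (fun k : ℕ => (1 / 1000000 : ℝ) * (1 / 2) ^ k) Filter.atTop (nhds 0) := by
      have := (tendsto_pow_atTop_nhds_zero_of_lt_one (by norm_num : (0 : ℝ) ≤ 1 / 2)
        (by norm_num : (1 / 2 : ℝ) < 1)).const_mul (1 / 1000000 : ℝ)
      simpa using this
    refine squeeze_zero hε0 (fun k => ?_) hg
    have e1 := hεκ k
    have e2 := hκb k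
    have e3 := hκ0 (k + 1)
    linarith
  have hεφ : Filter.Tendsto (fun i => ε (φ i + 1)) Filter.atTop (nhds 0) :=
    hεt.comp ((Filter.tendsto_add_atTop_nat 1).comp hφ.tendsto_atTop)
  refine ⟨zc, box_mono hzcbox (by norm_num), ξc, fun X => ⟨?_, ?_, ?_⟩⟩
  · apply sub_of_local hP hzcS (r := 1 / 100) (by norm_num)
    intro y hyB hyS
    have hyRg : y ∈ Rg := mem_Rg_of_box (box_trans hyB hzcbox) (by norm_num)
    have hineq : ∀ i, P (zs (φ i)) + (ξs (φ i) X).1 * (y.1 - (zs (φ i)).1)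
        + (ξs (φ i) X).2 * (y.2 - (zs (φ i)).2) - 2 * ε (φ i + 1) ≤ P y := by
      intro i
      have f1 := abs_le.1 (full (φ i + 1) (by omega) y hyRg)
      have f2 := abs_le.1 (full (φ i + 1) (by omega) (zs (φ i))
        (mem_Rg_of_box (hzs (φ i)) (by norm_num)))
      have f3 := (hξs (φ i) X).1 y hyS
      linarith [f1.1, f2.2]
    have hlimit : Filter.Tendsto (fun i => P (zs (φ i)) + (ξs (φ i) X).1 * (y.1 - (zs (φ i)).1)
        + (ξs (φ i) X).2 * (y.2 - (zs (φ i)).2) - 2 * ε (φ i + 1)) Filter.atTop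
        (nhds (P zc + (ξc X).1 * (y.1 - zc.1) + (ξc X).2 * (y.2 - zc.2) - 2 * 0)) := by
      have t1 : Filter.Tendsto (fun i => P (zs (φ i))) Filter.atTop (nhds (P zc)) :=
        hPc.tendsto.comp hzt
      have t2 : Filter.Tendsto (fun i => (zs (φ i)).1) Filter.atTop (nhds zc.1) :=
        (continuous_fst.tendsto zc).comp hzt
      have t3 : Filter.Tendsto (fun i => (zs (φ i)).2) Filter.atTop (nhds zc.2) :=
        (continuous_snd.tendsto zc).comp hzt
      have t4 : Filter.Tendsto (fun i => (ξs (φ i) X).1) Filter.atTop (nhds (ξc X).1) :=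
        (continuous_fst.tendsto (ξc X)).comp (hξt X)
      have t5 : Filter.Tendsto (fun i => (ξs (φ i) X).2) Filter.atTop (nhds (ξc X).2) :=
        (continuous_snd.tendsto (ξc X)).comp (hξt X)
      exact (((t1.add (t4.mul (tendsto_const_nhds.sub t2))).add
        (t5.mul (tendsto_const_nhds.sub t3))).sub (hεφ.const_mul 2))
    have := le_of_tendsto' hlimit hineq
    linarith
  · have c1 : -(eX X - K 1 * (nX X) ^ 2 / 2) - 1 / 100000 ≤ (ξc X).1 := (hlim.1.2 X).1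
    have c2 : (ξc X).1 ≤ -(eX X - K 1 * (nX X) ^ 2 / 2) + 1 / 100000 := (hlim.2.2 X).1
    rw [abs_le]
    constructor <;> linarith
  · have c1 : nX X - 1 / 100000 ≤ (ξc X).2 := (hlim.1.2 X).2
    have c2 : (ξc X).2 ≤ nX X + 1 / 100000 := (hlim.2.2 X).2
    rw [abs_le]
    constructor <;> linarith

end Crest.Agent.PT
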