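import Crest.Agent.PT_PotDefs
import Crest.Agent.PT_Cube

/-! Row 149, task A1: Kac sums (blueprint A1). -/

set_option autoImplicit false

namespace Crest.Agent.PT

open MeasureTheory Crest.ProbabilityR.Continuum

theorem Jf_nonneg (r : ℝ) : 0 ≤ Jf r := le_max_left _ _
theorem Jf_le_one (r : ℝ) : Jf r ≤ 1 :=
  max_le (by norm_num) (by linarith [abs_nonneg (r - 3 / 4)])
theorem Jf_eq_zero {r : ℝ} (h : r ≤ 1 / 2 ∨ 1 ≤ r) : Jf r = 0 := by
  apply max_eq_left
  rcases h with h | h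
  · have : 1 / 4 ≤ |r - 3 / 4| := by
      rw [abs_of_nonpos (by linarith)]; linarith
    linarith
  · have : 1 / 4 ≤ |r - 3 / 4| := by
      rw [abs_of_nonneg (by linarith)]; linarith
    linarith
theorem Jf_lipschitz (r r' : ℝ) : |Jf r - Jf r'| ≤ 4 * |r - r'| := by
  unfold Jf
  rw [max_comm 0, max_comm 0]
  refine (abs_max_sub_max_le_abs _ _ _).trans ?_
  have h1 : (1 - 4 * |r - 3 / 4|) - (1 - 4 * |r' - 3 / 4|) = 4 * (|r' - 3 / 4| - |r - 3 / 4|) := by ring
  rw [h1, abs_mul, abs_of_pos (by norm_num : (0:ℝ) < 4)]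
  have h2 := abs_abs_sub_abs_le_abs_sub (r' - 3 / 4) (r - 3 / 4)
  have h3 : r' - 3 / 4 - (r - 3 / 4) = -(r - r') := by ring
  rw [h3, abs_neg] at h2
  linarith
theorem Jf_ge_half {r : ℝ} (h1 : 5 / 8 ≤ r) (h2 : r ≤ 7 / 8) : 1 / 2 ≤ Jf r := by
  apply le_max_of_le_right
  have : |r - 3 / 4| ≤ 1 / 8 := abs_le.2 ⟨by linarith, by linarith⟩
  linarith
theorem continuous_Jf : Continuous Jf := by
  unfold Jf
  fun_prop

private theorem hcs_Jf : HasCompactSupport (fun y : Pt => Jf ‖y‖) := by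
  refine HasCompactSupport.intro (isCompact_closedBall (0 : Pt) 1) (fun x hx => ?_)
  apply Jf_eq_zero
  right
  have : ¬ ‖x‖ ≤ 1 := by simpa using hx
  linarith [not_le.1 this]

private theorem cont_Jf_norm : Continuous (fun y : Pt => Jf ‖y‖) :=
  continuous_Jf.comp continuous_norm

theorem integrable_Jf : Integrable (fun y : Pt => Jf ‖y‖) :=
  cont_Jf_norm.integrable_of_hasCompactSupport hcs_Jf

theorem iota_pos : 0 < iota := by
  unfold iota
  refine cont_Jf_norm.integral_pos_of_hasCompactSupport_nonneg_nonzero hcs_Jf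
    (fun y => Jf_nonneg _) (x := EuclideanSpace.single 0 (3 / 4 : ℝ)) ?_
  have h : ‖(EuclideanSpace.single 0 (3 / 4 : ℝ) : Pt)‖ = 3 / 4 := by
    rw [PiLp.norm_single]; norm_num
  have := Jf_ge_half (r := 3 / 4) (by norm_num) (by norm_num)
  simp only [h]
  linarith

/-- scaling: `∫ A_R(|u|) du = ι` -/
theorem integral_AR {R : ℝ} (hR : 0 < R) : ∫ y : Pt, AR R ‖y‖ = iota := by
  have h1 : ∀ y : Pt, AR R ‖y‖ = (R ^ 3)⁻¹ * (fun z : Pt => Jf ‖z‖) (R⁻¹ • y) := by
    intro y
    simp only [AR, norm_smul, norm_inv, Real.norm_eq_abs, abs_of_pos hR]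
    rw [div_eq_inv_mul, div_eq_inv_mul]
  simp_rw [h1]
  rw [integral_const_mul, Measure.integral_comp_inv_smul volume (fun z : Pt => Jf ‖z‖) R,
    finrank_euclideanSpace_fin,
    abs_of_pos (by positivity), smul_eq_mul, ← mul_assoc, inv_mul_cancel₀ (by positivity), one_mul]
  rfl
private theorem norm_le_of_coord (v : Pt) {c : ℝ} (hc : ∀ a, |v a| ≤ c) : ‖v‖ ≤ 7 / 4 * c := by
  have hc0 : 0 ≤ c := (abs_nonneg _).trans (hc 0)
  have h1 : ‖v‖ ^ 2 = ∑ i, ‖v i‖ ^ 2 := EuclideanSpace.norm_sq_eq v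
  have h2 : ∑ i, ‖v i‖ ^ 2 ≤ ∑ _i : Fin 3, c ^ 2 := by
    refine Finset.sum_le_sum (fun i _ => ?_)
    rw [Real.norm_eq_abs]
    exact pow_le_pow_left₀ (abs_nonneg _) (hc i) 2
  simp only [Finset.sum_const, Finset.card_univ, Fintype.card_fin, nsmul_eq_mul] at h2
  have h3 : ‖v‖ ^ 2 ≤ (7 / 4 * c) ^ 2 := by
    rw [h1]; push_cast at h2; nlinarith [sq_nonneg c]
  exact (pow_le_pow_iff_left₀ (norm_nonneg _) (by positivity) (by norm_num)).1 h3

private theorem coord_le_norm (v : Pt) (a : Fin 3) : |v a| ≤ ‖v‖ := by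
  simpa using PiLp.norm_apply_le v a

private theorem cell_eq_preimage {h : ℝ} (hh : 0 < h) (d : Fin 3 → ℤ) :
    {u : Pt | idx h 0 u = d} = (@WithLp.ofLp 2 (Fin 3 → ℝ)) ⁻¹'
      (Set.pi Set.univ (fun a : Fin 3 => Set.Ico ((d a : ℝ) * h) ((d a : ℝ) * h + h))) := by
  ext u
  simp only [Set.mem_ofPred_eq, Set.mem_preimage, Set.mem_pi, Set.mem_univ, forall_true_left,
    Set.mem_Ico]
  constructor
  · intro hu a
    have ha : ⌊(u a + (0 : Pt) a) / h⌋ = d a := congrFun hu a
    rw [Int.floor_eq_iff] at ha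
    simp only [PiLp.zero_apply, add_zero] at ha
    rw [le_div_iff₀ hh, div_lt_iff₀ hh] at ha
    constructor <;> nlinarith [ha.1, ha.2]
  · intro hu
    funext a
    show ⌊(u a + (0 : Pt) a) / h⌋ = d a
    rw [Int.floor_eq_iff]
    simp only [PiLp.zero_apply, add_zero]
    rw [le_div_iff₀ hh, div_lt_iff₀ hh]
    have := hu a
    constructor <;> nlinarith [this.1, this.2]

private theorem volume_cell {h : ℝ} (hh : 0 < h) (d : Fin 3 → ℤ) :
    volume {u : Pt | idx h 0 u = d} = ENNReal.ofReal (h ^ 3) := by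
  rw [cell_eq_preimage hh,
    (PiLp.volume_preserving_ofLp (Fin 3)).measure_preimage
      (MeasurableSet.univ_pi (fun _ => measurableSet_Ico)).nullMeasurableSet,
    volume_pi_pi]
  simp [ENNReal.ofReal_pow hh.le]

private theorem AR_nonneg {R : ℝ} (hR : 0 < R) (r : ℝ) : 0 ≤ AR R r :=
  div_nonneg (Jf_nonneg _) (by positivity)

private theorem AR_eq_zero_of_ge {R r : ℝ} (hR : 0 < R) (h : R ≤ r) : AR R r = 0 := by
  unfold AR
  rw [Jf_eq_zero (Or.inr ((one_le_div hR).2 h)), zero_div]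

private theorem AR_eq_zero_of_le {R r : ℝ} (hR : 0 < R) (h : r ≤ R / 2) : AR R r = 0 := by
  unfold AR
  rw [Jf_eq_zero (Or.inl ((div_le_iff₀ hR).2 (by linarith))), zero_div]

private theorem AR_lip {R : ℝ} (hR : 0 < R) (r r' : ℝ) :
    |AR R r - AR R r'| ≤ 4 * |r - r'| / R ^ 4 := by
  unfold AR
  rw [← sub_div, abs_div, abs_of_pos (by positivity : (0:ℝ) < R ^ 3)]
  have h1 := Jf_lipschitz (r / R) (r' / R)
  rw [← sub_div, abs_div, abs_of_pos hR] at h1
  rw [div_le_div_iff₀ (by positivity) (by positivity)]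
  calc |Jf (r / R) - Jf (r' / R)| * R ^ 4 ≤ (4 * (|r - r'| / R)) * R ^ 4 :=
        mul_le_mul_of_nonneg_right h1 (by positivity)
    _ = 4 * |r - r'| * R ^ 3 := by field_simp

private theorem integrable_AR {R : ℝ} (hR : 0 < R) : Integrable (fun y : Pt => AR R ‖y‖) := by
  have hc : Continuous (fun y : Pt => AR R ‖y‖) := by
    unfold AR
    exact (continuous_Jf.comp (continuous_norm.div_const R)).div_const _
  refine hc.integrable_of_hasCompactSupport
    (HasCompactSupport.intro (isCompact_closedBall (0 : Pt) R) (fun x hx => ?_))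
  have : ¬ ‖x‖ ≤ R := by simpa using hx
  exact AR_eq_zero_of_ge hR (not_le.1 this).le
private theorem cell_avg {h R : ℝ} (hh : 0 < h) (hR0 : 0 < R) (d : Fin 3 → ℤ) (c e : ℝ)
    (hc : ∀ u : Pt, idx h 0 u = d → |AR R ‖u‖ - c| ≤ e) :
    |(∫ u in {u : Pt | idx h 0 u = d}, AR R ‖u‖) / h ^ 3 - c| ≤ e := by
  have hvol : volume.real {u : Pt | idx h 0 u = d} = h ^ 3 := by
    rw [Measure.real, volume_cell hh, ENNReal.toReal_ofReal (by positivity)]
  have hfin : volume {u : Pt | idx h 0 u = d} < ⊤ := by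
    rw [volume_cell hh]; exact ENNReal.ofReal_lt_top
  have h1 : ∫ u in {u : Pt | idx h 0 u = d}, (AR R ‖u‖ - c) =
      (∫ u in {u : Pt | idx h 0 u = d}, AR R ‖u‖) - c * h ^ 3 := by
    rw [integral_sub (integrable_AR hR0).integrableOn (integrableOn_const hfin.ne),
      setIntegral_const, hvol, smul_eq_mul, mul_comm]
  have h2 := norm_setIntegral_le_of_norm_le_const (μ := volume)
    (f := fun u : Pt => AR R ‖u‖ - c) (C := e) hfin (fun u hu => by
      rw [Real.norm_eq_abs]; exact hc u hu)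
  rw [h1, hvol, Real.norm_eq_abs] at h2
  have h3 : (∫ u in {u : Pt | idx h 0 u = d}, AR R ‖u‖) / h ^ 3 - c =
      ((∫ u in {u : Pt | idx h 0 u = d}, AR R ‖u‖) - c * h ^ 3) / h ^ 3 := by
    field_simp
  rw [h3, abs_div, abs_of_pos (by positivity : (0:ℝ) < h ^ 3), div_le_iff₀ (by positivity)]
  exact h2

private theorem geo_diff {h : ℝ} (hh : 0 < h) (t x y : Pt) (a : Fin 3) :
    ((idx h t y - idx h t x) a : ℝ) * h - h < y a - x a ∧
      y a - x a < ((idx h t y - idx h t x) a : ℝ) * h + h := by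
  have hp1 := Int.floor_le ((y a + t a) / h)
  have hp2 := Int.lt_floor_add_one ((y a + t a) / h)
  have hq1 := Int.floor_le ((x a + t a) / h)
  have hq2 := Int.lt_floor_add_one ((x a + t a) / h)
  rw [le_div_iff₀ hh] at hp1 hq1
  rw [div_lt_iff₀ hh] at hp2 hq2
  have hd : ((idx h t y - idx h t x) a : ℝ) =
      (⌊(y a + t a) / h⌋ : ℝ) - (⌊(x a + t a) / h⌋ : ℝ) := by
    simp [idx]
  rw [hd]
  constructor <;> nlinarith

private theorem geo_cell {h : ℝ} (hh : 0 < h) (u : Pt) (a : Fin 3) :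
    (idx h 0 u a : ℝ) * h ≤ u a ∧ u a < (idx h 0 u a : ℝ) * h + h := by
  have hp1 := Int.floor_le ((u a + (0 : Pt) a) / h)
  have hp2 := Int.lt_floor_add_one ((u a + (0 : Pt) a) / h)
  rw [le_div_iff₀ hh] at hp1
  rw [div_lt_iff₀ hh] at hp2
  simp only [PiLp.zero_apply, add_zero] at hp1 hp2
  have hd : (idx h 0 u a : ℝ) = (⌊u a / h⌋ : ℝ) := by
    simp [idx]
  rw [hd]
  constructor <;> nlinarith

private theorem AR_close {h R : ℝ} (hh : 0 < h) (hR0 : 0 < R) (t x y u : Pt)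
    (hu : idx h 0 u = idx h t y - idx h t x) :
    |AR R ‖u‖ - AR R (dist x y)| ≤ 14 * h / R ^ 4 := by
  have h1 : ∀ a, |(u - (y - x)) a| ≤ 2 * h := by
    intro a
    have g1 := geo_diff hh t x y a
    have g2 := geo_cell hh u a
    rw [hu] at g2
    simp only [PiLp.sub_apply]
    rw [abs_le]
    constructor <;> linarith [g1.1, g1.2, g2.1, g2.2]
  have h2 := norm_le_of_coord _ h1
  have h3 : |‖u‖ - dist x y| ≤ ‖u - (y - x)‖ := by
    rw [dist_comm, dist_eq_norm]
    exact abs_norm_sub_norm_le _ _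
  refine (AR_lip hR0 _ _).trans ?_
  rw [div_le_div_iff_of_pos_right (by positivity)]
  linarith

private theorem sum_cells {h R : ℝ} (hR0 : 0 < R) (D : Finset (Fin 3 → ℤ))
    (hcov : ∀ u : Pt, ‖u‖ < R → idx h 0 u ∈ D) :
    ∑ d ∈ D, ∫ u in {u : Pt | idx h 0 u = d}, AR R ‖u‖ = iota := by
  rw [← integral_biUnion_finset D (fun d _ => measurableSet_cell h 0 d) ?_
    (fun d _ => (integrable_AR hR0).integrableOn), ← integral_AR hR0]
  · refine setIntegral_eq_integral_of_forall_compl_eq_zero (fun u hu => ?_)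
    by_contra hne
    have hlt : ‖u‖ < R := by
      by_contra hge
      exact hne (AR_eq_zero_of_ge hR0 (not_lt.1 hge))
    exact hu (Set.mem_biUnion (hcov u hlt) rfl)
  · intro d _ d' _ hdd
    refine Set.disjoint_left.2 (fun u hu hu' => hdd ?_)
    exact (hu : idx h 0 u = d).symm.trans hu'

/-- A1. -/
theorem kac_sums {h R : ℝ} (hh : 0 < h) (hR : 8 * h ≤ R) :
    ∃ (γp γm : (Fin 3 → ℤ) → ℝ) (D : Finset (Fin 3 → ℤ)),
      (∀ d, 0 ≤ γm d) ∧ (∀ d, γm d ≤ γp d) ∧ (∀ d, d ∉ D → γp d = 0) ∧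
      (∀ d ∈ D, ∀ a, |(d a : ℝ)| ≤ R / h + 2) ∧ γm 0 = 0 ∧
      (∀ (t x y : Pt), γm (idx h t y - idx h t x) ≤ AR R (dist x y) ∧
        AR R (dist x y) ≤ γp (idx h t y - idx h t x)) ∧
      h ^ 3 * ∑ d ∈ D, γp d ≤ iota + 400 * h / R ∧
      iota - 400 * h / R ≤ h ^ 3 * ∑ d ∈ D, γm d := by
  classical
  have hR0 : 0 < R := by linarith
  obtain ⟨K, hK⟩ : ∃ K : ℤ, K = ⌊R / h⌋ + 2 := ⟨_, rfl⟩
  obtain ⟨D, hD⟩ : ∃ D : Finset (Fin 3 → ℤ),
      D = Fintype.piFinset (fun _ : Fin 3 => Finset.Icc (-K) K) := ⟨_, rfl⟩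
  obtain ⟨e, he⟩ : ∃ e : ℝ, e = 14 * h / R ^ 4 := ⟨_, rfl⟩
  obtain ⟨I, hI⟩ : ∃ I : (Fin 3 → ℤ) → ℝ,
      I = fun d => ∫ u in {u : Pt | idx h 0 u = d}, AR R ‖u‖ := ⟨_, rfl⟩
  have he0 : 0 ≤ e := by rw [he]; positivity
  have hI0 : ∀ d, 0 ≤ I d := fun d => by
    rw [hI]
    exact setIntegral_nonneg (measurableSet_cell h 0 d) (fun u _ => AR_nonneg hR0 _)
  have hK1 : (K : ℝ) ≤ R / h + 2 := by
    rw [hK]; push_cast; linarith [Int.floor_le (R / h)]
  have hK2 : R / h + 1 < (K : ℝ) := by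
    rw [hK]; push_cast; linarith [Int.lt_floor_add_one (R / h)]
  have hRh : 8 ≤ R / h := by rw [le_div_iff₀ hh]; exact hR
  have hmem : ∀ d : Fin 3 → ℤ, d ∈ D ↔ ∀ a, -K ≤ d a ∧ d a ≤ K := by
    intro d; rw [hD]; simp [Fintype.mem_piFinset]
  have hh3 : (0:ℝ) < h ^ 3 := by positivity
  -- coverage
  have hcov : ∀ u : Pt, ‖u‖ < R → idx h 0 u ∈ D := by
    intro u hu
    rw [hmem]
    intro a
    have g := geo_cell hh u a
    have hua := abs_lt.1 ((coord_le_norm u a).trans_lt hu)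
    have hRe : R = (R / h) * h := by field_simp
    constructor
    · have : (-(K:ℝ)) * h < ((idx h 0 u a : ℝ) + 1) * h := by nlinarith [g.2, hua.1]
      have h2 : (-(K:ℝ)) < (idx h 0 u a : ℝ) + 1 := lt_of_mul_lt_mul_right this hh.le
      have h3 : -K < idx h 0 u a + 1 := by exact_mod_cast h2
      omega
    · have : (idx h 0 u a : ℝ) * h < (K : ℝ) * h := by nlinarith [g.1, hua.2]
      have h2 : (idx h 0 u a : ℝ) < (K : ℝ) := lt_of_mul_lt_mul_right this hh.le
      have h3 : idx h 0 u a < K := by exact_mod_cast h2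
      omega
  have hsum : ∑ d ∈ D, I d = iota := by
    rw [hI]; exact sum_cells hR0 D hcov
  -- cardinality
  have hK0 : 0 ≤ K := by
    have : (0:ℝ) ≤ (K:ℝ) := by linarith
    exact_mod_cast this
  have hcard : (D.card : ℝ) ≤ 27 * (R / h) ^ 3 := by
    have h1 : D.card = (2 * K + 1).toNat ^ 3 := by
      rw [hD, Fintype.card_piFinset]
      simp only [Int.card_Icc, Finset.prod_const, Finset.card_univ, Fintype.card_fin]
      congr 2
      ring
    have h2 : (((2 * K + 1).toNat : ℕ) : ℝ) = 2 * (K:ℝ) + 1 := by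
      have : (((2 * K + 1).toNat : ℕ) : ℤ) = 2 * K + 1 := Int.toNat_of_nonneg (by omega)
      have h3 : ((((2 * K + 1).toNat : ℕ) : ℤ) : ℝ) = ((2 * K + 1 : ℤ) : ℝ) := by rw [this]
      push_cast at h3
      exact h3
    rw [h1]; push_cast; rw [h2]
    have h4 : 2 * (K:ℝ) + 1 ≤ 3 * (R / h) := by linarith
    calc (2 * (K:ℝ) + 1) ^ 3 ≤ (3 * (R / h)) ^ 3 :=
          pow_le_pow_left₀ (by linarith) h4 3
      _ = 27 * (R / h) ^ 3 := by ring
  have herr : h ^ 3 * (D.card * e) ≤ 400 * h / R := by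
    have h1 : h ^ 3 * (D.card * e) ≤ h ^ 3 * (27 * (R / h) ^ 3 * e) := by
      apply mul_le_mul_of_nonneg_left _ hh3.le
      exact mul_le_mul_of_nonneg_right hcard he0
    have h2 : h ^ 3 * (27 * (R / h) ^ 3 * e) = 378 * h / R := by
      rw [he]; field_simp; ring
    rw [h2] at h1
    refine h1.trans ?_
    rw [div_le_div_iff_of_pos_right hR0]
    nlinarith
  refine ⟨fun d => if d ∈ D then I d / h ^ 3 + e else 0,
    fun d => if d ∈ D then max 0 (I d / h ^ 3 - e) else 0, D, ?_, ?_, ?_, ?_, ?_, ?_, ?_, ?_⟩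
  · intro d
    dsimp only
    split_ifs
    · exact le_max_left _ _
    · exact le_rfl
  · intro d
    dsimp only
    split_ifs
    · have : 0 ≤ I d / h ^ 3 := div_nonneg (hI0 d) hh3.le
      exact max_le (by linarith) (by linarith)
    · exact le_rfl
  · intro d hd
    dsimp only
    rw [if_neg hd]
  · intro d hd a
    have := (hmem d).1 hd a
    have h1 : (-(K:ℝ)) ≤ (d a : ℝ) := by exact_mod_cast this.1
    have h2 : (d a : ℝ) ≤ (K:ℝ) := by exact_mod_cast this.2
    rw [abs_le]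
    constructor <;> linarith
  · dsimp only
    have hI00 : I 0 = 0 := by
      rw [hI]
      dsimp only
      refine setIntegral_eq_zero_of_forall_eq_zero (fun u hu => ?_)
      apply AR_eq_zero_of_le hR0
      have h1 : ∀ a, |u a| ≤ h := by
        intro a
        have g := geo_cell hh u a
        rw [show idx h 0 u = 0 from hu] at g
        simp only [Pi.zero_apply, Int.cast_zero, zero_mul, zero_add] at g
        rw [abs_le]
        constructor <;> linarith [g.1, g.2]
      have := norm_le_of_coord u h1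
      linarith
    split_ifs
    · rw [hI00, zero_div]
      exact max_eq_left (by linarith)
    · rfl
  · intro t x y
    dsimp only
    by_cases hd : idx h t y - idx h t x ∈ D
    · rw [if_pos hd, if_pos hd]
      have hav := cell_avg hh hR0 (idx h t y - idx h t x) (AR R (dist x y)) e
        (fun u hu => by rw [he]; exact AR_close hh hR0 t x y u hu)
      have hav' : |I (idx h t y - idx h t x) / h ^ 3 - AR R (dist x y)| ≤ e := by
        rw [hI]; exact hav
      rw [abs_le] at hav'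
      constructor
      · exact max_le (AR_nonneg hR0 _) (by linarith [hav'.2])
      · linarith [hav'.1]
    · rw [if_neg hd, if_neg hd]
      have hz : AR R (dist x y) = 0 := by
        apply AR_eq_zero_of_ge hR0
        rw [hmem] at hd
        push Not at hd
        obtain ⟨a, ha⟩ := hd
        have g := geo_diff hh t x y a
        have hn : |(y - x) a| ≤ dist x y := by
          rw [dist_comm, dist_eq_norm]; exact coord_le_norm _ a
        simp only [PiLp.sub_apply] at hn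
        have hRe : R = (R / h) * h := by field_simp
        by_cases h1 : -K ≤ (idx h t y - idx h t x) a
        · have h2 : K + 1 ≤ (idx h t y - idx h t x) a := by have := ha h1; omega
          have h3 : (K:ℝ) + 1 ≤ ((idx h t y - idx h t x) a : ℝ) := by exact_mod_cast h2
          have h4 : R < y a - x a := by nlinarith [g.1]
          linarith [le_abs_self (y a - x a)]
        · have h2 : (idx h t y - idx h t x) a ≤ -K - 1 := by omega
          have h3 : ((idx h t y - idx h t x) a : ℝ) ≤ -(K:ℝ) - 1 := by exact_mod_cast h2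
          have h4 : y a - x a < -R := by nlinarith [g.2]
          linarith [neg_abs_le (y a - x a)]
      rw [hz]
      exact ⟨le_rfl, le_rfl⟩
  · dsimp only
    have h1 : ∑ d ∈ D, (if d ∈ D then I d / h ^ 3 + e else 0) = ∑ d ∈ D, (I d / h ^ 3 + e) :=
      Finset.sum_congr rfl (fun d hd => if_pos hd)
    rw [h1, Finset.sum_add_distrib, ← Finset.sum_div, hsum, Finset.sum_const, nsmul_eq_mul,
      mul_add, mul_div_cancel₀ _ hh3.ne']
    linarith
  · dsimp only
    have h1 : ∑ d ∈ D, (I d / h ^ 3 - e) ≤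
        ∑ d ∈ D, (if d ∈ D then max 0 (I d / h ^ 3 - e) else 0) := by
      refine Finset.sum_le_sum (fun d hd => ?_)
      rw [if_pos hd]
      exact le_max_right _ _
    have h2 : h ^ 3 * ∑ d ∈ D, (I d / h ^ 3 - e) = iota - h ^ 3 * (D.card * e) := by
      rw [Finset.sum_sub_distrib, ← Finset.sum_div, hsum, Finset.sum_const, nsmul_eq_mul,
        mul_sub, mul_div_cancel₀ _ hh3.ne']
    have h3 := mul_le_mul_of_nonneg_left h1 hh3.le
    rw [h2] at h3
    linarith

end Crest.Agent.PT
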