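import Crest.Agent.PT_Defs

/-! Row 149, task B4: three non-collinear subgradients of the pressure at one point give a kink of the canonical
free energy at ONE `βc` for all densities in an interval (blueprint B4). -/

set_option autoImplicit false

namespace Crest.Agent.PT

open Set Filter Topology

/-- a convex function of one variable has a supporting line at every interior point. -/
theorem exists_support_line {S : Set ℝ} {f : ℝ → ℝ} (hf : ConvexOn ℝ S f) {x : ℝ}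
    (hx : x ∈ interior S) : ∃ ν : ℝ, ∀ y ∈ S, f x + ν * (y - x) ≤ f y := by
  refine ⟨derivWithin f (Ioi x) x, ?_⟩
  intro y hy
  rcases lt_trichotomy y x with hlt | rfl | hgt
  · have h1 := hf.slope_le_leftDeriv_of_mem_interior hy hx hlt
    have h2 := hf.leftDeriv_le_rightDeriv_of_mem_interior hx
    have h3 : slope f y x ≤ derivWithin f (Ioi x) x := h1.trans h2
    rw [slope_def_field, div_le_iff₀ (sub_pos.mpr hlt)] at h3
    linarith
  · simp
  · have h1 := hf.rightDeriv_le_slope_of_mem_interior hx hy hgt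
    rw [slope_def_field, le_div_iff₀ (sub_pos.mpr hgt)] at h1
    linarith

/-- one-sided derivatives of a concave function squeezed under two lines. -/
theorem concave_kink {g : ℝ → ℝ} {β1 β2 βc u' u'' : ℝ} (h1c : β1 < βc) (hc2 : βc < β2)
    (hg : ConcaveOn ℝ (Ioo β1 β2) g)
    (hr : ∀ β ∈ Ioo βc β2, g β ≤ g βc + u' * (β - βc))
    (hl : ∀ β ∈ Ioo β1 βc, g β ≤ g βc + u'' * (β - βc)) :
    ∃ gl gr : ℝ, HasDerivWithinAt g gl (Iio βc) βc ∧ HasDerivWithinAt g gr (Ioi βc) βc ∧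
      gr ≤ u' ∧ u'' ≤ gl := by
  have hint : βc ∈ interior (Ioo β1 β2) := by
    rw [interior_Ioo]; exact ⟨h1c, hc2⟩
  have hconv : ConvexOn ℝ (Ioo β1 β2) (fun β => -g β) := hg.neg
  have hR0 := hconv.hasDerivWithinAt_rightDeriv_of_mem_interior hint
  have hL0 := hconv.hasDerivWithinAt_leftDeriv_of_mem_interior hint
  have hR : HasDerivWithinAt g (-(derivWithin (fun β => -g β) (Ioi βc) βc)) (Ioi βc) βc := by
    have h := hR0.neg
    have e : (-fun β => -g β) = g := by funext β; simp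
    rwa [e] at h
  have hL : HasDerivWithinAt g (-(derivWithin (fun β => -g β) (Iio βc) βc)) (Iio βc) βc := by
    have h := hL0.neg
    have e : (-fun β => -g β) = g := by funext β; simp
    rwa [e] at h
  refine ⟨_, _, hL, hR, ?_, ?_⟩
  · have ht := (hasDerivWithinAt_iff_tendsto_slope' self_notMem_Ioi).mp hR
    apply le_of_tendsto ht
    filter_upwards [Ioo_mem_nhdsGT hc2] with β hβ
    rw [slope_def_field, div_le_iff₀ (sub_pos.mpr hβ.1)]
    have := hr β hβ
    linarith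
  · have ht := (hasDerivWithinAt_iff_tendsto_slope' self_notMem_Iio).mp hL
    apply ge_of_tendsto ht
    filter_upwards [Ioo_mem_nhdsLT h1c] with β hβ
    rw [slope_def_field, le_div_iff_of_neg (sub_neg.mpr hβ.2)]
    have := hl β hβ
    linarith

theorem kink_of_three (G : ℝ → ℝ → ℝ) (ρhi β1 β2 βc νc : ℝ) (h1 : 0 < β1) (h1c : β1 < βc)
    (hc2 : βc < β2)
    (hconc : ∀ ρ ∈ Set.Icc 0 ρhi, ConcaveOn ℝ (Set.Ioo β1 β2) (fun β => G β ρ))
    (hconv : ∀ β ∈ Set.Ioo β1 β2, ConvexOn ℝ (Set.Icc 0 ρhi) (fun ρ => G β ρ))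
    (P : ℝ → ℝ → ℝ)
    (hP : ∀ β ∈ Set.Ioo β1 β2, ∀ ν, IsLUB ((fun ρ => ν * ρ - G β ρ) '' Set.Icc 0 ρhi) (P β ν))
    (ρX uX : Fin 3 → ℝ)
    (hsub : ∀ X, ∀ β ∈ Set.Ioo β1 β2, ∀ ν,
      P βc νc + ρX X * (ν - νc) - uX X * (β - βc) ≤ P β ν)
    (hρ0 : 0 < ρX 0) (hρ01 : ρX 0 < ρX 1) (hρ12 : ρX 1 < ρX 2) (hρ2 : ρX 2 < ρhi)
    (hgap : uX 1 < uX 0 + (uX 2 - uX 0) * (ρX 1 - ρX 0) / (ρX 2 - ρX 0)) :
    ∀ ρ, ρX 0 < ρ → ρ < ρX 2 → ∃ Dl Dr : ℝ,
      HasDerivWithinAt (fun β => G β ρ / β) Dl (Set.Iio βc) βc ∧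
      HasDerivWithinAt (fun β => G β ρ / β) Dr (Set.Ioi βc) βc ∧ Dr < Dl := by
  intro ρ hρl hρr
  have hβc : βc ∈ Ioo β1 β2 := ⟨h1c, hc2⟩
  have hβc0 : 0 < βc := h1.trans h1c
  have hρmem : ρ ∈ Icc 0 ρhi := ⟨by linarith, by linarith⟩
  have hρint : ρ ∈ interior (Icc 0 ρhi) := by
    rw [interior_Icc]; exact ⟨by linarith, by linarith⟩
  -- the key upper bound, for any convex combination of two of the three subgradients
  have key : ∀ (X Y : Fin 3) (t : ℝ), 0 ≤ t → t ≤ 1 → t * ρX X + (1 - t) * ρX Y = ρ →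
      ∀ β ∈ Ioo β1 β2,
        G β ρ ≤ νc * ρ - P βc νc + (t * uX X + (1 - t) * uX Y) * (β - βc) := by
    intro X Y t ht0 ht1 hρ β hβ
    obtain ⟨ν0, hν0⟩ := exists_support_line (hconv β hβ) hρint
    have hPle : P β ν0 ≤ ν0 * ρ - G β ρ := by
      apply (hP β hβ ν0).2
      rintro _ ⟨ρ', hρ', rfl⟩
      have := hν0 ρ' hρ'
      simp only
      linarith
    have hX := hsub X β hβ ν0
    have hY := hsub Y β hβ ν0
    have hcomb : P βc νc + ρ * (ν0 - νc) - (t * uX X + (1 - t) * uX Y) * (β - βc) ≤ P β ν0 := by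
      have e1 := mul_le_mul_of_nonneg_left hX ht0
      have e2 := mul_le_mul_of_nonneg_left hY (sub_nonneg.mpr ht1)
      have e3 : P βc νc + ρ * (ν0 - νc) - (t * uX X + (1 - t) * uX Y) * (β - βc)
          = t * (P βc νc + ρX X * (ν0 - νc) - uX X * (β - βc))
            + (1 - t) * (P βc νc + ρX Y * (ν0 - νc) - uX Y * (β - βc)) := by
        rw [← hρ]; ring
      rw [e3]
      have e4 : P β ν0 = t * P β ν0 + (1 - t) * P β ν0 := by ring
      rw [e4]
      exact add_le_add e1 e2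
    linarith
  -- lower bound at `βc`
  have hlow : νc * ρ - P βc νc ≤ G βc ρ := by
    have := (hP βc hβc νc).1 ⟨ρ, hρmem, rfl⟩
    simp only at this
    linarith
  -- the chord (A, C)
  have h02 : 0 < ρX 2 - ρX 0 := by linarith
  set t2 : ℝ := (ρX 2 - ρ) / (ρX 2 - ρX 0) with ht2
  have ht20 : 0 ≤ t2 := div_nonneg (by linarith) h02.le
  have ht21 : t2 ≤ 1 := by rw [ht2, div_le_one h02]; linarith
  have ht2ρ : t2 * ρX 0 + (1 - t2) * ρX 2 = ρ := by
    rw [ht2]; field_simp; ring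
  set u2 : ℝ := t2 * uX 0 + (1 - t2) * uX 2 with hu2
  have hkey2 := key 0 2 t2 ht20 ht21 ht2ρ
  -- the lower broken line
  obtain ⟨u1, hu12, hkey1⟩ : ∃ u1 : ℝ, u1 < u2 ∧ ∀ β ∈ Ioo β1 β2,
      G β ρ ≤ νc * ρ - P βc νc + u1 * (β - βc) := by
    have h01 : 0 < ρX 1 - ρX 0 := by linarith
    have h12 : 0 < ρX 2 - ρX 1 := by linarith
    -- `gap > 0`
    set gap : ℝ := uX 0 + (uX 2 - uX 0) * (ρX 1 - ρX 0) / (ρX 2 - ρX 0) - uX 1 with hgapdef
    have hgap0 : 0 < gap := by rw [hgapdef]; linarith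
    rcases le_total ρ (ρX 1) with hle | hge
    · set s : ℝ := (ρX 1 - ρ) / (ρX 1 - ρX 0) with hs
      have hs0 : 0 ≤ s := div_nonneg (by linarith) h01.le
      have hs1 : s < 1 := by rw [hs, div_lt_one h01]; linarith
      have hsρ : s * ρX 0 + (1 - s) * ρX 1 = ρ := by
        rw [hs]; field_simp; ring
      refine ⟨s * uX 0 + (1 - s) * uX 1, ?_, key 0 1 s hs0 hs1.le hsρ⟩
      have : u2 - (s * uX 0 + (1 - s) * uX 1) = (1 - s) * gap := by
        rw [hu2, ht2, hgapdef, hs]; field_simp; ring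
      have h3 : 0 < (1 - s) * gap := mul_pos (by linarith) hgap0
      linarith
    · set s : ℝ := (ρX 2 - ρ) / (ρX 2 - ρX 1) with hs
      have hs0 : 0 < s := div_pos (by linarith) h12
      have hs1 : s ≤ 1 := by rw [hs, div_le_one h12]; linarith
      have hsρ : s * ρX 1 + (1 - s) * ρX 2 = ρ := by
        rw [hs]; field_simp; ring
      refine ⟨s * uX 1 + (1 - s) * uX 2, ?_, key 1 2 s hs0.le hs1 hsρ⟩
      have : u2 - (s * uX 1 + (1 - s) * uX 2) = s * gap := by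
        rw [hu2, ht2, hgapdef, hs]; field_simp; ring
      have h3 : 0 < s * gap := mul_pos hs0 hgap0
      linarith
  -- squeeze
  obtain ⟨gl, gr, hgl, hgr, hgr', hgl'⟩ := concave_kink (g := fun β => G β ρ) (u' := u1) (u'' := u2)
    h1c hc2 (hconc ρ hρmem)
    (fun β hβ => by
      have := hkey1 β ⟨h1c.trans hβ.1, hβ.2⟩
      linarith)
    (fun β hβ => by
      have := hkey2 β ⟨hβ.1, hβ.2.trans hc2⟩
      linarith)
  have hDl := hgl.div (hasDerivWithinAt_id βc (Iio βc)) hβc0.ne'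
  have hDr := hgr.div (hasDerivWithinAt_id βc (Ioi βc)) hβc0.ne'
  refine ⟨_, _, hDl, hDr, ?_⟩
  simp only [id]
  apply div_lt_div_of_pos_right _ (by positivity)
  have : gr < gl := by linarith
  nlinarith

end Crest.Agent.PT
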