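import Crest.Agent.PT_LPNum

/-! Row 149, task LP10: numerics shared by the two lower bounds A8(i)"≥", A8(ii)"≥".  Notation: `PT_LPDefs`; `h = ℓ + bb`. -/

set_option autoImplicit false

namespace Crest.Agent.PT

open Crest.ProbabilityR.Continuum

/-- abstract comparison: `E = ν n̂ + β κ n̂²/2 + g ∈ [0,70]`, prefactor `θ ∈ [1-ε₁,1]`, reduced coupling `κ' ∈ [κ-ε₂, κ]`. -/
theorem low_abstract {ν nh β κ κ' g θ ε₁ ε₂ : ℝ} (hnh0 : 0 ≤ nh) (hnh : nh ≤ 20) (hβ0 : 0 ≤ β)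
    (hβ : β ≤ 11 / 10) (hE0 : 0 ≤ ν * nh + β * κ * nh ^ 2 / 2 + g)
    (hE : ν * nh + β * κ * nh ^ 2 / 2 + g ≤ 70) (hθ1 : θ ≤ 1) (hθ : 1 - ε₁ ≤ θ) (hθ0 : 0 ≤ θ)
    (hκ' : κ' ≤ κ) (hκ : κ - ε₂ ≤ κ') :
    ν * nh + β * κ * nh ^ 2 / 2 + g - 70 * ε₁ - 220 * ε₂ ≤ θ * (ν * nh + β * κ' * nh ^ 2 / 2 + g) := by
  set E := ν * nh + β * κ * nh ^ 2 / 2 + g with hEdef
  have hε₁ : 0 ≤ ε₁ := by linarith
  have hd0 : 0 ≤ κ - κ' := by linarith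
  have hd : κ - κ' ≤ ε₂ := by linarith
  have hsq : nh ^ 2 ≤ 400 := by nlinarith
  have hsq0 : 0 ≤ nh ^ 2 := by positivity
  -- the loss term
  have hD0 : 0 ≤ β * (κ - κ') * nh ^ 2 / 2 := by positivity
  have hD : β * (κ - κ') * nh ^ 2 / 2 ≤ 220 * ε₂ := by
    have h1 : β * (κ - κ') ≤ 11 / 10 * ε₂ := by
      calc β * (κ - κ') ≤ 11 / 10 * (κ - κ') := by gcongr
        _ ≤ 11 / 10 * ε₂ := by gcongr
    have h10 : 0 ≤ β * (κ - κ') := by positivity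
    have h2 : β * (κ - κ') * nh ^ 2 ≤ 11 / 10 * ε₂ * 400 := by
      calc β * (κ - κ') * nh ^ 2 ≤ β * (κ - κ') * 400 := by gcongr
        _ ≤ 11 / 10 * ε₂ * 400 := by gcongr
    linarith
  have hE' : ν * nh + β * κ' * nh ^ 2 / 2 + g = E - β * (κ - κ') * nh ^ 2 / 2 := by
    rw [hEdef]; ring
  rw [hE']
  have h3 : θ * (β * (κ - κ') * nh ^ 2 / 2) ≤ β * (κ - κ') * nh ^ 2 / 2 := by
    nlinarith
  have h4 : (1 - ε₁) * E ≤ θ * E := by gcongr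
  have h5 : ε₁ * E ≤ ε₁ * 70 := by gcongr
  nlinarith

/-- Bernoulli for the cube. -/
private theorem cube_bern {y : ℝ} (hy0 : 0 ≤ y) (hy1 : y ≤ 1) : 1 - 3 * y ≤ (1 - y) ^ 3 := by
  nlinarith [mul_nonneg hy0 hy0, mul_nonneg (mul_nonneg hy0 hy0) (sub_nonneg.2 hy1)]

private theorem r_big {T : ℝ} (hT : 12 ≤ T) (k : ℕ) : (1000 : ℝ) ≤ Rk T (k - 1) := by
  have := Rk_big hT (k - 1)
  have h2 : (1000 : ℝ) ≤ (10 : ℝ) ^ 30 := by norm_num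
  linarith

/-- `(ℓ/h)^3 ≥ 1 - 3 bb/ℓ ≥ 1 - 4/r` -/
theorem lh_cube {T : ℝ} (hT : 12 ≤ T) (k : ℕ) :
    1 - 4 / Rk T (k - 1) ≤ (lk T k / (lk T k + bb)) ^ 3 ∧ (lk T k / (lk T k + bb)) ^ 3 ≤ 1 := by
  have hr := r_big hT k
  rw [lk_eq]
  set r := Rk T (k - 1) with hrdef
  have hb0 := bb_pos
  have hb := bb_lt
  have hr0 : 0 < r := by linarith
  have hl0 : 0 < r ^ 2 := by positivity
  have hh0 : 0 < r ^ 2 + bb := by positivity
  have heq : r ^ 2 / (r ^ 2 + bb) = 1 - bb / (r ^ 2 + bb) := by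
    field_simp; ring
  have hy0 : 0 ≤ bb / (r ^ 2 + bb) := by positivity
  have hy1 : bb / (r ^ 2 + bb) ≤ 1 := by
    rw [div_le_one hh0]; linarith
  constructor
  · rw [heq]
    refine le_trans ?_ (cube_bern hy0 hy1)
    have : 3 * (bb / (r ^ 2 + bb)) ≤ 4 / r := by
      rw [← mul_div_assoc, div_le_div_iff₀ hh0 hr0]
      nlinarith
    linarith
  · rw [heq]
    have h01 : 0 ≤ 1 - bb / (r ^ 2 + bb) := by linarith
    have h11 : 1 - bb / (r ^ 2 + bb) ≤ 1 := by linarith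
    exact pow_le_one₀ h01 h11

/-- `8 h ≤ R_k ≤ R_j` -/
theorem eight_h_le {T : ℝ} (hT : 12 ≤ T) {k j : ℕ} (hk : 1 ≤ k) (hkj : k ≤ j) :
    8 * (lk T k + bb) ≤ Rk T j := by
  have hr := r_big hT k
  refine le_trans ?_ (Rk_mono (by linarith : (1 : ℝ) ≤ T) hkj)
  rw [Rk_eq_cube T hk, lk_eq]
  set r := Rk T (k - 1) with hrdef
  have hb := bb_lt
  have hr0 : 0 < r := by linarith
  have h2 : 1000 * r ^ 2 ≤ r ^ 3 := by
    have : r ^ 3 = r * r ^ 2 := by ring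
    rw [this]; gcongr
  nlinarith

/-- `400 h/(ι R_j) ≤ 400 h/(ι R_k) ≤ 800/(ι r) ≤ 4/5` -/
theorem x_le {om : ℝ → ℝ} {p δ lam T : ℝ} (h : LPHyp om p δ lam T) {k j : ℕ} (hk : 1 ≤ k) (hkj : k ≤ j) :
    400 * (lk T k + bb) / (iota * Rk T j) ≤ 800 / (iota * Rk T (k - 1)) := by
  have hT := h.par.hT
  have hr := r_big hT k
  have hmono := Rk_mono (by linarith : (1 : ℝ) ≤ T) hkj
  have hi := iota_pos
  have hb := bb_lt
  have hb0 := bb_pos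
  have hRk0 : 0 < Rk T k := Rk_pos (by linarith) k
  have hl0 : 0 < lk T k := lk_pos (by linarith) k
  calc 400 * (lk T k + bb) / (iota * Rk T j) ≤ 400 * (lk T k + bb) / (iota * Rk T k) := by
        gcongr
    _ ≤ 800 / (iota * Rk T (k - 1)) := by
        rw [Rk_eq_cube T hk, lk_eq]
        set r := Rk T (k - 1) with hrdef
        have hr0 : 0 < r := by linarith
        rw [div_le_div_iff₀ (by positivity) (by positivity)]
        have h1 : bb ≤ r ^ 2 := by nlinarith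
        have h2 : 400 * (r ^ 2 + bb) * r ≤ 800 * r ^ 3 := by nlinarith
        calc 400 * (r ^ 2 + bb) * (iota * r) = iota * (400 * (r ^ 2 + bb) * r) := by ring
          _ ≤ iota * (800 * r ^ 3) := by gcongr
          _ = 800 * (iota * r ^ 3) := by ring

/-- lower bound of the Kac sum:  `∑_{k≤j≤J} c_j (ι - 400h/R_j) ≥ (λ/p_b)(1 - 800/(ι r)) (K_k - K_{J+1})`
(`ck_mul_iota`, `x_le`, `sum_kap_Icc`). -/
theorem sum_ck_ge {om : ℝ → ℝ} {p δ lam T : ℝ} (h : LPHyp om p δ lam T) {k J : ℕ} (hk : 1 ≤ k) (hkJ : k ≤ J) :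
    lam / pb p * (1 - 800 / (iota * Rk T (k - 1))) * (Kap T k - Kap T (J + 1)) ≤
      ∑ j ∈ Finset.Icc k J, ck p lam T j * (iota - 400 * (lk T k + bb) / Rk T j) := by
  have hT := h.par.hT
  have hi := iota_pos
  have hlam : 0 < lam := by linarith [h.par.hlam]
  rw [← sum_kap_Icc hT hkJ, Finset.mul_sum]
  refine Finset.sum_le_sum ?_
  intro j hj
  have hkj : k ≤ j := (Finset.mem_Icc.1 hj).1
  have hx := x_le h hk hkj
  have hRj0 : 0 < Rk T j := Rk_pos (by linarith) j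
  have hc0 : 0 < ck p lam T j := ck_pos h.par.hp hlam (by linarith) j
  have e1 : ck p lam T j * (iota - 400 * (lk T k + bb) / Rk T j)
      = ck p lam T j * iota * (1 - 400 * (lk T k + bb) / (iota * Rk T j)) := by
    field_simp
  have e2 : lam / pb p * (1 - 800 / (iota * Rk T (k - 1))) * kap T j
      = ck p lam T j * iota * (1 - 800 / (iota * Rk T (k - 1))) := by
    rw [ck_mul_iota]; ring
  rw [e1, e2]
  have : 0 ≤ ck p lam T j * iota := by positivity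
  gcongr

/-- `m = ⌊ℓ^3/h⌋₊`:  `m h ≤ ℓ^3`, `m ≤ ℓ^2`, `(m/ℓ^2)^3 ≥ 1 - 6/r`, and with `Dm = ⌈R_k/h⌉₊ + 2 ≤ 2 r`, `m ≥ r^4/2`:
`2 Dm ≤ m`, `(1 - 2Dm/m)^3 ≥ 1 - 1/r`. -/
theorem m_facts {T : ℝ} (hT : 12 ≤ T) {k : ℕ} (hk : 1 ≤ k) :
    ((⌊(lk T k) ^ 3 / (lk T k + bb)⌋₊ : ℝ) * (lk T k + bb) ≤ (lk T k) ^ 3) ∧
    ((⌊(lk T k) ^ 3 / (lk T k + bb)⌋₊ : ℝ) ≤ (lk T k) ^ 2) ∧
    (1 - 6 / Rk T (k - 1) ≤ ((⌊(lk T k) ^ 3 / (lk T k + bb)⌋₊ : ℝ) / (lk T k) ^ 2) ^ 3) ∧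
    (2 * (⌈Rk T k / (lk T k + bb)⌉₊ + 2) ≤ ⌊(lk T k) ^ 3 / (lk T k + bb)⌋₊) ∧
    ((1 - 1 / Rk T (k - 1)) * (⌊(lk T k) ^ 3 / (lk T k + bb)⌋₊ : ℝ) ^ 3 ≤
      ((⌊(lk T k) ^ 3 / (lk T k + bb)⌋₊ : ℝ) - 2 * ((⌈Rk T k / (lk T k + bb)⌉₊ : ℝ) + 2)) ^ 3) := by
  have hr := r_big hT k
  rw [Rk_eq_cube T hk, lk_eq]
  set r := Rk T (k - 1) with hrdef
  have hb0 := bb_pos
  have hb := bb_lt
  have hr0 : 0 < r := by linarith
  set l := r ^ 2 with hldef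
  have hl0 : 0 < l := by positivity
  have hl : 1000000 ≤ l := by rw [hldef]; nlinarith
  have hlr : 1000 * r ≤ l := by rw [hldef]; nlinarith
  have hh0 : 0 < l + bb := by positivity
  have hq0 : 0 ≤ l ^ 3 / (l + bb) := by positivity
  set m : ℕ := ⌊l ^ 3 / (l + bb)⌋₊ with hmdef
  set D : ℕ := ⌈r ^ 3 / (l + bb)⌉₊ with hDdef
  have hm_le : (m : ℝ) ≤ l ^ 3 / (l + bb) := Nat.floor_le hq0
  have hm_ge : l ^ 3 / (l + bb) - 1 < (m : ℝ) := Nat.sub_one_lt_floor _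
  have hq_le : l ^ 3 / (l + bb) ≤ l ^ 2 := by
    rw [div_le_iff₀ hh0]
    nlinarith [pow_pos hl0 2]
  -- l^3/(l+bb) ≥ l^2 - bb l
  have hq_ge : l ^ 2 - bb * l ≤ l ^ 3 / (l + bb) := by
    rw [le_div_iff₀ hh0]
    nlinarith [mul_pos (mul_pos hb0 hb0) hl0]
  have hm_ge2 : l ^ 2 - 2 * l ≤ (m : ℝ) := by nlinarith
  have hD_le : (D : ℝ) ≤ r + 1 := by
    have h1 : (D : ℝ) < r ^ 3 / (l + bb) + 1 := Nat.ceil_lt_add_one (by positivity)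
    have h2 : r ^ 3 / (l + bb) ≤ r := by
      rw [div_le_iff₀ hh0, hldef]
      nlinarith
    linarith
  have hD0 : (0 : ℝ) ≤ (D : ℝ) := Nat.cast_nonneg _
  have hm_pos : 0 < (m : ℝ) := by nlinarith
  have h2D : 2 * ((D : ℝ) + 2) ≤ (m : ℝ) := by nlinarith
  refine ⟨?_, ?_, ?_, ?_, ?_⟩
  · rwa [le_div_iff₀ hh0] at hm_le
  · linarith
  · have hy : (m : ℝ) / l ^ 2 = 1 - (l ^ 2 - m) / l ^ 2 := by
      field_simp; ring
    have hy0 : 0 ≤ (l ^ 2 - m) / l ^ 2 := by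
      apply div_nonneg _ (by positivity); linarith
    have hy2 : (l ^ 2 - m) / l ^ 2 ≤ 2 / r := by
      rw [div_le_div_iff₀ (by positivity) hr0]
      have : (l ^ 2 - (m : ℝ)) ≤ 2 * l := by linarith
      calc (l ^ 2 - (m : ℝ)) * r ≤ 2 * l * r := by gcongr
        _ ≤ 2 * l ^ 2 := by nlinarith
    have hy1 : (l ^ 2 - m) / l ^ 2 ≤ 1 := by
      refine le_trans hy2 ?_
      rw [div_le_one hr0]; linarith
    rw [hy]
    refine le_trans ?_ (cube_bern hy0 hy1)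
    have : 6 / r = 3 * (2 / r) := by ring
    rw [this]; linarith
  · have : ((2 * (D + 2) : ℕ) : ℝ) ≤ (m : ℝ) := by push_cast; exact h2D
    exact_mod_cast this
  · set y := 2 * ((D : ℝ) + 2) / m with hydef
    have hy0 : 0 ≤ y := by positivity
    have hy1 : y ≤ 1 := by rw [hydef, div_le_one hm_pos]; exact h2D
    have hfac : (m : ℝ) - 2 * ((D : ℝ) + 2) = m * (1 - y) := by
      rw [hydef]; field_simp
    rw [hfac, mul_pow, mul_comm]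
    have h3y : 3 * y ≤ 1 / r := by
      rw [hydef, ← mul_div_assoc, div_le_div_iff₀ hm_pos hr0]
      -- 3*(2*(D+2))*r ≤ m
      have h1 : 3 * (2 * ((D : ℝ) + 2)) ≤ 6 * r + 18 := by linarith
      have h2 : 3 * (2 * ((D : ℝ) + 2)) * r ≤ (6 * r + 18) * r := by gcongr
      have h3 : (6 * r + 18) * r ≤ 7 * l := by rw [hldef]; nlinarith
      nlinarith
    have := cube_bern hy0 hy1
    have hm3 : 0 ≤ (m : ℝ) ^ 3 := by positivity
    gcongr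
    linarith

end Crest.Agent.PT
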