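import Crest.Agent.PT_StabD

/-! Row 149, task A5e: coercivity: occupation numbers above `Nmax` are exponentially suppressed (blueprint A5(e)). -/

set_option autoImplicit false

namespace Crest.Agent.PT

open MeasureTheory Crest.ProbabilityR.Continuum

variable {p δ lam T : ℝ} {om : ℝ → ℝ}

private theorem se_arith {E A K c lam n V P S : ℝ} (hE : 0 ≤ E) (hlam : 0 < lam) (hV : 0 < V)
    (hn : 20 * V < n) (hP : P ≤ 1.05 * V)
    (hK : K ≤ 2 / 1000000) (hc0 : 0 ≤ c) (hc2 : c ≤ 2)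
    (hS0 : 0 ≤ S) (hS : S ≤ lam / (100000 * V))
    (hA : A ≤ K * (2 * (4 * E + lam * n / 2)))
    (hsq : n ^ 2 ≤ 2 * P * (4 * E / lam + n / 2)) :
    2.249 * lam * n ≤ E - c * A - S * n ^ 2 / 2 := by
  have hn0 : 0 < n := by linarith
  have hW : 0 ≤ 4 * E / lam + n / 2 := by positivity
  set W := 4 * E / lam + n / 2 with hWdef
  have hlW : lam * W = 4 * E + lam * n / 2 := by
    rw [hWdef]; field_simp
  -- n² ≤ 2.1 V W
  have h1 : n ^ 2 ≤ 2.1 * V * W := by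
    have : 2 * P * W ≤ 2 * (1.05 * V) * W := by
      apply mul_le_mul_of_nonneg_right _ hW
      linarith
    linarith
  -- W > 20 n / 2.1
  have h2 : 20 * n ≤ 2.1 * W := by
    have h3 : 20 * V * n ≤ n ^ 2 := by nlinarith
    have h4 : V * (20 * n) ≤ V * (2.1 * W) := by linarith
    exact le_of_mul_le_mul_left h4 hV
  have h5 : lam * (20 * n) ≤ lam * (2.1 * W) := mul_le_mul_of_nonneg_left h2 hlam.le
  -- c A
  have hQ : 0 ≤ 2 * (4 * E + lam * n / 2) := by positivity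
  have a1 : A ≤ 2 / 1000000 * (2 * (4 * E + lam * n / 2)) :=
    hA.trans (mul_le_mul_of_nonneg_right hK hQ)
  have a2 : c * A ≤ c * (2 / 1000000 * (2 * (4 * E + lam * n / 2))) :=
    mul_le_mul_of_nonneg_left a1 hc0
  have a3 : c * (2 / 1000000 * (2 * (4 * E + lam * n / 2)))
      ≤ 2 * (2 / 1000000 * (2 * (4 * E + lam * n / 2))) :=
    mul_le_mul_of_nonneg_right hc2 (by positivity)
  -- S n²/2
  have s1 : S * n ^ 2 ≤ S * (2.1 * V * W) := mul_le_mul_of_nonneg_left h1 hS0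
  have s2 : S * V ≤ lam / 100000 := by
    have : S * V ≤ lam / (100000 * V) * V := mul_le_mul_of_nonneg_right hS hV.le
    have e : lam / (100000 * V) * V = lam / 100000 := by field_simp
    linarith
  have s3 : S * V * (2.1 * W) ≤ lam / 100000 * (2.1 * W) :=
    mul_le_mul_of_nonneg_right s2 (by positivity)
  have h6 : 0 ≤ lam * n := by positivity
  nlinarith

private theorem se_Nmax_lt {k n : ℕ} (hn : Nmax p T k < n) :
    20 * (pb p * (lk T k) ^ 3) < (n : ℝ) := by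
  unfold Nmax at hn
  have := Nat.lt_of_floor_lt hn
  linarith

/-- energy estimate behind A5(e).  With `E = E[U](x)`, `ℓ = lk T k`, all `x i ∈ cube ℓ`, `n > Nmax`, i.e. `n ≥ 20 p_b ℓ³`:
* `c E[Alt k] ≤ 2 K_1 (8E + λn) ≤ 3.2e-5 E + 0.4e-5 λ n`  (`energy_Alt_le`, `Kap_one_le`);
* `S n²/2 ≤ 1e-5 (λ/(p_b ℓ³)) p⁺ ℓ³ (4E/λ + n/2) ≤ 4.2e-5 E + 0.525e-5 λ n`  (`sq_le_energy`, `pplus_le`);
* `E ≥ (λ/4)(n²/(2 p⁺ ℓ³) - n/2) ≥ (λ n/4)(10/1.05 - 1/2) ≥ 2.25 λ n`  (`sq_le_energy` again);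
so `E[U - c Alt k] - S n²/2 ≥ (1 - 1e-4) E - 1e-4 λ n ≥ 2.249 λ n`. -/
theorem coercive_energy (hP : Par p δ lam T) (hom : CoreOK lam om) {k : ℕ} (hk : 1 ≤ k) {c S : ℝ}
    (hc0 : 0 ≤ c) (hc2 : c ≤ 2) (hS0 : 0 ≤ S) (hS : S ≤ lam / (100000 * (pb p * (lk T k) ^ 3)))
    {n : ℕ} (hn : Nmax p T k < n) (x : Fin n → Pt) (hx : ∀ i, x i ∈ cube (lk T k)) :
    2.249 * lam * n ≤
      energy (fun r => Uf om δ lam r - c * Alt p lam T k r) x - S * (n : ℝ) ^ 2 / 2 := by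
  have hlam : 0 < lam := by linarith [hP.hlam]
  have hT0 : 0 < T := by linarith [hP.hT]
  have hT1 : 1 ≤ T := by linarith [hP.hT]
  have hl : 0 < lk T k := lk_pos hT0 k
  have hl3 : 0 < (lk T k) ^ 3 := by positivity
  have hpb : 0 < pb p := by linarith [pb_pos hP.hp]
  rw [energy_sub (Uf om δ lam) (fun r => c * Alt p lam T k r), energy_smul]
  have hx' : ∀ i, x i ∈ cubeAt 0 (lk T k) := by
    intro i
    rw [← cube_eq_cubeAt]
    exact hx i
  refine se_arith (V := pb p * (lk T k) ^ 3) (P := pplus p δ * (lk T k) ^ 3) (K := Kap T 1)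
    (energy_nonneg (fun r _ => Uf_nonneg hlam.le hom r) x) hlam (by positivity) (se_Nmax_lt hn) ?_
    (Kap_one_le hP.hT) hc0 hc2 hS0 hS (energy_Alt_le hP hom k x)
    (sq_le_energy hP hom (lk_mono hT1 hk) 0 x hx')
  have := mul_le_mul_of_nonneg_right (pplus_le hP) hl3.le
  linarith

/-- Hint: `n^n / n! ≤ e^n` (`Real.pow_div_factorial_le_exp`), `n ≥ 20 p_b ℓ³ ≥ (100/9) ℓ³ ≥ e² ℓ³`
(`Real.exp_one_lt_d9`), so `ℓ^{3n}/n! ≤ (e ℓ³/n)^n ≤ e^{-n}`. -/
theorem vol_factor_le (hP : Par p δ lam T) (k : ℕ) {n : ℕ} (hn : Nmax p T k < n) :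
    ((lk T k) ^ 3) ^ n / (Nat.factorial n : ℝ) ≤ Real.exp (-(n : ℝ)) := by
  have hT0 : 0 < T := by linarith [hP.hT]
  have hl : 0 < lk T k := lk_pos hT0 k
  have hl3 : 0 < (lk T k) ^ 3 := by positivity
  have hpb := pb_pos hP.hp
  have h1 := se_Nmax_lt hn
  have h2 : 100 / 9 * (lk T k) ^ 3 ≤ (n : ℝ) := by
    have := mul_le_mul_of_nonneg_right hpb hl3.le
    linarith
  have he2 : Real.exp 2 ≤ 100 / 9 := by
    have h := Real.exp_one_lt_d9
    have e : Real.exp 2 = Real.exp 1 * Real.exp 1 := by rw [← Real.exp_add]; norm_num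
    rw [e]
    have h0 := Real.exp_pos 1
    nlinarith
  -- ℓ³ ≤ n e^{-2}
  have h3 : (lk T k) ^ 3 ≤ (n : ℝ) * Real.exp (-2) := by
    have h4 : Real.exp 2 * (lk T k) ^ 3 ≤ (n : ℝ) :=
      (mul_le_mul_of_nonneg_right he2 hl3.le).trans h2
    have h5 : Real.exp (-2) * (Real.exp 2 * (lk T k) ^ 3) ≤ Real.exp (-2) * (n : ℝ) :=
      mul_le_mul_of_nonneg_left h4 (Real.exp_pos _).le
    rw [← mul_assoc, ← Real.exp_add] at h5
    norm_num at h5
    linarith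
  have h6 : ((lk T k) ^ 3) ^ n ≤ ((n : ℝ) * Real.exp (-2)) ^ n := pow_le_pow_left₀ hl3.le h3 n
  have h7 : (n : ℝ) ^ n / (Nat.factorial n : ℝ) ≤ Real.exp (n : ℝ) :=
    Real.pow_div_factorial_le_exp (n : ℝ) (Nat.cast_nonneg n) n
  have hf : (0 : ℝ) < (Nat.factorial n : ℝ) := by exact_mod_cast Nat.factorial_pos n
  calc ((lk T k) ^ 3) ^ n / (Nat.factorial n : ℝ)
      ≤ ((n : ℝ) * Real.exp (-2)) ^ n / (Nat.factorial n : ℝ) :=
        div_le_div_of_nonneg_right h6 hf.le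
    _ = (n : ℝ) ^ n / (Nat.factorial n : ℝ) * Real.exp (-2) ^ n := by
        rw [mul_pow]; ring
    _ ≤ Real.exp (n : ℝ) * Real.exp (-2) ^ n :=
        mul_le_mul_of_nonneg_right h7 (by positivity)
    _ = Real.exp (-(n : ℝ)) := by
        rw [← Real.exp_nat_mul, ← Real.exp_add]
        congr 1
        ring

/-- A5(e).  Hint: `partitionFn_eq_ZW`, `ZW_le_of_lower` with `-c' = β (2.249 λ n + S n²/2)` (`coercive_energy`), `vol_factor_le`;
`λ ν n - 0.9 · 2.249 λ n ≤ 0`. -/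
theorem coercive (hP : Par p δ lam T) (hom : CoreOK lam om) {k : ℕ} (hk : 1 ≤ k) {β ν c S : ℝ}
    (hβ1 : 0.9 ≤ β) (hβ2 : β ≤ 1.1) (hν : ν ≤ 1.9) (hc0 : 0 ≤ c) (hc2 : c ≤ 2) (hS0 : 0 ≤ S)
    (hS : S ≤ lam / (100000 * (pb p * (lk T k) ^ 3))) {n : ℕ} (hn : Nmax p T k < n) :
    Real.exp (lam * ν * n) * partitionFn (fun r => Uf om δ lam r - c * Alt p lam T k r) (lk T k) n β *
        Real.exp (β * S * (n : ℝ) ^ 2 / 2) ≤ Real.exp (-(n : ℝ)) := by
  have hlam : 0 < lam := by linarith [hP.hlam]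
  have hT0 : 0 < T := by linarith [hP.hT]
  have hl : 0 < lk T k := lk_pos hT0 k
  have hβ : 0 ≤ β := by linarith
  have hZ : partitionFn (fun r => Uf om δ lam r - c * Alt p lam T k r) (lk T k) n β ≤
      Real.exp (-(β * (2.249 * lam * n + S * (n : ℝ) ^ 2 / 2))) * ((lk T k) ^ 3) ^ n
        / (Nat.factorial n : ℝ) := by
    rw [partitionFn_eq_ZW, ← vol_cube hl.le]
    refine ZW_le_of_lower (adm_radW (measurable_UfAlt hom k c) (UfAlt_lower hP hom k hc0) hβ)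
      (reg_cube (lk T k)) n _ (fun x hx => ?_)
    rw [energyW_radW, neg_neg]
    have := mul_le_mul_of_nonneg_left (coercive_energy hP hom hk hc0 hc2 hS0 hS hn x hx) hβ
    linarith
  have hv := vol_factor_le hP k hn
  have hn0 : (0 : ℝ) ≤ (n : ℝ) := Nat.cast_nonneg n
  have hln : 0 ≤ lam * n := by positivity
  calc Real.exp (lam * ν * n) *
        partitionFn (fun r => Uf om δ lam r - c * Alt p lam T k r) (lk T k) n β *
        Real.exp (β * S * (n : ℝ) ^ 2 / 2)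
      ≤ Real.exp (lam * ν * n) *
        (Real.exp (-(β * (2.249 * lam * n + S * (n : ℝ) ^ 2 / 2))) * ((lk T k) ^ 3) ^ n
          / (Nat.factorial n : ℝ)) * Real.exp (β * S * (n : ℝ) ^ 2 / 2) := by
        apply mul_le_mul_of_nonneg_right _ (Real.exp_pos _).le
        exact mul_le_mul_of_nonneg_left hZ (Real.exp_pos _).le
    _ = Real.exp (lam * ν * n + -(β * (2.249 * lam * n + S * (n : ℝ) ^ 2 / 2))
          + β * S * (n : ℝ) ^ 2 / 2) * (((lk T k) ^ 3) ^ n / (Nat.factorial n : ℝ)) := by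
        rw [Real.exp_add, Real.exp_add]; ring
    _ ≤ 1 * Real.exp (-(n : ℝ)) := by
        apply mul_le_mul _ hv (by positivity) zero_le_one
        rw [← Real.exp_zero]
        apply Real.exp_le_exp.mpr
        have e1 : ν * (lam * n) ≤ 1.9 * (lam * n) := mul_le_mul_of_nonneg_right hν hln
        have e2 : 0.9 * (lam * n) ≤ β * (lam * n) := mul_le_mul_of_nonneg_right hβ1 hln
        nlinarith
    _ = Real.exp (-(n : ℝ)) := one_mul _

end Crest.Agent.PT
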