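import Crest.Agent.PT_LPDefs
import Crest.Agent.PT_StabE

/-! Row 149: INTERFACE between A5 (`PT_Stab*`, helper98) and A8 (`PT_LP*`, helper77).
`St3`, `St5` are consequences of blueprint A5(d), A5(e'). -/

set_option autoImplicit false

namespace Crest.Agent.PT

open MeasureTheory Crest.ProbabilityR.Continuum

/-- (St3) stability + I11: `Z[U - c A_{<k}](L,n;β) ≤ e^{βλn} L^{3n}/n!` for `0 ≤ c ≤ 2`. -/
theorem St3 {om : ℝ → ℝ} {p δ lam T : ℝ} (h : LPHyp om p δ lam T) {k : ℕ} (hk : 1 ≤ k)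
    {c : ℝ} (hc0 : 0 ≤ c) (hc2 : c ≤ 2) {L : ℝ} (hL : 0 < L) (n : ℕ) {β : ℝ} (hβ : 0 ≤ β) :
    partitionFn (fun r => U0 δ lam r + om r - c * Alt p lam T k r) L n β ≤
      Real.exp (β * lam * n) * L ^ (3 * n) / (Nat.factorial n : ℝ) := by
  have := partitionFn_Alt_le h.par h.core k hc0 hc2 hL.le n hβ
  rw [← pow_mul] at this
  exact this

/-- (St5) coercivity, blueprint A5(e'). -/
theorem St5 {om : ℝ → ℝ} {p δ lam T : ℝ} (h : LPHyp om p δ lam T) {k : ℕ} (hk : 1 ≤ k)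
    {β ν c S : ℝ} (hβ1 : 9 / 10 ≤ β) (hβ2 : β ≤ 11 / 10) (hν : ν ≤ 19 / 10) (hc0 : 0 ≤ c) (hc2 : c ≤ 2)
    (hS0 : 0 ≤ S) (hS : S ≤ lam / (100000 * (pb p * (lk T k) ^ 3))) {n : ℕ} (hn : Nmax p T k < n) :
    Real.exp (lam * ν * n) * partitionFn (fun r => U0 δ lam r + om r - c * Alt p lam T k r) (lk T k) n β *
      Real.exp (β * S * (n : ℝ) ^ 2 / 2) ≤ Real.exp (-(n : ℝ)) :=
  coercive h.par h.core hk (by norm_num; linarith) (by norm_num; linarith) (by norm_num; linarith)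
    hc0 hc2 hS0 hS hn

end Crest.Agent.PT
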