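import Crest.Agent.PT_Num
import Crest.Agent.PT_Kac

/-! Row 149, task POT2: the attractive tail `Atot = ∑ c_k A_{R_k}` (disjoint supports `[R_k/2, R_k]`). -/

set_option autoImplicit false

namespace Crest.Agent.PT

open MeasureTheory Crest.ProbabilityR.Continuum

theorem ck_pos {p lam T : ℝ} (hp : 1 ≤ p) (hlam : 0 < lam) (hT : 0 < T) (k : ℕ) : 0 < ck p lam T k := by
  have h1 := kap_pos hT k
  have h2 : 0 < pb p := lt_of_lt_of_le (by norm_num) (pb_pos hp)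
  have h3 := iota_pos
  unfold ck
  positivity

theorem AR_nonneg {R : ℝ} (hR : 0 < R) (r : ℝ) : 0 ≤ AR R r := by
  unfold AR
  have := Jf_nonneg (r / R)
  positivity
theorem AR_le {R : ℝ} (hR : 0 < R) (r : ℝ) : AR R r ≤ 1 / R ^ 3 := by
  unfold AR
  have := Jf_le_one (r / R)
  gcongr
theorem AR_eq_zero {R : ℝ} (hR : 0 < R) {r : ℝ} (h : r ≤ R / 2 ∨ R ≤ r) : AR R r = 0 := by
  unfold AR
  rw [Jf_eq_zero, zero_div]
  rcases h with h | h
  · left
    rw [div_le_iff₀ hR]; linarith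
  · right
    rw [le_div_iff₀ hR]; linarith
theorem continuous_AR (R : ℝ) : Continuous (AR R) := by
  unfold AR
  exact (continuous_Jf.comp (continuous_id.div_const R)).div_const _

private theorem Cc_pos {p lam : ℝ} (hp : 1 ≤ p) (hlam : 0 < lam) :
    0 < kap1 * lam / (pb p * iota) := by
  have h2 : 0 < pb p := lt_of_lt_of_le (by norm_num) (pb_pos hp)
  have h3 := iota_pos
  unfold kap1
  positivity

private theorem ck_div_le' {p lam T : ℝ} (hp : 1 ≤ p) (hlam : 0 < lam) (hT : 12 ≤ T) (k : ℕ) :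
    ck p lam T k / (Rk T k) ^ 3 ≤ kap1 * lam / (pb p * iota) * (1 / 2) ^ k := by
  have hT0 : 0 < T := by linarith
  have hT1 : 1 ≤ T := by linarith
  have h2 : 0 < pb p := lt_of_lt_of_le (by norm_num) (pb_pos hp)
  have h3 := iota_pos
  have hR := Rk_pos hT0 k
  have hk1 : 0 < kap1 := by unfold kap1; norm_num
  -- kap T k ≤ kap1 * T^2
  have hA : kap T k ≤ kap1 * T ^ 2 := by
    unfold kap
    rw [div_le_iff₀ (by positivity)]
    have : T ^ 1 ≤ T ^ (3 ^ k) := pow_le_pow_right₀ hT1 (Nat.one_le_pow _ _ (by norm_num))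
    have h5 : T ^ 3 = T ^ 2 * T ^ 1 := by ring
    rw [h5, mul_assoc]
    gcongr
  have hB : T ^ 2 * 2 ^ k ≤ (Rk T k) ^ 3 := by
    have e1 : T ^ 32 ≤ Rk T k := Rk_ge hT1 k
    have e2 : (2 : ℝ) ^ (k + 32) ≤ Rk T k := Rk_ge_pow (by linarith) k
    have e3 : T ^ 2 ≤ T ^ 32 := pow_le_pow_right₀ hT1 (by norm_num)
    have e4 : (2 : ℝ) ^ k ≤ 2 ^ (k + 32) := pow_le_pow_right₀ (by norm_num) (by omega)
    have e5 : (1 : ℝ) ≤ Rk T k := le_trans (one_le_pow₀ hT1) e1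
    calc T ^ 2 * 2 ^ k ≤ Rk T k * Rk T k := by
          apply mul_le_mul (e3.trans e1) (e4.trans e2) (by positivity) hR.le
      _ = Rk T k * Rk T k * 1 := by ring
      _ ≤ Rk T k * Rk T k * Rk T k := by gcongr
      _ = (Rk T k) ^ 3 := by ring
  have hC : kap T k / (Rk T k) ^ 3 ≤ kap1 * (1 / 2) ^ k := by
    rw [div_le_iff₀ (by positivity)]
    calc kap T k ≤ kap1 * T ^ 2 := hA
      _ = kap1 * (1 / 2) ^ k * (T ^ 2 * 2 ^ k) := by
          have : ((1 : ℝ) / 2) ^ k * 2 ^ k = 1 := by rw [← mul_pow]; norm_num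
          calc kap1 * T ^ 2 = kap1 * T ^ 2 * ((1 / 2) ^ k * 2 ^ k) := by rw [this, mul_one]
            _ = _ := by ring
      _ ≤ kap1 * (1 / 2) ^ k * (Rk T k) ^ 3 := by gcongr
  calc ck p lam T k / (Rk T k) ^ 3 = kap T k / (Rk T k) ^ 3 * (lam / (pb p * iota)) := by
        unfold ck; ring
    _ ≤ kap1 * (1 / 2) ^ k * (lam / (pb p * iota)) := by gcongr
    _ = _ := by ring

/-- `c_k / R_k^3 ≤ c (1/2)^k`, the summable majorant -/
theorem ck_div_le {p lam T : ℝ} (hp : 1 ≤ p) (hlam : 0 < lam) (hT : 12 ≤ T) {k : ℕ} (hk : 1 ≤ k) :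
    ck p lam T k / (Rk T k) ^ 3 ≤ kap1 * lam / (pb p * iota) * (1 / 2) ^ k :=
  ck_div_le' hp hlam hT k

private theorem term_nonneg {p lam T : ℝ} (hp : 1 ≤ p) (hlam : 0 < lam) (hT : 12 ≤ T) (k : ℕ) (r : ℝ) :
    0 ≤ ck p lam T k * AR (Rk T k) r :=
  mul_nonneg (ck_pos hp hlam (by linarith) k).le (AR_nonneg (Rk_pos (by linarith) k) r)

private theorem term_le {p lam T : ℝ} (hp : 1 ≤ p) (hlam : 0 < lam) (hT : 12 ≤ T) (k : ℕ) (r : ℝ) :
    ck p lam T k * AR (Rk T k) r ≤ kap1 * lam / (pb p * iota) * (1 / 2) ^ k := by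
  refine le_trans ?_ (ck_div_le' hp hlam hT k)
  have h1 := AR_le (Rk_pos (by linarith : (0:ℝ) < T) k) r
  have h2 := (ck_pos hp hlam (by linarith : (0:ℝ) < T) k).le
  calc ck p lam T k * AR (Rk T k) r ≤ ck p lam T k * (1 / (Rk T k) ^ 3) := by gcongr
    _ = _ := by ring

private theorem summable_major {p lam : ℝ} (k : ℕ) :
    Summable (fun j : ℕ => kap1 * lam / (pb p * iota) * (1 / 2 : ℝ) ^ (k + j)) := by
  have : Summable (fun j : ℕ => (1 / 2 : ℝ) ^ j) := summable_geometric_two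
  have h2 := (this.mul_left ((1 / 2 : ℝ) ^ k)).mul_left (kap1 * lam / (pb p * iota))
  refine h2.congr ?_
  intro j
  rw [pow_add]

theorem summable_Age {p lam T : ℝ} (hp : 1 ≤ p) (hlam : 0 < lam) (hT : 12 ≤ T) (k : ℕ) (r : ℝ) :
    Summable (fun j : ℕ => ck p lam T (k + j) * AR (Rk T (k + j)) r) :=
  Summable.of_nonneg_of_le (fun j => term_nonneg hp hlam hT (k + j) r)
    (fun j => term_le hp hlam hT (k + j) r) (summable_major k)

theorem Atot_eq_Age (p lam T : ℝ) (r : ℝ) : Atot p lam T r = Age p lam T 1 r := by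
  unfold Atot Age
  congr 1
  funext j
  rw [Nat.add_comm]

theorem Age_nonneg {p lam T : ℝ} (hp : 1 ≤ p) (hlam : 0 < lam) (hT : 12 ≤ T) (k : ℕ) (r : ℝ) :
    0 ≤ Age p lam T k r :=
  tsum_nonneg (fun j => term_nonneg hp hlam hT (k + j) r)

theorem Alt_nonneg {p lam T : ℝ} (hp : 1 ≤ p) (hlam : 0 < lam) (hT : 12 ≤ T) (k : ℕ) (r : ℝ) :
    0 ≤ Alt p lam T k r :=
  Finset.sum_nonneg (fun j _ => term_nonneg hp hlam hT j r)

theorem Alt_succ (p lam T : ℝ) {k : ℕ} (hk : 1 ≤ k) (r : ℝ) :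
    Alt p lam T (k + 1) r = Alt p lam T k r + ck p lam T k * AR (Rk T k) r := by
  unfold Alt
  rw [Finset.sum_Ico_succ_top hk]

theorem Age_succ {p lam T : ℝ} (hp : 1 ≤ p) (hlam : 0 < lam) (hT : 12 ≤ T) (k : ℕ) (r : ℝ) :
    Age p lam T k r = ck p lam T k * AR (Rk T k) r + Age p lam T (k + 1) r := by
  unfold Age
  rw [(summable_Age hp hlam hT k r).tsum_eq_zero_add]
  simp only [Nat.add_zero]
  congr 2
  funext j
  rw [show k + (j + 1) = k + 1 + j by omega]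

/-- `A = A_{<k} + A_{≥k}` -/
theorem Atot_split {p lam T : ℝ} (hp : 1 ≤ p) (hlam : 0 < lam) (hT : 12 ≤ T) {k : ℕ} (hk : 1 ≤ k)
    (r : ℝ) : Atot p lam T r = Alt p lam T k r + Age p lam T k r := by
  induction k, hk using Nat.le_induction with
  | base =>
    rw [Atot_eq_Age]
    simp [Alt]
  | succ k hk ih =>
    rw [ih, Alt_succ p lam T hk, Age_succ hp hlam hT k r]
    ring

/-- `A_{<k}` is supported in `[0, R_{k-1}]` -/
theorem Alt_eq_zero {p lam T : ℝ} (hT : 12 ≤ T) {k : ℕ} (hk : 1 ≤ k) {r : ℝ}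
    (hr : Rk T (k - 1) ≤ r) : Alt p lam T k r = 0 := by
  unfold Alt
  apply Finset.sum_eq_zero
  intro j hj
  rw [Finset.mem_Ico] at hj
  have h1 : Rk T j ≤ Rk T (k - 1) := Rk_mono (by linarith) (by omega)
  rw [AR_eq_zero (Rk_pos (by linarith) j) (Or.inr (h1.trans hr)), mul_zero]

/-- `A_{≥k}` vanishes on `[0, R_k/2]` -/
theorem Age_eq_zero {p lam T : ℝ} (hT : 12 ≤ T) (k : ℕ) {r : ℝ} (hr : r ≤ Rk T k / 2) :
    Age p lam T k r = 0 := by
  unfold Age
  have : ∀ j : ℕ, ck p lam T (k + j) * AR (Rk T (k + j)) r = 0 := by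
    intro j
    have h1 : Rk T k ≤ Rk T (k + j) := Rk_mono (by linarith) (by omega)
    rw [AR_eq_zero (Rk_pos (by linarith) (k + j)) (Or.inl (by linarith)), mul_zero]
  simp only [this, tsum_zero]

private theorem two_Rk_le {T : ℝ} (hT : 12 ≤ T) (k : ℕ) : 2 * Rk T k ≤ Rk T (k + 1) := by
  have hT1 : 1 ≤ T := by linarith
  have e1 : T ^ 32 ≤ Rk T k := Rk_ge hT1 k
  have e2 : (2 : ℝ) ≤ T ^ 32 := by
    calc (2 : ℝ) ≤ T := by linarith
      _ = T ^ 1 := (pow_one T).symm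
      _ ≤ T ^ 32 := pow_le_pow_right₀ hT1 (by norm_num)
  have e3 : (2 : ℝ) ≤ Rk T k := e2.trans e1
  rw [Rk_succ]
  nlinarith [mul_self_nonneg (Rk T k), mul_nonneg (by linarith : (0:ℝ) ≤ Rk T k) (by linarith : (0:ℝ) ≤ Rk T k - 2),
    mul_nonneg (mul_nonneg (by linarith : (0:ℝ) ≤ Rk T k) (by linarith : (0:ℝ) ≤ Rk T k)) (by linarith : (0:ℝ) ≤ Rk T k - 2)]

/-- on `[R_k/2, R_k]` only the `k`-th term is present -/
theorem Atot_eq {p lam T : ℝ} (hp : 1 ≤ p) (hlam : 0 < lam) (hT : 12 ≤ T) {k : ℕ} (hk : 1 ≤ k)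
    {r : ℝ} (h1 : Rk T k / 2 ≤ r) (h2 : r ≤ Rk T k) :
    Atot p lam T r = ck p lam T k * AR (Rk T k) r := by
  rw [Atot_split hp hlam hT hk r, Age_succ hp hlam hT k r]
  have e1 : 2 * Rk T (k - 1) ≤ Rk T k := by
    have := two_Rk_le hT (k - 1)
    rwa [Nat.sub_add_cancel hk] at this
  have e2 := two_Rk_le hT k
  rw [Alt_eq_zero hT hk (by linarith), Age_eq_zero hT (k + 1) (by linarith)]
  ring

/-- for every `r` either `A(r) = 0` or `r` lies in one of the supports -/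
theorem Atot_cases {p lam T : ℝ} (hp : 1 ≤ p) (hlam : 0 < lam) (hT : 12 ≤ T) (r : ℝ) :
    Atot p lam T r = 0 ∨ ∃ k : ℕ, 1 ≤ k ∧ Rk T k / 2 ≤ r ∧ r ≤ Rk T k := by
  by_cases h : ∃ k : ℕ, 1 ≤ k ∧ Rk T k / 2 ≤ r ∧ r ≤ Rk T k
  · exact Or.inr h
  · left
    push_neg at h
    unfold Atot
    have : ∀ j : ℕ, ck p lam T (j + 1) * AR (Rk T (j + 1)) r = 0 := by
      intro j
      have hj := h (j + 1) (by omega)
      rw [AR_eq_zero (Rk_pos (by linarith) (j + 1)), mul_zero]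
      by_cases h3 : Rk T (j + 1) / 2 ≤ r
      · exact Or.inr (hj h3).le
      · exact Or.inl (not_le.mp h3).le
    simp only [this, tsum_zero]

theorem Atot_le {p lam T : ℝ} (hp : 1 ≤ p) (hlam : 0 < lam) (hT : 12 ≤ T) (r : ℝ) :
    Atot p lam T r ≤ kap1 * lam / (pb p * iota) := by
  have hC := Cc_pos hp hlam
  rcases Atot_cases hp hlam hT r with h | ⟨k, hk, h1, h2⟩
  · rw [h]; exact hC.le
  · rw [Atot_eq hp hlam hT hk h1 h2]
    refine (term_le hp hlam hT k r).trans ?_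
    have : ((1 : ℝ) / 2) ^ k ≤ 1 := pow_le_one₀ (by norm_num) (by norm_num)
    calc kap1 * lam / (pb p * iota) * (1 / 2) ^ k ≤ kap1 * lam / (pb p * iota) * 1 := by gcongr
      _ = _ := mul_one _

private theorem continuous_Age {p lam T : ℝ} (hp : 1 ≤ p) (hlam : 0 < lam) (hT : 12 ≤ T) (k : ℕ) :
    Continuous (Age p lam T k) := by
  unfold Age
  refine continuous_tsum (fun j => (continuous_AR _).const_mul _) (summable_major (p := p) (lam := lam) k) ?_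
  intro j r
  rw [Real.norm_eq_abs, abs_of_nonneg (term_nonneg hp hlam hT (k + j) r)]
  exact term_le hp hlam hT (k + j) r

theorem continuous_Atot {p lam T : ℝ} (hp : 1 ≤ p) (hlam : 0 < lam) (hT : 12 ≤ T) :
    Continuous (Atot p lam T) := by
  have : Atot p lam T = Age p lam T 1 := funext (Atot_eq_Age p lam T)
  rw [this]
  exact continuous_Age hp hlam hT 1

theorem continuous_Alt (p lam T : ℝ) (k : ℕ) : Continuous (Alt p lam T k) := by
  unfold Alt
  exact continuous_finset_sum _ (fun j _ => (continuous_AR _).const_mul _)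

theorem measurable_Age {p lam T : ℝ} (hp : 1 ≤ p) (hlam : 0 < lam) (hT : 12 ≤ T) (k : ℕ) :
    Measurable (Age p lam T k) :=
  (continuous_Age hp hlam hT k).measurable

/-- decay: on `[R_k/2,R_k]`, `c_k R_k^{-3} = (κ_1 T^3 λ/(p_b ι)) R_k^{-3} T^{-3^k}` and `r^{3+1/32} ≤ R_k^3 T^{3^k}`. -/
theorem Atot_tail {p lam T : ℝ} (hp : 1 ≤ p) (hlam : 0 < lam) (hT : 12 ≤ T) {r : ℝ} (hr : 0 < r) :
    Atot p lam T r ≤ kap1 * T ^ 3 * lam / (pb p * iota) * r ^ (-(3 + 1 / 32 : ℝ)) := by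
  have hT0 : 0 < T := by linarith
  have h2 : 0 < pb p := lt_of_lt_of_le (by norm_num) (pb_pos hp)
  have h3 := iota_pos
  have hk1 : 0 < kap1 := by unfold kap1; norm_num
  have hpos : 0 < r ^ (-(3 + 1 / 32 : ℝ)) := Real.rpow_pos_of_pos hr _
  rcases Atot_cases hp hlam hT r with h | ⟨k, hk, h1, h2'⟩
  · rw [h]; positivity
  · rw [Atot_eq hp hlam hT hk h1 h2']
    have hR := Rk_pos hT0 k
    have hx : 0 < T ^ (3 ^ k) := by positivity
    -- `R_k^(1/32) = T^(3^k)`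
    have e1 : (Rk T k) ^ ((1 : ℝ) / 32) = T ^ (3 ^ k) := by
      have : Rk T k = (T ^ (3 ^ k)) ^ 32 := by
        unfold Rk; rw [← pow_mul]; congr 1; ring
      rw [this]
      have := Real.pow_rpow_inv_natCast hx.le (n := 32) (by norm_num)
      convert this using 2
      norm_num
    have e2 : r ^ ((3 : ℝ) + 1 / 32) ≤ (Rk T k) ^ 3 * T ^ (3 ^ k) := by
      calc r ^ ((3 : ℝ) + 1 / 32) ≤ (Rk T k) ^ ((3 : ℝ) + 1 / 32) :=
            Real.rpow_le_rpow hr.le h2' (by norm_num)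
        _ = (Rk T k) ^ (3 : ℝ) * (Rk T k) ^ ((1 : ℝ) / 32) := Real.rpow_add hR _ _
        _ = (Rk T k) ^ 3 * T ^ (3 ^ k) := by
            rw [e1]; congr 1
            exact_mod_cast Real.rpow_natCast (Rk T k) 3
    have e3 : 0 < r ^ ((3 : ℝ) + 1 / 32) := Real.rpow_pos_of_pos hr _
    have e4 : 1 / ((Rk T k) ^ 3 * T ^ (3 ^ k)) ≤ r ^ (-(3 + 1 / 32 : ℝ)) := by
      rw [Real.rpow_neg hr.le, ← one_div]
      exact one_div_le_one_div_of_le e3 e2
    have e5 := AR_le hR r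
    have e6 := (ck_pos hp hlam hT0 k).le
    calc ck p lam T k * AR (Rk T k) r ≤ ck p lam T k * (1 / (Rk T k) ^ 3) := by gcongr
      _ = kap1 * T ^ 3 * lam / (pb p * iota) * (1 / ((Rk T k) ^ 3 * T ^ (3 ^ k))) := by
          unfold ck kap
          field_simp
      _ ≤ _ := by gcongr

end Crest.Agent.PT
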