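import Crest.Agent.PT_LPDefs
import Crest.Agent.PT_PotA

/-! Row 149, task LP2: pure numerics of the LP block (no integrals).  Notation: see `PT_LPDefs`.
Everything follows from `r = Rk T (k-1) ≥ T^32 ≥ 12^32`, `ι r ≥ 1000`, `p_b ≥ 5/9`, `λ ≥ 10`. -/

set_option autoImplicit false

namespace Crest.Agent.PT

open Crest.ProbabilityR.Continuum

theorem Rk_big {T : ℝ} (hT : 12 ≤ T) (j : ℕ) : (10 : ℝ) ^ 30 ≤ Rk T j := by
  have h1 : T ^ 32 ≤ Rk T j := Rk_ge (by linarith) j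
  have h2 : (12 : ℝ) ^ 32 ≤ T ^ 32 := pow_le_pow_left₀ (by norm_num) hT 32
  have h3 : (10 : ℝ) ^ 30 ≤ (12 : ℝ) ^ 32 := by norm_num
  linarith

theorem LPHyp.iota_Rk {om : ℝ → ℝ} {p δ lam T : ℝ} (h : LPHyp om p δ lam T) (j : ℕ) :
    1000 ≤ iota * Rk T j := by
  have hT := h.par.hT
  have h1 : T ^ 32 ≤ Rk T j := Rk_ge (by linarith) j
  have h2 : T ≤ T ^ 32 := le_self_pow₀ (by linarith) (by norm_num)
  have h3 : iota * T ≤ iota * Rk T j := mul_le_mul_of_nonneg_left (h2.trans h1) iota_pos.le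
  exact h.hi.trans h3

theorem Mk_bounds {T : ℝ} (hT : 12 ≤ T) (k : ℕ) :
    2 ≤ Mk T k ∧ Rk T (k - 1) / 4 ≤ (Mk T k : ℝ) ∧ (Mk T k : ℝ) ≤ Rk T (k - 1) / 2 := by
  have hr := Rk_big hT (k - 1)
  have hr4 : (4 : ℝ) ≤ Rk T (k - 1) := le_trans (by norm_num) hr
  unfold Mk
  refine ⟨Nat.le_floor (by push_cast; linarith), ?_, Nat.floor_le (by linarith)⟩
  have := Nat.lt_floor_add_one (Rk T (k - 1) / 2)
  linarith

/-- `hsupp` of `hard_bound`: `ℓ_k/M_k ≥ 2 r ≥ R_{k-1}` and `Alt_eq_zero`. -/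
theorem Alt_supp {p lam T : ℝ} (hT : 12 ≤ T) {k : ℕ} (hk : 1 ≤ k) (r : ℝ)
    (hr : lk T k / (Mk T k : ℝ) ≤ r) : Alt p lam T k r = 0 := by
  apply Alt_eq_zero hT hk
  refine le_trans ?_ hr
  obtain ⟨h2, h4, hle⟩ := Mk_bounds hT k
  have hR : 0 < Rk T (k - 1) := Rk_pos (by linarith) _
  have hM : (0 : ℝ) < (Mk T k : ℝ) := by
    have : (2 : ℝ) ≤ (Mk T k : ℝ) := by exact_mod_cast h2
    linarith
  rw [le_div_iff₀ hM, lk_eq]
  nlinarith

/-- with `x = 1/M ≤ 4/r`: `(1-x)^3 (1+6x) ≥ 1` for `0 ≤ x ≤ 1/5`. -/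
theorem sg_bounds {T : ℝ} (hT : 12 ≤ T) (k : ℕ) :
    1 ≤ sg T k ∧ sg T k ≤ 1 + 24 / Rk T (k - 1) := by
  obtain ⟨h2, h4, hle⟩ := Mk_bounds hT k
  have hr := Rk_big hT (k - 1)
  have hR : 0 < Rk T (k - 1) := Rk_pos (by linarith) _
  have hR20 : (20 : ℝ) ≤ Rk T (k - 1) := le_trans (by norm_num) hr
  have hM : (0 : ℝ) < (Mk T k : ℝ) := by linarith
  unfold sg
  set x : ℝ := 1 / (Mk T k : ℝ) with hx
  have hx0 : 0 ≤ x := by positivity
  have hx4 : x ≤ 4 / Rk T (k - 1) := by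
    rw [hx, div_le_div_iff₀ hM hR]
    linarith
  have hx5 : x ≤ 1 / 5 := by
    refine hx4.trans ?_
    rw [div_le_div_iff₀ hR (by norm_num)]
    linarith
  have hpos : 0 < (1 - x) ^ 3 := pow_pos (by linarith) 3
  have hle1 : (1 - x) ^ 3 ≤ 1 := pow_le_one₀ (by linarith) (by linarith)
  refine ⟨(one_le_inv₀ hpos).2 hle1, ?_⟩
  have hkey : 1 ≤ (1 - x) ^ 3 * (1 + 6 * x) := by
    have e : (1 - x) ^ 3 * (1 + 6 * x) - 1 = x * ((3 - 15 * x) + x ^ 2 * (17 - 6 * x)) := by ring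
    have : 0 ≤ x * ((3 - 15 * x) + x ^ 2 * (17 - 6 * x)) := by
      apply mul_nonneg hx0
      have : 0 ≤ x ^ 2 * (17 - 6 * x) := mul_nonneg (sq_nonneg x) (by linarith)
      linarith
    linarith
  have h1 : ((1 - x) ^ 3)⁻¹ ≤ 1 + 6 * x := by
    rw [inv_le_iff_one_le_mul₀ hpos]
    linarith
  have h24 : 6 * x ≤ 24 / Rk T (k - 1) := by
    have : 6 * (4 / Rk T (k - 1)) = 24 / Rk T (k - 1) := by ring
    linarith
  linarith

theorem V_ge {p T : ℝ} (hp : 1 ≤ p) (hT : 12 ≤ T) (k : ℕ) :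
    5 / 9 * (Rk T (k - 1)) ^ 6 ≤ pb p * (lk T k) ^ 3 := by
  have hR : 0 < Rk T (k - 1) := Rk_pos (by linarith) _
  rw [lk_eq, ← pow_mul]
  exact mul_le_mul_of_nonneg_right (pb_pos hp) (by positivity)

private theorem V_pos {p T : ℝ} (hp : 1 ≤ p) (hT : 12 ≤ T) (k : ℕ) :
    0 < pb p * (lk T k) ^ 3 := by
  have hR : 0 < Rk T (k - 1) := Rk_pos (by linarith) _
  have := V_ge hp hT k
  have h6 : 0 < 5 / 9 * (Rk T (k - 1)) ^ 6 := by positivity
  linarith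

theorem Nmax_le {p T : ℝ} (hp : 1 ≤ p) (hT : 12 ≤ T) (k : ℕ) :
    (Nmax p T k : ℝ) ≤ 20 * (pb p * (lk T k) ^ 3) := by
  have hV := V_pos hp hT k
  unfold Nmax
  have := Nat.floor_le (a := 20 * pb p * (lk T k) ^ 3) (by nlinarith)
  linarith

theorem Nmax_div_le {p T : ℝ} (hp : 1 ≤ p) (hT : 12 ≤ T) (k : ℕ) {N : ℕ} (hN : N ≤ Nmax p T k) :
    (N : ℝ) / (pb p * (lk T k) ^ 3) ≤ 20 := by
  have hV := V_pos hp hT k
  rw [div_le_iff₀ hV]
  have h1 : (N : ℝ) ≤ (Nmax p T k : ℝ) := by exact_mod_cast hN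
  exact h1.trans (Nmax_le hp hT k)

theorem SS_nonneg {om : ℝ → ℝ} {p δ lam T : ℝ} (h : LPHyp om p δ lam T) (k : ℕ) {kk : ℝ} (hkk : 0 ≤ kk) :
    0 ≤ SS p lam T k kk := by
  have hV := V_pos h.par.hp h.par.hT k
  have hlam : 0 ≤ lam := by linarith [h.par.hlam]
  have hi : 0 < iota * Rk T (k - 1) := by linarith [h.iota_Rk (k - 1)]
  unfold SS
  positivity

/-- `kk (1 + 400/(ι r)) ≤ 4·10^{-6}·1.4 ≤ 10^{-5}` -/
theorem SS_le {om : ℝ → ℝ} {p δ lam T : ℝ} (h : LPHyp om p δ lam T) (k : ℕ) {kk : ℝ} (hkk0 : 0 ≤ kk)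
    (hkk : kk ≤ 4 / 1000000) : SS p lam T k kk ≤ lam / (100000 * (pb p * (lk T k) ^ 3)) := by
  have hV := V_pos h.par.hp h.par.hT k
  have hlam : 0 < lam := by linarith [h.par.hlam]
  have hi1 := h.iota_Rk (k - 1)
  have hi : 0 < iota * Rk T (k - 1) := by linarith
  have hc : 400 / (iota * Rk T (k - 1)) ≤ 4 / 10 := by
    rw [div_le_div_iff₀ hi (by norm_num)]
    linarith
  have hc0 : 0 ≤ 400 / (iota * Rk T (k - 1)) := by positivity
  unfold SS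
  rw [div_le_div_iff₀ hV (by positivity)]
  have h1 : kk * (1 + 400 / (iota * Rk T (k - 1))) ≤ 4 / 1000000 * (1 + 4 / 10) :=
    mul_le_mul hkk (by linarith) (by linarith) (by norm_num)
  have h2 : kk * (1 + 400 / (iota * Rk T (k - 1))) * 100000 ≤ 1 := by linarith
  have h3 : 0 < lam * (pb p * (lk T k) ^ 3) := by positivity
  calc kk * lam * (1 + 400 / (iota * Rk T (k - 1))) * (100000 * (pb p * (lk T k) ^ 3))
      = (kk * (1 + 400 / (iota * Rk T (k - 1))) * 100000) * (lam * (pb p * (lk T k) ^ 3)) := by ring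
    _ ≤ 1 * (lam * (pb p * (lk T k) ^ 3)) := mul_le_mul_of_nonneg_right h2 h3.le
    _ = lam * (pb p * (lk T k) ^ 3) := by ring

/-- `β S(kk) n²/2 = λ V · β kk (1+400/(ι r)) n̂²/2`, `n̂ = n/V` -/
theorem SS_mul {p lam T : ℝ} (hp : 1 ≤ p) (hT : 12 ≤ T) (k : ℕ) (kk β n : ℝ) :
    β * SS p lam T k kk * n ^ 2 / 2 =
      lam * (pb p * (lk T k) ^ 3) *
        (β * (kk * (1 + 400 / (iota * Rk T (k - 1)))) * (n / (pb p * (lk T k) ^ 3)) ^ 2 / 2) := by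
  have hV := (V_pos hp hT k).ne'
  unfold SS
  generalize 400 / (iota * Rk T (k - 1)) = c
  generalize pb p * (lk T k) ^ 3 = V at hV ⊢
  field_simp

/-- `log(Nmax+2) ≤ log(22 V) ≤ 2 √(22 V)` and `λ √V ≥ 10 √(5/9) r^3`. -/
theorem log_Nmax_le {om : ℝ → ℝ} {p δ lam T : ℝ} (h : LPHyp om p δ lam T) (k : ℕ) :
    Real.log ((Nmax p T k : ℝ) + 2) / (lam * (pb p * (lk T k) ^ 3)) ≤ 1 / Rk T (k - 1) := by
  have hp := h.par.hp
  have hT := h.par.hT
  have hV := V_pos hp hT k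
  have hVge := V_ge hp hT k
  have hlam := h.par.hlam
  have hr := Rk_big hT (k - 1)
  have hR : 0 < Rk T (k - 1) := Rk_pos (by linarith) _
  have hR1 : (10 : ℝ) ≤ Rk T (k - 1) := le_trans (by norm_num) hr
  have hN := Nmax_le hp hT k
  set V := pb p * (lk T k) ^ 3 with hVdef
  set r := Rk T (k - 1) with hrdef
  have hr2 : (100 : ℝ) ≤ r ^ 2 := by nlinarith
  have hr6 : 100 * r ^ 2 ≤ r ^ 6 := by
    have : r ^ 6 = r ^ 2 * r ^ 2 * r ^ 2 := by ring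
    rw [this]
    nlinarith [mul_pos (pow_pos hR 2) (pow_pos hR 2)]
  have hV1 : 1 ≤ V := by nlinarith
  have h22 : (Nmax p T k : ℝ) + 2 ≤ 22 * V := by linarith
  have hpos : (0 : ℝ) < (Nmax p T k : ℝ) + 2 := by positivity
  have hlog1 : Real.log ((Nmax p T k : ℝ) + 2) ≤ Real.log (22 * V) := Real.log_le_log hpos h22
  set w := Real.sqrt (22 * V) with hw
  have hw2 : w ^ 2 = 22 * V := Real.sq_sqrt (by positivity)
  have hw0 : 0 < w := Real.sqrt_pos.2 (by positivity)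
  have hlog2 : Real.log (22 * V) ≤ 2 * w := by
    have h1 : Real.log w = Real.log (22 * V) / 2 := Real.log_sqrt (by positivity)
    have h2 := Real.log_le_sub_one_of_pos hw0
    linarith
  have hwr : 4.4 * r ≤ w := by
    apply Real.le_sqrt_of_sq_le
    norm_num
    nlinarith
  rw [div_le_div_iff₀ (by positivity) hR]
  have h3 : 2 * w * r ≤ lam * V := by
    have e : lam * V = lam * w ^ 2 / 22 := by rw [hw2]; ring
    rw [e]
    have h4 : 44 * r ≤ lam * w := by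
      have : 10 * w ≤ lam * w := mul_le_mul_of_nonneg_right hlam hw0.le
      norm_num at hwr
      linarith
    have h5 : 44 * r * w ≤ lam * w * w := mul_le_mul_of_nonneg_right h4 hw0.le
    nlinarith
  have h6 : Real.log ((Nmax p T k : ℝ) + 2) * r ≤ 2 * w * r :=
    mul_le_mul_of_nonneg_right (hlog1.trans hlog2) hR.le
  linarith

theorem kap_le_small {T : ℝ} (hT : 12 ≤ T) {k : ℕ} (hk : 1 ≤ k) : kap T k ≤ 4 / 1000000 := by
  have := kap_le_kap1 hT hk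
  unfold kap1 at this
  linarith

theorem Kap_le_small {T : ℝ} (hT : 12 ≤ T) {k : ℕ} (hk : 1 ≤ k) : Kap T k ≤ 4 / 1000000 := by
  have h1 := kap_le_kap1 hT hk
  have h2 := Kap_le hT hk
  unfold kap1 at h1
  linarith

/-- `κ_{k+3}/κ_k = T^{-26·3^k} = T^{-78·3^{k-1}} ≤ T^{-32·3^{k-1}} = 1/r` -/
theorem kap_add_three_le {T : ℝ} (hT : 12 ≤ T) {k : ℕ} (hk : 1 ≤ k) :
    kap T (k + 3) ≤ kap T k / Rk T (k - 1) := by
  obtain ⟨j, rfl⟩ : ∃ j, k = j + 1 := ⟨k - 1, by omega⟩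
  have hT0 : (0 : ℝ) < T := by linarith
  have hT1 : (1 : ℝ) ≤ T := by linarith
  simp only [Nat.add_sub_cancel]
  unfold kap Rk kap1
  rw [div_div, ← pow_add]
  apply div_le_div_of_nonneg_left (by positivity) (by positivity)
  apply pow_le_pow_right₀ hT1
  have e1 : 3 ^ (j + 1 + 3) = 81 * 3 ^ j := by ring
  have e2 : 3 ^ (j + 1) = 3 * 3 ^ j := by ring
  rw [e1, e2]
  have : 0 < 3 ^ j := pow_pos (by norm_num) j
  omega

/-- `∑_{k ≤ j ≤ J} κ_j = K_k - K_{J+1}` (induction on `J` from `Kap_rec`) -/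
theorem sum_kap_Icc {T : ℝ} (hT : 12 ≤ T) {k J : ℕ} (hkJ : k ≤ J) :
    ∑ j ∈ Finset.Icc k J, kap T j = Kap T k - Kap T (J + 1) := by
  induction J, hkJ using Nat.le_induction with
  | base =>
    rw [Finset.Icc_self, Finset.sum_singleton, Kap_rec hT k]
    ring
  | succ J hJ ih =>
    rw [Finset.sum_Icc_succ_top (by omega), ih, Kap_rec hT (J + 1)]
    ring

/-- `c_j ι = κ_j λ/p_b` -/
theorem ck_mul_iota (p lam T : ℝ) (j : ℕ) : ck p lam T j * iota = kap T j * lam / pb p := by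
  have h := iota_pos.ne'
  unfold ck
  rw [← div_div, div_mul_cancel₀ _ h]

end Crest.Agent.PT
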