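import Crest.Agent.PT_LPSoft
import Crest.Agent.PT_LPNeeds
import Crest.Agent.PT_LPNum

/-! Row 149, task LP3: monotonicity of `FkM` in the coupling and the a-priori bounds (B).  ((M-id) is task MID, `PT_MId.lean`.) -/

set_option autoImplicit false

namespace Crest.Agent.PT

open MeasureTheory Crest.ProbabilityR.Continuum

/-- the volume `V = p_b ℓ_k³` is positive -/
private theorem lpmid_V_pos {p T : ℝ} (hp : 1 ≤ p) (hT : 12 ≤ T) (k : ℕ) :
    0 < pb p * (lk T k) ^ 3 := by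
  have h1 := V_ge hp hT k
  have h2 : (10 : ℝ) ^ 30 ≤ Rk T (k - 1) := Rk_big hT (k - 1)
  have h3 : 0 < Rk T (k - 1) := lt_of_lt_of_le (by positivity) h2
  have h4 : 0 < 5 / 9 * (Rk T (k - 1)) ^ 6 := by positivity
  linarith

private theorem lpmid_lk_pos {T : ℝ} (hT : 12 ≤ T) (k : ℕ) : 0 < lk T k := by
  have h2 : (10 : ℝ) ^ 30 ≤ Rk T (k - 1) := Rk_big hT (k - 1)
  have h3 : 0 < Rk T (k - 1) := lt_of_lt_of_le (by positivity) h2
  rw [lk_eq]
  positivity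

/-- entry `N = 0` is `0` (`partitionFn_zero`) -/
theorem FkM_nonneg (om : ℝ → ℝ) (p δ lam T : ℝ) (k : ℕ) (κ : ℝ) (z : ℝ × ℝ) :
    0 ≤ FkM om p δ lam T k κ z := by
  have h0 : FkE om p δ lam T k κ z 0 = 0 := by
    simp [FkE, zk, partitionFn_zero]
  have h1 := FkE_le_FkM om p δ lam T k κ z (N := 0) (Nat.zero_le _)
  rw [h0] at h1
  exact h1

/-- `n̂ ≤ 20` (`Nmax_div_le`) -/
theorem FkM_le_add {om : ℝ → ℝ} {p δ lam T : ℝ} (h : LPHyp om p δ lam T) (k : ℕ) {κ κ' : ℝ} (hκ : κ ≤ κ')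
    {z : ℝ × ℝ} (hz : 0 ≤ z.1) :
    FkM om p δ lam T k κ' z ≤ FkM om p δ lam T k κ z + z.1 * (κ' - κ) * 200 := by
  apply FkM_le
  intro N hN
  have hV := lpmid_V_pos h.par.hp h.par.hT k
  have h20 := Nmax_div_le h.par.hp h.par.hT k hN
  have h0 : 0 ≤ (N : ℝ) / (pb p * (lk T k) ^ 3) := div_nonneg (Nat.cast_nonneg _) hV.le
  have h1 := FkE_le_FkM om p δ lam T k κ z hN
  set n : ℝ := (N : ℝ) / (pb p * (lk T k) ^ 3) with hn
  have hsq : n ^ 2 ≤ 400 := by nlinarith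
  have hE : FkE om p δ lam T k κ' z N = FkE om p δ lam T k κ z N + z.1 * (κ' - κ) * n ^ 2 / 2 := by
    simp only [FkE]
    rw [← hn]
    ring
  have hc : 0 ≤ z.1 * (κ' - κ) := mul_nonneg hz (by linarith)
  have h2 : z.1 * (κ' - κ) * n ^ 2 / 2 ≤ z.1 * (κ' - κ) * 200 := by nlinarith
  rw [hE]
  linarith

/-- `λ V · FkE κ z N = λ ν N + β S N²/2 + log z_k(β,N)` when `S = κ λ / V`;  stated in exponential form. -/
theorem exp_FkE {om : ℝ → ℝ} {p δ lam T : ℝ} (h : LPHyp om p δ lam T) {k : ℕ} (hk : 1 ≤ k) (κ : ℝ)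
    {z : ℝ × ℝ} (hz : 0 ≤ z.1) (N : ℕ) :
    Real.exp (lam * (pb p * (lk T k) ^ 3) * FkE om p δ lam T k κ z N) =
      Real.exp (lam * z.2 * N) * zk om p δ lam T k z.1 N *
        Real.exp (z.1 * (κ * lam / (pb p * (lk T k) ^ 3)) * (N : ℝ) ^ 2 / 2) := by
  have hV := lpmid_V_pos h.par.hp h.par.hT k
  have hlam : 0 < lam := lt_of_lt_of_le (by norm_num) h.par.hlam
  have hzk := h.zk_pos hk hz N
  have hE : lam * (pb p * (lk T k) ^ 3) * FkE om p δ lam T k κ z N =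
      lam * z.2 * N + Real.log (zk om p δ lam T k z.1 N) +
        z.1 * (κ * lam / (pb p * (lk T k) ^ 3)) * (N : ℝ) ^ 2 / 2 := by
    simp only [FkE]
    set V : ℝ := pb p * (lk T k) ^ 3 with hVdef
    have hV' : lam * pb p * (lk T k) ^ 3 = lam * V := by rw [hVdef]; ring
    rw [hV']
    field_simp
    ring
  rw [hE, Real.exp_add, Real.exp_add, Real.exp_log hzk]

/-- (B): `ν n̂ ≤ 38`, `β κ n̂²/2 ≤ 10^{-3}`, `log z_k ≤ βλN + ℓ³` (`St3` with `c = 1`,
`Real.pow_div_factorial_le_exp`), `ℓ³/(λV) = 1/(λ p_b) ≤ 1`. -/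
theorem FkM_le_seventy {om : ℝ → ℝ} {p δ lam T : ℝ} (h : LPHyp om p δ lam T) {k : ℕ} (hk : 1 ≤ k)
    {κ : ℝ} (hκ0 : 0 ≤ κ) (hκ : κ ≤ 4 / 1000000) {z : ℝ × ℝ} (hz : InRg z) :
    FkM om p δ lam T k κ z ≤ 70 := by
  obtain ⟨⟨hz1, hz2⟩, hz3, hz4⟩ := hz
  have hz0 : 0 ≤ z.1 := by linarith
  apply FkM_le
  intro N hN
  have hV := lpmid_V_pos h.par.hp h.par.hT k
  have hl := lpmid_lk_pos h.par.hT k
  have hlam : (10 : ℝ) ≤ lam := h.par.hlam
  have hlam0 : 0 < lam := by linarith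
  have hp : (1 : ℝ) ≤ p := h.par.hp
  have h20 := Nmax_div_le h.par.hp h.par.hT k hN
  have h0 : 0 ≤ (N : ℝ) / (pb p * (lk T k) ^ 3) := div_nonneg (Nat.cast_nonneg _) hV.le
  have hzk := h.zk_pos hk hz0 N
  -- the bound on `log z_k`
  have hst := St3 h hk (c := 1) (by norm_num) (by norm_num) hl N hz0
  have hphik : (fun r => U0 δ lam r + om r - 1 * Alt p lam T k r) = phik om p δ lam T k := by
    funext r
    simp [phik]
  rw [hphik] at hst
  have hpow : (lk T k) ^ (3 * N) / (Nat.factorial N : ℝ) ≤ Real.exp ((lk T k) ^ 3) := by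
    rw [pow_mul]
    exact Real.pow_div_factorial_le_exp _ (by positivity) N
  have hzk_le : zk om p δ lam T k z.1 N ≤ Real.exp (z.1 * lam * N + (lk T k) ^ 3) := by
    have h1 : zk om p δ lam T k z.1 N ≤
        Real.exp (z.1 * lam * N) * ((lk T k) ^ (3 * N) / (Nat.factorial N : ℝ)) := by
      have := hst
      rw [mul_div_assoc] at this
      exact this
    rw [Real.exp_add]
    exact h1.trans (mul_le_mul_of_nonneg_left hpow (Real.exp_pos _).le)
  have hlog : Real.log (zk om p δ lam T k z.1 N) ≤ z.1 * lam * N + (lk T k) ^ 3 := by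
    have := Real.log_le_log hzk hzk_le
    rwa [Real.log_exp] at this
  set V : ℝ := pb p * (lk T k) ^ 3 with hVdef
  set n : ℝ := (N : ℝ) / V with hn
  have hV' : lam * pb p * (lk T k) ^ 3 = lam * V := by rw [hVdef]; ring
  have hlamV : 0 < lam * V := mul_pos hlam0 hV
  have hNn : (N : ℝ) = n * V := by rw [hn]; field_simp
  have hpb : 5 / 9 ≤ pb p := by unfold pb; linarith
  have hl3 : (lk T k) ^ 3 ≤ lam * V := by
    have h3 : 0 < (lk T k) ^ 3 := by positivity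
    have : 1 ≤ lam * pb p := by nlinarith
    calc (lk T k) ^ 3 = 1 * (lk T k) ^ 3 := by ring
      _ ≤ (lam * pb p) * (lk T k) ^ 3 := mul_le_mul_of_nonneg_right this h3.le
      _ = lam * V := by rw [hVdef]; ring
  have hterm3 : Real.log (zk om p δ lam T k z.1 N) / (lam * V) ≤ z.1 * n + 1 := by
    rw [div_le_iff₀ hlamV]
    calc Real.log (zk om p δ lam T k z.1 N) ≤ z.1 * lam * N + (lk T k) ^ 3 := hlog
      _ ≤ z.1 * lam * (n * V) + lam * V := by rw [← hNn]; linarith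
      _ = (z.1 * n + 1) * (lam * V) := by ring
  have hsq : n ^ 2 ≤ 400 := by nlinarith
  have hsq0 : 0 ≤ n ^ 2 := by positivity
  have ht1 : z.2 * n ≤ 38 := by nlinarith
  have ht2 : z.1 * κ * n ^ 2 / 2 ≤ 1 := by
    have h1 : z.1 * κ ≤ 11 / 10 * (4 / 1000000) := mul_le_mul hz2 hκ hκ0 (by norm_num)
    have h2 : 0 ≤ z.1 * κ := mul_nonneg hz0 hκ0
    nlinarith
  have ht3 : z.1 * n ≤ 22 := by nlinarith
  have hE : FkE om p δ lam T k κ z N =
      z.2 * n + z.1 * κ * n ^ 2 / 2 + Real.log (zk om p δ lam T k z.1 N) / (lam * V) := by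
    simp only [FkE]
    rw [hV']
  rw [hE]
  linarith

end Crest.Agent.PT
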