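import Crest.Agent.PT_LPInfLim
import Crest.Agent.PT_LPMid
import Crest.Agent.PT_LPLowNum

/-! Row 149, task LP13: the lower bound A8(ii) "≥". -/

set_option autoImplicit false

namespace Crest.Agent.PT

open MeasureTheory Filter Crest.ProbabilityR.Continuum

/-- the real-number core of `LP_inf_ge` -/
private theorem inf_ge_abs {ν β K K3 r ι lam P l hh n lz S a : ℝ}
    (hr : 1 ≤ r) (hι : 0 < ι) (hιr : 1000 ≤ ι * r) (hlam : 0 < lam) (hP : 0 < P) (hl : 0 < l)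
    (hh0 : 0 < hh) (hn : 0 ≤ n) (hnh : n / (P * l ^ 3) ≤ 20) (hβ0 : 0 ≤ β) (hβ : β ≤ 11 / 10)
    (hθ : 1 - 4 / r ≤ (l / hh) ^ 3) (hθ1 : (l / hh) ^ 3 ≤ 1)
    (hK : K ≤ 4 / 1000000) (hK30 : 0 ≤ K3) (hK3 : K3 ≤ 8 / 1000000 / r) (hK3K : K3 ≤ K)
    (hE0 : 0 ≤ ν * (n / (P * l ^ 3)) + β * K * (n / (P * l ^ 3)) ^ 2 / 2 + lz / (lam * P * l ^ 3))
    (hE : ν * (n / (P * l ^ 3)) + β * K * (n / (P * l ^ 3)) ^ 2 / 2 + lz / (lam * P * l ^ 3) ≤ 70)
    (hS : lam / P * (1 - 800 / (ι * r)) * (K - K3) ≤ S)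
    (ha : (lz + β * n ^ 2 / 2 * (S / hh ^ 3)) / hh ^ 3 ≤ a) :
    ν * (n / (P * l ^ 3)) + β * K * (n / (P * l ^ 3)) ^ 2 / 2 + lz / (lam * P * l ^ 3)
      - (10000 + 100 / ι) / r ≤ ν * (n / hh ^ 3 / P) + a / (lam * P) := by
  have hr0 : 0 < r := by linarith
  have hθ0 : 0 ≤ (l / hh) ^ 3 := by positivity
  have hnh0 : 0 ≤ n / (P * l ^ 3) := by positivity
  have hx0 : 0 ≤ 800 / (ι * r) := by positivity
  have hx1 : 800 / (ι * r) ≤ 4 / 5 := by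
    rw [div_le_iff₀ (by positivity)]; linarith
  have hy0 : 0 ≤ 4 / r := by positivity
  have hKK : 0 ≤ K - K3 := by linarith
  have hmain : (l / hh) ^ 3 * (ν * (n / (P * l ^ 3))
        + β * ((1 - 800 / (ι * r)) * (K - K3) * (l / hh) ^ 3) * (n / (P * l ^ 3)) ^ 2 / 2
        + lz / (lam * P * l ^ 3)) ≤ ν * (n / hh ^ 3 / P) + a / (lam * P) := by
    have e1 : ν * (n / hh ^ 3 / P) = (l / hh) ^ 3 * (ν * (n / (P * l ^ 3))) := by
      field_simp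
    have e2 : (lz + β * n ^ 2 / 2 * (lam / P * (1 - 800 / (ι * r)) * (K - K3) / hh ^ 3)) / hh ^ 3
          / (lam * P)
        = (l / hh) ^ 3 * (β * ((1 - 800 / (ι * r)) * (K - K3) * (l / hh) ^ 3)
            * (n / (P * l ^ 3)) ^ 2 / 2 + lz / (lam * P * l ^ 3)) := by
      generalize 800 / (ι * r) = x
      field_simp
      ring
    have e3 : (lz + β * n ^ 2 / 2 * (lam / P * (1 - 800 / (ι * r)) * (K - K3) / hh ^ 3)) / hh ^ 3
        ≤ a := by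
      refine le_trans ?_ ha
      gcongr
    have e4 := div_le_div_of_nonneg_right e3 (by positivity : 0 ≤ lam * P)
    rw [e2] at e4
    rw [e1]
    linarith
  generalize (l / hh) ^ 3 = θ at *
  generalize n / (P * l ^ 3) = nh at *
  generalize lz / (lam * P * l ^ 3) = g at *
  have herr : 70 * (4 / r) + 220 * (K * (800 / (ι * r) + 4 / r) + K3) ≤ (10000 + 100 / ι) / r := by
    have hxe : 800 / (ι * r) = 800 * ((1 / ι) * (1 / r)) := by field_simp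
    have e : (10000 + 100 / ι) / r = 10000 * (1 / r) + 100 * ((1 / ι) * (1 / r)) := by field_simp
    have e4 : 4 / r = 4 * (1 / r) := by ring
    have hK3' : K3 ≤ 8 / 1000000 * (1 / r) := by
      have : 8 / 1000000 / r = 8 / 1000000 * (1 / r) := by ring
      linarith
    have hKx : K * (800 / (ι * r) + 4 / r) ≤ 4 / 1000000 * (800 / (ι * r) + 4 / r) :=
      mul_le_mul_of_nonneg_right hK (by positivity)
    have hu : 0 ≤ 1 / r := by positivity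
    have hw : 0 ≤ (1 / ι) * (1 / r) := by positivity
    rw [e]
    rw [hxe, e4] at hKx ⊢
    linarith
  generalize 800 / (ι * r) = x at *
  have hκ'K : (1 - x) * (K - K3) * θ ≤ K := by
    have h1 : (1 - x) * (K - K3) ≤ K - K3 := by nlinarith
    have h2 : (1 - x) * (K - K3) * θ ≤ (1 - x) * (K - K3) * 1 :=
      mul_le_mul_of_nonneg_left hθ1 (mul_nonneg (by linarith) hKK)
    linarith
  have hκ'low : K - (K * (x + 4 / r) + K3) ≤ (1 - x) * (K - K3) * θ := by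
    have h1 : (1 - x) * (K - K3) * (1 - 4 / r) ≤ (1 - x) * (K - K3) * θ :=
      mul_le_mul_of_nonneg_left hθ (mul_nonneg (by linarith) hKK)
    have h2 : 0 ≤ (K - K3) * (x * (4 / r)) := by positivity
    have h3 : 0 ≤ K3 * (x + 4 / r) := by positivity
    nlinarith
  have hlow := low_abstract (ν := ν) (g := g) hnh0 hnh hβ0 hβ hE0 hE hθ1 hθ hθ0 hκ'K hκ'low
  linarith

/-- A8(ii) "≥": there is a density `ρ = n/h^3` with `ρ/p_b ∈ [0,20]` whose Legendre entry is `≥ FkM K_k - CLP/r`.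
Proof. `exists_FkM_eq`: maximiser `n ≤ Nmax k`, `E = FkE k (Kap T k) z n = FkM ∈ [0,70]` (`Kap_le_small`).  `ρ/p_b = n̂ (ℓ/h)^3 ≤ n̂ ≤ 20`.
`LP_inf_lim` with `J = k+2`, `sum_ck_ge`, `Kap T (k+3) ≤ 2 kap T (k+3) ≤ 2 kap T k/r ≤ 8·10^{-6}/r` (`Kap_le`, `kap_add_three_le`):
`ν ρ/p_b + a/(λ p_b) ≥ θ (ν n̂ + β κ' n̂²/2 + g)`, `θ = (ℓ/h)^3`, `κ' = (1-800/(ιr)) (K_k - K_{k+3}) (ℓ/h)^3`, `g = log z_k/(λV)`.
`K_k - κ' ≤ K_k (800/(ιr) + 4/r) + K_{k+3}`.  `low_abstract` with `ε₁ = 4/r` (`lh_cube`): error `≤ (280 + 1 + 1/ι)/r ≤ CLP/r`. -/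
theorem LP_inf_ge {om : ℝ → ℝ} {p δ lam T : ℝ} (h : LPHyp om p δ lam T) {k : ℕ} (hk : 1 ≤ k)
    {z : ℝ × ℝ} (hz : InRg z) :
    ∃ ρ : ℝ, 0 ≤ ρ ∧ ρ / pb p ≤ 20 ∧ ∀ a : ℝ,
      Tendsto (fun L : ℝ => Real.log (partitionFn (phi om p δ lam T) L ⌊ρ * L ^ 3⌋₊ z.1) / L ^ 3)
        atTop (nhds a) →
      FkM om p δ lam T k (Kap T k) z - CLP / Rk T (k - 1) ≤ z.2 * (ρ / pb p) + a / (lam * pb p) := by
  have hP := h.par
  have hT : 12 ≤ T := hP.hT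
  have hT0 : (0 : ℝ) < T := by linarith
  have hp := hP.hp
  have hpb : 5 / 9 ≤ pb p := pb_pos hp
  have hpb0 : 0 < pb p := by linarith
  have hlam0 : 0 < lam := by linarith [hP.hlam]
  have hb := bb_pos
  have hβ1 : 9 / 10 ≤ z.1 := hz.1.1
  have hβ2 : z.1 ≤ 11 / 10 := hz.1.2
  have hβ0 : 0 < z.1 := by linarith
  have hr0 : 0 < Rk T (k - 1) := Rk_pos hT0 _
  have hrbig : (10 : ℝ) ^ 30 ≤ Rk T (k - 1) := Rk_big hT _
  have hr1 : 1 ≤ Rk T (k - 1) := le_trans (by norm_num) hrbig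
  have hl0 : 0 < lk T k := lk_pos hT0 k
  have hh0 : 0 < lk T k + bb := by positivity
  obtain ⟨n, hn, hF⟩ := exists_FkM_eq om p δ lam T k (Kap T k) z
  have hnh := Nmax_div_le hp hT k hn
  obtain ⟨hθ, hθ1⟩ := lh_cube hT k
  have hK0 : 0 < Kap T k := Kap_pos hT k
  have hK : Kap T k ≤ 4 / 1000000 := Kap_le_small hT hk
  have hE0 : 0 ≤ FkE om p δ lam T k (Kap T k) z n := hF ▸ FkM_nonneg om p δ lam T k (Kap T k) z
  have hE : FkE om p δ lam T k (Kap T k) z n ≤ 70 := hF ▸ FkM_le_seventy h hk hK0.le hK hz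
  have hK30 : 0 ≤ Kap T (k + 2 + 1) := (Kap_pos hT _).le
  have hK3 : Kap T (k + 2 + 1) ≤ 8 / 1000000 / Rk T (k - 1) := by
    have h1 : Kap T (k + 2 + 1) ≤ 2 * kap T (k + 2 + 1) := Kap_le hT (by omega)
    have h2 : kap T (k + 2 + 1) ≤ kap T k / Rk T (k - 1) := kap_add_three_le hT hk
    have h3 : kap T k / Rk T (k - 1) ≤ 4 / 1000000 / Rk T (k - 1) :=
      div_le_div_of_nonneg_right (kap_le_small hT hk) hr0.le
    have h4 : (8 : ℝ) / 1000000 / Rk T (k - 1) = 2 * (4 / 1000000 / Rk T (k - 1)) := by ring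
    linarith
  have hK3K : Kap T (k + 2 + 1) ≤ Kap T k := by
    have h1 := sum_kap_Icc hT (show k ≤ k + 2 by omega)
    have h2 : 0 ≤ ∑ j ∈ Finset.Icc k (k + 2), kap T j :=
      Finset.sum_nonneg (fun j _ => (kap_pos hT0 j).le)
    linarith
  refine ⟨(n : ℝ) / (lk T k + bb) ^ 3, by positivity, ?_, ?_⟩
  · have e : (n : ℝ) / (lk T k + bb) ^ 3 / pb p
        = (n : ℝ) / (pb p * (lk T k) ^ 3) * (lk T k / (lk T k + bb)) ^ 3 := by
      field_simp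
    rw [e]
    calc (n : ℝ) / (pb p * (lk T k) ^ 3) * (lk T k / (lk T k + bb)) ^ 3
        ≤ 20 * 1 := mul_le_mul hnh hθ1 (by positivity) (by norm_num)
      _ = 20 := by norm_num
  · intro a ha
    have h1 := LP_inf_lim h hk (show k ≤ k + 2 by omega) hβ0 n ha
    have h2 := sum_ck_ge h hk (show k ≤ k + 2 by omega)
    rw [← Finset.sum_div] at h1
    rw [hF]
    exact inf_ge_abs hr1 iota_pos (h.iota_Rk (k - 1)) hlam0 hpb0 hl0 hh0 (Nat.cast_nonneg n) hnh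
      hβ0.le hβ2 hθ hθ1 hK hK30 hK3 hK3K hE0 hE h2 h1

end Crest.Agent.PT
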