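import Crest.Agent.PT_Defs

/-! Row 149, task LP7: three elementary limits used in A8(ii). -/

set_option autoImplicit false

namespace Crest.Agent.PT

open Filter

/-- `ρ L^3 - 1 < ⌊ρ L^3⌋ ≤ ρ L^3` -/
theorem tendsto_floor_div {ρ : ℝ} (hρ : 0 ≤ ρ) :
    Tendsto (fun L : ℝ => (⌊ρ * L ^ 3⌋₊ : ℝ) / L ^ 3) atTop (nhds ρ) :=
  (tendsto_nat_floor_mul_div_atTop hρ).comp (tendsto_pow_atTop (by norm_num : (3 : ℕ) ≠ 0))

/-- `L/ℓ + 1 ≤ ⌈L/ℓ⌉ + 1 ≤ L/ℓ + 2` -/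
theorem tendsto_ceil_cube {ℓ : ℝ} (hℓ : 0 < ℓ) :
    Tendsto (fun L : ℝ => ((⌈L / ℓ⌉₊ : ℝ) + 1) ^ 3 / L ^ 3) atTop (nhds (1 / ℓ ^ 3)) := by
  have h1 : Tendsto (fun L : ℝ => (⌈(1 / ℓ) * L⌉₊ : ℝ) / L) atTop (nhds (1 / ℓ)) :=
    tendsto_nat_ceil_mul_div_atTop (by positivity)
  have h2 : Tendsto (fun L : ℝ => (1 : ℝ) / L) atTop (nhds 0) := by
    simpa using tendsto_inv_atTop_zero (𝕜 := ℝ)
  have h3 : Tendsto (fun L : ℝ => ((⌈(1 / ℓ) * L⌉₊ : ℝ) / L + 1 / L) ^ 3) atTop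
      (nhds ((1 / ℓ + 0) ^ 3)) := (h1.add h2).pow 3
  have h4 : (1 / ℓ + 0) ^ 3 = 1 / ℓ ^ 3 := by
    rw [add_zero, div_pow, one_pow]
  rw [h4] at h3
  refine h3.congr (fun L => ?_)
  rw [← add_div, div_pow]
  have h5 : 1 / ℓ * L = L / ℓ := by rw [one_div, inv_mul_eq_div]
  rw [h5]

theorem tendsto_sub_cube (D : ℝ) :
    Tendsto (fun m : ℕ => ((m : ℝ) - D) ^ 3 / (m : ℝ) ^ 3) atTop (nhds 1) := by
  have h1 : Tendsto (fun m : ℕ => D / (m : ℝ)) atTop (nhds 0) :=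
    tendsto_const_div_atTop_nhds_zero_nat D
  have h2 : Tendsto (fun m : ℕ => (1 - D / (m : ℝ)) ^ 3) atTop (nhds ((1 - 0) ^ 3)) :=
    (tendsto_const_nhds.sub h1).pow 3
  have h3 : ((1 : ℝ) - 0) ^ 3 = 1 := by norm_num
  rw [h3] at h2
  refine h2.congr' ?_
  filter_upwards [eventually_gt_atTop 0] with m hm
  have hm' : (m : ℝ) ≠ 0 := by exact_mod_cast hm.ne'
  rw [← div_pow, sub_div, div_self hm']

theorem tendsto_nat_mul {h : ℝ} (hh : 0 < h) :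
    Tendsto (fun m : ℕ => (m : ℝ) * h) atTop atTop :=
  tendsto_natCast_atTop_atTop.atTop_mul_const hh

end Crest.Agent.PT
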