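import Crest.Agent.PT_LPHard
import Crest.Agent.PT_LPLim

/-! Row 149, task LP8: the upper bound A8(ii) "≤". -/

set_option autoImplicit false

namespace Crest.Agent.PT

open MeasureTheory Filter Crest.ProbabilityR.Continuum

/-- A8(ii) "≤" for one density `ρ`; `a` is the thermodynamic limit `-G(β,ρ)`.
Proof. `hard_log_inf` with `N = ⌊ρ L^3⌋₊`, divided by `L^3 > 0`:
`λ ν ⌊ρL^3⌋/L^3 + log Z/L^3 ≤ ((⌈L/ℓ⌉+1)^3/L^3) W`, `W = log(Nmax+2) + λV(F + C1/r)`.  `L → ∞` (`tendsto_floor_div`, `hlim`,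
`tendsto_ceil_cube`, `le_of_tendsto_of_tendsto'`/eventually for `L > 0`):  `λ ν ρ + a ≤ W/ℓ^3`.  Divide by `λ p_b`:
`ν ρ/p_b + a/(λ p_b) ≤ W/(λV) ≤ F + (C1+1)/r ≤ F + CLP/r` (`log_Nmax_le`). -/
theorem LP_inf_le {om : ℝ → ℝ} {p δ lam T : ℝ} (h : LPHyp om p δ lam T) {k : ℕ} (hk : 1 ≤ k)
    {z : ℝ × ℝ} (hz : InRg z) {ρ a : ℝ} (hρ : 0 ≤ ρ)
    (hlim : Tendsto (fun L : ℝ => Real.log (partitionFn (phi om p δ lam T) L ⌊ρ * L ^ 3⌋₊ z.1) / L ^ 3)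
      atTop (nhds a)) :
    z.2 * (ρ / pb p) + a / (lam * pb p) ≤ FkM om p δ lam T k (Kap T k) z + CLP / Rk T (k - 1) := by
  have hT : (0 : ℝ) < T := by linarith [h.par.hT]
  have hr : 0 < Rk T (k - 1) := Rk_pos hT _
  have hℓ : 0 < lk T k := by rw [lk_eq]; positivity
  have hlam : 0 < lam := by linarith [h.par.hlam]
  have hpb : 0 < pb p := by linarith [pb_pos h.par.hp]
  have hiota : 0 < iota := (mul_pos_iff_of_pos_right hT).1 (by linarith [h.hi])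
  set F : ℝ := FkM om p δ lam T k (Kap T k) z with hF
  set r : ℝ := Rk T (k - 1) with hrdef
  set ℓ : ℝ := lk T k with hℓdef
  set W : ℝ := Real.log ((Nmax p T k : ℝ) + 2) + lam * (pb p * ℓ ^ 3) * (F + C1 / r) with hW
  -- the limit inequality
  have h1 : Tendsto (fun L : ℝ => lam * z.2 * ((⌊ρ * L ^ 3⌋₊ : ℝ) / L ^ 3) +
      Real.log (partitionFn (phi om p δ lam T) L ⌊ρ * L ^ 3⌋₊ z.1) / L ^ 3) atTop
      (nhds (lam * z.2 * ρ + a)) :=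
    ((tendsto_floor_div hρ).const_mul (lam * z.2)).add hlim
  have h2 : Tendsto (fun L : ℝ => ((⌈L / ℓ⌉₊ : ℝ) + 1) ^ 3 / L ^ 3 * W) atTop
      (nhds (1 / ℓ ^ 3 * W)) :=
    (tendsto_ceil_cube hℓ).mul_const W
  have h3 : lam * z.2 * ρ + a ≤ 1 / ℓ ^ 3 * W := by
    refine le_of_tendsto_of_tendsto h1 h2 ?_
    filter_upwards [eventually_gt_atTop (0 : ℝ)] with L hL
    have hL3 : 0 < L ^ 3 := by positivity
    have h4 := hard_log_inf h hk hz hL ⌊ρ * L ^ 3⌋₊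
    have h5 := div_le_div_of_nonneg_right h4 hL3.le
    calc lam * z.2 * ((⌊ρ * L ^ 3⌋₊ : ℝ) / L ^ 3) +
          Real.log (partitionFn (phi om p δ lam T) L ⌊ρ * L ^ 3⌋₊ z.1) / L ^ 3
        = (lam * z.2 * (⌊ρ * L ^ 3⌋₊ : ℝ) +
          Real.log (partitionFn (phi om p δ lam T) L ⌊ρ * L ^ 3⌋₊ z.1)) / L ^ 3 := by ring
      _ ≤ ((⌈L / ℓ⌉₊ : ℝ) + 1) ^ 3 * W / L ^ 3 := h5
      _ = ((⌈L / ℓ⌉₊ : ℝ) + 1) ^ 3 / L ^ 3 * W := by ring
  have h6 := log_Nmax_le h k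
  have hden : 0 < lam * pb p := by positivity
  have h7 : z.2 * (ρ / pb p) + a / (lam * pb p) = (lam * z.2 * ρ + a) / (lam * pb p) := by
    field_simp
  have h8 : 1 / ℓ ^ 3 * W / (lam * pb p) =
      Real.log ((Nmax p T k : ℝ) + 2) / (lam * (pb p * ℓ ^ 3)) + (F + C1 / r) := by
    rw [hW]
    field_simp
  have h9 : C1 + 1 ≤ CLP := by
    unfold C1 CLP
    have : 10 / iota ≤ 100 / iota := div_le_div_of_nonneg_right (by norm_num) hiota.le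
    linarith
  have h10 : 1 / r + C1 / r ≤ CLP / r := by
    rw [← add_div]
    exact div_le_div_of_nonneg_right (by linarith) hr.le
  calc z.2 * (ρ / pb p) + a / (lam * pb p) = (lam * z.2 * ρ + a) / (lam * pb p) := h7
    _ ≤ 1 / ℓ ^ 3 * W / (lam * pb p) := div_le_div_of_nonneg_right h3 hden.le
    _ = Real.log ((Nmax p T k : ℝ) + 2) / (lam * (pb p * ℓ ^ 3)) + (F + C1 / r) := h8
    _ ≤ 1 / r + (F + C1 / r) := by linarith [h6]
    _ ≤ F + CLP / r := by linarith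

end Crest.Agent.PT
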