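import Crest.Agent.PT_LPEasy
import Crest.Agent.PT_LPMid
import Crest.Agent.PT_LPLowNum

/-! Row 149, task LP11: the lower bound A8(i) "≥". -/

set_option autoImplicit false

namespace Crest.Agent.PT

open MeasureTheory Crest.ProbabilityR.Continuum

private theorem alg_id {lam P ℓ hh mR n Lz β ν κ X1 Y1 : ℝ} (hlam : lam ≠ 0) (hP : P ≠ 0)
    (hℓ : ℓ ≠ 0) (hhh : hh ≠ 0) :
    (mR / ℓ ^ 2) ^ 3 * (ν * (n / (P * ℓ ^ 3)) +
        β * (κ * X1 * (ℓ / hh) ^ 3 * Y1) * (n / (P * ℓ ^ 3)) ^ 2 / 2 + Lz / (lam * P * ℓ ^ 3)) =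
      ν * (mR ^ 3 * n / (P * (ℓ ^ 3) ^ 3)) +
        (mR ^ 3 * Lz + β * n ^ 2 / 2 * (Y1 * mR ^ 3) * (κ * lam / P * X1 / hh ^ 3)) /
          (lam * P * (ℓ ^ 3) ^ 3) := by
  field_simp
  ring

private theorem prod3_ge {X Z Y a b c : ℝ} (ha0 : 0 ≤ a) (ha : a ≤ 1) (hb0 : 0 ≤ b) (hb : b ≤ 1)
    (hc0 : 0 ≤ c) (hc : c ≤ 1) (hX : 1 - a ≤ X) (hZ : 1 - b ≤ Z) (hY : 1 - c ≤ Y) :
    1 - a - b - c ≤ X * Z * Y := by
  have h1 : (1 - a) * (1 - b) ≤ X * Z :=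
    mul_le_mul hX hZ (by linarith) (by linarith)
  have h2 : (1 - a) * (1 - b) * (1 - c) ≤ X * Z * Y :=
    mul_le_mul h1 hY (by linarith) (le_trans (mul_nonneg (by linarith) (by linarith)) h1)
  have h3 : 0 ≤ a * b := mul_nonneg ha0 hb0
  have h4 : 0 ≤ (a + b) * c := mul_nonneg (by linarith) hc0
  have h5 : 0 ≤ a * b * (1 - c) := mul_nonneg h3 (by linarith)
  nlinarith

/-- A8(i) "≥".
Proof. `exists_FkM_eq` gives the maximiser `n ≤ Nmax k`, `E := FkE k (kap T k) z n = FkM ∈ [0,70]`.  `ℓ = lk T k`, `h = ℓ+bb`, `m = ⌊ℓ^3/h⌋₊`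
(`m_facts`), `N' = m^3 n ≤ Nmax (k+1)` (`m ≤ ℓ^2`, `n ≤ 20 V`, `Nat.le_floor`), `Fk (k+1) z ≥ FkE (k+1) 0 z N'` (`FkE_le_FkM`).
`easy_log` (`J = k`, `Finset.Icc k k = {k}`) + `partitionFn_mono_L` (`m h ≤ ℓ^3 = lk T (k+1)`, `Real.log_le_log`, `partitionFn_pos`):
`log z_{k+1}(N') ≥ m^3 log z_k(n) + β n²/2 (m-2Dm)^3 c_k (ι - 400h/R_k)/h^3`.  Divide by `λ V' = λ p_b ℓ^9`:
`FkE (k+1) 0 z N' ≥ θ (ν n̂ + β κ' n̂²/2 + g)`, `θ = (m/ℓ^2)^3`, `κ' = κ_k (1-400h/(ιR_k)) (ℓ/h)^3 (1-1/r)`, `n̂ = n/V`, `g = log z_k/(λV)`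
(`ck_mul_iota`).  `κ_k - κ' ≤ κ_k (800/(ιr) + 4/r + 1/r)`.  `low_abstract` with `ε₁ = 6/r`, `ε₂ = 4·10^{-6}(800/ι+5)/r`:
error `≤ (420 + 1 + 1/ι)/r ≤ CLP/r`. -/
theorem LP_fin_ge {om : ℝ → ℝ} {p δ lam T : ℝ} (h : LPHyp om p δ lam T) {k : ℕ} (hk : 1 ≤ k)
    {z : ℝ × ℝ} (hz : InRg z) :
    FkM om p δ lam T k (kap T k) z - CLP / Rk T (k - 1) ≤ Fk om p δ lam T (k + 1) z := by
  have hT := h.par.hT
  have hp := h.par.hp
  have hlam : 0 < lam := by linarith [h.par.hlam]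
  have hT0 : 0 < T := by linarith
  have hz' := hz
  obtain ⟨⟨hβ1, hβ2⟩, ⟨hν1, hν2⟩⟩ := hz'
  have hβ0 : 0 < z.1 := by linarith
  -- collect the facts
  have hrbig := Rk_big hT (k - 1)
  have hιr := h.iota_Rk (k - 1)
  have hℓpos := lk_pos hT0 k
  have hbb := bb_pos
  have hpb := pb_pos hp
  have hRpos := Rk_pos hT0 k
  obtain ⟨hm1, hm2, hm3, hm4, hm5⟩ := m_facts hT hk
  obtain ⟨hZ1, hZ2⟩ := lh_cube hT k
  have hx := x_le h hk (le_refl k)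
  have hκ0 := kap_pos hT0 k
  have hκs := kap_le_small hT hk
  have hcι := ck_mul_iota p lam T k
  obtain ⟨n, hn, hE⟩ := exists_FkM_eq om p δ lam T k (kap T k) z
  have hE0 := FkM_nonneg om p δ lam T k (kap T k) z
  have hE70 := FkM_le_seventy h hk hκ0.le hκs hz
  have hnh := Nmax_div_le hp hT k hn
  have hNmax := Nmax_le hp hT k
  have heasy := easy_log h hk (le_refl k) ⌊(lk T k) ^ 3 / (lk T k + bb)⌋₊ n hβ0 hm4
  have hsucc := lk_succ_eq_cube T hk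
  have hmeas := h.measurable_phik (k + 1)
  have hlow := h.phik_lower (k := k + 1) (by omega)
  rw [Finset.Icc_self, Finset.sum_singleton] at heasy
  rw [hE] at hE0 hE70 ⊢
  -- the candidate N'
  have hmpos : 0 < ⌊(lk T k) ^ 3 / (lk T k + bb)⌋₊ := by omega
  have hmposR : (0 : ℝ) < (⌊(lk T k) ^ 3 / (lk T k + bb)⌋₊ : ℝ) := by exact_mod_cast hmpos
  have hmono : Real.log (partitionFn (phik om p δ lam T (k + 1))
      ((⌊(lk T k) ^ 3 / (lk T k + bb)⌋₊ : ℝ) * (lk T k + bb))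
      (⌊(lk T k) ^ 3 / (lk T k + bb)⌋₊ ^ 3 * n) z.1) ≤
      Real.log (zk om p δ lam T (k + 1) z.1 (⌊(lk T k) ^ 3 / (lk T k + bb)⌋₊ ^ 3 * n)) := by
    unfold zk
    refine Real.log_le_log (partitionFn_pos hmeas hlow (by positivity) _ hβ0.le)
      (partitionFn_mono_L hmeas hlow hβ0.le ?_ _)
    rw [hsucc]
    exact hm1
  have hnR : (n : ℝ) ≤ 20 * (pb p * (lk T k) ^ 3) :=
    le_trans (by exact_mod_cast hn) hNmax
  have hN' : ⌊(lk T k) ^ 3 / (lk T k + bb)⌋₊ ^ 3 * n ≤ Nmax p T (k + 1) := by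
    unfold Nmax
    apply Nat.le_floor
    rw [hsucc]
    push_cast
    have h1 : (⌊(lk T k) ^ 3 / (lk T k + bb)⌋₊ : ℝ) ^ 3 ≤ ((lk T k) ^ 2) ^ 3 :=
      pow_le_pow_left₀ hmposR.le hm2 3
    have h2 : (0 : ℝ) ≤ (n : ℝ) := Nat.cast_nonneg n
    calc (⌊(lk T k) ^ 3 / (lk T k + bb)⌋₊ : ℝ) ^ 3 * (n : ℝ)
        ≤ ((lk T k) ^ 2) ^ 3 * (20 * (pb p * (lk T k) ^ 3)) :=
          mul_le_mul h1 hnR h2 (by positivity)
      _ = 20 * pb p * ((lk T k) ^ 3) ^ 3 := by ring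
  have hFk : FkE om p δ lam T (k + 1) 0 z (⌊(lk T k) ^ 3 / (lk T k + bb)⌋₊ ^ 3 * n) ≤
      Fk om p δ lam T (k + 1) z := FkE_le_FkM om p δ lam T (k + 1) 0 z hN'
  refine le_trans ?_ hFk
  unfold FkE at hE0 hE70 ⊢
  rw [hsucc]
  push_cast
  -- abbreviations
  set r : ℝ := Rk T (k - 1) with hr
  set ℓ : ℝ := lk T k with hℓ
  set R : ℝ := Rk T k with hR
  set P : ℝ := pb p with hP
  set κ : ℝ := kap T k with hκ
  set c : ℝ := ck p lam T k with hc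
  set mR : ℝ := (⌊ℓ ^ 3 / (ℓ + bb)⌋₊ : ℝ) with hmR
  set Dm : ℝ := (⌈R / (ℓ + bb)⌉₊ : ℝ) with hDm
  set Lz : ℝ := Real.log (zk om p δ lam T k z.1 n) with hLz
  set Lz' : ℝ := Real.log (zk om p δ lam T (k + 1) z.1 (⌊ℓ ^ 3 / (ℓ + bb)⌋₊ ^ 3 * n)) with hLz'
  set hh : ℝ := ℓ + bb with hhh
  have hrpos : 0 < r := lt_of_lt_of_le (by positivity) hrbig
  have hr1 : (10 : ℝ) ≤ r := le_trans (by norm_num) hrbig
  have hιpos : 0 < iota := (pos_iff_pos_of_mul_pos (by linarith : 0 < iota * r)).2 hrpos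
  have hPpos : 0 < P := by linarith
  have hhhpos : 0 < hh := by positivity
  -- the three factors
  have ha0 : 0 ≤ 800 / (iota * r) := by positivity
  have ha1 : 800 / (iota * r) ≤ 4 / 5 := by
    rw [div_le_div_iff₀ (by positivity) (by norm_num)]
    linarith
  have hb0 : 0 ≤ 4 / r := by positivity
  have hb1 : 4 / r ≤ 1 := by
    rw [div_le_one hrpos]; linarith
  have hc0 : 0 ≤ 1 / r := by positivity
  have hc1 : 1 / r ≤ 1 := by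
    rw [div_le_one hrpos]; linarith
  set X1 : ℝ := 1 - 400 * hh / (iota * R) with hX1
  set Y1 : ℝ := 1 - 1 / r with hY1
  have hxx0 : 0 ≤ 400 * hh / (iota * R) := by positivity
  have hX1le : X1 ≤ 1 := by linarith
  have hX1ge : 1 - 800 / (iota * r) ≤ X1 := by linarith
  have hX1pos : 0 ≤ X1 := by linarith
  have hY0 : 0 ≤ Y1 := by linarith
  have hYle : Y1 ≤ 1 := by linarith
  have hZ0 : 0 ≤ (ℓ / hh) ^ 3 := by positivity
  have hprod_le : X1 * (ℓ / hh) ^ 3 * Y1 ≤ 1 :=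
    mul_le_one₀ (mul_le_one₀ hX1le hZ0 hZ2) hY0 hYle
  have hprod_ge : 1 - 800 / (iota * r) - 4 / r - 1 / r ≤ X1 * (ℓ / hh) ^ 3 * Y1 :=
    prod3_ge ha0 (by linarith) hb0 hb1 hc0 hc1 hX1ge hZ1 le_rfl
  have hκ'le : κ * X1 * (ℓ / hh) ^ 3 * Y1 ≤ κ := by
    have := mul_le_mul_of_nonneg_left hprod_le hκ0.le
    calc κ * X1 * (ℓ / hh) ^ 3 * Y1 = κ * (X1 * (ℓ / hh) ^ 3 * Y1) := by ring
      _ ≤ κ * 1 := this
      _ = κ := mul_one κ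
  have hκ'ge : κ - 4 / 1000000 * (800 / iota + 5) / r ≤ κ * X1 * (ℓ / hh) ^ 3 * Y1 := by
    have h1 := mul_le_mul_of_nonneg_left hprod_ge hκ0.le
    have h2 : 800 / (iota * r) + 4 / r + 1 / r = (800 / iota + 5) / r := by
      field_simp; ring
    have h3 : 0 ≤ (800 / iota + 5) / r := by positivity
    have h4 : κ * ((800 / iota + 5) / r) ≤ 4 / 1000000 * ((800 / iota + 5) / r) :=
      mul_le_mul_of_nonneg_right hκs h3
    calc κ - 4 / 1000000 * (800 / iota + 5) / r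
        = κ - 4 / 1000000 * ((800 / iota + 5) / r) := by ring
      _ ≤ κ - κ * ((800 / iota + 5) / r) := by linarith
      _ = κ * (1 - 800 / (iota * r) - 4 / r - 1 / r) := by rw [← h2]; ring
      _ ≤ κ * (X1 * (ℓ / hh) ^ 3 * Y1) := h1
      _ = κ * X1 * (ℓ / hh) ^ 3 * Y1 := by ring
  -- θ
  have hθ0 : 0 ≤ (mR / ℓ ^ 2) ^ 3 := by positivity
  have hθ1 : (mR / ℓ ^ 2) ^ 3 ≤ 1 := by
    apply pow_le_one₀ (by positivity)
    rw [div_le_one (by positivity)]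
    exact hm2
  have hnh0 : 0 ≤ (n : ℝ) / (P * ℓ ^ 3) := by positivity
  have habs := low_abstract (ν := z.2) (nh := (n : ℝ) / (P * ℓ ^ 3)) (β := z.1) (κ := κ)
    (κ' := κ * X1 * (ℓ / hh) ^ 3 * Y1) (g := Lz / (lam * P * ℓ ^ 3)) (θ := (mR / ℓ ^ 2) ^ 3)
    (ε₁ := 6 / r) (ε₂ := 4 / 1000000 * (800 / iota + 5) / r)
    hnh0 hnh hβ0.le hβ2 hE0 hE70 hθ1 hm3 hθ0 hκ'le hκ'ge
  -- the error term
  have herr : 70 * (6 / r) + 220 * (4 / 1000000 * (800 / iota + 5) / r) ≤ CLP / r := by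
    have h1 : 70 * (6 / r) + 220 * (4 / 1000000 * (800 / iota + 5) / r) =
        (420 + 220 * (4 / 1000000) * (800 / iota + 5)) / r := by ring
    rw [h1]
    apply div_le_div_of_nonneg_right _ hrpos.le
    unfold CLP
    have h2 : 0 < 1 / iota := by positivity
    have h3 : 800 / iota = 800 * (1 / iota) := by ring
    have h4 : 100 / iota = 100 * (1 / iota) := by ring
    rw [h3, h4]
    nlinarith
  -- the main inequality
  have hW : c * (iota - 400 * hh / R) = κ * lam / P * X1 := by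
    rw [← hcι, hX1]
    field_simp
  have hWnn : 0 ≤ κ * lam / P * X1 / hh ^ 3 := by positivity
  have hstep : z.1 * (n : ℝ) ^ 2 / 2 * (Y1 * mR ^ 3) * (κ * lam / P * X1 / hh ^ 3) ≤
      z.1 * (n : ℝ) ^ 2 / 2 * (mR - 2 * (Dm + 2)) ^ 3 * (κ * lam / P * X1 / hh ^ 3) :=
    mul_le_mul_of_nonneg_right (mul_le_mul_of_nonneg_left hm5 (by positivity)) hWnn
  rw [hW] at heasy
  have hLz'ge : mR ^ 3 * Lz + z.1 * (n : ℝ) ^ 2 / 2 * (Y1 * mR ^ 3) * (κ * lam / P * X1 / hh ^ 3) ≤ Lz' := by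
    linarith
  have hDpos : 0 < lam * P * (ℓ ^ 3) ^ 3 := by positivity
  have hdiv := div_le_div_of_nonneg_right hLz'ge hDpos.le
  have hid := alg_id (lam := lam) (P := P) (ℓ := ℓ) (hh := hh) (mR := mR) (n := (n : ℝ)) (Lz := Lz)
    (β := z.1) (ν := z.2) (κ := κ) (X1 := X1) (Y1 := Y1) hlam.ne' hPpos.ne' hℓpos.ne' hhhpos.ne'
  have h0 : z.1 * 0 * (mR ^ 3 * (n : ℝ) / (P * (ℓ ^ 3) ^ 3)) ^ 2 / 2 = 0 := by ring
  rw [h0]
  linarith

end Crest.Agent.PT
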