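import Crest.Agent.PT_LPUp
import Crest.Agent.PT_LPInfUp
import Crest.Agent.PT_LPLow
import Crest.Agent.PT_LPInfLow
import Crest.Agent.PT_Iter

/-! Row 149, task LP14: assembly of A8 (Lebowitz–Penrose step). -/

set_option autoImplicit false

namespace Crest.Agent.PT

open MeasureTheory Filter Crest.ProbabilityR.Continuum

theorem inRg_of_mem {z : ℝ × ℝ} (hz : z ∈ Rg) : InRg z := by
  obtain ⟨⟨h1, h2⟩, ⟨h3, h4⟩⟩ := hz
  refine ⟨⟨?_, ?_⟩, ⟨?_, ?_⟩⟩
  · norm_num at h1 ⊢; linarith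
  · norm_num at h2 ⊢; linarith
  · norm_num at h3 ⊢; linarith
  · norm_num at h4 ⊢; linarith

/-- A8, explicit form.  `hG` = existence of the thermodynamic limit (blueprint C1), discharged elsewhere.
Proof. (i): `LP_fin_le`, `LP_fin_ge`, `abs_le`.  (ii): `Phat = sSup (image on Icc 0 20)`.  "≤": `csSup_le` (nonempty image), each element
`z.2 * n - Gf/(λ p_b)` is `LP_inf_le` with `ρ = pb p * n`, `a = -Gf`.  "≥": the same bound gives `BddAbove`; `LP_inf_ge` gives `ρ`; `n := ρ/pb p ∈ Icc 0 20`,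
`pb p * n = ρ`; `le_csSup`. -/
theorem LP_main {om : ℝ → ℝ} {p δ lam T : ℝ} (h : LPHyp om p δ lam T)
    (hG : ∀ β, 9 / 10 ≤ β → β ≤ 11 / 10 → ∀ ρ, 0 ≤ ρ →
      Tendsto (fun L : ℝ => Real.log (partitionFn (phi om p δ lam T) L ⌊ρ * L ^ 3⌋₊ β) / L ^ 3)
        atTop (nhds (-(Gf (phi om p δ lam T) β ρ))))
    {k : ℕ} (hk : 1 ≤ k) {z : ℝ × ℝ} (hz : z ∈ Rg) :
    |Fk om p δ lam T (k + 1) z - FkM om p δ lam T k (kap T k) z| ≤ CLP / Rk T (k - 1) ∧
    |Phat (phi om p δ lam T) p lam z - FkM om p δ lam T k (Kap T k) z| ≤ CLP / Rk T (k - 1) := by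
  have hz' : InRg z := inRg_of_mem hz
  have hpb : 0 < pb p := by
    have := h.par.hp
    unfold pb
    linarith
  refine ⟨?_, ?_⟩
  · rw [abs_le]
    have h1 := LP_fin_le h hk hz'
    have h2 := LP_fin_ge h hk hz'
    constructor <;> linarith
  · -- every entry of the supremum is bounded above
    have hub : ∀ n : ℝ, 0 ≤ n →
        z.2 * n - Gf (phi om p δ lam T) z.1 (pb p * n) / (lam * pb p)
          ≤ FkM om p δ lam T k (Kap T k) z + CLP / Rk T (k - 1) := by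
      intro n hn
      have hρ : 0 ≤ pb p * n := mul_nonneg hpb.le hn
      have h1 := LP_inf_le h hk hz' hρ (hG z.1 hz'.1.1 hz'.1.2 (pb p * n) hρ)
      have h2 : pb p * n / pb p = n := by field_simp
      rw [h2, neg_div] at h1
      linarith
    have hbdd : BddAbove ((fun n : ℝ => z.2 * n - Gf (phi om p δ lam T) z.1 (pb p * n) / (lam * pb p))
        '' Set.Icc (0 : ℝ) 20) := by
      refine ⟨FkM om p δ lam T k (Kap T k) z + CLP / Rk T (k - 1), ?_⟩
      rintro _ ⟨n, hn, rfl⟩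
      exact hub n hn.1
    have hne : ((fun n : ℝ => z.2 * n - Gf (phi om p δ lam T) z.1 (pb p * n) / (lam * pb p))
        '' Set.Icc (0 : ℝ) 20).Nonempty :=
      ⟨_, ⟨0, ⟨le_refl _, by norm_num⟩, rfl⟩⟩
    have hle : Phat (phi om p δ lam T) p lam z
        ≤ FkM om p δ lam T k (Kap T k) z + CLP / Rk T (k - 1) := by
      unfold Phat
      refine csSup_le hne ?_
      rintro _ ⟨n, hn, rfl⟩
      exact hub n hn.1
    have hge : FkM om p δ lam T k (Kap T k) z - CLP / Rk T (k - 1)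
        ≤ Phat (phi om p δ lam T) p lam z := by
      obtain ⟨ρ, hρ0, hρ20, hρ⟩ := LP_inf_ge h hk hz'
      have h1 := hρ _ (hG z.1 hz'.1.1 hz'.1.2 ρ hρ0)
      have h2 : pb p * (ρ / pb p) = ρ := by field_simp
      have hmem : z.2 * (ρ / pb p) - Gf (phi om p δ lam T) z.1 (pb p * (ρ / pb p)) / (lam * pb p)
          ∈ ((fun n : ℝ => z.2 * n - Gf (phi om p δ lam T) z.1 (pb p * n) / (lam * pb p))
            '' Set.Icc (0 : ℝ) 20) :=
        ⟨ρ / pb p, ⟨div_nonneg hρ0 hpb.le, hρ20⟩, rfl⟩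
      have h3 := le_csSup hbdd hmem
      rw [h2] at h3
      rw [neg_div] at h1
      unfold Phat
      linarith
    rw [abs_le]
    constructor <;> linarith

end Crest.Agent.PT
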