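import Crest.Agent.PT_Num

/-! Row 149, block A8 (Lebowitz–Penrose step): definitions and notation of the `PT_LP*` files.

NOTATION used in all hints (`k ≥ 1`):  `r = Rk T (k-1)`, `ℓ = lk T k = r^2`, `Rk T k = r^3`, `lk T (k+1) = ℓ^3 = r^6`,
`V = pb p * ℓ^3`, `U = U0 δ lam + om`, `M = Mk T k = ⌊r/2⌋`, `σ = sg T k = (1-1/M)^{-3}`, `s = σ - 1 ≤ 24/r`,
`S(kk) = SS p lam T k kk = kk λ (1 + 400/(ι r)) / V`.   `r ≥ T^32 ≥ 12^32` is astronomically large. -/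

set_option autoImplicit false

namespace Crest.Agent.PT

open MeasureTheory Crest.ProbabilityR.Continuum

noncomputable section

/-- standing hypotheses of the LP block -/
structure LPHyp (om : ℝ → ℝ) (p δ lam T : ℝ) : Prop where
  par : Par p δ lam T
  core : CoreOK lam om
  hi : 1000 ≤ iota * T

/-- `z ∈ 𝓡 = [0.9,1.1] × [1.6,1.9]` (same as `Rg` of `PT_Iter`, with rational bounds) -/
def InRg (z : ℝ × ℝ) : Prop :=
  (9 / 10 ≤ z.1 ∧ z.1 ≤ 11 / 10) ∧ (16 / 10 ≤ z.2 ∧ z.2 ≤ 19 / 10)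

/-- number of translates per axis, `M_k = ⌊R_{k-1}/2⌋` -/
def Mk (T : ℝ) (k : ℕ) : ℕ := ⌊Rk T (k - 1) / 2⌋₊

/-- `σ = (1 - 1/M_k)^{-3}` -/
def sg (T : ℝ) (k : ℕ) : ℝ := ((1 - 1 / (Mk T k : ℝ)) ^ 3)⁻¹

/-- the Schur constant belonging to the mean-field coupling `kk` at level `k` -/
def SS (p lam T : ℝ) (k : ℕ) (kk : ℝ) : ℝ :=
  kk * lam * (1 + 400 / (iota * Rk T (k - 1))) / (pb p * (lk T k) ^ 3)

def C1 : ℝ := 2000 + 10 / iota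

/-- the constant `C*` of blueprint A8 -/
def CLP : ℝ := 10000 + 100 / iota

/-- the `N`-th entry of the maximum defining `FkM` -/
def FkE (om : ℝ → ℝ) (p δ lam T : ℝ) (k : ℕ) (κ : ℝ) (z : ℝ × ℝ) (N : ℕ) : ℝ :=
  z.2 * ((N : ℝ) / (pb p * (lk T k) ^ 3)) + z.1 * κ * ((N : ℝ) / (pb p * (lk T k) ^ 3)) ^ 2 / 2 +
    Real.log (zk om p δ lam T k z.1 N) / (lam * pb p * (lk T k) ^ 3)

theorem FkM_eq_sup (om : ℝ → ℝ) (p δ lam T : ℝ) (k : ℕ) (κ : ℝ) (z : ℝ × ℝ) :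
    FkM om p δ lam T k κ z =
      (Finset.range (Nmax p T k + 1)).sup' Finset.nonempty_range_add_one
        (FkE om p δ lam T k κ z) := rfl

theorem FkE_le_FkM (om : ℝ → ℝ) (p δ lam T : ℝ) (k : ℕ) (κ : ℝ) (z : ℝ × ℝ) {N : ℕ}
    (hN : N ≤ Nmax p T k) : FkE om p δ lam T k κ z N ≤ FkM om p δ lam T k κ z := by
  rw [FkM_eq_sup]
  exact Finset.le_sup' (FkE om p δ lam T k κ z) (Finset.mem_range.2 (Nat.lt_succ_of_le hN))

theorem exists_FkM_eq (om : ℝ → ℝ) (p δ lam T : ℝ) (k : ℕ) (κ : ℝ) (z : ℝ × ℝ) :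
    ∃ N, N ≤ Nmax p T k ∧ FkM om p δ lam T k κ z = FkE om p δ lam T k κ z N := by
  obtain ⟨N, hN, h⟩ := Finset.exists_mem_eq_sup' (Finset.nonempty_range_add_one (n := Nmax p T k))
    (FkE om p δ lam T k κ z)
  exact ⟨N, Nat.lt_succ_iff.1 (Finset.mem_range.1 hN), by rw [FkM_eq_sup]; exact h⟩

theorem FkM_le (om : ℝ → ℝ) (p δ lam T : ℝ) (k : ℕ) (κ : ℝ) (z : ℝ × ℝ) {a : ℝ}
    (h : ∀ N, N ≤ Nmax p T k → FkE om p δ lam T k κ z N ≤ a) : FkM om p δ lam T k κ z ≤ a := by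
  rw [FkM_eq_sup]
  exact Finset.sup'_le _ _ (fun N hN => h N (Nat.lt_succ_iff.1 (Finset.mem_range.1 hN)))

theorem lk_eq (T : ℝ) (k : ℕ) : lk T k = (Rk T (k - 1)) ^ 2 := rfl

theorem Rk_eq_cube (T : ℝ) {k : ℕ} (hk : 1 ≤ k) : Rk T k = (Rk T (k - 1)) ^ 3 := by
  obtain ⟨j, rfl⟩ : ∃ j, k = j + 1 := ⟨k - 1, by omega⟩
  simpa using Rk_succ T j

theorem lk_succ_eq_cube (T : ℝ) {k : ℕ} (hk : 1 ≤ k) : lk T (k + 1) = (lk T k) ^ 3 := by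
  rw [lk_succ, Rk_eq_cube T hk, lk_eq]
  ring

end

end Crest.Agent.PT
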