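import Crest.Agent.PT_LPSoft
import Crest.Agent.PT_LPNum
import Crest.Agent.PT_Easy

/-! Row 149, task LP9: `easy_bound` + Kac sums in logarithmic form (E'). -/

set_option autoImplicit false

namespace Crest.Agent.PT

open MeasureTheory Crest.ProbabilityR.Continuum

/-- (E').  `h = ℓ_k + bb`, `Dm = ⌈R_J/h⌉₊ + 2`.
Proof. For `j ∈ Icc k J` take `γm_j, D_j` from `kac_sums (h := ℓ_k+bb) (R := Rk T j)` (`8 h ≤ R_k ≤ R_j`; choose them with `Classical.choose`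
or by `Finset` induction / `fun j => if hj : .. then .. else 0`).  `γ d := ∑_j c_j γm_j d ≥ 0`, `D := ⋃ D_j`; `γm_j = 0` outside `D_j` (`0 ≤ γm ≤ γp = 0`),
`|d a| ≤ R_j/h + 2 ≤ Dm` on `D`, `γ (idx y - idx x) ≤ ∑_j c_j A_{R_j}(|x-y|) = (Alt (J+1) - Alt k)(|x-y|)` (`LPHyp.Alt_sub`, `Finset.Ico k (J+1) = Icc k J`).
`easy_bound` with `U = U0+om`, `As = Alt k`, `Al = Alt (J+1) - Alt k`, `b = bb`, `ℓ = ℓ_k`, constant occupation `n`:
`∏ = z_k^{m^3}`, `∑ α, n = m^3 n` (`Fintype.card (Fin 3 → Fin m) = m^3`), `U - As - Al = phik (J+1)`.  `deep_sum_ge` and `γm_j 0 = 0`: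
`∑∑ γ ≥ (m-2Dm)^3 ∑_{d ∈ D} γ d ≥ (m-2Dm)^3 ∑_j c_j (ι - 400h/R_j)/h^3` (here `m ≥ 2 Dm`).  Take `Real.log` (`LPHyp.zk_pos`). -/
theorem easy_log {om : ℝ → ℝ} {p δ lam T : ℝ} (h : LPHyp om p δ lam T) {k J : ℕ} (hk : 1 ≤ k) (hkJ : k ≤ J)
    (m n : ℕ) {β : ℝ} (hβ : 0 < β) (hm : 2 * (⌈Rk T J / (lk T k + bb)⌉₊ + 2) ≤ m) :
    (m : ℝ) ^ 3 * Real.log (zk om p δ lam T k β n) +
        β * (n : ℝ) ^ 2 / 2 * ((m : ℝ) - 2 * ((⌈Rk T J / (lk T k + bb)⌉₊ : ℝ) + 2)) ^ 3 *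
          (∑ j ∈ Finset.Icc k J, ck p lam T j * (iota - 400 * (lk T k + bb) / Rk T j) / (lk T k + bb) ^ 3) ≤
      Real.log (partitionFn (phik om p δ lam T (J + 1)) (m * (lk T k + bb)) (m ^ 3 * n) β) := by
  classical
  have hP := h.par
  have hT12 : 12 ≤ T := hP.hT
  have hT0 : 0 < T := by linarith
  have hT1 : 1 ≤ T := by linarith
  have hlam : 0 < lam := by linarith [hP.hlam]
  have hp1 : 1 ≤ p := hP.hp
  have hℓ : 0 < lk T k := lk_pos hT0 k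
  obtain ⟨hh, hhdef⟩ : ∃ hh : ℝ, hh = lk T k + bb := ⟨_, rfl⟩
  rw [← hhdef] at hm ⊢
  have hh0 : 0 < hh := by rw [hhdef]; exact add_pos hℓ bb_pos
  have h8 : ∀ j : ℕ, 8 * hh ≤ Rk T (max j k) := by
    intro j
    have h1 : Rk T k ≤ Rk T (max j k) := Rk_mono hT1 (le_max_right _ _)
    have h2 : Rk T k = (Rk T (k - 1)) ^ 3 := Rk_eq_cube T hk
    have h3 := Rk_big hT12 (k - 1)
    have h4 : lk T k = (Rk T (k - 1)) ^ 2 := lk_eq T k
    have h5 := bb_lt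
    have h6 : (100 : ℝ) ≤ Rk T (k - 1) := le_trans (by norm_num) h3
    rw [hhdef, h4]
    refine le_trans ?_ (h2 ▸ h1)
    nlinarith [sq_nonneg (Rk T (k - 1)), mul_le_mul_of_nonneg_right h6 (sq_nonneg (Rk T (k - 1)))]
  choose γp γm D c1 c2 c3 c4 c5 c6 c7 c8 using fun j : ℕ => kac_sums hh0 (h8 j)
  have hc0 : ∀ j, 0 ≤ ck p lam T j := fun j => (ck_pos hp1 hlam hT0 j).le
  obtain ⟨γ, hγdef⟩ : ∃ γ : (Fin 3 → ℤ) → ℝ,
      γ = fun d => ∑ j ∈ Finset.Icc k J, ck p lam T j * γm j d := ⟨_, rfl⟩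
  obtain ⟨DD, hDD⟩ : ∃ DD : Finset (Fin 3 → ℤ), DD = (Finset.Icc k J).biUnion D := ⟨_, rfl⟩
  obtain ⟨Dm, hDm⟩ : ∃ Dm : ℕ, Dm = ⌈Rk T J / hh⌉₊ + 2 := ⟨_, rfl⟩
  have hγ0 : ∀ d, 0 ≤ γ d := fun d => by
    rw [hγdef]
    exact Finset.sum_nonneg fun j _ => mul_nonneg (hc0 j) (c1 j d)
  have hγz : γ 0 = 0 := by
    rw [hγdef]
    exact Finset.sum_eq_zero fun j _ => by rw [c5 j, mul_zero]
  have hDb : ∀ d ∈ DD, ∀ a, |d a| ≤ (Dm : ℤ) := by
    intro d hd a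
    rw [hDD, Finset.mem_biUnion] at hd
    obtain ⟨j, hj, hdj⟩ := hd
    rw [Finset.mem_Icc] at hj
    have h1 := c4 j d hdj a
    rw [max_eq_left hj.1] at h1
    have h2 : Rk T j / hh ≤ Rk T J / hh := div_le_div_of_nonneg_right (Rk_mono hT1 hj.2) hh0.le
    have h3 : Rk T J / hh ≤ (⌈Rk T J / hh⌉₊ : ℝ) := Nat.le_ceil _
    have h4 : |(d a : ℝ)| ≤ (Dm : ℝ) := by
      rw [hDm]; push_cast; linarith
    exact_mod_cast h4
  -- the potentials
  obtain ⟨Al, hAl⟩ : ∃ Al : ℝ → ℝ, Al = fun r => Alt p lam T (J + 1) r - Alt p lam T k r := ⟨_, rfl⟩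
  have hkJ1 : k ≤ J + 1 := by omega
  have hAlm : Measurable Al := by
    rw [hAl]
    exact ((continuous_Alt p lam T (J + 1)).sub (continuous_Alt p lam T k)).measurable
  have hAl0 : ∀ r, 0 ≤ Al r := fun r => by rw [hAl]; exact (h.Alt_sub hk hkJ1 r).2.1
  have hAla : ∀ r, Al r ≤ kap1 * lam / (pb p * iota) := fun r => by
    rw [hAl]; exact (h.Alt_sub hk hkJ1 r).2.2
  have hIco : Finset.Ico k (J + 1) = Finset.Icc k J := by
    ext j; simp only [Finset.mem_Ico, Finset.mem_Icc]; omega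
  have hγAl : ∀ x y : Pt, γ (idx (lk T k + bb) 0 y - idx (lk T k + bb) 0 x) ≤ Al (dist x y) := by
    intro x y
    rw [← hhdef, hAl, hγdef]
    show _ ≤ Alt p lam T (J + 1) (dist x y) - Alt p lam T k (dist x y)
    rw [(h.Alt_sub hk hkJ1 (dist x y)).1, hIco]
    refine Finset.sum_le_sum fun j hj => ?_
    rw [Finset.mem_Icc] at hj
    have h1 := (c6 j 0 x y).1
    rw [max_eq_left hj.1] at h1
    exact mul_le_mul_of_nonneg_left h1 (hc0 j)
  have hE := easy_bound (U := fun r => U0 δ lam r + om r) (As := Alt p lam T k) (Al := Al)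
    h.measurable_U h.U_nonneg (continuous_Alt p lam T k).measurable
    (Alt_nonneg hp1 hlam hT12 k) hAlm hAl0 (h.Alt_le hk) hAla bb_pos (fun r hr => h.U_eq_zero hr) hℓ m
    (fun _ => n) γ hγAl hβ
  have hphi1 : (fun r => (U0 δ lam r + om r) - Alt p lam T k r) = phik om p δ lam T k := rfl
  have hphi2 : (fun r => (U0 δ lam r + om r) - Alt p lam T k r - Al r) = phik om p δ lam T (J + 1) := by
    funext r
    rw [hAl]
    simp only [phik]
    ring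
  have hcard : Fintype.card (Fin 3 → Fin m) = m ^ 3 := by simp
  rw [hphi1, hphi2, Finset.prod_const, Finset.sum_const, Finset.card_univ, hcard, smul_eq_mul,
    ← hhdef] at hE
  have hz : 0 < zk om p δ lam T k β n := h.zk_pos hk hβ.le n
  have hz' : partitionFn (phik om p δ lam T k) (lk T k) n β = zk om p δ lam T k β n := rfl
  rw [hz'] at hE
  have hlog := Real.log_le_log (mul_pos (pow_pos hz (m ^ 3)) (Real.exp_pos _)) hE
  rw [Real.log_mul (pow_pos hz _).ne' (Real.exp_pos _).ne', Real.log_exp, Real.log_pow] at hlog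
  refine le_trans ?_ hlog
  -- the double sum
  have hdeep := deep_sum_ge m Dm γ DD hγ0 hDb
  have herase : ∑ d ∈ DD.erase 0, γ d = ∑ d ∈ DD, γ d := by
    by_cases h0 : (0 : Fin 3 → ℤ) ∈ DD
    · rw [← Finset.add_sum_erase DD γ h0, hγz, zero_add]
    · rw [Finset.erase_eq_of_notMem h0]
  have hsum : ∑ j ∈ Finset.Icc k J, ck p lam T j * (iota - 400 * hh / Rk T j) / hh ^ 3 ≤
      ∑ d ∈ DD, γ d := by
    rw [hγdef, Finset.sum_comm]
    refine Finset.sum_le_sum fun j hj => ?_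
    rw [← Finset.mul_sum, mul_div_assoc]
    refine mul_le_mul_of_nonneg_left ?_ (hc0 j)
    have h1 := c8 j
    rw [max_eq_left (Finset.mem_Icc.1 hj).1] at h1
    have h2 : ∑ d ∈ D j, γm j d ≤ ∑ d ∈ DD, γm j d := by
      refine Finset.sum_le_sum_of_subset_of_nonneg ?_ (fun d _ _ => c1 j d)
      rw [hDD]
      exact Finset.subset_biUnion_of_mem D hj
    rw [div_le_iff₀ (by positivity)]
    calc iota - 400 * hh / Rk T j ≤ hh ^ 3 * ∑ d ∈ D j, γm j d := h1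
      _ ≤ hh ^ 3 * ∑ d ∈ DD, γm j d := mul_le_mul_of_nonneg_left h2 (by positivity)
      _ = (∑ d ∈ DD, γm j d) * hh ^ 3 := mul_comm _ _
  have hmD : (0 : ℝ) ≤ (m : ℝ) - 2 * Dm := by
    have : ((2 * Dm : ℕ) : ℝ) ≤ (m : ℝ) := by
      rw [hDm]; exact_mod_cast hm
    push_cast at this
    linarith
  have hcast : (m : ℝ) - 2 * ((⌈Rk T J / hh⌉₊ : ℝ) + 2) = (m : ℝ) - 2 * Dm := by
    rw [hDm]; push_cast; ring
  rw [hcast]
  have hfac : ∑ α : Fin 3 → Fin m, ∑ α' ∈ Finset.univ.erase α,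
      γ (fun i => ((α' i : ℕ) : ℤ) - ((α i : ℕ) : ℤ)) * (n : ℝ) * (n : ℝ) =
      (n : ℝ) ^ 2 * ∑ α : Fin 3 → Fin m, ∑ α' ∈ Finset.univ.erase α,
        γ (fun i => ((α' i : ℕ) : ℤ) - ((α i : ℕ) : ℤ)) := by
    rw [Finset.mul_sum]
    refine Finset.sum_congr rfl fun α _ => ?_
    rw [Finset.mul_sum]
    refine Finset.sum_congr rfl fun α' _ => ?_
    ring
  rw [hfac]
  have hchain : ((m : ℝ) - 2 * Dm) ^ 3 *
      (∑ j ∈ Finset.Icc k J, ck p lam T j * (iota - 400 * hh / Rk T j) / hh ^ 3) ≤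
      ∑ α : Fin 3 → Fin m, ∑ α' ∈ Finset.univ.erase α,
        γ (fun i => ((α' i : ℕ) : ℤ) - ((α i : ℕ) : ℤ)) := by
    refine le_trans (mul_le_mul_of_nonneg_left hsum (by positivity)) ?_
    rw [← herase]
    exact hdeep
  have hbn : 0 ≤ β * (n : ℝ) ^ 2 / 2 := by positivity
  have := mul_le_mul_of_nonneg_left hchain hbn
  push_cast
  nlinarith [this]

end Crest.Agent.PT
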