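import Crest.Agent.PT_PotDefs

/-! Row 149: the M-identity (blueprint §1 (M-id)), pure algebra. -/

set_option autoImplicit false

namespace Crest.Agent.PT

open MeasureTheory Crest.ProbabilityR.Continuum

private theorem mid_sq (a n m : ℝ) (ha : 0 ≤ a) :
    a * m * n - a * m ^ 2 / 2 ≤ a * n ^ 2 / 2 := by
  nlinarith [mul_nonneg ha (sq_nonneg (n - m))]

/-- (M-id) -/
theorem isM_FkM_aux (om : ℝ → ℝ) (p δ lam T : ℝ) (k : ℕ) {κ : ℝ} (hκ : 0 ≤ κ) :
    IsM κ (Ngrid p T k) (Fk om p δ lam T k) (FkM om p δ lam T k κ) := by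
  intro z hz
  have hz1 : 0 ≤ z.1 := by
    have := hz.1.1
    linarith
  have ha : 0 ≤ z.1 * κ := mul_nonneg hz1 hκ
  set V : ℝ := pb p * (lk T k) ^ 3 with hV
  -- upper bound
  have hub : ∀ m : ℝ, Fk om p δ lam T k (z.1, z.2 + z.1 * κ * m) - z.1 * κ * m ^ 2 / 2
      ≤ FkM om p δ lam T k κ z := by
    intro m
    rw [sub_le_iff_le_add]
    unfold Fk FkM
    apply Finset.sup'_le
    intro N hN
    have h1 := Finset.le_sup' (fun N : ℕ =>
      z.2 * ((N : ℝ) / (pb p * (lk T k) ^ 3)) + z.1 * κ * ((N : ℝ) / (pb p * (lk T k) ^ 3)) ^ 2 / 2 +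
        Real.log (zk om p δ lam T k z.1 N) / (lam * pb p * (lk T k) ^ 3)) hN
    have h2 := mid_sq (z.1 * κ) ((N : ℝ) / (pb p * (lk T k) ^ 3)) m ha
    simp only at h1 ⊢
    nlinarith [h1, h2]
  constructor
  · -- attained
    obtain ⟨N, hN, hNeq⟩ := Finset.exists_mem_eq_sup' Finset.nonempty_range_add_one (fun N : ℕ =>
      z.2 * ((N : ℝ) / (pb p * (lk T k) ^ 3)) + z.1 * κ * ((N : ℝ) / (pb p * (lk T k) ^ 3)) ^ 2 / 2 +
        Real.log (zk om p δ lam T k z.1 N) / (lam * pb p * (lk T k) ^ 3))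
    refine ⟨(N : ℝ) / (pb p * (lk T k) ^ 3), ?_, ?_⟩
    · unfold Ngrid
      simp only [Finset.coe_image, Set.mem_image, Finset.mem_coe]
      exact ⟨N, hN, rfl⟩
    · apply le_antisymm (hub _)
      have h3 := Finset.le_sup' (fun N' : ℕ =>
        (z.2 + z.1 * κ * ((N : ℝ) / (pb p * (lk T k) ^ 3))) * ((N' : ℝ) / (pb p * (lk T k) ^ 3)) +
          z.1 * 0 * ((N' : ℝ) / (pb p * (lk T k) ^ 3)) ^ 2 / 2 +
          Real.log (zk om p δ lam T k z.1 N') / (lam * pb p * (lk T k) ^ 3)) hN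
      have h4 : FkM om p δ lam T k κ z = z.2 * ((N : ℝ) / (pb p * (lk T k) ^ 3)) +
          z.1 * κ * ((N : ℝ) / (pb p * (lk T k) ^ 3)) ^ 2 / 2 +
          Real.log (zk om p δ lam T k z.1 N) / (lam * pb p * (lk T k) ^ 3) := hNeq
      have h5 : (Finset.range (Nmax p T k + 1)).sup' Finset.nonempty_range_add_one (fun N' : ℕ =>
        (z.2 + z.1 * κ * ((N : ℝ) / (pb p * (lk T k) ^ 3))) * ((N' : ℝ) / (pb p * (lk T k) ^ 3)) +
          z.1 * 0 * ((N' : ℝ) / (pb p * (lk T k) ^ 3)) ^ 2 / 2 +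
          Real.log (zk om p δ lam T k z.1 N') / (lam * pb p * (lk T k) ^ 3)) =
          Fk om p δ lam T k (z.1, z.2 + z.1 * κ * ((N : ℝ) / (pb p * (lk T k) ^ 3))) := rfl
      rw [h5] at h3
      rw [h4]
      nlinarith [h3]
  · rintro _ ⟨m, _, rfl⟩
    exact hub m

end Crest.Agent.PT
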