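import Crest.Agent.PT_Pot
import Crest.Agent.PT_PotA

/-! Row 149, task POT3: the elementary side conditions of S0209 / S0210 for `phi` (blueprint §1 "Elementary (task POT)"). -/

set_option autoImplicit false

namespace Crest.Agent.PT

open MeasureTheory Filter Crest.ProbabilityR.Continuum

variable {p δ lam T : ℝ}

private theorem lam_pos' (hP : Par p δ lam T) : 0 < lam := by have := hP.hlam; linarith

private theorem Atot_nonneg' (hP : Par p δ lam T) (r : ℝ) : 0 ≤ Atot p lam T r := by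
  rw [Atot_eq_Age]
  exact Age_nonneg hP.hp (lam_pos' hP) hP.hT 1 r

private theorem s2_le_one (hP : Par p δ lam T) : s2 lam ≤ 1 := by
  have h1 := hP.hs2
  have h2 := hP.hδ1
  have h3 := bb_lt
  have h4 := bb_pos
  have h5 := hP.hδ0
  nlinarith

private theorem om_eq_zero (hP : Par p δ lam T) {om : ℝ → ℝ} (hom : CoreOK lam om) {r : ℝ}
    (hr : 1 ≤ r) : om r = 0 := by
  apply hom.supp
  have := s2_le_one hP
  linarith

theorem phi_measurable (hP : Par p δ lam T) {om : ℝ → ℝ} (hom : CoreOK lam om) :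
    Measurable (phi om p δ lam T) := by
  unfold phi
  exact ((continuous_U0 δ lam).measurable.add hom.meas).sub
    (continuous_Atot hP.hp (lam_pos' hP) hP.hT).measurable

/-- lower bound (needed for admissibility) -/
theorem phi_lower (hP : Par p δ lam T) {om : ℝ → ℝ} (hom : CoreOK lam om) (r : ℝ) :
    -(kap1 * lam / (pb p * iota)) ≤ phi om p δ lam T r := by
  unfold phi
  have h1 := U0_nonneg (δ := δ) (lam_pos' hP).le r
  have h2 := hom.nonneg r
  have h3 := Atot_le hP.hp (lam_pos' hP) hP.hT r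
  linarith

theorem phi0_continuous (hP : Par p δ lam T) : Continuous (phi (fun _ => 0) p δ lam T) := by
  unfold phi
  exact ((continuous_U0 δ lam).add continuous_const).sub
    (continuous_Atot hP.hp (lam_pos' hP) hP.hT)

theorem phi0_bounded (hP : Par p δ lam T) : ∃ M : ℝ, ∀ r : ℝ, |phi (fun _ => 0) p δ lam T r| ≤ M := by
  refine ⟨lam + kap1 * lam / (pb p * iota), fun r => ?_⟩
  unfold phi
  have h1 := U0_nonneg (δ := δ) (lam_pos' hP).le r
  have h1' := U0_le δ lam r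
  have h3 := Atot_le hP.hp (lam_pos' hP) hP.hT r
  have h4 := Atot_nonneg' hP r
  rw [abs_le]
  constructor <;> linarith

private theorem rpow_lower {r : ℝ} (h1 : 1 ≤ r) (h2 : r ≤ 5 / 4) :
    (1 / 3 : ℝ) ≤ r ^ (-(3 + 1 / 32 : ℝ)) := by
  have hr0 : 0 < r := by linarith
  rw [Real.rpow_neg hr0.le]
  have h3 : r ^ (3 + 1 / 32 : ℝ) ≤ r ^ (4 : ℝ) :=
    Real.rpow_le_rpow_of_exponent_le h1 (by norm_num)
  have h4 : r ^ (4 : ℝ) = r ^ (4 : ℕ) := by
    rw [← Real.rpow_natCast]; norm_num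
  have h5 : r ^ (4 : ℕ) ≤ (5 / 4 : ℝ) ^ (4 : ℕ) := pow_le_pow_left₀ hr0.le h2 4
  have h6 : r ^ (3 + 1 / 32 : ℝ) ≤ 3 := by
    rw [h4] at h3
    have : (5 / 4 : ℝ) ^ (4 : ℕ) ≤ 3 := by norm_num
    linarith
  have h7 : 0 < r ^ (3 + 1 / 32 : ℝ) := Real.rpow_pos_of_pos hr0 _
  rw [one_div]
  exact inv_anti₀ h7 h6

private theorem phi_tail_aux (hP : Par p δ lam T) {om : ℝ → ℝ} (hom : CoreOK lam om) {r : ℝ}
    (hr : 1 ≤ r) :
    |phi om p δ lam T r| ≤
      (3 * lam + kap1 * T ^ 3 * lam / (pb p * iota)) * r ^ (-(3 + 1 / 32 : ℝ)) := by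
  have hr0 : 0 < r := by linarith
  have hl := lam_pos' hP
  have hpos : 0 < r ^ (-(3 + 1 / 32 : ℝ)) := Real.rpow_pos_of_pos hr0 _
  have h0 : om r = 0 := om_eq_zero hP hom hr
  have h1 := U0_nonneg (δ := δ) hl.le r
  have h4 := Atot_nonneg' hP r
  have h5 := Atot_tail hP.hp hl hP.hT hr0
  have h6 : U0 δ lam r ≤ 3 * lam * r ^ (-(3 + 1 / 32 : ℝ)) := by
    by_cases hb : r ≤ 5 / 4
    · have := rpow_lower hr hb
      have h1' := U0_le δ lam r
      nlinarith
    · have : U0 δ lam r = 0 := U0_eq_zero hP.hδ0 hl.le (by have := bb_lt; linarith)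
      rw [this]; positivity
  unfold phi
  rw [h0, abs_le, add_mul]
  have h7 : 0 ≤ 3 * lam * r ^ (-(3 + 1 / 32 : ℝ)) := by positivity
  have h8 : 0 ≤ kap1 * T ^ 3 * lam / (pb p * iota) * r ^ (-(3 + 1 / 32 : ℝ)) := le_trans h4 h5
  constructor <;> linarith

theorem phi_tail (hP : Par p δ lam T) {om : ℝ → ℝ} (hom : CoreOK lam om) :
    ∃ C : ℝ, ∀ r : ℝ, 1 ≤ r → |phi om p δ lam T r| ≤ C * r ^ (-(3 + 1 / 32 : ℝ)) :=
  ⟨_, fun _ hr => phi_tail_aux hP hom hr⟩

theorem phiC_locBdd (hP : Par p δ lam T) : ∀ a b : ℝ, 0 < a → a ≤ b →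
    ∃ M : ℝ, ∀ r : ℝ, a ≤ r → r ≤ b → |phi (omCore lam) p δ lam T r| ≤ M := by
  intro a b ha _
  refine ⟨lam + 1 / a + kap1 * lam / (pb p * iota), fun r har _ => ?_⟩
  have hl := lam_pos' hP
  have hr0 : 0 < r := lt_of_lt_of_le ha har
  have h1 := U0_nonneg (δ := δ) hl.le r
  have h1' := U0_le δ lam r
  have h3 := Atot_le hP.hp hl hP.hT r
  have h4 := Atot_nonneg' hP r
  have h5 := (coreOK_omCore lam).nonneg r
  have h6 : omCore lam r ≤ 1 / a := by
    unfold omCore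
    split_ifs with h
    · have h7 : 1 / r ≤ 1 / a := one_div_le_one_div_of_le ha har
      have h8 : 0 < 16 / s2 lam := div_pos (by norm_num) (s2_pos lam)
      linarith
    · positivity
  unfold phi
  rw [abs_le]
  constructor <;> linarith

theorem phiC_tendsto (hP : Par p δ lam T) :
    Tendsto (phi (omCore lam) p δ lam T) (nhdsWithin 0 (Set.Ioi 0)) atTop := by
  have hl := lam_pos' hP
  have hs := s2_pos lam
  have hbase : Tendsto (fun r : ℝ => r⁻¹ + (-(16 / s2 lam) - kap1 * lam / (pb p * iota)))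
      (nhdsWithin 0 (Set.Ioi 0)) atTop :=
    tendsto_atTop_add_const_right _ _ tendsto_inv_nhdsGT_zero
  refine tendsto_atTop_mono' _ ?_ hbase
  have hmem : Set.Ioo (0 : ℝ) (s2 lam / 16) ∈ nhdsWithin (0 : ℝ) (Set.Ioi 0) :=
    Ioo_mem_nhdsGT (by positivity)
  filter_upwards [hmem] with r hr
  have h1 := U0_nonneg (δ := δ) hl.le r
  have h3 := Atot_le hP.hp hl hP.hT r
  have h6 : omCore lam r = 1 / r - 16 / s2 lam := by
    unfold omCore
    rw [if_pos ⟨hr.1, hr.2⟩]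
  unfold phi
  rw [h6, one_div]
  linarith

/-- `φ ≤ -c_1 R_1^{-3}/2` on `[5R_1/8, 7R_1/8]` -/
theorem phi_neg (hP : Par p δ lam T) {om : ℝ → ℝ} (hom : CoreOK lam om) :
    ∃ r₁ r₂ a : ℝ, 0 < r₁ ∧ r₁ < r₂ ∧ 0 < a ∧ ∀ r : ℝ, r₁ ≤ r → r ≤ r₂ → phi om p δ lam T r ≤ -a := by
  have hl := lam_pos' hP
  have hT0 : 0 < T := by have := hP.hT; linarith
  have hT1 : 1 ≤ T := by have := hP.hT; linarith
  have hR : 0 < Rk T 1 := Rk_pos hT0 1
  have hRge : (2 : ℝ) ≤ Rk T 1 := by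
    have h1 := Rk_ge hT1 1
    have h2 : (12 : ℝ) ^ 32 ≤ T ^ 32 := pow_le_pow_left₀ (by norm_num) hP.hT 32
    have h3 : (2 : ℝ) ≤ (12 : ℝ) ^ 32 := by norm_num
    linarith
  have hc := ck_pos hP.hp hl hT0 1
  refine ⟨5 * Rk T 1 / 8, 7 * Rk T 1 / 8, ck p lam T 1 * (1 / 2 / (Rk T 1) ^ 3), by positivity,
    by linarith, by positivity, fun r h1 h2 => ?_⟩
  have hr1 : 1 ≤ r := by linarith
  have h0 : om r = 0 := om_eq_zero hP hom hr1
  have hU : U0 δ lam r = 0 := U0_eq_zero hP.hδ0 hl.le (by have := bb_lt; linarith)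
  have hA : Atot p lam T r = ck p lam T 1 * AR (Rk T 1) r :=
    Atot_eq hP.hp hl hP.hT le_rfl (by linarith) (by linarith)
  have hJ : (1 / 2 : ℝ) ≤ Jf (r / Rk T 1) := by
    unfold Jf
    apply le_max_of_le_right
    have ha : |r / Rk T 1 - 3 / 4| ≤ 1 / 8 := by
      rw [abs_le]
      constructor
      · rw [le_sub_iff_add_le, le_div_iff₀ hR]; linarith
      · rw [sub_le_iff_le_add, div_le_iff₀ hR]; linarith
    linarith
  have hAR : 1 / 2 / (Rk T 1) ^ 3 ≤ AR (Rk T 1) r := by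
    unfold AR
    exact div_le_div_of_nonneg_right hJ (by positivity)
  unfold phi
  rw [h0, hU, hA]
  have := mul_le_mul_of_nonneg_left hAR hc.le
  linarith

theorem phi_integrable_tail (hP : Par p δ lam T) {om : ℝ → ℝ} (hom : CoreOK lam om) :
    ∃ R : ℝ, 0 < R ∧ IntegrableOn (fun r : ℝ => r ^ 2 * |phi om p δ lam T r|) (Set.Ioi R) := by
  refine ⟨1, one_pos, ?_⟩
  set C : ℝ := 3 * lam + kap1 * T ^ 3 * lam / (pb p * iota) with hC
  have hint : IntegrableOn (fun r : ℝ => C * r ^ (-(1 + 1 / 32 : ℝ))) (Set.Ioi 1) :=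
    (integrableOn_Ioi_rpow_of_lt (by norm_num) one_pos).const_mul C
  refine Integrable.mono' hint ?_ ?_
  · exact ((measurable_id.pow_const 2).mul (phi_measurable hP hom).abs).aestronglyMeasurable
  · refine (ae_restrict_iff' measurableSet_Ioi).2 (Eventually.of_forall fun r hr => ?_)
    have hr1 : (1 : ℝ) < r := hr
    have hr0 : 0 < r := by linarith
    have h := phi_tail_aux hP hom hr1.le
    rw [Real.norm_eq_abs, abs_of_nonneg (by positivity)]
    have h2 : r ^ 2 * r ^ (-(3 + 1 / 32 : ℝ)) = r ^ (-(1 + 1 / 32 : ℝ)) := by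
      rw [← Real.rpow_natCast, ← Real.rpow_add hr0]
      norm_num
    calc r ^ 2 * |phi om p δ lam T r| ≤ r ^ 2 * (C * r ^ (-(3 + 1 / 32 : ℝ))) :=
          mul_le_mul_of_nonneg_left h (by positivity)
      _ = C * (r ^ 2 * r ^ (-(3 + 1 / 32 : ℝ))) := by ring
      _ = C * r ^ (-(1 + 1 / 32 : ℝ)) := by rw [h2]

theorem phi_r3 (hP : Par p δ lam T) {om : ℝ → ℝ} (hom : CoreOK lam om) :
    Tendsto (fun r : ℝ => r ^ 3 * phi om p δ lam T r) atTop (nhds 0) := by
  set C : ℝ := 3 * lam + kap1 * T ^ 3 * lam / (pb p * iota) with hC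
  have hlim : Tendsto (fun r : ℝ => C * r ^ (-(1 / 32 : ℝ))) atTop (nhds 0) := by
    have := (tendsto_rpow_neg_atTop (y := (1 / 32 : ℝ)) (by norm_num)).const_mul C
    simpa using this
  refine squeeze_zero_norm' ?_ hlim
  filter_upwards [eventually_ge_atTop (1 : ℝ)] with r hr1
  have hr0 : 0 < r := by linarith
  have h := phi_tail_aux hP hom hr1
  rw [Real.norm_eq_abs, abs_mul, abs_of_nonneg (by positivity : (0 : ℝ) ≤ r ^ 3)]
  have h2 : r ^ 3 * r ^ (-(3 + 1 / 32 : ℝ)) = r ^ (-(1 / 32 : ℝ)) := by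
    rw [← Real.rpow_natCast, ← Real.rpow_add hr0]
    norm_num
  calc r ^ 3 * |phi om p δ lam T r| ≤ r ^ 3 * (C * r ^ (-(3 + 1 / 32 : ℝ))) :=
        mul_le_mul_of_nonneg_left h (by positivity)
    _ = C * (r ^ 3 * r ^ (-(3 + 1 / 32 : ℝ))) := by ring
    _ = C * r ^ (-(1 / 32 : ℝ)) := by rw [h2]

end Crest.Agent.PT
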