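import Crest.Agent.PT_StabD

/-! Row 149, target of block A5 (co-architect helper98): stability (blueprint A5d). -/

set_option autoImplicit false

namespace Crest.Agent.PT

open MeasureTheory Crest.ProbabilityR.Continuum

variable {p δ lam T : ℝ}

/-- A5d with `σ = 2`. -/
theorem stab_two (hP : Par p δ lam T) {om : ℝ → ℝ} (hom : CoreOK lam om) (N : ℕ) (x : Fin N → Pt) :
    -(lam * N) ≤ energy (fun r => U0 δ lam r + om r - 2 * Atot p lam T r) x :=
  stab_Atot hP hom (c := 2) (by norm_num) le_rfl x

/-- stability of the potential, `B = λ`. -/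
theorem stab_phi (hP : Par p δ lam T) {om : ℝ → ℝ} (hom : CoreOK lam om) (N : ℕ) (x : Fin N → Pt) :
    -(lam * N) ≤ energy (phi om p δ lam T) x := by
  have h := stab_Atot hP hom (c := 1) (by norm_num) (by norm_num) x
  have e : (fun r => Uf om δ lam r - 1 * Atot p lam T r) = phi om p δ lam T := by
    funext r
    simp [phi, Uf]
  rwa [e] at h

end Crest.Agent.PT
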