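import Crest.Agent.PT_Thermo2
import Crest.Agent.PT_Side
import Crest.Agent.PT_StabFinal
import Crest.Agent.PT_Easy
import Crest.Agent.PT_Add
import Crest.Agent.PT_Basic

/-! Row 149, task TI1: the potential `phi` satisfies F1–F5, hence the thermodynamic limit exists (blueprint §C). -/

set_option autoImplicit false

namespace Crest.Agent.PT

open Filter MeasureTheory Crest.ProbabilityR.Continuum

variable {p δ lam T : ℝ}

theorem TI_partitionFn_pos {φ : ℝ → ℝ} (hφ : Measurable φ) {c : ℝ} (hc : ∀ r, -c ≤ φ r) {β : ℝ}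
    (hβ : 0 ≤ β) {L : ℝ} (hL : 0 < L) (N : ℕ) : 0 < partitionFn φ L N β := by
  rw [partitionFn_eq_ZW]
  refine ZW_pos (adm_radW hφ hc hβ) (reg_cube L) ?_ N
  rw [vol_cube hL.le]
  positivity

/-- F4: stable potential, `N! ≥ (N/e)^N`. -/
theorem log_partitionFn_le {φ : ℝ → ℝ} (hφ : Measurable φ) {c : ℝ} (hc : ∀ r, -c ≤ φ r) {B : ℝ}
    (hB : ∀ (N : ℕ) (x : Fin N → Pt), -(B * N) ≤ energy φ x) {β : ℝ} (hβ : 0 ≤ β) {L : ℝ}
    (hL : 0 < L) (N : ℕ) :
    Real.log (partitionFn φ L N β) ≤ β * B * N + N * Real.log (Real.exp 1 * L ^ 3 / N) := by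
  rcases Nat.eq_zero_or_pos N with rfl | hN
  · rw [partitionFn_eq_ZW, ZW_zero]
    simp
  have hN0 : (0 : ℝ) < N := by exact_mod_cast hN
  have hL3 : 0 < L ^ 3 := by positivity
  have hpos := TI_partitionFn_pos hφ hc hβ hL N
  have h1 : partitionFn φ L N β ≤ Real.exp (β * B * N) * (L ^ 3) ^ N / (Nat.factorial N : ℝ) := by
    rw [partitionFn_eq_ZW, ← vol_cube hL.le]
    refine ZW_le_of_lower (adm_radW hφ hc hβ) (reg_cube L) N _ (fun x _ => ?_)
    rw [energyW_radW]
    have := mul_le_mul_of_nonneg_left (hB N x) hβ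
    linarith
  have hfac : (0 : ℝ) < (Nat.factorial N : ℝ) := by exact_mod_cast Nat.factorial_pos N
  have h2 : (N : ℝ) ^ N / (Nat.factorial N : ℝ) ≤ Real.exp N :=
    Real.pow_div_factorial_le_exp (N : ℝ) hN0.le N
  have h3 : 1 / (Nat.factorial N : ℝ) ≤ Real.exp N / (N : ℝ) ^ N := by
    rw [div_le_div_iff₀ hfac (by positivity)]
    rw [div_le_iff₀ hfac] at h2
    linarith
  have h4 : partitionFn φ L N β ≤ Real.exp (β * B * N) * (L ^ 3) ^ N * (Real.exp N / (N : ℝ) ^ N) := by
    refine h1.trans ?_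
    rw [div_eq_mul_one_div]
    exact mul_le_mul_of_nonneg_left h3 (by positivity)
  have h5 := Real.log_le_log hpos h4
  refine h5.trans (le_of_eq ?_)
  have e1 : Real.exp (β * B * N) ≠ 0 := (Real.exp_pos _).ne'
  have e2 : (L ^ 3) ^ N ≠ 0 := by positivity
  have e3 : Real.exp (N : ℝ) ≠ 0 := (Real.exp_pos _).ne'
  have e4 : (N : ℝ) ^ N ≠ 0 := by positivity
  rw [Real.log_mul (mul_ne_zero e1 e2) (div_ne_zero e3 e4), Real.log_mul e1 e2, Real.log_exp,
    Real.log_div e3 e4, Real.log_exp, Real.log_pow (L ^ 3) N, Real.log_pow (N : ℝ) N,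
    Real.log_div (mul_ne_zero (Real.exp_pos 1).ne' hL3.ne') hN0.ne',
    Real.log_mul (Real.exp_pos 1).ne' hL3.ne', Real.log_exp]
  ring

private theorem ti_Atot_nonneg (hP : Par p δ lam T) (r : ℝ) : 0 ≤ Atot p lam T r := by
  rw [Atot_eq_Age]
  exact Age_nonneg hP.hp (by linarith [hP.hlam]) hP.hT 1 r

private theorem ti_prod_ite {ι : Type*} [Fintype ι] [DecidableEq ι] (M : ℕ) (e : ι ≃ Fin M) (j : ℕ)
    (hj : j ≤ M) (a b : ℝ) :
    ∏ α : ι, (if ((e α : Fin M) : ℕ) < j then a else b) = a ^ j * b ^ (M - j) := by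
  rw [← e.symm.prod_comp]
  simp only [Equiv.apply_symm_apply]
  rw [Fin.prod_univ_eq_prod_range (fun i => if i < j then a else b) M]
  rw [Finset.prod_ite]
  have h1 : (Finset.range M).filter (fun i => i < j) = Finset.range j := by
    ext i; simp only [Finset.mem_filter, Finset.mem_range]; omega
  have h2 : ((Finset.range M).filter (fun i => ¬ i < j)).card = M - j := by
    have h3 := Finset.card_filter_add_card_filter_not (s := Finset.range M) (fun i => i < j)
    rw [h1] at h3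
    simp only [Finset.card_range] at h3
    omega
  rw [h1, Finset.prod_const, Finset.prod_const, h2, Finset.card_range]

private theorem ti_sum_ite {ι : Type*} [Fintype ι] [DecidableEq ι] (M : ℕ) (e : ι ≃ Fin M) (j : ℕ)
    (hj : j ≤ M) (a b : ℕ) :
    ∑ α : ι, (if ((e α : Fin M) : ℕ) < j then a else b) = j * a + (M - j) * b := by
  rw [← e.symm.sum_comp]
  simp only [Equiv.apply_symm_apply]
  rw [Fin.sum_univ_eq_sum_range (fun i => if i < j then a else b) M]
  rw [Finset.sum_ite]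
  have h1 : (Finset.range M).filter (fun i => i < j) = Finset.range j := by
    ext i; simp only [Finset.mem_filter, Finset.mem_range]; omega
  have h2 : ((Finset.range M).filter (fun i => ¬ i < j)).card = M - j := by
    have h3 := Finset.card_filter_add_card_filter_not (s := Finset.range M) (fun i => i < j)
    rw [h1] at h3
    simp only [Finset.card_range] at h3
    omega
  rw [h1, Finset.sum_const, Finset.sum_const, h2, Finset.card_range]
  simp

/-- F1–F5 for `phi`.  (F2: `easy_bound` with `As = Atot`, `Al = 0`, `γ = 0`; F3: `add_particle` with `q = U0 + om`.) -/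
theorem thermoHyp_phi (hP : Par p δ lam T) {om : ℝ → ℝ} (hom : CoreOK lam om) {β : ℝ} (hβ : 0 < β) :
    ThermoHyp (fun L N => Real.log (partitionFn (phi om p δ lam T) L N β)) bb
      (2 * β * ∫ y : Pt, (U0 δ lam ‖y‖ + om ‖y‖)) (β * lam) := by
  have hlam : 0 < lam := by linarith [hP.hlam]
  have hφ := phi_measurable hP hom
  have hc := phi_lower hP hom
  have hU0 : ∀ r, 0 ≤ U0 δ lam r + om r := fun r =>
    add_nonneg (U0_nonneg hlam.le r) (hom.nonneg r)
  have hUm : Measurable (fun r => U0 δ lam r + om r) :=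
    (continuous_U0 δ lam).measurable.add hom.meas
  have hpos : ∀ {L : ℝ}, 0 < L → ∀ N, 0 < partitionFn (phi om p δ lam T) L N β :=
    fun hL N => TI_partitionFn_pos hφ hc hβ.le hL N
  refine ⟨bb_pos, ?_, by positivity, ?_, ?_, ?_, ?_, ?_⟩
  · have : 0 ≤ ∫ y : Pt, (U0 δ lam ‖y‖ + om ‖y‖) := integral_nonneg (fun y => hU0 _)
    positivity
  · intro N L L' hL hLL
    exact Real.log_le_log (hpos hL N) (partitionFn_mono_L hφ hc hβ.le hLL N)
  · intro ℓ hℓ m j n₁ n₂ hj
    classical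
    have hcard : Fintype.card (Fin 3 → Fin m) = m ^ 3 := by simp
    let e : (Fin 3 → Fin m) ≃ Fin (m ^ 3) := Fintype.equivFinOfCardEq hcard
    have hA0 := ti_Atot_nonneg hP
    have hAle := Atot_le hP.hp hlam hP.hT (p := p) (lam := lam) (T := T)
    have ha0 : 0 ≤ kap1 * lam / (pb p * iota) := (hA0 0).trans (hAle 0)
    have hUb : ∀ r, bb ≤ r → U0 δ lam r + om r = 0 := by
      intro r hr
      rw [U0_eq_zero hP.hδ0 hlam.le hr, hom.supp r ?_, add_zero]
      have h1 := hP.hs2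
      have h2 := s2_pos lam
      have h3 := bb_pos
      have h4 : δ * bb ≤ 1 * bb := mul_le_mul_of_nonneg_right (by linarith [hP.hδ1]) h3.le
      linarith
    have hmain := easy_bound (U := fun r => U0 δ lam r + om r) (As := Atot p lam T)
      (Al := fun _ => 0) hUm hU0 (continuous_Atot hP.hp hlam hP.hT).measurable hA0
      measurable_const (fun _ => le_rfl) hAle (fun _ => ha0) bb_pos hUb hℓ m
      (fun α => if ((e α : Fin (m ^ 3)) : ℕ) < j then n₁ else n₂) (fun _ => 0)
      (fun _ _ => le_rfl) hβ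
    have hf1 : (fun r => U0 δ lam r + om r - Atot p lam T r) = phi om p δ lam T := rfl
    have hf2 : (fun r => U0 δ lam r + om r - Atot p lam T r - 0) = phi om p δ lam T := by
      funext r; simp [phi]
    simp only [zero_mul, Finset.sum_const_zero, mul_zero, Real.exp_zero, mul_one] at hmain
    rw [hf1, hf2, ti_sum_ite (m ^ 3) e j hj] at hmain
    have hprod : ∏ α : Fin 3 → Fin m, partitionFn (phi om p δ lam T) ℓ
        (if ((e α : Fin (m ^ 3)) : ℕ) < j then n₁ else n₂) β
        = partitionFn (phi om p δ lam T) ℓ n₁ β ^ j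
          * partitionFn (phi om p δ lam T) ℓ n₂ β ^ (m ^ 3 - j) := by
      rw [← ti_prod_ite (m ^ 3) e j hj]
      refine Finset.prod_congr rfl (fun α _ => ?_)
      split_ifs <;> rfl
    rw [hprod] at hmain
    have hp1 := hpos hℓ n₁
    have hp2 := hpos hℓ n₂
    have hlog := Real.log_le_log (by positivity) hmain
    rw [Real.log_mul (by positivity) (by positivity), Real.log_pow, Real.log_pow] at hlog
    have hcast : ((m ^ 3 - j : ℕ) : ℝ) = (m : ℝ) ^ 3 - j := by
      rw [Nat.cast_sub hj]; push_cast; ring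
    rw [hcast] at hlog
    exact hlog
  · intro L hL N
    have hint : Integrable (fun y : Pt => U0 δ lam ‖y‖ + om ‖y‖) :=
      (integrable_U0 hP.hδ0 hlam.le).add hom.integ
    have hmain := add_particle hφ hc hUm hU0 (fun r => by
      have := ti_Atot_nonneg hP r
      show U0 δ lam r + om r - Atot p lam T r ≤ U0 δ lam r + om r
      linarith) hint hL N hβ
    have hp1 := hpos hL N
    have hL3 : 0 < L ^ 3 := by positivity
    have hq : 0 < L ^ 3 / (2 * ((N : ℝ) + 1)) := by positivity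
    have hlog := Real.log_le_log (by positivity) hmain
    rw [Real.log_mul (by positivity) (Real.exp_pos _).ne', Real.log_mul hp1.ne' hq.ne',
      Real.log_exp] at hlog
    refine le_trans (le_of_eq ?_) hlog
    ring
  · intro L hL N
    exact log_partitionFn_le hφ hc (fun N x => stab_phi hP hom N x) hβ.le hL N
  · intro L
    show Real.log (partitionFn (phi om p δ lam T) L 0 β) = 0
    rw [partitionFn_eq_ZW, ZW_zero, Real.log_one]

theorem tendsto_Gf (hP : Par p δ lam T) {om : ℝ → ℝ} (hom : CoreOK lam om) {β : ℝ} (hβ : 0 < β)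
    {ρ : ℝ} (hρ : 0 ≤ ρ) :
    Tendsto (fun L : ℝ => Real.log (partitionFn (phi om p δ lam T) L ⌊ρ * L ^ 3⌋₊ β) / L ^ 3) atTop
      (nhds (-(Gf (phi om p δ lam T) β ρ))) := by
  obtain ⟨a, ha⟩ := thermo_limit (thermoHyp_phi hP hom hβ) hρ
  have : -(Gf (phi om p δ lam T) β ρ) = a := by
    unfold Gf
    rw [neg_neg]
    exact ha.limUnder_eq
  rw [this]
  exact ha

/-- the form in which S0209/S0210 want it -/
theorem tendsto_freeEnergy (hP : Par p δ lam T) {om : ℝ → ℝ} (hom : CoreOK lam om) {β : ℝ}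
    (hβ : 0 < β) {ρ : ℝ} (hρ : 0 ≤ ρ) :
    Tendsto (fun L : ℝ => -(1 / (β * L ^ 3)) *
        Real.log (partitionFn (phi om p δ lam T) L ⌊ρ * L ^ 3⌋₊ β)) atTop
      (nhds (Gf (phi om p δ lam T) β ρ / β)) := by
  have h := (tendsto_Gf hP hom hβ hρ).const_mul (-(1 / β))
  have e : -(1 / β) * -(Gf (phi om p δ lam T) β ρ) = Gf (phi om p δ lam T) β ρ / β := by ring
  rw [e] at h
  refine h.congr (fun L => ?_)
  rw [one_div, one_div, mul_inv]
  ring

theorem Gf_convex_rho (hP : Par p δ lam T) {om : ℝ → ℝ} (hom : CoreOK lam om) {β : ℝ} (hβ : 0 < β) :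
    ConvexOn ℝ (Set.Ici 0) (fun ρ => Gf (phi om p δ lam T) β ρ) := by
  have h := thermo_concave (thermoHyp_phi hP hom hβ) (fun ρ => -(Gf (phi om p δ lam T) β ρ))
    (fun ρ hρ => tendsto_Gf hP hom hβ hρ)
  have h2 := h.neg
  have e : (-fun ρ => -(Gf (phi om p δ lam T) β ρ)) = fun ρ => Gf (phi om p δ lam T) β ρ := by
    funext ρ; simp
  rwa [e] at h2

theorem Gf_zero (hP : Par p δ lam T) {om : ℝ → ℝ} (hom : CoreOK lam om) {β : ℝ} (hβ : 0 < β) :
    Gf (phi om p δ lam T) β 0 = 0 := by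
  have h := (thermo_bounds (thermoHyp_phi hP hom hβ) (fun ρ => -(Gf (phi om p δ lam T) β ρ))
    (fun ρ hρ => tendsto_Gf hP hom hβ hρ)).1
  simpa using h

/-- `G(β,ρ) ≥ -(βλρ + ρ log(e/ρ)) ≥ -(βλρ + 1)` -/
theorem Gf_lower (hP : Par p δ lam T) {om : ℝ → ℝ} (hom : CoreOK lam om) {β : ℝ} (hβ : 0 < β)
    {ρ : ℝ} (hρ : 0 ≤ ρ) : -(β * lam * ρ + 1) ≤ Gf (phi om p δ lam T) β ρ := by
  rcases hρ.eq_or_lt with rfl | hρ
  · rw [Gf_zero hP hom hβ]; simp
  have h := (thermo_bounds (thermoHyp_phi hP hom hβ) (fun ρ => -(Gf (phi om p δ lam T) β ρ))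
    (fun ρ hρ => tendsto_Gf hP hom hβ hρ)).2 ρ hρ
  have h1 : ρ * Real.log (Real.exp 1 / ρ) ≤ 1 := by
    rw [Real.log_div (Real.exp_pos 1).ne' hρ.ne', Real.log_exp]
    have h2 := Real.log_le_sub_one_of_pos (inv_pos.mpr hρ)
    rw [Real.log_inv] at h2
    have h3 := mul_le_mul_of_nonneg_left h2 hρ.le
    have h4 : ρ * (ρ⁻¹ - 1) = 1 - ρ := by field_simp
    rw [h4] at h3
    linarith
  linarith

end Crest.Agent.PT
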