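import Crest.Agent.PT_PotDefs
import Crest.Agent.PT_Iter
import Crest.Agent.PT_LP
import Crest.Agent.PT_MId
import Crest.Agent.PT_ThermoInst

/-! Row 149, targets of block A8: the M-identity and the Lebowitz–Penrose step (blueprint §1 (M-id), A8). -/

set_option autoImplicit false

namespace Crest.Agent.PT

open MeasureTheory Crest.ProbabilityR.Continuum

/-- (M-id) -/
theorem isM_FkM (om : ℝ → ℝ) (p δ lam T : ℝ) (k : ℕ) {κ : ℝ} (hκ : 0 ≤ κ) :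
    IsM κ (Ngrid p T k) (Fk om p δ lam T k) (FkM om p δ lam T k κ) :=
  isM_FkM_aux om p δ lam T k hκ

/-- A8: `C` does not depend on `T`, `k`. -/
theorem LP_step {p δ lam : ℝ} (hp : 1 ≤ p) (hδ0 : 0 < δ) (hδ1 : δ ≤ 1 / 100) (hlam : 10 ≤ lam)
    (hs2 : s2 lam ≤ δ * bb) {om : ℝ → ℝ} (hom : CoreOK lam om) :
    ∃ C T0 : ℝ, ∀ T, T0 ≤ T → Par p δ lam T → ∀ k : ℕ, 1 ≤ k → ∀ z ∈ Rg,
      |Fk om p δ lam T (k + 1) z - FkM om p δ lam T k (kap T k) z| ≤ C / Rk T (k - 1) ∧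
      |Phat (phi om p δ lam T) p lam z - FkM om p δ lam T k (Kap T k) z| ≤ C / Rk T (k - 1) := by
  refine ⟨CLP, 0, fun T _ hP k hk z hz => ?_⟩
  exact LP_main ⟨hP, hom, hP.hiota⟩
    (fun β hβ _ ρ hρ => tendsto_Gf hP hom (by linarith) hρ) hk hz

end Crest.Agent.PT
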