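import Crest.Agent.PT_StabC
import Crest.Agent.PT_Basic

/-! Row 149, task A5d: stability (blueprint A5(d), second half of A7). -/

set_option autoImplicit false

namespace Crest.Agent.PT

open MeasureTheory Crest.ProbabilityR.Continuum

variable {p δ lam T : ℝ} {om : ℝ → ℝ}

/-- Hint: `Kap_le`, `kap_one`, `kap1 = 1/1000000`. -/
theorem Kap_one_le (hT : 12 ≤ T) : Kap T 1 ≤ 2 / 1000000 := by
  have h := Kap_le hT (le_refl 1)
  rw [kap_one (by linarith)] at h
  unfold kap1 at h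
  linarith

theorem Kap_le_two (hT : 12 ≤ T) {k : ℕ} (hk : 1 ≤ k) : Kap T k ≤ 2 / 1000000 := by
  have h := Kap_le hT hk
  have h2 := kap_le_kap1 hT hk
  unfold kap1 at h2
  linarith

/-- Hint: `Atot_eq_Age`, `energy_Age_le` with `k = 1`, `Q = 2 (4E[U] + λN/2)`, `energy_ckAR_le`. -/
theorem energy_Atot_le (hP : Par p δ lam T) (hom : CoreOK lam om) {N : ℕ} (x : Fin N → Pt) :
    energy (Atot p lam T) x ≤ Kap T 1 * (2 * (4 * energy (Uf om δ lam) x + lam * N / 2)) := by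
  have hlam : 0 < lam := by linarith [hP.hlam]
  have e : Atot p lam T = Age p lam T 1 := funext (fun r => Atot_eq_Age p lam T r)
  rw [e]
  exact energy_Age_le hP.hp hlam hP.hT 1 x _ (fun j hj => energy_ckAR_le hP hom hj x)

private theorem sd_Atot_nonneg (hP : Par p δ lam T) (r : ℝ) : 0 ≤ Atot p lam T r := by
  rw [Atot_eq_Age]
  exact Age_nonneg hP.hp (by linarith [hP.hlam]) hP.hT 1 r

private theorem sd_Alt_le_Atot (hP : Par p δ lam T) (k : ℕ) (r : ℝ) :
    Alt p lam T k r ≤ Atot p lam T r := by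
  have hlam : 0 < lam := by linarith [hP.hlam]
  rcases Nat.eq_zero_or_pos k with rfl | hk
  · have : Alt p lam T 0 r = 0 := by simp [Alt]
    rw [this]
    exact sd_Atot_nonneg hP r
  · rw [Atot_split hP.hp hlam hP.hT hk r]
    have := Age_nonneg hP.hp hlam hP.hT k r
    linarith

/-- Hint: `Alt k ≤ Atot` pointwise (`Atot_split`, `Age_nonneg`; `Alt 0 = 0`), `energy_mono`. -/
theorem energy_Alt_le (hP : Par p δ lam T) (hom : CoreOK lam om) (k : ℕ) {N : ℕ} (x : Fin N → Pt) :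
    energy (Alt p lam T k) x ≤ Kap T 1 * (2 * (4 * energy (Uf om δ lam) x + lam * N / 2)) :=
  (energy_mono (fun r _ => sd_Alt_le_Atot hP k r) x).trans (energy_Atot_le hP hom x)

/-- hypothesis `hS` of `hard_bound` for `Al = c_k A_{R_k}`.  Hint: `energy_smul`, `energy_ckAR_le_sc` with `j = k`. -/
theorem energy_step_le (hP : Par p δ lam T) {k : ℕ} (hk : 1 ≤ k) (t : Pt) (N : ℕ) (x : Fin N → Pt) :
    energy (fun r => ck p lam T k * AR (Rk T k) r) x ≤
      Sk p lam T k (kap T k) / 2 * ((N : ℝ) + 2 * sc (lk T k) t x) := by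
  rw [energy_smul]
  refine (energy_ckAR_le_sc hP hk le_rfl t x).trans (le_of_eq ?_)
  unfold Sk
  ring

/-- hypothesis `hS` of `hard_bound` for `Al = A_{≥k}`.  Hint: `energy_Age_le`, `energy_ckAR_le_sc`. -/
theorem energy_Age_le_sc (hP : Par p δ lam T) {k : ℕ} (hk : 1 ≤ k) (t : Pt) (N : ℕ) (x : Fin N → Pt) :
    energy (Age p lam T k) x ≤ Sk p lam T k (Kap T k) / 2 * ((N : ℝ) + 2 * sc (lk T k) t x) := by
  have hlam : 0 < lam := by linarith [hP.hlam]
  refine (energy_Age_le hP.hp hlam hP.hT k x _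
    (fun j hj => energy_ckAR_le_sc hP hk hj t x)).trans (le_of_eq ?_)
  unfold Sk
  ring

private theorem sd_arith {E A K c lam n : ℝ} (hE : 0 ≤ E) (hlam : 0 ≤ lam) (hn : 0 ≤ n)
    (hK0 : 0 ≤ K) (hK : K ≤ 2 / 1000000) (hc0 : 0 ≤ c) (hc2 : c ≤ 2)
    (hA : A ≤ K * (2 * (4 * E + lam * n / 2))) : -(lam * n) ≤ E - c * A := by
  have hQ : 0 ≤ 2 * (4 * E + lam * n / 2) := by positivity
  have h1 : A ≤ 2 / 1000000 * (2 * (4 * E + lam * n / 2)) :=
    hA.trans (mul_le_mul_of_nonneg_right hK hQ)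
  have h2 : c * A ≤ c * (2 / 1000000 * (2 * (4 * E + lam * n / 2))) :=
    mul_le_mul_of_nonneg_left h1 hc0
  have h3 : c * (2 / 1000000 * (2 * (4 * E + lam * n / 2)))
      ≤ 2 * (2 / 1000000 * (2 * (4 * E + lam * n / 2))) :=
    mul_le_mul_of_nonneg_right hc2 (by positivity)
  have h4 : 0 ≤ lam * n := by positivity
  linarith

/-- A5(d).  Hint: `energy_sub`, `energy_smul`, `energy_Atot_le`, `Kap_one_le`, `E[U] ≥ 0`:
`E[U] - c K_1 (8 E[U] + λ N) ≥ -λN`. -/
theorem stab_Atot (hP : Par p δ lam T) (hom : CoreOK lam om) {c : ℝ} (hc0 : 0 ≤ c) (hc2 : c ≤ 2) {N : ℕ}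
    (x : Fin N → Pt) :
    -(lam * N) ≤ energy (fun r => Uf om δ lam r - c * Atot p lam T r) x := by
  have hlam : 0 < lam := by linarith [hP.hlam]
  rw [energy_sub (Uf om δ lam) (fun r => c * Atot p lam T r), energy_smul]
  exact sd_arith (energy_nonneg (fun r _ => Uf_nonneg hlam.le hom r) x) hlam.le (Nat.cast_nonneg N)
    (Kap_pos hP.hT 1).le (Kap_one_le hP.hT) hc0 hc2 (energy_Atot_le hP hom x)

theorem stab_Alt (hP : Par p δ lam T) (hom : CoreOK lam om) (k : ℕ) {c : ℝ} (hc0 : 0 ≤ c) (hc2 : c ≤ 2)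
    {N : ℕ} (x : Fin N → Pt) :
    -(lam * N) ≤ energy (fun r => Uf om δ lam r - c * Alt p lam T k r) x := by
  have hlam : 0 < lam := by linarith [hP.hlam]
  rw [energy_sub (Uf om δ lam) (fun r => c * Alt p lam T k r), energy_smul]
  exact sd_arith (energy_nonneg (fun r _ => Uf_nonneg hlam.le hom r) x) hlam.le (Nat.cast_nonneg N)
    (Kap_pos hP.hT 1).le (Kap_one_le hP.hT) hc0 hc2 (energy_Alt_le hP hom k x)

theorem Alt_le (hP : Par p δ lam T) (k : ℕ) (r : ℝ) : Alt p lam T k r ≤ kap1 * lam / (pb p * iota) :=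
  (sd_Alt_le_Atot hP k r).trans (Atot_le hP.hp (by linarith [hP.hlam]) hP.hT r)

theorem Age_le (hP : Par p δ lam T) {k : ℕ} (hk : 1 ≤ k) (r : ℝ) :
    Age p lam T k r ≤ kap1 * lam / (pb p * iota) := by
  have hlam : 0 < lam := by linarith [hP.hlam]
  refine le_trans ?_ (Atot_le hP.hp hlam hP.hT r)
  rw [Atot_split hP.hp hlam hP.hT hk r]
  have := Alt_nonneg hP.hp hlam hP.hT k r
  linarith

theorem measurable_UfAlt (hom : CoreOK lam om) (k : ℕ) (c : ℝ) :
    Measurable (fun r => Uf om δ lam r - c * Alt p lam T k r) :=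
  (measurable_Uf hom).sub ((continuous_Alt p lam T k).measurable.const_mul c)

theorem UfAlt_lower (hP : Par p δ lam T) (hom : CoreOK lam om) (k : ℕ) {c : ℝ} (hc0 : 0 ≤ c) (r : ℝ) :
    -(c * (kap1 * lam / (pb p * iota))) ≤ Uf om δ lam r - c * Alt p lam T k r := by
  have hlam : 0 < lam := by linarith [hP.hlam]
  have h1 := Uf_nonneg (δ := δ) hlam.le hom r
  have h2 := mul_le_mul_of_nonneg_left (Alt_le hP k r) hc0
  linarith

/-- A7, second half.  Hint: `partitionFn_eq_ZW`, `ZW_le_of_lower` (with `adm_radW`, `reg_cube`, `vol_cube`, `energyW_radW`)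
and `stab_Alt`: `-(β λ n) ≤ β E`. -/
theorem partitionFn_Alt_le (hP : Par p δ lam T) (hom : CoreOK lam om) (k : ℕ) {c : ℝ} (hc0 : 0 ≤ c)
    (hc2 : c ≤ 2) {L : ℝ} (hL : 0 ≤ L) (n : ℕ) {β : ℝ} (hβ : 0 ≤ β) :
    partitionFn (fun r => Uf om δ lam r - c * Alt p lam T k r) L n β ≤
      Real.exp (β * lam * n) * (L ^ 3) ^ n / (Nat.factorial n : ℝ) := by
  rw [partitionFn_eq_ZW, ← vol_cube hL]
  refine ZW_le_of_lower (adm_radW (measurable_UfAlt hom k c) (UfAlt_lower hP hom k hc0) hβ)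
    (reg_cube L) n _ (fun x _ => ?_)
  rw [energyW_radW]
  have := mul_le_mul_of_nonneg_left (stab_Alt hP hom k hc0 hc2 x) hβ
  linarith

/-- Hint: `partitionFn_Alt_le`, `Real.pow_div_factorial_le_exp`. -/
theorem partitionFn_Alt_le' (hP : Par p δ lam T) (hom : CoreOK lam om) (k : ℕ) {c : ℝ} (hc0 : 0 ≤ c)
    (hc2 : c ≤ 2) {L : ℝ} (hL : 0 ≤ L) (n : ℕ) {β : ℝ} (hβ : 0 ≤ β) :
    partitionFn (fun r => Uf om δ lam r - c * Alt p lam T k r) L n β ≤
      Real.exp (β * lam * n + L ^ 3) := by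
  refine (partitionFn_Alt_le hP hom k hc0 hc2 hL n hβ).trans ?_
  rw [Real.exp_add, mul_div_assoc]
  exact mul_le_mul_of_nonneg_left (Real.pow_div_factorial_le_exp (L ^ 3) (by positivity) n)
    (Real.exp_pos _).le

end Crest.Agent.PT
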