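import Crest.Agent.PT_LPNum
import Crest.Agent.PT_StabD

/-! Row 149, task LP0: the hypotheses `hS` of `hard_bound` for the two long-range parts (blueprint A2 at mesh `ℓ_k`). -/

set_option autoImplicit false

namespace Crest.Agent.PT

open MeasureTheory Crest.ProbabilityR.Continuum

/-- (St4a) `hS` of `hard_bound` for `Al = c_k A_{R_k}`, mesh `ℓ_k`. -/
theorem St4a {om : ℝ → ℝ} {p δ lam T : ℝ} (h : LPHyp om p δ lam T) {k : ℕ} (hk : 1 ≤ k)
    (t : Pt) (N : ℕ) (x : Fin N → Pt) :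
    energy (fun r => ck p lam T k * AR (Rk T k) r) x ≤
      SS p lam T k (kap T k) / 2 * ((N : ℝ) + 2 * sc (lk T k) t x) :=
  energy_step_le h.par hk t N x

/-- (St4b) `hS` of `hard_bound` for `Al = A_{≥k}`, mesh `ℓ_k`. -/
theorem St4b {om : ℝ → ℝ} {p δ lam T : ℝ} (h : LPHyp om p δ lam T) {k : ℕ} (hk : 1 ≤ k)
    (t : Pt) (N : ℕ) (x : Fin N → Pt) :
    energy (Age p lam T k) x ≤
      SS p lam T k (Kap T k) / 2 * ((N : ℝ) + 2 * sc (lk T k) t x) :=
  energy_Age_le_sc h.par hk t N x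

end Crest.Agent.PT
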