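import Crest.Agent.PT_LPY
import Crest.Agent.PT_LPSchur
import Crest.Agent.PT_Hard

/-! Row 149, task LP5: `hard_bound` + (Y) in logarithmic form, for `φ_{k+1}` (coupling `κ_k`) and for `φ` (coupling `K_k`). -/

set_option autoImplicit false

namespace Crest.Agent.PT

open MeasureTheory Crest.ProbabilityR.Continuum

private theorem hard_log_aux {om : ℝ → ℝ} {p δ lam T : ℝ} (h : LPHyp om p δ lam T) {k : ℕ}
    (hk : 1 ≤ k) {z : ℝ × ℝ} (hz : InRg z) {L : ℝ} (hL : 0 < L) (N : ℕ)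
    {Al : ℝ → ℝ} (hAl : Measurable Al) (hAl0 : ∀ r, 0 ≤ Al r)
    (hAla : ∀ r, Al r ≤ kap1 * lam / (pb p * iota))
    {kk : ℝ} (hkk0 : 0 ≤ kk) (hkk : kk ≤ 4 / 1000000)
    (hS : ∀ (t : Pt) (N : ℕ) (x : Fin N → Pt),
      energy Al x ≤ SS p lam T k kk / 2 * ((N : ℝ) + 2 * sc (lk T k) t x))
    {φ : ℝ → ℝ} (hφ : φ = fun r => (U0 δ lam r + om r) - Alt p lam T k r - Al r)
    (hφm : Measurable φ) {c : ℝ} (hφl : ∀ r, -c ≤ φ r) :
    lam * z.2 * N + Real.log (partitionFn φ L N z.1) ≤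
      ((⌈L / lk T k⌉₊ : ℝ) + 1) ^ 3 * (Real.log ((Nmax p T k : ℝ) + 2) +
        lam * (pb p * (lk T k) ^ 3) * (FkM om p δ lam T k kk z + C1 / Rk T (k - 1))) := by
  have hT : 12 ≤ T := h.par.hT
  have hT0 : 0 < T := by linarith
  have hlam : 0 < lam := by linarith [h.par.hlam]
  have hβ : 0 < z.1 := by linarith [hz.1.1]
  have hb := hard_bound h.measurable_U h.U_nonneg (continuous_Alt p lam T k).measurable
    (Alt_nonneg h.par.hp hlam hT k) hAl hAl0 (h.Alt_le hk) hAla (lk_pos hT0 k) (Mk T k)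
    (Mk_bounds hT k).1 (Alt_supp hT hk) (SS_nonneg h k hkk0) hS hβ (lam * z.2) hL N
    (Y_bound h hk hkk0 hkk hz N)
  have hP : 0 < partitionFn φ L N z.1 := partitionFn_pos hφm hφl hL N hβ.le
  rw [← hφ] at hb
  have hlog := Real.log_le_log (mul_pos (Real.exp_pos _) hP) hb
  have hN2 : (0 : ℝ) < (Nmax p T k : ℝ) + 2 := by positivity
  rw [Real.log_mul (Real.exp_pos _).ne' hP.ne', Real.log_exp, Real.log_pow,
    Real.log_mul hN2.ne' (Real.exp_pos _).ne', Real.log_exp] at hlog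
  push_cast at hlog
  exact hlog

/-- `hard_bound` with `U = U0+om`, `As = Alt k`, `Al = c_k A_{R_k}`, `a = κ_1λ/(p_bι)`, `h = ℓ_k`, `M = Mk T k`
(`Mk_bounds`, `Alt_supp`), `S = SS (kap T k)` (`St4a`, `SS_nonneg`), `ν := lam * z.2`, `Y` from `Y_bound`
(`sg` unfolds to the `σ` of `hard_bound`); `phik_succ_eq`; take `Real.log` (`partitionFn_pos`, `Real.log_pow`, `Real.log_mul`, `Real.log_exp`). -/
theorem hard_log_fin {om : ℝ → ℝ} {p δ lam T : ℝ} (h : LPHyp om p δ lam T) {k : ℕ} (hk : 1 ≤ k)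
    {z : ℝ × ℝ} (hz : InRg z) {L : ℝ} (hL : 0 < L) (N : ℕ) :
    lam * z.2 * N + Real.log (partitionFn (phik om p δ lam T (k + 1)) L N z.1) ≤
      ((⌈L / lk T k⌉₊ : ℝ) + 1) ^ 3 * (Real.log ((Nmax p T k : ℝ) + 2) +
        lam * (pb p * (lk T k) ^ 3) * (FkM om p δ lam T k (kap T k) z + C1 / Rk T (k - 1))) := by
  have hT : 12 ≤ T := h.par.hT
  have hT0 : 0 < T := by linarith
  have hlam : 0 < lam := by linarith [h.par.hlam]
  exact hard_log_aux h hk hz hL N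
    (Al := fun r => ck p lam T k * AR (Rk T k) r)
    ((continuous_AR (Rk T k)).measurable.const_mul _)
    (fun r => mul_nonneg (ck_pos h.par.hp hlam hT0 k).le (AR_nonneg (Rk_pos hT0 k) r))
    (h.ckAR_le hk) (kap_pos hT0 k).le (kap_le_small hT hk) (St4a h hk)
    (phik_succ_eq om p δ lam T hk) (h.measurable_phik (k + 1)) (h.phik_lower (by omega))

/-- the same with `Al = Age k` (`St4b`, `LPHyp.phi_eq`, `Kap_le_small`). -/
theorem hard_log_inf {om : ℝ → ℝ} {p δ lam T : ℝ} (h : LPHyp om p δ lam T) {k : ℕ} (hk : 1 ≤ k)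
    {z : ℝ × ℝ} (hz : InRg z) {L : ℝ} (hL : 0 < L) (N : ℕ) :
    lam * z.2 * N + Real.log (partitionFn (phi om p δ lam T) L N z.1) ≤
      ((⌈L / lk T k⌉₊ : ℝ) + 1) ^ 3 * (Real.log ((Nmax p T k : ℝ) + 2) +
        lam * (pb p * (lk T k) ^ 3) * (FkM om p δ lam T k (Kap T k) z + C1 / Rk T (k - 1))) := by
  have hT : 12 ≤ T := h.par.hT
  have hlam : 0 < lam := by linarith [h.par.hlam]
  exact hard_log_aux h hk hz hL N
    (Al := Age p lam T k)
    (measurable_Age h.par.hp hlam hT k) (Age_nonneg h.par.hp hlam hT k)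
    (h.Age_le hk) (Kap_pos hT k).le (Kap_le_small hT hk) (St4b h hk)
    (h.phi_eq hk) h.measurable_phi h.phi_lower

end Crest.Agent.PT
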