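import Crest.Agent.PT_LPEasy
import Crest.Agent.PT_LPLim

/-! Row 149, task LP12: A8(ii) "≥", passage to the thermodynamic limit along `L = m h`. -/

set_option autoImplicit false

namespace Crest.Agent.PT

open MeasureTheory Filter Crest.ProbabilityR.Continuum

/-- `h = ℓ_k + bb`, `ρ = n/h^3`; `a = -G(β,ρ)`.
Proof. Compose `hlim` with `m ↦ m h → ∞` (`tendsto_nat_mul`).  `ρ (m h)^3 = m^3 n`, so `⌊ρ (mh)^3⌋₊ = m^3 n` (`Nat.floor_natCast` after `push_cast`/`field_simp`).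
`partitionFn_anti_pot` (`LPHyp.phi_le_phik`, `phi_lower`) + `easy_log` for `m ≥ 2 Dm`:
`log Z[φ](mh, m^3 n)/(mh)^3 ≥ [log z_k(n) + β n²/2 ((m-2Dm)^3/m^3) Σ]/h^3`; `tendsto_sub_cube`; `ge_of_tendsto`/`le_of_tendsto_of_tendsto` (eventually in `m`). -/
theorem LP_inf_lim {om : ℝ → ℝ} {p δ lam T : ℝ} (h : LPHyp om p δ lam T) {k J : ℕ} (hk : 1 ≤ k) (hkJ : k ≤ J)
    {β : ℝ} (hβ : 0 < β) (n : ℕ) {a : ℝ}
    (hlim : Tendsto (fun L : ℝ => Real.log (partitionFn (phi om p δ lam T) L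
      ⌊(n : ℝ) / (lk T k + bb) ^ 3 * L ^ 3⌋₊ β) / L ^ 3) atTop (nhds a)) :
    (Real.log (zk om p δ lam T k β n) + β * (n : ℝ) ^ 2 / 2 *
        (∑ j ∈ Finset.Icc k J, ck p lam T j * (iota - 400 * (lk T k + bb) / Rk T j) / (lk T k + bb) ^ 3)) /
      (lk T k + bb) ^ 3 ≤ a := by
  have hT : (0 : ℝ) < T := by linarith [h.par.hT]
  have hh : 0 < lk T k + bb := add_pos (lk_pos hT k) bb_pos
  set hc : ℝ := lk T k + bb with hhc
  set S : ℝ := ∑ j ∈ Finset.Icc k J, ck p lam T j * (iota - 400 * hc / Rk T j) / hc ^ 3 with hS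
  set zl : ℝ := Real.log (zk om p δ lam T k β n) with hzl
  set D : ℝ := 2 * ((⌈Rk T J / hc⌉₊ : ℝ) + 2) with hD
  have hu := hlim.comp (tendsto_nat_mul hh)
  have hv : Tendsto (fun m : ℕ => (zl + β * (n : ℝ) ^ 2 / 2 * ((((m : ℝ) - D) ^ 3 / (m : ℝ) ^ 3) * S)) / hc ^ 3)
      atTop (nhds ((zl + β * (n : ℝ) ^ 2 / 2 * (1 * S)) / hc ^ 3)) := by
    refine Tendsto.div_const ?_ _
    refine Tendsto.add tendsto_const_nhds ?_
    refine Tendsto.const_mul _ ?_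
    exact (tendsto_sub_cube D).mul_const S
  rw [one_mul] at hv
  refine le_of_tendsto_of_tendsto hv hu ?_
  filter_upwards [eventually_ge_atTop (2 * (⌈Rk T J / hc⌉₊ + 2))] with m hm
  have hm1 : 1 ≤ m := by omega
  have hm0 : (0 : ℝ) < m := by exact_mod_cast hm1
  have hfl : ⌊(n : ℝ) / hc ^ 3 * ((m : ℝ) * hc) ^ 3⌋₊ = m ^ 3 * n := by
    have : (n : ℝ) / hc ^ 3 * ((m : ℝ) * hc) ^ 3 = ((m ^ 3 * n : ℕ) : ℝ) := by
      push_cast
      field_simp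
    rw [this, Nat.floor_natCast]
  have he := easy_log h hk hkJ m n hβ hm
  have hpos : 0 < partitionFn (phik om p δ lam T (J + 1)) (m * hc) (m ^ 3 * n) β :=
    partitionFn_pos (h.measurable_phik (J + 1)) (h.phik_lower (by omega)) (by positivity) _ hβ.le
  have hanti : partitionFn (phik om p δ lam T (J + 1)) (m * hc) (m ^ 3 * n) β ≤
      partitionFn (phi om p δ lam T) (m * hc) (m ^ 3 * n) β :=
    partitionFn_anti_pot h.measurable_phi (h.measurable_phik (J + 1)) h.phi_lower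
      (h.phi_le_phik (by omega)) hβ.le _ _
  have hlog := Real.log_le_log hpos hanti
  show _ ≤ Real.log (partitionFn (phi om p δ lam T) ((m : ℝ) * hc)
      ⌊(n : ℝ) / hc ^ 3 * ((m : ℝ) * hc) ^ 3⌋₊ β) / ((m : ℝ) * hc) ^ 3
  rw [hfl, div_le_div_iff₀ (by positivity) (by positivity)]
  have hmain : (m : ℝ) ^ 3 * zl + β * (n : ℝ) ^ 2 / 2 * ((m : ℝ) - D) ^ 3 * S ≤
      Real.log (partitionFn (phi om p δ lam T) ((m : ℝ) * hc) (m ^ 3 * n) β) := le_trans he hlog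
  have hc3 : 0 < hc ^ 3 := by positivity
  have e1 : (zl + β * (n : ℝ) ^ 2 / 2 * ((((m : ℝ) - D) ^ 3 / (m : ℝ) ^ 3) * S)) * ((m : ℝ) * hc) ^ 3
      = ((m : ℝ) ^ 3 * zl + β * (n : ℝ) ^ 2 / 2 * ((m : ℝ) - D) ^ 3 * S) * hc ^ 3 := by
    field_simp
  rw [e1]
  exact mul_le_mul_of_nonneg_right hmain hc3.le

end Crest.Agent.PT
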