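import Crest.Agent.PT_Num2

/-! Row 149, task POT1: the hump `U0` (blueprint §1 "The potential"). -/

set_option autoImplicit false

namespace Crest.Agent.PT

open MeasureTheory Crest.ProbabilityR.Continuum

theorem continuous_U0 (δ lam : ℝ) : Continuous (U0 δ lam) := by
  unfold U0
  fun_prop

theorem U0_nonneg {δ lam : ℝ} (hlam : 0 ≤ lam) (r : ℝ) : 0 ≤ U0 δ lam r := by
  unfold U0
  exact le_min (le_min (le_max_of_le_left (by positivity)) hlam) (le_max_left _ _)

theorem U0_le (δ lam : ℝ) (r : ℝ) : U0 δ lam r ≤ lam := by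
  unfold U0
  exact (min_le_left _ _).trans (min_le_right _ _)

private theorem U0_tail_ge {δ lam : ℝ} (hδ0 : 0 < δ) (hlam : 0 ≤ lam) {r : ℝ} (hr : r ≤ s1 δ) :
    lam ≤ max 0 (lam * (bb - r) / (δ * bb)) := by
  have hb := bb_pos
  have hpos : 0 < δ * bb := mul_pos hδ0 hb
  refine le_max_of_le_right ?_
  rw [le_div_iff₀ hpos]
  have : δ * bb ≤ bb - r := by
    unfold s1 at hr
    nlinarith
  exact mul_le_mul_of_nonneg_left this hlam

theorem U0_ge_quarter {δ lam : ℝ} (hδ0 : 0 < δ) (hlam : 0 ≤ lam) {r : ℝ} (hr : r ≤ s1 δ) :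
    lam / 4 ≤ U0 δ lam r := by
  have h := U0_tail_ge hδ0 hlam hr
  unfold U0
  exact le_min (le_min (le_max_left _ _) (by linarith)) (by linarith)

theorem U0_eq_quarter {δ lam : ℝ} (hδ0 : 0 < δ) (hδ1 : δ ≤ 1 / 100) (hlam : 0 ≤ lam)
    (hs2 : s2 lam ≤ δ * bb) {r : ℝ} (hr : r ≤ s2 lam / 2) : U0 δ lam r = lam / 4 := by
  have hb := bb_pos
  have hs := s2_pos lam
  have hr1 : r ≤ s1 δ := by
    unfold s1
    nlinarith
  have h := U0_tail_ge hδ0 hlam hr1
  unfold U0
  have h1 : max (lam / 4) (lam / 4 + (3 * lam / (2 * s2 lam)) * (r - s2 lam / 2)) = lam / 4 := by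
    apply max_eq_left
    have h2 : 0 ≤ 3 * lam / (2 * s2 lam) := by positivity
    have h3 : r - s2 lam / 2 ≤ 0 := by linarith
    have := mul_nonpos_of_nonneg_of_nonpos h2 h3
    linarith
  rw [h1, min_eq_left (by linarith : lam / 4 ≤ lam), min_eq_left (by linarith)]

theorem U0_eq_lam {δ lam : ℝ} (hδ0 : 0 < δ) (hlam : 0 ≤ lam) {r : ℝ} (h1 : s2 lam ≤ r)
    (h2 : r ≤ s1 δ) : U0 δ lam r = lam := by
  have hs := s2_pos lam
  have h := U0_tail_ge hδ0 hlam h2
  unfold U0
  have h3 : lam ≤ max (lam / 4) (lam / 4 + (3 * lam / (2 * s2 lam)) * (r - s2 lam / 2)) := by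
    apply le_max_of_le_right
    have h4 : 0 ≤ 3 * lam / (2 * s2 lam) := by positivity
    have h5 : s2 lam / 2 ≤ r - s2 lam / 2 := by linarith
    have h6 := mul_le_mul_of_nonneg_left h5 h4
    have h7 : 3 * lam / (2 * s2 lam) * (s2 lam / 2) = 3 * lam / 4 := by
      field_simp
      ring
    linarith
  rw [min_eq_right h3, min_eq_left h]

theorem U0_eq_zero {δ lam : ℝ} (hδ0 : 0 < δ) (hlam : 0 ≤ lam) {r : ℝ} (hr : bb ≤ r) :
    U0 δ lam r = 0 := by
  have hb := bb_pos
  have hpos : 0 < δ * bb := mul_pos hδ0 hb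
  unfold U0
  have h1 : max 0 (lam * (bb - r) / (δ * bb)) = 0 := by
    apply max_eq_left
    apply div_nonpos_of_nonpos_of_nonneg _ hpos.le
    exact mul_nonpos_of_nonneg_of_nonpos hlam (by linarith)
  rw [h1]
  exact min_eq_right (le_min (le_max_of_le_left (by positivity)) hlam)

theorem integrable_U0 {δ lam : ℝ} (hδ0 : 0 < δ) (hlam : 0 ≤ lam) :
    Integrable (fun y : Pt => U0 δ lam ‖y‖) := by
  have hc : Continuous (fun y : Pt => U0 δ lam ‖y‖) := (continuous_U0 δ lam).comp continuous_norm
  refine hc.integrable_of_hasCompactSupport ?_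
  refine HasCompactSupport.intro (isCompact_closedBall (0 : Pt) bb) ?_
  intro y hy
  apply U0_eq_zero hδ0 hlam
  simp only [Metric.mem_closedBall, dist_zero_right, not_le] at hy
  exact hy.le

theorem coreOK_zero (lam : ℝ) : CoreOK lam (fun _ => 0) where
  meas := measurable_const
  nonneg := fun _ => le_rfl
  supp := fun _ _ => rfl
  integ := by simp

private theorem measurable_omCore (lam : ℝ) : Measurable (omCore lam) := by
  unfold omCore
  refine Measurable.ite ?_ ?_ measurable_const
  · exact (measurableSet_Ioo : MeasurableSet (Set.Ioo (0 : ℝ) (s2 lam / 16)))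
  · fun_prop

private theorem omCore_nonneg (lam r : ℝ) : 0 ≤ omCore lam r := by
  have hs := s2_pos lam
  unfold omCore
  split_ifs with h
  · have h1 : 16 / s2 lam ≤ 1 / r := by
      rw [div_le_div_iff₀ hs h.1]
      linarith [h.2]
    linarith
  · exact le_rfl

/-- `1/|y|` is integrable near `0` in dimension 3 (e.g. `|y|^{-1} ≤ ` layer-cake / `integrable_rpow_neg…`/ polar
coordinates `MeasureTheory.Measure.toSphere`, or compare dyadic shells: `∫_{2^{-k-1}a ≤ |y| < 2^{-k}a} ≤ C 2^{-2k}`). -/
theorem coreOK_omCore (lam : ℝ) : CoreOK lam (omCore lam) where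
  meas := measurable_omCore lam
  nonneg := omCore_nonneg lam
  supp := by
    intro r hr
    unfold omCore
    rw [if_neg]
    rintro ⟨_, h⟩
    linarith
  integ := by
    have hs := s2_pos lam
    rw [integrable_fun_norm_addHaar (volume : Measure Pt) (f := omCore lam)]
    have hm : Measurable (fun y : ℝ => y ^ (Module.finrank ℝ Pt - 1) • omCore lam y) :=
      (measurable_id.pow_const _).smul (measurable_omCore lam)
    have hI : Integrable (fun y : ℝ => y ^ (Module.finrank ℝ Pt - 1) • omCore lam y) := by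
      have hg : Integrable ((Set.Ioo (0 : ℝ) (s2 lam / 16)).indicator (fun _ : ℝ => s2 lam / 16)) := by
        rw [integrable_indicator_iff measurableSet_Ioo]
        exact integrableOn_const (by simp)
      refine hg.mono' hm.aestronglyMeasurable (Filter.Eventually.of_forall ?_)
      intro y
      have hfr : Module.finrank ℝ Pt - 1 = 2 := by simp
      rw [hfr]
      by_cases h : 0 < y ∧ y < s2 lam / 16
      · rw [Set.indicator_of_mem (show y ∈ Set.Ioo (0 : ℝ) (s2 lam / 16) from h)]
        have h0 := omCore_nonneg lam y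
        have h1 : omCore lam y ≤ 1 / y := by
          unfold omCore
          rw [if_pos h]
          have : 0 < 16 / s2 lam := by positivity
          linarith
        rw [smul_eq_mul, Real.norm_of_nonneg (by positivity)]
        calc y ^ 2 * omCore lam y ≤ y ^ 2 * (1 / y) := by gcongr
          _ = y := by
            have := h.1.ne'
            field_simp
          _ ≤ s2 lam / 16 := h.2.le
      · have : omCore lam y = 0 := by
          unfold omCore
          rw [if_neg h]
        rw [this]
        simp only [smul_zero, norm_zero]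
        exact Set.indicator_nonneg (fun _ _ => by positivity) _
    exact hI.integrableOn

end Crest.Agent.PT
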