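import Crest.Agent.PT_LPDefs
import Crest.Agent.PT_PotA
import Crest.Agent.PT_Basic
import Crest.Agent.PT_Cube
import Crest.Agent.PT_Pot

/-! Row 149, task LP1: soft facts on the potentials of the LP block, positivity of `zk`.
-/

set_option autoImplicit false

namespace Crest.Agent.PT

open MeasureTheory Crest.ProbabilityR.Continuum

/-! ### side conditions for `hard_bound`, `easy_bound`, `partitionFn_interp`, ... -/

theorem LPHyp.measurable_U {om : ℝ → ℝ} {p δ lam T : ℝ} (h : LPHyp om p δ lam T) :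
    Measurable (fun r => U0 δ lam r + om r) := by
  exact (continuous_U0 δ lam).measurable.add h.core.meas

theorem LPHyp.U_nonneg {om : ℝ → ℝ} {p δ lam T : ℝ} (h : LPHyp om p δ lam T) (r : ℝ) :
    0 ≤ U0 δ lam r + om r := by
  exact add_nonneg (U0_nonneg (by linarith [h.par.hlam]) r) (h.core.nonneg r)

/-- `U0 = 0` beyond `bb`, `om = 0` beyond `s2/16 ≤ δ bb ≤ bb`. -/
theorem LPHyp.U_eq_zero {om : ℝ → ℝ} {p δ lam T : ℝ} (h : LPHyp om p δ lam T) {r : ℝ} (hr : bb ≤ r) :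
    U0 δ lam r + om r = 0 := by
  have hlam : (0 : ℝ) ≤ lam := by linarith [h.par.hlam]
  have hb := bb_pos
  have hs := s2_pos lam
  have h1 : s2 lam ≤ δ * bb := h.par.hs2
  have h2 : δ * bb ≤ bb := by nlinarith [h.par.hδ1, h.par.hδ0]
  rw [U0_eq_zero h.par.hδ0 hlam hr, h.core.supp r (by linarith), add_zero]

/-- common upper bound `a = κ_1 λ/(p_b ι)` of all attractive parts (`Atot_le`, `Atot_split`, `Age_succ`, nonnegativity). -/
theorem LPHyp.Alt_le {om : ℝ → ℝ} {p δ lam T : ℝ} (h : LPHyp om p δ lam T) {k : ℕ} (hk : 1 ≤ k) (r : ℝ) :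
    Alt p lam T k r ≤ kap1 * lam / (pb p * iota) := by
  have hlam : (0 : ℝ) < lam := by linarith [h.par.hlam]
  have h1 := Atot_split h.par.hp hlam h.par.hT hk r
  have h2 := Age_nonneg h.par.hp hlam h.par.hT k r
  have h3 := Atot_le h.par.hp hlam h.par.hT r
  linarith

theorem LPHyp.Age_le {om : ℝ → ℝ} {p δ lam T : ℝ} (h : LPHyp om p δ lam T) {k : ℕ} (hk : 1 ≤ k) (r : ℝ) :
    Age p lam T k r ≤ kap1 * lam / (pb p * iota) := by
  have hlam : (0 : ℝ) < lam := by linarith [h.par.hlam]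
  have h1 := Atot_split h.par.hp hlam h.par.hT hk r
  have h2 := Alt_nonneg h.par.hp hlam h.par.hT k r
  have h3 := Atot_le h.par.hp hlam h.par.hT r
  linarith

theorem LPHyp.ckAR_le {om : ℝ → ℝ} {p δ lam T : ℝ} (h : LPHyp om p δ lam T) {k : ℕ} (hk : 1 ≤ k) (r : ℝ) :
    ck p lam T k * AR (Rk T k) r ≤ kap1 * lam / (pb p * iota) := by
  have hlam : (0 : ℝ) < lam := by linarith [h.par.hlam]
  have h1 := Age_succ h.par.hp hlam h.par.hT k r
  have h2 := Age_nonneg h.par.hp hlam h.par.hT (k + 1) r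
  have h3 := h.Age_le hk r
  linarith

/-- `Alt J - Alt k = ∑_{k ≤ j < J}` is between `0` and `a` -/
theorem LPHyp.Alt_sub {om : ℝ → ℝ} {p δ lam T : ℝ} (h : LPHyp om p δ lam T) {k J : ℕ} (hk : 1 ≤ k)
    (hkJ : k ≤ J) (r : ℝ) :
    Alt p lam T J r - Alt p lam T k r = ∑ j ∈ Finset.Ico k J, ck p lam T j * AR (Rk T j) r ∧
    0 ≤ Alt p lam T J r - Alt p lam T k r ∧
      Alt p lam T J r - Alt p lam T k r ≤ kap1 * lam / (pb p * iota) := by
  have hlam : (0 : ℝ) < lam := by linarith [h.par.hlam]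
  have hT0 : (0 : ℝ) < T := by linarith [h.par.hT]
  have e : Alt p lam T J r - Alt p lam T k r = ∑ j ∈ Finset.Ico k J, ck p lam T j * AR (Rk T j) r := by
    unfold Alt
    rw [← Finset.sum_Ico_consecutive _ hk hkJ]
    ring
  refine ⟨e, ?_, ?_⟩
  · rw [e]
    exact Finset.sum_nonneg (fun j _ =>
      mul_nonneg (ck_pos h.par.hp hlam hT0 j).le (AR_nonneg (Rk_pos hT0 j) r))
  · have h1 := h.Alt_le (le_trans hk hkJ) r
    have h2 := Alt_nonneg h.par.hp hlam h.par.hT k r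
    linarith

theorem phik_succ_eq (om : ℝ → ℝ) (p δ lam T : ℝ) {k : ℕ} (hk : 1 ≤ k) :
    phik om p δ lam T (k + 1) =
      fun r => (U0 δ lam r + om r) - Alt p lam T k r - ck p lam T k * AR (Rk T k) r := by
  funext r
  unfold phik
  rw [Alt_succ p lam T hk r]
  ring

theorem LPHyp.phi_eq {om : ℝ → ℝ} {p δ lam T : ℝ} (h : LPHyp om p δ lam T) {k : ℕ} (hk : 1 ≤ k) :
    phi om p δ lam T = fun r => (U0 δ lam r + om r) - Alt p lam T k r - Age p lam T k r := by
  have hlam : (0 : ℝ) < lam := by linarith [h.par.hlam]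
  funext r
  unfold phi
  rw [Atot_split h.par.hp hlam h.par.hT hk r]
  ring

theorem LPHyp.measurable_phik {om : ℝ → ℝ} {p δ lam T : ℝ} (h : LPHyp om p δ lam T) (k : ℕ) :
    Measurable (phik om p δ lam T k) := by
  unfold phik
  exact h.measurable_U.sub (continuous_Alt p lam T k).measurable

theorem LPHyp.measurable_phi {om : ℝ → ℝ} {p δ lam T : ℝ} (h : LPHyp om p δ lam T) :
    Measurable (phi om p δ lam T) := by
  have hlam : (0 : ℝ) < lam := by linarith [h.par.hlam]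
  unfold phi
  exact h.measurable_U.sub (continuous_Atot h.par.hp hlam h.par.hT).measurable

theorem LPHyp.phik_lower {om : ℝ → ℝ} {p δ lam T : ℝ} (h : LPHyp om p δ lam T) {k : ℕ} (hk : 1 ≤ k) (r : ℝ) :
    -(kap1 * lam / (pb p * iota)) ≤ phik om p δ lam T k r := by
  have h1 := h.U_nonneg r
  have h2 := h.Alt_le hk r
  unfold phik
  linarith

theorem LPHyp.phi_lower {om : ℝ → ℝ} {p δ lam T : ℝ} (h : LPHyp om p δ lam T) (r : ℝ) :
    -(kap1 * lam / (pb p * iota)) ≤ phi om p δ lam T r := by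
  have hlam : (0 : ℝ) < lam := by linarith [h.par.hlam]
  have h1 := h.U_nonneg r
  have h2 := Atot_le h.par.hp hlam h.par.hT r
  unfold phi
  linarith

/-- `φ ≤ φ_J` -/
theorem LPHyp.phi_le_phik {om : ℝ → ℝ} {p δ lam T : ℝ} (h : LPHyp om p δ lam T) {J : ℕ} (hJ : 1 ≤ J) (r : ℝ) :
    phi om p δ lam T r ≤ phik om p δ lam T J r := by
  have hlam : (0 : ℝ) < lam := by linarith [h.par.hlam]
  have h1 := Atot_split h.par.hp hlam h.par.hT hJ r
  have h2 := Age_nonneg h.par.hp hlam h.par.hT J r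
  unfold phi phik
  linarith

/-- positivity of partition functions (`partitionFn_eq_ZW`, `ZW_pos`, `adm_radW`, `reg_cube`, `vol_cube`) -/
theorem partitionFn_pos {φ : ℝ → ℝ} (hφ : Measurable φ) {c : ℝ} (hc : ∀ r, -c ≤ φ r) {L : ℝ} (hL : 0 < L)
    (N : ℕ) {β : ℝ} (hβ : 0 ≤ β) : 0 < partitionFn φ L N β := by
  rw [partitionFn_eq_ZW]
  exact ZW_pos (adm_radW hφ hc hβ) (reg_cube L) (by rw [vol_cube hL.le]; positivity) N

theorem partitionFn_zero (φ : ℝ → ℝ) (L β : ℝ) : partitionFn φ L 0 β = 1 := by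
  rw [partitionFn_eq_ZW, ZW_zero]

theorem LPHyp.zk_pos {om : ℝ → ℝ} {p δ lam T : ℝ} (h : LPHyp om p δ lam T) {k : ℕ} (hk : 1 ≤ k) {β : ℝ}
    (hβ : 0 ≤ β) (N : ℕ) : 0 < zk om p δ lam T k β N := by
  have hT0 : (0 : ℝ) < T := by linarith [h.par.hT]
  unfold zk
  exact partitionFn_pos (h.measurable_phik k) (h.phik_lower hk) (lk_pos hT0 k) N hβ

end Crest.Agent.PT
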