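import Crest.Agent.PT_LPHard

/-! Row 149, tasks LP6 (`LP_fin_le`) : the upper bound A8(i) "≤". -/

set_option autoImplicit false

namespace Crest.Agent.PT

open MeasureTheory Filter Crest.ProbabilityR.Continuum

/-- pure numerics of `LP_fin_le` -/
private theorem LP_fin_num {r ℓ lV F c1 cl lg X c : ℝ} (hr : (10 : ℝ) ^ 30 ≤ r) (hℓ : ℓ = r ^ 2)
    (hlV : 0 < lV) (hF0 : 0 ≤ F) (hF : F ≤ 70) (hc0 : 0 ≤ c1) (hc1 : c1 + 1 ≤ r)
    (hcl : c1 + 1 + 14 * 71 ≤ cl) (hlg0 : 0 ≤ lg) (hlg : lg / lV ≤ 1 / r)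
    (hc : c ≤ ℓ ^ 2 + 2) (hc' : 0 ≤ c)
    (hX : X ≤ c ^ 3 * (lg + lV * (F + c1 / r))) :
    X / (lV * ℓ ^ 6) ≤ F + cl / r := by
  have hr0 : 0 < r := lt_of_lt_of_le (by norm_num) hr
  have hr1 : 1 ≤ r := le_trans (by norm_num) hr
  have hℓ0 : 0 < ℓ := by rw [hℓ]; positivity
  have hW0 : 0 ≤ lg + lV * (F + c1 / r) := by positivity
  have hW : lg + lV * (F + c1 / r) ≤ lV * (F + (c1 + 1) / r) := by
    rw [div_le_iff₀ hlV] at hlg
    have : lV * (F + (c1 + 1) / r) = 1 / r * lV + lV * (F + c1 / r) := by ring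
    rw [this]; linarith
  have hc3 : c ^ 3 ≤ (ℓ ^ 2 + 2) ^ 3 := pow_le_pow_left₀ hc' hc 3
  have hℓ2 : r ≤ ℓ ^ 2 := by
    rw [hℓ]
    have : r ^ 1 ≤ (r ^ 2) ^ 2 := by
      rw [← pow_mul]; exact pow_le_pow_right₀ hr1 (by norm_num)
    simpa using this
  have hℓ2' : 2 ≤ ℓ ^ 2 := le_trans (le_trans (by norm_num) hr) hℓ2
  -- `(ℓ²+2)³ ≤ ℓ⁶ (1 + 14/r)`
  have hcube : (ℓ ^ 2 + 2) ^ 3 ≤ ℓ ^ 6 * (1 + 14 / r) := by
    set y := ℓ ^ 2 with hy
    have hy0 : 0 < y := by positivity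
    have h6 : ℓ ^ 6 = y ^ 3 := by rw [hy]; ring
    rw [h6]
    have h1 : (y + 2) ^ 3 ≤ y ^ 3 + 14 * y ^ 2 := by nlinarith [mul_pos hy0 hy0]
    have h2 : y ^ 3 * (1 + 14 / r) = y ^ 3 + 14 * y ^ 2 * (y / r) := by ring
    have h3 : 1 ≤ y / r := by rw [le_div_iff₀ hr0]; linarith
    rw [h2]
    have : 14 * y ^ 2 * 1 ≤ 14 * y ^ 2 * (y / r) := mul_le_mul_of_nonneg_left h3 (by positivity)
    linarith
  have hG0 : 0 ≤ F + (c1 + 1) / r := by positivity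
  have hG : (c1 + 1) / r ≤ 1 := by rw [div_le_one hr0]; exact hc1
  rw [div_le_iff₀ (by positivity)]
  calc X ≤ c ^ 3 * (lg + lV * (F + c1 / r)) := hX
    _ ≤ (ℓ ^ 2 + 2) ^ 3 * (lg + lV * (F + c1 / r)) := mul_le_mul_of_nonneg_right hc3 hW0
    _ ≤ (ℓ ^ 6 * (1 + 14 / r)) * (lV * (F + (c1 + 1) / r)) :=
        mul_le_mul hcube hW hW0 (by positivity)
    _ = (lV * ℓ ^ 6) * ((1 + 14 / r) * (F + (c1 + 1) / r)) := by ring
    _ ≤ (lV * ℓ ^ 6) * (F + cl / r) := by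
        refine mul_le_mul_of_nonneg_left ?_ (by positivity)
        have e1 : (1 + 14 / r) * (F + (c1 + 1) / r)
            = F + (c1 + 1) / r + 14 / r * (F + (c1 + 1) / r) := by ring
        have e2 : 14 / r * (F + (c1 + 1) / r) ≤ 14 / r * 71 :=
          mul_le_mul_of_nonneg_left (by linarith) (by positivity)
        have e3 : F + cl / r = F + (c1 + 1) / r + 14 / r * 71 + (cl - (c1 + 1 + 14 * 71)) / r := by
          field_simp; ring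
        have e4 : 0 ≤ (cl - (c1 + 1 + 14 * 71)) / r := div_nonneg (by linarith) hr0.le
        rw [e1, e3]; linarith
    _ = (F + cl / r) * (lV * ℓ ^ 6) := by ring

/-- A8(i) "≤".
Proof. `Fk = FkM 0`; `FkM_le`: fix `N ≤ Nmax (k+1)`.  With `ℓ = lk T k`, `lk T (k+1) = ℓ^3` (`lk_succ_eq_cube`), `V = pb p ℓ^3`,
`V' = pb p ℓ^9`:  `FkE (k+1) 0 z N = (λ ν N + log z_{k+1}(N))/(λ V')`.  `hard_log_fin` with `L = ℓ^3`: `L/ℓ = ℓ^2`, `⌈ℓ^2⌉₊ + 1 ≤ ℓ^2 + 2`,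
`W := log(Nmax+2) + λV(F + C1/r) ≥ 0`, `W/(λV) ≤ F + (C1+1)/r` (`log_Nmax_le`), `(ℓ^2+2)^3/ℓ^6 ≤ 1 + 14/ℓ^2 ≤ 1 + 14/r`,
`F ≤ 70` (`FkM_le_seventy`, `kap_le_small`), `(C1+1)/r ≤ 1`.  Total `≤ F + (C1 + 1 + 14·71)/r ≤ F + CLP/r`. -/
theorem LP_fin_le {om : ℝ → ℝ} {p δ lam T : ℝ} (h : LPHyp om p δ lam T) {k : ℕ} (hk : 1 ≤ k)
    {z : ℝ × ℝ} (hz : InRg z) :
    Fk om p δ lam T (k + 1) z ≤ FkM om p δ lam T k (kap T k) z + CLP / Rk T (k - 1) := by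
  have hP := h.par
  have hT := hP.hT
  have hT0 : (0 : ℝ) < T := by linarith
  have hr30 : (10 : ℝ) ^ 30 ≤ Rk T (k - 1) := Rk_big hT (k - 1)
  have hr0 : 0 < Rk T (k - 1) := lt_of_lt_of_le (by norm_num) hr30
  have hℓ0 : 0 < lk T k := lk_pos hT0 k
  have hpb : 0 < pb p := by unfold pb; linarith [hP.hp]
  have hlam : 0 < lam := by linarith [hP.hlam]
  have hF0 : 0 ≤ FkM om p δ lam T k (kap T k) z := FkM_nonneg om p δ lam T k (kap T k) z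
  have hF70 : FkM om p δ lam T k (kap T k) z ≤ 70 :=
    FkM_le_seventy h hk (kap_pos hT0 k).le (kap_le_small hT hk) hz
  have hlog := log_Nmax_le h k
  have hio := h.iota_Rk (k - 1)
  have hi0 := iota_pos
  have hinv : 10 / iota ≤ Rk T (k - 1) / 100 := by
    rw [div_le_div_iff₀ hi0 (by norm_num)]
    nlinarith
  unfold Fk
  apply FkM_le
  intro N _
  have hh := hard_log_fin h hk hz (L := lk T (k + 1)) (lk_pos hT0 _) N
  have hceil : ((⌈lk T (k + 1) / lk T k⌉₊ : ℝ) + 1) ≤ (lk T k) ^ 2 + 2 := by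
    have e : lk T (k + 1) / lk T k = (lk T k) ^ 2 := by
      rw [lk_succ_eq_cube T hk]; field_simp
    rw [e]
    have := Nat.ceil_lt_add_one (a := (lk T k) ^ 2) (by positivity)
    linarith
  have hmain := LP_fin_num (r := Rk T (k - 1)) (ℓ := lk T k) (lV := lam * (pb p * (lk T k) ^ 3))
    (F := FkM om p δ lam T k (kap T k) z) (c1 := C1) (cl := CLP)
    (lg := Real.log ((Nmax p T k : ℝ) + 2)) hr30 (lk_eq T k) (by positivity) hF0 hF70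
    (by unfold C1; positivity) (by unfold C1; linarith)
    (by
      unfold C1 CLP
      have : 10 / iota ≤ 100 / iota := div_le_div_of_nonneg_right (by norm_num) hi0.le
      linarith)
    (Real.log_nonneg (by
      have : (0 : ℝ) ≤ (Nmax p T k : ℝ) := Nat.cast_nonneg _
      linarith)) hlog hceil (by positivity) hh
  refine le_trans (le_of_eq ?_) hmain
  unfold FkE zk
  rw [lk_succ_eq_cube T hk]
  have hl := hℓ0.ne'
  have hp' := hpb.ne'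
  have hl' := hlam.ne'
  field_simp
  ring

end Crest.Agent.PT
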