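import Crest.Agent.PT_LPMid
import Crest.Agent.PT_Holder

/-! Row 149, task LP4: the bound (Y) on the grand-canonical sum of one cell (blueprint A8, proof of "≤"). -/

set_option autoImplicit false

namespace Crest.Agent.PT

open MeasureTheory Crest.ProbabilityR.Continuum

private theorem LPY_partitionFn_nonneg (φ : ℝ → ℝ) (L : ℝ) (N : ℕ) (β : ℝ) :
    0 ≤ partitionFn φ L N β := by
  unfold partitionFn
  exact mul_nonneg (by positivity) (integral_nonneg (fun _ => (Real.exp_pos _).le))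

/-- `κ' - kk = kk (x+s)/(1-s) ≤ 2 kk (x+s)` and `kk ≤ κ'`. -/
private theorem LPY_kappa {s kk x : ℝ} (hs0 : 0 ≤ s) (hs : s ≤ 1 / 2) (hkk0 : 0 ≤ kk) (hx : 0 ≤ x) :
    kk ≤ kk * (1 + x) / (1 - s) ∧ kk * (1 + x) / (1 - s) - kk ≤ 2 * kk * (x + s) := by
  have h1s : 0 < 1 - s := by linarith
  constructor
  · rw [le_div_iff₀ h1s]
    nlinarith [mul_nonneg hkk0 hx, mul_nonneg hkk0 hs0]
  · have : kk * (1 + x) / (1 - s) ≤ kk + 2 * kk * (x + s) := by
      rw [div_le_iff₀ h1s]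
      have h2 : 0 ≤ 1 - 2 * s := by linarith
      nlinarith [mul_nonneg hkk0 (mul_nonneg hx h2), mul_nonneg hkk0 (mul_nonneg hs0 h2)]
    linarith

/-- error terms of `Y_term` -/
private theorem LPY_err {r ιv x s F F' β κ' kk : ℝ} (hr0 : 0 < r) (hι : 0 < ιv)
    (hx : x = 400 / (ιv * r)) (hs0 : 0 ≤ s) (hs : s ≤ 24 / r) (hkk0 : 0 ≤ kk) (hkk : kk ≤ 4 / 1000000)
    (hβ1 : 9 / 10 ≤ β) (hβ2 : β ≤ 11 / 10) (hk2 : κ' - kk ≤ 2 * kk * (x + s))
    (hF' : F' ≤ F + β * (κ' - kk) * 200) :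
    F' + 144432 / 100 / r ≤ F + (2000 + 10 / ιv) / r := by
  have hx0 : 0 ≤ x := by rw [hx]; positivity
  have hxs : 0 ≤ x + s := by linarith
  have hb1 : β * (κ' - kk) * 200 ≤ 176 / 100000 * (x + s) := by
    have h1 : β * (κ' - kk) ≤ β * (2 * kk * (x + s)) :=
      mul_le_mul_of_nonneg_left hk2 (by linarith)
    have h2 : 0 ≤ kk * (x + s) := mul_nonneg hkk0 hxs
    have h3 : kk * (x + s) ≤ 4 / 1000000 * (x + s) := mul_le_mul_of_nonneg_right hkk hxs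
    have h4 : β * (kk * (x + s)) ≤ 11 / 10 * (kk * (x + s)) := mul_le_mul_of_nonneg_right hβ2 h2
    have h5 : β * (2 * kk * (x + s)) = 2 * (β * (kk * (x + s))) := by ring
    linarith
  have hxr : x = 400 * (1 / ιv) * (1 / r) := by rw [hx]; field_simp
  have hsr : s ≤ 24 * (1 / r) := by rw [mul_one_div]; exact hs
  have ht : 0 ≤ 1 / ιv := by positivity
  have hu : 0 ≤ 1 / r := by positivity
  have htu : 0 ≤ 1 / ιv * (1 / r) := mul_nonneg ht hu
  have e1 : 144432 / 100 / r = 144432 / 100 * (1 / r) := by ring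
  have e2 : (2000 + 10 / ιv) / r = 2000 * (1 / r) + 10 * (1 / ιv * (1 / r)) := by ring
  have e3 : x = 400 * (1 / ιv * (1 / r)) := by rw [hxr]; ring
  rw [e1, e2]
  linarith

/-- the main terms of `Y_term` -/
private theorem LPY_in {lam V β ν n ℓ3 : ℝ} (hlam : 10 ≤ lam) (hV : 0 < V)
    (hβ1 : 9 / 10 ≤ β) (hβ2 : β ≤ 11 / 10) (hν1 : 16 / 10 ≤ ν) (hν2 : ν ≤ 19 / 10)
    (hn0 : 0 ≤ n) (hn : n ≤ 20 * V) (hℓ0 : 0 ≤ ℓ3) (hℓ : ℓ3 ≤ 9 / 5 * V) :
    0 ≤ lam * ν * n + β * lam * n + ℓ3 ∧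
      lam * ν * n + β * lam * n + ℓ3 ≤ 6018 / 100 * (lam * V) := by
  have hl0 : 0 ≤ lam := by linarith
  have h2 : 0 ≤ lam * n := mul_nonneg hl0 hn0
  have h1 : lam * ν * n + β * lam * n = lam * n * (ν + β) := by ring
  constructor
  · rw [h1]
    have : 0 ≤ lam * n * (ν + β) := mul_nonneg h2 (by linarith)
    linarith
  · have h3 : lam * n * (ν + β) ≤ lam * n * 3 := mul_le_mul_of_nonneg_left (by linarith) h2
    have h4 : lam * n ≤ lam * (20 * V) := mul_le_mul_of_nonneg_left hn hl0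
    have h5 : 10 * V ≤ lam * V := mul_le_mul_of_nonneg_right hlam hV.le
    have h6 : lam * (20 * V) = 20 * (lam * V) := by ring
    rw [h1]
    linarith

/-- the arithmetic of `Y_term` -/
private theorem LPY_num {lam V r ιv s kk β ν n ℓ3 F F' E Lz κ' SSv : ℝ}
    (hlam : 10 ≤ lam) (hV : 0 < V) (hr0 : 0 < r) (hshalf : s ≤ 1 / 2) (hι : 0 < ιv)
    (hs0 : 0 ≤ s) (hs : s ≤ 24 / r) (hkk0 : 0 ≤ kk) (hkk : kk ≤ 4 / 1000000)
    (hβ1 : 9 / 10 ≤ β) (hβ2 : β ≤ 11 / 10) (hν1 : 16 / 10 ≤ ν) (hν2 : ν ≤ 19 / 10)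
    (hn0 : 0 ≤ n) (hn : n ≤ 20 * V) (hℓ0 : 0 ≤ ℓ3) (hℓ : ℓ3 ≤ 9 / 5 * V)
    (hκ' : κ' = kk * (1 + 400 / (ιv * r)) / (1 - s))
    (hSS : SSv = kk * lam * (1 + 400 / (ιv * r)) / V)
    (hlog : lam * V * E = lam * ν * n + Lz + β * (κ' * lam / V) * n ^ 2 / 2)
    (hE : E ≤ F') (hF'0 : 0 ≤ F') (hF' : F' ≤ F + β * (κ' - kk) * 200) :
    lam * ν * n + (Lz * (1 - s) + (β * lam * n + ℓ3) * s) + β * SSv * n ^ 2 / 2 ≤
      lam * V * (F + (2000 + 10 / ιv) / r) := by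
  have h1s : 0 < 1 - s := by linarith
  obtain ⟨x, hx⟩ : ∃ x : ℝ, x = 400 / (ιv * r) := ⟨_, rfl⟩
  rw [← hx] at hκ' hSS
  have hx0 : 0 ≤ x := by rw [hx]; positivity
  obtain ⟨-, hk2⟩ := LPY_kappa hs0 hshalf hkk0 hx0
  rw [← hκ'] at hk2
  have hκs : κ' * (1 - s) = kk * (1 + x) := by
    rw [hκ']; field_simp
  have hbr : β * SSv * n ^ 2 / 2 = (1 - s) * (β * (κ' * lam / V) * n ^ 2 / 2) := by
    have : SSv = (κ' * (1 - s)) * lam / V := by rw [hκs, hSS]; ring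
    rw [this]; ring
  have e : lam * ν * n + (Lz * (1 - s) + (β * lam * n + ℓ3) * s) + β * SSv * n ^ 2 / 2 =
      (1 - s) * (lam * V * E) + s * (lam * ν * n + β * lam * n + ℓ3) := by
    linear_combination (-(1 - s)) * hlog + hbr
  rw [e]
  have hW : 0 < lam * V := mul_pos (by linarith) hV
  have ha : (1 - s) * E ≤ F' := by
    have h1 := mul_le_mul_of_nonneg_left hE h1s.le
    have h2 := mul_nonneg hs0 hF'0
    have h3 : (1 - s) * F' = F' - s * F' := by ring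
    linarith
  have ha' : (1 - s) * (lam * V * E) ≤ lam * V * F' := by
    have := mul_le_mul_of_nonneg_left ha hW.le
    calc (1 - s) * (lam * V * E) = lam * V * ((1 - s) * E) := by ring
      _ ≤ lam * V * F' := this
  obtain ⟨hin0, hin⟩ := LPY_in hlam hV hβ1 hβ2 hν1 hν2 hn0 hn hℓ0 hℓ
  have hd : s * (lam * ν * n + β * lam * n + ℓ3) ≤ lam * V * (144432 / 100 / r) := by
    calc s * (lam * ν * n + β * lam * n + ℓ3) ≤ 24 / r * (6018 / 100 * (lam * V)) :=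
          mul_le_mul hs hin hin0 (by positivity)
      _ = lam * V * (144432 / 100 / r) := by ring
  have hfin := LPY_err hr0 hι hx hs0 hs hkk0 hkk hβ1 hβ2 hk2 hF'
  calc (1 - s) * (lam * V * E) + s * (lam * ν * n + β * lam * n + ℓ3)
      ≤ lam * V * F' + lam * V * (144432 / 100 / r) := add_le_add ha' hd
    _ = lam * V * (F' + 144432 / 100 / r) := by ring
    _ ≤ lam * V * (F + (2000 + 10 / ιv) / r) := mul_le_mul_of_nonneg_left hfin hW.le

/-- one term, `n ≤ Nmax`.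
Proof. `s = sg - 1 ∈ [0, 24/r]` (`sg_bounds`), `β = z.1`, `ν = z.2`, `V = pb p * ℓ^3`, `x = 400/(ι r)`.
`partitionFn_interp` (`U = U0+om`, `As = Alt k`, `σ = 1+s`):  `Z[U-σAs] ≤ z_k^{1-s} Z[U-2As]^s`;  `St3` (`c=2`) and
`Real.pow_div_factorial_le_exp`:  `Z[U-2As] ≤ exp(βλn + ℓ^3)`.  Put `κ' = kk (1+x)/(1-s)`.  By `exp_FkE`, `SS_mul`:
`term ≤ exp((1-s) λV FkE κ' z n) · exp(s (λ(ν+β) n + ℓ^3))`, `FkE κ' ≤ FkM κ'` (`≥ 0`), so `(1-s) λV FkE κ' ≤ λV FkM κ'`;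
`FkM κ' ≤ FkM kk + 1.1·200 (κ'-kk)` (`FkM_le_add`), `κ' - kk = kk (x+s)/(1-s) ≤ 2 kk (x+s) ≤ 8·10^{-6}(400/ι + 24)/r`;
`s (λ(ν+β) n + ℓ^3) ≤ (24/r) λV (60 + 1/(λ p_b)) ≤ λV·1464/r`.  Total error `≤ λV (1465 + 1/ι)/r ≤ λV C1/r`. -/
theorem Y_term {om : ℝ → ℝ} {p δ lam T : ℝ} (h : LPHyp om p δ lam T) {k : ℕ} (hk : 1 ≤ k)
    {kk : ℝ} (hkk0 : 0 ≤ kk) (hkk : kk ≤ 4 / 1000000) {z : ℝ × ℝ} (hz : InRg z) {n : ℕ}
    (hn : n ≤ Nmax p T k) :
    Real.exp (lam * z.2 * n) *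
        partitionFn (fun r => (U0 δ lam r + om r) - sg T k * Alt p lam T k r) (lk T k) n z.1 *
        Real.exp (z.1 * SS p lam T k kk * (n : ℝ) ^ 2 / 2) ≤
      Real.exp (lam * (pb p * (lk T k) ^ 3) * (FkM om p δ lam T k kk z + C1 / Rk T (k - 1))) := by
  obtain ⟨⟨hβ1, hβ2⟩, hν1, hν2⟩ := hz
  have hT := h.par.hT
  have hp := h.par.hp
  have hlam := h.par.hlam
  have hβ0 : 0 ≤ z.1 := by linarith
  have hrbig : (10 : ℝ) ^ 30 ≤ Rk T (k - 1) := Rk_big hT (k - 1)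
  have hr0 : 0 < Rk T (k - 1) := lt_of_lt_of_le (by positivity) hrbig
  have hι := iota_pos
  have hℓ : 0 < lk T k := lk_pos (by linarith) k
  have hpb : 5 / 9 ≤ pb p := pb_pos hp
  have hpb0 : 0 < pb p := by linarith
  have hV0 : 0 < pb p * (lk T k) ^ 3 := by positivity
  obtain ⟨hs1, hs2⟩ := sg_bounds hT k
  have hs0 : 0 ≤ sg T k - 1 := by linarith
  have hs24 : sg T k - 1 ≤ 24 / Rk T (k - 1) := by linarith
  have hri : 24 / Rk T (k - 1) ≤ 1 / 2 := by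
    rw [div_le_iff₀ hr0]
    have : (48 : ℝ) ≤ (10 : ℝ) ^ 30 := by norm_num
    linarith
  have hshalf : sg T k - 1 ≤ 1 / 2 := le_trans hs24 hri
  -- interpolation
  have hint := partitionFn_interp (U := fun r => U0 δ lam r + om r) (As := Alt p lam T k)
    h.measurable_U h.U_nonneg (continuous_Alt p lam T k).measurable (h.Alt_le hk) hℓ n
    (β := z.1) (by linarith) hs0 (by linarith)
  have h1s : 1 + (sg T k - 1) = sg T k := by ring
  rw [h1s] at hint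
  have hzk : partitionFn (fun r => U0 δ lam r + om r - Alt p lam T k r) (lk T k) n z.1 =
      zk om p δ lam T k z.1 n := rfl
  rw [hzk] at hint
  have hzpos : 0 < zk om p δ lam T k z.1 n := h.zk_pos hk hβ0 n
  -- the doubled potential
  have hZ2 : partitionFn (fun r => U0 δ lam r + om r - 2 * Alt p lam T k r) (lk T k) n z.1 ≤
      Real.exp (z.1 * lam * n + (lk T k) ^ 3) := by
    have h3 := St3 h hk (c := 2) (by norm_num) le_rfl hℓ n hβ0
    have h4 : (lk T k) ^ (3 * n) / (Nat.factorial n : ℝ) ≤ Real.exp ((lk T k) ^ 3) := by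
      rw [pow_mul]
      exact Real.pow_div_factorial_le_exp _ (by positivity) n
    calc _ ≤ Real.exp (z.1 * lam * n) * (lk T k) ^ (3 * n) / (Nat.factorial n : ℝ) := h3
      _ = Real.exp (z.1 * lam * n) * ((lk T k) ^ (3 * n) / (Nat.factorial n : ℝ)) := by ring
      _ ≤ Real.exp (z.1 * lam * n) * Real.exp ((lk T k) ^ 3) :=
          mul_le_mul_of_nonneg_left h4 (Real.exp_pos _).le
      _ = _ := by rw [Real.exp_add]
  have hZ2s : (partitionFn (fun r => U0 δ lam r + om r - 2 * Alt p lam T k r) (lk T k) n z.1) ^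
      (sg T k - 1) ≤ Real.exp ((z.1 * lam * n + (lk T k) ^ 3) * (sg T k - 1)) := by
    rw [Real.exp_mul]
    exact Real.rpow_le_rpow (LPY_partitionFn_nonneg _ _ _ _) hZ2 hs0
  have hzks : (zk om p δ lam T k z.1 n) ^ (1 - (sg T k - 1)) =
      Real.exp (Real.log (zk om p δ lam T k z.1 n) * (1 - (sg T k - 1))) :=
    Real.rpow_def_of_pos hzpos _
  have hZ : partitionFn (fun r => (U0 δ lam r + om r) - sg T k * Alt p lam T k r) (lk T k) n z.1 ≤
      Real.exp (Real.log (zk om p δ lam T k z.1 n) * (1 - (sg T k - 1)) +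
        (z.1 * lam * n + (lk T k) ^ 3) * (sg T k - 1)) := by
    rw [Real.exp_add, ← hzks]
    exact le_trans hint (mul_le_mul_of_nonneg_left hZ2s (Real.rpow_nonneg hzpos.le _))
  -- the coupling
  set κ' : ℝ := kk * (1 + 400 / (iota * Rk T (k - 1))) / (1 - (sg T k - 1)) with hκ'
  have hx0 : 0 ≤ 400 / (iota * Rk T (k - 1)) := by positivity
  obtain ⟨hk1, -⟩ := LPY_kappa hs0 hshalf hkk0 hx0
  have hlog : lam * (pb p * (lk T k) ^ 3) * FkE om p δ lam T k κ' z n =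
      lam * z.2 * n + Real.log (zk om p δ lam T k z.1 n) +
        z.1 * (κ' * lam / (pb p * (lk T k) ^ 3)) * (n : ℝ) ^ 2 / 2 := by
    have := congrArg Real.log (exp_FkE h hk κ' hβ0 n)
    rw [Real.log_exp, Real.log_mul (by positivity) (by positivity),
      Real.log_mul (by positivity) hzpos.ne', Real.log_exp, Real.log_exp] at this
    exact this
  have hnum := LPY_num (lam := lam) (V := pb p * (lk T k) ^ 3) (r := Rk T (k - 1)) (ιv := iota)
    (s := sg T k - 1) (kk := kk) (β := z.1) (ν := z.2) (n := (n : ℝ)) (ℓ3 := (lk T k) ^ 3)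
    (F := FkM om p δ lam T k kk z) (F' := FkM om p δ lam T k κ' z)
    (E := FkE om p δ lam T k κ' z n) (Lz := Real.log (zk om p δ lam T k z.1 n)) (κ' := κ')
    (SSv := SS p lam T k kk)
    hlam hV0 hr0 hshalf hι hs0 hs24 hkk0 hkk hβ1 hβ2 hν1 hν2 (Nat.cast_nonneg n)
    (le_trans (Nat.cast_le.2 hn) (Nmax_le hp hT k)) (by positivity)
    (by
      have : 0 ≤ (lk T k) ^ 3 := by positivity
      nlinarith)
    hκ' rfl hlog (FkE_le_FkM om p δ lam T k κ' z hn) (FkM_nonneg om p δ lam T k κ' z)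
    (FkM_le_add h k hk1 hβ0)
  calc Real.exp (lam * z.2 * n) *
        partitionFn (fun r => (U0 δ lam r + om r) - sg T k * Alt p lam T k r) (lk T k) n z.1 *
        Real.exp (z.1 * SS p lam T k kk * (n : ℝ) ^ 2 / 2)
      ≤ Real.exp (lam * z.2 * n) *
        Real.exp (Real.log (zk om p δ lam T k z.1 n) * (1 - (sg T k - 1)) +
          (z.1 * lam * n + (lk T k) ^ 3) * (sg T k - 1)) *
        Real.exp (z.1 * SS p lam T k kk * (n : ℝ) ^ 2 / 2) := by
        gcongr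
    _ = Real.exp (lam * z.2 * n + (Real.log (zk om p δ lam T k z.1 n) * (1 - (sg T k - 1)) +
          (z.1 * lam * n + (lk T k) ^ 3) * (sg T k - 1)) +
          z.1 * SS p lam T k kk * (n : ℝ) ^ 2 / 2) := by
        rw [← Real.exp_add, ← Real.exp_add]
    _ ≤ _ := Real.exp_le_exp.2 hnum

private theorem LPY_exp_neg_le (n : ℕ) : Real.exp (-(n : ℝ)) ≤ (1 / 2 : ℝ) ^ n := by
  have h1 : -(n : ℝ) = (n : ℝ) * (-1) := by ring
  rw [h1, Real.exp_nat_mul]
  apply pow_le_pow_left₀ (Real.exp_pos _).le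
  rw [Real.exp_neg, one_div]
  apply inv_anti₀ (by norm_num)
  have := Real.add_one_le_exp (1 : ℝ)
  linarith

private theorem LPY_geom (N : ℕ) :
    ∑ n ∈ Finset.range (N + 1), (if n = 0 then (0 : ℝ) else (1 / 2 : ℝ) ^ n) ≤ 1 := by
  rw [Finset.sum_range_succ']
  simp only [Nat.add_eq_zero_iff, one_ne_zero, and_false, if_false, if_true, add_zero]
  have h1 : ∑ n ∈ Finset.range N, (1 / 2 : ℝ) ^ (n + 1) =
      (1 / 2) * ∑ n ∈ Finset.range N, (1 / 2 : ℝ) ^ n := by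
    rw [Finset.mul_sum]
    exact Finset.sum_congr rfl fun n _ => by rw [pow_succ]; ring
  rw [h1]
  have := sum_geometric_two_le N
  linarith

/-- (Y).  `n ≤ Nmax`: `Y_term`;  `n > Nmax`: `St5` (`c = sg ≤ 2`, `SS_le`) gives `≤ e^{-n}`, and
`∑_{n ≥ 1} e^{-n} ≤ 1 ≤ exp(λV(..))`. -/
theorem Y_bound {om : ℝ → ℝ} {p δ lam T : ℝ} (h : LPHyp om p δ lam T) {k : ℕ} (hk : 1 ≤ k)
    {kk : ℝ} (hkk0 : 0 ≤ kk) (hkk : kk ≤ 4 / 1000000) {z : ℝ × ℝ} (hz : InRg z) (N : ℕ) :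
    ∑ n ∈ Finset.range (N + 1), Real.exp (lam * z.2 * n) *
        partitionFn (fun r => (U0 δ lam r + om r) - sg T k * Alt p lam T k r) (lk T k) n z.1 *
        Real.exp (z.1 * SS p lam T k kk * (n : ℝ) ^ 2 / 2) ≤
      ((Nmax p T k : ℝ) + 2) *
        Real.exp (lam * (pb p * (lk T k) ^ 3) * (FkM om p δ lam T k kk z + C1 / Rk T (k - 1))) := by
  classical
  have hz' := hz
  obtain ⟨⟨hβ1, hβ2⟩, hν1, hν2⟩ := hz'
  have hT := h.par.hT
  have hp := h.par.hp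
  have hlam := h.par.hlam
  have hrbig : (10 : ℝ) ^ 30 ≤ Rk T (k - 1) := Rk_big hT (k - 1)
  have hr0 : 0 < Rk T (k - 1) := lt_of_lt_of_le (by positivity) hrbig
  have hι := iota_pos
  have hℓ : 0 < lk T k := lk_pos (by linarith) k
  have hpb : 5 / 9 ≤ pb p := pb_pos hp
  have hpb0 : 0 < pb p := by linarith
  obtain ⟨hs1, hs2⟩ := sg_bounds hT k
  have hri : 24 / Rk T (k - 1) ≤ 1 := by
    rw [div_le_iff₀ hr0]
    have : (24 : ℝ) ≤ (10 : ℝ) ^ 30 := by norm_num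
    linarith
  obtain ⟨A, hA⟩ : ∃ A : ℝ, A =
      Real.exp (lam * (pb p * (lk T k) ^ 3) * (FkM om p δ lam T k kk z + C1 / Rk T (k - 1))) :=
    ⟨_, rfl⟩
  rw [← hA]
  have hA1 : 1 ≤ A := by
    rw [hA]
    apply Real.one_le_exp
    have h1 := FkM_nonneg om p δ lam T k kk z
    have h2 : 0 ≤ C1 / Rk T (k - 1) := by unfold C1; positivity
    have h3 : 0 ≤ lam * (pb p * (lk T k) ^ 3) := by positivity
    exact mul_nonneg h3 (by linarith)
  have hpt : ∀ n ∈ Finset.range (N + 1), Real.exp (lam * z.2 * n) *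
        partitionFn (fun r => (U0 δ lam r + om r) - sg T k * Alt p lam T k r) (lk T k) n z.1 *
        Real.exp (z.1 * SS p lam T k kk * (n : ℝ) ^ 2 / 2) ≤
      (if n ≤ Nmax p T k then A else 0) + (if n = 0 then (0 : ℝ) else (1 / 2 : ℝ) ^ n) := by
    intro n _
    by_cases hn : n ≤ Nmax p T k
    · rw [if_pos hn]
      have h1 := Y_term h hk hkk0 hkk hz hn
      rw [← hA] at h1
      have h2 : (0 : ℝ) ≤ (if n = 0 then (0 : ℝ) else (1 / 2 : ℝ) ^ n) := by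
        split_ifs <;> positivity
      linarith
    · rw [if_neg hn]
      have hn' : Nmax p T k < n := not_le.1 hn
      have hn0 : n ≠ 0 := by omega
      rw [if_neg hn0, zero_add]
      exact le_trans (St5 h hk hβ1 hβ2 hν2 (by linarith) (by linarith) (SS_nonneg h k hkk0)
        (SS_le h k hkk0 hkk) hn') (LPY_exp_neg_le n)
  have hcard : ∑ n ∈ Finset.range (N + 1), (if n ≤ Nmax p T k then A else 0) ≤
      ((Nmax p T k : ℝ) + 1) * A := by
    rw [← Finset.sum_filter, Finset.sum_const, nsmul_eq_mul]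
    apply mul_le_mul_of_nonneg_right _ (by linarith)
    have hsub : (Finset.range (N + 1)).filter (fun n => n ≤ Nmax p T k) ⊆
        Finset.range (Nmax p T k + 1) := by
      intro n hn
      rw [Finset.mem_filter] at hn
      exact Finset.mem_range.2 (Nat.lt_succ_of_le hn.2)
    have := Finset.card_le_card hsub
    rw [Finset.card_range] at this
    exact_mod_cast this
  calc _ ≤ ∑ n ∈ Finset.range (N + 1),
        ((if n ≤ Nmax p T k then A else 0) + (if n = 0 then (0 : ℝ) else (1 / 2 : ℝ) ^ n)) :=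
        Finset.sum_le_sum hpt
    _ = ∑ n ∈ Finset.range (N + 1), (if n ≤ Nmax p T k then A else 0) +
        ∑ n ∈ Finset.range (N + 1), (if n = 0 then (0 : ℝ) else (1 / 2 : ℝ) ^ n) :=
        Finset.sum_add_distrib
    _ ≤ ((Nmax p T k : ℝ) + 1) * A + 1 := add_le_add hcard (LPY_geom N)
    _ ≤ ((Nmax p T k : ℝ) + 2) * A := by nlinarith

end Crest.Agent.PT
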