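import Crest.Agent.PT_Num
import Crest.Agent.PT_Cube
import Crest.Agent.PT_Kac

/-! Row 149, task NUM2: the tight radius `s2` and the standing assumptions `Par` hold for large parameters (blueprint §E). -/

set_option autoImplicit false

namespace Crest.Agent.PT

open Filter Crest.ProbabilityR.Continuum

theorem s2_pos (lam : ℝ) : 0 < s2 lam := by
  unfold s2
  exact Real.rpow_pos_of_pos (div_pos (Real.exp_pos _) vol_ball_one_pos) _

private theorem s2_cube (lam : ℝ) :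
    s2 lam ^ 3 = Real.exp (-lam) / vol (Metric.ball (0 : Pt) 1) := by
  unfold s2
  rw [← Real.rpow_natCast, ← Real.rpow_mul (div_pos (Real.exp_pos _) vol_ball_one_pos).le]
  norm_num

theorem vol_ball_s2 (lam : ℝ) : vol (Metric.ball (0 : Pt) (s2 lam)) = Real.exp (-lam) := by
  rw [vol_ball 0 (s2_pos lam).le, s2_cube]
  have := vol_ball_one_pos.ne'
  field_simp

theorem s1_pos {δ : ℝ} (hδ1 : δ ≤ 1 / 100) : 0 < s1 δ := by
  unfold s1
  exact mul_pos (by linarith) bb_pos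

theorem exists_lam {δ : ℝ} (hδ : 0 < δ) : ∃ lam1 : ℝ, ∀ lam, lam1 ≤ lam → s2 lam ≤ δ * bb := by
  have hV := vol_ball_one_pos
  have hb := bb_pos
  set c : ℝ := vol (Metric.ball (0 : Pt) 1) * (δ * bb) ^ 3 with hc
  have hc0 : 0 < c := by positivity
  refine ⟨-Real.log c, fun lam hlam => ?_⟩
  have h1 : Real.exp (-lam) ≤ c := by
    calc Real.exp (-lam) ≤ Real.exp (Real.log c) := Real.exp_le_exp.2 (by linarith)
      _ = c := Real.exp_log hc0
  have h2 : s2 lam ^ 3 ≤ (δ * bb) ^ 3 := by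
    rw [s2_cube, div_le_iff₀ hV]
    calc Real.exp (-lam) ≤ c := h1
      _ = (δ * bb) ^ 3 * vol (Metric.ball (0 : Pt) 1) := by rw [hc]; ring
  exact (pow_le_pow_iff_left₀ (s2_pos lam).le (by positivity) (by norm_num)).1 h2

/-- `P(h/s1) ≤ (1+δ) p (h/s1)^3 = p⁺ h^3` for `h` large; `lk T 1 = T^64`. -/
theorem par_eventually {p : ℝ} (hp1 : 1 ≤ p)
    (hp : Tendsto (fun L : ℝ => (packingNumber L : ℝ) / L ^ 3) atTop (nhds p))
    {δ lam : ℝ} (hδ0 : 0 < δ) (hδ1 : δ ≤ 1 / 100) (hlam : 10 ≤ lam) (hs2 : s2 lam ≤ δ * bb) :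
    ∃ T0 : ℝ, ∀ T, T0 ≤ T → Par p δ lam T := by
  have hs1 := s1_pos hδ1
  have hlt : p < (1 + δ) * p := by nlinarith
  have hev : ∀ᶠ L : ℝ in atTop, (packingNumber L : ℝ) / L ^ 3 < (1 + δ) * p :=
    hp.eventually (gt_mem_nhds hlt)
  obtain ⟨L0, hL0⟩ := eventually_atTop.1 hev
  set L1 : ℝ := max L0 1 with hL1
  have hL1pos : 0 < L1 := lt_of_lt_of_le one_pos (le_max_right _ _)
  refine ⟨max (max 12 (L1 * s1 δ)) (1000 / iota), fun T hT => ?_⟩
  have hT12 : 12 ≤ T := le_trans (le_trans (le_max_left _ _) (le_max_left _ _)) hT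
  have hTL : L1 * s1 δ ≤ T := le_trans (le_trans (le_max_right _ _) (le_max_left _ _)) hT
  have hTi : 1000 / iota ≤ T := le_trans (le_max_right _ _) hT
  have hiota : 1000 ≤ iota * T := by
    rw [div_le_iff₀ iota_pos] at hTi
    linarith
  have hT1 : 1 ≤ T := by linarith
  refine ⟨hp1, hδ0, hδ1, hlam, hs2, hT12, hiota, fun h hh => ?_⟩
  have hlk : T ≤ lk T 1 := by
    have : lk T 1 = T ^ 64 := by
      simp only [lk, Rk]
      rw [← pow_mul]
      norm_num
    rw [this]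
    exact le_self_pow₀ hT1 (by norm_num)
  have hh1 : L1 * s1 δ ≤ h := le_trans hTL (le_trans hlk hh)
  have hL : L1 ≤ h / s1 δ := by rwa [le_div_iff₀ hs1]
  have hLpos : 0 < h / s1 δ := lt_of_lt_of_le hL1pos hL
  have hb := hL0 (h / s1 δ) (le_trans (le_max_left _ _) hL)
  rw [div_lt_iff₀ (by positivity)] at hb
  have hs1c : s1 δ ^ 3 = (1 - δ) ^ 3 * (9 / 5) := by
    unfold s1
    rw [mul_pow, bb_cube]
  have h1δ : (0 : ℝ) < (1 - δ) ^ 3 := by
    have : (0 : ℝ) < 1 - δ := by linarith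
    positivity
  have heq : (1 + δ) * p * (h / s1 δ) ^ 3 = pplus p δ * h ^ 3 := by
    rw [div_pow, hs1c]
    unfold pplus pb
    field_simp
  rw [← heq]
  exact hb.le

end Crest.Agent.PT
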