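import Crest.Agent.PT_RefDefs
import Crest.Agent.PT_Num

/-! Row 149, task RL (packing asymptotics for D6).

`packing_ratio_tendsto`: compose `hp` with `ℓ ↦ (ℓ - c)/s → ∞` and multiply by `((ℓ - c)/s)^3/ℓ^3 → 1/s^3`
(eventually `ℓ ≠ 0`, `ℓ - c ≠ 0`).  The two corollaries: `s1 δ = (1-δ) bb`, `bb + 2 δ bb = (1+2δ) bb`, `pb p = p/bb^3` (`pb_eq`). -/

set_option autoImplicit false

namespace Crest.Agent.PT

open Filter Crest.ProbabilityR.Continuum

theorem packing_ratio_tendsto {p : ℝ}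
    (hp : Tendsto (fun L : ℝ => (packingNumber L : ℝ) / L ^ 3) atTop (nhds p)) {s : ℝ} (hs : 0 < s)
    (c : ℝ) :
    Tendsto (fun ℓ : ℝ => (packingNumber ((ℓ - c) / s) : ℝ) / ℓ ^ 3) atTop (nhds (p / s ^ 3)) := by
  have hu : Tendsto (fun ℓ : ℝ => (ℓ - c) / s) atTop atTop := by
    apply Tendsto.atTop_div_const hs
    simpa [sub_eq_add_neg] using tendsto_atTop_add_const_right atTop (-c) tendsto_id
  have h1 := hp.comp hu
  have h2 : Tendsto (fun ℓ : ℝ => ((1 - c / ℓ) / s) ^ 3) atTop (nhds (((1 - 0) / s) ^ 3)) := by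
    apply Tendsto.pow
    apply Tendsto.div_const
    exact tendsto_const_nhds.sub (tendsto_const_nhds.div_atTop tendsto_id)
  have h3 := h1.mul h2
  have e : p * ((1 - 0) / s) ^ 3 = p / s ^ 3 := by
    rw [sub_zero, div_pow, one_pow]; ring
  rw [e] at h3
  refine h3.congr' ?_
  filter_upwards [eventually_gt_atTop (max 0 c)] with ℓ hℓ
  have hℓ0 : 0 < ℓ := lt_of_le_of_lt (le_max_left _ _) hℓ
  have hℓc : c < ℓ := lt_of_le_of_lt (le_max_right _ _) hℓ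
  have hne : ℓ - c ≠ 0 := by linarith [sub_pos.mpr hℓc] |> ne_of_gt
  simp only [Function.comp]
  have hs' := hs.ne'
  have hℓ' := hℓ0.ne'
  have e2 : ((1 - c / ℓ) / s) ^ 3 = ((ℓ - c) / s) ^ 3 / ℓ ^ 3 := by
    field_simp
  have hu3 : ((ℓ - c) / s) ^ 3 ≠ 0 := pow_ne_zero _ (div_ne_zero hne hs')
  rw [e2, ← mul_div_assoc, div_mul_cancel₀ _ hu3]

theorem Pup_ratio_tendsto {p : ℝ} (hp1 : 1 ≤ p)
    (hp : Tendsto (fun L : ℝ => (packingNumber L : ℝ) / L ^ 3) atTop (nhds p)) {δ : ℝ}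
    (hδ0 : 0 < δ) (hδ1 : δ ≤ 1 / 100) :
    Tendsto (fun ℓ : ℝ => (Pup δ ℓ : ℝ) / (pb p * ℓ ^ 3)) atTop (nhds (1 / (1 - δ) ^ 3)) := by
  have hb := bb_pos
  have h1δ : 0 < 1 - δ := by linarith
  have hs : 0 < s1 δ := by unfold s1; positivity
  have h := (packing_ratio_tendsto hp hs 0).div_const (pb p)
  have hp0 : p ≠ 0 := by linarith [hp1] |> ne_of_gt
  have e : p / s1 δ ^ 3 / pb p = 1 / (1 - δ) ^ 3 := by
    rw [pb_eq]; unfold s1
    have := hb.ne'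
    have := h1δ.ne'
    field_simp
  rw [e] at h
  refine h.congr ?_
  intro ℓ
  simp only [sub_zero, Pup]
  rw [div_div, mul_comm (ℓ ^ 3) (pb p)]

theorem Plow_ratio_tendsto {p : ℝ} (hp1 : 1 ≤ p)
    (hp : Tendsto (fun L : ℝ => (packingNumber L : ℝ) / L ^ 3) atTop (nhds p)) {δ : ℝ}
    (hδ0 : 0 < δ) (hδ1 : δ ≤ 1 / 100) :
    Tendsto (fun ℓ : ℝ => (Plow δ ℓ : ℝ) / (pb p * ℓ ^ 3)) atTop (nhds (1 / (1 + 2 * δ) ^ 3)) := by
  have hb := bb_pos
  have h1δ : 0 < 1 + 2 * δ := by linarith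
  have hs : 0 < bb + 2 * (δ * bb) := by positivity
  have h := (packing_ratio_tendsto hp hs (2 * (δ * bb))).div_const (pb p)
  have hp0 : p ≠ 0 := by linarith [hp1] |> ne_of_gt
  have e : p / (bb + 2 * (δ * bb)) ^ 3 / pb p = 1 / (1 + 2 * δ) ^ 3 := by
    rw [pb_eq, show bb + 2 * (δ * bb) = (1 + 2 * δ) * bb by ring]
    have := hb.ne'
    have := h1δ.ne'
    field_simp
  rw [e] at h
  refine h.congr ?_
  intro ℓ
  simp only [Plow]
  rw [div_div, mul_comm (ℓ ^ 3) (pb p)]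

/-- `lk T 1 = T^64 → ∞` -/
theorem lk_one_tendsto : Tendsto (fun T : ℝ => lk T 1) atTop atTop := by
  have e : (fun T : ℝ => lk T 1) = fun T : ℝ => T ^ 64 := by
    funext T
    simp only [lk, Rk]
    rw [← pow_mul]
    norm_num
  rw [e]
  exact tendsto_pow_atTop (by norm_num)

end Crest.Agent.PT
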