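import Crest.Agent.PT_RefDefs

/-! Row 149, task RA (blueprint D2 per-vertex inequality, D5 tropical lemma): pure arithmetic.

* `cN_le_vertex`: with `n = 1+t+l`, `a = β n(n-1)/2`, `b = (n-1) + β n(n-1)/8`, `θ = t/(n-1)`:
  `t/(1+t) ≥ t/n` (as `1+t ≤ n`), hence `n*(t/(1+t) + (β/2)(t/4+l)) ≥ t + (β/2) n (t/4+l) = (1-θ) a + θ b ≥ min a b`.
  (Avoid `θ`: show `(n-1) * RHS ≥ l * a + t * b` and `l + t = n - 1`; case `n = 1` is `0 ≤ 0`.)
* `tropical`: `μ n - cN β n = max (μ n - a_n) (μ n - b_n)`.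
  `μ n - a_n ≤ 2μ - β = LX 0`: `n=1`: `μ ≥ β`... precisely `μ ≤ 2μ - β ⇔ β ≤ μ`; `n=2` equality; `n ≥ 3` `⇔ μ ≤ β (n+1)/2`.
  `μ n - b_n`: `n=1` as before; `n=2`: `≤ LX 0 ⇔ 3β/4 ≤ 1`; `n=3`: `= LX 1`; `n=4`: `= LX 2`; `n ≥ 5`: `≤ LX 2 ⇔ μ - 1 ≤ β (n+3)/8`.
-/

set_option autoImplicit false

namespace Crest.Agent.PT

theorem LX_zero (z : ℝ × ℝ) : LX 0 z = 2 * z.2 - z.1 := by
  simp [LX, nX, eX]

theorem LX_one (z : ℝ × ℝ) : LX 1 z = 3 * z.2 - 2 - 3 / 4 * z.1 := by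
  simp [LX, nX, eX]

theorem LX_two (z : ℝ × ℝ) : LX 2 z = 4 * z.2 - 3 - 3 / 2 * z.1 := by
  simp [LX, nX, eX]

/-- `LX X z = n_X ν - (β e_X + k_X)` -/
theorem LX_eq (X : Fin 3) (z : ℝ × ℝ) : LX X z = (nXn X : ℝ) * z.2 - (z.1 * eX X + kX X) := by
  fin_cases X
  · simp [LX, nX, eX, nXn, kX]
  · simp [LX, nX, eX, nXn, kX]; ring
  · simp [LX, nX, eX, nXn, kX]; ring

-- `le_max3`, `exists_eq_max3`, `max3_le` now come from `PT_SharpGap` (imported through `PT_Iter`).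

/-- D2, per-vertex inequality. -/
theorem cN_le_vertex {β : ℝ} (hβ : 0 ≤ β) (t l : ℕ) :
    cN β (1 + t + l) ≤
      ((1 + t + l : ℕ) : ℝ) * ((t : ℝ) / (1 + t) + β / 2 * ((t : ℝ) / 4 + l)) := by
  unfold cN
  push_cast
  set T : ℝ := (t : ℝ) with hT
  set L : ℝ := (l : ℝ) with hL
  have hT0 : 0 ≤ T := Nat.cast_nonneg t
  have hL0 : 0 ≤ L := Nat.cast_nonneg l
  set q : ℝ := T / (1 + T) with hq
  have hq0 : 0 ≤ q := div_nonneg hT0 (by linarith)
  have hqT : q * (1 + T) = T := by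
    rw [hq]; field_simp
  set R : ℝ := (1 + T + L) * (q + β / 2 * (T / 4 + L)) with hR
  set a : ℝ := β * (1 + T + L) * (1 + T + L - 1) / 2 with ha
  set b : ℝ := (1 + T + L - 1) + β * (1 / 4) * (1 + T + L) * (1 + T + L - 1) / 2 with hb
  have hR1 : T + (1 + T + L) * (β / 2 * (T / 4 + L)) ≤ R := by
    have : (1 + T + L) * q = T + L * q := by nlinarith
    have h2 : 0 ≤ L * q := mul_nonneg hL0 hq0
    have e : R = (1 + T + L) * q + (1 + T + L) * (β / 2 * (T / 4 + L)) := by rw [hR]; ring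
    rw [e, this]; linarith
  have key : L * a + T * b ≤ (T + L) * R := by
    have e : L * a + T * b = (T + L) * (T + (1 + T + L) * (β / 2 * (T / 4 + L))) := by
      rw [ha, hb]; ring
    rw [e]
    exact mul_le_mul_of_nonneg_left hR1 (by linarith)
  by_contra hcon
  rw [not_le, lt_min_iff] at hcon
  obtain ⟨h1, h2⟩ := hcon
  rcases hT0.eq_or_lt with hT' | hT'
  · rcases hL0.eq_or_lt with hL' | hL'
    · -- T = L = 0
      have : a = 0 := by rw [ha, ← hT', ← hL']; ring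
      have hR0 : R = 0 := by
        rw [hR, hq, ← hT', ← hL']; ring
      rw [this, hR0] at h1
      exact lt_irrefl _ h1
    · nlinarith [mul_pos hL' (sub_pos.mpr h1), mul_nonneg hT0 (sub_pos.mpr h2).le]
  · nlinarith [mul_pos hT' (sub_pos.mpr h2), mul_nonneg hL0 (sub_pos.mpr h1).le]

/-- D5, the tropical lemma (only `n ≥ 1`: `cN β 0 = -1` is junk). -/
theorem tropical {β μ : ℝ} (hβ : |β - 1| ≤ 1 / 50) (hμ : |μ - 7 / 4| ≤ 1 / 50) (n : ℕ) (hn : 1 ≤ n) :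
    μ * n - max3 (fun X => LX X (β, μ)) ≤ cN β n := by
  obtain ⟨hβ1, hβ2⟩ := abs_le.mp hβ
  obtain ⟨hμ1, hμ2⟩ := abs_le.mp hμ
  have m0 : 2 * μ - β ≤ max3 (fun X => LX X (β, μ)) := by
    have := le_max3 (fun X => LX X (β, μ)) 0
    simpa [LX_zero] using this
  have m1 : 3 * μ - 2 - 3 / 4 * β ≤ max3 (fun X => LX X (β, μ)) := by
    have := le_max3 (fun X => LX X (β, μ)) 1
    simpa [LX_one] using this
  have m2 : 4 * μ - 3 - 3 / 2 * β ≤ max3 (fun X => LX X (β, μ)) := by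
    have := le_max3 (fun X => LX X (β, μ)) 2
    simpa [LX_two] using this
  set Mx := max3 (fun X => LX X (β, μ)) with hMx
  unfold cN
  refine le_min ?_ ?_
  · -- branch a
    rcases Nat.lt_or_ge n 3 with h3 | h3
    · interval_cases n
      · norm_num; linarith
      · norm_num; linarith
    · have hx : (3 : ℝ) ≤ (n : ℝ) := by exact_mod_cast h3
      nlinarith [mul_nonneg (sub_nonneg.mpr (le_trans (by norm_num : (2:ℝ) ≤ 3) hx))
        (show (0:ℝ) ≤ β * ((n:ℝ) + 1) / 2 - μ by nlinarith)]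
  · -- branch b
    rcases Nat.lt_or_ge n 5 with h5 | h5
    · interval_cases n
      · norm_num; linarith
      · norm_num; linarith
      · norm_num; linarith
      · norm_num; linarith
    · have hx : (5 : ℝ) ≤ (n : ℝ) := by exact_mod_cast h5
      nlinarith [mul_nonneg (sub_nonneg.mpr (le_trans (by norm_num : (4:ℝ) ≤ 5) hx))
        (show (0:ℝ) ≤ β * ((n:ℝ) + 3) / 8 - (μ - 1) by nlinarith)]

/-- each branch is between 2 and 3 near the triple point -/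
theorem LX_bounds {z : ℝ × ℝ} (hz : z ∈ Box (1, 7 / 4) (1 / 50)) (X : Fin 3) :
    2 ≤ LX X z ∧ LX X z ≤ 3 := by
  obtain ⟨h1, h2⟩ := hz
  simp only at h1 h2
  obtain ⟨a1, a2⟩ := abs_le.mp h1
  obtain ⟨b1, b2⟩ := abs_le.mp h2
  fin_cases X
  · show 2 ≤ LX 0 z ∧ LX 0 z ≤ 3
    rw [LX_zero]; constructor <;> linarith
  · show 2 ≤ LX 1 z ∧ LX 1 z ≤ 3
    rw [LX_one]; constructor <;> linarith
  · show 2 ≤ LX 2 z ∧ LX 2 z ≤ 3
    rw [LX_two]; constructor <;> linarith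

/-- size of the tropical pressure near the triple point -/
theorem max3_LX_bounds {z : ℝ × ℝ} (hz : z ∈ Box (1, 7 / 4) (1 / 50)) :
    2 ≤ max3 (fun X => LX X z) ∧ max3 (fun X => LX X z) ≤ 3 :=
  ⟨(LX_bounds hz 0).1.trans (le_max3 (fun X => LX X z) 0), max3_le fun X => (LX_bounds hz X).2⟩

/-- shifting the chemical potential -/
theorem max3_LX_shift (β ν : ℝ) {t : ℝ} (ht : 0 ≤ t) :
    max3 (fun X => LX X (β, ν + t)) ≤ max3 (fun X => LX X (β, ν)) + 4 * t := by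
  refine max3_le fun X => ?_
  have h : LX X (β, ν) ≤ max3 (fun X => LX X (β, ν)) := le_max3 (fun X => LX X (β, ν)) X
  have e : LX X (β, ν + t) ≤ LX X (β, ν) + 4 * t := by
    fin_cases X
    · show LX 0 (β, ν + t) ≤ LX 0 (β, ν) + 4 * t
      rw [LX_zero, LX_zero]; simp only; linarith
    · show LX 1 (β, ν + t) ≤ LX 1 (β, ν) + 4 * t
      rw [LX_one, LX_one]; simp only; linarith
    · show LX 2 (β, ν + t) ≤ LX 2 (β, ν) + 4 * t
      rw [LX_two, LX_two]; simp only; linarith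
  linarith

end Crest.Agent.PT
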