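import Crest.Agent.PT_RefSite
import Crest.Agent.PT_RefArith
import Crest.Agent.PT_Pot

/-! Row 149, task RS2 (blueprint D4, the three phases at one site).  `U = U0 δ lam + om`, `R = δ bb`, `v₁ = vol (ball 0 1)`.

* phase 0 (two loose particles): `cluster_lower` with `n = 1`, `a = R/2`, `σ = ϱ = R/8`: window `[R/4, 3R/4]`, there `om = 0`
  (`R/4 ≥ s2/4 ≥ s2/16`) and `U0 ≤ lam`: `u = β lam`.  Value: `exp(-β lam) (v₁ (R/8)^3)^2 / 2`.
* phases 1, 2 (`n+1 = 3, 4` tight particles): `n = 2, 3`, `a = s2/8`, `σ = s2/64`, `ϱ = R/2`: window `[3 s2/32, 13 s2/32] ⊆ [s2/16, s2/2]`,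
  there `U0 = lam/4`, `om = 0`: `u = β lam/4`; `ϱ + n a + σ ≤ R/2 + 25 s2/64 ≤ R`.
  `vol (ball 0 (s2/64)) = exp(-lam)/64^3` (`vol_ball`, `vol_ball_s2`).  Value: `exp(-β lam (n+1)n/8) v₁ (R/2)^3 (exp(-lam)/64^3)^n/(n+1)!`;
  `(n+1) n/8 = 3/4, 3/2 = eX`, `n = 2, 3 = kX`.
* `K0 := -log (min of the three λ-independent constants)`, made `≥ 0` with `max 0`. -/

set_option autoImplicit false

namespace Crest.Agent.PT

open MeasureTheory Crest.ProbabilityR.Continuum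

private theorem rs2_loose {δ : ℝ} (hδ0 : 0 < δ) {lam : ℝ} {om : ℝ → ℝ} (hlam : 0 ≤ lam)
    (hs2 : s2 lam ≤ δ * bb) (hc : CoreOK lam om) {β : ℝ} (hβ : 0 ≤ β) (y : Pt) :
    Real.exp (-(β * lam)) * ((vol (Metric.ball (0 : Pt) 1) * (δ * bb / 8) ^ 3) ^ 2 / 2) ≤
      ZW (radW β (fun r => U0 δ lam r + om r)) (Metric.ball y (δ * bb)) 2 := by
  have hR : 0 < δ * bb := mul_pos hδ0 bb_pos
  have hs := s2_pos lam
  have hU : Measurable (fun r => U0 δ lam r + om r) := (continuous_U0 δ lam).measurable.add hc.meas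
  have hU0 : ∀ r, 0 ≤ U0 δ lam r + om r := fun r => add_nonneg (U0_nonneg hlam r) (hc.nonneg r)
  have h := cluster_lower hU hU0 hβ 1 (a := δ * bb / 2) (σ := δ * bb / 8) (ϱ := δ * bb / 8)
    (R := δ * bb) (u := β * lam) (by positivity) (by positivity) (by positivity)
    (by push_cast; linarith)
    (by
      intro r h1 _
      have hom : om r = 0 := hc.supp r (by linarith)
      simp only [hom, add_zero]
      exact mul_le_mul_of_nonneg_left (U0_le δ lam r) hβ) y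
  rw [vol_ball 0 (by positivity : (0 : ℝ) ≤ δ * bb / 8)] at h
  refine le_trans (le_of_eq ?_) h
  have e1 : ((1 : ℕ) : ℝ) = 1 := by norm_num
  have e2 : ((Nat.factorial (1 + 1) : ℕ) : ℝ) = 2 := by norm_num [Nat.factorial]
  rw [e1, e2]
  have e3 : -(((1 : ℝ) + 1) * 1 / 2 * (β * lam)) = -(β * lam) := by ring
  rw [e3]
  ring

private theorem rs2_tight {δ : ℝ} (hδ0 : 0 < δ) (hδ1 : δ ≤ 1 / 100) {lam : ℝ} {om : ℝ → ℝ}
    (hlam : 0 ≤ lam) (hs2 : s2 lam ≤ δ * bb) (hc : CoreOK lam om) {β : ℝ} (hβ : 0 ≤ β) (y : Pt)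
    (n : ℕ) (hn : n ≤ 3) :
    Real.exp (-(((n : ℝ) + 1) * n / 2 * (β * (lam / 4)))) *
        (vol (Metric.ball (0 : Pt) 1) * (δ * bb / 2) ^ 3 * (Real.exp (-lam) / 64 ^ 3) ^ n) /
          (Nat.factorial (n + 1) : ℝ) ≤
      ZW (radW β (fun r => U0 δ lam r + om r)) (Metric.ball y (δ * bb)) (n + 1) := by
  have hR : 0 < δ * bb := mul_pos hδ0 bb_pos
  have hs := s2_pos lam
  have hn' : (n : ℝ) ≤ 3 := by exact_mod_cast hn
  have hn0 : (0 : ℝ) ≤ n := Nat.cast_nonneg n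
  have hU : Measurable (fun r => U0 δ lam r + om r) := (continuous_U0 δ lam).measurable.add hc.meas
  have hU0 : ∀ r, 0 ≤ U0 δ lam r + om r := fun r => add_nonneg (U0_nonneg hlam r) (hc.nonneg r)
  have h := cluster_lower hU hU0 hβ n (a := s2 lam / 8) (σ := s2 lam / 64) (ϱ := δ * bb / 2)
    (R := δ * bb) (u := β * (lam / 4)) (by positivity) (by positivity) (by positivity)
    (by nlinarith)
    (by
      intro r h1 h2
      have hom : om r = 0 := hc.supp r (by linarith)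
      have hq : U0 δ lam r = lam / 4 := U0_eq_quarter hδ0 hδ1 hlam hs2 (by nlinarith)
      simp only [hom, add_zero, hq]
      exact le_refl _) y
  have hv : vol (Metric.ball (0 : Pt) (s2 lam / 64)) = Real.exp (-lam) / 64 ^ 3 := by
    rw [vol_ball 0 (by positivity : (0 : ℝ) ≤ s2 lam / 64), ← vol_ball_s2 lam, vol_ball 0 hs.le]
    ring
  rw [vol_ball 0 (by positivity : (0 : ℝ) ≤ δ * bb / 2), hv] at h
  exact h

/-- D4 at one site. -/
theorem site_lower {δ : ℝ} (hδ0 : 0 < δ) (hδ1 : δ ≤ 1 / 100) :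
    ∃ K0 : ℝ, 0 ≤ K0 ∧ ∀ (lam : ℝ) (om : ℝ → ℝ), 0 ≤ lam → s2 lam ≤ δ * bb → CoreOK lam om →
      ∀ β : ℝ, 0 ≤ β → ∀ (y : Pt) (X : Fin 3),
        Real.exp (-(lam * (β * eX X + kX X) + K0)) ≤
          ZW (radW β (fun r => U0 δ lam r + om r)) (Metric.ball y (δ * bb)) (nXn X) := by
  have hR : 0 < δ * bb := mul_pos hδ0 bb_pos
  have hv := vol_ball_one_pos
  set v₁ : ℝ := vol (Metric.ball (0 : Pt) 1) with hv₁
  set c0 : ℝ := (v₁ * (δ * bb / 8) ^ 3) ^ 2 / 2 with hc0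
  set c1 : ℝ := v₁ * (δ * bb / 2) ^ 3 * (1 / 64 ^ 3) ^ 2 / 6 with hc1
  set c2 : ℝ := v₁ * (δ * bb / 2) ^ 3 * (1 / 64 ^ 3) ^ 3 / 24 with hc2
  have hc0p : 0 < c0 := by positivity
  have hc1p : 0 < c1 := by positivity
  have hc2p : 0 < c2 := by positivity
  set c : ℝ := min c0 (min c1 c2) with hc
  have hcp : 0 < c := lt_min hc0p (lt_min hc1p hc2p)
  refine ⟨max 0 (-Real.log c), le_max_left _ _, ?_⟩
  intro lam om hlam hs2 hcore β hβ y X
  have hK : Real.exp (-(max 0 (-Real.log c))) ≤ c := by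
    have h1 : -(max 0 (-Real.log c)) ≤ Real.log c := by
      have := le_max_right 0 (-Real.log c)
      linarith
    calc Real.exp (-(max 0 (-Real.log c))) ≤ Real.exp (Real.log c) := Real.exp_le_exp.2 h1
      _ = c := Real.exp_log hcp
  have hK0 : Real.exp (-(max 0 (-Real.log c))) ≤ c0 := hK.trans (min_le_left _ _)
  have hK1 : Real.exp (-(max 0 (-Real.log c))) ≤ c1 :=
    hK.trans ((min_le_right _ _).trans (min_le_left _ _))
  have hK2 : Real.exp (-(max 0 (-Real.log c))) ≤ c2 :=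
    hK.trans ((min_le_right _ _).trans (min_le_right _ _))
  generalize max 0 (-Real.log c) = K0 at hK0 hK1 hK2 ⊢
  fin_cases X
  · -- phase 0
    have h := rs2_loose hδ0 hlam hs2 hcore hβ y
    have e : Real.exp (-(lam * (β * eX 0 + kX 0) + K0)) = Real.exp (-(β * lam)) * Real.exp (-K0) := by
      rw [← Real.exp_add]
      congr 1
      simp [eX, kX]
      ring
    show Real.exp (-(lam * (β * eX 0 + kX 0) + K0)) ≤ _
    rw [e]
    refine le_trans (mul_le_mul_of_nonneg_left hK0 (Real.exp_pos _).le) ?_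
    exact h
  · -- phase 1
    have h := rs2_tight hδ0 hδ1 hlam hs2 hcore hβ y 2 (by norm_num)
    have e : Real.exp (-(lam * (β * eX 1 + kX 1) + K0)) =
        Real.exp (-(((2 : ℕ) : ℝ) + 1) * ((2 : ℕ) : ℝ) / 2 * (β * (lam / 4))) *
          (Real.exp (-lam)) ^ 2 * Real.exp (-K0) := by
      rw [← Real.exp_nat_mul, ← Real.exp_add, ← Real.exp_add]
      congr 1
      simp [eX, kX]
      ring
    show Real.exp (-(lam * (β * eX 1 + kX 1) + K0)) ≤ _
    rw [e]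
    refine le_trans (mul_le_mul_of_nonneg_left hK1 (by positivity)) ?_
    refine le_trans (le_of_eq ?_) h
    have e2 : ((Nat.factorial (2 + 1) : ℕ) : ℝ) = 6 := by norm_num [Nat.factorial]
    rw [e2, hc1]
    have e3 : -(((2 : ℕ) : ℝ) + 1) * ((2 : ℕ) : ℝ) / 2 * (β * (lam / 4)) =
        -((((2 : ℕ) : ℝ) + 1) * ((2 : ℕ) : ℝ) / 2 * (β * (lam / 4))) := by ring
    rw [e3]
    ring
  · -- phase 2
    have h := rs2_tight hδ0 hδ1 hlam hs2 hcore hβ y 3 (by norm_num)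
    have e : Real.exp (-(lam * (β * eX 2 + kX 2) + K0)) =
        Real.exp (-(((3 : ℕ) : ℝ) + 1) * ((3 : ℕ) : ℝ) / 2 * (β * (lam / 4))) *
          (Real.exp (-lam)) ^ 3 * Real.exp (-K0) := by
      rw [← Real.exp_nat_mul, ← Real.exp_add, ← Real.exp_add]
      congr 1
      simp [eX, kX]
      ring
    show Real.exp (-(lam * (β * eX 2 + kX 2) + K0)) ≤ _
    rw [e]
    refine le_trans (mul_le_mul_of_nonneg_left hK2 (by positivity)) ?_
    refine le_trans (le_of_eq ?_) h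
    have e2 : ((Nat.factorial (3 + 1) : ℕ) : ℝ) = 24 := by norm_num [Nat.factorial]
    rw [e2, hc2]
    have e3 : -(((3 : ℕ) : ℝ) + 1) * ((3 : ℕ) : ℝ) / 2 * (β * (lam / 4)) =
        -((((3 : ℕ) : ℝ) + 1) * ((3 : ℕ) : ℝ) / 2 * (β * (lam / 4))) := by ring
    rw [e3]
    ring

end Crest.Agent.PT
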