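import Crest.Agent.PT_RefFge
import Crest.Agent.PT_RefSite2
import Crest.Agent.PT_RefPackLim
import Crest.Agent.PT_Num2

/-! Row 149, task RB (blueprint D6, TARGET of block D = hypothesis `base` of `triple_limit`).

Choice: `δ = min (1/100) (η/100)`; `K0` from `site_lower`; `lam0 = max 100 (max lam1 ((K0 + 20)*10/η))`, `lam1` from `exists_lam`;
`T0`: `ℓ = lk T 1 → ∞` (`lk_one_tendsto`), so eventually `|Pup/(pb ℓ^3) - 1/(1-δ)^3| ≤ ε'`, `|Plow/(pb ℓ^3) - 1/(1+2δ)^3| ≤ ε'`, `ε' = min (η/20) 1`, `T ≥ 1`.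
`|1/(1-δ)^3 - 1| ≤ 4δ`, `|1/(1+2δ)^3 - 1| ≤ 6δ` for `δ ≤ 1/100`.  `Plow * nXn X ≤ 4 Plow ≤ 4 * 2 pb ℓ^3 ≤ Nmax` (`Nat.le_floor`).
Upper: `Fk ≤ 1/(lam pb) + (m + 4/lam)(1 + 4δ + η/20)`, `m = max3 ≤ 3`, `pb ≥ 5/9`.
Lower: take `X` with `max3 = LX X z` (`exists_eq_max3`): `Fk ≥ (1 - 6δ - η/20)(m - K0/lam)`, `m ≥ 2 > K0/lam`. -/

set_option autoImplicit false

namespace Crest.Agent.PT

open Filter MeasureTheory Crest.ProbabilityR.Continuum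

private theorem rb_inv_up {δ : ℝ} (hδ0 : 0 < δ) (hδ1 : δ ≤ 1 / 100) :
    1 / (1 - δ) ^ 3 ≤ 1 + 4 * δ := by
  have h1 : (0 : ℝ) < 1 - δ := by linarith
  rw [div_le_iff₀ (by positivity)]
  have e : (1 + 4 * δ) * (1 - δ) ^ 3 - 1 = δ * (1 - 9 * δ + 11 * δ ^ 2 - 4 * δ ^ 3) := by ring
  have h2 : 0 ≤ 1 - 9 * δ + 11 * δ ^ 2 - 4 * δ ^ 3 := by
    have h3 : δ ^ 3 ≤ 1 := pow_le_one₀ hδ0.le (by linarith)
    have h4 : δ ^ 3 ≤ δ ^ 2 := by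
      have : δ ^ 3 = δ * δ ^ 2 := by ring
      rw [this]
      exact mul_le_of_le_one_left (by positivity) (by linarith)
    nlinarith [sq_nonneg δ]
  nlinarith [mul_nonneg hδ0.le h2]

private theorem rb_inv_low {δ : ℝ} (hδ0 : 0 < δ) :
    1 - 6 * δ ≤ 1 / (1 + 2 * δ) ^ 3 := by
  rw [le_div_iff₀ (by positivity)]
  have e : (1 - 6 * δ) * (1 + 2 * δ) ^ 3 = 1 - 24 * δ ^ 2 - 64 * δ ^ 3 - 48 * δ ^ 4 := by ring
  rw [e]
  have : 0 ≤ 24 * δ ^ 2 + 64 * δ ^ 3 + 48 * δ ^ 4 := by positivity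
  linarith

private theorem rb_inv_low' {δ : ℝ} (hδ0 : 0 < δ) : 1 / (1 + 2 * δ) ^ 3 ≤ 1 := by
  rw [div_le_one (by positivity)]
  exact one_le_pow₀ (by linarith)

/-- real-number core of the upper estimate -/
private theorem rb_upper {F m lam pbp ru δ η K0 : ℝ} (hη0 : 0 < η) (hη1 : η ≤ 1) (hδ : δ = η / 100)
    (hK0 : 0 ≤ K0) (hlam : 100 ≤ lam) (hlam2 : (K0 + 20) * 10 / η ≤ lam) (hpb : 5 / 9 ≤ pbp)
    (hm2 : 2 ≤ m) (hm3 : m ≤ 3) (hru : ru ≤ 1 + 4 * δ + η / 20)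
    (hF : F ≤ 1 / (lam * pbp) + (m + 4 / lam) * ru) : F - m ≤ η := by
  have hlam0 : 0 < lam := by linarith
  have h1 : 1 / lam ≤ η / 200 := by
    rw [div_le_iff₀ hη0] at hlam2
    rw [div_le_div_iff₀ hlam0 (by norm_num)]
    nlinarith
  have h2 : 1 / (lam * pbp) ≤ 2 * (1 / lam) := by
    rw [one_div, mul_inv, one_div]
    have : pbp⁻¹ ≤ 2 := by
      rw [inv_le_comm₀ (by linarith) (by norm_num)]
      linarith
    have hl : 0 ≤ lam⁻¹ := by positivity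
    nlinarith
  have h3 : 4 / lam = 4 * (1 / lam) := by ring
  have h4 : 0 ≤ 1 / lam := by positivity
  have h5 : (m + 4 / lam) * ru ≤ (m + 4 / lam) * (1 + 4 * δ + η / 20) :=
    mul_le_mul_of_nonneg_left hru (by rw [h3]; linarith)
  rw [h3] at h5 hF
  subst hδ
  set t := 1 / lam with ht
  nlinarith

/-- real-number core of the lower estimate -/
private theorem rb_lower {F m lam rl δ η K0 : ℝ} (hη0 : 0 < η) (hη1 : η ≤ 1) (hδ : δ = η / 100)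
    (hK0 : 0 ≤ K0) (hlam : 100 ≤ lam) (hlam2 : (K0 + 20) * 10 / η ≤ lam)
    (hm2 : 2 ≤ m) (hm3 : m ≤ 3) (hrl : 1 - 6 * δ - η / 20 ≤ rl)
    (hF : rl * (m - K0 / lam) ≤ F) : m - F ≤ η := by
  have hlam0 : 0 < lam := by linarith
  have h1 : K0 / lam ≤ η / 10 := by
    rw [div_le_iff₀ hη0] at hlam2
    rw [div_le_div_iff₀ hlam0 (by norm_num)]
    nlinarith
  have h0 : 0 ≤ K0 / lam := by positivity
  have h2 : (1 - 6 * δ - η / 20) * (m - K0 / lam) ≤ rl * (m - K0 / lam) :=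
    mul_le_mul_of_nonneg_right hrl (by linarith)
  subst hδ
  set t := K0 / lam with ht
  nlinarith

/-- D6' (target of block D). -/
theorem base_estimate {p : ℝ} (hp1 : 1 ≤ p)
    (hp : Tendsto (fun L : ℝ => (packingNumber L : ℝ) / L ^ 3) atTop (nhds p)) {η : ℝ}
    (hη : 0 < η) :
    ∃ δ : ℝ, 0 < δ ∧ δ ≤ 1 / 100 ∧ ∃ lam0 : ℝ, ∀ lam, lam0 ≤ lam → ∀ om : ℝ → ℝ, CoreOK lam om →
      ∃ T0 : ℝ, ∀ T, T0 ≤ T → ∀ z ∈ Box (1, 7 / 4) (1 / 100),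
        |Fk om p δ lam T 1 z - max3 (fun X => LX X z)| ≤ η := by
  obtain ⟨η₁, hη₁0, hη₁1, hη₁η⟩ : ∃ η₁ : ℝ, 0 < η₁ ∧ η₁ ≤ 1 ∧ η₁ ≤ η :=
    ⟨min η 1, lt_min hη one_pos, min_le_right _ _, min_le_left _ _⟩
  obtain ⟨δ, hδ⟩ : ∃ δ : ℝ, δ = η₁ / 100 := ⟨_, rfl⟩
  have hδ0 : 0 < δ := by rw [hδ]; positivity
  have hδ1 : δ ≤ 1 / 100 := by rw [hδ]; linarith
  refine ⟨δ, hδ0, hδ1, ?_⟩
  obtain ⟨K0, hK0, hsite⟩ := site_lower hδ0 hδ1
  obtain ⟨lam1, hlam1⟩ := exists_lam hδ0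
  refine ⟨max 100 (max lam1 ((K0 + 20) * 10 / η₁)), fun lam hlam om hom => ?_⟩
  have hl100 : 100 ≤ lam := le_trans (le_max_left _ _) hlam
  have hl1 : lam1 ≤ lam := le_trans (le_trans (le_max_left _ _) (le_max_right _ _)) hlam
  have hl2 : (K0 + 20) * 10 / η₁ ≤ lam :=
    le_trans (le_trans (le_max_right _ _) (le_max_right _ _)) hlam
  have hs2 := hlam1 lam hl1
  have hε : 0 < η₁ / 20 := by positivity
  have hu := (Pup_ratio_tendsto hp1 hp hδ0 hδ1).comp lk_one_tendsto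
  have hl := (Plow_ratio_tendsto hp1 hp hδ0 hδ1).comp lk_one_tendsto
  have e1 := hu.eventually (Metric.ball_mem_nhds _ hε)
  have e2 := hl.eventually (Metric.ball_mem_nhds _ hε)
  obtain ⟨T0, hT0⟩ := eventually_atTop.1 (e1.and (e2.and (eventually_ge_atTop (1 : ℝ))))
  refine ⟨T0, fun T hT z hz => ?_⟩
  obtain ⟨h1, h2, hT1⟩ := hT0 T hT
  simp only [Function.comp, Real.dist_eq] at h1 h2
  rw [abs_lt] at h1 h2
  have hz50 : z ∈ Box (1, 7 / 4) (1 / 50) := by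
    obtain ⟨ha, hb⟩ := hz
    exact ⟨le_trans ha (by norm_num), le_trans hb (by norm_num)⟩
  obtain ⟨hm2, hm3⟩ := max3_LX_bounds hz50
  have hpb : 5 / 9 ≤ pb p := pb_pos hp1
  have hℓ : 0 < lk T 1 := lk_pos (by linarith) 1
  have hz1 : 0 ≤ z.1 := by
    have := (abs_le.1 hz.1).1
    simp only at this
    linarith
  -- upper
  have hup := Fk_one_le (p := p) hp1 hδ0 hδ1 hl100 hs2 hom hT1 hz
  have hU : Fk om p δ lam T 1 z - max3 (fun X => LX X z) ≤ η₁ :=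
    rb_upper hη₁0 hη₁1 hδ hK0 hl100 hl2 hpb hm2 hm3
      (by have := rb_inv_up hδ0 hδ1; linarith [h1.2]) hup
  -- lower
  obtain ⟨X, hX⟩ := exists_eq_max3 (fun X => LX X z)
  have hrl2 : (Plow δ (lk T 1) : ℝ) / (pb p * lk T 1 ^ 3) ≤ 2 := by
    have := rb_inv_low' hδ0
    linarith [h2.2]
  have hden : 0 < pb p * lk T 1 ^ 3 := by
    have : 0 < pb p := by linarith
    positivity
  have hN : Plow δ (lk T 1) * nXn X ≤ Nmax p T 1 := by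
    unfold Nmax
    apply Nat.le_floor
    push_cast
    have hn4 : ((nXn X : ℕ) : ℝ) ≤ 4 := by
      fin_cases X <;> simp [nXn] <;> norm_num
    have hP : (Plow δ (lk T 1) : ℝ) ≤ 2 * (pb p * lk T 1 ^ 3) := by
      rwa [div_le_iff₀ hden] at hrl2
    have hP0 : (0 : ℝ) ≤ (Plow δ (lk T 1) : ℝ) := Nat.cast_nonneg _
    calc (Plow δ (lk T 1) : ℝ) * (nXn X : ℝ) ≤ (Plow δ (lk T 1) : ℝ) * 4 :=
          mul_le_mul_of_nonneg_left hn4 hP0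
      _ ≤ 2 * (pb p * lk T 1 ^ 3) * 4 := mul_le_mul_of_nonneg_right hP (by norm_num)
      _ ≤ 20 * pb p * lk T 1 ^ 3 := by nlinarith
  have hlow := Fk_one_ge (p := p) (K0 := K0) hp1 hδ0 hδ1 hl100 hs2 hom hT1 hz X
    (fun y => hsite lam om (by linarith) hs2 hom z.1 hz1 y X) hN
  have hX' : LX X z = max3 (fun X => LX X z) := hX.symm
  rw [hX'] at hlow
  have hL : max3 (fun X => LX X z) - Fk om p δ lam T 1 z ≤ η₁ :=
    rb_lower hη₁0 hη₁1 hδ hK0 hl100 hl2 hm2 hm3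
      (by have := rb_inv_low hδ0; linarith [h2.1]) hlow
  rw [abs_le]
  constructor <;> linarith

end Crest.Agent.PT
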