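import Crest.Agent.PT_PotDefs
import Crest.Agent.PT_Iter
import Crest.Agent.PT_RefBase

/-! Row 149, target of block D (co-architect helper24): the base of the iteration (blueprint D6).
Proved in `PT_RefBase.base_estimate`. -/

set_option autoImplicit false

namespace Crest.Agent.PT

open Filter MeasureTheory Crest.ProbabilityR.Continuum

/-- D6'. -/
theorem base_close {p : ℝ} (hp1 : 1 ≤ p)
    (hp : Tendsto (fun L : ℝ => (packingNumber L : ℝ) / L ^ 3) atTop (nhds p))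
    {η : ℝ} (hη : 0 < η) :
    ∃ δ : ℝ, 0 < δ ∧ δ ≤ 1 / 100 ∧ ∃ lam0 : ℝ, ∀ lam, lam0 ≤ lam → ∀ om : ℝ → ℝ, CoreOK lam om →
      ∃ T0 : ℝ, ∀ T, T0 ≤ T → ∀ z ∈ Box (1, 7 / 4) (1 / 100),
        |Fk om p δ lam T 1 z - max3 (fun X => LX X z)| ≤ η :=
  base_estimate hp1 hp hη

end Crest.Agent.PT
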