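import Crest.Agent.PT_Conv
import Crest.Agent.PT_LPFinal
import Crest.Agent.PT_RefFinal
import Crest.Agent.PT_Kink
import Crest.Agent.PT_Num2
import Crest.Agent.PT_Pack

/-! Row 149: assembly (blueprint §E, §F). -/

set_option autoImplicit false

namespace Crest.Agent.PT

open Filter MeasureTheory Crest.ProbabilityR.Continuum

/-- choice of the parameters + B2/B3: the rescaled pressure has an exact triple point. -/
theorem exact_triple_point {p : ℝ} (hp1 : 1 ≤ p)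
    (hp : Tendsto (fun L : ℝ => (packingNumber L : ℝ) / L ^ 3) atTop (nhds p))
    (omf : ℝ → ℝ → ℝ) (homf : ∀ lam, CoreOK lam (omf lam)) :
    ∃ δ lam T : ℝ, Par p δ lam T ∧
      ∃ zc ∈ Box (1, 7 / 4) (1 / 10000), ∃ ξ : Fin 3 → ℝ × ℝ, ∀ X,
        Sub (Phat (phi (omf lam) p δ lam T) p lam) zc (ξ X) ∧
        |(ξ X).1 + (eX X - Kap T 1 * (nX X) ^ 2 / 2)| ≤ 1 / 100000 ∧
        |(ξ X).2 - nX X| ≤ 1 / 100000 := by
  obtain ⟨δ, hδ0, hδ1, lam0, hbase⟩ := base_close hp1 hp (η := kap1 / 100000000) (by norm_num [kap1])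
  obtain ⟨lam1, hlam1⟩ := exists_lam hδ0
  set lam : ℝ := max (max lam0 lam1) 10 with hlamdef
  have hl0 : lam0 ≤ lam := le_trans (le_max_left _ _) (le_max_left _ _)
  have hl1 : lam1 ≤ lam := le_trans (le_max_right _ _) (le_max_left _ _)
  have hl10 : 10 ≤ lam := le_max_right _ _
  have hs2 : s2 lam ≤ δ * bb := hlam1 lam hl1
  set om := omf lam with homdef
  have hom : CoreOK lam om := homf lam
  obtain ⟨T1, hT1⟩ := hbase lam hl0 om hom
  obtain ⟨C, T2, hLP⟩ := LP_step hp1 hδ0 hδ1 hl10 hs2 hom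
  obtain ⟨T3, hT3⟩ := par_eventually hp1 hp hδ0 hδ1 hl10 hs2
  obtain ⟨T4, hT4⟩ := eps_small |C|
  set T : ℝ := max (max T1 T2) (max T3 T4) with hTdef
  have h1 : T1 ≤ T := le_trans (le_max_left _ _) (le_max_left _ _)
  have h2 : T2 ≤ T := le_trans (le_max_right _ _) (le_max_left _ _)
  have h3 : T3 ≤ T := le_trans (le_max_left _ _) (le_max_right _ _)
  have h4 : T4 ≤ T := le_trans (le_max_right _ _) (le_max_right _ _)
  have hP : Par p δ lam T := hT3 T h3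
  have hT12 : 12 ≤ T := hP.hT
  have hT0 : 0 < T := by linarith
  refine ⟨δ, lam, T, hP, ?_⟩
  have hCle : ∀ k : ℕ, C / Rk T (k - 1) ≤ |C| / Rk T (k - 1) := fun k =>
    div_le_div_of_nonneg_right (le_abs_self C) (Rk_pos hT0 _).le
  refine triple_limit (fun k => Fk om p δ lam T k) (fun k => Fk_convex hP hom k)
    (fun k => Ngrid p T k) (fun k => Ngrid_mem hp1 hT12 k) (fun k X => Ngrid_dense hp1 hT12 k X)
    (fun k => kap T k) (fun k => Kap T k)
    (fun k => if k = 0 then kap1 / 100000000 else |C| / Rk T (k - 1))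
    (fun k => FkM om p δ lam T k (kap T k)) (fun k => FkM om p δ lam T k (Kap T k))
    (fun k => isM_FkM om p δ lam T k (kap_pos hT0 k).le)
    (fun k => isM_FkM om p δ lam T k (Kap_pos hT12 k).le)
    (Phat (phi om p δ lam T) p lam) (Phat_convex hP hom) ?_ ?_ ?_ ?_ ?_ ?_ ?_ ?_ ?_ ?_ ?_
  · intro z hz
    simpa using hT1 T h1 z hz
  · intro k hk z hz
    have hk0 : k ≠ 0 := by omega
    simp only [hk0, if_false]
    exact le_trans (hLP T h2 hP k hk z hz).1 (hCle k)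
  · intro k hk z hz
    have hk0 : k ≠ 0 := by omega
    simp only [hk0, if_false]
    exact le_trans (hLP T h2 hP k hk z hz).2 (hCle k)
  · rw [kap_one hT0]; norm_num [kap1]
  · exact fun k => kap_pos hT0 k
  · exact fun k hk => kap_succ_le hT12 hk
  · exact fun k _ => Kap_rec hT12 k
  · exact fun k hk => Kap_le hT12 hk
  · exact fun k => Kap_pos hT12 k
  · intro k
    by_cases hk0 : k = 0
    · simp only [hk0, if_true]; norm_num [kap1]
    · simp only [hk0, if_false]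
      exact div_nonneg (abs_nonneg C) (Rk_pos hT0 _).le
  · intro k
    by_cases hk0 : k = 0
    · subst hk0
      simp only [if_true, zero_add, pow_zero, mul_one]
      rw [kap_one hT0]
    · simp only [hk0, if_false]
      exact hT4 T h4 k (by omega)

/-- B4 applied to the triple point. -/
theorem main_kink {p : ℝ} (hp1 : 1 ≤ p)
    (hp : Tendsto (fun L : ℝ => (packingNumber L : ℝ) / L ^ 3) atTop (nhds p))
    (omf : ℝ → ℝ → ℝ) (homf : ∀ lam, CoreOK lam (omf lam)) :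
    ∃ δ lam T : ℝ, Par p δ lam T ∧ ∃ βc : ℝ, |βc - 1| ≤ 1 / 10000 ∧
      ∀ ρ, 21 / 10 * pb p < ρ → ρ < 39 / 10 * pb p → ∃ Dl Dr : ℝ,
        HasDerivWithinAt (fun β => Gf (phi (omf lam) p δ lam T) β ρ / β) Dl (Set.Iio βc) βc ∧
        HasDerivWithinAt (fun β => Gf (phi (omf lam) p δ lam T) β ρ / β) Dr (Set.Ioi βc) βc ∧
        Dr < Dl := by
  obtain ⟨δ, lam, T, hP, zc, hzc, ξ, hξ⟩ := exact_triple_point hp1 hp omf homf
  refine ⟨δ, lam, T, hP, zc.1, hzc.1, ?_⟩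
  have hom : CoreOK lam (omf lam) := homf lam
  set φ := phi (omf lam) p δ lam T with hφ
  have hlam : 0 < lam := by linarith [hP.hlam]
  have hpb : 0 < pb p := by linarith [pb_pos hp1]
  have hK0 : 0 < Kap T 1 := Kap_pos hP.hT 1
  have hK1 : Kap T 1 ≤ 2 / 1000000 := by
    have := Kap_le hP.hT (le_refl 1)
    rw [kap_one (by linarith [hP.hT])] at this
    norm_num [kap1] at this ⊢
    linarith
  have hb := abs_le.mp hzc.1
  simp only at hb
  have hA2 : -(1 / 100000 : ℝ) ≤ (ξ 0).2 - 2 ∧ (ξ 0).2 - 2 ≤ 1 / 100000 := by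
    simpa [nX] using abs_le.mp (hξ 0).2.2
  have hB2 : -(1 / 100000 : ℝ) ≤ (ξ 1).2 - 3 ∧ (ξ 1).2 - 3 ≤ 1 / 100000 := by
    simpa [nX] using abs_le.mp (hξ 1).2.2
  have hC2 : -(1 / 100000 : ℝ) ≤ (ξ 2).2 - 4 ∧ (ξ 2).2 - 4 ≤ 1 / 100000 := by
    simpa [nX] using abs_le.mp (hξ 2).2.2
  have hA1 : -(1 / 100000 : ℝ) ≤ (ξ 0).1 + (1 - Kap T 1 * 2 ^ 2 / 2) ∧
      (ξ 0).1 + (1 - Kap T 1 * 2 ^ 2 / 2) ≤ 1 / 100000 := by
    simpa [nX, eX] using abs_le.mp (hξ 0).2.1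
  have hB1 : -(1 / 100000 : ℝ) ≤ (ξ 1).1 + (3 / 4 - Kap T 1 * 3 ^ 2 / 2) ∧
      (ξ 1).1 + (3 / 4 - Kap T 1 * 3 ^ 2 / 2) ≤ 1 / 100000 := by
    simpa [nX, eX] using abs_le.mp (hξ 1).2.1
  have hC1 : -(1 / 100000 : ℝ) ≤ (ξ 2).1 + (3 / 2 - Kap T 1 * 4 ^ 2 / 2) ∧
      (ξ 2).1 + (3 / 2 - Kap T 1 * 4 ^ 2 / 2) ≤ 1 / 100000 := by
    simpa [nX, eX] using abs_le.mp (hξ 2).2.1
  have key := kink_of_three (Gf φ) (20 * pb p) (1 / 2) 2 zc.1 (lam * zc.2) (by norm_num)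
    (by linarith [hb.1]) (by linarith [hb.2])
    (fun ρ hρ => (Gf_concave_beta hP hom hρ.1).subset
      (fun β hβ => lt_trans (by norm_num) hβ.1) (convex_Ioo _ _))
    (fun β hβ => (Gf_convex_rho hP hom (lt_trans (by norm_num) hβ.1)).subset
      (fun ρ hρ => hρ.1) (convex_Icc _ _))
    (fun β ν => lam * pb p * Phat φ p lam (β, ν / lam))
    (fun β hβ ν => Phat_isLUB' hP hom (lt_trans (by norm_num) hβ.1) ν)
    (fun X => pb p * (ξ X).2) (fun X => -(lam * pb p * (ξ X).1)) ?_ ?_ ?_ ?_ ?_ ?_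
  · intro ρ h1 h2
    apply key ρ
    · have : pb p * (ξ 0).2 ≤ pb p * (21 / 10) := by
        apply mul_le_mul_of_nonneg_left _ hpb.le; linarith [hA2.2]
      show pb p * (ξ 0).2 < ρ
      linarith
    · have : pb p * (39 / 10) ≤ pb p * (ξ 2).2 := by
        apply mul_le_mul_of_nonneg_left _ hpb.le; linarith [hC2.1]
      show ρ < pb p * (ξ 2).2
      linarith
  · -- subgradient inequalities
    intro X β hβ ν
    have hs := (hξ X).1 (β, ν / lam) ⟨⟨hβ.1.le, hβ.2.le⟩, trivial⟩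
    simp only at hs
    have hzz : (zc.1, lam * zc.2 / lam) = zc := by
      rw [mul_div_cancel_left₀ _ hlam.ne']
    simp only [hzz]
    have hm := mul_le_mul_of_nonneg_left hs (mul_pos hlam hpb).le
    have e1 : lam * (ν / lam - zc.2) = ν - lam * zc.2 := by field_simp
    have e2 : lam * pb p * (Phat φ p lam zc + (ξ X).1 * (β - zc.1) + (ξ X).2 * (ν / lam - zc.2)) =
        lam * pb p * Phat φ p lam zc + pb p * (ξ X).2 * (ν - lam * zc.2) -
          -(lam * pb p * (ξ X).1) * (β - zc.1) := by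
      rw [← e1]; ring
    rw [e2] at hm
    exact hm
  · show 0 < pb p * (ξ 0).2
    apply mul_pos hpb; linarith [hA2.1]
  · show pb p * (ξ 0).2 < pb p * (ξ 1).2
    apply mul_lt_mul_of_pos_left _ hpb; linarith [hA2.2, hB2.1]
  · show pb p * (ξ 1).2 < pb p * (ξ 2).2
    apply mul_lt_mul_of_pos_left _ hpb; linarith [hB2.2, hC2.1]
  · show pb p * (ξ 2).2 < 20 * pb p
    nlinarith [hC2.2]
  · show -(lam * pb p * (ξ 1).1) < -(lam * pb p * (ξ 0).1) +
      (-(lam * pb p * (ξ 2).1) - -(lam * pb p * (ξ 0).1)) * (pb p * (ξ 1).2 - pb p * (ξ 0).2) /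
        (pb p * (ξ 2).2 - pb p * (ξ 0).2)
    have hden : 0 < pb p * (ξ 2).2 - pb p * (ξ 0).2 := by
      have : 0 < pb p * ((ξ 2).2 - (ξ 0).2) := mul_pos hpb (by linarith [hC2.1, hA2.2])
      linarith
    have ht : (49 / 100 : ℝ) ≤ (pb p * (ξ 1).2 - pb p * (ξ 0).2) / (pb p * (ξ 2).2 - pb p * (ξ 0).2) := by
      rw [le_div_iff₀ hden]
      have : 0 ≤ pb p * (((ξ 1).2 - (ξ 0).2) - 49 / 100 * ((ξ 2).2 - (ξ 0).2)) :=
        mul_nonneg hpb.le (by linarith [hA2.1, hA2.2, hB2.1, hC2.2])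
      linarith
    rw [mul_div_assoc]
    set t := (pb p * (ξ 1).2 - pb p * (ξ 0).2) / (pb p * (ξ 2).2 - pb p * (ξ 0).2) with htdef
    have hq : 0 < lam * pb p := mul_pos hlam hpb
    have hd : (49 / 100 : ℝ) ≤ (ξ 0).1 - (ξ 2).1 := by linarith [hA1.1, hC1.2]
    have h1 : (49 / 100 : ℝ) * (49 / 100) ≤ ((ξ 0).1 - (ξ 2).1) * t :=
      mul_le_mul hd ht (by norm_num) (by linarith)
    have h2 : 0 < (ξ 1).1 - (ξ 0).1 + ((ξ 0).1 - (ξ 2).1) * t := by linarith [hB1.1, hA1.2]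
    have h3 := mul_pos hq h2
    nlinarith [h3]

end Crest.Agent.PT
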