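import Crest.Agent.PT_Defs

/-! Row 149: frozen definitions of the potential and of the levels (blueprint §1).
Parameters: `p` (packing density), `δ`, `lam` (= λ), `T`; `cor : Bool`-like switch is the function `om` (core). -/

set_option autoImplicit false

namespace Crest.Agent.PT

open MeasureTheory Crest.ProbabilityR.Continuum

noncomputable section

/-- range of the hump: `b^3 = 9/5` -/
def bb : ℝ := (9 / 5 : ℝ) ^ (1 / 3 : ℝ)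

/-- `p_b = p / b^3` -/
def pb (p : ℝ) : ℝ := 5 * p / 9

/-- tight radius: `vol (ball 0 s2) = exp (-lam)` -/
def s2 (lam : ℝ) : ℝ := (Real.exp (-lam) / vol (Metric.ball (0 : Pt) 1)) ^ (1 / 3 : ℝ)

/-- loose radius -/
def s1 (δ : ℝ) : ℝ := (1 - δ) * bb

/-- the hump: `lam/4` on `[0,s2/2]`, linear up to `lam` on `[s2/2,s2]`, `lam` on `[s2,s1]`, linear down to `0` on `[s1,b]`. -/
def U0 (δ lam : ℝ) (r : ℝ) : ℝ :=
  min (min (max (lam / 4) (lam / 4 + (3 * lam / (2 * s2 lam)) * (r - s2 lam / 2))) lam)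
    (max 0 (lam * (bb - r) / (δ * bb)))

/-- the divergent core used for S0210 -/
def omCore (lam : ℝ) (r : ℝ) : ℝ :=
  if 0 < r ∧ r < s2 lam / 16 then 1 / r - 16 / s2 lam else 0

/-- shape of the Kac potentials -/
def Jf (r : ℝ) : ℝ := max 0 (1 - 4 * |r - 3 / 4|)

def AR (R r : ℝ) : ℝ := Jf (r / R) / R ^ 3

def iota : ℝ := ∫ y : Pt, Jf ‖y‖

def Rk (T : ℝ) (k : ℕ) : ℝ := T ^ (32 * 3 ^ k)

/-- cell size of level `k ≥ 1` -/
def lk (T : ℝ) (k : ℕ) : ℝ := (Rk T (k - 1)) ^ 2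

def kap1 : ℝ := 1 / 1000000

/-- `κ_k = κ_1 T^{3 - 3^k}` -/
def kap (T : ℝ) (k : ℕ) : ℝ := kap1 * T ^ 3 / T ^ (3 ^ k)

/-- `K_k = ∑_{j ≥ k} κ_j` -/
def Kap (T : ℝ) (k : ℕ) : ℝ := ∑' j : ℕ, kap T (k + j)

/-- `c_k = κ_k λ / (p_b ι)` -/
def ck (p lam T : ℝ) (k : ℕ) : ℝ := kap T k * lam / (pb p * iota)

/-- `A_{<k} = ∑_{1 ≤ j < k} c_j A_{R_j}` -/
def Alt (p lam T : ℝ) (k : ℕ) (r : ℝ) : ℝ := ∑ j ∈ Finset.Ico 1 k, ck p lam T j * AR (Rk T j) r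

/-- `A = ∑_{j ≥ 1} c_j A_{R_j}` -/
def Atot (p lam T : ℝ) (r : ℝ) : ℝ := ∑' j : ℕ, ck p lam T (j + 1) * AR (Rk T (j + 1)) r

/-- `A_{≥k} = ∑_{j ≥ k} c_j A_{R_j}` -/
def Age (p lam T : ℝ) (k : ℕ) (r : ℝ) : ℝ := ∑' j : ℕ, ck p lam T (k + j) * AR (Rk T (k + j)) r

/-- the potential; `om = 0` for S0209, `om = omCore lam` for S0210 -/
def phi (om : ℝ → ℝ) (p δ lam T : ℝ) (r : ℝ) : ℝ := U0 δ lam r + om r - Atot p lam T r

/-- the truncated potential of level `k` -/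
def phik (om : ℝ → ℝ) (p δ lam T : ℝ) (k : ℕ) (r : ℝ) : ℝ := U0 δ lam r + om r - Alt p lam T k r

/-- `z_k(β,N)` -/
def zk (om : ℝ → ℝ) (p δ lam T : ℝ) (k : ℕ) (β : ℝ) (N : ℕ) : ℝ :=
  partitionFn (phik om p δ lam T k) (lk T k) N β

def Nmax (p T : ℝ) (k : ℕ) : ℕ := ⌊20 * pb p * (lk T k) ^ 3⌋₊

/-- the grid of rescaled densities of level `k` -/
def Ngrid (p T : ℝ) (k : ℕ) : Finset ℝ :=
  (Finset.range (Nmax p T k + 1)).image (fun N : ℕ => (N : ℝ) / (pb p * (lk T k) ^ 3))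

/-- rescaled finite-volume pressure with an extra mean-field coupling `κ`:
`max_{N ≤ Nmax} [ν n + β κ n²/2 + log z_k(β,N)/(λ p_b ℓ_k³)]`, `n = N/(p_b ℓ_k³)`.  `Fk = FkM 0`. -/
def FkM (om : ℝ → ℝ) (p δ lam T : ℝ) (k : ℕ) (κ : ℝ) (z : ℝ × ℝ) : ℝ :=
  (Finset.range (Nmax p T k + 1)).sup' Finset.nonempty_range_add_one (fun N : ℕ =>
    z.2 * ((N : ℝ) / (pb p * (lk T k) ^ 3)) + z.1 * κ * ((N : ℝ) / (pb p * (lk T k) ^ 3)) ^ 2 / 2 +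
      Real.log (zk om p δ lam T k z.1 N) / (lam * pb p * (lk T k) ^ 3))

def Fk (om : ℝ → ℝ) (p δ lam T : ℝ) (k : ℕ) (z : ℝ × ℝ) : ℝ := FkM om p δ lam T k 0 z

/-- site costs -/
def cN (β : ℝ) (n : ℕ) : ℝ :=
  min (β * n * ((n : ℝ) - 1) / 2) (((n : ℝ) - 1) + β * (1 / 4) * n * ((n : ℝ) - 1) / 2)

/-- the graph "distance `< s`" on the particles of a configuration -/
def dG {N : ℕ} (x : Fin N → Pt) (s : ℝ) : SimpleGraph (Fin N) where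
  Adj i j := i ≠ j ∧ dist (x i) (x j) < s
  symm := ⟨fun i j h => ⟨h.1.symm, by rw [dist_comm]; exact h.2⟩⟩
  loopless := ⟨fun i h => h.1 rfl⟩

/-- number of connected components -/
def ncomp {N : ℕ} (x : Fin N → Pt) (s : ℝ) : ℕ := Nat.card (dG x s).ConnectedComponent

/-- what is needed from the (optional) repulsive core `om` -/
structure CoreOK (lam : ℝ) (om : ℝ → ℝ) : Prop where
  meas : Measurable om
  nonneg : ∀ r, 0 ≤ om r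
  supp : ∀ r, s2 lam / 16 ≤ r → om r = 0
  integ : Integrable (fun y : Pt => om ‖y‖)

/-- `p⁺ = (1+δ) p_b / (1-δ)^3` (blueprint A5) -/
def pplus (p δ : ℝ) : ℝ := (1 + δ) * pb p / (1 - δ) ^ 3

/-- standing assumptions on the parameters (blueprint §E): everything that the "soft" facts need. -/
structure Par (p δ lam T : ℝ) : Prop where
  hp : 1 ≤ p
  hδ0 : 0 < δ
  hδ1 : δ ≤ 1 / 100
  hlam : 10 ≤ lam
  hs2 : s2 lam ≤ δ * bb
  hT : 12 ≤ T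
  hiota : 1000 ≤ iota * T
  hpack : ∀ h, lk T 1 ≤ h → (packingNumber (h / s1 δ) : ℝ) ≤ pplus p δ * h ^ 3

/-- `G(β,ρ) = - lim_L L^{-3} log Z(L, ⌊ρ L³⌋; β)`  (`= β f(β,ρ)`) -/
def Gf (φ : ℝ → ℝ) (β ρ : ℝ) : ℝ :=
  -(Filter.limUnder Filter.atTop (fun L : ℝ => Real.log (partitionFn φ L ⌊ρ * L ^ 3⌋₊ β) / L ^ 3))

/-- rescaled pressure `P̂(β,ν) = sup_{n ∈ [0,20]} [ν n - G(β, p_b n)/(λ p_b)]` -/
def Phat (φ : ℝ → ℝ) (p lam : ℝ) (z : ℝ × ℝ) : ℝ :=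
  sSup ((fun n : ℝ => z.2 * n - Gf φ z.1 (pb p * n) / (lam * pb p)) '' Set.Icc (0 : ℝ) 20)

end

end Crest.Agent.PT
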