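import Crest.Agent.PT_RefDeg
import Crest.Agent.PT_RefArith

/-! Row 149, task RC (blueprint D2, the cost inequality).

With `t_v = ndeg x σ₂ v`, `l_v = ndeg x σ₁ v - t_v` (natural subtraction is fine by `ndeg_mono`), `n_v = 1 + t_v + l_v = 1 + ndeg x σ₁ v`,
`γ_v = t_v/(1+t_v) + (β/2)(t_v/4 + l_v)`:
`μ - π/n_v ≤ cN β n_v / n_v ≤ γ_v` (`hμ`, `cN_le_vertex`).  Sum over `v`:
`μ N - π P ≤ μ N - π ∑ 1/n_v` (`packing_ge_ndeg`, `π ≥ 0`) `≤ ∑ γ_v ≤ (N - K) + β E/lam` (`sum_ndeg_le`, `energy_ge_ndeg`); multiply by `lam`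
(write everything multiplied by `lam` to avoid dividing; `lam = 0` needs no special care then). -/

set_option autoImplicit false

namespace Crest.Agent.PT

open MeasureTheory Crest.ProbabilityR.Continuum

/-- D2. -/
theorem cost_ineq {U : ℝ → ℝ} {lam σ₂ σ₁ : ℝ} (hU : HumpLike U lam σ₂ σ₁) (hlam : 0 ≤ lam)
    (h2 : 0 < σ₂) (h21 : σ₂ ≤ σ₁) {β μ π : ℝ} (hβ : 0 ≤ β) (hπ : 0 ≤ π)
    (hμ : ∀ n : ℕ, 1 ≤ n → μ * n - π ≤ cN β n)
    {N : ℕ} (x : Fin N → Pt) (v : Pt) {ℓ : ℝ} (hx : ∀ i, x i ∈ cubeAt v ℓ) :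
    lam * (μ * N - π * packingNumber (ℓ / σ₁)) ≤
      lam * ((N : ℝ) - ncomp x σ₂) + β * energy U x := by
  have h1 : 0 < σ₁ := lt_of_lt_of_le h2 h21
  have hP := packing_ge_ndeg x h1 v hx
  have hK := sum_ndeg_le x σ₂
  have hE := energy_ge_ndeg hU hlam h21 x
  have hv : ∀ i : Fin N, μ - π * ((1 : ℝ) / (1 + ndeg x σ₁ i)) ≤
      (ndeg x σ₂ i : ℝ) / (1 + ndeg x σ₂ i) +
        β * ((1 / 2 : ℝ) * ((ndeg x σ₂ i : ℝ) / 4 + ((ndeg x σ₁ i : ℝ) - ndeg x σ₂ i))) := by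
    intro i
    obtain ⟨l, hl⟩ := Nat.exists_eq_add_of_le (ndeg_mono x h21 i)
    have hc := cN_le_vertex hβ (ndeg x σ₂ i) l
    have hm := hμ (1 + ndeg x σ₂ i + l) (by omega)
    have hd : (ndeg x σ₁ i : ℝ) = ndeg x σ₂ i + l := by rw [hl]; push_cast; ring
    rw [hd]
    have hn : (0 : ℝ) < 1 + ((ndeg x σ₂ i : ℝ) + l) := by positivity
    push_cast at hc hm
    refine le_of_mul_le_mul_left ?_ hn
    have e1 : (1 + ((ndeg x σ₂ i : ℝ) + l)) * (μ - π * (1 / (1 + ((ndeg x σ₂ i : ℝ) + l)))) =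
        μ * (1 + (ndeg x σ₂ i : ℝ) + l) - π := by
      field_simp
      ring
    rw [e1]
    refine (hm.trans hc).trans (le_of_eq ?_)
    ring
  have hsum := Finset.sum_le_sum (fun i (_ : i ∈ (Finset.univ : Finset (Fin N))) => hv i)
  rw [Finset.sum_sub_distrib, Finset.sum_add_distrib, ← Finset.mul_sum, ← Finset.mul_sum,
    Finset.sum_const, Finset.card_univ, Fintype.card_fin, nsmul_eq_mul] at hsum
  set S : ℝ := ∑ v : Fin N, (1 / 2 : ℝ) *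
        ((ndeg x σ₂ v : ℝ) / 4 + ((ndeg x σ₁ v : ℝ) - ndeg x σ₂ v)) with hS
  have h3 : π * ∑ i : Fin N, (1 : ℝ) / (1 + ndeg x σ₁ i) ≤ π * packingNumber (ℓ / σ₁) :=
    mul_le_mul_of_nonneg_left hP hπ
  have h4 : μ * N - π * packingNumber (ℓ / σ₁) ≤ ((N : ℝ) - ncomp x σ₂) + β * S := by
    linarith
  have h5 := mul_le_mul_of_nonneg_left h4 hlam
  have h6 : β * (lam * S) ≤ β * energy U x := mul_le_mul_of_nonneg_left hE hβ
  calc lam * (μ * N - π * packingNumber (ℓ / σ₁)) ≤ lam * (((N : ℝ) - ncomp x σ₂) + β * S) := h5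
    _ = lam * ((N : ℝ) - ncomp x σ₂) + β * (lam * S) := by ring
    _ ≤ _ := by linarith

end Crest.Agent.PT
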