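import Crest.Agent.PT_RefDefs

/-! Row 149, task RN (blueprint D3, counting).

* `sum_forestIdx_le`: drop the rank condition; for fixed `S` the maps `π` with `π i = i` on `S` are
  `Fintype.piFinset (fun i => if i ∈ S then {i} else univ)`, of cardinality `N^(N-|S|)` (`Fintype.card_piFinset`, `Finset.prod_ite`...);
  then group the `S` by cardinality (`Finset.sum_powerset`-style: `∑_S f |S| = ∑_K C(N,K) f K`, `Finset.sum_card_slice`/`Finset.powersetCard`).
* `comb_bound`: `C(N,K)/N! = 1/(K! (N-K)!)`; `N^j/j! ≤ exp N` (`Real.pow_div_factorial_le_exp`), `∑_{K ≤ N} y^K/K! ≤ exp y`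
  (`Real.sum_le_exp_of_nonneg`). -/

set_option autoImplicit false

namespace Crest.Agent.PT

private theorem card_fix_maps (N : ℕ) (S : Finset (Fin N)) :
    (Finset.univ.filter (fun π : Fin N → Fin N => ∀ i ∈ S, π i = i)).card = N ^ (N - S.card) := by
  classical
  have h : Finset.univ.filter (fun π : Fin N → Fin N => ∀ i ∈ S, π i = i)
      = Fintype.piFinset (fun i : Fin N => if i ∈ S then ({i} : Finset (Fin N)) else Finset.univ) := by
    ext π
    simp only [Finset.mem_filter, Finset.mem_univ, true_and, Fintype.mem_piFinset]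
    constructor
    · intro h i
      by_cases hi : i ∈ S
      · simp [hi, h i hi]
      · simp [hi]
    · intro h i hi
      have := h i
      simpa [hi] using this
  rw [h, Fintype.card_piFinset]
  have h2 : ∀ i : Fin N, (if i ∈ S then ({i} : Finset (Fin N)) else Finset.univ).card
      = if i ∈ S then 1 else N := by
    intro i
    by_cases hi : i ∈ S <;> simp [hi]
  rw [Finset.prod_congr rfl fun i _ => h2 i, Finset.prod_ite]
  simp only [Finset.prod_const_one, one_mul, Finset.prod_const]
  congr 1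
  have h3 : Finset.univ.filter (fun i : Fin N => i ∉ S) = Sᶜ := by
    ext i; simp
  rw [h3, Finset.card_compl, Fintype.card_fin]

theorem sum_forestIdx_le (N : ℕ) {y : ℝ} (hy : 0 ≤ y) :
    ∑ q ∈ forestIdx N, y ^ q.1.card ≤
      ∑ K ∈ Finset.range (N + 1), (N.choose K : ℝ) * (N : ℝ) ^ (N - K) * y ^ K := by
  classical
  have h1 : ∑ q ∈ forestIdx N, y ^ q.1.card ≤
      ∑ q ∈ Finset.univ.filter
        (fun q : Finset (Fin N) × (Fin N → Fin N) => ∀ i ∈ q.1, q.2 i = i), y ^ q.1.card := by
    refine Finset.sum_le_sum_of_subset_of_nonneg ?_ fun q _ _ => pow_nonneg hy _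
    intro q hq
    unfold forestIdx at hq
    simp only [Finset.mem_filter, Finset.mem_univ, true_and] at hq ⊢
    exact hq.1
  refine h1.trans (le_of_eq ?_)
  rw [Finset.sum_filter, Fintype.sum_prod_type]
  have h2 : ∀ S : Finset (Fin N),
      (∑ π : Fin N → Fin N, if (∀ i ∈ S, π i = i) then y ^ S.card else 0)
        = (N : ℝ) ^ (N - S.card) * y ^ S.card := by
    intro S
    rw [← Finset.sum_filter, Finset.sum_const, card_fix_maps, nsmul_eq_mul]
    push_cast
    ring
  rw [Finset.sum_congr rfl fun S _ => h2 S]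
  have h3 := Finset.sum_powerset_apply_card (fun K => (N : ℝ) ^ (N - K) * y ^ K)
    (x := (Finset.univ : Finset (Fin N)))
  rw [Finset.powerset_univ, Finset.card_univ, Fintype.card_fin] at h3
  rw [h3]
  refine Finset.sum_congr rfl fun K _ => ?_
  rw [nsmul_eq_mul]
  ring

theorem comb_bound (N : ℕ) {y : ℝ} (hy : 0 ≤ y) :
    (∑ K ∈ Finset.range (N + 1), (N.choose K : ℝ) * (N : ℝ) ^ (N - K) * y ^ K) /
        (Nat.factorial N : ℝ) ≤ Real.exp y * Real.exp N := by
  rw [Finset.sum_div]
  have h1 : ∀ K ∈ Finset.range (N + 1),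
      (N.choose K : ℝ) * (N : ℝ) ^ (N - K) * y ^ K / (Nat.factorial N : ℝ)
        ≤ y ^ K / (Nat.factorial K : ℝ) * Real.exp N := by
    intro K hK
    have hKN : K ≤ N := Nat.lt_succ_iff.mp (Finset.mem_range.mp hK)
    have hc : (N.choose K : ℝ) * (Nat.factorial K : ℝ) * (Nat.factorial (N - K) : ℝ)
        = (Nat.factorial N : ℝ) := by
      exact_mod_cast Nat.choose_mul_factorial_mul_factorial hKN
    have hK0 : (0 : ℝ) < (Nat.factorial K : ℝ) := by exact_mod_cast Nat.factorial_pos K
    have hNK0 : (0 : ℝ) < (Nat.factorial (N - K) : ℝ) := by exact_mod_cast Nat.factorial_pos _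
    have hN0 : (0 : ℝ) < (Nat.factorial N : ℝ) := by exact_mod_cast Nat.factorial_pos N
    have he : (N.choose K : ℝ) * (N : ℝ) ^ (N - K) * y ^ K / (Nat.factorial N : ℝ)
        = y ^ K / (Nat.factorial K : ℝ) * ((N : ℝ) ^ (N - K) / (Nat.factorial (N - K) : ℝ)) := by
      rw [← hc]
      have hch : (0 : ℝ) < (N.choose K : ℝ) := by exact_mod_cast Nat.choose_pos hKN
      field_simp
    rw [he]
    refine mul_le_mul_of_nonneg_left ?_ (by positivity)
    exact Real.pow_div_factorial_le_exp (N : ℝ) (Nat.cast_nonneg N) (N - K)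
  refine (Finset.sum_le_sum h1).trans ?_
  rw [← Finset.sum_mul]
  refine mul_le_mul_of_nonneg_right ?_ (Real.exp_pos _).le
  exact Real.sum_le_exp_of_nonneg hy (N + 1)

end Crest.Agent.PT
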