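import Crest.Agent.PT_Basic

/-! Row 149, task RV: upper bound of `ZW` by a finite cover used POINTWISE (needed for D3: the energy bound `E i` holds only at those
points of the piece `𝒜 i` for which `i` is the chosen index, so no measurability of the choice is needed).

Proof: for `x ∈ Λ^N`: `exp (-energyW w x) ≤ ∑ i ∈ s, indicator (𝒜 i) (fun _ => exp (-(E i))) x` (one term dominates, the others are `≥ 0`).
Integrate over `Λ^N` (`integrableOn_exp_energyW`, `setIntegral_mono_on`, `integral_finset_sum`, `integral_indicator_const`/`setIntegral_const`),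
and `volume (𝒜 i ∩ Λ^N) ≤ volume (𝒜 i) < ⊤`. -/

set_option autoImplicit false

namespace Crest.Agent.PT

open MeasureTheory Crest.ProbabilityR.Continuum

theorem ZW_le_of_cover' {w : Pt → Pt → ℝ} (hw : Adm w) {Λ : Set Pt} (hΛ : Reg Λ)
    (N : ℕ) {ι : Type*} (s : Finset ι) (𝒜 : ι → Set (Fin N → Pt))
    (h𝒜 : ∀ i ∈ s, MeasurableSet (𝒜 i)) (hfin : ∀ i ∈ s, volume (𝒜 i) ≠ ⊤) (E : ι → ℝ)
    (hcov : ∀ x : Fin N → Pt, (∀ j, x j ∈ Λ) → ∃ i ∈ s, x ∈ 𝒜 i ∧ E i ≤ energyW w x) :
    ZW w Λ N ≤ (∑ i ∈ s, Real.exp (-(E i)) * (volume (𝒜 i)).toReal) / (Nat.factorial N : ℝ) := by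
  unfold ZW
  set S := Set.pi Set.univ (fun _ : Fin N => Λ) with hS
  have hSm : MeasurableSet S := measurableSet_pi hΛ.meas N
  have hint := integrableOn_exp_energyW hw hΛ N
  -- pointwise bound by a sum of indicators
  have hpt : ∀ x ∈ S, Real.exp (-(energyW w x)) ≤
      ∑ i ∈ s, (𝒜 i).indicator (fun _ => Real.exp (-(E i))) x := by
    intro x hx
    have hx' := (mem_pi_iff x).mp hx
    obtain ⟨i, his, hxi, hEi⟩ := hcov x hx'
    have h1 : Real.exp (-(energyW w x)) ≤ (𝒜 i).indicator (fun _ => Real.exp (-(E i))) x := by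
      rw [Set.indicator_of_mem hxi]
      apply Real.exp_le_exp.mpr
      linarith
    refine h1.trans (Finset.single_le_sum
      (f := fun i => (𝒜 i).indicator (fun _ => Real.exp (-(E i))) x) (fun j _ => ?_) his)
    exact Set.indicator_nonneg (fun _ _ => (Real.exp_pos _).le) x
  have hind : ∀ i ∈ s, Integrable ((𝒜 i).indicator (fun _ : Fin N → Pt => Real.exp (-(E i)))) volume :=
    fun i hi => (integrable_indicator_iff (h𝒜 i hi)).mpr (integrableOn_const (hfin i hi))
  have h1 : ∫ x in S, Real.exp (-(energyW w x)) ≤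
      ∫ x in S, ∑ i ∈ s, (𝒜 i).indicator (fun _ => Real.exp (-(E i))) x := by
    refine setIntegral_mono_on hint ?_ hSm hpt
    exact (integrable_finsetSum s hind).integrableOn
  have h2 : ∫ x in S, ∑ i ∈ s, (𝒜 i).indicator (fun _ => Real.exp (-(E i))) x ≤
      ∫ x, ∑ i ∈ s, (𝒜 i).indicator (fun _ => Real.exp (-(E i))) x := by
    refine setIntegral_le_integral (integrable_finsetSum s hind) ?_
    refine Filter.Eventually.of_forall (fun x => Finset.sum_nonneg (fun j _ => ?_))
    exact Set.indicator_nonneg (fun _ _ => (Real.exp_pos _).le) x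
  have h3 : ∫ x, ∑ i ∈ s, (𝒜 i).indicator (fun _ => Real.exp (-(E i))) x =
      ∑ i ∈ s, Real.exp (-(E i)) * (volume (𝒜 i)).toReal := by
    rw [integral_finsetSum s hind]
    refine Finset.sum_congr rfl (fun i hi => ?_)
    rw [integral_indicator (h𝒜 i hi), setIntegral_const]
    simp only [Measure.real, smul_eq_mul]
    ring
  rw [one_div, inv_mul_eq_div]
  apply div_le_div_of_nonneg_right _ (by positivity)
  linarith

end Crest.Agent.PT
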