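import Crest.Agent.PT_Iter
import Crest.Agent.PT_PotDefs

/-! Row 149, block D (reference system, blueprint D2-D6): definitions of the block (frozen, owner helper24). -/

set_option autoImplicit false

namespace Crest.Agent.PT

open MeasureTheory Crest.ProbabilityR.Continuum

noncomputable section

/-- number of particles `j ≠ v` at distance `< s` from particle `v` (degree of `v` in `dG x s`). -/
def ndeg {N : ℕ} (x : Fin N → Pt) (s : ℝ) (v : Fin N) : ℕ :=
  (Finset.univ.filter (fun j : Fin N => j ≠ v ∧ dist (x v) (x j) < s)).card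

/-- occupation numbers of the three phases, as naturals -/
def nXn : Fin 3 → ℕ := ![2, 3, 4]

/-- entropy costs (number of slaved particles) of the three phases -/
def kX : Fin 3 → ℝ := ![0, 2, 3]

/-- index set of the forest cover of D3: pairs `(S, π)`, `S` = roots, `π` = parent map (identity on the roots),
admitting a rank function. -/
def forestIdx (N : ℕ) : Finset (Finset (Fin N) × (Fin N → Fin N)) :=
  open Classical in
  Finset.univ.filter (fun q => (∀ i ∈ q.1, q.2 i = i) ∧
    ∃ h : Fin N → ℕ, ∀ i, i ∉ q.1 → h (q.2 i) < h i)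

/-- the piece of configuration space attached to `(S, π)` -/
def forestSet {N : ℕ} (Λ : Set Pt) (s : ℝ) (q : Finset (Fin N) × (Fin N → Fin N)) :
    Set (Fin N → Pt) :=
  {x | (∀ i, x i ∈ Λ) ∧ ∀ i, i ∉ q.1 → dist (x i) (x (q.2 i)) < s}

/-- "hump-like" potentials: what D2/D3 use of `U = U0 + om`. -/
structure HumpLike (U : ℝ → ℝ) (lam σ₂ σ₁ : ℝ) : Prop where
  meas : Measurable U
  nonneg : ∀ r, 0 ≤ U r
  tight : ∀ r, r < σ₁ → lam / 4 ≤ U r
  loose : ∀ r, σ₂ ≤ r → r < σ₁ → lam ≤ U r

/-- the packing number used in the upper bound D3 -/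
def Pup (δ ℓ : ℝ) : ℕ := packingNumber (ℓ / s1 δ)

/-- the packing number used in the lower bound D4 -/
def Plow (δ ℓ : ℝ) : ℕ := packingNumber ((ℓ - 2 * (δ * bb)) / (bb + 2 * (δ * bb)))

end

end Crest.Agent.PT
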