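import Crest.Agent.PT_RefDefs
import Crest.Agent.PT_SpanForest
import Crest.Agent.PT_CaroWei
import Crest.Agent.PT_Pack
import Crest.Agent.PT_Cost

/-! Row 149, task RD (blueprint D2: the three "sum over vertices" bounds).

`ndeg x s v` is the degree of `v` in `dG x s` (`degree_dG`, any decidability instance: `classical`, `SimpleGraph.degree`,
`SimpleGraph.neighborFinset`, `Finset.card_bij`/`congr`).
* `sum_ndeg_le`: `sum_degree_div_le (dG x s)` (PT_SpanForest) + `degree_dG`, `Fintype.card_fin`, `ncomp` is `Nat.card` of the components by definition.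
* `packing_ge_ndeg`: `caro_wei` for `dG x s` gives an independent `I`; `x` is injective on `I` and the points `x i`, `i ∈ I`, have mutual
  distances `≥ s` (non-adjacent, distinct indices); `packing_card_le` for `I.image x`.
* `energy_ge_ndeg`: `energy U x = ∑_{i<j} U(d_ij) = (1/2) ∑_v ∑_{j ≠ v} U(d_vj)` (symmetry of `dist`), and for fixed `v`
  `∑_{j≠v} U(d_vj) ≥ (lam/4) #{d < σ₂} + lam #{σ₂ ≤ d < σ₁}`, `#{σ₂ ≤ d < σ₁} = ndeg σ₁ - ndeg σ₂`.
-/

set_option autoImplicit false

namespace Crest.Agent.PT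

open MeasureTheory Crest.ProbabilityR.Continuum

theorem degree_dG {N : ℕ} (x : Fin N → Pt) (s : ℝ) [DecidableRel (dG x s).Adj] (v : Fin N) :
    (dG x s).degree v = ndeg x s v := by
  classical
  rw [← SimpleGraph.card_neighborFinset_eq_degree]
  unfold ndeg
  congr 1
  ext j
  rw [SimpleGraph.mem_neighborFinset, Finset.mem_filter]
  constructor
  · intro h
    exact ⟨Finset.mem_univ _, h.1.symm, h.2⟩
  · intro h
    exact ⟨h.2.1.symm, h.2.2⟩

theorem ndeg_mono {N : ℕ} (x : Fin N → Pt) {s s' : ℝ} (h : s ≤ s') (v : Fin N) :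
    ndeg x s v ≤ ndeg x s' v := by
  unfold ndeg
  apply Finset.card_le_card
  intro j hj
  rw [Finset.mem_filter] at hj ⊢
  exact ⟨hj.1, hj.2.1, hj.2.2.trans_le h⟩

/-- `N - K(x) ≥ ∑_v t_v/(1+t_v)` -/
theorem sum_ndeg_le {N : ℕ} (x : Fin N → Pt) (s : ℝ) :
    ∑ v : Fin N, (ndeg x s v : ℝ) / (1 + ndeg x s v) ≤ (N : ℝ) - ncomp x s := by
  classical
  have hK := sum_degree_div_le (dG x s)
  rw [Fintype.card_fin] at hK
  simp only [degree_dG] at hK
  exact hK

/-- `P(ℓ/s) ≥ ∑_v 1/(1+deg_v)` -/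
theorem packing_ge_ndeg {N : ℕ} (x : Fin N → Pt) {s ℓ : ℝ} (hs : 0 < s) (v : Pt)
    (hx : ∀ i, x i ∈ cubeAt v ℓ) :
    ∑ i : Fin N, (1 : ℝ) / (1 + ndeg x s i) ≤ packingNumber (ℓ / s) := by
  classical
  obtain ⟨I, hIind, hIcard⟩ := caro_wei (dG x s)
  simp only [degree_dG] at hIcard
  have hsep : ∀ i ∈ I, ∀ j ∈ I, i ≠ j → s ≤ dist (x i) (x j) := by
    intro i hi j hj hij
    by_contra hcon
    exact hIind (Finset.mem_coe.2 hi) (Finset.mem_coe.2 hj) hij ⟨hij, not_le.1 hcon⟩
  have hinj : Set.InjOn x (I : Set (Fin N)) := by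
    intro i hi j hj hij
    by_contra hne
    have := hsep i hi j hj hne
    rw [hij, dist_self] at this
    linarith
  have hIP : I.card ≤ packingNumber (ℓ / s) := by
    rw [← Finset.card_image_of_injOn hinj]
    apply packing_card_le hs v
    · intro y hy
      obtain ⟨i, _, rfl⟩ := Finset.mem_image.1 hy
      exact hx i
    · intro y hy y' hy' hne
      obtain ⟨i, hi, rfl⟩ := Finset.mem_image.1 hy
      obtain ⟨j, hj, rfl⟩ := Finset.mem_image.1 hy'
      exact hsep i hi j hj (fun e => hne (by rw [e]))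
  exact hIcard.trans (Nat.cast_le.2 hIP)

/-- `E[U](x) ≥ lam ∑_v (1/2)(t_v/4 + l_v)` -/
theorem energy_ge_ndeg {U : ℝ → ℝ} {lam σ₂ σ₁ : ℝ} (hU : HumpLike U lam σ₂ σ₁) (hlam : 0 ≤ lam)
    (h21 : σ₂ ≤ σ₁) {N : ℕ} (x : Fin N → Pt) :
    lam * ∑ v : Fin N, (1 / 2 : ℝ) *
        ((ndeg x σ₂ v : ℝ) / 4 + ((ndeg x σ₁ v : ℝ) - ndeg x σ₂ v)) ≤ energy U x := by
  classical
  let a : ℝ → Fin N → Fin N → ℝ := fun s i j => if j ≠ i ∧ dist (x i) (x j) < s then 1 else 0
  have ha : ∀ (s : ℝ) (i : Fin N), ∑ j, a s i j = ndeg x s i := by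
    intro s i
    simp only [a]
    rw [Finset.sum_boole]
    rfl
  let W : Fin N → Fin N → ℝ := fun i j => lam / 4 * a σ₂ i j + lam * (a σ₁ i j - a σ₂ i j)
  have hsumW : ∀ i, ∑ j, W i j = lam / 4 * ndeg x σ₂ i + lam * (ndeg x σ₁ i - ndeg x σ₂ i) := by
    intro i
    simp only [W]
    rw [Finset.sum_add_distrib, ← Finset.mul_sum, ← Finset.mul_sum, Finset.sum_sub_distrib,
      ha, ha]
  have hasymm : ∀ s i j, a s i j = a s j i := by
    intro s i j
    simp only [a, dist_comm (x i) (x j), ne_comm (a := j) (b := i)]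
  have hWsymm : ∀ i j, W i j = W j i := by
    intro i j
    simp only [W, hasymm _ i j]
  have hWdiag : ∀ i, W i i = 0 := by
    intro i
    simp [W, a]
  have hWle : ∀ i j, W i j ≤ U (dist (x i) (x j)) := by
    intro i j
    by_cases hij : j = i
    · have : W i j = 0 := by simp [W, a, hij]
      rw [this]; exact hU.nonneg _
    by_cases h1 : dist (x i) (x j) < σ₂
    · have h2 : dist (x i) (x j) < σ₁ := h1.trans_le h21
      have : W i j = lam / 4 := by simp [W, a, hij, h1, h2]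
      rw [this]
      exact hU.tight _ h2
    · by_cases h2 : dist (x i) (x j) < σ₁
      · have : W i j = lam := by simp [W, a, hij, h1, h2]
        rw [this]
        exact hU.loose _ (not_lt.1 h1) h2
      · have : W i j = 0 := by simp [W, a, h1, h2]
        rw [this]
        exact hU.nonneg _
  have hE : (∑ i, ∑ j, W i j) / 2 ≤ energy U x := by
    rw [← sum_pairs_eq_half W hWsymm hWdiag]
    unfold energy
    exact Finset.sum_le_sum fun p _ => hWle _ _
  refine le_trans (le_of_eq ?_) hE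
  rw [Finset.mul_sum, Finset.sum_div]
  refine Finset.sum_congr rfl fun i _ => ?_
  rw [hsumW]
  ring

end Crest.Agent.PT
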