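import Crest.Agent.PT_RefUpper
import Crest.Agent.PT_RefArith
import Crest.Agent.PT_Pot

/-! Row 149, task RF (blueprint D6: the upper bound for `Fk .. 1`).  `ℓ = lk T 1`, `U = U0 δ lam + om`, `β = z.1`, `ν = z.2`.

* `phik_one`: `Alt p lam T 1 = 0` (empty `Finset.Ico 1 1`).  `humpLike_U`: from `U0_nonneg`, `U0_ge_quarter`, `U0_eq_lam`, `CoreOK`.
* `Fk_one_le`: `Fk = FkM .. 0` is a `Finset.sup'`; `Finset.sup'_le`. For `N ≤ Nmax`: `zk > 0` (`ZW_pos`, `vol_cube`, `ℓ > 0`), and `ref_upper` with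
  `μ = ν + 1/lam`, `π = max3 (LX · (β, μ))` (`tropical`, `max3_LX_bounds` for `π ≥ 0`; `|μ - 7/4| ≤ 1/100 + 1/lam ≤ 1/50` as `lam ≥ 100`)
  gives `log zk ≤ ℓ^3 + N - lam μ N + lam π P = ℓ^3 - lam ν N + lam π P`.  Divide by `lam pb ℓ^3`; `π ≤ max3 (LX · z) + 4/lam` (`max3_LX_shift`). -/

set_option autoImplicit false

namespace Crest.Agent.PT

open MeasureTheory Crest.ProbabilityR.Continuum

theorem phik_one (om : ℝ → ℝ) (p δ lam T : ℝ) :
    phik om p δ lam T 1 = fun r => U0 δ lam r + om r := by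
  funext r
  simp [phik, Alt]

theorem humpLike_U {δ lam : ℝ} {om : ℝ → ℝ} (hδ0 : 0 < δ) (hlam : 0 ≤ lam) (hom : CoreOK lam om) :
    HumpLike (fun r => U0 δ lam r + om r) lam (s2 lam) (s1 δ) where
  meas := (continuous_U0 δ lam).measurable.add hom.meas
  nonneg := fun r => add_nonneg (U0_nonneg hlam r) (hom.nonneg r)
  tight := fun r hr => by
    have h1 := U0_ge_quarter hδ0 hlam hr.le
    have h2 := hom.nonneg r
    linarith
  loose := fun r h1 h2 => by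
    have h3 := U0_eq_lam hδ0 hlam h1 h2.le
    have h4 := hom.nonneg r
    linarith

/-- D6, upper half. -/
theorem Fk_one_le {p δ lam T : ℝ} {om : ℝ → ℝ} (hp1 : 1 ≤ p) (hδ0 : 0 < δ) (hδ1 : δ ≤ 1 / 100)
    (hlam : 100 ≤ lam) (hs2 : s2 lam ≤ δ * bb) (hom : CoreOK lam om) (hT : 1 ≤ T)
    {z : ℝ × ℝ} (hz : z ∈ Box (1, 7 / 4) (1 / 100)) :
    Fk om p δ lam T 1 z ≤ 1 / (lam * pb p) +
      (max3 (fun X => LX X z) + 4 / lam) * ((Pup δ (lk T 1) : ℝ) / (pb p * (lk T 1) ^ 3)) := by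
  obtain ⟨β, ν⟩ := z
  obtain ⟨hz1, hz2⟩ := hz
  simp only at hz1 hz2
  have hlam0 : 0 < lam := by linarith
  have hb := bb_pos
  have hℓ : 0 < lk T 1 := lk_pos (by linarith) 1
  set ℓ := lk T 1 with hℓdef
  have hpb : 0 < pb p := by
    have := pb_pos hp1
    linarith
  have hβ0 : 0 ≤ β := by
    have := (abs_le.1 hz1).1
    linarith
  have hU := humpLike_U (om := om) hδ0 hlam0.le hom
  have h21 : s2 lam ≤ s1 δ := by
    unfold s1
    nlinarith
  have hinv : 1 / lam ≤ 1 / 100 := by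
    rw [div_le_div_iff₀ hlam0 (by norm_num)]
    linarith
  have hinv0 : 0 < 1 / lam := by positivity
  set μ : ℝ := ν + 1 / lam with hμdef
  have hβ' : |β - 1| ≤ 1 / 50 := hz1.trans (by norm_num)
  have hμ' : |μ - 7 / 4| ≤ 1 / 50 := by
    have h := abs_le.1 hz2
    rw [abs_le]
    constructor <;> linarith [h.1, h.2]
  set π : ℝ := max3 (fun X => LX X (β, μ)) with hπdef
  have hπ2 : 2 ≤ π := (max3_LX_bounds (z := (β, μ)) ⟨hβ', hμ'⟩).1
  have hπle : π ≤ max3 (fun X => LX X (β, ν)) + 4 / lam := by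
    have := max3_LX_shift β ν hinv0.le
    calc π ≤ max3 (fun X => LX X (β, ν)) + 4 * (1 / lam) := this
      _ = max3 (fun X => LX X (β, ν)) + 4 / lam := by ring
  have hP0 : (0 : ℝ) ≤ (Pup δ ℓ : ℝ) / (pb p * ℓ ^ 3) := by positivity
  unfold Fk FkM
  apply Finset.sup'_le
  intro N _
  simp only
  have hzk : zk om p δ lam T 1 β N = partitionFn (fun r => U0 δ lam r + om r) ℓ N β := by
    unfold zk
    rw [phik_one]
  have hpos : 0 < zk om p δ lam T 1 β N := by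
    rw [hzk, partitionFn_eq_ZW]
    refine ZW_pos (adm_radW hU.meas (c := 0) (fun r => by simpa using hU.nonneg r) hβ0)
      (reg_cube ℓ) ?_ N
    rw [vol_cube hℓ.le]
    positivity
  have hup := ref_upper hU hlam0.le (s2_pos lam) h21 (vol_ball_s2 lam) hβ0 (by linarith : 0 ≤ π)
    (fun n hn => tropical hβ' hμ' n hn) hℓ.le N
  have hlog : Real.log (zk om p δ lam T 1 β N) ≤
      ℓ ^ 3 + N - lam * (μ * N - π * (Pup δ ℓ : ℝ)) := by
    rw [Real.log_le_iff_le_exp hpos, hzk]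
    exact hup
  have hlog' : Real.log (zk om p δ lam T 1 β N) ≤
      ℓ ^ 3 - lam * ν * N + lam * π * (Pup δ ℓ : ℝ) := by
    have : lam * (μ * N) = lam * ν * N + N := by
      rw [hμdef]
      field_simp
    nlinarith
  have hD : 0 < lam * pb p * ℓ ^ 3 := by positivity
  have hdiv : Real.log (zk om p δ lam T 1 β N) / (lam * pb p * ℓ ^ 3) ≤
      (ℓ ^ 3 - lam * ν * N + lam * π * (Pup δ ℓ : ℝ)) / (lam * pb p * ℓ ^ 3) :=
    div_le_div_of_nonneg_right hlog' hD.le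
  have heq : (ℓ ^ 3 - lam * ν * N + lam * π * (Pup δ ℓ : ℝ)) / (lam * pb p * ℓ ^ 3) =
      1 / (lam * pb p) - ν * ((N : ℝ) / (pb p * ℓ ^ 3)) + π * ((Pup δ ℓ : ℝ) / (pb p * ℓ ^ 3)) := by
    field_simp
  have hfin : π * ((Pup δ ℓ : ℝ) / (pb p * ℓ ^ 3)) ≤
      (max3 (fun X => LX X (β, ν)) + 4 / lam) * ((Pup δ ℓ : ℝ) / (pb p * ℓ ^ 3)) :=
    mul_le_mul_of_nonneg_right hπle hP0
  rw [heq] at hdiv
  have h0 : β * 0 * ((N : ℝ) / (pb p * ℓ ^ 3)) ^ 2 / 2 = 0 := by ring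
  rw [h0]
  linarith

end Crest.Agent.PT
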