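import Crest.Agent.PT_Basic

/-! Row 149: core of the block decompositions (blueprint I5, I6, I5', I6'), in `lintegral` form with
one-body activities.

`Eg w x = ½ ∑ i j, w (x i) (x j)` (diagonal included), `Lg w u ι = ∫⁻ x, (∏ i, u (x i)) * exp (-Eg w x)`,
`Zg w u N = Lg w u (Fin N) / N!`.  With `act w Λ = 1_Λ * exp (w y y / 2)` one has
`ZW w Λ N = (Zg w (act w Λ) N).toReal`. -/

set_option autoImplicit false

namespace Crest.Agent.PT

open MeasureTheory Crest.ProbabilityR.Continuum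
open scoped ENNReal

noncomputable section

/-- symmetric form of the energy, diagonal included, arbitrary finite index type -/
def Eg {ι : Type*} [Fintype ι] (w : Pt → Pt → ℝ) (x : ι → Pt) : ℝ :=
  (1 / 2) * ∑ i, ∑ j, w (x i) (x j)

/-- unnormalised partition function with one-body activity `u` -/
def Lg (w : Pt → Pt → ℝ) (u : Pt → ℝ≥0∞) (ι : Type*) [Fintype ι] : ℝ≥0∞ :=
  ∫⁻ x : ι → Pt, (∏ i, u (x i)) * ENNReal.ofReal (Real.exp (-(Eg w x)))

/-- normalised partition function with one-body activity `u` -/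
def Zg (w : Pt → Pt → ℝ) (u : Pt → ℝ≥0∞) (N : ℕ) : ℝ≥0∞ :=
  ((Nat.factorial N : ℕ) : ℝ≥0∞)⁻¹ * Lg w u (Fin N)

/-- the activity of a region -/
def act (w : Pt → Pt → ℝ) (Λ : Set Pt) : Pt → ℝ≥0∞ :=
  Λ.indicator (fun y => ENNReal.ofReal (Real.exp (w y y / 2)))

section gen
variable {ι : Type*} [Fintype ι]

theorem measurable_Eg {w : Pt → Pt → ℝ} (hw : Adm w) :
    Measurable (fun x : ι → Pt => Eg w x) := by
  unfold Eg
  refine Measurable.const_mul ?_ _
  refine Finset.measurable_sum _ (fun i _ => Finset.measurable_sum _ (fun j _ => ?_))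
  have h : Measurable (fun x : ι → Pt => (x i, x j)) :=
    (measurable_pi_apply i).prodMk (measurable_pi_apply j)
  exact hw.meas.comp h

theorem measurable_prod_u {u : Pt → ℝ≥0∞} (hu : Measurable u) :
    Measurable (fun x : ι → Pt => ∏ i, u (x i)) :=
  Finset.measurable_prod _ (fun i _ => hu.comp (measurable_pi_apply i))

theorem measurable_bw {w : Pt → Pt → ℝ} (hw : Adm w) {u : Pt → ℝ≥0∞} (hu : Measurable u) :
    Measurable (fun x : ι → Pt => (∏ i, u (x i)) * ENNReal.ofReal (Real.exp (-(Eg w x)))) :=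
  (measurable_prod_u hu).mul
    (ENNReal.measurable_ofReal.comp (Real.measurable_exp.comp (measurable_Eg hw).neg))

theorem Eg_split {w : Pt → Pt → ℝ} (hs : ∀ x y, w x y = w y x) (p : ι → Prop) [DecidablePred p]
    [i1 : Fintype {i // p i}] [i2 : Fintype {j // ¬ p j}] (x : ι → Pt) :
    Eg w x = Eg w (fun i : {i // p i} => x i) + Eg w (fun i : {i // ¬ p i} => x i)
      + ∑ i : {i // p i}, ∑ j : {j // ¬ p j}, w (x i) (x j) := by
  obtain rfl : i1 = Subtype.fintype p := Subsingleton.elim _ _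
  obtain rfl : i2 = Subtype.fintype (fun j => ¬ p j) := Subsingleton.elim _ _
  unfold Eg
  have h1 : ∀ f : ι → ℝ, ∑ i, f i = ∑ i : {i // p i}, f i + ∑ i : {i // ¬ p i}, f i :=
    fun f => (Fintype.sum_subtype_add_sum_subtype p f).symm
  rw [h1 (fun i => ∑ j, w (x i) (x j))]
  have h2 : ∀ i : ι, ∑ j, w (x i) (x j)
      = ∑ j : {i // p i}, w (x i) (x j) + ∑ j : {i // ¬ p i}, w (x i) (x j) :=
    fun i => h1 (fun j => w (x i) (x j))
  simp only [h2, Finset.sum_add_distrib]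
  have h3 : ∑ i : {i // ¬ p i}, ∑ j : {i // p i}, w (x i) (x j)
      = ∑ i : {i // p i}, ∑ j : {j // ¬ p j}, w (x i) (x j) := by
    rw [Finset.sum_comm]
    exact Finset.sum_congr rfl (fun i _ => Finset.sum_congr rfl (fun j _ => hs _ _))
  rw [h3]
  ring

/-- change of variables `x ↦ (x|p, x|¬p)` -/
theorem lintegral_split {w : Pt → Pt → ℝ} (hw : Adm w) {u₁ u₂ : Pt → ℝ≥0∞} (h₁ : Measurable u₁)
    (h₂ : Measurable u₂) (p : ι → Prop) [DecidablePred p]
    [i1 : Fintype {i // p i}] [i2 : Fintype {j // ¬ p j}] :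
    ∫⁻ x : ι → Pt, (∏ i : {i // p i}, u₁ (x i)) * (∏ j : {j // ¬ p j}, u₂ (x j)) *
        ENNReal.ofReal (Real.exp (-(Eg w x)))
      = ∫⁻ q : ({i // p i} → Pt) × ({j // ¬ p j} → Pt),
          (∏ i, u₁ (q.1 i)) * (∏ j, u₂ (q.2 j)) *
          ENNReal.ofReal (Real.exp (-(Eg w q.1 + Eg w q.2 + ∑ i, ∑ j, w (q.1 i) (q.2 j)))) := by
  obtain rfl : i1 = Subtype.fintype p := Subsingleton.elim _ _
  obtain rfl : i2 = Subtype.fintype (fun j => ¬ p j) := Subsingleton.elim _ _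
  have hmp := volume_preserving_piEquivPiSubtypeProd (fun _ : ι => Pt) p
  have hmeas : Measurable (fun q : ({i // p i} → Pt) × ({j // ¬ p j} → Pt) =>
      (∏ i, u₁ (q.1 i)) * (∏ j, u₂ (q.2 j)) *
      ENNReal.ofReal (Real.exp (-(Eg w q.1 + Eg w q.2 + ∑ i, ∑ j, w (q.1 i) (q.2 j))))) := by
    refine Measurable.mul (Measurable.mul ?_ ?_) ?_
    · exact (measurable_prod_u h₁).comp measurable_fst
    · exact (measurable_prod_u h₂).comp measurable_snd
    · refine ENNReal.measurable_ofReal.comp (Real.measurable_exp.comp (Measurable.neg ?_))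
      refine Measurable.add (Measurable.add ?_ ?_) ?_
      · exact (measurable_Eg hw).comp measurable_fst
      · exact (measurable_Eg hw).comp measurable_snd
      · refine Finset.measurable_sum _ (fun i _ => Finset.measurable_sum _ (fun j _ => ?_))
        have h : Measurable (fun q : ({i // p i} → Pt) × ({j // ¬ p j} → Pt) => (q.1 i, q.2 j)) :=
          ((measurable_pi_apply i).comp measurable_fst).prodMk
            ((measurable_pi_apply j).comp measurable_snd)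
        exact hw.meas.comp h
  rw [← hmp.lintegral_comp hmeas]
  refine lintegral_congr (fun x => ?_)
  rw [Eg_split hw.symm p x]
  rfl


/-- upper bound for one term of the two-block decomposition -/
theorem split_le {w : Pt → Pt → ℝ} (hw : Adm w) {u₁ u₂ : Pt → ℝ≥0∞} (h₁ : Measurable u₁)
    (h₂ : Measurable u₂) (hc : ∀ x y, u₁ x ≠ 0 → u₂ y ≠ 0 → 0 ≤ w x y)
    (p : ι → Prop) [DecidablePred p] [Fintype {i // p i}] [Fintype {j // ¬ p j}] :
    ∫⁻ x : ι → Pt, (∏ i : {i // p i}, u₁ (x i)) * (∏ j : {j // ¬ p j}, u₂ (x j)) *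
        ENNReal.ofReal (Real.exp (-(Eg w x)))
      ≤ Lg w u₁ {i // p i} * Lg w u₂ {j // ¬ p j} := by
  rw [lintegral_split hw h₁ h₂ p]
  unfold Lg
  rw [← lintegral_prod_mul (measurable_bw hw h₁).aemeasurable (measurable_bw hw h₂).aemeasurable]
  refine lintegral_mono (fun q => ?_)
  show (∏ i, u₁ (q.1 i)) * (∏ j, u₂ (q.2 j)) *
      ENNReal.ofReal (Real.exp (-(Eg w q.1 + Eg w q.2 + ∑ i, ∑ j, w (q.1 i) (q.2 j))))
    ≤ ((∏ i, u₁ (q.1 i)) * ENNReal.ofReal (Real.exp (-(Eg w q.1)))) *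
      ((∏ j, u₂ (q.2 j)) * ENNReal.ofReal (Real.exp (-(Eg w q.2))))
  by_cases hP1 : (∏ i, u₁ (q.1 i)) = 0
  · simp [hP1]
  by_cases hP2 : (∏ j, u₂ (q.2 j)) = 0
  · simp [hP2]
  have hn1 : ∀ i, u₁ (q.1 i) ≠ 0 := fun i => (Finset.prod_ne_zero_iff.mp hP1) i (Finset.mem_univ _)
  have hn2 : ∀ j, u₂ (q.2 j) ≠ 0 := fun j => (Finset.prod_ne_zero_iff.mp hP2) j (Finset.mem_univ _)
  have hC : 0 ≤ ∑ i, ∑ j, w (q.1 i) (q.2 j) :=
    Finset.sum_nonneg (fun i _ => Finset.sum_nonneg (fun j _ => hc _ _ (hn1 i) (hn2 j)))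
  have hexp : Real.exp (-(Eg w q.1 + Eg w q.2 + ∑ i, ∑ j, w (q.1 i) (q.2 j)))
      ≤ Real.exp (-(Eg w q.1)) * Real.exp (-(Eg w q.2)) := by
    rw [← Real.exp_add]
    apply Real.exp_le_exp.mpr
    linarith
  calc (∏ i, u₁ (q.1 i)) * (∏ j, u₂ (q.2 j)) *
      ENNReal.ofReal (Real.exp (-(Eg w q.1 + Eg w q.2 + ∑ i, ∑ j, w (q.1 i) (q.2 j))))
      ≤ (∏ i, u₁ (q.1 i)) * (∏ j, u₂ (q.2 j)) *
        ENNReal.ofReal (Real.exp (-(Eg w q.1)) * Real.exp (-(Eg w q.2))) :=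
        mul_le_mul_right (ENNReal.ofReal_le_ofReal hexp) _
    _ = _ := by
        rw [ENNReal.ofReal_mul (Real.exp_pos _).le]
        ring

/-- lower bound for one term of the two-block decomposition -/
theorem split_ge {w : Pt → Pt → ℝ} (hw : Adm w) {u₁ u₂ u₂' : Pt → ℝ≥0∞} (h₁ : Measurable u₁)
    (h₂ : Measurable u₂) (h₂' : Measurable u₂') (p : ι → Prop) [DecidablePred p]
    [Fintype {i // p i}] [Fintype {j // ¬ p j}]
    (hc : ∀ y, u₂' y ≠ 0 → ∃ c : ℝ, (∀ x, u₁ x ≠ 0 → w x y ≤ -c) ∧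
      u₂' y ≤ u₂ y * ENNReal.ofReal (Real.exp ((Fintype.card {i // p i} : ℝ) * c))) :
    Lg w u₁ {i // p i} * Lg w u₂' {j // ¬ p j}
      ≤ ∫⁻ x : ι → Pt, (∏ i : {i // p i}, u₁ (x i)) * (∏ j : {j // ¬ p j}, u₂ (x j)) *
        ENNReal.ofReal (Real.exp (-(Eg w x))) := by
  rw [lintegral_split hw h₁ h₂ p]
  unfold Lg
  rw [← lintegral_prod_mul (measurable_bw hw h₁).aemeasurable (measurable_bw hw h₂').aemeasurable]
  refine lintegral_mono (fun q => ?_)
  show ((∏ i, u₁ (q.1 i)) * ENNReal.ofReal (Real.exp (-(Eg w q.1)))) *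
      ((∏ j, u₂' (q.2 j)) * ENNReal.ofReal (Real.exp (-(Eg w q.2))))
    ≤ (∏ i, u₁ (q.1 i)) * (∏ j, u₂ (q.2 j)) *
      ENNReal.ofReal (Real.exp (-(Eg w q.1 + Eg w q.2 + ∑ i, ∑ j, w (q.1 i) (q.2 j))))
  by_cases hP1 : (∏ i, u₁ (q.1 i)) = 0
  · simp [hP1]
  by_cases hP2 : (∏ j, u₂' (q.2 j)) = 0
  · simp [hP2]
  have hn1 : ∀ i, u₁ (q.1 i) ≠ 0 := fun i => (Finset.prod_ne_zero_iff.mp hP1) i (Finset.mem_univ _)
  have hn2 : ∀ j, u₂' (q.2 j) ≠ 0 := fun j => (Finset.prod_ne_zero_iff.mp hP2) j (Finset.mem_univ _)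
  choose c hc1 hc2 using fun j => hc (q.2 j) (hn2 j)
  have hC : ∑ i, ∑ j, w (q.1 i) (q.2 j) ≤ -((Fintype.card {i // p i} : ℝ) * ∑ j, c j) := by
    calc ∑ i, ∑ j, w (q.1 i) (q.2 j) ≤ ∑ _i : {i // p i}, ∑ j, -(c j) :=
          Finset.sum_le_sum (fun i _ => Finset.sum_le_sum (fun j _ => hc1 j _ (hn1 i)))
      _ = -((Fintype.card {i // p i} : ℝ) * ∑ j, c j) := by
          rw [Finset.sum_const, Finset.card_univ, nsmul_eq_mul, Finset.sum_neg_distrib]
          ring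
  have hP : (∏ j, u₂' (q.2 j)) ≤ (∏ j, u₂ (q.2 j)) *
      ENNReal.ofReal (Real.exp ((Fintype.card {i // p i} : ℝ) * ∑ j, c j)) := by
    calc (∏ j, u₂' (q.2 j))
        ≤ ∏ j, (u₂ (q.2 j) * ENNReal.ofReal (Real.exp ((Fintype.card {i // p i} : ℝ) * c j))) :=
          Finset.prod_le_prod' (fun j _ => hc2 j)
      _ = _ := by
          rw [Finset.prod_mul_distrib, ← ENNReal.ofReal_prod_of_nonneg
            (fun j _ => (Real.exp_pos _).le), ← Real.exp_sum, Finset.mul_sum]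
  have hexp : Real.exp (-(Eg w q.1)) * Real.exp (-(Eg w q.2)) *
      Real.exp ((Fintype.card {i // p i} : ℝ) * ∑ j, c j)
      ≤ Real.exp (-(Eg w q.1 + Eg w q.2 + ∑ i, ∑ j, w (q.1 i) (q.2 j))) := by
    rw [← Real.exp_add, ← Real.exp_add]
    apply Real.exp_le_exp.mpr
    linarith
  calc ((∏ i, u₁ (q.1 i)) * ENNReal.ofReal (Real.exp (-(Eg w q.1)))) *
      ((∏ j, u₂' (q.2 j)) * ENNReal.ofReal (Real.exp (-(Eg w q.2))))
      ≤ ((∏ i, u₁ (q.1 i)) * ENNReal.ofReal (Real.exp (-(Eg w q.1)))) *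
        (((∏ j, u₂ (q.2 j)) *
          ENNReal.ofReal (Real.exp ((Fintype.card {i // p i} : ℝ) * ∑ j, c j))) *
          ENNReal.ofReal (Real.exp (-(Eg w q.2)))) :=
        mul_le_mul_right (mul_le_mul_left hP _) _
    _ = (∏ i, u₁ (q.1 i)) * (∏ j, u₂ (q.2 j)) *
        ENNReal.ofReal (Real.exp (-(Eg w q.1)) * Real.exp (-(Eg w q.2)) *
          Real.exp ((Fintype.card {i // p i} : ℝ) * ∑ j, c j)) := by
        rw [ENNReal.ofReal_mul (by positivity), ENNReal.ofReal_mul (Real.exp_pos _).le]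
        ring
    _ ≤ _ := mul_le_mul_right (ENNReal.ofReal_le_ofReal hexp) _

/-- relabelling of the particles -/
theorem Lg_congr {ι' : Type*} [Fintype ι'] (w : Pt → Pt → ℝ) (hw : Adm w) {u : Pt → ℝ≥0∞}
    (hu : Measurable u) (e : ι ≃ ι') : Lg w u ι = Lg w u ι' := by
  unfold Lg
  have hmp := volume_measurePreserving_piCongrLeft (fun _ : ι' => Pt) e
  rw [← hmp.lintegral_comp (measurable_bw hw hu)]
  refine lintegral_congr (fun x => ?_)
  have hx : ∀ i, (MeasurableEquiv.piCongrLeft (fun _ : ι' => Pt) e) x (e i) = x i := by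
    intro i
    rw [MeasurableEquiv.coe_piCongrLeft]
    exact Equiv.piCongrLeft_apply_apply (fun _ : ι' => Pt) e x i
  have h1 : ∏ i', u ((MeasurableEquiv.piCongrLeft (fun _ : ι' => Pt) e) x i') = ∏ i, u (x i) := by
    rw [← Equiv.prod_comp e]
    exact Finset.prod_congr rfl (fun i _ => by rw [hx])
  have h2 : Eg w ((MeasurableEquiv.piCongrLeft (fun _ : ι' => Pt) e) x) = Eg w x := by
    unfold Eg
    congr 1
    rw [← Equiv.sum_comp e]
    refine Finset.sum_congr rfl (fun i _ => ?_)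
    rw [← Equiv.sum_comp e]
    exact Finset.sum_congr rfl (fun j _ => by rw [hx, hx])
  rw [h1, h2]

theorem Lg_eq_of_card (w : Pt → Pt → ℝ) (hw : Adm w) {u : Pt → ℝ≥0∞}
    (hu : Measurable u) {n : ℕ} (h : Fintype.card ι = n) : Lg w u ι = Lg w u (Fin n) :=
  Lg_congr w hw hu (Fintype.equivFinOfCardEq h)

/-- monotonicity in the activity -/
theorem Lg_mono (w : Pt → Pt → ℝ) {u u' : Pt → ℝ≥0∞} (h : ∀ y, u y ≤ u' y) :
    Lg w u ι ≤ Lg w u' ι := by
  unfold Lg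
  refine lintegral_mono (fun x => ?_)
  exact mul_le_mul_left (Finset.prod_le_prod' (fun i _ => h _)) _

/-- scaling of the activity -/
theorem Lg_smul (w : Pt → Pt → ℝ) (hw : Adm w) {u : Pt → ℝ≥0∞} (hu : Measurable u) (a : ℝ≥0∞) :
    Lg w (fun y => a * u y) ι = a ^ (Fintype.card ι) * Lg w u ι := by
  unfold Lg
  rw [← lintegral_const_mul _ (measurable_bw hw hu)]
  refine lintegral_congr (fun x => ?_)
  rw [Finset.prod_mul_distrib, Finset.prod_const, Finset.card_univ]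
  ring

/-- the two-block decomposition -/
theorem Lg_add [DecidableEq ι] {w : Pt → Pt → ℝ} (hw : Adm w) {u₁ u₂ : Pt → ℝ≥0∞}
    (h₁ : Measurable u₁) (h₂ : Measurable u₂) :
    Lg w (fun y => u₁ y + u₂ y) ι = ∑ S ∈ (Finset.univ : Finset ι).powerset,
      ∫⁻ x : ι → Pt, (∏ i : {i // i ∈ S}, u₁ (x i)) * (∏ j : {j // j ∉ S}, u₂ (x j)) *
        ENNReal.ofReal (Real.exp (-(Eg w x))) := by
  unfold Lg
  simp only [Finset.prod_add, Finset.sum_mul]
  rw [lintegral_finsetSum]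
  · refine Finset.sum_congr rfl (fun S _ => lintegral_congr (fun x => ?_))
    congr 2
    · exact (Finset.prod_coe_sort S (fun i => u₁ (x i))).symm
    · exact Finset.prod_subtype (Finset.univ \ S) (fun i => by simp) (fun i => u₂ (x i))
  · intro S _
    refine Measurable.mul (Measurable.mul ?_ ?_) ?_
    · exact Finset.measurable_prod _ (fun i _ => h₁.comp (measurable_pi_apply i))
    · exact Finset.measurable_prod _ (fun i _ => h₂.comp (measurable_pi_apply i))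
    · exact ENNReal.measurable_ofReal.comp (Real.measurable_exp.comp (measurable_Eg hw).neg)

end gen

theorem inv_factorial_mul_choose {N k : ℕ} (hk : k ≤ N) :
    ((Nat.factorial N : ℕ) : ℝ≥0∞)⁻¹ * ((N.choose k : ℕ) : ℝ≥0∞)
      = ((Nat.factorial k : ℕ) : ℝ≥0∞)⁻¹ * ((Nat.factorial (N - k) : ℕ) : ℝ≥0∞)⁻¹ := by
  have h : ((Nat.factorial N : ℕ) : ℝ≥0∞)
      = ((N.choose k : ℕ) : ℝ≥0∞) * ((Nat.factorial k : ℕ) : ℝ≥0∞)
        * ((Nat.factorial (N - k) : ℕ) : ℝ≥0∞) := by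
    exact_mod_cast (Nat.choose_mul_factorial_mul_factorial hk).symm
  have hc0 : ((N.choose k : ℕ) : ℝ≥0∞) ≠ 0 := by
    exact_mod_cast (Nat.choose_pos hk).ne'
  have hct : ((N.choose k : ℕ) : ℝ≥0∞) ≠ ⊤ := ENNReal.natCast_ne_top _
  have ha0 : ((Nat.factorial k : ℕ) : ℝ≥0∞) ≠ 0 := by
    exact_mod_cast (Nat.factorial_pos k).ne'
  have hat : ((Nat.factorial k : ℕ) : ℝ≥0∞) ≠ ⊤ := ENNReal.natCast_ne_top _
  rw [h, ENNReal.mul_inv (Or.inl (mul_ne_zero hc0 ha0)) (Or.inl (ENNReal.mul_ne_top hct hat)),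
    ENNReal.mul_inv (Or.inl hc0) (Or.inl hct)]
  calc ((N.choose k : ℕ) : ℝ≥0∞)⁻¹ * ((Nat.factorial k : ℕ) : ℝ≥0∞)⁻¹
        * ((Nat.factorial (N - k) : ℕ) : ℝ≥0∞)⁻¹ * ((N.choose k : ℕ) : ℝ≥0∞)
      = (((N.choose k : ℕ) : ℝ≥0∞)⁻¹ * ((N.choose k : ℕ) : ℝ≥0∞))
        * (((Nat.factorial k : ℕ) : ℝ≥0∞)⁻¹ * ((Nat.factorial (N - k) : ℕ) : ℝ≥0∞)⁻¹) := by ring
    _ = _ := by rw [ENNReal.inv_mul_cancel hc0 hct, one_mul]

theorem card_subtype_not_mem {N : ℕ} (S : Finset (Fin N)) :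
    Fintype.card {j // j ∉ S} = N - S.card := by
  rw [Fintype.card_subtype_compl, Fintype.card_coe, Fintype.card_fin]

/-- two blocks, upper bound (activity form of I5) -/
theorem Zg_add_le {w : Pt → Pt → ℝ} (hw : Adm w) {u₁ u₂ : Pt → ℝ≥0∞} (h₁ : Measurable u₁)
    (h₂ : Measurable u₂) (hc : ∀ x y, u₁ x ≠ 0 → u₂ y ≠ 0 → 0 ≤ w x y) (N : ℕ) :
    Zg w (fun y => u₁ y + u₂ y) N ≤ ∑ k ∈ Finset.range (N + 1), Zg w u₁ k * Zg w u₂ (N - k) := by
  unfold Zg
  rw [Lg_add hw h₁ h₂]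
  have hT : ∀ S ∈ (Finset.univ : Finset (Fin N)).powerset,
      ∫⁻ x : Fin N → Pt, (∏ i : {i // i ∈ S}, u₁ (x i)) * (∏ j : {j // j ∉ S}, u₂ (x j)) *
        ENNReal.ofReal (Real.exp (-(Eg w x)))
      ≤ (fun k => Lg w u₁ (Fin k) * Lg w u₂ (Fin (N - k))) S.card := by
    intro S _
    refine (split_le hw h₁ h₂ hc (fun i => i ∈ S)).trans_eq ?_
    rw [Lg_eq_of_card w hw h₁ (Fintype.card_coe S),
      Lg_eq_of_card w hw h₂ (card_subtype_not_mem S)]
  refine (mul_le_mul_right (Finset.sum_le_sum hT) _).trans_eq ?_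
  rw [Finset.sum_powerset_apply_card (fun k => Lg w u₁ (Fin k) * Lg w u₂ (Fin (N - k))),
    Finset.card_univ, Fintype.card_fin, Finset.mul_sum]
  refine Finset.sum_congr rfl (fun k hk => ?_)
  have hk' : k ≤ N := Nat.lt_succ_iff.mp (Finset.mem_range.mp hk)
  rw [nsmul_eq_mul, ← mul_assoc, inv_factorial_mul_choose hk']
  ring

/-- two blocks, lower bound (activity form of I6, with a non-uniform cross interaction) -/
theorem Zg_add_ge {w : Pt → Pt → ℝ} (hw : Adm w) {u₁ u₂ u₂' : Pt → ℝ≥0∞} (h₁ : Measurable u₁)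
    (h₂ : Measurable u₂) (h₂' : Measurable u₂') (N₁ N₂ : ℕ)
    (hc : ∀ y, u₂' y ≠ 0 → ∃ c : ℝ, (∀ x, u₁ x ≠ 0 → w x y ≤ -c) ∧
      u₂' y ≤ u₂ y * ENNReal.ofReal (Real.exp ((N₁ : ℝ) * c))) :
    Zg w u₁ N₁ * Zg w u₂' N₂ ≤ Zg w (fun y => u₁ y + u₂ y) (N₁ + N₂) := by
  unfold Zg
  rw [Lg_add hw h₁ h₂]
  have hT : ∀ S ∈ (Finset.univ : Finset (Fin (N₁ + N₂))).powersetCard N₁,
      Lg w u₁ (Fin N₁) * Lg w u₂' (Fin N₂) ≤
      ∫⁻ x : Fin (N₁ + N₂) → Pt, (∏ i : {i // i ∈ S}, u₁ (x i)) * (∏ j : {j // j ∉ S}, u₂ (x j)) *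
        ENNReal.ofReal (Real.exp (-(Eg w x))) := by
    intro S hS
    have hcard : S.card = N₁ := (Finset.mem_powersetCard.mp hS).2
    have hc1 : Fintype.card {i // i ∈ S} = N₁ := by rw [Fintype.card_coe, hcard]
    have hc2 : Fintype.card {j // j ∉ S} = N₂ := by
      rw [card_subtype_not_mem, hcard]; omega
    have := split_ge hw h₁ h₂ h₂' (fun i => i ∈ S) (by rw [hc1]; exact hc)
    rwa [Lg_eq_of_card w hw h₁ hc1, Lg_eq_of_card w hw h₂' hc2] at this
  have hsub : (Finset.univ : Finset (Fin (N₁ + N₂))).powersetCard N₁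
      ⊆ (Finset.univ : Finset (Fin (N₁ + N₂))).powerset := by
    intro S _
    exact Finset.mem_powerset.mpr (Finset.subset_univ _)
  have hsum : (((N₁ + N₂).choose N₁ : ℕ) : ℝ≥0∞) * (Lg w u₁ (Fin N₁) * Lg w u₂' (Fin N₂))
      ≤ ∑ S ∈ (Finset.univ : Finset (Fin (N₁ + N₂))).powerset,
        ∫⁻ x : Fin (N₁ + N₂) → Pt, (∏ i : {i // i ∈ S}, u₁ (x i)) *
          (∏ j : {j // j ∉ S}, u₂ (x j)) * ENNReal.ofReal (Real.exp (-(Eg w x))) := by
    refine le_trans ?_ (Finset.sum_le_sum_of_subset hsub)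
    refine le_trans (le_of_eq ?_) (Finset.sum_le_sum hT)
    rw [Finset.sum_const, Finset.card_powersetCard, Finset.card_univ, Fintype.card_fin,
      nsmul_eq_mul]
  refine le_trans (le_of_eq ?_) (mul_le_mul_right hsum _)
  rw [← mul_assoc (((Nat.factorial (N₁ + N₂) : ℕ) : ℝ≥0∞)⁻¹),
    inv_factorial_mul_choose (Nat.le_add_right N₁ N₂), Nat.add_sub_cancel_left]
  ring



/-! ### bridge to `ZW` -/

theorem energyW_eq_Eg {w : Pt → Pt → ℝ} (hs : ∀ x y, w x y = w y x) {N : ℕ} (x : Fin N → Pt) :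
    energyW w x = Eg w x - (1 / 2) * ∑ i, w (x i) (x i) := by
  unfold energyW Eg
  have h0 : ∑ p : {p : Fin N × Fin N // p.1 < p.2}, w (x p.1.1) (x p.1.2)
      = ∑ i, ∑ j, if i < j then w (x i) (x j) else 0 := by
    rw [← Finset.sum_subtype (Finset.univ.filter (fun p : Fin N × Fin N => p.1 < p.2))
      (by simp) (fun p => w (x p.1) (x p.2)), Finset.sum_filter, Fintype.sum_prod_type]
  have h1 : ∀ i j : Fin N, w (x i) (x j) = (if i < j then w (x i) (x j) else 0)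
      + (if j < i then w (x i) (x j) else 0) + (if i = j then w (x i) (x j) else 0) := by
    intro i j
    rcases lt_trichotomy i j with h | h | h
    · rw [if_pos h, if_neg (lt_asymm h), if_neg (ne_of_lt h)]; ring
    · subst h; simp
    · rw [if_neg (lt_asymm h), if_pos h, if_neg (ne_of_gt h)]; ring
  have h2 : ∑ i, ∑ j, w (x i) (x j) = (∑ i, ∑ j, if i < j then w (x i) (x j) else 0)
      + (∑ i, ∑ j, if j < i then w (x i) (x j) else 0)
      + ∑ i, ∑ j, if i = j then w (x i) (x j) else 0 := by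
    rw [← Finset.sum_add_distrib, ← Finset.sum_add_distrib]
    refine Finset.sum_congr rfl (fun i _ => ?_)
    rw [← Finset.sum_add_distrib, ← Finset.sum_add_distrib]
    exact Finset.sum_congr rfl (fun j _ => h1 i j)
  have h3 : (∑ i, ∑ j, if j < i then w (x i) (x j) else 0)
      = ∑ i, ∑ j, if i < j then w (x i) (x j) else 0 := by
    rw [Finset.sum_comm]
    refine Finset.sum_congr rfl (fun i _ => Finset.sum_congr rfl (fun j _ => ?_))
    rw [hs (x j) (x i)]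
  have h4 : (∑ i, ∑ j, if i = j then w (x i) (x j) else 0) = ∑ i, w (x i) (x i) := by
    refine Finset.sum_congr rfl (fun i _ => ?_)
    rw [Finset.sum_ite_eq]
    simp
  rw [h0, h2, h3, h4]
  ring

theorem measurable_act {w : Pt → Pt → ℝ} (hw : Adm w) {Λ : Set Pt} (hΛ : MeasurableSet Λ) :
    Measurable (act w Λ) := by
  unfold act
  refine Measurable.indicator ?_ hΛ
  refine ENNReal.measurable_ofReal.comp (Real.measurable_exp.comp (Measurable.div_const ?_ _))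
  have h : Measurable (fun y : Pt => (y, y)) := measurable_id.prodMk measurable_id
  exact hw.meas.comp h

theorem act_ne_zero {w : Pt → Pt → ℝ} {Λ : Set Pt} {y : Pt} (h : act w Λ y ≠ 0) : y ∈ Λ :=
  Set.mem_of_indicator_ne_zero h

theorem act_union {w : Pt → Pt → ℝ} {Λ₁ Λ₂ : Set Pt} (hd : Disjoint Λ₁ Λ₂) :
    act w (Λ₁ ∪ Λ₂) = fun y => act w Λ₁ y + act w Λ₂ y := by
  unfold act
  rw [Set.indicator_union_of_disjoint hd]

theorem Lg_act_eq {w : Pt → Pt → ℝ} (hw : Adm w) {Λ : Set Pt} (hΛ : MeasurableSet Λ) (N : ℕ) :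
    Lg w (act w Λ) (Fin N) = ∫⁻ x in Set.pi Set.univ (fun _ : Fin N => Λ),
      ENNReal.ofReal (Real.exp (-(energyW w x))) := by
  unfold Lg
  rw [← lintegral_indicator (MeasurableSet.univ_pi (fun _ => hΛ))]
  refine lintegral_congr (fun x => ?_)
  by_cases hx : x ∈ Set.pi Set.univ (fun _ : Fin N => Λ)
  · rw [Set.indicator_of_mem hx]
    have hx' : ∀ i, x i ∈ Λ := fun i => hx i (Set.mem_univ i)
    have h1 : ∏ i, act w Λ (x i)
        = ENNReal.ofReal (Real.exp ((1 / 2) * ∑ i, w (x i) (x i))) := by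
      unfold act
      simp only [Set.indicator_of_mem (hx' _)]
      rw [← ENNReal.ofReal_prod_of_nonneg (fun i _ => (Real.exp_pos _).le), ← Real.exp_sum]
      congr 2
      rw [Finset.mul_sum]
      exact Finset.sum_congr rfl (fun i _ => by ring)
    rw [h1, ← ENNReal.ofReal_mul (Real.exp_pos _).le, ← Real.exp_add, energyW_eq_Eg hw.symm]
    congr 2
    ring
  · rw [Set.indicator_of_notMem hx]
    obtain ⟨i, hi⟩ : ∃ i, x i ∉ Λ := by
      by_contra hcon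
      exact hx (fun i _ => by
        by_contra hi
        exact hcon ⟨i, hi⟩)
    rw [Finset.prod_eq_zero (Finset.mem_univ i)
      (by unfold act; exact Set.indicator_of_notMem hi _), zero_mul]

theorem ZW_eq_toReal {w : Pt → Pt → ℝ} (hw : Adm w) {Λ : Set Pt} (hΛ : MeasurableSet Λ) (N : ℕ) :
    ZW w Λ N = (Zg w (act w Λ) N).toReal := by
  unfold ZW Zg
  rw [ENNReal.toReal_mul, ENNReal.toReal_inv, ENNReal.toReal_natCast, one_div, Lg_act_eq hw hΛ]
  congr 1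
  exact integral_eq_lintegral_of_nonneg_ae
    (Filter.Eventually.of_forall (fun x => (Real.exp_pos _).le))
    (Real.measurable_exp.comp (measurable_energyW hw N).neg).aestronglyMeasurable

theorem Zg_act_ne_top {w : Pt → Pt → ℝ} (hw : Adm w) {Λ : Set Pt} (hΛ : Reg Λ) (N : ℕ) :
    Zg w (act w Λ) N ≠ ⊤ := by
  unfold Zg
  refine ENNReal.mul_ne_top ?_ ?_
  · exact ENNReal.inv_ne_top.mpr (by exact_mod_cast (Nat.factorial_pos N).ne')
  · rw [Lg_act_eq hw hΛ.meas]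
    exact (integrableOn_exp_energyW hw hΛ N).lintegral_lt_top.ne

theorem Zg_mono (w : Pt → Pt → ℝ) {u u' : Pt → ℝ≥0∞} (h : ∀ y, u y ≤ u' y) (N : ℕ) :
    Zg w u N ≤ Zg w u' N :=
  mul_le_mul_right (Lg_mono w h) _

theorem Zg_smul (w : Pt → Pt → ℝ) (hw : Adm w) {u : Pt → ℝ≥0∞} (hu : Measurable u) (a : ℝ≥0∞)
    (N : ℕ) : Zg w (fun y => a * u y) N = a ^ N * Zg w u N := by
  unfold Zg
  rw [Lg_smul w hw hu, Fintype.card_fin]
  ring

end

end Crest.Agent.PT
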