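import Crest.Agent.PT_Basic
import Crest.Agent.PT_SplitCore

/-! Row 149, task ID2: families of blocks, lower bound with non-uniform couplings (blueprint I6').
NOT an induction from `ZW_union_ge` (uniform `g`): induction on the finset in the activity form
(`Zg_add_ge` of `PT_SplitCore.lean`), with block-wise constant activities `exp (a j)` as induction
parameter. -/

set_option autoImplicit false

namespace Crest.Agent.PT

open MeasureTheory Crest.ProbabilityR.Continuum
open scoped ENNReal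

private theorem reg_biUnion_aux {ι : Type*} (s : Finset ι) (Λ : ι → Set Pt)
    (hΛ : ∀ i ∈ s, Reg (Λ i)) : Reg (⋃ i ∈ s, Λ i) :=
  ⟨Finset.measurableSet_biUnion s (fun i hi => (hΛ i hi).meas),
    (measure_biUnion_lt_top s.finite_toSet (fun i hi => (hΛ i hi).fin.lt_top)).ne⟩

theorem Zg_zero (w : Pt → Pt → ℝ) (u : Pt → ℝ≥0∞) : Zg w u 0 = 1 := by
  unfold Zg Lg
  rw [lintegral_unique]
  have h1 : (volume : Measure (Fin 0 → Pt)) Set.univ = 1 := by
    rw [← Set.pi_univ (Set.univ : Set (Fin 0)), volume_pi_pi]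
    simp
  rw [h1]
  simp [Eg]

theorem act_empty (w : Pt → Pt → ℝ) : act w ∅ = fun _ => 0 := by
  unfold act
  simp

theorem act_biUnion {w : Pt → Pt → ℝ} {ι : Type*} (s : Finset ι) (Λ : ι → Set Pt)
    (hd : (s : Set ι).PairwiseDisjoint Λ) :
    act w (⋃ i ∈ s, Λ i) = fun y => ∑ i ∈ s, act w (Λ i) y := by
  classical
  induction s using Finset.induction_on with
  | empty => simp [act_empty]
  | insert i s hi ih =>
    have hds : (s : Set ι).PairwiseDisjoint Λ :=
      hd.subset (by intro j hj; exact Finset.mem_insert_of_mem hj)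
    have hdisj : Disjoint (Λ i) (⋃ j ∈ s, Λ j) := by
      rw [Set.disjoint_iUnion₂_right]
      intro j hj
      exact hd (Finset.mem_insert_self i s) (Finset.mem_insert_of_mem hj) (fun h => hi (h ▸ hj))
    rw [Finset.set_biUnion_insert, act_union hdisj, ih hds]
    funext y
    rw [Finset.sum_insert hi]

/-- evaluation of a block-wise activity at a point of the block `j` -/
theorem sum_act_of_mem {w : Pt → Pt → ℝ} {ι : Type*} (s : Finset ι) (Λ : ι → Set Pt)
    (hd : (s : Set ι).PairwiseDisjoint Λ) (b : ι → ℝ≥0∞) {j : ι} (hj : j ∈ s) {y : Pt}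
    (hy : y ∈ Λ j) : ∑ k ∈ s, b k * act w (Λ k) y = b j * act w (Λ j) y := by
  classical
  refine Finset.sum_eq_single_of_mem j hj (fun k hk hkj => ?_)
  have : y ∉ Λ k := fun hyk => Set.disjoint_left.mp (hd hk hj hkj) hyk hy
  have h0 : act w (Λ k) y = 0 := by unfold act; exact Set.indicator_of_notMem this _
  rw [h0, mul_zero]

/-- exponent bookkeeping for the induction step of I6' -/
theorem pair_sum_insert {ι : Type*} [DecidableEq ι] {i : ι} {s : Finset ι} (hi : i ∉ s)
    (G : ι → ι → ℝ) (hG : ∀ k l, G k l = G l k) :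
    ∑ k ∈ insert i s, ∑ l ∈ (insert i s).erase k, G k l
      = 2 * ∑ l ∈ s, G i l + ∑ k ∈ s, ∑ l ∈ s.erase k, G k l := by
  rw [Finset.sum_insert hi, Finset.erase_insert hi]
  have h1 : ∀ k ∈ s, ∑ l ∈ (insert i s).erase k, G k l = G i k + ∑ l ∈ s.erase k, G k l := by
    intro k hk
    have hik : i ≠ k := fun h => hi (h ▸ hk)
    rw [Finset.erase_insert_of_ne hik, Finset.sum_insert (fun h => hi (Finset.mem_of_mem_erase h)),
      hG k i]
  rw [Finset.sum_congr rfl h1, Finset.sum_add_distrib]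
  ring

/-- I6' in activity form -/
theorem Zg_family_ge {w : Pt → Pt → ℝ} (hw : Adm w) {ι : Type*} [DecidableEq ι] (s : Finset ι)
    (Λ : ι → Set Pt) (hΛ : ∀ i ∈ s, Reg (Λ i)) (hd : (s : Set ι).PairwiseDisjoint Λ)
    (g : ι → ι → ℝ) (hg : ∀ i j, g i j = g j i)
    (hc : ∀ i ∈ s, ∀ j ∈ s, i ≠ j → ∀ x ∈ Λ i, ∀ y ∈ Λ j, w x y ≤ -(g i j)) (n : ι → ℕ)
    (a : ι → ℝ) :
    (∏ i ∈ s, Zg w (act w (Λ i)) (n i)) *
        ENNReal.ofReal (Real.exp (∑ i ∈ s, a i * n i
          + (1 / 2) * ∑ i ∈ s, ∑ j ∈ s.erase i, g i j * n i * n j)) ≤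
      Zg w (fun y => ∑ i ∈ s, ENNReal.ofReal (Real.exp (a i)) * act w (Λ i) y) (∑ i ∈ s, n i) := by
  induction s using Finset.induction_on generalizing a with
  | empty => simp [Zg_zero]
  | insert i s hi ih =>
    have his : i ∈ insert i s := Finset.mem_insert_self i s
    have hΛs : ∀ j ∈ s, Reg (Λ j) := fun j hj => hΛ j (Finset.mem_insert_of_mem hj)
    have hds : (s : Set ι).PairwiseDisjoint Λ :=
      hd.subset (by intro j hj; exact Finset.mem_insert_of_mem hj)
    have hcs : ∀ j ∈ s, ∀ k ∈ s, j ≠ k → ∀ x ∈ Λ j, ∀ y ∈ Λ k, w x y ≤ -(g j k) :=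
      fun j hj k hk => hc j (Finset.mem_insert_of_mem hj) k (Finset.mem_insert_of_mem hk)
    have hne : ∀ j ∈ s, i ≠ j := fun j hj h => hi (h ▸ hj)
    have ih' := ih hΛs hds hcs (fun j => a j + n i * g i j)
    have hmi := measurable_act hw (hΛ i his).meas
    have hmsum : ∀ b : ι → ℝ≥0∞, Measurable (fun y => ∑ j ∈ s, b j * act w (Λ j) y) :=
      fun b => Finset.measurable_sum _ (fun j hj =>
        (measurable_act hw (hΛs j hj).meas).const_mul _)
    have h2 := Zg_add_ge hw (u₁ := fun y => ENNReal.ofReal (Real.exp (a i)) * act w (Λ i) y)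
      (u₂ := fun y => ∑ j ∈ s, ENNReal.ofReal (Real.exp (a j)) * act w (Λ j) y)
      (u₂' := fun y => ∑ j ∈ s, ENNReal.ofReal (Real.exp (a j + n i * g i j)) * act w (Λ j) y)
      (hmi.const_mul _) (hmsum _) (hmsum _) (n i) (∑ j ∈ s, n j) (by
        intro y hy
        obtain ⟨j, hj, hyj⟩ := Finset.exists_ne_zero_of_sum_ne_zero hy
        have hyΛ : y ∈ Λ j := act_ne_zero (right_ne_zero_of_mul hyj)
        refine ⟨g i j, fun x hx => ?_, ?_⟩
        · exact hc i his j (Finset.mem_insert_of_mem hj) (hne j hj) x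
            (act_ne_zero (right_ne_zero_of_mul hx)) y hyΛ
        · rw [sum_act_of_mem s Λ hds _ hj hyΛ, sum_act_of_mem s Λ hds _ hj hyΛ, Real.exp_add,
            ENNReal.ofReal_mul (Real.exp_pos _).le]
          exact le_of_eq (by ring))
    rw [Zg_smul w hw hmi] at h2
    have hact : (fun y => ∑ j ∈ insert i s, ENNReal.ofReal (Real.exp (a j)) * act w (Λ j) y)
        = fun y => ENNReal.ofReal (Real.exp (a i)) * act w (Λ i) y
          + ∑ j ∈ s, ENNReal.ofReal (Real.exp (a j)) * act w (Λ j) y := by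
      funext y
      rw [Finset.sum_insert hi]
    rw [hact, Finset.sum_insert hi (f := n), Finset.prod_insert hi]
    refine le_trans (le_of_eq ?_) ((mul_le_mul_right ih' _).trans h2)
    have hexp : ∑ k ∈ insert i s, a k * n k
          + (1 / 2) * ∑ k ∈ insert i s, ∑ l ∈ (insert i s).erase k, g k l * n k * n l
        = (n i : ℝ) * a i + (∑ j ∈ s, (a j + n i * g i j) * n j
          + (1 / 2) * ∑ k ∈ s, ∑ l ∈ s.erase k, g k l * n k * n l) := by
      rw [pair_sum_insert hi (fun k l => g k l * n k * n l)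
        (fun k l => by rw [hg k l]; ring), Finset.sum_insert hi]
      have : ∑ j ∈ s, (a j + n i * g i j) * n j
          = ∑ j ∈ s, a j * n j + ∑ l ∈ s, g i l * n i * n l := by
        rw [← Finset.sum_add_distrib]
        exact Finset.sum_congr rfl (fun j _ => by ring)
      rw [this]
      ring
    rw [hexp, Real.exp_add, ENNReal.ofReal_mul (Real.exp_pos _).le, Real.exp_nat_mul,
      ENNReal.ofReal_pow (Real.exp_pos _).le]
    ring

/-- I6' -/
theorem ZW_biUnion_ge {w : Pt → Pt → ℝ} (hw : Adm w) {ι : Type*} [DecidableEq ι] (s : Finset ι)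
    (Λ : ι → Set Pt) (hΛ : ∀ i ∈ s, Reg (Λ i)) (hd : (s : Set ι).PairwiseDisjoint Λ)
    (g : ι → ι → ℝ) (hg : ∀ i j, g i j = g j i)
    (hc : ∀ i ∈ s, ∀ j ∈ s, i ≠ j → ∀ x ∈ Λ i, ∀ y ∈ Λ j, w x y ≤ -(g i j)) (n : ι → ℕ) :
    (∏ i ∈ s, ZW w (Λ i) (n i)) *
        Real.exp ((1 / 2) * ∑ i ∈ s, ∑ j ∈ s.erase i, g i j * n i * n j) ≤
      ZW w (⋃ i ∈ s, Λ i) (∑ i ∈ s, n i) := by
  have hU := reg_biUnion_aux s Λ hΛ
  have h := Zg_family_ge hw s Λ hΛ hd g hg hc n (fun _ => 0)
  simp only [zero_mul, Finset.sum_const_zero, zero_add, Real.exp_zero, ENNReal.ofReal_one,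
    one_mul] at h
  rw [← act_biUnion s Λ hd] at h
  have h' := ENNReal.toReal_mono (Zg_act_ne_top hw hU _) h
  rw [ENNReal.toReal_mul, ENNReal.toReal_prod, ENNReal.toReal_ofReal (Real.exp_pos _).le,
    ← ZW_eq_toReal hw hU.meas] at h'
  rw [Finset.prod_congr rfl (fun i hi => ZW_eq_toReal hw (hΛ i hi).meas (n i))]
  exact h'

end Crest.Agent.PT
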