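import Crest.Agent.PT_RefDefs
import Crest.Agent.PT_SplitGe
import Crest.Agent.PT_Pack
import Crest.Agent.PT_Cube

/-! Row 149, task RP (blueprint D4, product over the sites of a packing).

`packing_exists` with `s = b + 2ϱ`, cube `cubeAt v (ℓ - 2ϱ)`, `v = (ϱ,ϱ,ϱ)` gives the sites `X`, `|X| = P`.
* `ball y ϱ ⊆ cube ℓ` for `y ∈ X` (`|x k - y k| ≤ dist x y`, e.g. `EuclideanSpace.norm_eq`/`PiLp.norm_apply_le`).
* for `y ≠ y'` in `X`, `x ∈ ball y ϱ`, `x' ∈ ball y' ϱ`: `dist x x' > b`, so the balls are disjoint and `radW β U x x' = 0 ≤ -0`.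
* `ZW_biUnion_ge` (index type `Pt`, `s = X`, `g = 0`, `n = fun _ => n`), `ZW_mono_set`, `partitionFn_eq_ZW`, `Finset.prod_le_prod`,
  `Finset.prod_const`, `Finset.sum_const`.  If `ℓ < 2ϱ` then `X = ∅` and both sides are `1`: no case distinction is needed. -/

set_option autoImplicit false

namespace Crest.Agent.PT

open MeasureTheory Crest.ProbabilityR.Continuum

private theorem rp_abs_sub_le_dist (x y : Pt) (k : Fin 3) : |x k - y k| ≤ dist x y := by
  have h := PiLp.norm_apply_le (p := 2) (x - y) k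
  rw [dist_eq_norm]
  simpa [Real.norm_eq_abs] using h

theorem pack_product_lower {U : ℝ → ℝ} (hU : Measurable U) (hU0 : ∀ r, 0 ≤ U r) {b ϱ : ℝ}
    (hb : 0 < b) (hϱ : 0 < ϱ) (hUb : ∀ r, b ≤ r → U r = 0) {β : ℝ} (hβ : 0 ≤ β) (n : ℕ) {c : ℝ}
    (hc : 0 ≤ c) (hsite : ∀ y : Pt, c ≤ ZW (radW β U) (Metric.ball y ϱ) n) (ℓ : ℝ) :
    c ^ (packingNumber ((ℓ - 2 * ϱ) / (b + 2 * ϱ))) ≤
      partitionFn U ℓ (packingNumber ((ℓ - 2 * ϱ) / (b + 2 * ϱ)) * n) β := by
  classical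
  have hs : 0 < b + 2 * ϱ := by positivity
  obtain ⟨X, hcard, hX, hsep⟩ :=
    packing_exists (s := b + 2 * ϱ) (ℓ := ℓ - 2 * ϱ) hs (WithLp.toLp 2 (fun _ => ϱ) : Pt)
  have hw : Adm (radW β U) :=
    adm_radW hU (c := 0) (fun r => by simpa using hU0 r) hβ
  -- the balls lie in the cube
  have hsub : ∀ y ∈ X, Metric.ball y ϱ ⊆ cube ℓ := by
    intro y hy x hx k
    have h1 := hX y hy k
    have hv : (WithLp.toLp 2 (fun _ => ϱ) : Pt) k = ϱ := rfl
    rw [hv] at h1
    have h2 := rp_abs_sub_le_dist x y k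
    have h3 : dist x y < ϱ := Metric.mem_ball.1 hx
    have h4 := abs_le.1 (h2.trans h3.le)
    constructor
    · linarith [h4.1, h1.1]
    · linarith [h4.2, h1.2]
  -- points of different balls are far apart
  have hfar : ∀ y ∈ X, ∀ y' ∈ X, y ≠ y' → ∀ x ∈ Metric.ball y ϱ, ∀ x' ∈ Metric.ball y' ϱ,
      b < dist x x' := by
    intro y hy y' hy' hne x hx x' hx'
    have h1 := hsep y hy y' hy' hne
    have h2 : dist x y < ϱ := Metric.mem_ball.1 hx
    have h3 : dist x' y' < ϱ := Metric.mem_ball.1 hx'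
    have h4 : dist y y' ≤ dist y x + dist x x' + dist x' y' := dist_triangle4 y x x' y'
    rw [dist_comm y x] at h4
    linarith
  have hd : (X : Set Pt).PairwiseDisjoint (fun y => Metric.ball y ϱ) := by
    intro y hy y' hy' hne
    refine Set.disjoint_left.2 (fun x hx hx' => ?_)
    have := hfar y hy y' hy' hne x hx x hx'
    rw [dist_self] at this
    linarith
  have key := ZW_biUnion_ge hw X (fun y => Metric.ball y ϱ) (fun y _ => reg_ball y ϱ) hd
    (fun _ _ => 0) (fun _ _ => rfl)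
    (by
      intro y hy y' hy' hne x hx x' hx'
      have := hfar y hy y' hy' hne x hx x' hx'
      simp only [radW, hUb _ this.le, mul_zero, neg_zero, le_refl])
    (fun _ => n)
  simp only [zero_mul, Finset.sum_const_zero, mul_zero, Real.exp_zero, mul_one] at key
  have hmeas : MeasurableSet (⋃ y ∈ X, Metric.ball y ϱ) :=
    Finset.measurableSet_biUnion X (fun y _ => measurableSet_ball)
  calc c ^ (packingNumber ((ℓ - 2 * ϱ) / (b + 2 * ϱ)))
      = ∏ _y ∈ X, c := by rw [Finset.prod_const, hcard]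
    _ ≤ ∏ y ∈ X, ZW (radW β U) (Metric.ball y ϱ) n :=
        Finset.prod_le_prod (fun _ _ => hc) (fun y _ => hsite y)
    _ ≤ ZW (radW β U) (⋃ y ∈ X, Metric.ball y ϱ) (∑ _y ∈ X, n) := key
    _ = ZW (radW β U) (⋃ y ∈ X, Metric.ball y ϱ)
          (packingNumber ((ℓ - 2 * ϱ) / (b + 2 * ϱ)) * n) := by
        rw [Finset.sum_const, smul_eq_mul, hcard]
    _ ≤ ZW (radW β U) (cube ℓ) (packingNumber ((ℓ - 2 * ϱ) / (b + 2 * ϱ)) * n) :=
        ZW_mono_set hw hmeas (reg_cube ℓ) (Set.iUnion₂_subset hsub) _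
    _ = partitionFn U ℓ (packingNumber ((ℓ - 2 * ϱ) / (b + 2 * ϱ)) * n) β :=
        (partitionFn_eq_ZW U ℓ _ β).symm

end Crest.Agent.PT
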