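import Crest.Agent.PT_RefF
import Crest.Agent.PT_RefProd

/-! Row 149, task RF2 (blueprint D6: the lower bound for `Fk .. 1`).  `ℓ = lk T 1`, `U = U0 δ lam + om`, `β = z.1`, `ν = z.2`.

* `Fk_one_ge`: `Finset.le_sup'` at `N = P' * nXn X` (hypothesis `hN`), `pack_product_lower` (`b = bb`, `ϱ = δ bb`, `c = exp(-(lam (β eX + kX) + K0))`),
  `log (c^P') = -P' (lam (β eX X + kX X) + K0)`, `Real.log_le_log`, `LX_eq`.
  `zk .. 1 β N = partitionFn (fun r => U0 δ lam r + om r) ℓ N β` by `phik_one`; `U r = 0` for `r ≥ bb` (`U0_eq_zero`, `CoreOK.supp`, `s2 lam/16 ≤ bb`). -/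

set_option autoImplicit false

namespace Crest.Agent.PT

open MeasureTheory Crest.ProbabilityR.Continuum

/-- D6, lower half (`K0` is the constant of `site_lower`, passed through its property). -/
theorem Fk_one_ge {p δ lam T K0 : ℝ} {om : ℝ → ℝ} (hp1 : 1 ≤ p) (hδ0 : 0 < δ) (hδ1 : δ ≤ 1 / 100)
    (hlam : 100 ≤ lam) (hs2 : s2 lam ≤ δ * bb) (hom : CoreOK lam om) (hT : 1 ≤ T)
    {z : ℝ × ℝ} (hz : z ∈ Box (1, 7 / 4) (1 / 100)) (X : Fin 3)
    (hsite : ∀ y : Pt, Real.exp (-(lam * (z.1 * eX X + kX X) + K0)) ≤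
      ZW (radW z.1 (fun r => U0 δ lam r + om r)) (Metric.ball y (δ * bb)) (nXn X))
    (hN : Plow δ (lk T 1) * nXn X ≤ Nmax p T 1) :
    ((Plow δ (lk T 1) : ℝ) / (pb p * (lk T 1) ^ 3)) * (LX X z - K0 / lam) ≤
      Fk om p δ lam T 1 z := by
  have hlam0 : 0 < lam := by linarith
  have hpb : 0 < pb p := by linarith [pb_pos hp1]
  have hl : 0 < lk T 1 := lk_pos (by linarith) 1
  have hβ : 0 ≤ z.1 := by
    have := (abs_le.1 hz.1).1
    simp only at this
    linarith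
  have hϱ : 0 < δ * bb := mul_pos hδ0 bb_pos
  obtain ⟨c, hc⟩ : ∃ c : ℝ, c = Real.exp (-(lam * (z.1 * eX X + kX X) + K0)) := ⟨_, rfl⟩
  have hc0 : 0 < c := by rw [hc]; exact Real.exp_pos _
  have hlow := pack_product_lower (U := fun r => U0 δ lam r + om r)
    ((continuous_U0 δ lam).measurable.add hom.meas)
    (fun r => add_nonneg (U0_nonneg hlam0.le r) (hom.nonneg r)) bb_pos hϱ
    (fun r hr => by
      have h1 : s2 lam / 16 ≤ r := by
        have h2 := s2_pos lam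
        have h3 : δ * bb ≤ bb := by nlinarith [bb_pos]
        linarith
      simp only [U0_eq_zero hδ0 hlam0.le hr, hom.supp r h1, add_zero])
    hβ (nXn X) hc0.le (fun y => by rw [hc]; exact hsite y) (lk T 1)
  have hlow' : c ^ (Plow δ (lk T 1)) ≤ zk om p δ lam T 1 z.1 (Plow δ (lk T 1) * nXn X) := by
    unfold zk
    rw [phik_one]
    exact hlow
  have hlog : (Plow δ (lk T 1) : ℝ) * (-(lam * (z.1 * eX X + kX X) + K0)) ≤
      Real.log (zk om p δ lam T 1 z.1 (Plow δ (lk T 1) * nXn X)) := by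
    have h1 := Real.log_le_log (pow_pos hc0 _) hlow'
    rw [Real.log_pow, hc, Real.log_exp] at h1
    exact h1
  have hmem : Plow δ (lk T 1) * nXn X ∈ Finset.range (Nmax p T 1 + 1) :=
    Finset.mem_range.2 (Nat.lt_succ_of_le hN)
  have hsup := Finset.le_sup' (fun N : ℕ =>
    z.2 * ((N : ℝ) / (pb p * (lk T 1) ^ 3)) + z.1 * 0 * ((N : ℝ) / (pb p * (lk T 1) ^ 3)) ^ 2 / 2 +
      Real.log (zk om p δ lam T 1 z.1 N) / (lam * pb p * (lk T 1) ^ 3)) hmem
  have hFk : Fk om p δ lam T 1 z = (Finset.range (Nmax p T 1 + 1)).sup'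
      Finset.nonempty_range_add_one (fun N : ℕ =>
    z.2 * ((N : ℝ) / (pb p * (lk T 1) ^ 3)) + z.1 * 0 * ((N : ℝ) / (pb p * (lk T 1) ^ 3)) ^ 2 / 2 +
      Real.log (zk om p δ lam T 1 z.1 N) / (lam * pb p * (lk T 1) ^ 3)) := rfl
  rw [hFk]
  refine le_trans ?_ hsup
  have hden : 0 < lam * pb p * (lk T 1) ^ 3 := by positivity
  have h2 := div_le_div_of_nonneg_right hlog hden.le
  have h3 : ((Plow δ (lk T 1) : ℝ) / (pb p * (lk T 1) ^ 3)) * (LX X z - K0 / lam) =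
      z.2 * (((Plow δ (lk T 1) * nXn X : ℕ) : ℝ) / (pb p * (lk T 1) ^ 3)) +
        (Plow δ (lk T 1) : ℝ) * (-(lam * (z.1 * eX X + kX X) + K0)) /
          (lam * pb p * (lk T 1) ^ 3) := by
    rw [LX_eq]
    push_cast
    field_simp
    ring
  rw [h3]
  linarith

end Crest.Agent.PT
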