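import Crest.Agent.PT_RefDefs
import Crest.Agent.PT_Forest

/-! Row 149, task RS (blueprint D4, one site): lower bounds for `ZW` in a small ball from an explicit COLLINEAR cluster.

Fix a unit vector `e` (e.g. `EuclideanSpace.single 0 1`).  Cluster set (I10, `cluster_volume`, `cluster_measurable`):
`𝒜 = {x : Fin (n+1) → Pt | x 0 ∈ ball y ϱ ∧ ∀ j ≠ 0, x j ∈ ball (x 0 + o j) σ}` with `o j = (j * a) • e`.
For `x ∈ 𝒜` and `i ≠ j`: `|dist (x i) (x j) - |i-j| a| < 2σ` (for `i = 0` even `< σ`), so `a - 2σ < dist (x i) (x j) < n a + 2σ`,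
and `dist (x j) y < ϱ + n a + σ`.
`cluster_lower` then is `ZW_ge_of_subset` with `E = (n+1)n/2 * u` (`card_pairs`), `energyW w x = ∑_{i<j} β U(dist) ≤ #pairs * u`. -/

set_option autoImplicit false

namespace Crest.Agent.PT

open MeasureTheory Crest.ProbabilityR.Continuum

/-- generic collinear cluster: if `β U ≤ u` on the window `[a - 2σ, n a + 2σ]` of distances. -/
theorem cluster_lower {U : ℝ → ℝ} (hU : Measurable U) (hU0 : ∀ r, 0 ≤ U r) {β : ℝ} (hβ : 0 ≤ β)
    (n : ℕ) {a σ ϱ R u : ℝ} (ha : 0 < a) (hσ : 0 < σ) (hϱ : 0 < ϱ)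
    (hR : ϱ + n * a + σ ≤ R)
    (hu : ∀ r, a - 2 * σ ≤ r → r ≤ n * a + 2 * σ → β * U r ≤ u) (y : Pt) :
    Real.exp (-(((n : ℝ) + 1) * n / 2 * u)) * (vol (Metric.ball (0 : Pt) ϱ) *
        vol (Metric.ball (0 : Pt) σ) ^ n) / (Nat.factorial (n + 1) : ℝ) ≤
      ZW (radW β U) (Metric.ball y R) (n + 1) := by
  classical
  obtain ⟨e, hen⟩ : ∃ e : Pt, ‖e‖ = 1 := ⟨EuclideanSpace.single 0 1, by simp⟩
  obtain ⟨o, ho⟩ : ∃ o : Fin (n + 1) → Pt, o = fun j : Fin (n + 1) => (((j : ℕ) : ℝ) * a) • e := ⟨_, rfl⟩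
  have hvol := cluster_volume y o hϱ hσ
  have hmeas := cluster_measurable y o ϱ σ
  have hw : Adm (radW β U) := adm_radW hU (c := 0) (by intro r; simpa using hU0 r) hβ
  have hd : ∀ x ∈ {x : Fin (n + 1) → Pt | x 0 ∈ Metric.ball y ϱ ∧
      ∀ j, j ≠ 0 → x j ∈ Metric.ball (x 0 + o j) σ}, ∀ j, ‖x j - x 0 - o j‖ < σ := by
    intro x hx j
    by_cases hj : j = 0
    · subst hj
      simp [ho, hσ]
    · have h1 := hx.2 j hj
      rw [Metric.mem_ball, dist_eq_norm] at h1
      have h2 : x j - x 0 - o j = x j - (x 0 + o j) := by abel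
      rw [h2]
      exact h1
  have hjn : ∀ j : Fin (n + 1), ((j : ℕ) : ℝ) ≤ n := fun j => by
    exact_mod_cast Nat.lt_succ_iff.mp j.2
  have hoj : ∀ j : Fin (n + 1), ‖o j‖ ≤ n * a := by
    intro j
    rw [ho]
    simp only
    rw [norm_smul, hen, mul_one, Real.norm_eq_abs, abs_of_nonneg (by positivity)]
    exact mul_le_mul_of_nonneg_right (hjn j) ha.le
  have hoij : ∀ i j : Fin (n + 1), i < j → ‖o i - o j‖ = (((j : ℕ) : ℝ) - ((i : ℕ) : ℝ)) * a := by
    intro i j hij
    have hij' : ((i : ℕ) : ℝ) < ((j : ℕ) : ℝ) := by exact_mod_cast hij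
    rw [ho]
    simp only
    rw [← sub_smul, norm_smul, hen, mul_one, Real.norm_eq_abs, ← sub_mul, abs_mul,
      abs_of_pos ha, abs_of_neg (by linarith)]
    ring
  have hsub : ∀ x ∈ {x : Fin (n + 1) → Pt | x 0 ∈ Metric.ball y ϱ ∧
      ∀ j, j ≠ 0 → x j ∈ Metric.ball (x 0 + o j) σ}, ∀ i, x i ∈ Metric.ball y R := by
    intro x hx i
    rw [Metric.mem_ball, dist_eq_norm]
    have h0 : ‖x 0 - y‖ < ϱ := by
      have := hx.1
      rwa [Metric.mem_ball, dist_eq_norm] at this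
    have h1 : x i - y = (x i - x 0 - o i) + o i + (x 0 - y) := by abel
    rw [h1]
    calc ‖(x i - x 0 - o i) + o i + (x 0 - y)‖
        ≤ ‖x i - x 0 - o i‖ + ‖o i‖ + ‖x 0 - y‖ := norm_add₃_le
      _ < σ + n * a + ϱ := by linarith [hd x hx i, hoj i]
      _ ≤ R := by linarith
  have hE : ∀ x ∈ {x : Fin (n + 1) → Pt | x 0 ∈ Metric.ball y ϱ ∧
      ∀ j, j ≠ 0 → x j ∈ Metric.ball (x 0 + o j) σ},
      energyW (radW β U) x ≤ ((n : ℝ) + 1) * n / 2 * u := by
    intro x hx
    unfold energyW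
    calc ∑ p : {p : Fin (n + 1) × Fin (n + 1) // p.1 < p.2}, radW β U (x p.1.1) (x p.1.2)
        ≤ ∑ _p : {p : Fin (n + 1) × Fin (n + 1) // p.1 < p.2}, u := by
          refine Finset.sum_le_sum (fun p _ => ?_)
          obtain ⟨⟨i, j⟩, hij⟩ := p
          have hij' : i < j := hij
          have hij1 : ((i : ℕ) : ℝ) + 1 ≤ ((j : ℕ) : ℝ) := by exact_mod_cast hij'
          have hi0 : (0 : ℝ) ≤ ((i : ℕ) : ℝ) := Nat.cast_nonneg _
          have hD := hoij i j hij'
          have hDlo : a ≤ ‖o i - o j‖ := by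
            rw [hD]
            nlinarith
          have hDhi : ‖o i - o j‖ ≤ n * a := by
            rw [hD]
            have := hjn j
            nlinarith
          show β * U (dist (x i) (x j)) ≤ u
          rw [dist_eq_norm]
          apply hu
          · have h1 : o i - o j = (x i - x j) - (x i - x 0 - o i) + (x j - x 0 - o j) := by abel
            have h2 : ‖o i - o j‖ ≤ ‖x i - x j‖ + ‖x i - x 0 - o i‖ + ‖x j - x 0 - o j‖ := by
              calc ‖o i - o j‖ = ‖(x i - x j) - (x i - x 0 - o i) + (x j - x 0 - o j)‖ := by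
                    rw [← h1]
                _ ≤ ‖(x i - x j) - (x i - x 0 - o i)‖ + ‖x j - x 0 - o j‖ := norm_add_le _ _
                _ ≤ ‖x i - x j‖ + ‖x i - x 0 - o i‖ + ‖x j - x 0 - o j‖ := by
                    linarith [norm_sub_le (x i - x j) (x i - x 0 - o i)]
            linarith [hd x hx i, hd x hx j]
          · have h1 : x i - x j = (x i - x 0 - o i) - (x j - x 0 - o j) + (o i - o j) := by abel
            have h2 : ‖x i - x j‖ ≤ ‖x i - x 0 - o i‖ + ‖x j - x 0 - o j‖ + ‖o i - o j‖ := by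
              calc ‖x i - x j‖ = ‖(x i - x 0 - o i) - (x j - x 0 - o j) + (o i - o j)‖ := by
                    rw [← h1]
                _ ≤ ‖(x i - x 0 - o i) - (x j - x 0 - o j)‖ + ‖o i - o j‖ := norm_add_le _ _
                _ ≤ ‖x i - x 0 - o i‖ + ‖x j - x 0 - o j‖ + ‖o i - o j‖ := by
                    linarith [norm_sub_le (x i - x 0 - o i) (x j - x 0 - o j)]
            linarith [hd x hx i, hd x hx j]
      _ = ((n : ℝ) + 1) * n / 2 * u := by
          rw [Finset.sum_const, Finset.card_univ, nsmul_eq_mul, card_pairs]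
          push_cast
          ring
  have hfin := ZW_ge_of_subset hw (reg_ball y R) (n + 1) _ hmeas hsub _ hE
  rw [hvol] at hfin
  exact hfin

end Crest.Agent.PT
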