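import Crest.Agent.PT_RefCost
import Crest.Agent.PT_RefCover
import Crest.Agent.PT_RefCount
import Crest.Agent.PT_Forest

/-! Row 149, task RU (blueprint D3, upper bound for the reference system).

`partitionFn U ℓ N β = ZW (radW β U) (cube ℓ) N` (`partitionFn_eq_ZW`), `Adm` by `adm_radW` (`c = 0`).
Apply `ZW_le_of_cover'` with `s = forestIdx N`, `𝒜 q = forestSet (cube ℓ) σ₂ q`,
`E q = lam * (μ N - π P) - lam * (N - |q.1|)`.
* measurability / finiteness / volume: `forest_measurable`, `forest_volume` (rank function from the definition of `forestIdx`):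
  `vol ≤ (ℓ^3)^{|S|} * θ^{N-|S|}`, `θ = vol (ball 0 σ₂) = exp (-lam)` (hypothesis `hθ`); finiteness: the set is contained in `(cube ℓ)^N`.
* cover: for `x ∈ (cube ℓ)^N` take `(S, π₀, h)` from `exists_forest_dG x σ₂` (PT_SpanForest), `π i = if i ∈ S then i else π₀ i`; `|S| = ncomp x σ₂`;
  `E q ≤ β * energy U x = energyW (radW β U) x` is `cost_ineq` (`cube ℓ = cubeAt 0 ℓ`), `|S| ≤ N`.
* sum: `exp (-(E q)) * vol ≤ exp (-lam (μ N - π P)) * (ℓ^3)^{|S|}` because `exp (lam (N-|S|)) * exp(-lam)^(N-|S|) = 1`;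
  then `sum_forestIdx_le`, `comb_bound` with `y = ℓ^3`. -/

set_option autoImplicit false

namespace Crest.Agent.PT

open MeasureTheory Crest.ProbabilityR.Continuum

theorem forestSet_volume_ne_top {N : ℕ} {Λ : Set Pt} (hΛ : Reg Λ) (s : ℝ)
    (q : Finset (Fin N) × (Fin N → Fin N)) : volume (forestSet Λ s q) ≠ ⊤ := by
  have hsub : forestSet Λ s q ⊆ Set.pi Set.univ (fun _ : Fin N => Λ) := by
    rintro x ⟨hx, _⟩ i _
    exact hx i
  refine ne_top_of_le_ne_top ?_ (measure_mono hsub)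
  rw [volume_pi_pi]
  exact ENNReal.prod_ne_top (fun i _ => hΛ.fin)

/-- D3. -/
theorem ref_upper {U : ℝ → ℝ} {lam σ₂ σ₁ : ℝ} (hU : HumpLike U lam σ₂ σ₁) (hlam : 0 ≤ lam)
    (h2 : 0 < σ₂) (h21 : σ₂ ≤ σ₁) (hθ : vol (Metric.ball (0 : Pt) σ₂) = Real.exp (-lam))
    {β μ π : ℝ} (hβ : 0 ≤ β) (hπ : 0 ≤ π) (hμ : ∀ n : ℕ, 1 ≤ n → μ * n - π ≤ cN β n)
    {ℓ : ℝ} (hℓ : 0 ≤ ℓ) (N : ℕ) :
    partitionFn U ℓ N β ≤
      Real.exp (ℓ ^ 3 + N - lam * (μ * N - π * packingNumber (ℓ / σ₁))) := by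
  classical
  have hw : Adm (radW β U) := adm_radW hU.meas (c := 0) (by simpa using hU.nonneg) hβ
  set A : ℝ := lam * (μ * N - π * packingNumber (ℓ / σ₁)) with hA
  set y : ℝ := ℓ ^ 3 with hy
  have hy0 : 0 ≤ y := by positivity
  rw [partitionFn_eq_ZW]
  have hcov : ∀ x : Fin N → Pt, (∀ j, x j ∈ cube ℓ) → ∃ q ∈ forestIdx N,
      x ∈ forestSet (cube ℓ) σ₂ q ∧ (A - lam * ((N : ℝ) - q.1.card)) ≤ energyW (radW β U) x := by
    intro x hx
    obtain ⟨S, π₀, h, hcard, hrank, hdist⟩ := exists_forest_dG x σ₂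
    refine ⟨(S, fun i => if i ∈ S then i else π₀ i), ?_, ?_, ?_⟩
    · simp only [forestIdx, Finset.mem_filter, Finset.mem_univ, true_and]
      refine ⟨fun i hi => if_pos hi, h, fun i hi => ?_⟩
      rw [if_neg hi]; exact hrank i hi
    · refine ⟨hx, fun i hi => ?_⟩
      have hi' : i ∉ S := hi
      simp only [if_neg hi']
      exact hdist i hi'
    · rw [energyW_radW]
      have hx' : ∀ i, x i ∈ cubeAt 0 ℓ := fun i => by rw [← cube_eq_cubeAt]; exact hx i
      have := cost_ineq hU hlam h2 h21 hβ hπ hμ x 0 hx'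
      simp only [hcard]
      linarith
  have h1 := ZW_le_of_cover' hw (reg_cube ℓ) N (forestIdx N) (fun q => forestSet (cube ℓ) σ₂ q)
    (fun q _ => forest_measurable (reg_cube ℓ).meas q.1 q.2 σ₂)
    (fun q _ => forestSet_volume_ne_top (reg_cube ℓ) σ₂ q)
    (fun q => A - lam * ((N : ℝ) - q.1.card)) hcov
  have hterm : ∀ q ∈ forestIdx N,
      Real.exp (-(A - lam * ((N : ℝ) - q.1.card))) * (volume (forestSet (cube ℓ) σ₂ q)).toReal ≤
        Real.exp (-A) * y ^ q.1.card := by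
    intro q hq
    simp only [forestIdx, Finset.mem_filter, Finset.mem_univ, true_and] at hq
    obtain ⟨_, h, hrank⟩ := hq
    have hv := forest_volume (reg_cube ℓ) q.1 q.2 h hrank h2
    rw [vol_cube hℓ, hθ] at hv
    have hcardle : q.1.card ≤ N := by
      simpa using Finset.card_le_univ q.1
    have hpow : Real.exp (-lam) ^ (N - q.1.card) = Real.exp (-(lam * ((N : ℝ) - q.1.card))) := by
      rw [← Real.exp_nat_mul, Nat.cast_sub hcardle]
      congr 1; ring
    rw [hpow] at hv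
    calc Real.exp (-(A - lam * ((N : ℝ) - q.1.card))) * (volume (forestSet (cube ℓ) σ₂ q)).toReal
        ≤ Real.exp (-(A - lam * ((N : ℝ) - q.1.card))) *
            (y ^ q.1.card * Real.exp (-(lam * ((N : ℝ) - q.1.card)))) :=
          mul_le_mul_of_nonneg_left hv (Real.exp_pos _).le
      _ = (Real.exp (-(A - lam * ((N : ℝ) - q.1.card))) *
            Real.exp (-(lam * ((N : ℝ) - q.1.card)))) * y ^ q.1.card := by ring
      _ = Real.exp (-A) * y ^ q.1.card := by
          rw [← Real.exp_add]; congr 2; ring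
  have hNf : 0 < (N.factorial : ℝ) := by exact_mod_cast Nat.factorial_pos N
  calc ZW (radW β U) (cube ℓ) N
      ≤ (∑ q ∈ forestIdx N, Real.exp (-(A - lam * ((N : ℝ) - q.1.card))) *
          (volume (forestSet (cube ℓ) σ₂ q)).toReal) / (N.factorial : ℝ) := h1
    _ ≤ (∑ q ∈ forestIdx N, Real.exp (-A) * y ^ q.1.card) / (N.factorial : ℝ) :=
        div_le_div_of_nonneg_right (Finset.sum_le_sum hterm) hNf.le
    _ = Real.exp (-A) * ((∑ q ∈ forestIdx N, y ^ q.1.card) / (N.factorial : ℝ)) := by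
        rw [← Finset.mul_sum, mul_div_assoc]
    _ ≤ Real.exp (-A) * (Real.exp y * Real.exp N) := by
        refine mul_le_mul_of_nonneg_left ?_ (Real.exp_pos _).le
        exact (div_le_div_of_nonneg_right (sum_forestIdx_le N hy0) hNf.le).trans (comb_bound N hy0)
    _ = Real.exp (y + N - A) := by
        rw [← Real.exp_add, ← Real.exp_add]; congr 1; ring
end Crest.Agent.PT
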