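import Crest.Agent.PT_Kac

/-! Row 149, task A2: decoupling of a long scale (blueprint A2). -/

set_option autoImplicit false

namespace Crest.Agent.PT

open MeasureTheory Crest.ProbabilityR.Continuum

namespace Schur

variable {κ : Type*} [DecidableEq κ]

/-- sum of `γ` along an injective reparametrisation is at most the full sum -/
theorem sum_inj_le (γ : κ → ℝ) (D : Finset κ) (hγ0 : ∀ d, 0 ≤ γ d) (hγD : ∀ d, d ∉ D → γ d = 0)
    (A : Finset κ) (g : κ → κ) (hg : Function.Injective g) :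
    ∑ α ∈ A, γ (g α) ≤ ∑ d ∈ D, γ d := by
  have h1 : ∑ α ∈ A, γ (g α) = ∑ d ∈ A.image g, γ d := by
    rw [Finset.sum_image (fun a _ b _ hab => hg hab)]
  rw [h1]
  have h2 : ∑ d ∈ A.image g, γ d ≤ ∑ d ∈ A.image g ∪ D, γ d :=
    Finset.sum_le_sum_of_subset_of_nonneg Finset.subset_union_left (fun d _ _ => hγ0 d)
  have h3 : ∑ d ∈ D, γ d = ∑ d ∈ A.image g ∪ D, γ d :=
    Finset.sum_subset Finset.subset_union_right (fun d _ hd => hγD d hd)
  rw [h3]; exact h2

/-- the abstract Schur test -/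
theorem double_sum_le [AddCommGroup κ] {ι : Type*} [Fintype ι] [DecidableEq ι] (c : ι → κ)
    (γ : κ → ℝ) (D : Finset κ)
    (hγ0 : ∀ d, 0 ≤ γ d) (hγD : ∀ d, d ∉ D → γ d = 0) :
    ∑ i, ∑ j, γ (c j - c i) ≤
      (∑ d ∈ D, γ d) * ∑ i, ((Finset.univ.filter (fun j => c j = c i)).card : ℝ) := by
  classical
  set A : Finset κ := Finset.univ.image c with hA
  set m : κ → ℝ := fun α => ((Finset.univ.filter (fun j => c j = α)).card : ℝ) with hm
  set S : ℝ := ∑ d ∈ D, γ d with hS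
  have hm0 : ∀ α, 0 ≤ m α := fun α => Nat.cast_nonneg _
  have key : ∀ F : κ → ℝ, ∑ i, F (c i) = ∑ α ∈ A, m α * F α := by
    intro F
    rw [Finset.sum_comp F c]
    refine Finset.sum_congr rfl (fun α _ => ?_)
    rw [nsmul_eq_mul]
  have e1 : ∑ i, ∑ j, γ (c j - c i) = ∑ α ∈ A, ∑ α' ∈ A, m α * m α' * γ (α' - α) := by
    have : ∀ i, ∑ j, γ (c j - c i) = ∑ α' ∈ A, m α' * γ (α' - c i) := by
      intro i
      exact key (fun α' => γ (α' - c i))
    simp_rw [this]
    rw [key (fun α => ∑ α' ∈ A, m α' * γ (α' - α))]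
    refine Finset.sum_congr rfl (fun α _ => ?_)
    rw [Finset.mul_sum]
    refine Finset.sum_congr rfl (fun α' _ => ?_)
    ring
  have e2 : ∑ i, m (c i) = ∑ α ∈ A, m α ^ 2 := by
    rw [key m]
    refine Finset.sum_congr rfl (fun α _ => ?_)
    ring
  have e3 : ∑ α ∈ A, ∑ α' ∈ A, m α * m α' * γ (α' - α) ≤
      ∑ α ∈ A, ∑ α' ∈ A, (m α ^ 2 / 2 * γ (α' - α) + m α' ^ 2 / 2 * γ (α' - α)) := by
    refine Finset.sum_le_sum (fun α _ => Finset.sum_le_sum (fun α' _ => ?_))
    have h1 : m α * m α' ≤ m α ^ 2 / 2 + m α' ^ 2 / 2 := by nlinarith [sq_nonneg (m α - m α')]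
    have := mul_le_mul_of_nonneg_right h1 (hγ0 (α' - α))
    linarith
  have e4 : ∑ α ∈ A, ∑ α' ∈ A, m α ^ 2 / 2 * γ (α' - α) ≤ S / 2 * ∑ α ∈ A, m α ^ 2 := by
    rw [Finset.mul_sum]
    refine Finset.sum_le_sum (fun α _ => ?_)
    rw [← Finset.mul_sum]
    have h1 : ∑ α' ∈ A, γ (α' - α) ≤ S :=
      sum_inj_le γ D hγ0 hγD A (fun α' => α' - α) (fun a b hab => sub_left_injective hab)
    have := mul_le_mul_of_nonneg_left h1 (by positivity : 0 ≤ m α ^ 2 / 2)
    linarith
  have e5 : ∑ α ∈ A, ∑ α' ∈ A, m α' ^ 2 / 2 * γ (α' - α) ≤ S / 2 * ∑ α ∈ A, m α ^ 2 := by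
    rw [Finset.sum_comm, Finset.mul_sum]
    refine Finset.sum_le_sum (fun α' _ => ?_)
    rw [← Finset.mul_sum]
    have h1 : ∑ α ∈ A, γ (α' - α) ≤ S :=
      sum_inj_le γ D hγ0 hγD A (fun α => α' - α) (fun a b hab => sub_right_injective hab)
    have := mul_le_mul_of_nonneg_left h1 (by positivity : 0 ≤ m α' ^ 2 / 2)
    linarith
  rw [e1]
  change _ ≤ S * ∑ i, m (c i)
  rw [e2]
  refine e3.trans ?_
  simp_rw [Finset.sum_add_distrib]
  linarith

/-- sums over ordered pairs as double sums -/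
theorem sum_pairs {N : ℕ} (G : Fin N → Fin N → ℝ) :
    ∑ p : {p : Fin N × Fin N // p.1 < p.2}, G p.1.1 p.1.2 =
      ∑ i, ∑ j, if i < j then G i j else 0 := by
  classical
  rw [← Finset.sum_subtype (Finset.univ.filter (fun p : Fin N × Fin N => p.1 < p.2))
    (by intro p; simp) (fun p => G p.1 p.2)]
  rw [Finset.sum_filter, ← Finset.univ_product_univ, Finset.sum_product]

theorem card_pairs {N : ℕ} (P : Fin N → Fin N → Prop) [∀ i j, Decidable (P i j)] :
    ((Finset.univ.filter (fun p : Fin N × Fin N => p.1 < p.2 ∧ P p.1 p.2)).card : ℝ) =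
      ∑ i, ∑ j, if i < j ∧ P i j then (1 : ℝ) else 0 := by
  classical
  rw [Finset.card_filter, ← Finset.univ_product_univ, Finset.sum_product]
  push_cast
  rfl

end Schur

/-- Schur test (proof of A2): a pair function dominated by `γ (idx y - idx x)`. -/
theorem energy_le_schur {h : ℝ} (t : Pt) (f : ℝ → ℝ) (γ : (Fin 3 → ℤ) → ℝ) (D : Finset (Fin 3 → ℤ))
    (hγ0 : ∀ d, 0 ≤ γ d) (hγD : ∀ d, d ∉ D → γ d = 0)
    (hf : ∀ x y : Pt, f (dist x y) ≤ γ (idx h t y - idx h t x)) {N : ℕ} (x : Fin N → Pt) :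
    energy f x ≤ (∑ d ∈ D, γ d) / 2 * ((N : ℝ) + 2 * sc h t x) := by
  classical
  set c : Fin N → (Fin 3 → ℤ) := fun i => idx h t (x i) with hc
  have hE : energy f x = ∑ i, ∑ j, if i < j then f (dist (x i) (x j)) else 0 :=
    Schur.sum_pairs (fun i j => f (dist (x i) (x j)))
  have hE' : energy f x = ∑ i, ∑ j, if j < i then f (dist (x j) (x i)) else 0 := by
    rw [hE, Finset.sum_comm]
  have h2E : 2 * energy f x ≤ ∑ i, ∑ j, γ (c j - c i) := by
    have : 2 * energy f x = ∑ i, ∑ j, ((if i < j then f (dist (x i) (x j)) else 0) +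
        (if j < i then f (dist (x j) (x i)) else 0)) := by
      simp_rw [Finset.sum_add_distrib]
      rw [← hE, ← hE']; ring
    rw [this]
    refine Finset.sum_le_sum (fun i _ => Finset.sum_le_sum (fun j _ => ?_))
    rcases lt_trichotomy i j with hij | hij | hij
    · rw [if_pos hij, if_neg (not_lt.mpr hij.le), add_zero]
      exact hf (x i) (x j)
    · subst hij
      simp only [lt_irrefl, if_false, add_zero]
      exact hγ0 _
    · rw [if_neg (not_lt.mpr hij.le), if_pos hij, zero_add, dist_comm]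
      exact hf (x i) (x j)
  have hsc : (sc h t x : ℝ) = ∑ i, ∑ j, if i < j ∧ c i = c j then (1 : ℝ) else 0 :=
    Schur.card_pairs (fun i j => c i = c j)
  have hsc' : (sc h t x : ℝ) = ∑ i, ∑ j, if j < i ∧ c j = c i then (1 : ℝ) else 0 := by
    rw [hsc, Finset.sum_comm]
  have hN : (N : ℝ) = ∑ i : Fin N, ∑ j : Fin N, if i = j then (1 : ℝ) else 0 := by
    simp
  have hQ : ∑ i, ((Finset.univ.filter (fun j => c j = c i)).card : ℝ) = (N : ℝ) + 2 * sc h t x := by
    have : (N : ℝ) + 2 * sc h t x = ∑ i : Fin N, ∑ j : Fin N, ((if i = j then (1 : ℝ) else 0) +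
        (if i < j ∧ c i = c j then (1 : ℝ) else 0) + (if j < i ∧ c j = c i then (1 : ℝ) else 0)) := by
      simp_rw [Finset.sum_add_distrib]
      rw [← hsc, ← hsc', ← hN]; ring
    rw [this]
    refine Finset.sum_congr rfl (fun i _ => ?_)
    rw [Finset.card_filter]
    push_cast
    refine Finset.sum_congr rfl (fun j _ => ?_)
    rcases lt_trichotomy i j with hij | hij | hij
    · have h1 : i ≠ j := hij.ne
      have h2 : ¬ j < i := not_lt.mpr hij.le
      by_cases h3 : c j = c i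
      · simp [h1, h2, hij, h3]
      · have h4 : ¬ c i = c j := fun h => h3 h.symm
        simp [h1, h2, h3, h4]
    · subst hij
      simp
    · have h1 : i ≠ j := hij.ne'
      have h2 : ¬ i < j := not_lt.mpr hij.le
      by_cases h3 : c j = c i
      · simp [h1, h2, hij, h3]
      · simp [h1, h2, h3]
  have h3 := Schur.double_sum_le c γ D hγ0 hγD
  rw [hQ] at h3
  linarith

/-- A2. -/
theorem energy_AR_le {h R : ℝ} (hh : 0 < h) (hR : 8 * h ≤ R) (t : Pt) {N : ℕ} (x : Fin N → Pt) :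
    energy (AR R) x ≤ ((iota + 400 * h / R) / h ^ 3) / 2 * ((N : ℝ) + 2 * sc h t x) := by
  obtain ⟨γp, γm, D, h0, hle, hD, _, _, hb, hS, _⟩ := kac_sums hh hR
  have h1 := energy_le_schur t (AR R) γp D (fun d => (h0 d).trans (hle d)) hD
    (fun x y => (hb t x y).2) x
  refine h1.trans ?_
  have h2 : ∑ d ∈ D, γp d ≤ (iota + 400 * h / R) / h ^ 3 := by
    rw [le_div_iff₀ (by positivity)]; linarith
  have h3 : (0 : ℝ) ≤ (N : ℝ) + 2 * sc h t x := by positivity
  exact mul_le_mul_of_nonneg_right (by linarith) h3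

end Crest.Agent.PT
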