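import Crest.Agent.PT_SharpDom

/-! Row 149, task B1 (block G6): (o2), the gradient bound for `Ψ^X` near the nominal point (blueprint §B1). -/

set_option autoImplicit false

namespace Crest.Agent.PT

namespace SharpHyp

variable {F : ℝ × ℝ → ℝ} {z0 : ℝ × ℝ} {r d : ℝ} {e : Fin 3 → ℝ} {Pi : Fin 3 → ℝ × ℝ → ℝ}
  {ε κ : ℝ} {𝒩 : Finset ℝ}

/-- For `m` in the well of `X`.  Proof: `p_i = z_i^m`, `u = p2 - p1 = (Δβ, Δν + κ m Δβ)`; if `u = 0` trivial; otherwise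
`t = (κ/50)/(|u.1|+|u.2|)`, `p3 = p2 + t u ∈ Box p2 (κ/50)`; convexity of `F`: `t (F p2 - F p1) ≤ F p3 - F p2`;
`dominance` at `p2, p3` and (h2): `F p3 - F p2 ≤ t(-e_X u.1 + n_X u.2 + d(|u.1|+|u.2|)) + 2ε`; `2ε/t = (100ε/κ)(|u.1|+|u.2|)`.
Then `n_X m - m²/2 = n_X²/2 - (m-n_X)²/2`, `(m-n_X)² ≤ 1/400`, `κ m ≤ 5 κ`. -/
theorem grad_psi (H : SharpHyp F z0 r d e Pi ε κ 𝒩) {X : Fin 3} {m : ℝ} (hm : m ∈ wellB 𝒩 X) :
    Grad (psiB κ F m) (Box (zStar κ e z0) (κ / 50)) (ePr κ e X) (nX X)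
      ((d + 100 * ε / κ) * (1 + 5 * κ) + κ / 800) := by
  intro z₁ hz₁ z₂ hz₂
  have hκ := H.hκ
  obtain ⟨hm𝒩, hmX⟩ := mem_wellB.1 hm
  have hm0 := (H.h𝒩 m hm𝒩).1
  have hmX' := abs_le.1 hmX
  have hnX := nX_le X
  have hm5 : m ≤ 5 := by linarith [hmX'.2]
  obtain ⟨b₁, v₁⟩ := z₁
  obtain ⟨b₂, v₂⟩ := z₂
  simp only [psiB]
  set Δβ : ℝ := b₂ - b₁ with hΔβ
  set Δν : ℝ := v₂ - v₁ with hΔν
  set u2 : ℝ := Δν + κ * m * Δβ with hu2
  set S : ℝ := |Δβ| + |u2| with hS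
  have hc0 : 0 ≤ d + 100 * ε / κ := by
    have := H.hd0; have := H.hε0
    positivity
  -- the key estimate on `F`
  have key : F (b₂, v₂ + b₂ * κ * m) - F (b₁, v₁ + b₁ * κ * m) ≤
      -e X * Δβ + nX X * u2 + (d + 100 * ε / κ) * S := by
    by_cases hS0 : S = 0
    · have h1 : |Δβ| = 0 := by
        have := abs_nonneg Δβ; have := abs_nonneg u2
        linarith
      have h2 : |u2| = 0 := by
        have := abs_nonneg Δβ; have := abs_nonneg u2
        linarith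
      have h1' : Δβ = 0 := abs_eq_zero.1 h1
      have h2' : u2 = 0 := abs_eq_zero.1 h2
      have e1 : b₂ = b₁ := by linarith
      have e2 : v₂ + b₂ * κ * m = v₁ + b₁ * κ * m := by
        have : u2 = (v₂ + b₂ * κ * m) - (v₁ + b₁ * κ * m) := by
          rw [hu2, hΔν, hΔβ]; ring
        linarith
      rw [e2, e1, h1', h2', hS0]
      simp
    · have hSpos : 0 < S := by
        have : 0 ≤ S := add_nonneg (abs_nonneg _) (abs_nonneg _)
        exact lt_of_le_of_ne this (Ne.symm hS0)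
      set t : ℝ := κ / 50 / S with ht
      have htpos : 0 < t := by positivity
      have htS : t * S = κ / 50 := by
        rw [ht]; field_simp
      have hp2 : ((b₂, v₂ + b₂ * κ * m) : ℝ × ℝ) ∈
          Box (((b₂, v₂) : ℝ × ℝ).1, ((b₂, v₂) : ℝ × ℝ).2 + ((b₂, v₂) : ℝ × ℝ).1 * κ * m) (κ / 50) := by
        constructor <;> simp <;> positivity
      have hp3 : ((b₂ + t * Δβ, v₂ + b₂ * κ * m + t * u2) : ℝ × ℝ) ∈
          Box (((b₂, v₂) : ℝ × ℝ).1, ((b₂, v₂) : ℝ × ℝ).2 + ((b₂, v₂) : ℝ × ℝ).1 * κ * m) (κ / 50) := by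
        constructor
        · simp only [add_sub_cancel_left]
          rw [abs_mul, abs_of_pos htpos, ← htS]
          exact mul_le_mul_of_nonneg_left (by rw [hS]; linarith [abs_nonneg u2]) htpos.le
        · simp only [add_sub_cancel_left]
          rw [abs_mul, abs_of_pos htpos, ← htS]
          exact mul_le_mul_of_nonneg_left (by rw [hS]; linarith [abs_nonneg Δβ]) htpos.le
      obtain ⟨hb2, hF2⟩ := H.dominance hz₂ hm hp2
      obtain ⟨hb3, hF3⟩ := H.dominance hz₂ hm hp3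
      have hG := H.h2 X _ hb2 _ hb3
      simp only [add_sub_cancel_left] at hG
      rw [abs_mul, abs_mul, abs_of_pos htpos] at hG
      -- strip membership
      have hβ1 := H.beta_bounds (H.box_star_subset' hz₁)
      have hs1 : ((b₁, v₁ + b₁ * κ * m) : ℝ × ℝ) ∈ Strip := by
        refine ⟨⟨?_, ?_⟩, Set.mem_univ _⟩
        · have := hβ1.1; norm_num at this ⊢; linarith
        · have := hβ1.2; norm_num at this ⊢; linarith
      have hs3 : ((b₂ + t * Δβ, v₂ + b₂ * κ * m + t * u2) : ℝ × ℝ) ∈ Strip := by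
        have h := abs_le.1 hb3.1
        have h1 := H.hr; have h2 := H.hβ0.1; have h3 := H.hβ0.2
        simp only at h
        refine ⟨⟨?_, ?_⟩, Set.mem_univ _⟩
        · norm_num at h1 h2 h3 ⊢; linarith [h.1]
        · norm_num at h1 h2 h3 ⊢; linarith [h.2]
      have h1t : 0 < 1 + t := by linarith
      have hconv := H.hF.2 hs1 hs3 (show 0 ≤ t / (1 + t) by positivity)
        (show 0 ≤ 1 / (1 + t) by positivity)
        (by rw [← add_div, add_comm t 1]; exact div_self h1t.ne')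
      have hpt : (t / (1 + t)) • ((b₁, v₁ + b₁ * κ * m) : ℝ × ℝ) +
          (1 / (1 + t)) • ((b₂ + t * Δβ, v₂ + b₂ * κ * m + t * u2) : ℝ × ℝ) =
          (b₂, v₂ + b₂ * κ * m) := by
        ext
        · simp only [Prod.smul_mk, Prod.mk_add_mk, smul_eq_mul]
          rw [hΔβ]; field_simp; ring
        · simp only [Prod.smul_mk, Prod.mk_add_mk, smul_eq_mul]
          rw [hu2, hΔν, hΔβ]; field_simp; ring
      rw [hpt] at hconv
      simp only [smul_eq_mul] at hconv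
      have hconv' : F (b₂, v₂ + b₂ * κ * m) * (1 + t) ≤
          t * F (b₁, v₁ + b₁ * κ * m) + F (b₂ + t * Δβ, v₂ + b₂ * κ * m + t * u2) := by
        have := mul_le_mul_of_nonneg_right hconv h1t.le
        have e3 : (t / (1 + t) * F (b₁, v₁ + b₁ * κ * m) +
            1 / (1 + t) * F (b₂ + t * Δβ, v₂ + b₂ * κ * m + t * u2)) * (1 + t) =
            t * F (b₁, v₁ + b₁ * κ * m) + F (b₂ + t * Δβ, v₂ + b₂ * κ * m + t * u2) := by
          field_simp
        rwa [e3] at this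
      have h2ε : t * ((100 * ε / κ) * S) = 2 * ε := by
        calc t * ((100 * ε / κ) * S) = (t * S) * (100 * ε / κ) := by ring
          _ = 2 * ε := by rw [htS]; field_simp; ring
      have hF2' := abs_le.1 hF2
      have hF3' := abs_le.1 hF3
      have hmain : t * (F (b₂, v₂ + b₂ * κ * m) - F (b₁, v₁ + b₁ * κ * m)) ≤
          t * (-e X * Δβ + nX X * u2 + (d + 100 * ε / κ) * S) := by
        have e4 : t * (-e X * Δβ + nX X * u2 + (d + 100 * ε / κ) * S) =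
            -e X * (t * Δβ) + nX X * (t * u2) + d * (t * |Δβ| + t * |u2|) +
              t * ((100 * ε / κ) * S) := by
          rw [hS]; ring
        rw [e4, h2ε]
        linarith [hF2'.1, hF2'.2, hF3'.1, hF3'.2]
      exact le_of_mul_le_mul_left hmain htpos
  -- bookkeeping
  have hA := abs_nonneg Δβ
  have hB := abs_nonneg Δν
  have hu2le : |u2| ≤ |Δν| + 5 * κ * |Δβ| := by
    calc |u2| ≤ |Δν| + |κ * m * Δβ| := abs_add_le _ _
      _ = |Δν| + κ * m * |Δβ| := by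
          rw [abs_mul, abs_of_nonneg (mul_nonneg hκ.le hm0)]
      _ ≤ |Δν| + 5 * κ * |Δβ| := by
          have : κ * m ≤ 5 * κ := by nlinarith
          have := mul_le_mul_of_nonneg_right this hA
          linarith
  have hSle : S ≤ (1 + 5 * κ) * (|Δβ| + |Δν|) := by
    have : 0 ≤ 5 * κ * |Δν| := by positivity
    rw [hS]; nlinarith
  have hcS : (d + 100 * ε / κ) * S ≤ (d + 100 * ε / κ) * ((1 + 5 * κ) * (|Δβ| + |Δν|)) :=
    mul_le_mul_of_nonneg_left hSle hc0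
  have hsq : (m - nX X) ^ 2 ≤ 1 / 400 := by
    nlinarith [hmX'.1, hmX'.2]
  have hq : -(κ * Δβ * (m - nX X) ^ 2 / 2) ≤ κ / 800 * (|Δβ| + |Δν|) := by
    have h1 : -(Δβ) ≤ |Δβ| := neg_le_abs Δβ
    have h2 : 0 ≤ (m - nX X) ^ 2 := sq_nonneg _
    have h3 : -(Δβ) * (m - nX X) ^ 2 ≤ |Δβ| * (1 / 400) := by
      calc -(Δβ) * (m - nX X) ^ 2 ≤ |Δβ| * (m - nX X) ^ 2 := mul_le_mul_of_nonneg_right h1 h2
        _ ≤ |Δβ| * (1 / 400) := mul_le_mul_of_nonneg_left hsq hA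
    have h4 := mul_le_mul_of_nonneg_left h3 hκ.le
    have h5 : 0 ≤ κ * |Δν| := by positivity
    nlinarith
  have hid : -e X * Δβ + nX X * u2 - Δβ * κ * m ^ 2 / 2 =
      -ePr κ e X * Δβ + nX X * Δν - κ * Δβ * (m - nX X) ^ 2 / 2 := by
    rw [hu2, ePr]; ring
  have hsplit : F (b₂, v₂ + b₂ * κ * m) - b₂ * κ * m ^ 2 / 2 -
      (F (b₁, v₁ + b₁ * κ * m) - b₁ * κ * m ^ 2 / 2) =
      F (b₂, v₂ + b₂ * κ * m) - F (b₁, v₁ + b₁ * κ * m) - Δβ * κ * m ^ 2 / 2 := by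
    rw [hΔβ]; ring
  rw [hsplit]
  have hfin : ((d + 100 * ε / κ) * (1 + 5 * κ) + κ / 800) * (|Δβ| + |Δν|) =
      (d + 100 * ε / κ) * ((1 + 5 * κ) * (|Δβ| + |Δν|)) + κ / 800 * (|Δβ| + |Δν|) := by ring
  rw [hfin]
  linarith

/-- (o2) on `Box z* (κ/50)`: take the maximiser `m` of `Ψ^X` at `z₂` and use `grad_psi`. -/
theorem grad_Psi (H : SharpHyp F z0 r d e Pi ε κ 𝒩) (X : Fin 3) :
    Grad (PsiB κ 𝒩 F X) (Box (zStar κ e z0) (κ / 50)) (ePr κ e X) (nX X)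
      ((d + 100 * ε / κ) * (1 + 5 * κ) + κ / 800) := by
  intro z₁ hz₁ z₂ hz₂
  obtain ⟨m, hm, heq⟩ := exists_PsiB_eq (H.well_nonempty X) κ F z₂
  have h1 := psiB_le_PsiB (κ := κ) (F := F) hm z₁
  have h2 := H.grad_psi hm z₁ hz₁ z₂ hz₂
  rw [heq]
  linarith

end SharpHyp

end Crest.Agent.PT
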