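import Crest.Agent.PT_Defs

/-! Row 149, task B0: subgradients in the plane (blueprint B0). -/

set_option autoImplicit false

namespace Crest.Agent.PT

/-- B0b: a local subgradient inequality for a convex function is global. -/
theorem sub_of_local {F : ℝ × ℝ → ℝ} (hF : ConvexOn ℝ Strip F) {z ξ : ℝ × ℝ} (hz : z ∈ Strip)
    {r : ℝ} (hr : 0 < r)
    (h : ∀ y ∈ Box z r, y ∈ Strip → F z + ξ.1 * (y.1 - z.1) + ξ.2 * (y.2 - z.2) ≤ F y) :
    Sub F z ξ := by
  intro y hy
  set A := |y.1 - z.1| + |y.2 - z.2| with hA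
  have hA0 : 0 ≤ A := by positivity
  set s := r / (r + A) with hs
  have hs0 : 0 < s := by positivity
  have hs1 : s ≤ 1 := by
    rw [hs, div_le_one (by positivity)]; linarith
  have hsA : s * A ≤ r := by
    rw [hs, div_mul_eq_mul_div, div_le_iff₀ (by positivity)]; nlinarith
  have hconv := hF.2 hz hy (by linarith : (0:ℝ) ≤ 1 - s) hs0.le (by ring)
  have hmem := hF.1 hz hy (by linarith : (0:ℝ) ≤ 1 - s) hs0.le (by ring)
  set w := (1 - s) • z + s • y with hw
  have hw1 : w.1 - z.1 = s * (y.1 - z.1) := by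
    simp [hw]; ring
  have hw2 : w.2 - z.2 = s * (y.2 - z.2) := by
    simp [hw]; ring
  have hbox : w ∈ Box z r := by
    constructor
    · rw [hw1, abs_mul, abs_of_pos hs0]
      nlinarith [abs_nonneg (y.2 - z.2), abs_nonneg (y.1 - z.1)]
    · rw [hw2, abs_mul, abs_of_pos hs0]
      nlinarith [abs_nonneg (y.2 - z.2), abs_nonneg (y.1 - z.1)]
  have h3 := h w hbox hmem
  rw [hw1, hw2] at h3
  simp only [smul_eq_mul] at hconv
  have h4 : s * (F z + ξ.1 * (y.1 - z.1) + ξ.2 * (y.2 - z.2)) ≤ s * F y := by nlinarith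
  exact le_of_mul_le_mul_left h4 hs0

/-- B0a: a convex function on the strip has a subgradient at every interior point. -/
theorem exists_sub {F : ℝ × ℝ → ℝ} (hF : ConvexOn ℝ Strip F) {z : ℝ × ℝ}
    (hz : 1 / 2 < z.1 ∧ z.1 < 2) : ∃ ξ : ℝ × ℝ, Sub F z ξ := by
  set U : Set (ℝ × ℝ) := Set.Ioo (1/2 : ℝ) 2 ×ˢ (Set.univ : Set ℝ) with hU
  have hUo : IsOpen U := isOpen_Ioo.prod isOpen_univ
  have hUS : U ⊆ Strip := Set.prod_mono Set.Ioo_subset_Icc_self le_rfl
  have hUint : U ⊆ interior Strip := interior_maximal hUS hUo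
  have hUc : Convex ℝ U := (convex_Ioo _ _).prod convex_univ
  have hFU : ConvexOn ℝ U F := hF.subset hUS hUc
  have hcont : ContinuousOn F U := hF.continuousOn_interior.mono hUint
  set E : Set ((ℝ × ℝ) × ℝ) := {p | p.1 ∈ U ∧ F p.1 < p.2} with hE
  have hEc : Convex ℝ E := hFU.convex_strict_epigraph
  have hEo : IsOpen E := by
    have h1 : ContinuousOn (fun p : (ℝ × ℝ) × ℝ => p.2 - F p.1) (U ×ˢ (Set.univ : Set ℝ)) := by
      apply ContinuousOn.sub continuous_snd.continuousOn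
      exact hcont.comp continuous_fst.continuousOn (fun p hp => hp.1)
    have h2 := h1.isOpen_inter_preimage (hUo.prod isOpen_univ) (isOpen_Ioi (a := (0:ℝ)))
    convert h2 using 1
    ext p
    simp [hE]
  have hzU : z ∈ U := ⟨hz, trivial⟩
  have hnot : ((z, F z) : (ℝ × ℝ) × ℝ) ∉ E := fun h => lt_irrefl _ h.2
  obtain ⟨f, hf⟩ := geometric_hahn_banach_open_point hEc hEo hnot
  set a := f ((1, 0), 0) with ha
  set b := f ((0, 1), 0) with hb
  set c := f ((0, 0), 1) with hc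
  have hfd : ∀ p : (ℝ × ℝ) × ℝ, f p = a * p.1.1 + b * p.1.2 + c * p.2 := by
    intro p
    have hp : p = p.1.1 • (((1, 0), 0) : (ℝ × ℝ) × ℝ) + p.1.2 • (((0, 1), 0) : (ℝ × ℝ) × ℝ)
        + p.2 • (((0, 0), 1) : (ℝ × ℝ) × ℝ) := by
      ext <;> simp
    conv_lhs => rw [hp]
    simp only [map_add, map_smul, smul_eq_mul]
    ring
  have hc0 : c < 0 := by
    have h1 := hf ((z, F z + 1)) ⟨hzU, by simp⟩
    rw [hfd, hfd] at h1
    simp only at h1
    linarith
  refine ⟨(a / (-c), b / (-c)), ?_⟩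
  have hr : 0 < min (z.1 - 1 / 2) (2 - z.1) / 2 := by
    have : 0 < min (z.1 - 1 / 2) (2 - z.1) := lt_min (by linarith [hz.1]) (by linarith [hz.2])
    positivity
  apply sub_of_local hF (hUS hzU) hr
  intro y hyB _
  have hyU : y ∈ U := by
    refine ⟨⟨?_, ?_⟩, trivial⟩
    · have h1 := (abs_le.1 hyB.1).1
      have h2 := min_le_left (z.1 - 1 / 2) (2 - z.1)
      linarith [hz.1]
    · have h1 := (abs_le.1 hyB.1).2
      have h2 := min_le_right (z.1 - 1 / 2) (2 - z.1)
      linarith [hz.2]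
  by_contra hcon
  rw [not_le] at hcon
  have h1 := hf ((y, _)) ⟨hyU, hcon⟩
  rw [hfd, hfd] at h1
  simp only at h1
  have hc' : c ≠ 0 := hc0.ne
  have h2 : c * (F z + a / (-c) * (y.1 - z.1) + b / (-c) * (y.2 - z.2))
      = c * F z - a * (y.1 - z.1) - b * (y.2 - z.2) := by
    field_simp
    ring
  rw [h2] at h1
  linarith

end Crest.Agent.PT
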