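import Crest.Agent.PT_SharpGap
import Crest.Agent.PT_Sub

/-! Row 149, task B1 (block G8): (o4), subgradients of `M F` at the triple point (blueprint §B1). -/

set_option autoImplicit false

namespace Crest.Agent.PT

theorem convexOn_psiB {F : ℝ × ℝ → ℝ} (hF : ConvexOn ℝ Strip F) (κ m : ℝ) :
    ConvexOn ℝ Strip (psiB κ F m) := by
  refine ⟨hF.1, ?_⟩
  intro x hx y hy a b ha hb hab
  have hx' : (x.1, x.2 + x.1 * κ * m) ∈ Strip := ⟨hx.1, Set.mem_univ _⟩
  have hy' : (y.1, y.2 + y.1 * κ * m) ∈ Strip := ⟨hy.1, Set.mem_univ _⟩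
  have h := hF.2 hx' hy' ha hb hab
  have hL : a • (x.1, x.2 + x.1 * κ * m) + b • (y.1, y.2 + y.1 * κ * m) =
      ((a • x + b • y).1, (a • x + b • y).2 + (a • x + b • y).1 * κ * m) := by
    ext
    · simp
    · simp only [smul_eq_mul, Prod.smul_mk, Prod.mk_add_mk, Prod.fst_add, Prod.snd_add,
        Prod.smul_fst, Prod.smul_snd]
      ring
  rw [hL] at h
  unfold psiB
  simp only [smul_eq_mul, Prod.fst_add, Prod.snd_add, Prod.smul_fst, Prod.smul_snd] at h ⊢
  linarith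

theorem convexOn_PsiB {F : ℝ × ℝ → ℝ} (hF : ConvexOn ℝ Strip F) (κ : ℝ) (𝒩 : Finset ℝ) (X : Fin 3) :
    ConvexOn ℝ Strip (PsiB κ 𝒩 F X) := by
  refine ⟨hF.1, ?_⟩
  intro x hx y hy a b ha hb hab
  unfold PsiB
  by_cases h : (wellB 𝒩 X).Nonempty
  · simp only [dif_pos h]
    refine Finset.sup'_le _ _ ?_
    intro m hm
    have hc := (convexOn_psiB hF κ m).2 hx hy ha hb hab
    have hxs := Finset.le_sup' (fun m => psiB κ F m x) hm
    have hys := Finset.le_sup' (fun m => psiB κ F m y) hm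
    have hxs' := mul_le_mul_of_nonneg_left hxs ha
    have hys' := mul_le_mul_of_nonneg_left hys hb
    simp only [smul_eq_mul] at hc ⊢
    linarith
  · simp only [dif_neg h]
    simp

/-- a convex minorant `Q` of `MF` touching at `z1`, with a gradient bound near `z1`, gives a subgradient of `MF`. -/
theorem sub_of_grad {Q MF : ℝ × ℝ → ℝ} (hQ : ConvexOn ℝ Strip Q) (hle : ∀ y ∈ Strip, Q y ≤ MF y)
    {z1 : ℝ × ℝ} (hz1 : 1 / 2 < z1.1 ∧ z1.1 < 2) (heq : Q z1 = MF z1) {ρ e n d' : ℝ} (hρ : 0 < ρ)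
    (hbox : Box z1 ρ ⊆ Strip) (hG : Grad Q (Box z1 ρ) e n d') :
    ∃ ξ : ℝ × ℝ, Sub MF z1 ξ ∧ |ξ.1 + e| ≤ d' ∧ |ξ.2 - n| ≤ d' := by
  obtain ⟨ξ, hξ⟩ := exists_sub hQ hz1
  have hz : z1 ∈ Box z1 ρ := by
    constructor <;> simp [hρ.le]
  have key : ∀ s t : ℝ, |s| ≤ ρ → |t| ≤ ρ →
      ξ.1 * s + ξ.2 * t ≤ -e * s + n * t + d' * (|s| + |t|) := by
    intro s t hs ht
    have hy : (z1.1 + s, z1.2 + t) ∈ Box z1 ρ := by
      constructor
      · simpa using hs
      · simpa using ht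
    have h1 := hξ _ (hbox hy)
    have h2 := hG z1 hz _ hy
    simp only [add_sub_cancel_left] at h1 h2
    linarith
  have hρa : |ρ| = ρ := abs_of_pos hρ
  have hρn : |-ρ| = ρ := by rw [abs_neg, hρa]
  have k1 := key ρ 0 hρa.le (by simp [hρ.le])
  have k2 := key (-ρ) 0 hρn.le (by simp [hρ.le])
  have k3 := key 0 ρ (by simp [hρ.le]) hρa.le
  have k4 := key 0 (-ρ) (by simp [hρ.le]) hρn.le
  rw [hρa] at k1 k3
  rw [hρn] at k2 k4
  simp only [abs_zero, mul_zero, add_zero, zero_add] at k1 k2 k3 k4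
  refine ⟨ξ, ?_, ?_, ?_⟩
  · intro y hy
    have h1 := hξ y hy
    have h2 := hle y hy
    rw [← heq]
    linarith
  · rw [abs_le]
    constructor
    · by_contra hcon
      rw [not_le] at hcon
      nlinarith
    · by_contra hcon
      rw [not_le] at hcon
      nlinarith
  · rw [abs_le]
    constructor
    · by_contra hcon
      rw [not_le] at hcon
      nlinarith
    · by_contra hcon
      rw [not_le] at hcon
      nlinarith

end Crest.Agent.PT
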