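import Crest.Agent.PT_Defs

/-! Row 149, part of task B1 (Sharpening Lemma): the TRIPLE POINT block, as a self-contained lemma.

Three functions `Psi X` on a box `Box zs ρ`, with "gradients `(-e' X, nX X)` up to `d'`", which are `δ`-close to each
other at the centre `zs`, `20 δ < ρ`, take a common value at some point `z1 ∈ Box zs (20 δ)`.
Proof (blueprint B1): minimise `H = max_X Psi X - ξ0·z`, `ξ0 = (-(e'_A+e'_B+e'_C)/3, 3)`, over the box; the minimiser is
close to `zs`, hence interior; if one branch were inactive at the minimiser, one of three explicit directions would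
decrease `H`. -/

set_option autoImplicit false

namespace Crest.Agent.PT

open Set

theorem isCompact_Box (z : ℝ × ℝ) (r : ℝ) : IsCompact (Box z r) := by
  have : Box z r = Icc (z.1 - r) (z.1 + r) ×ˢ Icc (z.2 - r) (z.2 + r) := by
    ext y
    simp only [Box, mem_setOf_eq, mem_prod, mem_Icc, abs_le]
    constructor
    · rintro ⟨⟨a, b⟩, ⟨c, d⟩⟩
      exact ⟨⟨by linarith, by linarith⟩, ⟨by linarith, by linarith⟩⟩
    · rintro ⟨⟨a, b⟩, ⟨c, d⟩⟩
      exact ⟨⟨by linarith, by linarith⟩, ⟨by linarith, by linarith⟩⟩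
  rw [this]
  exact isCompact_Icc.prod isCompact_Icc

theorem self_mem_Box (z : ℝ × ℝ) {r : ℝ} (hr : 0 ≤ r) : z ∈ Box z r := by
  simp [Box, hr]

/-- a function with a two-sided `ℓ¹`-Lipschitz bound on `D` is continuous on `D`. -/
theorem continuousOn_of_l1 {f : ℝ × ℝ → ℝ} {D : Set (ℝ × ℝ)} {K : ℝ} (hK : 0 ≤ K)
    (h : ∀ z ∈ D, ∀ z' ∈ D, f z' - f z ≤ K * (|z'.1 - z.1| + |z'.2 - z.2|)) :
    ContinuousOn f D := by
  have hL : LipschitzOnWith (Real.toNNReal (2 * K)) f D := by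
    apply LipschitzOnWith.of_dist_le_mul
    intro x hx y hy
    rw [Real.coe_toNNReal _ (by positivity), Real.dist_eq, Prod.dist_eq, Real.dist_eq, Real.dist_eq]
    have h1 := h y hy x hx
    have h2 := h x hx y hy
    have a1 : |x.1 - y.1| ≤ max |x.1 - y.1| |x.2 - y.2| := le_max_left _ _
    have a2 : |x.2 - y.2| ≤ max |x.1 - y.1| |x.2 - y.2| := le_max_right _ _
    rw [abs_sub_comm y.1 x.1, abs_sub_comm y.2 x.2] at h2
    have h3 : K * (|x.1 - y.1| + |x.2 - y.2|) ≤ 2 * K * max |x.1 - y.1| |x.2 - y.2| := by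
      nlinarith
    rw [abs_le]
    constructor <;> linarith
  exact hL.continuousOn

theorem triple_point (Psi : Fin 3 → ℝ × ℝ → ℝ) (zs : ℝ × ℝ) (ρ : ℝ)
    (e' : Fin 3 → ℝ) (he' : ∀ X, |e' X - eX X| ≤ 1 / 50) (d' : ℝ) (hd0 : 0 ≤ d')
    (hd' : d' ≤ 1 / 1000)
    (hG : ∀ X, Grad (Psi X) (Box zs ρ) (e' X) (nX X) d')
    (δ : ℝ) (hδ : ∀ X Y, |Psi X zs - Psi Y zs| ≤ δ) (hδρ : 20 * δ < ρ) :
    ∃ z1 ∈ Box zs (20 * δ), ∀ X, Psi X z1 = Psi 0 z1 := by
  have hδ0 : 0 ≤ δ := le_trans (abs_nonneg _) (hδ 0 0)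
  have hρ : 0 < ρ := by linarith
  -- numerical data
  have he0 := abs_le.mp (he' 0)
  have he1 := abs_le.mp (he' 1)
  have he2 := abs_le.mp (he' 2)
  simp only [eX, Matrix.cons_val_zero, Matrix.cons_val_one, Matrix.cons_val] at he0 he1 he2
  set eb : ℝ := (e' 0 + e' 1 + e' 2) / 3 with heb
  set a1 : Fin 3 → ℝ := fun X => eb - e' X with ha1
  set a2 : Fin 3 → ℝ := fun X => nX X - 3 with ha2
  have ha20 : a2 0 = -1 := by simp [ha2, nX]; norm_num
  have ha21 : a2 1 = 0 := by simp [ha2, nX]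
  have ha22 : a2 2 = 1 := by simp [ha2, nX]; norm_num
  have ha10 : 0.05 ≤ a1 0 ∧ a1 0 ≤ 0.11 := by
    simp only [ha1, heb]; constructor <;> linarith [he0.1, he0.2, he1.1, he1.2, he2.1, he2.2]
  have ha11 : 0.3 ≤ a1 1 ∧ a1 1 ≤ 0.37 := by
    simp only [ha1, heb]; constructor <;> linarith [he0.1, he0.2, he1.1, he1.2, he2.1, he2.2]
  have ha12 : -0.45 ≤ a1 2 ∧ a1 2 ≤ -0.39 := by
    simp only [ha1, heb]; constructor <;> linarith [he0.1, he0.2, he1.1, he1.2, he2.1, he2.2]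
  have hsum : a1 0 + a1 1 + a1 2 = 0 := by simp only [ha1, heb]; ring
  have ha1abs : ∀ X, |a1 X| ≤ 0.45 := by
    intro X
    fin_cases X
    · show |a1 0| ≤ 0.45
      exact abs_le.mpr ⟨by linarith [ha10.1], by linarith [ha10.2]⟩
    · show |a1 1| ≤ 0.45
      exact abs_le.mpr ⟨by linarith [ha11.1], by linarith [ha11.2]⟩
    · show |a1 2| ≤ 0.45
      exact abs_le.mpr ⟨by linarith [ha12.1], by linarith [ha12.2]⟩
  have ha2abs : ∀ X, |a2 X| ≤ 1 := by
    intro X
    fin_cases X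
    · show |a2 0| ≤ 1
      rw [ha20]; norm_num
    · show |a2 1| ≤ 1
      rw [ha21]; norm_num
    · show |a2 2| ≤ 1
      rw [ha22]; norm_num
  -- tilted branches
  set φ : Fin 3 → ℝ × ℝ → ℝ := fun X z => Psi X z + eb * z.1 - 3 * z.2 with hφ
  have hup : ∀ X, ∀ z ∈ Box zs ρ, ∀ z' ∈ Box zs ρ, φ X z' - φ X z
      ≤ a1 X * (z'.1 - z.1) + a2 X * (z'.2 - z.2) + d' * (|z'.1 - z.1| + |z'.2 - z.2|) := by
    intro X z hz z' hz'
    have := hG X z hz z' hz'
    simp only [hφ, ha1, ha2]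
    linarith
  have hlo : ∀ X, ∀ z ∈ Box zs ρ, ∀ z' ∈ Box zs ρ,
      a1 X * (z'.1 - z.1) + a2 X * (z'.2 - z.2) - d' * (|z'.1 - z.1| + |z'.2 - z.2|)
        ≤ φ X z' - φ X z := by
    intro X z hz z' hz'
    have := hup X z' hz' z hz
    rw [abs_sub_comm z.1 z'.1, abs_sub_comm z.2 z'.2] at this
    linarith
  have hcontφ : ∀ X, ContinuousOn (φ X) (Box zs ρ) := by
    intro X
    apply continuousOn_of_l1 (K := 2) (by norm_num)
    intro z hz z' hz'
    have h1 := hup X z hz z' hz'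
    have b1 : a1 X * (z'.1 - z.1) ≤ 0.45 * |z'.1 - z.1| := by
      calc a1 X * (z'.1 - z.1) ≤ |a1 X * (z'.1 - z.1)| := le_abs_self _
        _ = |a1 X| * |z'.1 - z.1| := abs_mul _ _
        _ ≤ 0.45 * |z'.1 - z.1| := mul_le_mul_of_nonneg_right (ha1abs X) (abs_nonneg _)
    have b2 : a2 X * (z'.2 - z.2) ≤ 1 * |z'.2 - z.2| := by
      calc a2 X * (z'.2 - z.2) ≤ |a2 X * (z'.2 - z.2)| := le_abs_self _
        _ = |a2 X| * |z'.2 - z.2| := abs_mul _ _
        _ ≤ 1 * |z'.2 - z.2| := mul_le_mul_of_nonneg_right (ha2abs X) (abs_nonneg _)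
    have b3 : d' * (|z'.1 - z.1| + |z'.2 - z.2|) ≤ 1 / 1000 * (|z'.1 - z.1| + |z'.2 - z.2|) :=
      mul_le_mul_of_nonneg_right hd' (by positivity)
    have p1 := abs_nonneg (z'.1 - z.1)
    have p2 := abs_nonneg (z'.2 - z.2)
    linarith
  set H : ℝ × ℝ → ℝ := fun z => max (φ 0 z) (max (φ 1 z) (φ 2 z)) with hH
  have hcontH : ContinuousOn H (Box zs ρ) :=
    ContinuousOn.sup (hcontφ 0) (ContinuousOn.sup (hcontφ 1) (hcontφ 2))
  have hφH : ∀ X z, φ X z ≤ H z := by
    intro X z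
    fin_cases X
    · exact le_max_left _ _
    · exact le_trans (le_max_left _ _) (le_max_right _ _)
    · exact le_trans (le_max_right _ _) (le_max_right _ _)
  obtain ⟨z1, hz1, hmin⟩ := (isCompact_Box zs ρ).exists_isMinOn ⟨zs, self_mem_Box zs hρ.le⟩ hcontH
  have hmin' : ∀ z ∈ Box zs ρ, H z1 ≤ H z := fun z hz => hmin hz
  have hzs : zs ∈ Box zs ρ := self_mem_Box zs hρ.le
  -- location of the minimiser
  have hloc : |z1.1 - zs.1| ≤ 20 * δ ∧ |z1.2 - zs.2| ≤ 20 * δ := by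
    set p := |z1.1 - zs.1| with hp
    set q := |z1.2 - zs.2| with hq
    have hp0 : 0 ≤ p := abs_nonneg _
    have hq0 : 0 ≤ q := abs_nonneg _
    have hHzs : H zs ≤ φ 0 zs + δ := by
      have c1 : φ 1 zs ≤ φ 0 zs + δ := by
        have := (abs_le.mp (hδ 1 0)).2
        simp only [hφ]; linarith
      have c2 : φ 2 zs ≤ φ 0 zs + δ := by
        have := (abs_le.mp (hδ 2 0)).2
        simp only [hφ]; linarith
      exact max_le (by linarith) (max_le c1 c2)
    have hX : ∀ X, a1 X * (z1.1 - zs.1) + a2 X * (z1.2 - zs.2) ≤ 2 * δ + d' * (p + q) := by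
      intro X
      have h1 := hlo X zs hzs z1 hz1
      have h2 := hφH X z1
      have h3 := hmin' zs hzs
      have h4 : φ 0 zs - δ ≤ φ X zs := by
        have := (abs_le.mp (hδ X 0)).1
        simp only [hφ]; linarith
      linarith
    have hA := hX 0
    have hB := hX 1
    have hC := hX 2
    rw [ha20] at hA
    rw [ha21] at hB
    rw [ha22] at hC
    have hds : d' * (p + q) ≤ 1 / 1000 * (p + q) := mul_le_mul_of_nonneg_right hd' (by positivity)
    have hds0 : 0 ≤ d' * (p + q) := by positivity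
    -- I1
    have hB' : -(a1 1 * (z1.1 - zs.1)) ≤ 4 * δ + 2 * (d' * (p + q)) := by
      have : a1 0 * (z1.1 - zs.1) + a1 2 * (z1.1 - zs.1) = -(a1 1 * (z1.1 - zs.1)) := by
        have : a1 0 + a1 2 = - a1 1 := by linarith
        calc a1 0 * (z1.1 - zs.1) + a1 2 * (z1.1 - zs.1) = (a1 0 + a1 2) * (z1.1 - zs.1) := by ring
          _ = -(a1 1 * (z1.1 - zs.1)) := by rw [this]; ring
      linarith
    have I1 : 0.3 * p ≤ 4 * δ + 2 * (d' * (p + q)) := by
      have e1 : a1 1 * p ≤ 4 * δ + 2 * (d' * (p + q)) := by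
        have : a1 1 * p = |a1 1 * (z1.1 - zs.1)| := by
          rw [abs_mul, abs_of_nonneg (by linarith [ha11.1] : (0 : ℝ) ≤ a1 1)]
        rw [this]
        apply abs_le.mpr
        constructor <;> linarith
      have e2 : 0.3 * p ≤ a1 1 * p := mul_le_mul_of_nonneg_right ha11.1 hp0
      linarith
    have J0 : |a1 0 * (z1.1 - zs.1)| ≤ 0.45 * p := by
      rw [abs_mul]; exact mul_le_mul_of_nonneg_right (ha1abs 0) hp0
    have J2 : |a1 2 * (z1.1 - zs.1)| ≤ 0.45 * p := by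
      rw [abs_mul]; exact mul_le_mul_of_nonneg_right (ha1abs 2) hp0
    have I2 : q ≤ 2 * δ + d' * (p + q) + 0.45 * p := by
      apply abs_le.mpr
      have j0 := abs_le.mp J0
      have j2 := abs_le.mp J2
      constructor <;> linarith [j0.1, j0.2, j2.1, j2.2]
    constructor <;> linarith
  have hz1' : z1 ∈ Box zs (20 * δ) := hloc
  -- descent
  have hdesc : ∀ (v : ℝ × ℝ) (X0 : Fin 3), φ X0 z1 < H z1 → |v.1| ≤ 1 → |v.2| ≤ 1 →
      (∀ Y, Y ≠ X0 → a1 Y * v.1 + a2 Y * v.2 + d' * (|v.1| + |v.2|) < 0) → False := by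
    intro v X0 hX0 hv1 hv2 hneg
    set gp := H z1 - φ X0 z1 with hgp
    have hgp0 : 0 < gp := by rw [hgp]; linarith
    set t := min (ρ - 20 * δ) (gp / 4) with ht
    have ht0 : 0 < t := lt_min (by linarith) (by linarith)
    have ht1 : t ≤ ρ - 20 * δ := min_le_left _ _
    have ht2 : t ≤ gp / 4 := min_le_right _ _
    set z' : ℝ × ℝ := (z1.1 + t * v.1, z1.2 + t * v.2) with hz'
    have hz'mem : z' ∈ Box zs ρ := by
      have b1 : |t * v.1| ≤ t := by
        rw [abs_mul, abs_of_pos ht0]; nlinarith [abs_nonneg v.1]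
      have b2 : |t * v.2| ≤ t := by
        rw [abs_mul, abs_of_pos ht0]; nlinarith [abs_nonneg v.2]
      constructor
      · calc |z'.1 - zs.1| = |(z1.1 - zs.1) + t * v.1| := by simp only [hz']; ring_nf
          _ ≤ |z1.1 - zs.1| + |t * v.1| := abs_add_le _ _
          _ ≤ ρ := by linarith [hloc.1]
      · calc |z'.2 - zs.2| = |(z1.2 - zs.2) + t * v.2| := by simp only [hz']; ring_nf
          _ ≤ |z1.2 - zs.2| + |t * v.2| := abs_add_le _ _
          _ ≤ ρ := by linarith [hloc.2]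
    have hstep : ∀ Y, φ Y z' - φ Y z1
        ≤ t * (a1 Y * v.1 + a2 Y * v.2 + d' * (|v.1| + |v.2|)) := by
      intro Y
      have h1 := hup Y z1 hz1 z' hz'mem
      have e1 : z'.1 - z1.1 = t * v.1 := by simp only [hz']; ring
      have e2 : z'.2 - z1.2 = t * v.2 := by simp only [hz']; ring
      rw [e1, e2, abs_mul, abs_mul, abs_of_pos ht0] at h1
      linarith
    have hlt : ∀ Y, φ Y z' < H z1 := by
      intro Y
      by_cases hY : Y = X0
      · subst hY
        have h1 := hstep Y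
        have b1 : a1 Y * v.1 ≤ 0.45 := by
          calc a1 Y * v.1 ≤ |a1 Y * v.1| := le_abs_self _
            _ = |a1 Y| * |v.1| := abs_mul _ _
            _ ≤ 0.45 * 1 := mul_le_mul (ha1abs Y) hv1 (abs_nonneg _) (by norm_num)
            _ = 0.45 := by norm_num
        have b2 : a2 Y * v.2 ≤ 1 := by
          calc a2 Y * v.2 ≤ |a2 Y * v.2| := le_abs_self _
            _ = |a2 Y| * |v.2| := abs_mul _ _
            _ ≤ 1 * 1 := mul_le_mul (ha2abs Y) hv2 (abs_nonneg _) (by norm_num)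
            _ = 1 := by norm_num
        have b3 : d' * (|v.1| + |v.2|) ≤ 1 / 1000 * 2 :=
          mul_le_mul hd' (by linarith) (by positivity) (by norm_num)
        have b4 : t * (a1 Y * v.1 + a2 Y * v.2 + d' * (|v.1| + |v.2|)) ≤ t * 2 :=
          mul_le_mul_of_nonneg_left (by linarith) ht0.le
        linarith
      · have h1 := hstep Y
        have h2 : t * (a1 Y * v.1 + a2 Y * v.2 + d' * (|v.1| + |v.2|)) < 0 :=
          mul_neg_of_pos_of_neg ht0 (hneg Y hY)
        have h3 := hφH Y z1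
        linarith
    have hHlt : H z' < H z1 := max_lt (hlt 0) (max_lt (hlt 1) (hlt 2))
    exact absurd (hmin' z' hz'mem) (not_le.mpr hHlt)
  -- all three branches are active
  have hact1 : φ 1 z1 = H z1 := by
    by_contra hne
    refine hdesc (1, 1 / 4) 1 (lt_of_le_of_ne (hφH 1 z1) hne) (by norm_num) (by norm_num [abs_le]) ?_
    intro Y hY
    have habs : |(1 : ℝ)| + |(1 / 4 : ℝ)| = 5 / 4 := by norm_num [abs_of_pos]
    fin_cases Y
    · show a1 0 * 1 + a2 0 * (1 / 4) + d' * (|(1 : ℝ)| + |(1 / 4 : ℝ)|) < 0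
      rw [ha20, habs]; linarith [ha10.2]
    · exact absurd rfl hY
    · show a1 2 * 1 + a2 2 * (1 / 4) + d' * (|(1 : ℝ)| + |(1 / 4 : ℝ)|) < 0
      rw [ha22, habs]; linarith [ha12.2]
  have hact0 : φ 0 z1 = H z1 := by
    by_contra hne
    refine hdesc (-1, -1) 0 (lt_of_le_of_ne (hφH 0 z1) hne) (by norm_num) (by norm_num) ?_
    intro Y hY
    have habs : |(-1 : ℝ)| + |(-1 : ℝ)| = 2 := by norm_num
    fin_cases Y
    · exact absurd rfl hY
    · show a1 1 * (-1) + a2 1 * (-1) + d' * (|(-1 : ℝ)| + |(-1 : ℝ)|) < 0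
      rw [ha21, habs]; linarith [ha11.1]
    · show a1 2 * (-1) + a2 2 * (-1) + d' * (|(-1 : ℝ)| + |(-1 : ℝ)|) < 0
      rw [ha22, habs]; linarith [ha12.1]
  have hact2 : φ 2 z1 = H z1 := by
    by_contra hne
    refine hdesc (-1, 1) 2 (lt_of_le_of_ne (hφH 2 z1) hne) (by norm_num) (by norm_num) ?_
    intro Y hY
    have habs : |(-1 : ℝ)| + |(1 : ℝ)| = 2 := by norm_num
    fin_cases Y
    · show a1 0 * (-1) + a2 0 * 1 + d' * (|(-1 : ℝ)| + |(1 : ℝ)|) < 0
      rw [ha20, habs]; linarith [ha10.1]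
    · show a1 1 * (-1) + a2 1 * 1 + d' * (|(-1 : ℝ)| + |(1 : ℝ)|) < 0
      rw [ha21, habs]; linarith [ha11.1]
    · exact absurd rfl hY
  refine ⟨z1, hz1', ?_⟩
  intro X
  have hall : φ X z1 = φ 0 z1 := by
    fin_cases X
    · rfl
    · show φ 1 z1 = φ 0 z1
      rw [hact1, hact0]
    · show φ 2 z1 = φ 0 z1
      rw [hact2, hact0]
  simp only [hφ] at hall
  linarith

end Crest.Agent.PT
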