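import Crest.Agent.PT_SharpWell
import Crest.Agent.PT_SharpGrad
import Crest.Agent.PT_SharpSub
import Crest.Agent.PT_Triple

/-! Row 149, task B1 (block G9): assembly of the Sharpening Lemma from the blocks G1–G8. -/

set_option autoImplicit false

namespace Crest.Agent.PT

theorem Grad.mono {Q : ℝ × ℝ → ℝ} {D D' : Set (ℝ × ℝ)} {e n d : ℝ} (h : Grad Q D e n d)
    (hD : D' ⊆ D) : Grad Q D' e n d :=
  fun z₁ h₁ z₂ h₂ => h z₁ (hD h₁) z₂ (hD h₂)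

theorem Box_subset_Box {z z' : ℝ × ℝ} {ρ ρ' ρ'' : ℝ} (hz : z' ∈ Box z ρ) (h : ρ + ρ' ≤ ρ'') :
    Box z' ρ' ⊆ Box z ρ'' := by
  intro y hy
  have a1 := abs_le.1 hz.1
  have a2 := abs_le.1 hz.2
  have b1 := abs_le.1 hy.1
  have b2 := abs_le.1 hy.2
  exact ⟨abs_le.2 ⟨by linarith [a1.1, b1.1], by linarith [a1.2, b1.2]⟩,
    abs_le.2 ⟨by linarith [a2.1, b2.1], by linarith [a2.2, b2.2]⟩⟩

/-- B1, the Sharpening Lemma, assembled. -/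
theorem sharpen_asm (F : ℝ × ℝ → ℝ) (hF : ConvexOn ℝ Strip F) (z0 : ℝ × ℝ)
    (hβ0 : 0.95 ≤ z0.1 ∧ z0.1 ≤ 1.05) (r : ℝ) (hr : r ≤ 0.02) (d : ℝ) (hd0 : 0 ≤ d)
    (hd : d ≤ 1 / 100000) (e : Fin 3 → ℝ) (he : ∀ X, |e X - eX X| ≤ 1 / 100)
    (Pi : Fin 3 → ℝ × ℝ → ℝ) (h1 : ∀ X, Pi X z0 = Pi 0 z0)
    (h2 : ∀ X, Grad (Pi X) (Box z0 r) (e X) (nX X) d) (ε : ℝ) (hε0 : 0 ≤ ε)
    (h3 : ∀ z ∈ Box z0 r, |F z - max3 (fun X => Pi X z)| ≤ ε)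
    (κ : ℝ) (hκ : 0 < κ) (hκr : 100 * κ ≤ r) (hε : ε ≤ κ / 100000000)
    (𝒩 : Finset ℝ) (h𝒩 : ∀ m ∈ 𝒩, 0 ≤ m ∧ m ≤ 20) (h𝒩' : ∀ X, ∃ m ∈ 𝒩, |m - nX X| ≤ 1 / 1000)
    (MF : ℝ × ℝ → ℝ) (hMF : IsM κ 𝒩 F MF) (d' : ℝ)
    (hd' : d' = (d + 100 * ε / κ) * (1 + 5 * κ) + κ / 800) :
    ∃ z1 ∈ Box z0 (4 * κ), ∃ Psi : Fin 3 → ℝ × ℝ → ℝ,
      (∀ X, Psi X z1 = Psi 0 z1) ∧
      (∀ X, Grad (Psi X) (Box z1 (κ / 100)) (e X - κ * (nX X) ^ 2 / 2) (nX X) d') ∧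
      (∀ z ∈ Box z1 (κ / 100), MF z = max3 (fun X => Psi X z)) ∧
      (∀ X, ∃ ξ : ℝ × ℝ, Sub MF z1 ξ ∧ |ξ.1 + (e X - κ * (nX X) ^ 2 / 2)| ≤ d' ∧ |ξ.2 - nX X| ≤ d') := by
  have H : SharpHyp F z0 r d e Pi ε κ 𝒩 :=
    ⟨hF, hβ0, hr, hd0, hd, he, h1, h2, hε0, h3, hκ, hκr, hε, h𝒩, h𝒩'⟩
  have hκ5 := H.kappa_le
  set zs := zStar κ e z0 with hzs
  have hεκ : 100 * ε / κ ≤ 1 / 1000000 := by
    rw [div_le_iff₀ hκ]; linarith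
  have hεκ0 : 0 ≤ 100 * ε / κ := by positivity
  have hd'0 : 0 ≤ d' := by rw [hd']; positivity
  have hd'1 : d' ≤ 1 / 1000 := by
    rw [hd']
    have : (d + 100 * ε / κ) * (1 + 5 * κ) ≤ (1 / 100000 + 1 / 1000000) * (1 + 5 * (1 / 5000)) := by
      apply mul_le_mul (by linarith) (by linarith) (by positivity) (by norm_num)
    linarith
  have hG : ∀ X, Grad (PsiB κ 𝒩 F X) (Box zs (κ / 50)) (ePr κ e X) (nX X) d' := by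
    intro X; rw [hd']; exact H.grad_Psi X
  have he' : ∀ X, |ePr κ e X - eX X| ≤ 1 / 50 := by
    intro X
    have a := abs_le.1 (he X)
    have n2 := nX_ge X
    have n4 := nX_le X
    have : 0 ≤ κ * (nX X) ^ 2 / 2 ∧ κ * (nX X) ^ 2 / 2 ≤ 8 * κ := by
      constructor
      · positivity
      · have h16 : (nX X) ^ 2 ≤ 16 := by nlinarith
        nlinarith
    unfold ePr
    rw [abs_le]
    constructor <;> linarith [a.1, a.2, this.1, this.2]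
  have hzsmem : zs ∈ Box zs (κ / 50) := self_mem_Box zs (by positivity)
  have hδ : ∀ X Y, |PsiB κ 𝒩 F X zs - PsiB κ 𝒩 F Y zs| ≤ κ / 5000 := by
    intro X Y
    have a := abs_le.1 (H.Psi_Theta hzsmem X)
    have b := abs_le.1 (H.Psi_Theta hzsmem Y)
    have c := abs_le.1 (H.Theta_diff_star X Y)
    rw [abs_le]
    constructor <;> linarith [a.1, a.2, b.1, b.2, c.1, c.2]
  obtain ⟨z1, hz1, heq⟩ := triple_point (PsiB κ 𝒩 F) zs (κ / 50) (ePr κ e) he' d' hd'0 hd'1 hG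
    (κ / 5000) hδ (by linarith)
  have hsub1 : Box z1 (κ / 100) ⊆ Box zs (κ / 50) := Box_subset_Box hz1 (by linarith)
  have hsub2 : Box z1 (κ / 100) ⊆ Box z0 (r / 2) := fun y hy => H.box_star_subset' (hsub1 hy)
  have hz1self : z1 ∈ Box z1 (κ / 100) := self_mem_Box z1 (by positivity)
  have hz1' : z1 ∈ Box z0 (4 * κ) :=
    Box_subset_Box H.zStar_mem (by linarith : 3.1 * κ + 20 * (κ / 5000) ≤ 4 * κ) hz1
  refine ⟨z1, hz1', PsiB κ 𝒩 F, heq, fun X => (hG X).mono hsub1,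
    fun z hz => H.gap hMF (hsub2 hz), fun X => ?_⟩
  have hb := H.beta_bounds (hsub2 hz1self)
  have hMFz1 : PsiB κ 𝒩 F X z1 = MF z1 := by
    rw [H.gap hMF (hsub2 hz1self)]
    obtain ⟨Y, hY⟩ := exists_eq_max3 (fun X => PsiB κ 𝒩 F X z1)
    rw [hY]
    show PsiB κ 𝒩 F X z1 = PsiB κ 𝒩 F Y z1
    rw [heq X, heq Y]
  exact sub_of_grad (convexOn_PsiB hF κ 𝒩 X) (fun y hy => H.PsiB_le_MF hMF hy X)
    ⟨by norm_num at hb ⊢; linarith [hb.1], by norm_num at hb ⊢; linarith [hb.2]⟩ hMFz1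
    (by positivity : 0 < κ / 100) (fun y hy => H.mem_strip (hsub2 hy)) ((hG X).mono hsub1)

end Crest.Agent.PT
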