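import Crest.Agent.PT_Sub
import Crest.Agent.PT_SharpAsm

/-! Row 149, task B1: the Sharpening Lemma (blueprint §B1).
The proof is split in the blocks `PT_SharpGap` (S1, S2, gap), `PT_SharpNom` (nominal point), `PT_SharpWell`,
`PT_SharpDom`, `PT_SharpGrad`, `PT_SharpSub`, `PT_Triple` and assembled in `PT_SharpAsm`. -/

set_option autoImplicit false

namespace Crest.Agent.PT

/-- B1, the Sharpening Lemma (blueprint B1; all constants as there). -/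
theorem sharpen (F : ℝ × ℝ → ℝ) (hF : ConvexOn ℝ Strip F) (z0 : ℝ × ℝ)
    (hβ0 : 0.95 ≤ z0.1 ∧ z0.1 ≤ 1.05) (r : ℝ) (hr : r ≤ 0.02) (d : ℝ) (hd0 : 0 ≤ d)
    (hd : d ≤ 1 / 100000) (e : Fin 3 → ℝ) (he : ∀ X, |e X - eX X| ≤ 1 / 100)
    (Pi : Fin 3 → ℝ × ℝ → ℝ) (h1 : ∀ X, Pi X z0 = Pi 0 z0)
    (h2 : ∀ X, Grad (Pi X) (Box z0 r) (e X) (nX X) d) (ε : ℝ) (hε0 : 0 ≤ ε)
    (h3 : ∀ z ∈ Box z0 r, |F z - max3 (fun X => Pi X z)| ≤ ε)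
    (κ : ℝ) (hκ : 0 < κ) (hκr : 100 * κ ≤ r) (hε : ε ≤ κ / 100000000)
    (𝒩 : Finset ℝ) (h𝒩 : ∀ m ∈ 𝒩, 0 ≤ m ∧ m ≤ 20) (h𝒩' : ∀ X, ∃ m ∈ 𝒩, |m - nX X| ≤ 1 / 1000)
    (MF : ℝ × ℝ → ℝ) (hMF : IsM κ 𝒩 F MF) (d' : ℝ)
    (hd' : d' = (d + 100 * ε / κ) * (1 + 5 * κ) + κ / 800) :
    ∃ z1 ∈ Box z0 (4 * κ), ∃ Psi : Fin 3 → ℝ × ℝ → ℝ,
      (∀ X, Psi X z1 = Psi 0 z1) ∧
      (∀ X, Grad (Psi X) (Box z1 (κ / 100)) (e X - κ * (nX X) ^ 2 / 2) (nX X) d') ∧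
      (∀ z ∈ Box z1 (κ / 100), MF z = max3 (fun X => Psi X z)) ∧
      (∀ X, ∃ ξ : ℝ × ℝ, Sub MF z1 ξ ∧ |ξ.1 + (e X - κ * (nX X) ^ 2 / 2)| ≤ d' ∧ |ξ.2 - nX X| ≤ d') :=
  sharpen_asm F hF z0 hβ0 r hr d hd0 hd e he Pi h1 h2 ε hε0 h3 κ hκ hκr hε 𝒩 h𝒩 h𝒩' MF hMF d' hd'

end Crest.Agent.PT
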