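import Crest.Agent.PT_SharpNom

/-! Row 149, task B1 (block G5): near the shifted points `z^m`, `m` in the well of `X`, the branch `Π^X`
dominates, hence `|F - Π^X| ≤ ε` there (blueprint §B1, "Grad"). -/

set_option autoImplicit false

namespace Crest.Agent.PT

/-- pure arithmetic behind `dominance`. -/
private theorem dom_aux {κ s1 a a' b b' t D E n : ℝ} (hκ : 0 < κ) (hκ' : κ ≤ 1 / 5000)
    (hs : 0.94 ≤ s1) (ha : |a| ≤ κ / 50) (ha' : |a'| ≤ κ / 50) (hb : |b| ≤ κ / 50)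
    (hb' : |b'| ≤ κ / 50) (ht : |t| ≤ 1 / 20) (hD1 : 1 ≤ |D|) (hE : |E| ≤ 0.77)
    (hn0 : 2 ≤ n) (hn : n ≤ 4) :
    0.3 * κ ≤ D * κ * (s1 * (D / 2 + t) + a' * (n + t)) - E * (a + a') + D * (b + b') := by
  set A : ℝ := |D| with hA
  have hA0 : 0 ≤ A := abs_nonneg D
  have hκA : κ ≤ κ * A := by nlinarith
  have hw : 0.45 * A ≤ D * (D / 2 + t) := by
    have h1 : -(A * (1 / 20)) ≤ D * t := by
      have h : |D * t| ≤ A * (1 / 20) := by
        rw [abs_mul]; exact mul_le_mul_of_nonneg_left ht (abs_nonneg D)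
      linarith [neg_abs_le (D * t)]
    have h2 : D * D = A * A := (abs_mul_abs_self D).symm
    nlinarith
  have hT1 : κ * 0.94 * (0.45 * A) ≤ κ * s1 * (D * (D / 2 + t)) :=
    mul_le_mul (mul_le_mul_of_nonneg_left hs hκ.le) hw (by positivity)
      (mul_nonneg hκ.le (by linarith))
  have hnt : |n + t| ≤ 4.05 := by
    have := abs_le.1 ht
    rw [abs_le]; constructor <;> norm_num at * <;> linarith [this.1, this.2]
  have hT2 : -(κ * A * (1 / 5000 / 50 * 4.05)) ≤ κ * (D * (a' * (n + t))) := by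
    have h1 : |D * (a' * (n + t))| ≤ A * (κ / 50 * 4.05) := by
      rw [abs_mul, abs_mul]
      exact mul_le_mul_of_nonneg_left
        (mul_le_mul ha' hnt (abs_nonneg _) (by positivity)) (abs_nonneg D)
    have h2 : A * (κ / 50 * 4.05) ≤ A * (1 / 5000 / 50 * 4.05) := by
      apply mul_le_mul_of_nonneg_left _ hA0
      nlinarith
    have h3 : -(A * (1 / 5000 / 50 * 4.05)) ≤ D * (a' * (n + t)) := by
      linarith [neg_abs_le (D * (a' * (n + t)))]
    have h4 := mul_le_mul_of_nonneg_left h3 hκ.le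
    nlinarith
  have haa : |a + a'| ≤ κ / 25 := (abs_add_le a a').trans (by linarith)
  have hbb : |b + b'| ≤ κ / 25 := (abs_add_le b b').trans (by linarith)
  have hT3 : E * (a + a') ≤ 0.77 * (κ / 25) := by
    have h1 : |E * (a + a')| ≤ 0.77 * (κ / 25) := by
      rw [abs_mul]; exact mul_le_mul hE haa (abs_nonneg _) (by norm_num)
    linarith [le_abs_self (E * (a + a'))]
  have hT4 : -(A * (κ / 25)) ≤ D * (b + b') := by
    have h1 : |D * (b + b')| ≤ A * (κ / 25) := by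
      rw [abs_mul]; exact mul_le_mul_of_nonneg_left hbb (abs_nonneg D)
    linarith [neg_abs_le (D * (b + b'))]
  have e : D * κ * (s1 * (D / 2 + t) + a' * (n + t)) =
      κ * s1 * (D * (D / 2 + t)) + κ * (D * (a' * (n + t))) := by ring
  rw [e]
  norm_num at *
  nlinarith

private theorem dom_nX_diff {X Y : Fin 3} (h : X ≠ Y) : 1 ≤ |nX X - nX Y| := by
  fin_cases X <;> fin_cases Y <;> first | exact absurd rfl h | (simp [nX]; try norm_num)

private theorem dom_eX_diff (X Y : Fin 3) : |eX X - eX Y| ≤ 3 / 4 := by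
  fin_cases X <;> fin_cases Y <;> simp [eX] <;> norm_num [abs_le]

namespace SharpHyp

variable {F : ℝ × ℝ → ℝ} {z0 : ℝ × ℝ} {r d : ℝ} {e : Fin 3 → ℝ} {Pi : Fin 3 → ℝ × ℝ → ℝ}
  {ε κ : ℝ} {𝒩 : Finset ℝ}

/-- Proof: by `Pi_affine`, `Π^X(y) - Π^Y(y) ≥ -(e_X-e_Y)Δβ_y + (n_X-n_Y)Δν_y - 2d(|Δβ_y|+|Δν_y|)`.  Write
`y = (z.1 + a, z.2 + z.1 κ m + b)`, `z = z* + (a', b')`, all of `|a|,|b|,|a'|,|b'| ≤ κ/50`.  By `zStar_eq` the main term
is `(n_X-n_Y) κ [z*.1 (m-(n_X+n_Y)/2) + a' m] - (e_X-e_Y)(a+a') + (n_X-n_Y)(b+b')`, and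
`(n_X-n_Y)(m-(n_X+n_Y)/2) ≥ 0.45` for `Y ≠ X`, `|m-n_X| ≤ 1/20`; `z*.1 ≥ 0.94`; `|e_X-e_Y| ≤ 0.77`.  Total `≥ 0.3 κ > 0`.
So `max3 Π (y) = Π^X (y)` and (h3) applies. -/
theorem dominance (H : SharpHyp F z0 r d e Pi ε κ 𝒩) {z : ℝ × ℝ}
    (hz : z ∈ Box (zStar κ e z0) (κ / 50)) {X : Fin 3} {m : ℝ} (hm : m ∈ wellB 𝒩 X)
    {y : ℝ × ℝ} (hy : y ∈ Box (z.1, z.2 + z.1 * κ * m) (κ / 50)) :
    y ∈ Box z0 r ∧ |F y - Pi X y| ≤ ε := by
  have hκ := H.hκ
  have hκ' := H.kappa_le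
  have hκr := H.hκr
  have hmX : |m - nX X| ≤ 1 / 20 := (mem_wellB.1 hm).2
  have hmX' := abs_le.1 hmX
  have hn0 := nX_ge X
  have hn4 := nX_le X
  have hz1 := H.box_star_subset hz
  have hz2 := H.box_star_subset' hz
  have hβ := H.beta_bounds hz2
  have hs := H.zStar_mem
  have ha : |y.1 - z.1| ≤ κ / 50 := hy.1
  have hb : |y.2 - (z.2 + z.1 * κ * m)| ≤ κ / 50 := hy.2
  have ha' : |z.1 - (zStar κ e z0).1| ≤ κ / 50 := hz.1
  have hb' : |z.2 - (zStar κ e z0).2| ≤ κ / 50 := hz.2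
  have hz11 : |z.1 - z0.1| ≤ 3.12 * κ := hz1.1
  have hz12 : |z.2 - z0.2| ≤ 3.12 * κ := hz1.2
  -- the shift
  have hsh : 0 ≤ z.1 * κ * m ∧ z.1 * κ * m ≤ 4.3 * κ := by
    have hz0 : 0 ≤ z.1 := by norm_num at hβ; linarith [hβ.1]
    have h1 : z.1 * κ ≤ 1.06 * κ := mul_le_mul_of_nonneg_right hβ.2 hκ.le
    have h0 : 0 ≤ z.1 * κ := mul_nonneg hz0 hκ.le
    have hm0 : 0 ≤ m := by linarith [hmX'.1]
    have hm4 : m ≤ 4.05 := by norm_num; linarith [hmX'.2]
    refine ⟨mul_nonneg h0 hm0, ?_⟩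
    calc z.1 * κ * m ≤ (1.06 * κ) * 4.05 := mul_le_mul h1 hm4 hm0 (by positivity)
      _ ≤ 4.3 * κ := by nlinarith
  have hΔβ : |y.1 - z0.1| ≤ 3.14 * κ := by
    have e1 : y.1 - z0.1 = (y.1 - z.1) + (z.1 - z0.1) := by ring
    rw [e1]
    refine (abs_add_le _ _).trans ?_
    norm_num at *
    linarith
  have hΔν : |y.2 - z0.2| ≤ 7.44 * κ := by
    have e1 : y.2 - z0.2 = (y.2 - (z.2 + z.1 * κ * m)) + (z.2 - z0.2) + z.1 * κ * m := by ring
    rw [e1]
    refine (abs_add_le _ _).trans ?_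
    have h3 : |z.1 * κ * m| ≤ 4.3 * κ := by rw [abs_of_nonneg hsh.1]; exact hsh.2
    have h4 := abs_add_le (y.2 - (z.2 + z.1 * κ * m)) (z.2 - z0.2)
    norm_num at *
    linarith
  have hyB : y ∈ Box z0 r := by
    refine ⟨hΔβ.trans ?_, hΔν.trans ?_⟩ <;> norm_num <;> linarith
  refine ⟨hyB, ?_⟩
  -- the branch `X` dominates
  have hdom : ∀ Y : Fin 3, Pi Y y ≤ Pi X y := by
    intro Y
    by_cases hXY : X = Y
    · rw [hXY]
    have hPX := abs_le.1 (H.Pi_affine hyB X)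
    have hPY := abs_le.1 (H.Pi_affine hyB Y)
    have hs1 : 0.94 ≤ (zStar κ e z0).1 := by
      have h1 := abs_le.1 hs.1
      have h2 := H.hβ0.1
      norm_num at *
      linarith [h1.1]
    have hE : |e X - e Y| ≤ 0.77 := by
      have e1 : e X - e Y = (e X - eX X) + (eX X - eX Y) + (eX Y - e Y) := by ring
      rw [e1]
      have h1 := H.he X
      have h2 := H.he Y
      rw [abs_sub_comm] at h2
      have h3 := dom_eX_diff X Y
      have h4 := abs_add_le ((e X - eX X) + (eX X - eX Y)) (eX Y - e Y)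
      have h5 := abs_add_le (e X - eX X) (eX X - eX Y)
      norm_num at *
      linarith
    have haux := dom_aux (κ := κ) (s1 := (zStar κ e z0).1) (a := y.1 - z.1)
      (a' := z.1 - (zStar κ e z0).1) (b := y.2 - (z.2 + z.1 * κ * m))
      (b' := z.2 - (zStar κ e z0).2) (t := m - nX X) (D := nX X - nX Y) (E := e X - e Y)
      (n := nX X) hκ hκ' hs1 ha ha' hb hb' hmX (dom_nX_diff hXY) hE hn0 hn4
    have hkey : (nX X - nX Y) * κ * ((zStar κ e z0).1 * ((nX X - nX Y) / 2 + (m - nX X)) +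
          (z.1 - (zStar κ e z0).1) * (nX X + (m - nX X))) -
        (e X - e Y) * ((y.1 - z.1) + (z.1 - (zStar κ e z0).1)) +
        (nX X - nX Y) * ((y.2 - (z.2 + z.1 * κ * m)) + (z.2 - (zStar κ e z0).2)) =
        -(e X - e Y) * (y.1 - z0.1) + (nX X - nX Y) * (y.2 - z0.2) := by
      linear_combination (-1 : ℝ) * H.zStar_eq X Y
    rw [hkey] at haux
    have hdterm : d * (|y.1 - z0.1| + |y.2 - z0.2|) ≤ 1 / 100000 * (11 * κ) := by
      apply mul_le_mul H.hd _ (by positivity) (by norm_num)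
      norm_num at *
      linarith
    norm_num at *
    nlinarith [hPX.1, hPY.2]
  have hmax : max3 (fun X => Pi X y) = Pi X y :=
    le_antisymm (max3_le hdom) (le_max3 (fun X => Pi X y) X)
  have h3 := H.h3 y hyB
  rw [hmax] at h3
  exact h3

end SharpHyp

end Crest.Agent.PT
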