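import Crest.Agent.PT_Sub

/-! Row 149, task B1 (blocks G1, G2): definitions for the Sharpening Lemma, the inequalities
(S1), (S2) and the gap argument `M F = max_X Ψ^X` on `Box z0 (r/2)` (blueprint §B1). -/

set_option autoImplicit false

namespace Crest.Agent.PT

noncomputable section

/-! ### `max3` and `nX` -/

theorem le_max3 (f : Fin 3 → ℝ) (X : Fin 3) : f X ≤ max3 f := by
  unfold max3
  fin_cases X
  · exact le_max_left _ _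
  · exact le_trans (le_max_left _ _) (le_max_right _ _)
  · exact le_trans (le_max_right _ _) (le_max_right _ _)

theorem max3_le {f : Fin 3 → ℝ} {c : ℝ} (h : ∀ X, f X ≤ c) : max3 f ≤ c := by
  unfold max3
  exact max_le (h 0) (max_le (h 1) (h 2))

theorem exists_eq_max3 (f : Fin 3 → ℝ) : ∃ X, max3 f = f X := by
  unfold max3
  rcases max_choice (f 0) (max (f 1) (f 2)) with h | h
  · exact ⟨0, h⟩
  · rcases max_choice (f 1) (f 2) with h' | h'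
    · exact ⟨1, by rw [h, h']⟩
    · exact ⟨2, by rw [h, h']⟩

theorem nX_ge (X : Fin 3) : 2 ≤ nX X := by
  fin_cases X <;> simp [nX] <;> norm_num

theorem nX_le (X : Fin 3) : nX X ≤ 4 := by
  fin_cases X <;> simp [nX] <;> norm_num

/-! ### definitions -/

/-- `ψ_m` of blueprint B1. -/
def psiB (κ : ℝ) (F : ℝ × ℝ → ℝ) (m : ℝ) (z : ℝ × ℝ) : ℝ :=
  F (z.1, z.2 + z.1 * κ * m) - z.1 * κ * m ^ 2 / 2

/-- the well of phase `X`: grid points within `w = 1/20` of `n_X`. -/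
def wellB (𝒩 : Finset ℝ) (X : Fin 3) : Finset ℝ := 𝒩.filter (fun m => |m - nX X| ≤ 1 / 20)

/-- `Ψ^X = max_{m ∈ well X} ψ_m`. -/
def PsiB (κ : ℝ) (𝒩 : Finset ℝ) (F : ℝ × ℝ → ℝ) (X : Fin 3) (z : ℝ × ℝ) : ℝ :=
  if h : (wellB 𝒩 X).Nonempty then (wellB 𝒩 X).sup' h (fun m => psiB κ F m z) else 0

/-- `Θ^X = Π^X + β κ n_X² / 2`. -/
def ThetaB (κ : ℝ) (Pi : Fin 3 → ℝ × ℝ → ℝ) (X : Fin 3) (z : ℝ × ℝ) : ℝ :=
  Pi X z + z.1 * κ * (nX X) ^ 2 / 2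

/-- The hypotheses of the Sharpening Lemma, bundled. -/
structure SharpHyp (F : ℝ × ℝ → ℝ) (z0 : ℝ × ℝ) (r d : ℝ) (e : Fin 3 → ℝ)
    (Pi : Fin 3 → ℝ × ℝ → ℝ) (ε κ : ℝ) (𝒩 : Finset ℝ) : Prop where
  hF : ConvexOn ℝ Strip F
  hβ0 : 0.95 ≤ z0.1 ∧ z0.1 ≤ 1.05
  hr : r ≤ 0.02
  hd0 : 0 ≤ d
  hd : d ≤ 1 / 100000
  he : ∀ X, |e X - eX X| ≤ 1 / 100
  h1 : ∀ X, Pi X z0 = Pi 0 z0
  h2 : ∀ X, Grad (Pi X) (Box z0 r) (e X) (nX X) d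
  hε0 : 0 ≤ ε
  h3 : ∀ z ∈ Box z0 r, |F z - max3 (fun X => Pi X z)| ≤ ε
  hκ : 0 < κ
  hκr : 100 * κ ≤ r
  hε : ε ≤ κ / 100000000
  h𝒩 : ∀ m ∈ 𝒩, 0 ≤ m ∧ m ≤ 20
  h𝒩' : ∀ X, ∃ m ∈ 𝒩, |m - nX X| ≤ 1 / 1000

theorem mem_wellB {𝒩 : Finset ℝ} {X : Fin 3} {m : ℝ} :
    m ∈ wellB 𝒩 X ↔ m ∈ 𝒩 ∧ |m - nX X| ≤ 1 / 20 := by
  simp [wellB]

theorem psiB_le_PsiB {κ : ℝ} {𝒩 : Finset ℝ} {F : ℝ × ℝ → ℝ} {X : Fin 3} {m : ℝ}
    (hm : m ∈ wellB 𝒩 X) (z : ℝ × ℝ) : psiB κ F m z ≤ PsiB κ 𝒩 F X z := by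
  have hne : (wellB 𝒩 X).Nonempty := ⟨m, hm⟩
  rw [PsiB, dif_pos hne]
  exact Finset.le_sup' (fun m => psiB κ F m z) hm

theorem exists_PsiB_eq {𝒩 : Finset ℝ} {X : Fin 3} (hne : (wellB 𝒩 X).Nonempty) (κ : ℝ)
    (F : ℝ × ℝ → ℝ) (z : ℝ × ℝ) : ∃ m ∈ wellB 𝒩 X, PsiB κ 𝒩 F X z = psiB κ F m z := by
  rw [PsiB, dif_pos hne]
  exact Finset.exists_mem_eq_sup' hne _

theorem PsiB_le {κ : ℝ} {𝒩 : Finset ℝ} {F : ℝ × ℝ → ℝ} {X : Fin 3}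
    (hne : (wellB 𝒩 X).Nonempty) {z : ℝ × ℝ} {c : ℝ}
    (h : ∀ m ∈ wellB 𝒩 X, psiB κ F m z ≤ c) : PsiB κ 𝒩 F X z ≤ c := by
  obtain ⟨m, hm, heq⟩ := exists_PsiB_eq hne κ F z
  rw [heq]
  exact h m hm

namespace SharpHyp

variable {F : ℝ × ℝ → ℝ} {z0 : ℝ × ℝ} {r d : ℝ} {e : Fin 3 → ℝ} {Pi : Fin 3 → ℝ × ℝ → ℝ}
  {ε κ : ℝ} {𝒩 : Finset ℝ}

theorem well_nonempty (H : SharpHyp F z0 r d e Pi ε κ 𝒩) (X : Fin 3) :
    (wellB 𝒩 X).Nonempty := by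
  obtain ⟨m, hm, hmX⟩ := H.h𝒩' X
  exact ⟨m, mem_wellB.2 ⟨hm, hmX.trans (by norm_num)⟩⟩

theorem r_pos (H : SharpHyp F z0 r d e Pi ε κ 𝒩) : 0 < r := by
  have := H.hκ; have := H.hκr; linarith

theorem kappa_le (H : SharpHyp F z0 r d e Pi ε κ 𝒩) : κ ≤ 1 / 5000 := by
  have := H.hr; have := H.hκr; norm_num at *; linarith

/-- first coordinate of a point of `Box z0 (r/2)` -/
theorem beta_bounds (H : SharpHyp F z0 r d e Pi ε κ 𝒩) {z : ℝ × ℝ} (hz : z ∈ Box z0 (r / 2)) :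
    0.94 ≤ z.1 ∧ z.1 ≤ 1.06 := by
  have h1 := abs_le.1 hz.1
  have := H.hr; have := H.hβ0.1; have := H.hβ0.2
  norm_num at *
  constructor <;> linarith [h1.1, h1.2]

theorem mem_strip (H : SharpHyp F z0 r d e Pi ε κ 𝒩) {z : ℝ × ℝ} (hz : z ∈ Box z0 (r / 2)) :
    z ∈ Strip := by
  have h := H.beta_bounds hz
  refine ⟨⟨?_, ?_⟩, trivial⟩ <;> norm_num at h ⊢ <;> linarith [h.1, h.2]

theorem box_half_subset (H : SharpHyp F z0 r d e Pi ε κ 𝒩) {z : ℝ × ℝ}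
    (hz : z ∈ Box z0 (r / 2)) : z ∈ Box z0 r :=
  ⟨hz.1.trans (by linarith [H.r_pos]), hz.2.trans (by linarith [H.r_pos])⟩

/-- `0 ≤ β κ m ≤ 21.2 κ` -/
theorem shift_bounds (H : SharpHyp F z0 r d e Pi ε κ 𝒩) {z : ℝ × ℝ} (hz : z ∈ Box z0 (r / 2))
    {m : ℝ} (hm0 : 0 ≤ m) (hm : m ≤ 20) : 0 ≤ z.1 * κ * m ∧ z.1 * κ * m ≤ 21.2 * κ := by
  have hb := H.beta_bounds hz
  have hκ := H.hκ
  have hz1 : 0 ≤ z.1 := by norm_num at hb; linarith [hb.1]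
  have h1 : z.1 * κ ≤ 1.06 * κ := mul_le_mul_of_nonneg_right hb.2 hκ.le
  have h0 : 0 ≤ z.1 * κ := mul_nonneg hz1 hκ.le
  refine ⟨mul_nonneg h0 hm0, ?_⟩
  calc z.1 * κ * m ≤ (1.06 * κ) * 20 := mul_le_mul h1 hm hm0 (by positivity)
    _ = 21.2 * κ := by ring

theorem shift_mem_box (H : SharpHyp F z0 r d e Pi ε κ 𝒩) {z : ℝ × ℝ} (hz : z ∈ Box z0 (r / 2))
    {m : ℝ} (hm0 : 0 ≤ m) (hm : m ≤ 20) : (z.1, z.2 + z.1 * κ * m) ∈ Box z0 r := by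
  have hs := H.shift_bounds hz hm0 hm
  have hκr := H.hκr
  have h2 := abs_le.1 hz.2
  refine ⟨(H.box_half_subset hz).1, ?_⟩
  show |z.2 + z.1 * κ * m - z0.2| ≤ r
  rw [abs_le]
  constructor <;> norm_num at hs ⊢ <;> linarith [hs.1, hs.2, h2.1, h2.2]

/-- (S1) -/
theorem S1 (H : SharpHyp F z0 r d e Pi ε κ 𝒩) {z : ℝ × ℝ} (hz : z ∈ Box z0 (r / 2))
    {m : ℝ} (hm0 : 0 ≤ m) (hm : m ≤ 20) :
    psiB κ F m z ≤ max3 (fun X => ThetaB κ Pi X z - z.1 * κ * (m - nX X) ^ 2 / 2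
      + d * (z.1 * κ * m)) + ε := by
  have hzm := H.shift_mem_box hz hm0 hm
  have hs := (H.shift_bounds hz hm0 hm).1
  obtain ⟨X, hX⟩ := exists_eq_max3 (fun X => Pi X (z.1, z.2 + z.1 * κ * m))
  have h3 := (abs_le.1 (H.h3 _ hzm)).2
  rw [hX] at h3
  have hg := H.h2 X z (H.box_half_subset hz) _ hzm
  simp only [sub_self, abs_zero, mul_zero, zero_add, add_sub_cancel_left, abs_of_nonneg hs] at hg
  have hle := le_max3 (fun X => ThetaB κ Pi X z - z.1 * κ * (m - nX X) ^ 2 / 2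
      + d * (z.1 * κ * m)) X
  simp only [ThetaB] at hle ⊢
  simp only [psiB]
  nlinarith

/-- (S2) -/
theorem S2 (H : SharpHyp F z0 r d e Pi ε κ 𝒩) {z : ℝ × ℝ} (hz : z ∈ Box z0 (r / 2))
    {m : ℝ} (hm0 : 0 ≤ m) (hm : m ≤ 20) (X : Fin 3) :
    ThetaB κ Pi X z - z.1 * κ * (m - nX X) ^ 2 / 2 - d * (z.1 * κ * m) - ε ≤ psiB κ F m z := by
  have hzm := H.shift_mem_box hz hm0 hm
  have hs := (H.shift_bounds hz hm0 hm).1
  have h3 := (abs_le.1 (H.h3 _ hzm)).1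
  have hle := le_max3 (fun X => Pi X (z.1, z.2 + z.1 * κ * m)) X
  have hg := H.h2 X _ hzm z (H.box_half_subset hz)
  have habs : |z.2 - (z.2 + z.1 * κ * m)| = z.1 * κ * m := by
    rw [show z.2 - (z.2 + z.1 * κ * m) = -(z.1 * κ * m) by ring, abs_neg, abs_of_nonneg hs]
  simp only [sub_self, abs_zero, mul_zero, zero_add, habs] at hg
  simp only [ThetaB, psiB]
  nlinarith

/-- every `Ψ^X` is below `M F` on the strip -/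
theorem PsiB_le_MF (H : SharpHyp F z0 r d e Pi ε κ 𝒩) {MF : ℝ × ℝ → ℝ} (hMF : IsM κ 𝒩 F MF)
    {z : ℝ × ℝ} (hz : z ∈ Strip) (X : Fin 3) : PsiB κ 𝒩 F X z ≤ MF z := by
  apply PsiB_le (H.well_nonempty X)
  intro m hm
  exact (hMF z hz).2 ⟨m, (mem_wellB.1 hm).1, rfl⟩

/-- the gap argument: (o3) on `Box z0 (r/2)` -/
theorem gap (H : SharpHyp F z0 r d e Pi ε κ 𝒩) {MF : ℝ × ℝ → ℝ} (hMF : IsM κ 𝒩 F MF)
    {z : ℝ × ℝ} (hz : z ∈ Box z0 (r / 2)) : MF z = max3 (fun X => PsiB κ 𝒩 F X z) := by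
  have hzS := H.mem_strip hz
  apply le_antisymm _ (max3_le (fun X => H.PsiB_le_MF hMF hzS X))
  obtain ⟨ms, hms, hmseq⟩ := (hMF z hzS).1
  have hmseq' : psiB κ F ms z = MF z := hmseq
  have hms' := H.h𝒩 ms hms
  by_cases hw : ∃ X, |ms - nX X| ≤ 1 / 20
  · obtain ⟨X, hX⟩ := hw
    rw [← hmseq']
    exact (psiB_le_PsiB (mem_wellB.2 ⟨hms, hX⟩) z).trans
      (le_max3 (fun X => PsiB κ 𝒩 F X z) X)
  · exfalso
    have hw' : ∀ X, 1 / 20 < |ms - nX X| := fun X => not_le.1 (fun h => hw ⟨X, h⟩)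
    have hS1 := H.S1 hz hms'.1 hms'.2
    obtain ⟨Y, hY⟩ := exists_eq_max3 (fun X => ThetaB κ Pi X z - z.1 * κ * (ms - nX X) ^ 2 / 2
      + d * (z.1 * κ * ms))
    rw [hY] at hS1
    obtain ⟨mY, hmY, hmYn⟩ := H.h𝒩' Y
    have hmY' := H.h𝒩 mY hmY
    have hS2 := H.S2 hz hmY'.1 hmY'.2 Y
    have hle : psiB κ F mY z ≤ MF z := (hMF z hzS).2 ⟨mY, hmY, rfl⟩
    have hb := H.beta_bounds hz
    have hκ := H.hκ
    have hP : 0.94 * κ ≤ z.1 * κ := mul_le_mul_of_nonneg_right hb.1 hκ.le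
    set P := z.1 * κ with hPdef
    have hP0 : 0 < P := by norm_num at hP; linarith
    have hsq1 : 1 / 400 ≤ (ms - nX Y) ^ 2 := by
      have := hw' Y
      rw [← sq_abs]
      nlinarith [abs_nonneg (ms - nX Y)]
    have hsq2 : (mY - nX Y) ^ 2 ≤ 1 / 1000000 := by
      rw [← sq_abs]
      nlinarith [abs_nonneg (mY - nX Y)]
    have hmY4 : mY ≤ 4.001 := by
      have := (abs_le.1 hmYn).2
      have := nX_le Y
      norm_num at *; linarith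
    have hd0 := H.hd0
    have hd := H.hd
    have hε := H.hε
    have t1 : P * (1 / 400) ≤ P * (ms - nX Y) ^ 2 := mul_le_mul_of_nonneg_left hsq1 hP0.le
    have t2 : P * (mY - nX Y) ^ 2 ≤ P * (1 / 1000000) := mul_le_mul_of_nonneg_left hsq2 hP0.le
    have t3 : d * (P * ms) ≤ (1 / 100000) * (P * 20) :=
      mul_le_mul hd (mul_le_mul_of_nonneg_left hms'.2 hP0.le)
        (mul_nonneg hP0.le hms'.1) (by norm_num)
    have t4 : d * (P * mY) ≤ (1 / 100000) * (P * 4.001) :=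
      mul_le_mul hd (mul_le_mul_of_nonneg_left hmY4 hP0.le)
        (mul_nonneg hP0.le hmY'.1) (by norm_num)
    norm_num at hP t3 t4
    linarith

end SharpHyp

end

end Crest.Agent.PT
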