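import Crest.Agent.PT_SharpGap

/-! Row 149, task B1 (block G3): the nominal triple point `z*` (blueprint §B1, "Nominal solution"). -/

set_option autoImplicit false

namespace Crest.Agent.PT

noncomputable section

/-- `e'_X = e_X - κ n_X² / 2` -/
def ePr (κ : ℝ) (e : Fin 3 → ℝ) (X : Fin 3) : ℝ := e X - κ * (nX X) ^ 2 / 2

/-- `q = e'_A - 2 e'_B + e'_C` -/
def qB (κ : ℝ) (e : Fin 3 → ℝ) : ℝ := ePr κ e 0 - 2 * ePr κ e 1 + ePr κ e 2

/-- the nominal solution `z*` -/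
def zStar (κ : ℝ) (e : Fin 3 → ℝ) (z0 : ℝ × ℝ) : ℝ × ℝ :=
  (z0.1 + z0.1 * κ / qB κ e,
   z0.2 + (ePr κ e 1 - ePr κ e 0) * (z0.1 * κ / qB κ e) - 5 / 2 * (z0.1 * κ))

namespace SharpHyp

variable {F : ℝ × ℝ → ℝ} {z0 : ℝ × ℝ} {r d : ℝ} {e : Fin 3 → ℝ} {Pi : Fin 3 → ℝ × ℝ → ℝ}
  {ε κ : ℝ} {𝒩 : Finset ℝ}

/-- `Π^X` is affine up to `d |y - z0|_1` (from (h1), (h2) applied in both directions). -/
theorem Pi_affine (H : SharpHyp F z0 r d e Pi ε κ 𝒩) {y : ℝ × ℝ} (hy : y ∈ Box z0 r) (X : Fin 3) :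
    |Pi X y - (Pi 0 z0 - e X * (y.1 - z0.1) + nX X * (y.2 - z0.2))|
      ≤ d * (|y.1 - z0.1| + |y.2 - z0.2|) := by
  have hz0 : z0 ∈ Box z0 r := by
    have := H.r_pos
    simp [Box, this.le]
  have g1 := H.h2 X z0 hz0 y hy
  have g2 := H.h2 X y hy z0 hz0
  rw [abs_sub_comm z0.1 y.1, abs_sub_comm z0.2 y.2] at g2
  rw [H.h1 X] at g1 g2
  rw [abs_le]
  constructor <;> linarith

theorem e_bounds (H : SharpHyp F z0 r d e Pi ε κ 𝒩) :
    (0.99 ≤ e 0 ∧ e 0 ≤ 1.01) ∧ (0.74 ≤ e 1 ∧ e 1 ≤ 0.76) ∧ (1.49 ≤ e 2 ∧ e 2 ≤ 1.51) := by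
  have h0 := abs_le.1 (H.he 0)
  have h1 := abs_le.1 (H.he 1)
  have h2 := abs_le.1 (H.he 2)
  simp only [eX, Matrix.cons_val_zero, Matrix.cons_val_one, Matrix.cons_val] at h0 h1 h2
  norm_num at h0 h1 h2 ⊢
  refine ⟨⟨?_, ?_⟩, ⟨?_, ?_⟩, ⟨?_, ?_⟩⟩ <;> linarith [h0.1, h0.2, h1.1, h1.2, h2.1, h2.2]

theorem qB_eq (κ : ℝ) (e : Fin 3 → ℝ) : qB κ e = e 0 - 2 * e 1 + e 2 - κ := by
  simp only [qB, ePr, nX, Matrix.cons_val_zero, Matrix.cons_val_one, Matrix.cons_val]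
  ring

theorem qB_bounds (H : SharpHyp F z0 r d e Pi ε κ 𝒩) : 0.9 ≤ qB κ e ∧ qB κ e ≤ 1.1 := by
  obtain ⟨⟨a1, a2⟩, ⟨b1, b2⟩, ⟨c1, c2⟩⟩ := H.e_bounds
  have hκ := H.hκ
  have hκ5 := H.kappa_le
  rw [qB_eq]
  norm_num at *
  constructor <;> linarith

theorem ePr_diff (κ : ℝ) (e : Fin 3 → ℝ) : ePr κ e 1 - ePr κ e 0 = e 1 - e 0 - 5 / 2 * κ := by
  simp only [ePr, nX, Matrix.cons_val_zero, Matrix.cons_val_one]
  ring

/-- finer location of `z*` -/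
theorem zStar_fine (H : SharpHyp F z0 r d e Pi ε κ 𝒩) :
    |(zStar κ e z0).1 - z0.1| ≤ 1.17 * κ ∧ |(zStar κ e z0).2 - z0.2| ≤ 2.95 * κ := by
  obtain ⟨⟨a1, a2⟩, ⟨b1, b2⟩, ⟨c1, c2⟩⟩ := H.e_bounds
  have hκ := H.hκ
  have hκ5 := H.kappa_le
  have hq := H.qB_bounds
  have hβ := H.hβ0
  have hq0 : 0 < qB κ e := by norm_num at hq; linarith [hq.1]
  have hP0 : 0 ≤ z0.1 * κ := mul_nonneg (by norm_num at hβ; linarith [hβ.1]) hκ.le
  have hP1 : z0.1 * κ ≤ 1.05 * κ := mul_le_mul_of_nonneg_right hβ.2 hκ.le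
  have hP2 : 0.95 * κ ≤ z0.1 * κ := mul_le_mul_of_nonneg_right hβ.1 hκ.le
  set D := z0.1 * κ / qB κ e with hD
  have hD0 : 0 ≤ D := div_nonneg hP0 hq0.le
  have hD1 : D ≤ 1.17 * κ := by
    rw [hD, div_le_iff₀ hq0]
    have : 1.17 * κ * 0.9 ≤ 1.17 * κ * qB κ e :=
      mul_le_mul_of_nonneg_left hq.1 (by positivity)
    norm_num at this hP1 ⊢
    linarith
  have h1 : (zStar κ e z0).1 - z0.1 = D := by simp [zStar, hD]
  have h2 : (zStar κ e z0).2 - z0.2 = (e 1 - e 0 - 5 / 2 * κ) * D - 5 / 2 * (z0.1 * κ) := by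
    simp only [zStar]
    rw [ePr_diff]
    ring
  rw [h1, h2]
  refine ⟨by rw [abs_of_nonneg hD0]; exact hD1, ?_⟩
  have hc1 : -(0.2705 : ℝ) ≤ e 1 - e 0 - 5 / 2 * κ := by norm_num at *; linarith
  have hc2 : e 1 - e 0 - 5 / 2 * κ ≤ 0 := by norm_num at *; linarith
  have hm1 : (e 1 - e 0 - 5 / 2 * κ) * D ≤ 0 := mul_nonpos_of_nonpos_of_nonneg hc2 hD0
  have hm2 : -(0.2705 : ℝ) * (1.17 * κ) ≤ (e 1 - e 0 - 5 / 2 * κ) * D := by
    have t1 : -(0.2705 : ℝ) * D ≤ (e 1 - e 0 - 5 / 2 * κ) * D :=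
      mul_le_mul_of_nonneg_right hc1 hD0
    have t2 : (0.2705 : ℝ) * D ≤ 0.2705 * (1.17 * κ) :=
      mul_le_mul_of_nonneg_left hD1 (by norm_num)
    linarith
  rw [abs_le]
  norm_num at *
  constructor <;> linarith

theorem zStar_mem (H : SharpHyp F z0 r d e Pi ε κ 𝒩) : zStar κ e z0 ∈ Box z0 (3.1 * κ) := by
  have h := H.zStar_fine
  have hκ := H.hκ
  exact ⟨h.1.trans (by norm_num; linarith), h.2.trans (by norm_num; linarith)⟩

/-- the exact balance equations defining `z*` -/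
theorem zStar_eq (H : SharpHyp F z0 r d e Pi ε κ 𝒩) (X Y : Fin 3) :
    -(e X - e Y) * ((zStar κ e z0).1 - z0.1) + (nX X - nX Y) * ((zStar κ e z0).2 - z0.2)
      = -((zStar κ e z0).1 * κ * ((nX X) ^ 2 - (nX Y) ^ 2) / 2) := by
  have hq := H.qB_bounds
  have hq0 : qB κ e ≠ 0 := by
    have : 0 < qB κ e := by norm_num at hq; linarith [hq.1]
    exact this.ne'
  set D := z0.1 * κ / qB κ e with hD
  have hDq : D * (e 0 - 2 * e 1 + e 2 - κ) = z0.1 * κ := by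
    rw [← qB_eq, hD, div_mul_cancel₀ _ hq0]
  have h1 : (zStar κ e z0).1 = z0.1 + D := by simp [zStar, hD]
  have h2 : (zStar κ e z0).2 - z0.2 = (e 1 - e 0 - 5 / 2 * κ) * D - 5 / 2 * (z0.1 * κ) := by
    simp only [zStar]
    rw [ePr_diff]
    ring
  rw [h2, h1]
  clear_value D
  have key : ∀ X : Fin 3, -e X * D + nX X * ((e 1 - e 0 - 5 / 2 * κ) * D - 5 / 2 * (z0.1 * κ))
      + (z0.1 + D) * κ * (nX X) ^ 2 / 2
      = -e 0 * D + nX 0 * ((e 1 - e 0 - 5 / 2 * κ) * D - 5 / 2 * (z0.1 * κ))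
      + (z0.1 + D) * κ * (nX 0) ^ 2 / 2 := by
    intro X
    fin_cases X
    · rfl
    · simp only [nX, Fin.mk_one, Matrix.cons_val_zero, Matrix.cons_val_one]
      ring
    · simp only [nX, Fin.reduceFinMk, Matrix.cons_val_zero, Matrix.cons_val]
      linear_combination (-1 : ℝ) * hDq
  linear_combination key X - key Y

private theorem box_add {z z' y : ℝ × ℝ} {ρ ρ' ρ'' : ℝ} (hz : z' ∈ Box z ρ) (hy : y ∈ Box z' ρ')
    (h : ρ + ρ' ≤ ρ'') : y ∈ Box z ρ'' := by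
  have a1 := abs_le.1 hz.1
  have a2 := abs_le.1 hz.2
  have b1 := abs_le.1 hy.1
  have b2 := abs_le.1 hy.2
  exact ⟨abs_le.2 ⟨by linarith [a1.1, b1.1], by linarith [a1.2, b1.2]⟩,
    abs_le.2 ⟨by linarith [a2.1, b2.1], by linarith [a2.2, b2.2]⟩⟩

theorem box_star_subset (H : SharpHyp F z0 r d e Pi ε κ 𝒩) {z : ℝ × ℝ}
    (hz : z ∈ Box (zStar κ e z0) (κ / 50)) : z ∈ Box z0 (3.12 * κ) :=
  box_add H.zStar_mem hz (by norm_num; linarith [H.hκ])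

theorem box_star_subset' (H : SharpHyp F z0 r d e Pi ε κ 𝒩) {z : ℝ × ℝ}
    (hz : z ∈ Box (zStar κ e z0) (κ / 50)) : z ∈ Box z0 (r / 2) :=
  box_add H.zStar_mem hz (by have := H.hκ; have := H.hκr; norm_num; linarith)

theorem e_diff_le (H : SharpHyp F z0 r d e Pi ε κ 𝒩) (X Y : Fin 3) : |e X - e Y| ≤ 0.77 := by
  obtain ⟨⟨a1, a2⟩, ⟨b1, b2⟩, ⟨c1, c2⟩⟩ := H.e_bounds
  have hb : ∀ X : Fin 3, 0.74 ≤ e X ∧ e X ≤ 1.51 := by
    intro X
    match X with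
    | 0 => norm_num at *; constructor <;> linarith
    | 1 => norm_num at *; constructor <;> linarith
    | 2 => norm_num at *; constructor <;> linarith
  have hX := hb X
  have hY := hb Y
  rw [abs_le]
  norm_num at *
  constructor <;> linarith [hX.1, hX.2, hY.1, hY.2]

theorem n_diff_le (X Y : Fin 3) : |nX X - nX Y| ≤ 2 := by
  have := nX_ge X; have := nX_le X; have := nX_ge Y; have := nX_le Y
  rw [abs_le]; constructor <;> linarith

theorem nsq_diff_le (X Y : Fin 3) : |(nX X) ^ 2 - (nX Y) ^ 2| ≤ 12 := by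
  have := nX_ge X; have := nX_le X; have := nX_ge Y; have := nX_le Y
  rw [abs_le]; constructor <;> nlinarith

/-- the difference of two `Θ`'s, up to the `d`-errors, in coordinates centred at `z*` -/
theorem Theta_diff_gen (H : SharpHyp F z0 r d e Pi ε κ 𝒩) {z : ℝ × ℝ} (hz : z ∈ Box z0 r)
    (X Y : Fin 3) :
    |ThetaB κ Pi X z - ThetaB κ Pi Y z - ((z.1 - (zStar κ e z0).1) * κ * ((nX X) ^ 2 - (nX Y) ^ 2) / 2
        - (e X - e Y) * (z.1 - (zStar κ e z0).1) + (nX X - nX Y) * (z.2 - (zStar κ e z0).2))|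
      ≤ 2 * (d * (|z.1 - z0.1| + |z.2 - z0.2|)) := by
  have hX := abs_le.1 (H.Pi_affine hz X)
  have hY := abs_le.1 (H.Pi_affine hz Y)
  have hs := H.zStar_eq X Y
  simp only [ThetaB]
  rw [abs_le]
  constructor
  · nlinarith [hX.1, hY.2]
  · nlinarith [hX.2, hY.1]

theorem Theta_diff_star (H : SharpHyp F z0 r d e Pi ε κ 𝒩) (X Y : Fin 3) :
    |ThetaB κ Pi X (zStar κ e z0) - ThetaB κ Pi Y (zStar κ e z0)| ≤ κ / 10000 := by
  have hκ := H.hκ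
  have hmem : zStar κ e z0 ∈ Box z0 r :=
    H.box_half_subset (H.box_star_subset' (by
      have : 0 ≤ κ / 50 := by positivity
      simp [Box, this]))
  have h := H.Theta_diff_gen hmem X Y
  simp only [sub_self, zero_mul, mul_zero, zero_div, add_zero, sub_zero] at h
  have hf := H.zStar_fine
  have hd : d * (|(zStar κ e z0).1 - z0.1| + |(zStar κ e z0).2 - z0.2|)
      ≤ (1 / 100000) * (1.17 * κ + 2.95 * κ) :=
    mul_le_mul H.hd (add_le_add hf.1 hf.2) (by positivity) (by norm_num)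
  norm_num at hd
  linarith

theorem Theta_diff (H : SharpHyp F z0 r d e Pi ε κ 𝒩) {z : ℝ × ℝ}
    (hz : z ∈ Box (zStar κ e z0) (κ / 50)) (X Y : Fin 3) :
    |ThetaB κ Pi X z - ThetaB κ Pi Y z| ≤ 0.057 * κ := by
  have hκ := H.hκ
  have hκ5 := H.kappa_le
  have hmem : z ∈ Box z0 r := H.box_half_subset (H.box_star_subset' hz)
  have h := abs_le.1 (H.Theta_diff_gen hmem X Y)
  have hb := H.box_star_subset hz
  have hd : d * (|z.1 - z0.1| + |z.2 - z0.2|) ≤ (1 / 100000) * (3.12 * κ + 3.12 * κ) :=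
    mul_le_mul H.hd (add_le_add hb.1 hb.2) (by positivity) (by norm_num)
  set a := z.1 - (zStar κ e z0).1 with ha
  set b := z.2 - (zStar κ e z0).2 with hb'
  have ha1 : |a| ≤ κ / 50 := hz.1
  have hb1 : |b| ≤ κ / 50 := hz.2
  have t1 : |a * κ * ((nX X) ^ 2 - (nX Y) ^ 2) / 2| ≤ (κ / 50) * (1 / 5000) * 12 / 2 := by
    rw [abs_div, abs_mul, abs_mul, abs_of_pos hκ, abs_two]
    have := nsq_diff_le X Y
    gcongr
  have t2 : |(e X - e Y) * a| ≤ 0.77 * (κ / 50) := by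
    rw [abs_mul]
    exact mul_le_mul (H.e_diff_le X Y) ha1 (abs_nonneg _) (by norm_num)
  have t3 : |(nX X - nX Y) * b| ≤ 2 * (κ / 50) := by
    rw [abs_mul]
    exact mul_le_mul (n_diff_le X Y) hb1 (abs_nonneg _) (by norm_num)
  have t1' := abs_le.1 t1
  have t2' := abs_le.1 t2
  have t3' := abs_le.1 t3
  rw [abs_le]
  norm_num at *
  constructor <;> linarith [h.1, h.2, t1'.1, t1'.2, t2'.1, t2'.2, t3'.1, t3'.2]

end SharpHyp

end

end Crest.Agent.PT
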