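import Crest.Agent.PT_SharpNom

/-! Row 149, task B1 (block G4): `|Ψ^X - Θ^X| ≤ η` near the nominal point (blueprint §B1). -/

set_option autoImplicit false

namespace Crest.Agent.PT

theorem nX_sep {X Y : Fin 3} (h : X ≠ Y) : 1 ≤ |nX X - nX Y| := by
  fin_cases X <;> fin_cases Y <;> first | exact absurd rfl h | (simp [nX]; try norm_num)

namespace SharpHyp

variable {F : ℝ × ℝ → ℝ} {z0 : ℝ × ℝ} {r d : ℝ} {e : Fin 3 → ℝ} {Pi : Fin 3 → ℝ × ℝ → ℝ}
  {ε κ : ℝ} {𝒩 : Finset ℝ}

/-- Upper bound: (S1) for `m` in the well of `X`; the terms `Y ≠ X` lose `βκ(1-w)²/2 ≥ 0.4κ`, more than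
`Theta_diff` can give back; the term `Y = X` is `≤ Θ^X + 4.05 d β κ`.  Lower bound: (S2) at the grid point
within `1/1000` of `n_X`. -/
theorem Psi_Theta (H : SharpHyp F z0 r d e Pi ε κ 𝒩) {z : ℝ × ℝ}
    (hz : z ∈ Box (zStar κ e z0) (κ / 50)) (X : Fin 3) :
    |PsiB κ 𝒩 F X z - ThetaB κ Pi X z| ≤ κ / 20000 := by
  have hz2 := H.box_star_subset' hz
  have hb := H.beta_bounds hz2
  have hκ := H.hκ
  have hd0 := H.hd0
  have hd := H.hd
  have hε := H.hε
  have hε0 := H.hε0
  have hP1 : 0.94 * κ ≤ z.1 * κ := mul_le_mul_of_nonneg_right hb.1 hκ.le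
  have hP2 : z.1 * κ ≤ 1.06 * κ := mul_le_mul_of_nonneg_right hb.2 hκ.le
  set P := z.1 * κ with hPdef
  have hP0 : 0 < P := by norm_num at hP1; linarith
  rw [abs_le]
  constructor
  · -- lower bound
    obtain ⟨m0, hm0, hm0X⟩ := H.h𝒩' X
    have hm0' := H.h𝒩 m0 hm0
    have hwell : m0 ∈ wellB 𝒩 X := mem_wellB.2 ⟨hm0, hm0X.trans (by norm_num)⟩
    have h1 := psiB_le_PsiB (κ := κ) (F := F) hwell z
    have h2 := H.S2 hz2 hm0'.1 hm0'.2 X
    have hsq : (m0 - nX X) ^ 2 ≤ 1 / 1000000 := by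
      rw [← sq_abs]
      nlinarith [abs_nonneg (m0 - nX X)]
    have hm4 : m0 ≤ 4.001 := by
      have := (abs_le.1 hm0X).2
      have := nX_le X
      norm_num at *; linarith
    have t2 : P * (m0 - nX X) ^ 2 ≤ P * (1 / 1000000) := mul_le_mul_of_nonneg_left hsq hP0.le
    have t4 : d * (P * m0) ≤ (1 / 100000) * (P * 4.001) :=
      mul_le_mul hd (mul_le_mul_of_nonneg_left hm4 hP0.le)
        (mul_nonneg hP0.le hm0'.1) (by norm_num)
    norm_num at hP1 hP2 t4
    linarith
  · -- upper bound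
    have hup : PsiB κ 𝒩 F X z ≤ ThetaB κ Pi X z + κ / 20000 := by
      apply PsiB_le (H.well_nonempty X)
      intro m hm
      obtain ⟨hm𝒩, hmX⟩ := mem_wellB.1 hm
      have hm' := H.h𝒩 m hm𝒩
      have hS1 := H.S1 hz2 hm'.1 hm'.2
      have hm4 : m ≤ 4.05 := by
        have := (abs_le.1 hmX).2
        have := nX_le X
        norm_num at *; linarith
      have t4 : d * (P * m) ≤ (1 / 100000) * (P * 4.05) :=
        mul_le_mul hd (mul_le_mul_of_nonneg_left hm4 hP0.le)
          (mul_nonneg hP0.le hm'.1) (by norm_num)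
      have hmax : max3 (fun Y => ThetaB κ Pi Y z - P * (m - nX Y) ^ 2 / 2 + d * (P * m)) ≤
          ThetaB κ Pi X z + d * (P * m) := by
        apply max3_le
        intro Y
        by_cases hXY : Y = X
        · subst hXY
          have : 0 ≤ P * (m - nX Y) ^ 2 := mul_nonneg hP0.le (sq_nonneg _)
          linarith
        · have hsep := nX_sep (fun h => hXY h.symm : X ≠ Y)
          have hdist : 0.95 ≤ |m - nX Y| := by
            have h1 : |nX X - nX Y| ≤ |m - nX X| + |m - nX Y| := by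
              have : nX X - nX Y = -(m - nX X) + (m - nX Y) := by ring
              rw [this]
              calc |-(m - nX X) + (m - nX Y)| ≤ |-(m - nX X)| + |m - nX Y| := abs_add_le _ _
                _ = |m - nX X| + |m - nX Y| := by rw [abs_neg]
            norm_num at *
            linarith
          have hsq : 0.9025 ≤ (m - nX Y) ^ 2 := by
            rw [← sq_abs]
            nlinarith [abs_nonneg (m - nX Y)]
          have t1 : P * 0.9025 ≤ P * (m - nX Y) ^ 2 := mul_le_mul_of_nonneg_left hsq hP0.le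
          have hθ := (abs_le.1 (H.Theta_diff hz Y X)).2
          norm_num at hP1 t1 hθ
          linarith
      norm_num at hP1 hP2 t4
      linarith
    linarith

end SharpHyp

end Crest.Agent.PT
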