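import Crest.Agent.PT_Basic
import Crest.Agent.PT_Gen

/-! Row 149, task IC: two-block decomposition (blueprint I5, I6).

Route: `PT_Gen.lean` (abstract σ-finite measure space, arbitrary finite index type, symmetric form of
the energy, one-body field): `(Λ₁∪Λ₂)^N` is the disjoint union of the boxes `boxS Λ₁ Λ₂ S`,
`S ⊆ Fin N`; on each box the energy splits; Fubini along `piEquivPiSubtypeProd`; relabelling. -/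

set_option autoImplicit false

namespace Crest.Agent.PT

open MeasureTheory Crest.ProbabilityR.Continuum

theorem Adm.toGen {w : Pt → Pt → ℝ} (hw : Adm w) : PTG.Adm w :=
  ⟨hw.symm, hw.meas, hw.lower⟩

theorem ZW_eq_ZF {w : Pt → Pt → ℝ} (hw : Adm w) (Λ : Set Pt) (N : ℕ) :
    ZW w Λ N = PTG.ZF w (fun _ => 0) Λ N :=
  (PTG.ZF_zero_eq hw.symm Λ N).symm

/-- I5 -/
theorem ZW_union_le {w : Pt → Pt → ℝ} (hw : Adm w) {Λ₁ Λ₂ : Set Pt} (h₁ : Reg Λ₁) (h₂ : Reg Λ₂)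
    (hd : Disjoint Λ₁ Λ₂) (hc : ∀ x ∈ Λ₁, ∀ y ∈ Λ₂, 0 ≤ w x y) (N : ℕ) :
    ZW w (Λ₁ ∪ Λ₂) N ≤ ∑ k ∈ Finset.range (N + 1), ZW w Λ₁ k * ZW w Λ₂ (N - k) := by
  simp only [ZW_eq_ZF hw]
  exact PTG.ZF_union_le hw.toGen PTG.admF_zero h₁.meas h₁.fin.lt_top h₂.meas h₂.fin.lt_top hd hc N

/-- I6 -/
theorem ZW_union_ge {w : Pt → Pt → ℝ} (hw : Adm w) {Λ₁ Λ₂ : Set Pt} (h₁ : Reg Λ₁) (h₂ : Reg Λ₂)
    (hd : Disjoint Λ₁ Λ₂) (g : ℝ) (hc : ∀ x ∈ Λ₁, ∀ y ∈ Λ₂, w x y ≤ -g) (N₁ N₂ : ℕ) :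
    ZW w Λ₁ N₁ * ZW w Λ₂ N₂ * Real.exp (g * N₁ * N₂) ≤ ZW w (Λ₁ ∪ Λ₂) (N₁ + N₂) := by
  simp only [ZW_eq_ZF hw]
  have hug : PTG.AdmF (fun _ : Pt => (0 : ℝ) - (N₁ : ℝ) * g) :=
    ⟨measurable_const, (N₁ : ℝ) * g, fun _ => by simp⟩
  have key := PTG.ZF_union_ge hw.toGen PTG.admF_zero h₁.meas h₁.fin.lt_top h₂.meas h₂.fin.lt_top hd
    (fun _ => g) hc N₁ N₂ hug
  have hshift : PTG.ZF w (fun _ : Pt => (0 : ℝ) - (N₁ : ℝ) * g) Λ₂ N₂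
      = Real.exp (-(-((N₁ : ℝ) * g) * N₂)) * PTG.ZF w (fun _ => 0) Λ₂ N₂ :=
    PTG.ZF_field_shift h₂.meas (-((N₁ : ℝ) * g)) (fun y _ => by ring) N₂
  rw [hshift] at key
  refine le_trans (le_of_eq ?_) key
  have : -(-((N₁ : ℝ) * g) * N₂) = g * N₁ * N₂ := by ring
  rw [this]
  ring

end Crest.Agent.PT
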