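import Crest.Agent.PT_Split

/-! Row 149, task ID: families of blocks, upper bound (blueprint I5'); induction on the finset from PT_Split. -/

set_option autoImplicit false

namespace Crest.Agent.PT

open MeasureTheory Crest.ProbabilityR.Continuum

theorem reg_biUnion {ι : Type*} (s : Finset ι) (Λ : ι → Set Pt) (hΛ : ∀ i ∈ s, Reg (Λ i)) :
    Reg (⋃ i ∈ s, Λ i) :=
  ⟨Finset.measurableSet_biUnion s fun i hi => (hΛ i hi).meas,
    (measure_biUnion_lt_top s.finite_toSet fun i hi => (hΛ i hi).fin.lt_top).ne⟩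

theorem ZW_empty_succ (w : Pt → Pt → ℝ) (N : ℕ) : ZW w ∅ (N + 1) = 0 := by
  unfold ZW
  have : Set.pi Set.univ (fun _ : Fin (N + 1) => (∅ : Set Pt)) = ∅ :=
    Set.univ_pi_eq_empty (i := 0) rfl
  rw [this, Measure.restrict_empty, integral_zero_measure, mul_zero]

/-- I5' (grand-canonical product bound; induction on `s` from `ZW_union_le`). -/
theorem ZW_biUnion_le {w : Pt → Pt → ℝ} (hw : Adm w) {ι : Type*} (s : Finset ι) (Λ : ι → Set Pt)
    (hΛ : ∀ i ∈ s, Reg (Λ i)) (hd : (s : Set ι).PairwiseDisjoint Λ)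
    (hc : ∀ i ∈ s, ∀ j ∈ s, i ≠ j → ∀ x ∈ Λ i, ∀ y ∈ Λ j, 0 ≤ w x y)
    (ν : ℝ) (N : ℕ) :
    Real.exp (ν * N) * ZW w (⋃ i ∈ s, Λ i) N ≤
      ∏ i ∈ s, ∑ n ∈ Finset.range (N + 1), Real.exp (ν * n) * ZW w (Λ i) n := by
  classical
  induction s using Finset.induction_on generalizing N with
  | empty =>
    simp only [Finset.notMem_empty, Set.iUnion_false, Set.iUnion_empty, Finset.prod_empty]
    cases N with
    | zero => simp [ZW_zero]
    | succ N => simp [ZW_empty_succ]
  | insert a s ha ih =>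
    have hΛs : ∀ i ∈ s, Reg (Λ i) := fun i hi => hΛ i (Finset.mem_insert_of_mem hi)
    have hds : (s : Set ι).PairwiseDisjoint Λ :=
      hd.subset (by intro i hi; exact Finset.mem_insert_of_mem hi)
    have hcs : ∀ i ∈ s, ∀ j ∈ s, i ≠ j → ∀ x ∈ Λ i, ∀ y ∈ Λ j, 0 ≤ w x y := fun i hi j hj =>
      hc i (Finset.mem_insert_of_mem hi) j (Finset.mem_insert_of_mem hj)
    have IH := ih hΛs hds hcs
    have hne : ∀ j ∈ s, a ≠ j := fun j hj h => ha (h ▸ hj)
    have hdisj : Disjoint (Λ a) (⋃ i ∈ s, Λ i) := by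
      rw [Set.disjoint_iUnion₂_right]
      intro j hj
      exact hd (Finset.mem_insert_self a s) (Finset.mem_insert_of_mem hj) (hne j hj)
    have hcross : ∀ x ∈ Λ a, ∀ y ∈ ⋃ i ∈ s, Λ i, 0 ≤ w x y := by
      intro x hx y hy
      simp only [Set.mem_iUnion, exists_prop] at hy
      obtain ⟨j, hj, hyj⟩ := hy
      exact hc a (Finset.mem_insert_self a s) j (Finset.mem_insert_of_mem hj) (hne j hj) x hx y hyj
    have h2 := ZW_union_le hw (hΛ a (Finset.mem_insert_self a s)) (reg_biUnion s Λ hΛs) hdisj hcross N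
    rw [Finset.set_biUnion_insert, Finset.prod_insert ha, Finset.sum_mul]
    set P : ℝ := ∏ i ∈ s, ∑ n ∈ Finset.range (N + 1), Real.exp (ν * n) * ZW w (Λ i) n with hP
    calc Real.exp (ν * N) * ZW w (Λ a ∪ ⋃ i ∈ s, Λ i) N
        ≤ Real.exp (ν * N) * ∑ k ∈ Finset.range (N + 1), ZW w (Λ a) k * ZW w (⋃ i ∈ s, Λ i) (N - k) :=
          mul_le_mul_of_nonneg_left h2 (Real.exp_pos _).le
      _ = ∑ k ∈ Finset.range (N + 1), (Real.exp (ν * k) * ZW w (Λ a) k)
            * (Real.exp (ν * (N - k : ℕ)) * ZW w (⋃ i ∈ s, Λ i) (N - k)) := by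
          rw [Finset.mul_sum]
          refine Finset.sum_congr rfl fun k hk => ?_
          have hk' : k ≤ N := Nat.lt_succ_iff.mp (Finset.mem_range.mp hk)
          have : ν * N = ν * k + ν * (N - k : ℕ) := by
            rw [Nat.cast_sub hk']; ring
          rw [this, Real.exp_add]
          ring
      _ ≤ ∑ k ∈ Finset.range (N + 1), (Real.exp (ν * k) * ZW w (Λ a) k) * P := by
          refine Finset.sum_le_sum fun k _ => ?_
          refine mul_le_mul_of_nonneg_left ?_ (mul_nonneg (Real.exp_pos _).le (ZW_nonneg _ _ _))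
          refine (IH (N - k)).trans ?_
          refine Finset.prod_le_prod (fun i _ => Finset.sum_nonneg fun n _ =>
            mul_nonneg (Real.exp_pos _).le (ZW_nonneg _ _ _)) fun i _ => ?_
          refine Finset.sum_le_sum_of_subset_of_nonneg ?_ fun n _ _ =>
            mul_nonneg (Real.exp_pos _).le (ZW_nonneg _ _ _)
          exact Finset.range_subset_range.mpr (by omega)

end Crest.Agent.PT
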