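import Crest.Agent.PT_Energy
import Crest.Agent.PT_Pack
import Crest.Agent.PT_CaroWei

/-! Row 149, task A5a: Turán-type bound for the points of a configuration lying in one translated cube
(blueprint A5(a)). -/

set_option autoImplicit false

namespace Crest.Agent.PT

open Crest.ProbabilityR.Continuum

/-- Hint: `packing_card_le` with `X = {v}`, `s = 1`, `ℓ = L`. -/
theorem packingNumber_pos {L : ℝ} (hL : 0 ≤ L) : 0 < packingNumber L := by
  have h := packing_card_le (s := 1) (ℓ := L) one_pos (0 : Pt) {0}
    (by
      intro x hx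
      rw [Finset.mem_singleton] at hx
      subst hx
      intro k
      constructor
      · exact le_refl _
      · linarith)
    (by
      intro x hx y hy hxy
      rw [Finset.mem_singleton] at hx hy
      exact absurd (hx.trans hy.symm) hxy)
  rw [Finset.card_singleton, div_one] at h
  exact h

/-- the "closer than `s`" graph on the particles of `A`. -/
private def closeGraph {N : ℕ} (x : Fin N → Pt) (A : Finset (Fin N)) (s : ℝ) :
    SimpleGraph {i // i ∈ A} where
  Adj a b := a ≠ b ∧ dist (x a.1) (x b.1) < s
  symm := ⟨fun a b hab => ⟨hab.1.symm, by rw [dist_comm]; exact hab.2⟩⟩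
  loopless := ⟨fun a ha => ha.1 rfl⟩

/-- A5(a).  Hint: `turan_edges` for the graph `G` on the subtype `{i // i ∈ A}`, `G.Adj i j ↔ i ≠ j ∧ dist (x i) (x j) < s`
(`= (dG x s).comap Subtype.val`), `P = packingNumber (h / s)`.  An independent set `I` is mapped injectively by `x`
(two different elements are at distance `≥ s > 0`) onto an `s`-separated subset of `cubeAt v h`: `packing_card_le`.
`G.edgeFinset.card` = number of pairs `i<j` in `A` at distance `< s` (map an edge `s(i,j)` to the ordered pair, or use
`∑ degree = 2 * card edges` and count ordered pairs). -/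
theorem cell_turan {h s : ℝ} (hh : 0 ≤ h) (hs : 0 < s) (v : Pt) {N : ℕ} (x : Fin N → Pt)
    (A : Finset (Fin N)) (hA : ∀ i ∈ A, x i ∈ cubeAt v h) :
    (A.card : ℝ) ^ 2 / (2 * packingNumber (h / s)) - (A.card : ℝ) / 2 ≤
      ((A ×ˢ A).filter (fun q : Fin N × Fin N => q.1 < q.2 ∧ dist (x q.1) (x q.2) < s)).card := by
  classical
  set G := closeGraph x A s with hG
  have hP : 0 < packingNumber (h / s) := packingNumber_pos (div_nonneg hh hs.le)
  have hind : ∀ I : Finset {i // i ∈ A}, G.IsIndepSet (I : Set {i // i ∈ A}) →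
      I.card ≤ packingNumber (h / s) := by
    intro I hI
    have hsep : ∀ a ∈ I, ∀ b ∈ I, a ≠ b → s ≤ dist (x a.1) (x b.1) := by
      intro a ha b hb hab
      have := hI (Finset.mem_coe.2 ha) (Finset.mem_coe.2 hb) hab
      by_contra hlt
      exact this ⟨hab, not_le.1 hlt⟩
    have hinj : Set.InjOn (fun a : {i // i ∈ A} => x a.1) (I : Set {i // i ∈ A}) := by
      intro a ha b hb hab
      by_contra hne
      have h1 := hsep a (Finset.mem_coe.1 ha) b (Finset.mem_coe.1 hb) hne
      have h2 : dist (x a.1) (x b.1) = 0 := by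
        have : x a.1 = x b.1 := hab
        rw [this, dist_self]
      linarith
    rw [← Finset.card_image_of_injOn hinj]
    apply packing_card_le hs v
    · intro y hy
      obtain ⟨a, _, rfl⟩ := Finset.mem_image.1 hy
      exact hA a.1 a.2
    · intro y hy z hz hyz
      obtain ⟨a, ha, rfl⟩ := Finset.mem_image.1 hy
      obtain ⟨b, hb, rfl⟩ := Finset.mem_image.1 hz
      exact hsep a ha b hb (fun hab => hyz (by rw [hab]))
  have hT := turan_edges G (packingNumber (h / s)) hP hind
  rw [Fintype.card_coe] at hT
  refine hT.trans ?_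
  have hcard : G.edgeFinset.card ≤
      ((A ×ˢ A).filter (fun q : Fin N × Fin N => q.1 < q.2 ∧ dist (x q.1) (x q.2) < s)).card := by
    rw [← Finset.card_image_of_injective G.edgeFinset
      (Sym2.map.injective (Subtype.val_injective (p := fun i => i ∈ A)))]
    refine le_trans (Finset.card_le_card ?_)
      (Finset.card_image_le (f := fun q : Fin N × Fin N => s(q.1, q.2)))
    intro e he
    obtain ⟨e', he', rfl⟩ := Finset.mem_image.1 he
    induction e' using Sym2.ind with
    | _ a b =>
      rw [SimpleGraph.mem_edgeFinset, SimpleGraph.mem_edgeSet] at he'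
      have hne : a.1 ≠ b.1 := fun hab => he'.1 (Subtype.ext hab)
      have hd : dist (x a.1) (x b.1) < s := he'.2
      rw [Finset.mem_image]
      rcases lt_or_gt_of_ne hne with hlt | hlt
      · refine ⟨(a.1, b.1), ?_, ?_⟩
        · rw [Finset.mem_filter, Finset.mem_product]
          exact ⟨⟨a.2, b.2⟩, hlt, hd⟩
        · simp [Sym2.map_mk]
      · refine ⟨(b.1, a.1), ?_, ?_⟩
        · rw [Finset.mem_filter, Finset.mem_product]
          exact ⟨⟨b.2, a.2⟩, hlt, by rw [dist_comm]; exact hd⟩
        · simp [Sym2.map_mk, Sym2.eq_swap]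
  exact_mod_cast hcard

/-- all particles in one cube.  Hint: `cell_turan` with `A = univ`. -/
theorem cube_turan {h s : ℝ} (hh : 0 ≤ h) (hs : 0 < s) (v : Pt) {N : ℕ} (x : Fin N → Pt)
    (hx : ∀ i, x i ∈ cubeAt v h) :
    (N : ℝ) ^ 2 / (2 * packingNumber (h / s)) - (N : ℝ) / 2 ≤ closePairs s x := by
  have := cell_turan hh hs v x Finset.univ (fun i _ => hx i)
  rw [Finset.card_univ, Fintype.card_fin, Finset.univ_product_univ] at this
  exact this

end Crest.Agent.PT
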