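import Crest.Agent.PT_StabA
import Crest.Agent.PT_Cube

/-! Row 149, task A5b: `∑_α N_α² = N + 2 sc` and its bound by the number of close pairs (blueprint A5(b)). -/

set_option autoImplicit false

namespace Crest.Agent.PT

open Crest.ProbabilityR.Continuum

/-- the particles lying in the cell `α` -/
noncomputable def cellOf (h : ℝ) (t : Pt) {N : ℕ} (x : Fin N → Pt) (α : Fin 3 → ℤ) : Finset (Fin N) :=
  Finset.univ.filter (fun i => idx h t (x i) = α)

/-- the occupied cells -/
noncomputable def occ (h : ℝ) (t : Pt) {N : ℕ} (x : Fin N → Pt) : Finset (Fin 3 → ℤ) :=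
  Finset.univ.image (fun i => idx h t (x i))

/-- Hint: `Finset.card_eq_sum_card_image`. -/
theorem sum_card_cellOf (h : ℝ) (t : Pt) {N : ℕ} (x : Fin N → Pt) :
    ∑ α ∈ occ h t x, (cellOf h t x α).card = N := by
  have := Finset.card_eq_sum_card_image (fun i : Fin N => idx h t (x i)) Finset.univ
  rw [Finset.card_univ, Fintype.card_fin] at this
  exact this.symm

private theorem StabB_same_card (h : ℝ) (t : Pt) {N : ℕ} (x : Fin N → Pt) :
    (Finset.univ.filter (fun q : Fin N × Fin N => idx h t (x q.1) = idx h t (x q.2))).card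
      = N + 2 * sc h t x := by
  classical
  set S := Finset.univ.filter (fun q : Fin N × Fin N => idx h t (x q.1) = idx h t (x q.2)) with hS
  have h1 : (S.filter (fun q => q.1 = q.2)).card + (S.filter (fun q => ¬ q.1 = q.2)).card = S.card :=
    Finset.card_filter_add_card_filter_not (s := S) (fun q => q.1 = q.2)
  have h2 : ((S.filter (fun q => ¬ q.1 = q.2)).filter (fun q => q.1 < q.2)).card
      + ((S.filter (fun q => ¬ q.1 = q.2)).filter (fun q => ¬ q.1 < q.2)).card
      = (S.filter (fun q => ¬ q.1 = q.2)).card :=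
    Finset.card_filter_add_card_filter_not (s := S.filter (fun q => ¬ q.1 = q.2)) (fun q => q.1 < q.2)
  have hd : (S.filter (fun q => q.1 = q.2)).card = N := by
    have : S.filter (fun q => q.1 = q.2) = Finset.univ.image (fun i : Fin N => (i, i)) := by
      ext ⟨a, b⟩
      simp only [hS, Finset.mem_filter, Finset.mem_univ, true_and, Finset.mem_image, Prod.mk.injEq]
      constructor
      · rintro ⟨_, rfl⟩
        exact ⟨a, rfl, rfl⟩
      · rintro ⟨i, rfl, rfl⟩
        exact ⟨rfl, rfl⟩
    rw [this, Finset.card_image_of_injective _ (fun a b hab => (Prod.mk.inj hab).1),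
      Finset.card_univ, Fintype.card_fin]
  have hlt : ((S.filter (fun q => ¬ q.1 = q.2)).filter (fun q => q.1 < q.2)).card = sc h t x := by
    unfold sc
    congr 1
    ext ⟨a, b⟩
    simp only [hS, Finset.mem_filter, Finset.mem_univ, true_and]
    constructor
    · rintro ⟨⟨h1, _⟩, h3⟩
      exact ⟨h3, h1⟩
    · rintro ⟨h3, h1⟩
      exact ⟨⟨h1, ne_of_lt h3⟩, h3⟩
  have hgt : ((S.filter (fun q => ¬ q.1 = q.2)).filter (fun q => ¬ q.1 < q.2)).card = sc h t x := by
    unfold sc
    apply Finset.card_bij (fun q _ => (q.2, q.1))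
    · rintro ⟨a, b⟩ hq
      simp only [hS, Finset.mem_filter, Finset.mem_univ, true_and] at hq ⊢
      obtain ⟨⟨h1, h2⟩, h3⟩ := hq
      refine ⟨?_, h1.symm⟩
      rcases lt_trichotomy a b with hab | hab | hab
      · exact absurd hab h3
      · exact absurd hab h2
      · exact hab
    · rintro ⟨a, b⟩ _ ⟨c, d⟩ _ hq
      simp only [Prod.mk.injEq] at hq ⊢
      exact ⟨hq.2, hq.1⟩
    · rintro ⟨a, b⟩ hq
      simp only [Finset.mem_filter, Finset.mem_univ, true_and] at hq
      refine ⟨(b, a), ?_, rfl⟩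
      simp only [hS, Finset.mem_filter, Finset.mem_univ, true_and]
      exact ⟨⟨hq.2.symm, ne_of_gt hq.1⟩, not_lt_of_gt hq.1⟩
  omega

/-- Hint: `(cellOf α).card ^ 2 = card (cellOf α ×ˢ cellOf α)`; the union over `α` of these products is
`{q | idx (x q.1) = idx (x q.2)}` = diagonal (`N` elements) ∪ `{q.1 < q.2, same}` ∪ `{q.2 < q.1, same}`. -/
theorem sum_sq_cellOf (h : ℝ) (t : Pt) {N : ℕ} (x : Fin N → Pt) :
    ∑ α ∈ occ h t x, (cellOf h t x α).card ^ 2 = N + 2 * sc h t x := by
  classical
  rw [← StabB_same_card]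
  rw [Finset.card_eq_sum_card_fiberwise (f := fun q : Fin N × Fin N => idx h t (x q.1))
    (t := occ h t x)]
  · apply Finset.sum_congr rfl
    intro α _
    rw [sq, ← Finset.card_product]
    congr 1
    ext ⟨a, b⟩
    simp only [cellOf, Finset.mem_product, Finset.mem_filter, Finset.mem_univ, true_and]
    constructor
    · rintro ⟨h1, h2⟩
      exact ⟨h1.trans h2.symm, h1⟩
    · rintro ⟨h1, h2⟩
      exact ⟨h2, h1 ▸ h2⟩
  · intro q _
    exact Finset.mem_image_of_mem _ (Finset.mem_univ _)

/-- Hint: the sets `(cellOf α ×ˢ cellOf α).filter ..` are pairwise disjoint subsets of the filter defining `closePairs`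
(`Finset.card_biUnion`, `Finset.card_le_card`). -/
theorem sum_close_cellOf_le (h s : ℝ) (t : Pt) {N : ℕ} (x : Fin N → Pt) :
    ∑ α ∈ occ h t x, ((cellOf h t x α ×ˢ cellOf h t x α).filter
      (fun q : Fin N × Fin N => q.1 < q.2 ∧ dist (x q.1) (x q.2) < s)).card ≤ closePairs s x := by
  classical
  rw [← Finset.card_biUnion]
  · unfold closePairs
    apply Finset.card_le_card
    intro q hq
    simp only [Finset.mem_biUnion, Finset.mem_filter] at hq
    obtain ⟨α, _, _, hq2⟩ := hq
    simp only [Finset.mem_filter, Finset.mem_univ, true_and]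
    exact hq2
  · intro α _ α' _ hne
    show Disjoint _ _
    rw [Finset.disjoint_left]
    intro q hq hq'
    simp only [cellOf, Finset.mem_filter, Finset.mem_product, Finset.mem_univ, true_and] at hq hq'
    exact hne (hq.1.1.symm.trans hq'.1.1)

/-- A5(b), combinatorial form.  Hint: sum `cell_turan` over `α ∈ occ h t x` (`cell_subset_cubeAt`), use the three lemmas
above, multiply by `2 * packingNumber (h/s) > 0` (`packingNumber_pos`). -/
theorem cells_sq_le {h s : ℝ} (hh : 0 < h) (hs : 0 < s) (t : Pt) {N : ℕ} (x : Fin N → Pt) :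
    (N : ℝ) + 2 * sc h t x ≤ 2 * packingNumber (h / s) * ((closePairs s x : ℝ) + N / 2) := by
  classical
  have hP : 0 < packingNumber (h / s) := packingNumber_pos (div_nonneg hh.le hs.le)
  have hP' : (0 : ℝ) < 2 * (packingNumber (h / s) : ℝ) := by positivity
  have hcell : ∀ α ∈ occ h t x,
      ((cellOf h t x α).card : ℝ) ^ 2 / (2 * packingNumber (h / s)) - ((cellOf h t x α).card : ℝ) / 2 ≤
        (((cellOf h t x α ×ˢ cellOf h t x α).filter
          (fun q : Fin N × Fin N => q.1 < q.2 ∧ dist (x q.1) (x q.2) < s)).card : ℝ) := by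
    intro α _
    apply cell_turan hh.le hs (WithLp.toLp 2 (fun a => (α a : ℝ) * h - t a)) x
    intro i hi
    apply cell_subset_cubeAt hh t α
    simpa [cellOf] using hi
  have hsum := Finset.sum_le_sum hcell
  rw [Finset.sum_sub_distrib, ← Finset.sum_div, ← Finset.sum_div] at hsum
  have e1 : ∑ α ∈ occ h t x, ((cellOf h t x α).card : ℝ) ^ 2 = (N : ℝ) + 2 * sc h t x := by
    have := sum_sq_cellOf h t x
    exact_mod_cast this
  have e2 : ∑ α ∈ occ h t x, ((cellOf h t x α).card : ℝ) = (N : ℝ) := by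
    have := sum_card_cellOf h t x
    exact_mod_cast this
  have e3 : ∑ α ∈ occ h t x, (((cellOf h t x α ×ˢ cellOf h t x α).filter
      (fun q : Fin N × Fin N => q.1 < q.2 ∧ dist (x q.1) (x q.2) < s)).card : ℝ)
      ≤ (closePairs s x : ℝ) := by
    have := sum_close_cellOf_le h s t x
    exact_mod_cast this
  rw [e1, e2] at hsum
  have h4 : ((N : ℝ) + 2 * sc h t x) / (2 * packingNumber (h / s)) ≤ (closePairs s x : ℝ) + N / 2 := by
    linarith
  rw [div_le_iff₀ hP'] at h4
  linarith

end Crest.Agent.PT
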