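import Crest.Agent.PT_StabB
import Crest.Agent.PT_Schur
import Crest.Agent.PT_Pot
import Crest.Agent.PT_Iota

/-! Row 149, task A5c: the relative bounds (blueprint A5(b),(c)): everything attractive is controlled by `E[U]` and `λN`. -/

set_option autoImplicit false

namespace Crest.Agent.PT

open MeasureTheory Crest.ProbabilityR.Continuum

variable {p δ lam T : ℝ} {om : ℝ → ℝ}

theorem Uf_nonneg (hlam : 0 ≤ lam) (hom : CoreOK lam om) (r : ℝ) : 0 ≤ Uf om δ lam r := by
  unfold Uf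
  exact add_nonneg (U0_nonneg hlam r) (hom.nonneg r)

theorem measurable_Uf (hom : CoreOK lam om) : Measurable (Uf om δ lam) := by
  unfold Uf
  exact (continuous_U0 δ lam).measurable.add hom.meas

/-- Hint: `U0_ge_quarter`, `hom.nonneg`. -/
theorem Uf_ge_quarter (hδ0 : 0 < δ) (hlam : 0 ≤ lam) (hom : CoreOK lam om) {r : ℝ} (hr : r ≤ s1 δ) :
    lam / 4 ≤ Uf om δ lam r := by
  unfold Uf
  have h1 := U0_ge_quarter hδ0 hlam hr
  have h2 := hom.nonneg r
  linarith

/-- Hint: `U0_eq_zero`, `hom.supp` (`s2 lam / 16 ≤ δ bb ≤ bb`). -/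
theorem Uf_eq_zero (hP : Par p δ lam T) (hom : CoreOK lam om) {r : ℝ} (hr : bb ≤ r) :
    Uf om δ lam r = 0 := by
  unfold Uf
  have hb := bb_pos
  have hlam : 0 ≤ lam := by linarith [hP.hlam]
  have h1 := U0_eq_zero hP.hδ0 hlam hr
  have h2 : s2 lam / 16 ≤ r := by
    have := hP.hs2
    have h3 : δ * bb ≤ 1 / 100 * bb := mul_le_mul_of_nonneg_right hP.hδ1 hb.le
    linarith
  rw [h1, hom.supp r h2, add_zero]

private theorem one_sub_cube_pos (hP : Par p δ lam T) : 0 < (1 - δ) ^ 3 := by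
  have := hP.hδ1
  have : 0 < 1 - δ := by linarith
  positivity

/-- Hint: `(1+δ) ≤ 1.05 (1-δ)^3` for `0 < δ ≤ 1/100` (`nlinarith`), `pb p > 0`. -/
theorem pplus_le (hP : Par p δ lam T) : pplus p δ ≤ 1.05 * pb p := by
  have hpb := pb_pos hP.hp
  have h0 := hP.hδ0
  have h1 := hP.hδ1
  unfold pplus
  rw [div_le_iff₀ (one_sub_cube_pos hP)]
  have h3 : 1 - 3 * δ ≤ (1 - δ) ^ 3 := by nlinarith [sq_nonneg δ, mul_nonneg h0.le (sq_nonneg δ)]
  have h4 : 1 + δ ≤ 1.05 * (1 - δ) ^ 3 := by linarith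
  have := mul_le_mul_of_nonneg_right h4 (by linarith : (0 : ℝ) ≤ pb p)
  linarith

theorem pplus_pos (hP : Par p δ lam T) : 0 < pplus p δ := by
  have hpb := pb_pos hP.hp
  have h0 := hP.hδ0
  have h3 := one_sub_cube_pos hP
  unfold pplus
  have : 0 < pb p := by linarith
  positivity

private theorem s1_pos_par (hP : Par p δ lam T) : 0 < s1 δ := by
  unfold s1
  have := hP.hδ1
  have hb := bb_pos
  have : 0 < 1 - δ := by linarith
  positivity

private theorem lam_pos (hP : Par p δ lam T) : 0 < lam := by linarith [hP.hlam]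

private theorem T_pos (hP : Par p δ lam T) : 0 < T := by linarith [hP.hT]

private theorem T_one (hP : Par p δ lam T) : 1 ≤ T := by linarith [hP.hT]

/-- Hint: `energy_ge_closePairs` with `c = lam/4`, `s = s1 δ`. -/
theorem closePairs_le_energy (hP : Par p δ lam T) (hom : CoreOK lam om) {N : ℕ} (x : Fin N → Pt) :
    (closePairs (s1 δ) x : ℝ) ≤ 4 * energy (Uf om δ lam) x / lam := by
  have hlam := lam_pos hP
  have h := energy_ge_closePairs x (U := Uf om δ lam) (Uf_nonneg hlam.le hom) (c := lam / 4)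
    (s := s1 δ) (fun r _ hr => Uf_ge_quarter hP.hδ0 hlam.le hom hr.le)
  rw [le_div_iff₀ hlam]
  linarith

private theorem energy_Uf_nonneg (hP : Par p δ lam T) (hom : CoreOK lam om) {N : ℕ}
    (x : Fin N → Pt) : 0 ≤ energy (Uf om δ lam) x :=
  energy_nonneg (fun r _ => Uf_nonneg (lam_pos hP).le hom r) x

/-- A5(b).  Hint: `cells_sq_le` with `s = s1 δ`, `hP.hpack`, `closePairs_le_energy`. -/
theorem cells_le_energy (hP : Par p δ lam T) (hom : CoreOK lam om) {h : ℝ} (hh : lk T 1 ≤ h) (t : Pt)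
    {N : ℕ} (x : Fin N → Pt) :
    (N : ℝ) + 2 * sc h t x ≤
      2 * (pplus p δ * h ^ 3) * (4 * energy (Uf om δ lam) x / lam + N / 2) := by
  have hh0 : 0 < h := lt_of_lt_of_le (lk_pos (T_pos hP) 1) hh
  have h1 := cells_sq_le hh0 (s1_pos_par hP) t x
  have h2 := hP.hpack h hh
  have h3 := closePairs_le_energy hP hom x
  have h4 : (0 : ℝ) ≤ (closePairs (s1 δ) x : ℝ) + N / 2 := by positivity
  have h5 : (0 : ℝ) ≤ pplus p δ * h ^ 3 := by
    have := pplus_pos hP
    positivity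
  calc (N : ℝ) + 2 * sc h t x
      ≤ 2 * packingNumber (h / s1 δ) * ((closePairs (s1 δ) x : ℝ) + N / 2) := h1
    _ ≤ 2 * (pplus p δ * h ^ 3) * ((closePairs (s1 δ) x : ℝ) + N / 2) := by
        apply mul_le_mul_of_nonneg_right _ h4
        linarith
    _ ≤ 2 * (pplus p δ * h ^ 3) * (4 * energy (Uf om δ lam) x / lam + N / 2) := by
        apply mul_le_mul_of_nonneg_left _ (by linarith)
        linarith

/-- all particles in one cube of side `h`.  Hint: `cube_turan`, `hP.hpack`, `closePairs_le_energy`. -/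
theorem sq_le_energy (hP : Par p δ lam T) (hom : CoreOK lam om) {h : ℝ} (hh : lk T 1 ≤ h) (v : Pt)
    {N : ℕ} (x : Fin N → Pt) (hx : ∀ i, x i ∈ cubeAt v h) :
    (N : ℝ) ^ 2 ≤ 2 * (pplus p δ * h ^ 3) * (4 * energy (Uf om δ lam) x / lam + N / 2) := by
  have hh0 : 0 < h := lt_of_lt_of_le (lk_pos (T_pos hP) 1) hh
  have hs := s1_pos_par hP
  have h1 := cube_turan hh0.le hs v x hx
  have h2 := hP.hpack h hh
  have h3 := closePairs_le_energy hP hom x
  have h4 : (0 : ℝ) ≤ (closePairs (s1 δ) x : ℝ) + N / 2 := by positivity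
  have h5 : (0 : ℝ) ≤ pplus p δ * h ^ 3 := by
    have := pplus_pos hP
    positivity
  have hPpos : (0 : ℝ) < 2 * packingNumber (h / s1 δ) := by
    have : 0 < packingNumber (h / s1 δ) := packingNumber_pos (by positivity)
    have : (0 : ℝ) < packingNumber (h / s1 δ) := by exact_mod_cast this
    linarith
  have h6 : (N : ℝ) ^ 2 / (2 * packingNumber (h / s1 δ)) ≤ (closePairs (s1 δ) x : ℝ) + N / 2 := by
    linarith
  rw [div_le_iff₀ hPpos] at h6
  calc (N : ℝ) ^ 2
      ≤ ((closePairs (s1 δ) x : ℝ) + N / 2) * (2 * packingNumber (h / s1 δ)) := h6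
    _ ≤ ((closePairs (s1 δ) x : ℝ) + N / 2) * (2 * (pplus p δ * h ^ 3)) := by
        apply mul_le_mul_of_nonneg_left _ h4
        linarith
    _ = 2 * (pplus p δ * h ^ 3) * ((closePairs (s1 δ) x : ℝ) + N / 2) := by ring
    _ ≤ 2 * (pplus p δ * h ^ 3) * (4 * energy (Uf om δ lam) x / lam + N / 2) := by
        apply mul_le_mul_of_nonneg_left _ (by linarith)
        linarith

private theorem eight_le_Rk (hP : Par p δ lam T) (i : ℕ) : 8 ≤ Rk T i := by
  have h1 := Rk_ge (T_one hP) i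
  have h2 : (12 : ℝ) ^ 32 ≤ T ^ 32 := pow_le_pow_left₀ (by norm_num) hP.hT 32
  have h3 : (8 : ℝ) ≤ 12 ^ 32 := by norm_num
  linarith

/-- `8 ℓ_k ≤ R_j` and `ℓ_k / R_j ≤ 1 / R_{k-1}` for `1 ≤ k ≤ j` -/
private theorem lk_Rk_aux (hP : Par p δ lam T) {k j : ℕ} (hk : 1 ≤ k) (hkj : k ≤ j) :
    8 * lk T k ≤ Rk T j ∧ lk T k / Rk T j ≤ 1 / Rk T (k - 1) := by
  obtain ⟨i, rfl⟩ := Nat.exists_eq_add_of_le' hk
  have hT := T_pos hP
  have hR := Rk_pos hT i
  have hR1 := Rk_pos hT (i + 1)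
  have hRj := Rk_pos hT j
  have hl := lk_pos hT (i + 1)
  have hmono := Rk_mono (T_one hP) hkj
  have hdiv := lk_div_Rk hT i
  have h8 := eight_le_Rk hP i
  have e1 : lk T (i + 1) * Rk T i = Rk T (i + 1) := by
    rw [div_eq_div_iff hR1.ne' hR.ne'] at hdiv
    linarith
  simp only [Nat.add_sub_cancel]
  constructor
  · calc 8 * lk T (i + 1) ≤ Rk T i * lk T (i + 1) := mul_le_mul_of_nonneg_right h8 hl.le
      _ = Rk T (i + 1) := by rw [mul_comm]; exact e1
      _ ≤ Rk T j := hmono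
  · rw [← hdiv]
    exact div_le_div_of_nonneg_left hl.le hR1 hmono

/-- A5(c).  Hint: `energy_AR_le` with `h = lk T j`, `R = Rk T j`, `t = 0` (`lk_div_Rk`: `h/R = 1/Rk T (j-1)`, `8 h ≤ R`),
then `cells_le_energy` (`lk_mono`): `E[A_R] ≤ (ι + 400/R_{j-1}) p⁺ (4E[U]/λ + N/2)`;  `c_j = κ_j λ/(p_b ι)`, `pplus_le`, `err_Rk`:
`(1 + 1/2500) · 1.05 ≤ 2`. -/
theorem energy_ckAR_le (hP : Par p δ lam T) (hom : CoreOK lam om) {j : ℕ} (hj : 1 ≤ j) {N : ℕ}
    (x : Fin N → Pt) :
    ck p lam T j * energy (AR (Rk T j)) x ≤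
      kap T j * (2 * (4 * energy (Uf om δ lam) x + lam * N / 2)) := by
  have hT := T_pos hP
  have hlam := lam_pos hP
  have hl := lk_pos hT j
  have hl3 : 0 < lk T j ^ 3 := by positivity
  have hι := iota_pos
  have hpb : 0 < pb p := by linarith [pb_pos hP.hp]
  have hκ := kap_pos hT j
  have hR := Rk_pos hT (j - 1)
  obtain ⟨h8, hdiv⟩ := lk_Rk_aux hP hj le_rfl
  have h1 := energy_AR_le hl h8 0 x
  have h2 := cells_le_energy hP hom (lk_mono (T_one hP) hj) 0 x
  have hE := energy_Uf_nonneg hP hom x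
  have herr := err_Rk hP.hT (j - 1)
  have hpp := pplus_le hP
  set E := energy (Uf om δ lam) x with hEdef
  set W := 4 * E / lam + (N : ℝ) / 2 with hW
  have hW0 : 0 ≤ W := by positivity
  have hq : iota + 400 * lk T j / Rk T j ≤ iota * (1 + 1 / 2500) := by
    have e1 : 400 * lk T j / Rk T j = 400 * (lk T j / Rk T j) := by ring
    have e2 : 400 / (iota * Rk T (j - 1)) = 400 * (1 / Rk T (j - 1)) / iota := by
      field_simp
    rw [e2, div_le_iff₀ hι] at herr
    rw [e1]
    nlinarith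
  have hq0 : 0 ≤ iota + 400 * lk T j / Rk T j := by
    have := Rk_pos hT j
    positivity
  -- `E[A_R] ≤ ι (1 + 1/2500) · 1.05 p_b · W`
  have h3 : energy (AR (Rk T j)) x ≤ iota * (1 + 1 / 2500) * (1.05 * pb p) * W := by
    calc energy (AR (Rk T j)) x
        ≤ ((iota + 400 * lk T j / Rk T j) / lk T j ^ 3) / 2 * ((N : ℝ) + 2 * sc (lk T j) 0 x) := h1
      _ ≤ ((iota + 400 * lk T j / Rk T j) / lk T j ^ 3) / 2 *
            (2 * (pplus p δ * lk T j ^ 3) * W) := by
          apply mul_le_mul_of_nonneg_left h2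
          positivity
      _ = (iota + 400 * lk T j / Rk T j) * (pplus p δ * W) := by
          field_simp
      _ ≤ (iota * (1 + 1 / 2500)) * (pplus p δ * W) := by
          apply mul_le_mul_of_nonneg_right hq
          have := pplus_pos hP
          positivity
      _ ≤ (iota * (1 + 1 / 2500)) * ((1.05 * pb p) * W) := by
          apply mul_le_mul_of_nonneg_left _ (by positivity)
          exact mul_le_mul_of_nonneg_right hpp hW0
      _ = iota * (1 + 1 / 2500) * (1.05 * pb p) * W := by ring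
  have hck : 0 ≤ ck p lam T j := by
    unfold ck
    positivity
  calc ck p lam T j * energy (AR (Rk T j)) x
      ≤ ck p lam T j * (iota * (1 + 1 / 2500) * (1.05 * pb p) * W) :=
        mul_le_mul_of_nonneg_left h3 hck
    _ = kap T j * ((1 + 1 / 2500) * 1.05 * (4 * E + lam * N / 2)) := by
        unfold ck
        rw [hW]
        field_simp
    _ ≤ kap T j * (2 * (4 * E + lam * N / 2)) := by
        apply mul_le_mul_of_nonneg_left _ hκ.le
        apply mul_le_mul_of_nonneg_right (by norm_num)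
        positivity

/-- the constant `S` of `hard_bound` at level `k` for a long-range part of total strength `κ` -/
noncomputable def Sk (p lam T : ℝ) (k : ℕ) (κ : ℝ) : ℝ :=
  κ * lam * (1 + 400 / (iota * Rk T (k - 1))) / (pb p * (lk T k) ^ 3)

theorem Sk_nonneg (hP : Par p δ lam T) (k : ℕ) {κ : ℝ} (hκ : 0 ≤ κ) : 0 ≤ Sk p lam T k κ := by
  have hT := T_pos hP
  have hlam := lam_pos hP
  have hl := lk_pos hT k
  have hι := iota_pos
  have hpb : 0 < pb p := by linarith [pb_pos hP.hp]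
  have hR := Rk_pos hT (k - 1)
  unfold Sk
  positivity

/-- Hint: `err_Rk`. -/
theorem Sk_le (hP : Par p δ lam T) (k : ℕ) {κ : ℝ} (hκ0 : 0 ≤ κ) (hκ : κ ≤ 4 / 1000000) :
    Sk p lam T k κ ≤ lam / (100000 * (pb p * (lk T k) ^ 3)) := by
  have hT := T_pos hP
  have hlam := lam_pos hP
  have hl := lk_pos hT k
  have hι := iota_pos
  have hpb : 0 < pb p := by linarith [pb_pos hP.hp]
  have hR := Rk_pos hT (k - 1)
  have herr := err_Rk hP.hT (k - 1)
  have hD : 0 < pb p * (lk T k) ^ 3 := by positivity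
  unfold Sk
  rw [div_le_div_iff₀ hD (by positivity)]
  have h0 : 0 ≤ 400 / (iota * Rk T (k - 1)) := by positivity
  have h1 : κ * (1 + 400 / (iota * Rk T (k - 1))) * 100000 ≤ 1 := by nlinarith
  have h2 := mul_le_mul_of_nonneg_right h1 (by positivity : 0 ≤ lam * (pb p * (lk T k) ^ 3))
  nlinarith

/-- A2 at level `k` for the scale `j ≥ k`.  Hint: `energy_AR_le` with `h = lk T k`, `R = Rk T j`;
`lk T k / Rk T j ≤ lk T k / Rk T k = 1 / Rk T (k-1)`;  `c_j (ι + 400/r) = κ_j λ (1 + 400/(ι r))/p_b`. -/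
theorem energy_ckAR_le_sc (hP : Par p δ lam T) {k j : ℕ} (hk : 1 ≤ k) (hkj : k ≤ j) (t : Pt) {N : ℕ}
    (x : Fin N → Pt) :
    ck p lam T j * energy (AR (Rk T j)) x ≤
      kap T j * (Sk p lam T k 1 / 2 * ((N : ℝ) + 2 * sc (lk T k) t x)) := by
  have hT := T_pos hP
  have hlam := lam_pos hP
  have hl := lk_pos hT k
  have hl3 : 0 < lk T k ^ 3 := by positivity
  have hι := iota_pos
  have hpb : 0 < pb p := by linarith [pb_pos hP.hp]
  have hκ := kap_pos hT j
  have hR := Rk_pos hT (k - 1)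
  obtain ⟨h8, hdiv⟩ := lk_Rk_aux hP hk hkj
  have h1 := energy_AR_le hl h8 t x
  set V := (N : ℝ) + 2 * sc (lk T k) t x with hV
  have hV0 : 0 ≤ V := by positivity
  have hq : iota + 400 * lk T k / Rk T j ≤ iota * (1 + 400 / (iota * Rk T (k - 1))) := by
    have e1 : 400 * lk T k / Rk T j = 400 * (lk T k / Rk T j) := by ring
    have e2 : iota * (1 + 400 / (iota * Rk T (k - 1))) = iota + 400 * (1 / Rk T (k - 1)) := by
      field_simp
    rw [e1, e2]
    linarith
  have hck : 0 ≤ ck p lam T j := by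
    unfold ck
    positivity
  calc ck p lam T j * energy (AR (Rk T j)) x
      ≤ ck p lam T j * (((iota + 400 * lk T k / Rk T j) / lk T k ^ 3) / 2 * V) :=
        mul_le_mul_of_nonneg_left h1 hck
    _ ≤ ck p lam T j * (((iota * (1 + 400 / (iota * Rk T (k - 1)))) / lk T k ^ 3) / 2 * V) := by
        apply mul_le_mul_of_nonneg_left _ hck
        apply mul_le_mul_of_nonneg_right _ hV0
        apply div_le_div_of_nonneg_right _ (by norm_num)
        exact div_le_div_of_nonneg_right hq hl3.le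
    _ = kap T j * (Sk p lam T k 1 / 2 * V) := by
        unfold ck Sk
        field_simp

end Crest.Agent.PT
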