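import Crest.Agent.PT_Defs

/-! Row 149, task C1: abstract thermodynamic limit (blueprint §C).  `g L N = log Z(L,N)`. -/

set_option autoImplicit false

namespace Crest.Agent.PT

open Filter

/-- hypotheses F1–F5 of the blueprint -/
structure ThermoHyp (g : ℝ → ℕ → ℝ) (b I B : ℝ) : Prop where
  b_pos : 0 < b
  I_nonneg : 0 ≤ I
  B_nonneg : 0 ≤ B
  mono : ∀ N L L', 0 < L → L ≤ L' → g L N ≤ g L' N
  super : ∀ ℓ, 0 < ℓ → ∀ m j n₁ n₂ : ℕ, j ≤ m ^ 3 →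
    (j : ℝ) * g ℓ n₁ + ((m : ℝ) ^ 3 - j) * g ℓ n₂ ≤ g (m * (ℓ + b)) (j * n₁ + (m ^ 3 - j) * n₂)
  add : ∀ L, 0 < L → ∀ N : ℕ,
    g L N + Real.log (L ^ 3 / (2 * ((N : ℝ) + 1))) - I * N / L ^ 3 ≤ g L (N + 1)
  ub : ∀ L, 0 < L → ∀ N : ℕ, g L N ≤ B * N + N * Real.log (Real.exp 1 * L ^ 3 / N)
  zero : ∀ L, g L 0 = 0

/-! ### helper95's public helper lemmas (kept for compatibility) -/

/-- the cost of adding one particle at density at most `ρ` -/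
noncomputable def thermoK (I ρ : ℝ) : ℝ := |Real.log (2 * ρ)| + I * ρ

theorem thermoK_nonneg {I ρ : ℝ} (hI : 0 ≤ I) (hρ : 0 ≤ ρ) : 0 ≤ thermoK I ρ := by
  unfold thermoK; positivity

/-- iterating F3 -/
theorem thermo_add_many {g : ℝ → ℕ → ℝ} {b I B : ℝ} (h : ThermoHyp g b I B) {L ρ : ℝ}
    (hL : 0 < L) (hρ : 0 < ρ) (N D : ℕ) (hN : ((N + D : ℕ) : ℝ) ≤ ρ * L ^ 3) :
    g L N - D * thermoK I ρ ≤ g L (N + D) := by
  induction D with
  | zero => simp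
  | succ D ih =>
    have hL3 : 0 < L ^ 3 := by positivity
    have hle : ((N + D : ℕ) : ℝ) ≤ ρ * L ^ 3 := by
      refine le_trans ?_ hN
      push_cast; linarith
    have ih' := ih hle
    have hadd := h.add L hL (N + D)
    have h1 : -|Real.log (2 * ρ)| ≤ Real.log (L ^ 3 / (2 * (((N + D : ℕ) : ℝ) + 1))) := by
      have hpos : (0 : ℝ) < 2 * (((N + D : ℕ) : ℝ) + 1) := by positivity
      have hge : 1 / (2 * ρ) ≤ L ^ 3 / (2 * (((N + D : ℕ) : ℝ) + 1)) := by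
        rw [div_le_div_iff₀ (by positivity) hpos]
        have : (((N + D : ℕ) : ℝ) + 1) ≤ ρ * L ^ 3 := by
          have := hN; push_cast at this ⊢; linarith
        nlinarith
      have hlog := Real.log_le_log (by positivity) hge
      rw [one_div, Real.log_inv] at hlog
      have := le_abs_self (Real.log (2 * ρ))
      linarith
    have h2 : I * ((N + D : ℕ) : ℝ) / L ^ 3 ≤ I * ρ := by
      rw [div_le_iff₀ hL3]
      have := mul_le_mul_of_nonneg_left hle h.I_nonneg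
      linarith
    have : g L (N + (D + 1)) = g L (N + D + 1) := by rw [add_assoc]
    rw [this]
    unfold thermoK at ih' ⊢
    push_cast
    push_cast at ih' hadd h1 h2
    linarith

/-- master inequality: fill `m^3` cells, then add the missing particles -/
theorem thermo_master {g : ℝ → ℕ → ℝ} {b I B : ℝ} (h : ThermoHyp g b I B) {ℓ L ρ : ℝ}
    (hℓ : 0 < ℓ) (hρ : 0 < ρ) (m j n₁ n₂ N : ℕ) (hm : 1 ≤ m) (hj : j ≤ m ^ 3)
    (hL : (m : ℝ) * (ℓ + b) ≤ L) (hN : (N : ℝ) ≤ ρ * L ^ 3)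
    (hN0 : j * n₁ + (m ^ 3 - j) * n₂ ≤ N) :
    (j : ℝ) * g ℓ n₁ + ((m : ℝ) ^ 3 - j) * g ℓ n₂
      - ((N : ℝ) - ((j : ℝ) * n₁ + ((m : ℝ) ^ 3 - j) * n₂)) * thermoK I ρ ≤ g L N := by
  have hb := h.b_pos
  have hm' : (1 : ℝ) ≤ m := by exact_mod_cast hm
  have hL' : 0 < (m : ℝ) * (ℓ + b) := by positivity
  have hL0 : 0 < L := lt_of_lt_of_le hL' hL
  obtain ⟨D, rfl⟩ := Nat.exists_eq_add_of_le hN0
  have h1 := thermo_add_many h hL0 hρ _ D hN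
  have h2 := h.mono (j * n₁ + (m ^ 3 - j) * n₂) _ _ hL' hL
  have h3 := h.super ℓ hℓ m j n₁ n₂ hj
  have hc : (((j * n₁ + (m ^ 3 - j) * n₂ + D : ℕ)) : ℝ)
      = (j : ℝ) * n₁ + ((m : ℝ) ^ 3 - j) * n₂ + D := by
    push_cast [Nat.cast_sub hj]; ring
  rw [hc]
  have : (j : ℝ) * n₁ + ((m : ℝ) ^ 3 - j) * n₂ + D - ((j : ℝ) * n₁ + ((m : ℝ) ^ 3 - j) * n₂) = D := by
    ring
  rw [this]
  linarith

theorem thermo_ub_mul {g : ℝ → ℕ → ℝ} {b I B : ℝ} (h : ThermoHyp g b I B) {L ρ : ℝ}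
    (hL : 0 < L) (N : ℕ) (hN : (N : ℝ) ≤ ρ * L ^ 3) : g L N ≤ (B * ρ + 1) * L ^ 3 := by
  have hL3 : 0 < L ^ 3 := by positivity
  have hub := h.ub L hL N
  have hBN : B * N ≤ B * (ρ * L ^ 3) := mul_le_mul_of_nonneg_left hN h.B_nonneg
  rcases Nat.eq_zero_or_pos N with h0 | h0
  · subst h0
    simp at hub hBN
    nlinarith
  · have hN0 : (0 : ℝ) < N := by exact_mod_cast h0
    have hy : 0 < L ^ 3 / N := by positivity
    have h1 : Real.log (Real.exp 1 * L ^ 3 / N) ≤ L ^ 3 / N := by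
      rw [mul_div_assoc, Real.log_mul (Real.exp_pos 1).ne' hy.ne', Real.log_exp]
      have := Real.log_le_sub_one_of_pos hy
      linarith
    have h2 : (N : ℝ) * Real.log (Real.exp 1 * L ^ 3 / N) ≤ L ^ 3 := by
      calc (N : ℝ) * Real.log (Real.exp 1 * L ^ 3 / N) ≤ N * (L ^ 3 / N) :=
            mul_le_mul_of_nonneg_left h1 hN0.le
        _ = L ^ 3 := by field_simp
    linarith

theorem thermo_lb_mul {g : ℝ → ℕ → ℝ} {b I B : ℝ} (h : ThermoHyp g b I B) {L ρ : ℝ}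
    (hL : 0 < L) (hρ : 0 < ρ) (N : ℕ) (hN : (N : ℝ) ≤ ρ * L ^ 3) :
    -(ρ * thermoK I ρ) * L ^ 3 ≤ g L N := by
  have h1 := thermo_add_many h hL hρ 0 N (by simpa using hN)
  rw [h.zero, zero_add] at h1
  have hK := thermoK_nonneg h.I_nonneg hρ.le
  have := mul_le_mul_of_nonneg_right hN hK
  linarith

set_option maxHeartbeats 1000000 in

/-! ### helper35's lemmas and the main theorems -/

/-- (F3 iterated) adding `D` particles costs at most `D * K(r)` as long as the density stays `≤ r`. -/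
theorem ThermoHyp.add_iter {g : ℝ → ℕ → ℝ} {b I B : ℝ} (h : ThermoHyp g b I B) {L r : ℝ}
    (hL : 0 < L) (hr : 0 < r) (N D : ℕ) (hND : ((N + D : ℕ) : ℝ) ≤ r * L ^ 3) :
    g L N - D * (|Real.log (1 / (2 * r))| + I * r) ≤ g L (N + D) := by
  induction D with
  | zero => simp
  | succ D ih =>
    have h1 : ((N + D : ℕ) : ℝ) + 1 ≤ r * L ^ 3 := by
      have := hND
      push_cast at this ⊢
      linarith
    have ih' := ih (by linarith)
    have hadd := h.add L hL (N + D)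
    have hL3 : 0 < L ^ 3 := by positivity
    have hpos : (0 : ℝ) < 2 * (((N + D : ℕ) : ℝ) + 1) := by positivity
    have hle : 1 / (2 * r) ≤ L ^ 3 / (2 * (((N + D : ℕ) : ℝ) + 1)) := by
      rw [div_le_div_iff₀ (by positivity) hpos]
      nlinarith
    have hlog : Real.log (1 / (2 * r)) ≤ Real.log (L ^ 3 / (2 * (((N + D : ℕ) : ℝ) + 1))) :=
      Real.log_le_log (by positivity) hle
    have habs : -|Real.log (1 / (2 * r))| ≤ Real.log (1 / (2 * r)) := neg_abs_le _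
    have hI : I * ((N + D : ℕ) : ℝ) / L ^ 3 ≤ I * r := by
      rw [div_le_iff₀ hL3]
      have := mul_le_mul_of_nonneg_left (show ((N + D : ℕ) : ℝ) ≤ r * L ^ 3 by linarith) h.I_nonneg
      linarith
    have e : g L (N + D + 1) = g L (N + (D + 1)) := by rw [Nat.add_assoc]
    rw [← e]
    push_cast
    push_cast at ih' hadd hlog hI
    linarith

/-- lower bound from F3 + F5 -/
theorem ThermoHyp.lb {g : ℝ → ℕ → ℝ} {b I B : ℝ} (h : ThermoHyp g b I B) {L r : ℝ}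
    (hL : 0 < L) (hr : 0 < r) (N : ℕ) (hN : (N : ℝ) ≤ r * L ^ 3) :
    -(N * (|Real.log (1 / (2 * r))| + I * r)) ≤ g L N := by
  have := h.add_iter hL hr 0 N (by simpa using hN)
  rw [h.zero, Nat.zero_add] at this
  linarith

/-- crude upper bound from F4 -/
theorem ThermoHyp.ub' {g : ℝ → ℕ → ℝ} {b I B : ℝ} (h : ThermoHyp g b I B) {L : ℝ}
    (hL : 0 < L) (N : ℕ) : g L N ≤ B * N + L ^ 3 := by
  have h1 := h.ub L hL N
  have hL3 : 0 < L ^ 3 := by positivity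
  rcases Nat.eq_zero_or_pos N with rfl | hN
  · simp at h1 ⊢
    linarith
  · have hN' : (0 : ℝ) < N := by exact_mod_cast hN
    have h2 : Real.log (Real.exp 1 * L ^ 3 / N) ≤ L ^ 3 / N := by
      have e : Real.exp 1 * L ^ 3 / N = Real.exp 1 * (L ^ 3 / N) := by ring
      rw [e, Real.log_mul (Real.exp_pos 1).ne' (by positivity), Real.log_exp]
      have := Real.log_le_sub_one_of_pos (show 0 < L ^ 3 / N by positivity)
      linarith
    have h3 : (N : ℝ) * Real.log (Real.exp 1 * L ^ 3 / N) ≤ L ^ 3 := by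
      calc (N : ℝ) * Real.log (Real.exp 1 * L ^ 3 / N) ≤ N * (L ^ 3 / N) :=
            mul_le_mul_of_nonneg_left h2 hN'.le
        _ = L ^ 3 := by field_simp
    linarith

/-- going down to a multiple of `ℓ + b` and removing particles -/
theorem ThermoHyp.descend {g : ℝ → ℕ → ℝ} {b I B : ℝ} (h : ThermoHyp g b I B) {ℓ L ρ : ℝ}
    (hℓ : 0 < ℓ) (hL : ℓ + b ≤ L) (hρ : 0 < ρ) (M N : ℕ) (hMN : M ≤ N)
    (hN : (N : ℝ) ≤ ρ * L ^ 3) :
    g (⌊L / (ℓ + b)⌋₊ * (ℓ + b)) M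
      - ((N : ℝ) - M) * (|Real.log (1 / (2 * (8 * ρ)))| + I * (8 * ρ)) ≤ g L N := by
  have hb := h.b_pos
  have hlb : 0 < ℓ + b := by linarith
  set m := ⌊L / (ℓ + b)⌋₊ with hm
  have hq1 : 1 ≤ L / (ℓ + b) := by rw [le_div_iff₀ hlb]; linarith
  have hm1 : 1 ≤ m := Nat.le_floor (by simpa using hq1)
  have hm1' : (1 : ℝ) ≤ m := by exact_mod_cast hm1
  have hmle : (m : ℝ) * (ℓ + b) ≤ L := by
    have := Nat.floor_le (show 0 ≤ L / (ℓ + b) by positivity)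
    rw [← le_div_iff₀ hlb]; exact this
  have hmlt : L < ((m : ℝ) + 1) * (ℓ + b) := by
    have := Nat.lt_floor_add_one (L / (ℓ + b))
    rw [div_lt_iff₀ hlb] at this; exact this
  have hL' : 0 < (m : ℝ) * (ℓ + b) := by positivity
  have hL2 : L ≤ 2 * ((m : ℝ) * (ℓ + b)) := by nlinarith
  have hLpos : 0 < L := by linarith
  have h1 : g ((m : ℝ) * (ℓ + b)) N ≤ g L N := h.mono N _ _ hL' hmle
  obtain ⟨D, rfl⟩ := Nat.exists_eq_add_of_le hMN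
  have hcube : L ^ 3 ≤ 8 * ((m : ℝ) * (ℓ + b)) ^ 3 := by
    have := pow_le_pow_left₀ hLpos.le hL2 3
    calc L ^ 3 ≤ (2 * ((m : ℝ) * (ℓ + b))) ^ 3 := this
      _ = 8 * ((m : ℝ) * (ℓ + b)) ^ 3 := by ring
  have h2 := h.add_iter hL' (show 0 < 8 * ρ by positivity) M D (by
    calc ((M + D : ℕ) : ℝ) ≤ ρ * L ^ 3 := hN
      _ ≤ ρ * (8 * ((m : ℝ) * (ℓ + b)) ^ 3) := mul_le_mul_of_nonneg_left hcube hρ.le
      _ = 8 * ρ * ((m : ℝ) * (ℓ + b)) ^ 3 := by ring)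
  have e : (((M + D : ℕ) : ℝ) - M) = D := by push_cast; ring
  rw [e]
  linarith

/-- an eventually bounded "almost increasing" function converges -/
theorem tendsto_of_almost_mono (a : ℝ → ℝ) (A A' : ℝ) (hub : ∀ᶠ L in atTop, a L ≤ A)
    (hlb : ∀ᶠ L in atTop, A' ≤ a L)
    (hm : ∀ ε : ℝ, 0 < ε → ∀ᶠ ℓ in atTop, ∀ᶠ L in atTop, a ℓ - ε ≤ a L) :
    ∃ S : ℝ, Tendsto a atTop (nhds S) := by
  have hbu : IsBoundedUnder (· ≤ ·) atTop a := ⟨A, by simpa using hub⟩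
  have hbl : IsBoundedUnder (· ≥ ·) atTop a := ⟨A', by simpa using hlb⟩
  refine ⟨limsup a atTop, ?_⟩
  rw [tendsto_order]
  constructor
  · intro s hs
    set S := limsup a atTop with hS
    have hε : 0 < (S - s) / 2 := by linarith
    have hfreq : ∃ᶠ ℓ in atTop, S - (S - s) / 2 < a ℓ :=
      frequently_lt_of_lt_limsup hbl.isCoboundedUnder_le (by linarith)
    obtain ⟨ℓ, h1, h2⟩ := (hfreq.and_eventually (hm _ hε)).exists
    filter_upwards [h2] with L hL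
    linarith
  · intro s hs
    exact eventually_lt_of_limsup_lt hs hbu

/-- geometry of the subdivision: `m = ⌊L/(ℓ+b)⌋`, `s = mℓ/L` -/
theorem subdiv_geom {ℓ L b : ℝ} (hℓ : 0 < ℓ) (hb : 0 < b) (hL : ℓ + b ≤ L) :
    (⌊L / (ℓ + b)⌋₊ : ℝ) * ℓ ≤ L ∧
      1 - ((⌊L / (ℓ + b)⌋₊ : ℝ) * ℓ / L) ^ 3 ≤ 3 * b / ℓ + 3 * ℓ / L := by
  have hlb : 0 < ℓ + b := by linarith
  have hLpos : 0 < L := by linarith
  set q := L / (ℓ + b) with hq
  have hqL : L = q * (ℓ + b) := by rw [hq]; field_simp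
  have hq0 : 0 < q := by positivity
  set m := ⌊q⌋₊ with hm
  have hmle : (m : ℝ) ≤ q := Nat.floor_le hq0.le
  have hmlt : q < (m : ℝ) + 1 := Nat.lt_floor_add_one q
  have hm0 : (0 : ℝ) ≤ m := Nat.cast_nonneg m
  have h1 : (m : ℝ) * ℓ ≤ L := by
    rw [hqL]; nlinarith
  refine ⟨h1, ?_⟩
  set s := (m : ℝ) * ℓ / L with hs
  have hs0 : 0 ≤ s := by positivity
  have hs1 : s ≤ 1 := by rw [hs, div_le_one hLpos]; exact h1
  have h2 : 1 - s ≤ b / ℓ + ℓ / L := by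
    have e1 : 1 - s = (L * ℓ - m * ℓ ^ 2) / (L * ℓ) := by rw [hs]; field_simp
    have e2 : b / ℓ + ℓ / L = (b * L + ℓ ^ 2) / (L * ℓ) := by field_simp
    rw [e1, e2]
    apply div_le_div_of_nonneg_right _ (by positivity)
    have e3 : L * ℓ - m * ℓ ^ 2 - (b * L + ℓ ^ 2) = (q - (m + 1)) * ℓ ^ 2 - b ^ 2 * q := by
      rw [hqL]; ring
    have h3 : (q - (m + 1)) * ℓ ^ 2 ≤ 0 :=
      mul_nonpos_of_nonpos_of_nonneg (by linarith) (by positivity)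
    have h4 : 0 ≤ b ^ 2 * q := by positivity
    linarith
  have h3 : 1 - s ^ 3 ≤ 3 * (1 - s) := by nlinarith [mul_nonneg hs0 hs0, mul_nonneg hs0 (sub_nonneg.2 hs1)]
  have e4 : 3 * b / ℓ + 3 * ℓ / L = 3 * (b / ℓ + ℓ / L) := by ring
  rw [e4]; linarith

/-- key inequality of C1 -/
theorem ThermoHyp.key {g : ℝ → ℕ → ℝ} {b I B : ℝ} (h : ThermoHyp g b I B) {ρ ℓ L : ℝ}
    (hρ : 0 < ρ) (hℓ : 0 < ℓ) (hL : ℓ + b ≤ L) :
    g ℓ ⌊ρ * ℓ ^ 3⌋₊ / ℓ ^ 3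
      - (3 * b / ℓ + 3 * ℓ / L) *
          ((B * ρ + 1) + (|Real.log (1 / (2 * (8 * ρ)))| + I * (8 * ρ)) * ρ)
      - (|Real.log (1 / (2 * (8 * ρ)))| + I * (8 * ρ)) / ℓ ^ 3 ≤ g L ⌊ρ * L ^ 3⌋₊ / L ^ 3 := by
  have hb := h.b_pos
  have hLpos : 0 < L := by linarith
  have hL3 : 0 < L ^ 3 := by positivity
  have hℓ3 : 0 < ℓ ^ 3 := by positivity
  obtain ⟨hg1, hg2⟩ := subdiv_geom hℓ hb hL
  set K := |Real.log (1 / (2 * (8 * ρ)))| + I * (8 * ρ) with hK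
  have hK0 : 0 ≤ K := by
    have := h.I_nonneg
    positivity
  set m := ⌊L / (ℓ + b)⌋₊ with hm
  set n := ⌊ρ * ℓ ^ 3⌋₊ with hn
  set N := ⌊ρ * L ^ 3⌋₊ with hN
  have hm0 : (0 : ℝ) ≤ m := Nat.cast_nonneg m
  have hnle : (n : ℝ) ≤ ρ * ℓ ^ 3 := Nat.floor_le (by positivity)
  have hnlt : ρ * ℓ ^ 3 < (n : ℝ) + 1 := Nat.lt_floor_add_one _
  have hNle : (N : ℝ) ≤ ρ * L ^ 3 := Nat.floor_le (by positivity)
  have hcube : ((m : ℝ) * ℓ) ^ 3 ≤ L ^ 3 := pow_le_pow_left₀ (by positivity) hg1 3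
  have hMN : m ^ 3 * n ≤ N := by
    apply Nat.le_floor
    push_cast
    calc (m : ℝ) ^ 3 * n ≤ (m : ℝ) ^ 3 * (ρ * ℓ ^ 3) :=
          mul_le_mul_of_nonneg_left hnle (by positivity)
      _ = ρ * ((m : ℝ) * ℓ) ^ 3 := by ring
      _ ≤ ρ * L ^ 3 := mul_le_mul_of_nonneg_left hcube hρ.le
  have h1 := h.descend hℓ hL hρ (m ^ 3 * n) N hMN hNle
  have h2 := h.super ℓ hℓ m (m ^ 3) n 0 le_rfl
  simp only [Nat.sub_self, Nat.cast_pow, sub_self, zero_mul, add_zero] at h2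
  rw [← hK, ← hm] at h1
  set x := g ℓ n with hx
  have hxub : x ≤ (B * ρ + 1) * ℓ ^ 3 := by
    have := h.ub' hℓ n
    have h3 := mul_le_mul_of_nonneg_left hnle h.B_nonneg
    have e : (B * ρ + 1) * ℓ ^ 3 = B * (ρ * ℓ ^ 3) + ℓ ^ 3 := by ring
    linarith
  set y := x / ℓ ^ 3 with hy
  have hxy : x = y * ℓ ^ 3 := by rw [hy]; field_simp
  have hyub : y ≤ B * ρ + 1 := by rw [hy, div_le_iff₀ hℓ3]; exact hxub
  set t := ((m : ℝ) * ℓ / L) ^ 3 with ht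
  have htL : (m : ℝ) ^ 3 * ℓ ^ 3 = t * L ^ 3 := by rw [ht]; field_simp
  have ht1 : t ≤ 1 := by
    have : t * L ^ 3 ≤ 1 * L ^ 3 := by rw [← htL, one_mul, ← mul_pow]; exact hcube
    exact le_of_mul_le_mul_right this hL3
  have hm3 : (m : ℝ) ^ 3 ≤ L ^ 3 / ℓ ^ 3 := by
    rw [le_div_iff₀ hℓ3, ← mul_pow]; exact hcube
  -- number of added particles
  have hD : (N : ℝ) - ((m ^ 3 * n : ℕ) : ℝ) ≤ L ^ 3 * (ρ * (1 - t) + 1 / ℓ ^ 3) := by
    push_cast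
    have h4 : (m : ℝ) ^ 3 * (ρ * ℓ ^ 3 - 1) ≤ (m : ℝ) ^ 3 * n :=
      mul_le_mul_of_nonneg_left (by linarith) (by positivity)
    have e5 : L ^ 3 * (ρ * (1 - t) + 1 / ℓ ^ 3) = ρ * L ^ 3 - ρ * (t * L ^ 3) + L ^ 3 / ℓ ^ 3 := by
      ring
    rw [e5, ← htL]
    have e9 : (m : ℝ) ^ 3 * (ρ * ℓ ^ 3 - 1) = ρ * ((m : ℝ) ^ 3 * ℓ ^ 3) - (m : ℝ) ^ 3 := by ring
    linarith
  have hDK := mul_le_mul_of_nonneg_right hD hK0
  have hA0 : 0 ≤ (B * ρ + 1) + K * ρ := by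
    have := h.B_nonneg
    positivity
  rw [le_div_iff₀ hL3]
  have h5 : (1 - t) * y ≤ (1 - t) * (B * ρ + 1) :=
    mul_le_mul_of_nonneg_left hyub (by linarith)
  have h6 : (1 - t) * ((B * ρ + 1) + K * ρ) ≤ (3 * b / ℓ + 3 * ℓ / L) * ((B * ρ + 1) + K * ρ) :=
    mul_le_mul_of_nonneg_right hg2 hA0
  have h7 : (m : ℝ) ^ 3 * x = t * y * L ^ 3 := by rw [hxy, ← mul_assoc, mul_comm ((m:ℝ)^3) y, mul_assoc, htL]; ring
  have h8 : (y - (3 * b / ℓ + 3 * ℓ / L) * ((B * ρ + 1) + K * ρ) - K / ℓ ^ 3) ≤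
      t * y - (ρ * (1 - t) + 1 / ℓ ^ 3) * K := by
    have e6 : (ρ * (1 - t) + 1 / ℓ ^ 3) * K = (1 - t) * (K * ρ) + K / ℓ ^ 3 := by ring
    rw [e6]
    have e7 : t * y = y - (1 - t) * y := by ring
    have e8 : (1 - t) * ((B * ρ + 1) + K * ρ) = (1 - t) * (B * ρ + 1) + (1 - t) * (K * ρ) := by ring
    linarith
  have h9 := mul_le_mul_of_nonneg_right h8 hL3.le
  have e10 : (t * y - (ρ * (1 - t) + 1 / ℓ ^ 3) * K) * L ^ 3 =
      t * y * L ^ 3 - L ^ 3 * (ρ * (1 - t) + 1 / ℓ ^ 3) * K := by ring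
  linarith

/-- C1 -/
theorem thermo_limit {g : ℝ → ℕ → ℝ} {b I B : ℝ} (h : ThermoHyp g b I B) {ρ : ℝ} (hρ : 0 ≤ ρ) :
    ∃ a : ℝ, Tendsto (fun L : ℝ => g L ⌊ρ * L ^ 3⌋₊ / L ^ 3) atTop (nhds a) := by
  rcases hρ.eq_or_lt with rfl | hρ
  · refine ⟨0, ?_⟩
    simp [h.zero]
  · apply tendsto_of_almost_mono _ (B * ρ + 1) (-(ρ * (|Real.log (1 / (2 * ρ))| + I * ρ)))
    · filter_upwards [eventually_gt_atTop 0] with L hL
      have hL3 : 0 < L ^ 3 := by positivity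
      have hNle : ((⌊ρ * L ^ 3⌋₊ : ℕ) : ℝ) ≤ ρ * L ^ 3 := Nat.floor_le (by positivity)
      rw [div_le_iff₀ hL3]
      have h1 := h.ub' hL ⌊ρ * L ^ 3⌋₊
      have h3 := mul_le_mul_of_nonneg_left hNle h.B_nonneg
      have e : (B * ρ + 1) * L ^ 3 = B * (ρ * L ^ 3) + L ^ 3 := by ring
      linarith
    · filter_upwards [eventually_gt_atTop 0] with L hL
      have hL3 : 0 < L ^ 3 := by positivity
      have hNle : ((⌊ρ * L ^ 3⌋₊ : ℕ) : ℝ) ≤ ρ * L ^ 3 := Nat.floor_le (by positivity)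
      rw [le_div_iff₀ hL3]
      have h1 := h.lb hL hρ ⌊ρ * L ^ 3⌋₊ hNle
      have hK0 : 0 ≤ |Real.log (1 / (2 * ρ))| + I * ρ := by
        have := h.I_nonneg
        positivity
      have h3 := mul_le_mul_of_nonneg_right hNle hK0
      have e : -(ρ * (|Real.log (1 / (2 * ρ))| + I * ρ)) * L ^ 3 =
          -(ρ * L ^ 3 * (|Real.log (1 / (2 * ρ))| + I * ρ)) := by ring
      linarith
    · intro ε hε
      set K := |Real.log (1 / (2 * (8 * ρ)))| + I * (8 * ρ) with hK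
      set C := (B * ρ + 1) + K * ρ with hC
      have T1 : Tendsto (fun ℓ : ℝ => 3 * b / ℓ * C + K / ℓ ^ 3) atTop (nhds (0 * C + 0)) :=
        ((tendsto_const_nhds.div_atTop tendsto_id).mul_const C).add
          (tendsto_const_nhds.div_atTop (tendsto_pow_atTop (by norm_num)))
      have E1 : ∀ᶠ ℓ : ℝ in atTop, 3 * b / ℓ * C + K / ℓ ^ 3 < ε / 2 :=
        T1.eventually_lt_const (by simpa using half_pos hε)
      filter_upwards [E1, eventually_gt_atTop 0] with ℓ h1 hℓ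
      have T2 : Tendsto (fun L : ℝ => 3 * ℓ / L * C) atTop (nhds (0 * C)) :=
        (tendsto_const_nhds.div_atTop tendsto_id).mul_const C
      have E2 : ∀ᶠ L : ℝ in atTop, 3 * ℓ / L * C < ε / 2 :=
        T2.eventually_lt_const (by simpa using half_pos hε)
      filter_upwards [E2, eventually_ge_atTop (ℓ + b)] with L h2 hL
      have hk := h.key hρ hℓ hL
      rw [← hK, ← hC] at hk
      have e : (3 * b / ℓ + 3 * ℓ / L) * C = 3 * b / ℓ * C + 3 * ℓ / L * C := by ring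
      linarith

/-- bounds on the limit -/
theorem thermo_bounds {g : ℝ → ℕ → ℝ} {b I B : ℝ} (h : ThermoHyp g b I B) (a : ℝ → ℝ)
    (ha : ∀ ρ, 0 ≤ ρ → Tendsto (fun L : ℝ => g L ⌊ρ * L ^ 3⌋₊ / L ^ 3) atTop (nhds (a ρ))) :
    a 0 = 0 ∧ ∀ ρ, 0 < ρ → a ρ ≤ B * ρ + ρ * Real.log (Real.exp 1 / ρ) := by
  constructor
  · have h0 := ha 0 le_rfl
    have h1 : Tendsto (fun L : ℝ => g L ⌊(0 : ℝ) * L ^ 3⌋₊ / L ^ 3) atTop (nhds 0) := by
      simp [h.zero]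
    exact tendsto_nhds_unique h0 h1
  · intro ρ hρ
    have hx : Tendsto (fun L : ℝ => ((⌊ρ * L ^ 3⌋₊ : ℕ) : ℝ) / L ^ 3) atTop (nhds ρ) :=
      (tendsto_nat_floor_mul_div_atTop hρ.le).comp (tendsto_pow_atTop (by norm_num))
    have hcont : ContinuousAt (fun x : ℝ => B * x + x * Real.log (Real.exp 1 / x)) ρ := by
      have h1 : ContinuousAt (fun x : ℝ => Real.exp 1 / x) ρ :=
        continuousAt_const.div continuousAt_id hρ.ne'
      have h2 : ContinuousAt (fun x : ℝ => Real.log (Real.exp 1 / x)) ρ :=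
        h1.log (by positivity)
      exact (continuousAt_const.mul continuousAt_id).add (continuousAt_id.mul h2)
    have hu := hcont.tendsto.comp hx
    refine le_of_tendsto_of_tendsto (ha ρ hρ.le) hu ?_
    filter_upwards [eventually_gt_atTop 0] with L hL
    have hL3 : 0 < L ^ 3 := by positivity
    have h1 := h.ub L hL ⌊ρ * L ^ 3⌋₊
    simp only [Function.comp]
    rw [div_le_iff₀ hL3]
    have e : Real.exp 1 / (((⌊ρ * L ^ 3⌋₊ : ℕ) : ℝ) / L ^ 3) = Real.exp 1 * L ^ 3 / ((⌊ρ * L ^ 3⌋₊ : ℕ) : ℝ) := by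
      rw [div_div_eq_mul_div]
    rw [e]
    have e2 : (B * (((⌊ρ * L ^ 3⌋₊ : ℕ) : ℝ) / L ^ 3) + ((⌊ρ * L ^ 3⌋₊ : ℕ) : ℝ) / L ^ 3 *
        Real.log (Real.exp 1 * L ^ 3 / ((⌊ρ * L ^ 3⌋₊ : ℕ) : ℝ))) * L ^ 3 =
        B * ((⌊ρ * L ^ 3⌋₊ : ℕ) : ℝ) + ((⌊ρ * L ^ 3⌋₊ : ℕ) : ℝ) *
        Real.log (Real.exp 1 * L ^ 3 / ((⌊ρ * L ^ 3⌋₊ : ℕ) : ℝ)) := by
      field_simp
    rw [e2]
    exact h1

end Crest.Agent.PT
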