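import Crest.Agent.PT_Thermo

/-! Row 149, task C2: concavity of the abstract thermodynamic limit (blueprint §C). -/

set_option autoImplicit false

namespace Crest.Agent.PT

open Filter

/-- iterating F3 (`add`): adding `D` particles below density `ρ` costs at most `D * K`. -/
private lemma add_iter {g : ℝ → ℕ → ℝ} {b I B : ℝ} (h : ThermoHyp g b I B) {L ρ : ℝ}
    (hL : 0 < L) (hρ : 0 < ρ) (N' : ℕ) :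
    ∀ D : ℕ, ((N' + D : ℕ) : ℝ) ≤ ρ * L ^ 3 →
      g L N' - D * (|Real.log (2 * ρ)| + I * ρ) ≤ g L (N' + D) := by
  intro D
  induction D with
  | zero => intro _; simp
  | succ D ih =>
    intro hD
    have hD' : ((N' + D : ℕ) : ℝ) ≤ ρ * L ^ 3 := by
      push_cast at hD ⊢; linarith
    have h1 := ih hD'
    have h2 := h.add L hL (N' + D)
    have hL3 : 0 < L ^ 3 := by positivity
    have h3 : - |Real.log (2 * ρ)| ≤ Real.log (L ^ 3 / (2 * (((N' + D : ℕ) : ℝ) + 1))) := by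
      have h31 : 1 / (2 * ρ) ≤ L ^ 3 / (2 * (((N' + D : ℕ) : ℝ) + 1)) := by
        rw [div_le_div_iff₀ (by positivity) (by positivity)]
        push_cast at hD ⊢
        nlinarith
      have h4 := Real.log_le_log (by positivity) h31
      rw [one_div, Real.log_inv] at h4
      have h5 := le_abs_self (Real.log (2 * ρ))
      linarith
    have h5 : I * ((N' + D : ℕ) : ℝ) / L ^ 3 ≤ I * ρ := by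
      rw [div_le_iff₀ hL3]
      have := mul_le_mul_of_nonneg_left hD' h.I_nonneg
      linarith
    have h6 : g L (N' + D + 1) = g L (N' + (D + 1)) := rfl
    rw [← h6]
    push_cast
    linarith

/-- finite-`m` inequality behind concavity. -/
private lemma conc_fin {g : ℝ → ℕ → ℝ} {b I B : ℝ} (h : ThermoHyp g b I B)
    {s t ρ₁ ρ₂ ℓ : ℝ} (hs : 0 ≤ s) (ht : 0 ≤ t) (hst : s + t = 1) (h1 : 0 ≤ ρ₁) (h2 : 0 ≤ ρ₂)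
    (hρ : 0 < s * ρ₁ + t * ρ₂) (hℓ : 0 < ℓ) (m : ℕ) (hm0 : 0 < m)
    (hm : ρ₂ * ℓ ^ 3 ≤ (s * ρ₁ + t * ρ₂) * (m : ℝ) ^ 3 * ((ℓ + b) ^ 3 - ℓ ^ 3)) :
    (m : ℝ) ^ 3 * (s * g ℓ ⌊ρ₁ * ℓ ^ 3⌋₊ + t * g ℓ ⌊ρ₂ * ℓ ^ 3⌋₊
        - (|Real.log (2 * (s * ρ₁ + t * ρ₂))| + I * (s * ρ₁ + t * ρ₂))
          * ((s * ρ₁ + t * ρ₂) * ((ℓ + b) ^ 3 - ℓ ^ 3) + 1))
      - (|g ℓ ⌊ρ₁ * ℓ ^ 3⌋₊| + |g ℓ ⌊ρ₂ * ℓ ^ 3⌋₊|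
        + (|Real.log (2 * (s * ρ₁ + t * ρ₂))| + I * (s * ρ₁ + t * ρ₂)) * (ρ₁ * ℓ ^ 3 + 1))
      ≤ g ((m : ℝ) * (ℓ + b)) ⌊(s * ρ₁ + t * ρ₂) * ((m : ℝ) * (ℓ + b)) ^ 3⌋₊ := by
  set ρ := s * ρ₁ + t * ρ₂ with hρdef
  set K := |Real.log (2 * ρ)| + I * ρ with hK
  set n₁ := ⌊ρ₁ * ℓ ^ 3⌋₊ with hn₁
  set n₂ := ⌊ρ₂ * ℓ ^ 3⌋₊ with hn₂
  set j := ⌊s * (m : ℝ) ^ 3⌋₊ with hj
  have hb := h.b_pos
  have hK0 : 0 ≤ K := by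
    have := abs_nonneg (Real.log (2 * ρ))
    have := mul_nonneg h.I_nonneg hρ.le
    simp only [hK]; linarith
  have hℓ3 : 0 < ℓ ^ 3 := by positivity
  have hm3 : (0 : ℝ) ≤ (m : ℝ) ^ 3 := by positivity
  -- floors
  have hj_le : (j : ℝ) ≤ s * (m : ℝ) ^ 3 := Nat.floor_le (by positivity)
  have hj_gt : s * (m : ℝ) ^ 3 < j + 1 := Nat.lt_floor_add_one _
  have hn1_le : (n₁ : ℝ) ≤ ρ₁ * ℓ ^ 3 := Nat.floor_le (by positivity)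
  have hn1_gt : ρ₁ * ℓ ^ 3 < n₁ + 1 := Nat.lt_floor_add_one _
  have hn2_le : (n₂ : ℝ) ≤ ρ₂ * ℓ ^ 3 := Nat.floor_le (by positivity)
  have hn2_gt : ρ₂ * ℓ ^ 3 < n₂ + 1 := Nat.lt_floor_add_one _
  have hs1 : s ≤ 1 := by linarith
  have hjm : j ≤ m ^ 3 := by
    have : (j : ℝ) ≤ ((m ^ 3 : ℕ) : ℝ) := by
      push_cast
      nlinarith
    exact_mod_cast this
  have hstm : s * (m : ℝ) ^ 3 + t * (m : ℝ) ^ 3 = (m : ℝ) ^ 3 := by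
    rw [← add_mul, hst, one_mul]
  have htm : 0 ≤ t * (m : ℝ) ^ 3 := by positivity
  have hsup := h.super ℓ hℓ m j n₁ n₂ hjm
  set N' := j * n₁ + (m ^ 3 - j) * n₂ with hN'
  have hN'cast : (N' : ℝ) = (j : ℝ) * n₁ + ((m : ℝ) ^ 3 - j) * n₂ := by
    simp only [hN']; push_cast [Nat.cast_sub hjm]; ring
  have hm0' : (0 : ℝ) < m := by exact_mod_cast hm0
  set L := (m : ℝ) * (ℓ + b) with hL
  have hLpos : 0 < L := by positivity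
  have hL3 : L ^ 3 = (m : ℝ) ^ 3 * (ℓ + b) ^ 3 := by simp only [hL]; ring
  have hN'up : (N' : ℝ) ≤ ρ * L ^ 3 := by
    rw [hN'cast, hL3]
    have e1 : (j : ℝ) * n₁ ≤ s * (m : ℝ) ^ 3 * (ρ₁ * ℓ ^ 3) :=
      mul_le_mul hj_le hn1_le (by positivity) (by positivity)
    have e2 : ((m : ℝ) ^ 3 - j) * n₂ ≤ (t * (m : ℝ) ^ 3 + 1) * (ρ₂ * ℓ ^ 3) :=
      mul_le_mul (by linarith) hn2_le (by positivity) (by positivity)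
    have e3 : s * (m : ℝ) ^ 3 * (ρ₁ * ℓ ^ 3) + (t * (m : ℝ) ^ 3 + 1) * (ρ₂ * ℓ ^ 3)
        = ρ * (m : ℝ) ^ 3 * ℓ ^ 3 + ρ₂ * ℓ ^ 3 := by simp only [hρdef]; ring
    have e4 : ρ * ((m : ℝ) ^ 3 * (ℓ + b) ^ 3)
        = ρ * (m : ℝ) ^ 3 * ℓ ^ 3 + ρ * (m : ℝ) ^ 3 * ((ℓ + b) ^ 3 - ℓ ^ 3) := by ring
    linarith
  have hN'lo : ρ * (m : ℝ) ^ 3 * ℓ ^ 3 - ρ₁ * ℓ ^ 3 - (m : ℝ) ^ 3 - 1 ≤ (N' : ℝ) := by
    rw [hN'cast]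
    have e1 : (s * (m : ℝ) ^ 3 - 1) * (ρ₁ * ℓ ^ 3) - s * (m : ℝ) ^ 3 ≤ (j : ℝ) * n₁ := by
      have a1 : (j : ℝ) * (ρ₁ * ℓ ^ 3 - 1) ≤ (j : ℝ) * n₁ :=
        mul_le_mul_of_nonneg_left (by linarith) (by positivity)
      have a2 : (s * (m : ℝ) ^ 3 - 1) * (ρ₁ * ℓ ^ 3) ≤ (j : ℝ) * (ρ₁ * ℓ ^ 3) :=
        mul_le_mul_of_nonneg_right (by linarith) (by positivity)
      linarith
    have e2 : (t * (m : ℝ) ^ 3) * (ρ₂ * ℓ ^ 3) - (t * (m : ℝ) ^ 3 + 1)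
        ≤ ((m : ℝ) ^ 3 - j) * n₂ := by
      have a1 : ((m : ℝ) ^ 3 - j) * (ρ₂ * ℓ ^ 3 - 1) ≤ ((m : ℝ) ^ 3 - j) * n₂ :=
        mul_le_mul_of_nonneg_left (by linarith) (by linarith)
      have a2 : (t * (m : ℝ) ^ 3) * (ρ₂ * ℓ ^ 3) ≤ ((m : ℝ) ^ 3 - j) * (ρ₂ * ℓ ^ 3) :=
        mul_le_mul_of_nonneg_right (by linarith) (by positivity)
      linarith
    have e3 : (s * (m : ℝ) ^ 3 - 1) * (ρ₁ * ℓ ^ 3) + (t * (m : ℝ) ^ 3) * (ρ₂ * ℓ ^ 3)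
        = ρ * (m : ℝ) ^ 3 * ℓ ^ 3 - ρ₁ * ℓ ^ 3 := by simp only [hρdef]; ring
    linarith
  set N := ⌊ρ * L ^ 3⌋₊ with hN
  have hNle : (N : ℝ) ≤ ρ * L ^ 3 := Nat.floor_le (by positivity)
  have hN'N : N' ≤ N := Nat.le_floor hN'up
  obtain ⟨D, hD⟩ := Nat.exists_eq_add_of_le hN'N
  have hit := add_iter h hLpos hρ N' D (by rw [← hD]; exact hNle)
  rw [← hD] at hit
  have hDcast : (D : ℝ) = (N : ℝ) - N' := by rw [hD]; push_cast; ring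
  have hDup : (D : ℝ) ≤ (m : ℝ) ^ 3 * (ρ * ((ℓ + b) ^ 3 - ℓ ^ 3) + 1) + (ρ₁ * ℓ ^ 3 + 1) := by
    rw [hDcast]
    rw [hL3] at hNle
    have e4 : ρ * ((m : ℝ) ^ 3 * (ℓ + b) ^ 3)
        = ρ * (m : ℝ) ^ 3 * ℓ ^ 3 + (m : ℝ) ^ 3 * (ρ * ((ℓ + b) ^ 3 - ℓ ^ 3)) := by ring
    linarith
  have hDK : (D : ℝ) * K
      ≤ ((m : ℝ) ^ 3 * (ρ * ((ℓ + b) ^ 3 - ℓ ^ 3) + 1) + (ρ₁ * ℓ ^ 3 + 1)) * K :=
    mul_le_mul_of_nonneg_right hDup hK0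
  have hg1 : s * (m : ℝ) ^ 3 * g ℓ n₁ - |g ℓ n₁| ≤ (j : ℝ) * g ℓ n₁ := by
    have hx0 : 0 ≤ s * (m : ℝ) ^ 3 - j := by linarith
    have hx1 : s * (m : ℝ) ^ 3 - j ≤ 1 := by linarith
    have a1 : (s * (m : ℝ) ^ 3 - j) * g ℓ n₁ ≤ (s * (m : ℝ) ^ 3 - j) * |g ℓ n₁| :=
      mul_le_mul_of_nonneg_left (le_abs_self _) hx0
    have a2 : (s * (m : ℝ) ^ 3 - j) * |g ℓ n₁| ≤ 1 * |g ℓ n₁| :=
      mul_le_mul_of_nonneg_right hx1 (abs_nonneg _)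
    linarith
  have hg2 : t * (m : ℝ) ^ 3 * g ℓ n₂ - |g ℓ n₂| ≤ ((m : ℝ) ^ 3 - j) * g ℓ n₂ := by
    have hx0 : 0 ≤ s * (m : ℝ) ^ 3 - j := by linarith
    have hx1 : s * (m : ℝ) ^ 3 - j ≤ 1 := by linarith
    have a1 : (s * (m : ℝ) ^ 3 - j) * (-g ℓ n₂) ≤ (s * (m : ℝ) ^ 3 - j) * |g ℓ n₂| :=
      mul_le_mul_of_nonneg_left (neg_le_abs _) hx0
    have a2 : (s * (m : ℝ) ^ 3 - j) * |g ℓ n₂| ≤ 1 * |g ℓ n₂| :=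
      mul_le_mul_of_nonneg_right hx1 (abs_nonneg _)
    have a3 : ((m : ℝ) ^ 3 - j) * g ℓ n₂
        = t * (m : ℝ) ^ 3 * g ℓ n₂ - (s * (m : ℝ) ^ 3 - j) * (-g ℓ n₂) := by
      linear_combination (-(g ℓ n₂)) * hstm
    linarith
  have hfin : (m : ℝ) ^ 3 * (s * g ℓ n₁ + t * g ℓ n₂ - K * (ρ * ((ℓ + b) ^ 3 - ℓ ^ 3) + 1))
      - (|g ℓ n₁| + |g ℓ n₂| + K * (ρ₁ * ℓ ^ 3 + 1))
      = (s * (m : ℝ) ^ 3 * g ℓ n₁ - |g ℓ n₁|) + (t * (m : ℝ) ^ 3 * g ℓ n₂ - |g ℓ n₂|)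
        - ((m : ℝ) ^ 3 * (ρ * ((ℓ + b) ^ 3 - ℓ ^ 3) + 1) + (ρ₁ * ℓ ^ 3 + 1)) * K := by ring
  rw [hfin]
  linarith

/-- letting `m → ∞` in `conc_fin`. -/
private lemma conc_ell {g : ℝ → ℕ → ℝ} {b I B : ℝ} (h : ThermoHyp g b I B) (a : ℝ → ℝ)
    (ha : ∀ ρ, 0 ≤ ρ → Tendsto (fun L : ℝ => g L ⌊ρ * L ^ 3⌋₊ / L ^ 3) atTop (nhds (a ρ)))
    {s t ρ₁ ρ₂ ℓ : ℝ} (hs : 0 ≤ s) (ht : 0 ≤ t) (hst : s + t = 1) (h1 : 0 ≤ ρ₁) (h2 : 0 ≤ ρ₂)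
    (hρ : 0 < s * ρ₁ + t * ρ₂) (hℓ : 0 < ℓ) :
    (s * g ℓ ⌊ρ₁ * ℓ ^ 3⌋₊ + t * g ℓ ⌊ρ₂ * ℓ ^ 3⌋₊
        - (|Real.log (2 * (s * ρ₁ + t * ρ₂))| + I * (s * ρ₁ + t * ρ₂))
          * ((s * ρ₁ + t * ρ₂) * ((ℓ + b) ^ 3 - ℓ ^ 3) + 1)) / (ℓ + b) ^ 3
      ≤ a (s * ρ₁ + t * ρ₂) := by
  have hb := h.b_pos
  have hfin := fun m hm0 hm => conc_fin h hs ht hst h1 h2 hρ hℓ m hm0 hm
  set A := s * g ℓ ⌊ρ₁ * ℓ ^ 3⌋₊ + t * g ℓ ⌊ρ₂ * ℓ ^ 3⌋₊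
        - (|Real.log (2 * (s * ρ₁ + t * ρ₂))| + I * (s * ρ₁ + t * ρ₂))
          * ((s * ρ₁ + t * ρ₂) * ((ℓ + b) ^ 3 - ℓ ^ 3) + 1) with hA
  set C := |g ℓ ⌊ρ₁ * ℓ ^ 3⌋₊| + |g ℓ ⌊ρ₂ * ℓ ^ 3⌋₊|
        + (|Real.log (2 * (s * ρ₁ + t * ρ₂))| + I * (s * ρ₁ + t * ρ₂)) * (ρ₁ * ℓ ^ 3 + 1) with hC
  have hlb : 0 < (ℓ + b) ^ 3 := by positivity
  have hc : 0 < (ℓ + b) ^ 3 - ℓ ^ 3 := by
    have : ℓ ^ 3 < (ℓ + b) ^ 3 := pow_lt_pow_left₀ (by linarith) hℓ.le (by norm_num)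
    linarith
  have hseq : Tendsto (fun m : ℕ => (m : ℝ) * (ℓ + b)) atTop atTop :=
    tendsto_natCast_atTop_atTop.atTop_mul_const (by positivity)
  have hlim := (ha _ hρ.le).comp hseq
  have hcube : Tendsto (fun m : ℕ => (m : ℝ) ^ 3) atTop atTop :=
    (tendsto_pow_atTop (by norm_num)).comp tendsto_natCast_atTop_atTop
  have hrhs : Tendsto (fun m : ℕ => A / (ℓ + b) ^ 3 - C / (ℓ + b) ^ 3 / (m : ℝ) ^ 3) atTop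
      (nhds (A / (ℓ + b) ^ 3 - 0)) := by
    apply Tendsto.sub tendsto_const_nhds
    exact Tendsto.div_atTop tendsto_const_nhds hcube
  rw [sub_zero] at hrhs
  refine le_of_tendsto_of_tendsto hrhs hlim ?_
  have hev : ∀ᶠ m : ℕ in atTop,
      ρ₂ * ℓ ^ 3 ≤ (s * ρ₁ + t * ρ₂) * (m : ℝ) ^ 3 * ((ℓ + b) ^ 3 - ℓ ^ 3) := by
    have : Tendsto (fun m : ℕ => (s * ρ₁ + t * ρ₂) * (m : ℝ) ^ 3 * ((ℓ + b) ^ 3 - ℓ ^ 3))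
        atTop atTop := (hcube.const_mul_atTop hρ).atTop_mul_const hc
    exact this.eventually_ge_atTop _
  filter_upwards [hev, eventually_gt_atTop 0] with m hm hm0
  have hm0' : (0 : ℝ) < m := by exact_mod_cast hm0
  have h3 := hfin m hm0 hm
  simp only [Function.comp]
  rw [le_div_iff₀ (by positivity)]
  have h4 : (A / (ℓ + b) ^ 3 - C / (ℓ + b) ^ 3 / (m : ℝ) ^ 3) * ((m : ℝ) * (ℓ + b)) ^ 3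
      = (m : ℝ) ^ 3 * A - C := by
    field_simp
  rw [h4]
  exact h3

/-- letting `ℓ → ∞` in `conc_ell`. -/
private lemma conc_main {g : ℝ → ℕ → ℝ} {b I B : ℝ} (h : ThermoHyp g b I B) (a : ℝ → ℝ)
    (ha : ∀ ρ, 0 ≤ ρ → Tendsto (fun L : ℝ => g L ⌊ρ * L ^ 3⌋₊ / L ^ 3) atTop (nhds (a ρ)))
    {s t ρ₁ ρ₂ : ℝ} (hs : 0 ≤ s) (ht : 0 ≤ t) (hst : s + t = 1) (h1 : 0 ≤ ρ₁) (h2 : 0 ≤ ρ₂)
    (hρ : 0 < s * ρ₁ + t * ρ₂) :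
    s * a ρ₁ + t * a ρ₂ ≤ a (s * ρ₁ + t * ρ₂) := by
  have hb := h.b_pos
  have hell := fun ℓ hℓ => conc_ell h a ha hs ht hst h1 h2 hρ (ℓ := ℓ) hℓ
  set ρ := s * ρ₁ + t * ρ₂ with hρdef
  set K := |Real.log (2 * ρ)| + I * ρ with hK
  have hinv : Tendsto (fun ℓ : ℝ => b / (ℓ + b)) atTop (nhds 0) :=
    tendsto_const_nhds.div_atTop (tendsto_atTop_add_const_right _ _ tendsto_id)
  have hr1 : Tendsto (fun ℓ : ℝ => (1 - b / (ℓ + b)) ^ 3) atTop (nhds ((1 - 0) ^ 3)) :=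
    (tendsto_const_nhds.sub hinv).pow 3
  have hinv3 : Tendsto (fun ℓ : ℝ => 1 / (ℓ + b) ^ 3) atTop (nhds 0) :=
    tendsto_const_nhds.div_atTop ((tendsto_pow_atTop (by norm_num)).comp
      (tendsto_atTop_add_const_right _ _ tendsto_id))
  have hF : Tendsto (fun ℓ : ℝ =>
      (s * (g ℓ ⌊ρ₁ * ℓ ^ 3⌋₊ / ℓ ^ 3) + t * (g ℓ ⌊ρ₂ * ℓ ^ 3⌋₊ / ℓ ^ 3)) * (1 - b / (ℓ + b)) ^ 3
        - K * (ρ * (1 - (1 - b / (ℓ + b)) ^ 3) + 1 / (ℓ + b) ^ 3)) atTop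
      (nhds ((s * a ρ₁ + t * a ρ₂) * (1 - 0) ^ 3 - K * (ρ * (1 - (1 - 0) ^ 3) + 0))) :=
    ((((ha ρ₁ h1).const_mul s).add ((ha ρ₂ h2).const_mul t)).mul hr1).sub
      ((((tendsto_const_nhds.sub hr1).const_mul ρ).add hinv3).const_mul K)
  have hlim : (s * a ρ₁ + t * a ρ₂) * (1 - 0) ^ 3 - K * (ρ * (1 - (1 - 0) ^ 3) + 0)
      = s * a ρ₁ + t * a ρ₂ := by ring
  rw [hlim] at hF
  refine le_of_tendsto hF ?_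
  filter_upwards [eventually_gt_atTop 0] with ℓ hℓ
  have h3 := hell ℓ hℓ
  have hlb : ℓ + b ≠ 0 := by positivity
  have hl0 : ℓ ≠ 0 := hℓ.ne'
  have h4 : (s * (g ℓ ⌊ρ₁ * ℓ ^ 3⌋₊ / ℓ ^ 3) + t * (g ℓ ⌊ρ₂ * ℓ ^ 3⌋₊ / ℓ ^ 3))
        * (1 - b / (ℓ + b)) ^ 3
        - K * (ρ * (1 - (1 - b / (ℓ + b)) ^ 3) + 1 / (ℓ + b) ^ 3)
      = (s * g ℓ ⌊ρ₁ * ℓ ^ 3⌋₊ + t * g ℓ ⌊ρ₂ * ℓ ^ 3⌋₊
        - K * (ρ * ((ℓ + b) ^ 3 - ℓ ^ 3) + 1)) / (ℓ + b) ^ 3 := by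
    have h5 : 1 - b / (ℓ + b) = ℓ / (ℓ + b) := by field_simp; ring
    rw [h5]
    field_simp
  rw [h4]
  exact h3

/-- C2: the limit is concave in the density. -/
theorem thermo_concave {g : ℝ → ℕ → ℝ} {b I B : ℝ} (h : ThermoHyp g b I B) (a : ℝ → ℝ)
    (ha : ∀ ρ, 0 ≤ ρ → Tendsto (fun L : ℝ => g L ⌊ρ * L ^ 3⌋₊ / L ^ 3) atTop (nhds (a ρ))) :
    ConcaveOn ℝ (Set.Ici 0) a := by
  refine ⟨convex_Ici 0, ?_⟩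
  intro ρ₁ h1 ρ₂ h2 s t hs ht hst
  simp only [Set.mem_Ici] at h1 h2
  simp only [smul_eq_mul]
  have hρ0 : 0 ≤ s * ρ₁ + t * ρ₂ := by positivity
  rcases hρ0.lt_or_eq with hρ | hρ
  · exact conc_main h a ha hs ht hst h1 h2 hρ
  · -- degenerate case: `s ρ₁ = t ρ₂ = 0`
    have e1 : s * ρ₁ = 0 := by
      have := mul_nonneg hs h1
      have := mul_nonneg ht h2
      linarith
    have e2 : t * ρ₂ = 0 := by linarith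
    rw [← hρ]
    have f1 : s * a ρ₁ = s * a 0 := by
      rcases mul_eq_zero.mp e1 with h0 | h0
      · rw [h0]; simp
      · rw [h0]
    have f2 : t * a ρ₂ = t * a 0 := by
      rcases mul_eq_zero.mp e2 with h0 | h0
      · rw [h0]; simp
      · rw [h0]
    rw [f1, f2, ← add_mul, hst, one_mul]

end Crest.Agent.PT
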