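/-
Row 205 (S0316) team project (architect helper96).  Shared definitions.  FROZEN: do not edit (ask helper96).

Paper proof: see `notes/q3_plan_S0316.md` on origin/main, or `select progress from results where row=205`.

* `M j k z = 2 Im (conj z_j * z_k)`  : moment map of SO(5) on ℂ⁵.
* `F = M01 (1 - M03) + M12 M23`      : the Hamiltonian (3 critical points on the quadric surface `z 4 = 0`).
* `X`                                : its Hamiltonian vector field, `X z = ξ(z) z` with `ξ(z)` real antisymmetric.
* `A = ℝ →ᵇ ℂ`, `B = Fin 5 → A`      : Banach (star) algebra of curves; `N` = the same polynomial as `X` on `B`.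
* `J`, `JB`                          : Volterra operator `(J f) s = ∫_0^{clamp s} f`.
* `K ((l,x),γ) = const x + l • JB (N γ)` : Picard operator with the TIME AS A PARAMETER.
* `sol p`                            : its fixed point in the ball of radius 2,  `Φ p = (sol p)(1)` the flow.
* `Psi (t,z) = rot t (Φ (κ sin t, cmap z))`, `Ham (t,x) = π (M01 + M23) x + κ cos t * F (rot (-t) x)`.
-/
import Mathlib
import Crest.Prelude.Def_QuadricHamiltonian

set_option autoImplicit false
open Crest.GeometryTopology.Quadric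
open scoped BoundedContinuousFunction

namespace Crest.Agent.Q3

/-- complex 5-space (sup norm) -/
abbrev E := Fin 5 → ℂ

/-- moment map components `M j k z = 2 Im (conj z_j * z_k)` -/
def M (j k : Fin 5) (z : E) : ℝ := 2 * (starRingEnd ℂ (z j) * z k).im

/-- the Hamiltonian -/
def F (z : E) : ℝ := M 0 1 z * (1 - M 0 3 z) + M 1 2 z * M 2 3 z

/-- the Hamiltonian vector field of `F` -/
def X (z : E) : E :=
  ![-(1 - (M 0 3 z : ℂ)) * z 1 + (M 0 1 z : ℂ) * z 3,
    (1 - (M 0 3 z : ℂ)) * z 0 - (M 2 3 z : ℂ) * z 2,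
    (M 2 3 z : ℂ) * z 1 - (M 1 2 z : ℂ) * z 3,
    -(M 0 1 z : ℂ) * z 0 + (M 1 2 z : ℂ) * z 2,
    0]

/-- bounded continuous curves -/
abbrev A := ℝ →ᵇ ℂ
/-- curves in `E`, coordinatewise -/
abbrev B := Fin 5 → A

/-- `M j k` on curves (as a complex valued function) -/
noncomputable def MA (j k : Fin 5) (γ : B) : A :=
  (-Complex.I) • (star (γ j) * γ k - γ j * star (γ k))

/-- the Nemytskii operator of `X` -/
noncomputable def N (γ : B) : B :=
  ![-(1 - MA 0 3 γ) * γ 1 + MA 0 1 γ * γ 3,
    (1 - MA 0 3 γ) * γ 0 - MA 2 3 γ * γ 2,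
    MA 2 3 γ * γ 1 - MA 1 2 γ * γ 3,
    -(MA 0 1 γ) * γ 0 + MA 1 2 γ * γ 2,
    0]

/-- projection of `ℝ` onto `[0,1]` -/
noncomputable def clamp (s : ℝ) : ℝ := max 0 (min s 1)

/-- constants: bound and Lipschitz constant of `X` on the ball of radius 2 -/
def CX : ℝ := 100
/-- time range of the flow -/
noncomputable def δ : ℝ := 1 / 400
/-- time scale of the perturbation -/
noncomputable def κ : ℝ := 1 / 1000

/-- rotation by the angle `π t` in the planes (0,1) and (2,3) -/
noncomputable def rot (t : ℝ) (z : E) : E :=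
  ![(Real.cos (Real.pi * t) : ℂ) * z 0 - (Real.sin (Real.pi * t) : ℂ) * z 1,
    (Real.sin (Real.pi * t) : ℂ) * z 0 + (Real.cos (Real.pi * t) : ℂ) * z 1,
    (Real.cos (Real.pi * t) : ℂ) * z 2 - (Real.sin (Real.pi * t) : ℂ) * z 3,
    (Real.sin (Real.pi * t) : ℂ) * z 2 + (Real.cos (Real.pi * t) : ℂ) * z 3,
    z 4]

/-- squared Euclidean norm -/
def nsq (z : E) : ℝ := ∑ j, Complex.normSq (z j)

/-- smooth bounded map which is the identity on the unit sphere -/
noncomputable def cmap (z : E) : E := (((2 / (1 + nsq z) : ℝ)) : ℂ) • z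

theorem clamp_nonneg (s : ℝ) : 0 ≤ clamp s := le_max_left _ _
theorem clamp_le_one (s : ℝ) : clamp s ≤ 1 := max_le zero_le_one (min_le_right _ _)
theorem clamp_of_mem {s : ℝ} (h0 : 0 ≤ s) (h1 : s ≤ 1) : clamp s = s := by
  unfold clamp; rw [min_eq_left h1, max_eq_right h0]
theorem continuous_clamp : Continuous clamp := by unfold clamp; fun_prop

theorem intervalIntegrable_A (f : A) (a b : ℝ) : IntervalIntegrable (fun r => f r) MeasureTheory.volume a b :=
  f.continuous.intervalIntegrable a b

theorem continuous_Jfun (f : A) : Continuous (fun s : ℝ => ∫ r in (0:ℝ)..clamp s, f r) := by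
  have h : Continuous (fun u : ℝ => ∫ r in (0:ℝ)..u, f r) :=
    intervalIntegral.continuous_primitive (fun a b => intervalIntegrable_A f a b) 0
  exact h.comp continuous_clamp

theorem norm_Jfun_le (f : A) (s : ℝ) : ‖∫ r in (0:ℝ)..clamp s, f r‖ ≤ ‖f‖ := by
  have h := intervalIntegral.norm_integral_le_of_norm_le_const (a := 0) (b := clamp s) (f := fun r => f r)
    (C := ‖f‖) (fun r _ => f.norm_coe_le_norm r)
  have h2 : |clamp s - 0| ≤ 1 := by
    rw [sub_zero, abs_of_nonneg (clamp_nonneg s)]; exact clamp_le_one s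
  calc _ ≤ ‖f‖ * |clamp s - 0| := h
    _ ≤ ‖f‖ * 1 := by gcongr
    _ = ‖f‖ := mul_one _

/-- Volterra operator `(J f) s = ∫_0^{clamp s} f` -/
noncomputable def J : A →L[ℝ] A :=
  LinearMap.mkContinuous
    { toFun := fun f => BoundedContinuousFunction.ofNormedAddCommGroup
        (fun s : ℝ => ∫ r in (0:ℝ)..clamp s, f r) (continuous_Jfun f) ‖f‖ (norm_Jfun_le f)
      map_add' := by
        intro f g
        ext s
        simp only [BoundedContinuousFunction.coe_ofNormedAddCommGroup, BoundedContinuousFunction.coe_add,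
          Pi.add_apply]
        exact intervalIntegral.integral_add (intervalIntegrable_A f _ _) (intervalIntegrable_A g _ _)
      map_smul' := by
        intro c f
        ext s
        simp only [BoundedContinuousFunction.coe_ofNormedAddCommGroup, BoundedContinuousFunction.coe_smul,
          RingHom.id_apply]
        exact intervalIntegral.integral_smul c _ }
    1 (by
      intro f
      rw [one_mul]
      exact (BoundedContinuousFunction.norm_le (norm_nonneg _)).2 (fun s => norm_Jfun_le f s))

theorem J_apply (f : A) (s : ℝ) : J f s = ∫ r in (0:ℝ)..clamp s, f r := rfl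

theorem norm_J_le (f : A) : ‖J f‖ ≤ ‖f‖ :=
  (BoundedContinuousFunction.norm_le (norm_nonneg _)).2 (fun s => norm_Jfun_le f s)

/-- Volterra operator, coordinatewise -/
noncomputable def JB : B →L[ℝ] B :=
  ContinuousLinearMap.pi (fun j => J ∘L ContinuousLinearMap.proj j)

theorem JB_apply (γ : B) (j : Fin 5) (s : ℝ) : JB γ j s = ∫ r in (0:ℝ)..clamp s, γ j r := rfl

theorem norm_JB_le (γ : B) : ‖JB γ‖ ≤ ‖γ‖ := by
  rw [pi_norm_le_iff_of_nonneg (norm_nonneg _)]
  intro j
  exact (norm_J_le (γ j)).trans (norm_le_pi_norm γ j)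

/-- constant functions -/
noncomputable def constA : ℂ →L[ℝ] A :=
  LinearMap.mkContinuous
    { toFun := fun c => BoundedContinuousFunction.const ℝ c
      map_add' := by intro a b; ext s; simp
      map_smul' := by intro c a; ext s; simp }
    1 (by intro c; rw [one_mul]; exact BoundedContinuousFunction.norm_const_le c)

theorem constA_apply (c : ℂ) (s : ℝ) : constA c s = c := rfl

/-- constant curves -/
noncomputable def constB : E →L[ℝ] B :=
  ContinuousLinearMap.pi (fun j => constA ∘L ContinuousLinearMap.proj j)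

theorem constB_apply (x : E) (j : Fin 5) (s : ℝ) : constB x j s = x j := rfl

theorem norm_constB (x : E) : ‖constB x‖ = ‖x‖ := by
  apply le_antisymm
  · rw [pi_norm_le_iff_of_nonneg (norm_nonneg _)]
    intro j
    exact (BoundedContinuousFunction.norm_const_le (x j)).trans (norm_le_pi_norm x j)
  · rw [pi_norm_le_iff_of_nonneg (norm_nonneg _)]
    intro j
    exact ((constB x j).norm_coe_le_norm 0).trans (norm_le_pi_norm (constB x) j)

/-- Picard operator with the time as a parameter: `K ((l,x),γ) = const x + l • JB (N γ)` -/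
noncomputable def K (q : (ℝ × E) × B) : B := constB q.1.2 + q.1.1 • JB (N q.2)

open Classical in
/-- the fixed point of `K (p, ·)` in the closed ball of radius 2 (junk `0` if there is none) -/
noncomputable def sol (p : ℝ × E) : B :=
  if h : ∃ γ : B, ‖γ‖ ≤ 2 ∧ K (p, γ) = γ then h.choose else 0

/-- the point of the curve `γ` at time `s` -/
noncomputable def pt (γ : B) (s : ℝ) : E := fun j => γ j s

/-- the flow of `X`: `Φ (l, x)` = value at time `l` of the solution starting at `x` -/
noncomputable def Φ (p : ℝ × E) : E := pt (sol p) 1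

/-- the lifted isotopy -/
noncomputable def Psi (p : ℝ × E) : E := rot p.1 (Φ (κ * Real.sin p.1, cmap p.2))

/-- the lifted Hamiltonian -/
noncomputable def Ham (p : ℝ × E) : ℝ :=
  Real.pi * (M 0 1 p.2 + M 2 3 p.2) + κ * Real.cos p.1 * F (rot (-p.1) p.2)

end Crest.Agent.Q3
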