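/-
Row 205 (S0316) team project (architect helper96).  Shared definitions, part 2 (geometry).  FROZEN: do not edit (ask helper96).
-/
import Crest.Agent.Q3_Defs

set_option autoImplicit false
open Crest.GeometryTopology.Quadric

namespace Crest.Agent.Q3

/-- generator of `rot`: `d/dt rot t z = π • Jm (rot t z)`; Hamiltonian vector field of `M01 + M23` -/
def Jm (z : E) : E := ![-z 1, z 0, -z 3, z 2, 0]

theorem herm_add_right (v a b : E) : herm v (a + b) = herm v a + herm v b := by
  simp only [herm, Pi.add_apply, mul_add, Finset.sum_add_distrib]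

theorem herm_real_smul_right (v : E) (c : ℝ) (a : E) : herm v (c • a) = (c : ℂ) * herm v a := by
  simp only [herm, Pi.smul_apply, Complex.real_smul, Finset.mul_sum]
  refine Finset.sum_congr rfl (fun j _ => ?_)
  ring

/-- the real linear form `w ↦ 2 Im ⟨v, w⟩` (the symplectic pairing with `v`) -/
noncomputable def hermIm (v : E) : E →L[ℝ] ℝ :=
  LinearMap.toContinuousLinearMap
    { toFun := fun w => 2 * (herm v w).im
      map_add' := by
        intro a b
        rw [herm_add_right, Complex.add_im]; ring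
      map_smul' := by
        intro c a
        rw [herm_real_smul_right, Complex.im_ofReal_mul]
        simp only [RingHom.id_apply, smul_eq_mul]
        ring }

theorem hermIm_apply (v w : E) : hermIm v w = 2 * (herm v w).im := rfl

/-- the six components of the moment map of SO(4): `(M01, M02, M03, M12, M13, M23)` -/
def mvec (z : E) : Fin 6 → ℝ := ![M 0 1 z, M 0 2 z, M 0 3 z, M 1 2 z, M 1 3 z, M 2 3 z]

/-- the Lie-Poisson vector field: `d/dt mvec (z t) = Y (mvec (z t))` along `z' = X z` -/
def Y (m : Fin 6 → ℝ) : Fin 6 → ℝ :=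
  ![-(m 0 * m 4) - m 5 * m 1,
    -(m 3),
    -((1 - m 2) * m 4) + m 3 * m 1,
    (1 - m 2) * m 1 - m 3 * m 4,
    (1 - m 2) * m 2 - m 5 ^ 2 + m 0 ^ 2 + m 3 ^ 2,
    m 5 * m 4 + m 0 * m 1]

/-- `1/√2` -/
noncomputable def s2 : ℝ := (Real.sqrt 2)⁻¹
/-- `√3/2` -/
noncomputable def r3 : ℝ := Real.sqrt 3 / 2

/-- the degenerate fixed point -/
noncomputable def p0 : E := ![(s2 : ℂ), 0, 0, (s2 : ℂ) * Complex.I, 0]

/-- the two nondegenerate fixed points (`σ = 1` and `σ = -1`) -/
noncomputable def pp (σ : ℝ) : E :=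
  ![(s2 : ℂ), ((σ * r3 * s2 : ℝ) : ℂ) * Complex.I, 0, ((-(1 / 2) * s2 : ℝ) : ℂ) * Complex.I, 0]

/-- the degenerate direction at `p0` -/
noncomputable def w0 : E := ![0, 0, (s2 : ℂ) * Complex.I, 0, 0]

/-- a curve in the cone through `p0` with velocity `w0` -/
noncomputable def curve0 (h : ℝ) : E :=
  ![(s2 : ℂ), 0, ((s2 * Real.sin h : ℝ) : ℂ) * Complex.I, ((s2 * Real.cos h : ℝ) : ℂ) * Complex.I, 0]

/-- the total time of the perturbation -/
noncomputable def T1 : ℝ := κ * Real.sin 1

end Crest.Agent.Q3
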