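/-
Row 205 (S0316), task CO1: static facts on the unit isotropic cone and the map `cmap`.
One owner; keep the statements; auxiliary lemmas private.
-/
import Crest.Agent.Q3_Defs2

set_option autoImplicit false
open Crest.GeometryTopology.Quadric

namespace Crest.Agent.Q3

/-- `conj z * z = normSq z` (`Complex.normSq_eq_conj_mul_self`) -/
theorem herm_self (z : E) : herm z z = (nsq z : ℂ) := by
  unfold herm nsq
  rw [Complex.ofReal_sum]
  refine Finset.sum_congr rfl (fun j _ => ?_)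
  rw [Complex.normSq_eq_conj_mul_self]

theorem nsq_of_mem_cone {z : E} (hz : z ∈ unitCone) : nsq z = 1 := by
  have h := hz.1
  rw [herm_self] at h
  exact_mod_cast h

theorem nsq_nonneg (z : E) : 0 ≤ nsq z :=
  Finset.sum_nonneg (fun _ _ => Complex.normSq_nonneg _)

/-- `‖z j‖² = normSq (z j) ≤ nsq z` -/
theorem norm_sq_le_nsq (z : E) (j : Fin 5) : ‖z j‖ ^ 2 ≤ nsq z := by
  rw [← Complex.normSq_eq_norm_sq]
  exact Finset.single_le_sum (f := fun j => Complex.normSq (z j))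
    (fun i _ => Complex.normSq_nonneg _) (Finset.mem_univ j)

theorem norm_le_one_of_mem_cone {z : E} (hz : z ∈ unitCone) : ‖z‖ ≤ 1 := by
  rw [pi_norm_le_iff_of_nonneg zero_le_one]
  intro j
  have h := norm_sq_le_nsq z j
  rw [nsq_of_mem_cone hz] at h
  nlinarith [norm_nonneg (z j)]

theorem cmap_of_mem_cone {z : E} (hz : z ∈ unitCone) : cmap z = z := by
  unfold cmap
  rw [nsq_of_mem_cone hz]
  norm_num

/-- `2 |z_j| ≤ 1 + |z_j|² ≤ 1 + nsq z` -/
theorem norm_cmap_le (z : E) : ‖cmap z‖ ≤ 1 := by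
  rw [pi_norm_le_iff_of_nonneg zero_le_one]
  intro j
  have h := norm_sq_le_nsq z j
  have h0 := nsq_nonneg z
  have hpos : 0 < 1 + nsq z := by linarith
  unfold cmap
  rw [Pi.smul_apply, smul_eq_mul, norm_mul, Complex.norm_real, Real.norm_eq_abs,
    abs_of_nonneg (by positivity), div_mul_eq_mul_div, div_le_one hpos]
  nlinarith [sq_nonneg (‖z j‖ - 1)]

private theorem contDiff_nsq : ContDiff ℝ (⊤ : ℕ∞) nsq := by
  unfold nsq
  refine ContDiff.sum (fun j _ => ?_)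
  have h1 : ContDiff ℝ (⊤ : ℕ∞) (fun z : E => (z j).re) :=
    Complex.reCLM.contDiff.comp (contDiff_apply ℝ ℂ j)
  have h2 : ContDiff ℝ (⊤ : ℕ∞) (fun z : E => (z j).im) :=
    Complex.imCLM.contDiff.comp (contDiff_apply ℝ ℂ j)
  simp only [Complex.normSq_apply]
  exact (h1.mul h1).add (h2.mul h2)

/-- `nsq` is a polynomial in re, im; `1 + nsq z ≠ 0`; `ContDiff.div`, `ContDiff.smul`, `Complex.ofRealCLM` -/
theorem contDiff_cmap : ContDiff ℝ (⊤ : ℕ∞) cmap := by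
  unfold cmap
  have h1 : ContDiff ℝ (⊤ : ℕ∞) (fun z : E => (2 / (1 + nsq z) : ℝ)) := by
    refine ContDiff.div contDiff_const (contDiff_const.add contDiff_nsq) (fun z => ?_)
    have := nsq_nonneg z
    positivity
  have h2 : ContDiff ℝ (⊤ : ℕ∞) (fun z : E => (((2 / (1 + nsq z) : ℝ)) : ℂ)) :=
    Complex.ofRealCLM.contDiff.comp h1
  exact h2.smul contDiff_id

theorem herm_smul_smul (c : ℂ) (a b : E) : herm (c • a) (c • b) = (Complex.normSq c : ℂ) * herm a b := by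
  unfold herm
  rw [Finset.mul_sum]
  refine Finset.sum_congr rfl (fun j _ => ?_)
  rw [Complex.normSq_eq_conj_mul_self]
  simp only [Pi.smul_apply, smul_eq_mul, map_mul]
  ring

theorem smul_mem_cone {z : E} (hz : z ∈ unitCone) (c : ℂ) (hc : ‖c‖ = 1) : c • z ∈ unitCone := by
  refine ⟨?_, ?_⟩
  · rw [herm_smul_smul, hz.1, Complex.normSq_eq_norm_sq, hc]
    norm_num
  · have h : ∑ j, (c • z) j ^ 2 = c ^ 2 * ∑ j, z j ^ 2 := by
      rw [Finset.mul_sum]
      refine Finset.sum_congr rfl (fun j _ => ?_)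
      simp only [Pi.smul_apply, smul_eq_mul]
      ring
    rw [h, hz.2, mul_zero]

theorem norm_eq_one_of_smul_mem {z : E} (hz : z ∈ unitCone) {c : ℂ} (h : c • z ∈ unitCone) : ‖c‖ = 1 := by
  have h1 := h.1
  rw [herm_smul_smul, hz.1, mul_one] at h1
  have h2 : Complex.normSq c = 1 := by exact_mod_cast h1
  rw [Complex.normSq_eq_norm_sq] at h2
  nlinarith [norm_nonneg c]

/-- on the cone `z4² = -(z0²+z1²+z2²+z3²)`, so `|z4|² ≤ |z0|²+…+|z3|² = 1 - |z4|²`. -/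
theorem half_le_of_mem_cone {z : E} (hz : z ∈ unitCone) :
    1 / 2 ≤ ‖z 0‖ ^ 2 + ‖z 1‖ ^ 2 + ‖z 2‖ ^ 2 + ‖z 3‖ ^ 2 := by
  have h1 := nsq_of_mem_cone hz
  have h2 := hz.2
  unfold nsq at h1
  rw [Fin.sum_univ_five] at h1 h2
  simp only [Complex.normSq_eq_norm_sq] at h1
  have h3 : z 4 ^ 2 = -(z 0 ^ 2 + z 1 ^ 2 + z 2 ^ 2 + z 3 ^ 2) := by
    linear_combination h2
  have h4 : ‖z 4‖ ^ 2 ≤ ‖z 0‖ ^ 2 + ‖z 1‖ ^ 2 + ‖z 2‖ ^ 2 + ‖z 3‖ ^ 2 := by
    calc ‖z 4‖ ^ 2 = ‖z 4 ^ 2‖ := (norm_pow _ _).symm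
      _ = ‖z 0 ^ 2 + z 1 ^ 2 + z 2 ^ 2 + z 3 ^ 2‖ := by rw [h3, norm_neg]
      _ ≤ ‖z 0 ^ 2‖ + ‖z 1 ^ 2‖ + ‖z 2 ^ 2‖ + ‖z 3 ^ 2‖ := by
          refine (norm_add_le _ _).trans ?_
          gcongr
          refine (norm_add_le _ _).trans ?_
          gcongr
          exact norm_add_le _ _
      _ = _ := by simp only [norm_pow]
  linarith

/-- consequence: some coordinate `j < 4` has `|z_j| ≥ 1/3` (since `4 * (1/3)² < 1/2`) -/
theorem exists_third_le_of_mem_cone {z : E} (hz : z ∈ unitCone) :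
    ∃ j : Fin 5, j ≠ 4 ∧ 1 / 3 ≤ ‖z j‖ := by
  have h := half_le_of_mem_cone hz
  by_contra hcon
  push Not at hcon
  have h0 := hcon 0 (by decide)
  have h1 := hcon 1 (by decide)
  have h2 := hcon 2 (by decide)
  have h3 := hcon 3 (by decide)
  nlinarith [norm_nonneg (z 0), norm_nonneg (z 1), norm_nonneg (z 2), norm_nonneg (z 3)]

end Crest.Agent.Q3
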