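/-
Row 205 (S0316), task FA: algebraic identities for `M`, `X` (pure computations in ℂ; `Fin.sum_univ_five`, `Complex.ext`, `ring`).
One owner; keep the statements; auxiliary lemmas private.
-/
import Crest.Agent.Q3_Defs

set_option autoImplicit false
open Crest.GeometryTopology.Quadric

namespace Crest.Agent.Q3

/-- `M` in real coordinates -/
theorem M_eq (j k : Fin 5) (z : E) : M j k z = 2 * ((z j).re * (z k).im - (z j).im * (z k).re) := by
  unfold M
  simp only [Complex.mul_im, Complex.conj_re, Complex.conj_im]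
  ring

theorem M_self (j : Fin 5) (z : E) : M j j z = 0 := by
  rw [M_eq]; ring

theorem M_swap (j k : Fin 5) (z : E) : M j k z = - M k j z := by
  rw [M_eq, M_eq]; ring

/-- `conj (c z_j) * (c z_k) = |c|² conj z_j z_k` -/
theorem M_smul (j k : Fin 5) (z : E) (c : ℂ) (hc : ‖c‖ = 1) : M j k (c • z) = M j k z := by
  have h1 : c.re * c.re + c.im * c.im = 1 := by
    have h := Complex.normSq_eq_norm_sq c
    rw [hc, Complex.normSq_apply] at h
    simpa using h
  rw [M_eq, M_eq]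
  simp only [Pi.smul_apply, smul_eq_mul, Complex.mul_re, Complex.mul_im]
  have : (c.re * (z j).re - c.im * (z j).im) * (c.re * (z k).im + c.im * (z k).re) -
      (c.re * (z j).im + c.im * (z j).re) * (c.re * (z k).re - c.im * (z k).im)
      = (c.re * c.re + c.im * c.im) * ((z j).re * (z k).im - (z j).im * (z k).re) := by ring
  rw [this, h1, one_mul]

theorem F_smul (z : E) (c : ℂ) (hc : ‖c‖ = 1) : F (c • z) = F z := by
  unfold F
  simp only [M_smul _ _ z c hc]

theorem X_smul (z : E) (c : ℂ) (hc : ‖c‖ = 1) : X (c • z) = c • X z := by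
  funext i
  unfold X
  simp only [M_smul _ _ z c hc]
  fin_cases i <;> simp [Pi.smul_apply, smul_eq_mul] <;> ring

theorem X_four (z : E) : X z 4 = 0 := by
  simp [X]

/-- `X z = ξ z` with `ξ` real antisymmetric, so `Re ⟨z, X z⟩ = 0` (holds for ALL `z`) -/
theorem herm_X_re (z : E) : (herm z (X z)).re = 0 := by
  unfold herm X
  rw [Fin.sum_univ_five]
  simp [Complex.mul_re, Complex.mul_im, Complex.add_re, Complex.sub_re]
  ring

/-- same reason: `∑ z_j (X z)_j = 0` (holds for ALL `z`) -/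
theorem sum_mul_X (z : E) : ∑ j, z j * X z j = 0 := by
  unfold X
  rw [Fin.sum_univ_five]
  simp
  ring

/-- `M j k`, `F`, `X` are polynomial, hence smooth (`M_eq`, `Complex.reCLM`, `fun_prop`, `contDiff_pi`) -/
theorem contDiff_M (j k : Fin 5) : ContDiff ℝ (⊤ : ℕ∞) (M j k) := by
  have hre : ∀ i : Fin 5, ContDiff ℝ (⊤ : ℕ∞) (fun z : E => (z i).re) := fun i =>
    (Complex.reCLM.comp (ContinuousLinearMap.proj (R := ℝ) (φ := fun _ : Fin 5 => ℂ) i)).contDiff
  have him : ∀ i : Fin 5, ContDiff ℝ (⊤ : ℕ∞) (fun z : E => (z i).im) := fun i =>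
    (Complex.imCLM.comp (ContinuousLinearMap.proj (R := ℝ) (φ := fun _ : Fin 5 => ℂ) i)).contDiff
  have h : M j k = fun z : E => 2 * ((z j).re * (z k).im - (z j).im * (z k).re) := by
    funext z; exact M_eq j k z
  rw [h]
  exact contDiff_const.mul (((hre j).mul (him k)).sub ((him j).mul (hre k)))

theorem contDiff_F : ContDiff ℝ (⊤ : ℕ∞) F := by
  unfold F
  exact ((contDiff_M 0 1).mul (contDiff_const.sub (contDiff_M 0 3))).add
    ((contDiff_M 1 2).mul (contDiff_M 2 3))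

theorem contDiff_X : ContDiff ℝ (⊤ : ℕ∞) X := by
  have hM : ∀ j k : Fin 5, ContDiff ℝ (⊤ : ℕ∞) (fun z : E => ((M j k z : ℝ) : ℂ)) := fun j k =>
    Complex.ofRealCLM.contDiff.comp (contDiff_M j k)
  have hz : ∀ i : Fin 5, ContDiff ℝ (⊤ : ℕ∞) (fun z : E => z i) := fun i =>
    (ContinuousLinearMap.proj (R := ℝ) (φ := fun _ : Fin 5 => ℂ) i).contDiff
  rw [contDiff_pi]
  intro i
  fin_cases i
  · show ContDiff ℝ (⊤ : ℕ∞) (fun z : E => -(1 - (M 0 3 z : ℂ)) * z 1 + (M 0 1 z : ℂ) * z 3)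
    exact (((contDiff_const.sub (hM 0 3)).neg).mul (hz 1)).add ((hM 0 1).mul (hz 3))
  · show ContDiff ℝ (⊤ : ℕ∞) (fun z : E => (1 - (M 0 3 z : ℂ)) * z 0 - (M 2 3 z : ℂ) * z 2)
    exact ((contDiff_const.sub (hM 0 3)).mul (hz 0)).sub ((hM 2 3).mul (hz 2))
  · show ContDiff ℝ (⊤ : ℕ∞) (fun z : E => (M 2 3 z : ℂ) * z 1 - (M 1 2 z : ℂ) * z 3)
    exact ((hM 2 3).mul (hz 1)).sub ((hM 1 2).mul (hz 3))
  · show ContDiff ℝ (⊤ : ℕ∞) (fun z : E => -(M 0 1 z : ℂ) * z 0 + (M 1 2 z : ℂ) * z 2)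
    exact (((hM 0 1).neg).mul (hz 0)).add ((hM 1 2).mul (hz 2))
  · show ContDiff ℝ (⊤ : ℕ∞) (fun _ : E => (0 : ℂ))
    exact contDiff_const

theorem continuous_X : Continuous X := contDiff_X.continuous

end Crest.Agent.Q3
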