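/-
Row 205 (S0316), task FS: a fixed point of a smooth family of contractions depends smoothly on the parameter.
Abstract Banach-space lemma; uses Mathlib's `ContDiffAt.implicitFunction` (Mathlib/Analysis/Calculus/ImplicitContDiff.lean).
One owner; keep the statement.
-/
import Mathlib

set_option autoImplicit false
open Filter Topology

namespace Crest.Agent.Q3

/-- PROOF.  Put `f (p,γ) = γ - K (p,γ)`, `u = (p₀, g p₀)`; `f` is `ContDiff`, `f u = 0` (from `hfix.self_of_nhds`).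
`fderiv ℝ f u ∘L inr = id - T` with `T = fderiv ℝ (fun γ => K (p₀,γ)) (g p₀)` (chain rule:
`fun γ => f (p₀,γ)` is `f ∘ (fun γ => (p₀,γ))`), and `‖T‖ ≤ q < 1` by `HasFDerivAt.le_of_lip'` and `hlip`.
So `id - T` is a unit of `Bs →L[ℝ] Bs` (`isUnit_one_sub_of_norm_lt_one` / `Units.oneSub`), hence `IsInvertible`
(`ContinuousLinearMap.isInvertible_equiv`, `ContinuousLinearEquiv.unitsEquiv`, or search `IsInvertible` + `IsUnit`).
Let `ψ = cdf.implicitFunction _ _`.  `ContDiffAt.eventually_apply_eq_iff_implicitFunction` :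
`∀ᶠ v in 𝓝 u, f v = f u ↔ ψ v.1 = v.2`.  Pull this back along `p ↦ (p, g p)` (continuous at `p₀` by `hcont`),
combine with `hfix`: `ψ p = g p` eventually, so `g =ᶠ ψ` and `ContDiffAt.congr_of_eventuallyEq` with
`ContDiffAt.contDiffAt_implicitFunction` finishes. -/
theorem contDiffAt_of_fixedPt {P Bs : Type*} [NormedAddCommGroup P] [NormedSpace ℝ P] [CompleteSpace P]
    [NormedAddCommGroup Bs] [NormedSpace ℝ Bs] [CompleteSpace Bs]
    (K : P × Bs → Bs) (hK : ContDiff ℝ (⊤ : ℕ∞) K) (g : P → Bs) (p₀ : P)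
    (hfix : ∀ᶠ p in 𝓝 p₀, K (p, g p) = g p) (hcont : ContinuousAt g p₀)
    (q : ℝ) (hq0 : 0 ≤ q) (hq : q < 1)
    (hlip : ∀ᶠ γ in 𝓝 (g p₀), ‖K (p₀, γ) - K (p₀, g p₀)‖ ≤ q * ‖γ - g p₀‖) :
    ContDiffAt ℝ (⊤ : ℕ∞) g p₀ := by
  classical
  set f : P × Bs → Bs := fun v => v.2 - K v with hf
  set u : P × Bs := (p₀, g p₀) with hu
  have hfc : ContDiff ℝ (⊤ : ℕ∞) f := contDiff_snd.sub hK
  have cdf : ContDiffAt ℝ ((⊤ : ℕ∞) : WithTop ℕ∞) f u := hfc.contDiffAt
  have pn : (((⊤ : ℕ∞) : WithTop ℕ∞)) ≠ 0 := by simp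
  have hfu : f u = 0 := by
    have := hfix.self_of_nhds
    simp [hf, hu, this]
  -- derivative of K at u
  have hKd : HasFDerivAt K (fderiv ℝ K u) u :=
    (hK.differentiable (by simp) u).hasFDerivAt
  have hfd : HasFDerivAt f (ContinuousLinearMap.snd ℝ P Bs - fderiv ℝ K u) u :=
    hasFDerivAt_snd.sub hKd
  set T : Bs →L[ℝ] Bs := fderiv ℝ K u ∘L ContinuousLinearMap.inr ℝ P Bs with hT
  have hTd : HasFDerivAt (fun γ : Bs => K (p₀, γ)) T (g p₀) := by
    have h1 : HasFDerivAt (fun γ : Bs => ((p₀, γ) : P × Bs)) (ContinuousLinearMap.inr ℝ P Bs) (g p₀) :=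
      hasFDerivAt_prodMk_right p₀ (g p₀)
    exact HasFDerivAt.comp (g p₀) (f := fun γ : Bs => ((p₀, γ) : P × Bs)) (g := K) hKd h1
  have hTn : ‖T‖ ≤ q := hTd.le_of_lip' hq0 hlip
  have hTlt : ‖T‖ < 1 := lt_of_le_of_lt hTn hq
  have hunit : IsUnit ((1 : Bs →L[ℝ] Bs) - T) := isUnit_one_sub_of_norm_lt_one hTlt
  have hcomp : fderiv ℝ f u ∘L ContinuousLinearMap.inr ℝ P Bs = (1 : Bs →L[ℝ] Bs) - T := by
    rw [hfd.fderiv]
    ext x
    simp [hT]
  have if₂ : (fderiv ℝ f u ∘L ContinuousLinearMap.inr ℝ P Bs).IsInvertible := by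
    rw [hcomp]
    obtain ⟨w, hw⟩ := hunit
    rw [← hw]
    exact ⟨ContinuousLinearEquiv.unitsEquiv ℝ Bs w, rfl⟩
  have hev := cdf.eventually_apply_eq_iff_implicitFunction pn if₂
  have htend : Tendsto (fun p => ((p, g p) : P × Bs)) (𝓝 p₀) (𝓝 u) :=
    (continuousAt_id.prodMk hcont)
  have hev' := htend.eventually hev
  have heq : g =ᶠ[𝓝 p₀] cdf.implicitFunction pn if₂ := by
    filter_upwards [hev', hfix] with p hp hp2
    have : f (p, g p) = f u := by
      rw [hfu]; simp [hf, hp2]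
    exact (hp.1 this).symm
  exact (cdf.contDiffAt_implicitFunction pn if₂).congr_of_eventuallyEq heq

end Crest.Agent.Q3
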