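/-
Row 205 (S0316), task FB: explicit bound and Lipschitz constant of `X` on the sup-norm ball of radius 2.
(architect's hedge, helper96)
-/
import Crest.Agent.Q3_Defs

set_option autoImplicit false

namespace Crest.Agent.Q3

/-- `|M j k z| ≤ 2 |z_j| |z_k|` -/
theorem abs_M_le (j k : Fin 5) (z : E) : |M j k z| ≤ 2 * ‖z j‖ * ‖z k‖ := by
  unfold M
  rw [abs_mul, abs_of_pos (by norm_num : (0:ℝ) < 2), mul_assoc]
  have h := Complex.abs_im_le_norm (starRingEnd ℂ (z j) * z k)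
  rw [norm_mul, RCLike.norm_conj] at h
  linarith

/-- `|M x - M y| ≤ 2 (|x_j| |x_k - y_k| + |x_j - y_j| |y_k|)` -/
theorem abs_M_sub_le (j k : Fin 5) (x y : E) :
    |M j k x - M j k y| ≤ 2 * (‖x j‖ * ‖x k - y k‖ + ‖x j - y j‖ * ‖y k‖) := by
  unfold M
  have e : 2 * (starRingEnd ℂ (x j) * x k).im - 2 * (starRingEnd ℂ (y j) * y k).im
      = 2 * ((starRingEnd ℂ (x j) * (x k - y k)).im + (starRingEnd ℂ (x j - y j) * y k).im) := by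
    rw [← Complex.add_im, ← mul_sub, ← Complex.sub_im]
    congr 2
    rw [map_sub]; ring
  rw [e, abs_mul, abs_of_pos (by norm_num : (0:ℝ) < 2)]
  have h1 := Complex.abs_im_le_norm (starRingEnd ℂ (x j) * (x k - y k))
  have h2 := Complex.abs_im_le_norm (starRingEnd ℂ (x j - y j) * y k)
  rw [norm_mul, RCLike.norm_conj] at h1 h2
  have h3 := abs_add_le (starRingEnd ℂ (x j) * (x k - y k)).im (starRingEnd ℂ (x j - y j) * y k).im
  linarith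

private theorem term_le (a : ℝ) (u : ℂ) {Aa U : ℝ} (ha : |a| ≤ Aa) (hu : ‖u‖ ≤ U) :
    ‖(a : ℂ) * u‖ ≤ Aa * U := by
  rw [norm_mul, Complex.norm_real, Real.norm_eq_abs]
  exact mul_le_mul ha hu (norm_nonneg _) ((abs_nonneg a).trans ha)

private theorem term_lip (a a' : ℝ) (u u' : ℂ) {Aa U D d : ℝ} (ha : |a| ≤ Aa) (hu' : ‖u'‖ ≤ U)
    (haa : |a - a'| ≤ D) (huu : ‖u - u'‖ ≤ d) :
    ‖(a : ℂ) * u - (a' : ℂ) * u'‖ ≤ Aa * d + D * U := by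
  have e : (a : ℂ) * u - (a' : ℂ) * u' = (a : ℂ) * (u - u') + ((a - a' : ℝ) : ℂ) * u' := by
    push_cast; ring
  rw [e]
  exact (norm_add_le _ _).trans (add_le_add (term_le a _ ha huu) (term_le _ _ haa hu'))

private theorem X_bound_gen (x : E) {r : ℝ} (hr : 0 ≤ r) (hx : ‖x‖ ≤ r) :
    ‖X x‖ ≤ (1 + 2 * r * r) * r + (2 * r * r) * r := by
  have hc : ∀ j, ‖x j‖ ≤ r := fun j => (norm_le_pi_norm x j).trans hx
  have hM : ∀ j k, |M j k x| ≤ 2 * r * r := by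
    intro j k
    refine (abs_M_le j k x).trans ?_
    have := hc j; have := hc k
    have h0 := norm_nonneg (x j); have h1 := norm_nonneg (x k)
    nlinarith [mul_le_mul (hc j) (hc k) h1 hr]
  have hM1 : ∀ j k, |1 - M j k x| ≤ 1 + 2 * r * r := by
    intro j k
    have := abs_sub (1 : ℝ) (M j k x)
    have h2 := hM j k
    rw [abs_one] at this
    linarith
  have hpos : 0 ≤ (1 + 2 * r * r) * r + (2 * r * r) * r := by positivity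
  have hle : (2 * r * r) * r ≤ (1 + 2 * r * r) * r := by nlinarith
  rw [pi_norm_le_iff_of_nonneg hpos]
  intro j
  fin_cases j
  · show ‖-(1 - (M 0 3 x : ℂ)) * x 1 + (M 0 1 x : ℂ) * x 3‖ ≤ _
    have e : -(1 - (M 0 3 x : ℂ)) * x 1 = -(((1 - M 0 3 x : ℝ) : ℂ) * x 1) := by push_cast; ring
    rw [e]
    refine (norm_add_le _ _).trans (add_le_add ?_ (term_le _ _ (hM 0 1) (hc 3)))
    rw [norm_neg]
    exact term_le _ _ (hM1 0 3) (hc 1)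
  · show ‖(1 - (M 0 3 x : ℂ)) * x 0 - (M 2 3 x : ℂ) * x 2‖ ≤ _
    have e : (1 - (M 0 3 x : ℂ)) * x 0 = (((1 - M 0 3 x : ℝ) : ℂ) * x 0) := by push_cast; ring
    rw [e]
    exact (norm_sub_le _ _).trans (add_le_add (term_le _ _ (hM1 0 3) (hc 0)) (term_le _ _ (hM 2 3) (hc 2)))
  · show ‖(M 2 3 x : ℂ) * x 1 - (M 1 2 x : ℂ) * x 3‖ ≤ _
    exact (norm_sub_le _ _).trans (add_le_add ((term_le _ _ (hM 2 3) (hc 1)).trans hle) (term_le _ _ (hM 1 2) (hc 3)))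
  · show ‖-(M 0 1 x : ℂ) * x 0 + (M 1 2 x : ℂ) * x 2‖ ≤ _
    refine (norm_add_le _ _).trans (add_le_add ?_ (term_le _ _ (hM 1 2) (hc 2)))
    rw [neg_mul, norm_neg]
    exact (term_le _ _ (hM 0 1) (hc 0)).trans hle
  · show ‖(0 : ℂ)‖ ≤ _
    rw [norm_zero]; exact hpos

theorem X_bound (x : E) (hx : ‖x‖ ≤ 2) : ‖X x‖ ≤ CX := by
  have := X_bound_gen x (by norm_num) hx
  unfold CX
  linarith

theorem X_bound_one (x : E) (hx : ‖x‖ ≤ 1) : ‖X x‖ ≤ 5 := by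
  have := X_bound_gen x (by norm_num) hx
  linarith

theorem X_lip (x y : E) (hx : ‖x‖ ≤ 2) (hy : ‖y‖ ≤ 2) : ‖X x - X y‖ ≤ CX * ‖x - y‖ := by
  set d := ‖x - y‖ with hd
  have hd0 : 0 ≤ d := norm_nonneg _
  have hcx : ∀ j, ‖x j‖ ≤ 2 := fun j => (norm_le_pi_norm x j).trans hx
  have hcy : ∀ j, ‖y j‖ ≤ 2 := fun j => (norm_le_pi_norm y j).trans hy
  have hcd : ∀ j, ‖x j - y j‖ ≤ d := fun j => norm_le_pi_norm (x - y) j
  have hM : ∀ j k, |M j k x| ≤ 8 := by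
    intro j k
    refine (abs_M_le j k x).trans ?_
    have h1 := norm_nonneg (x k)
    nlinarith [mul_le_mul (hcx j) (hcx k) h1 (by norm_num : (0:ℝ) ≤ 2)]
  have hM1 : ∀ j k, |1 - M j k x| ≤ 9 := by
    intro j k
    have := abs_sub (1 : ℝ) (M j k x)
    have h2 := hM j k
    rw [abs_one] at this
    linarith
  have hMd : ∀ j k, |M j k x - M j k y| ≤ 8 * d := by
    intro j k
    refine (abs_M_sub_le j k x y).trans ?_
    have h1 := mul_le_mul (hcx j) (hcd k) (norm_nonneg _) (by norm_num : (0:ℝ) ≤ 2)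
    have h2 := mul_le_mul (hcd j) (hcy k) (norm_nonneg _) hd0
    linarith
  have hM1d : ∀ j k, |(1 - M j k x) - (1 - M j k y)| ≤ 8 * d := by
    intro j k
    have e : (1 - M j k x) - (1 - M j k y) = -(M j k x - M j k y) := by ring
    rw [e, abs_neg]; exact hMd j k
  have hpos : 0 ≤ CX * d := by unfold CX; positivity
  rw [pi_norm_le_iff_of_nonneg hpos]
  unfold CX
  intro j
  fin_cases j
  · show ‖(-(1 - (M 0 3 x : ℂ)) * x 1 + (M 0 1 x : ℂ) * x 3) - (-(1 - (M 0 3 y : ℂ)) * y 1 + (M 0 1 y : ℂ) * y 3)‖ ≤ _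
    have e : (-(1 - (M 0 3 x : ℂ)) * x 1 + (M 0 1 x : ℂ) * x 3) - (-(1 - (M 0 3 y : ℂ)) * y 1 + (M 0 1 y : ℂ) * y 3)
        = -((((1 - M 0 3 x : ℝ) : ℂ) * x 1) - (((1 - M 0 3 y : ℝ) : ℂ) * y 1))
          + ((M 0 1 x : ℂ) * x 3 - (M 0 1 y : ℂ) * y 3) := by push_cast; ring
    rw [e]
    have h1 := term_lip _ _ _ _ (hM1 0 3) (hcy 1) (hM1d 0 3) (hcd 1)
    have h2 := term_lip _ _ _ _ (hM 0 1) (hcy 3) (hMd 0 1) (hcd 3)
    refine (norm_add_le _ _).trans ?_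
    rw [norm_neg]
    linarith
  · show ‖((1 - (M 0 3 x : ℂ)) * x 0 - (M 2 3 x : ℂ) * x 2) - ((1 - (M 0 3 y : ℂ)) * y 0 - (M 2 3 y : ℂ) * y 2)‖ ≤ _
    have e : ((1 - (M 0 3 x : ℂ)) * x 0 - (M 2 3 x : ℂ) * x 2) - ((1 - (M 0 3 y : ℂ)) * y 0 - (M 2 3 y : ℂ) * y 2)
        = ((((1 - M 0 3 x : ℝ) : ℂ) * x 0) - (((1 - M 0 3 y : ℝ) : ℂ) * y 0))
          - ((M 2 3 x : ℂ) * x 2 - (M 2 3 y : ℂ) * y 2) := by push_cast; ring
    rw [e]
    have h1 := term_lip _ _ _ _ (hM1 0 3) (hcy 0) (hM1d 0 3) (hcd 0)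
    have h2 := term_lip _ _ _ _ (hM 2 3) (hcy 2) (hMd 2 3) (hcd 2)
    refine (norm_sub_le _ _).trans ?_
    linarith
  · show ‖((M 2 3 x : ℂ) * x 1 - (M 1 2 x : ℂ) * x 3) - ((M 2 3 y : ℂ) * y 1 - (M 1 2 y : ℂ) * y 3)‖ ≤ _
    have e : ((M 2 3 x : ℂ) * x 1 - (M 1 2 x : ℂ) * x 3) - ((M 2 3 y : ℂ) * y 1 - (M 1 2 y : ℂ) * y 3)
        = ((M 2 3 x : ℂ) * x 1 - (M 2 3 y : ℂ) * y 1) - ((M 1 2 x : ℂ) * x 3 - (M 1 2 y : ℂ) * y 3) := by ring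
    rw [e]
    have h1 := term_lip _ _ _ _ (hM 2 3) (hcy 1) (hMd 2 3) (hcd 1)
    have h2 := term_lip _ _ _ _ (hM 1 2) (hcy 3) (hMd 1 2) (hcd 3)
    refine (norm_sub_le _ _).trans ?_
    linarith
  · show ‖(-(M 0 1 x : ℂ) * x 0 + (M 1 2 x : ℂ) * x 2) - (-(M 0 1 y : ℂ) * y 0 + (M 1 2 y : ℂ) * y 2)‖ ≤ _
    have e : (-(M 0 1 x : ℂ) * x 0 + (M 1 2 x : ℂ) * x 2) - (-(M 0 1 y : ℂ) * y 0 + (M 1 2 y : ℂ) * y 2)
        = -((M 0 1 x : ℂ) * x 0 - (M 0 1 y : ℂ) * y 0) + ((M 1 2 x : ℂ) * x 2 - (M 1 2 y : ℂ) * y 2) := by ring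
    rw [e]
    have h1 := term_lip _ _ _ _ (hM 0 1) (hcy 0) (hMd 0 1) (hcd 0)
    have h2 := term_lip _ _ _ _ (hM 1 2) (hcy 2) (hMd 1 2) (hcd 2)
    refine (norm_add_le _ _).trans ?_
    rw [norm_neg]
    linarith
  · show ‖(0 : ℂ) - 0‖ ≤ _
    simp only [sub_zero, norm_zero]
    positivity

end Crest.Agent.Q3
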