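/-
Row 205 (S0316), task FN: the Nemytskii operator `N` on `B = Fin 5 → (ℝ →ᵇ ℂ)`: pointwise formula and smoothness.
One owner; keep the statements; auxiliary lemmas private.
-/
import Crest.Agent.Q3_Defs

set_option autoImplicit false
open scoped BoundedContinuousFunction

namespace Crest.Agent.Q3

/-- pointwise: `2 Im a = -i (a - conj a)`.  (`simp [MA, M]`, `BoundedContinuousFunction.coe_mul`, `coe_star`, `Complex.ext`.) -/
theorem MA_apply (j k : Fin 5) (γ : B) (s : ℝ) : MA j k γ s = (M j k (pt γ s) : ℂ) := by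
  simp only [MA, M, pt, BoundedContinuousFunction.coe_smul, BoundedContinuousFunction.coe_sub,
    BoundedContinuousFunction.coe_mul, BoundedContinuousFunction.coe_star, Pi.sub_apply, Pi.mul_apply,
    Pi.star_apply]
  apply Complex.ext <;> simp <;> ring

/-- `N` is `X` pointwise -/
theorem N_apply (γ : B) (s : ℝ) : pt (N γ) s = X (pt γ s) := by
  funext j
  fin_cases j <;>
  simp [pt, N, X, MA_apply]

private theorem contDiff_proj (j : Fin 5) : ContDiff ℝ (⊤ : ℕ∞) (fun γ : B => γ j) :=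
  (ContinuousLinearMap.proj (R := ℝ) (φ := fun _ : Fin 5 => A) j).contDiff

private theorem contDiff_star_proj (j : Fin 5) : ContDiff ℝ (⊤ : ℕ∞) (fun γ : B => star (γ j)) :=
  ((starL' ℝ : A ≃L[ℝ] A) : A →L[ℝ] A).contDiff.comp (contDiff_proj j)

/-- `MA j k` is a polynomial in the Banach algebra `A` (over `ℝ`): `ContDiff.mul`, `ContDiff.sub`, `ContDiff.const_smul`,
`contDiff_apply`/`(ContinuousLinearMap.proj j).contDiff`, and `star` is a continuous `ℝ`-linear map (`starL' ℝ`, or `ContDiff.star`). -/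
theorem contDiff_MA (j k : Fin 5) : ContDiff ℝ (⊤ : ℕ∞) (MA j k) := by
  unfold MA
  exact (((contDiff_star_proj j).mul (contDiff_proj k)).sub
    ((contDiff_proj j).mul (contDiff_star_proj k))).const_smul _

/-- `contDiff_pi`, then `fin_cases` and `ContDiff.mul/add/sub/neg`. -/
theorem contDiff_N : ContDiff ℝ (⊤ : ℕ∞) N := by
  rw [contDiff_pi]
  intro i
  have hM := contDiff_MA
  have hp := contDiff_proj
  have h1 : ContDiff ℝ (⊤ : ℕ∞) (fun _ : B => (1 : A)) := contDiff_const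
  fin_cases i
  · exact (((h1.sub (hM 0 3)).neg).mul (hp 1)).add ((hM 0 1).mul (hp 3))
  · exact ((h1.sub (hM 0 3)).mul (hp 0)).sub ((hM 2 3).mul (hp 2))
  · exact ((hM 2 3).mul (hp 1)).sub ((hM 1 2).mul (hp 3))
  · exact (((hM 0 1).neg).mul (hp 0)).add ((hM 1 2).mul (hp 2))
  · exact contDiff_const

/-- sup norm of a curve: `‖pt γ s‖ ≤ ‖γ‖` -/
theorem norm_pt_le (γ : B) (s : ℝ) : ‖pt γ s‖ ≤ ‖γ‖ := by
  rw [pi_norm_le_iff_of_nonneg (norm_nonneg _)]
  intro j
  exact ((γ j).norm_coe_le_norm s).trans (norm_le_pi_norm γ j)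

/-- `‖γ‖ ≤ c` as soon as all points have norm `≤ c` -/
theorem norm_le_of_pt {γ : B} {c : ℝ} (hc : 0 ≤ c) (h : ∀ s, ‖pt γ s‖ ≤ c) : ‖γ‖ ≤ c := by
  rw [pi_norm_le_iff_of_nonneg hc]
  intro j
  rw [BoundedContinuousFunction.norm_le hc]
  intro s
  exact (norm_le_pi_norm (pt γ s) j).trans (h s)

theorem pt_sub (γ γ' : B) (s : ℝ) : pt (γ - γ') s = pt γ s - pt γ' s := rfl

theorem pt_constB (x : E) (s : ℝ) : pt (constB x) s = x := rfl

/-- two curves with the same points are equal -/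
theorem ext_pt {γ γ' : B} (h : ∀ s, pt γ s = pt γ' s) : γ = γ' := by
  funext j
  ext s
  exact congrFun (h s) j

/-- evaluation at `s` as a continuous linear map (`BoundedContinuousFunction.evalCLM ℝ s`, `ContinuousLinearMap.pi`) -/
theorem exists_ptL (s : ℝ) : ∃ L : B →L[ℝ] E, ∀ γ, L γ = pt γ s := by
  refine ⟨ContinuousLinearMap.pi (fun j => (BoundedContinuousFunction.evalCLM ℝ s) ∘L ContinuousLinearMap.proj j), ?_⟩
  intro γ
  rfl

end Crest.Agent.Q3
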