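/-
Row 205 (S0316), task SO1: the Picard operator `K ((l,x), ·)` is a contraction of the closed ball of radius 2 of `B`
for `|l| ≤ δ = 1/400`, `‖x‖ ≤ 3/2`; existence and uniqueness of the fixed point `sol (l,x)`.
One owner; keep the statements; auxiliary lemmas private.
-/
import Crest.Agent.Q3_FieldBound
import Crest.Agent.Q3_Nem

set_option autoImplicit false

namespace Crest.Agent.Q3

/-- pointwise from `X_bound` (`norm_le_of_pt`, `N_apply`, `norm_pt_le`) -/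
theorem N_bound (γ : B) (h : ‖γ‖ ≤ 2) : ‖N γ‖ ≤ CX := by
  apply norm_le_of_pt (by norm_num [CX])
  intro s
  rw [N_apply]
  exact X_bound _ ((norm_pt_le γ s).trans h)

/-- pointwise from `X_lip` -/
theorem N_lip (γ γ' : B) (h : ‖γ‖ ≤ 2) (h' : ‖γ'‖ ≤ 2) : ‖N γ - N γ'‖ ≤ CX * ‖γ - γ'‖ := by
  have hC : (0:ℝ) ≤ CX := by norm_num [CX]
  apply norm_le_of_pt (mul_nonneg hC (norm_nonneg _))
  intro s
  rw [pt_sub, N_apply, N_apply]
  refine (X_lip _ _ ((norm_pt_le γ s).trans h) ((norm_pt_le γ' s).trans h')).trans ?_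
  rw [← pt_sub]
  exact mul_le_mul_of_nonneg_left (norm_pt_le _ s) hC

private theorem K_sub (l : ℝ) (x : E) (γ γ' : B) :
    K ((l, x), γ) - K ((l, x), γ') = l • JB (N γ - N γ') := by
  simp only [K, map_sub, smul_sub]
  abel

/-- `K (p,γ) - K (p,γ') = l • JB (N γ - N γ')`, `norm_JB_le`, `δ * CX = 1/4`. -/
theorem K_lip (l : ℝ) (x : E) (γ γ' : B) (hl : |l| ≤ δ) (h : ‖γ‖ ≤ 2) (h' : ‖γ'‖ ≤ 2) :
    ‖K ((l, x), γ) - K ((l, x), γ')‖ ≤ (1 / 4) * ‖γ - γ'‖ := by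
  rw [K_sub, norm_smul, Real.norm_eq_abs]
  have h1 : ‖JB (N γ - N γ')‖ ≤ CX * ‖γ - γ'‖ := (norm_JB_le _).trans (N_lip γ γ' h h')
  have h2 : (0:ℝ) ≤ CX * ‖γ - γ'‖ := mul_nonneg (by norm_num [CX]) (norm_nonneg _)
  calc |l| * ‖JB (N γ - N γ')‖ ≤ δ * (CX * ‖γ - γ'‖) :=
        mul_le_mul hl h1 (norm_nonneg _) (by norm_num [δ])
    _ = (1 / 4) * ‖γ - γ'‖ := by simp only [δ, CX]; ring

theorem K_norm_le (l : ℝ) (x : E) (γ : B) (hl : |l| ≤ δ) (h : ‖γ‖ ≤ 2) :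
    ‖K ((l, x), γ)‖ ≤ ‖x‖ + 1 / 4 := by
  have h1 : ‖JB (N γ)‖ ≤ CX := (norm_JB_le _).trans (N_bound γ h)
  calc ‖K ((l, x), γ)‖ ≤ ‖constB x‖ + ‖l • JB (N γ)‖ := norm_add_le _ _
    _ = ‖x‖ + |l| * ‖JB (N γ)‖ := by rw [norm_constB, norm_smul, Real.norm_eq_abs]
    _ ≤ ‖x‖ + δ * CX := by
        have := mul_le_mul hl h1 (norm_nonneg _) (by norm_num [δ] : (0:ℝ) ≤ δ)
        linarith
    _ = ‖x‖ + 1 / 4 := by simp only [δ, CX]; norm_num

/-- Banach fixed point theorem on the complete set `Metric.closedBall 0 2`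
(`ContractingWith.exists_fixedPoint'` with `s = closedBall 0 2`, or `ContractingWith.fixedPoint` on the subtype,
or by hand: the Picard iterates form a Cauchy sequence). -/
theorem exists_fixed (l : ℝ) (x : E) (hl : |l| ≤ δ) (hx : ‖x‖ ≤ 3 / 2) :
    ∃ γ : B, ‖γ‖ ≤ 2 ∧ K ((l, x), γ) = γ := by
  set s : Set B := Metric.closedBall 0 2 with hs
  have hsc : IsComplete s := Metric.isClosed_closedBall.isComplete
  have hmaps : Set.MapsTo (fun γ : B => K ((l, x), γ)) s s := by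
    intro γ hγ
    rw [hs, mem_closedBall_zero_iff] at hγ ⊢
    have := K_norm_le l x γ hl hγ
    linarith
  have hcontr : ContractingWith (1 / 4 : NNReal) (hmaps.restrict _ s s) := by
    refine ⟨by
      rw [show (1:NNReal) = 4 / 4 by norm_num]
      exact (div_lt_div_iff_of_pos_right (by norm_num)).2 (by norm_num), ?_⟩
    apply LipschitzWith.of_dist_le_mul
    rintro ⟨γ, hγ⟩ ⟨γ', hγ'⟩
    rw [hs, mem_closedBall_zero_iff] at hγ hγ'
    rw [Subtype.dist_eq, Subtype.dist_eq]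
    simp only [Set.MapsTo.val_restrict_apply]
    rw [dist_eq_norm, dist_eq_norm]
    have := K_lip l x γ γ' hl hγ hγ'
    simpa using this
  have h0 : (0 : B) ∈ s := by rw [hs]; simp
  obtain ⟨y, hy, hfix, -⟩ := hcontr.exists_fixedPoint' hsc hmaps h0 (edist_ne_top _ _)
  refine ⟨y, ?_, hfix⟩
  rwa [hs, mem_closedBall_zero_iff] at hy

/-- `dif_pos` + `Exists.choose_spec` -/
theorem sol_spec (l : ℝ) (x : E) (hl : |l| ≤ δ) (hx : ‖x‖ ≤ 3 / 2) :
    ‖sol (l, x)‖ ≤ 2 ∧ K ((l, x), sol (l, x)) = sol (l, x) := by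
  have h := exists_fixed l x hl hx
  unfold sol
  rw [dif_pos h]
  exact h.choose_spec

/-- from `K_lip`: `‖γ - sol‖ ≤ (1/4) ‖γ - sol‖` -/
theorem sol_unique (l : ℝ) (x : E) (hl : |l| ≤ δ) (hx : ‖x‖ ≤ 3 / 2) (γ : B) (h : ‖γ‖ ≤ 2)
    (hfix : K ((l, x), γ) = γ) : γ = sol (l, x) := by
  obtain ⟨h1, h2⟩ := sol_spec l x hl hx
  have h3 := K_lip l x γ (sol (l, x)) hl h h1
  rw [hfix, h2] at h3
  have h4 : ‖γ - sol (l, x)‖ ≤ 0 := by
    have := norm_nonneg (γ - sol (l, x))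
    linarith
  exact sub_eq_zero.1 (norm_le_zero_iff.1 h4)

theorem norm_sol_le (l : ℝ) (x : E) (hl : |l| ≤ δ) (hx : ‖x‖ ≤ 3 / 2) : ‖sol (l, x)‖ ≤ ‖x‖ + 1 / 4 := by
  obtain ⟨h1, h2⟩ := sol_spec l x hl hx
  have := K_norm_le l x (sol (l, x)) hl h1
  rwa [h2] at this

/-- `‖sol - const x‖ ≤ ‖K(sol) - K(const x)‖ + ‖K(const x) - const x‖ ≤ (1/4) ‖sol - const x‖ + |l| ‖X x‖`
(`K (p, const x) - const x = l • JB (N (const x))`, `‖N (const x)‖ ≤ ‖X x‖` pointwise). -/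
theorem sol_close (l : ℝ) (x : E) (hl : |l| ≤ δ) (hx : ‖x‖ ≤ 3 / 2) :
    ‖sol (l, x) - constB x‖ ≤ 2 * |l| * ‖X x‖ := by
  obtain ⟨h1, h2⟩ := sol_spec l x hl hx
  have hc : ‖constB x‖ ≤ 2 := by rw [norm_constB]; linarith
  have h3 := K_lip l x (sol (l, x)) (constB x) hl h1 hc
  rw [h2] at h3
  have h4 : K ((l, x), constB x) - constB x = l • JB (N (constB x)) := by
    simp only [K]; abel
  have h5 : ‖N (constB x)‖ ≤ ‖X x‖ := by
    apply norm_le_of_pt (norm_nonneg _)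
    intro s
    rw [N_apply, pt_constB]
  have h6 : ‖K ((l, x), constB x) - constB x‖ ≤ |l| * ‖X x‖ := by
    rw [h4, norm_smul, Real.norm_eq_abs]
    exact mul_le_mul_of_nonneg_left ((norm_JB_le _).trans h5) (abs_nonneg _)
  have h7 : ‖sol (l, x) - constB x‖ ≤
      ‖sol (l, x) - K ((l, x), constB x)‖ + ‖K ((l, x), constB x) - constB x‖ := by
    have := norm_add_le (sol (l, x) - K ((l, x), constB x)) (K ((l, x), constB x) - constB x)
    rwa [sub_add_sub_cancel] at this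
  have h8 : 0 ≤ |l| * ‖X x‖ := mul_nonneg (abs_nonneg _) (norm_nonneg _)
  nlinarith [norm_nonneg (sol (l, x) - constB x)]

private theorem K_apply (l : ℝ) (x : E) (γ : B) (j : Fin 5) (s : ℝ) :
    K ((l, x), γ) j s = x j + l * ∫ r in (0:ℝ)..clamp s, X (pt γ r) j := by
  have h1 : K ((l, x), γ) j s = constB x j s + l • JB (N γ) j s := rfl
  rw [h1, constB_apply, JB_apply]
  have h2 : ∀ r, N γ j r = X (pt γ r) j := fun r => congrFun (N_apply γ r) j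
  simp only [h2]
  rw [Complex.real_smul]

/-- the fixed point equation, pointwise -/
theorem sol_apply (l : ℝ) (x : E) (hl : |l| ≤ δ) (hx : ‖x‖ ≤ 3 / 2) (j : Fin 5) (s : ℝ) :
    sol (l, x) j s = x j + l * ∫ r in (0:ℝ)..clamp s, X (pt (sol (l, x)) r) j := by
  obtain ⟨-, h2⟩ := sol_spec l x hl hx
  rw [← K_apply, h2]

/-- criterion for being a fixed point, pointwise -/
theorem K_eq_of_apply (l : ℝ) (x : E) (γ : B)
    (h : ∀ (j : Fin 5) (s : ℝ), γ j s = x j + l * ∫ r in (0:ℝ)..clamp s, X (pt γ r) j) :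
    K ((l, x), γ) = γ := by
  funext j
  ext s
  rw [K_apply, h j s]

end Crest.Agent.Q3
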