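/-
Row 205 (S0316), task SO2: the fixed point `sol (l,x)` depends smoothly on `(l,x)`.
One owner; keep the statements; auxiliary lemmas private.
-/
import Crest.Agent.Q3_Sol1
import Crest.Agent.Q3_FixSmooth

set_option autoImplicit false
open Filter Topology

namespace Crest.Agent.Q3

/-- `K q = constB q.1.2 + q.1.1 • JB (N q.2)`: continuous linear maps, `ContDiff.smul`, `contDiff_N`. -/
theorem contDiff_K : ContDiff ℝ (⊤ : ℕ∞) K := by
  unfold K
  apply ContDiff.add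
  · exact constB.contDiff.comp (contDiff_snd.comp contDiff_fst)
  · have h1 : ContDiff ℝ (⊤ : ℕ∞) (fun q : (ℝ × E) × B => q.1.1) := contDiff_fst.comp contDiff_fst
    have h2 : ContDiff ℝ (⊤ : ℕ∞) (fun q : (ℝ × E) × B => JB (N q.2)) :=
      JB.contDiff.comp (contDiff_N.comp contDiff_snd)
    exact h1.smul h2

private theorem eventually_dom (l : ℝ) (x : E) (hl : |l| < δ) (hx : ‖x‖ < 3 / 2) :
    ∀ᶠ p : ℝ × E in 𝓝 (l, x), |p.1| < δ ∧ ‖p.2‖ < 3 / 2 := by
  have h1 : ∀ᶠ p : ℝ × E in 𝓝 (l, x), |p.1| < δ := by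
    have hc : ContinuousAt (fun p : ℝ × E => |p.1|) (l, x) := by fun_prop
    exact hc.eventually (gt_mem_nhds hl)
  have h2 : ∀ᶠ p : ℝ × E in 𝓝 (l, x), ‖p.2‖ < 3 / 2 := by
    have hc : ContinuousAt (fun p : ℝ × E => ‖p.2‖) (l, x) := by fun_prop
    exact hc.eventually (gt_mem_nhds hx)
  exact h1.and h2

/-- For `p, p₀` in the domain: `‖sol p - sol p₀‖ ≤ ‖K(p, sol p) - K(p, sol p₀)‖ + ‖K(p, sol p₀) - K(p₀, sol p₀)‖`,
so `‖sol p - sol p₀‖ ≤ (4/3) ‖K(p, sol p₀) - K(p₀, sol p₀)‖ → 0` by continuity of `K`. -/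
theorem continuousAt_sol (l : ℝ) (x : E) (hl : |l| < δ) (hx : ‖x‖ < 3 / 2) : ContinuousAt sol (l, x) := by
  obtain ⟨h0n, h0f⟩ := sol_spec l x hl.le hx.le
  have hKc : ContinuousAt (fun p : ℝ × E => K (p, sol (l, x))) (l, x) := by
    have : Continuous (fun p : ℝ × E => K (p, sol (l, x))) :=
      contDiff_K.continuous.comp (by fun_prop)
    exact this.continuousAt
  have hlim : Tendsto (fun p : ℝ × E => (4 / 3 : ℝ) * ‖K (p, sol (l, x)) - K ((l, x), sol (l, x))‖)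
      (𝓝 (l, x)) (𝓝 0) := by
    have h1 : Tendsto (fun p : ℝ × E => K (p, sol (l, x)) - K ((l, x), sol (l, x))) (𝓝 (l, x)) (𝓝 0) := by
      have := hKc.tendsto.sub_const (K ((l, x), sol (l, x)))
      simpa using this
    have h2 := h1.norm
    have h3 := h2.const_mul (4 / 3 : ℝ)
    simpa using h3
  rw [ContinuousAt, tendsto_iff_norm_sub_tendsto_zero]
  refine squeeze_zero' (Eventually.of_forall fun _ => norm_nonneg _) ?_ hlim
  filter_upwards [eventually_dom l x hl hx] with p hp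
  obtain ⟨l', x'⟩ := p
  obtain ⟨hpn, hpf⟩ := sol_spec l' x' hp.1.le hp.2.le
  have hL := K_lip l' x' (sol (l', x')) (sol (l, x)) hp.1.le hpn h0n
  have htri : ‖sol (l', x') - sol (l, x)‖ ≤ ‖K ((l', x'), sol (l', x')) - K ((l', x'), sol (l, x))‖
      + ‖K ((l', x'), sol (l, x)) - K ((l, x), sol (l, x))‖ := by
    calc ‖sol (l', x') - sol (l, x)‖
        = ‖(K ((l', x'), sol (l', x')) - K ((l', x'), sol (l, x)))
          + (K ((l', x'), sol (l, x)) - K ((l, x), sol (l, x)))‖ := by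
          rw [hpf, h0f]; congr 1; abel
      _ ≤ _ := norm_add_le _ _
  linarith

/-- `contDiffAt_of_fixedPt` with `q = 1/4`; `hfix`: the domain is open; `hlip`: `‖sol (l,x)‖ ≤ ‖x‖ + 1/4 < 2`, so nearby `γ`
are in the ball and `K_lip` applies. -/
theorem contDiffAt_sol (l : ℝ) (x : E) (hl : |l| < δ) (hx : ‖x‖ < 3 / 2) :
    ContDiffAt ℝ (⊤ : ℕ∞) sol (l, x) := by
  obtain ⟨h0n, h0f⟩ := sol_spec l x hl.le hx.le
  refine contDiffAt_of_fixedPt K contDiff_K sol (l, x) ?_ (continuousAt_sol l x hl hx) (1 / 4)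
    (by norm_num) (by norm_num) ?_
  · filter_upwards [eventually_dom l x hl hx] with p hp
    obtain ⟨l', x'⟩ := p
    exact (sol_spec l' x' hp.1.le hp.2.le).2
  · have hlt : ‖sol (l, x)‖ < 2 := by
      have := norm_sol_le l x hl.le hx.le
      linarith
    have hev : ∀ᶠ γ : B in 𝓝 (sol (l, x)), ‖γ‖ < 2 :=
      continuous_norm.continuousAt.eventually (gt_mem_nhds hlt)
    filter_upwards [hev] with γ hγ
    exact K_lip l x γ (sol (l, x)) hl.le hγ.le h0n

/-- `Φ = (evaluation at 1) ∘ sol` (`exists_ptL`) -/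
theorem contDiffAt_Phi (l : ℝ) (x : E) (hl : |l| < δ) (hx : ‖x‖ < 3 / 2) :
    ContDiffAt ℝ (⊤ : ℕ∞) Φ (l, x) := by
  obtain ⟨L, hL⟩ := exists_ptL 1
  have h : Φ = fun p => L (sol p) := by
    funext p
    rw [hL]
    rfl
  rw [h]
  exact L.contDiff.contDiffAt.comp (l, x) (contDiffAt_sol l x hl hx)

end Crest.Agent.Q3
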