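/-
Row 205 (S0316), task FL1: `Φ (l, x)` solves the ODE `d/dl Φ = X Φ` (scaling argument).
One owner; keep the statements; auxiliary lemmas private.
-/
import Crest.Agent.Q3_Sol2
import Crest.Agent.Q3_FieldAlg

set_option autoImplicit false
open Filter Topology

namespace Crest.Agent.Q3

private theorem clamp_one : clamp 1 = 1 := clamp_of_mem zero_le_one le_rfl

private theorem delta_pos : 0 < δ := by unfold δ; norm_num

/-- the rescaled curve -/
private noncomputable def scl (σ : ℝ) (γ : B) : B :=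
  fun j => (γ j).compContinuous ⟨fun s => σ * clamp s, continuous_const.mul continuous_clamp⟩

private theorem scl_apply (σ : ℝ) (γ : B) (j : Fin 5) (s : ℝ) : scl σ γ j s = γ j (σ * clamp s) := rfl

private theorem pt_scl (σ : ℝ) (γ : B) (s : ℝ) : pt (scl σ γ) s = pt γ (σ * clamp s) := rfl

/-- SCALING.  Let `γ = sol (l,x)`, `σ ∈ [0,1]`, and `γσ j := (s ↦ γ j (σ * clamp s))` (a bounded continuous function,
e.g. `(γ j).compContinuous ⟨fun s => σ * clamp s, _⟩`).  Then `‖γσ‖ ≤ 2` and `γσ` is a fixed point of `K ((σ*l, x), ·)`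
(`K_eq_of_apply`): by `sol_apply` at `s' = σ * clamp s ∈ [0,1]` (so `clamp s' = s'`),
`γ j (σ c) = x j + l ∫_0^{σ c} X (pt γ r) j dr = x j + (σ l) ∫_0^c X (pt γ (σ r)) j dr`
(`intervalIntegral.mul_integral_comp_mul_left` / `integral_comp_mul_left`; treat `σ = 0` separately if needed), and for `r ∈ [0,c] ⊆ [0,1]`
`pt γσ r = pt γ (σ r)` since `clamp r = r` (`intervalIntegral.integral_congr`).  `sol_unique` gives `γσ = sol (σ*l, x)`;
evaluate at `s = 1`. -/
theorem sol_scale (l : ℝ) (x : E) (hl : |l| ≤ δ) (hx : ‖x‖ ≤ 3 / 2) (σ : ℝ) (h0 : 0 ≤ σ) (h1 : σ ≤ 1) :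
    pt (sol (l, x)) σ = Φ (σ * l, x) := by
  have hσl : |σ * l| ≤ δ := by
    rw [abs_mul, abs_of_nonneg h0]
    calc σ * |l| ≤ 1 * |l| := by gcongr
      _ = |l| := one_mul _
      _ ≤ δ := hl
  have hnorm : ‖scl σ (sol (l, x))‖ ≤ 2 := by
    apply norm_le_of_pt (by norm_num)
    intro s
    rw [pt_scl]
    exact (norm_pt_le _ _).trans (sol_spec l x hl hx).1
  have hfix : K ((σ * l, x), scl σ (sol (l, x))) = scl σ (sol (l, x)) := by
    apply K_eq_of_apply
    intro j s
    have hc0 := clamp_nonneg s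
    have hc1 := clamp_le_one s
    have hcl : clamp (σ * clamp s) = σ * clamp s :=
      clamp_of_mem (mul_nonneg h0 hc0) (by nlinarith)
    rw [scl_apply, sol_apply l x hl hx j (σ * clamp s), hcl]
    have hsub := intervalIntegral.smul_integral_comp_mul_left (a := 0) (b := clamp s)
      (fun r => X (pt (sol (l, x)) r) j) σ
    rw [mul_zero] at hsub
    rw [← hsub]
    have hcongr : ∫ r in (0:ℝ)..clamp s, X (pt (scl σ (sol (l, x))) r) j
        = ∫ r in (0:ℝ)..clamp s, X (pt (sol (l, x)) (σ * r)) j := by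
      apply intervalIntegral.integral_congr
      intro r hr
      rw [Set.uIcc_of_le hc0] at hr
      have : clamp r = r := clamp_of_mem hr.1 (hr.2.trans hc1)
      simp only [pt_scl, this]
    rw [hcongr, Complex.real_smul]
    push_cast
    ring
  have huniq := sol_unique (σ * l) x hσl hx _ hnorm hfix
  unfold Φ
  rw [← huniq, pt_scl, clamp_one, mul_one]

/-- `sol_apply` at `s = 1`, `sol_scale`, and the substitution `r' = r l`. -/
theorem Phi_integral (l : ℝ) (x : E) (hl : |l| ≤ δ) (hx : ‖x‖ ≤ 3 / 2) (j : Fin 5) :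
    Φ (l, x) j = x j + ∫ r in (0:ℝ)..l, X (Φ (r, x)) j := by
  have h1 : Φ (l, x) j = sol (l, x) j 1 := rfl
  rw [h1, sol_apply l x hl hx j 1, clamp_one]
  have hsub := intervalIntegral.smul_integral_comp_mul_left (a := 0) (b := 1)
    (fun r => X (Φ (r, x)) j) l
  rw [mul_zero, mul_one] at hsub
  rw [← hsub]
  have hcongr : ∫ r in (0:ℝ)..1, X (pt (sol (l, x)) r) j = ∫ r in (0:ℝ)..1, X (Φ (l * r, x)) j := by
    apply intervalIntegral.integral_congr
    intro r hr
    rw [Set.uIcc_of_le zero_le_one] at hr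
    simp only [sol_scale l x hl hx r hr.1 hr.2, mul_comm l r]
  rw [hcongr, Complex.real_smul]

theorem Phi_zero (x : E) (hx : ‖x‖ ≤ 3 / 2) : Φ (0, x) = x := by
  funext j
  rw [Phi_integral 0 x (by rw [abs_zero]; exact delta_pos.le) hx j]
  simp

/-- FTC (`intervalIntegral.integral_hasDerivAt_right`): `r ↦ X (Φ (r,x)) j` is continuous on the open interval `(-δ, δ)`
(`contDiffAt_Phi … |>.continuousAt`, composed with `r ↦ (r,x)`; `continuous_X`); the formula `Phi_integral` holds near `l`
(`HasDerivAt.congr_of_eventuallyEq`); `hasDerivAt_pi`. -/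
theorem Phi_hasDerivAt (l : ℝ) (x : E) (hl : |l| < δ) (hx : ‖x‖ < 3 / 2) :
    HasDerivAt (fun s : ℝ => Φ (s, x)) (X (Φ (l, x))) l := by
  rw [hasDerivAt_pi]
  intro j
  have hcont : ∀ r : ℝ, |r| < δ → ContinuousAt (fun r : ℝ => X (Φ (r, x)) j) r := by
    intro r hr
    have h1 : ContinuousAt Φ (r, x) := (contDiffAt_Phi r x hr hx).continuousAt
    have h2 : ContinuousAt (fun r : ℝ => Φ (r, x)) r :=
      ContinuousAt.comp (f := fun r : ℝ => (r, x)) (g := Φ) h1 (by fun_prop)
    have h3 : ContinuousAt (fun r : ℝ => X (Φ (r, x))) r :=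
      ContinuousAt.comp (f := fun r : ℝ => Φ (r, x)) (g := X) continuous_X.continuousAt h2
    exact (continuous_apply j).continuousAt.comp h3
  have hopen : IsOpen {r : ℝ | |r| < δ} := isOpen_lt continuous_abs continuous_const
  have hint : IntervalIntegrable (fun r : ℝ => X (Φ (r, x)) j) MeasureTheory.volume 0 l := by
    apply ContinuousOn.intervalIntegrable
    intro r hr
    apply (hcont r _).continuousWithinAt
    have := Set.abs_sub_left_of_mem_uIcc hr
    simp only [sub_zero] at this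
    exact this.trans_lt hl
  have hmeas : StronglyMeasurableAtFilter (fun r : ℝ => X (Φ (r, x)) j) (𝓝 l) MeasureTheory.volume :=
    ContinuousAt.stronglyMeasurableAtFilter hopen (fun r hr => hcont r hr) l hl
  have hder := intervalIntegral.integral_hasDerivAt_right hint hmeas (hcont l hl)
  have hder2 : HasDerivAt (fun u : ℝ => x j + ∫ r in (0:ℝ)..u, X (Φ (r, x)) j) (X (Φ (l, x)) j) l :=
    hder.const_add (x j)
  apply hder2.congr_of_eventuallyEq
  filter_upwards [hopen.mem_nhds hl] with u hu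
  exact Phi_integral u x (le_of_lt hu) hx.le j

end Crest.Agent.Q3
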