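/-
Row 205 (S0316), task FL2: a-priori bounds and uniqueness for the flow `Φ`.
One owner; keep the statements; auxiliary lemmas private.
-/
import Crest.Agent.Q3_Sol1
import Crest.Agent.Q3_FieldAlg

set_option autoImplicit false
open Filter Topology

namespace Crest.Agent.Q3

theorem Phi_norm_le (l : ℝ) (x : E) (hl : |l| ≤ δ) (hx : ‖x‖ ≤ 3 / 2) : ‖Φ (l, x)‖ ≤ 2 :=
  (norm_pt_le _ _).trans (sol_spec l x hl hx).1

/-- from `sol_close` and `norm_pt_le` -/
theorem Phi_close (l : ℝ) (x : E) (hl : |l| ≤ δ) (hx : ‖x‖ ≤ 3 / 2) : ‖Φ (l, x) - x‖ ≤ 2 * |l| * ‖X x‖ := by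
  have h := norm_pt_le (sol (l, x) - constB x) 1
  rw [pt_sub, pt_constB] at h
  exact h.trans (sol_close l x hl hx)

private theorem abs_mul_clamp_le (l s : ℝ) : |l * clamp s| ≤ |l| := by
  rw [abs_mul, abs_of_nonneg (clamp_nonneg s)]
  exact mul_le_of_le_one_right (abs_nonneg l) (clamp_le_one s)

private theorem abs_le_of_mem_uIcc {l c r : ℝ} (h0 : 0 ≤ c) (h1 : c ≤ 1) (hr : r ∈ Set.uIcc 0 (l * c)) :
    |r| ≤ |l| := by
  have h2 : |r| ≤ |l * c| := by
    rcases Set.mem_uIcc.1 hr with h | h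
    · rw [abs_of_nonneg h.1, abs_of_nonneg (h.1.trans h.2)]; exact h.2
    · rw [abs_of_nonpos h.2, abs_of_nonpos (h.1.trans h.2)]; linarith [h.1]
  refine h2.trans ?_
  rw [abs_mul, abs_of_nonneg h0]
  exact mul_le_of_le_one_right (abs_nonneg l) h1

/-- UNIQUENESS.  Fix `l`, put `γ j := (s ↦ y (l * clamp s) j)` (bounded continuous: `y` is continuous on `(-δ,δ)` and
`l * clamp s` stays in `[-|l|,|l|]`; `BoundedContinuousFunction.ofNormedAddCommGroup _ _ 2 _`).  `‖γ‖ ≤ 2`.  Fixed point (`K_eq_of_apply`):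
`y (l c) j - y 0 j = ∫_0^{l c} X (y r) j dr` (`intervalIntegral.integral_eq_sub_of_hasDerivAt`, integrand continuous on the interval)
`= l ∫_0^c X (y (l r)) j dr`, and `pt γ r = y (l r)` for `r ∈ [0,c]`.  `sol_unique`, evaluate at `s = 1`. -/
theorem Phi_unique (x : E) (hx : ‖x‖ ≤ 3 / 2) (y : ℝ → E) (h0 : y 0 = x)
    (hy : ∀ l : ℝ, |l| < δ → HasDerivAt y (X (y l)) l) (hb : ∀ l : ℝ, |l| < δ → ‖y l‖ ≤ 2)
    (l : ℝ) (hl : |l| < δ) : y l = Φ (l, x) := by
  have hlt : ∀ s : ℝ, |l * clamp s| < δ := fun s => (abs_mul_clamp_le l s).trans_lt hl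
  have hcont : Continuous (fun s : ℝ => y (l * clamp s)) := by
    rw [continuous_iff_continuousAt]
    intro s
    have h1 : ContinuousAt y (l * clamp s) := (hy _ (hlt s)).continuousAt
    have h2 : ContinuousAt (fun s : ℝ => l * clamp s) s :=
      (continuous_const.mul continuous_clamp).continuousAt
    exact ContinuousAt.comp (f := fun s : ℝ => l * clamp s) (g := y) h1 h2
  let γ : B := fun j => BoundedContinuousFunction.ofNormedAddCommGroup
    (fun s : ℝ => y (l * clamp s) j) ((continuous_apply j).comp hcont) 2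
    (fun s => (norm_le_pi_norm _ j).trans (hb _ (hlt s)))
  have hpt : ∀ s : ℝ, pt γ s = y (l * clamp s) := fun s => rfl
  have hγ : ‖γ‖ ≤ 2 := norm_le_of_pt (by norm_num) (fun s => by rw [hpt]; exact hb _ (hlt s))
  have hfix : K ((l, x), γ) = γ := by
    apply K_eq_of_apply
    intro j s
    have hc0 := clamp_nonneg s
    have hc1 := clamp_le_one s
    set c := clamp s with hc
    have hmem : ∀ r ∈ Set.uIcc 0 (l * c), |r| < δ :=
      fun r hr => (abs_le_of_mem_uIcc hc0 hc1 hr).trans_lt hl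
    have hder : ∀ r ∈ Set.uIcc 0 (l * c), HasDerivAt (fun r => y r j) (X (y r) j) r :=
      fun r hr => (hasDerivAt_pi.1 (hy r (hmem r hr))) j
    have hci : ContinuousOn (fun r => X (y r) j) (Set.uIcc 0 (l * c)) := by
      intro r hr
      have h1 : ContinuousAt y r := (hy r (hmem r hr)).continuousAt
      have h2 : ContinuousAt (fun r => X (y r) j) r :=
        ((continuous_apply j).comp continuous_X).continuousAt.comp h1
      exact h2.continuousWithinAt
    have hint := intervalIntegral.integral_eq_sub_of_hasDerivAt hder hci.intervalIntegrable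
    have hsc := intervalIntegral.smul_integral_comp_mul_left (a := 0) (b := c)
      (f := fun r => X (y r) j) l
    have hcongr : ∫ r in (0:ℝ)..c, X (pt γ r) j = ∫ r in (0:ℝ)..c, X (y (l * r)) j := by
      apply intervalIntegral.integral_congr
      intro r hr
      rw [Set.uIcc_of_le hc0] at hr
      have : clamp r = r := clamp_of_mem hr.1 (hr.2.trans hc1)
      simp only [hpt, this]
    have hval : γ j s = y (l * c) j := rfl
    rw [hval, hcongr]
    rw [mul_zero, Complex.real_smul] at hsc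
    rw [hsc, hint, h0]
    ring
  have huniq := sol_unique l x hl.le hx γ hγ hfix
  have h1 : pt γ 1 = y l := by
    rw [hpt, clamp_of_mem zero_le_one le_rfl, mul_one]
  rw [← h1, huniq]
  rfl

end Crest.Agent.Q3
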