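/-
Row 205 (S0316), task CO2: the flow `Φ` preserves the cone, commutes with unit scalars, fixes the last coordinate,
and is explicit on eigen-lines of `X`.  One owner; keep the statements; auxiliary lemmas private.
-/
import Crest.Agent.Q3_Flow1
import Crest.Agent.Q3_Flow2
import Crest.Agent.Q3_Cone1

set_option autoImplicit false
open Crest.GeometryTopology.Quadric

namespace Crest.Agent.Q3

private theorem co2_delta_pos : 0 < δ := by unfold δ; norm_num

private theorem co2_const {G : Type*} [NormedAddCommGroup G] [NormedSpace ℝ G] (f : ℝ → G)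
    (h : ∀ s : ℝ, |s| < δ → HasDerivAt f 0 s) {l : ℝ} (hl : |l| < δ) : f l = f 0 := by
  have hopen : IsOpen (Set.Ioo (-δ) δ) := isOpen_Ioo
  have hpre : IsPreconnected (Set.Ioo (-δ) δ) := isPreconnected_Ioo
  have hd : DifferentiableOn ℝ f (Set.Ioo (-δ) δ) := by
    intro s hs
    exact (h s (abs_lt.2 hs)).differentiableAt.differentiableWithinAt
  have hz : (Set.Ioo (-δ) δ).EqOn (deriv f) 0 := by
    intro s hs
    exact (h s (abs_lt.2 hs)).deriv
  exact hopen.is_const_of_deriv_eq_zero hpre hd hz (abs_lt.1 hl)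
    (abs_lt.1 (by rw [abs_zero]; exact co2_delta_pos))

private theorem co2_norm_lt {z : E} (hz : z ∈ unitCone) : ‖z‖ < 3 / 2 :=
  (norm_le_one_of_mem_cone hz).trans_lt (by norm_num)

private theorem co2_coord {z : E} (hz : z ∈ unitCone) {s : ℝ} (hs : |s| < δ) (j : Fin 5) :
    HasDerivAt (fun r : ℝ => Φ (r, z) j) (X (Φ (s, z)) j) s :=
  (hasDerivAt_pi.1 (Phi_hasDerivAt s z hs (co2_norm_lt hz))) j

/-- Let `y l = Φ (l,z)` (`‖z‖ ≤ 1 < 3/2`).  By `Phi_hasDerivAt`, on `(-δ,δ)`:
`d/dl nsq (y l) = 2 Re ⟨y, X y⟩ = 0` (`herm_X_re`) and `d/dl ∑ (y j)² = 2 ∑ y j * X y j = 0` (`sum_mul_X`).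
A function with zero derivative on the interval `(-δ,δ)` is constant (`IsOpen.is_const_of_deriv_eq_zero` /
`Convex.is_const_of_fderivWithin_eq_zero` / `constant_of_derivWithin_zero`), value at `0` by `Phi_zero`.  `herm_self`. -/
theorem Phi_mem_cone {z : E} (hz : z ∈ unitCone) {l : ℝ} (hl : |l| < δ) : Φ (l, z) ∈ unitCone := by
  have h0 : Φ (0, z) = z := Phi_zero z (co2_norm_lt hz).le
  constructor
  · have key : (fun r : ℝ => herm (Φ (r, z)) (Φ (r, z))) l = (fun r : ℝ => herm (Φ (r, z)) (Φ (r, z))) 0 := by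
      apply co2_const _ _ hl
      intro s hs
      have hsum : HasDerivAt (fun r : ℝ => ∑ j, starRingEnd ℂ (Φ (r, z) j) * Φ (r, z) j)
          (∑ j, (starRingEnd ℂ (X (Φ (s, z)) j) * Φ (s, z) j
            + starRingEnd ℂ (Φ (s, z) j) * X (Φ (s, z)) j)) s := by
        apply HasDerivAt.fun_sum
        intro j _
        exact ((co2_coord hz hs j).star).mul (co2_coord hz hs j)
      have hzero : (∑ j, (starRingEnd ℂ (X (Φ (s, z)) j) * Φ (s, z) j
            + starRingEnd ℂ (Φ (s, z) j) * X (Φ (s, z)) j)) = 0 := by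
        have h1 : (∑ j, (starRingEnd ℂ (X (Φ (s, z)) j) * Φ (s, z) j
            + starRingEnd ℂ (Φ (s, z) j) * X (Φ (s, z)) j))
            = starRingEnd ℂ (herm (Φ (s, z)) (X (Φ (s, z)))) + herm (Φ (s, z)) (X (Φ (s, z))) := by
          unfold herm
          rw [map_sum, ← Finset.sum_add_distrib]
          refine Finset.sum_congr rfl (fun j _ => ?_)
          rw [map_mul, Complex.conj_conj]
          ring
        rw [h1, add_comm, Complex.add_conj, herm_X_re]
        simp
      rw [hzero] at hsum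
      exact hsum
    simp only at key
    rw [key, h0]
    exact hz.1
  · have key : (fun r : ℝ => ∑ j, (Φ (r, z) j) ^ 2) l = (fun r : ℝ => ∑ j, (Φ (r, z) j) ^ 2) 0 := by
      apply co2_const _ _ hl
      intro s hs
      have hsum : HasDerivAt (fun r : ℝ => ∑ j, (Φ (r, z) j) ^ 2)
          (∑ j, ((2 : ℕ) : ℂ) * (Φ (s, z) j) ^ (2 - 1) * X (Φ (s, z)) j) s := by
        apply HasDerivAt.fun_sum
        intro j _
        exact (co2_coord hz hs j).pow 2
      have hzero : (∑ j, ((2 : ℕ) : ℂ) * (Φ (s, z) j) ^ (2 - 1) * X (Φ (s, z)) j) = 0 := by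
        have h1 : (∑ j, ((2 : ℕ) : ℂ) * (Φ (s, z) j) ^ (2 - 1) * X (Φ (s, z)) j)
            = 2 * ∑ j, Φ (s, z) j * X (Φ (s, z)) j := by
          rw [Finset.mul_sum]
          refine Finset.sum_congr rfl (fun j _ => ?_)
          norm_num
          ring
        rw [h1, sum_mul_X, mul_zero]
      rw [hzero] at hsum
      exact hsum
    simp only at key
    rw [key, h0]
    exact hz.2

/-- same argument with `X_four` (or directly from `Phi_integral`) -/
theorem Phi_four {z : E} (hz : z ∈ unitCone) {l : ℝ} (hl : |l| < δ) : Φ (l, z) 4 = z 4 := by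
  rw [Phi_integral l z hl.le (co2_norm_lt hz).le 4]
  simp [X_four]

/-- `Phi_unique` for the initial point `c • z` and the curve `y l = c • Φ (l,z)` (`X_smul`; `‖c • v‖ = ‖v‖ ≤ 2`) -/
theorem Phi_smul {z : E} (hz : z ∈ unitCone) {l : ℝ} (hl : |l| < δ) (c : ℂ) (hc : ‖c‖ = 1) :
    Φ (l, c • z) = c • Φ (l, z) := by
  have hx : ‖c • z‖ ≤ 3 / 2 := by
    rw [norm_smul, hc, one_mul]; exact (co2_norm_lt hz).le
  refine (Phi_unique (c • z) hx (fun r => c • Φ (r, z)) ?_ ?_ ?_ l hl).symm
  · rw [Phi_zero z (co2_norm_lt hz).le]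
  · intro s hs
    rw [X_smul _ c hc]
    exact (Phi_hasDerivAt s z hs (co2_norm_lt hz)).const_smul c
  · intro s hs
    rw [norm_smul, hc, one_mul]
    exact Phi_norm_le s z hs.le (co2_norm_lt hz).le

/-- `Phi_unique` for the curve `y l = exp (i a l) • z`: `y' = i a y = exp(i a l) • X z = X (y l)` by `X_smul`. -/
theorem Phi_eigen {z : E} (hz : z ∈ unitCone) {l : ℝ} (hl : |l| < δ) (a : ℝ)
    (h : X z = ((a : ℂ) * Complex.I) • z) :
    Φ (l, z) = Complex.exp (((a * l : ℝ) : ℂ) * Complex.I) • z := by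
  have hn : ∀ s : ℝ, ‖Complex.exp (((a * s : ℝ) : ℂ) * Complex.I)‖ = 1 := fun s =>
    Complex.norm_exp_ofReal_mul_I _
  refine (Phi_unique z (co2_norm_lt hz).le
    (fun r => Complex.exp (((a * r : ℝ) : ℂ) * Complex.I) • z) ?_ ?_ ?_ l hl).symm
  · simp
  · intro s hs
    rw [X_smul _ _ (hn s), h]
    have h1 : HasDerivAt (fun r : ℝ => (((a * r : ℝ) : ℂ) * Complex.I)) ((a : ℂ) * Complex.I) s := by
      have h2 : HasDerivAt (fun r : ℝ => ((r : ℝ) : ℂ)) 1 s := Complex.ofRealCLM.hasDerivAt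
      have h3 := (h2.const_mul (a : ℂ)).mul_const Complex.I
      simp only [mul_one] at h3
      have he : (fun r : ℝ => (((a * r : ℝ) : ℂ) * Complex.I)) = fun y : ℝ => (a : ℂ) * (y : ℂ) * Complex.I := by
        funext r
        rw [Complex.ofReal_mul]
      rw [he]
      exact h3
    have h4 := (h1.cexp).smul_const z
    rw [smul_smul]
    exact h4
  · intro s hs
    rw [norm_smul, hn s, one_mul]
    exact (norm_le_one_of_mem_cone hz).trans (by norm_num)

end Crest.Agent.Q3
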