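/-
Row 205 (S0316), task CR: the stationary points of `Y` on the quadric surface: exactly three values of the moment map.
Pure real algebra.  One owner; keep the statement.
-/
import Crest.Agent.Q3_Defs2

set_option autoImplicit false

namespace Crest.Agent.Q3

theorem r3_sq : r3 ^ 2 = 3 / 4 := by
  unfold r3
  rw [div_pow, Real.sq_sqrt (by norm_num)]
  norm_num

private theorem vec6_ext (m : Fin 6 → ℝ) (a0 a1 a2 a3 a4 a5 : ℝ) (h0 : m 0 = a0) (h1 : m 1 = a1)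
    (h2 : m 2 = a2) (h3 : m 3 = a3) (h4 : m 4 = a4) (h5 : m 5 = a5) :
    m = ![a0, a1, a2, a3, a4, a5] := by
  funext i
  fin_cases i
  · exact h0
  · exact h1
  · exact h2
  · exact h3
  · exact h4
  · exact h5

/-- Notation `(m0,…,m5) = (M01,M02,M03,M12,M13,M23)`.  `Y m = 0` reads (use `congrFun hY i`, `simp [Y]`):
(0) `m0 m4 + m5 m1 = 0`, (1) `m3 = 0`, (2) `(1-m2) m4 = m3 m1`, (3) `(1-m2) m1 = m3 m4`,
(4) `(1-m2) m2 - m5² + m0² + m3² = 0`, (5) `m5 m4 + m0 m1 = 0`.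
So `m3 = 0`.  If `m2 = 1`: `hn` forces all other `m_i = 0`.  If `m2 ≠ 1`: `m4 = m1 = 0`; `hp` gives `m0 m5 = 0`; `hn`: `m0² + m2² + m5² = 1`.
If `m0 = 0`: `m5² = 1 - m2²`, (4) gives `m2 = 1`, contradiction.  If `m5 = 0`: `m0² = 1 - m2²`, (4): `(2 m2 + 1)(m2 - 1) = 0`, so `m2 = -1/2`,
`m0² = 3/4 = r3²`, `m0 = ± r3`. -/
theorem crit_values (m : Fin 6 → ℝ) (hY : Y m = 0) (hn : ∑ i, (m i) ^ 2 = 1)
    (hp : m 0 * m 5 - m 1 * m 4 + m 2 * m 3 = 0) :
    m = ![0, 0, 1, 0, 0, 0] ∨ m = ![r3, 0, -(1 / 2), 0, 0, 0] ∨ m = ![-r3, 0, -(1 / 2), 0, 0, 0] := by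
  have e1 : -(m 3) = 0 := by simpa [Y] using congrFun hY 1
  have e2 : -((1 - m 2) * m 4) + m 3 * m 1 = 0 := by simpa [Y] using congrFun hY 2
  have e3 : (1 - m 2) * m 1 - m 3 * m 4 = 0 := by simpa [Y] using congrFun hY 3
  have e4 : (1 - m 2) * m 2 - m 5 ^ 2 + m 0 ^ 2 + m 3 ^ 2 = 0 := by simpa [Y] using congrFun hY 4
  rw [Fin.sum_univ_six] at hn
  have h3 : m 3 = 0 := by linarith
  rw [h3] at e2 e3 e4 hn hp
  by_cases h2 : m 2 = 1
  · left
    rw [h2] at hn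
    have h0 : m 0 = 0 := by nlinarith [sq_nonneg (m 0), sq_nonneg (m 1), sq_nonneg (m 4), sq_nonneg (m 5)]
    have h1 : m 1 = 0 := by nlinarith [sq_nonneg (m 0), sq_nonneg (m 1), sq_nonneg (m 4), sq_nonneg (m 5)]
    have h4 : m 4 = 0 := by nlinarith [sq_nonneg (m 0), sq_nonneg (m 1), sq_nonneg (m 4), sq_nonneg (m 5)]
    have h5 : m 5 = 0 := by nlinarith [sq_nonneg (m 0), sq_nonneg (m 1), sq_nonneg (m 4), sq_nonneg (m 5)]
    exact vec6_ext m _ _ _ _ _ _ h0 h1 h2 h3 h4 h5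
  · right
    have hne : (1 - m 2) ≠ 0 := fun h => h2 (by linarith)
    have h4 : m 4 = 0 := by
      have : (1 - m 2) * m 4 = 0 := by linarith
      exact (mul_eq_zero.1 this).resolve_left hne
    have h1 : m 1 = 0 := by
      have : (1 - m 2) * m 1 = 0 := by linarith
      exact (mul_eq_zero.1 this).resolve_left hne
    rw [h4, h1] at hn hp
    have h05 : m 0 * m 5 = 0 := by linarith
    rcases mul_eq_zero.1 h05 with h0 | h5
    · exfalso
      rw [h0] at hn e4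
      apply h2
      nlinarith
    · rw [h5] at hn e4
      have hq : (2 * m 2 + 1) * (m 2 - 1) = 0 := by nlinarith
      have h2' : m 2 = -(1 / 2) := by
        rcases mul_eq_zero.1 hq with h | h
        · linarith
        · exact absurd (by linarith) h2
      rw [h2'] at hn
      have h0sq : m 0 ^ 2 = r3 ^ 2 := by rw [r3_sq]; nlinarith
      rcases sq_eq_sq_iff_eq_or_eq_neg.1 h0sq with h0 | h0
      · left
        exact vec6_ext m _ _ _ _ _ _ h0 h1 h2' h3 h4 h5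
      · right
        exact vec6_ext m _ _ _ _ _ _ h0 h1 h2' h3 h4 h5

end Crest.Agent.Q3
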