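/-
Row 205 (S0316), task RO: the rotation `rot t` (unitary, complex linear, preserves `∑ z²`), its time derivative, smoothness.
Everything is a computation in coordinates (`funext j; fin_cases j; simp [rot]; ring`, `Fin.sum_univ_five`,
`Real.cos_sq_add_sin_sq` cast to ℂ, `Real.cos_neg`, `Real.sin_neg`).  One owner; keep the statements; auxiliary lemmas private.
-/
import Crest.Agent.Q3_Defs2

set_option autoImplicit false
open Crest.GeometryTopology.Quadric

namespace Crest.Agent.Q3

private theorem rot_cs (t : ℝ) :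
    (Real.cos (Real.pi * t) : ℂ) ^ 2 + (Real.sin (Real.pi * t) : ℂ) ^ 2 = 1 := by
  have h := Real.cos_sq_add_sin_sq (Real.pi * t)
  exact_mod_cast h

private theorem rot_0 (t : ℝ) (z : E) : rot t z 0 =
    (Real.cos (Real.pi * t) : ℂ) * z 0 - (Real.sin (Real.pi * t) : ℂ) * z 1 := rfl
private theorem rot_1 (t : ℝ) (z : E) : rot t z 1 =
    (Real.sin (Real.pi * t) : ℂ) * z 0 + (Real.cos (Real.pi * t) : ℂ) * z 1 := rfl
private theorem rot_2 (t : ℝ) (z : E) : rot t z 2 =
    (Real.cos (Real.pi * t) : ℂ) * z 2 - (Real.sin (Real.pi * t) : ℂ) * z 3 := rfl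
private theorem rot_3 (t : ℝ) (z : E) : rot t z 3 =
    (Real.sin (Real.pi * t) : ℂ) * z 2 + (Real.cos (Real.pi * t) : ℂ) * z 3 := rfl
private theorem rot_4 (t : ℝ) (z : E) : rot t z 4 = z 4 := rfl

private theorem ext5 {a b : E} (h0 : a 0 = b 0) (h1 : a 1 = b 1) (h2 : a 2 = b 2) (h3 : a 3 = b 3)
    (h4 : a 4 = b 4) : a = b := by
  funext j
  fin_cases j
  · exact h0
  · exact h1
  · exact h2
  · exact h3
  · exact h4

theorem rot_zero (z : E) : rot 0 z = z := by
  apply ext5 <;> simp [rot_0, rot_1, rot_2, rot_3, rot_4]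

theorem rot_one (z : E) : rot 1 z = ![-z 0, -z 1, -z 2, -z 3, z 4] := by
  apply ext5
  · simp [rot_0]
  · simp [rot_1]
  · simp [rot_2]
  · simp [rot_3]
  · simp [rot_4]

theorem rot_neg_rot (t : ℝ) (z : E) : rot (-t) (rot t z) = z := by
  have h := rot_cs t
  apply ext5
  · simp only [rot_0, rot_1, mul_neg, Real.cos_neg, Real.sin_neg, Complex.ofReal_neg]
    linear_combination (z 0) * h
  · simp only [rot_0, rot_1, mul_neg, Real.cos_neg, Real.sin_neg, Complex.ofReal_neg]
    linear_combination (z 1) * h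
  · simp only [rot_2, rot_3, mul_neg, Real.cos_neg, Real.sin_neg, Complex.ofReal_neg]
    linear_combination (z 2) * h
  · simp only [rot_2, rot_3, mul_neg, Real.cos_neg, Real.sin_neg, Complex.ofReal_neg]
    linear_combination (z 3) * h
  · simp only [rot_4]

theorem rot_rot_neg (t : ℝ) (z : E) : rot t (rot (-t) z) = z := by
  have h := rot_neg_rot (-t) z
  rwa [neg_neg] at h

theorem rot_smul (t : ℝ) (c : ℂ) (z : E) : rot t (c • z) = c • rot t z := by
  apply ext5
  · simp only [rot_0, Pi.smul_apply, smul_eq_mul]; ring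
  · simp only [rot_1, Pi.smul_apply, smul_eq_mul]; ring
  · simp only [rot_2, Pi.smul_apply, smul_eq_mul]; ring
  · simp only [rot_3, Pi.smul_apply, smul_eq_mul]; ring
  · simp only [rot_4, Pi.smul_apply, smul_eq_mul]

theorem rot_real_smul (t : ℝ) (c : ℝ) (z : E) : rot t (c • z) = c • rot t z := by
  apply ext5
  · simp only [rot_0, Pi.smul_apply, Complex.real_smul]; ring
  · simp only [rot_1, Pi.smul_apply, Complex.real_smul]; ring
  · simp only [rot_2, Pi.smul_apply, Complex.real_smul]; ring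
  · simp only [rot_3, Pi.smul_apply, Complex.real_smul]; ring
  · simp only [rot_4, Pi.smul_apply, Complex.real_smul]

theorem rot_add (t : ℝ) (a b : E) : rot t (a + b) = rot t a + rot t b := by
  apply ext5
  · simp only [rot_0, Pi.add_apply]; ring
  · simp only [rot_1, Pi.add_apply]; ring
  · simp only [rot_2, Pi.add_apply]; ring
  · simp only [rot_3, Pi.add_apply]; ring
  · simp only [rot_4, Pi.add_apply]

theorem herm_rot (t : ℝ) (a b : E) : herm (rot t a) (rot t b) = herm a b := by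
  have h := rot_cs t
  simp only [herm, Fin.sum_univ_five, rot_0, rot_1, rot_2, rot_3, rot_4, map_add, map_sub, map_mul,
    Complex.conj_ofReal]
  linear_combination (starRingEnd ℂ (a 0) * b 0 + starRingEnd ℂ (a 1) * b 1
    + starRingEnd ℂ (a 2) * b 2 + starRingEnd ℂ (a 3) * b 3) * h

theorem herm_rot_left (t : ℝ) (a b : E) : herm (rot t a) b = herm a (rot (-t) b) := by
  have h := herm_rot t a (rot (-t) b)
  rwa [rot_rot_neg] at h

theorem sum_sq_rot (t : ℝ) (z : E) : ∑ j, (rot t z j) ^ 2 = ∑ j, (z j) ^ 2 := by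
  have h := rot_cs t
  simp only [Fin.sum_univ_five, rot_0, rot_1, rot_2, rot_3, rot_4]
  linear_combination ((z 0) ^ 2 + (z 1) ^ 2 + (z 2) ^ 2 + (z 3) ^ 2) * h

theorem rot_mem_cone (t : ℝ) {z : E} (hz : z ∈ unitCone) : rot t z ∈ unitCone := by
  refine ⟨?_, ?_⟩
  · rw [herm_rot]; exact hz.1
  · rw [sum_sq_rot]; exact hz.2

/-- `rot t` as a continuous `ℝ`-linear map (`LinearMap.toContinuousLinearMap`) -/
theorem exists_rotL (t : ℝ) : ∃ L : E →L[ℝ] E, ∀ z, L z = rot t z := by
  refine ⟨LinearMap.toContinuousLinearMap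
    { toFun := rot t
      map_add' := rot_add t
      map_smul' := fun c z => rot_real_smul t c z }, fun z => rfl⟩

/-- `contDiff_pi`, `fin_cases`, `Complex.ofRealCLM.contDiff`, `Real.contDiff_cos`, `ContDiff.mul` … -/
theorem contDiff_rot : ContDiff ℝ (⊤ : ℕ∞) (fun p : ℝ × E => rot p.1 p.2) := by
  have hc : ContDiff ℝ (⊤ : ℕ∞) (fun p : ℝ × E => (Real.cos (Real.pi * p.1) : ℂ)) :=
    Complex.ofRealCLM.contDiff.comp (Real.contDiff_cos.comp (contDiff_const.mul contDiff_fst))
  have hs : ContDiff ℝ (⊤ : ℕ∞) (fun p : ℝ × E => (Real.sin (Real.pi * p.1) : ℂ)) :=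
    Complex.ofRealCLM.contDiff.comp (Real.contDiff_sin.comp (contDiff_const.mul contDiff_fst))
  have hz : ∀ j : Fin 5, ContDiff ℝ (⊤ : ℕ∞) (fun p : ℝ × E => p.2 j) := fun j =>
    (contDiff_apply ℝ ℂ j).comp contDiff_snd
  rw [contDiff_pi]
  intro j
  fin_cases j
  · exact (hc.mul (hz 0)).sub (hs.mul (hz 1))
  · exact (hs.mul (hz 0)).add (hc.mul (hz 1))
  · exact (hc.mul (hz 2)).sub (hs.mul (hz 3))
  · exact (hs.mul (hz 2)).add (hc.mul (hz 3))
  · exact hz 4

/-- product rule in each coordinate (`hasDerivAt_pi`): `d/ds [cos(π s) y0(s) - sin(π s) y1(s)] = …` -/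
theorem hasDerivAt_rot {y : ℝ → E} {y' : E} {t : ℝ} (h : HasDerivAt y y' t) :
    HasDerivAt (fun s => rot s (y s)) (Real.pi • Jm (rot t (y t)) + rot t y') t := by
  have hy : ∀ j : Fin 5, HasDerivAt (fun s => y s j) (y' j) t := fun j => (hasDerivAt_pi.1 h) j
  have hlin : HasDerivAt (fun s : ℝ => Real.pi * s) Real.pi t := by
    simpa using (hasDerivAt_id t).const_mul Real.pi
  have hc : HasDerivAt (fun s : ℝ => (Real.cos (Real.pi * s) : ℂ))
      ((-(Real.sin (Real.pi * t)) * Real.pi : ℝ) : ℂ) t :=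
    ((Real.hasDerivAt_cos (Real.pi * t)).comp t hlin).ofReal_comp
  have hs : HasDerivAt (fun s : ℝ => (Real.sin (Real.pi * s) : ℂ))
      ((Real.cos (Real.pi * t) * Real.pi : ℝ) : ℂ) t :=
    ((Real.hasDerivAt_sin (Real.pi * t)).comp t hlin).ofReal_comp
  rw [hasDerivAt_pi]
  intro j
  fin_cases j
  · have := (hc.mul (hy 0)).sub (hs.mul (hy 1))
    refine this.congr_deriv ?_
    show _ = Real.pi • (-(rot t (y t) 1)) + rot t y' 0
    simp only [rot_0, rot_1, Complex.real_smul]
    push_cast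
    ring
  · have := (hs.mul (hy 0)).add (hc.mul (hy 1))
    refine this.congr_deriv ?_
    show _ = Real.pi • (rot t (y t) 0) + rot t y' 1
    simp only [rot_0, rot_1, Complex.real_smul]
    push_cast
    ring
  · have := (hc.mul (hy 2)).sub (hs.mul (hy 3))
    refine this.congr_deriv ?_
    show _ = Real.pi • (-(rot t (y t) 3)) + rot t y' 2
    simp only [rot_2, rot_3, Complex.real_smul]
    push_cast
    ring
  · have := (hs.mul (hy 2)).add (hc.mul (hy 3))
    refine this.congr_deriv ?_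
    show _ = Real.pi • (rot t (y t) 2) + rot t y' 3
    simp only [rot_2, rot_3, Complex.real_smul]
    push_cast
    ring
  · refine (hy 4).congr_deriv ?_
    show _ = Real.pi • (0 : ℂ) + rot t y' 4
    simp only [rot_4, smul_zero, zero_add]

end Crest.Agent.Q3
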