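/-
Row 205 (S0316), task HA: Hamilton's identity `dF(z) w = 2 Im ⟨X z, w⟩` (for ALL z, w) and the derivative of `Ham (t, ·)`.
One owner; keep the statements; auxiliary lemmas private.
-/
import Crest.Agent.Q3_Rot
import Crest.Agent.Q3_FieldAlg

set_option autoImplicit false
open Crest.GeometryTopology.Quadric

namespace Crest.Agent.Q3

private theorem ha_herm_add_left (a b w : E) : herm (a + b) w = herm a w + herm b w := by
  simp only [herm, Pi.add_apply, map_add, add_mul, Finset.sum_add_distrib]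

private theorem ha_herm_sub_left (a b w : E) : herm (a - b) w = herm a w - herm b w := by
  simp only [herm, Pi.sub_apply, map_sub, sub_mul, Finset.sum_sub_distrib]

private theorem ha_herm_real_smul_left (c : ℝ) (a w : E) : herm (c • a) w = (c : ℂ) * herm a w := by
  simp only [herm, Pi.smul_apply, Complex.real_smul, map_mul, Complex.conj_ofReal, Finset.mul_sum]
  refine Finset.sum_congr rfl (fun j _ => ?_)
  ring

private theorem ha_herm_single (k : Fin 5) (a : ℂ) (w : E) :
    herm (Pi.single k a) w = starRingEnd ℂ a * w k := by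
  unfold herm
  rw [Finset.sum_eq_single k]
  · simp
  · intro b _ hb
    simp [Pi.single_eq_of_ne hb]
  · simp

private theorem ha_hermIm_eta (j k : Fin 5) (z w : E) :
    hermIm (Pi.single k (z j) - Pi.single j (z k)) w =
      2 * ((z j).re * (w k).im - (z j).im * (w k).re - (z k).re * (w j).im + (z k).im * (w j).re) := by
  rw [hermIm_apply, ha_herm_sub_left, ha_herm_single, ha_herm_single]
  simp only [Complex.sub_im, Complex.mul_im, Complex.conj_re, Complex.conj_im]
  ring

/-- `M j k z = 2 (re z_j im z_k - im z_j re z_k)` (`M_eq`); product rule with the continuous linear maps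
`Complex.reCLM ∘L proj j` etc.; then identify the derivative with `hermIm (…)` by `ContinuousLinearMap.ext` + `simp [herm, Fin.sum_univ_five]`
(for `j ≠ k`; it is enough to do the six pairs that are used; the general statement is also true for `j = k`). -/
theorem hasFDerivAt_M (j k : Fin 5) (z : E) :
    HasFDerivAt (M j k) (hermIm (Pi.single k (z j) - Pi.single j (z k))) z := by
  have hre : ∀ i : Fin 5, HasFDerivAt (fun z : E => (z i).re)
      (Complex.reCLM.comp (ContinuousLinearMap.proj (R := ℝ) (φ := fun _ : Fin 5 => ℂ) i)) z :=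
    fun i => (Complex.reCLM.comp (ContinuousLinearMap.proj (R := ℝ) (φ := fun _ : Fin 5 => ℂ) i)).hasFDerivAt
  have him : ∀ i : Fin 5, HasFDerivAt (fun z : E => (z i).im)
      (Complex.imCLM.comp (ContinuousLinearMap.proj (R := ℝ) (φ := fun _ : Fin 5 => ℂ) i)) z :=
    fun i => (Complex.imCLM.comp (ContinuousLinearMap.proj (R := ℝ) (φ := fun _ : Fin 5 => ℂ) i)).hasFDerivAt
  have h : M j k = fun z : E => 2 * ((z j).re * (z k).im - (z j).im * (z k).re) := by
    funext z; exact M_eq j k z
  rw [h]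
  have h2 := (((hre j).mul (him k)).sub ((him j).mul (hre k))).const_mul 2
  refine h2.congr_fderiv ?_
  ext w
  rw [ha_hermIm_eta]
  simp only [ContinuousLinearMap.smul_apply, ContinuousLinearMap.sub_apply,
    ContinuousLinearMap.add_apply, ContinuousLinearMap.comp_apply, ContinuousLinearMap.proj_apply,
    Complex.reCLM_apply, Complex.imCLM_apply, smul_eq_mul]
  ring

/-- `hermIm` is additive and real-homogeneous in its first argument -/
theorem hermIm_add (a b : E) : hermIm (a + b) = hermIm a + hermIm b := by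
  ext w
  simp only [ContinuousLinearMap.add_apply, hermIm_apply, ha_herm_add_left, Complex.add_im]
  ring

theorem hermIm_real_smul (c : ℝ) (a : E) : hermIm (c • a) = c • hermIm a := by
  ext w
  simp only [ContinuousLinearMap.smul_apply, hermIm_apply, ha_herm_real_smul_left,
    Complex.im_ofReal_mul, smul_eq_mul]
  ring

/-- product rule; `X z = (1 - M03) η01 - M01 η03 + M23 η12 + M12 η23`, `ηjk = single k (z j) - single j (z k)` -/
theorem hasFDerivAt_F (z : E) : HasFDerivAt F (hermIm (X z)) z := by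
  have h2 := ((hasFDerivAt_M 0 1 z).mul ((hasFDerivAt_const (1 : ℝ) z).sub (hasFDerivAt_M 0 3 z))).add
    ((hasFDerivAt_M 1 2 z).mul (hasFDerivAt_M 2 3 z))
  have hF : F = fun z : E => M 0 1 z * (1 - M 0 3 z) + M 1 2 z * M 2 3 z := rfl
  rw [hF]
  refine h2.congr_fderiv ?_
  ext w
  simp only [ContinuousLinearMap.smul_apply, ContinuousLinearMap.sub_apply,
    ContinuousLinearMap.add_apply, ContinuousLinearMap.zero_apply, smul_eq_mul, ha_hermIm_eta,
    Pi.sub_apply]
  rw [hermIm_apply]
  unfold herm X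
  rw [Fin.sum_univ_five]
  generalize M 0 1 z = a
  generalize M 0 3 z = b
  generalize M 1 2 z = c
  generalize M 2 3 z = d
  simp [Complex.mul_re, Complex.mul_im, Complex.add_re, Complex.add_im, Complex.sub_re, Complex.sub_im]
  ring

theorem hasFDerivAt_M01_add_M23 (z : E) : HasFDerivAt (fun x => M 0 1 x + M 2 3 x) (hermIm (Jm z)) z := by
  have h2 := (hasFDerivAt_M 0 1 z).add (hasFDerivAt_M 2 3 z)
  refine h2.congr_fderiv ?_
  ext w
  simp only [ContinuousLinearMap.add_apply, ha_hermIm_eta]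
  rw [hermIm_apply]
  unfold herm Jm
  rw [Fin.sum_univ_five]
  simp [Complex.mul_re, Complex.mul_im, Complex.add_re, Complex.add_im]
  ring

private theorem ha_hasFDerivAt_Ham (t : ℝ) (x : E) : ∃ L : E →L[ℝ] E, (∀ z, L z = rot (-t) z) ∧
    HasFDerivAt (fun x : E => Ham (t, x))
      (Real.pi • hermIm (Jm x) + (κ * Real.cos t) • (hermIm (X (rot (-t) x))).comp L) x := by
  obtain ⟨L, hL⟩ := exists_rotL (-t)
  refine ⟨L, hL, ?_⟩
  have h1 := (hasFDerivAt_M01_add_M23 x).const_mul Real.pi
  have hF : HasFDerivAt F (hermIm (X (rot (-t) x))) (L x) := by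
    rw [hL]; exact hasFDerivAt_F _
  have h3 := (hF.comp x L.hasFDerivAt).const_mul (κ * Real.cos t)
  have h4 := h1.add h3
  have hfun : (fun x : E => Ham (t, x)) =
      fun y : E => Real.pi * (M 0 1 y + M 2 3 y) + κ * Real.cos t * (F ∘ ⇑L) y := by
    funext y
    simp only [Ham, Function.comp, hL]
  rw [hfun]
  exact h4

/-- chain rule with the linear map `rot (-t)` (`exists_rotL`), then `herm_rot_left`:
`dF(rot(-t) x)(rot(-t) w) = 2 Im ⟨X(rot(-t)x), rot(-t) w⟩ = 2 Im ⟨rot t (X (rot(-t) x)), w⟩`. -/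
theorem fderiv_Ham (t : ℝ) (x w : E) :
    fderiv ℝ (fun x : E => Ham (t, x)) x w =
      2 * (herm (Real.pi • Jm x + (κ * Real.cos t) • rot t (X (rot (-t) x))) w).im := by
  obtain ⟨L, hL, h⟩ := ha_hasFDerivAt_Ham t x
  rw [h.fderiv]
  simp only [ContinuousLinearMap.add_apply, ContinuousLinearMap.smul_apply,
    ContinuousLinearMap.comp_apply, hermIm_apply, hL, smul_eq_mul]
  rw [ha_herm_add_left, ha_herm_real_smul_left, ha_herm_real_smul_left, herm_rot_left]
  simp only [Complex.add_im, Complex.im_ofReal_mul]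
  ring

/-- `contDiff_M`, `contDiff_F`, `contDiff_rot`, `Real.contDiff_cos` -/
theorem contDiff_Ham : ContDiff ℝ (⊤ : ℕ∞) Ham := by
  have hpair : ContDiff ℝ (⊤ : ℕ∞) (fun p : ℝ × E => ((-p.1, p.2) : ℝ × E)) :=
    contDiff_fst.neg.prodMk contDiff_snd
  have hrot : ContDiff ℝ (⊤ : ℕ∞) (fun p : ℝ × E => rot (-p.1) p.2) :=
    ContDiff.comp (g := fun p : ℝ × E => rot p.1 p.2) (f := fun p : ℝ × E => ((-p.1, p.2) : ℝ × E))
      contDiff_rot hpair
  have h1 : ContDiff ℝ (⊤ : ℕ∞) (fun p : ℝ × E => M 0 1 p.2 + M 2 3 p.2) :=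
    ((contDiff_M 0 1).comp contDiff_snd).add ((contDiff_M 2 3).comp contDiff_snd)
  have h2 : ContDiff ℝ (⊤ : ℕ∞) (fun p : ℝ × E => F (rot (-p.1) p.2)) := contDiff_F.comp hrot
  have h3 : ContDiff ℝ (⊤ : ℕ∞) (fun p : ℝ × E => Real.cos p.1) := Real.contDiff_cos.comp contDiff_fst
  unfold Ham
  exact (contDiff_const.mul h1).add ((contDiff_const.mul h3).mul h2)

/-- `M_smul`, `F_smul`, `rot_smul` -/
theorem Ham_smul (t : ℝ) (z : E) (c : ℂ) (hc : ‖c‖ = 1) : Ham (t, c • z) = Ham (t, z) := by
  simp only [Ham, M_smul _ _ z c hc, rot_smul, F_smul _ c hc]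

end Crest.Agent.Q3
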