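/-
Row 205 (S0316), task LF1: properties of `Psi (t,z) = rot t (Φ (κ sin t, cmap z))` needed for the structure `HamiltonianConeLift`.
One owner; keep the statements; auxiliary lemmas private.
-/
import Crest.Agent.Q3_Cone2
import Crest.Agent.Q3_HamId

set_option autoImplicit false
open Crest.GeometryTopology.Quadric

namespace Crest.Agent.Q3

/-- `|κ sin t| ≤ κ = 1/1000 < δ = 1/400` -/
theorem abs_kappa_sin_lt (t : ℝ) : |κ * Real.sin t| < δ := by
  have h1 : |Real.sin t| ≤ 1 := Real.abs_sin_le_one t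
  rw [abs_mul]
  unfold κ δ
  rw [abs_of_pos (by norm_num : (0:ℝ) < 1 / 1000)]
  nlinarith [abs_nonneg (Real.sin t)]

/-- `contDiff_iff_contDiffAt`; at every `(t,z)`: `contDiffAt_Phi (κ sin t) (cmap z)` (`norm_cmap_le`, `1 < 3/2`) composed with the smooth map
`(t,z) ↦ (κ sin t, cmap z)` (`ContDiffAt.comp`), then `contDiff_rot` composed with `(t,z) ↦ (t, Φ …)`. -/
theorem contDiff_Psi : ContDiff ℝ (⊤ : ℕ∞) Psi := by
  have hin : ContDiff ℝ (⊤ : ℕ∞) (fun p : ℝ × E => (κ * Real.sin p.1, cmap p.2)) := by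
    apply ContDiff.prodMk
    · exact contDiff_const.mul (Real.contDiff_sin.comp contDiff_fst)
    · exact contDiff_cmap.comp contDiff_snd
  have hPhi : ContDiff ℝ (⊤ : ℕ∞) (fun p : ℝ × E => Φ (κ * Real.sin p.1, cmap p.2)) := by
    rw [contDiff_iff_contDiffAt]
    intro p
    have h1 : ContDiffAt ℝ (⊤ : ℕ∞) Φ (κ * Real.sin p.1, cmap p.2) :=
      contDiffAt_Phi _ _ (abs_kappa_sin_lt p.1) (lt_of_le_of_lt (norm_cmap_le p.2) (by norm_num))
    exact ContDiffAt.comp p h1 hin.contDiffAt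
  exact contDiff_rot.comp (contDiff_fst.prodMk hPhi)

theorem Psi_of_mem_cone (t : ℝ) {z : E} (hz : z ∈ unitCone) : Psi (t, z) = rot t (Φ (κ * Real.sin t, z)) := by
  unfold Psi
  simp only [cmap_of_mem_cone hz]

theorem Psi_mem_cone (t : ℝ) {z : E} (hz : z ∈ unitCone) : Psi (t, z) ∈ unitCone := by
  rw [Psi_of_mem_cone t hz]
  exact rot_mem_cone t (Phi_mem_cone hz (abs_kappa_sin_lt t))

theorem Psi_smul (t : ℝ) {z : E} (hz : z ∈ unitCone) (c : ℂ) (hc : ‖c‖ = 1) :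
    Psi (t, c • z) = c • Psi (t, z) := by
  rw [Psi_of_mem_cone t hz, Psi_of_mem_cone t (smul_mem_cone hz c hc),
    Phi_smul hz (abs_kappa_sin_lt t) c hc, rot_smul]

theorem Psi_zero {z : E} (hz : z ∈ unitCone) : Psi (0, z) = z := by
  rw [Psi_of_mem_cone 0 hz, rot_zero, Real.sin_zero, mul_zero,
    Phi_zero z ((norm_le_one_of_mem_cone hz).trans (by norm_num))]

/-- chain rule: `s ↦ Φ (κ sin s, z)` has derivative `(κ cos t) • X (Φ (κ sin t, z))` (`Phi_hasDerivAt … |>.scomp`), then `hasDerivAt_rot`,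
`rot_real_smul`, and `rot (-t) (Psi (t,z)) = Φ (κ sin t, z)` (`rot_neg_rot`). -/
theorem Psi_hasDerivAt (t : ℝ) {z : E} (hz : z ∈ unitCone) :
    HasDerivAt (fun s : ℝ => Psi (s, z))
      (Real.pi • Jm (Psi (t, z)) + (κ * Real.cos t) • rot t (X (rot (-t) (Psi (t, z))))) t := by
  have hz' : ‖z‖ < 3 / 2 := lt_of_le_of_lt (norm_le_one_of_mem_cone hz) (by norm_num)
  have h1 : HasDerivAt (fun s : ℝ => Φ (s, z)) (X (Φ (κ * Real.sin t, z))) (κ * Real.sin t) :=
    Phi_hasDerivAt _ z (abs_kappa_sin_lt t) hz'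
  have h2 : HasDerivAt (fun s : ℝ => κ * Real.sin s) (κ * Real.cos t) t :=
    (Real.hasDerivAt_sin t).const_mul κ
  have h3 : HasDerivAt (fun s : ℝ => Φ (κ * Real.sin s, z))
      ((κ * Real.cos t) • X (Φ (κ * Real.sin t, z))) t :=
    HasDerivAt.scomp (g₁ := fun s : ℝ => Φ (s, z)) t h1 h2
  have h4 := hasDerivAt_rot h3
  have e1 : (fun s : ℝ => Psi (s, z)) = fun s => rot s (Φ (κ * Real.sin s, z)) := by
    funext s
    exact Psi_of_mem_cone s hz
  rw [e1, Psi_of_mem_cone t hz, rot_neg_rot]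
  rw [rot_real_smul] at h4
  exact h4

end Crest.Agent.Q3
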