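/-
Row 205 (S0316), task MO: the moment map `mvec` satisfies the polynomial ODE `m' = Y m` along `z' = X z`; Lipschitz bound of `Y`;
constraints satisfied by `mvec z` on the cone.  One owner; keep the statements; auxiliary lemmas private.
-/
import Crest.Agent.Q3_HamId
import Crest.Agent.Q3_Cone1

set_option autoImplicit false
open Crest.GeometryTopology.Quadric

namespace Crest.Agent.Q3

private theorem hermIm_eta (j k : Fin 5) (hjk : j ≠ k) (z w : E) :
    hermIm (Pi.single k (z j) - Pi.single j (z k)) w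
      = 2 * ((z j).re * (w k).im - (z j).im * (w k).re - ((z k).re * (w j).im - (z k).im * (w j).re)) := by
  rw [hermIm_apply]
  unfold herm
  have h : ∀ i : Fin 5, starRingEnd ℂ ((Pi.single k (z j) - Pi.single j (z k) : E) i) * w i
      = (if i = k then starRingEnd ℂ (z j) * w k else 0) - (if i = j then starRingEnd ℂ (z k) * w j else 0) := by
    intro i
    simp only [Pi.sub_apply, Pi.single_apply, map_sub]
    by_cases h1 : i = k
    · by_cases h2 : i = j
      · exact absurd (h2.symm.trans h1) hjk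
      · subst h1; simp [h2]
    · by_cases h2 : i = j
      · subst h2; simp [h1]
      · simp [h1, h2]
  simp only [h, Finset.sum_sub_distrib, Finset.sum_ite_eq', Finset.mem_univ, if_true]
  simp only [Complex.sub_im, Complex.mul_im, Complex.conj_re, Complex.conj_im]
  ring

/-- ALGEBRAIC CORE (all `z`): `dM_jk(z)(X z) = 2 Im ⟨η_jk z, X z⟩ = (Y (mvec z))_jk`.
Write everything in real and imaginary parts (`M_eq`, `herm`, `Fin.sum_univ_five`, `X`), then `ring`. -/
theorem hermIm_eta_X (z : E) :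
    (![hermIm (Pi.single 1 (z 0) - Pi.single 0 (z 1)) (X z),
       hermIm (Pi.single 2 (z 0) - Pi.single 0 (z 2)) (X z),
       hermIm (Pi.single 3 (z 0) - Pi.single 0 (z 3)) (X z),
       hermIm (Pi.single 2 (z 1) - Pi.single 1 (z 2)) (X z),
       hermIm (Pi.single 3 (z 1) - Pi.single 1 (z 3)) (X z),
       hermIm (Pi.single 3 (z 2) - Pi.single 2 (z 3)) (X z)] : Fin 6 → ℝ) = Y (mvec z) := by
  have hX0 : X z 0 = -(1 - (M 0 3 z : ℂ)) * z 1 + (M 0 1 z : ℂ) * z 3 := rfl
  have hX1 : X z 1 = (1 - (M 0 3 z : ℂ)) * z 0 - (M 2 3 z : ℂ) * z 2 := rfl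
  have hX2 : X z 2 = (M 2 3 z : ℂ) * z 1 - (M 1 2 z : ℂ) * z 3 := rfl
  have hX3 : X z 3 = -(M 0 1 z : ℂ) * z 0 + (M 1 2 z : ℂ) * z 2 := rfl
  funext i
  fin_cases i
  all_goals
    simp only [Fin.zero_eta, Fin.mk_one, Fin.reduceFinMk, Matrix.cons_val_zero, Matrix.cons_val_one, Matrix.cons_val, Y, mvec]
    rw [hermIm_eta _ _ (by decide)]
    simp only [hX0, hX1, hX2, hX3, Complex.add_re, Complex.add_im, Complex.sub_re, Complex.sub_im, Complex.mul_re,
      Complex.mul_im, Complex.neg_re, Complex.neg_im, Complex.one_re, Complex.one_im, Complex.ofReal_re, Complex.ofReal_im]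
    simp only [M_eq]
    ring

/-- chain rule: `hasFDerivAt_M … |>.comp_hasDerivAt`, `hasDerivAt_pi`, `hermIm_eta_X` -/
theorem hasDerivAt_mvec {y : ℝ → E} {t : ℝ} (h : HasDerivAt y (X (y t)) t) :
    HasDerivAt (fun s => mvec (y s)) (Y (mvec (y t))) t := by
  rw [← hermIm_eta_X]
  rw [hasDerivAt_pi]
  intro i
  have key : ∀ j k : Fin 5, HasDerivAt (fun s => M j k (y s))
      (hermIm (Pi.single k (y t j) - Pi.single j (y t k)) (X (y t))) t :=
    fun j k => (hasFDerivAt_M j k (y t)).comp_hasDerivAt t h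
  fin_cases i
  · exact key 0 1
  · exact key 0 2
  · exact key 0 3
  · exact key 1 2
  · exact key 1 3
  · exact key 2 3

/-- `Y` is quadratic; on `‖·‖ ≤ 1` (sup norm) each component is Lipschitz with constant `≤ 9`
(e.g. `a0 a4 - b0 b4 = a0 (a4 - b4) + (a0 - b0) b4`). -/
theorem Y_lip (a b : Fin 6 → ℝ) (ha : ‖a‖ ≤ 1) (hb : ‖b‖ ≤ 1) : ‖Y a - Y b‖ ≤ 10 * ‖a - b‖ := by
  set d : ℝ := ‖a - b‖ with hd
  have hd0 : 0 ≤ d := norm_nonneg _
  have hA : ∀ i, |a i| ≤ 1 := fun i => (norm_le_pi_norm a i).trans ha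
  have hB : ∀ i, |b i| ≤ 1 := fun i => (norm_le_pi_norm b i).trans hb
  have hD : ∀ i, |a i - b i| ≤ d := fun i => norm_le_pi_norm (a - b) i
  -- product estimate
  have hprod : ∀ i j, |a i * a j - b i * b j| ≤ 2 * d := by
    intro i j
    have e : a i * a j - b i * b j = a i * (a j - b j) + (a i - b i) * b j := by ring
    rw [e]
    calc |a i * (a j - b j) + (a i - b i) * b j| ≤ |a i * (a j - b j)| + |(a i - b i) * b j| := abs_add_le _ _
      _ = |a i| * |a j - b j| + |a i - b i| * |b j| := by rw [abs_mul, abs_mul]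
      _ ≤ 1 * d + d * 1 := by
          apply add_le_add
          · exact mul_le_mul (hA i) (hD j) (abs_nonneg _) zero_le_one
          · exact mul_le_mul (hD i) (hB j) (abs_nonneg _) hd0
      _ = 2 * d := by ring
  rw [pi_norm_le_iff_of_nonneg (by positivity)]
  intro i
  rw [Real.norm_eq_abs, abs_le]
  have p := fun i j => abs_le.1 (hprod i j)
  have q := fun i => abs_le.1 (hD i)
  fin_cases i
  all_goals
    simp only [Fin.zero_eta, Fin.mk_one, Fin.reduceFinMk, Pi.sub_apply, Matrix.cons_val_zero, Matrix.cons_val_one, Matrix.cons_val, Y]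
  · constructor <;> nlinarith [p 0 4, p 5 1]
  · constructor <;> nlinarith [q 3]
  · constructor <;> nlinarith [q 4, p 2 4, p 3 1]
  · constructor <;> nlinarith [q 1, p 2 1, p 3 4]
  · constructor <;> nlinarith [q 2, p 2 2, p 5 5, p 0 0, p 3 3]
  · constructor <;> nlinarith [p 5 4, p 0 1]

/-- `|M j k z| ≤ 2 |z_j| |z_k| ≤ |z_j|² + |z_k|² ≤ nsq z = 1` for `j ≠ k` -/
theorem norm_mvec_le {z : E} (hz : z ∈ unitCone) : ‖mvec z‖ ≤ 1 := by
  have h1 : nsq z = 1 := nsq_of_mem_cone hz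
  unfold nsq at h1
  rw [Fin.sum_univ_five] at h1
  simp only [Complex.normSq_apply] at h1
  rw [pi_norm_le_iff_of_nonneg zero_le_one]
  intro i
  rw [Real.norm_eq_abs, abs_le]
  fin_cases i
  all_goals
    simp only [Fin.zero_eta, Fin.mk_one, Fin.reduceFinMk, Matrix.cons_val_zero, Matrix.cons_val_one, Matrix.cons_val, mvec, M_eq]
  · constructor <;> nlinarith [sq_nonneg ((z 0).re - (z 1).im), sq_nonneg ((z 0).re + (z 1).im), sq_nonneg ((z 0).im - (z 1).re), sq_nonneg ((z 0).im + (z 1).re), mul_self_nonneg (z 0).re, mul_self_nonneg (z 0).im, mul_self_nonneg (z 1).re, mul_self_nonneg (z 1).im, mul_self_nonneg (z 2).re, mul_self_nonneg (z 2).im, mul_self_nonneg (z 3).re, mul_self_nonneg (z 3).im, mul_self_nonneg (z 4).re, mul_self_nonneg (z 4).im]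
  · constructor <;> nlinarith [sq_nonneg ((z 0).re - (z 2).im), sq_nonneg ((z 0).re + (z 2).im), sq_nonneg ((z 0).im - (z 2).re), sq_nonneg ((z 0).im + (z 2).re), mul_self_nonneg (z 0).re, mul_self_nonneg (z 0).im, mul_self_nonneg (z 1).re, mul_self_nonneg (z 1).im, mul_self_nonneg (z 2).re, mul_self_nonneg (z 2).im, mul_self_nonneg (z 3).re, mul_self_nonneg (z 3).im, mul_self_nonneg (z 4).re, mul_self_nonneg (z 4).im]
  · constructor <;> nlinarith [sq_nonneg ((z 0).re - (z 3).im), sq_nonneg ((z 0).re + (z 3).im), sq_nonneg ((z 0).im - (z 3).re), sq_nonneg ((z 0).im + (z 3).re), mul_self_nonneg (z 0).re, mul_self_nonneg (z 0).im, mul_self_nonneg (z 1).re, mul_self_nonneg (z 1).im, mul_self_nonneg (z 2).re, mul_self_nonneg (z 2).im, mul_self_nonneg (z 3).re, mul_self_nonneg (z 3).im, mul_self_nonneg (z 4).re, mul_self_nonneg (z 4).im]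
  · constructor <;> nlinarith [sq_nonneg ((z 1).re - (z 2).im), sq_nonneg ((z 1).re + (z 2).im), sq_nonneg ((z 1).im - (z 2).re), sq_nonneg ((z 1).im + (z 2).re), mul_self_nonneg (z 0).re, mul_self_nonneg (z 0).im, mul_self_nonneg (z 1).re, mul_self_nonneg (z 1).im, mul_self_nonneg (z 2).re, mul_self_nonneg (z 2).im, mul_self_nonneg (z 3).re, mul_self_nonneg (z 3).im, mul_self_nonneg (z 4).re, mul_self_nonneg (z 4).im]
  · constructor <;> nlinarith [sq_nonneg ((z 1).re - (z 3).im), sq_nonneg ((z 1).re + (z 3).im), sq_nonneg ((z 1).im - (z 3).re), sq_nonneg ((z 1).im + (z 3).re), mul_self_nonneg (z 0).re, mul_self_nonneg (z 0).im, mul_self_nonneg (z 1).re, mul_self_nonneg (z 1).im, mul_self_nonneg (z 2).re, mul_self_nonneg (z 2).im, mul_self_nonneg (z 3).re, mul_self_nonneg (z 3).im, mul_self_nonneg (z 4).re, mul_self_nonneg (z 4).im]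
  · constructor <;> nlinarith [sq_nonneg ((z 2).re - (z 3).im), sq_nonneg ((z 2).re + (z 3).im), sq_nonneg ((z 2).im - (z 3).re), sq_nonneg ((z 2).im + (z 3).re), mul_self_nonneg (z 0).re, mul_self_nonneg (z 0).im, mul_self_nonneg (z 1).re, mul_self_nonneg (z 1).im, mul_self_nonneg (z 2).re, mul_self_nonneg (z 2).im, mul_self_nonneg (z 3).re, mul_self_nonneg (z 3).im, mul_self_nonneg (z 4).re, mul_self_nonneg (z 4).im]

theorem mvec_smul (z : E) (c : ℂ) (hc : ‖c‖ = 1) : mvec (c • z) = mvec z := by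
  unfold mvec
  simp only [M_smul _ _ z c hc]

/-- Plücker relation, an identity for all `z` (real coordinates + `ring`) -/
theorem mvec_plucker (z : E) :
    mvec z 0 * mvec z 5 - mvec z 1 * mvec z 4 + mvec z 2 * mvec z 3 = 0 := by
  simp only [mvec, Matrix.cons_val_zero, Matrix.cons_val_one, Matrix.cons_val, M_eq]
  ring

/-- With `z_j = x_j + i y_j`, `z 4 = 0`: the cone equations say `∑ x² = ∑ y² = 1/2`, `∑ x y = 0`; Lagrange's identity
`∑_{j<k} (x_j y_k - x_k y_j)² = (∑ x²)(∑ y²) - (∑ x y)² = 1/4`; `M = 2 (x_j y_k - y_j x_k)`. -/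
theorem mvec_sq_sum {z : E} (hz : z ∈ unitCone) (h4 : z 4 = 0) : ∑ i, (mvec z i) ^ 2 = 1 := by
  have h1 : nsq z = 1 := nsq_of_mem_cone hz
  unfold nsq at h1
  rw [Fin.sum_univ_five] at h1
  simp only [Complex.normSq_apply, h4, Complex.zero_re, Complex.zero_im] at h1
  have h2 : ∑ j, z j ^ 2 = 0 := hz.2
  rw [Fin.sum_univ_five, h4] at h2
  have hre := congrArg Complex.re h2
  have him := congrArg Complex.im h2
  simp only [sq, Complex.add_re, Complex.add_im, Complex.mul_re, Complex.mul_im, Complex.zero_re, Complex.zero_im] at hre him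
  rw [Fin.sum_univ_six]
  simp only [mvec, Matrix.cons_val_zero, Matrix.cons_val_one, Matrix.cons_val, M_eq]
  set x0 := (z 0).re
  set x1 := (z 1).re
  set x2 := (z 2).re
  set x3 := (z 3).re
  set y0 := (z 0).im
  set y1 := (z 1).im
  set y2 := (z 2).im
  set y3 := (z 3).im
  have hx : x0*x0 + x1*x1 + x2*x2 + x3*x3 = 1/2 := by linarith
  have hy : y0*y0 + y1*y1 + y2*y2 + y3*y3 = 1/2 := by linarith
  have hxy : x0*y0 + x1*y1 + x2*y2 + x3*y3 = 0 := by linarith
  have lag : (2 * (x0 * y1 - y0 * x1)) ^ 2 + (2 * (x0 * y2 - y0 * x2)) ^ 2 + (2 * (x0 * y3 - y0 * x3)) ^ 2 +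
      (2 * (x1 * y2 - y1 * x2)) ^ 2 + (2 * (x1 * y3 - y1 * x3)) ^ 2 + (2 * (x2 * y3 - y2 * x3)) ^ 2
      = 4 * ((x0*x0 + x1*x1 + x2*x2 + x3*x3) * (y0*y0 + y1*y1 + y2*y2 + y3*y3) - (x0*y0 + x1*y1 + x2*y2 + x3*y3)^2) := by
    ring
  rw [lag, hx, hy, hxy]
  norm_num

end Crest.Agent.Q3
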