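/-
Row 205 (S0316), task PE: short periodic orbits of a Lipschitz ODE are stationary (generic lemma, sup norm on `Fin n → ℝ`).
One owner; keep the statement.
-/
import Mathlib

set_option autoImplicit false

namespace Crest.Agent.Q3

/-- PROOF.  `t ↦ ‖Y (m t)‖` is continuous on the compact `[0,T]` (`m` is continuous there, `Y` is Lipschitz on `S`), so it attains its
maximum `D` at some `t*` (`IsCompact.exists_isMaxOn`).  If `n = 0` trivial.  Choose `j` with `|Y (m t*) j| = D`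
(sup norm: `Finset.exists_mem_eq_sup'`, or: `pi_norm_le_iff_of_nonneg` by contradiction).  `m_j` is differentiable with `m_j T = m_j 0`:
Rolle (`exists_hasDerivAt_eq_zero`) gives `s ∈ (0,T)` with `Y (m s) j = 0`.  Then
`D = |Y (m t*) j - Y (m s) j| ≤ ‖Y (m t*) - Y (m s)‖ ≤ L ‖m t* - m s‖ ≤ L D |t* - s| ≤ L T D`
(mean value inequality `Convex.norm_image_sub_le_of_norm_hasDerivWithin_le` on `[0,T]` with the bound `D`).  As `L T < 1`, `D = 0`. -/
theorem stationary_of_periodic {n : ℕ} (Y : (Fin n → ℝ) → (Fin n → ℝ)) (m : ℝ → Fin n → ℝ) (T L : ℝ)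
    (hT : 0 < T) (hL : 0 ≤ L) (hLT : L * T < 1) (S : Set (Fin n → ℝ))
    (hm : ∀ t ∈ Set.Icc (0 : ℝ) T, HasDerivAt m (Y (m t)) t) (hS : ∀ t ∈ Set.Icc (0 : ℝ) T, m t ∈ S)
    (hlip : ∀ a ∈ S, ∀ b ∈ S, ‖Y a - Y b‖ ≤ L * ‖a - b‖) (hper : m T = m 0) : Y (m 0) = 0 := by
  classical
  -- continuity of `m` on `[0,T]`
  have hmc : ContinuousOn m (Set.Icc (0 : ℝ) T) := fun t ht => (hm t ht).continuousAt.continuousWithinAt
  -- continuity of `t ↦ Y (m t)` on `[0,T]`
  have hYc : ContinuousOn (fun t => Y (m t)) (Set.Icc (0 : ℝ) T) := by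
    have hYS : LipschitzOnWith (Real.toNNReal L) Y S := by
      apply LipschitzOnWith.of_dist_le_mul
      intro a ha b hb
      rw [dist_eq_norm, dist_eq_norm, Real.coe_toNNReal L hL]
      exact hlip a ha b hb
    exact hYS.continuousOn.comp hmc (fun t ht => hS t ht)
  have hne : (Set.Icc (0 : ℝ) T).Nonempty := ⟨0, le_refl 0, hT.le⟩
  obtain ⟨ts, hts, hmax⟩ := isCompact_Icc.exists_isMaxOn hne hYc.norm
  set D : ℝ := ‖Y (m ts)‖ with hD
  have hD0 : 0 ≤ D := norm_nonneg _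
  have hbound : ∀ t ∈ Set.Icc (0 : ℝ) T, ‖Y (m t)‖ ≤ D := fun t ht => hmax ht
  -- every coordinate of `Y (m ts)` is bounded by `L * T * D`
  have hcoord : ∀ j : Fin n, ‖Y (m ts) j‖ ≤ L * T * D := by
    intro j
    have hder : ∀ t ∈ Set.Ioo (0 : ℝ) T, HasDerivAt (fun t => m t j) (Y (m t) j) t := by
      intro t ht
      exact (hasDerivAt_pi.1 (hm t ⟨ht.1.le, ht.2.le⟩)) j
    have hcj : ContinuousOn (fun t => m t j) (Set.Icc (0 : ℝ) T) :=
      (continuous_apply j).comp_continuousOn hmc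
    have hper' : (fun t => m t j) 0 = (fun t => m t j) T := by
      simp only [hper]
    obtain ⟨s, hs, hs0⟩ := exists_hasDerivAt_eq_zero hT hcj hper' hder
    have hsI : s ∈ Set.Icc (0 : ℝ) T := ⟨hs.1.le, hs.2.le⟩
    have h1 : ‖Y (m ts) j‖ ≤ ‖Y (m ts) - Y (m s)‖ := by
      have := norm_le_pi_norm (Y (m ts) - Y (m s)) j
      simpa [hs0] using this
    have h2 : ‖Y (m ts) - Y (m s)‖ ≤ L * ‖m ts - m s‖ := hlip _ (hS ts hts) _ (hS s hsI)
    have h3 : ‖m ts - m s‖ ≤ D * ‖ts - s‖ :=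
      Convex.norm_image_sub_le_of_norm_hasDerivWithin_le
        (fun t ht => (hm t ht).hasDerivWithinAt) hbound (convex_Icc 0 T) hsI hts
    have h4 : ‖ts - s‖ ≤ T := by
      rw [Real.norm_eq_abs, abs_le]
      constructor <;> linarith [hts.1, hts.2, hsI.1, hsI.2]
    calc ‖Y (m ts) j‖ ≤ L * ‖m ts - m s‖ := h1.trans h2
      _ ≤ L * (D * T) := by
          apply mul_le_mul_of_nonneg_left _ hL
          exact h3.trans (mul_le_mul_of_nonneg_left h4 hD0)
      _ = L * T * D := by ring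
  have hDle : D ≤ L * T * D :=
    (pi_norm_le_iff_of_nonneg (mul_nonneg (mul_nonneg hL hT.le) hD0)).2 hcoord
  have hDz : D = 0 := by
    by_contra hne0
    have hpos : 0 < D := lt_of_le_of_ne hD0 (Ne.symm hne0)
    nlinarith
  have h0 : ‖Y (m 0)‖ ≤ D := hbound 0 ⟨le_refl 0, hT.le⟩
  rw [hDz] at h0
  exact norm_le_zero_iff.1 h0

end Crest.Agent.Q3
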