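/-
Row 205 (S0316), task FX1: the fixed lines of the time-one map: necessary conditions.
One owner; keep the statements; auxiliary lemmas private.
-/
import Crest.Agent.Q3_Lift1
import Crest.Agent.Q3_MOde
import Crest.Agent.Q3_Periodic

set_option autoImplicit false
open Crest.GeometryTopology.Quadric

namespace Crest.Agent.Q3

theorem T1_pos : 0 < T1 := by
  unfold T1 κ
  have h : 0 < Real.sin 1 := Real.sin_pos_of_pos_of_lt_pi one_pos (by linarith [Real.pi_gt_three])
  positivity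

theorem T1_le : T1 ≤ κ := by
  unfold T1
  have h : Real.sin 1 ≤ 1 := Real.sin_le_one 1
  have hk : (0 : ℝ) ≤ κ := by unfold κ; norm_num
  calc κ * Real.sin 1 ≤ κ * 1 := mul_le_mul_of_nonneg_left h hk
    _ = κ := mul_one _

theorem T1_lt : |T1| < δ := abs_kappa_sin_lt 1

/-- `Psi_of_mem_cone`, `rot_one` -/
theorem Psi_one {z : E} (hz : z ∈ unitCone) :
    Psi (1, z) = ![-Φ (T1, z) 0, -Φ (T1, z) 1, -Φ (T1, z) 2, -Φ (T1, z) 3, Φ (T1, z) 4] := by
  rw [Psi_of_mem_cone 1 hz, rot_one]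
  rfl

/-- OFF THE QUADRIC SURFACE.  Coordinate 4: `z 4 = Φ (T1,z) 4 = c * z 4` (`Phi_four`), so `c = 1`.  For `j ≠ 4`: `-Φ (T1,z) j = z j`, so
`2 ‖z j‖ = ‖Φ (T1,z) j - z j‖ ≤ ‖Φ (T1,z) - z‖ ≤ 2 T1 ‖X z‖ ≤ 2 * (1/1000) * 5 = 1/100` (`Phi_close`, `X_bound_one`),
contradicting `exists_third_le_of_mem_cone`. -/
theorem four_eq_zero_of_fixed {z : E} (hz : z ∈ unitCone) {c : ℂ} (h : Psi (1, z) = c • z) : z 4 = 0 := by
  by_contra h4
  rw [Psi_one hz] at h
  have hc4 : Φ (T1, z) 4 = c * z 4 := by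
    have := congrFun h 4
    simpa using this
  rw [Phi_four hz T1_lt] at hc4
  have hc : c = 1 := by
    have h5 : (c - 1) * z 4 = 0 := by rw [sub_mul, one_mul, ← hc4, sub_self]
    rcases mul_eq_zero.1 h5 with h6 | h6
    · exact sub_eq_zero.1 h6
    · exact absurd h6 h4
  subst hc
  obtain ⟨j, hj4, hj⟩ := exists_third_le_of_mem_cone hz
  have hneg : -Φ (T1, z) j = z j := by
    have := congrFun h j
    fin_cases j
    · simpa using this
    · simpa using this
    · simpa using this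
    · simpa using this
    · exact absurd rfl hj4
  have hz1 : ‖z‖ ≤ 1 := norm_le_one_of_mem_cone hz
  have hclose := Phi_close T1 z T1_lt.le (hz1.trans (by norm_num))
  have hX := X_bound_one z hz1
  have h1 : ‖(Φ (T1, z) - z) j‖ ≤ ‖Φ (T1, z) - z‖ := norm_le_pi_norm _ j
  have h2 : (Φ (T1, z) - z) j = -(2 * z j) := by
    rw [Pi.sub_apply, ← neg_eq_iff_eq_neg.2 hneg.symm]
    ring
  rw [h2, norm_neg, norm_mul] at h1
  have h3 : ‖(2 : ℂ)‖ = 2 := by simp
  rw [h3] at h1
  have hT : |T1| ≤ 1 / 1000 := by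
    rw [abs_of_pos T1_pos]
    have := T1_le
    unfold κ at this
    exact this
  have h4' : 2 * |T1| * ‖X z‖ ≤ 2 * (1 / 1000) * 5 := by
    have := norm_nonneg (X z)
    have := abs_nonneg T1
    gcongr
  linarith

/-- ON THE QUADRIC SURFACE.  `Φ (T1,z) = (-c) • z` (coordinates; `z 4 = 0`), `‖c‖ = 1` (`norm_eq_one_of_smul_mem`, `Psi_mem_cone`), so
`mvec (Φ (T1,z)) = mvec z` (`mvec_smul`).  Apply `stationary_of_periodic` to `m t = mvec (Φ (t,z))`, `T = T1`, `L = 10`, `S = closedBall 0 1`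
(`hasDerivAt_mvec`, `Phi_hasDerivAt`, `norm_mvec_le`, `Phi_mem_cone`, `Y_lip`, `Phi_zero`). -/
theorem stationary_of_fixed {z : E} (hz : z ∈ unitCone) (h4 : z 4 = 0) {c : ℂ} (h : Psi (1, z) = c • z) :
    Y (mvec z) = 0 := by
  have hc : ‖c‖ = 1 := by
    apply norm_eq_one_of_smul_mem hz
    rw [← h]
    exact Psi_mem_cone 1 hz
  have hz1 : ‖z‖ ≤ 1 := norm_le_one_of_mem_cone hz
  have hΦ : Φ (T1, z) = (-c) • z := by
    rw [Psi_one hz] at h
    funext j
    have := congrFun h j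
    fin_cases j
    · have h' : -Φ (T1, z) 0 = c * z 0 := by simpa using this
      simp only [Fin.zero_eta, Pi.smul_apply, smul_eq_mul]
      rw [neg_mul, ← h', neg_neg]
    · have h' : -Φ (T1, z) 1 = c * z 1 := by simpa using this
      simp only [Fin.mk_one, Pi.smul_apply, smul_eq_mul]
      rw [neg_mul, ← h', neg_neg]
    · have h' : -Φ (T1, z) 2 = c * z 2 := by simpa using this
      simp only [Fin.reduceFinMk, Pi.smul_apply, smul_eq_mul]
      rw [neg_mul, ← h', neg_neg]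
    · have h' : -Φ (T1, z) 3 = c * z 3 := by simpa using this
      simp only [Fin.reduceFinMk, Pi.smul_apply, smul_eq_mul]
      rw [neg_mul, ← h', neg_neg]
    · simp only [Fin.reduceFinMk, Pi.smul_apply, smul_eq_mul]
      rw [Phi_four hz T1_lt, h4, mul_zero]
  have hlt : ∀ t ∈ Set.Icc (0 : ℝ) T1, |t| < δ := by
    intro t ht
    rw [abs_of_nonneg ht.1]
    have := T1_lt
    rw [abs_of_pos T1_pos] at this
    exact lt_of_le_of_lt ht.2 this
  have key := stationary_of_periodic Y (fun t => mvec (Φ (t, z))) T1 10 T1_pos (by norm_num)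
    (by
      have := T1_le
      unfold κ at this
      linarith)
    (Metric.closedBall 0 1)
    (fun t ht => hasDerivAt_mvec (y := fun s => Φ (s, z))
      (Phi_hasDerivAt t z (hlt t ht) (lt_of_le_of_lt hz1 (by norm_num))))
    (fun t ht => by
      rw [mem_closedBall_zero_iff]
      exact norm_mvec_le (Phi_mem_cone hz (hlt t ht)))
    (fun a ha b hb => Y_lip a b (mem_closedBall_zero_iff.1 ha) (mem_closedBall_zero_iff.1 hb))
    (by
      show mvec (Φ (T1, z)) = mvec (Φ (0, z))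
      rw [hΦ, Phi_zero z (hz1.trans (by norm_num)), mvec_smul z (-c) (by rw [norm_neg]; exact hc)])
  simpa [Phi_zero z (hz1.trans (by norm_num))] using key

end Crest.Agent.Q3
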