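/-
Row 205 (S0316): the Hamiltonian cone lift (assembly, architect helper96).
-/
import Crest.Agent.Q3_Lift1

set_option autoImplicit false
open Crest.GeometryTopology.Quadric

namespace Crest.Agent.Q3

/-- the Hamiltonian isotopy `R_t ∘ (flow of F at time κ sin t)` -/
noncomputable def lift : HamiltonianConeLift where
  Ψ := Psi
  H := Ham
  smooth_Ψ := contDiff_Psi
  smooth_H := contDiff_Ham
  mapsTo_cone := fun t _ hz => Psi_mem_cone t hz
  compatible := fun t _ hz c hc => ⟨c, Psi_smul t hz c hc⟩
  start := fun z hz => ⟨1, by rw [Psi_zero hz, one_smul]⟩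
  invariant := fun t z _ c hc => Ham_smul t z c hc
  hamilton := by
    intro t _ z hz w _
    rw [(Psi_hasDerivAt t hz).deriv, fderiv_Ham]

theorem lift_Ψ : lift.Ψ = Psi := rfl

end Crest.Agent.Q3
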