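/-
Row 205 (S0316), task LI: a point of the cone is determined up to a scalar by its moment map.
One owner; keep the statements; auxiliary lemmas private.
-/
import Crest.Agent.Q3_FieldAlg
import Crest.Agent.Q3_Defs2

set_option autoImplicit false
open Crest.GeometryTopology.Quadric

namespace Crest.Agent.Q3

/-- `(M j k z : ℂ) = -i (conj z_j z_k - z_j conj z_k)` -/
theorem M_complex (j k : Fin 5) (z : E) :
    (M j k z : ℂ) = -Complex.I * (starRingEnd ℂ (z j) * z k - z j * starRingEnd ℂ (z k)) := by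
  apply Complex.ext
  · simp only [M, Complex.ofReal_re, Complex.mul_re, Complex.neg_re, Complex.I_re, Complex.neg_im,
      Complex.I_im, Complex.sub_re, Complex.sub_im, Complex.mul_im, Complex.conj_re, Complex.conj_im]
    ring
  · simp only [M, Complex.ofReal_im, Complex.mul_re, Complex.neg_re, Complex.I_re, Complex.neg_im,
      Complex.I_im, Complex.sub_re, Complex.sub_im, Complex.mul_im, Complex.conj_re, Complex.conj_im]
    ring

/-- for all `z, w`: `∑_k M j k z * w_k = -i (conj z_j * (∑ z_k w_k) - z_j * herm z w)` -/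
theorem sum_M_mul (z w : E) (j : Fin 5) :
    ∑ k, (M j k z : ℂ) * w k = -Complex.I * (starRingEnd ℂ (z j) * (∑ k, z k * w k) - z j * herm z w) := by
  simp only [herm, Finset.mul_sum, mul_sub, ← Finset.sum_sub_distrib]
  refine Finset.sum_congr rfl (fun k _ => ?_)
  rw [M_complex]
  ring

/-- PROOF.  `sum_M_mul z z`: on the cone `∑_k M j k z * z_k = i z_j`.  `sum_M_mul z₀ z` and `h`:
`i z_j = -i (conj z₀_j * b - z₀_j * herm z₀ z)` with `b = ∑ z₀_k z_k`, i.e. `z_j = -conj z₀_j * b + z₀_j * herm z₀ z`.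
Multiply by `z₀_j` and sum: `b = -(herm z₀ z₀) b + (∑ z₀²) herm z₀ z = -b`, so `b = 0`. -/
theorem line_of_M_eq {z z₀ : E} (hz : z ∈ unitCone) (hz₀ : z₀ ∈ unitCone)
    (h : ∀ j k, M j k z = M j k z₀) : z = herm z₀ z • z₀ := by
  obtain ⟨hz1, hz2⟩ := hz
  obtain ⟨hw1, hw2⟩ := hz₀
  have hzz : ∑ k, z k * z k = 0 := by
    rw [← hz2]; exact Finset.sum_congr rfl (fun k _ => (sq (z k)).symm)
  have hww : ∑ k, z₀ k * z₀ k = 0 := by
    rw [← hw2]; exact Finset.sum_congr rfl (fun k _ => (sq (z₀ k)).symm)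
  set b : ℂ := ∑ k, z₀ k * z k with hb
  -- the key formula
  have key : ∀ j, z j = -(starRingEnd ℂ (z₀ j) * b) + z₀ j * herm z₀ z := by
    intro j
    have h1 := sum_M_mul z z j
    rw [hzz, hz1] at h1
    have h2 := sum_M_mul z₀ z j
    have h3 : ∑ k, (M j k z : ℂ) * z k = ∑ k, (M j k z₀ : ℂ) * z k :=
      Finset.sum_congr rfl (fun k _ => by rw [h j k])
    rw [h1, h2] at h3
    have hI : Complex.I * Complex.I = -1 := Complex.I_mul_I
    have h4 : Complex.I * (-Complex.I * (starRingEnd ℂ (z j) * 0 - z j * 1)) =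
        Complex.I * (-Complex.I * (starRingEnd ℂ (z₀ j) * b - z₀ j * herm z₀ z)) := by rw [h3]
    have e1 : Complex.I * (-Complex.I * (starRingEnd ℂ (z j) * 0 - z j * 1)) = -(Complex.I * Complex.I) * (-(z j)) := by
      ring
    have e2 : Complex.I * (-Complex.I * (starRingEnd ℂ (z₀ j) * b - z₀ j * herm z₀ z)) =
        -(Complex.I * Complex.I) * (starRingEnd ℂ (z₀ j) * b - z₀ j * herm z₀ z) := by ring
    rw [e1, e2, hI] at h4
    linear_combination -h4
  have hb0 : b = 0 := by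
    have h5 : b = -(herm z₀ z₀ * b) + (∑ k, z₀ k * z₀ k) * herm z₀ z := by
      calc b = ∑ k, z₀ k * z k := hb
        _ = ∑ k, z₀ k * (-(starRingEnd ℂ (z₀ k) * b) + z₀ k * herm z₀ z) :=
            Finset.sum_congr rfl (fun k _ => congrArg (fun t => z₀ k * t) (key k))
        _ = ∑ k, (-(starRingEnd ℂ (z₀ k) * z₀ k * b) + z₀ k * z₀ k * herm z₀ z) :=
            Finset.sum_congr rfl (fun k _ => by ring)
        _ = -(herm z₀ z₀ * b) + (∑ k, z₀ k * z₀ k) * herm z₀ z := by
            rw [Finset.sum_add_distrib, Finset.sum_neg_distrib, ← Finset.sum_mul, ← Finset.sum_mul]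
            rfl
    rw [hw1, hww] at h5
    have h6 : 2 * b = 0 := by linear_combination h5
    simpa using h6
  funext j
  rw [key j, hb0]
  simp only [Pi.smul_apply, smul_eq_mul]
  ring

private theorem M_four_right {z : E} (h4 : z 4 = 0) (j : Fin 5) : M j 4 z = 0 := by
  simp [M, h4]

private theorem M_four_left {z : E} (h4 : z 4 = 0) (k : Fin 5) : M 4 k z = 0 := by
  simp [M, h4]

/-- all `M j k` are determined by `mvec` when the last coordinate vanishes (`M_self`, `M_swap`, `M j 4 = 0`; `fin_cases j <;> fin_cases k`) -/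
theorem line_of_mvec_eq {z z₀ : E} (hz : z ∈ unitCone) (hz₀ : z₀ ∈ unitCone) (h4 : z 4 = 0) (h4' : z₀ 4 = 0)
    (h : mvec z = mvec z₀) : ∃ c : ℂ, z = c • z₀ := by
  refine ⟨herm z₀ z, line_of_M_eq hz hz₀ ?_⟩
  have h01 : M 0 1 z = M 0 1 z₀ := congrFun h 0
  have h02 : M 0 2 z = M 0 2 z₀ := congrFun h 1
  have h03 : M 0 3 z = M 0 3 z₀ := congrFun h 2
  have h12 : M 1 2 z = M 1 2 z₀ := congrFun h 3
  have h13 : M 1 3 z = M 1 3 z₀ := congrFun h 4
  have h23 : M 2 3 z = M 2 3 z₀ := congrFun h 5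
  have h10 : M 1 0 z = M 1 0 z₀ := by rw [M_swap 1 0 z, M_swap 1 0 z₀, h01]
  have h20 : M 2 0 z = M 2 0 z₀ := by rw [M_swap 2 0 z, M_swap 2 0 z₀, h02]
  have h30 : M 3 0 z = M 3 0 z₀ := by rw [M_swap 3 0 z, M_swap 3 0 z₀, h03]
  have h21 : M 2 1 z = M 2 1 z₀ := by rw [M_swap 2 1 z, M_swap 2 1 z₀, h12]
  have h31 : M 3 1 z = M 3 1 z₀ := by rw [M_swap 3 1 z, M_swap 3 1 z₀, h13]
  have h32 : M 3 2 z = M 3 2 z₀ := by rw [M_swap 3 2 z, M_swap 3 2 z₀, h23]
  intro j k
  by_cases hjk : j = k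
  · subst hjk; rw [M_self, M_self]
  by_cases hk : k = 4
  · subst hk; rw [M_four_right h4, M_four_right h4']
  by_cases hj : j = 4
  · subst hj; rw [M_four_left h4, M_four_left h4']
  fin_cases j <;> fin_cases k <;> first | exact absurd rfl hjk | exact absurd rfl hk | exact absurd rfl hj | assumption

/-- consequently the complex lines coincide (`Submodule.span_singleton_smul_eq` with `c ≠ 0`, as `z ≠ 0`) -/
theorem span_eq_of_mvec_eq {z z₀ : E} (hz : z ∈ unitCone) (hz₀ : z₀ ∈ unitCone) (h4 : z 4 = 0) (h4' : z₀ 4 = 0)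
    (h : mvec z = mvec z₀) : Submodule.span ℂ {z} = Submodule.span ℂ {z₀} := by
  obtain ⟨c, hc⟩ := line_of_mvec_eq hz hz₀ h4 h4' h
  have hc0 : c ≠ 0 := by
    rintro rfl
    rw [zero_smul] at hc
    have h1 := hz.1
    rw [hc] at h1
    simp [herm] at h1
  rw [hc]
  exact Submodule.span_singleton_smul_eq (IsUnit.mk0 c hc0) z₀

end Crest.Agent.Q3
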