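/-
Row 205 (S0316), task PT: the three explicit points `p0`, `pp 1`, `pp (-1)`, the direction `w0`, the curve `curve0`.
Explicit computations with `s2² = 1/2`, `r3² = 3/4`.  One owner; keep the statements; auxiliary lemmas private.
-/
import Crest.Agent.Q3_Defs2

set_option autoImplicit false
open Crest.GeometryTopology.Quadric

namespace Crest.Agent.Q3

theorem s2_sq : s2 ^ 2 = 1 / 2 := by
  unfold s2
  rw [inv_pow, Real.sq_sqrt (by norm_num)]
  norm_num

theorem s2_pos : 0 < s2 := by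
  unfold s2; positivity

theorem r3_sq' : r3 ^ 2 = 3 / 4 := by
  unfold r3
  rw [div_pow, Real.sq_sqrt (by norm_num)]
  norm_num

theorem r3_pos : 0 < r3 := by
  unfold r3; positivity

private theorem s2c_sq : (s2 : ℂ) ^ 2 = 1 / 2 := by
  have := s2_sq
  rw [← Complex.ofReal_pow, this]
  norm_num

private theorem r3c_sq : (r3 : ℂ) ^ 2 = 3 / 4 := by
  have := r3_sq'
  rw [← Complex.ofReal_pow, this]
  norm_num

private theorem s2_mul : s2 * s2 = 1 / 2 := by
  have := s2_sq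
  nlinarith

private theorem r3_mul : r3 * r3 = 3 / 4 := by
  have := r3_sq'
  nlinarith

private theorem M_eq (j k : Fin 5) (z : E) :
    M j k z = 2 * ((z j).re * (z k).im - (z j).im * (z k).re) := by
  simp [M, Complex.mul_im]
  ring

theorem p0_mem_cone : p0 ∈ unitCone := by
  constructor
  · simp only [herm, Fin.sum_univ_five, p0]
    simp
    linear_combination 2 * s2c_sq - (s2 : ℂ) ^ 2 * Complex.I_sq
  · simp only [Fin.sum_univ_five, p0]
    simp [mul_pow]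

theorem p0_four : p0 4 = 0 := rfl

theorem mvec_p0 : mvec p0 = ![0, 0, 1, 0, 0, 0] := by
  ext i
  fin_cases i <;> simp [mvec, M_eq, p0]
  linarith [s2_mul]

private theorem M_of_mvec {z : E} {v : Fin 6 → ℝ} (h : mvec z = v) :
    M 0 1 z = v 0 ∧ M 0 2 z = v 1 ∧ M 0 3 z = v 2 ∧ M 1 2 z = v 3 ∧ M 1 3 z = v 4 ∧ M 2 3 z = v 5 := by
  subst h
  exact ⟨rfl, rfl, rfl, rfl, rfl, rfl⟩

theorem X_p0 : X p0 = 0 := by
  obtain ⟨h01, h02, h03, h12, h13, h23⟩ := M_of_mvec mvec_p0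
  unfold X
  rw [h01, h03, h12, h23]
  ext i
  fin_cases i <;> simp [p0]

theorem pp_mem_cone (σ : ℝ) (hσ : σ ^ 2 = 1) : pp σ ∈ unitCone := by
  have hσc : (σ : ℂ) ^ 2 = 1 := by
    rw [← Complex.ofReal_pow, hσ]; norm_num
  constructor
  · simp only [herm, Fin.sum_univ_five, pp]
    have h2 : (starRingEnd ℂ) 2 = 2 := Complex.conj_ofNat 2
    simp [h2]
    linear_combination (2 : ℂ) * s2c_sq - ((σ : ℂ) ^ 2 * (r3 : ℂ) ^ 2 * (s2 : ℂ) ^ 2 + 1 / 4 * (s2 : ℂ) ^ 2) * Complex.I_sq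
      + (r3 : ℂ) ^ 2 * (s2 : ℂ) ^ 2 * hσc + (s2 : ℂ) ^ 2 * r3c_sq
  · simp only [Fin.sum_univ_five, pp]
    simp [mul_pow]
    linear_combination - (r3 : ℂ) ^ 2 * (s2 : ℂ) ^ 2 * hσc - (s2 : ℂ) ^ 2 * r3c_sq

theorem pp_four (σ : ℝ) : pp σ 4 = 0 := rfl

theorem mvec_pp (σ : ℝ) (hσ : σ ^ 2 = 1) : mvec (pp σ) = ![σ * r3, 0, -(1 / 2), 0, 0, 0] := by
  ext i
  fin_cases i <;> simp [mvec, M_eq, pp]
  · linear_combination 2 * σ * r3 * s2_mul
  · linear_combination s2_mul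

/-- `X (pp σ) = -2 σ r3 i • pp σ`  (`2 r3 = √3`) -/
theorem X_pp (σ : ℝ) (hσ : σ ^ 2 = 1) : X (pp σ) = (((-(2 * σ * r3) : ℝ) : ℂ) * Complex.I) • pp σ := by
  have hσc : (σ : ℂ) ^ 2 = 1 := by
    rw [← Complex.ofReal_pow, hσ]; norm_num
  obtain ⟨h01, h02, h03, h12, h13, h23⟩ := M_of_mvec (mvec_pp σ hσ)
  unfold X
  rw [h01, h03, h12, h23]
  ext i
  fin_cases i <;> simp [pp]
  · ring
  · linear_combination 2 * (σ : ℂ) ^ 2 * (r3 : ℂ) ^ 2 * (s2 : ℂ) * Complex.I_sq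
      - 2 * (r3 : ℂ) ^ 2 * (s2 : ℂ) * hσc - 2 * (s2 : ℂ) * r3c_sq
  · linear_combination -((σ : ℂ) * (r3 : ℂ) * (s2 : ℂ)) * Complex.I_sq

/-- the three lines are distinct: if `span {a} = span {b}` then `a = c • b` (`Submodule.mem_span_singleton`); compare the coordinates 0, 1, 3 -/
theorem span_p0_ne_pp (σ : ℝ) : Submodule.span ℂ {p0} ≠ Submodule.span ℂ {pp σ} := by
  intro h
  have hm : p0 ∈ Submodule.span ℂ {pp σ} := h ▸ Submodule.mem_span_singleton_self p0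
  obtain ⟨c, hc⟩ := Submodule.mem_span_singleton.1 hm
  have h0 := congrFun hc 0
  have h3 := congrFun hc 3
  have hs : (s2 : ℂ) ≠ 0 := by exact_mod_cast s2_pos.ne'
  simp [p0, pp] at h0 h3
  have hc1 : c = 1 := mul_right_cancel₀ hs (by rw [h0, one_mul])
  subst hc1
  have h4 : (s2 : ℂ) * Complex.I = 0 := by linear_combination (-2 / 3 : ℂ) * h3
  simp [hs] at h4

theorem span_pp_ne : Submodule.span ℂ {pp 1} ≠ Submodule.span ℂ {pp (-1)} := by
  intro h
  have hm : pp 1 ∈ Submodule.span ℂ {pp (-1)} := h ▸ Submodule.mem_span_singleton_self (pp 1)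
  obtain ⟨c, hc⟩ := Submodule.mem_span_singleton.1 hm
  have h0 := congrFun hc 0
  have h1 := congrFun hc 1
  have hs : (s2 : ℂ) ≠ 0 := by exact_mod_cast s2_pos.ne'
  have hr : (r3 : ℂ) ≠ 0 := by exact_mod_cast r3_pos.ne'
  simp [pp] at h0 h1
  have hc1 : c = 1 := mul_right_cancel₀ hs (by rw [h0, one_mul])
  subst hc1
  have h4 : (r3 : ℂ) * (s2 : ℂ) * Complex.I = 0 := by linear_combination (-1 / 2 : ℂ) * h1
  simp [hs, hr] at h4

theorem w0_mem_tangent : w0 ∈ coneTangent p0 := by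
  constructor
  · simp only [herm, Fin.sum_univ_five, p0, w0]
    simp
  · simp only [Fin.sum_univ_five, p0, w0]
    simp

theorem w0_ne (r : ℝ) : w0 ≠ ((r : ℂ) * Complex.I) • p0 := by
  intro h
  have h2 := congrFun h 2
  simp [w0, p0] at h2
  exact s2_pos.ne' h2

theorem curve0_zero : curve0 0 = p0 := by
  simp [curve0, p0]

/-- the curve with `sin h`, `cos h` replaced by abstract reals -/
private noncomputable def cv (a b : ℝ) : E :=
  ![(s2 : ℂ), 0, ((s2 * a : ℝ) : ℂ) * Complex.I, ((s2 * b : ℝ) : ℂ) * Complex.I, 0]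

private theorem curve0_eq (h : ℝ) : curve0 h = cv (Real.sin h) (Real.cos h) := rfl

private theorem cv_mem_cone (a b : ℝ) (hab : a ^ 2 + b ^ 2 = 1) : cv a b ∈ unitCone := by
  have hcs : (a : ℂ) ^ 2 + (b : ℂ) ^ 2 = 1 := by
    exact_mod_cast hab
  constructor
  · simp only [herm, Fin.sum_univ_five, cv]
    simp
    linear_combination (2 : ℂ) * s2c_sq + (s2 : ℂ) ^ 2 * hcs
      - (s2 : ℂ) ^ 2 * ((a : ℂ) ^ 2 + (b : ℂ) ^ 2) * Complex.I_sq
  · simp only [Fin.sum_univ_five, cv]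
    simp [mul_pow]
    linear_combination - (s2 : ℂ) ^ 2 * hcs

theorem curve0_mem_cone (h : ℝ) : curve0 h ∈ unitCone := by
  rw [curve0_eq]
  exact cv_mem_cone _ _ (Real.sin_sq_add_cos_sq h)

theorem hasDerivAt_curve0 : HasDerivAt curve0 w0 0 := by
  rw [hasDerivAt_pi]
  intro i
  fin_cases i
  · simpa [curve0, w0] using hasDerivAt_const (0 : ℝ) (s2 : ℂ)
  · simpa [curve0, w0] using hasDerivAt_const (0 : ℝ) (0 : ℂ)
  · have h1 : HasDerivAt (fun h : ℝ => s2 * Real.sin h) (s2 * Real.cos 0) 0 :=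
      (Real.hasDerivAt_sin 0).const_mul s2
    have h3 := h1.ofReal_comp.mul_const Complex.I
    simpa [curve0, w0] using h3
  · have h1 : HasDerivAt (fun h : ℝ => s2 * Real.cos h) (s2 * -Real.sin 0) 0 :=
      (Real.hasDerivAt_cos 0).const_mul s2
    have h3 := h1.ofReal_comp.mul_const Complex.I
    simpa [curve0, w0] using h3
  · simpa [curve0, w0] using hasDerivAt_const (0 : ℝ) (0 : ℂ)

private theorem X_cv (a b : ℝ) : X (cv a b) = ![0, (((1 - b) * s2 : ℝ) : ℂ), 0, 0, 0] := by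
  have h01 : M 0 1 (cv a b) = 0 := by simp [M_eq, cv]
  have h03 : M 0 3 (cv a b) = b := by
    simp [M_eq, cv]
    linear_combination 2 * b * s2_mul
  have h12 : M 1 2 (cv a b) = 0 := by simp [M_eq, cv]
  have h23 : M 2 3 (cv a b) = 0 := by simp [M_eq, cv]
  unfold X
  rw [h01, h03, h12, h23]
  ext i
  fin_cases i <;> simp [cv]

/-- along the curve `M03 = cos h`, `M02 = sin h`, all other components vanish, so `X (curve0 h) = (1 - cos h) • (0, s2, 0, 0, 0)`;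
`1 - cos h ≤ h²/2` (`Real.one_sub_sq_div_two_le_cos`), `s2 ≤ 1`. -/
theorem norm_X_curve0_le (h : ℝ) : ‖X (curve0 h)‖ ≤ h ^ 2 := by
  rw [curve0_eq, X_cv]
  have hs1 : s2 ≤ 1 := by nlinarith [s2_pos, s2_sq]
  have hc1 : 0 ≤ 1 - Real.cos h := by linarith [Real.cos_le_one h]
  have hc2 : 1 - Real.cos h ≤ h ^ 2 / 2 := by linarith [Real.one_sub_sq_div_two_le_cos (x := h)]
  rw [pi_norm_le_iff_of_nonneg (by positivity)]
  intro i
  fin_cases i
  · simp; positivity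
  · simp only [Fin.mk_one, Matrix.cons_val_one, Matrix.cons_val_zero]
    rw [Complex.norm_real, Real.norm_eq_abs, abs_of_nonneg (mul_nonneg hc1 s2_pos.le)]
    nlinarith [s2_pos, sq_nonneg h]
  · simp; positivity
  · simp; positivity
  · simp; positivity

end Crest.Agent.Q3
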