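/-
Row 205 (S0316), task FX2: the fixed lines of the time-one map are exactly the three lines through `p0`, `pp 1`, `pp (-1)`.
One owner; keep the statements; auxiliary lemmas private.
-/
import Crest.Agent.Q3_Fixed1
import Crest.Agent.Q3_Crit
import Crest.Agent.Q3_Line
import Crest.Agent.Q3_Points
import Crest.Agent.Q3_Lift

set_option autoImplicit false
open Crest.GeometryTopology.Quadric

namespace Crest.Agent.Q3

/-- if `X z = i a z` and `z 4 = 0` then `Psi (1,z) = -exp(i a T1) • z` (`Phi_eigen`, `Psi_one`) -/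
theorem Psi_one_of_eigen {z : E} (hz : z ∈ unitCone) (h4 : z 4 = 0) (a : ℝ)
    (h : X z = ((a : ℂ) * Complex.I) • z) :
    Psi (1, z) = (-Complex.exp (((a * T1 : ℝ) : ℂ) * Complex.I)) • z := by
  rw [Psi_one hz, Phi_eigen hz T1_lt a h]
  funext j
  fin_cases j
  · simp
  · simp
  · simp
  · simp
  · simp [h4]

/-- `X p0 = 0 = (0 * i) • p0` -/
theorem Psi_one_p0 : Psi (1, p0) = (-1 : ℂ) • p0 := by
  have h := Psi_one_of_eigen p0_mem_cone p0_four 0 (by rw [X_p0]; simp)
  rw [h]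
  simp

private theorem mem_fixed_of_eigen {z : E} (hz : z ∈ unitCone) (h4 : z 4 = 0) (a : ℝ)
    (h : X z = ((a : ℂ) * Complex.I) • z) : Submodule.span ℂ {z} ∈ fixedLines lift := by
  refine ⟨z, hz, rfl, ?_⟩
  rw [lift_Ψ, Psi_one_of_eigen hz h4 a h]
  exact Submodule.smul_mem _ _ (Submodule.mem_span_singleton_self z)

/-- (⊆) `ℓ = span {z}`, `Psi (1,z) ∈ ℓ` gives `c` (`Submodule.mem_span_singleton`); `four_eq_zero_of_fixed`, `stationary_of_fixed`,
`crit_values` (with `mvec_sq_sum`, `mvec_plucker`), then `span_eq_of_mvec_eq` with `mvec_p0`, `mvec_pp`.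
(⊇) `Psi_one_of_eigen` with `X_p0`, `X_pp`. -/
theorem fixedLines_lift :
    fixedLines lift =
      {Submodule.span ℂ {p0}, Submodule.span ℂ {pp 1}, Submodule.span ℂ {pp (-1)}} := by
  have h1 : ((1:ℝ)) ^ 2 = 1 := by norm_num
  have h1' : ((-1:ℝ)) ^ 2 = 1 := by norm_num
  apply Set.Subset.antisymm
  · rintro ℓ ⟨z, hz, rfl, hmem⟩
    rw [lift_Ψ] at hmem
    obtain ⟨c, hc⟩ := Submodule.mem_span_singleton.1 hmem
    have h4 : z 4 = 0 := four_eq_zero_of_fixed hz hc.symm
    have hY : Y (mvec z) = 0 := stationary_of_fixed hz h4 hc.symm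
    rcases crit_values (mvec z) hY (mvec_sq_sum hz h4) (mvec_plucker z) with h | h | h
    · left
      exact span_eq_of_mvec_eq hz p0_mem_cone h4 p0_four (by rw [h, mvec_p0])
    · right; left
      exact span_eq_of_mvec_eq hz (pp_mem_cone 1 h1) h4 (pp_four 1) (by rw [h, mvec_pp 1 h1, one_mul])
    · right; right
      exact span_eq_of_mvec_eq hz (pp_mem_cone (-1) h1') h4 (pp_four (-1))
        (by rw [h, mvec_pp (-1) h1', neg_one_mul])
  · rintro ℓ (rfl | rfl | rfl)
    · exact mem_fixed_of_eigen p0_mem_cone p0_four 0 (by rw [X_p0]; simp)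
    · exact mem_fixed_of_eigen (pp_mem_cone 1 h1) (pp_four 1) _ (X_pp 1 h1)
    · exact mem_fixed_of_eigen (pp_mem_cone (-1) h1') (pp_four (-1)) _ (X_pp (-1) h1')

/-- `Set.ncard_eq_three` / `Set.ncard_insert_of_notMem` with `span_p0_ne_pp`, `span_pp_ne` -/
theorem ncard_fixedLines_lift : (fixedLines lift).ncard = 3 := by
  rw [fixedLines_lift, Set.ncard_eq_three]
  exact ⟨_, _, _, span_p0_ne_pp 1, span_p0_ne_pp (-1), span_pp_ne, rfl⟩

end Crest.Agent.Q3
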