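/-
Row 205 (S0316), task DG: the fixed point `p0` is degenerate.
One owner; keep the statements; auxiliary lemmas private.
-/
import Crest.Agent.Q3_Fixed2

set_option autoImplicit false
open Crest.GeometryTopology.Quadric

namespace Crest.Agent.Q3

/-- For all `h`: `Psi (1, curve0 h) + curve0 h = ` (coordinates `j<4`: `-(Φ (T1, y) j - y j)`, coordinate 4: `0 + 0`), `y = curve0 h`, so
`‖Psi (1, curve0 h) + curve0 h‖ ≤ ‖Φ (T1,y) - y‖ ≤ 2 T1 ‖X y‖ ≤ h²` (`Psi_one`, `Phi_four`, `Phi_close`, `norm_X_curve0_le`). -/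
theorem norm_Psi_curve0_le (h : ℝ) : ‖Psi (1, curve0 h) + curve0 h‖ ≤ h ^ 2 := by
  have hy : curve0 h ∈ unitCone := curve0_mem_cone h
  have hy1 : ‖curve0 h‖ ≤ 3 / 2 := (norm_le_one_of_mem_cone hy).trans (by norm_num)
  have hclose := Phi_close T1 (curve0 h) T1_lt.le hy1
  have hX := norm_X_curve0_le h
  have h4 : Φ (T1, curve0 h) 4 = curve0 h 4 := Phi_four hy T1_lt
  have h40 : curve0 h 4 = 0 := rfl
  have hT : 2 * |T1| ≤ 1 := by
    rw [abs_of_pos T1_pos]
    have := T1_le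
    unfold κ at this
    linarith
  have hb : ‖Φ (T1, curve0 h) - curve0 h‖ ≤ h ^ 2 := by
    calc ‖Φ (T1, curve0 h) - curve0 h‖ ≤ 2 * |T1| * ‖X (curve0 h)‖ := hclose
      _ ≤ 1 * ‖X (curve0 h)‖ := by gcongr
      _ ≤ h ^ 2 := by rw [one_mul]; exact hX
  refine le_trans ?_ hb
  rw [pi_norm_le_iff_of_nonneg (norm_nonneg _)]
  intro j
  have hj := norm_le_pi_norm (Φ (T1, curve0 h) - curve0 h) j
  rw [Psi_one hy]
  refine le_trans (le_of_eq ?_) hj
  fin_cases j
  · show ‖-Φ (T1, curve0 h) 0 + curve0 h 0‖ = ‖Φ (T1, curve0 h) 0 - curve0 h 0‖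
    rw [← norm_neg]; congr 1; ring
  · show ‖-Φ (T1, curve0 h) 1 + curve0 h 1‖ = ‖Φ (T1, curve0 h) 1 - curve0 h 1‖
    rw [← norm_neg]; congr 1; ring
  · show ‖-Φ (T1, curve0 h) 2 + curve0 h 2‖ = ‖Φ (T1, curve0 h) 2 - curve0 h 2‖
    rw [← norm_neg]; congr 1; ring
  · show ‖-Φ (T1, curve0 h) 3 + curve0 h 3‖ = ‖Φ (T1, curve0 h) 3 - curve0 h 3‖
    rw [← norm_neg]; congr 1; ring
  · show ‖Φ (T1, curve0 h) 4 + curve0 h 4‖ = ‖Φ (T1, curve0 h) 4 - curve0 h 4‖
    rw [h4, h40]; simp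

/-- `Psi (1, curve0 h) = -curve0 h + O(h²)` and `hasDerivAt_curve0`:  `HasDerivAt (fun h => Psi (1, curve0 h) + curve0 h) 0 0`
(from the bound `h²`: `hasDerivAt_iff_isLittleO` or `HasDerivAt` of a function squeezed by `h²`), then subtract. -/
theorem hasDerivAt_Psi_curve0 : HasDerivAt (fun h : ℝ => Psi (1, curve0 h)) (-w0) 0 := by
  have h1 : HasDerivAt (fun h : ℝ => Psi (1, curve0 h) + curve0 h) 0 0 := by
    have h00 : Psi (1, curve0 0) + curve0 0 = 0 := by
      have := norm_Psi_curve0_le 0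
      simpa using this
    rw [hasDerivAt_iff_isLittleO]
    simp only [h00, sub_zero, smul_zero]
    have hO : (fun h : ℝ => Psi (1, curve0 h) + curve0 h) =O[nhds 0] fun h : ℝ => h ^ 2 := by
      apply Asymptotics.IsBigO.of_bound 1
      filter_upwards with h
      rw [one_mul, Real.norm_eq_abs, abs_of_nonneg (sq_nonneg h)]
      exact norm_Psi_curve0_le h
    refine hO.trans_isLittleO ?_
    have := Asymptotics.isLittleO_pow_id (𝕜 := ℝ) (n := 2) (by norm_num)
    simpa using this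
  have h2 := h1.sub hasDerivAt_curve0
  have e : ((fun h : ℝ => Psi (1, curve0 h) + curve0 h) - curve0) = fun h : ℝ => Psi (1, curve0 h) := by
    funext h
    simp
  rw [e, zero_sub] at h2
  exact h2

/-- `x ↦ Psi (1,x)` is differentiable at `p0` (`contDiff_Psi`), chain rule along `curve0` (`HasFDerivAt.comp_hasDerivAt`), uniqueness of the derivative. -/
theorem fderiv_Psi_one_w0 : fderiv ℝ (fun x : E => Psi (1, x)) p0 w0 = -w0 := by
  have hsm : ContDiff ℝ (⊤ : ℕ∞) (fun x : E => Psi (1, x)) :=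
    contDiff_Psi.comp (contDiff_const.prodMk contDiff_id)
  have hd : DifferentiableAt ℝ (fun x : E => Psi (1, x)) p0 :=
    (hsm.differentiable (by simp)).differentiableAt
  have hf : HasFDerivAt (fun x : E => Psi (1, x)) (fderiv ℝ (fun x : E => Psi (1, x)) p0) (curve0 0) := by
    rw [curve0_zero]; exact hd.hasFDerivAt
  have hc := hf.comp_hasDerivAt (0 : ℝ) hasDerivAt_curve0
  exact hc.unique hasDerivAt_Psi_curve0

/-- `z = p0`, `c = -1`, `w = w0`, `r = 0`. -/
theorem hasDegenerateFixedPoint_lift : HasDegenerateFixedPoint lift := by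
  refine ⟨p0, p0_mem_cone, -1, Psi_one_p0, w0, w0_mem_tangent, w0_ne, 0, ?_⟩
  show fderiv ℝ (fun x : E => Psi (1, x)) p0 w0 = _
  rw [fderiv_Psi_one_w0]
  simp

end Crest.Agent.Q3
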