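import Mathlib
import Crest.Prelude.Def_DaugavetL1
import Crest.Agent.Lib_helper3_R125Defs
import Crest.Agent.R125_Cof

/-! Row 125, task T9: the key lemma on spaces with the Daugavet property. -/

namespace Crest.Agent.R125_Daugavet

open Crest.Agent.Lib_helper3_R125Defs Crest.Agent.R125_Cof Crest.AnalysisR.L1Subspace


variable {V : Type*} [NormedAddCommGroup V] [NormedSpace ℝ V]

/-- the slice of the unit ball cut by `ψ` at height `c` -/
def Slice (ψ : V →L[ℝ] ℝ) (c : ℝ) : Set V := {z | ‖z‖ ≤ 1 ∧ c < ψ z}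

theorem le_of_norm_le_one {g : V →L[ℝ] ℝ} (hg : ‖g‖ ≤ 1) {z : V} (hz : ‖z‖ ≤ 1) : |g z| ≤ 1 := by
  have h := g.le_opNorm z
  rw [Real.norm_eq_abs] at h
  calc |g z| ≤ ‖g‖ * ‖z‖ := h
    _ ≤ 1 * 1 := by gcongr
    _ = 1 := by norm_num

theorem le_norm_of_norm_le_one {g : V →L[ℝ] ℝ} (hg : ‖g‖ ≤ 1) (z : V) : g z ≤ ‖z‖ := by
  have h := g.le_opNorm z
  rw [Real.norm_eq_abs] at h
  calc g z ≤ |g z| := le_abs_self _
    _ ≤ ‖g‖ * ‖z‖ := h
    _ ≤ 1 * ‖z‖ := by gcongr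
    _ = ‖z‖ := by ring

theorem exists_pair (hD : HasDaugavetProperty V) (φ : V →L[ℝ] ℝ) (hφ : ‖φ‖ = 1) (x0 : V)
    (hx0 : ‖x0‖ = 1) (η : ℝ) (hη : 0 < η) :
    ∃ (g : V →L[ℝ] ℝ) (u : V), ‖g‖ ≤ 1 ∧ ‖u‖ ≤ 1 ∧ 0 ≤ g x0 ∧ 2 - η < g u + g x0 * φ u := by
  have h2 : ‖ContinuousLinearMap.id ℝ V + φ.smulRight x0‖ = 2 := by
    rw [hD φ x0, ContinuousLinearMap.norm_smulRight_apply, hφ, hx0]; norm_num
  have hlt : 2 - η < ‖ContinuousLinearMap.id ℝ V + φ.smulRight x0‖ := by rw [h2]; linarith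
  obtain ⟨u, hu, hu2⟩ := ContinuousLinearMap.exists_lt_apply_of_lt_opNorm _ hlt
  obtain ⟨g, hg, hg2⟩ := exists_dual_vector'' ℝ ((ContinuousLinearMap.id ℝ V + φ.smulRight x0) u)
  have e : g ((ContinuousLinearMap.id ℝ V + φ.smulRight x0) u) = g u + g x0 * φ u := by
    simp [mul_comm]
  rw [e] at hg2
  have hg2' : g u + g x0 * φ u = ‖(ContinuousLinearMap.id ℝ V + φ.smulRight x0) u‖ := by
    exact_mod_cast hg2
  by_cases hs : 0 ≤ g x0
  · exact ⟨g, u, hg, hu.le, hs, by rw [hg2']; exact hu2⟩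
  · refine ⟨-g, -u, by rw [norm_neg]; exact hg, by rw [norm_neg]; exact hu.le, ?_, ?_⟩
    · simp only [neg_apply]; linarith
    · simp only [neg_apply, map_neg]
      have : - -g u + -g x0 * -φ u = g u + g x0 * φ u := by ring
      rw [this, hg2']; exact hu2

theorem slice_one (hD : HasDaugavetProperty V) (φ : V →L[ℝ] ℝ) (hφ : ‖φ‖ = 1) (x0 : V)
    (hx0 : ‖x0‖ = 1) (δ : ℝ) (hδ : 0 < δ) :
    ∃ (ψ : V →L[ℝ] ℝ) (c : ℝ), (Slice ψ c).Nonempty ∧
      ∀ z ∈ Slice ψ c, 1 - δ < φ z ∧ 2 - δ < ‖x0 + z‖ := by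
  set η := min δ 1 / 2 with hηdef
  have hη : 0 < η := by positivity
  have hη1 : η ≤ 1 / 2 := by
    have := min_le_right δ 1; rw [hηdef]; linarith
  have hηδ : 2 * η ≤ δ := by
    have := min_le_left δ 1; rw [hηdef]; linarith
  obtain ⟨g, u, hg, hu, hs, h⟩ := exists_pair hD φ hφ x0 hx0 η hη
  refine ⟨g + g x0 • φ, 2 - η, ⟨u, hu, by simpa using h⟩, ?_⟩
  rintro z ⟨hz, hz2⟩
  have hz2' : 2 - η < g z + g x0 * φ z := by simpa using hz2
  have h1 := abs_le.1 (le_of_norm_le_one hg hz)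
  have h2 := abs_le.1 (le_of_norm_le_one hφ.le hz)
  have h3 := abs_le.1 (le_of_norm_le_one hg hx0.le)
  have h4 : g (x0 + z) ≤ ‖x0 + z‖ := le_norm_of_norm_le_one hg _
  rw [map_add] at h4
  have h5 : g x0 * φ z ≤ g x0 := by nlinarith
  have h6 : g x0 * φ z ≤ 1 := by linarith
  have h7 : 1 - η < φ z := by
    by_contra hcon
    push Not at hcon
    have : g x0 * φ z ≤ 1 - η := by
      rcases le_or_gt 0 (φ z) with hp | hp
      · nlinarith
      · nlinarith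
    linarith
  constructor
  · linarith
  · linarith

theorem slice_two (hD : HasDaugavetProperty V) (ψ : V →L[ℝ] ℝ) (c : ℝ) (hne : (Slice ψ c).Nonempty)
    (x0 : V) (hx0 : ‖x0‖ = 1) (δ : ℝ) (hδ : 0 < δ) :
    ∃ (ψ' : V →L[ℝ] ℝ) (c' : ℝ), (Slice ψ' c').Nonempty ∧ Slice ψ' c' ⊆ Slice ψ c ∧
      ∀ z ∈ Slice ψ' c', 2 - δ < ‖x0 + z‖ := by
  obtain ⟨z0, hz0, hz0c⟩ := hne
  by_cases hψ : ψ = 0
  · subst hψ
    obtain ⟨g, hg, hg2⟩ := exists_dual_vector'' ℝ x0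
    have hg2' : g x0 = 1 := by rw [← hx0]; exact_mod_cast hg2
    refine ⟨g, 1 - δ, ⟨x0, hx0.le, by rw [hg2']; linarith⟩, ?_, ?_⟩
    · rintro z ⟨hz, _⟩
      exact ⟨hz, by simpa using hz0c⟩
    · rintro z ⟨hz, hz2⟩
      have h4 : g (x0 + z) ≤ ‖x0 + z‖ := le_norm_of_norm_le_one hg _
      rw [map_add, hg2'] at h4
      linarith
  · have hn : 0 < ‖ψ‖ := norm_pos_iff.2 hψ
    have hc : c < ‖ψ‖ := by
      have h := ψ.le_opNorm z0
      rw [Real.norm_eq_abs] at h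
      calc c < ψ z0 := hz0c
        _ ≤ |ψ z0| := le_abs_self _
        _ ≤ ‖ψ‖ * ‖z0‖ := h
        _ ≤ ‖ψ‖ * 1 := by gcongr
        _ = ‖ψ‖ := by ring
    have hφ : ‖(‖ψ‖⁻¹ • ψ)‖ = 1 := by
      rw [norm_smul, norm_inv, norm_norm, inv_mul_cancel₀ hn.ne']
    have hδ' : 0 < min δ (1 - c / ‖ψ‖) := by
      apply lt_min hδ
      rw [sub_pos, div_lt_one hn]; exact hc
    obtain ⟨ψ', c', hne', h⟩ := slice_one hD _ hφ x0 hx0 _ hδ'
    refine ⟨ψ', c', hne', ?_, ?_⟩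
    · intro z hz
      refine ⟨hz.1, ?_⟩
      have h1 := (h z hz).1
      have h2 : 1 - (1 - c / ‖ψ‖) ≤ 1 - min δ (1 - c / ‖ψ‖) := by
        have := min_le_right δ (1 - c / ‖ψ‖); linarith
      have h3 : c / ‖ψ‖ < ‖ψ‖⁻¹ * ψ z := by
        have : (‖ψ‖⁻¹ • ψ) z = ‖ψ‖⁻¹ * ψ z := by simp
        rw [this] at h1; linarith
      rw [div_eq_inv_mul] at h3
      exact lt_of_mul_lt_mul_left h3 (inv_nonneg.2 hn.le)
    · intro z hz
      have h1 := (h z hz).2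
      have := min_le_left δ (1 - c / ‖ψ‖)
      linarith

theorem slice_three (hD : HasDaugavetProperty V) (ψ : V →L[ℝ] ℝ) (c : ℝ)
    (hne : (Slice ψ c).Nonempty) (F : Finset (V × ℝ)) (hF : ∀ p ∈ F, ‖p.1‖ = 1 ∧ 0 < p.2) :
    ∃ (ψ' : V →L[ℝ] ℝ) (c' : ℝ), (Slice ψ' c').Nonempty ∧ Slice ψ' c' ⊆ Slice ψ c ∧
      ∀ p ∈ F, ∀ z ∈ Slice ψ' c', 2 - p.2 < ‖p.1 + z‖ := by
  classical
  induction F using Finset.induction_on with
  | empty => exact ⟨ψ, c, hne, subset_rfl, by simp⟩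
  | insert a F ha ih =>
    obtain ⟨ψ1, c1, hne1, hsub1, h1⟩ := ih (fun p hp => hF p (Finset.mem_insert_of_mem hp))
    obtain ⟨ha1, ha2⟩ := hF a (Finset.mem_insert_self _ _)
    obtain ⟨ψ2, c2, hne2, hsub2, h2⟩ := slice_two hD ψ1 c1 hne1 a.1 ha1 a.2 ha2
    refine ⟨ψ2, c2, hne2, hsub2.trans hsub1, ?_⟩
    intro p hp z hz
    rcases Finset.mem_insert.1 hp with rfl | hp
    · exact h2 z hz
    · exact h1 p hp z (hsub2 hz)

variable {Q : Type*} [NormedAddCommGroup Q] [NormedSpace ℝ Q]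

/-- the set of points of `Q` approximable by images of ball elements that are almost
`ℓ¹`-orthogonal to any prescribed unit vector -/
def ASet (q : V →L[ℝ] Q) : Set Q :=
  {w | ∀ v : V, ‖v‖ = 1 → ∀ ε : ℝ, 0 < ε → ∃ z : V, ‖z‖ ≤ 1 ∧ ‖q z - w‖ < ε ∧ 2 - ε < ‖v + z‖}

theorem aSet_closed (q : V →L[ℝ] Q) : IsClosed (ASet q) := by
  apply isClosed_of_closure_subset
  intro w hw v hv ε hε
  obtain ⟨w', hw', hd⟩ := Metric.mem_closure_iff.1 hw (ε / 2) (by positivity)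
  obtain ⟨z, hz, hz1, hz2⟩ := hw' v hv (ε / 2) (by positivity)
  refine ⟨z, hz, ?_, by linarith⟩
  rw [dist_eq_norm] at hd
  calc ‖q z - w‖ = ‖(q z - w') - (w - w')‖ := by congr 1; abel
    _ ≤ ‖q z - w'‖ + ‖w - w'‖ := norm_sub_le _ _
    _ < ε := by linarith

theorem aSet_convex (q : V →L[ℝ] Q) : Convex ℝ (ASet q) := by
  intro wa ha wb hb a b ha0 hb0 hab v hv ε hε
  set η := min ε 1 / 3 with hηdef
  have hη : 0 < η := by positivity
  have hη1 : η ≤ 1 / 3 := by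
    have := min_le_right ε 1; rw [hηdef]; linarith
  have hηε : 3 * η ≤ ε := by
    have := min_le_left ε 1; rw [hηdef]; linarith
  obtain ⟨za, hza, hza1, hza2⟩ := ha v hv η hη
  set t := ‖v + za‖ with ht
  have ht0 : 0 < t := by linarith
  have hv' : ‖t⁻¹ • (v + za)‖ = 1 := by
    rw [norm_smul, norm_inv, Real.norm_eq_abs, abs_of_pos ht0, ← ht, inv_mul_cancel₀ ht0.ne']
  obtain ⟨zb, hzb, hzb1, hzb2⟩ := hb _ hv' η hη
  have key : 3 - 3 * η < ‖v + za + zb‖ := by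
    have e : t • (t⁻¹ • (v + za) + zb) = (v + za + zb) + (t - 1) • zb := by
      rw [smul_add, smul_smul, mul_inv_cancel₀ ht0.ne', one_smul, sub_smul, one_smul]; abel
    have h1 : t * ‖t⁻¹ • (v + za) + zb‖ ≤ ‖v + za + zb‖ + (t - 1) * ‖zb‖ := by
      calc t * ‖t⁻¹ • (v + za) + zb‖ = ‖t • (t⁻¹ • (v + za) + zb)‖ := by
            rw [norm_smul, Real.norm_eq_abs, abs_of_pos ht0]
        _ = ‖(v + za + zb) + (t - 1) • zb‖ := by rw [e]
        _ ≤ ‖v + za + zb‖ + ‖(t - 1) • zb‖ := norm_add_le _ _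
        _ = ‖v + za + zb‖ + (t - 1) * ‖zb‖ := by
            rw [norm_smul, Real.norm_eq_abs, abs_of_nonneg (by linarith)]
    have h2 : (t - 1) * ‖zb‖ ≤ (t - 1) * 1 := by
      apply mul_le_mul_of_nonneg_left hzb; linarith
    have h3 : t * (2 - η) < t * ‖t⁻¹ • (v + za) + zb‖ := by
      apply mul_lt_mul_of_pos_left hzb2 ht0
    nlinarith
  refine ⟨a • za + b • zb, ?_, ?_, ?_⟩
  · calc ‖a • za + b • zb‖ ≤ ‖a • za‖ + ‖b • zb‖ := norm_add_le _ _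
      _ = a * ‖za‖ + b * ‖zb‖ := by
          rw [norm_smul, norm_smul, Real.norm_eq_abs, Real.norm_eq_abs, abs_of_nonneg ha0,
            abs_of_nonneg hb0]
      _ ≤ a * 1 + b * 1 := by gcongr
      _ = 1 := by linarith
  · have e : q (a • za + b • zb) - (a • wa + b • wb) = a • (q za - wa) + b • (q zb - wb) := by
      rw [map_add, map_smul, map_smul, smul_sub, smul_sub]; abel
    calc ‖q (a • za + b • zb) - (a • wa + b • wb)‖ = ‖a • (q za - wa) + b • (q zb - wb)‖ := by rw [e]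
      _ ≤ ‖a • (q za - wa)‖ + ‖b • (q zb - wb)‖ := norm_add_le _ _
      _ = a * ‖q za - wa‖ + b * ‖q zb - wb‖ := by
          rw [norm_smul, norm_smul, Real.norm_eq_abs, Real.norm_eq_abs, abs_of_nonneg ha0,
            abs_of_nonneg hb0]
      _ ≤ a * η + b * η := by gcongr
      _ = η := by rw [← add_mul, hab, one_mul]
      _ < ε := by linarith
  · have e : v + za + zb = (v + (a • za + b • zb)) + (b • za + a • zb) := by
      have h1 : za = a • za + b • za := by rw [← add_smul, hab, one_smul]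
      have h2 : zb = a • zb + b • zb := by rw [← add_smul, hab, one_smul]
      calc v + za + zb = v + (a • za + b • za) + (a • zb + b • zb) := by rw [← h1, ← h2]
        _ = _ := by abel
    have h1 : ‖v + za + zb‖ ≤ ‖v + (a • za + b • zb)‖ + 1 := by
      calc ‖v + za + zb‖ = ‖(v + (a • za + b • zb)) + (b • za + a • zb)‖ := by rw [e]
        _ ≤ ‖v + (a • za + b • zb)‖ + ‖b • za + a • zb‖ := norm_add_le _ _
        _ ≤ ‖v + (a • za + b • zb)‖ + (‖b • za‖ + ‖a • zb‖) := by gcongr; exact norm_add_le _ _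
        _ = ‖v + (a • za + b • zb)‖ + (b * ‖za‖ + a * ‖zb‖) := by
            rw [norm_smul, norm_smul, Real.norm_eq_abs, Real.norm_eq_abs, abs_of_nonneg ha0,
              abs_of_nonneg hb0]
        _ ≤ ‖v + (a • za + b • zb)‖ + (b * 1 + a * 1) := by gcongr
        _ = ‖v + (a • za + b • zb)‖ + 1 := by rw [mul_one, mul_one, add_comm b a, hab]
    linarith

theorem aSet_mem [FiniteDimensional ℝ Q] (hD : HasDaugavetProperty V) (q : V →L[ℝ] Q)
    (v0 : V) (hv0 : ‖v0‖ = 1) (x1 : V) (hx1 : ‖x1‖ ≤ 1) : q x1 ∈ ASet q := by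
  by_contra h
  obtain ⟨ℓ, u, hℓ, hu⟩ := geometric_hahn_banach_closed_point (aSet_convex q) (aSet_closed q) h
  have hne : (Slice (ℓ.comp q) u).Nonempty := ⟨x1, hx1, by simpa using hu⟩
  have : ProperSpace Q := FiniteDimensional.proper_real Q
  let t : {p : V × ℝ // ‖p.1‖ = 1 ∧ 0 < p.2} → Set Q := fun p =>
    closure (q '' {z | z ∈ Slice (ℓ.comp q) u ∧ 2 - p.1.2 < ‖p.1.1 + z‖})
  have hfin : ∀ F : Finset {p : V × ℝ // ‖p.1‖ = 1 ∧ 0 < p.2},
      (Metric.closedBall (0 : Q) ‖q‖ ∩ ⋂ i ∈ F, t i).Nonempty := by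
    classical
    intro F
    obtain ⟨ψ', c', ⟨z, hz⟩, hsub, h3⟩ := slice_three hD (ℓ.comp q) u hne (F.image Subtype.val)
      (by
        intro p hp
        obtain ⟨p', _, rfl⟩ := Finset.mem_image.1 hp
        exact p'.2)
    refine ⟨q z, ?_, ?_⟩
    · rw [mem_closedBall_zero_iff]
      calc ‖q z‖ ≤ ‖q‖ * ‖z‖ := q.le_opNorm z
        _ ≤ ‖q‖ * 1 := by gcongr; exact hz.1
        _ = ‖q‖ := mul_one _
    · simp only [Set.mem_iInter]
      intro i hi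
      exact subset_closure ⟨z, ⟨hsub hz, h3 i.1 (Finset.mem_image_of_mem _ hi) z hz⟩, rfl⟩
  obtain ⟨w0, _, hw0⟩ := (isCompact_closedBall (0 : Q) ‖q‖).inter_iInter_nonempty t
    (fun _ => isClosed_closure) hfin
  rw [Set.mem_iInter] at hw0
  have hA : w0 ∈ ASet q := by
    intro v hv ε hε
    obtain ⟨b, ⟨z, ⟨hz1, hz2⟩, rfl⟩, hd⟩ := Metric.mem_closure_iff.1 (hw0 ⟨(v, ε), hv, hε⟩) ε hε
    refine ⟨z, hz1.1, ?_, hz2⟩
    rw [← dist_eq_norm, dist_comm]; exact hd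
  have hge : u ≤ ℓ w0 := by
    have hcl : IsClosed {w : Q | u ≤ ℓ w} := isClosed_le continuous_const ℓ.continuous
    have hsub : q '' {z | z ∈ Slice (ℓ.comp q) u ∧ 2 - (1 : ℝ) < ‖v0 + z‖} ⊆ {w : Q | u ≤ ℓ w} := by
      rintro _ ⟨z, ⟨hz1, _⟩, rfl⟩
      have := hz1.2
      simp only [ContinuousLinearMap.comp_apply] at this
      exact this.le
    exact closure_minimal hsub hcl (hw0 ⟨(v0, 1), hv0, one_pos⟩)
  exact absurd (hℓ w0 hA) (not_lt.2 hge)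


theorem daugavet_key {V : Type*} [NormedAddCommGroup V] [NormedSpace ℝ V]
    (hD : HasDaugavetProperty V) (x : V) (hx : ‖x‖ = 1) (S : Submodule ℝ V) (hS : CofSub S)
    (ε : ℝ) (hε : 0 < ε) :
    ∃ z : V, ‖z‖ ≤ 1 + ε ∧ z - x ∈ S ∧ 2 - ε ≤ ‖z - x‖ := by
  have : IsClosed (S : Set V) := hS.1
  have : FiniteDimensional ℝ (V ⧸ S) := hS.2
  have hmem := aSet_mem hD S.mkQL x hx x hx.le
  obtain ⟨z, hz, hz1, hz2⟩ := hmem (-x) (by rw [norm_neg]; exact hx) (ε / 4) (by positivity)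
  obtain ⟨m, hm, hm2⟩ := Submodule.Quotient.norm_mk_lt (S.mkQL z - S.mkQL x) (ε := ε / 4)
    (by positivity)
  have hm3 : ‖m‖ ≤ ε / 2 := by linarith
  refine ⟨z - m, ?_, ?_, ?_⟩
  · calc ‖z - m‖ ≤ ‖z‖ + ‖m‖ := norm_sub_le _ _
      _ ≤ 1 + ε := by linarith
  · rw [← Submodule.Quotient.mk_eq_zero]
    have e : (Submodule.Quotient.mk (z - m - x) : V ⧸ S)
        = (S.mkQL z - S.mkQL x) - Submodule.Quotient.mk m := by
      simp only [Submodule.mkQL_apply, Submodule.mkQ_apply, Submodule.Quotient.mk_sub]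
      abel
    rw [e, hm, sub_self]
  · have e : -x + z = (z - m - x) + m := by abel
    have h1 : ‖-x + z‖ ≤ ‖z - m - x‖ + ‖m‖ := by
      rw [e]; exact norm_add_le _ _
    linarith

end Crest.Agent.R125_Daugavet
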