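import Mathlib
import Crest.Prelude.Def_Diamond

/-! Row 125, task T6: the three facts on graph distances in the diamond graphs. -/

namespace Crest.Agent.R125_DiamondGraph

open Crest.AnalysisR

abbrev V' (k : ℕ) := DiamondVertex k ⊕ (DiamondEdge k × ℕ)

theorem src_ne_tgt : ∀ (k : ℕ) (e : DiamondEdge k), diamondSrc k e ≠ diamondTgt k e
  | 0, _ => fun h => Bool.false_ne_true h
  | _ + 1, (_, _, false) => fun h => Sum.inl_ne_inr h
  | _ + 1, (_, _, true) => fun h => Sum.inr_ne_inl h

theorem adj_src_tgt (k : ℕ) (e : DiamondEdge k) :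
    (diamondGraph k).Adj (diamondSrc k e) (diamondTgt k e) := by
  rw [diamondGraph, SimpleGraph.fromRel_adj]
  exact ⟨src_ne_tgt k e, Or.inl ⟨e, rfl, rfl⟩⟩

theorem adj_iff (k : ℕ) (x y : DiamondVertex k) :
    (diamondGraph k).Adj x y ↔
      ∃ e : DiamondEdge k, (diamondSrc k e = x ∧ diamondTgt k e = y) ∨
        (diamondSrc k e = y ∧ diamondTgt k e = x) := by
  rw [diamondGraph, SimpleGraph.fromRel_adj]
  constructor
  · rintro ⟨_, ⟨e, h1, h2⟩ | ⟨e, h1, h2⟩⟩
    · exact ⟨e, Or.inl ⟨h1, h2⟩⟩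
    · exact ⟨e, Or.inr ⟨h1, h2⟩⟩
  · rintro ⟨e, ⟨h1, h2⟩ | ⟨h1, h2⟩⟩
    · exact ⟨by rw [← h1, ← h2]; exact src_ne_tgt k e, Or.inl ⟨e, h1, h2⟩⟩
    · exact ⟨by rw [← h1, ← h2]; exact (src_ne_tgt k e).symm, Or.inr ⟨e, h1, h2⟩⟩

theorem not_adj_inl_inl (k : ℕ) (u v : DiamondVertex k) :
    ¬ (diamondGraph (k + 1)).Adj (Sum.inl u : DiamondVertex (k + 1)) (Sum.inl v) := by
  intro h
  obtain ⟨⟨e, i, b⟩, h⟩ := (adj_iff (k + 1) _ _).1 h
  cases b
  · rcases h with ⟨_, h2⟩ | ⟨_, h2⟩
    · exact Sum.inr_ne_inl h2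
    · exact Sum.inr_ne_inl h2
  · rcases h with ⟨h1, _⟩ | ⟨h1, _⟩
    · exact Sum.inr_ne_inl h1
    · exact Sum.inr_ne_inl h1

theorem not_adj_inr_inr (k : ℕ) (a b : DiamondEdge k × ℕ) :
    ¬ (diamondGraph (k + 1)).Adj (Sum.inr a : DiamondVertex (k + 1)) (Sum.inr b) := by
  intro h
  obtain ⟨⟨e, i, b⟩, h⟩ := (adj_iff (k + 1) _ _).1 h
  cases b
  · rcases h with ⟨h1, _⟩ | ⟨h1, _⟩
    · exact Sum.inl_ne_inr h1
    · exact Sum.inl_ne_inr h1
  · rcases h with ⟨_, h2⟩ | ⟨_, h2⟩
    · exact Sum.inl_ne_inr h2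
    · exact Sum.inl_ne_inr h2

theorem adj_inl_inr_iff (k : ℕ) (u : DiamondVertex k) (e : DiamondEdge k) (i : ℕ) :
    (diamondGraph (k + 1)).Adj (Sum.inl u : DiamondVertex (k + 1)) (Sum.inr (e, i)) ↔
      (u = diamondSrc k e ∨ u = diamondTgt k e) := by
  constructor
  · intro h
    obtain ⟨⟨e', i', b⟩, h⟩ := (adj_iff (k + 1) _ _).1 h
    cases b
    · rcases h with ⟨h1, h2⟩ | ⟨h1, h2⟩
      · have h1' : diamondSrc k e' = u :=
          Sum.inl.inj h1
        have h2' : (e', i') = (e, i) :=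
          Sum.inr.inj h2
        simp only [Prod.mk.injEq] at h2'
        left; rw [← h1', h2'.1]
      · exact (Sum.inl_ne_inr h1).elim
    · rcases h with ⟨h1, h2⟩ | ⟨h1, h2⟩
      · exact (Sum.inr_ne_inl h1).elim
      · have h1' : (e', i') = (e, i) :=
          Sum.inr.inj h1
        have h2' : diamondTgt k e' = u :=
          Sum.inl.inj h2
        simp only [Prod.mk.injEq] at h1'
        right; rw [← h2', h1'.1]
  · rintro (h | h)
    · exact (adj_iff (k + 1) _ _).2 ⟨(e, i, false), Or.inl ⟨by rw [h]; rfl, rfl⟩⟩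
    · exact (adj_iff (k + 1) _ _).2 ⟨(e, i, true), Or.inr ⟨rfl, by rw [h]; rfl⟩⟩

theorem dist_src_tgt (k : ℕ) (e : DiamondEdge k) :
    diamondDist k (diamondSrc k e) (diamondTgt k e) = 1 := by
  rw [diamondDist, SimpleGraph.dist_eq_one_iff_adj]
  exact adj_src_tgt k e

theorem walk_aux (k : ℕ) : ∀ {x y : DiamondVertex (k + 1)} (p : (diamondGraph (k + 1)).Walk x y)
    (v : DiamondVertex k), y = Sum.inl v →
    (∀ u, x = Sum.inl u → ∃ q : (diamondGraph k).Walk u v, 2 * q.length ≤ p.length) ∧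
    (∀ e i, x = Sum.inr (e, i) → ∀ w, (w = diamondSrc k e ∨ w = diamondTgt k e) →
      ∃ q : (diamondGraph k).Walk w v, 2 * q.length ≤ p.length + 1) := by
  intro x y p
  induction p with
  | nil =>
    intro v hy
    refine ⟨?_, ?_⟩
    · intro u hx
      have : u = v := Sum.inl.inj (hx.symm.trans hy)
      subst this
      exact ⟨SimpleGraph.Walk.nil, by simp⟩
    · intro e i hx
      exact absurd (hx.symm.trans hy) (by simp)
  | @cons x z y h p' ih =>
    intro v hy
    have hl : (SimpleGraph.Walk.cons h p').length = p'.length + 1 :=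
      SimpleGraph.Walk.length_cons h p'
    obtain ⟨ih1, ih2⟩ := ih v hy
    refine ⟨?_, ?_⟩
    · intro u hx
      subst hx
      rcases z with u' | ⟨e, i⟩
      · exact absurd h (not_adj_inl_inl k u u')
      · have hu := (adj_inl_inr_iff k u e i).1 h
        obtain ⟨q, hq⟩ := ih2 e i rfl u hu
        exact ⟨q, by omega⟩
    · intro e i hx w hw
      subst hx
      rcases z with u' | a
      · have hu := (adj_inl_inr_iff k u' e i).1 h.symm
        obtain ⟨q, hq⟩ := ih1 u' rfl
        by_cases hwu : w = u'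
        · subst hwu
          exact ⟨q, by omega⟩
        · have hadj : (diamondGraph k).Adj w u' := by
            rcases hw with hw | hw <;> rcases hu with hu | hu
            · exact absurd (hw.trans hu.symm) hwu
            · rw [hw, hu]; exact adj_src_tgt k e
            · rw [hw, hu]; exact (adj_src_tgt k e).symm
            · exact absurd (hw.trans hu.symm) hwu
          exact ⟨SimpleGraph.Walk.cons hadj q, by
            have := SimpleGraph.Walk.length_cons hadj q
            omega⟩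
      · exact absurd h (not_adj_inr_inr k (e, i) a)

theorem reachable_inl (k : ℕ) {u v : DiamondVertex k} (h : (diamondGraph k).Reachable u v) :
    (diamondGraph (k + 1)).Reachable (Sum.inl u : DiamondVertex (k + 1)) (Sum.inl v) := by
  obtain ⟨q⟩ := h
  induction q with
  | nil => exact SimpleGraph.Reachable.refl _
  | @cons a b c hab _ ih =>
    refine SimpleGraph.Reachable.trans ?_ ih
    obtain ⟨e, ⟨h1, h2⟩ | ⟨h1, h2⟩⟩ := (adj_iff k a b).1 hab
    · have A1 := (adj_inl_inr_iff k a e 0).2 (Or.inl h1.symm)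
      have A2 := (adj_inl_inr_iff k b e 0).2 (Or.inr h2.symm)
      exact A1.reachable.trans A2.symm.reachable
    · have A1 := (adj_inl_inr_iff k a e 0).2 (Or.inr h2.symm)
      have A2 := (adj_inl_inr_iff k b e 0).2 (Or.inl h1.symm)
      exact A1.reachable.trans A2.symm.reachable

theorem two_mul_dist_le (k : ℕ) (u v : DiamondVertex k) :
    2 * diamondDist k u v ≤
      diamondDist (k + 1) (Sum.inl u : DiamondVertex (k + 1)) (Sum.inl v : DiamondVertex (k + 1)) := by
  unfold diamondDist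
  by_cases h : (diamondGraph k).Reachable u v
  · obtain ⟨p, hp⟩ := (reachable_inl k h).exists_walk_length_eq_dist
    obtain ⟨q, hq⟩ := (walk_aux k p v rfl).1 u rfl
    have := SimpleGraph.dist_le q
    omega
  · rw [SimpleGraph.dist_eq_zero_of_not_reachable h]
    simp

theorem two_le_dist_mid (k : ℕ) (e : DiamondEdge k) (i j : ℕ) (hij : i ≠ j) :
    2 ≤ diamondDist (k + 1) (Sum.inr (e, i) : DiamondVertex (k + 1))
      (Sum.inr (e, j) : DiamondVertex (k + 1)) := by
  unfold diamondDist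
  have A1 := (adj_inl_inr_iff k (diamondSrc k e) e i).2 (Or.inl rfl)
  have A2 := (adj_inl_inr_iff k (diamondSrc k e) e j).2 (Or.inl rfl)
  have hr : (diamondGraph (k + 1)).Reachable (Sum.inr (e, i) : DiamondVertex (k + 1))
      (Sum.inr (e, j)) := A1.symm.reachable.trans A2.reachable
  have hne : (Sum.inr (e, i) : DiamondVertex (k + 1)) ≠ Sum.inr (e, j) := by
    intro h
    have := Sum.inr.inj h
    simp only [Prod.mk.injEq] at this
    exact hij this.2
  have h0 : (diamondGraph (k + 1)).dist (Sum.inr (e, i) : DiamondVertex (k + 1))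
      (Sum.inr (e, j)) ≠ 0 := by
    intro h
    rcases SimpleGraph.dist_eq_zero_iff_eq_or_not_reachable.1 h with h | h
    · exact hne h
    · exact h hr
  have h1 : (diamondGraph (k + 1)).dist (Sum.inr (e, i) : DiamondVertex (k + 1))
      (Sum.inr (e, j)) ≠ 1 := by
    intro h
    exact not_adj_inr_inr k _ _ (SimpleGraph.dist_eq_one_iff_adj.1 h)
  omega

end Crest.Agent.R125_DiamondGraph
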