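import Mathlib
import Crest.Prelude.Def_Diamond
import Crest.Agent.Lib_helper3_R125Defs
import Crest.Agent.R125_Cof
import Crest.Agent.R125_DiamondGraph

/-! Row 125, task T7: the midpoint inequality bounds the distortion of diamond graphs. -/

namespace Crest.Agent.R125_Diamond

open Crest.Agent.Lib_helper3_R125Defs Crest.Agent.R125_Cof Crest.Agent.R125_DiamondGraph
open Crest.AnalysisR

/-- The key estimate: a bounded `2s`-separated sequence of "midpoints" `z i` with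
`‖x ± z i‖ ≤ ρ` forces `‖x‖² + s²/4 ≤ ρ²`. -/
theorem key_midpoint {X : Type*} [NormedAddCommGroup X] [NormedSpace ℝ X] (h : MidIneq X)
    (x : X) (z : ℕ → X) (s ρ : ℝ) (hs : 0 < s) (h1 : ∀ i, ‖x + z i‖ ≤ ρ) (h2 : ∀ i, ‖x - z i‖ ≤ ρ)
    (h3 : ∀ i j, i ≠ j → 2 * s ≤ ‖z i - z j‖) : ‖x‖ ^ 2 + s ^ 2 / 4 ≤ ρ ^ 2 := by
  have hρ : 0 ≤ ρ := le_trans (norm_nonneg _) (h1 0)
  set T := Real.sqrt (‖x‖ ^ 2 + s ^ 2 / 4) with hT
  have hT0 : 0 ≤ T := Real.sqrt_nonneg _
  have hT2 : T ^ 2 = ‖x‖ ^ 2 + s ^ 2 / 4 := Real.sq_sqrt (by positivity)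
  suffices hTρ : T ≤ ρ by
    rw [← hT2]
    exact pow_le_pow_left₀ hT0 hTρ 2
  apply le_of_forall_pos_le_add
  intro ε' hε'
  -- choose ε
  set ε := min ε' s / 2 with hε
  have hε0 : 0 < ε := by rw [hε]; have := lt_min hε' hs; linarith
  have hεε' : 2 * ε ≤ ε' := by rw [hε]; have := min_le_left ε' s; linarith
  have hεs : 2 * ε ≤ s := by rw [hε]; have := min_le_right ε' s; linarith
  obtain ⟨S, hS, hSy⟩ := h x ε hε0
  have hzb : ∀ i, ‖z i‖ ≤ ρ + ‖x‖ := by
    intro i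
    have : z i = (x + z i) - x := by abel
    calc ‖z i‖ = ‖(x + z i) - x‖ := by rw [← this]
      _ ≤ ‖x + z i‖ + ‖x‖ := norm_sub_le _ _
      _ ≤ ρ + ‖x‖ := by linarith [h1 i]
  obtain ⟨i, j, hij, w, hw, hwε⟩ := exists_pair_near hS z (ρ + ‖x‖) hzb hε0
  set r := z i - z j - w with hr
  set y := (1 / 2 : ℝ) • w with hy
  have hyS : y ∈ S := S.smul_mem _ hw
  have hmid := hSy y hyS
  have e1 : x + y = (1 / 2 : ℝ) • (x + z i) + (1 / 2 : ℝ) • (x - z j) - (1 / 2 : ℝ) • r := by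
    rw [hy, hr]; module
  have e2 : x - y = (1 / 2 : ℝ) • (x - z i) + (1 / 2 : ℝ) • (x + z j) + (1 / 2 : ℝ) • r := by
    rw [hy, hr]; module
  have hhalf : ∀ a : X, ‖(1 / 2 : ℝ) • a‖ = ‖a‖ / 2 := by
    intro a; rw [norm_smul]; norm_num; ring
  have n1 : ‖x + y‖ ≤ ρ + ε / 2 := by
    rw [e1]
    calc _ ≤ ‖(1 / 2 : ℝ) • (x + z i) + (1 / 2 : ℝ) • (x - z j)‖ + ‖(1 / 2 : ℝ) • r‖ := norm_sub_le _ _
      _ ≤ ‖(1 / 2 : ℝ) • (x + z i)‖ + ‖(1 / 2 : ℝ) • (x - z j)‖ + ‖(1 / 2 : ℝ) • r‖ := by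
        gcongr; exact norm_add_le _ _
      _ ≤ ρ + ε / 2 := by
        rw [hhalf, hhalf, hhalf]; linarith [h1 i, h2 j]
  have n2 : ‖x - y‖ ≤ ρ + ε / 2 := by
    rw [e2]
    calc _ ≤ ‖(1 / 2 : ℝ) • (x - z i) + (1 / 2 : ℝ) • (x + z j)‖ + ‖(1 / 2 : ℝ) • r‖ := norm_add_le _ _
      _ ≤ ‖(1 / 2 : ℝ) • (x - z i)‖ + ‖(1 / 2 : ℝ) • (x + z j)‖ + ‖(1 / 2 : ℝ) • r‖ := by
        gcongr; exact norm_add_le _ _
      _ ≤ ρ + ε / 2 := by
        rw [hhalf, hhalf, hhalf]; linarith [h2 i, h1 j]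
  have n3 : s - ε / 2 ≤ ‖y‖ := by
    rw [hy, hhalf]
    have : z i - z j = w + r := by rw [hr]; abel
    have h4 : ‖z i - z j‖ ≤ ‖w‖ + ‖r‖ := by rw [this]; exact norm_add_le _ _
    linarith [h3 i j hij]
  -- now the scalar computation
  set A := Real.sqrt (‖x‖ ^ 2 + ‖y‖ ^ 2 / 4) with hA
  have hA0 : 0 ≤ A := Real.sqrt_nonneg _
  have hA2 : A ^ 2 = ‖x‖ ^ 2 + ‖y‖ ^ 2 / 4 := Real.sq_sqrt (by positivity)
  have hAle : A ≤ ρ + ε := by linarith
  have hy0 : 0 ≤ s - ε / 2 := by linarith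
  have hAy : (s - ε / 2) / 2 ≤ A := by
    apply le_of_sq_le_sq _ hA0 |>.trans_eq rfl
    rw [hA2]
    nlinarith [norm_nonneg y, sq_nonneg ‖x‖]
  have hTA : T ≤ A + ε / 4 := by
    apply le_of_sq_le_sq _ (by positivity) |>.trans_eq rfl
    rw [hT2]
    nlinarith [norm_nonneg y, sq_nonneg ‖x‖]
  linarith


/-- The inductive statement. -/
theorem diamond_induction {X : Type*} [NormedAddCommGroup X] [NormedSpace ℝ X] (h : MidIneq X) :
    ∀ (k : ℕ) (f : DiamondVertex k → X) (s M : ℝ), 0 < s →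
      (∀ u v, s * (diamondDist k u v : ℝ) ≤ ‖f u - f v‖) →
      (∀ e, ‖f (diamondSrc k e) - f (diamondTgt k e)‖ ^ 2 ≤ M * s ^ 2) → 1 + (k : ℝ) / 4 ≤ M := by
  intro k
  induction k with
  | zero =>
    intro f s M hs hlow hup
    have h1 := hlow (diamondSrc 0 (() : DiamondEdge 0)) (diamondTgt 0 (() : DiamondEdge 0))
    rw [dist_src_tgt 0 (() : DiamondEdge 0)] at h1
    have h2 := hup (() : DiamondEdge 0)
    have h3 : s ^ 2 ≤ M * s ^ 2 := by
      refine le_trans ?_ h2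
      apply pow_le_pow_left₀ hs.le
      simpa using h1
    have hs2 : 0 < s ^ 2 := by positivity
    have : 1 ≤ M := by
      by_contra hM
      rw [not_le] at hM
      nlinarith
    simpa using this
  | succ k ih =>
    intro f s M hs hlow hup
    have hmain := ih (fun u => f (Sum.inl u : DiamondVertex (k + 1))) (2 * s) (M - 1 / 4)
      (by positivity) ?_ ?_
    · push_cast
      linarith
    · intro u v
      have h1 := hlow (Sum.inl u : DiamondVertex (k + 1)) (Sum.inl v : DiamondVertex (k + 1))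
      have h2 : (2 * diamondDist k u v : ℝ) ≤
          (diamondDist (k + 1) (Sum.inl u : DiamondVertex (k + 1))
            (Sum.inl v : DiamondVertex (k + 1)) : ℝ) := by
        exact_mod_cast two_mul_dist_le k u v
      calc 2 * s * (diamondDist k u v : ℝ) = s * (2 * diamondDist k u v : ℝ) := by ring
        _ ≤ s * _ := by gcongr
        _ ≤ _ := h1
    · intro e
      set u := f (Sum.inl (diamondSrc k e) : DiamondVertex (k + 1)) with hu
      set v := f (Sum.inl (diamondTgt k e) : DiamondVertex (k + 1)) with hv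
      set m : ℕ → X := fun i => f (Sum.inr (e, i) : DiamondVertex (k + 1)) with hm
      set x := (1 / 2 : ℝ) • (v - u) with hx
      set z : ℕ → X := fun i => m i - (1 / 2 : ℝ) • (u + v) with hz
      have hM0 : 0 ≤ M * s ^ 2 := le_trans (by positivity) (hup ((e, 0, false) : DiamondEdge (k + 1)))
      set ρ := Real.sqrt (M * s ^ 2) with hρ
      have hρ2 : ρ ^ 2 = M * s ^ 2 := Real.sq_sqrt hM0
      have a1 : ∀ i, ‖x + z i‖ ≤ ρ := by
        intro i
        have h1 := hup ((e, i, false) : DiamondEdge (k + 1))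
        have h2 : x + z i = -(u - m i) := by
          simp only [hx, hz]; module
        rw [h2, norm_neg]
        apply Real.le_sqrt_of_sq_le
        exact h1
      have a2 : ∀ i, ‖x - z i‖ ≤ ρ := by
        intro i
        have h1 := hup ((e, i, true) : DiamondEdge (k + 1))
        have h2 : x - z i = -(m i - v) := by
          simp only [hx, hz]; module
        rw [h2, norm_neg]
        apply Real.le_sqrt_of_sq_le
        exact h1
      have a3 : ∀ i j, i ≠ j → 2 * s ≤ ‖z i - z j‖ := by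
        intro i j hij
        have h1 := hlow (Sum.inr (e, i) : DiamondVertex (k + 1)) (Sum.inr (e, j) : DiamondVertex (k + 1))
        have h2 : (2 : ℝ) ≤ (diamondDist (k + 1) (Sum.inr (e, i) : DiamondVertex (k + 1))
            (Sum.inr (e, j) : DiamondVertex (k + 1)) : ℝ) := by
          exact_mod_cast two_le_dist_mid k e i j hij
        have h3 : z i - z j = m i - m j := by simp only [hz]; abel
        rw [h3]
        calc 2 * s = s * 2 := by ring
          _ ≤ s * _ := by gcongr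
          _ ≤ _ := h1
      have hkey := key_midpoint h x z s ρ hs a1 a2 a3
      have hx2 : ‖u - v‖ = 2 * ‖x‖ := by
        rw [hx, norm_smul, norm_sub_rev]; norm_num; ring
      rw [hx2, hρ2] at *
      nlinarith

theorem diamond_bound (E : RealBanach) (h : MidIneq E.X) (k : ℕ) (f : DiamondVertex k → E.X)
    (D : ℝ) (hD : E.HasDistortionLE k f D) : 1 + (k : ℝ) / 4 ≤ D ^ 2 := by
  obtain ⟨s, hs, hsf⟩ := hD
  apply diamond_induction h k f s (D ^ 2) hs (fun u v => (hsf u v).1)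
  intro e
  have h1 := (hsf (diamondSrc k e) (diamondTgt k e)).2
  rw [dist_src_tgt] at h1
  have h2 : ‖f (diamondSrc k e) - f (diamondTgt k e)‖ ≤ D * s := by simpa using h1
  calc _ ≤ (D * s) ^ 2 := pow_le_pow_left₀ (norm_nonneg _) h2 2
    _ = D ^ 2 * s ^ 2 := by ring

end Crest.Agent.R125_Diamond
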