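import Mathlib
import Crest.Agent.Lib_helper3_R125Defs

/-! Row 125, task T3 (auxiliary file): the combinatorial gluing of two tests. -/

namespace Crest.Agent.R125_GlueAux

open Crest.Agent.Lib_helper3_R125Defs Crest.AnalysisR.TreePotential

/-- family with prescribed potential -/
def diffFam (Q : List ℕ → ℝ) : List ℕ → ℝ
  | [] => Q []
  | a :: v => Q (a :: v) - Q v

theorem pathPotential_diffFam (Q : List ℕ → ℝ) (s : List ℕ) :
    pathPotential (diffFam Q) s = Q s := by
  induction s with
  | nil => rfl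
  | cons a v ih => simp [pathPotential, diffFam, ih]

theorem pathPotential_neg (f : List ℕ → ℝ) (s : List ℕ) :
    pathPotential (fun u => - f u) s = - pathPotential f s := by
  induction s with
  | nil => rfl
  | cons a v ih => simp [pathPotential, ih]; ring

/-- base potential: potential of `f` at the last ancestor in `S`. -/
noncomputable def baseP (f : List ℕ → ℝ) (S : Finset (List ℕ)) : List ℕ → ℝ
  | [] => f []
  | a :: v => if a :: v ∈ S then pathPotential f (a :: v) else baseP f S v

/-- excess potential of `g` since the last ancestor in `S`. -/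
noncomputable def excess (g : List ℕ → ℝ) (S : Finset (List ℕ)) : List ℕ → ℝ
  | [] => 0
  | a :: v => if a :: v ∈ S then 0 else excess g S v + g (a :: v)

noncomputable def phiP (P q : ℝ) : ℝ := if 0 ≤ P then min q 0 else max q 0
noncomputable def phiM (P q : ℝ) : ℝ := if 0 ≤ P then max q 0 else min q 0

theorem phiP_add_phiM (P q : ℝ) : phiP P q + phiM P q = q := by
  unfold phiP phiM
  split_ifs
  · simpa using min_add_max q 0
  · simpa using max_add_min q 0

theorem phiP_zero (P : ℝ) : phiP P 0 = 0 := by unfold phiP; split_ifs <;> simp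
theorem phiM_zero (P : ℝ) : phiM P 0 = 0 := by unfold phiM; split_ifs <;> simp

theorem phiP_lip (P x y : ℝ) : |phiP P x - phiP P y| ≤ |x - y| := by
  unfold phiP
  split_ifs
  · simpa using abs_min_sub_min_le_max x 0 y 0
  · simpa using abs_max_sub_max_le_max x 0 y 0

theorem phiM_lip (P x y : ℝ) : |phiM P x - phiM P y| ≤ |x - y| := by
  unfold phiM
  split_ifs
  · simpa using abs_max_sub_max_le_max x 0 y 0
  · simpa using abs_min_sub_min_le_max x 0 y 0

theorem boundP {α β P q : ℝ} (hα0 : 0 ≤ α) (hα1 : α ≤ 1) (hβ0 : 0 ≤ β) (hβ : 2 * β ≤ 1)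
    (hP : |P| ≤ 1) (hq : |q| ≤ 2) : |α * P + β * phiP P q| ≤ 1 := by
  obtain ⟨hP1, hP2⟩ := abs_le.mp hP
  obtain ⟨hq1, hq2⟩ := abs_le.mp hq
  unfold phiP
  rw [abs_le]
  split_ifs with h
  · have h1 : -2 ≤ min q 0 := le_min hq1 (by norm_num)
    have h2 : min q 0 ≤ 0 := min_le_right _ _
    constructor <;> nlinarith
  · have h1 : max q 0 ≤ 2 := max_le hq2 (by norm_num)
    have h2 : 0 ≤ max q 0 := le_max_right _ _
    push_neg at h
    constructor <;> nlinarith

theorem boundM {α β P q : ℝ} (hα0 : 0 ≤ α) (hα1 : α ≤ 1) (hβ0 : 0 ≤ β) (hβ : 2 * β ≤ 1)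
    (hP : |P| ≤ 1) (hq : |q| ≤ 2) : |α * P - β * phiM P q| ≤ 1 := by
  obtain ⟨hP1, hP2⟩ := abs_le.mp hP
  obtain ⟨hq1, hq2⟩ := abs_le.mp hq
  unfold phiM
  rw [abs_le]
  split_ifs with h
  · have h1 : max q 0 ≤ 2 := max_le hq2 (by norm_num)
    have h2 : 0 ≤ max q 0 := le_max_right _ _
    constructor <;> nlinarith
  · have h1 : -2 ≤ min q 0 := le_min hq1 (by norm_num)
    have h2 : min q 0 ≤ 0 := min_le_right _ _
    push_neg at h
    constructor <;> nlinarith

variable {ι : Type*} {ev : ι → List ℕ → ℝ} {L : Set (List ℕ)}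

theorem baseP_of_mem (f : List ℕ → ℝ) {S : Finset (List ℕ)} {s : List ℕ} (hs : s ∈ S) :
    baseP f S s = pathPotential f s := by
  cases s with
  | nil => rfl
  | cons a v => simp [baseP, hs]

theorem excess_of_mem (g : List ℕ → ℝ) {S : Finset (List ℕ)} {s : List ℕ} (hs : s ∈ S) :
    excess g S s = 0 := by
  cases s with
  | nil => rfl
  | cons a v => simp [excess, hs]

theorem abs_baseP_le (hG : GlueAx ev L) (i : ι) (S : Finset (List ℕ)) :
    ∀ s ∈ L, |baseP (ev i) S s| ≤ 1 := by
  intro s
  induction s with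
  | nil => intro hs; simpa [baseP, pathPotential] using hG.pot i [] hs
  | cons a v ih =>
    intro hs
    unfold baseP
    split_ifs
    · exact hG.pot i _ hs
    · exact ih (hG.anc a v hs)

theorem abs_sub_excess_le (hG : GlueAx ev L) (j : ι) (S : Finset (List ℕ)) :
    ∀ s ∈ L, |pathPotential (ev j) s - excess (ev j) S s| ≤ 1 := by
  intro s
  induction s with
  | nil => intro hs; simpa [excess] using hG.pot j [] hs
  | cons a v ih =>
    intro hs
    unfold excess
    split_ifs
    · simpa using hG.pot j _ hs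
    · have := ih (hG.anc a v hs)
      have e : pathPotential (ev j) (a :: v) - (excess (ev j) S v + ev j (a :: v))
          = pathPotential (ev j) v - excess (ev j) S v := by
        simp [pathPotential]
      rw [e]; exact this

theorem abs_excess_le (hG : GlueAx ev L) (j : ι) (S : Finset (List ℕ)) :
    ∀ s ∈ L, |excess (ev j) S s| ≤ 2 := by
  intro s hs
  have h1 := abs_sub_excess_le hG j S s hs
  have h2 := hG.pot j s hs
  rw [abs_le] at *
  constructor <;> linarith [h1.1, h1.2, h2.1, h2.2]

/-- negation of a test is a test -/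
theorem exists_neg (hG : GlueAx ev L) (i : ι) : ∃ k, ∀ s, ev k s = - ev i s := by
  obtain ⟨k, hk⟩ := hG.glue i i (fun s => - ev i s) Set.univ 1 0 (by norm_num) (by norm_num)
    (by norm_num) (by intro s _; simp) (by intro s hs; exact absurd (Set.mem_univ s) hs)
    (by intro s hs; rw [pathPotential_neg, abs_neg]; exact hG.pot i s hs)
  exact ⟨k, fun s => by rw [hk]⟩

/-- The gluing lemma. -/
theorem exists_glue (hG : GlueAx ev L) (i j : ι) (S : Finset (List ℕ)) (hroot : [] ∈ S)
    (hanc : ∀ (a : ℕ) (v : List ℕ), a :: v ∈ S → v ∈ S) {α β : ℝ} (hα0 : 0 ≤ α) (hβ0 : 0 ≤ β)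
    (hαβ : α ^ 2 + β ^ 2 ≤ 1) (hβ : 2 * β ≤ 1) :
    ∃ kp km : ι, (∀ s ∈ S, ev kp s = α * ev i s) ∧ (∀ s ∈ S, ev km s = α * ev i s) ∧
      ∀ s ∉ S, ev kp s - ev km s = β * ev j s := by
  have hα1 : α ≤ 1 := by nlinarith
  set B := baseP (ev i) S with hB
  set q := excess (ev j) S with hq
  set Qp : List ℕ → ℝ := fun s => α * B s + β * phiP (B s) (q s) with hQp
  set Qm : List ℕ → ℝ := fun s => α * B s - β * phiM (B s) (q s) with hQm
  have hQpS : ∀ s ∈ S, Qp s = α * pathPotential (ev i) s := by
    intro s hs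
    simp only [hQp, hB, hq, baseP_of_mem _ hs, excess_of_mem _ hs, phiP_zero]; ring
  have hQmS : ∀ s ∈ S, Qm s = α * pathPotential (ev i) s := by
    intro s hs
    simp only [hQm, hB, hq, baseP_of_mem _ hs, excess_of_mem _ hs, phiM_zero]; ring
  have hpS : ∀ s ∈ S, diffFam Qp s = α * ev i s := by
    intro s hs
    cases s with
    | nil => simp only [diffFam]; rw [hQpS _ hs]; rfl
    | cons a v =>
      simp only [diffFam]; rw [hQpS _ hs, hQpS _ (hanc a v hs)]; simp only [pathPotential]; ring
  have hmS : ∀ s ∈ S, diffFam Qm s = α * ev i s := by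
    intro s hs
    cases s with
    | nil => simp only [diffFam]; rw [hQmS _ hs]; rfl
    | cons a v =>
      simp only [diffFam]; rw [hQmS _ hs, hQmS _ (hanc a v hs)]; simp only [pathPotential]; ring
  have hBoff : ∀ (a : ℕ) (v : List ℕ), a :: v ∉ S → B (a :: v) = B v := by
    intro a v h; simp [hB, baseP, h]
  have hqoff : ∀ (a : ℕ) (v : List ℕ), a :: v ∉ S → q (a :: v) = q v + ev j (a :: v) := by
    intro a v h; simp [hq, excess, h]
  have hpoff : ∀ s ∉ S, diffFam Qp s = β * (phiP (B s) (q s) - phiP (B s) (q s - ev j s)) := by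
    intro s hs
    cases s with
    | nil => exact absurd hroot hs
    | cons a v =>
      simp only [diffFam, hQp]
      rw [hBoff a v hs, hqoff a v hs]
      have : q v + ev j (a :: v) - ev j (a :: v) = q v := by ring
      rw [this]; ring
  have hmoff : ∀ s ∉ S, diffFam Qm s = - β * (phiM (B s) (q s) - phiM (B s) (q s - ev j s)) := by
    intro s hs
    cases s with
    | nil => exact absurd hroot hs
    | cons a v =>
      simp only [diffFam, hQm]
      rw [hBoff a v hs, hqoff a v hs]
      have : q v + ev j (a :: v) - ev j (a :: v) = q v := by ring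
      rw [this]; ring
  obtain ⟨kp, hkp⟩ := hG.glue i j (diffFam Qp) (S : Set (List ℕ)) α β hα0 hβ0 hαβ
    (by intro s hs; rw [hpS s (by simpa using hs), abs_mul, abs_of_nonneg hα0])
    (by
      intro s hs
      rw [hpoff s (by simpa using hs), abs_mul, abs_of_nonneg hβ0]
      refine mul_le_mul_of_nonneg_left ?_ hβ0
      have := phiP_lip (B s) (q s) (q s - ev j s)
      simpa using this)
    (by
      intro s hs
      rw [pathPotential_diffFam]
      exact boundP hα0 hα1 hβ0 hβ (abs_baseP_le hG i S s hs) (abs_excess_le hG j S s hs))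
  obtain ⟨km, hkm⟩ := hG.glue i j (diffFam Qm) (S : Set (List ℕ)) α β hα0 hβ0 hαβ
    (by intro s hs; rw [hmS s (by simpa using hs), abs_mul, abs_of_nonneg hα0])
    (by
      intro s hs
      rw [hmoff s (by simpa using hs), abs_mul, abs_neg, abs_of_nonneg hβ0]
      refine mul_le_mul_of_nonneg_left ?_ hβ0
      have := phiM_lip (B s) (q s) (q s - ev j s)
      simpa using this)
    (by
      intro s hs
      rw [pathPotential_diffFam]
      exact boundM hα0 hα1 hβ0 hβ (abs_baseP_le hG i S s hs) (abs_excess_le hG j S s hs))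
  refine ⟨kp, km, ?_, ?_, ?_⟩
  · intro s hs; rw [hkp]; exact hpS s hs
  · intro s hs; rw [hkm]; exact hmS s hs
  · intro s hs
    rw [hkp, hkm, hpoff s hs, hmoff s hs]
    have e1 := phiP_add_phiM (B s) (q s)
    have e2 := phiP_add_phiM (B s) (q s - ev j s)
    have : phiP (B s) (q s) - phiP (B s) (q s - ev j s)
        + (phiM (B s) (q s) - phiM (B s) (q s - ev j s)) = ev j s := by linarith
    linear_combination β * this

end Crest.Agent.R125_GlueAux
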