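import Mathlib
import Crest.Agent.Lib_helper3_R125Defs
import Crest.Agent.R125_Cof
import Crest.Agent.R125_NoAUC
import Crest.Agent.R125_GlueAux

/-! Row 125, task T3: spaces generated by coordinate vectors in `ℓ^∞` of a class of tests
satisfying `GlueAx`. -/

namespace Crest.Agent.R125_Glue

open Crest.Agent.Lib_helper3_R125Defs Crest.Agent.R125_Cof Crest.Agent.R125_NoAUC Filter Topology
open Crest.Agent.R125_GlueAux Crest.AnalysisR.TreePotential

variable {ι : Type*} (ev : ι → List ℕ → ℝ) (L : Set (List ℕ))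
  (c : List ℕ → lp (fun _ : ι => ℝ) ⊤)

/-- evaluation functional on `ℓ^∞`. -/
noncomputable def evl (i : ι) : lp (fun _ : ι => ℝ) ⊤ →L[ℝ] ℝ :=
  lp.evalCLM ℝ (fun _ : ι => ℝ) ⊤ i

theorem evl_apply (i : ι) (z : lp (fun _ : ι => ℝ) ⊤) : evl i z = z i := rfl

theorem le_norm_of_eval (z : lp (fun _ : ι => ℝ) ⊤) (i : ι) : z i ≤ ‖z‖ :=
  le_trans (le_abs_self _) (by simpa using lp.norm_apply_le_norm (by simp) z i)

variable {ev L c}

theorem clm_zero_on_closure (Φ : lp (fun _ : ι => ℝ) ⊤ →L[ℝ] ℝ) (h : ∀ s, Φ (c s) = 0)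
    {z : lp (fun _ : ι => ℝ) ⊤} (hz : z ∈ (Submodule.span ℝ (Set.range c)).topologicalClosure) :
    Φ z = 0 := by
  have hle : (Submodule.span ℝ (Set.range c)).topologicalClosure
      ≤ LinearMap.ker (Φ : lp (fun _ : ι => ℝ) ⊤ →ₗ[ℝ] ℝ) := by
    apply Submodule.topologicalClosure_minimal
    · rw [Submodule.span_le]; rintro _ ⟨s, rfl⟩; exact h s
    · exact Φ.isClosed_ker
  exact hle hz

theorem exists_eval_ge (hG : GlueAx ev L) (hc : ∀ s i, c s i = ev i s)
    {z : lp (fun _ : ι => ℝ) ⊤} (hz : z ∈ (Submodule.span ℝ (Set.range c)).topologicalClosure)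
    {ε : ℝ} (hε : 0 < ε) : ∃ i, ‖z‖ - ε ≤ z i := by
  obtain ⟨k0, -⟩ := hG.root
  have : Nonempty ι := ⟨k0⟩
  have hlub := lp.isLUB_norm z
  obtain ⟨_, ⟨i, rfl⟩, hi⟩ := hlub.exists_between (show ‖z‖ - ε < ‖z‖ by linarith)
  simp only [Real.norm_eq_abs] at hi
  rcases le_total 0 (z i) with h | h
  · exact ⟨i, by rw [abs_of_nonneg h] at hi; exact hi.1.le⟩
  · obtain ⟨k, hk⟩ := exists_neg hG i
    refine ⟨k, ?_⟩
    have := clm_zero_on_closure (c := c) (evl k + evl i)
      (by intro s; simp [evl_apply, hc, hk]) hz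
    simp only [add_apply, evl_apply] at this
    rw [abs_of_nonpos h] at hi
    linarith [hi.1]

theorem eval_finsupp (hc : ∀ s i, c s i = ev i s) (a : List ℕ →₀ ℝ) (k : ι) :
    (a.sum fun s r => r • c s) k = a.sum fun s r => r * ev k s := by
  rw [← evl_apply, map_finsuppSum]
  refine Finsupp.sum_congr (fun s _ => ?_)
  simp [evl_apply, hc]

/-- The exact midpoint inequality for finitely supported `x'`. -/
theorem core (hG : GlueAx ev L) (hc : ∀ s i, c s i = ev i s) (a : List ℕ →₀ ℝ)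
    (S : Finset (List ℕ)) (hroot : [] ∈ S) (hanc : ∀ (n : ℕ) (v : List ℕ), n :: v ∈ S → v ∈ S)
    (hsupp : a.support ⊆ S) (τ : List ℕ → ι)
    (hτ : ∀ s j u, ev j s * ev (τ s) u = ev j s * (if u = s then 1 else 0))
    {y : lp (fun _ : ι => ℝ) ⊤} (hy : y ∈ (Submodule.span ℝ (Set.range c)).topologicalClosure)
    (hy0 : ∀ s ∈ S, y (τ s) = 0) :
    2 * Real.sqrt (‖a.sum fun s r => r • c s‖ ^ 2 + ‖y‖ ^ 2 / 4)
      ≤ ‖(a.sum fun s r => r • c s) + y‖ + ‖(a.sum fun s r => r • c s) - y‖ := by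
  set x' := a.sum fun s r => r • c s with hx'
  have hx'mem : x' ∈ (Submodule.span ℝ (Set.range c)).topologicalClosure := by
    apply Submodule.le_topologicalClosure
    rw [Finsupp.mem_span_range_iff_exists_finsupp]
    exact ⟨a, rfl⟩
  set X := ‖x'‖ with hX
  set Y := ‖y‖ with hY
  have hX0 : 0 ≤ X := norm_nonneg _
  have hY0 : 0 ≤ Y := norm_nonneg _
  by_cases hcase : 4 * X ^ 2 < 3 * Y ^ 2
  · -- trivial case
    have h1 : 2 * Y ≤ ‖x' + y‖ + ‖x' - y‖ := by
      have : (2 : ℝ) • y = (x' + y) - (x' - y) := by rw [two_smul]; abel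
      have h2 : ‖(2 : ℝ) • y‖ ≤ ‖x' + y‖ + ‖x' - y‖ := by rw [this]; exact norm_sub_le _ _
      rw [norm_smul] at h2
      simpa using h2
    have h3 : Real.sqrt (X ^ 2 + Y ^ 2 / 4) ≤ Y := by
      rw [Real.sqrt_le_iff]; exact ⟨hY0, by nlinarith⟩
    linarith
  · push Not at hcase
    set r := Real.sqrt (X ^ 2 + Y ^ 2 / 4) with hr
    have hr0 : 0 ≤ r := Real.sqrt_nonneg _
    have hrsq : r ^ 2 = X ^ 2 + Y ^ 2 / 4 := Real.sq_sqrt (by positivity)
    rcases hr0.eq_or_lt with hr00 | hrpos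
    · rw [← hr00]; simp only [mul_zero]; positivity
    set α := X / r with hα
    set β := Y / (2 * r) with hβ
    have hα0 : 0 ≤ α := by positivity
    have hβ0 : 0 ≤ β := by positivity
    have hαβ : α ^ 2 + β ^ 2 ≤ 1 := by
      have : α ^ 2 + β ^ 2 = (X ^ 2 + Y ^ 2 / 4) / r ^ 2 := by
        rw [hα, hβ]; field_simp; ring
      rw [this, ← hrsq, div_self (by positivity)]
    have hβ1 : 2 * β ≤ 1 := by
      have : 2 * β = Y / r := by rw [hβ]; field_simp
      rw [this, div_le_one hrpos]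
      apply le_of_sq_le_sq _ hr0 |> fun h => h
      nlinarith
    have hα1 : α ≤ 1 := by nlinarith
    have hmain : 2 * α * X + β * Y = 2 * r := by
      have : 2 * α * X + β * Y = 2 * (X ^ 2 + Y ^ 2 / 4) / r := by
        rw [hα, hβ]; field_simp; ring
      rw [this, ← hrsq]; field_simp
    apply le_of_forall_pos_le_add
    intro ε hε
    obtain ⟨i, hi⟩ := exists_eval_ge hG hc hx'mem (show 0 < ε / 3 by positivity)
    obtain ⟨j, hj⟩ := exists_eval_ge hG hc hy (show 0 < ε / 3 by positivity)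
    obtain ⟨kp, km, hkp, hkm, hdiff⟩ := exists_glue hG i j S hroot hanc hα0 hβ0 hαβ hβ1
    have hxp : x' kp = α * x' i := by
      rw [hx', eval_finsupp hc, eval_finsupp hc, Finsupp.mul_sum]
      refine Finsupp.sum_congr (fun s hs => ?_)
      rw [hkp s (hsupp hs)]; ring
    have hxm : x' km = α * x' i := by
      rw [hx', eval_finsupp hc, eval_finsupp hc, Finsupp.mul_sum]
      refine Finsupp.sum_congr (fun s hs => ?_)
      rw [hkm s (hsupp hs)]; ring
    have hyd : y kp - y km = β * y j := by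
      have := clm_zero_on_closure (c := c)
        (evl kp - evl km - β • evl j + β • ∑ s ∈ S, ev j s • evl (τ s))
        (by
          intro u
          simp only [add_apply, sub_apply, smul_apply, sum_apply, evl_apply, hc,
            smul_eq_mul]
          have hsum : ∑ s ∈ S, ev j s * ev (τ s) u = ∑ s ∈ S, ev j s * (if u = s then 1 else 0) :=
            Finset.sum_congr rfl (fun s _ => hτ s j u)
          rw [hsum]
          by_cases hu : u ∈ S
          · rw [hkp u hu, hkm u hu]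
            simp [Finset.sum_ite_eq, hu]
          · rw [sub_sub, sub_eq_zero.mpr (by linarith [hdiff u hu] : ev kp u = ev km u + β * ev j u)]
            simp [Finset.sum_ite_eq, hu]) hy
      simp only [add_apply, sub_apply, smul_apply, sum_apply, evl_apply,
        smul_eq_mul] at this
      have hz : ∑ s ∈ S, ev j s * y (τ s) = 0 :=
        Finset.sum_eq_zero (fun s hs => by rw [hy0 s hs]; ring)
      rw [hz] at this
      linarith
    have h1 : (x' + y) kp ≤ ‖x' + y‖ := le_norm_of_eval _ _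
    have h2 : (x' - y) km ≤ ‖x' - y‖ := le_norm_of_eval _ _
    have e1 : (x' + y) kp = x' kp + y kp := rfl
    have e2 : (x' - y) km = x' km - y km := rfl
    rw [e1] at h1
    rw [e2] at h2
    have h3 : 2 * α * (X - ε / 3) + β * (Y - ε / 3) ≤ 2 * α * x' i + β * y j := by
      have := mul_le_mul_of_nonneg_left hi (by positivity : 0 ≤ 2 * α)
      have := mul_le_mul_of_nonneg_left hj hβ0
      linarith
    have h4 : (2 * α + β) * (ε / 3) ≤ ε := by nlinarith
    nlinarith

theorem sqrt_shift {X0 X b d : ℝ} (hX : 0 ≤ X) (hd : 0 ≤ d) (hb : 0 ≤ b) (hX0 : 0 ≤ X0)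
    (h : X0 ≤ X + d) : Real.sqrt (X0 ^ 2 + b) ≤ Real.sqrt (X ^ 2 + b) + d := by
  rw [Real.sqrt_le_iff]
  refine ⟨by positivity, ?_⟩
  have h1 : X ≤ Real.sqrt (X ^ 2 + b) := Real.le_sqrt_of_sq_le (by linarith)
  have hs : Real.sqrt (X ^ 2 + b) ^ 2 = X ^ 2 + b := Real.sq_sqrt (by positivity)
  nlinarith [mul_le_mul_of_nonneg_right h1 hd]

variable (ev L c)

/-- The gluing argument: homogeneous midpoint inequality. -/
theorem midIneq_of_glueAx (hG : GlueAx ev L) (hc : ∀ s i, c s i = ev i s) :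
    MidIneq ↥(Submodule.span ℝ (Set.range c)).topologicalClosure := by
  intro x η hη
  -- approximate `x`
  have hxcl : (x : lp (fun _ : ι => ℝ) ⊤) ∈ closure ((Submodule.span ℝ (Set.range c) :
      Submodule ℝ (lp (fun _ : ι => ℝ) ⊤)) : Set (lp (fun _ : ι => ℝ) ⊤)) := by
    have := x.2
    rw [← SetLike.mem_coe, Submodule.topologicalClosure_coe] at this
    exact this
  obtain ⟨x', hx'span, hx'd⟩ := Metric.mem_closure_iff.mp hxcl (η / 4) (by positivity)
  rw [SetLike.mem_coe, Finsupp.mem_span_range_iff_exists_finsupp] at hx'span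
  obtain ⟨a, rfl⟩ := hx'span
  -- the finite ancestor closed set
  set S : Finset (List ℕ) := (a.support.biUnion fun s => s.tails.toFinset) ∪ {[]} with hS
  have hroot : [] ∈ S := by simp [hS]
  have hsupp : a.support ⊆ S := by
    intro s hs
    rw [hS, Finset.mem_union, Finset.mem_biUnion]
    left
    exact ⟨s, hs, by simp⟩
  have hanc : ∀ (n : ℕ) (v : List ℕ), n :: v ∈ S → v ∈ S := by
    intro n v h
    rw [hS, Finset.mem_union, Finset.mem_biUnion] at h ⊢
    rcases h with ⟨s, hs, hm⟩ | h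
    · left
      refine ⟨s, hs, ?_⟩
      rw [List.mem_toFinset, List.mem_tails] at hm ⊢
      exact (List.suffix_cons n v).trans hm
    · simp at h
  -- indicator tests
  have hex : ∀ s : List ℕ, ∃ k : ι, ∀ j u, ev j s * ev k u = ev j s * (if u = s then 1 else 0) := by
    intro s
    cases s with
    | nil => exact hG.root
    | cons n v =>
      obtain ⟨k, hk⟩ := hG.ind n v
      exact ⟨k, fun j u => by rw [hk u]⟩
  choose τ hτ using hex
  refine ⟨S.inf fun s => LinearMap.ker (((evl (τ s)).comp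
      (Submodule.span ℝ (Set.range c)).topologicalClosure.subtypeL :
        ↥(Submodule.span ℝ (Set.range c)).topologicalClosure →L[ℝ] ℝ) :
        ↥(Submodule.span ℝ (Set.range c)).topologicalClosure →ₗ[ℝ] ℝ),
    cofSub_finset_inf _ _ (fun s _ => cofSub_ker _), ?_⟩
  intro y hy
  rw [Submodule.mem_finsetInf] at hy
  have hy0 : ∀ s ∈ S, (y : lp (fun _ : ι => ℝ) ⊤) (τ s) = 0 := by
    intro s hs
    have := hy s hs
    simpa [LinearMap.mem_ker, evl_apply] using this
  have hcore := core hG hc a S hroot hanc hsupp τ hτ y.2 hy0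
  set x' := a.sum fun s r => r • c s with hx'
  set d := ‖(x : lp (fun _ : ι => ℝ) ⊤) - x'‖ with hd
  have hd4 : d < η / 4 := by rw [hd, ← dist_eq_norm]; exact hx'd
  have hd0 : 0 ≤ d := norm_nonneg _
  have n1 : ‖x‖ = ‖(x : lp (fun _ : ι => ℝ) ⊤)‖ := rfl
  have n2 : ‖y‖ = ‖(y : lp (fun _ : ι => ℝ) ⊤)‖ := rfl
  have n3 : ‖x + y‖ = ‖(x : lp (fun _ : ι => ℝ) ⊤) + y‖ := rfl
  have n4 : ‖x - y‖ = ‖(x : lp (fun _ : ι => ℝ) ⊤) - y‖ := rfl
  rw [n1, n2, n3, n4]
  have t1 : ‖(x : lp (fun _ : ι => ℝ) ⊤)‖ ≤ ‖x'‖ + d := by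
    have : (x : lp (fun _ : ι => ℝ) ⊤) = x' + ((x : lp (fun _ : ι => ℝ) ⊤) - x') := by abel
    calc ‖(x : lp (fun _ : ι => ℝ) ⊤)‖ = ‖x' + ((x : lp (fun _ : ι => ℝ) ⊤) - x')‖ := by rw [← this]
      _ ≤ _ := norm_add_le _ _
  have t2 : ‖x' + y‖ ≤ ‖(x : lp (fun _ : ι => ℝ) ⊤) + y‖ + d := by
    have : x' + (y : lp (fun _ : ι => ℝ) ⊤)
        = ((x : lp (fun _ : ι => ℝ) ⊤) + y) - ((x : lp (fun _ : ι => ℝ) ⊤) - x') := by abel
    rw [this]; exact norm_sub_le _ _
  have t3 : ‖x' - y‖ ≤ ‖(x : lp (fun _ : ι => ℝ) ⊤) - y‖ + d := by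
    have : x' - (y : lp (fun _ : ι => ℝ) ⊤)
        = ((x : lp (fun _ : ι => ℝ) ⊤) - y) - ((x : lp (fun _ : ι => ℝ) ⊤) - x') := by abel
    rw [this]; exact norm_sub_le _ _
  have t4 := sqrt_shift (b := ‖(y : lp (fun _ : ι => ℝ) ⊤)‖ ^ 2 / 4) (norm_nonneg x') hd0
    (by positivity) (norm_nonneg _) t1
  linarith

/-- coordinate vectors as elements of the closed span -/
noncomputable def cZ (s : List ℕ) : ↥(Submodule.span ℝ (Set.range c)).topologicalClosure :=
  ⟨c s, Submodule.le_topologicalClosure _ (Submodule.subset_span ⟨s, rfl⟩)⟩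

/-- partial sums of the coordinate vectors along root paths -/
noncomputable def bZ : List ℕ → ↥(Submodule.span ℝ (Set.range c)).topologicalClosure
  | [] => cZ c []
  | a :: v => bZ v + cZ c (a :: v)

theorem bZ_apply (hc : ∀ s i, c s i = ev i s) (v : List ℕ) (i : ι) :
    (bZ c v : lp (fun _ : ι => ℝ) ⊤) i = pathPotential (ev i) v := by
  induction v with
  | nil => simp [bZ, cZ, hc, pathPotential]
  | cons a v ih =>
    have : (bZ c (a :: v) : lp (fun _ : ι => ℝ) ⊤) i
        = (bZ c v : lp (fun _ : ι => ℝ) ⊤) i + c (a :: v) i := rfl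
    rw [this, ih, hc]; rfl

/-- The tree of partial sums of coordinate vectors along root paths, rooted at `[0]`. -/
theorem good_of_glueAx (hG : GlueAx ev L) (hc : ∀ s i, c s i = ev i s) (k : ℕ)
    (hL : ∀ s : List ℕ, s.length ≤ k + 1 → s ∈ L) :
    ∃ x : ↥(Submodule.span ℝ (Set.range c)).topologicalClosure, 1 ≤ ‖x‖ ∧ Good 1 1 k x := by
  refine ⟨bZ c ([] ++ [0]), ?_, ?_⟩
  · obtain ⟨k0, hk0⟩ := hG.ind 0 []
    have h1 : (bZ c ([] ++ [0]) : lp (fun _ : ι => ℝ) ⊤) k0 = 1 := by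
      rw [bZ_apply ev c hc]
      simp [pathPotential, hk0]
    have := le_norm_of_eval (bZ c ([] ++ [0]) : lp (fun _ : ι => ℝ) ⊤) k0
    rw [h1] at this
    exact this
  · refine good_of_tree (fun v => bZ c (v ++ [0])) 1 1 k ?_ ?_ ?_ k [] (by simp)
    · intro v hv
      have : ‖bZ c (v ++ [0])‖ = ‖(bZ c (v ++ [0]) : lp (fun _ : ι => ℝ) ⊤)‖ := rfl
      rw [this]
      apply lp.norm_le_of_forall_le (by norm_num)
      intro i
      rw [bZ_apply ev c hc, Real.norm_eq_abs]
      exact hG.pot i _ (hL _ (by simp; omega))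
    · intro n v _
      have e : bZ c (n :: v ++ [0]) - bZ c (v ++ [0]) = cZ c (n :: (v ++ [0])) := by
        have : bZ c (n :: v ++ [0]) = bZ c (v ++ [0]) + cZ c (n :: (v ++ [0])) := rfl
        rw [this]; abel
      rw [e]
      obtain ⟨k0, hk0⟩ := hG.ind n (v ++ [0])
      have := le_norm_of_eval (c (n :: (v ++ [0]))) k0
      rw [hc, hk0] at this
      have e2 : ‖cZ c (n :: (v ++ [0]))‖ = ‖c (n :: (v ++ [0]))‖ := rfl
      rw [e2]
      simpa using this
    · intro v _ φ
      have e : ∀ n : ℕ, bZ c (n :: v ++ [0]) - bZ c (v ++ [0]) = cZ c (n :: (v ++ [0])) := by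
        intro n
        have : bZ c (n :: v ++ [0]) = bZ c (v ++ [0]) + cZ c (n :: (v ++ [0])) := rfl
        rw [this]; abel
      simp only [e]
      refine tendsto_of_upper_l2 (fun n => cZ c (n :: (v ++ [0]))) 1 ?_ φ
      intro A σ hσ
      have hn : ‖∑ n ∈ A, σ n • cZ c (n :: (v ++ [0]))‖
          = ‖∑ n ∈ A, σ n • c (n :: (v ++ [0]))‖ := by
        have : ((∑ n ∈ A, σ n • cZ c (n :: (v ++ [0])) :
            ↥(Submodule.span ℝ (Set.range c)).topologicalClosure) : lp (fun _ : ι => ℝ) ⊤)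
            = ∑ n ∈ A, σ n • c (n :: (v ++ [0])) := by
          simp [cZ]
        rw [← this]; rfl
      rw [hn]
      apply lp.norm_le_of_forall_le (by positivity)
      intro i
      have hev : (∑ n ∈ A, σ n • c (n :: (v ++ [0]))) i = ∑ n ∈ A, σ n * ev i (n :: (v ++ [0])) := by
        rw [← evl_apply, map_sum]
        refine Finset.sum_congr rfl (fun n _ => ?_)
        simp [evl_apply, hc]
      rw [hev, Real.norm_eq_abs, one_mul]
      have hcs := Finset.sum_mul_sq_le_sq_mul_sq A σ (fun n => ev i (n :: (v ++ [0])))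
      have hσ2 : ∑ n ∈ A, σ n ^ 2 = A.card := by
        have : ∀ n ∈ A, σ n ^ 2 = 1 := by
          intro n _; rcases hσ n with h | h <;> rw [h] <;> norm_num
        rw [Finset.sum_congr rfl this]; simp
      rw [hσ2] at hcs
      have hsib := hG.sib i (v ++ [0]) A
      apply Real.abs_le_sqrt
      calc _ ≤ (A.card : ℝ) * ∑ n ∈ A, ev i (n :: (v ++ [0])) ^ 2 := hcs
        _ ≤ (A.card : ℝ) * 1 := mul_le_mul_of_nonneg_left hsib (by positivity)
        _ = _ := by ring

theorem separable_closure_span :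
    TopologicalSpace.SeparableSpace ↥(Submodule.span ℝ (Set.range c)).topologicalClosure := by
  have h1 : TopologicalSpace.IsSeparable (Set.range c) := (Set.countable_range c).isSeparable
  have h2 := (h1.span (R := ℝ)).closure
  have h3 : TopologicalSpace.IsSeparable
      (((Submodule.span ℝ (Set.range c)).topologicalClosure : Submodule ℝ _) :
        Set (lp (fun _ : ι => ℝ) ⊤)) := by
    rw [Submodule.topologicalClosure_coe]; exact h2
  exact h3.separableSpace

end Crest.Agent.R125_Glue
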