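import Mathlib
import Crest.Agent.Lib_helper3_R125Defs

/-! Row 125, task T4: reflexivity of Hilbert spaces, of isomorphic copies and of `ℓ²`-sums. -/

namespace Crest.Agent.R125_Refl

open Crest.Agent.Lib_helper3_R125Defs
open scoped ENNReal NNReal

theorem reflexive_hilbert (H : Type*) [NormedAddCommGroup H] [InnerProductSpace ℝ H]
    [CompleteSpace H] : Reflexive H := by
  intro Φ
  let Ψ : H →L[ℝ] ℝ := LinearMap.mkContinuous
    { toFun := fun y => Φ (InnerProductSpace.toDual ℝ H y)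
      map_add' := by intro a b; simp
      map_smul' := by intro c a; simp } ‖Φ‖
    (fun y => by simpa using Φ.le_opNorm (InnerProductSpace.toDual ℝ H y))
  refine ⟨(InnerProductSpace.toDual ℝ H).symm Ψ, ?_⟩
  ext φ
  obtain ⟨y, rfl⟩ := (InnerProductSpace.toDual ℝ H).surjective φ
  rw [NormedSpace.dual_def, InnerProductSpace.toDual_apply_apply, real_inner_comm,
    InnerProductSpace.toDual_symm_apply]
  rfl

theorem reflexive_of_equiv {X Y : Type*} [NormedAddCommGroup X] [NormedSpace ℝ X]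
    [NormedAddCommGroup Y] [NormedSpace ℝ Y] (e : X ≃L[ℝ] Y) (h : Reflexive Y) : Reflexive X := by
  intro Φ
  obtain ⟨y, hy⟩ := h (Φ.comp ((ContinuousLinearMap.compL ℝ X Y ℝ).flip (e : X →L[ℝ] Y)))
  refine ⟨e.symm y, ?_⟩
  ext φ
  have := congrArg (fun F => F (φ.comp (e.symm : Y →L[ℝ] X))) hy
  simp only [NormedSpace.dual_def, ContinuousLinearMap.comp_apply,
    ContinuousLinearMap.flip_apply, ContinuousLinearMap.compL_apply] at this
  rw [NormedSpace.dual_def]
  rw [show φ (e.symm y) = φ ((e.symm : Y →L[ℝ] X) y) from rfl, this]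
  congr 1
  ext x
  simp

section lp2

variable {X : ℕ → Type*} [∀ n, NormedAddCommGroup (X n)] [∀ n, NormedSpace ℝ (X n)]

/-- The dual pairing `ℓ²(X*) → (ℓ²(X))*`. -/
noncomputable def pair (X : ℕ → Type*) [∀ n, NormedAddCommGroup (X n)] [∀ n, NormedSpace ℝ (X n)] :
    lp (fun n => StrongDual ℝ (X n)) 2 →L[ℝ] lp X 2 →L[ℝ] ℝ :=
  lp.dualPairing 2 2 (fun n => ContinuousLinearMap.id ℝ (StrongDual ℝ (X n))) (K := 1)
    (fun n => by simpa using ContinuousLinearMap.norm_id_le)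

theorem norm_pair_le : ‖pair X‖ ≤ 1 := by
  have := lp.norm_dualPairing (p := 2) (q := 2)
    (fun n => ContinuousLinearMap.id ℝ (StrongDual ℝ (X n))) (K := 1)
    (fun n => by simpa using ContinuousLinearMap.norm_id_le)
  simpa [pair] using this

theorem pair_apply (ψ : lp (fun n => StrongDual ℝ (X n)) 2) (y : lp X 2) :
    pair X ψ y = ∑' n, ψ n (y n) := rfl

theorem pair_single_left (i : ℕ) (ψ : StrongDual ℝ (X i)) (y : lp X 2) :
    pair X (lp.single 2 i ψ) y = ψ (y i) := by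
  rw [pair_apply, tsum_eq_single i]
  · rw [lp.single_apply_self]
  · intro j hj
    rw [lp.single_apply_ne _ _ _ hj]
    simp

theorem pair_single_right (ψ : lp (fun n => StrongDual ℝ (X n)) 2) (i : ℕ) (y : X i) :
    pair X ψ (lp.single 2 i y) = ψ i y := by
  rw [pair_apply, tsum_eq_single i]
  · rw [lp.single_apply_self]
  · intro j hj
    rw [lp.single_apply_ne _ _ _ hj]
    simp

/-- norm of a finite sum of singles in `ℓ²`. -/
theorem norm_sum_single_le {A : ℕ → Type*} [∀ n, NormedAddCommGroup (A n)]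
    (f : ∀ n, A n) (c : ℕ → ℝ) (s : Finset ℕ) (h : ∀ n ∈ s, ‖f n‖ ≤ c n) :
    ‖∑ n ∈ s, lp.single 2 n (f n)‖ ≤ Real.sqrt (∑ n ∈ s, c n ^ 2) := by
  have h2 : (0:ℝ) < (2:ℝ≥0∞).toReal := by norm_num
  have := lp.norm_sum_single h2 f s
  simp only [ENNReal.toReal_ofNat, Real.rpow_ofNat] at this
  apply Real.le_sqrt_of_sq_le
  rw [this]
  apply Finset.sum_le_sum
  intro n hn
  have := h n hn
  have h0 := norm_nonneg (f n)
  nlinarith

/-- `ℓ²`-membership by testing against nonnegative finitely supported coefficient sequences. -/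
theorem memℓp_two_of_test {A : ℕ → Type*} [∀ n, NormedAddCommGroup (A n)] (a : ∀ n, A n) (C : ℝ)
    (h : ∀ (s : Finset ℕ) (c : ℕ → ℝ), (∀ n, 0 ≤ c n) →
      ∑ n ∈ s, c n * ‖a n‖ ≤ C * Real.sqrt (∑ n ∈ s, c n ^ 2)) : Memℓp a 2 := by
  apply memℓp_gen' (C := C ^ 2)
  intro s
  simp only [ENNReal.toReal_ofNat, Real.rpow_ofNat]
  have h1 := h s (fun n => ‖a n‖) (fun n => norm_nonneg _)
  set S := ∑ n ∈ s, ‖a n‖ ^ 2 with hS
  have hS0 : 0 ≤ S := Finset.sum_nonneg (fun n _ => by positivity)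
  have h2 : ∑ n ∈ s, ‖a n‖ * ‖a n‖ = S := by
    rw [hS]; apply Finset.sum_congr rfl; intro n _; ring
  rw [h2] at h1
  have h3 : Real.sqrt S * Real.sqrt S = S := Real.mul_self_sqrt hS0
  have h4 := Real.sqrt_nonneg S
  by_cases h5 : Real.sqrt S = 0
  · have : S = 0 := by rw [← h3, h5]; ring
    rw [this]; positivity
  · have h6 : 0 < Real.sqrt S := lt_of_le_of_ne h4 (Ne.symm h5)
    have h7 : Real.sqrt S ≤ C := by
      by_contra hcon
      push Not at hcon
      nlinarith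
    nlinarith

theorem reflexive_lp2 {X : ℕ → Type*} [∀ n, NormedAddCommGroup (X n)] [∀ n, NormedSpace ℝ (X n)]
    [∀ n, CompleteSpace (X n)] (h : ∀ n, Reflexive (X n)) : Reflexive (lp X 2) := by
  intro Φ
  -- the coordinates
  have hx : ∀ n, ∃ x : X n, ∀ ψ : StrongDual ℝ (X n), ψ x = Φ (pair X (lp.single 2 n ψ)) := by
    intro n
    obtain ⟨x, hx⟩ := h n ((Φ.comp (pair X)).comp
      (lp.singleContinuousLinearMap ℝ (fun n => StrongDual ℝ (X n)) 2 n))
    refine ⟨x, fun ψ => ?_⟩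
    have := congrArg (fun F => F ψ) hx
    simpa [NormedSpace.dual_def] using this
  choose x hx using hx
  -- membership
  have hmem : Memℓp x 2 := by
    apply memℓp_two_of_test x ‖Φ‖
    intro s c hc
    have hψ : ∀ n, ∃ g : StrongDual ℝ (X n), ‖g‖ ≤ 1 ∧ g (x n) = ‖x n‖ := fun n => by
      simpa using exists_dual_vector'' ℝ (x n)
    choose ψ hψ1 hψ2 using hψ
    have e1 : ∑ n ∈ s, c n * ‖x n‖
        = Φ (pair X (∑ n ∈ s, lp.single 2 n (c n • ψ n))) := by
      rw [map_sum, map_sum]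
      apply Finset.sum_congr rfl
      intro n _
      rw [← hx n, _root_.smul_apply, hψ2, smul_eq_mul]
    rw [e1]
    have e2 : ‖∑ n ∈ s, lp.single 2 n (c n • ψ n)‖ ≤ Real.sqrt (∑ n ∈ s, c n ^ 2) := by
      apply norm_sum_single_le
      intro n _
      rw [norm_smul, Real.norm_eq_abs, abs_of_nonneg (hc n)]
      have := hψ1 n
      nlinarith [hc n]
    calc Φ (pair X (∑ n ∈ s, lp.single 2 n (c n • ψ n)))
        ≤ ‖Φ (pair X (∑ n ∈ s, lp.single 2 n (c n • ψ n)))‖ := le_abs_self _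
      _ ≤ ‖Φ‖ * ‖pair X (∑ n ∈ s, lp.single 2 n (c n • ψ n))‖ := Φ.le_opNorm _
      _ ≤ ‖Φ‖ * (1 * ‖∑ n ∈ s, lp.single 2 n (c n • ψ n)‖) := by
          gcongr
          exact (pair X).le_of_opNorm_le norm_pair_le _
      _ ≤ ‖Φ‖ * Real.sqrt (∑ n ∈ s, c n ^ 2) := by
          rw [one_mul]; gcongr
  refine ⟨⟨x, hmem⟩, ?_⟩
  -- agreement on the range of `pair`
  have hag : Φ.comp (pair X) = (pair X).flip ⟨x, hmem⟩ := by
    apply lp.ext_continuousLinearMap (by norm_num)
    intro i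
    ext ψ
    simp only [ContinuousLinearMap.comp_apply, lp.singleContinuousLinearMap_apply,
      ContinuousLinearMap.flip_apply]
    rw [pair_single_left, ← hx i]
  -- surjectivity of `pair`
  ext φ
  have hφmem : Memℓp (fun n => φ.comp (lp.singleContinuousLinearMap ℝ X 2 n)) 2 := by
    apply memℓp_two_of_test _ ‖φ‖
    intro s c hc
    have hy : ∀ n, ∃ y : X n, ‖y‖ ≤ 1 ∧ (φ.comp (lp.singleContinuousLinearMap ℝ X 2 n)) y
        = ‖φ.comp (lp.singleContinuousLinearMap ℝ X 2 n)‖ := by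
      intro n
      obtain ⟨Ξ, hΞ1, hΞ2⟩ := exists_dual_vector'' ℝ (φ.comp (lp.singleContinuousLinearMap ℝ X 2 n))
      obtain ⟨y, rfl⟩ := h n Ξ
      refine ⟨y, ?_, ?_⟩
      · have := (NormedSpace.inclusionInDoubleDualLi (E := X n) ℝ).norm_map y
        rw [← this]; exact hΞ1
      · simpa [NormedSpace.dual_def] using hΞ2
    choose y hy1 hy2 using hy
    have e1 : ∑ n ∈ s, c n * ‖φ.comp (lp.singleContinuousLinearMap ℝ X 2 n)‖
        = φ (∑ n ∈ s, lp.single 2 n (c n • y n)) := by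
      rw [map_sum]
      apply Finset.sum_congr rfl
      intro n _
      rw [← hy2 n, lp.single_smul, map_smul, smul_eq_mul]
      rfl
    rw [e1]
    have e2 : ‖∑ n ∈ s, lp.single 2 n (c n • y n)‖ ≤ Real.sqrt (∑ n ∈ s, c n ^ 2) := by
      apply norm_sum_single_le
      intro n _
      rw [norm_smul, Real.norm_eq_abs, abs_of_nonneg (hc n)]
      have := hy1 n
      nlinarith [hc n]
    calc φ (∑ n ∈ s, lp.single 2 n (c n • y n))
        ≤ ‖φ (∑ n ∈ s, lp.single 2 n (c n • y n))‖ := le_abs_self _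
      _ ≤ ‖φ‖ * ‖∑ n ∈ s, lp.single 2 n (c n • y n)‖ := φ.le_opNorm _
      _ ≤ ‖φ‖ * Real.sqrt (∑ n ∈ s, c n ^ 2) := by gcongr
  have hφ : φ = pair X ⟨_, hφmem⟩ := by
    apply lp.ext_continuousLinearMap (by norm_num)
    intro i
    ext y
    simp only [ContinuousLinearMap.comp_apply, lp.singleContinuousLinearMap_apply]
    rw [pair_single_right]
    rfl
  rw [NormedSpace.dual_def]
  have := congrArg (fun F => F ⟨_, hφmem⟩) hag
  simp only [ContinuousLinearMap.comp_apply, ContinuousLinearMap.flip_apply] at this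
  rw [← hφ] at this
  exact this.symm

end lp2

end Crest.Agent.R125_Refl
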