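import Mathlib
import Crest.Agent.Lib_helper3_R125Defs
import Crest.Agent.R125_Refl

/-! Row 125, task T11: the global model with potential constraints on the levels `≤ n` only; it is
isomorphic to `ℓ²(List ℕ)`, hence reflexive, and satisfies `GlueAx`. -/

namespace Crest.Agent.R125_Hilb

open Crest.Agent.Lib_helper3_R125Defs Crest.Agent.R125_Refl Crest.AnalysisR.TreePotential

/-- Tests of level `n`: all finite square sums at most one, potentials bounded by one at the
vertices of length at most `n`. -/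
def HTest (n : ℕ) : Type :=
  {f : List ℕ → ℝ // (∀ A : Finset (List ℕ), ∑ u ∈ A, f u ^ 2 ≤ 1) ∧
    ∀ s : List ℕ, s.length ≤ n → |pathPotential f s| ≤ 1}

theorem HTest.abs_le_one {n : ℕ} (f : HTest n) (s : List ℕ) : |f.1 s| ≤ 1 := by
  have h := f.2.1 {s}
  simp only [Finset.sum_singleton] at h
  exact abs_le_one_iff_mul_self_le_one.mpr (by nlinarith)

/-- Coordinate vectors. -/
noncomputable def hcoord (n : ℕ) (s : List ℕ) : lp (fun _ : HTest n => ℝ) ⊤ :=
  ⟨fun f => f.1 s, memℓp_infty ⟨1, by
    rintro _ ⟨f, rfl⟩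
    simpa [Real.norm_eq_abs] using f.abs_le_one s⟩⟩

/-- The space of level `n`. -/
noncomputable def HSpace (n : ℕ) : Submodule ℝ (lp (fun _ : HTest n => ℝ) ⊤) :=
  (Submodule.span ℝ (Set.range (hcoord n))).topologicalClosure

instance (n : ℕ) : CompleteSpace (HSpace n) :=
  (Submodule.isClosed_topologicalClosure _).completeSpace_coe

/-- potential of an indicator -/
theorem pot_ind (w : List ℕ) (s : List ℕ) :
    (pathPotential (fun u => if u = w then (1:ℝ) else 0) s = 0 ∨
      pathPotential (fun u => if u = w then (1:ℝ) else 0) s = 1) ∧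
    (s.length < w.length → pathPotential (fun u => if u = w then (1:ℝ) else 0) s = 0) := by
  induction s with
  | nil =>
    simp only [pathPotential]
    refine ⟨by split_ifs <;> simp, ?_⟩
    intro h
    rw [if_neg]
    rintro rfl
    simp at h
  | cons b t ih =>
    simp only [pathPotential]
    by_cases hw : b :: t = w
    · have h1 : t.length < w.length := by rw [← hw]; simp
      rw [ih.2 h1, if_pos hw]
      refine ⟨Or.inr (by norm_num), ?_⟩
      intro h
      rw [← hw] at h
      exact absurd h (lt_irrefl _)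
    · rw [if_neg hw, add_zero]
      refine ⟨ih.1, ?_⟩
      intro h
      apply ih.2
      simp only [List.length_cons] at h
      omega

theorem abs_pot_ind_le (w s : List ℕ) :
    |pathPotential (fun u => if u = w then (1:ℝ) else 0) s| ≤ 1 := by
  rcases (pot_ind w s).1 with h | h <;> rw [h] <;> simp

theorem sum_ind_sq_le (w : List ℕ) (A : Finset (List ℕ)) :
    ∑ u ∈ A, (if u = w then (1:ℝ) else 0) ^ 2 ≤ 1 := by
  have : ∀ u : List ℕ, (if u = w then (1:ℝ) else 0) ^ 2 = if u = w then (1:ℝ) else 0 := by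
    intro u; split_ifs <;> simp
  simp only [this]
  rw [Finset.sum_ite_eq']
  split_ifs <;> norm_num

/-- indicator tests -/
def indTest (n : ℕ) (w : List ℕ) : HTest n :=
  ⟨fun u => if u = w then (1:ℝ) else 0, sum_ind_sq_le w, fun s _ => abs_pot_ind_le w s⟩

theorem glueAx_HTest (n : ℕ) : GlueAx (fun f : HTest n => f.1) {s | s.length ≤ n} := by
  refine ⟨fun i s hs => i.2.2 s hs, ?_, ?_, ?_, ?_, ?_⟩
  · intro a v h
    simp only [Set.mem_ofPred_eq, List.length_cons] at h ⊢
    omega
  · intro i j h S α β hα hβ hαβ hS hS' hpot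
    classical
    refine ⟨⟨h, ?_, fun s hs => hpot s hs⟩, rfl⟩
    intro A
    have h1 : ∀ u ∈ A, h u ^ 2 ≤ (if u ∈ S then α ^ 2 * i.1 u ^ 2 else 0)
        + (if u ∈ S then 0 else β ^ 2 * j.1 u ^ 2) := by
      intro u _
      by_cases hu : u ∈ S
      · rw [if_pos hu, if_pos hu, add_zero]
        have := hS u hu
        rw [← sq_abs (h u), ← sq_abs (i.1 u), ← mul_pow]
        exact pow_le_pow_left₀ (abs_nonneg _) this 2
      · rw [if_neg hu, if_neg hu, zero_add]
        have := hS' u hu
        rw [← sq_abs (h u), ← sq_abs (j.1 u), ← mul_pow]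
        exact pow_le_pow_left₀ (abs_nonneg _) this 2
    have h2 : ∑ u ∈ A, (if u ∈ S then α ^ 2 * i.1 u ^ 2 else 0) ≤ α ^ 2 := by
      rw [← Finset.sum_filter, ← Finset.mul_sum]
      have := i.2.1 (A.filter (· ∈ S))
      nlinarith [sq_nonneg α]
    have h3 : ∑ u ∈ A, (if u ∈ S then 0 else β ^ 2 * j.1 u ^ 2) ≤ β ^ 2 := by
      have : ∀ u, (if u ∈ S then 0 else β ^ 2 * j.1 u ^ 2)
          = (if ¬ u ∈ S then β ^ 2 * j.1 u ^ 2 else 0) := by
        intro u; by_cases hu : u ∈ S <;> simp [hu]
      simp only [this]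
      rw [← Finset.sum_filter, ← Finset.mul_sum]
      have := j.2.1 (A.filter (fun u => ¬ u ∈ S))
      nlinarith [sq_nonneg β]
    calc ∑ u ∈ A, h u ^ 2 ≤ ∑ u ∈ A, ((if u ∈ S then α ^ 2 * i.1 u ^ 2 else 0)
        + (if u ∈ S then 0 else β ^ 2 * j.1 u ^ 2)) := Finset.sum_le_sum h1
      _ ≤ α ^ 2 + β ^ 2 := by rw [Finset.sum_add_distrib]; exact add_le_add h2 h3
      _ ≤ 1 := hαβ
  · intro a v
    exact ⟨indTest n (a :: v), fun u => rfl⟩
  · exact ⟨indTest n [], fun j u => rfl⟩
  · intro i v A
    have := i.2.1 (A.image (fun a => a :: v))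
    rwa [Finset.sum_image (by intro a _ b _ h; simpa using h)] at this

/-- The Hilbert space `ℓ²(List ℕ)`. -/
abbrev HH : Type := lp (fun _ : List ℕ => ℝ) 2

theorem two_toReal : (2 : ENNReal).toReal = 2 := by norm_num

/-- a test as an element of `ℓ²` -/
noncomputable def toHH {n : ℕ} (f : HTest n) : HH :=
  ⟨f.1, memℓp_gen' (C := 1) (by
    intro s
    simp only [two_toReal, Real.norm_eq_abs]
    have := f.2.1 s
    simpa [Real.rpow_two, sq_abs] using this)⟩

theorem toHH_apply {n : ℕ} (f : HTest n) (s : List ℕ) : toHH f s = f.1 s := rfl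

theorem norm_toHH_le {n : ℕ} (f : HTest n) : ‖toHH f‖ ≤ 1 := by
  apply lp.norm_le_of_forall_sum_le (by norm_num) zero_le_one
  intro s
  simp only [two_toReal, Real.norm_eq_abs, toHH_apply]
  have := f.2.1 s
  simpa [Real.rpow_two, sq_abs] using this

/-- the operator -/
noncomputable def opA (n : ℕ) : HH →L[ℝ] lp (fun _ : HTest n => ℝ) ⊤ :=
  LinearMap.mkContinuous
    { toFun := fun x => ⟨fun f => inner ℝ (toHH f) x, memℓp_infty ⟨‖x‖, by
        rintro _ ⟨f, rfl⟩
        calc ‖inner ℝ (toHH f) x‖ ≤ ‖toHH f‖ * ‖x‖ := norm_inner_le_norm _ _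
          _ ≤ 1 * ‖x‖ := by gcongr; exact norm_toHH_le f
          _ = ‖x‖ := one_mul _⟩⟩
      map_add' := by
        intro x y
        ext f
        exact inner_add_right _ _ _
      map_smul' := by
        intro c x
        ext f
        exact inner_smul_right _ _ _ }
    1 (by
      intro x
      apply lp.norm_le_of_forall_le (by positivity)
      intro f
      calc ‖inner ℝ (toHH f) x‖ ≤ ‖toHH f‖ * ‖x‖ := norm_inner_le_norm _ _
          _ ≤ 1 * ‖x‖ := by gcongr; exact norm_toHH_le f)

theorem opA_apply (n : ℕ) (x : HH) (f : HTest n) : opA n x f = inner ℝ (toHH f) x := rfl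

theorem opA_single (n : ℕ) (s : List ℕ) : opA n (lp.single 2 s (1:ℝ)) = hcoord n s := by
  ext f
  rw [opA_apply, lp.inner_single_right]
  simp [toHH_apply, hcoord]

theorem abs_pot_le (f : List ℕ → ℝ) (c : ℝ) (hf : ∀ u, |f u| ≤ c) (s : List ℕ) :
    |pathPotential f s| ≤ (s.length + 1) * c := by
  induction s with
  | nil => simpa [pathPotential] using hf []
  | cons a v ih =>
    simp only [pathPotential, List.length_cons]
    push_cast
    calc |pathPotential f v + f (a :: v)| ≤ |pathPotential f v| + |f (a :: v)| := abs_add_le _ _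
      _ ≤ (v.length + 1) * c + c := add_le_add ih (hf _)
      _ = _ := by ring

theorem sum_sq_le_norm_sq (x : HH) (A : Finset (List ℕ)) : ∑ u ∈ A, x u ^ 2 ≤ ‖x‖ ^ 2 := by
  have := lp.sum_rpow_le_norm_rpow (p := 2) (by norm_num) x A
  simpa [two_toReal, Real.rpow_two, sq_abs] using this

theorem abs_apply_le_norm (x : HH) (u : List ℕ) : |x u| ≤ ‖x‖ := by
  have := lp.norm_apply_le_norm (p := 2) (by norm_num) x u
  simpa using this

/-- the normalised test associated with a nonzero vector -/
noncomputable def normTest (n : ℕ) (x : HH) (hx : x ≠ 0) : HTest n :=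
  ⟨fun u => x u / (‖x‖ * (n + 1)), by
    have hx' : 0 < ‖x‖ := norm_pos_iff.mpr hx
    have hn : (1:ℝ) ≤ n + 1 := by linarith [(Nat.cast_nonneg n : (0:ℝ) ≤ n)]
    constructor
    · intro A
      simp only [div_pow]
      rw [← Finset.sum_div, div_le_one (by positivity)]
      calc ∑ u ∈ A, x u ^ 2 ≤ ‖x‖ ^ 2 := sum_sq_le_norm_sq x A
        _ ≤ (‖x‖ * (n + 1)) ^ 2 := by
          apply pow_le_pow_left₀ hx'.le
          nlinarith
    · intro s hs
      have h1 : ∀ u, |x u / (‖x‖ * (n + 1))| ≤ 1 / (n + 1 : ℝ) := by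
        intro u
        rw [abs_div, abs_of_pos (by positivity : 0 < ‖x‖ * ((n:ℝ) + 1)),
          div_le_div_iff₀ (by positivity) (by positivity)]
        have := abs_apply_le_norm x u
        nlinarith
      have h2 := abs_pot_le _ _ h1 s
      refine h2.trans ?_
      rw [mul_one_div, div_le_one (by positivity)]
      have : (s.length : ℝ) ≤ n := by exact_mod_cast hs
      linarith⟩

theorem toHH_normTest (n : ℕ) (x : HH) (hx : x ≠ 0) :
    toHH (normTest n x hx) = (‖x‖ * (n + 1))⁻¹ • x := by
  ext u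
  rw [toHH_apply]
  simp only [normTest, lp.coeFn_smul, Pi.smul_apply, smul_eq_mul]
  rw [div_eq_inv_mul]

theorem norm_le_opA (n : ℕ) (x : HH) : ‖x‖ ≤ (n + 1) * ‖opA n x‖ := by
  by_cases hx : x = 0
  · subst hx; simp
  have hx' : 0 < ‖x‖ := norm_pos_iff.mpr hx
  have h1 := lp.norm_apply_le_norm (p := ⊤) (by simp) (opA n x) (normTest n x hx)
  rw [opA_apply, toHH_normTest, inner_smul_left, real_inner_self_eq_norm_sq] at h1
  have h2 : (starRingEnd ℝ) (‖x‖ * ((n:ℝ) + 1))⁻¹ * ‖x‖ ^ 2 = ‖x‖ / (n + 1) := by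
    simp only [conj_trivial]
    field_simp
  rw [h2, Real.norm_eq_abs, abs_of_pos (by positivity)] at h1
  rw [div_le_iff₀ (by positivity)] at h1
  linarith

theorem opA_mem (n : ℕ) (x : HH) : opA n x ∈ HSpace n := by
  have h1 : HasSum (fun s : List ℕ => opA n (lp.single 2 s (x s))) (opA n x) :=
    (lp.hasSum_single (p := 2) (by simp) x).mapL (opA n)
  have hcl : IsClosed ((HSpace n : Submodule ℝ _) : Set (lp (fun _ : HTest n => ℝ) ⊤)) :=
    Submodule.isClosed_topologicalClosure _
  refine hcl.mem_of_tendsto h1 (Filter.Eventually.of_forall ?_)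
  intro T
  apply Submodule.sum_mem
  intro s _
  have h2 : lp.single (E := fun _ : List ℕ => ℝ) 2 s (x s)
      = (x s) • lp.single (E := fun _ : List ℕ => ℝ) 2 s (1:ℝ) := by
    rw [← lp.single_smul]; simp
  rw [h2, map_smul, opA_single]
  apply Submodule.smul_mem
  exact Submodule.le_topologicalClosure _ (Submodule.subset_span ⟨s, rfl⟩)

theorem antilipschitz_opA (n : ℕ) : AntilipschitzWith (⟨n + 1, by positivity⟩ : NNReal) (opA n) := by
  apply AddMonoidHomClass.antilipschitz_of_bound
  intro x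
  exact norm_le_opA n x

theorem HSpace_le_range (n : ℕ) : HSpace n ≤ (opA n).range := by
  have hcl : IsClosed (((opA n).range : Submodule ℝ _) : Set (lp (fun _ : HTest n => ℝ) ⊤)) := by
    have := (antilipschitz_opA n).isClosed_range (opA n).uniformContinuous
    have h2 : (((opA n).range : Submodule ℝ _) : Set (lp (fun _ : HTest n => ℝ) ⊤))
        = Set.range (opA n) := by
      ext y; simp
    rw [h2]
    exact this
  apply Submodule.topologicalClosure_minimal _ _ hcl
  rw [Submodule.span_le]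
  rintro _ ⟨s, rfl⟩
  exact ⟨lp.single 2 s (1:ℝ), opA_single n s⟩

/-- the isomorphism -/
noncomputable def equivHH (n : ℕ) : HH ≃L[ℝ] HSpace n :=
  ContinuousLinearEquiv.ofBijective ((opA n).codRestrict (HSpace n) (opA_mem n))
    (by
      rw [LinearMap.ker_eq_bot']
      intro x hx
      have h1 : opA n x = 0 := congrArg Subtype.val hx
      have h2 := norm_le_opA n x
      rw [h1, norm_zero, mul_zero] at h2
      exact norm_le_zero_iff.mp h2)
    (by
      rw [LinearMap.range_eq_top]
      rintro ⟨y, hy⟩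
      obtain ⟨x, hx⟩ := HSpace_le_range n hy
      exact ⟨x, Subtype.ext hx⟩)

theorem reflexive_HSpace (n : ℕ) : Reflexive (HSpace n) :=
  reflexive_of_equiv (equivHH n).symm (reflexive_hilbert HH)

end Crest.Agent.R125_Hilb
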