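import Mathlib
import Crest.Prelude.Def_DaugavetL1
import Crest.Agent.Lib_helper3_R125Defs
import Crest.Agent.R125_Cof

/-! Row 125, task T10: lower bounds in subspaces of `L¹` whose ball is totally bounded in measure. -/

namespace Crest.Agent.R125_L1Lower

open Crest.Agent.Lib_helper3_R125Defs Crest.Agent.R125_Cof Crest.AnalysisR.L1Subspace MeasureTheory

/-- the sign `±1` of a real number (with value `1` at `0`) -/
noncomputable def sg (r : ℝ) : ℝ := if 0 ≤ r then 1 else -1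

theorem abs_sg (r : ℝ) : |sg r| = 1 := by
  unfold sg; split_ifs <;> simp

theorem measurable_sg : Measurable sg := by
  unfold sg
  exact Measurable.ite measurableSet_Ici measurable_const measurable_const

/-- the pointwise inequality behind the key lemma -/
theorem pointwise_key (f g M a : ℝ) (hM : 0 ≤ M) (ha : 0 ≤ a) :
    |f| - 2 * (if M < |f| then |f| else 0) - 2 * a - 4 * M * (if a < |f - g| then 1 else 0)
      ≤ sg g * f := by
  have h1 : -|f| ≤ sg g * f := by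
    have := abs_mul (sg g) f
    rw [abs_sg, one_mul] at this
    rw [← this]; exact neg_abs_le _
  by_cases hA : M < |f|
  · rw [if_pos hA]
    have : 0 ≤ 4 * M * (if a < |f - g| then (1:ℝ) else 0) := by
      split_ifs <;> positivity
    linarith
  · rw [if_neg hA]
    rw [not_lt] at hA
    by_cases hB : a < |f - g|
    · rw [if_pos hB]; linarith
    · rw [if_neg hB]
      rw [not_lt] at hB
      unfold sg
      rw [abs_le] at hB
      split_ifs with hg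
      · rcases abs_cases f with ⟨h, _⟩ | ⟨h, _⟩ <;> rw [h] <;> linarith
      · rw [not_le] at hg
        rcases abs_cases f with ⟨h, _⟩ | ⟨h, _⟩ <;> rw [h] <;> linarith


variable {Ω : Type} [MeasurableSpace Ω] (P : Measure Ω) [IsProbabilityMeasure P]

theorem integrable_sg_mul (g f : Lp ℝ 1 P) :
    Integrable (fun ω => sg ((g : Ω → ℝ) ω) * (f : Ω → ℝ) ω) P := by
  have hf : Integrable (f : Ω → ℝ) P := L1.integrable_coeFn f
  refine hf.bdd_mul (c := 1) ?_ ?_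
  · exact (measurable_sg.comp (Lp.stronglyMeasurable g).measurable).aestronglyMeasurable
  · exact Filter.Eventually.of_forall fun ω => by rw [Real.norm_eq_abs, abs_sg]

/-- integration against the sign of `g`, as a continuous functional on `L¹` -/
noncomputable def signFun (g : Lp ℝ 1 P) : Lp ℝ 1 P →L[ℝ] ℝ :=
  LinearMap.mkContinuous
    { toFun := fun f => ∫ ω, sg ((g : Ω → ℝ) ω) * (f : Ω → ℝ) ω ∂P
      map_add' := by
        intro f f'
        rw [← integral_add (integrable_sg_mul P g f) (integrable_sg_mul P g f')]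
        refine integral_congr_ae ?_
        filter_upwards [Lp.coeFn_add f f'] with ω hω
        rw [hω, Pi.add_apply, mul_add]
      map_smul' := by
        intro c f
        rw [RingHom.id_apply, smul_eq_mul, ← integral_const_mul]
        refine integral_congr_ae ?_
        filter_upwards [Lp.coeFn_smul c f] with ω hω
        rw [hω, Pi.smul_apply, smul_eq_mul]; ring }
    1 (by
      intro f
      rw [one_mul, L1.norm_eq_integral_norm]
      refine (norm_integral_le_integral_norm _).trans (le_of_eq ?_)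
      refine integral_congr_ae (Filter.Eventually.of_forall fun ω => ?_)
      simp only [norm_mul, Real.norm_eq_abs, abs_sg, one_mul])

theorem signFun_apply (g f : Lp ℝ 1 P) :
    signFun P g f = ∫ ω, sg ((g : Ω → ℝ) ω) * (f : Ω → ℝ) ω ∂P := rfl


theorem key_mass (f g : Lp ℝ 1 P) (hf : ‖f‖ = 1) (h0 : signFun P g f = 0) (M a : ℝ)
    (hM : 0 ≤ M) (ha : 0 < a)
    (hB : P {z | a < |(f : Ω → ℝ) z - (g : Ω → ℝ) z|} < ENNReal.ofReal a) :
    1 / 2 - a * (1 + 2 * M) ≤ ∫ ω in {ω | M < |(f : Ω → ℝ) ω|}, |(f : Ω → ℝ) ω| ∂P := by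
  have hfm : Measurable (f : Ω → ℝ) := (Lp.stronglyMeasurable f).measurable
  have hgm : Measurable (g : Ω → ℝ) := (Lp.stronglyMeasurable g).measurable
  have hfi : Integrable (f : Ω → ℝ) P := L1.integrable_coeFn f
  have hfa : Integrable (fun ω => |(f : Ω → ℝ) ω|) P := hfi.abs
  set A : Set Ω := {ω | M < |(f : Ω → ℝ) ω|} with hA
  set B : Set Ω := {z | a < |(f : Ω → ℝ) z - (g : Ω → ℝ) z|} with hBdef
  have hAm : MeasurableSet A := measurableSet_lt measurable_const hfm.abs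
  have hBm : MeasurableSet B := measurableSet_lt measurable_const (hfm.sub hgm).abs
  have hF2 : Integrable (A.indicator fun ω => |(f : Ω → ℝ) ω|) P := hfa.indicator hAm
  have hF3 : Integrable (B.indicator fun _ => (1 : ℝ)) P := (integrable_const 1).indicator hBm
  have hpt : ∀ ω, |(f : Ω → ℝ) ω| ≤ sg ((g : Ω → ℝ) ω) * (f : Ω → ℝ) ω
      + 2 * (A.indicator (fun ω => |(f : Ω → ℝ) ω|) ω) + 2 * a
      + 4 * M * (B.indicator (fun _ => (1 : ℝ)) ω) := by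
    intro ω
    have h := pointwise_key ((f : Ω → ℝ) ω) ((g : Ω → ℝ) ω) M a hM ha.le
    have e1 : A.indicator (fun ω => |(f : Ω → ℝ) ω|) ω
        = if M < |(f : Ω → ℝ) ω| then |(f : Ω → ℝ) ω| else 0 := by
      simp only [Set.indicator_apply, hA, Set.mem_ofPred_eq]
    have e2 : B.indicator (fun _ => (1 : ℝ)) ω
        = if a < |(f : Ω → ℝ) ω - (g : Ω → ℝ) ω| then 1 else 0 := by
      simp only [Set.indicator_apply, hBdef, Set.mem_ofPred_eq]
    rw [e1, e2]; linarith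
  have hI0 := integrable_sg_mul P g f
  have hI1 : Integrable (fun ω => sg ((g : Ω → ℝ) ω) * (f : Ω → ℝ) ω
      + 2 * (A.indicator (fun ω => |(f : Ω → ℝ) ω|) ω)) P := hI0.add (hF2.const_mul 2)
  have hI2 : Integrable (fun ω => sg ((g : Ω → ℝ) ω) * (f : Ω → ℝ) ω
      + 2 * (A.indicator (fun ω => |(f : Ω → ℝ) ω|) ω) + 2 * a) P :=
    hI1.add (integrable_const (2 * a))
  have hI3 : Integrable (fun ω => sg ((g : Ω → ℝ) ω) * (f : Ω → ℝ) ω
      + 2 * (A.indicator (fun ω => |(f : Ω → ℝ) ω|) ω) + 2 * a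
      + 4 * M * (B.indicator (fun _ => (1 : ℝ)) ω)) P := hI2.add (hF3.const_mul (4 * M))
  have hint := integral_mono hfa hI3 hpt
  have hsum : ∫ ω, (sg ((g : Ω → ℝ) ω) * (f : Ω → ℝ) ω
      + 2 * (A.indicator (fun ω => |(f : Ω → ℝ) ω|) ω) + 2 * a
      + 4 * M * (B.indicator (fun _ => (1 : ℝ)) ω)) ∂P
      = 0 + 2 * (∫ ω in A, |(f : Ω → ℝ) ω| ∂P) + 2 * a + 4 * M * (P B).toReal := by
    rw [integral_add hI2 (hF3.const_mul (4 * M)), integral_add hI1 (integrable_const (2 * a)),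
      integral_add hI0 (hF2.const_mul 2),
      integral_const_mul (4 * M), integral_const_mul 2 (A.indicator fun ω => |(f : Ω → ℝ) ω|),
      integral_indicator hAm, integral_indicator hBm,
      ← signFun_apply, h0]
    simp [Measure.real]
  have hnorm : ∫ ω, |(f : Ω → ℝ) ω| ∂P = 1 := by
    rw [← hf, L1.norm_eq_integral_norm]; rfl
  have hPB : (P B).toReal < a := ENNReal.toReal_lt_of_lt_ofReal hB
  rw [hsum, hnorm] at hint
  nlinarith [mul_le_mul_of_nonneg_left hPB.le hM]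


theorem norm_eq_integral_abs (f : Lp ℝ 1 P) : ‖f‖ = ∫ ω, |(f : Ω → ℝ) ω| ∂P := by
  rw [L1.norm_eq_integral_norm]; rfl

theorem split_lower (x y : Lp ℝ 1 P) (A : Set Ω) (hA : MeasurableSet A) :
    ‖x‖ - ‖y‖ + 2 * (∫ ω in A, |(y : Ω → ℝ) ω| ∂P) - 2 * (∫ ω in A, |(x : Ω → ℝ) ω| ∂P) ≤ ‖x + y‖ ∧
    2 * ‖x‖ + 2 * (∫ ω in A, |(y : Ω → ℝ) ω| ∂P) - 2 * (∫ ω in A, |(x : Ω → ℝ) ω| ∂P)
      ≤ ‖x + y‖ + ‖x - y‖ := by
  have hx : Integrable (fun ω => |(x : Ω → ℝ) ω|) P := (L1.integrable_coeFn x).abs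
  have hy : Integrable (fun ω => |(y : Ω → ℝ) ω|) P := (L1.integrable_coeFn y).abs
  have hp : Integrable (fun ω => |((x + y : Lp ℝ 1 P) : Ω → ℝ) ω|) P :=
    (L1.integrable_coeFn (x + y)).abs
  have hm : Integrable (fun ω => |((x - y : Lp ℝ 1 P) : Ω → ℝ) ω|) P :=
    (L1.integrable_coeFn (x - y)).abs
  have hxA : Integrable (A.indicator fun ω => |(x : Ω → ℝ) ω|) P := hx.indicator hA
  have hyA : Integrable (A.indicator fun ω => |(y : Ω → ℝ) ω|) P := hy.indicator hA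
  rw [← integral_indicator hA, ← integral_indicator hA, norm_eq_integral_abs P x,
    norm_eq_integral_abs P y, norm_eq_integral_abs P (x + y), norm_eq_integral_abs P (x - y)]
  constructor
  · have hJ1 : Integrable (fun ω => |((x + y : Lp ℝ 1 P) : Ω → ℝ) ω| + |(y : Ω → ℝ) ω|) P :=
      hp.add hy
    have hJ2 : Integrable (fun ω => |((x + y : Lp ℝ 1 P) : Ω → ℝ) ω| + |(y : Ω → ℝ) ω|
        + 2 * A.indicator (fun ω => |(x : Ω → ℝ) ω|) ω) P := hJ1.add (hxA.const_mul 2)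
    have hK1 : Integrable (fun ω => |(x : Ω → ℝ) ω|
        + 2 * A.indicator (fun ω => |(y : Ω → ℝ) ω|) ω) P := hx.add (hyA.const_mul 2)
    have h := integral_mono_ae hK1 hJ2 (by
      filter_upwards [Lp.coeFn_add x y] with ω hω
      rw [hω, Pi.add_apply]
      by_cases hωA : ω ∈ A
      · rw [Set.indicator_of_mem hωA, Set.indicator_of_mem hωA]
        have := abs_sub_abs_le_abs_sub ((y : Ω → ℝ) ω) (-(x : Ω → ℝ) ω)
        rw [abs_neg, sub_neg_eq_add, add_comm ((y : Ω → ℝ) ω)] at this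
        linarith
      · rw [Set.indicator_of_notMem hωA, Set.indicator_of_notMem hωA]
        have := abs_sub_abs_le_abs_sub ((x : Ω → ℝ) ω) (-(y : Ω → ℝ) ω)
        rw [abs_neg, sub_neg_eq_add] at this
        linarith)
    rw [integral_add hJ1 (hxA.const_mul 2), integral_add hp hy, integral_add hx (hyA.const_mul 2),
      integral_const_mul, integral_const_mul] at h
    linarith
  · have hJ1 : Integrable (fun ω => |((x + y : Lp ℝ 1 P) : Ω → ℝ) ω|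
        + |((x - y : Lp ℝ 1 P) : Ω → ℝ) ω|) P := hp.add hm
    have hJ2 : Integrable (fun ω => |((x + y : Lp ℝ 1 P) : Ω → ℝ) ω|
        + |((x - y : Lp ℝ 1 P) : Ω → ℝ) ω|
        + 2 * A.indicator (fun ω => |(x : Ω → ℝ) ω|) ω) P := hJ1.add (hxA.const_mul 2)
    have hK1 : Integrable (fun ω => 2 * |(x : Ω → ℝ) ω|
        + 2 * A.indicator (fun ω => |(y : Ω → ℝ) ω|) ω) P := (hx.const_mul 2).add (hyA.const_mul 2)
    have h := integral_mono_ae hK1 hJ2 (by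
      filter_upwards [Lp.coeFn_add x y, Lp.coeFn_sub x y] with ω hω hω'
      rw [hω, hω', Pi.add_apply, Pi.sub_apply]
      have h1 : 2 * |(x : Ω → ℝ) ω| ≤ |(x : Ω → ℝ) ω + (y : Ω → ℝ) ω|
          + |(x : Ω → ℝ) ω - (y : Ω → ℝ) ω| := by
        have := abs_add_le ((x : Ω → ℝ) ω + (y : Ω → ℝ) ω) ((x : Ω → ℝ) ω - (y : Ω → ℝ) ω)
        have e : (x : Ω → ℝ) ω + (y : Ω → ℝ) ω + ((x : Ω → ℝ) ω - (y : Ω → ℝ) ω)
            = 2 * (x : Ω → ℝ) ω := by ring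
        rw [e, abs_mul, abs_two] at this
        exact this
      have h2 : 2 * |(y : Ω → ℝ) ω| ≤ |(x : Ω → ℝ) ω + (y : Ω → ℝ) ω|
          + |(x : Ω → ℝ) ω - (y : Ω → ℝ) ω| := by
        have := abs_sub ((x : Ω → ℝ) ω + (y : Ω → ℝ) ω) ((x : Ω → ℝ) ω - (y : Ω → ℝ) ω)
        have e : (x : Ω → ℝ) ω + (y : Ω → ℝ) ω - ((x : Ω → ℝ) ω - (y : Ω → ℝ) ω)
            = 2 * (y : Ω → ℝ) ω := by ring
        rw [e, abs_mul, abs_two] at this
        exact this
      by_cases hωA : ω ∈ A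
      · rw [Set.indicator_of_mem hωA, Set.indicator_of_mem hωA]
        linarith
      · rw [Set.indicator_of_notMem hωA, Set.indicator_of_notMem hωA]
        linarith)
    rw [integral_add hJ1 (hxA.const_mul 2), integral_add hp hm,
      integral_add (hx.const_mul 2) (hyA.const_mul 2),
      integral_const_mul, integral_const_mul, integral_const_mul] at h
    linarith


open scoped ENNReal in
theorem exists_small (x : Lp ℝ 1 P) (η : ℝ) (hη : 0 < η) :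
    ∃ n : ℕ, 0 < n ∧ ∀ A : Set Ω, P A ≤ (n : ℝ≥0∞)⁻¹ → ∫ ω in A, |(x : Ω → ℝ) ω| ∂P ≤ η := by
  have hfin : ∫⁻ ω, ‖(x : Ω → ℝ) ω‖ₑ ∂P ≠ ∞ := (L1.integrable_coeFn x).hasFiniteIntegral.ne
  obtain ⟨δ, hδ, hδA⟩ := exists_pos_setLIntegral_lt_of_measure_lt hfin
    (ε := ENNReal.ofReal η) (by simpa using hη)
  obtain ⟨n, hn⟩ := ENNReal.exists_inv_nat_lt hδ.ne'
  refine ⟨n, ?_, fun A hA => ?_⟩
  · rcases Nat.eq_zero_or_pos n with h | h
    · subst h; simp at hn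
    · exact h
  · have h1 := hδA A (hA.trans_lt hn)
    have h2 : ∫ ω in A, |(x : Ω → ℝ) ω| ∂P = (∫⁻ ω in A, ‖(x : Ω → ℝ) ω‖ₑ ∂P).toReal :=
      integral_norm_eq_lintegral_enorm (Lp.aestronglyMeasurable x).restrict
    rw [h2]
    exact (ENNReal.toReal_lt_of_lt_ofReal h1).le

open scoped ENNReal in
theorem markov (f : Lp ℝ 1 P) (hf : ‖f‖ = 1) (n : ℕ) (hn : 0 < n) :
    P {ω | (n : ℝ) < |(f : Ω → ℝ) ω|} ≤ (n : ℝ≥0∞)⁻¹ := by
  have h1 : ∫⁻ ω, ‖(f : Ω → ℝ) ω‖ₑ ∂P = 1 := by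
    rw [← L1.ofReal_norm_eq_lintegral, hf, ENNReal.ofReal_one]
  have h2 := meas_ge_le_lintegral_div (μ := P) (f := fun ω => ‖(f : Ω → ℝ) ω‖ₑ)
    (Lp.aestronglyMeasurable f).enorm (ε := (n : ℝ≥0∞)) (by exact_mod_cast hn.ne')
    (ENNReal.natCast_ne_top n)
  rw [h1, one_div] at h2
  refine (measure_mono ?_).trans h2
  intro ω hω
  simp only [Set.mem_ofPred_eq] at hω ⊢
  rw [Real.enorm_eq_ofReal_abs, ← ENNReal.ofReal_natCast]
  exact ENNReal.ofReal_le_ofReal hω.le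


theorem l1_lower {Ω : Type} [MeasurableSpace Ω] (P : Measure Ω) [IsProbabilityMeasure P]
    (E : Submodule ℝ (Lp ℝ 1 P)) (htb : UnitBallTotallyBoundedInMeasure P E) (x : E) (η : ℝ)
    (hη : 0 < η) :
    ∃ S : Submodule ℝ E, CofSub S ∧ ∀ y ∈ S,
      ‖x‖ - η * (1 + ‖y‖) ≤ ‖x + y‖ ∧
      ‖x‖ + ‖y‖ / 2 - η * (1 + ‖y‖) ≤ (‖x + y‖ + ‖x - y‖) / 2 := by
  obtain ⟨n, hn, hsmall⟩ := exists_small P (x : Lp ℝ 1 P) (η / 4) (by positivity)
  have hM : (0 : ℝ) < (n : ℝ) := by exact_mod_cast hn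
  have hε0 : 0 < η / (4 * (1 + 2 * (n : ℝ))) := by positivity
  obtain ⟨s, hs, hnet⟩ := htb _ hε0
  let φ : Lp ℝ 1 P → (E →L[ℝ] ℝ) := fun g => (signFun P g).comp E.subtypeL
  refine ⟨s.inf (fun g => LinearMap.ker ((φ g : E →L[ℝ] ℝ) : E →ₗ[ℝ] ℝ)),
    cofSub_finset_inf s _ (fun g _ => cofSub_ker (φ g)), ?_⟩
  intro y hy
  by_cases hy0 : y = 0
  · subst hy0
    simp only [add_zero, sub_zero, norm_zero]
    constructor <;> linarith
  have hN : 0 < ‖y‖ := norm_pos_iff.mpr hy0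
  have hf1 : ‖((‖y‖⁻¹ • y : E) : Lp ℝ 1 P)‖ = 1 := by
    rw [Submodule.norm_coe, norm_smul, norm_inv, norm_norm, inv_mul_cancel₀ hN.ne']
  obtain ⟨g, hg, hdist⟩ := hnet ((‖y‖⁻¹ • y : E) : Lp ℝ 1 P) (‖y‖⁻¹ • y : E).2 hf1.le
  have hker : signFun P g ((‖y‖⁻¹ • y : E) : Lp ℝ 1 P) = 0 := by
    have h1 : y ∈ LinearMap.ker ((φ g : E →L[ℝ] ℝ) : E →ₗ[ℝ] ℝ) :=
      (Finset.inf_le (f := fun g => LinearMap.ker ((φ g : E →L[ℝ] ℝ) : E →ₗ[ℝ] ℝ)) hg) hy
    have h2 : signFun P g (y : Lp ℝ 1 P) = 0 := h1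
    rw [Submodule.coe_smul, map_smul, h2, smul_zero]
  obtain ⟨a, ⟨ha0, haB⟩, haε⟩ := exists_lt_of_csInf_lt (by
    refine ⟨2, by norm_num, ?_⟩
    refine lt_of_le_of_lt prob_le_one ?_
    rw [← ENNReal.ofReal_one]
    exact (ENNReal.ofReal_lt_ofReal_iff (by norm_num)).2 (by norm_num)) hdist
  have hmass := key_mass P _ g hf1 hker n a hM.le ha0 haB
  have hPA := markov P _ hf1 n hn
  have hxA := hsmall _ hPA
  have hfm : Measurable (((‖y‖⁻¹ • y : E) : Lp ℝ 1 P) : Ω → ℝ) :=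
    (Lp.stronglyMeasurable _).measurable
  have hA : MeasurableSet {ω | (n : ℝ) < |(((‖y‖⁻¹ • y : E) : Lp ℝ 1 P) : Ω → ℝ) ω|} :=
    measurableSet_lt measurable_const hfm.abs
  obtain ⟨h1, h2⟩ := split_lower P (x : Lp ℝ 1 P) (y : Lp ℝ 1 P) _ hA
  have hscale : ∫ ω in {ω | (n : ℝ) < |(((‖y‖⁻¹ • y : E) : Lp ℝ 1 P) : Ω → ℝ) ω|},
        |(((‖y‖⁻¹ • y : E) : Lp ℝ 1 P) : Ω → ℝ) ω| ∂P
      = ‖y‖⁻¹ * ∫ ω in {ω | (n : ℝ) < |(((‖y‖⁻¹ • y : E) : Lp ℝ 1 P) : Ω → ℝ) ω|},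
        |((y : Lp ℝ 1 P) : Ω → ℝ) ω| ∂P := by
    rw [← integral_const_mul]
    refine integral_congr_ae (ae_restrict_of_ae ?_)
    have := Lp.coeFn_smul (‖y‖⁻¹) (y : Lp ℝ 1 P)
    rw [← Submodule.coe_smul] at this
    filter_upwards [this] with ω hω
    rw [hω, Pi.smul_apply, smul_eq_mul, abs_mul, abs_of_pos (inv_pos.2 hN)]
  rw [hscale] at hmass
  set q := ∫ ω in {ω | (n : ℝ) < |(((‖y‖⁻¹ • y : E) : Lp ℝ 1 P) : Ω → ℝ) ω|},
        |((y : Lp ℝ 1 P) : Ω → ℝ) ω| ∂P with hq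
  set r := ∫ ω in {ω | (n : ℝ) < |(((‖y‖⁻¹ • y : E) : Lp ℝ 1 P) : Ω → ℝ) ω|},
        |((x : Lp ℝ 1 P) : Ω → ℝ) ω| ∂P with hr
  have ha4 : a * (1 + 2 * (n : ℝ)) ≤ η / 4 := by
    have h3 : a * (1 + 2 * (n : ℝ)) ≤ η / (4 * (1 + 2 * (n : ℝ))) * (1 + 2 * (n : ℝ)) :=
      mul_le_mul_of_nonneg_right haε.le (by positivity)
    have h4 : η / (4 * (1 + 2 * (n : ℝ))) * (1 + 2 * (n : ℝ)) = η / 4 := by
      field_simp
    linarith
  have hq' : ‖y‖ * (1 / 2 - η / 4) ≤ q := by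
    have h3 : 1 / 2 - η / 4 ≤ ‖y‖⁻¹ * q := by linarith
    have h4 := mul_le_mul_of_nonneg_left h3 hN.le
    rwa [← mul_assoc, mul_inv_cancel₀ hN.ne', one_mul] at h4
  have e1 : ‖x + y‖ = ‖(x : Lp ℝ 1 P) + (y : Lp ℝ 1 P)‖ := rfl
  have e2 : ‖x - y‖ = ‖(x : Lp ℝ 1 P) - (y : Lp ℝ 1 P)‖ := rfl
  have e3 : ‖x‖ = ‖(x : Lp ℝ 1 P)‖ := rfl
  have e4 : ‖y‖ = ‖(y : Lp ℝ 1 P)‖ := rfl
  rw [e1, e2, e3]
  rw [← e4] at h1
  constructor
  · nlinarith
  · nlinarith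

end Crest.Agent.R125_L1Lower
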