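import Mathlib
import Crest.Agent.Lib_helper3_R125Defs
import Crest.Agent.R125_Cof

/-! Row 125, task T5: the homogeneous midpoint inequality and separability pass to `ℓ²`-sums. -/

namespace Crest.Agent.R125_LpSum

open Crest.Agent.Lib_helper3_R125Defs Crest.Agent.R125_Cof

variable {X : ℕ → Type*} [∀ n, NormedAddCommGroup (X n)] [∀ n, NormedSpace ℝ (X n)]

/-- Minkowski's inequality for two sequences, with natural number squares. -/
theorem mink2 (a b : ℕ → ℝ) (ha : ∀ n, 0 ≤ a n) (hb : ∀ n, 0 ≤ b n) {A B : ℝ}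
    (hA : 0 ≤ A) (hB : 0 ≤ B) (hsa : HasSum (fun n => a n ^ 2) (A ^ 2))
    (hsb : HasSum (fun n => b n ^ 2) (B ^ 2)) :
    ∃ C, 0 ≤ C ∧ C ≤ A + B ∧ HasSum (fun n => (a n + b n) ^ 2) (C ^ 2) := by
  have := Real.Lp_add_le_hasSum_of_nonneg (p := 2) (f := a) (g := b) (by norm_num) ha hb hA hB
    (by simpa using hsa) (by simpa using hsb)
  simpa using this

/-- Minkowski's inequality for three sequences dominating a fourth one. -/
theorem mink3 (a b c w : ℕ → ℝ) (ha : ∀ n, 0 ≤ a n) (hb : ∀ n, 0 ≤ b n) (hc : ∀ n, 0 ≤ c n)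
    (hw : ∀ n, 0 ≤ w n) {A B C W : ℝ} (hA : 0 ≤ A) (hB : 0 ≤ B) (hC : 0 ≤ C)
    (hsa : HasSum (fun n => a n ^ 2) (A ^ 2)) (hsb : HasSum (fun n => b n ^ 2) (B ^ 2))
    (hsc : HasSum (fun n => c n ^ 2) (C ^ 2)) (hsw : HasSum (fun n => w n ^ 2) (W ^ 2))
    (hle : ∀ n, w n ≤ a n + b n + c n) : W ≤ A + B + C := by
  obtain ⟨D, hD0, hD, hsD⟩ := mink2 a b ha hb hA hB hsa hsb
  obtain ⟨E, hE0, hE, hsE⟩ := mink2 (fun n => a n + b n) c (fun n => add_nonneg (ha n) (hb n)) hc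
    hD0 hC hsD hsc
  have h1 : W ^ 2 ≤ E ^ 2 := hasSum_le (fun n => pow_le_pow_left₀ (hw n) (hle n) 2) hsw hsE
  have h2 : W ≤ E := by
    by_contra hcon
    rw [not_le] at hcon
    nlinarith
  linarith

omit [∀ n, NormedSpace ℝ (X n)] in
theorem hasSum_norm_sq (f : lp X 2) : HasSum (fun n => ‖f n‖ ^ 2) (‖f‖ ^ 2) := by
  have := lp.hasSum_norm (p := 2) (by norm_num) f
  simpa using this

theorem midIneq_lp2 (h : ∀ n, MidIneq (X n)) : MidIneq (lp X 2) := by
  intro x η hη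
  have hx := hasSum_norm_sq x
  -- choose the truncation level
  have htail := tendsto_sum_nat_add (fun n => ‖x n‖ ^ 2)
  obtain ⟨m, hm⟩ : ∃ m : ℕ, ∑' k, ‖x (k + m)‖ ^ 2 < η ^ 2 / 8 := by
    have := (htail.eventually (gt_mem_nhds (show (0:ℝ) < η ^ 2 / 8 by positivity))).exists
    exact this
  set η' : ℝ := η / (2 * (m + 1)) with hη'def
  have hη' : 0 < η' := by positivity
  have hη'm : (m : ℝ) * η' ^ 2 ≤ η ^ 2 / 4 := by
    have h1 : η' * (m + 1) = η / 2 := by
      rw [hη'def]; field_simp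
    have h2 : ((m : ℝ) + 1) ^ 2 * η' ^ 2 = η ^ 2 / 4 := by
      have : ((m : ℝ) + 1) ^ 2 * η' ^ 2 = (η' * (m + 1)) ^ 2 := by ring
      rw [this, h1]; ring
    have h3 : (m : ℝ) ≤ ((m : ℝ) + 1) ^ 2 := by
      have : (0 : ℝ) ≤ m := Nat.cast_nonneg m
      nlinarith
    calc (m : ℝ) * η' ^ 2 ≤ ((m : ℝ) + 1) ^ 2 * η' ^ 2 :=
          mul_le_mul_of_nonneg_right h3 (by positivity)
      _ = η ^ 2 / 4 := h2
  choose S hScof hS using fun n => h n (x n) η' hη'
  refine ⟨(Finset.range m).inf (fun n => (S n).comap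
    ((lp.evalCLM ℝ X 2 n : lp X 2 →L[ℝ] X n) : lp X 2 →ₗ[ℝ] X n)),
    cofSub_finset_inf _ _ (fun n _ => cofSub_comap _ (hScof n)), ?_⟩
  intro y hy
  have hy' : ∀ n, n < m → y n ∈ S n := by
    intro n hn
    have := (Submodule.mem_finsetInf.1 hy) n (Finset.mem_range.2 hn)
    exact this
  -- the error sequence
  set c : ℕ → ℝ := fun n => if n < m then η' else 2 * ‖x n‖ with hc
  have hc0 : ∀ n, 0 ≤ c n := by
    intro n
    simp only [hc]
    split_ifs
    · exact hη'.le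
    · positivity
  have hcshift : ∀ k, c (k + m) ^ 2 = 4 * ‖x (k + m)‖ ^ 2 := by
    intro k
    simp only [hc]
    rw [if_neg (by omega)]
    ring
  have hxs : Summable (fun k => ‖x (k + m)‖ ^ 2) := (summable_nat_add_iff m).2 hx.summable
  have hcsum : Summable (fun n => c n ^ 2) := by
    rw [← summable_nat_add_iff m]
    simp only [hcshift]
    exact hxs.mul_left 4
  have hctsum : ∑' n, c n ^ 2 ≤ η ^ 2 := by
    rw [← hcsum.sum_add_tsum_nat_add m]
    have h1 : ∑ i ∈ Finset.range m, c i ^ 2 = m * η' ^ 2 := by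
      rw [Finset.sum_congr rfl (fun i hi => by
        simp only [hc]; rw [if_pos (Finset.mem_range.1 hi)])]
      simp
    have h2 : ∑' i, c (i + m) ^ 2 = 4 * ∑' k, ‖x (k + m)‖ ^ 2 := by
      simp only [hcshift]
      exact tsum_mul_left
    rw [h1, h2]
    nlinarith
  have hct0 : 0 ≤ ∑' n, c n ^ 2 := tsum_nonneg (fun n => by positivity)
  have hC : HasSum (fun n => c n ^ 2) ((Real.sqrt (∑' n, c n ^ 2)) ^ 2) := by
    rw [Real.sq_sqrt hct0]
    exact hcsum.hasSum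
  have hCle : Real.sqrt (∑' n, c n ^ 2) ≤ η := by
    rw [Real.sqrt_le_left hη.le]
    exact hctsum
  have hyS := hasSum_norm_sq y
  have hW : HasSum (fun n => (2 * Real.sqrt (‖x n‖ ^ 2 + ‖y n‖ ^ 2 / 4)) ^ 2)
      ((2 * Real.sqrt (‖x‖ ^ 2 + ‖y‖ ^ 2 / 4)) ^ 2) := by
    have e1 : ∀ n, (2 * Real.sqrt (‖x n‖ ^ 2 + ‖y n‖ ^ 2 / 4)) ^ 2
        = 4 * (‖x n‖ ^ 2 + ‖y n‖ ^ 2 / 4) := by
      intro n
      rw [mul_pow, Real.sq_sqrt (by positivity)]; norm_num
    have e2 : (2 * Real.sqrt (‖x‖ ^ 2 + ‖y‖ ^ 2 / 4)) ^ 2 = 4 * (‖x‖ ^ 2 + ‖y‖ ^ 2 / 4) := by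
      rw [mul_pow, Real.sq_sqrt (by positivity)]; norm_num
    simp only [e1, e2]
    exact (hx.add (hyS.div_const 4)).mul_left 4
  have key := mink3 (fun n => ‖(x + y) n‖) (fun n => ‖(x - y) n‖) c
    (fun n => 2 * Real.sqrt (‖x n‖ ^ 2 + ‖y n‖ ^ 2 / 4))
    (fun n => norm_nonneg _) (fun n => norm_nonneg _) hc0 (fun n => by positivity)
    (norm_nonneg (x + y)) (norm_nonneg (x - y)) (Real.sqrt_nonneg _)
    (hasSum_norm_sq (x + y)) (hasSum_norm_sq (x - y)) hC hW ?_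
  · linarith
  · intro n
    have ea : (x + y) n = x n + y n := rfl
    have es : (x - y) n = x n - y n := rfl
    simp only [ea, es]
    by_cases hn : n < m
    · have := hS n (y n) (hy' n hn)
      simp only [hc, if_pos hn]
      linarith
    · simp only [hc, if_neg hn]
      have h1 : Real.sqrt (‖x n‖ ^ 2 + ‖y n‖ ^ 2 / 4) ≤ ‖x n‖ + ‖y n‖ / 2 := by
        rw [Real.sqrt_le_left (by positivity)]
        nlinarith [norm_nonneg (x n), norm_nonneg (y n)]
      have h2 : 2 * ‖y n‖ ≤ ‖x n + y n‖ + ‖x n - y n‖ := by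
        have : (2 : ℝ) • y n = (x n + y n) - (x n - y n) := by
          rw [two_smul]; abel
        calc 2 * ‖y n‖ = ‖(2 : ℝ) • y n‖ := by rw [norm_smul]; norm_num
          _ = ‖(x n + y n) - (x n - y n)‖ := by rw [this]
          _ ≤ _ := norm_sub_le _ _
      nlinarith [norm_nonneg (y n)]

theorem separable_lp2 (h : ∀ n, TopologicalSpace.SeparableSpace (X n)) :
    TopologicalSpace.SeparableSpace (lp X 2) := by
  rw [← TopologicalSpace.isSeparable_univ_iff]
  have h1 : TopologicalSpace.IsSeparable (⋃ n, Set.range (lp.single (E := X) 2 n)) := by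
    refine TopologicalSpace.IsSeparable.iUnion (fun n => ?_)
    exact TopologicalSpace.isSeparable_range (lp.isometry_single n).continuous
  have h2 := (h1.span (R := ℝ)).closure
  refine h2.mono ?_
  intro f _
  have hf := (lp.hasSum_single (p := 2) (by norm_num) f)
  refine mem_closure_of_tendsto hf (Filter.Eventually.of_forall (fun s => ?_))
  refine Submodule.sum_mem _ (fun i _ => Submodule.subset_span ?_)
  exact Set.mem_iUnion.2 ⟨i, ⟨f i, rfl⟩⟩

/-- The `n`-th coordinate embedding as a linear isometry. -/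
noncomputable def singleLI (n : ℕ) : X n →ₗᵢ[ℝ] lp X 2 :=
  { lp.singleContinuousLinearMap ℝ X 2 n with
    norm_map' := fun x => by
      exact lp.norm_single (by norm_num) n x }

end Crest.Agent.R125_LpSum
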