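import Mathlib
import Crest.Agent.Lib_helper3_R125Defs

/-! Row 125, task T12: the four models of `Def_TreePotentials` satisfy `GlueAx`. -/

namespace Crest.Agent.R125_Models

open Crest.Agent.Lib_helper3_R125Defs Crest.AnalysisR.TreePotential

/-- The indicator family of the vertex `w`. -/
noncomputable def ind (w : List ℕ) : List ℕ → ℝ := fun u => if u = w then 1 else 0

theorem pathPotential_ind (w s : List ℕ) :
    pathPotential (ind w) s = if w <:+ s then 1 else 0 := by
  induction s with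
  | nil =>
    simp only [pathPotential, ind, List.suffix_nil]
    by_cases h : w = []
    · simp [h]
    · have h' : ¬ ([] = w) := fun e => h e.symm
      simp [h, h']
  | cons b t ih =>
    simp only [pathPotential, ih, ind, List.suffix_cons_iff]
    by_cases h1 : w = b :: t
    · have h2 : ¬ (w <:+ t) := by
        intro hs
        have := hs.length_le
        rw [h1] at this
        simp at this
      simp [h1.symm, h2]
    · have h1' : ¬ (b :: t = w) := fun e => h1 e.symm
      simp [h1, h1']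

theorem abs_pathPotential_ind (w s : List ℕ) : |pathPotential (ind w) s| ≤ 1 := by
  rw [pathPotential_ind]
  split_ifs <;> simp

theorem sum_sq_ind (w : List ℕ) (A : Finset (List ℕ)) : ∑ u ∈ A, ind w u ^ 2 ≤ 1 := by
  have h : ∀ u ∈ A, ind w u ^ 2 = if u = w then (1 : ℝ) else 0 := by
    intro u _
    unfold ind
    split_ifs <;> simp
  rw [Finset.sum_congr rfl h, Finset.sum_ite_eq']
  split_ifs <;> simp

theorem sum_children_eq (f : List ℕ → ℝ) (r : List ℕ) (A : Finset ℕ) :
    ∑ n ∈ A, f (n :: r) ^ 2 = ∑ u ∈ A.image (fun n => n :: r), f u ^ 2 := by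
  rw [Finset.sum_image]
  intro a _ b _ hab
  exact (List.cons.inj hab).1

theorem children_antichain (r : List ℕ) (A : Finset ℕ) :
    IsTreeAntichain (A.image (fun n => n :: r)) := by
  intro u hu v hv huv hs
  rw [Finset.mem_image] at hu hv
  obtain ⟨a, _, rfl⟩ := hu
  obtain ⟨b, _, rfl⟩ := hv
  exact huv (hs.eq_of_length (by simp))

theorem support_ind_finite (w : List ℕ) : (Function.support (ind w)).Finite := by
  apply (Set.finite_singleton w).subset
  intro u hu
  by_contra h
  apply hu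
  have : u ≠ w := h
  simp [ind, this]

/-- The indicator of a non-root vertex is a test in each model; the indicator of the root is a test
in each model other than the rootless one. -/
theorem isTest_ind (m : PotentialModel) (w : List ℕ) (hw : m = .rootlessSibling → w ≠ []) :
    IsTest m (ind w) := by
  refine ⟨abs_pathPotential_ind w, ?_⟩
  cases m with
  | rootlessSibling =>
    refine ⟨?_, fun r A => ?_⟩
    · have : ¬ ([] = w) := fun e => hw rfl e.symm
      simp [ind, this]
    · rw [sum_children_eq]; exact sum_sq_ind w _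
  | rootedSibling =>
    intro r A
    rw [sum_children_eq]; exact sum_sq_ind w _
  | antichain => exact ⟨support_ind_finite w, fun A _ => sum_sq_ind w A⟩
  | global => exact fun A => sum_sq_ind w A

theorem sq_le_of_dom (f g h : List ℕ → ℝ) (S : Set (List ℕ)) (α β : ℝ) (hα : 0 ≤ α) (hβ : 0 ≤ β)
    (h1 : ∀ s ∈ S, |h s| ≤ α * |f s|) (h2 : ∀ s ∉ S, |h s| ≤ β * |g s|) (s : List ℕ) :
    h s ^ 2 ≤ α ^ 2 * f s ^ 2 + β ^ 2 * g s ^ 2 := by
  by_cases hs : s ∈ S
  · have := h1 s hs
    have h3 : h s ^ 2 ≤ (α * |f s|) ^ 2 := by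
      rw [← sq_abs (h s)]
      exact pow_le_pow_left₀ (abs_nonneg _) this 2
    rw [mul_pow, sq_abs] at h3
    nlinarith [mul_nonneg (sq_nonneg β) (sq_nonneg (g s))]
  · have := h2 s hs
    have h3 : h s ^ 2 ≤ (β * |g s|) ^ 2 := by
      rw [← sq_abs (h s)]
      exact pow_le_pow_left₀ (abs_nonneg _) this 2
    rw [mul_pow, sq_abs] at h3
    nlinarith [mul_nonneg (sq_nonneg α) (sq_nonneg (f s))]

theorem sum_le_of_dom {κ : Type*} (φ : κ → List ℕ) (A : Finset κ) (f g h : List ℕ → ℝ)
    (α β : ℝ) (hαβ : α ^ 2 + β ^ 2 ≤ 1)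
    (hd : ∀ s, h s ^ 2 ≤ α ^ 2 * f s ^ 2 + β ^ 2 * g s ^ 2)
    (hf : ∑ a ∈ A, f (φ a) ^ 2 ≤ 1) (hg : ∑ a ∈ A, g (φ a) ^ 2 ≤ 1) :
    ∑ a ∈ A, h (φ a) ^ 2 ≤ 1 := by
  calc ∑ a ∈ A, h (φ a) ^ 2 ≤ ∑ a ∈ A, (α ^ 2 * f (φ a) ^ 2 + β ^ 2 * g (φ a) ^ 2) :=
        Finset.sum_le_sum (fun a _ => hd (φ a))
    _ = α ^ 2 * ∑ a ∈ A, f (φ a) ^ 2 + β ^ 2 * ∑ a ∈ A, g (φ a) ^ 2 := by
        rw [Finset.sum_add_distrib, Finset.mul_sum, Finset.mul_sum]
    _ ≤ α ^ 2 * 1 + β ^ 2 * 1 := by
        gcongr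
    _ ≤ 1 := by linarith

theorem extra_of_dom (m : PotentialModel) (f g h : List ℕ → ℝ) (S : Set (List ℕ)) (α β : ℝ)
    (hα : 0 ≤ α) (hβ : 0 ≤ β) (hαβ : α ^ 2 + β ^ 2 ≤ 1)
    (h1 : ∀ s ∈ S, |h s| ≤ α * |f s|) (h2 : ∀ s ∉ S, |h s| ≤ β * |g s|)
    (hf : ExtraCondition m f) (hg : ExtraCondition m g) : ExtraCondition m h := by
  have hd := sq_le_of_dom f g h S α β hα hβ h1 h2
  cases m with
  | rootlessSibling =>
    refine ⟨?_, fun r A => ?_⟩
    · have := hd []
      rw [hf.1, hg.1] at this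
      have h0 : h [] ^ 2 ≤ 0 := by simpa using this
      exact pow_eq_zero_iff (two_ne_zero) |>.1 (le_antisymm h0 (sq_nonneg _))
    · exact sum_le_of_dom (fun n => n :: r) A f g h α β hαβ hd (hf.2 r A) (hg.2 r A)
  | rootedSibling =>
    intro r A
    exact sum_le_of_dom (fun n => n :: r) A f g h α β hαβ hd (hf r A) (hg r A)
  | antichain =>
    refine ⟨?_, fun A hA => ?_⟩
    · apply (hf.1.union hg.1).subset
      intro s hs
      by_contra hc
      rw [Set.mem_union, not_or] at hc
      have hfs : f s = 0 := by simpa [Function.mem_support] using hc.1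
      have hgs : g s = 0 := by simpa [Function.mem_support] using hc.2
      have := hd s
      rw [hfs, hgs] at this
      have h0 : h s ^ 2 ≤ 0 := by simpa using this
      exact hs (pow_eq_zero_iff (two_ne_zero) |>.1 (le_antisymm h0 (sq_nonneg _)))
    · exact sum_le_of_dom id A f g h α β hαβ hd (hf.2 A hA) (hg.2 A hA)
  | global =>
    intro A
    exact sum_le_of_dom id A f g h α β hαβ hd (hf A) (hg A)

theorem sib_of_extra (m : PotentialModel) (f : List ℕ → ℝ) (hf : ExtraCondition m f)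
    (v : List ℕ) (A : Finset ℕ) : ∑ a ∈ A, f (a :: v) ^ 2 ≤ 1 := by
  cases m with
  | rootlessSibling => exact hf.2 v A
  | rootedSibling => exact hf v A
  | antichain =>
    rw [sum_children_eq]
    exact hf.2 _ (children_antichain v A)
  | global =>
    rw [sum_children_eq]
    exact hf _

theorem glueAx_model (m : PotentialModel) :
    GlueAx (fun f : PotentialTest m => f.1) Set.univ := by
  refine ⟨fun i s _ => i.2.1 s, fun _ _ _ => Set.mem_univ _, ?_, ?_, ?_, ?_⟩
  · intro i j h S α β hα hβ hαβ h1 h2 h3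
    exact ⟨⟨h, fun s => h3 s (Set.mem_univ s),
      extra_of_dom m i.1 j.1 h S α β hα hβ hαβ h1 h2 i.2.2 j.2.2⟩, rfl⟩
  · intro a v
    exact ⟨⟨ind (a :: v), isTest_ind m (a :: v) (fun _ => by simp)⟩, fun u => rfl⟩
  · by_cases hm : m = .rootlessSibling
    · subst hm
      refine ⟨⟨ind [0], isTest_ind _ [0] (fun _ => by simp)⟩, fun j u => ?_⟩
      have : j.1 [] = 0 := j.2.2.1
      simp [this]
    · exact ⟨⟨ind [], isTest_ind m [] (fun h => absurd h hm)⟩, fun j u => rfl⟩
  · intro i v A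
    exact sib_of_extra m i.1 i.2.2 v A

end Crest.Agent.R125_Models
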