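import Mathlib

/-!
# Row 168, part F3: the analytic core lemma

`A B : ℝ[X]` with nonnegative coefficients such that `A(w) + z B(w) ≠ 0` for `w, z` in the open
upper half plane.  Then `A'(1) B(1) - A(1) B'(1) ≤ A(1) B(1)`.

Proof: `f = A / B` is a Pick function which is positive on `(0, ∞)`; the square-root trick
(`s ↦ sqrt (f (s^2) + s^2)` maps the right half plane to itself) and the Schwarz lemma give
`f (s^2) ≤ s^2 f 1` for `s ≥ 1`; differentiate at `1`.
-/

namespace Crest.Agent.R168F

open Complex Polynomial Set Metric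

noncomputable section

/-- `Im (A(w) conj B(w)) ≥ 0` on the upper half plane. -/
private lemma im_mul_conj_nonneg (A B : ℝ[X])
    (hst : ∀ w z : ℂ, 0 < w.im → 0 < z.im → aeval w A + z * aeval w B ≠ 0)
    (w : ℂ) (hw : 0 < w.im) :
    0 ≤ (aeval w A * (starRingEnd ℂ) (aeval w B)).im := by
  by_contra h
  rw [not_le] at h
  set a := aeval w A with ha
  set b := aeval w B with hb
  have hb0 : b ≠ 0 := by
    intro h0
    rw [h0] at h
    simp at h
  have hns : 0 < normSq b := normSq_pos.mpr hb0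
  have hz : (-a / b).im = -(a * (starRingEnd ℂ) b).im / normSq b := by
    rw [div_eq_mul_inv, Complex.inv_def]
    simp only [Complex.mul_im, Complex.neg_im, Complex.neg_re, Complex.mul_re, Complex.conj_re,
      Complex.conj_im, Complex.ofReal_re, Complex.ofReal_im]
    field_simp
    ring
  have hzpos : 0 < (-a / b).im := by
    rw [hz]
    apply div_pos _ hns
    linarith
  apply hst w (-a / b) hw hzpos
  field_simp
  ring

/-- `B` has no zero in the upper half plane (unless `B = 0`). -/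
private lemma aeval_ne_zero_of_im_pos (A B : ℝ[X]) (hB0 : B ≠ 0)
    (hst : ∀ w z : ℂ, 0 < w.im → 0 < z.im → aeval w A + z * aeval w B ≠ 0)
    (w₀ : ℂ) (hw₀ : 0 < w₀.im) : aeval w₀ B ≠ 0 := by
  intro hzero
  set U : Set ℂ := {w : ℂ | 0 < w.im} with hU
  have hUo : IsOpen U := isOpen_lt continuous_const continuous_im
  have hUc : IsPreconnected U := (convex_halfSpace_im_gt 0).isPreconnected
  set Ψ : ℂ → ℂ := fun w => (aeval w A - I * aeval w B) / (aeval w A + I * aeval w B) with hΨ
  have hden : ∀ w ∈ U, aeval w A + I * aeval w B ≠ 0 := fun w hw => hst w I hw (by simp)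
  have hdA : Differentiable ℂ (fun w : ℂ => aeval w A) := Polynomial.differentiable_aeval A
  have hdB : Differentiable ℂ (fun w : ℂ => aeval w B) := Polynomial.differentiable_aeval B
  have hd : DifferentiableOn ℂ Ψ U := by
    intro w hw
    apply DifferentiableAt.differentiableWithinAt
    apply DifferentiableAt.div
    · exact (hdA w).sub ((differentiableAt_const _).mul (hdB w))
    · exact (hdA w).add ((differentiableAt_const _).mul (hdB w))
    · exact hden w hw
  have hle : ∀ w ∈ U, ‖Ψ w‖ ≤ 1 := by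
    intro w hw
    have h1 := im_mul_conj_nonneg A B hst w hw
    simp only [hΨ]
    rw [norm_div, div_le_one (norm_pos_iff.mpr (hden w hw))]
    rw [← sq_le_sq₀ (norm_nonneg _) (norm_nonneg _), ← Complex.normSq_eq_norm_sq,
      ← Complex.normSq_eq_norm_sq]
    simp only [Complex.normSq_apply, Complex.mul_im, Complex.mul_re, Complex.conj_re,
      Complex.conj_im, Complex.sub_re, Complex.sub_im, Complex.add_re, Complex.add_im,
      Complex.I_re, Complex.I_im] at h1 ⊢
    nlinarith
  have hΨ0 : Ψ w₀ = 1 := by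
    simp only [hΨ, hzero, mul_zero, sub_zero, add_zero]
    apply div_self
    have := hden w₀ hw₀
    simpa [hzero] using this
  have hmax : IsMaxOn (norm ∘ Ψ) U w₀ := by
    intro w hw
    simp only [Function.comp, hΨ0, norm_one, Set.mem_ofPred_eq]
    exact hle w hw
  have heq := Complex.eqOn_of_isPreconnected_of_isMaxOn_norm hUc hUo hd hw₀ hmax
  have hBz : ∀ w ∈ U, aeval w B = 0 := by
    intro w hw
    have h1 : Ψ w = 1 := by rw [heq hw, Function.const_apply, hΨ0]
    simp only [hΨ] at h1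
    rw [div_eq_one_iff_eq (hden w hw)] at h1
    have h2 : (2 * I) * aeval w B = 0 := by linear_combination -h1
    rcases mul_eq_zero.mp h2 with h3 | h3
    · exfalso
      simp at h3
    · exact h3
  apply hB0
  have hinj : Function.Injective (algebraMap ℝ ℂ) := (algebraMap ℝ ℂ).injective
  rw [← Polynomial.map_eq_zero_iff hinj]
  apply Polynomial.eq_zero_of_infinite_isRoot
  apply Set.infinite_of_injective_forall_mem (f := fun n : ℕ => (n : ℂ) + I)
  · intro m n hmn
    simpa using hmn
  · intro n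
    simp only [Set.mem_ofPred_eq, Polynomial.IsRoot.def, Polynomial.eval_map_algebraMap]
    apply hBz
    simp [hU]

private lemma eval_nonneg_of_coeff (A : ℝ[X]) (hA : ∀ n, 0 ≤ A.coeff n) (x : ℝ) (hx : 0 ≤ x) :
    0 ≤ A.eval x := by
  rw [Polynomial.eval_eq_sum_range]
  exact Finset.sum_nonneg fun i _ => mul_nonneg (hA i) (pow_nonneg hx i)

private lemma eval_pos_of_coeff (B : ℝ[X]) (hB : ∀ n, 0 ≤ B.coeff n) (hB0 : B ≠ 0) (x : ℝ)
    (hx : 0 < x) : 0 < B.eval x := by
  rw [Polynomial.eval_eq_sum_range]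
  apply Finset.sum_pos' (fun i _ => mul_nonneg (hB i) (pow_nonneg hx.le i))
  refine ⟨B.natDegree, by simp, ?_⟩
  apply mul_pos _ (pow_pos hx _)
  exact lt_of_le_of_ne (hB _) (Ne.symm (by simpa using hB0))

private lemma aeval_ofReal' (A : ℝ[X]) (x : ℝ) : aeval (x : ℂ) A = ((A.eval x : ℝ) : ℂ) := by
  have := Polynomial.aeval_algebraMap_apply ℂ x A
  simpa using this

/-- The Pick function `A / B + id`. -/
private def pick (A B : ℝ[X]) (w : ℂ) : ℂ := aeval w A / aeval w B + w

private lemma pick_conj (A B : ℝ[X]) (w : ℂ) :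
    pick A B ((starRingEnd ℂ) w) = (starRingEnd ℂ) (pick A B w) := by
  simp only [pick, Polynomial.aeval_conj, map_add, map_div₀]

private lemma pick_ofReal (A B : ℝ[X]) (x : ℝ) :
    pick A B (x : ℂ) = ((A.eval x / B.eval x + x : ℝ) : ℂ) := by
  simp only [pick, aeval_ofReal']
  push_cast
  ring

private lemma pick_im_pos (A B : ℝ[X]) (hB0 : B ≠ 0)
    (hst : ∀ w z : ℂ, 0 < w.im → 0 < z.im → aeval w A + z * aeval w B ≠ 0)
    (w : ℂ) (hw : 0 < w.im) : 0 < (pick A B w).im := by
  have h1 := im_mul_conj_nonneg A B hst w hw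
  have hb := aeval_ne_zero_of_im_pos A B hB0 hst w hw
  have hns : 0 < normSq (aeval w B) := normSq_pos.mpr hb
  have h2 : (aeval w A / aeval w B).im
      = (aeval w A * (starRingEnd ℂ) (aeval w B)).im / normSq (aeval w B) := by
    rw [div_eq_mul_inv, Complex.inv_def]
    simp only [Complex.mul_im, Complex.mul_re, Complex.conj_re,
      Complex.conj_im, Complex.ofReal_re, Complex.ofReal_im]
    field_simp
    ring
  simp only [pick, Complex.add_im, h2]
  have := div_nonneg h1 hns.le
  linarith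

private lemma aeval_ne_zero_of_slit (A B : ℝ[X]) (hB : ∀ n, 0 ≤ B.coeff n) (hB0 : B ≠ 0)
    (hst : ∀ w z : ℂ, 0 < w.im → 0 < z.im → aeval w A + z * aeval w B ≠ 0)
    (w : ℂ) (hw : w ∈ slitPlane) : aeval w B ≠ 0 := by
  rcases lt_trichotomy w.im 0 with h | h | h
  · have h1 := aeval_ne_zero_of_im_pos A B hB0 hst ((starRingEnd ℂ) w) (by simpa using h)
    rw [Polynomial.aeval_conj] at h1
    intro h2
    apply h1
    rw [h2, map_zero]
  · have hre : 0 < w.re := by
      rcases mem_slitPlane_iff.mp hw with h1 | h1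
      · exact h1
      · exact absurd h h1
    have hwr : w = (w.re : ℂ) := by
      apply Complex.ext <;> simp [h]
    rw [hwr, aeval_ofReal']
    exact_mod_cast (eval_pos_of_coeff B hB hB0 _ hre).ne'
  · exact aeval_ne_zero_of_im_pos A B hB0 hst w h

private lemma pick_mem_slit (A B : ℝ[X]) (hA : ∀ n, 0 ≤ A.coeff n) (hB : ∀ n, 0 ≤ B.coeff n)
    (hB0 : B ≠ 0)
    (hst : ∀ w z : ℂ, 0 < w.im → 0 < z.im → aeval w A + z * aeval w B ≠ 0)
    (w : ℂ) (hw : w ∈ slitPlane) : pick A B w ∈ slitPlane := by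
  rw [mem_slitPlane_iff]
  rcases lt_trichotomy w.im 0 with h | h | h
  · right
    have h1 := pick_im_pos A B hB0 hst ((starRingEnd ℂ) w) (by simpa using h)
    rw [pick_conj, Complex.conj_im] at h1
    intro h2
    rw [h2] at h1
    simp at h1
  · left
    have hre : 0 < w.re := by
      rcases mem_slitPlane_iff.mp hw with h1 | h1
      · exact h1
      · exact absurd h h1
    have hwr : w = (w.re : ℂ) := by
      apply Complex.ext <;> simp [h]
    rw [hwr, pick_ofReal, Complex.ofReal_re]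
    have h1 := eval_nonneg_of_coeff A hA _ hre.le
    have h2 := eval_pos_of_coeff B hB hB0 _ hre
    have := div_nonneg h1 h2.le
    linarith
  · right
    exact (pick_im_pos A B hB0 hst w h).ne'

private lemma sqrt_re_pos (u : ℂ) (hu : u ∈ slitPlane) : 0 < (u ^ (1 / 2 : ℂ)).re := by
  obtain ⟨harg, hu0⟩ := mem_slitPlane_iff_arg.mp hu
  rw [Complex.cpow_def_of_ne_zero hu0, Complex.exp_re]
  apply mul_pos (Real.exp_pos _)
  apply Real.cos_pos_of_mem_Ioo
  have him : (Complex.log u * (1 / 2 : ℂ)).im = u.arg / 2 := by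
    have : (1 / 2 : ℂ) = ((1 / 2 : ℝ) : ℂ) := by push_cast; ring
    rw [this, Complex.im_mul_ofReal, Complex.log_im]
    ring
  rw [him]
  have h1 := Complex.neg_pi_lt_arg u
  have h2 := lt_of_le_of_ne (Complex.arg_le_pi u) harg
  constructor <;> linarith

private lemma sq_mem_slit (r : ℂ) (hr : 0 < r.re) : r ^ 2 ∈ slitPlane := by
  rw [mem_slitPlane_iff]
  by_cases h : r.im = 0
  · left
    simp only [sq, Complex.mul_re, h]
    nlinarith
  · right
    simp only [sq, Complex.mul_im]
    intro h2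
    have : 2 * (r.re * r.im) = 0 := by linarith
    rcases mul_eq_zero.mp ((mul_eq_zero.mp this).resolve_left two_ne_zero) with h3 | h3
    · exact hr.ne' h3
    · exact h h3

private lemma one_sub_ne_zero_of_ball (ζ : ℂ) (hζ : ζ ∈ ball (0 : ℂ) 1) : 1 - ζ ≠ 0 := by
  intro h
  have h1 : ζ = 1 := by linear_combination -h
  rw [h1] at hζ
  simp at hζ

private lemma cayley_re_pos (ζ : ℂ) (hζ : ζ ∈ ball (0 : ℂ) 1) : 0 < ((1 + ζ) / (1 - ζ)).re := by
  have h0 := one_sub_ne_zero_of_ball ζ hζ
  have hns : 0 < normSq (1 - ζ) := normSq_pos.mpr h0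
  have hn : normSq ζ < 1 := by
    rw [mem_ball_zero_iff] at hζ
    rw [Complex.normSq_eq_norm_sq]
    nlinarith [norm_nonneg ζ]
  have h2 : ((1 + ζ) / (1 - ζ)).re = (1 - normSq ζ) / normSq (1 - ζ) := by
    rw [div_eq_mul_inv, Complex.inv_def]
    simp only [Complex.mul_im, Complex.mul_re, Complex.conj_re, Complex.add_re, Complex.add_im,
      Complex.sub_re, Complex.sub_im, Complex.one_re, Complex.one_im,
      Complex.conj_im, Complex.ofReal_re, Complex.ofReal_im, Complex.normSq_apply]
    field_simp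
    ring
  rw [h2]
  apply div_pos _ hns
  linarith

/-- Moebius map of the right half plane to the disc. -/
private lemma moebius_norm_le (g : ℂ) (c : ℝ) (hg : 0 < g.re) (hc : 0 < c) :
    ‖(g - c) / (g + c)‖ ≤ 1 := by
  have hne : g + c ≠ 0 := by
    intro h
    have := congrArg Complex.re h
    simp at this
    linarith
  rw [norm_div, div_le_one (norm_pos_iff.mpr hne)]
  rw [← sq_le_sq₀ (norm_nonneg _) (norm_nonneg _), ← Complex.normSq_eq_norm_sq,
    ← Complex.normSq_eq_norm_sq]
  simp only [Complex.normSq_apply, Complex.sub_re, Complex.sub_im, Complex.add_re, Complex.add_im,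
    Complex.ofReal_re, Complex.ofReal_im]
  nlinarith [mul_pos hg hc]

/-- Main consequence of the Schwarz lemma. -/
private lemma pick_sq_le (A B : ℝ[X]) (hA : ∀ n, 0 ≤ A.coeff n) (hB : ∀ n, 0 ≤ B.coeff n)
    (hB0 : B ≠ 0)
    (hst : ∀ w z : ℂ, 0 < w.im → 0 < z.im → aeval w A + z * aeval w B ≠ 0)
    (s : ℝ) (hs : 1 < s) :
    A.eval (s ^ 2) / B.eval (s ^ 2) ≤ s ^ 2 * (A.eval 1 / B.eval 1) := by
  set y₁ : ℝ := A.eval 1 / B.eval 1 + 1 with hy₁
  set ys : ℝ := A.eval (s ^ 2) / B.eval (s ^ 2) + s ^ 2 with hys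
  have hy₁pos : 0 < y₁ := by
    have h1 := eval_nonneg_of_coeff A hA 1 zero_le_one
    have h2 := eval_pos_of_coeff B hB hB0 1 zero_lt_one
    have := div_nonneg h1 h2.le
    linarith
  have hyspos : 0 < ys := by
    have hs2 : (0 : ℝ) < s ^ 2 := by positivity
    have h1 := eval_nonneg_of_coeff A hA _ hs2.le
    have h2 := eval_pos_of_coeff B hB hB0 _ hs2
    have := div_nonneg h1 h2.le
    linarith
  set c : ℝ := y₁ ^ (1 / 2 : ℝ) with hc
  set r : ℝ := ys ^ (1 / 2 : ℝ) with hr
  have hcpos : 0 < c := Real.rpow_pos_of_pos hy₁pos _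
  have hrpos : 0 < r := Real.rpow_pos_of_pos hyspos _
  set g : ℂ → ℂ := fun ζ => (pick A B (((1 + ζ) / (1 - ζ)) ^ 2)) ^ (1 / 2 : ℂ) with hg
  set h : ℂ → ℂ := fun ζ => (g ζ - c) / (g ζ + c) with hh
  have hslit : ∀ ζ ∈ ball (0 : ℂ) 1, ((1 + ζ) / (1 - ζ)) ^ 2 ∈ slitPlane := fun ζ hζ =>
    sq_mem_slit _ (cayley_re_pos ζ hζ)
  have hgre : ∀ ζ ∈ ball (0 : ℂ) 1, 0 < (g ζ).re := fun ζ hζ =>
    sqrt_re_pos _ (pick_mem_slit A B hA hB hB0 hst _ (hslit ζ hζ))
  have hdA : Differentiable ℂ (fun w : ℂ => aeval w A) := Polynomial.differentiable_aeval A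
  have hdB : Differentiable ℂ (fun w : ℂ => aeval w B) := Polynomial.differentiable_aeval B
  have hdpick : ∀ w ∈ slitPlane, DifferentiableAt ℂ (pick A B) w := by
    intro w hw
    unfold pick
    exact ((hdA w).div (hdB w) (aeval_ne_zero_of_slit A B hB hB0 hst w hw)).add differentiableAt_id
  have hdg : ∀ ζ ∈ ball (0 : ℂ) 1, DifferentiableAt ℂ g ζ := by
    intro ζ hζ
    have h1 : DifferentiableAt ℂ (fun ζ : ℂ => ((1 + ζ) / (1 - ζ)) ^ 2) ζ := by
      apply DifferentiableAt.pow
      apply DifferentiableAt.div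
      · exact (differentiableAt_const _).add differentiableAt_id
      · exact (differentiableAt_const _).sub differentiableAt_id
      · exact one_sub_ne_zero_of_ball ζ hζ
    have h2 : DifferentiableAt ℂ (fun ζ : ℂ => pick A B (((1 + ζ) / (1 - ζ)) ^ 2)) ζ :=
      DifferentiableAt.comp ζ (hdpick _ (hslit ζ hζ)) h1
    exact h2.cpow (differentiableAt_const _) (pick_mem_slit A B hA hB hB0 hst _ (hslit ζ hζ))
  have hd : DifferentiableOn ℂ h (ball 0 1) := by
    intro ζ hζ
    apply DifferentiableAt.differentiableWithinAt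
    apply DifferentiableAt.div
    · exact (hdg ζ hζ).sub (differentiableAt_const _)
    · exact (hdg ζ hζ).add (differentiableAt_const _)
    · intro h0
      have := congrArg Complex.re h0
      simp only [Complex.add_re, Complex.ofReal_re, Complex.zero_re] at this
      have := hgre ζ hζ
      linarith
  have hmaps : MapsTo h (ball 0 1) (closedBall 0 1) := by
    intro ζ hζ
    rw [mem_closedBall_zero_iff]
    exact moebius_norm_le _ _ (hgre ζ hζ) hcpos
  have hhalf : (1 / 2 : ℂ) = ((1 / 2 : ℝ) : ℂ) := by push_cast; ring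
  have hg0 : g 0 = c := by
    simp only [hg, add_zero, sub_zero, div_one, one_pow]
    have : pick A B 1 = ((y₁ : ℝ) : ℂ) := by
      have := pick_ofReal A B 1
      rw [Complex.ofReal_one] at this
      rw [this]
    rw [this, hhalf, ← Complex.ofReal_cpow hy₁pos.le]
  have hh0 : h 0 = 0 := by
    simp only [hh, hg0, sub_self, zero_div]
  set ζ₀ : ℂ := (((s - 1) / (s + 1) : ℝ) : ℂ) with hζ₀
  have hs1 : 0 < s + 1 := by linarith
  have hζnorm : ‖ζ₀‖ = (s - 1) / (s + 1) := by
    rw [hζ₀, Complex.norm_real, Real.norm_eq_abs, abs_of_nonneg]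
    apply div_nonneg <;> linarith
  have hζlt : ‖ζ₀‖ < 1 := by
    rw [hζnorm, div_lt_one hs1]
    linarith
  have hgs : g ζ₀ = r := by
    simp only [hg]
    have h1 : (1 + ζ₀) / (1 - ζ₀) = ((s : ℝ) : ℂ) := by
      rw [hζ₀]
      have hs1' : ((s : ℂ) + 1) ≠ 0 := by exact_mod_cast hs1.ne'
      push_cast
      field_simp
      ring
    have h2 : pick A B (((1 + ζ₀) / (1 - ζ₀)) ^ 2) = ((ys : ℝ) : ℂ) := by
      rw [h1]
      have := pick_ofReal A B (s ^ 2)
      rw [← this]
      push_cast
      rfl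
    rw [h2, hhalf, ← Complex.ofReal_cpow hyspos.le]
  have hschwarz := Complex.norm_le_norm_of_mapsTo_ball hd hmaps hh0 hζlt
  rw [hζnorm] at hschwarz
  have hhs : ‖h ζ₀‖ = |r - c| / (r + c) := by
    simp only [hh, hgs]
    rw [← Complex.ofReal_sub, ← Complex.ofReal_add, ← Complex.ofReal_div, Complex.norm_real,
      Real.norm_eq_abs, abs_div, abs_of_pos (a := r + c) (by linarith)]
  rw [hhs] at hschwarz
  have hrc : r ≤ c * s := by
    have h1 : (r - c) / (r + c) ≤ (s - 1) / (s + 1) :=
      le_trans (div_le_div_of_nonneg_right (le_abs_self _) (by linarith)) hschwarz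
    rw [div_le_div_iff₀ (by linarith) hs1] at h1
    nlinarith
  have hr2 : r ^ 2 = ys := by
    rw [hr, ← Real.rpow_natCast, ← Real.rpow_mul hyspos.le]
    norm_num
  have hc2 : c ^ 2 = y₁ := by
    rw [hc, ← Real.rpow_natCast, ← Real.rpow_mul hy₁pos.le]
    norm_num
  have hfin : ys ≤ y₁ * s ^ 2 := by
    rw [← hr2, ← hc2, ← mul_pow]
    exact pow_le_pow_left₀ hrpos.le hrc 2
  rw [hys, hy₁] at hfin
  linarith

private lemma derivative_nonneg_of_right (P : ℝ[X]) (h1 : P.eval 1 = 0)
    (hpos : ∀ x : ℝ, 1 < x → 0 ≤ P.eval x) : 0 ≤ P.derivative.eval 1 := by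
  have hd := (P.hasDerivAt 1)
  rw [hasDerivAt_iff_tendsto_slope] at hd
  have hd' : Filter.Tendsto (slope (fun x => eval x P) 1) (nhdsWithin 1 (Ioi 1))
      (nhds (P.derivative.eval 1)) :=
    hd.mono_left (nhdsWithin_mono _ (fun x hx => by
      simp only [Set.mem_compl_iff, Set.mem_singleton_iff]
      exact (ne_of_gt hx)))
  apply ge_of_tendsto hd'
  filter_upwards [self_mem_nhdsWithin] with x hx
  rw [slope_def_field, h1, sub_zero]
  exact div_nonneg (hpos x hx) (by linarith [show (1 : ℝ) < x from hx])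

/-- **Analytic core lemma (aeval form).** -/
theorem analytic_core_aeval (A B : ℝ[X]) (hA : ∀ n, 0 ≤ A.coeff n) (hB : ∀ n, 0 ≤ B.coeff n)
    (hst : ∀ w z : ℂ, 0 < w.im → 0 < z.im → aeval w A + z * aeval w B ≠ 0) :
    A.derivative.eval 1 * B.eval 1 - A.eval 1 * B.derivative.eval 1 ≤ A.eval 1 * B.eval 1 := by
  by_cases hB0 : B = 0
  · simp [hB0]
  have key : ∀ x : ℝ, 1 < x → A.eval x * B.eval 1 ≤ x * A.eval 1 * B.eval x := by
    intro x hx
    have hx0 : 0 < x := by linarith
    set s := Real.sqrt x with hs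
    have hs2 : s ^ 2 = x := Real.sq_sqrt hx0.le
    have hs1 : 1 < s := by
      rw [hs]
      exact Real.lt_sqrt_of_sq_lt (by simpa using hx)
    have h := pick_sq_le A B hA hB hB0 hst s hs1
    rw [hs2] at h
    have hb1 := eval_pos_of_coeff B hB hB0 1 zero_lt_one
    have hbx := eval_pos_of_coeff B hB hB0 x hx0
    rw [← mul_div_assoc, div_le_div_iff₀ hbx hb1] at h
    linarith
  set P : ℝ[X] := X * C (A.eval 1) * B - A * C (B.eval 1) with hP
  have hP1 : P.eval 1 = 0 := by
    simp [hP]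
  have hPpos : ∀ x : ℝ, 1 < x → 0 ≤ P.eval x := by
    intro x hx
    have := key x hx
    simp only [hP, eval_sub, eval_mul, eval_X, eval_C]
    linarith
  have := derivative_nonneg_of_right P hP1 hPpos
  simp only [hP, derivative_sub, derivative_mul, derivative_X, derivative_C, eval_sub, eval_add,
    eval_mul, eval_X, eval_C, eval_one, eval_zero, mul_zero, add_zero, one_mul] at this
  linarith

/-- **Analytic core lemma.**  If `A, B` are real polynomials with nonnegative coefficients and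
`A(w) + z B(w)` does not vanish for `w, z` in the open upper half plane, then
`A'(1) B(1) - A(1) B'(1) ≤ A(1) B(1)`. -/
theorem analytic_core (A B : ℝ[X]) (hA : ∀ n, 0 ≤ A.coeff n) (hB : ∀ n, 0 ≤ B.coeff n)
    (hst : ∀ w z : ℂ, 0 < w.im → 0 < z.im →
      (A.map (algebraMap ℝ ℂ)).eval w + z * (B.map (algebraMap ℝ ℂ)).eval w ≠ 0) :
    A.derivative.eval 1 * B.eval 1 - A.eval 1 * B.derivative.eval 1 ≤ A.eval 1 * B.eval 1 := by
  apply analytic_core_aeval A B hA hB
  intro w z hw hz
  have := hst w z hw hz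
  simpa only [Polynomial.eval_map_algebraMap] using this

end

end Crest.Agent.R168F
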