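import Crest.Agent.R168F_Defs

/-!
# Row 168, package F, task F1 (helper47): `SZ` is closed under deletion and contraction

`gp (insert k F) p z = A z + z k * B z`.  If `B ζ = 0` at a point of the upper half planes and `B` is
not identically zero, restrict to the complex line through `ζ` and `(1,…,1)`; by the open mapping
theorem `B / A` takes the value `i δ` near `ζ`, which gives a zero `(z, i / δ)`.
-/

set_option autoImplicit false

namespace Crest.Agent.R168F

open Finset Filter Topology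

variable {ι : Type*} [DecidableEq ι]

theorem gp_insert {F : Finset ι} {k : ι} (hk : k ∉ F) (p : Finset ι → ℝ) (z : ι → ℂ) :
    gp (insert k F) p z = gp F p z + z k * gp F (fun S => p (insert k S)) z := by
  unfold gp
  rw [Finset.sum_powerset_insert hk, Finset.mul_sum]
  congr 1
  apply Finset.sum_congr rfl
  intro S hS
  have hkS : k ∉ S := fun h => hk (Finset.mem_powerset.mp hS h)
  rw [Finset.prod_insert hkS]; ring

omit [DecidableEq ι] in
theorem gp_congr {F : Finset ι} (p : Finset ι → ℝ) {z z' : ι → ℂ} (h : ∀ i ∈ F, z i = z' i) :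
    gp F p z = gp F p z' := by
  unfold gp
  apply Finset.sum_congr rfl
  intro S hS
  congr 1
  exact Finset.prod_congr rfl (fun i hi => h i (Finset.mem_powerset.mp hS hi))

/-- open mapping theorem in the form we need. -/
private lemma openmap (u v : ℂ → ℂ) (hu : Differentiable ℂ u) (hv : Differentiable ℂ v)
    (hu0 : u 0 = 0) (hu1 : u 1 ≠ 0) (hv0 : v 0 ≠ 0) (U : Set ℂ) (hU : U ∈ 𝓝 (0 : ℂ)) :
    ∃ δ : ℝ, 0 < δ ∧ ∀ c : ℂ, ‖c‖ < δ → ∃ s ∈ U, u s = c * v s := by
  have hua : AnalyticOnNhd ℂ u Set.univ := hu.differentiableOn.analyticOnNhd isOpen_univ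
  have hva : AnalyticOnNhd ℂ v Set.univ := hv.differentiableOn.analyticOnNhd isOpen_univ
  have hφ : AnalyticAt ℂ (fun s => u s / v s) 0 := (hua 0 trivial).div (hva 0 trivial) hv0
  have hvne : ∀ᶠ s in 𝓝 (0 : ℂ), v s ≠ 0 := hv.continuous.continuousAt.eventually_ne hv0
  rcases hφ.eventually_constant_or_nhds_le_map_nhds with hc | hopen
  · exfalso
    have h1 : ∀ᶠ s in 𝓝 (0 : ℂ), u s = 0 := by
      filter_upwards [hc, hvne] with s hs hs'
      simp only [hu0, zero_div] at hs
      rcases div_eq_zero_iff.mp hs with h | h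
      · exact h
      · exact absurd h hs'
    have h2 : u = fun _ => (0 : ℂ) :=
      hua.eq_of_eventuallyEq (analyticOnNhd_const) h1
    exact hu1 (by rw [h2])
  · have hmem : (fun s => u s / v s) '' (U ∩ {s | v s ≠ 0}) ∈ 𝓝 (u 0 / v 0) := by
      apply hopen
      exact Filter.image_mem_map (Filter.inter_mem hU hvne)
    rw [hu0, zero_div, Metric.mem_nhds_iff] at hmem
    obtain ⟨δ, hδ, hsub⟩ := hmem
    refine ⟨δ, hδ, fun c hc => ?_⟩
    obtain ⟨s, ⟨hsU, hsv⟩, hs⟩ := hsub (by simpa using hc : c ∈ Metric.ball (0 : ℂ) δ)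
    refine ⟨s, hsU, ?_⟩
    have hsv' : v s ≠ 0 := hsv
    simp only at hs
    rw [← hs]
    field_simp

/-- the complex line through `ζ` and `(1,…,1)`. -/
private def line (ζ : ι → ℂ) (s : ℂ) : ι → ℂ := fun i => ζ i + s * (1 - ζ i)

omit [DecidableEq ι] in
private lemma gp_line_diff (F : Finset ι) (p : Finset ι → ℝ) (ζ : ι → ℂ) :
    Differentiable ℂ (fun s => gp F p (line ζ s)) := by
  unfold gp line
  fun_prop

omit [DecidableEq ι] in
private lemma line_nhds (F : Finset ι) (ζ : ι → ℂ) (hζ : ∀ i ∈ F, 0 < (ζ i).im) :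
    {s : ℂ | ∀ i ∈ F, 0 < (line ζ s i).im} ∈ 𝓝 (0 : ℂ) := by
  have : {s : ℂ | ∀ i ∈ F, 0 < (line ζ s i).im} = ⋂ i ∈ F, {s : ℂ | 0 < (line ζ s i).im} := by
    ext s; simp
  rw [this, Filter.biInter_finset_mem]
  intro i hi
  have hcont : Continuous (fun s : ℂ => (line ζ s i).im) := by
    unfold line
    fun_prop
  apply (isOpen_lt continuous_const hcont).mem_nhds
  simpa [line] using hζ i hi

omit [DecidableEq ι] in
private lemma gp_line_one (F : Finset ι) (p : Finset ι → ℝ) (ζ : ι → ℂ) :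
    gp F p (line ζ 1) = ((∑ S ∈ F.powerset, p S : ℝ) : ℂ) := by
  unfold gp line
  simp

omit [DecidableEq ι] in
private lemma gp_line_one_ne (F : Finset ι) (p : Finset ι → ℝ) (hp : ∀ S, 0 ≤ p S) (ζ : ι → ℂ)
    (hz : ¬ ∀ S, S ⊆ F → p S = 0) : gp F p (line ζ 1) ≠ 0 := by
  rw [gp_line_one]
  push Not at hz
  obtain ⟨S, hS, hne⟩ := hz
  have : 0 < ∑ S ∈ F.powerset, p S :=
    Finset.sum_pos' (fun S _ => hp S) ⟨S, Finset.mem_powerset.mpr hS, lt_of_le_of_ne (hp S) hne.symm⟩
  exact_mod_cast this.ne'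

theorem stable_apply {F : Finset ι} {k : ι} (hk : k ∉ F) {p : Finset ι → ℝ}
    (hst : Stable (insert k F) p) (z : ι → ℂ) (hz : ∀ i ∈ F, 0 < (z i).im) (w : ℂ) (hw : 0 < w.im) :
    gp F p z + w * gp F (fun S => p (insert k S)) z ≠ 0 := by
  have h := hst (Function.update z k w) (by
    intro i hi
    rcases Finset.mem_insert.mp hi with rfl | hi
    · simpa using hw
    · have : i ≠ k := fun h => hk (h ▸ hi)
      simpa [Function.update_of_ne this] using hz i hi)
  rw [gp_insert hk] at h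
  have hc : ∀ i ∈ F, Function.update z k w i = z i := by
    intro i hi
    have : i ≠ k := fun h => hk (h ▸ hi)
    simp [Function.update_of_ne this]
  rw [gp_congr p hc, gp_congr _ hc] at h
  simpa using h

/-- **contraction** (conditioning on `k` occupied). -/
theorem SZ.contract {F : Finset ι} {p : Finset ι → ℝ} {k : ι} (hk : k ∉ F) (hp : ∀ S, 0 ≤ p S)
    (h : SZ (insert k F) p) : SZ F (fun S => p (insert k S)) := by
  rcases h with h0 | hst
  · exact Or.inl (fun S hS => h0 _ (Finset.insert_subset_insert k hS))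
  by_cases hz : ∀ S, S ⊆ F → p (insert k S) = 0
  · exact Or.inl hz
  refine Or.inr (fun ζ hζ hB => ?_)
  have hl0 : line ζ 0 = ζ := by funext i; simp [line]
  have hv0 : gp F p (line ζ 0) ≠ 0 := by
    have := stable_apply hk hst ζ hζ Complex.I (by simp)
    rw [hB] at this
    rw [hl0]
    simpa using this
  obtain ⟨δ, hδ, H⟩ := openmap (fun s => gp F (fun S => p (insert k S)) (line ζ s))
    (fun s => gp F p (line ζ s)) (gp_line_diff _ _ _) (gp_line_diff _ _ _)
    (by simp only [hl0]; exact hB)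
    (gp_line_one_ne F _ (fun S => hp _) ζ hz) hv0 _ (line_nhds F ζ hζ)
  obtain ⟨s, hsU, hs⟩ := H (Complex.I * ((δ / 2 : ℝ) : ℂ)) (by
    rw [norm_mul, Complex.norm_I, Complex.norm_real, Real.norm_eq_abs, abs_of_pos (by positivity)]
    linarith)
  apply stable_apply hk hst (line ζ s) hsU (Complex.I * ((2 / δ : ℝ) : ℂ))
    (by simp; positivity)
  rw [hs]
  have hδc : (δ : ℂ) ≠ 0 := by exact_mod_cast hδ.ne'
  push_cast
  have hI : Complex.I * Complex.I = -1 := Complex.I_mul_I
  field_simp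
  linear_combination (gp F p (line ζ s)) * hI

/-- **deletion** (conditioning on `k` empty). -/
theorem SZ.delete {F : Finset ι} {p : Finset ι → ℝ} {k : ι} (hk : k ∉ F) (hp : ∀ S, 0 ≤ p S)
    (h : SZ (insert k F) p) : SZ F p := by
  rcases h with h0 | hst
  · exact Or.inl (fun S hS => h0 _ (hS.trans (Finset.subset_insert k F)))
  by_cases hz : ∀ S, S ⊆ F → p S = 0
  · exact Or.inl hz
  refine Or.inr (fun ζ hζ hA => ?_)
  have hl0 : line ζ 0 = ζ := by funext i; simp [line]
  have hv0 : gp F (fun S => p (insert k S)) (line ζ 0) ≠ 0 := by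
    have := stable_apply hk hst ζ hζ Complex.I (by simp)
    rw [hA] at this
    rw [hl0]
    simpa using this
  obtain ⟨δ, hδ, H⟩ := openmap (fun s => gp F p (line ζ s))
    (fun s => gp F (fun S => p (insert k S)) (line ζ s)) (gp_line_diff _ _ _) (gp_line_diff _ _ _)
    (by simp only [hl0]; exact hA)
    (gp_line_one_ne F _ hp ζ hz) hv0 _ (line_nhds F ζ hζ)
  obtain ⟨s, hsU, hs⟩ := H (-(Complex.I * ((δ / 2 : ℝ) : ℂ))) (by
    rw [norm_neg, norm_mul, Complex.norm_I, Complex.norm_real, Real.norm_eq_abs,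
      abs_of_pos (by positivity)]
    linarith)
  apply stable_apply hk hst (line ζ s) hsU (Complex.I * ((δ / 2 : ℝ) : ℂ))
    (by simp; positivity)
  rw [hs]
  ring

theorem SZ.mono {F F' : Finset ι} {p : Finset ι → ℝ} (hp : ∀ S, 0 ≤ p S) (hFF : F ⊆ F')
    (h : SZ F' p) : SZ F p := by
  obtain ⟨Y, hY, rfl⟩ : ∃ Y, Disjoint F Y ∧ F' = F ∪ Y :=
    ⟨F' \ F, Finset.disjoint_sdiff, (Finset.union_sdiff_of_subset hFF).symm⟩
  clear hFF
  induction Y using Finset.induction_on with
  | empty => simpa using h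
  | insert k Y hkY ih =>
    rw [Finset.disjoint_insert_right] at hY
    apply ih hY.2
    rw [Finset.union_insert] at h
    exact SZ.delete (by simp [hY.1, hkY]) hp h

theorem SZ.contract_many {F Y : Finset ι} {p : Finset ι → ℝ} (hp : ∀ S, 0 ≤ p S)
    (hY : Disjoint F Y) (h : SZ (F ∪ Y) p) : SZ F (fun S => p (S ∪ Y)) := by
  induction Y using Finset.induction_on generalizing p with
  | empty => simpa using h
  | insert k Y hkY ih =>
    rw [Finset.disjoint_insert_right] at hY
    rw [Finset.union_insert] at h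
    have h1 := SZ.contract (by simp [hY.1, hkY]) hp h
    have h2 := ih (fun S => hp _) hY.2 h1
    simpa [Finset.union_insert] using h2

/-- **Task F1.**  The weights of a context (`Y₁` occupied, everything else outside `F` empty). -/
theorem SZ.minor {F Y₁ G : Finset ι} {p : Finset ι → ℝ} (hp : ∀ S, 0 ≤ p S)
    (hY : Disjoint F Y₁) (hG : F ∪ Y₁ ⊆ G) (h : SZ G p) : SZ F (fun S => p (S ∪ Y₁)) :=
  SZ.contract_many hp hY (SZ.mono hp hG h)

end Crest.Agent.R168F
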