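import Mathlib
import Crest.Prelude.Def_StronglyRayleigh

/-!
# Row 168, package F (helper47): strongly Rayleigh ⇒ (N1), (N2).  Shared definitions.

Weights `p : Finset ι → ℝ` on the subsets of a finite set `F`; `gp F p z = ∑_{S ⊆ F} p S ∏_{i ∈ S} z i`;
`Stable F p`: `gp F p` does not vanish when all `z i` (`i ∈ F`) have positive imaginary part;
`SZ F p`: all weights on subsets of `F` vanish, or `Stable F p`.
-/

set_option autoImplicit false

namespace Crest.Agent.R168F

open Finset

variable {ι : Type*}

/-- generating polynomial of the weights `p` on the subsets of `F`. -/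
noncomputable def gp (F : Finset ι) (p : Finset ι → ℝ) (z : ι → ℂ) : ℂ :=
  ∑ S ∈ F.powerset, (p S : ℂ) * ∏ i ∈ S, z i

/-- no zero with all coordinates in the open upper half plane. -/
def Stable (F : Finset ι) (p : Finset ι → ℝ) : Prop :=
  ∀ z : ι → ℂ, (∀ i ∈ F, 0 < (z i).im) → gp F p z ≠ 0

/-- stable or identically zero. -/
def SZ (F : Finset ι) (p : Finset ι → ℝ) : Prop :=
  (∀ S, S ⊆ F → p S = 0) ∨ Stable F p

end Crest.Agent.R168F
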