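import Mathlib

/-!
# Row 168, package F, task F3 (helper47): the analytic inequality behind (N2)

If `A, B` are real polynomials with non-negative coefficients, `B` has no zero in the open upper
half plane and `A(t) + w B(t) ≠ 0` for `t, w` in the open upper half plane, then
`A'(1) B(1) - A(1) B'(1) ≤ A(1) B(1)`.

Proof: `f(t) = A(t)/B(t) + t` maps the slit plane into itself, so `g(s) = sqrt (f (s^2))` maps the
right half plane into itself; Schwarz–Pick at `s = 1` gives `|g'(1)| ≤ g(1)`, i.e. `f'(1) ≤ f(1)`.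
-/

set_option autoImplicit false

namespace Crest.Agent.R168F

open Complex Metric Set Polynomial

private lemma cayley_ne {ζ : ℂ} (h : ‖ζ‖ < 1) : (1 - ζ) ≠ 0 := by
  intro h0
  have : ζ = 1 := by linear_combination -h0
  rw [this] at h; simp at h

private lemma cayley_re {ζ : ℂ} (h : ‖ζ‖ < 1) : 0 < ((1 + ζ) / (1 - ζ)).re := by
  have hne := cayley_ne h
  have hns : 0 < Complex.normSq (1 - ζ) := Complex.normSq_pos.mpr hne
  have h1 : Complex.normSq ζ < 1 := by
    rw [Complex.normSq_eq_norm_sq]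
    nlinarith [norm_nonneg ζ]
  rw [Complex.div_re, ← add_div]
  apply div_pos _ hns
  have : ((1 + ζ).re * (1 - ζ).re + (1 + ζ).im * (1 - ζ).im) = 1 - Complex.normSq ζ := by
    simp [Complex.normSq_apply]; ring
  rw [this]; linarith

private lemma psi_ne {v : ℂ} {γ : ℝ} (hv : 0 < v.re) (hγ : 0 < γ) : v + γ ≠ 0 := by
  intro h0
  have := congrArg Complex.re h0
  simp at this
  linarith

private lemma psi_norm {v : ℂ} {γ : ℝ} (hv : 0 < v.re) (hγ : 0 < γ) :
    ‖(v - γ) / (v + γ)‖ ≤ 1 := by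
  have hne := psi_ne hv hγ
  rw [norm_div, div_le_one (norm_pos_iff.mpr hne)]
  apply le_of_sq_le_sq _ (norm_nonneg _)
  rw [← Complex.normSq_eq_norm_sq, ← Complex.normSq_eq_norm_sq, Complex.normSq_apply,
    Complex.normSq_apply]
  simp
  nlinarith

/-- Schwarz–Pick at the point `1` of the right half plane. -/
theorem rhp_schwarz (g : ℂ → ℂ) (hd : DifferentiableOn ℂ g {s | 0 < s.re})
    (hmaps : ∀ s : ℂ, 0 < s.re → 0 < (g s).re) (γ : ℝ) (hγ : 0 < γ) (h1 : g 1 = γ) :
    ‖deriv g 1‖ ≤ γ := by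
  have hopen : IsOpen {s : ℂ | 0 < s.re} := isOpen_lt continuous_const Complex.continuous_re
  set m : ℂ → ℂ := fun ζ => (1 + ζ) / (1 - ζ) with hm
  set h : ℂ → ℂ := fun ζ => (g (m ζ) - γ) / (g (m ζ) + γ) with hh
  have hmd : ∀ ζ ∈ ball (0 : ℂ) 1, DifferentiableAt ℂ m ζ := by
    intro ζ hζ
    have hne := cayley_ne (by simpa using hζ : ‖ζ‖ < 1)
    exact (by fun_prop : DifferentiableAt ℂ (fun ζ : ℂ => 1 + ζ) ζ).div (by fun_prop) hne
  have hgm : ∀ ζ ∈ ball (0 : ℂ) 1, DifferentiableAt ℂ (fun ζ => g (m ζ)) ζ := by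
    intro ζ hζ
    have hre := cayley_re (by simpa using hζ : ‖ζ‖ < 1)
    have : DifferentiableAt ℂ g (m ζ) := hd.differentiableAt (hopen.mem_nhds hre)
    exact this.comp ζ (hmd ζ hζ)
  have hdiff : DifferentiableOn ℂ h (ball 0 1) := by
    intro ζ hζ
    have hre := cayley_re (by simpa using hζ : ‖ζ‖ < 1)
    have hne := psi_ne (hmaps _ hre) hγ
    exact (((hgm ζ hζ).sub_const _).div ((hgm ζ hζ).add_const _) hne).differentiableWithinAt
  have hm0 : m 0 = 1 := by simp [hm]
  have hh0 : h 0 = 0 := by simp [hh, hm0, h1]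
  have hmap : MapsTo h (ball 0 1) (closedBall (h 0) 1) := by
    intro ζ hζ
    have hre := cayley_re (by simpa using hζ : ‖ζ‖ < 1)
    rw [hh0, mem_closedBall_zero_iff]
    exact psi_norm (hmaps _ hre) hγ
  have key := Complex.norm_deriv_le_one_of_mapsTo_ball hdiff hmap one_pos
  -- compute the derivative
  have hg1 : HasDerivAt g (deriv g 1) 1 :=
    (hd.differentiableAt (hopen.mem_nhds (by simp))).hasDerivAt
  have hmder : HasDerivAt m 2 0 := by
    have h1 : HasDerivAt (fun ζ : ℂ => 1 + ζ) 1 0 := by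
      simpa using (hasDerivAt_id (0 : ℂ)).const_add 1
    have h2 : HasDerivAt (fun ζ : ℂ => 1 - ζ) (-1) 0 := by
      simpa using (hasDerivAt_id (0 : ℂ)).const_sub 1
    exact (h1.fun_div h2 (by simp)).congr_deriv (by norm_num)
  have hgmder : HasDerivAt (fun ζ => g (m ζ)) (deriv g 1 * 2) 0 := by
    have hg1' : HasDerivAt g (deriv g 1) (m 0) := by rw [hm0]; exact hg1
    exact hg1'.comp 0 hmder
  have hγc : (γ : ℂ) ≠ 0 := by exact_mod_cast hγ.ne'
  have hhder : HasDerivAt h (deriv g 1 / γ) 0 := by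
    refine ((hgmder.sub_const (γ : ℂ)).fun_div (hgmder.add_const (γ : ℂ))
      (by simp only [hm0, h1]; intro h0; apply hγc; linear_combination h0 / 2)).congr_deriv ?_
    simp only [hm0, h1]
    field_simp
    ring
  rw [hhder.deriv, norm_div, Complex.norm_real, Real.norm_eq_abs, abs_of_pos hγ,
    div_le_one hγ] at key
  exact key

private lemma eval_pos_of_coeff {B : ℝ[X]} (hB : ∀ n, 0 ≤ B.coeff n) (hne : B ≠ 0) {r : ℝ}
    (hr : 0 < r) : 0 < B.eval r := by
  rw [Polynomial.eval_eq_sum_range]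
  apply Finset.sum_pos' (fun n _ => mul_nonneg (hB n) (pow_nonneg hr.le n))
  refine ⟨B.natDegree, by simp, mul_pos ?_ (pow_pos hr _)⟩
  exact lt_of_le_of_ne (hB _) (Ne.symm (by simpa using hne))

private lemma eval_nonneg_of_coeff {A : ℝ[X]} (hA : ∀ n, 0 ≤ A.coeff n) {r : ℝ}
    (hr : 0 < r) : 0 ≤ A.eval r := by
  rw [Polynomial.eval_eq_sum_range]
  exact Finset.sum_nonneg (fun n _ => mul_nonneg (hA n) (pow_nonneg hr.le n))

private lemma aeval_ofReal' (A : ℝ[X]) (r : ℝ) : aeval (r : ℂ) A = ((A.eval r : ℝ) : ℂ) := by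
  have := Polynomial.aeval_algebraMap_apply ℂ r A
  simpa using this

private lemma sq_mem_slit {s : ℂ} (hs : 0 < s.re) : s ^ 2 ∈ slitPlane := by
  rw [mem_slitPlane_iff]
  by_cases him : s.im = 0
  · left
    simp [pow_two, him]
    exact hs.ne'
  · right
    simp only [pow_two, Complex.mul_im]
    intro h0
    have : 2 * (s.re * s.im) = 0 := by linarith
    rcases mul_eq_zero.mp (by linarith : s.re * s.im = 0) with h | h
    · exact hs.ne' h
    · exact him h

private lemma sqrt_re_pos {x : ℂ} (hx : x ∈ slitPlane) : 0 < (x ^ (2⁻¹ : ℂ)).re := by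
  rw [Complex.cpow_inv_two_re]
  apply Real.sqrt_pos.mpr
  apply div_pos _ two_pos
  rcases mem_slitPlane_iff.mp hx with h | h
  · have := norm_nonneg x
    linarith
  · have := Complex.abs_re_lt_norm.mpr h
    have h2 := neg_abs_le x.re
    linarith

/-- **Task F3.** -/
theorem pick_ineq (A B : ℝ[X]) (hA : ∀ n, 0 ≤ A.coeff n) (hB : ∀ n, 0 ≤ B.coeff n)
    (hB0 : ∀ t : ℂ, 0 < t.im → aeval t B ≠ 0)
    (hst : ∀ t w : ℂ, 0 < t.im → 0 < w.im → aeval t A + w * aeval t B ≠ 0) :
    A.derivative.eval 1 * B.eval 1 - A.eval 1 * B.derivative.eval 1 ≤ A.eval 1 * B.eval 1 := by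
  have hBne : B ≠ 0 := by
    rintro rfl
    exact hB0 I (by simp) (by simp)
  set F : ℂ → ℂ := fun t => aeval t A / aeval t B + t with hF
  -- upper half plane
  have him_pos : ∀ t : ℂ, 0 < t.im → 0 < (F t).im := by
    intro t ht
    have hb := hB0 t ht
    have : 0 ≤ (aeval t A / aeval t B).im := by
      by_contra hneg
      push Not at hneg
      apply hst t (-(aeval t A / aeval t B)) ht (by simpa using hneg)
      field_simp
      ring
    simp only [hF, Complex.add_im]
    linarith
  have hconj : ∀ t : ℂ, F ((starRingEnd ℂ) t) = (starRingEnd ℂ) (F t) := by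
    intro t
    simp only [hF, Polynomial.aeval_conj, map_add, map_div₀]
  have hbne : ∀ t ∈ slitPlane, aeval t B ≠ 0 := by
    intro t ht
    rcases lt_trichotomy t.im 0 with h | h | h
    · have h1 := hB0 ((starRingEnd ℂ) t) (by simpa using h)
      rw [Polynomial.aeval_conj] at h1
      simpa using h1
    · have hre : 0 < t.re := by
        rcases mem_slitPlane_iff.mp ht with h' | h'
        · exact h'
        · exact absurd h h'
      have ht' : t = (t.re : ℂ) := by
        apply Complex.ext <;> simp [h]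
      rw [ht', aeval_ofReal']
      exact_mod_cast (eval_pos_of_coeff hB hBne hre).ne'
    · exact hB0 t h
  have hFslit : ∀ t ∈ slitPlane, F t ∈ slitPlane := by
    intro t ht
    rw [mem_slitPlane_iff]
    rcases lt_trichotomy t.im 0 with h | h | h
    · right
      have h1 := him_pos ((starRingEnd ℂ) t) (by simpa using h)
      rw [hconj] at h1
      simp at h1
      exact h1.ne
    · left
      have hre : 0 < t.re := by
        rcases mem_slitPlane_iff.mp ht with h' | h'
        · exact h'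
        · exact absurd h h'
      have ht' : t = (t.re : ℂ) := by
        apply Complex.ext <;> simp [h]
      have : F t = ((A.eval t.re / B.eval t.re + t.re : ℝ) : ℂ) := by
        rw [hF]
        simp only
        rw [ht', aeval_ofReal', aeval_ofReal']
        push_cast
        simp
      rw [this, Complex.ofReal_re]
      have h1 := eval_nonneg_of_coeff hA hre
      have h2 := eval_pos_of_coeff hB hBne hre
      positivity
    · right
      exact (him_pos t h).ne'
  have hFd : ∀ t ∈ slitPlane, HasDerivAt F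
      ((aeval t A.derivative * aeval t B - aeval t A * aeval t B.derivative) / (aeval t B) ^ 2 + 1)
      t := by
    intro t ht
    exact ((A.hasDerivAt_aeval t).fun_div (B.hasDerivAt_aeval t) (hbne t ht)).add (hasDerivAt_id t)
  set g : ℂ → ℂ := fun s => (F (s ^ 2)) ^ (2⁻¹ : ℂ) with hg
  have hgsq : ∀ s, g s ^ 2 = F (s ^ 2) := by
    intro s
    have := Complex.cpow_nat_inv_pow (F (s ^ 2)) (two_ne_zero)
    simp [hg]
  have hgd : DifferentiableOn ℂ g {s | 0 < s.re} := by
    intro s hs
    have hs2 := sq_mem_slit hs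
    have h1 : DifferentiableAt ℂ (fun s : ℂ => F (s ^ 2)) s :=
      (hFd _ hs2).differentiableAt.comp s (differentiableAt_pow 2 (x := s))
    exact (h1.cpow_const (hFslit _ hs2)).differentiableWithinAt
  have hgmaps : ∀ s : ℂ, 0 < s.re → 0 < (g s).re := by
    intro s hs
    exact sqrt_re_pos (hFslit _ (sq_mem_slit hs))
  have hA1 := eval_nonneg_of_coeff hA one_pos
  have hB1 := eval_pos_of_coeff hB hBne one_pos
  set φ : ℝ := A.eval 1 / B.eval 1 + 1 with hφ
  have hφpos : 0 < φ := by positivity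
  have hF1 : F 1 = (φ : ℂ) := by
    have h1 : (1 : ℂ) = ((1 : ℝ) : ℂ) := by simp
    rw [hF]
    simp only
    rw [h1, aeval_ofReal', aeval_ofReal', hφ]
    push_cast
    ring
  have hg1 : g 1 = ((Real.sqrt φ : ℝ) : ℂ) := by
    have : g 1 = Complex.sqrt (φ : ℂ) := by
      simp only [hg, one_pow, hF1, Complex.sqrt]
    rw [this, Complex.sqrt_of_nonneg (by exact_mod_cast hφpos.le)]
    simp
  have hγ : 0 < Real.sqrt φ := Real.sqrt_pos.mpr hφpos
  have key := rhp_schwarz g hgd hgmaps (Real.sqrt φ) hγ hg1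
  -- derivative of `g` at `1`
  have hopen : IsOpen {s : ℂ | 0 < s.re} := isOpen_lt continuous_const Complex.continuous_re
  have hgder : HasDerivAt g (deriv g 1) 1 :=
    (hgd.differentiableAt (hopen.mem_nhds (by simp))).hasDerivAt
  set D : ℝ := (A.derivative.eval 1 * B.eval 1 - A.eval 1 * B.derivative.eval 1) / (B.eval 1) ^ 2 + 1
    with hD
  have hFder1 : HasDerivAt F (D : ℂ) 1 := by
    have h1 : (1 : ℂ) = ((1 : ℝ) : ℂ) := by simp
    refine (hFd 1 (by simp [mem_slitPlane_iff])).congr_deriv ?_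
    rw [h1, aeval_ofReal', aeval_ofReal', aeval_ofReal', aeval_ofReal', hD]
    push_cast
    ring
  have hcomp : HasDerivAt (fun s : ℂ => F (s ^ 2)) ((D : ℂ) * 2) 1 := by
    have hsq : HasDerivAt (fun s : ℂ => s ^ 2) 2 1 := by
      simpa using (hasDerivAt_pow 2 (1 : ℂ))
    have hF' : HasDerivAt F (D : ℂ) ((fun s : ℂ => s ^ 2) 1) := by simpa using hFder1
    exact hF'.comp 1 hsq
  have hsqder : HasDerivAt (fun s : ℂ => g s ^ 2) (2 * g 1 * deriv g 1) 1 := by
    simpa using hgder.fun_pow 2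
  have hfun : (fun s : ℂ => g s ^ 2) = fun s : ℂ => F (s ^ 2) := funext hgsq
  rw [hfun] at hsqder
  have heq := hsqder.unique hcomp
  rw [hg1] at heq
  have hγc : ((Real.sqrt φ : ℝ) : ℂ) ≠ 0 := by exact_mod_cast hγ.ne'
  have hder : deriv g 1 = (D : ℂ) / ((Real.sqrt φ : ℝ) : ℂ) := by
    field_simp
    linear_combination heq / 2
  rw [hder, norm_div, Complex.norm_real, Complex.norm_real, Real.norm_eq_abs, Real.norm_eq_abs,
    abs_of_pos hγ, div_le_iff₀ hγ, Real.mul_self_sqrt hφpos.le] at key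
  have hDle : D ≤ φ := le_trans (le_abs_self D) key
  rw [hD, hφ] at hDle
  have h3 : (A.derivative.eval 1 * B.eval 1 - A.eval 1 * B.derivative.eval 1) / (B.eval 1) ^ 2
      ≤ A.eval 1 / B.eval 1 := by linarith
  rw [div_le_div_iff₀ (by positivity) hB1] at h3
  have h4 : (A.derivative.eval 1 * B.eval 1 - A.eval 1 * B.derivative.eval 1) * B.eval 1
      ≤ (A.eval 1 * B.eval 1) * B.eval 1 := by nlinarith
  exact le_of_mul_le_mul_right h4 hB1

end Crest.Agent.R168F
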