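import Crest.Agent.R168F_Closure
import Crest.Agent.R168F_Pick

/-!
# Row 168, package F, tasks F2 and F4 (helper47): (N1) and (N2) for `SZ` weights
-/

set_option autoImplicit false

namespace Crest.Agent.R168F

open Finset Polynomial

variable {ι : Type*} [DecidableEq ι]

omit [DecidableEq ι] in
theorem gp_empty (q : Finset ι → ℝ) (z : ι → ℂ) : gp ∅ q z = (q ∅ : ℂ) := by
  simp [gp]

theorem gp_pair {h g : ι} (hne : h ≠ g) (q : Finset ι → ℝ) (z : ι → ℂ) :
    gp {h, g} q z = q ∅ + z g * q {g} + z h * (q {h} + z g * q {h, g}) := by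
  have h1 : h ∉ ({g} : Finset ι) := by simpa using hne
  have h2 : g ∉ (∅ : Finset ι) := by simp
  have e : ({g} : Finset ι) = insert g ∅ := by simp
  rw [gp_insert h1, e, gp_insert h2, gp_insert h2, gp_empty, gp_empty, gp_empty, gp_empty]
  simp

/-- **Task F2**, two variables. -/
theorem SZ.neg_pair {h g : ι} (hne : h ≠ g) {q : Finset ι → ℝ} (H : SZ {h, g} q) :
    q {h, g} * q ∅ ≤ q {h} * q {g} := by
  rcases H with H | H
  · rw [H {h, g} (Finset.Subset.refl _), H {h} (by simp)]; simp
  by_contra hcon
  push Not at hcon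
  set a := q ∅
  set b := q {h}
  set c := q {g}
  set d := q {h, g}
  have hcd : 0 < c ^ 2 + d ^ 2 := by
    by_contra h0
    have hc : c = 0 := by nlinarith [sq_nonneg c, sq_nonneg d]
    have hd : d = 0 := by nlinarith [sq_nonneg c, sq_nonneg d]
    rw [hc, hd] at hcon
    simp at hcon
  have hne' : (c : ℂ) + Complex.I * d ≠ 0 := by
    intro h0
    have h1 := congrArg Complex.re h0
    have h2 := congrArg Complex.im h0
    simp at h1 h2
    rw [h1, h2] at hcd
    simp at hcd
  set w : ℂ := -((a : ℂ) + Complex.I * b) / ((c : ℂ) + Complex.I * d) with hw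
  have hwim : 0 < w.im := by
    have : w.im = (d * a - b * c) / (c ^ 2 + d ^ 2) := by
      rw [hw, Complex.div_im]
      simp [Complex.normSq_apply]
      field_simp
      ring
    rw [this]
    apply div_pos _ hcd
    linarith
  apply H (fun i => if i = h then Complex.I else w)
  · intro i hi
    by_cases hih : i = h
    · simp [hih]
    · simp [hih, hwim]
  · rw [gp_pair hne]
    have hgh : g ≠ h := hne.symm
    simp only [if_true, if_neg hgh]
    have : w * ((c : ℂ) + Complex.I * d) = -((a : ℂ) + Complex.I * b) := by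
      rw [hw]; field_simp
    linear_combination this

/-- **Task F2.**  (N1) in coefficient form, arbitrary context. -/
theorem SZ.N1 {G S : Finset ι} {h g : ι} {p : Finset ι → ℝ} (hp : ∀ S, 0 ≤ p S) (H : SZ G p)
    (hS : S ⊆ G) (hh : h ∈ G) (hg : g ∈ G) (hhS : h ∉ S) (hgS : g ∉ S) (hne : h ≠ g) :
    p (insert h (insert g S)) * p S ≤ p (insert h S) * p (insert g S) := by
  have hdis : Disjoint ({h, g} : Finset ι) S := by
    rw [Finset.disjoint_left]
    intro i hi
    rcases Finset.mem_insert.mp hi with rfl | hi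
    · exact hhS
    · rw [Finset.mem_singleton] at hi; rw [hi]; exact hgS
  have hsub : ({h, g} : Finset ι) ∪ S ⊆ G := by
    intro i hi
    rcases Finset.mem_union.mp hi with hi | hi
    · rcases Finset.mem_insert.mp hi with rfl | hi
      · exact hh
      · rw [Finset.mem_singleton] at hi; rw [hi]; exact hg
    · exact hS hi
  have := SZ.neg_pair hne (SZ.minor hp hdis hsub H)
  simpa [Finset.insert_union] using this

/-- the diagonal polynomial of weights on the subsets of `R`. -/
noncomputable def diagPoly (R : Finset ι) (q : Finset ι → ℝ) : ℝ[X] :=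
  ∑ T ∈ R.powerset, C (q T) * X ^ T.card

omit [DecidableEq ι] in
theorem diagPoly_coeff_nonneg (R : Finset ι) {q : Finset ι → ℝ} (hq : ∀ S, 0 ≤ q S) (n : ℕ) :
    0 ≤ (diagPoly R q).coeff n := by
  unfold diagPoly
  rw [Polynomial.finsetSum_coeff]
  apply Finset.sum_nonneg
  intro T _
  rw [Polynomial.coeff_C_mul_X_pow]
  split_ifs
  · exact hq T
  · exact le_rfl

omit [DecidableEq ι] in
theorem diagPoly_aeval (R : Finset ι) (q : Finset ι → ℝ) (t : ℂ) :
    aeval t (diagPoly R q) = gp R q (fun _ => t) := by
  unfold diagPoly gp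
  simp [map_sum]

omit [DecidableEq ι] in
theorem diagPoly_eval_one (R : Finset ι) (q : Finset ι → ℝ) :
    (diagPoly R q).eval 1 = ∑ T ∈ R.powerset, q T := by
  unfold diagPoly
  simp [Polynomial.eval_finsetSum]

omit [DecidableEq ι] in
theorem diagPoly_derivative_eval_one (R : Finset ι) (q : Finset ι → ℝ) :
    (diagPoly R q).derivative.eval 1 = ∑ T ∈ R.powerset, (T.card : ℝ) * q T := by
  unfold diagPoly
  rw [Polynomial.derivative_sum, Polynomial.eval_finsetSum]
  apply Finset.sum_congr rfl
  intro T _
  rw [Polynomial.derivative_C_mul_X_pow]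
  simp [mul_comm]

/-- **Task F4.**  (N2) for `SZ` weights: the total number of occupied sites is positively
correlated with the occupation of `h` (cross-multiplied). -/
theorem SZ.N2 {R : Finset ι} {h : ι} (hh : h ∉ R) {q : Finset ι → ℝ} (hq : ∀ S, 0 ≤ q S)
    (H : SZ (insert h R) q) :
    (∑ T ∈ R.powerset, (T.card : ℝ) * q T) * (∑ T ∈ R.powerset, q (insert h T))
      - (∑ T ∈ R.powerset, q T) * (∑ T ∈ R.powerset, (T.card : ℝ) * q (insert h T))
      ≤ (∑ T ∈ R.powerset, q T) * (∑ T ∈ R.powerset, q (insert h T)) := by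
  rcases SZ.contract hh hq H with hB | hB
  · have h1 : ∑ T ∈ R.powerset, q (insert h T) = 0 :=
      Finset.sum_eq_zero (fun T hT => hB T (Finset.mem_powerset.mp hT))
    have h2 : ∑ T ∈ R.powerset, (T.card : ℝ) * q (insert h T) = 0 :=
      Finset.sum_eq_zero (fun T hT => by
        have : q (insert h T) = 0 := hB T (Finset.mem_powerset.mp hT)
        rw [this]; simp)
    rw [h1, h2]; simp
  rcases H with H | H
  · have h1 : ∑ T ∈ R.powerset, q (insert h T) = 0 :=
      Finset.sum_eq_zero (fun T hT => H _ (Finset.insert_subset_insert h (Finset.mem_powerset.mp hT)))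
    have h2 : ∑ T ∈ R.powerset, (T.card : ℝ) * q (insert h T) = 0 :=
      Finset.sum_eq_zero (fun T hT => by
        rw [H _ (Finset.insert_subset_insert h (Finset.mem_powerset.mp hT))]; simp)
    rw [h1, h2]; simp
  have key := pick_ineq (diagPoly R q) (diagPoly R (fun S => q (insert h S)))
    (diagPoly_coeff_nonneg R hq) (diagPoly_coeff_nonneg R (fun S => hq _))
    (fun t ht => by
      rw [diagPoly_aeval]
      exact hB _ (fun _ _ => ht))
    (fun t w ht hw => by
      rw [diagPoly_aeval, diagPoly_aeval]
      exact stable_apply hh H _ (fun _ _ => ht) w hw)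
  rw [diagPoly_eval_one, diagPoly_eval_one, diagPoly_derivative_eval_one,
    diagPoly_derivative_eval_one] at key
  exact key

end Crest.Agent.R168F
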