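/-
Row 168 (S0254/S0255), CORE (architect helper51): shared definitions of the proof of the uniform Cauchy property
of the finite-window samplers.  FROZEN: do not edit (ask helper51).

Notation of the paper proof.  `c I J` = mass of the cylinder "ones on `I`, zeros on `J`".  A *context* is a finite set
`C` of revealed sites; a *configuration* `S` (a finite set of occupied sites) is read in the context `C` as the state
`(C ∩ S, C \ S)`.  Labels `u` = times, `v` = decision variables.
-/
import Mathlib
import Crest.Prelude.Def_Labels
import Crest.Agent.R168_MassBasic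

set_option autoImplicit false
open MeasureTheory Finset
open Crest.ProbabilityR.Labels
open scoped ENNReal

namespace Crest.Agent.R168

variable {α : Type*} [DecidableEq α]

/-- the hypotheses on the family of cylinder masses -/
structure NegFam (c : Finset α → Finset α → ℝ) : Prop where
  cyl : CylFam c
  one : c ∅ ∅ = 1
  n1 : MassN1 c
  n2 : MassN2 c

/-! ### conditional covariances in a state `(I,J)` -/

/-- `c(I,J)² · |Cov(h,g | I,J)|` -/
def cbar (c : Finset α → Finset α → ℝ) (I J : Finset α) (h g : α) : ℝ :=
  c (insert h I) J * c (insert g I) J - c I J * c (insert h (insert g I)) J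

/-- `|Cov(h,g | I,J)|` (`0` if the state has mass `0`) -/
noncomputable def ccov (c : Finset α → Finset α → ℝ) (I J : Finset α) (h g : α) : ℝ :=
  cbar c I J h g / (c I J) ^ 2

/-- `Var(g | I,J)` -/
noncomputable def cvar (c : Finset α → Finset α → ℝ) (I J : Finset α) (g : α) : ℝ :=
  c (insert g I) J * c I (insert g J) / (c I J) ^ 2

/-- `|Cov(g,h | I,J)| / Var(g | I,J)` (`0` if the variance vanishes) -/
noncomputable def cinfl (c : Finset α → Finset α → ℝ) (I J : Finset α) (g h : α) : ℝ :=
  cbar c I J g h / (c (insert g I) J * c I (insert g J))

/-! ### the same, for a configuration `S` read in a context `C` -/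

/-- mass of the configuration `S` read in the context `C` -/
def qm (c : Finset α → Finset α → ℝ) (C S : Finset α) : ℝ := c (C ∩ S) (C \ S)

noncomputable def qcov (c : Finset α → Finset α → ℝ) (C S : Finset α) (h g : α) : ℝ :=
  ccov c (C ∩ S) (C \ S) h g

noncomputable def qvar (c : Finset α → Finset α → ℝ) (C S : Finset α) (g : α) : ℝ :=
  cvar c (C ∩ S) (C \ S) g

noncomputable def qinfl (c : Finset α → Finset α → ℝ) (C S : Finset α) (g h : α) : ℝ :=
  cinfl c (C ∩ S) (C \ S) g h

/-- expectation of `f(X)` for `X` a sample of the law on the finite set `B` -/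
def EX (c : Finset α → Finset α → ℝ) (B : Finset α) (f : Finset α → ℝ) : ℝ :=
  ∑ S ∈ B.powerset, c S (B \ S) * f S

/-! ### sequential runs along a list of sites -/

/-- run the sequential sampler along the list, from the state `(I,J)`, with decision variables `v` -/
noncomputable def runL (c : Finset α → Finset α → ℝ) (v : α → unitInterval) :
    List α → Finset α → Finset α → Finset α × Finset α
  | [], I, J => (I, J)
  | g :: L, I, J =>
      if (v g : ℝ) * c I J < c (insert g I) J then runL c v L (insert g I) J else runL c v L I (insert g J)

/-- probability (over `v`) that the runs along `L` from the two states give different values at `o` -/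
noncomputable def disc (c : Finset α → Finset α → ℝ) (o : α) (L : List α) (I J I' J' : Finset α) : ℝ :=
  ((labelMeasure α) {v | ¬ (o ∈ (runL c v L I J).1 ↔ o ∈ (runL c v L I' J').1)}).toReal

/-- the quenched chain functional: `L` = sites still to be revealed before `o`, `C` = current context,
`h` = the hidden site, `S` = the configuration in which all contexts are read -/
noncomputable def zL (c : Finset α → Finset α → ℝ) (S : Finset α) (o : α) : List α → Finset α → α → ℝ
  | [], C, h => qcov c C S h o
  | g :: L, C, h => zL c S o L (insert g C) h + qinfl c C S g h * zL c S o L C g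

/-! ### label form -/

/-- the context at time `s`: sites of `B` with label `< s`, those outside `W` only if their label is `> θ` -/
noncomputable def ctx (B W : Finset α) (u : α → unitInterval) (θ s : unitInterval) : Finset α :=
  B.filter (fun g => u g < s ∧ (g ∈ W ∨ θ < u g))

/-- hide the sites of `K`: give them the label `1` -/
def hideS (K : Finset α) (u : α → unitInterval) : α → unitInterval := fun g => if g ∈ K then 1 else u g

/-- chains with exactly `r` intermediate sites from the hidden site `h` (hidden since time `t`) to the target
`o` (at time `so`); every chain site is hidden after its jump -/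
noncomputable def Zr (c : Finset α → Finset α → ℝ) (S B W : Finset α) (θ : unitInterval) (o : α)
    (so : unitInterval) : ℕ → α → unitInterval → (α → unitInterval) → ℝ
  | 0, h, _, u => qcov c (ctx B W u θ so) S h o
  | r + 1, h, t, u => ∑ g ∈ B.filter (fun g => t < u g ∧ u g < so),
      qinfl c (ctx B W u θ (u g)) S g h * Zr c S B W θ o so r g (u g) (Function.update u g 1)

/-- weight of the chain `k 0 → k 1 → ⋯ → k (n+1)`; the jump into `k (l+1)` happens at time `s (l+1)`;
`C s'` is the context at time `s'` -/
noncomputable def cwF (c : Finset α → Finset α → ℝ) (S : Finset α) (C : unitInterval → Finset α) :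
    (n : ℕ) → (Fin (n + 2) → α) → (Fin (n + 2) → unitInterval) → ℝ
  | 0, k, s => qcov c (C (s 1)) S (k 0) (k 1)
  | n + 1, k, s => qinfl c (C (s 1)) S (k 1) (k 0) * cwF c S C n (Fin.tail k) (Fin.tail s)

/-- the late sites of `B` -/
noncomputable def late (T : unitInterval) (B : Finset α) (u : α → unitInterval) : Finset α :=
  B.filter (fun g => T < u g)

/-- mass arriving at the site after `j` jumps (times `s 1, …, s j`), starting from mass `1` on the sites outside `W`;
all chain sites in `Λ` -/
noncomputable def wts (c : Finset α → Finset α → ℝ) (S : Finset α) (C : unitInterval → Finset α)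
    (Λ W : Finset α) (s : ℕ → unitInterval) : ℕ → α → ℝ
  | 0, g => if g ∈ W then 0 else 1
  | j + 1, g' => ∑ g ∈ Λ.erase g', qinfl c (C (s (j + 1))) S g' g * wts c S C Λ W s j g

/-- total weight of the chains with `n` intermediate sites ending at `x` at time `s (n+1)` -/
noncomputable def Qsum (c : Finset α → Finset α → ℝ) (S : Finset α) (C : unitInterval → Finset α)
    (Λ W : Finset α) (s : ℕ → unitInterval) (n : ℕ) (x : α) : ℝ :=
  ∑ g ∈ Λ.erase x, wts c S C Λ W s n g * qcov c (C (s (n + 1))) S g x

/-- annealed version -/
noncomputable def Qann (c : Finset α → Finset α → ℝ) (B W : Finset α) (T : unitInterval)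
    (s : ℕ → unitInterval) (n : ℕ) (x : α) : ℝ≥0∞ :=
  ∫⁻ u, (if T < u x then
      ENNReal.ofReal (EX c B (fun S => Qsum c S (ctx B W u (s 0)) (late T B u) W s n x)) else 0)
    ∂(labelMeasure α)

/-- extension of a finite vector of times to a sequence (constant after the last index) -/
def extT {m : ℕ} (s : Fin (m + 1) → unitInterval) : ℕ → unitInterval :=
  fun i => s ⟨min i m, by omega⟩

/-- expected conditional covariance given the sample on `A` -/
noncomputable def Ecov (c : Finset α → Finset α → ℝ) (A : Finset α) (g x : α) : ℝ :=
  EX c A (fun S => qcov c A S g x)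

/-! The auto-generated unfolding / congruence lemmas of the definitions above are realised here, once, so that all the
downstream files share them (independent realisations in two files collide in the kernel checker). -/
theorem realise_core_aux (α : Type*) [DecidableEq α] : True := by
  have := @runL.eq_def α
  have := @runL.eq_1 α
  have := @runL.eq_2 α
  have := @zL.eq_def α
  have := @zL.eq_1 α
  have := @zL.eq_2 α
  have := @zL.congr_simp α
  have := @cwF.eq_def α
  have := @cwF.eq_1 α
  have := @cwF.eq_2 α
  have := @cwF.congr_simp α
  have := @Zr.eq_def α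
  have := @Zr.eq_1 α
  have := @Zr.eq_2 α
  have := @Zr.congr_simp α
  have := @wts.eq_def α
  have := @wts.eq_1 α
  have := @wts.eq_2 α
  have := @wts.congr_simp α
  have := @hideS.eq_1 α
  have := @hideS.congr_simp α
  have := @ctx.eq_1 α
  have := @ctx.congr_simp α
  have := @late.eq_1 α
  have := @late.congr_simp α
  have := @EX.eq_1 α
  have := @EX.congr_simp α
  have := @qm.eq_1 α
  have := @qm.congr_simp α
  have := @qinfl.eq_1 α
  have := @qinfl.congr_simp α
  have := @qcov.eq_1 α
  have := @qcov.congr_simp α
  have := @qvar.eq_1 α
  have := @qvar.congr_simp α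
  have := @Qsum.eq_1 α
  have := @Qsum.congr_simp α
  have := @Qann.eq_1 α
  have := @Qann.congr_simp α
  have := @Ecov.eq_1 α
  have := @Ecov.congr_simp α
  have := @cbar.eq_1 α
  have := @cbar.congr_simp α
  have := @ccov.eq_1 α
  have := @ccov.congr_simp α
  have := @cvar.eq_1 α
  have := @cvar.congr_simp α
  have := @cinfl.eq_1 α
  have := @cinfl.congr_simp α
  have := @disc.eq_1 α
  have := @disc.congr_simp α
  have := @runL.congr_simp α
  trivial

end Crest.Agent.R168
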