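/-
Row 168 CORE, task M1 (measurability toolkit: all our functions of the labels factor through finitely many
finite-set valued maps).  Keep the statements; aux lemmas private.
-/
import Crest.Agent.R168_CoreDefs

set_option autoImplicit false
open MeasureTheory Finset
open scoped ENNReal

namespace Crest.Agent.R168

variable {α : Type*} [DecidableEq α]

private theorem measurableSet_finset_valued_eq {X : Type*} [MeasurableSpace X] (B : Finset α)
    (f : X → Finset α) (hf : ∀ x, f x ⊆ B) (hm : ∀ g, MeasurableSet {x | g ∈ f x}) (A : Finset α)
    (hA : A ⊆ B) : MeasurableSet {x | f x = A} := by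
  have h : {x | f x = A} = ⋂ g ∈ B, {x | g ∈ f x ↔ g ∈ A} := by
    ext x
    simp only [Set.mem_setOf_eq, Set.mem_iInter]
    constructor
    · intro h g _
      rw [h]
    · intro h
      ext g
      by_cases hg : g ∈ B
      · exact h g hg
      · constructor
        · intro h1
          exact absurd (hf x h1) hg
        · intro h1
          exact absurd (hA h1) hg
  rw [h]
  refine Finset.measurableSet_biInter B ?_
  intro g _
  by_cases hg : g ∈ A
  · simpa [hg] using hm g
  · have : {x | g ∈ f x ↔ g ∈ A} = {x | g ∈ f x}ᶜ := by
      ext x
      simp [hg]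
    rw [this]
    exact (hm g).compl

/-- A map into the subsets of a fixed finite set `B` all of whose membership events are measurable takes finitely many
values on measurable pieces; so any function that is measurable for each frozen value is measurable. -/
theorem measurable_of_finset_valued {X β : Type*} [MeasurableSpace X] [MeasurableSpace β] (B : Finset α)
    (f : X → Finset α) (hf : ∀ x, f x ⊆ B) (hm : ∀ g, MeasurableSet {x | g ∈ f x})
    (F : Finset α → X → β) (hF : ∀ A, Measurable (F A)) : Measurable (fun x => F (f x) x) := by
  intro s hs
  have h : (fun x => F (f x) x) ⁻¹' s = ⋃ A ∈ B.powerset, ({x | f x = A} ∩ F A ⁻¹' s) := by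
    ext x
    simp only [Set.mem_preimage, Set.mem_iUnion, Set.mem_inter_iff, Set.mem_setOf_eq, exists_prop,
      Finset.mem_powerset]
    constructor
    · intro hx
      exact ⟨f x, hf x, rfl, hx⟩
    · rintro ⟨A, _, rfl, hx⟩
      exact hx
  rw [h]
  refine Finset.measurableSet_biUnion _ ?_
  intro A hA
  exact (measurableSet_finset_valued_eq B f hf hm A (Finset.mem_powerset.1 hA)).inter (hF A hs)

theorem ctx_subset (B W : Finset α) (u : α → unitInterval) (θ s : unitInterval) : ctx B W u θ s ⊆ B :=
  Finset.filter_subset _ _

theorem late_subset (T : unitInterval) (B : Finset α) (u : α → unitInterval) : late T B u ⊆ B :=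
  Finset.filter_subset _ _

theorem measurableSet_mem_ctx {X : Type*} [MeasurableSpace X] (B W : Finset α) (U : X → α → unitInterval)
    (hU : Measurable U) (θ s : X → unitInterval) (hθ : Measurable θ) (hs : Measurable s) (g : α) :
    MeasurableSet {x | g ∈ ctx B W (U x) (θ x) (s x)} := by
  have hUg : Measurable (fun x => U x g) := (measurable_pi_apply g).comp hU
  have h : {x | g ∈ ctx B W (U x) (θ x) (s x)}
      = {_x : X | g ∈ B} ∩ ({x | U x g < s x} ∩ ({_x : X | g ∈ W} ∪ {x | θ x < U x g})) := by
    ext x
    simp [ctx, Finset.mem_filter]
  rw [h]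
  exact (MeasurableSet.const _).inter ((measurableSet_lt hUg hs).inter
    ((MeasurableSet.const _).union (measurableSet_lt hθ hUg)))

theorem measurableSet_mem_late {X : Type*} [MeasurableSpace X] (T : unitInterval) (B : Finset α)
    (U : X → α → unitInterval) (hU : Measurable U) (g : α) : MeasurableSet {x | g ∈ late T B (U x)} := by
  have hUg : Measurable (fun x => U x g) := (measurable_pi_apply g).comp hU
  have h : {x | g ∈ late T B (U x)} = {_x : X | g ∈ B} ∩ {x | T < U x g} := by
    ext x
    simp [late, Finset.mem_filter]
  rw [h]
  exact (MeasurableSet.const _).inter (measurableSet_lt measurable_const hUg)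

/-- any function of the context alone is measurable -/
private theorem measurable_comp_ctx {X β : Type*} [MeasurableSpace X] [MeasurableSpace β] (B W : Finset α)
    (U : X → α → unitInterval) (hU : Measurable U) (θ s : X → unitInterval) (hθ : Measurable θ)
    (hs : Measurable s) (Φ : Finset α → β) : Measurable (fun x => Φ (ctx B W (U x) (θ x) (s x))) :=
  measurable_of_finset_valued B (fun x => ctx B W (U x) (θ x) (s x)) (fun _ => ctx_subset _ _ _ _ _)
    (measurableSet_mem_ctx B W U hU θ s hθ hs) (fun A _ => Φ A) (fun _ => measurable_const)

/-- induction on `n` (generalising `k s`), `measurable_of_finset_valued` for the context at time `s x 1` -/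
theorem measurable_cwF {X : Type*} [MeasurableSpace X] (c : Finset α → Finset α → ℝ) (S B W : Finset α)
    (U : X → α → unitInterval) (hU : Measurable U) (θ : X → unitInterval) (hθ : Measurable θ) (n : ℕ)
    (k : Fin (n + 2) → α) (s : X → Fin (n + 2) → unitInterval) (hs : Measurable s) :
    Measurable (fun x => cwF c S (ctx B W (U x) (θ x)) n k (s x)) := by
  induction n with
  | zero =>
    have hs1 : Measurable (fun x => s x 1) := (measurable_pi_apply 1).comp hs
    exact measurable_comp_ctx B W U hU θ (fun x => s x 1) hθ hs1 (fun A => qcov c A S (k 0) (k 1))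
  | succ n ih =>
    have hs1 : Measurable (fun x => s x 1) := (measurable_pi_apply 1).comp hs
    have h1 : Measurable (fun x => qinfl c (ctx B W (U x) (θ x) (s x 1)) S (k 1) (k 0)) :=
      measurable_comp_ctx B W U hU θ (fun x => s x 1) hθ hs1 (fun A => qinfl c A S (k 1) (k 0))
    have hst : Measurable (fun x => Fin.tail (s x)) := by
      refine measurable_pi_lambda _ ?_
      intro i
      exact (measurable_pi_apply i.succ).comp hs
    exact h1.mul (ih (Fin.tail k) (fun x => Fin.tail (s x)) hst)

theorem measurable_wts {X : Type*} [MeasurableSpace X] (c : Finset α → Finset α → ℝ) (S B W : Finset α)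
    (T : unitInterval) (U : X → α → unitInterval) (hU : Measurable U) (θ : X → unitInterval) (hθ : Measurable θ)
    (s : X → ℕ → unitInterval) (hs : Measurable s) (j : ℕ) (g : α) :
    Measurable (fun x => wts c S (ctx B W (U x) (θ x)) (late T B (U x)) W (s x) j g) := by
  induction j generalizing g with
  | zero => exact measurable_const
  | succ j ih =>
    have hsj : Measurable (fun x => s x (j + 1)) := (measurable_pi_apply (j + 1)).comp hs
    exact measurable_of_finset_valued B (fun x => late T B (U x)) (fun _ => late_subset _ _ _)
      (measurableSet_mem_late T B U hU)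
      (fun A x => ∑ g' ∈ A.erase g, qinfl c (ctx B W (U x) (θ x) (s x (j + 1))) S g g' *
        wts c S (ctx B W (U x) (θ x)) (late T B (U x)) W (s x) j g')
      (fun A => Finset.measurable_sum _ (fun g' _ =>
        (measurable_comp_ctx B W U hU θ (fun x => s x (j + 1)) hθ hsj
          (fun A => qinfl c A S g g')).mul (ih g')))

theorem measurable_Qsum {X : Type*} [MeasurableSpace X] (c : Finset α → Finset α → ℝ) (S B W : Finset α)
    (T : unitInterval) (U : X → α → unitInterval) (hU : Measurable U) (θ : X → unitInterval) (hθ : Measurable θ)
    (s : X → ℕ → unitInterval) (hs : Measurable s) (n : ℕ) (y : α) :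
    Measurable (fun x => Qsum c S (ctx B W (U x) (θ x)) (late T B (U x)) W (s x) n y) := by
  have hsn : Measurable (fun x => s x (n + 1)) := (measurable_pi_apply (n + 1)).comp hs
  exact measurable_of_finset_valued B (fun x => late T B (U x)) (fun _ => late_subset _ _ _)
    (measurableSet_mem_late T B U hU)
    (fun A x => ∑ g ∈ A.erase y, wts c S (ctx B W (U x) (θ x)) (late T B (U x)) W (s x) n g *
      qcov c (ctx B W (U x) (θ x) (s x (n + 1))) S g y)
    (fun A => Finset.measurable_sum _ (fun g _ =>
      (measurable_wts c S B W T U hU θ hθ s hs n g).mul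
        (measurable_comp_ctx B W U hU θ (fun x => s x (n + 1)) hθ hsn (fun A => qcov c A S g y))))

theorem measurable_extT (m : ℕ) : Measurable (extT : (Fin (m + 1) → unitInterval) → ℕ → unitInterval) := by
  refine measurable_pi_lambda _ ?_
  intro i
  exact measurable_pi_apply _

/-- `u ↦ Ecov c {k ∈ B | u k ≤ T} g x` is measurable -/
theorem measurable_Ecov_early (c : Finset α → Finset α → ℝ) (T : unitInterval) (B : Finset α) (g x : α) :
    Measurable (fun u : α → unitInterval => Ecov c (B.filter (fun k => u k ≤ T)) g x) := by
  refine measurable_of_finset_valued B (fun u : α → unitInterval => B.filter (fun k => u k ≤ T))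
    (fun _ => Finset.filter_subset _ _) ?_ (fun A _ => Ecov c A g x) (fun _ => measurable_const)
  intro k
  have h : {u : α → unitInterval | k ∈ B.filter (fun k => u k ≤ T)}
      = {_u : α → unitInterval | k ∈ B} ∩ {u | u k ≤ T} := by
    ext u
    simp [Finset.mem_filter]
  rw [h]
  exact (MeasurableSet.const _).inter (measurableSet_le (measurable_pi_apply k) measurable_const)

end Crest.Agent.R168
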