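import Mathlib

/-!
Row 168, generic measure lemmas for the CORE (helper55):
* `map_mix`   : resampling the coordinates in a set `K` of an infinite product measure;
* `map_comp_injective` : coordinates selected by an injection are again a product;
* `pi_strictMono_le`, `infinitePi_strictMono_le` : the ordered simplex has mass `≤ 1/n!`.
-/

set_option autoImplicit false
open MeasureTheory

namespace Crest.Agent.R168.Gen

section mix
variable {ι : Type*} {X : ι → Type*} [∀ i, MeasurableSpace (X i)]

/-- take the coordinates in `K` from `a` and the others from `U`. -/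
def mix (K : Set ι) [DecidablePred (· ∈ K)] (a U : Π i, X i) : Π i, X i :=
  fun i => if i ∈ K then a i else U i

theorem measurable_mix (K : Set ι) [DecidablePred (· ∈ K)] :
    Measurable (fun p : (Π i, X i) × (Π i, X i) => mix K p.1 p.2) := by
  refine measurable_pi_iff.mpr fun i => ?_
  by_cases h : i ∈ K
  · have : (fun p : (Π i, X i) × (Π i, X i) => mix K p.1 p.2 i) = fun p => p.1 i := by
      funext p; simp [mix, h]
    rw [this]; exact (measurable_pi_apply i).comp measurable_fst
  · have : (fun p : (Π i, X i) × (Π i, X i) => mix K p.1 p.2 i) = fun p => p.2 i := by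
      funext p; simp [mix, h]
    rw [this]; exact (measurable_pi_apply i).comp measurable_snd

theorem map_mix (μ : Π i, Measure (X i)) [∀ i, IsProbabilityMeasure (μ i)]
    (K : Set ι) [DecidablePred (· ∈ K)] :
    ((Measure.infinitePi μ).prod (Measure.infinitePi μ)).map (fun p => mix K p.1 p.2) =
      Measure.infinitePi μ := by
  classical
  refine Measure.eq_infinitePi μ fun s t ht => ?_
  have hpre : (fun p : (Π i, X i) × (Π i, X i) => mix K p.1 p.2) ⁻¹' (Set.pi (s : Set ι) t) =
      (Set.pi ((s.filter (· ∈ K) : Finset ι) : Set ι) t) ×ˢ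
        (Set.pi ((s.filter (· ∉ K) : Finset ι) : Set ι) t) := by
    ext p
    simp only [Set.mem_preimage, Set.mem_pi, Finset.mem_coe, Set.mem_prod, Finset.mem_filter, mix]
    constructor
    · intro h
      refine ⟨fun i hi => ?_, fun i hi => ?_⟩
      · simpa [hi.2] using h i hi.1
      · simpa [hi.2] using h i hi.1
    · rintro ⟨h1, h2⟩ i hi
      by_cases hK : i ∈ K
      · simpa [hK] using h1 i ⟨hi, hK⟩
      · simpa [hK] using h2 i ⟨hi, hK⟩
  rw [Measure.map_apply (measurable_mix K) (MeasurableSet.pi s.countable_toSet fun i _ => ht i), hpre,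
    Measure.prod_prod, Measure.infinitePi_pi μ (fun i _ => ht i),
    Measure.infinitePi_pi μ (fun i _ => ht i)]
  exact Finset.prod_filter_mul_prod_filter_not s (· ∈ K) fun i => μ i (t i)

/-- resampling, `lintegral` form. -/
theorem lintegral_mix (μ : Π i, Measure (X i)) [∀ i, IsProbabilityMeasure (μ i)]
    (K : Set ι) [DecidablePred (· ∈ K)] {f : (Π i, X i) → ENNReal} (hf : Measurable f) :
    ∫⁻ U, f U ∂(Measure.infinitePi μ) =
      ∫⁻ U, ∫⁻ a, f (mix K a U) ∂(Measure.infinitePi μ) ∂(Measure.infinitePi μ) := by
  conv_lhs => rw [← map_mix μ K]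
  rw [lintegral_map hf (measurable_mix K)]
  exact lintegral_prod_symm (fun p : (Π i, X i) × (Π i, X i) => f (mix K p.1 p.2))
    (hf.comp (measurable_mix K)).aemeasurable

/-- resampling, Bochner form. -/
theorem integral_mix (μ : Π i, Measure (X i)) [∀ i, IsProbabilityMeasure (μ i)]
    (K : Set ι) [DecidablePred (· ∈ K)] {f : (Π i, X i) → ℝ}
    (hf : Integrable f (Measure.infinitePi μ)) :
    ∫ U, f U ∂(Measure.infinitePi μ) =
      ∫ U, ∫ a, f (mix K a U) ∂(Measure.infinitePi μ) ∂(Measure.infinitePi μ) := by
  have hf' : Integrable f (((Measure.infinitePi μ).prod (Measure.infinitePi μ)).map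
      (fun p => mix K p.1 p.2)) := by rw [map_mix μ K]; exact hf
  conv_lhs => rw [← map_mix μ K]
  rw [integral_map (measurable_mix K).aemeasurable hf'.aestronglyMeasurable]
  exact integral_prod_symm (fun p : (Π i, X i) × (Π i, X i) => f (mix K p.1 p.2))
    ((integrable_map_measure hf'.aestronglyMeasurable (measurable_mix K).aemeasurable).mp hf')

/-- independence of the coordinates in `K` and outside `K`, `lintegral` form:
`g` only looks at the coordinates in `K`, `f` only at the others. -/
theorem lintegral_mul_of_mix (μ : Π i, Measure (X i)) [∀ i, IsProbabilityMeasure (μ i)]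
    (K : Set ι) [DecidablePred (· ∈ K)] {f g : (Π i, X i) → ENNReal} (hf : Measurable f)
    (hg : Measurable g) (hf' : ∀ a U, f (mix K a U) = f U) (hg' : ∀ a U, g (mix K a U) = g a) :
    ∫⁻ U, g U * f U ∂(Measure.infinitePi μ) =
      (∫⁻ U, g U ∂(Measure.infinitePi μ)) * ∫⁻ U, f U ∂(Measure.infinitePi μ) := by
  rw [lintegral_mix μ K (f := fun U => g U * f U) (hg.mul hf)]
  simp only [hf', hg']
  simp_rw [lintegral_mul_const _ hg]
  rw [lintegral_const_mul _ hf]

end mix

section inj
variable {ι κ : Type*} {X : Type*} [MeasurableSpace X]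

theorem map_comp_injective (μ : Measure X) [IsProbabilityMeasure μ] {k : κ → ι}
    (hk : Function.Injective k) :
    (Measure.infinitePi (fun _ : ι => μ)).map (fun U : ι → X => U ∘ k) =
      Measure.infinitePi (fun _ : κ => μ) := by
  classical
  refine Measure.eq_infinitePi _ fun s t ht => ?_
  have hm : Measurable (fun U : ι → X => U ∘ k) :=
    measurable_pi_iff.mpr fun j => measurable_pi_apply (k j)
  let t' : ι → Set X := fun i => if h : ∃ j, k j = i then t h.choose else Set.univ
  have ht' : ∀ j, t' (k j) = t j := by
    intro j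
    have h : ∃ j', k j' = k j := ⟨j, rfl⟩
    have : h.choose = j := hk h.choose_spec
    simp only [t', dif_pos h, this]
  have hpre : (fun U : ι → X => U ∘ k) ⁻¹' (Set.pi (s : Set κ) t) =
      Set.pi ((s.image k : Finset ι) : Set ι) t' := by
    ext U
    simp only [Set.mem_preimage, Set.mem_pi, Finset.mem_coe, Finset.mem_image, Function.comp]
    constructor
    · rintro h i ⟨j, hj, rfl⟩
      rw [ht']; exact h j hj
    · intro h j hj
      have := h (k j) ⟨j, hj, rfl⟩
      rwa [ht'] at this
  have hmt' : ∀ i, MeasurableSet (t' i) := by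
    intro i
    by_cases h : ∃ j, k j = i
    · simp only [t', dif_pos h]; exact ht _
    · simp only [t', dif_neg h]; exact MeasurableSet.univ
  rw [Measure.map_apply hm (MeasurableSet.pi s.countable_toSet fun i _ => ht i), hpre,
    Measure.infinitePi_pi _ (fun i _ => hmt' i), Finset.prod_image (fun a _ b _ h => hk h)]
  exact Finset.prod_congr rfl fun j _ => by rw [ht']

end inj

section simplex
variable {α : Type*} [LinearOrder α] [MeasurableSpace α] [TopologicalSpace α]
  [OrderClosedTopology α] [SecondCountableTopology α] [OpensMeasurableSpace α]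

theorem measurableSet_strictMono (n : ℕ) : MeasurableSet {a : Fin n → α | StrictMono a} := by
  have : {a : Fin n → α | StrictMono a} = ⋂ i : Fin n, ⋂ j : Fin n, {a | i < j → a i < a j} := by
    ext a; simp [StrictMono]
  rw [this]
  refine MeasurableSet.iInter fun i => MeasurableSet.iInter fun j => ?_
  by_cases h : i < j
  · simpa [h] using measurableSet_lt (measurable_pi_apply i) (measurable_pi_apply j)
  · simp [h]

theorem pi_strictMono_le (μ : Measure α) [IsProbabilityMeasure μ] (n : ℕ) :
    (n.factorial : ENNReal) * (Measure.pi fun _ : Fin n => μ) {a | StrictMono a} ≤ 1 := by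
  classical
  set P := Measure.pi fun _ : Fin n => μ with hP
  let S : Equiv.Perm (Fin n) → Set (Fin n → α) := fun σ => {a | StrictMono (a ∘ σ)}
  have hmp : ∀ σ : Equiv.Perm (Fin n), MeasurePreserving (fun a : Fin n → α => a ∘ σ) P P := by
    intro σ
    have := measurePreserving_piCongrLeft (fun _ : Fin n => μ) σ.symm
    convert this using 1
    ext a i
    simp [MeasurableEquiv.piCongrLeft, Equiv.piCongrLeft_apply]
  have hS : ∀ σ, P (S σ) = P {a | StrictMono a} := by
    intro σ
    exact (hmp σ).measure_preimage (measurableSet_strictMono n).nullMeasurableSet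
  have hSm : ∀ σ, MeasurableSet (S σ) := fun σ =>
    (hmp σ).measurable (measurableSet_strictMono n)
  have hdisj : Pairwise (Function.onFun Disjoint S) := by
    intro σ τ hne
    refine Set.disjoint_left.mpr fun a h1 h2 => hne ?_
    have hr : Set.range (a ∘ σ) = Set.range (a ∘ τ) := by
      rw [Set.range_comp, Set.range_comp, σ.surjective.range_eq, τ.surjective.range_eq]
    have heq : a ∘ σ = a ∘ τ := by
      have := StrictMono.range_inj h1 h2
      exact this.mp hr
    have hinj : Function.Injective a := by
      have : Function.Injective (a ∘ σ) := h1.injective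
      intro x y hxy
      have := @this (σ.symm x) (σ.symm y) (by simpa using hxy)
      simpa using congrArg σ this
    ext i
    exact congrArg _ (hinj (congrFun heq i))
  have hsum : ∑ σ : Equiv.Perm (Fin n), P (S σ) ≤ 1 := by
    rw [← measure_biUnion_finset (fun σ _ τ _ h => hdisj h) (fun σ _ => hSm σ)]
    exact prob_le_one
  simpa [hS, Finset.card_univ, Fintype.card_perm] using hsum

theorem infinitePi_strictMono_le {ι : Type*} (μ : Measure α) [IsProbabilityMeasure μ] {n : ℕ}
    {k : Fin n → ι} (hk : Function.Injective k) :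
    (n.factorial : ENNReal) * (Measure.infinitePi fun _ : ι => μ) {U | StrictMono (U ∘ k)} ≤ 1 := by
  have hm : Measurable (fun U : ι → α => U ∘ k) :=
    measurable_pi_iff.mpr fun j => measurable_pi_apply (k j)
  have := pi_strictMono_le μ n
  rw [← Measure.infinitePi_eq_pi, ← map_comp_injective μ hk,
    Measure.map_apply hm (measurableSet_strictMono n)] at this
  exact this

end simplex

end Crest.Agent.R168.Gen
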