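/-
Row 168 CORE, task A1 (resampling lemmas for the i.i.d. label measure).  Keep the statements; aux lemmas private.
-/
import Crest.Agent.R168_CoreDefs
import Crest.Agent.R168_X_Generic

set_option autoImplicit false
open MeasureTheory Finset
open Crest.ProbabilityR.Labels
open scoped ENNReal

namespace Crest.Agent.R168

variable {α : Type*} [DecidableEq α]

instance labelMeasure_isProb : IsProbabilityMeasure (labelMeasure α) := by
  unfold labelMeasure; infer_instance

private theorem measurable_update_pair (g : α) :
    Measurable (fun p : (α → unitInterval) × unitInterval => Function.update p.1 g p.2) := by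
  refine measurable_pi_iff.mpr fun i => ?_
  by_cases h : i = g
  · subst h
    simpa using measurable_snd
  · have : (fun p : (α → unitInterval) × unitInterval => Function.update p.1 g p.2 i)
        = fun p => p.1 i := by
      funext p; simp [Function.update_of_ne h]
    rw [this]; exact (measurable_pi_apply i).comp measurable_fst

omit [DecidableEq α] in
private theorem lintegral_eval (g : α) (G : unitInterval → ℝ≥0∞) (hG : Measurable G) :
    ∫⁻ a, G (a g) ∂(labelMeasure α) = ∫⁻ s, G s ∂(volume : Measure unitInterval) := by
  have h := Measure.infinitePi_map_eval (fun _ : α => (volume : Measure unitInterval)) g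
  rw [← h, lintegral_map hG (measurable_pi_apply g)]
  rfl

/-- Resampling one coordinate.  Proof: the map `(u,s) ↦ update u g s` pushes `P.prod volume` to `P`
(`Measure.eq_infinitePi`: check on boxes), then `lintegral_map`, `lintegral_prod`. -/
theorem lintegral_update (g : α) (F : (α → unitInterval) → ℝ≥0∞) (hF : Measurable F) :
    ∫⁻ u, F u ∂(labelMeasure α)
      = ∫⁻ u, ∫⁻ s, F (Function.update u g s) ∂(volume : Measure unitInterval) ∂(labelMeasure α) := by
  have h := Gen.lintegral_mix (fun _ : α => (volume : Measure unitInterval)) ({g} : Set α) hF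
  have hmix : ∀ a U : α → unitInterval, Gen.mix ({g} : Set α) a U = Function.update U g (a g) := by
    intro a U
    funext i
    by_cases hi : i = g
    · subst hi; simp [Gen.mix]
    · simp [Gen.mix, hi]
  simp only [hmix] at h
  unfold labelMeasure
  rw [h]
  refine lintegral_congr fun U => ?_
  exact lintegral_eval g (fun s => F (Function.update U g s))
    (hF.comp ((measurable_update_pair g).comp (measurable_const.prodMk measurable_id)))

/-- same, with the integrals in the other order -/
theorem lintegral_update' (g : α) (F : (α → unitInterval) → ℝ≥0∞) (hF : Measurable F) :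
    ∫⁻ u, F u ∂(labelMeasure α)
      = ∫⁻ s, ∫⁻ u, F (Function.update u g s) ∂(labelMeasure α) ∂(volume : Measure unitInterval) := by
  rw [lintegral_update g F hF]
  exact lintegral_lintegral_swap
    (f := fun (u : α → unitInterval) (s : unitInterval) => F (Function.update u g s))
    (hF.comp (measurable_update_pair g)).aemeasurable

/-- measure form -/
theorem measure_update (g : α) (E : Set (α → unitInterval)) (hE : MeasurableSet E) :
    (labelMeasure α) E
      = ∫⁻ s, (labelMeasure α) {v | Function.update v g s ∈ E} ∂(volume : Measure unitInterval) := by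
  rw [← lintegral_indicator_one hE, lintegral_update' g _ (measurable_one.indicator hE)]
  refine lintegral_congr fun s => ?_
  have hm : MeasurableSet {v : α → unitInterval | Function.update v g s ∈ E} :=
    ((measurable_update_pair g).comp (measurable_id.prodMk measurable_const)) hE
  rw [← lintegral_indicator_one hm]
  rfl

theorem measurable_hideS (K : Finset α) : Measurable (hideS K : (α → unitInterval) → α → unitInterval) := by
  refine measurable_pi_iff.mpr fun i => ?_
  by_cases h : i ∈ K
  · have : (fun u : α → unitInterval => hideS K u i) = fun _ => 1 := by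
      funext u; simp [hideS, h]
    rw [this]; exact measurable_const
  · have : (fun u : α → unitInterval => hideS K u i) = fun u => u i := by
      funext u; simp [hideS, h]
    rw [this]; exact measurable_pi_apply i

/-- The coordinates `k i` are independent of all the others (and i.i.d. uniform).  Proof: the map
`(s,u) ↦ fun g => if g = k i then s i else u g` pushes `volume.prod P` to `P`; or induction on `n` with
`lintegral_update`. -/
theorem lintegral_resample {n : ℕ} (k : Fin n → α) (hk : Function.Injective k)
    (F : (Fin n → unitInterval) × (α → unitInterval) → ℝ≥0∞) (hF : Measurable F) :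
    ∫⁻ u, F (u ∘ k, hideS (univ.image k) u) ∂(labelMeasure α)
      = ∫⁻ s, ∫⁻ u, F (s, hideS (univ.image k) u) ∂(labelMeasure α) ∂(volume : Measure (Fin n → unitInterval)) := by
  set K : Finset α := univ.image k with hK
  have hcomp : Measurable (fun u : α → unitInterval => u ∘ k) :=
    measurable_pi_iff.mpr fun j => measurable_pi_apply (k j)
  have hf : Measurable (fun u : α → unitInterval => F (u ∘ k, hideS K u)) :=
    hF.comp (hcomp.prodMk (measurable_hideS K))
  have h := Gen.lintegral_mix (fun _ : α => (volume : Measure unitInterval)) (K : Set α) hf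
  have h1 : ∀ a U : α → unitInterval, (Gen.mix (K : Set α) a U) ∘ k = a ∘ k := by
    intro a U; funext j
    have : k j ∈ K := by rw [hK]; exact mem_image_of_mem k (mem_univ j)
    simp [Gen.mix, this]
  have h2 : ∀ a U : α → unitInterval, hideS K (Gen.mix (K : Set α) a U) = hideS K U := by
    intro a U; funext i
    by_cases hi : i ∈ K
    · simp [hideS, hi]
    · simp [hideS, Gen.mix, hi]
  simp only [h1, h2] at h
  have hvol : (volume : Measure (Fin n → unitInterval))
      = (labelMeasure α).map (fun u : α → unitInterval => u ∘ k) := by
    unfold labelMeasure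
    rw [Gen.map_comp_injective _ hk, Measure.infinitePi_eq_pi]
    rfl
  have h3 : ∀ U : α → unitInterval,
      ∫⁻ a, F (a ∘ k, hideS K U) ∂(labelMeasure α)
        = ∫⁻ s, F (s, hideS K U) ∂(volume : Measure (Fin n → unitInterval)) := by
    intro U
    rw [hvol]
    exact (lintegral_map (f := fun s : Fin n → unitInterval => F (s, hideS K U))
      (hF.comp (measurable_id.prodMk measurable_const)) hcomp).symm
  calc ∫⁻ u, F (u ∘ k, hideS K u) ∂(labelMeasure α)
      = ∫⁻ U, ∫⁻ a, F (a ∘ k, hideS K U) ∂(labelMeasure α) ∂(labelMeasure α) := h
    _ = ∫⁻ U, ∫⁻ s, F (s, hideS K U) ∂(volume : Measure (Fin n → unitInterval)) ∂(labelMeasure α) :=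
        lintegral_congr h3
    _ = _ := by
        refine lintegral_lintegral_swap
          (f := fun (U : α → unitInterval) (s : Fin n → unitInterval) => F (s, hideS K U)) ?_
        exact (hF.comp (measurable_snd.prodMk ((measurable_hideS K).comp measurable_fst))).aemeasurable

theorem volume_Ioi_unitInterval (T : unitInterval) :
    (volume : Measure unitInterval) {x | T < x} = ENNReal.ofReal (1 - (T : ℝ)) :=
  unitInterval.volume_Ioi T

theorem volume_Iic_unitInterval (T : unitInterval) :
    (volume : Measure unitInterval) {x | x ≤ T} = ENNReal.ofReal (T : ℝ) :=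
  unitInterval.volume_Iic T

theorem measure_late (T : unitInterval) (x : α) :
    (labelMeasure α) {u | T < u x} = ENNReal.ofReal (1 - (T : ℝ)) := by
  have h := Measure.infinitePi_map_eval (fun _ : α => (volume : Measure unitInterval)) x
  have hm : MeasurableSet {y : unitInterval | T < y} := measurableSet_Ioi
  rw [← volume_Ioi_unitInterval T, ← h, Measure.map_apply (measurable_pi_apply x) hm]
  rfl

/-- from `lintegral_resample` with `F (s,u') = 1{∀ i, T < s i} * H u'` -/
theorem lintegral_late {n : ℕ} (k : Fin n → α) (hk : Function.Injective k) (T : unitInterval)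
    (H : (α → unitInterval) → ℝ≥0∞) (hH : Measurable H) :
    ∫⁻ u, (if ∀ i, T < u (k i) then H (hideS (univ.image k) u) else 0) ∂(labelMeasure α)
      = ENNReal.ofReal ((1 - (T : ℝ)) ^ n) * ∫⁻ u, H (hideS (univ.image k) u) ∂(labelMeasure α) := by
  classical
  have hS : MeasurableSet {s : Fin n → unitInterval | ∀ i, T < s i} := by
    have : {s : Fin n → unitInterval | ∀ i, T < s i} = Set.pi Set.univ (fun _ => Set.Ioi T) := by
      ext s; simp
    rw [this]; exact MeasurableSet.univ_pi fun _ => measurableSet_Ioi
  have hvS : (volume : Measure (Fin n → unitInterval)) {s | ∀ i, T < s i}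
      = ENNReal.ofReal ((1 - (T : ℝ)) ^ n) := by
    have : {s : Fin n → unitInterval | ∀ i, T < s i} = Set.pi Set.univ (fun _ => Set.Ioi T) := by
      ext s; simp
    rw [this, volume_pi, Measure.pi_pi]
    simp only [unitInterval.volume_Ioi, prod_const, card_univ, Fintype.card_fin]
    rw [ENNReal.ofReal_pow (sub_nonneg.mpr T.2.2)]
  let F : (Fin n → unitInterval) × (α → unitInterval) → ℝ≥0∞ :=
    fun p => if ∀ i, T < p.1 i then H p.2 else 0
  have hF : Measurable F :=
    Measurable.ite (measurable_fst hS) (hH.comp measurable_snd) measurable_const
  have h := lintegral_resample k hk F hF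
  have e1 : ∀ u : α → unitInterval, F (u ∘ k, hideS (univ.image k) u)
      = if ∀ i, T < u (k i) then H (hideS (univ.image k) u) else 0 := fun u => rfl
  simp only [e1] at h
  rw [h]
  set c : ℝ≥0∞ := ∫⁻ u, H (hideS (univ.image k) u) ∂(labelMeasure α) with hc
  have e2 : ∀ s : Fin n → unitInterval, ∫⁻ u, F (s, hideS (univ.image k) u) ∂(labelMeasure α)
      = Set.indicator {s : Fin n → unitInterval | ∀ i, T < s i} (fun _ => c) s := by
    intro s
    by_cases hs : ∀ i, T < s i
    · have : s ∈ {s : Fin n → unitInterval | ∀ i, T < s i} := hs
      rw [Set.indicator_of_mem this]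
      simp only [F, hs, implies_true, if_true, hc]
    · have : s ∉ {s : Fin n → unitInterval | ∀ i, T < s i} := hs
      rw [Set.indicator_of_notMem this]
      simp only [F, hs, if_false, lintegral_zero]
  simp only [e2]
  rw [lintegral_indicator_const hS, hvS, mul_comm]

/-- ties have probability `0` -/
theorem measure_tie {g h : α} (hgh : g ≠ h) : (labelMeasure α) {u | u g = u h} = 0 := by
  have hE : MeasurableSet {u : α → unitInterval | u g = u h} :=
    measurableSet_eq_fun (measurable_pi_apply g) (measurable_pi_apply h)
  rw [measure_update g _ hE]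
  have : ∀ s : unitInterval,
      (labelMeasure α) {v : α → unitInterval | Function.update v g s ∈ {u : α → unitInterval | u g = u h}} = 0 := by
    intro s
    have e : {v : α → unitInterval | Function.update v g s ∈ {u : α → unitInterval | u g = u h}}
        = (fun v : α → unitInterval => v h) ⁻¹' {s} := by
      ext v
      simp [Function.update_of_ne hgh.symm, eq_comm]
    have hm := Measure.infinitePi_map_eval (fun _ : α => (volume : Measure unitInterval)) h
    have : (labelMeasure α) ((fun v : α → unitInterval => v h) ⁻¹' {s})
        = (volume : Measure unitInterval) {s} := by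
      rw [← hm, Measure.map_apply (measurable_pi_apply h) (measurableSet_singleton s)]
      rfl
    rw [e, this]
    exact measure_singleton s
  rw [lintegral_congr this]
  exact lintegral_zero

theorem ae_injOn (B : Finset α) : ∀ᵐ u ∂(labelMeasure α), Set.InjOn u (B : Set α) := by
  have h : ∀ p ∈ (B ×ˢ B).filter (fun p => p.1 ≠ p.2),
      ∀ᵐ u ∂(labelMeasure α), u p.1 ≠ u p.2 := by
    intro p hp
    have hne : p.1 ≠ p.2 := (mem_filter.mp hp).2
    have := measure_tie (α := α) hne
    rw [ae_iff]
    simpa using this
  have h' := (ae_ball_iff ((B ×ˢ B).filter (fun p => p.1 ≠ p.2)).countable_toSet).mpr h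
  filter_upwards [h'] with u hu
  intro a ha b hb hab
  by_contra hne
  exact hu (a, b) (by simp [mem_coe.mp ha, mem_coe.mp hb, hne]) hab

end Crest.Agent.R168
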