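/-
Row 168 CORE, task C2 (unfolding `Zr` into a sum over tuples of chain sites).  Keep the final statement; aux private.
Pure combinatorics, only unfolds definitions of `R168_CoreDefs`.
-/
import Crest.Agent.R168_CoreDefs

set_option autoImplicit false
open Finset

namespace Crest.Agent.R168

variable {α : Type*} [DecidableEq α]

/-- `cwF` only uses the contexts at the times `s i`, `i ≥ 1` -/
theorem cwF_congr (c : Finset α → Finset α → ℝ) (S : Finset α) {C C' : unitInterval → Finset α} (n : ℕ)
    (k : Fin (n + 2) → α) (s : Fin (n + 2) → unitInterval) (h : ∀ i : Fin (n + 2), i ≠ 0 → C (s i) = C' (s i)) :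
    cwF c S C n k s = cwF c S C' n k s := by
  induction n with
  | zero =>
    simp only [cwF]
    rw [h 1 (by decide)]
  | succ n ih =>
    simp only [cwF]
    rw [h 1 (by simp), ih (Fin.tail k) (Fin.tail s) (fun i _ => h i.succ (Fin.succ_ne_zero i))]

/-- Hiding sites whose label is `≥ s` does not change the context at time `s`. -/
theorem ctx_hideS (B W K : Finset α) (u : α → unitInterval) (θ s : unitInterval) (hK : ∀ g ∈ K, s ≤ u g) :
    ctx B W (hideS K u) θ s = ctx B W u θ s := by
  unfold ctx
  refine Finset.filter_congr fun g _ => ?_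
  by_cases hg : g ∈ K
  · have h1 : ¬ (hideS K u g < s) := by
      simp only [hideS, hg, if_true]
      exact not_lt_of_ge (unitInterval.le_one s)
    have h2 : ¬ (u g < s) := not_lt_of_ge (hK g hg)
    simp [h1, h2]
  · simp [hideS, hg]

omit [DecidableEq α] in
private theorem sum_piFinset_succ {n : ℕ} (B : Finset α) (f : (Fin (n + 1) → α) → ℝ) :
    ∑ k ∈ Fintype.piFinset (fun _ : Fin (n + 1) => B), f k
      = ∑ x ∈ B, ∑ k' ∈ Fintype.piFinset (fun _ : Fin n => B), f (Fin.cons x k') := by
  rw [← Finset.sum_product']
  refine Finset.sum_bij' (fun k _ => (k 0, Fin.tail k)) (fun p _ => Fin.cons p.1 p.2) ?_ ?_ ?_ ?_ ?_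
  · intro k hk
    rw [Fintype.mem_piFinset] at hk
    rw [Finset.mem_product, Fintype.mem_piFinset]
    exact ⟨hk 0, fun i => hk i.succ⟩
  · intro p hp
    rw [Finset.mem_product, Fintype.mem_piFinset] at hp
    rw [Fintype.mem_piFinset]
    intro i
    refine Fin.cases ?_ (fun j => ?_) i
    · simpa using hp.1
    · simpa using hp.2 j
  · intro k _
    exact Fin.cons_self_tail k
  · intro p _
    simp
  · intro k _
    simp [Fin.cons_self_tail]

private theorem hideS_union (K K2 : Finset α) (u : α → unitInterval) :
    hideS (K ∪ K2) u = hideS K2 (hideS K u) := by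
  funext g
  by_cases h1 : g ∈ K <;> by_cases h2 : g ∈ K2 <;> simp [hideS, h1, h2]

private theorem update_hideS (K : Finset α) (u : α → unitInterval) (g : α) :
    Function.update (hideS K u) g 1 = hideS (insert g K) u := by
  funext x
  by_cases hx : x = g
  · subst hx; simp [hideS]
  · simp [hideS, hx]

private theorem image_cons {n : ℕ} (h : α) (k : Fin n → α) :
    (univ.image (Fin.cons h k : Fin (n + 1) → α)) = insert h (univ.image k) := by
  ext x
  simp only [mem_image, mem_univ, true_and, mem_insert, Fin.exists_fin_succ, Fin.cons_zero,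
    Fin.cons_succ]
  constructor
  · rintro (h1 | h1)
    · exact Or.inl h1.symm
    · exact Or.inr h1
  · rintro (h1 | h1)
    · exact Or.inl h1.symm
    · exact Or.inr h1

private theorem Zr_general (c : Finset α → Finset α → ℝ) (S B W : Finset α) (θ : unitInterval) (o : α)
    (u : α → unitInterval) (ho : o ∈ B) (r : ℕ) :
    ∀ (h : α) (K : Finset α), h ∈ B → h ∈ K → o ∈ K → (∀ x ∈ K, x ≠ o → u x ≤ u h) → u h < u o →
      Zr c S B W θ o (u o) r h (u h) (hideS K u)
        = ∑ k ∈ Fintype.piFinset (fun _ : Fin (r + 2) => B),
            if k 0 = h ∧ k (Fin.last (r + 1)) = o ∧ StrictMono (u ∘ k) then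
              cwF c S (ctx B W (hideS (K ∪ univ.image k) u) θ) r k (u ∘ k) else 0 := by
  induction r with
  | zero =>
    intro h K hB hK hoK _ hlt
    rw [Finset.sum_eq_single (![h, o] : Fin 2 → α)]
    · have hsm : StrictMono (u ∘ ![h, o]) := by
        intro i j hij
        fin_cases i <;> fin_cases j <;> simp_all
      have hc : (![h, o] : Fin 2 → α) 0 = h ∧ (![h, o] : Fin 2 → α) (Fin.last (0 + 1)) = o ∧
          StrictMono (u ∘ ![h, o]) := ⟨rfl, rfl, hsm⟩
      rw [if_pos hc]
      have hKK : K ∪ univ.image (![h, o] : Fin 2 → α) = K := by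
        apply Finset.union_eq_left.mpr
        intro x hx
        simp only [mem_image, mem_univ, true_and] at hx
        obtain ⟨i, rfl⟩ := hx
        fin_cases i
        · exact hK
        · exact hoK
      rw [hKK]
      simp [cwF, Zr]
    · intro k _ hne
      rw [if_neg]
      rintro ⟨h0, h1, -⟩
      apply hne
      funext i
      fin_cases i
      · exact h0
      · exact h1
    · intro hn
      refine absurd (Fintype.mem_piFinset.mpr fun i => ?_) hn
      fin_cases i
      · exact hB
      · exact ho
  | succ r ih =>
    intro h K hB hK hoK hle hlt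
    rw [sum_piFinset_succ, Finset.sum_eq_single h]
    rotate_left
    · intro x _ hx
      apply Finset.sum_eq_zero
      intro k' _
      rw [if_neg]
      rintro ⟨h0, -⟩
      exact hx (by simpa using h0)
    · intro hn; exact absurd hB hn
    simp only [Zr]
    have key : ∀ g ∈ B.filter (fun g => u h < hideS K u g ∧ hideS K u g < u o),
        qinfl c (ctx B W (hideS K u) θ (hideS K u g)) S g h *
            Zr c S B W θ o (u o) r g (hideS K u g) (Function.update (hideS K u) g 1)
          = ∑ k' ∈ Fintype.piFinset (fun _ : Fin (r + 2) => B), if k' 0 = g then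
              (if k' (Fin.last (r + 1)) = o ∧ StrictMono (u ∘ k') then
                qinfl c (ctx B W (hideS K u) θ (u g)) S g h *
                  cwF c S (ctx B W (hideS (insert g K ∪ univ.image k') u) θ) r k' (u ∘ k') else 0)
              else 0 := by
      intro g hg
      rw [mem_filter] at hg
      obtain ⟨hgB, hg1, hg2⟩ := hg
      have hgK : g ∉ K := by
        intro hgK
        simp only [hideS, hgK, if_true] at hg2
        exact absurd hg2 (not_lt_of_ge (unitInterval.le_one _))
      have hgu : hideS K u g = u g := by simp [hideS, hgK]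
      rw [hgu] at hg1 hg2 ⊢
      rw [update_hideS, ih g (insert g K) hgB (mem_insert_self g K) (mem_insert_of_mem hoK) ?_ hg2,
        Finset.mul_sum]
      · refine Finset.sum_congr rfl fun k' _ => ?_
        by_cases h0 : k' 0 = g
        · by_cases h1 : k' (Fin.last (r + 1)) = o ∧ StrictMono (u ∘ k')
          · rw [if_pos ⟨h0, h1⟩, if_pos h0, if_pos h1]
          · rw [if_neg (fun hh => h1 hh.2), if_pos h0, if_neg h1, mul_zero]
        · rw [if_neg (fun hh => h0 hh.1), if_neg h0, mul_zero]
      · intro x hx hxo
        rcases mem_insert.mp hx with rfl | hxK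
        · exact le_rfl
        · exact (hle x hxK hxo).trans hg1.le
    rw [Finset.sum_congr rfl key, Finset.sum_comm]
    refine Finset.sum_congr rfl fun k' hk' => ?_
    rw [Finset.sum_ite_eq]
    rw [Fintype.mem_piFinset] at hk'
    by_cases hA : k' (Fin.last (r + 1)) = o ∧ StrictMono (u ∘ k') ∧ u h < u (k' 0)
    · obtain ⟨hl, hsm, h0⟩ := hA
      have h0l : u (k' 0) < u o := by
        have := hsm (show (0 : Fin (r + 2)) < Fin.last (r + 1) from Fin.pos_iff_ne_zero.mpr (by simp))
        simpa [hl] using this
      have hmono : ∀ j, u (k' 0) ≤ u (k' j) := fun j => hsm.monotone (Fin.zero_le j)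
      have hgK : k' 0 ∉ K := by
        intro hgK
        by_cases hgo : k' 0 = o
        · rw [hgo] at h0l; exact lt_irrefl _ h0l
        · exact absurd h0 (not_lt_of_ge (hle _ hgK hgo))
      have hgu : hideS K u (k' 0) = u (k' 0) := by simp [hideS, hgK]
      have hmem : k' 0 ∈ B.filter (fun g => u h < hideS K u g ∧ hideS K u g < u o) := by
        rw [mem_filter, hgu]; exact ⟨hk' 0, h0, h0l⟩
      have hsm' : StrictMono (u ∘ (Fin.cons h k' : Fin (r + 1 + 2) → α)) := by
        rw [Fin.comp_cons, Fin.strictMono_cons]
        exact ⟨fun j => lt_of_lt_of_le h0 (hmono j), hsm⟩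
      have hlast : (Fin.cons h k' : Fin (r + 1 + 2) → α) (Fin.last (r + 1 + 1)) = o := by
        rw [← Fin.succ_last, Fin.cons_succ]; exact hl
      rw [if_pos hmem, if_pos ⟨hl, hsm⟩, if_pos ⟨Fin.cons_zero _ _, hlast, hsm'⟩]
      have hset1 : insert (k' 0) K ∪ univ.image k' = K ∪ univ.image k' := by
        ext x
        simp only [mem_union, mem_insert, mem_image, mem_univ, true_and]
        constructor
        · rintro ((rfl | hx) | hx)
          · exact Or.inr ⟨0, rfl⟩
          · exact Or.inl hx
          · exact Or.inr hx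
        · rintro (hx | hx)
          · exact Or.inl (Or.inr hx)
          · exact Or.inr hx
      have hset2 : K ∪ univ.image (Fin.cons h k' : Fin (r + 1 + 2) → α) = K ∪ univ.image k' := by
        rw [image_cons]
        ext x
        simp only [mem_union, mem_insert, mem_image, mem_univ, true_and]
        constructor
        · rintro (hx | (rfl | hx))
          · exact Or.inl hx
          · exact Or.inl hK
          · exact Or.inr hx
        · rintro (hx | hx)
          · exact Or.inl hx
          · exact Or.inr (Or.inr hx)
      rw [hset1, hset2]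
      simp only [cwF]
      have e1 : (Fin.cons h k' : Fin (r + 1 + 2) → α) 1 = k' 0 := by
        rw [← Fin.succ_zero_eq_one, Fin.cons_succ]
      have e2 : (u ∘ (Fin.cons h k' : Fin (r + 1 + 2) → α)) 1 = u (k' 0) := by
        simp only [Function.comp, e1]
      have e3 : Fin.tail (u ∘ (Fin.cons h k' : Fin (r + 1 + 2) → α)) = u ∘ k' := by
        rw [← Fin.comp_tail, Fin.tail_cons]
      rw [e1, e2, e3, Fin.cons_zero, Fin.tail_cons]
      have hctx : ctx B W (hideS (K ∪ univ.image k') u) θ (u (k' 0))
          = ctx B W (hideS K u) θ (u (k' 0)) := by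
        rw [hideS_union]
        refine ctx_hideS B W _ (hideS K u) θ _ fun x hx => ?_
        simp only [mem_image, mem_univ, true_and] at hx
        obtain ⟨j, rfl⟩ := hx
        by_cases hj : k' j ∈ K
        · simp only [hideS, hj, if_true]; exact unitInterval.le_one _
        · simp only [hideS, hj, if_false]; exact hmono j
      rw [hctx]
    · have hL : ¬ (k' 0 ∈ B.filter (fun g => u h < hideS K u g ∧ hideS K u g < u o) ∧
          (k' (Fin.last (r + 1)) = o ∧ StrictMono (u ∘ k'))) := by
        rintro ⟨hm, hl, hsm⟩
        rw [mem_filter] at hm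
        obtain ⟨_, hg1, hg2⟩ := hm
        have hgK : k' 0 ∉ K := by
          intro hgK
          simp only [hideS, hgK, if_true] at hg2
          exact absurd hg2 (not_lt_of_ge (unitInterval.le_one _))
        have hgu : hideS K u (k' 0) = u (k' 0) := by simp [hideS, hgK]
        rw [hgu] at hg1
        exact hA ⟨hl, hsm, hg1⟩
      have hR : ¬ ((Fin.cons h k' : Fin (r + 1 + 2) → α) 0 = h ∧
          (Fin.cons h k' : Fin (r + 1 + 2) → α) (Fin.last (r + 1 + 1)) = o ∧
          StrictMono (u ∘ (Fin.cons h k' : Fin (r + 1 + 2) → α))) := by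
        rintro ⟨-, hl, hsm⟩
        rw [← Fin.succ_last, Fin.cons_succ] at hl
        rw [Fin.comp_cons, Fin.strictMono_cons] at hsm
        exact hA ⟨hl, hsm.2, hsm.1 0⟩
      rw [if_neg hR]
      by_cases hm : k' 0 ∈ B.filter (fun g => u h < hideS K u g ∧ hideS K u g < u o)
      · rw [if_pos hm, if_neg (fun hh => hL ⟨hm, hh⟩)]
      · rw [if_neg hm]

/-- **Chain expansion.**  Suggested route: prove by induction on `r`, for all `h t u'` (`u'` = current labels),
`Zr c S B W θ o so r h t u' = ∑ k ∈ piFinset (fun _ : Fin r => B), if StrictMono (u' ∘ k) ∧ ∀ i, t < u' (k i) ∧ u' (k i) < so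
  then G r h k else 0` where `G` is the analogue of `cwF` with explicit first site `h` and last site/time `(o, so)` and the
contexts `ctx B W (hideS (univ.image k) u') θ`  (peel `k 0` with `Fin.cons`/`Fin.consEquiv`, `Fintype.piFinset`; the
contexts agree by `ctx_hideS`: at the time `u' (k i)` the sites `k j`, `j ≥ i`, have labels `≥ u' (k i)`, and the sites
`k j`, `j < i`, are hidden on both sides); then repackage `(b, k, o)` as one tuple `Fin (r+2) → α`. -/
theorem Zr_eq_sum_tuples (c : Finset α → Finset α → ℝ) (S B W : Finset α) (u : α → unitInterval) (b o : α)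
    (hb : b ∈ B) (ho : o ∈ B) (hbo : u b < u o) (r : ℕ) :
    Zr c S B W (u b) o (u o) r b (u b) (Function.update (Function.update u b 1) o 1)
      = ∑ k ∈ Fintype.piFinset (fun _ : Fin (r + 2) => B),
          if k 0 = b ∧ k (Fin.last (r + 1)) = o ∧ StrictMono (u ∘ k) then
            cwF c S (ctx B W (hideS (univ.image k) u) (u b)) r k (u ∘ k) else 0 := by
  have hu : Function.update (Function.update u b 1) o 1 = hideS {o, b} u := by
    have h0 : u = hideS ∅ u := by funext x; simp [hideS]
    conv_lhs => rw [h0]
    rw [update_hideS, update_hideS]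
    rfl
  rw [hu, Zr_general c S B W (u b) o u ho r b {o, b} hb (by simp) (by simp) ?_ hbo]
  · refine Finset.sum_congr rfl fun k _ => ?_
    by_cases hc : k 0 = b ∧ k (Fin.last (r + 1)) = o ∧ StrictMono (u ∘ k)
    · rw [if_pos hc, if_pos hc]
      have : ({o, b} : Finset α) ∪ univ.image k = univ.image k := by
        apply Finset.union_eq_right.mpr
        intro x hx
        simp only [mem_insert, mem_singleton] at hx
        rcases hx with rfl | rfl
        · exact mem_image.mpr ⟨Fin.last (r + 1), mem_univ _, hc.2.1⟩
        · exact mem_image.mpr ⟨0, mem_univ _, hc.1⟩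
      rw [this]
    · rw [if_neg hc, if_neg hc]
  · intro x hx hxo
    simp only [mem_insert, mem_singleton] at hx
    rcases hx with rfl | rfl
    · exact absurd rfl hxo
    · exact le_rfl

end Crest.Agent.R168
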