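/-
Row 168 CORE, task D1 (**the exchange trick**: chain sites with ordered labels `≤ T`  ↔  late sites + free times).
Keep the statement; aux lemmas private.  Uses A1 (`lintegral_resample`, `lintegral_late`), C2 (`ctx_hideS`, `cwF_congr`),
M1 (`measurable_cwF`).
-/
import Crest.Agent.R168_C_Resample
import Crest.Agent.R168_C_Tuples
import Crest.Agent.R168_C_Meas

set_option autoImplicit false
open MeasureTheory Finset
open Crest.ProbabilityR.Labels
open scoped ENNReal

namespace Crest.Agent.R168

variable {α : Type*} [DecidableEq α]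

private theorem measurableSet_strictMono_exch (m : ℕ) :
    MeasurableSet {s : Fin m → unitInterval | StrictMono s} := by
  have : {s : Fin m → unitInterval | StrictMono s}
      = ⋂ i : Fin m, ⋂ j : Fin m, {s : Fin m → unitInterval | i < j → s i < s j} := by
    ext s
    simp only [Set.mem_ofPred_eq, Set.mem_iInter]
    exact ⟨fun h i j hij => h hij, fun h i j hij => h i j hij⟩
  rw [this]
  refine MeasurableSet.iInter fun i => MeasurableSet.iInter fun j => ?_
  by_cases hij : i < j
  · have : {s : Fin m → unitInterval | i < j → s i < s j} = {s | s i < s j} := by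
      ext s; simp [hij]
    rw [this]
    exact measurableSet_lt (measurable_pi_apply i) (measurable_pi_apply j)
  · have : {s : Fin m → unitInterval | i < j → s i < s j} = Set.univ := by
      ext s; simp [hij]
    rw [this]
    exact MeasurableSet.univ

/-- Put `K = univ.image k`, `F (s,u') = if StrictMono s ∧ s last ≤ T then ofReal (EX … cwF c S (ctx B W u' (s 0)) n k s) else 0`
(measurable by M1).  The left integrand is `F (u ∘ k, hideS K u)`.  `lintegral_resample`:
`∫ F (u ∘ k, hideS K u) = ∫_s ∫_u F (s, hideS K u)`.  For fixed `s`, `lintegral_late`: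
`(1-T)^(n+2) ∫_u F (s, hideS K u) = ∫_u if (∀ i, T < u (k i)) then F (s, hideS K u) else 0`, and on that event, if
`s i ≤ T` for all `i`, `ctx B W (hideS K u) θ (s i) = ctx B W u θ (s i)` (`ctx_hideS`), so `F (s, hideS K u) = F (s, u)`
(`cwF_congr`). -/
theorem exchange_chain (c : Finset α → Finset α → ℝ) (B W : Finset α) (T : unitInterval) (n : ℕ)
    (k : Fin (n + 2) → α) (hk : Function.Injective k) :
    ENNReal.ofReal ((1 - (T : ℝ)) ^ (n + 2)) *
      ∫⁻ u, (if StrictMono (u ∘ k) ∧ u (k (Fin.last (n + 1))) ≤ T then
          ENNReal.ofReal (EX c B (fun S => cwF c S (ctx B W (hideS (univ.image k) u) (u (k 0))) n k (u ∘ k)))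
          else 0) ∂(labelMeasure α)
      = ∫⁻ s : Fin (n + 2) → unitInterval, ∫⁻ u,
          (if (∀ i, T < u (k i)) ∧ StrictMono s ∧ s (Fin.last (n + 1)) ≤ T then
            ENNReal.ofReal (EX c B (fun S => cwF c S (ctx B W u (s 0)) n k s)) else 0)
          ∂(labelMeasure α) ∂volume := by
  classical
  let F : (Fin (n + 2) → unitInterval) × (α → unitInterval) → ℝ≥0∞ := fun p =>
    if StrictMono p.1 ∧ p.1 (Fin.last (n + 1)) ≤ T then
      ENNReal.ofReal (EX c B (fun S => cwF c S (ctx B W p.2 (p.1 0)) n k p.1)) else 0
  have hset : MeasurableSet {p : (Fin (n + 2) → unitInterval) × (α → unitInterval) |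
      StrictMono p.1 ∧ p.1 (Fin.last (n + 1)) ≤ T} := by
    have h2 : MeasurableSet {p : (Fin (n + 2) → unitInterval) × (α → unitInterval) |
        p.1 (Fin.last (n + 1)) ≤ T} :=
      measurableSet_le
        (f := fun p : (Fin (n + 2) → unitInterval) × (α → unitInterval) => p.1 (Fin.last (n + 1)))
        (g := fun _ => T) ((measurable_pi_apply _).comp measurable_fst) measurable_const
    exact MeasurableSet.inter (measurable_fst (measurableSet_strictMono_exch (n + 2))) h2
  have hEX : Measurable (fun p : (Fin (n + 2) → unitInterval) × (α → unitInterval) =>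
      EX c B (fun S => cwF c S (ctx B W p.2 (p.1 0)) n k p.1)) := by
    unfold EX
    refine Finset.measurable_fun_sum _ fun S _ => ?_
    refine Measurable.const_mul ?_ _
    exact measurable_cwF c S B W (fun p : (Fin (n + 2) → unitInterval) × (α → unitInterval) => p.2)
      measurable_snd (fun p => p.1 0) ((measurable_pi_apply _).comp measurable_fst) n k
      (fun p => p.1) measurable_fst
  have hF : Measurable F := Measurable.ite hset hEX.ennreal_ofReal measurable_const
  have h1 := lintegral_resample k hk F hF
  have e1 : ∀ u : α → unitInterval, F (u ∘ k, hideS (univ.image k) u)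
      = (if StrictMono (u ∘ k) ∧ u (k (Fin.last (n + 1))) ≤ T then
          ENNReal.ofReal (EX c B (fun S => cwF c S (ctx B W (hideS (univ.image k) u) (u (k 0))) n k (u ∘ k)))
          else 0) := fun u => rfl
  simp only [e1] at h1
  rw [h1, ← lintegral_const_mul' _ _ ENNReal.ofReal_ne_top]
  refine lintegral_congr fun s => ?_
  have hH : Measurable (fun u' : α → unitInterval => F (s, u')) :=
    hF.comp (measurable_const.prodMk measurable_id)
  rw [← lintegral_late k hk T (fun u' => F (s, u')) hH]
  refine lintegral_congr fun u => ?_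
  by_cases hu : ∀ i, T < u (k i)
  · by_cases hs : StrictMono s ∧ s (Fin.last (n + 1)) ≤ T
    · have hctx : ∀ S : Finset α, cwF c S (ctx B W (hideS (univ.image k) u) (s 0)) n k s
          = cwF c S (ctx B W u (s 0)) n k s := by
        intro S
        refine cwF_congr c S n k s fun i _ => ?_
        refine ctx_hideS B W _ u (s 0) (s i) fun g hg => ?_
        obtain ⟨j, _, rfl⟩ := Finset.mem_image.mp hg
        exact ((hs.1.monotone (Fin.le_last i)).trans hs.2).trans (hu j).le
      have hc : (∀ i, T < u (k i)) ∧ StrictMono s ∧ s (Fin.last (n + 1)) ≤ T := ⟨hu, hs⟩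
      rw [if_pos hu, if_pos hc]
      simp only [F]
      rw [if_pos hs]
      simp only [hctx]
    · have hc : ¬ ((∀ i, T < u (k i)) ∧ StrictMono s ∧ s (Fin.last (n + 1)) ≤ T) := fun h => hs h.2
      rw [if_pos hu, if_neg hc]
      simp only [F]
      rw [if_neg hs]
  · have hc : ¬ ((∀ i, T < u (k i)) ∧ StrictMono s ∧ s (Fin.last (n + 1)) ≤ T) := fun h => hu h.1
    rw [if_neg hu, if_neg hc]

end Crest.Agent.R168
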