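/-
Row 168 CORE, task A3 (covariance identities in a fixed state `(I,J)`).  Keep the statements; aux lemmas private.
All statements are elementary real algebra from `CylFam.split`, `MassN1`, `MassN2`.
Abbreviations: a = c I J, a1(g) = c (insert g I) J, a0(g) = c I (insert g J), a = a1 + a0.
-/
import Crest.Agent.R168_CoreDefs

set_option autoImplicit false
open Finset

namespace Crest.Agent.R168

variable {α : Type*} [DecidableEq α] {c : Finset α → Finset α → ℝ}

theorem cbar_symm (c : Finset α → Finset α → ℝ) (I J : Finset α) (h g : α) :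
    cbar c I J h g = cbar c I J g h := by
  unfold cbar
  rw [Finset.insert_comm h g I]
  ring

theorem cbar_nonneg (hc : NegFam c) {I J : Finset α} (hIJ : Disjoint I J) {h g : α} (hhg : h ≠ g)
    (hhI : h ∉ I) (hhJ : h ∉ J) (hgI : g ∉ I) (hgJ : g ∉ J) : 0 ≤ cbar c I J h g := by
  have := hc.n1 I J hIJ h g hhg hhI hhJ hgI hgJ
  unfold cbar
  linarith

/-- (N2) rewritten -/
theorem sum_cbar_le (hc : NegFam c) {I J : Finset α} (hIJ : Disjoint I J) {h : α}
    (hhI : h ∉ I) (hhJ : h ∉ J) {R : Finset α} (hhR : h ∉ R) (hRI : Disjoint R I) (hRJ : Disjoint R J) :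
    ∑ g ∈ R, cbar c I J h g ≤ c (insert h I) J * c I (insert h J) := by
  have h1 := hc.n2 I J hIJ h hhI hhJ R hhR hRI hRJ
  have h2 := hc.cyl.split I J h
  have h3 : c I J - c (insert h I) J = c I (insert h J) := by linarith
  rw [h3] at h1
  exact h1

theorem cbar_le (hc : NegFam c) {I J : Finset α} (hIJ : Disjoint I J) {h g : α} (hhg : h ≠ g)
    (hhI : h ∉ I) (hhJ : h ∉ J) (hgI : g ∉ I) (hgJ : g ∉ J) :
    cbar c I J h g ≤ c (insert h I) J * c I (insert h J) := by
  have := sum_cbar_le hc hIJ hhI hhJ (R := {g}) (by simpa using hhg) (by simpa using hgI)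
    (by simpa using hgJ)
  simpa using this

/-- the covariance computed with `h = 0` instead of `h = 1` -/
theorem cbar_zero_form (hc : NegFam c) (I J : Finset α) (h g : α) :
    c I J * c (insert g I) (insert h J) - c I (insert h J) * c (insert g I) J = cbar c I J h g := by
  have h1 := hc.cyl.split I J h
  have h2 := hc.cyl.split (insert g I) J h
  unfold cbar
  have h3 : c I (insert h J) = c I J - c (insert h I) J := by linarith
  have h4 : c (insert g I) (insert h J) = c (insert g I) J - c (insert h (insert g I)) J := by linarith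
  rw [h3, h4]
  ring

theorem ccov_symm (c : Finset α → Finset α → ℝ) (I J : Finset α) (h g : α) :
    ccov c I J h g = ccov c I J g h := by
  unfold ccov
  rw [cbar_symm]

theorem ccov_nonneg (hc : NegFam c) {I J : Finset α} (hIJ : Disjoint I J) {h g : α} (hhg : h ≠ g)
    (hhI : h ∉ I) (hhJ : h ∉ J) (hgI : g ∉ I) (hgJ : g ∉ J) : 0 ≤ ccov c I J h g := by
  unfold ccov
  exact div_nonneg (cbar_nonneg hc hIJ hhg hhI hhJ hgI hgJ) (sq_nonneg _)

theorem cvar_nonneg (hc : NegFam c) (I J : Finset α) (g : α) : 0 ≤ cvar c I J g := by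
  unfold cvar
  exact div_nonneg (mul_nonneg (hc.cyl.nonneg _ _) (hc.cyl.nonneg _ _)) (sq_nonneg _)

theorem cvar_le_quarter (hc : NegFam c) (I J : Finset α) (g : α) : cvar c I J g ≤ 1 / 4 := by
  unfold cvar
  have h1 := hc.cyl.split I J g
  rcases eq_or_ne (c I J) 0 with h0 | h0
  · rw [h0]; norm_num
  · have hpos : 0 < (c I J) ^ 2 := by positivity
    rw [div_le_iff₀ hpos, h1]
    nlinarith [sq_nonneg (c (insert g I) J - c I (insert g J))]

theorem cinfl_nonneg (hc : NegFam c) {I J : Finset α} (hIJ : Disjoint I J) {h g : α} (hhg : h ≠ g)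
    (hhI : h ∉ I) (hhJ : h ∉ J) (hgI : g ∉ I) (hgJ : g ∉ J) : 0 ≤ cinfl c I J g h := by
  unfold cinfl
  exact div_nonneg (cbar_nonneg hc hIJ hhg.symm hgI hgJ hhI hhJ)
    (mul_nonneg (hc.cyl.nonneg _ _) (hc.cyl.nonneg _ _))

/-- `I·Var = c` (if the variance vanishes so does the covariance, by `cbar_le`) -/
theorem cinfl_mul_cvar (hc : NegFam c) {I J : Finset α} (hIJ : Disjoint I J) {h g : α} (hhg : h ≠ g)
    (hhI : h ∉ I) (hhJ : h ∉ J) (hgI : g ∉ I) (hgJ : g ∉ J) :
    cinfl c I J g h * cvar c I J g = ccov c I J g h := by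
  unfold cinfl cvar ccov
  rcases eq_or_ne (c (insert g I) J * c I (insert g J)) 0 with h0 | h0
  · have h1 := cbar_le hc hIJ hhg.symm hgI hgJ hhI hhJ
    have h2 := cbar_nonneg hc hIJ hhg.symm hgI hgJ hhI hhJ
    have h3 : cbar c I J g h = 0 := le_antisymm (h0 ▸ h1) h2
    rw [h3]; simp
  · rw [div_mul_div_comm, mul_comm (cbar c I J g h), mul_div_mul_left _ _ h0]

theorem sum_cinfl_le_one (hc : NegFam c) {I J : Finset α} (hIJ : Disjoint I J) {g : α}
    (hgI : g ∉ I) (hgJ : g ∉ J) {R : Finset α} (hgR : g ∉ R) (hRI : Disjoint R I) (hRJ : Disjoint R J) :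
    ∑ h ∈ R, cinfl c I J g h ≤ 1 := by
  unfold cinfl
  rw [← Finset.sum_div]
  have h1 := sum_cbar_le hc hIJ hgI hgJ hgR hRI hRJ
  have h2 : 0 ≤ c (insert g I) J * c I (insert g J) :=
    mul_nonneg (hc.cyl.nonneg _ _) (hc.cyl.nonneg _ _)
  exact div_le_one_of_le₀ h1 h2

theorem sum_ccov_le_cvar (hc : NegFam c) {I J : Finset α} (hIJ : Disjoint I J) {h : α}
    (hhI : h ∉ I) (hhJ : h ∉ J) {R : Finset α} (hhR : h ∉ R) (hRI : Disjoint R I) (hRJ : Disjoint R J) :
    ∑ g ∈ R, ccov c I J h g ≤ cvar c I J h := by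
  unfold ccov cvar
  rw [← Finset.sum_div]
  exact div_le_div_of_nonneg_right (sum_cbar_le hc hIJ hhI hhJ hhR hRI hRJ) (sq_nonneg _)

theorem ccov_le_cvar (hc : NegFam c) {I J : Finset α} (hIJ : Disjoint I J) {h g : α} (hhg : h ≠ g)
    (hhI : h ∉ I) (hhJ : h ∉ J) (hgI : g ∉ I) (hgJ : g ∉ J) : ccov c I J h g ≤ cvar c I J h := by
  unfold ccov cvar
  exact div_le_div_of_nonneg_right (cbar_le hc hIJ hhg hhI hhJ hgI hgJ) (sq_nonneg _)

private theorem mul_div_sq (a B : ℝ) : a * (B / a ^ 2) = B / a := by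
  rcases eq_or_ne a 0 with h | h
  · subst h; simp
  · field_simp

private theorem aux_cov {a1 a0 H1 H0 X1 X0 : ℝ} (ha1 : 0 < a1) (ha0 : 0 < a0)
    (h : 0 ≤ (a0 * H1 - a1 * H0) * (a0 * X1 - a1 * X0)) :
    (H1 + H0) * (X1 + X0) / (a1 + a0) ≤ H1 * X1 / a1 + H0 * X0 / a0 := by
  rw [div_add_div _ _ ha1.ne' ha0.ne', div_le_div_iff₀ (by positivity) (by positivity)]
  nlinarith [h]

/-- Law of total covariance + all covariances `≤ 0`:
`E[|Cov(h,x | g)|] = |Cov(h,x)| + |Cov(g,h)||Cov(g,x)|/Var(g) ≥ |Cov(h,x)|`, multiplied by `c I J`.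
(`g, h, x` distinct, outside `I ∪ J`.)  If `c I J = 0` everything vanishes; if `a1(g) = 0` or `a0(g) = 0` only one
term survives and it is an equality. -/
theorem total_cov_ge (hc : NegFam c) {I J : Finset α} (hIJ : Disjoint I J) {g h x : α}
    (hgh : g ≠ h) (hgx : g ≠ x) (hhx : h ≠ x)
    (hgI : g ∉ I) (hgJ : g ∉ J) (hhI : h ∉ I) (hhJ : h ∉ J) (hxI : x ∉ I) (hxJ : x ∉ J) :
    c I J * ccov c I J h x
      ≤ c (insert g I) J * ccov c (insert g I) J h x + c I (insert g J) * ccov c I (insert g J) h x := by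
  unfold ccov
  rw [mul_div_sq, mul_div_sq, mul_div_sq]
  unfold cbar
  -- the masses
  have sa := hc.cyl.split I J g
  have sH := hc.cyl.split (insert h I) J g
  have sX := hc.cyl.split (insert x I) J g
  have sHX := hc.cyl.split (insert h (insert x I)) J g
  rw [Finset.insert_comm g h I] at sH
  rw [Finset.insert_comm g x I] at sX
  rw [Finset.insert_comm g h (insert x I), Finset.insert_comm g x I] at sHX
  have nH := cbar_nonneg hc hIJ hgh hgI hgJ hhI hhJ
  have nX := cbar_nonneg hc hIJ hgx hgI hgJ hxI hxJ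
  unfold cbar at nH nX
  rw [Finset.insert_comm g h I] at nH
  rw [Finset.insert_comm g x I] at nX
  have p1 := hc.cyl.nonneg (insert g I) J
  have p0 := hc.cyl.nonneg I (insert g J)
  have nH1 := hc.cyl.nonneg (insert h (insert g I)) J
  have nX1 := hc.cyl.nonneg (insert x (insert g I)) J
  have nHX1 := hc.cyl.nonneg (insert h (insert x (insert g I))) J
  have nH0 := hc.cyl.nonneg (insert h I) (insert g J)
  have nX0 := hc.cyl.nonneg (insert x I) (insert g J)
  have nHX0 := hc.cyl.nonneg (insert h (insert x I)) (insert g J)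
  have bH1 := hc.cyl.insert_left_le (insert g I) J h
  have bX1 := hc.cyl.insert_left_le (insert g I) J x
  have bHX1 := hc.cyl.insert_left_le (insert x (insert g I)) J h
  have bH0 := hc.cyl.insert_left_le I (insert g J) h
  have bX0 := hc.cyl.insert_left_le I (insert g J) x
  have bHX0 := hc.cyl.insert_left_le (insert x I) (insert g J) h
  generalize c I J = a at *
  generalize c (insert g I) J = a1 at *
  generalize c I (insert g J) = a0 at *
  generalize c (insert h I) J = H at *
  generalize c (insert x I) J = X at *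
  generalize c (insert h (insert x I)) J = HX at *
  generalize c (insert h (insert g I)) J = H1 at *
  generalize c (insert x (insert g I)) J = X1 at *
  generalize c (insert h (insert x (insert g I))) J = HX1 at *
  generalize c (insert h I) (insert g J) = H0 at *
  generalize c (insert x I) (insert g J) = X0 at *
  generalize c (insert h (insert x I)) (insert g J) = HX0 at *
  rcases p1.eq_or_lt with e1 | q1
  · have e2 : H1 = 0 := by linarith
    have e3 : X1 = 0 := by linarith
    have e4 : HX1 = 0 := by linarith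
    subst sa sH sX sHX
    rw [← e1, e2, e3, e4]
    simp
  rcases p0.eq_or_lt with e1 | q0
  · have e2 : H0 = 0 := by linarith
    have e3 : X0 = 0 := by linarith
    have e4 : HX0 = 0 := by linarith
    subst sa sH sX sHX
    rw [← e1, e2, e3, e4]
    simp
  have qa : 0 < a := by linarith
  have key : (H1 + H0) * (X1 + X0) / (a1 + a0) ≤ H1 * X1 / a1 + H0 * X0 / a0 := by
    apply aux_cov q1 q0
    have f1 : a0 * H1 - a1 * H0 = -(a1 * H - a * H1) := by rw [sa, sH]; ring
    have f2 : a0 * X1 - a1 * X0 = -(a1 * X - a * X1) := by rw [sa, sX]; ring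
    rw [f1, f2, neg_mul_neg]
    exact mul_nonneg nH nX
  rw [sub_div, sub_div, sub_div, mul_div_cancel_left₀ _ qa.ne', mul_div_cancel_left₀ _ q1.ne',
    mul_div_cancel_left₀ _ q0.ne']
  rw [← sa, ← sH, ← sX] at key
  linarith

private theorem aux_var {a1 a0 K1 K0 : ℝ} (ha1 : 0 < a1) (ha0 : 0 < a0) :
    K1 * (a1 - K1) / a1 + K0 * (a0 - K0) / a0 ≤ (K1 + K0) * (a1 + a0 - (K1 + K0)) / (a1 + a0) := by
  rw [div_add_div _ _ ha1.ne' ha0.ne', div_le_div_iff₀ (by positivity) (by positivity)]
  nlinarith [sq_nonneg (K1 * a0 - K0 * a1)]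

/-- Law of total variance: `E[Var(k | g)] ≤ Var(k)`, multiplied by `c I J`. -/
theorem total_var_le (hc : NegFam c) {I J : Finset α} (hIJ : Disjoint I J) {g k : α} (hgk : g ≠ k)
    (hgI : g ∉ I) (hgJ : g ∉ J) (hkI : k ∉ I) (hkJ : k ∉ J) :
    c (insert g I) J * cvar c (insert g I) J k + c I (insert g J) * cvar c I (insert g J) k
      ≤ c I J * cvar c I J k := by
  unfold cvar
  rw [mul_div_sq, mul_div_sq, mul_div_sq]
  have sa := hc.cyl.split I J g
  have sk := hc.cyl.split I J k
  have sk1 := hc.cyl.split (insert g I) J k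
  have sk0 := hc.cyl.split I (insert g J) k
  have sK := hc.cyl.split (insert k I) J g
  rw [Finset.insert_comm g k I] at sK
  have p1 := hc.cyl.nonneg (insert g I) J
  have p0 := hc.cyl.nonneg I (insert g J)
  have nK1 := hc.cyl.nonneg (insert k (insert g I)) J
  have nK0 := hc.cyl.nonneg (insert k I) (insert g J)
  have nL1 := hc.cyl.nonneg (insert g I) (insert k J)
  have nL0 := hc.cyl.nonneg I (insert k (insert g J))
  generalize c I J = a at *
  generalize c (insert g I) J = a1 at *
  generalize c I (insert g J) = a0 at *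
  generalize c (insert k I) J = K at *
  generalize c I (insert k J) = L at *
  generalize c (insert k (insert g I)) J = K1 at *
  generalize c (insert g I) (insert k J) = L1 at *
  generalize c (insert k I) (insert g J) = K0 at *
  generalize c I (insert k (insert g J)) = L0 at *
  have eL1 : L1 = a1 - K1 := by linarith
  have eL0 : L0 = a0 - K0 := by linarith
  have eL : L = a1 + a0 - (K1 + K0) := by linarith
  rw [eL1, eL0, eL, sK, sa]
  rcases p1.eq_or_lt with e1 | q1
  · have e2 : K1 = 0 := by linarith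
    rw [← e1, e2]
    simp
  rcases p0.eq_or_lt with e1 | q0
  · have e2 : K0 = 0 := by linarith
    rw [← e1, e2]
    simp
  exact aux_var q1 q0

end Crest.Agent.R168
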