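/-
Row 168 CORE, task A4 (expectations over the sample: consistency, monotonicity of the expected covariance, conditional
bounds).  Keep the statements; aux lemmas private.  Uses task A3 (`R168_C_Cov`).
`EX c B f = ∑ S ⊆ B, c S (B \ S) * f S`.
-/
import Crest.Agent.R168_C_Cov

set_option autoImplicit false
open Finset

namespace Crest.Agent.R168

variable {α : Type*} [DecidableEq α] {c : Finset α → Finset α → ℝ}

/-! ### the quenched quantities only see `S ∩ C` -/

private lemma sdiff_congr_of_inter {C S S' : Finset α} (h : C ∩ S = C ∩ S') : C \ S = C \ S' := by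
  rw [← Finset.sdiff_inter_self_left C S, ← Finset.sdiff_inter_self_left C S', h]

theorem qcov_congr (c : Finset α → Finset α → ℝ) {C S S' : Finset α} (h : C ∩ S = C ∩ S') (a b : α) :
    qcov c C S a b = qcov c C S' a b := by
  unfold qcov
  rw [h, sdiff_congr_of_inter h]

theorem qvar_congr (c : Finset α → Finset α → ℝ) {C S S' : Finset α} (h : C ∩ S = C ∩ S') (a : α) :
    qvar c C S a = qvar c C S' a := by
  unfold qvar
  rw [h, sdiff_congr_of_inter h]

theorem qinfl_congr (c : Finset α → Finset α → ℝ) {C S S' : Finset α} (h : C ∩ S = C ∩ S') (a b : α) :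
    qinfl c C S a b = qinfl c C S' a b := by
  unfold qinfl
  rw [h, sdiff_congr_of_inter h]

/-! ### pointwise facts (translations of A3) -/

private lemma disj_state (C S : Finset α) : Disjoint (C ∩ S) (C \ S) :=
  (Finset.disjoint_sdiff_inter C S).symm

private lemma notMem_inter_of {C : Finset α} (S : Finset α) {a : α} (ha : a ∉ C) : a ∉ C ∩ S :=
  fun h => ha (Finset.mem_inter.1 h).1

private lemma notMem_sdiff_of {C : Finset α} (S : Finset α) {a : α} (ha : a ∉ C) : a ∉ C \ S :=
  fun h => ha (Finset.mem_sdiff.1 h).1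

theorem qcov_nonneg (hc : NegFam c) (C S : Finset α) {a b : α} (hab : a ≠ b) (ha : a ∉ C) (hb : b ∉ C) :
    0 ≤ qcov c C S a b :=
  ccov_nonneg hc (disj_state C S) hab (notMem_inter_of S ha) (notMem_sdiff_of S ha)
    (notMem_inter_of S hb) (notMem_sdiff_of S hb)

theorem qcov_symm (c : Finset α → Finset α → ℝ) (C S : Finset α) (a b : α) : qcov c C S a b = qcov c C S b a :=
  ccov_symm c _ _ a b

theorem qinfl_nonneg (hc : NegFam c) (C S : Finset α) {a b : α} (hab : a ≠ b) (ha : a ∉ C) (hb : b ∉ C) :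
    0 ≤ qinfl c C S a b :=
  cinfl_nonneg hc (disj_state C S) hab.symm (notMem_inter_of S hb) (notMem_sdiff_of S hb)
    (notMem_inter_of S ha) (notMem_sdiff_of S ha)

theorem qvar_nonneg (hc : NegFam c) (C S : Finset α) (a : α) : 0 ≤ qvar c C S a :=
  cvar_nonneg hc _ _ a

theorem qvar_le_quarter (hc : NegFam c) (C S : Finset α) (a : α) : qvar c C S a ≤ 1 / 4 :=
  cvar_le_quarter hc _ _ a

theorem qinfl_mul_qvar (hc : NegFam c) (C S : Finset α) {a b : α} (hab : a ≠ b) (ha : a ∉ C) (hb : b ∉ C) :
    qinfl c C S a b * qvar c C S a = qcov c C S a b :=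
  cinfl_mul_cvar hc (disj_state C S) hab.symm (notMem_inter_of S hb) (notMem_sdiff_of S hb)
    (notMem_inter_of S ha) (notMem_sdiff_of S ha)

theorem sum_qinfl_le_one (hc : NegFam c) (C S : Finset α) {a : α} (ha : a ∉ C) {R : Finset α} (haR : a ∉ R)
    (hR : Disjoint R C) : ∑ b ∈ R, qinfl c C S a b ≤ 1 :=
  sum_cinfl_le_one hc (disj_state C S) (notMem_inter_of S ha) (notMem_sdiff_of S ha) haR
    (hR.mono_right Finset.inter_subset_left) (hR.mono_right Finset.sdiff_subset)

theorem sum_qcov_le_qvar (hc : NegFam c) (C S : Finset α) {a : α} (ha : a ∉ C) {R : Finset α} (haR : a ∉ R)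
    (hR : Disjoint R C) : ∑ b ∈ R, qcov c C S a b ≤ qvar c C S a :=
  sum_ccov_le_cvar hc (disj_state C S) (notMem_inter_of S ha) (notMem_sdiff_of S ha) haR
    (hR.mono_right Finset.inter_subset_left) (hR.mono_right Finset.sdiff_subset)

/-! ### expectations -/

theorem EX_mono (hc : NegFam c) (B : Finset α) {f f' : Finset α → ℝ} (h : ∀ S, S ⊆ B → f S ≤ f' S) :
    EX c B f ≤ EX c B f' := by
  unfold EX
  exact Finset.sum_le_sum fun S hS =>
    mul_le_mul_of_nonneg_left (h S (Finset.mem_powerset.1 hS)) (hc.cyl.nonneg _ _)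

theorem EX_nonneg (hc : NegFam c) (B : Finset α) {f : Finset α → ℝ} (h : ∀ S, S ⊆ B → 0 ≤ f S) :
    0 ≤ EX c B f := by
  unfold EX
  exact Finset.sum_nonneg fun S hS => mul_nonneg (hc.cyl.nonneg _ _) (h S (Finset.mem_powerset.1 hS))

/-- one more site (`Finset.sum_powerset_insert`) -/
theorem EX_insert (c : Finset α → Finset α → ℝ) {B : Finset α} {g : α} (hg : g ∉ B) (f : Finset α → ℝ) :
    EX c (insert g B) f
      = ∑ S ∈ B.powerset, (c (insert g S) (B \ S) * f (insert g S) + c S (insert g (B \ S)) * f S) := by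
  unfold EX
  rw [Finset.sum_powerset_insert hg, ← Finset.sum_add_distrib]
  refine Finset.sum_congr rfl fun S hS => ?_
  have hSB := Finset.mem_powerset.1 hS
  have hgS : g ∉ S := fun h => hg (hSB h)
  rw [Finset.insert_sdiff_of_notMem _ hgS, Finset.insert_sdiff_insert,
    Finset.sdiff_insert_of_notMem hg, add_comm]

/-- Consistency: a function of `S ∩ A` has the same expectation on every `B ⊇ A`.  Induction on `B \ A`. -/
theorem EX_restrict (hc : NegFam c) {A B : Finset α} (hAB : A ⊆ B) (f : Finset α → ℝ)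
    (hf : ∀ S, f S = f (S ∩ A)) : EX c B f = EX c A f := by
  have key : ∀ D : Finset α, Disjoint D A → EX c (A ∪ D) f = EX c A f := by
    intro D
    induction D using Finset.induction_on with
    | empty => intro _; rw [Finset.union_empty]
    | insert g D hgD ih =>
      intro hdis
      rw [Finset.disjoint_insert_left] at hdis
      obtain ⟨hgA, hDA⟩ := hdis
      have hg : g ∉ A ∪ D := by
        rw [Finset.mem_union]; exact fun h => h.elim hgA hgD
      rw [Finset.union_insert, EX_insert c hg, ← ih hDA]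
      unfold EX
      refine Finset.sum_congr rfl fun S _ => ?_
      have h1 : f (insert g S) = f S := by
        rw [hf (insert g S), hf S, Finset.insert_inter_of_notMem hgA]
      rw [h1, ← add_mul, ← hc.cyl.split]
  have := key (B \ A) Finset.sdiff_disjoint
  rwa [Finset.union_sdiff_of_subset hAB] at this

theorem EX_const_one (hc : NegFam c) (B : Finset α) : EX c B (fun _ => 1) = 1 := by
  rw [EX_restrict hc (Finset.empty_subset B) (fun _ => 1) (fun _ => rfl)]
  simp [EX, hc.one]

private lemma qstate_insert_insert {A S : Finset α} {g : α} (hg : g ∉ A) (hS : S ⊆ A) :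
    insert g A ∩ insert g S = insert g S ∧ insert g A \ insert g S = A \ S := by
  constructor
  · exact Finset.inter_eq_right.2 (Finset.insert_subset_insert g hS)
  · rw [Finset.insert_sdiff_insert, Finset.sdiff_insert_of_notMem hg]

private lemma qstate_insert {A S : Finset α} {g : α} (hg : g ∉ A) (hS : S ⊆ A) :
    insert g A ∩ S = S ∧ insert g A \ S = insert g (A \ S) := by
  constructor
  · exact Finset.inter_eq_right.2 (hS.trans (Finset.subset_insert g A))
  · exact Finset.insert_sdiff_of_notMem _ (fun h => hg (hS h))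

private lemma EX_qcov_step (hc : NegFam c) {A : Finset α} {g a b : α} (hg : g ∉ A) (hab : a ≠ b)
    (hga : g ≠ a) (hgb : g ≠ b) (ha : a ∉ A) (hb : b ∉ A) (φ : Finset α → ℝ) (hφ0 : ∀ S, 0 ≤ φ S)
    (hφ : ∀ S, φ (insert g S) = φ S) :
    EX c A (fun S => φ S * qcov c A S a b)
      ≤ EX c (insert g A) (fun S => φ S * qcov c (insert g A) S a b) := by
  rw [EX_insert c hg]
  unfold EX
  refine Finset.sum_le_sum fun S hS => ?_
  have hSA := Finset.mem_powerset.1 hS
  have hgS : g ∉ S := fun h => hg (hSA h)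
  unfold qcov
  beta_reduce
  rw [(qstate_insert_insert hg hSA).1, (qstate_insert_insert hg hSA).2, (qstate_insert hg hSA).1,
    (qstate_insert hg hSA).2, Finset.inter_eq_right.2 hSA, hφ S]
  have h := total_cov_ge hc (I := S) (J := A \ S) Finset.disjoint_sdiff hga hgb hab hgS
    (fun h => hg (Finset.mem_sdiff.1 h).1) (fun h => ha (hSA h)) (fun h => ha (Finset.mem_sdiff.1 h).1)
    (fun h => hb (hSA h)) (fun h => hb (Finset.mem_sdiff.1 h).1)
  have := mul_le_mul_of_nonneg_left h (hφ0 S)
  nlinarith [this]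

private lemma EX_qvar_step (hc : NegFam c) {A : Finset α} {g a : α} (hg : g ∉ A)
    (hga : g ≠ a) (ha : a ∉ A) (φ : Finset α → ℝ) (hφ0 : ∀ S, 0 ≤ φ S)
    (hφ : ∀ S, φ (insert g S) = φ S) :
    EX c (insert g A) (fun S => φ S * qvar c (insert g A) S a)
      ≤ EX c A (fun S => φ S * qvar c A S a) := by
  rw [EX_insert c hg]
  unfold EX
  refine Finset.sum_le_sum fun S hS => ?_
  have hSA := Finset.mem_powerset.1 hS
  have hgS : g ∉ S := fun h => hg (hSA h)
  unfold qvar
  beta_reduce
  rw [(qstate_insert_insert hg hSA).1, (qstate_insert_insert hg hSA).2, (qstate_insert hg hSA).1,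
    (qstate_insert hg hSA).2, Finset.inter_eq_right.2 hSA, hφ S]
  have h := total_var_le hc (I := S) (J := A \ S) Finset.disjoint_sdiff hga hgS
    (fun h => hg (Finset.mem_sdiff.1 h).1) (fun h => ha (hSA h)) (fun h => ha (Finset.mem_sdiff.1 h).1)
  have := mul_le_mul_of_nonneg_left h (hφ0 S)
  nlinarith [this]

/-- One step of "conditioning": for `φ` a function of `S ∩ A` and `g ∉ A`,
`E[φ · F(A+g)] ` is computed from the two states; this is the form in which `total_cov_ge`, `total_var_le` are used.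
`Ecov` is monotone in the context.  Induction on `A' \ A` from the one-site step
`EX c A (fun S => φ S * qcov c A S a b) ≤ EX c (insert g A) (fun S => φ S * qcov c (insert g A) S a b)`. -/
theorem EX_qcov_mono (hc : NegFam c) {A A' : Finset α} (hAA' : A ⊆ A') {a b : α} (hab : a ≠ b)
    (ha : a ∉ A') (hb : b ∉ A') (φ : Finset α → ℝ) (hφ0 : ∀ S, 0 ≤ φ S) (hφ : ∀ S, φ S = φ (S ∩ A)) :
    EX c A (fun S => φ S * qcov c A S a b) ≤ EX c A' (fun S => φ S * qcov c A' S a b) := by
  have key : ∀ D : Finset α, Disjoint D A → a ∉ A ∪ D → b ∉ A ∪ D →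
      EX c A (fun S => φ S * qcov c A S a b) ≤ EX c (A ∪ D) (fun S => φ S * qcov c (A ∪ D) S a b) := by
    intro D
    induction D using Finset.induction_on with
    | empty => intro _ _ _; rw [Finset.union_empty]
    | insert g D hgD ih =>
      intro hdis ha' hb'
      rw [Finset.disjoint_insert_left] at hdis
      obtain ⟨hgA, hDA⟩ := hdis
      have hg : g ∉ A ∪ D := by
        rw [Finset.mem_union]; exact fun h => h.elim hgA hgD
      rw [Finset.union_insert] at ha' hb' ⊢
      rw [Finset.mem_insert, not_or] at ha' hb'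
      refine (ih hDA ha'.2 hb'.2).trans ?_
      refine EX_qcov_step hc hg hab (Ne.symm ha'.1) (Ne.symm hb'.1) ha'.2 hb'.2 φ hφ0 ?_
      intro S
      rw [hφ (insert g S), hφ S, Finset.insert_inter_of_notMem hgA]
  have := key (A' \ A) Finset.sdiff_disjoint
  rw [Finset.union_sdiff_of_subset hAA'] at this
  exact this ha hb

theorem Ecov_mono (hc : NegFam c) {A A' : Finset α} (hAA' : A ⊆ A') {a b : α} (hab : a ≠ b)
    (ha : a ∉ A') (hb : b ∉ A') : Ecov c A a b ≤ Ecov c A' a b := by
  have := EX_qcov_mono hc hAA' hab ha hb (fun _ => 1) (fun _ => zero_le_one) (fun _ => rfl)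
  simpa [Ecov] using this

theorem Ecov_nonneg (hc : NegFam c) {A : Finset α} {a b : α} (hab : a ≠ b) (ha : a ∉ A) (hb : b ∉ A) :
    0 ≤ Ecov c A a b :=
  EX_nonneg hc A fun S _ => qcov_nonneg hc A S hab ha hb

theorem sum_Ecov_le (hc : NegFam c) {A K : Finset α} {x : α} (hx : x ∉ A) (hxK : x ∉ K) (hK : Disjoint K A) :
    ∑ g ∈ K, Ecov c A g x ≤ 1 / 4 := by
  have h1 : ∑ g ∈ K, Ecov c A g x = EX c A (fun S => ∑ g ∈ K, qcov c A S x g) := by
    unfold Ecov EX
    rw [Finset.sum_comm]
    refine Finset.sum_congr rfl fun S _ => ?_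
    rw [Finset.mul_sum]
    refine Finset.sum_congr rfl fun g _ => ?_
    rw [qcov_symm]
  rw [h1]
  calc EX c A (fun S => ∑ g ∈ K, qcov c A S x g) ≤ EX c A (fun _ => 1 / 4) :=
        EX_mono hc A fun S _ => (sum_qcov_le_qvar hc A S hx hxK hK).trans (qvar_le_quarter hc A S x)
    _ = 1 / 4 := by
        have := EX_const_one hc A
        unfold EX at this ⊢
        rw [← Finset.sum_mul]
        simp only [mul_one] at this
        rw [this, one_mul]

/-- the expected conditional variance decreases -/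
theorem EX_qvar_anti (hc : NegFam c) {A A' : Finset α} (hAA' : A ⊆ A') {a : α} (ha : a ∉ A')
    (φ : Finset α → ℝ) (hφ0 : ∀ S, 0 ≤ φ S) (hφ : ∀ S, φ S = φ (S ∩ A)) :
    EX c A' (fun S => φ S * qvar c A' S a) ≤ EX c A (fun S => φ S * qvar c A S a) := by
  have key : ∀ D : Finset α, Disjoint D A → a ∉ A ∪ D →
      EX c (A ∪ D) (fun S => φ S * qvar c (A ∪ D) S a) ≤ EX c A (fun S => φ S * qvar c A S a) := by
    intro D
    induction D using Finset.induction_on with
    | empty => intro _ _; rw [Finset.union_empty]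
    | insert g D hgD ih =>
      intro hdis ha'
      rw [Finset.disjoint_insert_left] at hdis
      obtain ⟨hgA, hDA⟩ := hdis
      have hg : g ∉ A ∪ D := by
        rw [Finset.mem_union]; exact fun h => h.elim hgA hgD
      rw [Finset.union_insert] at ha' ⊢
      rw [Finset.mem_insert, not_or] at ha'
      refine le_trans ?_ (ih hDA ha'.2)
      refine EX_qvar_step hc hg (Ne.symm ha'.1) ha'.2 φ hφ0 ?_
      intro S
      rw [hφ (insert g S), hφ S, Finset.insert_inter_of_notMem hgA]
  have := key (A' \ A) Finset.sdiff_disjoint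
  rw [Finset.union_sdiff_of_subset hAA'] at this
  exact this ha

/-- **Conditional bound** used in the tightness induction: `E[φ(X_A) c_{X_{A'}}(k,x)] ≤ E[φ(X_A) Var_{X_A}(k)]`
(`qcov ≤ qvar` pointwise, then `EX_qvar_anti`, with `EX_restrict` to pass between `B`, `A'`, `A`). -/
theorem EX_qcov_le_qvar (hc : NegFam c) {A A' B : Finset α} (hAA' : A ⊆ A') (hA'B : A' ⊆ B) {k x : α} (hkx : k ≠ x)
    (hk : k ∉ A') (hx : x ∉ A') (φ : Finset α → ℝ) (hφ0 : ∀ S, 0 ≤ φ S) (hφ : ∀ S, φ S = φ (S ∩ A)) :
    EX c B (fun S => φ S * qcov c A' S k x) ≤ EX c B (fun S => φ S * qvar c A S k) := by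
  have e1 : EX c B (fun S => φ S * qcov c A' S k x) = EX c A' (fun S => φ S * qcov c A' S k x) := by
    refine EX_restrict hc hA'B _ fun S => ?_
    have h1 : φ (S ∩ A') = φ S := by
      rw [hφ (S ∩ A'), hφ S, Finset.inter_assoc, Finset.inter_eq_right.2 hAA']
    have h2 : qcov c A' S k x = qcov c A' (S ∩ A') k x := by
      apply qcov_congr
      ext i
      simp only [Finset.mem_inter]
      tauto
    rw [h1, h2]
  have e2 : EX c B (fun S => φ S * qvar c A S k) = EX c A (fun S => φ S * qvar c A S k) := by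
    refine EX_restrict hc (hAA'.trans hA'B) _ fun S => ?_
    have h1 : φ (S ∩ A) = φ S := by
      rw [hφ (S ∩ A), hφ S, Finset.inter_assoc, Finset.inter_self]
    have h2 : qvar c A S k = qvar c A (S ∩ A) k := by
      apply qvar_congr
      ext i
      simp only [Finset.mem_inter]
      tauto
    rw [h1, h2]
  rw [e1, e2]
  refine le_trans ?_ (EX_qvar_anti hc hAA' hk φ hφ0 hφ)
  refine EX_mono hc A' fun S _ => mul_le_mul_of_nonneg_left ?_ (hφ0 S)
  have := sum_qcov_le_qvar hc A' S hk (R := {x}) (by simpa using hkx) (by simpa using hx)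
  simpa using this

end Crest.Agent.R168
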