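/-
Row 168 CORE, tasks D2 + D3 (chain sums over late sites: bounds, comparison with the tuple sums).
Keep the statements; aux lemmas private.  Uses A4 (`R168_C_Exp`).
In all statements `C t` = context at time `t`, `Λ` = set of the late sites, disjoint from the contexts at the times `s i`.
-/
import Crest.Agent.R168_C_Exp

set_option autoImplicit false
open Finset

namespace Crest.Agent.R168

variable {α : Type*} [DecidableEq α] {c : Finset α → Finset α → ℝ}

/-! ### D3: bounds -/

private lemma notMem_of_disj {A Λ : Finset α} (h : Disjoint A Λ) {g : α} (hg : g ∈ Λ) : g ∉ A :=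
  fun hA => (Finset.disjoint_left.mp h) hA hg

theorem wts_nonneg (hc : NegFam c) (S Λ W : Finset α) (C : unitInterval → Finset α)
    (s : ℕ → unitInterval) (hC : ∀ i, Disjoint (C (s i)) Λ) (j : ℕ) (g : α) (hg : g ∈ Λ) : 0 ≤ wts c S C Λ W s j g := by
  induction j generalizing g with
  | zero => simp only [wts]; split_ifs <;> norm_num
  | succ j ih =>
    simp only [wts]
    refine Finset.sum_nonneg fun g' hg' => ?_
    obtain ⟨hne, hg'Λ⟩ := Finset.mem_erase.mp hg'
    exact mul_nonneg (qinfl_nonneg hc _ S hne.symm (notMem_of_disj (hC _) hg) (notMem_of_disj (hC _) hg'Λ))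
      (ih g' hg'Λ)

/-- induction on `j`, `sum_qinfl_le_one` -/
theorem wts_le_one (hc : NegFam c) (S Λ W : Finset α) (C : unitInterval → Finset α)
    (s : ℕ → unitInterval) (hC : ∀ i, Disjoint (C (s i)) Λ) (j : ℕ) (g : α) (hg : g ∈ Λ) : wts c S C Λ W s j g ≤ 1 := by
  induction j generalizing g with
  | zero => simp only [wts]; split_ifs <;> norm_num
  | succ j ih =>
    simp only [wts]
    calc ∑ g' ∈ Λ.erase g, qinfl c (C (s (j + 1))) S g g' * wts c S C Λ W s j g'
        ≤ ∑ g' ∈ Λ.erase g, qinfl c (C (s (j + 1))) S g g' := by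
          refine Finset.sum_le_sum fun g' hg' => ?_
          obtain ⟨hne, hg'Λ⟩ := Finset.mem_erase.mp hg'
          exact mul_le_of_le_one_right
            (qinfl_nonneg hc _ S hne.symm (notMem_of_disj (hC _) hg) (notMem_of_disj (hC _) hg'Λ)) (ih g' hg'Λ)
      _ ≤ 1 := sum_qinfl_le_one hc _ S (notMem_of_disj (hC _) hg) (Finset.notMem_erase g Λ)
          ((hC _).symm.mono_left (Finset.erase_subset _ _))

/-- `wts … j` only sees the configuration in the context at time `s j` (contexts increasing along `s`) -/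
theorem wts_congr (c : Finset α → Finset α → ℝ) {S S' : Finset α} (Λ W : Finset α) (C : unitInterval → Finset α)
    (s : ℕ → unitInterval) (hCs : ∀ i j, i ≤ j → C (s i) ⊆ C (s j)) (j : ℕ) (g : α)
    (h : C (s j) ∩ S = C (s j) ∩ S') : wts c S C Λ W s j g = wts c S' C Λ W s j g := by
  induction j generalizing g with
  | zero => simp only [wts]
  | succ j ih =>
    simp only [wts]
    have h' : C (s j) ∩ S = C (s j) ∩ S' := by
      have hsub := hCs j (j + 1) (Nat.le_succ j)
      calc C (s j) ∩ S = C (s j) ∩ (C (s (j + 1)) ∩ S) := by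
            rw [← Finset.inter_assoc, Finset.inter_eq_left.mpr hsub]
        _ = C (s j) ∩ (C (s (j + 1)) ∩ S') := by rw [h]
        _ = C (s j) ∩ S' := by
            rw [← Finset.inter_assoc, Finset.inter_eq_left.mpr hsub]
    refine Finset.sum_congr rfl fun g' _ => ?_
    rw [qinfl_congr c h, ih g' h']

theorem Qsum_nonneg (hc : NegFam c) (S Λ W : Finset α) (C : unitInterval → Finset α)
    (s : ℕ → unitInterval) (hC : ∀ i, Disjoint (C (s i)) Λ) (n : ℕ) (x : α) (hx : ∀ i, x ∉ C (s i)) : 0 ≤ Qsum c S C Λ W s n x := by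
  unfold Qsum
  refine Finset.sum_nonneg fun g hg => ?_
  obtain ⟨hne, hgΛ⟩ := Finset.mem_erase.mp hg
  exact mul_nonneg (wts_nonneg hc S Λ W C s hC n g hgΛ)
    (qcov_nonneg hc _ S hne (notMem_of_disj (hC _) hgΛ) (hx _))

/-- `wts ≤ 1`, `sum_qcov_le_qvar` (with `qcov_symm`), `qvar_le_quarter` -/
theorem Qsum_le_quarter (hc : NegFam c) (S Λ W : Finset α) (C : unitInterval → Finset α)
    (s : ℕ → unitInterval) (hC : ∀ i, Disjoint (C (s i)) Λ) (n : ℕ) (x : α) (hx : ∀ i, x ∉ C (s i)) :
    Qsum c S C Λ W s n x ≤ 1 / 4 := by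
  unfold Qsum
  calc ∑ g ∈ Λ.erase x, wts c S C Λ W s n g * qcov c (C (s (n + 1))) S g x
      ≤ ∑ g ∈ Λ.erase x, qcov c (C (s (n + 1))) S x g := by
        refine Finset.sum_le_sum fun g hg => ?_
        obtain ⟨hne, hgΛ⟩ := Finset.mem_erase.mp hg
        rw [qcov_symm c _ S x g]
        exact mul_le_of_le_one_left (qcov_nonneg hc _ S hne (notMem_of_disj (hC _) hgΛ) (hx _))
          (wts_le_one hc S Λ W C s hC n g hgΛ)
    _ ≤ qvar c (C (s (n + 1))) S x := sum_qcov_le_qvar hc _ S (hx _) (Finset.notMem_erase x Λ)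
        ((hC _).symm.mono_left (Finset.erase_subset _ _))
    _ ≤ 1 / 4 := qvar_le_quarter hc _ S x

/-! ### D2: the tuple sums -/

/-- consecutive entries are distinct -/
private def Adj {n : ℕ} (k : Fin (n + 1) → α) : Prop := ∀ i : Fin n, k i.castSucc ≠ k i.succ

private lemma adj_of_injective {n : ℕ} {k : Fin (n + 1) → α} (hk : Function.Injective k) : Adj k := by
  intro i h
  have := hk h
  exact (Fin.castSucc_lt_succ (i := i)).ne this

private lemma adj_tail {n : ℕ} {k : Fin (n + 2) → α} (hk : Adj k) : Adj (Fin.tail k) := by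
  intro i
  have := hk i.succ
  show k i.castSucc.succ ≠ k i.succ.succ
  rw [Fin.succ_castSucc]
  exact this

private theorem cwF_nonneg' (hc : NegFam c) (S : Finset α) (C : unitInterval → Finset α) (n : ℕ) (k : Fin (n + 2) → α)
    (s : Fin (n + 2) → unitInterval) (hk : Adj k) (hC : ∀ i j, k i ∉ C (s j)) :
    0 ≤ cwF c S C n k s := by
  induction n with
  | zero =>
    simp only [cwF]
    exact qcov_nonneg hc _ S (by simpa using hk 0) (hC _ _) (hC _ _)
  | succ n ih =>
    simp only [cwF]
    refine mul_nonneg (qinfl_nonneg hc _ S (by simpa using (hk 0).symm) (hC _ _) (hC _ _)) ?_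
    exact ih (Fin.tail k) (Fin.tail s) (adj_tail hk) (fun i j => hC i.succ j.succ)

theorem cwF_nonneg (hc : NegFam c) (S : Finset α) (C : unitInterval → Finset α) (n : ℕ) (k : Fin (n + 2) → α)
    (s : Fin (n + 2) → unitInterval) (hk : Function.Injective k) (hC : ∀ i j, k i ∉ C (s j)) :
    0 ≤ cwF c S C n k s :=
  cwF_nonneg' hc S C n k s (adj_of_injective hk) hC

private instance adjDec {n : ℕ} (k : Fin (n + 1) → α) : Decidable (Adj k) := by
  unfold Adj; infer_instance

private lemma sum_piFinset_succ {n : ℕ} (Λ : Finset α) (F : (Fin (n + 1) → α) → ℝ) :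
    ∑ k ∈ Fintype.piFinset (fun _ : Fin (n + 1) => Λ), F k
      = ∑ g ∈ Λ, ∑ k' ∈ Fintype.piFinset (fun _ : Fin n => Λ), F (Fin.cons g k') := by
  rw [← Finset.sum_product']
  refine Finset.sum_nbij' (fun k => (k 0, Fin.tail k)) (fun p => Fin.cons p.1 p.2) ?_ ?_ ?_ ?_ ?_
  · intro k hk
    simp only [Fintype.mem_piFinset] at hk
    simp only [Finset.mem_product, Fintype.mem_piFinset]
    exact ⟨hk 0, fun i => hk i.succ⟩
  · rintro ⟨g, k'⟩ hp
    simp only [Finset.mem_product, Fintype.mem_piFinset] at hp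
    simp only [Fintype.mem_piFinset]
    intro i
    refine Fin.cases ?_ ?_ i
    · simpa using hp.1
    · intro j; simpa using hp.2 j
  · intro k _; simp
  · rintro ⟨g, k'⟩ _; simp
  · intro k _; simp

/-- `wts` with a general front weight -/
private noncomputable def wtsG (c : Finset α → Finset α → ℝ) (S : Finset α) (C : unitInterval → Finset α)
    (Λ : Finset α) (a : α → ℝ) (s : ℕ → unitInterval) : ℕ → α → ℝ
  | 0, g => a g
  | j + 1, g' => ∑ g ∈ Λ.erase g', qinfl c (C (s (j + 1))) S g' g * wtsG c S C Λ a s j g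

private lemma wts_eq_wtsG (c : Finset α → Finset α → ℝ) (S Λ W : Finset α) (C : unitInterval → Finset α)
    (s : ℕ → unitInterval) (j : ℕ) (g : α) :
    wts c S C Λ W s j g = wtsG c S C Λ (fun g => if g ∈ W then 0 else 1) s j g := by
  induction j generalizing g with
  | zero => simp only [wts, wtsG]
  | succ j ih =>
    simp only [wts, wtsG]
    exact Finset.sum_congr rfl fun g' _ => by rw [ih]

private lemma wtsG_front (c : Finset α → Finset α → ℝ) (S Λ : Finset α) (C : unitInterval → Finset α)
    (a : α → ℝ) (s : ℕ → unitInterval) (j : ℕ) (g' : α) :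
    wtsG c S C Λ a s (j + 1) g'
      = wtsG c S C Λ (fun g' => ∑ g ∈ Λ.erase g', qinfl c (C (s 1)) S g' g * a g) (fun i => s (i + 1)) j g' := by
  induction j generalizing g' with
  | zero => simp only [wtsG, zero_add]
  | succ j ih =>
    rw [wtsG]
    conv_rhs => rw [wtsG]
    exact Finset.sum_congr rfl fun g _ => by rw [ih]

private lemma adj_cons {n : ℕ} (g : α) (k' : Fin (n + 1) → α) :
    Adj (Fin.cons g k' : Fin (n + 2) → α) ↔ g ≠ k' 0 ∧ Adj k' := by
  unfold Adj
  rw [Fin.forall_fin_succ]
  refine and_congr ?_ (forall_congr' fun i => ?_)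
  · simp
  · rw [← Fin.succ_castSucc]; simp

private theorem sum_adj_eq (c : Finset α → Finset α → ℝ) (S Λ : Finset α) (C : unitInterval → Finset α) (x : α)
    (hx : x ∈ Λ) (n : ℕ) : ∀ (a : α → ℝ) (s : ℕ → unitInterval),
    ∑ k ∈ Fintype.piFinset (fun _ : Fin (n + 2) => Λ),
        (if k (Fin.last (n + 1)) = x ∧ Adj k then a (k 0) * cwF c S C n k (fun i => s i) else 0)
      = ∑ g ∈ Λ.erase x, wtsG c S C Λ a s n g * qcov c (C (s (n + 1))) S g x := by
  induction n with
  | zero =>
    intro a s
    rw [sum_piFinset_succ]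
    simp only [sum_piFinset_succ]
    simp only [Fintype.piFinset_of_isEmpty, Finset.univ_unique, Finset.sum_singleton]
    have e1 : ∀ g g' : α, (Fin.cons g (Fin.cons g' default) : Fin 2 → α) (Fin.last (0 + 1)) = g' := by
      intro g g'; rfl
    have e2 : ∀ g g' : α, Adj (Fin.cons g (Fin.cons g' default) : Fin 2 → α) ↔ g ≠ g' := by
      intro g g'
      rw [adj_cons]
      constructor
      · rintro ⟨h, _⟩; simpa using h
      · intro h; exact ⟨by simpa using h, fun i => i.elim0⟩
    have e3 : ∀ g g' : α, cwF c S C 0 (Fin.cons g (Fin.cons g' default) : Fin 2 → α) (fun i => s i)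
        = qcov c (C (s 1)) S g g' := by
      intro g g'; rfl
    simp only [e1, e2, e3, Fin.cons_zero, wtsG, zero_add]
    have e4 : ∀ g ∈ Λ, (∑ g' ∈ Λ, if g' = x ∧ g ≠ g' then a g * qcov c (C (s 1)) S g g' else 0)
        = if g ≠ x then a g * qcov c (C (s 1)) S g x else 0 := by
      intro g _
      rw [Finset.sum_eq_single x]
      · simp
      · intro b _ hb; simp [hb]
      · intro h; exact absurd hx h
    rw [Finset.sum_congr rfl e4, ← Finset.sum_filter, Finset.filter_ne']
  | succ n ih =>
    intro a s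
    rw [sum_piFinset_succ]
    have e1 : ∀ (g : α) (k' : Fin (n + 2) → α),
        (Fin.cons g k' : Fin (n + 3) → α) (Fin.last (n + 1 + 1)) = k' (Fin.last (n + 1)) := by
      intro g k'
      rw [← Fin.succ_last, Fin.cons_succ]
    have e3 : ∀ (g : α) (k' : Fin (n + 2) → α),
        cwF c S C (n + 1) (Fin.cons g k' : Fin (n + 3) → α) (fun i => s i)
          = qinfl c (C (s 1)) S (k' 0) g * cwF c S C n k' (fun i => s (i + 1)) := by
      intro g k'
      rw [cwF, Fin.tail_cons]
      rfl
    simp only [e1, adj_cons, e3, Fin.cons_zero]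
    rw [Finset.sum_comm]
    have e5 : ∀ k' ∈ Fintype.piFinset (fun _ : Fin (n + 2) => Λ),
        (∑ g ∈ Λ, if k' (Fin.last (n + 1)) = x ∧ g ≠ k' 0 ∧ Adj k' then
            a g * (qinfl c (C (s 1)) S (k' 0) g * cwF c S C n k' (fun i => s (i + 1))) else 0)
          = if k' (Fin.last (n + 1)) = x ∧ Adj k' then
              (∑ g ∈ Λ.erase (k' 0), qinfl c (C (s 1)) S (k' 0) g * a g)
                * cwF c S C n k' (fun i => s (i + 1)) else 0 := by
      intro k' _
      by_cases hP : k' (Fin.last (n + 1)) = x ∧ Adj k'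
      · rw [if_pos hP, ← Finset.filter_ne', Finset.sum_filter, Finset.sum_mul]
        refine Finset.sum_congr rfl fun g _ => ?_
        by_cases hg : g = k' 0
        · simp [hg]
        · rw [if_pos ⟨hP.1, hg, hP.2⟩, if_pos hg]; ring
      · rw [if_neg hP]
        refine Finset.sum_eq_zero fun g _ => ?_
        rw [if_neg]
        rintro ⟨h1, _, h3⟩
        exact hP ⟨h1, h3⟩
    rw [Finset.sum_congr rfl e5]
    have := ih (fun g' => ∑ g ∈ Λ.erase g', qinfl c (C (s 1)) S g' g * a g) (fun i => s (i + 1))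
    rw [this]
    exact Finset.sum_congr rfl fun g _ => by rw [wtsG_front]

/-- Relax `Injective k` to `k i ≠ k (i+1)` (all terms are `≥ 0`), then the sum over tuples is the iterated sum.
Suggested: generalise the front weight `fun g => if g ∈ W then 0 else 1` to an arbitrary `a : α → ℝ≥0`, peel `k 0`
(`Fin.consEquiv` / `Fin.cons`), and show that `wts`/`Qsum` satisfy the same front recursion
(`wts (a', s ∘ succ) j = wts (a, s) (j+1)`). -/
theorem sum_cwF_le_Qsum (hc : NegFam c) (S Λ W : Finset α) (C : unitInterval → Finset α)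
    (n : ℕ) (s : Fin (n + 2) → unitInterval) (hC : ∀ i, Disjoint (C (s i)) Λ) (x : α) (hx : x ∈ Λ) :
    ∑ k ∈ Fintype.piFinset (fun _ : Fin (n + 2) => Λ),
        (if k 0 ∉ W ∧ k (Fin.last (n + 1)) = x ∧ Function.Injective k then cwF c S C n k s else 0)
      ≤ Qsum c S C Λ W (extT s) n x := by
  have hs : (fun i : Fin (n + 2) => extT s (i : ℕ)) = s := by
    funext i
    unfold extT
    congr 1
    ext
    have := i.isLt
    simp only [min_def]
    split_ifs <;> omega
  have key := sum_adj_eq c S Λ C x hx n (fun g => if g ∈ W then 0 else 1) (extT s)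
  rw [hs] at key
  unfold Qsum
  simp only [wts_eq_wtsG]
  rw [← key]
  refine Finset.sum_le_sum fun k hk => ?_
  have hkΛ : ∀ i, k i ∈ Λ := Fintype.mem_piFinset.mp hk
  by_cases h1 : k 0 ∉ W ∧ k (Fin.last (n + 1)) = x ∧ Function.Injective k
  · rw [if_pos h1, if_pos ⟨h1.2.1, adj_of_injective h1.2.2⟩, if_neg h1.1, one_mul]
  · rw [if_neg h1]
    by_cases h2 : k (Fin.last (n + 1)) = x ∧ Adj k
    · rw [if_pos h2]
      refine mul_nonneg (by split_ifs <;> norm_num) ?_
      exact cwF_nonneg' hc S C n k s h2.2 (fun i j => notMem_of_disj (hC j) (hkΛ i))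
    · rw [if_neg h2]

/-- `late T B u` is disjoint from `ctx B W u θ t` for `t ≤ T` -/
theorem disjoint_ctx_late (B W : Finset α) (T : unitInterval) (u : α → unitInterval) (θ t : unitInterval) (ht : t ≤ T) :
    Disjoint (ctx B W u θ t) (late T B u) := by
  unfold ctx late
  rw [Finset.disjoint_left]
  intro g h1 h2
  simp only [Finset.mem_filter] at h1 h2
  exact absurd (lt_of_lt_of_le h1.2.1 ht) (not_lt.mpr h2.2.le)

/-- the form used in the assembly -/
theorem sum_EX_cwF_le (hc : NegFam c) (B W : Finset α) (T : unitInterval) (u : α → unitInterval) (n : ℕ)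
    (s : Fin (n + 2) → unitInterval) (hs : ∀ i, s i ≤ T) (o : α) :
    ∑ k ∈ Fintype.piFinset (fun _ : Fin (n + 2) => B),
        (if k 0 ∉ W ∧ k (Fin.last (n + 1)) = o ∧ Function.Injective k ∧ ∀ i, T < u (k i) then
          EX c B (fun S => cwF c S (ctx B W u (s 0)) n k s) else 0)
      ≤ if T < u o then
          EX c B (fun S => Qsum c S (ctx B W u (extT s 0)) (late T B u) W (extT s) n o) else 0 := by
  have h0 : extT s 0 = s 0 := rfl
  rw [h0]
  have hCs : ∀ i, Disjoint (ctx B W u (s 0) (s i)) (late T B u) :=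
    fun i => disjoint_ctx_late B W T u (s 0) (s i) (hs i)
  have hCe : ∀ i, Disjoint (ctx B W u (s 0) (extT s i)) (late T B u) :=
    fun i => disjoint_ctx_late B W T u (s 0) (extT s i) (hs _)
  by_cases hTo : T < u o
  · rw [if_pos hTo]
    by_cases hoB : o ∈ B
    · have hoΛ : o ∈ late T B u := Finset.mem_filter.mpr ⟨hoB, hTo⟩
      have hsub : Fintype.piFinset (fun _ : Fin (n + 2) => late T B u)
          ⊆ Fintype.piFinset (fun _ : Fin (n + 2) => B) :=
        Fintype.piFinset_subset _ _ (fun _ => Finset.filter_subset _ _)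
      rw [← Finset.sum_subset hsub]
      · have step : ∀ k ∈ Fintype.piFinset (fun _ : Fin (n + 2) => late T B u),
            (if k 0 ∉ W ∧ k (Fin.last (n + 1)) = o ∧ Function.Injective k ∧ ∀ i, T < u (k i) then
              EX c B (fun S => cwF c S (ctx B W u (s 0)) n k s) else 0)
            = (if k 0 ∉ W ∧ k (Fin.last (n + 1)) = o ∧ Function.Injective k then
              EX c B (fun S => cwF c S (ctx B W u (s 0)) n k s) else 0) := by
          intro k hk
          have hk' : ∀ i, T < u (k i) := fun i => (Finset.mem_filter.mp (Fintype.mem_piFinset.mp hk i)).2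
          refine if_congr ?_ rfl rfl
          constructor
          · rintro ⟨a1, a2, a3, _⟩; exact ⟨a1, a2, a3⟩
          · rintro ⟨a1, a2, a3⟩; exact ⟨a1, a2, a3, hk'⟩
        rw [Finset.sum_congr rfl step]
        have swap : ∑ k ∈ Fintype.piFinset (fun _ : Fin (n + 2) => late T B u),
            (if k 0 ∉ W ∧ k (Fin.last (n + 1)) = o ∧ Function.Injective k then
              EX c B (fun S => cwF c S (ctx B W u (s 0)) n k s) else 0)
            = EX c B (fun S => ∑ k ∈ Fintype.piFinset (fun _ : Fin (n + 2) => late T B u),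
                (if k 0 ∉ W ∧ k (Fin.last (n + 1)) = o ∧ Function.Injective k then
                  cwF c S (ctx B W u (s 0)) n k s else 0)) := by
          unfold EX
          simp only [Finset.mul_sum]
          rw [Finset.sum_comm]
          refine Finset.sum_congr rfl fun k _ => ?_
          split_ifs
          · rfl
          · simp
        rw [swap]
        exact EX_mono hc B (fun S _ => sum_cwF_le_Qsum hc S (late T B u) W (ctx B W u (s 0)) n s hCs o hoΛ)
      · intro k hkB hkΛ
        rw [if_neg]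
        rintro ⟨_, _, _, a4⟩
        exact hkΛ (Fintype.mem_piFinset.mpr fun i =>
          Finset.mem_filter.mpr ⟨Fintype.mem_piFinset.mp hkB i, a4 i⟩)
    · have hz : ∑ k ∈ Fintype.piFinset (fun _ : Fin (n + 2) => B),
          (if k 0 ∉ W ∧ k (Fin.last (n + 1)) = o ∧ Function.Injective k ∧ ∀ i, T < u (k i) then
            EX c B (fun S => cwF c S (ctx B W u (s 0)) n k s) else 0) = 0 := by
        refine Finset.sum_eq_zero fun k hk => ?_
        rw [if_neg]
        rintro ⟨_, a2, _, _⟩
        exact hoB (a2 ▸ Fintype.mem_piFinset.mp hk _)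
      rw [hz]
      refine EX_nonneg hc B fun S _ => ?_
      refine Qsum_nonneg hc S (late T B u) W (ctx B W u (s 0)) (extT s) hCe n o fun i ho => ?_
      exact hoB (Finset.mem_filter.mp ho).1
  · rw [if_neg hTo]
    refine le_of_eq (Finset.sum_eq_zero fun k _ => ?_)
    rw [if_neg]
    rintro ⟨_, a2, _, a4⟩
    exact hTo (a2 ▸ a4 _)

end Crest.Agent.R168
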