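/-
Row 168 CORE, task B1 (sequential runs along lists: measurability, one-step formulas for the discrepancy
probabilities).  Keep the statements; aux lemmas private.  Uses task A1 (`measure_update`).
-/
import Crest.Agent.R168_C_Resample

set_option autoImplicit false
open MeasureTheory Finset
open Crest.ProbabilityR.Labels
open scoped ENNReal

namespace Crest.Agent.R168

variable {α : Type*} [DecidableEq α] {c : Finset α → Finset α → ℝ}

/-- discrepancy probability at `o` of two runs (two lists, two initial states), same decision variables -/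
noncomputable def disc2 (c : Finset α → Finset α → ℝ) (o : α) (L L' : List α) (I J I' J' : Finset α) : ℝ :=
  ((labelMeasure α) {v | ¬ (o ∈ (runL c v L I J).1 ↔ o ∈ (runL c v L' I' J').1)}).toReal

theorem disc_eq_disc2 (c : Finset α → Finset α → ℝ) (o : α) (L : List α) (I J I' J' : Finset α) :
    disc c o L I J I' J' = disc2 c o L L I J I' J' := rfl

theorem runL_update_of_not_mem (c : Finset α → Finset α → ℝ) (v : α → unitInterval) {g : α} (s : unitInterval)
    {L : List α} (hg : g ∉ L) (I J : Finset α) :
    runL c (Function.update v g s) L I J = runL c v L I J := by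
  induction L generalizing I J with
  | nil => rfl
  | cons a L ih =>
    have hne : a ≠ g := fun h => hg (h ▸ List.mem_cons_self)
    have hg' : g ∉ L := fun h => hg (List.mem_cons_of_mem _ h)
    simp only [runL, Function.update_of_ne hne, ih hg']

theorem runL_append (c : Finset α → Finset α → ℝ) (v : α → unitInterval) (L L' : List α) (I J : Finset α) :
    runL c v (L ++ L') I J = runL c v L' (runL c v L I J).1 (runL c v L I J).2 := by
  induction L generalizing I J with
  | nil => rfl
  | cons a L ih =>
    simp only [List.cons_append, runL]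
    split_ifs
    · exact ih _ _
    · exact ih _ _

/-- sites outside the list keep their status -/
theorem mem_runL_fst_of_not_mem (c : Finset α → Finset α → ℝ) (v : α → unitInterval) {o : α} {L : List α}
    (ho : o ∉ L) (I J : Finset α) : o ∈ (runL c v L I J).1 ↔ o ∈ I := by
  induction L generalizing I J with
  | nil => rfl
  | cons a L ih =>
    have hne : o ≠ a := fun h => ho (h ▸ List.mem_cons_self)
    have ho' : o ∉ L := fun h => ho (List.mem_cons_of_mem _ h)
    simp only [runL]
    split_ifs
    · rw [ih ho']; simp [hne]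
    · rw [ih ho']

omit [DecidableEq α] in
private theorem measurableSet_thr (g : α) (a b : ℝ) :
    MeasurableSet {v : α → unitInterval | (v g : ℝ) * a < b} := by
  have h1 : Measurable (fun v : α → unitInterval => (v g : ℝ) * a) :=
    (measurable_subtype_coe.comp (measurable_pi_apply g)).mul_const a
  exact measurableSet_lt h1 measurable_const

theorem measurableSet_mem_runL (c : Finset α → Finset α → ℝ) (o : α) (L : List α) (I J : Finset α) :
    MeasurableSet {v : α → unitInterval | o ∈ (runL c v L I J).1} := by
  induction L generalizing I J with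
  | nil => simp only [runL]; exact MeasurableSet.const _
  | cons g L ih =>
    have : {v : α → unitInterval | o ∈ (runL c v (g :: L) I J).1}
        = ({v | (v g : ℝ) * c I J < c (insert g I) J} ∩ {v | o ∈ (runL c v L (insert g I) J).1})
          ∪ ({v | (v g : ℝ) * c I J < c (insert g I) J}ᶜ ∩ {v | o ∈ (runL c v L I (insert g J)).1}) := by
      ext v
      simp only [runL, Set.mem_ofPred_eq, Set.mem_union, Set.mem_inter_iff, Set.mem_compl_iff]
      split_ifs with h <;> simp [h]
    rw [this]
    exact ((measurableSet_thr g _ _).inter (ih _ _)).union ((measurableSet_thr g _ _).compl.inter (ih _ _))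

private theorem measurableSet_discSet (c : Finset α → Finset α → ℝ) (o : α) (L L' : List α)
    (I J I' J' : Finset α) :
    MeasurableSet {v : α → unitInterval | ¬ (o ∈ (runL c v L I J).1 ↔ o ∈ (runL c v L' I' J').1)} := by
  have h1 := measurableSet_mem_runL c o L I J
  have h2 := measurableSet_mem_runL c o L' I' J'
  have : {v : α → unitInterval | ¬ (o ∈ (runL c v L I J).1 ↔ o ∈ (runL c v L' I' J').1)}
      = ({v | o ∈ (runL c v L I J).1} ∩ {v | o ∈ (runL c v L' I' J').1}ᶜ)
        ∪ ({v | o ∈ (runL c v L I J).1}ᶜ ∩ {v | o ∈ (runL c v L' I' J').1}) := by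
    ext v
    simp only [Set.mem_ofPred_eq, Set.mem_union, Set.mem_inter_iff, Set.mem_compl_iff]
    tauto
  rw [this]
  exact (h1.inter h2.compl).union (h1.compl.inter h2)

theorem disc2_nonneg (c : Finset α → Finset α → ℝ) (o : α) (L L' : List α) (I J I' J' : Finset α) :
    0 ≤ disc2 c o L L' I J I' J' := ENNReal.toReal_nonneg

theorem disc2_le_one (c : Finset α → Finset α → ℝ) (o : α) (L L' : List α) (I J I' J' : Finset α) :
    disc2 c o L L' I J I' J' ≤ 1 := by
  unfold disc2
  have := ENNReal.toReal_mono ENNReal.one_ne_top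
    (prob_le_one (μ := labelMeasure α)
      (s := {v | ¬ (o ∈ (runL c v L I J).1 ↔ o ∈ (runL c v L' I' J').1)}))
  simpa using this

theorem disc2_self (c : Finset α → Finset α → ℝ) (o : α) (L : List α) (I J : Finset α) :
    disc2 c o L L I J I J = 0 := by
  simp [disc2]

theorem disc2_comm (c : Finset α → Finset α → ℝ) (o : α) (L L' : List α) (I J I' J' : Finset α) :
    disc2 c o L L' I J I' J' = disc2 c o L' L I' J' I J := by
  unfold disc2
  congr 2
  ext v
  simp only [Set.mem_ofPred_eq]
  tauto

theorem disc2_triangle (c : Finset α → Finset α → ℝ) (o : α) (L L' L'' : List α) (I J I' J' I'' J'' : Finset α) :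
    disc2 c o L L'' I J I'' J'' ≤ disc2 c o L L' I J I' J' + disc2 c o L' L'' I' J' I'' J'' := by
  unfold disc2
  rw [← ENNReal.toReal_add (measure_ne_top _ _) (measure_ne_top _ _)]
  apply ENNReal.toReal_mono (ENNReal.add_ne_top.mpr ⟨measure_ne_top _ _, measure_ne_top _ _⟩)
  refine le_trans (measure_mono ?_) (measure_union_le _ _)
  intro v
  simp only [Set.mem_ofPred_eq, Set.mem_union]
  tauto

theorem disc2_nil_nil (c : Finset α → Finset α → ℝ) (o : α) (I J I' J' : Finset α) :
    disc2 c o [] [] I J I' J' = if (o ∈ I ↔ o ∈ I') then 0 else 1 := by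
  unfold disc2
  simp only [runL]
  split_ifs with h
  · simp [h]
  · simp [h]

private theorem thr_eq_Iio {a a1 : ℝ} (ha : 0 < a) (h0 : 0 ≤ a1) (h1 : a1 ≤ a) :
    {s : unitInterval | (s : ℝ) * a < a1}
      = Set.Iio (⟨a1 / a, div_nonneg h0 ha.le, (div_le_one ha).mpr h1⟩ : unitInterval) := by
  ext s
  simp only [Set.mem_ofPred_eq, Set.mem_Iio, ← Subtype.coe_lt_coe, lt_div_iff₀ ha]

/-- probability of the decision `1` -/
theorem volume_thr {a a1 : ℝ} (ha : 0 < a) (h0 : 0 ≤ a1) (h1 : a1 ≤ a) :
    ((volume : Measure unitInterval) {s | (s : ℝ) * a < a1}).toReal = a1 / a := by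
  rw [thr_eq_Iio ha h0 h1, unitInterval.volume_Iio]
  exact ENNReal.toReal_ofReal (div_nonneg h0 ha.le)

private theorem lintegral_ite_const {μ : Measure unitInterval} (A : Set unitInterval) (hA : MeasurableSet A)
    [DecidablePred (· ∈ A)] (x y : ℝ≥0∞) :
    ∫⁻ s, (if s ∈ A then x else y) ∂μ = μ A * x + μ Aᶜ * y := by
  rw [← lintegral_add_compl _ hA]
  congr 1
  · rw [setLIntegral_congr_fun hA (g := fun _ => x) (fun s hs => by simp [hs])]
    rw [setLIntegral_const, mul_comm]
  · rw [setLIntegral_congr_fun hA.compl (g := fun _ => y) (fun s hs => by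
      have : s ∉ A := hs
      simp [this])]
    rw [setLIntegral_const, mul_comm]

/-- Only the first run reveals `g` (first step).  `p = c (insert g I) J / c I J`.
Proof: `measure_update g`, `runL_update_of_not_mem`; the integrand is a step function of `s`. -/
theorem disc2_cons_left (hc : CylFam c) (o : α) {g : α} {L L' : List α} (hg : g ∉ L) (hg' : g ∉ L')
    (I J I' J' : Finset α) (ha : 0 < c I J) :
    disc2 c o (g :: L) L' I J I' J'
      = c (insert g I) J / c I J * disc2 c o L L' (insert g I) J I' J'
        + c I (insert g J) / c I J * disc2 c o L L' I (insert g J) I' J' := by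
  classical
  unfold disc2
  rw [measure_update g _ (measurableSet_discSet c o (g :: L) L' I J I' J')]
  set A : Set unitInterval := {s | (s : ℝ) * c I J < c (insert g I) J} with hA
  have hAm : MeasurableSet A := by
    rw [hA, thr_eq_Iio ha (hc.nonneg _ _) (hc.insert_left_le I J g)]
    exact measurableSet_Iio
  have key : ∀ s : unitInterval,
      (labelMeasure α) {v | Function.update v g s ∈
          {v | ¬ (o ∈ (runL c v (g :: L) I J).1 ↔ o ∈ (runL c v L' I' J').1)}}
        = if s ∈ A then (labelMeasure α) {v | ¬ (o ∈ (runL c v L (insert g I) J).1 ↔ o ∈ (runL c v L' I' J').1)}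
          else (labelMeasure α) {v | ¬ (o ∈ (runL c v L I (insert g J)).1 ↔ o ∈ (runL c v L' I' J').1)} := by
    intro s
    split_ifs with hs
    · congr 1
      ext v
      have hs' : (s : ℝ) * c I J < c (insert g I) J := hs
      simp only [Set.mem_ofPred_eq, runL, Function.update_self, hs', if_true,
        runL_update_of_not_mem c v s hg, runL_update_of_not_mem c v s hg']
    · congr 1
      ext v
      have hs' : ¬ (s : ℝ) * c I J < c (insert g I) J := hs
      simp only [Set.mem_ofPred_eq, runL, Function.update_self, hs', if_false,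
        runL_update_of_not_mem c v s hg, runL_update_of_not_mem c v s hg']
  simp_rw [key]
  rw [lintegral_ite_const A hAm]
  rw [ENNReal.toReal_add (ENNReal.mul_ne_top (measure_ne_top _ _) (measure_ne_top _ _))
    (ENNReal.mul_ne_top (measure_ne_top _ _) (measure_ne_top _ _)), ENNReal.toReal_mul, ENNReal.toReal_mul]
  have hvA : ((volume : Measure unitInterval) A).toReal = c (insert g I) J / c I J :=
    volume_thr ha (hc.nonneg _ _) (hc.insert_left_le I J g)
  have hvAc : ((volume : Measure unitInterval) Aᶜ).toReal = c I (insert g J) / c I J := by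
    rw [prob_compl_eq_one_sub hAm, ENNReal.toReal_sub_of_le prob_le_one ENNReal.one_ne_top, hvA]
    have := hc.split I J g
    simp only [ENNReal.toReal_one]
    field_simp
    linarith
  rw [hvA, hvAc]

private theorem lintegral_ite_ite (A A' : Set unitInterval) (hA : MeasurableSet A) (hA' : MeasurableSet A')
    [DecidablePred (· ∈ A)] [DecidablePred (· ∈ A')] (x11 x10 x01 x00 : ℝ≥0∞) :
    ∫⁻ s, (if s ∈ A then (if s ∈ A' then x11 else x10) else (if s ∈ A' then x01 else x00))
        ∂(volume : Measure unitInterval)
      = volume (A' ∩ A) * x11 + volume (A'ᶜ ∩ A) * x10 + (volume (A' ∩ Aᶜ) * x01 + volume (A'ᶜ ∩ Aᶜ) * x00) := by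
  rw [← lintegral_add_compl _ hA]
  congr 1
  · rw [setLIntegral_congr_fun hA (g := fun s => if s ∈ A' then x11 else x10) (fun s hs => by simp [hs])]
    rw [lintegral_ite_const A' hA', Measure.restrict_apply hA', Measure.restrict_apply hA'.compl]
  · rw [setLIntegral_congr_fun hA.compl (g := fun s => if s ∈ A' then x01 else x00) (fun s hs => by
      have : s ∉ A := hs
      simp [this])]
    rw [lintegral_ite_const A' hA', Measure.restrict_apply hA', Measure.restrict_apply hA'.compl]

private theorem coe_min' (T T' : unitInterval) : ((min T T' : unitInterval) : ℝ) = min (T : ℝ) (T' : ℝ) := by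
  rcases le_total T T' with h | h
  · rw [min_eq_left h, min_eq_left (Subtype.coe_le_coe.mpr h)]
  · rw [min_eq_right h, min_eq_right (Subtype.coe_le_coe.mpr h)]

private theorem coe_max' (T T' : unitInterval) : ((max T T' : unitInterval) : ℝ) = max (T : ℝ) (T' : ℝ) := by
  rcases le_total T T' with h | h
  · rw [max_eq_right h, max_eq_right (Subtype.coe_le_coe.mpr h)]
  · rw [max_eq_left h, max_eq_left (Subtype.coe_le_coe.mpr h)]

private theorem vol11 (T T' : unitInterval) :
    ((volume : Measure unitInterval) (Set.Iio T' ∩ Set.Iio T)).toReal = min (T : ℝ) (T' : ℝ) := by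
  rw [Set.Iio_inter_Iio, unitInterval.volume_Iio, ENNReal.toReal_ofReal (unitInterval.nonneg _)]
  change ((min T' T : unitInterval) : ℝ) = _
  rw [coe_min', min_comm]

private theorem vol10 (T T' : unitInterval) :
    ((volume : Measure unitInterval) ((Set.Iio T')ᶜ ∩ Set.Iio T)).toReal = max ((T : ℝ) - (T' : ℝ)) 0 := by
  rw [Set.compl_Iio, Set.Ici_inter_Iio, unitInterval.volume_Ico, ENNReal.toReal_ofReal']

private theorem vol01 (T T' : unitInterval) :
    ((volume : Measure unitInterval) (Set.Iio T' ∩ (Set.Iio T)ᶜ)).toReal = max ((T' : ℝ) - (T : ℝ)) 0 := by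
  rw [Set.inter_comm, vol10]

private theorem vol00 (T T' : unitInterval) :
    ((volume : Measure unitInterval) ((Set.Iio T')ᶜ ∩ (Set.Iio T)ᶜ)).toReal = 1 - max (T : ℝ) (T' : ℝ) := by
  rw [Set.compl_Iio, Set.compl_Iio, Set.Ici_inter_Ici, unitInterval.volume_Ici,
    ENNReal.toReal_ofReal (by have := unitInterval.le_one (T' ⊔ T); linarith)]
  change 1 - ((max T' T : unitInterval) : ℝ) = _
  rw [coe_max', max_comm]

/-- Both runs reveal `g` with the same decision variable.  `p = c (insert g I) J / c I J`,
`p' = c (insert g I') J' / c I' J'`. -/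
theorem disc2_cons_cons (hc : CylFam c) (o : α) {g : α} {L L' : List α} (hg : g ∉ L) (hg' : g ∉ L')
    (I J I' J' : Finset α) (ha : 0 < c I J) (ha' : 0 < c I' J') :
    disc2 c o (g :: L) (g :: L') I J I' J'
      = min (c (insert g I) J / c I J) (c (insert g I') J' / c I' J')
            * disc2 c o L L' (insert g I) J (insert g I') J'
        + (1 - max (c (insert g I) J / c I J) (c (insert g I') J' / c I' J'))
            * disc2 c o L L' I (insert g J) I' (insert g J')
        + max (c (insert g I) J / c I J - c (insert g I') J' / c I' J') 0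
            * disc2 c o L L' (insert g I) J I' (insert g J')
        + max (c (insert g I') J' / c I' J' - c (insert g I) J / c I J) 0
            * disc2 c o L L' I (insert g J) (insert g I') J' := by
  classical
  unfold disc2
  rw [measure_update g _ (measurableSet_discSet c o (g :: L) (g :: L') I J I' J')]
  set A : Set unitInterval := {s | (s : ℝ) * c I J < c (insert g I) J} with hA
  set A' : Set unitInterval := {s | (s : ℝ) * c I' J' < c (insert g I') J'} with hA'
  have hAe := thr_eq_Iio ha (hc.nonneg _ _) (hc.insert_left_le I J g)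
  have hAe' := thr_eq_Iio ha' (hc.nonneg _ _) (hc.insert_left_le I' J' g)
  rw [← hA] at hAe
  rw [← hA'] at hAe'
  have hAm : MeasurableSet A := by rw [hAe]; exact measurableSet_Iio
  have hAm' : MeasurableSet A' := by rw [hAe']; exact measurableSet_Iio
  have key : ∀ s : unitInterval,
      (labelMeasure α) {v | Function.update v g s ∈
          {v | ¬ (o ∈ (runL c v (g :: L) I J).1 ↔ o ∈ (runL c v (g :: L') I' J').1)}}
        = if s ∈ A then
            (if s ∈ A' then
              (labelMeasure α) {v | ¬ (o ∈ (runL c v L (insert g I) J).1 ↔ o ∈ (runL c v L' (insert g I') J').1)}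
            else
              (labelMeasure α) {v | ¬ (o ∈ (runL c v L (insert g I) J).1 ↔ o ∈ (runL c v L' I' (insert g J')).1)})
          else
            (if s ∈ A' then
              (labelMeasure α) {v | ¬ (o ∈ (runL c v L I (insert g J)).1 ↔ o ∈ (runL c v L' (insert g I') J').1)}
            else
              (labelMeasure α) {v | ¬ (o ∈ (runL c v L I (insert g J)).1 ↔ o ∈ (runL c v L' I' (insert g J')).1)}) := by
    intro s
    split_ifs with hs hs2 hs2
    all_goals
      congr 1
      ext v
      have hs' := hs
      have hs2' := hs2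
      simp only [hA, hA', Set.mem_ofPred_eq] at hs' hs2'
      simp only [Set.mem_ofPred_eq, runL, Function.update_self, hs', hs2', if_true, if_false,
        runL_update_of_not_mem c v s hg, runL_update_of_not_mem c v s hg']
  simp_rw [key]
  rw [lintegral_ite_ite A A' hAm hAm']
  have nt : ∀ (S : Set unitInterval) (E : Set (α → unitInterval)),
      (volume : Measure unitInterval) S * (labelMeasure α) E ≠ ⊤ :=
    fun S E => ENNReal.mul_ne_top (measure_ne_top _ _) (measure_ne_top _ _)
  rw [ENNReal.toReal_add (ENNReal.add_ne_top.mpr ⟨nt _ _, nt _ _⟩) (ENNReal.add_ne_top.mpr ⟨nt _ _, nt _ _⟩),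
    ENNReal.toReal_add (nt _ _) (nt _ _), ENNReal.toReal_add (nt _ _) (nt _ _),
    ENNReal.toReal_mul, ENNReal.toReal_mul, ENNReal.toReal_mul, ENNReal.toReal_mul]
  rw [hAe, hAe', vol11, vol10, vol01, vol00]
  ring

end Crest.Agent.R168
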