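/-
Row 168 CORE, task B2 (**the coupling bound**).  Keep the statements; aux lemmas private.
Uses B1 (`R168_C_Run`), A3 (`R168_C_Cov`), A4 (`R168_C_Exp`).
-/
import Crest.Agent.R168_C_Run
import Crest.Agent.R168_C_Exp

set_option autoImplicit false
open MeasureTheory Finset
open Crest.ProbabilityR.Labels

namespace Crest.Agent.R168

variable {α : Type*} [DecidableEq α] {c : Finset α → Finset α → ℝ}

private lemma cpl_inter_congr_of_subset {A B S S' : Finset α} (hAB : A ⊆ B) (h : B ∩ S = B ∩ S') :
    A ∩ S = A ∩ S' := by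
  ext x
  have hx : x ∈ B ∩ S ↔ x ∈ B ∩ S' := by rw [h]
  simp only [Finset.mem_inter] at hx ⊢
  constructor
  · rintro ⟨h1, h2⟩; exact ⟨h1, (hx.1 ⟨hAB h1, h2⟩).2⟩
  · rintro ⟨h1, h2⟩; exact ⟨h1, (hx.2 ⟨hAB h1, h2⟩).2⟩

/-- `zL` only sees the configuration inside the contexts it visits -/
theorem zL_congr (c : Finset α → Finset α → ℝ) (o : α) (L : List α) (C : Finset α) (h : α) {S S' : Finset α}
    (hS : (C ∪ L.toFinset) ∩ S = (C ∪ L.toFinset) ∩ S') : zL c S o L C h = zL c S' o L C h := by
  induction L generalizing C h with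
  | nil =>
    simp only [zL]
    exact qcov_congr c (cpl_inter_congr_of_subset Finset.subset_union_left hS) h o
  | cons g L ih =>
    simp only [zL]
    rw [List.toFinset_cons] at hS
    have h1 : (insert g C ∪ L.toFinset) ∩ S = (insert g C ∪ L.toFinset) ∩ S' := by
      rw [Finset.insert_union, ← Finset.union_insert]; exact hS
    have h2 : (C ∪ L.toFinset) ∩ S = (C ∪ L.toFinset) ∩ S' :=
      cpl_inter_congr_of_subset (Finset.union_subset_union_right (Finset.subset_insert _ _)) hS
    rw [ih (insert g C) h h1, ih C g h2,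
      qinfl_congr c (cpl_inter_congr_of_subset Finset.subset_union_left hS) g h]

theorem zL_nonneg (hc : NegFam c) (S : Finset α) (o : α) (L : List α) (C : Finset α) (h : α)
    (hnd : (h :: (L ++ [o])).Nodup) (hC : ∀ g ∈ h :: (L ++ [o]), g ∉ C) : 0 ≤ zL c S o L C h := by
  induction L generalizing C h with
  | nil =>
    simp only [zL]
    have hho : h ≠ o := by
      intro e; subst e; simp at hnd
    exact qcov_nonneg hc C S hho (hC h (by simp)) (hC o (by simp))
  | cons g L ih =>
    simp only [zL]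
    rw [List.cons_append] at hnd hC
    have hnd' := List.nodup_cons.1 hnd
    have hnd2 := List.nodup_cons.1 hnd'.2
    have hhg : h ≠ g := by
      intro e; exact hnd'.1 (e ▸ List.mem_cons_self)
    have hn1 : (h :: (L ++ [o])).Nodup :=
      List.nodup_cons.2 ⟨fun hm => hnd'.1 (List.mem_cons_of_mem _ hm), hnd2.2⟩
    have t1 : 0 ≤ zL c S o L (insert g C) h := by
      apply ih (insert g C) h hn1
      intro x hx
      rw [Finset.mem_insert, not_or]
      refine ⟨?_, hC x ?_⟩
      · rcases List.mem_cons.1 hx with e | hx'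
        · rw [e]; exact hhg
        · intro e; exact hnd2.1 (e ▸ hx')
      · rcases List.mem_cons.1 hx with e | hx'
        · rw [e]; exact List.mem_cons_self
        · exact List.mem_cons_of_mem _ (List.mem_cons_of_mem _ hx')
    have t2 : 0 ≤ zL c S o L C g :=
      ih C g hnd'.2 (fun x hx => hC x (List.mem_cons_of_mem _ hx))
    have t3 : 0 ≤ qinfl c C S g h :=
      qinfl_nonneg hc C S hhg.symm (hC g (by simp)) (hC h (by simp))
    exact add_nonneg t1 (mul_nonneg t3 t2)

/-- the right-hand side of the coupling bound: `c(I,J) · u°(L; (I,J); h)` -/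
noncomputable def ubar (c : Finset α → Finset α → ℝ) (o : α) (L : List α) (I J : Finset α) (h : α) : ℝ :=
  ∑ T ∈ L.toFinset.powerset, c (I ∪ T) (J ∪ (L.toFinset \ T)) * zL c (I ∪ T) o L (I ∪ J) h

private lemma cpl_state_inter {I J X : Finset α} (hIJ : Disjoint I J) (hX : ∀ x ∈ X, x ∉ J) :
    (I ∪ J) ∩ (I ∪ X) = I := by
  ext x
  have h1 := hX x
  have h2 : x ∈ I → x ∉ J := fun hx => Finset.disjoint_left.1 hIJ hx
  simp only [Finset.mem_inter, Finset.mem_union]
  tauto

private lemma cpl_state_sdiff {I J X : Finset α} (hIJ : Disjoint I J) (hX : ∀ x ∈ X, x ∉ J) :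
    (I ∪ J) \ (I ∪ X) = J := by
  ext x
  have h1 := hX x
  have h2 : x ∈ I → x ∉ J := fun hx => Finset.disjoint_left.1 hIJ hx
  simp only [Finset.mem_sdiff, Finset.mem_union]
  tauto

private lemma cpl_qinfl_state (c : Finset α → Finset α → ℝ) {I J X : Finset α} (hIJ : Disjoint I J)
    (hX : ∀ x ∈ X, x ∉ J) (g h : α) : qinfl c (I ∪ J) (I ∪ X) g h = cinfl c I J g h := by
  unfold qinfl
  rw [cpl_state_inter hIJ hX, cpl_state_sdiff hIJ hX]

private lemma cpl_qcov_state (c : Finset α → Finset α → ℝ) {I J X : Finset α} (hIJ : Disjoint I J)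
    (hX : ∀ x ∈ X, x ∉ J) (g h : α) : qcov c (I ∪ J) (I ∪ X) g h = ccov c I J g h := by
  unfold qcov
  rw [cpl_state_inter hIJ hX, cpl_state_sdiff hIJ hX]

theorem ubar_nonneg (hc : NegFam c) (o : α) (L : List α) (I J : Finset α) (h : α)
    (hnd : (h :: (L ++ [o])).Nodup) (hI : ∀ x ∈ h :: (L ++ [o]), x ∉ I ∧ x ∉ J) :
    0 ≤ ubar c o L I J h := by
  unfold ubar
  refine Finset.sum_nonneg fun T _ => mul_nonneg (hc.cyl.nonneg _ _) (zL_nonneg hc _ o L _ h hnd ?_)
  intro x hx
  rw [Finset.mem_union, not_or]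
  exact hI x hx

/-- recursion of `ubar` (from the recursion of `zL`, `Finset.sum_powerset_insert`, `zL_congr`, `CylFam.split`):
in the second term `zL … L C g` does not see the status of `g`, so the two masses add up. -/
theorem ubar_cons (hc : NegFam c) (o : α) (g : α) (L : List α) (I J : Finset α) (h : α)
    (hIJ : Disjoint I J) (hnd : (h :: g :: (L ++ [o])).Nodup) (hI : ∀ x ∈ h :: g :: (L ++ [o]), x ∉ I ∧ x ∉ J) :
    ubar c o (g :: L) I J h
      = ubar c o L (insert g I) J h + ubar c o L I (insert g J) h + cinfl c I J g h * ubar c o L I J g := by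
  have hnd' := List.nodup_cons.1 hnd
  have hnd2 := List.nodup_cons.1 hnd'.2
  have hgL : g ∉ L.toFinset := by
    rw [List.mem_toFinset]; exact fun hm => hnd2.1 (List.mem_append_left _ hm)
  have hgI : g ∉ I := (hI g (by simp)).1
  have hgJ : g ∉ J := (hI g (by simp)).2
  have hLJ : ∀ x ∈ L.toFinset, x ∉ J := by
    intro x hx
    rw [List.mem_toFinset] at hx
    exact (hI x (by simp [hx])).2
  unfold ubar
  rw [List.toFinset_cons, Finset.sum_powerset_insert hgL, Finset.mul_sum, ← Finset.sum_add_distrib,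
    ← Finset.sum_add_distrib, ← Finset.sum_add_distrib]
  refine Finset.sum_congr rfl fun T hT => ?_
  have hTL := Finset.mem_powerset.1 hT
  have hgT : g ∉ T := fun hm => hgL (hTL hm)
  have hTJ : ∀ x ∈ T, x ∉ J := fun x hx => hLJ x (hTL hx)
  have hTJ' : ∀ x ∈ insert g T, x ∉ J := by
    intro x hx
    rcases Finset.mem_insert.1 hx with e | hx
    · rw [e]; exact hgJ
    · exact hTJ x hx
  have e1 : J ∪ (insert g L.toFinset \ T) = insert g J ∪ (L.toFinset \ T) := by
    rw [Finset.insert_sdiff_of_notMem _ hgT, Finset.union_insert, ← Finset.insert_union]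
  have e3 : insert g L.toFinset \ insert g T = L.toFinset \ T := by
    rw [Finset.insert_sdiff_insert, Finset.sdiff_insert_of_notMem hgL]
  have e4 : insert g I ∪ T = I ∪ insert g T := by
    rw [Finset.union_insert, ← Finset.insert_union]
  have e5 : insert g (I ∪ J) = insert g I ∪ J := by rw [Finset.insert_union]
  have e6 : insert g (I ∪ J) = I ∪ insert g J := by rw [Finset.union_insert]
  have z1 : zL c (I ∪ insert g T) o L (I ∪ J) g = zL c (I ∪ T) o L (I ∪ J) g := by
    apply zL_congr
    rw [Finset.union_insert, Finset.inter_insert_of_notMem]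
    simp only [Finset.mem_union, not_or]
    exact ⟨⟨hgI, hgJ⟩, hgL⟩
  have sp := hc.cyl.split (I ∪ T) (J ∪ (L.toFinset \ T)) g
  rw [← Finset.insert_union, ← Finset.insert_union, e4] at sp
  simp only [zL]
  rw [e1, e3, e4, cpl_qinfl_state c hIJ hTJ, cpl_qinfl_state c hIJ hTJ', z1, sp, ← e5, ← e6]
  ring

/-! ### real-number lemmas -/

private lemma cpl_abs_form {a a' a1 a1' B : ℝ} (ha : 0 < a) (ha' : 0 < a') (hB0 : 0 ≤ B)
    (h : a' * a1 - a * a1' = B ∨ a * a1' - a' * a1 = B) : a' * |a1 / a - a1' / a'| = B / a := by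
  have e : a1 / a - a1' / a' = (a' * a1 - a * a1') / (a * a') := by
    field_simp
  have habs : |a' * a1 - a * a1'| = B := by
    rcases h with h | h
    · rw [h, abs_of_nonneg hB0]
    · have : a' * a1 - a * a1' = -B := by linarith
      rw [this, abs_neg, abs_of_nonneg hB0]
  rw [e, abs_div, habs, abs_of_pos (mul_pos ha ha')]
  field_simp

private lemma cpl_core {a a' a1 a0 a1' a0' D D1 D0 D10 D01 E1 E0 u1 u0 w B : ℝ}
    (ha : 0 < a) (ha' : 0 < a') (sa : a = a1 + a0) (sa' : a' = a1' + a0')
    (n1 : 0 ≤ a1) (n0 : 0 ≤ a0)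
    (hD : D = min (a1 / a) (a1' / a') * D1 + (1 - max (a1 / a) (a1' / a')) * D0
      + max (a1 / a - a1' / a') 0 * D10 + max (a1' / a' - a1 / a) 0 * D01)
    (t10 : D10 ≤ E1 + E0 + D0) (t01 : D01 ≤ E0 + E1 + D1)
    (i1 : a1' * D1 ≤ u1) (i0 : a0' * D0 ≤ u0) (e1 : a1 * E1 ≤ w) (e0 : a0 * E0 ≤ w)
    (nE1 : 0 ≤ E1) (nE0 : 0 ≤ E0)
    (hB : a' * |a1 / a - a1' / a'| = B / a) (hB0 : 0 ≤ B) (hBle : B ≤ a1 * a0) :
    a' * D ≤ u1 + u0 + B / (a1 * a0) * w := by
  set p := a1 / a with hp
  set p' := a1' / a' with hp'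
  -- step 1
  have s1 : D ≤ p' * D1 + (1 - p') * D0 + |p - p'| * (E0 + E1) := by
    rcases le_total p p' with hle | hle
    · rw [hD, min_eq_left hle, max_eq_right hle, max_eq_right (by linarith : p - p' ≤ 0),
        max_eq_left (by linarith : (0:ℝ) ≤ p' - p), abs_of_nonpos (by linarith : p - p' ≤ 0)]
      have := mul_le_mul_of_nonneg_left t01 (by linarith : (0:ℝ) ≤ p' - p)
      nlinarith [this]
    · rw [hD, min_eq_right hle, max_eq_left hle, max_eq_left (by linarith : (0:ℝ) ≤ p - p'),
        max_eq_right (by linarith : p' - p ≤ 0), abs_of_nonneg (by linarith : (0:ℝ) ≤ p - p')]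
      have := mul_le_mul_of_nonneg_left t10 (by linarith : (0:ℝ) ≤ p - p')
      nlinarith [this]
  -- step 2
  have q1 : a' * p' = a1' := by rw [hp']; field_simp
  have q0 : a' * (1 - p') = a0' := by rw [mul_sub, q1, mul_one, sa']; ring
  have s2 : a' * D ≤ a1' * D1 + a0' * D0 + B / a * (E0 + E1) := by
    have := mul_le_mul_of_nonneg_left s1 ha'.le
    calc a' * D ≤ a' * (p' * D1 + (1 - p') * D0 + |p - p'| * (E0 + E1)) := this
      _ = (a' * p') * D1 + (a' * (1 - p')) * D0 + (a' * |p - p'|) * (E0 + E1) := by ring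
      _ = a1' * D1 + a0' * D0 + B / a * (E0 + E1) := by rw [q1, q0, hB]
  -- step 3
  have s3 : B / a * (E0 + E1) ≤ B / (a1 * a0) * w := by
    rcases (mul_nonneg n1 n0).eq_or_lt with h0 | hpos
    · have hBz : B = 0 := le_antisymm (h0 ▸ hBle) hB0
      rw [hBz]; simp
    · have p1 : 0 < a1 := by
        rcases n1.eq_or_lt with h | h
        · rw [← h] at hpos; simp at hpos
        · exact h
      have p0 : 0 < a0 := by
        rcases n0.eq_or_lt with h | h
        · rw [← h] at hpos; simp at hpos
        · exact h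
      have f1 : E1 ≤ w / a1 := by rw [le_div_iff₀ p1]; linarith
      have f0 : E0 ≤ w / a0 := by rw [le_div_iff₀ p0]; linarith
      have f2 : E0 + E1 ≤ w / a0 + w / a1 := by linarith
      calc B / a * (E0 + E1) ≤ B / a * (w / a0 + w / a1) :=
            mul_le_mul_of_nonneg_left f2 (div_nonneg hB0 ha.le)
        _ = B / (a1 * a0) * w := by
            rw [sa]; field_simp
  linarith

/-! ### one-step lemmas for `disc2` -/

private lemma cpl_base (hc : NegFam c) (o : α) (I J I' J' : Finset α) (ha : 0 < c I J) (ha' : 0 < c I' J')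
    (hoI : o ∉ I) (hoI' : o ∉ I') :
    disc2 c o [o] [o] I J I' J' = |c (insert o I) J / c I J - c (insert o I') J' / c I' J'| := by
  rw [disc2_cons_cons hc.cyl o (List.not_mem_nil) (List.not_mem_nil) I J I' J' ha ha']
  simp only [disc2_nil_nil, Finset.mem_insert_self, hoI, hoI', if_true, if_false, iff_self, iff_false,
    false_iff, not_true_eq_false, not_false_eq_true, mul_zero, mul_one, zero_add, true_iff]
  rcases le_total (c (insert o I) J / c I J) (c (insert o I') J' / c I' J') with hle | hle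
  · rw [max_eq_right (by linarith), max_eq_left (by linarith), abs_of_nonpos (by linarith)]
    ring
  · rw [max_eq_left (by linarith), max_eq_right (by linarith), abs_of_nonneg (by linarith)]
    ring

private lemma cpl_step (hc : NegFam c) (o g : α) (M : List α) (hg : g ∉ M) (I J I' J' : Finset α)
    (ha : 0 < c I J) (ha' : 0 < c I' J') {u1 u0 w B : ℝ}
    (i1 : c (insert g I') J' * disc2 c o M M (insert g I) J (insert g I') J' ≤ u1)
    (i0 : c I' (insert g J') * disc2 c o M M I (insert g J) I' (insert g J') ≤ u0)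
    (e1 : c (insert g I) J * disc2 c o M M I J (insert g I) J ≤ w)
    (e0 : c I (insert g J) * disc2 c o M M I J I (insert g J) ≤ w)
    (hB : c I' J' * |c (insert g I) J / c I J - c (insert g I') J' / c I' J'| = B / c I J)
    (hB0 : 0 ≤ B) (hBle : B ≤ c (insert g I) J * c I (insert g J)) :
    c I' J' * disc2 c o (g :: M) (g :: M) I J I' J'
      ≤ u1 + u0 + B / (c (insert g I) J * c I (insert g J)) * w := by
  have t10 : disc2 c o M M (insert g I) J I' (insert g J')
      ≤ disc2 c o M M I J (insert g I) J + disc2 c o M M I J I (insert g J)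
        + disc2 c o M M I (insert g J) I' (insert g J') := by
    have h1 := disc2_triangle c o M M M (insert g I) J I J I' (insert g J')
    have h2 := disc2_triangle c o M M M I J I (insert g J) I' (insert g J')
    rw [disc2_comm c o M M (insert g I) J I J] at h1
    linarith
  have t01 : disc2 c o M M I (insert g J) (insert g I') J'
      ≤ disc2 c o M M I J I (insert g J) + disc2 c o M M I J (insert g I) J
        + disc2 c o M M (insert g I) J (insert g I') J' := by
    have h1 := disc2_triangle c o M M M I (insert g J) I J (insert g I') J'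
    have h2 := disc2_triangle c o M M M I J (insert g I) J (insert g I') J'
    rw [disc2_comm c o M M I (insert g J) I J] at h1
    linarith
  exact cpl_core ha ha' (hc.cyl.split I J g) (hc.cyl.split I' J' g) (hc.cyl.nonneg _ _) (hc.cyl.nonneg _ _)
    (disc2_cons_cons hc.cyl o hg hg I J I' J' ha ha') t10 t01 i1 i0 e1 e0
    (disc2_nonneg _ _ _ _ _ _ _ _) (disc2_nonneg _ _ _ _ _ _ _ _) hB hB0 hBle

private lemma cpl_hB1 (I J : Finset α) (h g : α) (ha : 0 < c I J) (ha' : 0 < c (insert h I) J)
    (hB0 : 0 ≤ cbar c I J h g) :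
    c (insert h I) J * |c (insert g I) J / c I J - c (insert g (insert h I)) J / c (insert h I) J|
      = cbar c I J h g / c I J := by
  apply cpl_abs_form ha ha' hB0
  left
  unfold cbar
  rw [Finset.insert_comm g h I]

private lemma cpl_hB0 (hc : NegFam c) (I J : Finset α) (h g : α) (ha : 0 < c I J) (ha' : 0 < c I (insert h J))
    (hB0 : 0 ≤ cbar c I J h g) :
    c I (insert h J) * |c (insert g I) J / c I J - c (insert g I) (insert h J) / c I (insert h J)|
      = cbar c I J h g / c I J := by
  apply cpl_abs_form ha ha' hB0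
  right
  exact cbar_zero_form hc I J h g

private lemma cpl_ubar_nil (c : Finset α → Finset α → ℝ) (o : α) {I J : Finset α} (hIJ : Disjoint I J) (h : α) :
    ubar c o [] I J h = cbar c I J h o / c I J := by
  have e : ubar c o [] I J h = c I J * qcov c (I ∪ J) (I ∪ ∅) h o := by
    simp [ubar, zL]
  rw [e, cpl_qcov_state c hIJ (by simp)]
  unfold ccov
  rcases eq_or_ne (c I J) 0 with h0 | h0
  · rw [h0]; simp
  · field_simp

/-- **Coupling bound.**  Let `y = (I,J)`, `y' = y ⊕ (h,a)`.  Then `c(y') · D(L ++ [o]; y, y') ≤ ubar`.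
Induction on `L` (generalising `I J h`), both values of `a` simultaneously.
Base `L = []`: `disc2_cons_cons` gives `D = |p - p'|` and `c(y')|p - p'| = cbar c I J h o / c I J` (`cbar_zero_form`).
Step `L = g :: L'`: if `c(y') = 0` trivial.  Otherwise with `p, p'` as in `disc2_cons_cons`, `D_b = D(L'; y⊕gb, y'⊕gb)`:
 if `p' ≤ p`: `D = p' D_1 + (1-p') D_0 + (p-p')(D_× - D_0)` and `D_× = D(y⊕g1, y'⊕g0) ≤ D(y⊕g1, y) + D(y, y⊕g0) + D_0`
 (triangle inequality through the state `y` in which `g` stays hidden; these are runs along `L'`, which does not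
 contain `g`); symmetric if `p ≤ p'`.  `c(y') p' D_1 = c(y'⊕g1) D_1 ≤ ubar L' (y⊕g1) h` (IH), same for `g0`;
 `c(y')|p-p'| = cbar c I J h g / c I J`;  `D(y, y⊕gb) ≤ ubar L' y g / c(y⊕gb)` (IH with hidden site `g`), and
 `1/a1 + 1/a0 = a/(a1 a0)`; if `a1 a0 = 0` then `cbar = 0` (`cbar_le`).  Conclude with `ubar_cons`. -/
theorem coupling_bound (hc : NegFam c) (o : α) (L : List α) (I J : Finset α) (h : α)
    (hIJ : Disjoint I J) (hnd : (h :: (L ++ [o])).Nodup) (hI : ∀ x ∈ h :: (L ++ [o]), x ∉ I ∧ x ∉ J) :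
    c (insert h I) J * disc2 c o (L ++ [o]) (L ++ [o]) I J (insert h I) J ≤ ubar c o L I J h ∧
    c I (insert h J) * disc2 c o (L ++ [o]) (L ++ [o]) I J I (insert h J) ≤ ubar c o L I J h := by
  induction L generalizing I J h with
  | nil =>
    have hun := ubar_nonneg hc o [] I J h hnd hI
    rw [List.nil_append] at hnd hI ⊢
    have hho : h ≠ o := by
      intro e; subst e; simp at hnd
    have hhI := hI h (by simp)
    have hoI := hI o (by simp)
    have hB0 : 0 ≤ cbar c I J h o := cbar_nonneg hc hIJ hho hhI.1 hhI.2 hoI.1 hoI.2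
    constructor
    · rcases (hc.cyl.nonneg (insert h I) J).eq_or_lt with h0 | hpos
      · rw [← h0, zero_mul]; exact hun
      · have ha : 0 < c I J := lt_of_lt_of_le hpos (hc.cyl.insert_left_le I J h)
        have hoI' : o ∉ insert h I := by
          rw [Finset.mem_insert, not_or]; exact ⟨hho.symm, hoI.1⟩
        rw [cpl_base hc o I J (insert h I) J ha hpos hoI.1 hoI', cpl_hB1 I J h o ha hpos hB0,
          cpl_ubar_nil c o hIJ h]
    · rcases (hc.cyl.nonneg I (insert h J)).eq_or_lt with h0 | hpos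
      · rw [← h0, zero_mul]; exact hun
      · have ha : 0 < c I J := lt_of_lt_of_le hpos (hc.cyl.insert_right_le I J h)
        rw [cpl_base hc o I J I (insert h J) ha hpos hoI.1 hoI.1, cpl_hB0 hc I J h o ha hpos hB0,
          cpl_ubar_nil c o hIJ h]
  | cons g L ih =>
    have hun := ubar_nonneg hc o (g :: L) I J h hnd hI
    rw [List.cons_append] at hnd hI ⊢
    have hnd' := List.nodup_cons.1 hnd
    have hnd2 := List.nodup_cons.1 hnd'.2
    have hhg : h ≠ g := by
      intro e; exact hnd'.1 (e ▸ List.mem_cons_self)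
    have hn1 : (h :: (L ++ [o])).Nodup :=
      List.nodup_cons.2 ⟨fun hm => hnd'.1 (List.mem_cons_of_mem _ hm), hnd2.2⟩
    have hhI := hI h (by simp)
    have hgI := hI g (by simp)
    have hsub : ∀ x ∈ h :: (L ++ [o]), x ∈ h :: g :: (L ++ [o]) := by
      intro x hx
      rcases List.mem_cons.1 hx with e | hx'
      · rw [e]; exact List.mem_cons_self
      · exact List.mem_cons_of_mem _ (List.mem_cons_of_mem _ hx')
    have hne : ∀ x ∈ h :: (L ++ [o]), x ≠ g := by
      intro x hx
      rcases List.mem_cons.1 hx with e | hx'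
      · rw [e]; exact hhg
      · intro e; exact hnd2.1 (e ▸ hx')
    have ihA := ih (insert g I) J h (Finset.disjoint_insert_left.2 ⟨hgI.2, hIJ⟩) hn1 (by
      intro x hx
      refine ⟨?_, (hI x (hsub x hx)).2⟩
      rw [Finset.mem_insert, not_or]
      exact ⟨hne x hx, (hI x (hsub x hx)).1⟩)
    have ihB := ih I (insert g J) h (Finset.disjoint_insert_right.2 ⟨hgI.1, hIJ⟩) hn1 (by
      intro x hx
      refine ⟨(hI x (hsub x hx)).1, ?_⟩
      rw [Finset.mem_insert, not_or]
      exact ⟨hne x hx, (hI x (hsub x hx)).2⟩)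
    have ihC := ih I J g hIJ hnd'.2 (fun x hx => hI x (List.mem_cons_of_mem _ hx))
    have hB0 : 0 ≤ cbar c I J h g := cbar_nonneg hc hIJ hhg hhI.1 hhI.2 hgI.1 hgI.2
    have hBle : cbar c I J h g ≤ c (insert g I) J * c I (insert g J) := by
      rw [cbar_symm]; exact cbar_le hc hIJ hhg.symm hgI.1 hgI.2 hhI.1 hhI.2
    have hrec := ubar_cons hc o g L I J h hIJ hnd hI
    have hcinfl : cinfl c I J g h = cbar c I J h g / (c (insert g I) J * c I (insert g J)) := by
      unfold cinfl; rw [cbar_symm]
    rw [hcinfl] at hrec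
    constructor
    · rcases (hc.cyl.nonneg (insert h I) J).eq_or_lt with h0 | hpos
      · rw [← h0, zero_mul]; exact hun
      · have ha : 0 < c I J := lt_of_lt_of_le hpos (hc.cyl.insert_left_le I J h)
        rw [hrec]
        refine cpl_step hc o g (L ++ [o]) hnd2.1 I J (insert h I) J ha hpos ?_ ihB.1 ihC.1 ihC.2
          (cpl_hB1 I J h g ha hpos hB0) hB0 hBle
        rw [Finset.insert_comm g h I]
        exact ihA.1
    · rcases (hc.cyl.nonneg I (insert h J)).eq_or_lt with h0 | hpos
      · rw [← h0, zero_mul]; exact hun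
      · have ha : 0 < c I J := lt_of_lt_of_le hpos (hc.cyl.insert_right_le I J h)
        rw [hrec]
        refine cpl_step hc o g (L ++ [o]) hnd2.1 I J I (insert h J) ha hpos ihA.2 ?_ ihC.1 ihC.2
          (cpl_hB0 hc I J h g ha hpos hB0) hB0 hBle
        rw [Finset.insert_comm g h J]
        exact ihB.2

end Crest.Agent.R168
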