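/-
Row 168 CORE, task B3 (removing the sites outside `W` from the list, one at a time).  Keep the statements; aux private.
Uses B1 (`R168_C_Run`) and B2 (`coupling_bound`).
-/
import Crest.Agent.R168_C_Couple

set_option autoImplicit false
open MeasureTheory Finset
open Crest.ProbabilityR.Labels

namespace Crest.Agent.R168

variable {α : Type*} [DecidableEq α] {c : Finset α → Finset α → ℝ}

/-- the right-hand side of `insert_bound` (without the factor 2) -/
private noncomputable def ibR (c : Finset α → Finset α → ℝ) (o b : α) (A L : List α) (I J : Finset α) : ℝ :=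
  ∑ T ∈ (A.toFinset ∪ L.toFinset).powerset,
    c (I ∪ T) (J ∪ ((A.toFinset ∪ L.toFinset) \ T)) * zL c (I ∪ T) o L (I ∪ J ∪ A.toFinset) b

private theorem ibR_nonneg (hc : NegFam c) (o b : α) (A L : List α) (I J : Finset α)
    (hnd : (A ++ b :: (L ++ [o])).Nodup) (hI : ∀ x ∈ A ++ b :: (L ++ [o]), x ∉ I ∧ x ∉ J) :
    0 ≤ ibR c o b A L I J := by
  unfold ibR
  refine Finset.sum_nonneg fun T _ => mul_nonneg (hc.cyl.nonneg _ _) ?_
  rw [List.nodup_append] at hnd
  obtain ⟨_, h2, h3⟩ := hnd
  refine zL_nonneg hc _ o L _ b h2 ?_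
  intro x hx
  have hx' := hI x (List.mem_append_right _ hx)
  simp only [Finset.mem_union, List.mem_toFinset, not_or]
  refine ⟨⟨hx'.1, hx'.2⟩, fun hxA => h3 x hxA x hx rfl⟩

private theorem ibR_cons (c : Finset α → Finset α → ℝ) (o b g : α) (A L : List α) (I J : Finset α)
    (hgA : g ∉ A) (hgL : g ∉ L) :
    ibR c o b (g :: A) L I J = ibR c o b A L (insert g I) J + ibR c o b A L I (insert g J) := by
  unfold ibR
  have hg : g ∉ A.toFinset ∪ L.toFinset := by
    simp [hgA, hgL]
  have e0 : (g :: A).toFinset ∪ L.toFinset = insert g (A.toFinset ∪ L.toFinset) := by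
    rw [List.toFinset_cons, Finset.insert_union]
  rw [e0, Finset.sum_powerset_insert hg, add_comm]
  congr 1
  · refine Finset.sum_congr rfl fun T hT => ?_
    have hTB := Finset.mem_powerset.1 hT
    have hgT : g ∉ T := fun h => hg (hTB h)
    have e1 : I ∪ insert g T = insert g I ∪ T := by
      rw [Finset.union_insert, Finset.insert_union]
    have e2 : insert g (A.toFinset ∪ L.toFinset) \ insert g T = (A.toFinset ∪ L.toFinset) \ T := by
      ext x
      simp only [Finset.mem_sdiff, Finset.mem_insert, not_or]
      constructor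
      · rintro ⟨h1 | h1, h2, h3⟩
        · exact absurd h1 h2
        · exact ⟨h1, h3⟩
      · rintro ⟨h1, h2⟩
        exact ⟨Or.inr h1, fun h => hg (h ▸ h1), h2⟩
    have e3 : I ∪ J ∪ (g :: A).toFinset = insert g I ∪ J ∪ A.toFinset := by
      rw [List.toFinset_cons, Finset.union_insert, Finset.insert_union, Finset.insert_union]
    rw [e1, e2, e3]
  · refine Finset.sum_congr rfl fun T hT => ?_
    have hTB := Finset.mem_powerset.1 hT
    have hgT : g ∉ T := fun h => hg (hTB h)
    have e2 : J ∪ insert g (A.toFinset ∪ L.toFinset) \ T = insert g J ∪ (A.toFinset ∪ L.toFinset) \ T := by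
      rw [Finset.insert_sdiff_of_notMem _ hgT, Finset.union_insert, Finset.insert_union]
    have e3 : I ∪ J ∪ (g :: A).toFinset = I ∪ insert g J ∪ A.toFinset := by
      rw [List.toFinset_cons, Finset.union_insert, Finset.union_insert, Finset.insert_union]
    rw [e2, e3]

private theorem ibR_nil (c : Finset α → Finset α → ℝ) (o b : α) (L : List α) (I J : Finset α) :
    ibR c o b [] L I J = ubar c o L I J b := by
  unfold ibR ubar
  simp

private theorem insert_bound_aux (hc : NegFam c) (o b : α) (L : List α) :
    ∀ (A : List α) (I J : Finset α), Disjoint I J → (A ++ b :: (L ++ [o])).Nodup →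
      (∀ x ∈ A ++ b :: (L ++ [o]), x ∉ I ∧ x ∉ J) →
      c I J * disc2 c o (A ++ b :: (L ++ [o])) (A ++ (L ++ [o])) I J I J ≤ 2 * ibR c o b A L I J := by
  intro A
  induction A with
  | nil =>
    intro I J hIJ hnd hI
    rw [ibR_nil]
    simp only [List.nil_append] at hnd hI ⊢
    rcases (hc.cyl.nonneg I J).eq_or_lt with h0 | h0
    · rw [← h0, zero_mul]
      have := ibR_nonneg hc o b [] L I J (by simpa using hnd) (by simpa using hI)
      rw [ibR_nil] at this
      linarith
    · have hb : b ∉ L ++ [o] := (List.nodup_cons.1 hnd).1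
      rw [disc2_cons_left hc.cyl o hb hb I J I J h0]
      obtain ⟨h1, h2⟩ := coupling_bound hc o L I J b hIJ hnd hI
      rw [disc2_comm c o (L ++ [o]) (L ++ [o]) (insert b I) J I J,
        disc2_comm c o (L ++ [o]) (L ++ [o]) I (insert b J) I J]
      have e : c I J * (c (insert b I) J / c I J * disc2 c o (L ++ [o]) (L ++ [o]) I J (insert b I) J
          + c I (insert b J) / c I J * disc2 c o (L ++ [o]) (L ++ [o]) I J I (insert b J))
          = c (insert b I) J * disc2 c o (L ++ [o]) (L ++ [o]) I J (insert b I) J
            + c I (insert b J) * disc2 c o (L ++ [o]) (L ++ [o]) I J I (insert b J) := by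
        field_simp
      rw [e]
      linarith
  | cons g A ih =>
    intro I J hIJ hnd hI
    rcases (hc.cyl.nonneg I J).eq_or_lt with h0 | h0
    · rw [← h0, zero_mul]
      have := ibR_nonneg hc o b (g :: A) L I J hnd hI
      linarith
    · simp only [List.cons_append] at hnd hI ⊢
      have hnd' := (List.nodup_cons.1 hnd).2
      have hg1 : g ∉ A ++ b :: (L ++ [o]) := (List.nodup_cons.1 hnd).1
      have hgA : g ∉ A := fun h => hg1 (List.mem_append_left _ h)
      have hgL : g ∉ L := fun h =>
        hg1 (List.mem_append_right _ (List.mem_cons_of_mem _ (List.mem_append_left _ h)))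
      have hg2 : g ∉ A ++ (L ++ [o]) := by
        intro h
        rcases List.mem_append.1 h with h | h
        · exact hgA h
        · exact hg1 (List.mem_append_right _ (List.mem_cons_of_mem _ h))
      have hgIJ := hI g (List.mem_cons_self)
      rw [disc2_cons_cons hc.cyl o hg1 hg2 I J I J h0 h0, ibR_cons c o b g A L I J hgA hgL]
      have i1 := ih (insert g I) J (by
          rw [Finset.disjoint_insert_left]; exact ⟨hgIJ.2, hIJ⟩) hnd' (by
          intro x hx
          have hx' := hI x (List.mem_cons_of_mem _ hx)
          refine ⟨?_, hx'.2⟩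
          rw [Finset.mem_insert, not_or]
          exact ⟨fun h => hg1 (h ▸ hx), hx'.1⟩)
      have i2 := ih I (insert g J) (by
          rw [Finset.disjoint_insert_right]; exact ⟨hgIJ.1, hIJ⟩) hnd' (by
          intro x hx
          have hx' := hI x (List.mem_cons_of_mem _ hx)
          refine ⟨hx'.1, ?_⟩
          rw [Finset.mem_insert, not_or]
          exact ⟨fun h => hg1 (h ▸ hx), hx'.2⟩)
      have hs := hc.cyl.split I J g
      simp only [min_self, max_self, sub_self, zero_mul, add_zero]
      have e : c I J * (c (insert g I) J / c I J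
            * disc2 c o (A ++ b :: (L ++ [o])) (A ++ (L ++ [o])) (insert g I) J (insert g I) J
          + (1 - c (insert g I) J / c I J)
            * disc2 c o (A ++ b :: (L ++ [o])) (A ++ (L ++ [o])) I (insert g J) I (insert g J))
          = c (insert g I) J
              * disc2 c o (A ++ b :: (L ++ [o])) (A ++ (L ++ [o])) (insert g I) J (insert g I) J
            + c I (insert g J)
              * disc2 c o (A ++ b :: (L ++ [o])) (A ++ (L ++ [o])) I (insert g J) I (insert g J) := by
        have : c I (insert g J) = c I J - c (insert g I) J := by linarith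
        rw [this]
        field_simp
      rw [e]
      linarith

/-- **One site more.**  Runs along `A ++ b :: L ++ [o]` and `A ++ L ++ [o]` from the same state `(I,J)`.
Induction on `A` (generalising `I J`): the first site `g` of `A` gets the same value in both runs
(`disc2_cons_cons` with equal states: `p = p'`), `c(I,J) p = c(insert g I, J)`, and the right-hand side splits
according to `g ∈ T` (`Finset.sum_powerset_insert`).  `A = []`: `disc2_cons_left` for `b`, then `coupling_bound`
(`disc2_comm`) for both values of `b`: this gives the factor `2`.  If `c I J = 0` the left side is `0`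
(right side `≥ 0` by `zL_nonneg`). -/
theorem insert_bound (hc : NegFam c) (o b : α) (A L : List α) (I J : Finset α) (hIJ : Disjoint I J)
    (hnd : (A ++ b :: (L ++ [o])).Nodup) (hI : ∀ x ∈ A ++ b :: (L ++ [o]), x ∉ I ∧ x ∉ J) :
    c I J * disc2 c o (A ++ b :: (L ++ [o])) (A ++ (L ++ [o])) I J I J
      ≤ 2 * ∑ T ∈ (A.toFinset ∪ L.toFinset).powerset,
          c (I ∪ T) (J ∪ ((A.toFinset ∪ L.toFinset) \ T)) * zL c (I ∪ T) o L (I ∪ J ∪ A.toFinset) b :=
  insert_bound_aux hc o b L A I J hIJ hnd hI

/-- the sum of the error terms: `A` = prefix already filtered, second argument = rest of the list -/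
noncomputable def hyb (c : Finset α → Finset α → ℝ) (o : α) (W : Finset α) : List α → List α → ℝ
  | _, [] => 0
  | A, b :: L =>
      if b ∈ W then hyb c o W (A ++ [b]) L
      else EX c (A.toFinset ∪ L.toFinset) (fun S => zL c S o L A.toFinset b) + hyb c o W A L

/-- **Hybrid argument.**  Induction on `ℓ` generalising `A`: if `b ∈ W` nothing changes; if `b ∉ W` use
`disc2_triangle` through the list `A ++ (L ++ [o])` and `insert_bound` with `I = J = ∅` (`c ∅ ∅ = 1`). -/
theorem hybrid_bound (hc : NegFam c) (o : α) (W : Finset α) (A ℓ : List α) (hnd : (A ++ (ℓ ++ [o])).Nodup) :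
    disc2 c o (A ++ (ℓ ++ [o])) (A ++ (ℓ.filter (· ∈ W) ++ [o])) ∅ ∅ ∅ ∅ ≤ 2 * hyb c o W A ℓ := by
  induction ℓ generalizing A with
  | nil =>
    simp only [List.filter_nil, hyb, mul_zero]
    rw [disc2_self]
  | cons b L ih =>
    by_cases hb : b ∈ W
    · have e1 : A ++ (b :: L ++ [o]) = (A ++ [b]) ++ (L ++ [o]) := by simp
      have e2 : A ++ ((b :: L).filter (· ∈ W) ++ [o]) = (A ++ [b]) ++ (L.filter (· ∈ W) ++ [o]) := by
        rw [List.filter_cons_of_pos (by simpa using hb)]
        simp
      rw [e1] at hnd
      rw [e1, e2]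
      have := ih (A ++ [b]) hnd
      simpa [hyb, hb] using this
    · have e2 : (b :: L).filter (· ∈ W) = L.filter (· ∈ W) := by
        rw [List.filter_cons_of_neg (by simpa using hb)]
      rw [e2]
      have e1 : A ++ (b :: L ++ [o]) = A ++ b :: (L ++ [o]) := by simp
      rw [e1] at hnd ⊢
      have hnd2 : (A ++ (L ++ [o])).Nodup := by
        refine hnd.sublist ?_
        exact List.Sublist.append_left (List.sublist_cons_self _ _) _
      have h1 := disc2_triangle c o (A ++ b :: (L ++ [o])) (A ++ (L ++ [o]))
        (A ++ (L.filter (· ∈ W) ++ [o])) ∅ ∅ ∅ ∅ ∅ ∅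
      have h2 := insert_bound hc o b A L ∅ ∅ (Finset.disjoint_empty_left _) hnd (by simp)
      have h3 := ih A hnd2
      rw [hc.one, one_mul] at h2
      have e3 : hyb c o W A (b :: L)
          = EX c (A.toFinset ∪ L.toFinset) (fun S => zL c S o L A.toFinset b) + hyb c o W A L := by
        simp [hyb, hb]
      rw [e3]
      have e4 : ∑ T ∈ (A.toFinset ∪ L.toFinset).powerset,
          c (∅ ∪ T) (∅ ∪ ((A.toFinset ∪ L.toFinset) \ T)) * zL c (∅ ∪ T) o L (∅ ∪ ∅ ∪ A.toFinset) b
          = EX c (A.toFinset ∪ L.toFinset) (fun S => zL c S o L A.toFinset b) := by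
        unfold EX
        simp
      rw [e4] at h2
      linarith

end Crest.Agent.R168
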