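/-
Row 168 (S0254/S0255) team project, part G2 (sub-architect helper33): cylinder masses of a weight on finite sets,
spanning-tree masses of finite pieces, the free-uniform-spanning-forest family.  Shared definitions.
DO NOT EDIT (ask helper33).
-/
import Mathlib
import Crest.Prelude.Def_SpanningTrees

set_option autoImplicit false
open Crest.ProbabilityR.SpanningTrees

namespace Crest.Agent.R168

section abstract
variable {α : Type*} [DecidableEq α]

/-- total weight of the subsets `A ⊆ E` with `I ⊆ A` and `A ∩ J = ∅` (un-normalised cylinder mass) -/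
def mass (p : Finset α → ℝ) (E I J : Finset α) : ℝ :=
  ∑ A ∈ E.powerset.filter (fun A => I ⊆ A ∧ Disjoint A J), p A

/-- (N1), un-normalised: negative pair correlation in every context `(I,J)` -/
def MassN1 (c : Finset α → Finset α → ℝ) : Prop :=
  ∀ I J : Finset α, Disjoint I J → ∀ h g : α, h ≠ g → h ∉ I → h ∉ J → g ∉ I → g ∉ J →
    c (insert h (insert g I)) J * c I J ≤ c (insert h I) J * c (insert g I) J

/-- (N2), un-normalised: `∑_{g ∈ R} |Cov(h,g)| ≤ Var(h)` in every context `(I,J)` -/
def MassN2 (c : Finset α → Finset α → ℝ) : Prop :=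
  ∀ I J : Finset α, Disjoint I J → ∀ h : α, h ∉ I → h ∉ J → ∀ R : Finset α, h ∉ R → Disjoint R I → Disjoint R J →
    ∑ g ∈ R, (c (insert h I) J * c (insert g I) J - c I J * c (insert h (insert g I)) J)
      ≤ c (insert h I) J * (c I J - c (insert h I) J)

/-- the generating polynomial of the weight `p` on subsets of `E` is stable -/
def StableW (p : Finset α → ℝ) (E : Finset α) : Prop :=
  ∀ z : α → ℂ, (∀ i ∈ E, 0 < (z i).im) → ∑ A ∈ E.powerset, (p A : ℂ) * ∏ i ∈ A, z i ≠ 0

end abstract

section trees
variable {V : Type*} [DecidableEq V]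

/-- indicator weight of the spanning trees of the piece -/
noncomputable def treeW (G : SimpleGraph V) (S : Finset V) (A : Finset (Sym2 V)) : ℝ :=
  haveI := Classical.dec (IsSpanningTreeOn G S A)
  if IsSpanningTreeOn G S A then 1 else 0

/-- number (as a real) of spanning trees of the piece that contain `I` and avoid `J` -/
noncomputable def treeMass (G : SimpleGraph V) (S : Finset V) (I J : Finset (Sym2 V)) : ℝ :=
  mass (treeW G S) (edgesIn G S) I J

/-- `lim_S P(F ⊆ UST(G[S]))`, defined canonically as an infimum (`0` if `F` is not a set of edges of `G`: empty infimum) -/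
noncomputable def fusfQ (G : SimpleGraph V) (F : Finset (Sym2 V)) : ℝ :=
  ⨅ S : {S : Finset V // (G.induce (S : Set V)).Connected ∧ F ⊆ edgesIn G S}, ustContains G S.1 F

/-- cylinder masses of the free uniform spanning forest (inclusion-exclusion) -/
noncomputable def fusfM (G : SimpleGraph V) (I J : Finset (Sym2 V)) : ℝ :=
  ∑ K ∈ J.powerset, (-1 : ℝ) ^ K.card * fusfQ G (I ∪ K)

/-- an exhaustion of the vertex set by finite connected induced pieces, as in S0254 -/
structure Exhaustion (G : SimpleGraph V) (S : ℕ → Finset V) : Prop where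
  mono : Monotone S
  cover : ∀ v : V, ∃ n, v ∈ S n
  conn : ∀ n, (G.induce (S n : Set V)).Connected

end trees

end Crest.Agent.R168
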