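/-
Row 168 part G2, task GF1 (elementary properties of cylinder masses).  One owner; keep the statements.
-/
import Crest.Agent.R168_MassDefs

set_option autoImplicit false
open Finset

namespace Crest.Agent.R168
variable {α : Type*} [DecidableEq α]

/-- an (un-normalised) consistent family of cylinder masses -/
structure CylFam (c : Finset α → Finset α → ℝ) : Prop where
  nonneg : ∀ I J, 0 ≤ c I J
  split : ∀ I J g, c I J = c (insert g I) J + c I (insert g J)

/-- every `A` either contains `g` or not (no hypothesis on `g` needed) -/
theorem mass_split (p : Finset α → ℝ) (E I J : Finset α) (g : α) :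
    mass p E I J = mass p E (insert g I) J + mass p E I (insert g J) := by
  unfold mass
  rw [← Finset.sum_filter_add_sum_filter_not
    (E.powerset.filter (fun A => I ⊆ A ∧ Disjoint A J)) (fun A => g ∈ A)]
  congr 1
  · apply Finset.sum_congr _ (fun _ _ => rfl)
    ext A
    simp only [Finset.mem_filter, Finset.mem_powerset, Finset.insert_subset_iff]
    tauto
  · apply Finset.sum_congr _ (fun _ _ => rfl)
    ext A
    simp only [Finset.mem_filter, Finset.mem_powerset, Finset.disjoint_insert_right]
    tauto

theorem mass_nonneg {p : Finset α → ℝ} (hp : ∀ A, 0 ≤ p A) (E I J : Finset α) : 0 ≤ mass p E I J := by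
  unfold mass
  exact Finset.sum_nonneg (fun A _ => hp A)

theorem cylFam_mass {p : Finset α → ℝ} (hp : ∀ A, 0 ≤ p A) (E : Finset α) : CylFam (mass p E) :=
  ⟨mass_nonneg hp E, mass_split p E⟩

theorem mass_eq_zero_of_not_subset (p : Finset α → ℝ) {E I : Finset α} (J : Finset α) (h : ¬ I ⊆ E) :
    mass p E I J = 0 := by
  unfold mass
  rw [Finset.filter_eq_empty_iff.mpr, Finset.sum_empty]
  intro A hA hIA
  exact h (hIA.1.trans (Finset.mem_powerset.mp hA))

namespace CylFam
variable {c : Finset α → Finset α → ℝ}

theorem insert_left_le (hc : CylFam c) (I J : Finset α) (g : α) : c (insert g I) J ≤ c I J := by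
  have := hc.split I J g; have := hc.nonneg I (insert g J); linarith

theorem insert_right_le (hc : CylFam c) (I J : Finset α) (g : α) : c I (insert g J) ≤ c I J := by
  have := hc.split I J g; have := hc.nonneg (insert g I) J; linarith

/-- `split` with `g ∈ I ∩ J` gives `c I J = 2 c I J` -/
theorem eq_zero_of_not_disjoint (hc : CylFam c) {I J : Finset α} (h : ¬ Disjoint I J) : c I J = 0 := by
  rw [Finset.not_disjoint_iff] at h
  obtain ⟨g, hgI, hgJ⟩ := h
  have := hc.split I J g
  rw [Finset.insert_eq_of_mem hgI, Finset.insert_eq_of_mem hgJ] at this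
  linarith

theorem union_left_le (hc : CylFam c) (I F J : Finset α) : c (I ∪ F) J ≤ c I J := by
  induction F using Finset.induction_on with
  | empty => simp
  | insert g F _ ih =>
    rw [Finset.union_insert]
    exact (hc.insert_left_le _ _ _).trans ih

theorem union_right_le (hc : CylFam c) (I J K : Finset α) : c I (J ∪ K) ≤ c I J := by
  induction K using Finset.induction_on with
  | empty => simp
  | insert g K _ ih =>
    rw [Finset.union_insert]
    exact (hc.insert_right_le _ _ _).trans ih

/-- inclusion-exclusion; induction on `J` (`Finset.induction_on`, `Finset.sum_powerset_insert`), generalising `I`: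
`c I (insert g J) = c I J - c (insert g I) J`. -/
theorem incl_excl (hc : CylFam c) (I J : Finset α) :
    c I J = ∑ K ∈ J.powerset, (-1 : ℝ) ^ K.card * c (I ∪ K) ∅ := by
  induction J using Finset.induction_on generalizing I with
  | empty => simp
  | insert g J hg ih =>
    rw [Finset.sum_powerset_insert hg]
    have h1 : c I (insert g J) = c I J - c (insert g I) J := by
      have := hc.split I J g; linarith
    rw [h1, ih I, ih (insert g I), sub_eq_add_neg, ← Finset.sum_neg_distrib]
    congr 1
    apply Finset.sum_congr rfl
    intro K hK
    have hgK : g ∉ K := fun h => hg (Finset.mem_powerset.mp hK h)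
    rw [Finset.card_insert_of_notMem hgK, pow_succ, Finset.union_insert, Finset.insert_union]
    ring

end CylFam

end Crest.Agent.R168
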