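/-
Row 168 (S0254/S0255): the sequential sampler in random order (helper93).
`c I J` = cylinder mass "ones on `I`, zeros on `J`" (format of `R168_MassDefs`), `B` = finite window,
`U` = order labels, `V` = threshold labels.
-/
import Crest.Agent.R168_MassBasic

set_option autoImplicit false
open Finset
open scoped unitInterval

namespace Crest.Agent.R168
variable {α : Type*} [DecidableEq α]

/-- the sites of the window that come before `g` -/
noncomputable def preds (B : Finset α) (U : α → I) (g : α) : Finset α :=
  haveI := Classical.decPred (fun h => U h < U g)
  B.filter (fun h => U h < U g)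

/-- one sampling step at `g`, given the (Bool-valued) values `X` at the earlier sites -/
noncomputable def sampStep (c : Finset α → Finset α → ℝ) (B : Finset α) (U V : α → I) (X : α → Bool)
    (g : α) : Bool :=
  haveI := Classical.dec
    ((V g : ℝ) * c ((preds B U g).filter (fun h => X h = true)) ((preds B U g).filter (fun h => X h = false))
      < c (insert g ((preds B U g).filter (fun h => X h = true))) ((preds B U g).filter (fun h => X h = false)))
  decide ((V g : ℝ) * c ((preds B U g).filter (fun h => X h = true)) ((preds B U g).filter (fun h => X h = false))
      < c (insert g ((preds B U g).filter (fun h => X h = true))) ((preds B U g).filter (fun h => X h = false)))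

/-- the sampler with fuel -/
noncomputable def sampN (c : Finset α → Finset α → ℝ) (B : Finset α) (U V : α → I) : ℕ → α → Bool
  | 0 => fun _ => false
  | k + 1 => sampStep c B U V (sampN c B U V k)

/-- the sampler with window `B` -/
noncomputable def samp (c : Finset α → Finset α → ℝ) (B : Finset α) (U V : α → I) : α → Bool :=
  sampN c B U V (B.card + 1)

theorem mem_preds {B : Finset α} {U : α → I} {g h : α} : h ∈ preds B U g ↔ h ∈ B ∧ U h < U g := by
  classical
  unfold preds
  simp only [Finset.mem_filter]

theorem preds_subset (B : Finset α) (U : α → I) (g : α) : preds B U g ⊆ B := fun _ h =>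
  (mem_preds.mp h).1

theorem preds_ssubset {B : Finset α} {U : α → I} {g h : α} (hh : h ∈ preds B U g) :
    preds B U h ⊂ preds B U g := by
  rw [Finset.ssubset_iff_of_subset]
  · exact ⟨h, hh, fun h2 => lt_irrefl _ (mem_preds.mp h2).2⟩
  · intro x hx
    exact mem_preds.mpr ⟨(mem_preds.mp hx).1, (mem_preds.mp hx).2.trans (mem_preds.mp hh).2⟩

/-- `sampStep` only looks at the values at the earlier sites -/
theorem sampStep_congr (c : Finset α → Finset α → ℝ) (B : Finset α) (U V : α → I) {X Y : α → Bool} (g : α)
    (h : ∀ x ∈ preds B U g, X x = Y x) : sampStep c B U V X g = sampStep c B U V Y g := by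
  have h1 : (preds B U g).filter (fun h => X h = true) = (preds B U g).filter (fun h => Y h = true) :=
    Finset.filter_congr fun x hx => by rw [h x hx]
  have h2 : (preds B U g).filter (fun h => X h = false) = (preds B U g).filter (fun h => Y h = false) :=
    Finset.filter_congr fun x hx => by rw [h x hx]
  unfold sampStep
  simp only [h1, h2]

/-- enough fuel: the value does not depend on the fuel -/
theorem sampN_stable (c : Finset α → Finset α → ℝ) (B : Finset α) (U V : α → I) :
    ∀ (n : ℕ) (g : α), (preds B U g).card ≤ n → ∀ k l, n < k → n < l →
      sampN c B U V k g = sampN c B U V l g := by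
  intro n
  induction n using Nat.strong_induction_on with
  | _ n ih =>
    intro g hg k l hk hl
    obtain ⟨k, rfl⟩ : ∃ k', k = k' + 1 := ⟨k - 1, by omega⟩
    obtain ⟨l, rfl⟩ : ∃ l', l = l' + 1 := ⟨l - 1, by omega⟩
    show sampStep c B U V (sampN c B U V k) g = sampStep c B U V (sampN c B U V l) g
    apply sampStep_congr
    intro x hx
    have hlt : (preds B U x).card < (preds B U g).card := Finset.card_lt_card (preds_ssubset hx)
    exact ih (preds B U x).card (by omega) x le_rfl k l (by omega) (by omega)

/-- **fixed point equation** of the sampler -/
theorem samp_eq (c : Finset α → Finset α → ℝ) (B : Finset α) (U V : α → I) (g : α) :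
    samp c B U V g = sampStep c B U V (samp c B U V) g := by
  have hcard : ∀ x, (preds B U x).card ≤ B.card := fun x => Finset.card_le_card (preds_subset B U x)
  show sampN c B U V (B.card + 1) g = _
  rw [sampN_stable c B U V B.card g (hcard g) (B.card + 1) (B.card + 1 + 1) (by omega) (by omega)]
  rfl

/-- uniqueness: any solution of the fixed point equation on `B ∪ {g}` is the sampler -/
theorem eq_samp_of_fixed (c : Finset α → Finset α → ℝ) (B : Finset α) (U V : α → I) (X : α → Bool)
    (hX : ∀ g ∈ B, X g = sampStep c B U V X g) : ∀ g ∈ B, X g = samp c B U V g := by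
  have key : ∀ (n : ℕ) (g : α), g ∈ B → (preds B U g).card ≤ n → X g = samp c B U V g := by
    intro n
    induction n using Nat.strong_induction_on with
    | _ n ih =>
      intro g hg hn
      rw [hX g hg, samp_eq]
      apply sampStep_congr
      intro x hx
      have hlt : (preds B U x).card < (preds B U g).card := Finset.card_lt_card (preds_ssubset hx)
      exact ih (preds B U x).card (by omega) x (preds_subset B U g hx) le_rfl
  exact fun g hg => key _ g hg le_rfl

end Crest.Agent.R168
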