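/-
Row 168 CORE, task B4 (the sampler is the run along the list of the earlier sites sorted by label).
Keep the statements; aux lemmas private.  Uses `R168_Samp` (helper93: `samp_eq`, `sampStep`, `preds`).
-/
import Crest.Agent.R168_CoreDefs
import Crest.Agent.R168_Samp

set_option autoImplicit false
open Finset

namespace Crest.Agent.R168

variable {α : Type*} [DecidableEq α]

/-- a finite set on which the labels are injective can be listed in increasing order of the labels
(e.g. `(B.toList).mergeSort`/`insertionSort` for `fun a b => u a ≤ u b`, or induction on `B` removing the maximum) -/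
theorem exists_sorted_list (B : Finset α) (u : α → unitInterval) (hu : Set.InjOn u (B : Set α)) :
    ∃ L : List α, L.Pairwise (fun a b => u a < u b) ∧ ∀ g, g ∈ L ↔ g ∈ B := by
  revert hu
  refine Finset.induction_on_max_value u (motive := fun B => Set.InjOn u (B : Set α) →
    ∃ L : List α, L.Pairwise (fun a b => u a < u b) ∧ ∀ g, g ∈ L ↔ g ∈ B) B ?_ ?_
  · intro _
    exact ⟨[], List.Pairwise.nil, by simp⟩
  · intro a s ha hmax ih hinj
    obtain ⟨L, hL, hmem⟩ := ih (hinj.mono (by
      intro x hx
      exact Finset.mem_coe.mpr (Finset.mem_insert_of_mem (Finset.mem_coe.mp hx))))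
    refine ⟨L ++ [a], ?_, ?_⟩
    · rw [List.pairwise_append]
      refine ⟨hL, List.pairwise_singleton _ _, ?_⟩
      intro x hx y hy
      rw [List.mem_singleton] at hy
      subst hy
      have hxs : x ∈ s := (hmem x).mp hx
      refine lt_of_le_of_ne (hmax x hxs) ?_
      intro heq
      have : x = y := hinj (Finset.mem_coe.mpr (Finset.mem_insert_of_mem hxs))
        (Finset.mem_coe.mpr (Finset.mem_insert_self _ _)) heq
      exact ha (this ▸ hxs)
    · intro g
      rw [List.mem_append, List.mem_singleton, Finset.mem_insert, hmem g]
      tauto

private theorem samp_true_iff (c : Finset α → Finset α → ℝ) (B : Finset α) (u v : α → unitInterval) (g : α)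
    (P : Finset α) (hP : preds B u g = P) :
    samp c B u v g = true ↔
      (v g : ℝ) * c (P.filter (fun h => samp c B u v h = true)) (P.filter (fun h => samp c B u v h = false))
        < c (insert g (P.filter (fun h => samp c B u v h = true))) (P.filter (fun h => samp c B u v h = false)) := by
  subst hP
  conv_lhs => rw [samp_eq]
  unfold sampStep
  simp only [decide_eq_true_eq]

private theorem run_aux (c : Finset α → Finset α → ℝ) (B : Finset α) (u v : α → unitInterval) (o : α) :
    ∀ (R : List α) (P : Finset α), R.Pairwise (fun a b => u a < u b) →
      (∀ x, (x ∈ P ∨ x ∈ R) ↔ (x ∈ B ∧ u x < u o)) → (∀ x ∈ P, ∀ y ∈ R, u x < u y) →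
      (samp c B u v o = true ↔
        o ∈ (runL c v (R ++ [o]) (P.filter (fun h => samp c B u v h = true))
          (P.filter (fun h => samp c B u v h = false))).1) := by
  intro R
  induction R with
  | nil =>
    intro P _ hmem _
    have hP : preds B u o = P := by
      ext x
      rw [mem_preds, ← hmem x]
      simp
    have hoP : o ∉ P := by
      intro ho
      have := ((hmem o).mp (Or.inl ho)).2
      exact lt_irrefl _ this
    rw [samp_true_iff c B u v o P hP]
    simp only [List.nil_append, runL]
    split_ifs with hc
    · simp [hc]
    · simp only [hc, false_iff, Finset.mem_filter, not_and]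
      intro ho
      exact absurd ho hoP
  | cons g R ih =>
    intro P hsort hmem hlt
    have hsort' := List.pairwise_cons.mp hsort
    have hg : g ∈ B ∧ u g < u o := (hmem g).mp (Or.inr (List.mem_cons_self))
    have hP : preds B u g = P := by
      ext x
      rw [mem_preds]
      constructor
      · rintro ⟨hxB, hxg⟩
        rcases (hmem x).mpr ⟨hxB, hxg.trans hg.2⟩ with h | h
        · exact h
        · rcases List.mem_cons.mp h with h | h
          · subst h; exact absurd hxg (lt_irrefl _)
          · exact absurd (hxg.trans (hsort'.1 x h)) (lt_irrefl _)
      · intro hx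
        exact ⟨((hmem x).mp (Or.inl hx)).1, hlt x hx g (List.mem_cons_self)⟩
    have hmem' : ∀ x, (x ∈ insert g P ∨ x ∈ R) ↔ (x ∈ B ∧ u x < u o) := by
      intro x
      rw [← hmem x, Finset.mem_insert, List.mem_cons]
      tauto
    have hlt' : ∀ x ∈ insert g P, ∀ y ∈ R, u x < u y := by
      intro x hx y hy
      rcases Finset.mem_insert.mp hx with h | h
      · subst h; exact hsort'.1 y hy
      · exact hlt x h y (List.mem_cons_of_mem _ hy)
    have key := ih (insert g P) hsort'.2 hmem' hlt'
    have hdec := samp_true_iff c B u v g P hP
    rw [key]
    simp only [List.cons_append, runL]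
    split_ifs with hc
    · have hgt : samp c B u v g = true := hdec.mpr hc
      rw [Finset.filter_insert, Finset.filter_insert]
      simp [hgt]
    · have hgf : samp c B u v g = false := by
        cases hs : samp c B u v g with
        | false => rfl
        | true => exact absurd (hdec.mp hs) hc
      rw [Finset.filter_insert, Finset.filter_insert]
      simp [hgf]

/-- Let `L` list the sites of `B` with label `< u o` in increasing order.  Then the value of the sampler at `o` is the
value given to `o` by the run along `L ++ [o]`.  Proof: by induction along prefixes `L = P ++ R`: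
`runL c v P ∅ ∅ = (P.toFinset.filter (samp … = true), P.toFinset.filter (samp … = false))`, because for `g ∈ L`
with prefix `P` before it, `preds B u g = P.toFinset` and `samp_eq` is exactly the decision of `runL`. -/
theorem samp_eq_runL (c : Finset α → Finset α → ℝ) (B : Finset α) (u v : α → unitInterval) (o : α) (L : List α)
    (hsort : L.Pairwise (fun a b => u a < u b)) (hmem : ∀ g, g ∈ L ↔ g ∈ B ∧ u g < u o) :
    samp c B u v o = true ↔ o ∈ (runL c v (L ++ [o]) ∅ ∅).1 := by
  have := run_aux c B u v o L ∅ hsort (by intro x; simp [hmem x]) (by simp)
  simpa using this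

end Crest.Agent.R168
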