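/-
Row 168 CORE, task C1 (from the list functional `zL` to the label functional `Zr`).  Keep the statement; aux private.
Pure combinatorics, only unfolds definitions of `R168_CoreDefs`.
-/
import Crest.Agent.R168_CoreDefs

set_option autoImplicit false
open Finset

namespace Crest.Agent.R168

variable {α : Type*} [DecidableEq α]

/-- `L` lists, in increasing order of the labels, the sites of `B` with label in `(t, so)`; the current context consists
of the sites with label `≤ t` (those outside `W` only if their label is `> θ`).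
Induction on `L` generalising `t h u N`.
`L = []`: `ctx B W u θ so` = the context, and all `Zr (r+1)` are empty sums, so the sum is `Zr 0`.
`L = g :: L'`: `Zr 0 h t u = Zr 0 h (u g) u`;
`Zr (r+1) h t u = qinfl c (ctx B W u θ (u g)) S g h * Zr r g (u g) (update u g 1) + Zr (r+1) h (u g) u`
(split the filter `t < u k` into `k = g` and `u g < u k`), `ctx B W u θ (u g)` = the current context;
IH for `(L', t := u g, h, u, N)` [context `insert g C`] and for `(L', t := u g, h := g, update u g 1, N - 1)`
[context `C`: the site `g` now has label `1`, and `u g < so ≤ 1`].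
(helper75: the hypothesis `hts : t < so` is needed, the statement fails for `so ≤ t`.) -/
theorem zL_eq_sum_Zr (c : Finset α → Finset α → ℝ) (S B W : Finset α) (θ : unitInterval) (o : α) (so : unitInterval)
    (L : List α) (t : unitInterval) (h : α) (u : α → unitInterval) (N : ℕ) (hN : L.length < N)
    (hsort : L.Pairwise (fun a b => u a < u b)) (hmem : ∀ g, g ∈ L ↔ g ∈ B ∧ t < u g ∧ u g < so) (hθ : θ ≤ t)
    (hts : t < so) :
    zL c S o L (B.filter (fun g => u g ≤ t ∧ (g ∈ W ∨ θ < u g))) h
      = ∑ r ∈ range N, Zr c S B W θ o so r h t u := by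
  induction L generalizing t h u N with
  | nil =>
    obtain ⟨n, rfl⟩ : ∃ n, N = n + 1 := ⟨N - 1, by simp at hN; omega⟩
    rw [Finset.sum_range_succ']
    have hempty : B.filter (fun g => t < u g ∧ u g < so) = ∅ := by
      apply Finset.filter_eq_empty_iff.mpr
      intro g hg hcon
      exact List.not_mem_nil ((hmem g).mpr ⟨hg, hcon⟩)
    have h0 : ∀ r, Zr c S B W θ o so (r + 1) h t u = 0 := by
      intro r
      simp only [Zr, hempty, Finset.sum_empty]
    simp only [h0, Finset.sum_const_zero, zero_add]
    simp only [zL, Zr, ctx]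
    congr 1
    apply Finset.filter_congr
    intro g hg
    constructor
    · rintro ⟨h1, h2⟩; exact ⟨lt_of_le_of_lt h1 hts, h2⟩
    · rintro ⟨h1, h2⟩
      refine ⟨?_, h2⟩
      by_contra hcon
      push Not at hcon
      exact List.not_mem_nil ((hmem g).mpr ⟨hg, hcon, h1⟩)
  | cons g L' ih =>
    obtain ⟨n, rfl⟩ : ∃ n, N = n + 1 := ⟨N - 1, by simp at hN; omega⟩
    have hLn : L'.length < n := by simp at hN; omega
    rw [List.pairwise_cons] at hsort
    obtain ⟨hg_lt, hsort'⟩ := hsort
    obtain ⟨hgB, htg, hgso⟩ := (hmem g).mp (List.mem_cons_self)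
    have hgL' : g ∉ L' := fun hgl => lt_irrefl _ (hg_lt g hgl)
    have hθg : θ < u g := lt_of_le_of_lt hθ htg
    -- key dichotomy
    have hdich : ∀ x ∈ B, t < u x → u x < so → x = g ∨ u g < u x := by
      intro x hx h1 h2
      rcases List.mem_cons.mp ((hmem x).mpr ⟨hx, h1, h2⟩) with rfl | hxl
      · exact Or.inl rfl
      · exact Or.inr (hg_lt x hxl)
    have hmem' : ∀ x, x ∈ L' ↔ x ∈ B ∧ u g < u x ∧ u x < so := by
      intro x
      constructor
      · intro hx
        obtain ⟨h1, _, h3⟩ := (hmem x).mp (List.mem_cons_of_mem _ hx)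
        exact ⟨h1, hg_lt x hx, h3⟩
      · rintro ⟨h1, h2, h3⟩
        rcases List.mem_cons.mp ((hmem x).mpr ⟨h1, lt_trans htg h2, h3⟩) with rfl | hxl
        · exact absurd h2 (lt_irrefl _)
        · exact hxl
    set u' : α → unitInterval := Function.update u g 1 with hu'
    have hu'g : u' g = 1 := by simp [hu']
    have hu'x : ∀ x, x ≠ g → u' x = u x := by
      intro x hx; simp [hu', hx]
    have hso1 : ¬ (1 : unitInterval) < so := not_lt.mpr unitInterval.le_one'
    have hg1 : ¬ (1 : unitInterval) ≤ u g := not_le.mpr (lt_of_lt_of_le hgso unitInterval.le_one')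
    have hmem'' : ∀ x, x ∈ L' ↔ x ∈ B ∧ u g < u' x ∧ u' x < so := by
      intro x
      by_cases hx : x = g
      · subst hx
        rw [hu'g]
        constructor
        · intro hh; exact absurd hh hgL'
        · rintro ⟨_, _, h3⟩; exact absurd h3 hso1
      · rw [hu'x x hx]; exact hmem' x
    have hsort'' : L'.Pairwise (fun a b => u' a < u' b) := by
      refine List.Pairwise.imp_of_mem ?_ hsort'
      intro a b ha hb hab
      have ha' : a ≠ g := fun e => hgL' (e ▸ ha)
      have hb' : b ≠ g := fun e => hgL' (e ▸ hb)
      rw [hu'x a ha', hu'x b hb']; exact hab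
    have ih1 := ih (u g) h u (n + 1) (by omega) hsort' hmem' hθg.le hgso
    have ih2 := ih (u g) g u' n hLn hsort'' hmem'' hθg.le hgso
    -- contexts
    have hC1 : B.filter (fun x => u x ≤ u g ∧ (x ∈ W ∨ θ < u x))
        = insert g (B.filter (fun x => u x ≤ t ∧ (x ∈ W ∨ θ < u x))) := by
      ext x
      simp only [Finset.mem_filter, Finset.mem_insert]
      constructor
      · rintro ⟨hx, h1, h2⟩
        by_cases hxt : u x ≤ t
        · exact Or.inr ⟨hx, hxt, h2⟩
        · push Not at hxt
          rcases hdich x hx hxt (lt_of_le_of_lt h1 hgso) with rfl | h3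
          · exact Or.inl rfl
          · exact absurd h1 (not_le.mpr h3)
      · rintro (rfl | ⟨hx, h1, h2⟩)
        · exact ⟨hgB, le_refl _, Or.inr hθg⟩
        · exact ⟨hx, le_trans h1 htg.le, h2⟩
    have hC2 : B.filter (fun x => u' x ≤ u g ∧ (x ∈ W ∨ θ < u' x))
        = B.filter (fun x => u x ≤ t ∧ (x ∈ W ∨ θ < u x)) := by
      apply Finset.filter_congr
      intro x hx
      by_cases hxg : x = g
      · subst hxg
        rw [hu'g]
        constructor
        · rintro ⟨h1, _⟩; exact absurd h1 hg1
        · rintro ⟨h1, _⟩; exact absurd h1 (not_le.mpr htg)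
      · rw [hu'x x hxg]
        constructor
        · rintro ⟨h1, h2⟩
          refine ⟨?_, h2⟩
          by_contra hcon
          push Not at hcon
          rcases hdich x hx hcon (lt_of_le_of_lt h1 hgso) with h3 | h3
          · exact hxg h3
          · exact absurd h1 (not_le.mpr h3)
        · rintro ⟨h1, h2⟩; exact ⟨le_trans h1 htg.le, h2⟩
    have hC3 : ctx B W u θ (u g) = B.filter (fun x => u x ≤ t ∧ (x ∈ W ∨ θ < u x)) := by
      unfold ctx
      apply Finset.filter_congr
      intro x hx
      constructor
      · rintro ⟨h1, h2⟩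
        refine ⟨?_, h2⟩
        by_contra hcon
        push Not at hcon
        rcases hdich x hx hcon (lt_trans h1 hgso) with rfl | h3
        · exact lt_irrefl _ h1
        · exact lt_asymm h1 h3
      · rintro ⟨h1, h2⟩; exact ⟨lt_of_le_of_lt h1 htg, h2⟩
    have hF : B.filter (fun k => t < u k ∧ u k < so)
        = insert g (B.filter (fun k => u g < u k ∧ u k < so)) := by
      ext x
      simp only [Finset.mem_filter, Finset.mem_insert]
      constructor
      · rintro ⟨hx, h1, h2⟩
        rcases hdich x hx h1 h2 with rfl | h3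
        · exact Or.inl rfl
        · exact Or.inr ⟨hx, h3, h2⟩
      · rintro (rfl | ⟨hx, h1, h2⟩)
        · exact ⟨hgB, htg, hgso⟩
        · exact ⟨hx, lt_trans htg h1, h2⟩
    have hgF : g ∉ B.filter (fun k => u g < u k ∧ u k < so) := by
      simp
    have hstep : ∀ r, Zr c S B W θ o so (r + 1) h t u
        = qinfl c (B.filter (fun x => u x ≤ t ∧ (x ∈ W ∨ θ < u x))) S g h * Zr c S B W θ o so r g (u g) u'
          + Zr c S B W θ o so (r + 1) h (u g) u := by
      intro r
      simp only [Zr]
      rw [hF, Finset.sum_insert hgF, hC3]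
    have hzero : Zr c S B W θ o so 0 h t u = Zr c S B W θ o so 0 h (u g) u := by
      simp only [Zr]
    rw [hC1] at ih1
    rw [hC2] at ih2
    simp only [zL]
    rw [ih1, ih2, Finset.sum_range_succ' _ n, Finset.sum_range_succ' _ n, hzero]
    simp only [hstep, Finset.sum_add_distrib, Finset.mul_sum]
    ring

end Crest.Agent.R168
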