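/-
Row 168 CORE, task C3 (**quenched bound**: for fixed injective order labels `u`, the probability over `v` that the
samplers with windows `W ⊆ B` differ at `o` is at most twice the chain sum `QB`).  Keep the statements; aux private.
Uses B3 (`hybrid_bound`), B4 (`samp_eq_runL`, `exists_sorted_list`), C1 (`zL_eq_sum_Zr`), C2 (`Zr_eq_sum_tuples`),
B2 (`zL_congr`), A4 (`EX_restrict`).
-/
import Crest.Agent.R168_C_Hybrid
import Crest.Agent.R168_C_SampRun
import Crest.Agent.R168_C_ZL
import Crest.Agent.R168_C_Tuples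

set_option autoImplicit false
open MeasureTheory Finset
open Crest.ProbabilityR.Labels
open scoped ENNReal

namespace Crest.Agent.R168

variable {α : Type*} [DecidableEq α] {c : Finset α → Finset α → ℝ}

/-- the quenched chain sum -/
noncomputable def QB (c : Finset α → Finset α → ℝ) (B W : Finset α) (o : α) (u : α → unitInterval) : ℝ :=
  ∑ n ∈ range B.card, ∑ k ∈ Fintype.piFinset (fun _ : Fin (n + 2) => B),
    if k 0 ∉ W ∧ k (Fin.last (n + 1)) = o ∧ StrictMono (u ∘ k) then
      EX c B (fun S => cwF c S (ctx B W (hideS (univ.image k) u) (u (k 0))) n k (u ∘ k)) else 0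

/-- One error term of `hyb`.  `P` = sites of `W` before `b` (sorted), `L` = sites of `B` between `b` and `o` (sorted).
`EX_restrict` + `zL_congr` enlarge the sample to `B`; `zL_eq_sum_Zr` with `u' = update (update u b 1) o 1`,
`t = θ = u b`, `so = u o`, `N = B.card` (`L.length ≤ B.card - 2`): the context
`B.filter (fun g => u' g ≤ u b ∧ (g ∈ W ∨ u b < u' g))` is `P.toFinset`. -/
theorem hyb_term_eq (hc : NegFam c) (B W : Finset α) (hWB : W ⊆ B) (o b : α) (ho : o ∈ W) (hb : b ∈ B) (hbW : b ∉ W)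
    (u : α → unitInterval) (hu : Set.InjOn u (B : Set α)) (hbo : u b < u o) (P L : List α)
    (hP : ∀ g, g ∈ P ↔ g ∈ W ∧ u g < u b)
    (hLs : L.Pairwise (fun x y => u x < u y)) (hL : ∀ g, g ∈ L ↔ g ∈ B ∧ u b < u g ∧ u g < u o) :
    EX c (P.toFinset ∪ L.toFinset) (fun S => zL c S o L P.toFinset b)
      = EX c B (fun S => ∑ r ∈ range B.card,
          Zr c S B W (u b) o (u o) r b (u b) (Function.update (Function.update u b 1) o 1)) := by
  have hsub : P.toFinset ∪ L.toFinset ⊆ B := by
    intro g hg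
    rw [Finset.mem_union, List.mem_toFinset, List.mem_toFinset] at hg
    rcases hg with hg | hg
    · exact hWB ((hP g).1 hg).1
    · exact ((hL g).1 hg).1
  rw [← EX_restrict hc hsub (fun S => zL c S o L P.toFinset b) (fun S => zL_congr c o L _ b (by
    ext x; simp only [Finset.mem_inter]; tauto))]
  have hbo' : b ≠ o := fun h => by rw [h] at hbo; exact lt_irrefl _ hbo
  set u' := Function.update (Function.update u b 1) o 1 with hu'
  have hu'o : u' o = 1 := by simp [hu']
  have hu'b : u' b = 1 := by simp [hu', hbo']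
  have hu'g : ∀ g, g ≠ b → g ≠ o → u' g = u g := by
    intro g h1 h2; simp [hu', h1, h2]
  have hbL : b ∉ L := fun h => lt_irrefl _ ((hL b).1 h).2.1
  have hoL : o ∉ L := fun h => lt_irrefl _ ((hL o).1 h).2.2
  have hu'L : ∀ g ∈ L, u' g = u g := fun g hg =>
    hu'g g (fun h => hbL (h ▸ hg)) (fun h => hoL (h ▸ hg))
  have hle1 : ∀ x : unitInterval, x ≤ 1 := fun x => unitInterval.le_one' 
  have hctx : B.filter (fun g => u' g ≤ u b ∧ (g ∈ W ∨ u b < u' g)) = P.toFinset := by
    ext g
    rw [Finset.mem_filter, List.mem_toFinset, hP]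
    constructor
    · rintro ⟨hgB, h1, h2⟩
      have hgW : g ∈ W := h2.resolve_right (not_lt.2 h1)
      have hgb : g ≠ b := fun h => hbW (h ▸ hgW)
      have hgo : g ≠ o := by
        rintro rfl
        rw [hu'o] at h1
        exact absurd (lt_of_lt_of_le hbo (hle1 _)) (not_lt.2 h1)
      rw [hu'g g hgb hgo] at h1
      exact ⟨hgW, lt_of_le_of_ne h1 fun h => hgb (hu hgB hb h)⟩
    · rintro ⟨hgW, h1⟩
      have hgb : g ≠ b := fun h => hbW (h ▸ hgW)
      have hgo : g ≠ o := by
        rintro rfl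
        exact lt_asymm h1 hbo
      exact ⟨hWB hgW, by rw [hu'g g hgb hgo]; exact h1.le, Or.inl hgW⟩
  have hnd : L.Nodup := hLs.imp (fun h => fun e => by rw [e] at h; exact lt_irrefl _ h)
  have hlen : L.length < B.card := by
    rw [← List.toFinset_card_of_nodup hnd]
    apply Finset.card_lt_card
    rw [Finset.ssubset_iff_of_subset (fun g hg => ((hL g).1 (List.mem_toFinset.1 hg)).1)]
    exact ⟨b, hb, fun h => hbL (List.mem_toFinset.1 h)⟩
  congr 1
  funext S
  rw [← hctx]
  apply zL_eq_sum_Zr c S B W (u b) o (u o) L (u b) b u' B.card hlen _ _ le_rfl hbo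
  · refine List.Pairwise.imp_of_mem ?_ hLs
    intro x y hx hy h
    rwa [hu'L x hx, hu'L y hy]
  · intro g
    constructor
    · intro hg
      rw [hu'L g hg]
      exact (hL g).1 hg
    · rintro ⟨hgB, h1, h2⟩
      have hgb : g ≠ b := by
        rintro rfl
        rw [hu'b] at h2
        exact absurd h2 (not_lt.2 (hle1 _))
      have hgo : g ≠ o := by
        rintro rfl
        rw [hu'o] at h2
        exact absurd h2 (not_lt.2 (hle1 _))
      rw [hu'g g hgb hgo] at h1 h2
      exact (hL g).2 ⟨hgB, h1, h2⟩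

private theorem hyb_eq_aux (hc : NegFam c) (B W : Finset α) (hWB : W ⊆ B) (o : α) (ho : o ∈ W)
    (u : α → unitInterval) (hu : Set.InjOn u (B : Set α)) (ℓ : List α) : ∀ (A : List α),
    ℓ.Pairwise (fun x y => u x < u y) → (∀ g ∈ ℓ, g ∈ B ∧ u g < u o) →
    (∀ g, g ∈ B → u g < u o → g ∉ ℓ → ∀ x ∈ ℓ, u g < u x) →
    (∀ g, g ∈ A ↔ g ∈ W ∧ u g < u o ∧ g ∉ ℓ) →
    hyb c o W A ℓ = ∑ b ∈ (B \ W).filter (fun b => b ∈ ℓ),
      EX c B (fun S => ∑ r ∈ range B.card,
          Zr c S B W (u b) o (u o) r b (u b) (Function.update (Function.update u b 1) o 1)) := by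
  induction ℓ with
  | nil =>
    intro A _ _ _ _
    simp [hyb]
  | cons b L ih =>
    intro A hs hel hfin hA
    rw [List.pairwise_cons] at hs
    obtain ⟨hbL, hsL⟩ := hs
    have hbnL : b ∉ L := fun h => lt_irrefl _ (hbL b h)
    have hbB := (hel b (by simp)).1
    have hbo := (hel b (by simp)).2
    have hel' : ∀ g ∈ L, g ∈ B ∧ u g < u o := fun g hg => hel g (by simp [hg])
    have hfin' : ∀ g, g ∈ B → u g < u o → g ∉ L → ∀ x ∈ L, u g < u x := by
      intro g hgB hgo hgL x hx
      by_cases hgb : g = b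
      · rw [hgb]; exact hbL x hx
      · exact hfin g hgB hgo (by simp [hgb, hgL]) x (by simp [hx])
    by_cases hbW : b ∈ W
    · have h1 : hyb c o W A (b :: L) = hyb c o W (A ++ [b]) L := by
        simp [hyb, hbW]
      rw [h1, ih (A ++ [b]) hsL hel' hfin' ?_]
      · apply Finset.sum_congr _ (fun _ _ => rfl)
        ext x
        simp only [Finset.mem_filter, Finset.mem_sdiff, List.mem_cons]
        constructor
        · rintro ⟨h, hx⟩; exact ⟨h, Or.inr hx⟩
        · rintro ⟨h, hx | hx⟩
          · exact absurd (hx ▸ hbW) h.2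
          · exact ⟨h, hx⟩
      · intro g
        rw [List.mem_append, hA, List.mem_singleton, List.mem_cons, not_or]
        constructor
        · rintro (⟨h1, h2, _, h4⟩ | rfl)
          · exact ⟨h1, h2, h4⟩
          · exact ⟨hbW, hbo, hbnL⟩
        · rintro ⟨h1, h2, h3⟩
          by_cases hgb : g = b
          · exact Or.inr hgb
          · exact Or.inl ⟨h1, h2, hgb, h3⟩
    · have h1 : hyb c o W A (b :: L)
          = EX c (A.toFinset ∪ L.toFinset) (fun S => zL c S o L A.toFinset b) + hyb c o W A L := by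
        simp [hyb, hbW]
      have hPA : ∀ g, g ∈ A ↔ g ∈ W ∧ u g < u b := by
        intro g
        rw [hA]
        constructor
        · rintro ⟨h1, h2, h3⟩
          exact ⟨h1, hfin g (hWB h1) h2 h3 b (by simp)⟩
        · rintro ⟨h1, h2⟩
          refine ⟨h1, h2.trans hbo, ?_⟩
          rw [List.mem_cons, not_or]
          exact ⟨fun h => by rw [h] at h2; exact lt_irrefl _ h2, fun h => lt_asymm h2 (hbL g h)⟩
      have hLm : ∀ g, g ∈ L ↔ g ∈ B ∧ u b < u g ∧ u g < u o := by
        intro g
        constructor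
        · intro hg
          exact ⟨(hel' g hg).1, hbL g hg, (hel' g hg).2⟩
        · rintro ⟨h1, h2, h3⟩
          by_contra hgL
          have hgb : g ≠ b := fun h => by rw [h] at h2; exact lt_irrefl _ h2
          exact lt_asymm h2 (hfin g h1 h3 (by simp [hgb, hgL]) b (by simp))
      rw [h1, hyb_term_eq hc B W hWB o b ho hbB hbW u hu hbo A L hPA hsL hLm, ih A hsL hel' hfin' ?_]
      · have hins : (B \ W).filter (fun x => x ∈ b :: L) = insert b ((B \ W).filter (fun x => x ∈ L)) := by
          ext x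
          simp only [Finset.mem_filter, Finset.mem_sdiff, List.mem_cons, Finset.mem_insert]
          constructor
          · rintro ⟨h, hx | hx⟩
            · exact Or.inl hx
            · exact Or.inr ⟨h, hx⟩
          · rintro (rfl | ⟨h, hx⟩)
            · exact ⟨⟨hbB, hbW⟩, Or.inl rfl⟩
            · exact ⟨h, Or.inr hx⟩
        rw [hins, Finset.sum_insert (by simp [hbnL])]
      · intro g
        rw [hA, List.mem_cons, not_or]
        constructor
        · rintro ⟨h1, h2, _, h4⟩; exact ⟨h1, h2, h4⟩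
        · rintro ⟨h1, h2, h3⟩; exact ⟨h1, h2, fun h => hbW (h ▸ h1), h3⟩

/-- `hyb` along the sorted list.  Induction on `ℓ` generalising the prefix: invariant
"`A` lists the sites `g ∈ W` with `u g <` all labels of `ℓ`" (i.e. `A = (earlier part).filter (· ∈ W)`). -/
theorem hyb_eq (hc : NegFam c) (B W : Finset α) (hWB : W ⊆ B) (o : α) (ho : o ∈ W)
    (u : α → unitInterval) (hu : Set.InjOn u (B : Set α)) (ℓ : List α)
    (hs : ℓ.Pairwise (fun x y => u x < u y)) (hm : ∀ g, g ∈ ℓ ↔ g ∈ B ∧ u g < u o) :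
    hyb c o W [] ℓ = ∑ b ∈ (B \ W).filter (fun b => u b < u o),
      EX c B (fun S => ∑ r ∈ range B.card,
          Zr c S B W (u b) o (u o) r b (u b) (Function.update (Function.update u b 1) o 1)) := by
  rw [hyb_eq_aux hc B W hWB o ho u hu ℓ [] hs (fun g hg => (hm g).1 hg)
    (fun g h1 h2 h3 => absurd ((hm g).2 ⟨h1, h2⟩) h3)
    (fun g => by
      simp only [List.not_mem_nil, false_iff, not_and, not_not]
      exact fun h1 h2 => (hm g).2 ⟨hWB h1, h2⟩)]
  apply Finset.sum_congr _ (fun _ _ => rfl)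
  ext x
  simp only [Finset.mem_filter, Finset.mem_sdiff, hm]
  tauto

private theorem EX_sum {ι : Type*} (c : Finset α → Finset α → ℝ) (B : Finset α) (s : Finset ι)
    (f : ι → Finset α → ℝ) : EX c B (fun S => ∑ i ∈ s, f i S) = ∑ i ∈ s, EX c B (f i) := by
  unfold EX
  simp only [Finset.mul_sum]
  exact Finset.sum_comm

private theorem EX_ite (c : Finset α → Finset α → ℝ) (B : Finset α) (p : Prop) [Decidable p]
    (f : Finset α → ℝ) : EX c B (fun S => if p then f S else 0) = if p then EX c B f else 0 := by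
  by_cases h : p
  · simp [h]
  · simp [h, EX]

/-- `Zr_eq_sum_tuples`, exchange of finite sums (`EX` is a finite sum), the tuples with `k 0 = b`, `b ∈ B \ W`,
`u b < u o` are exactly those with `k 0 ∉ W` (given `k last = o`, `StrictMono (u ∘ k)`). -/
theorem sum_Zr_eq_QB (c : Finset α → Finset α → ℝ) (B W : Finset α) (o : α) (ho : o ∈ B) (u : α → unitInterval) :
    ∑ b ∈ (B \ W).filter (fun b => u b < u o),
      EX c B (fun S => ∑ r ∈ range B.card,
          Zr c S B W (u b) o (u o) r b (u b) (Function.update (Function.update u b 1) o 1))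
      = QB c B W o u := by
  classical
  have h1 : ∀ b ∈ (B \ W).filter (fun b => u b < u o),
      EX c B (fun S => ∑ r ∈ range B.card,
          Zr c S B W (u b) o (u o) r b (u b) (Function.update (Function.update u b 1) o 1))
      = ∑ r ∈ range B.card, ∑ k ∈ Fintype.piFinset (fun _ : Fin (r + 2) => B),
          if k 0 = b ∧ k (Fin.last (r + 1)) = o ∧ StrictMono (u ∘ k) then
            EX c B (fun S => cwF c S (ctx B W (hideS (univ.image k) u) (u b)) r k (u ∘ k)) else 0 := by
    intro b hb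
    rw [Finset.mem_filter, Finset.mem_sdiff] at hb
    rw [EX_sum]
    refine Finset.sum_congr rfl fun r _ => ?_
    simp only [Zr_eq_sum_tuples c _ B W u b o hb.1.1 ho hb.2 r]
    rw [EX_sum]
    refine Finset.sum_congr rfl fun k _ => ?_
    rw [EX_ite]
  rw [Finset.sum_congr rfl h1, Finset.sum_comm]
  unfold QB
  refine Finset.sum_congr rfl fun r _ => ?_
  rw [Finset.sum_comm]
  refine Finset.sum_congr rfl fun k hk => ?_
  have hk0 : k 0 ∈ B := (Fintype.mem_piFinset.1 hk) 0
  by_cases hQ : k (Fin.last (r + 1)) = o ∧ StrictMono (u ∘ k)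
  · have hlt : u (k 0) < u o := by
      have := hQ.2 (show (0 : Fin (r + 2)) < Fin.last (r + 1) from Fin.last_pos)
      simpa [hQ.1] using this
    by_cases hW : k 0 ∈ W
    · rw [if_neg (fun h => h.1 hW)]
      refine Finset.sum_eq_zero fun b hb => ?_
      rw [Finset.mem_filter, Finset.mem_sdiff] at hb
      rw [if_neg]
      rintro ⟨rfl, _⟩
      exact hb.1.2 hW
    · rw [if_pos ⟨hW, hQ⟩]
      rw [Finset.sum_eq_single (k 0)]
      · rw [if_pos ⟨rfl, hQ⟩]
      · intro b _ hbk
        rw [if_neg (fun h => hbk h.1.symm)]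
      · intro h
        exact absurd (Finset.mem_filter.2 ⟨Finset.mem_sdiff.2 ⟨hk0, hW⟩, hlt⟩) h
  · rw [if_neg (fun h => hQ h.2)]
    exact Finset.sum_eq_zero fun b _ => if_neg (fun h => hQ h.2)

/-- **Quenched bound.**  Sorted list `ℓ` of `{g ∈ B | u g < u o}` (`exists_sorted_list`); `ℓ.filter (· ∈ W)` is the sorted
list of `{g ∈ W | u g < u o}`; `samp_eq_runL` for both windows; `hybrid_bound` with `A = []`; `hyb_eq`; `sum_Zr_eq_QB`. -/
theorem quenched_bound (hc : NegFam c) (B W : Finset α) (hWB : W ⊆ B) (o : α) (ho : o ∈ W)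
    (u : α → unitInterval) (hu : Set.InjOn u (B : Set α)) :
    (labelMeasure α) {v | samp c W u v o ≠ samp c B u v o} ≤ ENNReal.ofReal (2 * QB c B W o u) := by
  classical
  obtain ⟨ℓ, hs, hm⟩ := exists_sorted_list (B.filter (fun g => u g < u o)) u
    (hu.mono (by intro x hx; exact (Finset.mem_filter.1 hx).1))
  have hm' : ∀ g, g ∈ ℓ ↔ g ∈ B ∧ u g < u o := fun g => by rw [hm, Finset.mem_filter]
  have hsW : (ℓ.filter (· ∈ W)).Pairwise (fun a b => u a < u b) := hs.filter _
  have hmW : ∀ g, g ∈ ℓ.filter (· ∈ W) ↔ g ∈ W ∧ u g < u o := by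
    intro g
    rw [List.mem_filter, hm']
    simp only [decide_eq_true_eq]
    exact ⟨fun h => ⟨h.2, h.1.2⟩, fun h => ⟨⟨hWB h.1, h.2⟩, h.1⟩⟩
  have hset : {v | samp c W u v o ≠ samp c B u v o}
      = {v | ¬ (o ∈ (runL c v ([] ++ (ℓ ++ [o])) ∅ ∅).1 ↔ o ∈ (runL c v ([] ++ (ℓ.filter (· ∈ W) ++ [o])) ∅ ∅).1)} := by
    ext v
    simp only [Set.mem_ofPred_eq, List.nil_append]
    rw [← samp_eq_runL c B u v o ℓ hs hm', ← samp_eq_runL c W u v o _ hsW hmW]
    cases samp c W u v o <;> cases samp c B u v o <;> simp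
  have hnd : ([] ++ (ℓ ++ [o])).Nodup := by
    rw [List.nil_append, List.nodup_append]
    refine ⟨hs.imp (fun h => fun e => by rw [e] at h; exact lt_irrefl _ h), by simp, ?_⟩
    intro a ha b hb
    rw [List.mem_singleton] at hb
    rintro rfl
    rw [hb] at ha
    exact lt_irrefl _ ((hm' o).1 ha).2
  have hb := hybrid_bound hc o W [] ℓ hnd
  rw [hyb_eq hc B W hWB o ho u hu ℓ hs hm', sum_Zr_eq_QB c B W o (hWB ho) u] at hb
  haveI : IsProbabilityMeasure (labelMeasure α) := by unfold labelMeasure; infer_instance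
  rw [hset, ← ENNReal.ofReal_toReal (measure_ne_top (labelMeasure α) _)]
  exact ENNReal.ofReal_le_ofReal hb

end Crest.Agent.R168
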