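/-
Row 168 CORE, task A2 (volume of the ordered simplex).  Keep the statement; aux lemmas private.
-/
import Mathlib

set_option autoImplicit false
open MeasureTheory
open scoped ENNReal

namespace Crest.Agent.R168

theorem measurableSet_strictMono (n : ℕ) : MeasurableSet {s : Fin n → unitInterval | StrictMono s} := by
  have h : {s : Fin n → unitInterval | StrictMono s}
      = ⋂ (i : Fin n), ⋂ (j : Fin n), ⋂ (_ : i < j), {s : Fin n → unitInterval | s i < s j} := by
    ext s
    simp only [Set.mem_setOf_eq, Set.mem_iInter]
    exact ⟨fun hs i j hij => hs hij, fun hs i j hij => hs i j hij⟩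
  rw [h]
  refine MeasurableSet.iInter fun i => MeasurableSet.iInter fun j => MeasurableSet.iInter fun _ => ?_
  exact measurableSet_lt (measurable_pi_apply i) (measurable_pi_apply j)

private theorem volume_strictMono_comp (n : ℕ) (σ : Equiv.Perm (Fin n)) :
    (volume : Measure (Fin n → unitInterval)) {s | StrictMono (s ∘ σ)}
      = (volume : Measure (Fin n → unitInterval)) {s | StrictMono s} := by
  have hmp := volume_measurePreserving_piCongrLeft (fun _ : Fin n => unitInterval) σ.symm
  have h := hmp.measure_preimage (measurableSet_strictMono n).nullMeasurableSet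
  rw [← h]
  congr 1
  ext s
  simp only [Set.mem_setOf_eq, Set.mem_preimage]
  have : (MeasurableEquiv.piCongrLeft (fun _ : Fin n => unitInterval) σ.symm) s = s ∘ σ := by
    funext i
    have := MeasurableEquiv.piCongrLeft_apply_apply (β := fun _ : Fin n => unitInterval) σ.symm s (σ i)
    simpa using this
  rw [this]

private theorem disjoint_strictMono_comp (n : ℕ) :
    Pairwise (Function.onFun Disjoint
      fun σ : Equiv.Perm (Fin n) => {s : Fin n → unitInterval | StrictMono (s ∘ σ)}) := by
  intro σ τ hne
  rw [Function.onFun, Set.disjoint_left]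
  intro s hσ hτ
  apply hne
  simp only [Set.mem_setOf_eq] at hσ hτ
  have hr : Set.range (s ∘ σ) = Set.range (s ∘ τ) := by
    rw [Set.range_comp, Set.range_comp, σ.surjective.range_eq, τ.surjective.range_eq]
  have he : s ∘ σ = s ∘ τ := (hσ.range_inj hτ).1 hr
  have hinj : Function.Injective s := by
    have h1 : Function.Injective (s ∘ σ) := hσ.injective
    intro a b hab
    have := @h1 (σ.symm a) (σ.symm b) (by simpa using hab)
    simpa using this
  ext i
  have := congrFun he i
  exact congrArg _ (hinj this)

/-- The sets `A σ = {s | StrictMono (s ∘ σ)}`, `σ : Equiv.Perm (Fin n)`, are pairwise disjoint, measurable, and all have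
the volume of `A 1` (`MeasureTheory.volume_measurePreserving_piCongrLeft` / `measurePreserving_piCongrLeft`);
their union has volume `≤ 1`. -/
theorem volume_strictMono_le (n : ℕ) :
    (n.factorial : ℝ≥0∞) * (volume : Measure (Fin n → unitInterval)) {s | StrictMono s} ≤ 1 := by
  have hmeas : ∀ σ : Equiv.Perm (Fin n),
      MeasurableSet {s : Fin n → unitInterval | StrictMono (s ∘ σ)} := by
    intro σ
    have hm : Measurable (fun s : Fin n → unitInterval => s ∘ σ) :=
      measurable_pi_lambda _ fun i => measurable_pi_apply (σ i)
    exact hm (measurableSet_strictMono n)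
  have hU := measure_iUnion (μ := (volume : Measure (Fin n → unitInterval)))
    (disjoint_strictMono_comp n) hmeas
  rw [tsum_fintype] at hU
  simp only [volume_strictMono_comp] at hU
  rw [Finset.sum_const, Finset.card_univ, Fintype.card_perm, Fintype.card_fin, nsmul_eq_mul] at hU
  rw [← hU]
  exact prob_le_one

end Crest.Agent.R168
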