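/-
Row 168 CORE, task D5a (**annealed bound**: integrate the quenched bound over the order labels, exchange, bound by `Qann`).
Keep the statements; aux lemmas private.
Uses C3 (`quenched_bound`, `QB`), D1 (`exchange_chain`), D23 (`sum_EX_cwF_le`, `cwF_nonneg`), A2 (`volume_strictMono_le`),
A1 (`ae_injOn`, `measure_late`), M1 (measurability).
-/
import Crest.Agent.R168_C_Quenched
import Crest.Agent.R168_C_Exchange
import Crest.Agent.R168_C_Qsum
import Crest.Agent.R168_C_Simplex

set_option autoImplicit false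
open MeasureTheory Finset
open Crest.ProbabilityR.Labels
open scoped ENNReal

namespace Crest.Agent.R168

variable {α : Type*} [DecidableEq α] {c : Finset α → Finset α → ℝ}

private theorem ann_sum_lintegral_le {X ι : Type*} [MeasurableSpace X] (μ : Measure X) (s : Finset ι)
    (f : ι → X → ℝ≥0∞) : ∑ i ∈ s, ∫⁻ x, f i x ∂μ ≤ ∫⁻ x, ∑ i ∈ s, f i x ∂μ := by
  classical
  induction s using Finset.induction_on with
  | empty => simp
  | insert a s ha ih =>
    simp only [Finset.sum_insert ha]
    exact (add_le_add_right ih _).trans (le_lintegral_add _ _)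

private theorem ann_ofReal_sum_le {ι : Type*} (s : Finset ι) (f : ι → ℝ) :
    ENNReal.ofReal (∑ i ∈ s, f i) ≤ ∑ i ∈ s, ENNReal.ofReal (f i) := by
  classical
  induction s using Finset.induction_on with
  | empty => simp
  | insert a s ha ih =>
    simp only [Finset.sum_insert ha]
    exact ENNReal.ofReal_add_le.trans (add_le_add_right ih _)

private theorem ann_measurable_term (c : Finset α → Finset α → ℝ) (B W : Finset α) (o : α) (T : unitInterval)
    (n : ℕ) (k : Fin (n + 2) → α) :
    Measurable (fun u : α → unitInterval =>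
      (if k 0 ∉ W ∧ k (Fin.last (n + 1)) = o ∧ StrictMono (u ∘ k) ∧ u o ≤ T then
          ENNReal.ofReal (EX c B (fun S => cwF c S (ctx B W (hideS (univ.image k) u) (u (k 0))) n k (u ∘ k)))
          else 0 : ℝ≥0∞)) := by
  have hcomp : Measurable (fun u : α → unitInterval => u ∘ k) :=
    measurable_pi_iff.mpr fun j => measurable_pi_apply (k j)
  have hset : MeasurableSet {u : α → unitInterval |
      k 0 ∉ W ∧ k (Fin.last (n + 1)) = o ∧ StrictMono (u ∘ k) ∧ u o ≤ T} := by
    have h1 : MeasurableSet {u : α → unitInterval | StrictMono (u ∘ k)} :=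
      hcomp (measurableSet_strictMono (n + 2))
    have h2 : MeasurableSet {u : α → unitInterval | u o ≤ T} :=
      measurableSet_le (measurable_pi_apply o) measurable_const
    exact (MeasurableSet.const _).inter ((MeasurableSet.const _).inter (h1.inter h2))
  have hEX : Measurable (fun u : α → unitInterval =>
      EX c B (fun S => cwF c S (ctx B W (hideS (univ.image k) u) (u (k 0))) n k (u ∘ k))) := by
    unfold EX
    refine Finset.measurable_fun_sum _ fun S _ => ?_
    refine Measurable.const_mul ?_ _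
    exact measurable_cwF c S B W (fun u : α → unitInterval => hideS (univ.image k) u)
      (measurable_hideS _) (fun u => u (k 0)) (measurable_pi_apply _) n k (fun u => u ∘ k) hcomp
  exact Measurable.ite hset hEX.ennreal_ofReal measurable_const

/-- Chains with `n` intermediate sites.  For non-injective `k` the integrand vanishes (`StrictMono (u ∘ k)`).
For injective `k`: `exchange_chain` (here `u o = u (k last)`).  Then sum over `k` inside the integrals
(`lintegral_finset_sum`, M1), `sum_EX_cwF_le` pointwise (`ofReal` of a finite sum is `≤` the sum of the `ofReal`s and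
conversely for nonnegative terms, `cwF_nonneg`/`EX_nonneg`; for `StrictMono s`, `s last ≤ T` all `s i ≤ T`), so the inner
integral is `≤ Qann c B W T (extT s) n o ≤ q n` (`extT s` is monotone, `≤ T`), and the outer integral over
`{s | StrictMono s}` has volume `≤ 1/(n+2)!`. -/
theorem lintegral_chain_le (hc : NegFam c) (B W : Finset α) (o : α) (T : unitInterval) (hT : T < 1)
    (n : ℕ) (q : ℝ≥0∞)
    (hq : ∀ s : ℕ → unitInterval, Monotone s → (∀ i, s i ≤ T) → Qann c B W T s n o ≤ q) :
    ∫⁻ u, ∑ k ∈ Fintype.piFinset (fun _ : Fin (n + 2) => B),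
        (if k 0 ∉ W ∧ k (Fin.last (n + 1)) = o ∧ StrictMono (u ∘ k) ∧ u o ≤ T then
          ENNReal.ofReal (EX c B (fun S => cwF c S (ctx B W (hideS (univ.image k) u) (u (k 0))) n k (u ∘ k)))
          else 0) ∂(labelMeasure α)
      ≤ q / (ENNReal.ofReal ((1 - (T : ℝ)) ^ (n + 2)) * ((n + 2).factorial : ℝ≥0∞)) := by
  classical
  set a : ℝ≥0∞ := ENNReal.ofReal ((1 - (T : ℝ)) ^ (n + 2)) with ha
  have hT' : (0 : ℝ) < 1 - (T : ℝ) := by
    have h1 : (T : ℝ) < 1 := by exact_mod_cast hT
    linarith
  have ha0 : a ≠ 0 := by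
    rw [ha]
    exact (ENNReal.ofReal_pos.mpr (pow_pos hT' _)).ne'
  have haT : a ≠ ⊤ := ENNReal.ofReal_ne_top
  have hN0 : ((n + 2).factorial : ℝ≥0∞) ≠ 0 := Nat.cast_ne_zero.mpr (Nat.factorial_ne_zero _)
  have hNT : ((n + 2).factorial : ℝ≥0∞) ≠ ⊤ := ENNReal.natCast_ne_top _
  rw [ENNReal.le_div_iff_mul_le (Or.inl (mul_ne_zero ha0 hN0)) (Or.inl (ENNReal.mul_ne_top haT hNT))]
  -- the exchanged integrand
  let G : (Fin (n + 2) → α) → (Fin (n + 2) → unitInterval) → (α → unitInterval) → ℝ≥0∞ := fun k s u =>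
    if (k 0 ∉ W ∧ k (Fin.last (n + 1)) = o ∧ Function.Injective k ∧ ∀ i, T < u (k i)) ∧
        StrictMono s ∧ s (Fin.last (n + 1)) ≤ T then
      ENNReal.ofReal (EX c B (fun S => cwF c S (ctx B W u (s 0)) n k s)) else 0
  -- step 1+2 : exchange for each tuple
  have hstep : ∀ k : Fin (n + 2) → α,
      a * ∫⁻ u, (if k 0 ∉ W ∧ k (Fin.last (n + 1)) = o ∧ StrictMono (u ∘ k) ∧ u o ≤ T then
          ENNReal.ofReal (EX c B (fun S => cwF c S (ctx B W (hideS (univ.image k) u) (u (k 0))) n k (u ∘ k)))
          else 0) ∂(labelMeasure α)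
        ≤ ∫⁻ s : Fin (n + 2) → unitInterval, ∫⁻ u, G k s u ∂(labelMeasure α) ∂volume := by
    intro k
    by_cases hcond : k 0 ∉ W ∧ k (Fin.last (n + 1)) = o
    · by_cases hk : Function.Injective k
      · have h := exchange_chain c B W T n k hk
        have e1 : ∀ u : α → unitInterval,
            (if k 0 ∉ W ∧ k (Fin.last (n + 1)) = o ∧ StrictMono (u ∘ k) ∧ u o ≤ T then
              ENNReal.ofReal (EX c B (fun S => cwF c S (ctx B W (hideS (univ.image k) u) (u (k 0))) n k (u ∘ k)))
              else 0 : ℝ≥0∞)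
            = (if StrictMono (u ∘ k) ∧ u (k (Fin.last (n + 1))) ≤ T then
              ENNReal.ofReal (EX c B (fun S => cwF c S (ctx B W (hideS (univ.image k) u) (u (k 0))) n k (u ∘ k)))
              else 0) := by
          intro u
          have : (k 0 ∉ W ∧ k (Fin.last (n + 1)) = o ∧ StrictMono (u ∘ k) ∧ u o ≤ T)
              ↔ (StrictMono (u ∘ k) ∧ u (k (Fin.last (n + 1))) ≤ T) := by
            rw [hcond.2]
            exact ⟨fun h => h.2.2, fun h => ⟨hcond.1, rfl, h⟩⟩
          simp only [this]
        simp only [e1]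
        rw [h]
        refine le_of_eq ?_
        refine lintegral_congr fun s => lintegral_congr fun u => ?_
        have : ((k 0 ∉ W ∧ k (Fin.last (n + 1)) = o ∧ Function.Injective k ∧ ∀ i, T < u (k i)) ∧
            StrictMono s ∧ s (Fin.last (n + 1)) ≤ T)
            ↔ ((∀ i, T < u (k i)) ∧ StrictMono s ∧ s (Fin.last (n + 1)) ≤ T) :=
          ⟨fun h => ⟨h.1.2.2.2, h.2⟩, fun h => ⟨⟨hcond.1, hcond.2, hk, h.1⟩, h.2⟩⟩
        simp only [G, this]
      · have e0 : ∀ u : α → unitInterval,
            (if k 0 ∉ W ∧ k (Fin.last (n + 1)) = o ∧ StrictMono (u ∘ k) ∧ u o ≤ T then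
              ENNReal.ofReal (EX c B (fun S => cwF c S (ctx B W (hideS (univ.image k) u) (u (k 0))) n k (u ∘ k)))
              else 0 : ℝ≥0∞) = 0 := by
          intro u
          refine if_neg fun h => hk ?_
          exact Function.Injective.of_comp h.2.2.1.injective
        simp only [e0, lintegral_zero, mul_zero, zero_le]
    · have e0 : ∀ u : α → unitInterval,
          (if k 0 ∉ W ∧ k (Fin.last (n + 1)) = o ∧ StrictMono (u ∘ k) ∧ u o ≤ T then
            ENNReal.ofReal (EX c B (fun S => cwF c S (ctx B W (hideS (univ.image k) u) (u (k 0))) n k (u ∘ k)))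
            else 0 : ℝ≥0∞) = 0 := by
        intro u
        exact if_neg fun h => hcond ⟨h.1, h.2.1⟩
      simp only [e0, lintegral_zero, mul_zero, zero_le]
  -- step 3+4 : pointwise in `s`
  have hs_bound : ∀ s : Fin (n + 2) → unitInterval,
      ∫⁻ u, ∑ k ∈ Fintype.piFinset (fun _ : Fin (n + 2) => B), G k s u ∂(labelMeasure α)
        ≤ {s : Fin (n + 2) → unitInterval | StrictMono s}.indicator (fun _ => q) s := by
    intro s
    by_cases hs : StrictMono s ∧ s (Fin.last (n + 1)) ≤ T
    · have hsT : ∀ i, s i ≤ T := fun i => (hs.1.monotone (Fin.le_last i)).trans hs.2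
      rw [Set.indicator_of_mem (show s ∈ {s : Fin (n + 2) → unitInterval | StrictMono s} from hs.1)]
      have hmono : Monotone (extT s) := by
        intro i j hij
        refine hs.1.monotone ?_
        show (⟨min i (n + 1), _⟩ : Fin (n + 2)) ≤ ⟨min j (n + 1), _⟩
        exact Fin.mk_le_mk.mpr (min_le_min_right _ hij)
      have hle : ∀ i, extT s i ≤ T := fun i => hsT _
      refine le_trans ?_ (hq (extT s) hmono hle)
      unfold Qann
      refine lintegral_mono fun u => ?_
      have h1 := sum_EX_cwF_le hc B W T u n s hsT o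
      have e2 : ∀ k : Fin (n + 2) → α, G k s u
          = ENNReal.ofReal (if k 0 ∉ W ∧ k (Fin.last (n + 1)) = o ∧ Function.Injective k ∧ ∀ i, T < u (k i) then
              EX c B (fun S => cwF c S (ctx B W u (s 0)) n k s) else 0) := by
        intro k
        by_cases hk : k 0 ∉ W ∧ k (Fin.last (n + 1)) = o ∧ Function.Injective k ∧ ∀ i, T < u (k i)
        · simp only [G]
          rw [if_pos ⟨hk, hs⟩, if_pos hk]
        · simp only [G]
          rw [if_neg (fun h => hk h.1), if_neg hk, ENNReal.ofReal_zero]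
      simp only [e2]
      rw [← ENNReal.ofReal_sum_of_nonneg]
      · refine (ENNReal.ofReal_le_ofReal h1).trans (le_of_eq ?_)
        by_cases hu : T < u o
        · rw [if_pos hu, if_pos hu]
        · rw [if_neg hu, if_neg hu, ENNReal.ofReal_zero]
      · intro k _
        by_cases hk : k 0 ∉ W ∧ k (Fin.last (n + 1)) = o ∧ Function.Injective k ∧ ∀ i, T < u (k i)
        · rw [if_pos hk]
          refine EX_nonneg hc B fun S _ => ?_
          refine cwF_nonneg hc S _ n k s hk.2.2.1 fun i j hmem => ?_
          have h3 : u (k i) < s j := (Finset.mem_filter.mp hmem).2.1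
          exact absurd (h3.trans_le (hsT j)) (not_lt.mpr (hk.2.2.2 i).le)
        · rw [if_neg hk]
    · have e0 : ∀ u : α → unitInterval,
          ∑ k ∈ Fintype.piFinset (fun _ : Fin (n + 2) => B), G k s u = 0 := by
        intro u
        refine Finset.sum_eq_zero fun k _ => ?_
        exact if_neg fun h => hs h.2
      simp only [e0, lintegral_zero, zero_le]
  -- assembly
  have hA : a * ∫⁻ u, ∑ k ∈ Fintype.piFinset (fun _ : Fin (n + 2) => B),
        (if k 0 ∉ W ∧ k (Fin.last (n + 1)) = o ∧ StrictMono (u ∘ k) ∧ u o ≤ T then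
          ENNReal.ofReal (EX c B (fun S => cwF c S (ctx B W (hideS (univ.image k) u) (u (k 0))) n k (u ∘ k)))
          else 0) ∂(labelMeasure α)
      ≤ q * (volume : Measure (Fin (n + 2) → unitInterval)) {s | StrictMono s} := by
    rw [lintegral_finsetSum _ (fun k _ => ann_measurable_term c B W o T n k), Finset.mul_sum]
    calc ∑ k ∈ Fintype.piFinset (fun _ : Fin (n + 2) => B), a * ∫⁻ u,
          (if k 0 ∉ W ∧ k (Fin.last (n + 1)) = o ∧ StrictMono (u ∘ k) ∧ u o ≤ T then
          ENNReal.ofReal (EX c B (fun S => cwF c S (ctx B W (hideS (univ.image k) u) (u (k 0))) n k (u ∘ k)))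
          else 0) ∂(labelMeasure α)
        ≤ ∑ k ∈ Fintype.piFinset (fun _ : Fin (n + 2) => B),
            ∫⁻ s : Fin (n + 2) → unitInterval, ∫⁻ u, G k s u ∂(labelMeasure α) ∂volume :=
          Finset.sum_le_sum fun k _ => hstep k
      _ ≤ ∫⁻ s : Fin (n + 2) → unitInterval, ∑ k ∈ Fintype.piFinset (fun _ : Fin (n + 2) => B),
            ∫⁻ u, G k s u ∂(labelMeasure α) ∂volume := ann_sum_lintegral_le _ _ _
      _ ≤ ∫⁻ s : Fin (n + 2) → unitInterval,
            {s : Fin (n + 2) → unitInterval | StrictMono s}.indicator (fun _ => q) s ∂volume :=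
          lintegral_mono fun s => (ann_sum_lintegral_le _ _ _).trans (hs_bound s)
      _ = q * (volume : Measure (Fin (n + 2) → unitInterval)) {s | StrictMono s} :=
          lintegral_indicator_const (measurableSet_strictMono (n + 2)) q
  have hV := volume_strictMono_le (n + 2)
  calc (∫⁻ u, ∑ k ∈ Fintype.piFinset (fun _ : Fin (n + 2) => B),
        (if k 0 ∉ W ∧ k (Fin.last (n + 1)) = o ∧ StrictMono (u ∘ k) ∧ u o ≤ T then
          ENNReal.ofReal (EX c B (fun S => cwF c S (ctx B W (hideS (univ.image k) u) (u (k 0))) n k (u ∘ k)))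
          else 0) ∂(labelMeasure α)) * (a * ((n + 2).factorial : ℝ≥0∞))
      = ((n + 2).factorial : ℝ≥0∞) * (a * ∫⁻ u, ∑ k ∈ Fintype.piFinset (fun _ : Fin (n + 2) => B),
        (if k 0 ∉ W ∧ k (Fin.last (n + 1)) = o ∧ StrictMono (u ∘ k) ∧ u o ≤ T then
          ENNReal.ofReal (EX c B (fun S => cwF c S (ctx B W (hideS (univ.image k) u) (u (k 0))) n k (u ∘ k)))
          else 0) ∂(labelMeasure α)) := by ring
    _ ≤ ((n + 2).factorial : ℝ≥0∞) * (q * (volume : Measure (Fin (n + 2) → unitInterval)) {s | StrictMono s}) := by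
        gcongr
    _ = q * (((n + 2).factorial : ℝ≥0∞) * (volume : Measure (Fin (n + 2) → unitInterval)) {s | StrictMono s}) := by
        ring
    _ ≤ q * 1 := by gcongr
    _ = q := mul_one q

theorem lintegral_QB_le (hc : NegFam c) (B W : Finset α) (o : α) (T : unitInterval) (hT : T < 1) (q : ℕ → ℝ≥0∞)
    (hq : ∀ (n : ℕ) (s : ℕ → unitInterval), Monotone s → (∀ i, s i ≤ T) → Qann c B W T s n o ≤ q n) :
    ∫⁻ u, (if u o ≤ T then ENNReal.ofReal (QB c B W o u) else 0) ∂(labelMeasure α)
      ≤ ∑ n ∈ range B.card, q n / (ENNReal.ofReal ((1 - (T : ℝ)) ^ (n + 2)) * ((n + 2).factorial : ℝ≥0∞)) := by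
  classical
  have hpt : ∀ u : α → unitInterval, (if u o ≤ T then ENNReal.ofReal (QB c B W o u) else 0 : ℝ≥0∞)
      ≤ ∑ n ∈ range B.card, ∑ k ∈ Fintype.piFinset (fun _ : Fin (n + 2) => B),
        (if k 0 ∉ W ∧ k (Fin.last (n + 1)) = o ∧ StrictMono (u ∘ k) ∧ u o ≤ T then
          ENNReal.ofReal (EX c B (fun S => cwF c S (ctx B W (hideS (univ.image k) u) (u (k 0))) n k (u ∘ k)))
          else 0) := by
    intro u
    by_cases hu : u o ≤ T
    · rw [if_pos hu]
      unfold QB
      refine (ann_ofReal_sum_le _ _).trans (Finset.sum_le_sum fun n _ => ?_)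
      refine (ann_ofReal_sum_le _ _).trans (Finset.sum_le_sum fun k _ => ?_)
      by_cases hk : k 0 ∉ W ∧ k (Fin.last (n + 1)) = o ∧ StrictMono (u ∘ k)
      · rw [if_pos hk, if_pos ⟨hk.1, hk.2.1, hk.2.2, hu⟩]
      · rw [if_neg hk, ENNReal.ofReal_zero]
        exact zero_le
    · rw [if_neg hu]
      exact zero_le
  refine (lintegral_mono hpt).trans ?_
  rw [lintegral_finsetSum _ (fun n _ => Finset.measurable_fun_sum _
    (fun k _ => ann_measurable_term c B W o T n k))]
  exact Finset.sum_le_sum fun n _ => lintegral_chain_le hc B W o T hT n (q n) (hq n)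

/-- **Annealed bound.**  `Measure.prod_apply` (the event is measurable by `hmeas`), split according to `T < u o`
(`measure_late`) or `u o ≤ T` (`quenched_bound` for a.e. `u`, `ae_injOn`), `lintegral_QB_le`. -/
theorem annealed_bound (hc : NegFam c) (B W : Finset α) (hWB : W ⊆ B) (o : α) (ho : o ∈ W)
    (hmeas : ∀ W' : Finset α,
      Measurable (fun p : (α → unitInterval) × (α → unitInterval) => samp c W' p.1 p.2 o))
    (T : unitInterval) (hT : T < 1) (q : ℕ → ℝ≥0∞)
    (hq : ∀ (n : ℕ) (s : ℕ → unitInterval), Monotone s → (∀ i, s i ≤ T) → Qann c B W T s n o ≤ q n) :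
    ((labelMeasure α).prod (labelMeasure α)) {p | samp c W p.1 p.2 o ≠ samp c B p.1 p.2 o}
      ≤ ENNReal.ofReal (1 - (T : ℝ))
        + 2 * ∑ n ∈ range B.card, q n / (ENNReal.ofReal ((1 - (T : ℝ)) ^ (n + 2)) * ((n + 2).factorial : ℝ≥0∞)) := by
  classical
  have hE : MeasurableSet {p : (α → unitInterval) × (α → unitInterval) |
      samp c W p.1 p.2 o ≠ samp c B p.1 p.2 o} :=
    (measurableSet_eq_fun (hmeas W) (hmeas B)).compl
  have : IsProbabilityMeasure (labelMeasure α) := by
    unfold labelMeasure; infer_instance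
  rw [Measure.prod_apply hE]
  have hlate : MeasurableSet {u : α → unitInterval | T < u o} :=
    measurableSet_lt measurable_const (measurable_pi_apply o)
  have hae : ∀ᵐ u ∂(labelMeasure α),
      (labelMeasure α) (Prod.mk u ⁻¹' {p : (α → unitInterval) × (α → unitInterval) |
        samp c W p.1 p.2 o ≠ samp c B p.1 p.2 o})
      ≤ {u : α → unitInterval | T < u o}.indicator (fun _ => (1 : ℝ≥0∞)) u
        + 2 * (if u o ≤ T then ENNReal.ofReal (QB c B W o u) else 0) := by
    filter_upwards [ae_injOn (α := α) B] with u hu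
    by_cases hT' : T < u o
    · rw [Set.indicator_of_mem (show u ∈ {u : α → unitInterval | T < u o} from hT')]
      exact prob_le_one.trans le_self_add
    · rw [Set.indicator_of_notMem (show u ∉ {u : α → unitInterval | T < u o} from hT'), zero_add,
        if_pos (not_lt.mp hT')]
      have h := quenched_bound hc B W hWB o ho u hu
      rw [ENNReal.ofReal_mul (by norm_num : (0 : ℝ) ≤ 2)] at h
      simpa using h
  refine (lintegral_mono_ae hae).trans ?_
  rw [lintegral_add_left (measurable_const.indicator hlate), lintegral_indicator_const hlate, one_mul,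
    measure_late, lintegral_const_mul' _ _ (by norm_num)]
  gcongr
  exact lintegral_QB_le hc B W o T hT q hq

end Crest.Agent.R168
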