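/-
Row 168 CORE, task D4 (**tightness**: chains that start far away carry little mass).  Keep the statements; aux private.
Uses A1 (probability measure), A4 (`R168_C_Exp`), D3 (`R168_C_Qsum`), M1 (`R168_C_Meas`).
-/
import Crest.Agent.R168_C_Resample
import Crest.Agent.R168_C_Qsum
import Crest.Agent.R168_C_Meas

set_option autoImplicit false
open MeasureTheory Finset
open Crest.ProbabilityR.Labels
open scoped ENNReal

namespace Crest.Agent.R168

variable {α : Type*} [DecidableEq α] {c : Finset α → Finset α → ℝ}

/-- expected covariance of two late sites given the sample on all early sites of `B` -/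
noncomputable def betaB (c : Finset α → Finset α → ℝ) (T : unitInterval) (B : Finset α) (g x : α) : ℝ≥0∞ :=
  ∫⁻ u, (if T < u g ∧ T < u x then ENNReal.ofReal (Ecov c (B.filter (fun k => u k ≤ T)) g x) else 0)
    ∂(labelMeasure α)

noncomputable def beta (c : Finset α → Finset α → ℝ) (T : unitInterval) (g x : α) : ℝ≥0∞ :=
  ⨆ B : Finset α, betaB c T B g x

/-! ### private helpers -/

private lemma sum_lintegral_le {X ι : Type*} [MeasurableSpace X] (μ : Measure X) (s : Finset ι)
    (f : ι → X → ℝ≥0∞) : ∑ i ∈ s, ∫⁻ x, f i x ∂μ ≤ ∫⁻ x, ∑ i ∈ s, f i x ∂μ := by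
  classical
  induction s using Finset.induction_on with
  | empty => simp
  | insert a s ha ih =>
    simp only [Finset.sum_insert ha]
    exact (add_le_add le_rfl ih).trans (le_lintegral_add _ _)

private lemma ofReal_sum_le {ι : Type*} (s : Finset ι) (f : ι → ℝ) :
    ENNReal.ofReal (∑ i ∈ s, f i) ≤ ∑ i ∈ s, ENNReal.ofReal (f i) := by
  classical
  induction s using Finset.induction_on with
  | empty => simp
  | insert a s ha ih =>
    simp only [Finset.sum_insert ha]
    exact ENNReal.ofReal_add_le.trans (add_le_add le_rfl ih)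

private lemma EX_sum {ι : Type*} (c : Finset α → Finset α → ℝ) (B : Finset α) (s : Finset ι)
    (f : ι → Finset α → ℝ) : EX c B (fun S => ∑ i ∈ s, f i S) = ∑ i ∈ s, EX c B (f i) := by
  unfold EX
  rw [Finset.sum_comm]
  exact Finset.sum_congr rfl fun S _ => Finset.mul_sum _ _ _

private lemma EX_le_const (hc : NegFam c) (B : Finset α) {f : Finset α → ℝ} {a : ℝ}
    (h : ∀ S, S ⊆ B → f S ≤ a) : EX c B f ≤ a := by
  have h1 : EX c B f ≤ EX c B (fun _ => a) := EX_mono hc B h
  have h2 : EX c B (fun _ => a) = a := by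
    have := EX_const_one hc B
    unfold EX at this ⊢
    rw [← Finset.sum_mul]
    simp only [mul_one] at this
    rw [this, one_mul]
  exact h1.trans h2.le

private lemma notMem_early {T : unitInterval} {B : Finset α} {u : α → unitInterval} {g : α} (hg : T < u g) :
    g ∉ B.filter (fun k => u k ≤ T) := by
  intro h
  exact absurd (Finset.mem_filter.mp h).2 (not_le.mpr hg)

private lemma notMem_ctx {T : unitInterval} {B W : Finset α} {u : α → unitInterval} {θ t : unitInterval}
    (ht : t ≤ T) {g : α} (hg : T < u g) : g ∉ ctx B W u θ t := by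
  intro h
  unfold ctx at h
  exact absurd ((Finset.mem_filter.mp h).2.1.trans_le ht) (not_lt.mpr hg.le)

private lemma ctx_mono_time (B W : Finset α) (u : α → unitInterval) (θ : unitInterval) {t t' : unitInterval}
    (h : t ≤ t') : ctx B W u θ t ⊆ ctx B W u θ t' := by
  intro g hg
  unfold ctx at hg ⊢
  rw [Finset.mem_filter] at hg ⊢
  exact ⟨hg.1, hg.2.1.trans_le h, hg.2.2⟩

private lemma ctx_subset_early (B W : Finset α) (u : α → unitInterval) (θ : unitInterval) {t T : unitInterval}
    (h : t ≤ T) : ctx B W u θ t ⊆ B.filter (fun k => u k ≤ T) := by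
  intro g hg
  unfold ctx at hg
  rw [Finset.mem_filter] at hg ⊢
  exact ⟨hg.1, (hg.2.1.trans_le h).le⟩

private lemma measurableSet_late1 (T : unitInterval) (g : α) :
    MeasurableSet {u : α → unitInterval | T < u g} :=
  measurableSet_lt measurable_const (measurable_pi_apply g)

private lemma measurableSet_late2 (T : unitInterval) (g x : α) :
    MeasurableSet {u : α → unitInterval | T < u g ∧ T < u x} :=
  (measurableSet_late1 T g).inter (measurableSet_late1 T x)

private lemma measurable_pair_term (c : Finset α → Finset α → ℝ) (B W : Finset α) (T θ t : unitInterval) (g x : α) :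
    Measurable (fun u : α → unitInterval =>
      if T < u g ∧ T < u x then ENNReal.ofReal (EX c B (fun S => qcov c (ctx B W u θ t) S g x)) else 0) := by
  refine Measurable.ite (measurableSet_late2 T g x) ?_ measurable_const
  exact measurable_of_finset_valued B (fun u : α → unitInterval => ctx B W u θ t)
    (fun u => ctx_subset B W u θ t)
    (fun k => measurableSet_mem_ctx B W (fun u : α → unitInterval => u) measurable_id (fun _ => θ) (fun _ => t)
      measurable_const measurable_const k)
    (fun A _ => ENNReal.ofReal (EX c B (fun S => qcov c A S g x))) (fun _ => measurable_const)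

private lemma measurable_Qann_term (c : Finset α → Finset α → ℝ) (B W : Finset α) (T : unitInterval)
    (s : ℕ → unitInterval) (n : ℕ) (x : α) :
    Measurable (fun u : α → unitInterval => if T < u x then
      ENNReal.ofReal (EX c B (fun S => Qsum c S (ctx B W u (s 0)) (late T B u) W s n x)) else 0) := by
  refine Measurable.ite (measurableSet_late1 T x) ?_ measurable_const
  refine ENNReal.measurable_ofReal.comp ?_
  unfold EX
  refine Finset.measurable_sum _ fun S _ => ?_
  exact (measurable_Qsum c S B W T (fun u : α → unitInterval => u) measurable_id (fun _ => s 0) measurable_const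
    (fun _ => s) measurable_const n x).const_mul _

/-! ### the statements -/

/-- `Ecov_mono` pointwise -/
theorem betaB_mono (hc : NegFam c) (T : unitInterval) {B B' : Finset α} (h : B ⊆ B') {g x : α} (hgx : g ≠ x) :
    betaB c T B g x ≤ betaB c T B' g x := by
  unfold betaB
  refine lintegral_mono fun u => ?_
  show (if T < u g ∧ T < u x then _ else _) ≤ (if T < u g ∧ T < u x then _ else _)
  split_ifs with hu
  · exact ENNReal.ofReal_le_ofReal
      (Ecov_mono hc (Finset.filter_subset_filter _ h) hgx (notMem_early hu.1) (notMem_early hu.2))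
  · exact le_rfl

/-- pointwise in `u`: `sum_Ecov_le` for the late sites of `K` -/
theorem sum_betaB_le (hc : NegFam c) (T : unitInterval) (B K : Finset α) (x : α) :
    ∑ g ∈ K.erase x, betaB c T B g x ≤ ENNReal.ofReal (1 / 4) := by
  unfold betaB
  refine (sum_lintegral_le _ _ _).trans ?_
  have hpt : ∀ u : α → unitInterval,
      ∑ g ∈ K.erase x, (if T < u g ∧ T < u x then
        ENNReal.ofReal (Ecov c (B.filter (fun k => u k ≤ T)) g x) else 0) ≤ ENNReal.ofReal (1 / 4) := by
    intro u
    by_cases hx : T < u x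
    · have h1 : ∑ g ∈ K.erase x, (if T < u g ∧ T < u x then
          ENNReal.ofReal (Ecov c (B.filter (fun k => u k ≤ T)) g x) else 0)
          = ∑ g ∈ (K.erase x).filter (fun g => T < u g),
            ENNReal.ofReal (Ecov c (B.filter (fun k => u k ≤ T)) g x) := by
        rw [Finset.sum_filter]
        refine Finset.sum_congr rfl fun g _ => ?_
        simp [hx]
      rw [h1, ← ENNReal.ofReal_sum_of_nonneg]
      · refine ENNReal.ofReal_le_ofReal (sum_Ecov_le hc (notMem_early hx) ?_ ?_)
        · intro h
          exact absurd (Finset.mem_filter.mp h).1 (Finset.notMem_erase x K)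
        · rw [Finset.disjoint_left]
          intro g hg
          exact notMem_early (Finset.mem_filter.mp hg).2
      · intro g hg
        have hg' := Finset.mem_filter.mp hg
        exact Ecov_nonneg hc (Finset.ne_of_mem_erase hg'.1) (notMem_early hg'.2) (notMem_early hx)
    · simp [hx]
  calc ∫⁻ u, ∑ g ∈ K.erase x, (if T < u g ∧ T < u x then
        ENNReal.ofReal (Ecov c (B.filter (fun k => u k ≤ T)) g x) else 0) ∂(labelMeasure α)
      ≤ ∫⁻ _u, ENNReal.ofReal (1 / 4) ∂(labelMeasure α) := lintegral_mono hpt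
    _ = ENNReal.ofReal (1 / 4) := by simp

/-- directed supremum (`betaB_mono`): `∑_{g ∈ K} ⨆_B = ⨆_B ∑_{g ∈ K}` (`ENNReal.finsetSum_iSup_of_monotone` or by hand) -/
theorem sum_beta_le (hc : NegFam c) (T : unitInterval) (K : Finset α) (x : α) :
    ∑ g ∈ K.erase x, beta c T g x ≤ ENNReal.ofReal (1 / 4) := by
  have h1 : ∑ g ∈ K.erase x, beta c T g x
      = ∑ g ∈ K.erase x, ⨆ B : Finset α, (if g = x then 0 else betaB c T B g x) := by
    refine Finset.sum_congr rfl fun g hg => ?_
    simp [beta, Finset.ne_of_mem_erase hg]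
  rw [h1, ENNReal.finsetSum_iSup_of_monotone]
  · refine iSup_le fun B => ?_
    refine le_trans (le_of_eq ?_) (sum_betaB_le hc T B K x)
    refine Finset.sum_congr rfl fun g hg => ?_
    simp [Finset.ne_of_mem_erase hg]
  · intro g B B' hBB'
    by_cases hg : g = x
    · simp [hg]
    · simpa [hg] using betaB_mono hc T hBB' hg

/-- tails of the convergent series (`ENNReal.tendsto_tsum_compl_atTop_zero` for `fun g => if g = x then 0 else beta c T g x`) -/
theorem exists_beta_tail (hc : NegFam c) (T : unitInterval) (x : α) (ε : ℝ≥0∞) (hε : 0 < ε) :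
    ∃ F : Finset α, ∀ K : Finset α, Disjoint K F → ∑ g ∈ K.erase x, beta c T g x ≤ ε := by
  set f : α → ℝ≥0∞ := fun g => if g = x then 0 else beta c T g x with hf
  have hsum : ∀ K : Finset α, ∑ g ∈ K, f g = ∑ g ∈ K.erase x, beta c T g x := by
    intro K
    have h2 : ∑ g ∈ K.erase x, beta c T g x = ∑ g ∈ K.erase x, f g := by
      refine Finset.sum_congr rfl fun g hg => ?_
      simp [hf, Finset.ne_of_mem_erase hg]
    rw [h2]
    refine (Finset.sum_erase K ?_).symm
    simp [hf]
  have hfin : ∑' g, f g ≠ ∞ := by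
    refine ne_top_of_le_ne_top ENNReal.ofReal_ne_top (?_ : _ ≤ ENNReal.ofReal (1 / 4))
    rw [ENNReal.tsum_eq_iSup_sum]
    refine iSup_le fun K => ?_
    rw [hsum K]
    exact sum_beta_le hc T K x
  have htend := ENNReal.tendsto_tsum_compl_atTop_zero hfin
  obtain ⟨F, hF⟩ := ((tendsto_order.1 htend).2 ε hε).exists
  refine ⟨F, fun K hK => ?_⟩
  rw [← hsum K]
  have hKF : ∀ g ∈ K, g ∉ F := fun g hg => Finset.disjoint_left.mp hK hg
  calc ∑ g ∈ K, f g = ∑ b ∈ K.subtype (fun g => g ∉ F), f b := by
        rw [Finset.sum_subtype_of_mem _ hKF]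
    _ ≤ ∑' b : {g // g ∉ F}, f b := ENNReal.sum_le_tsum _
    _ ≤ ε := hF.le

/-- for a late pair: `E[c_{X|A}(g,x)] ≤ beta` for every context `A = ctx B W u θ t`, `t ≤ T`
(`EX_restrict`, `Ecov_mono`: `A ⊆ {k ∈ B | u k ≤ T}`) -/
theorem lintegral_EX_qcov_le_beta (hc : NegFam c) (B W : Finset α) (T θ t : unitInterval) (ht : t ≤ T) {g x : α}
    (hgx : g ≠ x) :
    ∫⁻ u, (if T < u g ∧ T < u x then ENNReal.ofReal (EX c B (fun S => qcov c (ctx B W u θ t) S g x)) else 0)
      ∂(labelMeasure α) ≤ beta c T g x := by
  refine le_trans ?_ (le_iSup (fun B => betaB c T B g x) B)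
  unfold betaB
  refine lintegral_mono fun u => ?_
  show (if T < u g ∧ T < u x then _ else _) ≤ (if T < u g ∧ T < u x then _ else _)
  split_ifs with hu
  · refine ENNReal.ofReal_le_ofReal ?_
    have h1 : EX c B (fun S => qcov c (ctx B W u θ t) S g x) = Ecov c (ctx B W u θ t) g x := by
      unfold Ecov
      refine EX_restrict hc (ctx_subset B W u θ t) _ fun S => ?_
      refine qcov_congr c ?_ g x
      ext k
      simp only [Finset.mem_inter]
      tauto
    rw [h1]
    exact Ecov_mono hc (ctx_subset_early B W u θ ht) hgx (notMem_early hu.1) (notMem_early hu.2)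
  · exact le_rfl

/-- `n = 0` -/
theorem Qann_zero_le (hc : NegFam c) (B W : Finset α) (T : unitInterval) (s : ℕ → unitInterval)
    (hsT : ∀ i, s i ≤ T) (x : α) :
    Qann c B W T s 0 x ≤ ∑ g ∈ (B \ W).erase x, beta c T g x := by
  have hpt : ∀ u : α → unitInterval,
      (if T < u x then
        ENNReal.ofReal (EX c B (fun S => Qsum c S (ctx B W u (s 0)) (late T B u) W s 0 x)) else 0)
      ≤ ∑ g ∈ (B \ W).erase x, (if T < u g ∧ T < u x then
          ENNReal.ofReal (EX c B (fun S => qcov c (ctx B W u (s 0) (s 1)) S g x)) else 0) := by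
    intro u
    by_cases hx : T < u x
    · simp only [hx, if_true, and_true]
      have h1 : (fun S => Qsum c S (ctx B W u (s 0)) (late T B u) W s 0 x)
          = fun S => ∑ g ∈ (B \ W).erase x,
              (if T < u g then qcov c (ctx B W u (s 0) (s 1)) S g x else 0) := by
        funext S
        unfold Qsum
        simp only [wts, zero_add]
        rw [← Finset.sum_filter]
        have h2 : ∑ g ∈ (late T B u).erase x,
            (if g ∈ W then (0:ℝ) else 1) * qcov c (ctx B W u (s 0) (s 1)) S g x
            = ∑ g ∈ ((late T B u).erase x).filter (fun g => g ∉ W), qcov c (ctx B W u (s 0) (s 1)) S g x := by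
          rw [Finset.sum_filter]
          refine Finset.sum_congr rfl fun g _ => ?_
          by_cases hg : g ∈ W <;> simp [hg]
        rw [h2]
        refine Finset.sum_congr ?_ fun _ _ => rfl
        ext g
        simp only [late, Finset.mem_filter, Finset.mem_erase, Finset.mem_sdiff]
        tauto
      rw [h1, EX_sum]
      refine (ofReal_sum_le _ _).trans (Finset.sum_le_sum fun g _ => ?_)
      by_cases hg : T < u g
      · simp [hg]
      · simp [hg, EX]
    · simp [hx]
  unfold Qann
  calc ∫⁻ u, (if T < u x then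
        ENNReal.ofReal (EX c B (fun S => Qsum c S (ctx B W u (s 0)) (late T B u) W s 0 x)) else 0)
        ∂(labelMeasure α)
      ≤ ∫⁻ u, ∑ g ∈ (B \ W).erase x, (if T < u g ∧ T < u x then
          ENNReal.ofReal (EX c B (fun S => qcov c (ctx B W u (s 0) (s 1)) S g x)) else 0)
          ∂(labelMeasure α) := lintegral_mono hpt
    _ = ∑ g ∈ (B \ W).erase x, ∫⁻ u, (if T < u g ∧ T < u x then
          ENNReal.ofReal (EX c B (fun S => qcov c (ctx B W u (s 0) (s 1)) S g x)) else 0)
          ∂(labelMeasure α) :=
        lintegral_finsetSum _ fun g _ => measurable_pair_term c B W T (s 0) (s 1) g x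
    _ ≤ ∑ g ∈ (B \ W).erase x, beta c T g x :=
        Finset.sum_le_sum fun g hg =>
          lintegral_EX_qcov_le_beta hc B W T (s 0) (s 1) (hsT 1) (Finset.ne_of_mem_erase hg)

/-- **End-peeling.**  `Qsum (n+1) x = ∑_{g late, ≠ x} wts (n+1) g * qcov (C (s (n+2))) g x`.
 * `g ∉ F`: `wts ≤ 1`, then `lintegral_EX_qcov_le_beta`.
 * `g ∈ F`: `φ S := wts … (n+1) g` is `≥ 0` and only sees `S ∩ C (s (n+1))` (`wts_congr`; contexts increase along the
   monotone `s`), so by `EX_qcov_le_qvar` (A := C (s (n+1)) ⊆ A' := C (s (n+2)) ⊆ B)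
   `EX (φ * qcov (C (s (n+2))) g x) ≤ EX (φ * qvar (C (s (n+1))) g)`, and
   `wts (n+1) g * qvar (C (s (n+1))) g = ∑_{g''} qinfl g g'' * qvar g * wts n g'' = ∑_{g''} qcov g g'' * wts n g''
    = Qsum n g` (`qinfl_mul_qvar`, `qcov_symm`).  Finally `1{T < u x} 1{g late} ≤ 1{T < u g}`. -/
theorem Qann_succ_le (hc : NegFam c) (B W F : Finset α) (T : unitInterval) (s : ℕ → unitInterval)
    (hs : Monotone s) (hsT : ∀ i, s i ≤ T) (n : ℕ) (x : α) :
    Qann c B W T s (n + 1) x
      ≤ ∑ g ∈ (B \ F).erase x, beta c T g x + ∑ g ∈ F.erase x, Qann c B W T s n g := by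
  have hpt : ∀ u : α → unitInterval,
      (if T < u x then
        ENNReal.ofReal (EX c B (fun S => Qsum c S (ctx B W u (s 0)) (late T B u) W s (n + 1) x)) else 0)
      ≤ ∑ g ∈ (B \ F).erase x, (if T < u g ∧ T < u x then
          ENNReal.ofReal (EX c B (fun S => qcov c (ctx B W u (s 0) (s (n + 2))) S g x)) else 0)
        + ∑ g ∈ F.erase x, (if T < u g then
          ENNReal.ofReal (EX c B (fun S => Qsum c S (ctx B W u (s 0)) (late T B u) W s n g)) else 0) := by
    intro u
    by_cases hx : T < u x
    · simp only [hx, if_true, and_true]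
      set C : unitInterval → Finset α := ctx B W u (s 0) with hCdef
      set Λ : Finset α := late T B u with hΛdef
      have hC : ∀ i, Disjoint (C (s i)) Λ := fun i => disjoint_ctx_late B W T u (s 0) (s i) (hsT i)
      have hCs : ∀ i j, i ≤ j → C (s i) ⊆ C (s j) := fun i j hij => ctx_mono_time B W u (s 0) (hs hij)
      have hlate : ∀ g, g ∈ Λ → g ∈ B ∧ T < u g := by
        intro g hg
        rw [hΛdef] at hg
        unfold late at hg
        exact Finset.mem_filter.mp hg
      have hnC : ∀ g, T < u g → ∀ i, g ∉ C (s i) := fun g hg i => notMem_ctx (hsT i) hg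
      -- the two bounds
      have ha : ∀ g ∈ Λ.erase x,
          EX c B (fun S => wts c S C Λ W s (n + 1) g * qcov c (C (s (n + 1 + 1))) S g x)
            ≤ EX c B (fun S => qcov c (C (s (n + 2))) S g x) := by
        intro g hg
        have hgΛ := Finset.mem_of_mem_erase hg
        refine EX_mono hc B fun S _ => ?_
        have h1 := wts_le_one hc S Λ W C s hC (n + 1) g hgΛ
        have h2 := qcov_nonneg hc (C (s (n + 2))) S (Finset.ne_of_mem_erase hg)
          (hnC g (hlate g hgΛ).2 _) (hnC x hx _)
        calc wts c S C Λ W s (n + 1) g * qcov c (C (s (n + 1 + 1))) S g x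
            ≤ 1 * qcov c (C (s (n + 2))) S g x := mul_le_mul_of_nonneg_right h1 h2
          _ = qcov c (C (s (n + 2))) S g x := one_mul _
      have hb : ∀ g ∈ Λ.erase x,
          EX c B (fun S => wts c S C Λ W s (n + 1) g * qcov c (C (s (n + 1 + 1))) S g x)
            ≤ EX c B (fun S => Qsum c S C Λ W s n g) := by
        intro g hg
        have hgΛ := Finset.mem_of_mem_erase hg
        have hgT := (hlate g hgΛ).2
        have h1 := EX_qcov_le_qvar hc (A := C (s (n + 1))) (A' := C (s (n + 1 + 1))) (B := B)
          (hCs _ _ (Nat.le_succ _)) (ctx_subset B W u (s 0) _) (Finset.ne_of_mem_erase hg)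
          (hnC g hgT _) (hnC x hx _) (fun S => wts c S C Λ W s (n + 1) g)
          (fun S => wts_nonneg hc S Λ W C s hC (n + 1) g hgΛ)
          (fun S => wts_congr c Λ W C s hCs (n + 1) g (by
            ext k
            simp only [Finset.mem_inter]
            tauto))
        refine h1.trans (le_of_eq ?_)
        congr 1
        funext S
        unfold Qsum
        simp only [wts]
        rw [Finset.sum_mul]
        refine Finset.sum_congr rfl fun g' hg' => ?_
        have hg'Λ := Finset.mem_of_mem_erase hg'
        have h3 := qinfl_mul_qvar hc (C (s (n + 1))) S (a := g) (b := g') (Finset.ne_of_mem_erase hg').symm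
          (hnC g hgT _) (hnC g' (hlate g' hg'Λ).2 _)
        rw [qcov_symm c (C (s (n + 1))) S g' g, ← h3]
        ring
      have h1 : (fun S => Qsum c S C Λ W s (n + 1) x)
          = fun S => ∑ g ∈ Λ.erase x, wts c S C Λ W s (n + 1) g * qcov c (C (s (n + 1 + 1))) S g x := by
        funext S
        rfl
      rw [h1, EX_sum]
      refine (ofReal_sum_le _ _).trans ?_
      rw [← Finset.sum_filter_add_sum_filter_not (Λ.erase x) (fun g => g ∉ F)]
      refine add_le_add ?_ ?_
      · calc ∑ g ∈ (Λ.erase x).filter (fun g => g ∉ F),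
              ENNReal.ofReal (EX c B (fun S => wts c S C Λ W s (n + 1) g * qcov c (C (s (n + 1 + 1))) S g x))
            ≤ ∑ g ∈ (Λ.erase x).filter (fun g => g ∉ F),
              ENNReal.ofReal (EX c B (fun S => qcov c (C (s (n + 2))) S g x)) :=
              Finset.sum_le_sum fun g hg => ENNReal.ofReal_le_ofReal (ha g (Finset.mem_filter.mp hg).1)
          _ ≤ ∑ g ∈ ((B \ F).erase x).filter (fun g => T < u g),
              ENNReal.ofReal (EX c B (fun S => qcov c (C (s (n + 2))) S g x)) := by
              refine Finset.sum_le_sum_of_subset ?_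
              intro g hg
              have hg' := Finset.mem_filter.mp hg
              have hgΛ := hlate g (Finset.mem_of_mem_erase hg'.1)
              simp only [Finset.mem_filter, Finset.mem_erase, Finset.mem_sdiff]
              exact ⟨⟨Finset.ne_of_mem_erase hg'.1, hgΛ.1, hg'.2⟩, hgΛ.2⟩
          _ = ∑ g ∈ (B \ F).erase x, (if T < u g then
              ENNReal.ofReal (EX c B (fun S => qcov c (C (s (n + 2))) S g x)) else 0) :=
              Finset.sum_filter _ _
      · calc ∑ g ∈ (Λ.erase x).filter (fun g => ¬ g ∉ F),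
              ENNReal.ofReal (EX c B (fun S => wts c S C Λ W s (n + 1) g * qcov c (C (s (n + 1 + 1))) S g x))
            ≤ ∑ g ∈ (Λ.erase x).filter (fun g => ¬ g ∉ F),
              ENNReal.ofReal (EX c B (fun S => Qsum c S C Λ W s n g)) :=
              Finset.sum_le_sum fun g hg => ENNReal.ofReal_le_ofReal (hb g (Finset.mem_filter.mp hg).1)
          _ ≤ ∑ g ∈ (F.erase x).filter (fun g => T < u g),
              ENNReal.ofReal (EX c B (fun S => Qsum c S C Λ W s n g)) := by
              refine Finset.sum_le_sum_of_subset ?_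
              intro g hg
              have hg' := Finset.mem_filter.mp hg
              have hgΛ := hlate g (Finset.mem_of_mem_erase hg'.1)
              simp only [Finset.mem_filter, Finset.mem_erase]
              exact ⟨⟨Finset.ne_of_mem_erase hg'.1, not_not.mp hg'.2⟩, hgΛ.2⟩
          _ = ∑ g ∈ F.erase x, (if T < u g then
              ENNReal.ofReal (EX c B (fun S => Qsum c S C Λ W s n g)) else 0) :=
              Finset.sum_filter _ _
    · simp [hx]
  have hm1 : Measurable (fun u : α → unitInterval => ∑ g ∈ (B \ F).erase x, (if T < u g ∧ T < u x then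
      ENNReal.ofReal (EX c B (fun S => qcov c (ctx B W u (s 0) (s (n + 2))) S g x)) else 0)) :=
    Finset.measurable_sum _ fun g _ => measurable_pair_term c B W T (s 0) (s (n + 2)) g x
  calc Qann c B W T s (n + 1) x
      ≤ ∫⁻ u, (∑ g ∈ (B \ F).erase x, (if T < u g ∧ T < u x then
          ENNReal.ofReal (EX c B (fun S => qcov c (ctx B W u (s 0) (s (n + 2))) S g x)) else 0)
        + ∑ g ∈ F.erase x, (if T < u g then
          ENNReal.ofReal (EX c B (fun S => Qsum c S (ctx B W u (s 0)) (late T B u) W s n g)) else 0))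
          ∂(labelMeasure α) := lintegral_mono hpt
    _ = ∑ g ∈ (B \ F).erase x, ∫⁻ u, (if T < u g ∧ T < u x then
          ENNReal.ofReal (EX c B (fun S => qcov c (ctx B W u (s 0) (s (n + 2))) S g x)) else 0)
          ∂(labelMeasure α)
        + ∑ g ∈ F.erase x, ∫⁻ u, (if T < u g then
          ENNReal.ofReal (EX c B (fun S => Qsum c S (ctx B W u (s 0)) (late T B u) W s n g)) else 0)
          ∂(labelMeasure α) := by
        rw [lintegral_add_left hm1,
          lintegral_finsetSum _ fun g _ => measurable_pair_term c B W T (s 0) (s (n + 2)) g x,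
          lintegral_finsetSum _ fun g _ => measurable_Qann_term c B W T s n g]
    _ ≤ ∑ g ∈ (B \ F).erase x, beta c T g x + ∑ g ∈ F.erase x, Qann c B W T s n g := by
        refine add_le_add ?_ le_rfl
        exact Finset.sum_le_sum fun g hg =>
          lintegral_EX_qcov_le_beta hc B W T (s 0) (s (n + 2)) (hsT _) (Finset.ne_of_mem_erase hg)

theorem Qann_le_quarter (hc : NegFam c) (B W : Finset α) (T : unitInterval) (s : ℕ → unitInterval)
    (hsT : ∀ i, s i ≤ T) (n : ℕ) (x : α) : Qann c B W T s n x ≤ ENNReal.ofReal (1 / 4) := by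
  have hpt : ∀ u : α → unitInterval,
      (if T < u x then
        ENNReal.ofReal (EX c B (fun S => Qsum c S (ctx B W u (s 0)) (late T B u) W s n x)) else 0)
      ≤ ENNReal.ofReal (1 / 4) := by
    intro u
    split_ifs with hx
    · refine ENNReal.ofReal_le_ofReal (EX_le_const hc B fun S _ => ?_)
      exact Qsum_le_quarter hc S (late T B u) W (ctx B W u (s 0)) s
        (fun i => disjoint_ctx_late B W T u (s 0) (s i) (hsT i)) n x (fun i => notMem_ctx (hsT i) hx)
    · exact bot_le
  calc Qann c B W T s n x ≤ ∫⁻ _u, ENNReal.ofReal (1 / 4) ∂(labelMeasure α) := lintegral_mono hpt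
    _ = ENNReal.ofReal (1 / 4) := by simp

/-- **Tightness.**  Induction on `n` (for all `x`, `ε`).  `n = 0`: `Qann_zero_le` and `exists_beta_tail` (`W₀ := F`).
Step: `F` from `exists_beta_tail` for `ε/2`; for every `g ∈ F` a set `W_g` from the induction hypothesis for
`ε / (2 (|F|+1))`; `W₀ := ⋃_{g ∈ F} W_g`. -/
theorem tight (hc : NegFam c) (T : unitInterval) (n : ℕ) (x : α) (ε : ℝ≥0∞) (hε : 0 < ε) :
    ∃ W₀ : Finset α, ∀ (W B : Finset α) (s : ℕ → unitInterval), W₀ ⊆ W → W ⊆ B → Monotone s → (∀ i, s i ≤ T) →
      Qann c B W T s n x ≤ ε := by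
  induction n generalizing x ε with
  | zero =>
    obtain ⟨F, hF⟩ := exists_beta_tail hc T x ε hε
    refine ⟨F, fun W B s hFW _ _ hsT => (Qann_zero_le hc B W T s hsT x).trans (hF _ ?_)⟩
    exact Finset.disjoint_of_subset_right hFW Finset.sdiff_disjoint
  | succ n ih =>
    have hε2 : 0 < ε / 2 := ENNReal.div_pos hε.ne' (by simp)
    obtain ⟨F, hF⟩ := exists_beta_tail hc T x (ε / 2) hε2
    set N : ℝ≥0∞ := (F.card : ℝ≥0∞) + 1 with hN
    have hN0 : N ≠ 0 := by simp [hN]
    have hNt : N ≠ ∞ := by simp [hN]
    have hδ : 0 < ε / 2 / N := ENNReal.div_pos hε2.ne' hNt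
    choose Wg hWg using fun g => ih g (ε / 2 / N) hδ
    refine ⟨F.biUnion Wg, fun W B s hW hWB hs hsT => ?_⟩
    refine (Qann_succ_le hc B W F T s hs hsT n x).trans ?_
    have h1 : ∑ g ∈ (B \ F).erase x, beta c T g x ≤ ε / 2 := hF _ Finset.sdiff_disjoint
    have h2 : ∑ g ∈ F.erase x, Qann c B W T s n g ≤ ε / 2 := by
      calc ∑ g ∈ F.erase x, Qann c B W T s n g ≤ ∑ _g ∈ F.erase x, ε / 2 / N := by
            refine Finset.sum_le_sum fun g hg => ?_
            exact hWg g W B s ((Finset.subset_biUnion_of_mem Wg (Finset.mem_of_mem_erase hg)).trans hW) hWB hs hsT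
        _ = ((F.erase x).card : ℝ≥0∞) * (ε / 2 / N) := by
            rw [Finset.sum_const, nsmul_eq_mul]
        _ ≤ N * (ε / 2 / N) := by
            refine mul_le_mul_left ?_ _
            calc ((F.erase x).card : ℝ≥0∞) ≤ (F.card : ℝ≥0∞) := by
                  exact_mod_cast Finset.card_le_card (Finset.erase_subset x F)
              _ ≤ N := le_self_add
        _ = ε / 2 := ENNReal.mul_div_cancel hN0 hNt
    calc ∑ g ∈ (B \ F).erase x, beta c T g x + ∑ g ∈ F.erase x, Qann c B W T s n g
        ≤ ε / 2 + ε / 2 := add_le_add h1 h2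
      _ = ε := ENNReal.add_halves ε

end Crest.Agent.R168
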