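/-
Row 168 CORE, task D5b (**final statement of CORE**: the samplers are uniformly Cauchy).  Keep the statements; aux private.
Uses D5a (`annealed_bound`), D4 (`tight`, `Qann_le_quarter`), `H.UCauchy` (helper93, `R168_H_Law`).
The measurability hypothesis `hmeas` is discharged by helper55's `measurable_samp_param` (R168_SampMeas) at the use sites
(or here, once that file is landed: then add `samp_ucauchy'` without `hmeas`).
-/
import Crest.Agent.R168_C_Annealed
import Crest.Agent.R168_C_Tight
import Crest.Agent.R168_H_Law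

set_option autoImplicit false
open MeasureTheory Finset
open Crest.ProbabilityR.Labels
open scoped ENNReal

namespace Crest.Agent.R168

variable {α : Type*} [DecidableEq α] {c : Finset α → Finset α → ℝ}

private theorem exp_term_eq (δ : ℝ) (hδ : 0 < δ) (n : ℕ) :
    ENNReal.ofReal (1 / 4) / (ENNReal.ofReal (δ ^ (n + 2)) * ((n + 2).factorial : ℝ≥0∞))
      = ENNReal.ofReal ((1 / 4) * ((1 / δ) ^ (n + 2) / ((n + 2).factorial : ℝ))) := by
  have h1 : ((n + 2).factorial : ℝ≥0∞) = ENNReal.ofReal ((n + 2).factorial : ℝ) := by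
    rw [ENNReal.ofReal_natCast]
  have hpos : 0 < δ ^ (n + 2) * ((n + 2).factorial : ℝ) :=
    mul_pos (pow_pos hδ _) (by exact_mod_cast Nat.factorial_pos _)
  rw [h1, ← ENNReal.ofReal_mul (pow_pos hδ _).le, ← ENNReal.ofReal_div_of_pos hpos]
  congr 1
  rw [one_div_pow]
  field_simp

/-- tail of the exponential series: for `δ > 0`, `ε > 0` there is `N₀` such that every finite sum of
`1 / (δ^(n+2) (n+2)!)` over `n ≥ N₀` is `≤ ε` (`Real.summable_pow_div_factorial (1/δ)`). -/
theorem exists_exp_tail (δ : ℝ) (hδ : 0 < δ) (ε : ℝ≥0∞) (hε : 0 < ε) :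
    ∃ N₀ : ℕ, ∀ M : ℕ, ∑ n ∈ (range M).filter (fun n => N₀ ≤ n),
      ENNReal.ofReal (1 / 4) / (ENNReal.ofReal (δ ^ (n + 2)) * ((n + 2).factorial : ℝ≥0∞)) ≤ ε := by
  set F : ℕ → ℝ≥0∞ := fun n =>
    ENNReal.ofReal (1 / 4) / (ENNReal.ofReal (δ ^ (n + 2)) * ((n + 2).factorial : ℝ≥0∞)) with hF
  set g : ℕ → ℝ := fun n => (1 / 4) * ((1 / δ) ^ (n + 2) / ((n + 2).factorial : ℝ)) with hg
  have hFg : ∀ n, F n = ENNReal.ofReal (g n) := fun n => exp_term_eq δ hδ n
  have hgs : Summable g := by
    have h0 := Real.summable_pow_div_factorial (1 / δ)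
    exact ((summable_nat_add_iff 2).2 h0).mul_left (1 / 4)
  have hg0 : ∀ n, 0 ≤ g n := by
    intro n
    have : 0 < 1 / δ := by positivity
    simp only [hg]
    positivity
  have hfin : ∑' n, F n ≠ ∞ := by
    have : ∑' n, F n = ENNReal.ofReal (∑' n, g n) := by
      rw [ENNReal.ofReal_tsum_of_nonneg hg0 hgs]
      exact tsum_congr hFg
    rw [this]
    exact ENNReal.ofReal_ne_top
  have ht := ENNReal.tendsto_sum_nat_add F hfin
  obtain ⟨N₀, hN₀⟩ := ((tendsto_order.1 ht).2 ε hε).exists
  refine ⟨N₀, fun M => ?_⟩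
  refine le_trans ?_ hN₀.le
  -- the finite sum is a partial sum of the shifted series
  have himg : (range M).filter (fun n => N₀ ≤ n) ⊆ (range M).image (fun k => k + N₀) := by
    intro n hn
    rw [mem_filter, mem_range] at hn
    rw [mem_image]
    exact ⟨n - N₀, mem_range.2 (by omega), by omega⟩
  calc ∑ n ∈ (range M).filter (fun n => N₀ ≤ n), F n
      ≤ ∑ n ∈ (range M).image (fun k => k + N₀), F n := sum_le_sum_of_subset himg
    _ = ∑ k ∈ range M, F (k + N₀) := by
        rw [sum_image]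
        intro a _ b _ hab
        exact Nat.add_right_cancel hab
    _ ≤ ∑' k, F (k + N₀) := ENNReal.sum_le_tsum _

/-- nested windows.  Given `ε`: `T := 1 - δ` with `ofReal δ ≤ ε/3`; `N₀` from `exists_exp_tail` for `ε/6`;
`η > 0` with `2 * ∑_{n < N₀} η / (δ^(n+2) (n+2)!) ≤ ε/3`; `W₀ := insert o (⋃_{n < N₀} W_n)` with `W_n` from `tight` for `η`;
`q n := if n < N₀ then η else ofReal (1/4)` (`Qann_le_quarter`); `annealed_bound`. -/
theorem samp_cauchy_nested (hc : NegFam c) (o : α)
    (hmeas : ∀ W' : Finset α,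
      Measurable (fun p : (α → unitInterval) × (α → unitInterval) => samp c W' p.1 p.2 o))
    (ε : ℝ≥0∞) (hε : 0 < ε) :
    ∃ W₀ : Finset α, ∀ W B : Finset α, W₀ ⊆ W → W ⊆ B →
      ((labelMeasure α).prod (labelMeasure α)) {p | samp c W p.1 p.2 o ≠ samp c B p.1 p.2 o} ≤ ε := by
  classical
  set a : ℝ≥0∞ := ε / 6 with ha
  have ha0 : 0 < a := ENNReal.div_pos hε.ne' (by norm_num)
  have h6a : 6 * a = ε := ENNReal.mul_div_cancel (by norm_num) (by norm_num)
  -- the time cut-off
  set e : ℝ≥0∞ := min a 1 with he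
  have he0 : 0 < e := lt_min ha0 one_pos
  have hetop : e ≠ ∞ := ne_top_of_le_ne_top ENNReal.one_ne_top (min_le_right _ _)
  set δ : ℝ := e.toReal with hδdef
  have hδ : 0 < δ := ENNReal.toReal_pos he0.ne' hetop
  have hδ1 : δ ≤ 1 := by
    have := ENNReal.toReal_mono ENNReal.one_ne_top (min_le_right a 1)
    simpa using this
  have hδa : ENNReal.ofReal δ ≤ a := by
    rw [hδdef, ENNReal.ofReal_toReal hetop]
    exact min_le_left _ _
  set T : unitInterval := ⟨1 - δ, by constructor <;> linarith⟩ with hTdef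
  have hTδ : 1 - (T : ℝ) = δ := by simp [hTdef]
  have hT : T < 1 := by
    rw [← Subtype.coe_lt_coe]
    show (1 - δ : ℝ) < 1
    linarith
  -- the denominators
  set d : ℕ → ℝ≥0∞ := fun n => ENNReal.ofReal (δ ^ (n + 2)) * ((n + 2).factorial : ℝ≥0∞) with hd
  have hd0 : ∀ n, d n ≠ 0 := by
    intro n
    refine mul_ne_zero ?_ ?_
    · exact (ENNReal.ofReal_pos.2 (pow_pos hδ _)).ne'
    · exact_mod_cast (Nat.factorial_pos _).ne'
  obtain ⟨N₀, hN₀⟩ := exists_exp_tail δ hδ a ha0
  set D : ℝ≥0∞ := ∑ n ∈ range N₀, (d n)⁻¹ with hD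
  have hDtop : D ≠ ∞ := by
    rw [hD]
    exact ENNReal.sum_ne_top.2 (fun n _ => ENNReal.inv_ne_top.2 (hd0 n))
  have hD1top : D + 1 ≠ ∞ := ENNReal.add_ne_top.2 ⟨hDtop, ENNReal.one_ne_top⟩
  have hD10 : D + 1 ≠ 0 := by simp
  set η : ℝ≥0∞ := e / (D + 1) with hη
  have hη0 : 0 < η := ENNReal.div_pos he0.ne' hD1top
  have hηD : η * D ≤ a := by
    calc η * D ≤ η * (D + 1) := by gcongr; exact le_self_add
      _ = e := ENNReal.div_mul_cancel hD10 hD1top
      _ ≤ a := min_le_left _ _
  choose Wn hWn using fun n : ℕ => tight hc T n o η hη0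
  refine ⟨insert o ((range N₀).biUnion Wn), fun W B hW hWB => ?_⟩
  have ho : o ∈ W := hW (mem_insert_self _ _)
  set q : ℕ → ℝ≥0∞ := fun n => if n < N₀ then η else ENNReal.ofReal (1 / 4) with hq
  have hqb : ∀ (n : ℕ) (s : ℕ → unitInterval), Monotone s → (∀ i, s i ≤ T) →
      Qann c B W T s n o ≤ q n := by
    intro n s hs hsT
    by_cases hn : n < N₀
    · simp only [hq, if_pos hn]
      refine hWn n W B s ?_ hWB hs hsT
      exact ((subset_biUnion_of_mem Wn (mem_range.2 hn)).trans (subset_insert _ _)).trans hW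
    · simp only [hq, if_neg hn]
      exact Qann_le_quarter hc B W T s hsT n o
  have hmain := annealed_bound hc B W hWB o ho hmeas T hT q hqb
  rw [hTδ] at hmain
  refine hmain.trans ?_
  have hsum : ∑ n ∈ range B.card, q n / d n ≤ a + a := by
    rw [← sum_filter_add_sum_filter_not (range B.card) (fun n => n < N₀)]
    refine add_le_add ?_ ?_
    · calc ∑ n ∈ (range B.card).filter (fun n => n < N₀), q n / d n
          = ∑ n ∈ (range B.card).filter (fun n => n < N₀), η * (d n)⁻¹ := by
            refine sum_congr rfl fun n hn => ?_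
            rw [mem_filter] at hn
            simp only [hq, if_pos hn.2, div_eq_mul_inv]
        _ ≤ ∑ n ∈ range N₀, η * (d n)⁻¹ := by
            refine sum_le_sum_of_subset ?_
            intro n hn
            rw [mem_filter] at hn
            exact mem_range.2 hn.2
        _ = η * D := by rw [hD, mul_sum]
        _ ≤ a := hηD
    · calc ∑ n ∈ (range B.card).filter (fun n => ¬ n < N₀), q n / d n
          = ∑ n ∈ (range B.card).filter (fun n => N₀ ≤ n), ENNReal.ofReal (1 / 4) / d n := by
            have : (range B.card).filter (fun n => ¬ n < N₀)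
                = (range B.card).filter (fun n => N₀ ≤ n) := by
              refine filter_congr fun n _ => ?_
              exact not_lt
            rw [this]
            refine sum_congr rfl fun n hn => ?_
            rw [mem_filter] at hn
            simp only [hq, if_neg (not_lt.2 hn.2)]
        _ ≤ a := hN₀ B.card
  calc ENNReal.ofReal δ + 2 * ∑ n ∈ range B.card, q n / d n
      ≤ a + 2 * (a + a) := add_le_add hδa (by gcongr)
    _ ≤ a + 2 * (a + a) + a := le_self_add
    _ = 6 * a := by ring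
    _ = ε := h6a

/-- **CORE (C2).**  From `samp_cauchy_nested` for `ε/2` through the window `W ∪ W'`. -/
theorem samp_ucauchy (hc : NegFam c)
    (hmeas : ∀ (W' : Finset α) (o : α),
      Measurable (fun p : (α → unitInterval) × (α → unitInterval) => samp c W' p.1 p.2 o)) :
    H.UCauchy ((labelMeasure α).prod (labelMeasure α)) (fun W w o => samp c W w.1 w.2 o) := by
  intro o ε hε
  obtain ⟨W₀, hW₀⟩ := samp_cauchy_nested hc o (fun W' => hmeas W' o) (ε / 2)
    (ENNReal.div_pos hε.ne' (by norm_num))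
  refine ⟨W₀, fun W W' hW hW' => ?_⟩
  have h1 := hW₀ W (W ∪ W') hW subset_union_left
  have h2 := hW₀ W' (W ∪ W') hW' subset_union_right
  calc ((labelMeasure α).prod (labelMeasure α)) {w | samp c W w.1 w.2 o ≠ samp c W' w.1 w.2 o}
      ≤ ((labelMeasure α).prod (labelMeasure α))
          ({p | samp c W p.1 p.2 o ≠ samp c (W ∪ W') p.1 p.2 o} ∪
            {p | samp c W' p.1 p.2 o ≠ samp c (W ∪ W') p.1 p.2 o}) := by
        apply measure_mono
        intro w hw
        by_contra hcon
        simp only [Set.mem_union, Set.mem_ofPred_eq, not_or, not_not] at hcon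
        exact hw (hcon.1.trans hcon.2.symm)
    _ ≤ ε / 2 + ε / 2 := (measure_union_le _ _).trans (add_le_add h1 h2)
    _ = ε := ENNReal.add_halves ε

end Crest.Agent.R168
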