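/-
Row 168 (S0254/S0255) team project, part G (sub-architect helper33): the spanning-tree polynomial of a
finite connected induced piece is stable.  Shared definitions of part G.  DO NOT EDIT (ask helper33).

Paper proof (weighted matrix-tree theorem, no Cauchy-Binet minors needed):
* root `r ∈ S`, index type `ι = {x // x ∈ S.erase r}`; every unordered pair `e` gets the signed incidence
  vector `incVec e = δ_{e.out.1} - δ_{e.out.2}`, restricted to `ι` (`redVec`).
* `gram v z A = ∑_{e ∈ A} z e • v e (v e)ᵀ`.
* (GA)  det (gram v z E) = ∑_{A ⊆ E, |A| = |ι|} (∏_{e∈A} z e) * det (gram v 1 A)          [multilinear expansion]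
* (GC)  |A|+1 = |S|, (S,A) connected  ⟹ det (gram redVec 1 A) = 1                          [unimodularity over ℤ]
* (GD)  (S,A) not connected           ⟹ det (gram redVec 1 A) = 0                          [kernel vector]
* (GB)  IsSpanningTreeOn G S A ⟺ A ⊆ edgesIn G S ∧ |A|+1 = |S| ∧ (S,A) connected
* (GE)  Im z e > 0 on E, (S,E) connected ⟹ det (gram redVec z E) ≠ 0                       [Im of the quadratic form]
-/
import Mathlib
import Crest.Prelude.Def_SpanningTrees

set_option autoImplicit false
open Crest.ProbabilityR.SpanningTrees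

namespace Crest.Agent.R168

/-- Gram-type matrix `∑_{e ∈ A} z e • v e (v e)ᵀ`. -/
def gram {ι α R : Type*} [CommRing R] (v : α → ι → R) (z : α → R) (A : Finset α) : Matrix ι ι R :=
  ∑ e ∈ A, z e • Matrix.vecMulVec (v e) (v e)

/-- the graph on the vertex set `S` with edge set `A` (exactly the graph in `IsSpanningTreeOn`) -/
abbrev pieceGraph {V : Type*} (S : Finset V) (A : Finset (Sym2 V)) : SimpleGraph (S : Set V) :=
  (SimpleGraph.fromEdgeSet (A : Set (Sym2 V))).induce (S : Set V)

/-- signed incidence vector of an unordered pair; the orientation is `Quot.out`. -/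
noncomputable def incVec {V : Type*} [DecidableEq V] (R : Type*) [CommRing R] (e : Sym2 V) (x : V) : R :=
  (if x = e.out.1 then 1 else 0) - (if x = e.out.2 then 1 else 0)

/-- incidence vector restricted to the non-root vertices of `S` -/
noncomputable def redVec {V : Type*} [DecidableEq V] (R : Type*) [CommRing R] (S : Finset V) (r : V)
    (e : Sym2 V) : {x // x ∈ S.erase r} → R :=
  fun i => incVec R e i.1

/-- `A` consists of non-loop pairs inside `S` -/
def GoodEdges {V : Type*} (S : Finset V) (A : Finset (Sym2 V)) : Prop :=
  ∀ e ∈ A, e ∈ S.sym2 ∧ ¬ e.IsDiag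

/-- the spanning-tree polynomial of the piece -/
noncomputable def treePoly {V : Type*} (G : SimpleGraph V) (S : Finset V) (z : Sym2 V → ℂ) : ℂ :=
  haveI := Classical.decPred (fun A : Finset (Sym2 V) => IsSpanningTreeOn G S A)
  ∑ A ∈ (edgesIn G S).powerset.filter (fun A => IsSpanningTreeOn G S A), ∏ e ∈ A, z e

end Crest.Agent.R168
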