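/-
Row 168 part G, task GB (graph-theoretic bookkeeping for `IsSpanningTreeOn`).  One owner; keep the statements.
-/
import Crest.Agent.R168_TreeDefs

set_option autoImplicit false
open Finset Crest.ProbabilityR.SpanningTrees

namespace Crest.Agent.R168
variable {V : Type*}

theorem mem_edgesIn_iff (G : SimpleGraph V) (S : Finset V) (e : Sym2 V) :
    e ∈ edgesIn G S ↔ e ∈ S.sym2 ∧ e ∈ G.edgeSet := by
  unfold edgesIn
  simp only [Finset.mem_filter]

theorem goodEdges_edgesIn (G : SimpleGraph V) (S : Finset V) : GoodEdges S (edgesIn G S) := by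
  intro e he
  rw [mem_edgesIn_iff] at he
  exact ⟨he.1, G.not_isDiag_of_mem_edgeSet he.2⟩

theorem GoodEdges.mono {S : Finset V} {A B : Finset (Sym2 V)} (hB : GoodEdges S B) (h : A ⊆ B) :
    GoodEdges S A := fun e he => hB e (h he)

/-- adjacency in the piece graph -/
theorem pieceGraph_adj {S : Finset V} {A : Finset (Sym2 V)} (x y : (S : Set V)) :
    (pieceGraph S A).Adj x y ↔ s(x.1, y.1) ∈ A ∧ x.1 ≠ y.1 := by
  rw [SimpleGraph.induce_adj, SimpleGraph.fromEdgeSet_adj]
  simp

/-- the piece graph of all edges inside `S` is the induced graph -/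
theorem pieceGraph_edgesIn (G : SimpleGraph V) (S : Finset V) :
    pieceGraph S (edgesIn G S) = G.induce (S : Set V) := by
  ext x y
  rw [pieceGraph_adj, SimpleGraph.induce_adj, mem_edgesIn_iff, SimpleGraph.mem_edgeSet,
    Finset.mk_mem_sym2_iff]
  constructor
  · rintro ⟨⟨-, h⟩, -⟩
    exact h
  · intro h
    exact ⟨⟨⟨x.2, y.2⟩, h⟩, h.ne⟩

/-- number of edges of the piece graph: `Sym2.map Subtype.val` is a bijection `edgeSet ≃ A`. -/
theorem card_edgeSet_pieceGraph {S : Finset V} {A : Finset (Sym2 V)} (hA : GoodEdges S A) :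
    Nat.card (pieceGraph S A).edgeSet = A.card := by
  have himg : Sym2.map (Subtype.val : ((S : Set V) : Type _) → V) '' (pieceGraph S A).edgeSet
      = (A : Set (Sym2 V)) := by
    ext e
    constructor
    · rintro ⟨f, hf, rfl⟩
      induction f using Sym2.ind with
      | _ x y =>
        rw [SimpleGraph.mem_edgeSet, pieceGraph_adj] at hf
        simpa using hf.1
    · intro he
      have hg := hA e he
      induction e using Sym2.ind with
      | _ a b =>
        rw [Finset.mk_mem_sym2_iff] at hg
        refine ⟨s(⟨a, hg.1.1⟩, ⟨b, hg.1.2⟩), ?_, by simp⟩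
        rw [SimpleGraph.mem_edgeSet, pieceGraph_adj]
        refine ⟨he, ?_⟩
        intro hab
        exact hg.2 (by simpa using hab)
  rw [Nat.card_coe_set_eq, ← Set.ncard_image_of_injective _
    (Sym2.map.injective Subtype.val_injective), himg, Set.ncard_coe_finset]

/-- GB main.  Use `SimpleGraph.isTree_iff_connected_and_card`, `card_edgeSet_pieceGraph`,
`Nat.card (S : Set V) = S.card`. -/
theorem isSpanningTreeOn_iff (G : SimpleGraph V) (S : Finset V) (A : Finset (Sym2 V)) :
    IsSpanningTreeOn G S A ↔
      A ⊆ edgesIn G S ∧ A.card + 1 = S.card ∧ (pieceGraph S A).Connected := by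
  unfold IsSpanningTreeOn
  have hS : Nat.card (S : Set V) = S.card := by
    rw [Nat.card_coe_set_eq, Set.ncard_coe_finset]
  constructor
  · rintro ⟨hsub, ht⟩
    have ht' : (pieceGraph S A).IsTree := ht
    rw [SimpleGraph.isTree_iff_connected_and_card,
      card_edgeSet_pieceGraph ((goodEdges_edgesIn G S).mono hsub), hS] at ht'
    exact ⟨hsub, ht'.2, ht'.1⟩
  · rintro ⟨hsub, hcard, hc⟩
    refine ⟨hsub, ?_⟩
    show (pieceGraph S A).IsTree
    rw [SimpleGraph.isTree_iff_connected_and_card,
      card_edgeSet_pieceGraph ((goodEdges_edgesIn G S).mono hsub), hS]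
    exact ⟨hc, hcard⟩

/-- propagation along edges: a predicate on `V` that is constant along the edges of `A` and holds at `r`
holds at every vertex reachable from `r` (induction on a walk / `Relation.ReflTransGen`). -/
theorem propagate_reachable {S : Finset V} {A : Finset (Sym2 V)} (P : V → Prop)
    (hP : ∀ a b, s(a, b) ∈ A → (P a ↔ P b)) {r x : (S : Set V)} (h : (pieceGraph S A).Reachable r x)
    (hr : P r.1) : P x.1 := by
  obtain ⟨p⟩ := h
  induction p with
  | nil => exact hr
  | cons hadj _ ih =>
    apply ih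
    rw [pieceGraph_adj] at hadj
    exact (hP _ _ hadj.1).1 hr

theorem propagate {S : Finset V} {A : Finset (Sym2 V)} (hc : (pieceGraph S A).Connected) (P : V → Prop)
    (hP : ∀ a b, s(a, b) ∈ A → (P a ↔ P b)) {r : V} (hrS : r ∈ S) (hr : P r) : ∀ x ∈ S, P x := by
  intro x hx
  exact propagate_reachable (S := S) (A := A) P hP (r := ⟨r, hrS⟩) (x := ⟨x, hx⟩)
    (hc.preconnected _ _) hr

section inc
variable [DecidableEq V] (R : Type*) [CommRing R]

/-- `incVec s(a,b) = ±(δ_a - δ_b)` -/
theorem incVec_mk (a b : V) :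
    (incVec R s(a, b) = fun x => (if x = a then 1 else 0) - (if x = b then (1 : R) else 0)) ∨
    (incVec R s(a, b) = fun x => (if x = b then 1 else 0) - (if x = a then (1 : R) else 0)) := by
  have h : s((s(a, b) : Sym2 V).out.1, (s(a, b) : Sym2 V).out.2) = s(a, b) := Quot.out_eq _
  rw [Sym2.eq_iff] at h
  rcases h with ⟨h1, h2⟩ | ⟨h1, h2⟩
  · left
    funext x
    unfold incVec
    rw [h1, h2]
  · right
    funext x
    unfold incVec
    rw [h1, h2]

theorem sum_erase_ite_mul {S : Finset V} {r : V} (W : V → R) (hW : W r = 0) {a : V} (ha : a ∈ S) :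
    ∑ i : {x // x ∈ S.erase r}, (if i.1 = a then (1 : R) else 0) * W i.1 = W a := by
  rw [Finset.sum_coe_sort (S.erase r) (fun x => (if x = a then (1 : R) else 0) * W x)]
  simp only [ite_mul, one_mul, zero_mul, Finset.sum_ite_eq', Finset.mem_erase]
  by_cases har : a = r
  · subst har
    simp [hW]
  · simp [har, ha]

/-- pairing of the reduced incidence vector with a function `w` on the non-root vertices, extended by `0` at the
root: `∑ i, redVec e i * w i = ±(W a - W b)` where `W x = w x` for `x ∈ S.erase r` and `W r = 0`.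
Stated with a function `W : V → R` with `W r = 0`. -/
theorem sum_redVec_mul {S : Finset V} {r : V} (W : V → R) (hW : W r = 0) {a b : V} (ha : a ∈ S) (hb : b ∈ S) :
    (∑ i : {x // x ∈ S.erase r}, redVec R S r s(a, b) i * W i.1 = W a - W b) ∨
    (∑ i : {x // x ∈ S.erase r}, redVec R S r s(a, b) i * W i.1 = W b - W a) := by
  rcases incVec_mk R a b with h | h
  · left
    simp only [redVec, h, sub_mul, Finset.sum_sub_distrib]
    rw [sum_erase_ite_mul R W hW ha, sum_erase_ite_mul R W hW hb]
  · right
    simp only [redVec, h, sub_mul, Finset.sum_sub_distrib]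
    rw [sum_erase_ite_mul R W hW ha, sum_erase_ite_mul R W hW hb]

end inc

end Crest.Agent.R168
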