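/-
Row 168 part G2, task GL (equivariance of everything under relabelling of the vertices).  One owner; keep the statements.
-/
import Crest.Agent.R168_MassDefs
import Crest.Agent.R168_TreeChar

set_option autoImplicit false
open Finset Crest.ProbabilityR.SpanningTrees

namespace Crest.Agent.R168
variable {V : Type*} [DecidableEq V]

/-- relabelling of finite sets of pairs -/
abbrev mapE (σ : Equiv.Perm V) (F : Finset (Sym2 V)) : Finset (Sym2 V) := F.image (Sym2.map σ)

omit [DecidableEq V] in
theorem sym2Map_injective (σ : Equiv.Perm V) : Function.Injective (Sym2.map (σ : V → V)) :=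
  Sym2.map.injective σ.injective

private theorem mem_mapE_mk (σ : Equiv.Perm V) (A : Finset (Sym2 V)) (x y : V) :
    s(σ x, σ y) ∈ mapE σ A ↔ s(x, y) ∈ A := by
  have h : s(σ x, σ y) = Sym2.map σ s(x, y) := by simp
  rw [h]
  exact (sym2Map_injective σ).mem_finset_image

private theorem mapE_symm_mapE (σ : Equiv.Perm V) (B : Finset (Sym2 V)) :
    mapE σ (mapE σ.symm B) = B := by
  unfold mapE
  rw [Finset.image_image, ← Sym2.map_comp]
  have : ((σ : V → V) ∘ (σ.symm : V → V)) = id := by
    funext x; simp
  rw [this, Sym2.map_id, Finset.image_id]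

private theorem mapE_subset_iff (σ : Equiv.Perm V) (A B : Finset (Sym2 V)) :
    mapE σ A ⊆ mapE σ B ↔ A ⊆ B :=
  Finset.image_subset_image_iff (sym2Map_injective σ)

private theorem mapE_injective (σ : Equiv.Perm V) : Function.Injective (mapE σ) :=
  Finset.image_injective (sym2Map_injective σ)

theorem edgesIn_comap (σ : Equiv.Perm V) (G : SimpleGraph V) (S : Finset V) :
    mapE σ (edgesIn (G.comap σ) S) = edgesIn G (S.image σ) := by
  ext e
  constructor
  · intro he
    obtain ⟨f, hf, rfl⟩ := Finset.mem_image.1 he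
    induction f using Sym2.ind with
    | _ x y =>
      rw [mem_edgesIn_iff, Finset.mk_mem_sym2_iff, SimpleGraph.mem_edgeSet] at hf
      rw [Sym2.map_mk, mem_edgesIn_iff, Finset.mk_mem_sym2_iff, SimpleGraph.mem_edgeSet]
      exact ⟨⟨Finset.mem_image_of_mem _ hf.1.1, Finset.mem_image_of_mem _ hf.1.2⟩, hf.2⟩
  · intro he
    induction e using Sym2.ind with
    | _ a b =>
      rw [mem_edgesIn_iff, Finset.mk_mem_sym2_iff, SimpleGraph.mem_edgeSet] at he
      obtain ⟨⟨ha, hb⟩, hab⟩ := he
      obtain ⟨x, hx, rfl⟩ := Finset.mem_image.1 ha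
      obtain ⟨y, hy, rfl⟩ := Finset.mem_image.1 hb
      rw [mem_mapE_mk, mem_edgesIn_iff, Finset.mk_mem_sym2_iff, SimpleGraph.mem_edgeSet]
      exact ⟨⟨hx, hy⟩, hab⟩

/-- the vertex bijection of the two pieces -/
private def pieceEquiv (σ : Equiv.Perm V) (S : Finset V) :
    ((S : Set V) : Type _) ≃ (((S.image σ : Finset V) : Set V) : Type _) where
  toFun x := ⟨σ x.1, by
    have := x.2
    simp only [Finset.coe_image, Set.mem_image, Finset.mem_coe] at this ⊢
    exact ⟨x.1, this, rfl⟩⟩
  invFun y := ⟨σ.symm y.1, by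
    have := y.2
    simp only [Finset.coe_image, Set.mem_image, Finset.mem_coe] at this ⊢
    obtain ⟨x, hx, hxy⟩ := this
    rw [← hxy]
    simpa using hx⟩
  left_inv x := by
    apply Subtype.ext
    simp
  right_inv y := by
    apply Subtype.ext
    simp

private def pieceIso (σ : Equiv.Perm V) (S : Finset V) (A : Finset (Sym2 V)) :
    pieceGraph S A ≃g pieceGraph (S.image σ) (mapE σ A) where
  toEquiv := pieceEquiv σ S
  map_rel_iff' := by
    intro x y
    rw [pieceGraph_adj, pieceGraph_adj]
    show (s(σ x.1, σ y.1) ∈ mapE σ A ∧ σ x.1 ≠ σ y.1) ↔ _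
    rw [mem_mapE_mk, σ.injective.ne_iff]

/-- `pieceGraph S A` and `pieceGraph (S.image σ) (mapE σ A)` are isomorphic; for connectedness it is enough to use `propagate`
in both directions (or build the `SimpleGraph.Iso` and use `Iso.connected_iff`). -/
theorem pieceGraph_connected_image (σ : Equiv.Perm V) (S : Finset V) (A : Finset (Sym2 V)) :
    (pieceGraph (S.image σ) (mapE σ A)).Connected ↔ (pieceGraph S A).Connected :=
  (pieceIso σ S A).connected_iff.symm

theorem induce_comap_connected (σ : Equiv.Perm V) (G : SimpleGraph V) (S : Finset V) :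
    ((G.comap σ).induce (S : Set V)).Connected ↔ (G.induce ((S.image σ : Finset V) : Set V)).Connected := by
  rw [← pieceGraph_edgesIn, ← pieceGraph_edgesIn, ← edgesIn_comap, pieceGraph_connected_image]

/-- `isSpanningTreeOn_iff`, `edgesIn_comap`, `Finset.card_image_of_injective`, `pieceGraph_connected_image` -/
theorem isSpanningTreeOn_comap (σ : Equiv.Perm V) (G : SimpleGraph V) (S : Finset V) (A : Finset (Sym2 V)) :
    IsSpanningTreeOn (G.comap σ) S A ↔ IsSpanningTreeOn G (S.image σ) (mapE σ A) := by
  rw [isSpanningTreeOn_iff, isSpanningTreeOn_iff, ← edgesIn_comap, mapE_subset_iff,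
    Finset.card_image_of_injective _ (sym2Map_injective σ),
    Finset.card_image_of_injective _ σ.injective, pieceGraph_connected_image]

private theorem card_filter_comap (σ : Equiv.Perm V) (G : SimpleGraph V) (S : Finset V)
    (P Q : Finset (Sym2 V) → Prop) {iP : DecidablePred P} {iQ : DecidablePred Q}
    (h : ∀ A, P A ↔ Q (mapE σ A)) :
    ((edgesIn (G.comap σ) S).powerset.filter P).card
      = ((edgesIn G (S.image σ)).powerset.filter Q).card := by
  refine Finset.card_bij (fun A _ => mapE σ A) ?_ ?_ ?_
  · intro A hA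
    rw [Finset.mem_filter, Finset.mem_powerset] at hA ⊢
    rw [← edgesIn_comap, mapE_subset_iff]
    exact ⟨hA.1, (h A).1 hA.2⟩
  · intro A _ B _ hAB
    exact mapE_injective σ hAB
  · intro B hB
    rw [Finset.mem_filter, Finset.mem_powerset] at hB
    refine ⟨mapE σ.symm B, ?_, mapE_symm_mapE σ B⟩
    rw [Finset.mem_filter, Finset.mem_powerset, ← mapE_subset_iff σ, mapE_symm_mapE, edgesIn_comap, h,
      mapE_symm_mapE]
    exact hB

/-- bijection `A ↦ mapE σ A` between the two filtered powersets (`Finset.card_bij` / `card_nbij'`) -/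
theorem ustContains_comap (σ : Equiv.Perm V) (G : SimpleGraph V) (S : Finset V) (F : Finset (Sym2 V)) :
    ustContains (G.comap σ) S F = ustContains G (S.image σ) (mapE σ F) := by
  classical
  unfold ustContains
  congr 2
  · apply card_filter_comap
    intro A
    rw [isSpanningTreeOn_comap, mapE_subset_iff]
  · apply card_filter_comap
    intro A
    rw [isSpanningTreeOn_comap]

/-- reindex the infimum by the bijection `S ↦ S.image σ` of the index subtypes (`Equiv.iInf_congr`) -/
theorem fusfQ_comap (σ : Equiv.Perm V) (G : SimpleGraph V) (F : Finset (Sym2 V)) :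
    fusfQ (G.comap σ) F = fusfQ G (mapE σ F) := by
  unfold fusfQ
  refine Function.Surjective.iInf_congr
    (fun S : {S : Finset V // ((G.comap σ).induce (S : Set V)).Connected ∧ F ⊆ edgesIn (G.comap σ) S} =>
      (⟨S.1.image σ, (induce_comap_connected σ G S.1).1 S.2.1, by
        rw [← edgesIn_comap, mapE_subset_iff]; exact S.2.2⟩ :
        {S : Finset V // (G.induce (S : Set V)).Connected ∧ mapE σ F ⊆ edgesIn G S})) ?_ ?_
  · rintro ⟨T, hT1, hT2⟩
    have hTT : (T.image σ.symm).image σ = T := by
      rw [Finset.image_image]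
      have : ((σ : V → V) ∘ (σ.symm : V → V)) = id := by
        funext x; simp
      rw [this, Finset.image_id]
    refine ⟨⟨T.image σ.symm, ?_, ?_⟩, ?_⟩
    · rw [induce_comap_connected, hTT]; exact hT1
    · rw [← mapE_subset_iff σ, edgesIn_comap, hTT]; exact hT2
    · apply Subtype.ext
      exact hTT
  · intro S
    exact (ustContains_comap σ G S.1 F).symm

/-- reindex the sum over `J.powerset` by `K ↦ mapE σ K` (`Finset.sum_bij`, `Finset.image_union`, `card_image_of_injective`) -/
theorem fusfM_comap (σ : Equiv.Perm V) (G : SimpleGraph V) (I J : Finset (Sym2 V)) :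
    fusfM (G.comap σ) I J = fusfM G (mapE σ I) (mapE σ J) := by
  unfold fusfM
  refine Finset.sum_bij (fun K _ => mapE σ K) ?_ ?_ ?_ ?_
  · intro K hK
    rw [Finset.mem_powerset] at hK ⊢
    exact (mapE_subset_iff σ K J).2 hK
  · intro A _ B _ hAB
    exact mapE_injective σ hAB
  · intro B hB
    rw [Finset.mem_powerset] at hB
    refine ⟨mapE σ.symm B, ?_, mapE_symm_mapE σ B⟩
    rw [Finset.mem_powerset, ← mapE_subset_iff σ, mapE_symm_mapE]
    exact hB
  · intro K _
    rw [fusfQ_comap, Finset.card_image_of_injective _ (sym2Map_injective σ),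
      show mapE σ (I ∪ K) = mapE σ I ∪ mapE σ K from Finset.image_union _ _]

end Crest.Agent.R168
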