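/-
Row 168 part G2, task GF2 (from pair correlations in all contexts to "inclusion vs avoidance" correlation).
One owner; keep the statement.
-/
import Crest.Agent.R168_MassBasic

set_option autoImplicit false
open Finset

namespace Crest.Agent.R168
variable {α : Type*} [DecidableEq α]

/-- the cancellation used twice -/
private theorem massCor_cancel {A B C D E G : ℝ} (hA : 0 ≤ A) (hB : 0 ≤ B) (hC : 0 ≤ C) (hD : 0 ≤ D)
    (hE : 0 ≤ E) (hG : 0 ≤ G) (h1 : A * B ≤ C * D) (h2 : E * C ≤ G * A) (h3 : E ≤ A) :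
    E * B ≤ G * D := by
  rcases hA.eq_or_lt with rfl | hA'
  · have hE0 : E = 0 := le_antisymm h3 hE
    subst hE0
    simpa using mul_nonneg hG hD
  rcases hC.eq_or_lt with rfl | hC'
  · have hB0 : B = 0 := by
      have h : A * B ≤ 0 := by simpa using h1
      have h' : 0 ≤ A * B := mul_nonneg hA hB
      have h'' : A * B = 0 := le_antisymm h h'
      rcases mul_eq_zero.1 h'' with h0 | h0
      · exact absurd h0 hA'.ne'
      · exact h0
    subst hB0
    simpa using mul_nonneg hG hD
  have hAC : 0 < A * C := mul_pos hA' hC'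
  have key : E * B * (A * C) ≤ G * D * (A * C) := by
    calc E * B * (A * C) = (E * C) * (A * B) := by ring
      _ ≤ (G * A) * (C * D) := mul_le_mul h2 h1 (mul_nonneg hA hB) (mul_nonneg hG hA)
      _ = G * D * (A * C) := by ring
  exact le_of_mul_le_mul_right key hAC

/-- step 1: one element against one element -/
private theorem massCor_step1 {c : Finset α → Finset α → ℝ} (hc : CylFam c) (hN : MassN1 c)
    (I J : Finset α) (hIJ : Disjoint I J) (f k : α) (hfk : f ≠ k) (hfI : f ∉ I) (hfJ : f ∉ J)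
    (hkI : k ∉ I) (hkJ : k ∉ J) :
    c (insert f I) J * c I (insert k J) ≤ c (insert f I) (insert k J) * c I J := by
  have e1 := hc.split I J k
  have e2 := hc.split (insert f I) J k
  have h := hN I J hIJ k f (Ne.symm hfk) hkI hkJ hfI hfJ
  have e1' : c I (insert k J) = c I J - c (insert k I) J := by linarith
  have e2' : c (insert f I) (insert k J) = c (insert f I) J - c (insert k (insert f I)) J := by linarith
  rw [e1', e2']
  nlinarith [h]

/-- step 2: one element against a set -/
private theorem massCor_step2 {c : Finset α → Finset α → ℝ} (hc : CylFam c) (hN : MassN1 c)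
    (I J : Finset α) (hIJ : Disjoint I J) (f : α) (hfI : f ∉ I) (hfJ : f ∉ J) (K : Finset α) :
    Disjoint I K → Disjoint J K → f ∉ K →
    c (insert f I) J * c I (J ∪ K) ≤ c (insert f I) (J ∪ K) * c I J := by
  induction K using Finset.induction_on with
  | empty =>
    intro _ _ _
    simp
  | insert k K₁ hk ih =>
    intro hIK hJK hfK
    rw [Finset.disjoint_insert_right] at hIK hJK
    have hfk : f ≠ k := fun h => hfK (h ▸ Finset.mem_insert_self _ _)
    have hfK₁ : f ∉ K₁ := fun h => hfK (Finset.mem_insert_of_mem h)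
    have a := ih hIK.2 hJK.2 hfK₁
    have hdisj : Disjoint I (J ∪ K₁) := Finset.disjoint_union_right.2 ⟨hIJ, hIK.2⟩
    have b := massCor_step1 hc hN I (J ∪ K₁) hdisj f k hfk hfI
      (by simp [hfJ, hfK₁]) hIK.1 (by simp [hJK.1, hk])
    have hU : J ∪ insert k K₁ = insert k (J ∪ K₁) := by
      rw [Finset.union_insert]
    rw [hU]
    have := massCor_cancel (A := c I (J ∪ K₁)) (B := c (insert f I) J) (C := c (insert f I) (J ∪ K₁))
      (D := c I J) (E := c I (insert k (J ∪ K₁))) (G := c (insert f I) (insert k (J ∪ K₁)))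
      (hc.nonneg _ _) (hc.nonneg _ _) (hc.nonneg _ _) (hc.nonneg _ _) (hc.nonneg _ _) (hc.nonneg _ _)
      (by linarith [a, mul_comm (c I (J ∪ K₁)) (c (insert f I) J)])
      (by linarith [b, mul_comm (c I (insert k (J ∪ K₁))) (c (insert f I) (J ∪ K₁))])
      (hc.insert_right_le _ _ _)
    linarith [this, mul_comm (c I (insert k (J ∪ K₁))) (c (insert f I) J)]

/-- GF2.  `P(F ⊆ X) P(X ∩ K = ∅) ≤ P(F ⊆ X, X ∩ K = ∅)` in every context, un-normalised.

Proof.  Step 1 (`F = {f}`, `K = {k}`, context `(I,J)` disjoint, `f ≠ k` outside `I ∪ J`):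
`c I (insert k J) = c I J - c (insert k I) J` and `c (insert f I) (insert k J) = c (insert f I) J - c (insert k (insert f I)) J`
(`split`), so the claim is exactly (N1) (`Finset.insert_comm`).
Step 2 (`F = {f}`, `K` arbitrary): induction on `K`, for all `J`.  With `K = insert k K₁`:
 (a) IH:      `c (I+f) J * c I (J∪K₁) ≤ c (I+f) (J∪K₁) * c I J`,
 (b) step 1 in the context `(I, J∪K₁)`: `c (I+f) (J∪K₁) * c I (J∪K₁+k) ≤ c (I+f) (J∪K₁+k) * c I (J∪K₁)`.
 If `c I (J∪K₁) = 0` then `c I (J∪K₁+k) = 0` (`insert_right_le`, `nonneg`) and the claim is `0 ≤ …`.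
 If `c (I+f) (J∪K₁) = 0` and `c I (J∪K₁) > 0` then (a) gives `c (I+f) J = 0`, claim `0 ≤ …`.
 Otherwise multiply (a) and (b) and cancel the positive number `c I (J∪K₁) * c (I+f) (J∪K₁)`.
Step 3 (`F` arbitrary): induction on `F`, same cancellation, using step 2 in the context `(I∪F₁, J)`. -/
theorem CylFam.pos_cor {c : Finset α → Finset α → ℝ} (hc : CylFam c) (hN : MassN1 c)
    (I J F K : Finset α) (hIJ : Disjoint I J) (hIF : Disjoint I F) (hIK : Disjoint I K)
    (hJF : Disjoint J F) (hJK : Disjoint J K) (hFK : Disjoint F K) :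
    c (I ∪ F) J * c I (J ∪ K) ≤ c (I ∪ F) (J ∪ K) * c I J := by
  induction F using Finset.induction_on with
  | empty =>
    simp only [Finset.union_empty]
    exact le_of_eq (mul_comm _ _)
  | insert f F₁ hf ih =>
    rw [Finset.disjoint_insert_right] at hIF hJF
    rw [Finset.disjoint_insert_left] at hFK
    have a := ih hIF.2 hJF.2 hFK.2
    have b := massCor_step2 hc hN (I ∪ F₁) J (Finset.disjoint_union_left.2 ⟨hIJ, hJF.2.symm⟩) f
      (by simp [hIF.1, hf]) hJF.1 K (Finset.disjoint_union_left.2 ⟨hIK, hFK.2⟩) hJK hFK.1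
    have hU : I ∪ insert f F₁ = insert f (I ∪ F₁) := by
      rw [Finset.union_insert]
    rw [hU]
    exact massCor_cancel (A := c (I ∪ F₁) J) (B := c I (J ∪ K)) (C := c (I ∪ F₁) (J ∪ K))
      (D := c I J) (E := c (insert f (I ∪ F₁)) J) (G := c (insert f (I ∪ F₁)) (J ∪ K))
      (hc.nonneg _ _) (hc.nonneg _ _) (hc.nonneg _ _) (hc.nonneg _ _) (hc.nonneg _ _) (hc.nonneg _ _)
      a b (hc.insert_left_le _ _ _)

end Crest.Agent.R168
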