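/-
Row 168 part G2, task GG (attaching a leaf: spanning trees of `insert v S` that use only the edge `s(u,v)` at `v`
are the spanning trees of `S` plus that edge).  One owner; keep the statements.
-/
import Crest.Agent.R168_MassDefs
import Crest.Agent.R168_TreeChar

set_option autoImplicit false
open Finset Crest.ProbabilityR.SpanningTrees

namespace Crest.Agent.R168
variable {V : Type*} [DecidableEq V]

/-- the edges of the piece `insert v S` at the vertex `v`, except `s(u,v)` -/
noncomputable def otherEdgesAt (G : SimpleGraph V) (S : Finset V) (u v : V) : Finset (Sym2 V) :=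
  ((edgesIn G (insert v S)).filter (fun e => v ∈ e)).erase s(u, v)

theorem edgesIn_mono (G : SimpleGraph V) {S S' : Finset V} (h : S ⊆ S') : edgesIn G S ⊆ edgesIn G S' := by
  intro e he
  rw [mem_edgesIn_iff] at he ⊢
  exact ⟨Finset.sym2_mono h he.1, he.2⟩

theorem mem_edgesIn {G : SimpleGraph V} {S : Finset V} {a b : V} :
    s(a, b) ∈ edgesIn G S ↔ a ∈ S ∧ b ∈ S ∧ G.Adj a b := by
  rw [mem_edgesIn_iff, Finset.mk_mem_sym2_iff, SimpleGraph.mem_edgeSet, and_assoc]

/-- edges inside `S` do not contain `v ∉ S` -/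
theorem disjoint_edgesIn_otherEdgesAt (G : SimpleGraph V) (S : Finset V) {u v : V} (hv : v ∉ S) :
    Disjoint (edgesIn G S) (otherEdgesAt G S u v) := by
  rw [Finset.disjoint_left]
  intro e he he'
  unfold otherEdgesAt at he'
  rw [Finset.mem_erase, Finset.mem_filter] at he'
  rw [mem_edgesIn_iff, Finset.mem_sym2_iff] at he
  exact hv (he.1 v he'.2.2)

/-- (⟸)  Use `isSpanningTreeOn_iff`.  Card: `s(u,v) ∉ A` because `v ∉ S`.  Connected: root `u`
(`SimpleGraph.connected_iff_exists_forall_reachable`); for `x ∈ S` use `propagate` on `(S,A)` with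
`P x := ∃ h : x ∈ insert v S, (pieceGraph (insert v S) (insert s(u,v) A)).Reachable ⟨u,_⟩ ⟨x,h⟩`; `v` is adjacent to `u`. -/
theorem isSpanningTreeOn_insert_leaf {G : SimpleGraph V} {S : Finset V} {u v : V} (hv : v ∉ S) (hu : u ∈ S)
    (hadj : G.Adj u v) {A : Finset (Sym2 V)} (hA : IsSpanningTreeOn G S A) :
    IsSpanningTreeOn G (insert v S) (insert s(u, v) A) := by
  rw [isSpanningTreeOn_iff] at hA ⊢
  obtain ⟨hsub, hcard, hc⟩ := hA
  have huvA : s(u, v) ∉ A := by
    intro h
    have h2 := hsub h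
    rw [mem_edgesIn] at h2
    exact hv h2.2.1
  have hu' : u ∈ insert v S := Finset.mem_insert_of_mem hu
  have hv' : v ∈ insert v S := Finset.mem_insert_self _ _
  refine ⟨?_, ?_, ?_⟩
  · intro e he
    rw [Finset.mem_insert] at he
    rcases he with rfl | he
    · rw [mem_edgesIn]
      exact ⟨hu', hv', hadj⟩
    · exact edgesIn_mono G (Finset.subset_insert _ _) (hsub he)
  · rw [Finset.card_insert_of_notMem huvA, Finset.card_insert_of_notMem hv, hcard]
  · rw [SimpleGraph.connected_iff_exists_forall_reachable]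
    refine ⟨⟨u, hu'⟩, ?_⟩
    have key : ∀ x ∈ S, ∃ h : x ∈ insert v S,
        (pieceGraph (insert v S) (insert s(u, v) A)).Reachable ⟨u, hu'⟩ ⟨x, h⟩ := by
      refine propagate hc (fun x => ∃ h : x ∈ insert v S,
        (pieceGraph (insert v S) (insert s(u, v) A)).Reachable ⟨u, hu'⟩ ⟨x, h⟩) ?_ hu
        ⟨hu', SimpleGraph.Reachable.refl _⟩
      intro a b hab
      have hab' := hsub hab
      rw [mem_edgesIn] at hab'
      have ha : a ∈ insert v S := Finset.mem_insert_of_mem hab'.1
      have hb : b ∈ insert v S := Finset.mem_insert_of_mem hab'.2.1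
      have hadj' : (pieceGraph (insert v S) (insert s(u, v) A)).Adj ⟨a, ha⟩ ⟨b, hb⟩ := by
        rw [pieceGraph_adj]
        exact ⟨Finset.mem_insert_of_mem hab, hab'.2.2.ne⟩
      constructor
      · rintro ⟨_, h⟩
        exact ⟨hb, h.trans hadj'.reachable⟩
      · rintro ⟨_, h⟩
        exact ⟨ha, h.trans hadj'.symm.reachable⟩
    rintro ⟨x, hx⟩
    have hx' : x ∈ insert v S := hx
    rw [Finset.mem_insert] at hx'
    rcases hx' with rfl | hxS
    · have hadj' : (pieceGraph (insert x S) (insert s(u, x) A)).Adj ⟨u, hu'⟩ ⟨x, hx⟩ := by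
        rw [pieceGraph_adj]
        exact ⟨Finset.mem_insert_self _ _, hadj.ne⟩
      exact hadj'.reachable
    · obtain ⟨_, h⟩ := key x hxS
      exact h

/-- (⟹)  Use `isSpanningTreeOn_iff`.  `s(u,v) ∈ A'`: otherwise no edge of `A'` contains `v`
(an edge of `A'` containing `v` lies in `otherEdgesAt` or equals `s(u,v)`), and `propagate` with `P x := x = v` gives `u = v`.
`A'.erase s(u,v) ⊆ edgesIn G S`: its edges do not contain `v`.  Card clear.
Connected: `propagate` on `(insert v S, A')` from the root `u` with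
`P x := ∃ h : φ x ∈ S, (pieceGraph S (A'.erase s(u,v))).Reachable ⟨u,hu⟩ ⟨φ x,h⟩`, `φ x = if x = v then u else x`. -/
theorem isSpanningTreeOn_erase_leaf {G : SimpleGraph V} {S : Finset V} {u v : V} (hv : v ∉ S) (hu : u ∈ S)
    (hadj : G.Adj u v) {A' : Finset (Sym2 V)} (hA : IsSpanningTreeOn G (insert v S) A')
    (hd : Disjoint A' (otherEdgesAt G S u v)) :
    s(u, v) ∈ A' ∧ IsSpanningTreeOn G S (A'.erase s(u, v)) := by
  rw [isSpanningTreeOn_iff] at hA
  obtain ⟨hsub, hcard, hc⟩ := hA
  have hu' : u ∈ insert v S := Finset.mem_insert_of_mem hu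
  have hv' : v ∈ insert v S := Finset.mem_insert_self _ _
  have huv : u ≠ v := fun h => hv (h ▸ hu)
  have hedge : ∀ e ∈ A', v ∈ e → e = s(u, v) := by
    intro e he hve
    by_contra hne
    apply Finset.disjoint_left.1 hd he
    unfold otherEdgesAt
    rw [Finset.mem_erase, Finset.mem_filter]
    exact ⟨hne, hsub he, hve⟩
  have hmem : s(u, v) ∈ A' := by
    by_contra hno
    have hall : ∀ x ∈ insert v S, x = v := by
      refine propagate hc (fun x => x = v) ?_ hv' rfl
      intro a b hab
      constructor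
      · intro ha
        exfalso
        apply hno
        rw [← hedge _ hab (by rw [ha]; exact Sym2.mem_mk_left _ _)]
        exact hab
      · intro hb
        exfalso
        apply hno
        rw [← hedge _ hab (by rw [hb]; exact Sym2.mem_mk_right _ _)]
        exact hab
    exact huv (hall u hu')
  refine ⟨hmem, ?_⟩
  have hsubS : A'.erase s(u, v) ⊆ edgesIn G S := by
    intro e he
    rw [Finset.mem_erase] at he
    have h1 := hsub he.2
    have hve : v ∉ e := fun h => he.1 (hedge e he.2 h)
    induction e using Sym2.ind with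
    | _ a b =>
      rw [mem_edgesIn] at h1 ⊢
      rw [Sym2.mem_iff] at hve
      push_neg at hve
      exact ⟨(Finset.mem_insert.1 h1.1).resolve_left hve.1.symm,
        (Finset.mem_insert.1 h1.2.1).resolve_left hve.2.symm, h1.2.2⟩
  rw [isSpanningTreeOn_iff]
  refine ⟨hsubS, ?_, ?_⟩
  · rw [Finset.card_erase_of_mem hmem]
    rw [Finset.card_insert_of_notMem hv] at hcard
    have hpos : 0 < A'.card := Finset.card_pos.2 ⟨_, hmem⟩
    omega
  · rw [SimpleGraph.connected_iff_exists_forall_reachable]
    refine ⟨⟨u, hu⟩, ?_⟩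
    have hstep : ∀ a b, s(a, b) ∈ A' →
        (∃ h : (if a = v then u else a) ∈ S,
          (pieceGraph S (A'.erase s(u, v))).Reachable ⟨u, hu⟩ ⟨(if a = v then u else a), h⟩) →
        (∃ h : (if b = v then u else b) ∈ S,
          (pieceGraph S (A'.erase s(u, v))).Reachable ⟨u, hu⟩ ⟨(if b = v then u else b), h⟩) := by
      intro a b hab hPa
      by_cases he : s(a, b) = s(u, v)
      · rw [Sym2.eq_iff] at he
        rcases he with ⟨rfl, rfl⟩ | ⟨rfl, rfl⟩
        · simp only [if_true]
          exact ⟨hu, SimpleGraph.Reachable.refl _⟩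
        · simp only [if_neg huv]
          exact ⟨hu, SimpleGraph.Reachable.refl _⟩
      · have hab2 : s(a, b) ∈ A'.erase s(u, v) := Finset.mem_erase.2 ⟨he, hab⟩
        have hab3 := hsubS hab2
        rw [mem_edgesIn] at hab3
        have hav : a ≠ v := fun h => hv (h ▸ hab3.1)
        have hbv : b ≠ v := fun h => hv (h ▸ hab3.2.1)
        simp only [if_neg hav] at hPa
        simp only [if_neg hbv]
        obtain ⟨ha, h⟩ := hPa
        have hadj' : (pieceGraph S (A'.erase s(u, v))).Adj ⟨a, ha⟩ ⟨b, hab3.2.1⟩ := by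
          rw [pieceGraph_adj]
          exact ⟨hab2, hab3.2.2.ne⟩
        exact ⟨hab3.2.1, h.trans hadj'.reachable⟩
    have key : ∀ x ∈ insert v S, ∃ h : (if x = v then u else x) ∈ S,
        (pieceGraph S (A'.erase s(u, v))).Reachable ⟨u, hu⟩ ⟨(if x = v then u else x), h⟩ := by
      refine propagate hc (fun x => ∃ h : (if x = v then u else x) ∈ S,
        (pieceGraph S (A'.erase s(u, v))).Reachable ⟨u, hu⟩ ⟨(if x = v then u else x), h⟩) ?_ hu' ?_
      · intro a b hab
        exact ⟨hstep a b hab, hstep b a (by rw [Sym2.eq_swap]; exact hab)⟩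
      · simp only [if_neg huv]
        exact ⟨hu, SimpleGraph.Reachable.refl _⟩
    rintro ⟨x, hx⟩
    have hxS : x ∈ S := hx
    have hxv : x ≠ v := fun h => hv (h ▸ hxS)
    have hk := key x (Finset.mem_insert_of_mem hxS)
    simp only [if_neg hxv] at hk
    obtain ⟨_, h⟩ := hk
    exact h

/-- GG main.  `Finset.sum_bij'` / `Finset.sum_nbij'` with `A' ↦ A'.erase s(u,v)`, `A ↦ insert s(u,v) A`
(after `unfold treeMass mass treeW`; restrict both sums to trees, e.g. `Finset.sum_filter`, or treat non-trees via the two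
lemmas above: `A'` is a tree avoiding `otherEdgesAt` iff `A'.erase s(u,v)` is a tree and `s(u,v) ∈ A'`). -/
theorem treeMass_insert_vertex (G : SimpleGraph V) (S : Finset V) {u v : V} (hv : v ∉ S) (hu : u ∈ S)
    (hadj : G.Adj u v) (I J : Finset (Sym2 V)) (hI : s(u, v) ∉ I) (hJ : s(u, v) ∉ J) :
    treeMass G (insert v S) I (J ∪ otherEdgesAt G S u v) = treeMass G S I J := by
  classical
  unfold treeMass mass treeW
  rw [Finset.sum_boole, Finset.sum_boole]
  congr 1
  refine Finset.card_nbij' (fun A' => A'.erase s(u, v)) (fun A => insert s(u, v) A) ?_ ?_ ?_ ?_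
  · intro A' hA'
    simp only [Finset.coe_filter, Finset.mem_powerset, Set.mem_setOf_eq, Finset.mem_filter] at hA' ⊢
    obtain ⟨⟨hsub, hIA, hdis⟩, htree⟩ := hA'
    rw [Finset.disjoint_union_right] at hdis
    obtain ⟨hmem, ht⟩ := isSpanningTreeOn_erase_leaf hv hu hadj htree hdis.2
    refine ⟨⟨ht.1, ?_, ?_⟩, ht⟩
    · intro e he
      exact Finset.mem_erase.2 ⟨fun h => hI (h ▸ he), hIA he⟩
    · exact Finset.disjoint_of_subset_left (Finset.erase_subset _ _) hdis.1
  · intro A hA
    simp only [Finset.coe_filter, Finset.mem_powerset, Set.mem_setOf_eq, Finset.mem_filter] at hA ⊢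
    obtain ⟨⟨hsub, hIA, hdis⟩, htree⟩ := hA
    have ht := isSpanningTreeOn_insert_leaf hv hu hadj htree
    refine ⟨⟨ht.1, hIA.trans (Finset.subset_insert _ _), ?_⟩, ht⟩
    rw [Finset.disjoint_union_right, Finset.disjoint_insert_left, Finset.disjoint_insert_left]
    refine ⟨⟨hJ, hdis⟩, ?_, ?_⟩
    · unfold otherEdgesAt
      exact Finset.notMem_erase _ _
    · exact Finset.disjoint_of_subset_left hsub (disjoint_edgesIn_otherEdgesAt G S hv)
  · intro A' hA'
    simp only [Finset.coe_filter, Finset.mem_powerset, Set.mem_setOf_eq, Finset.mem_filter] at hA'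
    obtain ⟨⟨hsub, hIA, hdis⟩, htree⟩ := hA'
    rw [Finset.disjoint_union_right] at hdis
    obtain ⟨hmem, ht⟩ := isSpanningTreeOn_erase_leaf hv hu hadj htree hdis.2
    exact Finset.insert_erase hmem
  · intro A hA
    simp only [Finset.coe_filter, Finset.mem_powerset, Set.mem_setOf_eq, Finset.mem_filter] at hA
    obtain ⟨⟨hsub, hIA, hdis⟩, htree⟩ := hA
    apply Finset.erase_insert
    intro h
    have h2 := hsub h
    rw [mem_edgesIn] at h2
    exact hv h2.2.1

end Crest.Agent.R168
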