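import Mathlib

/-!
Row 168, package (F), complex-analytic core: if `A + w B` does not vanish for `t, w` in the open
upper half plane (`A`, `B` entire, real and nonnegative/positive on the positive axis) then
`A x * B 1 ≤ x * A 1 * B x` for real `x ≥ 1` (`f = A / B` satisfies `f (x) / x ≤ f 1`).
Proof: Schwarz lemma for `√(f (s²))` on the right half plane.
-/

set_option autoImplicit false

namespace Crest.Agent.R168.SRPick

open Complex Metric Set Filter Topology
open scoped ComplexConjugate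

/-- holomorphic square root on the slit plane -/
noncomputable def csqrt (w : ℂ) : ℂ := Complex.exp (Complex.log w / 2)

theorem csqrt_sq {w : ℂ} (hw : w ≠ 0) : csqrt w ^ 2 = w := by
  unfold csqrt
  rw [← Complex.exp_nat_mul]
  push_cast
  rw [mul_div_cancel₀ _ (two_ne_zero)]
  exact Complex.exp_log hw

theorem csqrt_re_pos {w : ℂ} (hw : w ∈ slitPlane) : 0 < (csqrt w).re := by
  unfold csqrt
  rw [Complex.exp_re]
  apply mul_pos (Real.exp_pos _)
  apply Real.cos_pos_of_mem_Ioo
  have h1 : (Complex.log w / 2).im = w.arg / 2 := by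
    have : (Complex.log w / 2) = Complex.log w * ((1 / 2 : ℝ) : ℂ) := by push_cast; ring
    rw [this, Complex.im_mul_ofReal, Complex.log_im]; ring
  rw [h1]
  have h2 := Complex.neg_pi_lt_arg w
  have h3 := Complex.arg_le_pi w
  have h4 : w.arg ≠ Real.pi := (mem_slitPlane_iff_arg.mp hw).1
  have h5 : w.arg < Real.pi := lt_of_le_of_ne h3 h4
  constructor <;> linarith

theorem csqrt_ofReal {r : ℝ} (hr : 0 < r) :
    ∃ ρ : ℝ, 0 < ρ ∧ ρ ^ 2 = r ∧ csqrt r = (ρ : ℂ) := by
  refine ⟨Real.exp (Real.log r / 2), Real.exp_pos _, ?_, ?_⟩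
  · rw [← Real.exp_nat_mul]
    push_cast
    rw [mul_div_cancel₀ _ (two_ne_zero)]
    exact Real.exp_log hr
  · unfold csqrt
    rw [← Complex.ofReal_log hr.le]
    push_cast
    rfl

theorem differentiableAt_csqrt {w : ℂ} (hw : w ∈ slitPlane) : DifferentiableAt ℂ csqrt w :=
  ((Complex.differentiableAt_log hw).div_const 2).cexp

theorem sq_mem_slitPlane {s : ℂ} (hs : 0 < s.re) : s ^ 2 ∈ slitPlane := by
  rw [mem_slitPlane_iff]
  by_cases h : s.im = 0
  · left
    simp [sq, h]
    positivity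
  · right
    simp only [sq, Complex.mul_im]
    intro h'
    have h2 : s.re * s.im = 0 := by linarith
    rcases mul_eq_zero.mp h2 with h3 | h3
    · exact hs.ne' h3
    · exact h h3

/-- `B` has no zero in the upper half plane (open mapping theorem). -/
theorem B_ne_zero (A B : ℂ → ℂ) (hA : Differentiable ℂ A) (hB : Differentiable ℂ B)
    (hB1 : B 1 ≠ 0)
    (hst : ∀ t w : ℂ, 0 < t.im → 0 < w.im → A t + w * B t ≠ 0) (t₀ : ℂ) (ht₀ : 0 < t₀.im) :
    B t₀ ≠ 0 := by
  intro hB0
  have hA0 : A t₀ ≠ 0 := by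
    have := hst t₀ I ht₀ (by simp)
    simpa [hB0] using this
  have hφ : AnalyticAt ℂ (fun t => B t / A t) t₀ :=
    (hB.analyticAt t₀).div (hA.analyticAt t₀) hA0
  have hAne : ∀ᶠ t in 𝓝 t₀, A t ≠ 0 := hA.continuous.continuousAt.eventually_ne hA0
  rcases hφ.eventually_constant_or_nhds_le_map_nhds with h | h
  · have h0 : ∀ᶠ t in 𝓝 t₀, B t = 0 := by
      filter_upwards [h, hAne] with t h1 h2
      simp only [hB0, zero_div, div_eq_zero_iff] at h1
      rcases h1 with h1 | h1
      · exact h1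
      · exact absurd h1 h2
    have hB' : B = fun _ => 0 :=
      AnalyticOnNhd.eq_of_eventuallyEq (fun z _ => hB.analyticAt z)
        (fun z _ => analyticAt_const) h0
    exact hB1 (by rw [hB'])
  · have hU : {t : ℂ | 0 < t.im ∧ A t ≠ 0} ∈ 𝓝 t₀ := by
      have h1 : ∀ᶠ t : ℂ in 𝓝 t₀, 0 < t.im :=
        Complex.continuous_im.continuousAt.eventually (lt_mem_nhds ht₀)
      filter_upwards [h1, hAne] with t h1 h2 using ⟨h1, h2⟩
    have hV : (fun t => B t / A t) '' {t : ℂ | 0 < t.im ∧ A t ≠ 0} ∈ 𝓝 (0 : ℂ) := by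
      have := h (image_mem_map hU)
      simpa [hB0] using this
    obtain ⟨ρ, hρ, hball⟩ := Metric.mem_nhds_iff.mp hV
    have hmem : (I * ((ρ / 2 : ℝ) : ℂ)) ∈ ball (0 : ℂ) ρ := by
      rw [mem_ball_zero_iff, norm_mul, Complex.norm_I, one_mul, Complex.norm_real,
        Real.norm_of_nonneg (by positivity)]
      linarith
    obtain ⟨t, ⟨ht, hAt⟩, hEq⟩ := hball hmem
    have hρ2 : ((ρ / 2 : ℝ) : ℂ) ≠ 0 := by
      exact_mod_cast (by positivity : (ρ / 2 : ℝ) ≠ 0)
    apply hst t (I / ((ρ / 2 : ℝ) : ℂ)) ht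
    · rw [Complex.div_ofReal_im]
      simp
      positivity
    · have hBt : B t = A t * (I * ((ρ / 2 : ℝ) : ℂ)) := by
        have hEq' : B t / A t = I * ((ρ / 2 : ℝ) : ℂ) := hEq
        field_simp at hEq'
        rw [hEq']
        ring
      rw [hBt]
      field_simp
      ring_nf
      simp [Complex.I_sq]

/-- The main inequality. -/
theorem pick_ineq (A B : ℂ → ℂ) (hA : Differentiable ℂ A) (hB : Differentiable ℂ B)
    (a b : ℝ → ℝ) (hAr : ∀ x : ℝ, 0 < x → A x = a x) (hBr : ∀ x : ℝ, 0 < x → B x = b x)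
    (ha : ∀ x : ℝ, 0 < x → 0 ≤ a x) (hb : ∀ x : ℝ, 0 < x → 0 < b x)
    (hcA : ∀ z, A (conj z) = conj (A z)) (hcB : ∀ z, B (conj z) = conj (B z))
    (hst : ∀ t w : ℂ, 0 < t.im → 0 < w.im → A t + w * B t ≠ 0)
    (x : ℝ) (hx : 1 ≤ x) : a x * b 1 ≤ x * a 1 * b x := by
  have hB1 : B 1 ≠ 0 := by
    have := hBr 1 one_pos
    rw [Complex.ofReal_one] at this
    rw [this]
    exact_mod_cast (hb 1 one_pos).ne'
  have hBup : ∀ t : ℂ, 0 < t.im → B t ≠ 0 := B_ne_zero A B hA hB hB1 hst
  -- the function `f = A / B + id`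
  set f : ℂ → ℂ := fun z => A z / B z + z with hf
  have hfup : ∀ t : ℂ, 0 < t.im → 0 < (f t).im := by
    intro t ht
    have h1 : 0 ≤ (A t / B t).im := by
      by_contra hneg
      push Not at hneg
      apply hst t (-(A t / B t)) ht (by simpa using hneg)
      have := hBup t ht
      field_simp
      ring
    simp only [hf, Complex.add_im]
    linarith
  have hfconj : ∀ z, f (conj z) = conj (f z) := by
    intro z
    simp only [hf, hcA, hcB, map_add, map_div₀]
  have hfreal : ∀ y : ℝ, 0 < y → f y = ((a y / b y + y : ℝ) : ℂ) := by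
    intro y hy
    simp only [hf, hAr y hy, hBr y hy]
    push_cast
    rfl
  have hBslit : ∀ z ∈ slitPlane, B z ≠ 0 := by
    intro z hz
    rcases lt_trichotomy z.im 0 with h | h | h
    · intro h0
      have : B (conj z) = 0 := by rw [hcB, h0, map_zero]
      exact hBup (conj z) (by simpa using h) this
    · have hre : 0 < z.re := by
        rcases mem_slitPlane_iff.mp hz with h' | h'
        · exact h'
        · exact absurd h h'
      have hz' : z = (z.re : ℂ) := Complex.ext (by simp) (by simp [h])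
      rw [hz', hBr _ hre]
      exact_mod_cast (hb _ hre).ne'
    · exact hBup z h
  have hfslit : ∀ z ∈ slitPlane, f z ∈ slitPlane := by
    intro z hz
    rcases lt_trichotomy z.im 0 with h | h | h
    · have h1 := hfup (conj z) (by simpa using h)
      rw [hfconj] at h1
      rw [mem_slitPlane_iff]
      right
      simp only [Complex.conj_im] at h1
      intro h0
      rw [h0] at h1
      simp at h1
    · have hre : 0 < z.re := by
        rcases mem_slitPlane_iff.mp hz with h' | h'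
        · exact h'
        · exact absurd h h'
      have hz' : z = (z.re : ℂ) := Complex.ext (by simp) (by simp [h])
      rw [hz', hfreal _ hre, mem_slitPlane_iff]
      left
      rw [Complex.ofReal_re]
      have := ha _ hre
      have := hb _ hre
      positivity
    · rw [mem_slitPlane_iff]
      right
      exact (hfup z h).ne'
  have hfdiff : ∀ z ∈ slitPlane, DifferentiableAt ℂ f z := by
    intro z hz
    exact ((hA z).div (hB z) (hBslit z hz)).add differentiableAt_id
  -- `g = √(f (s²))` on the right half plane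
  set g : ℂ → ℂ := fun s => csqrt (f (s ^ 2)) with hg
  have hgre : ∀ s : ℂ, 0 < s.re → 0 < (g s).re := fun s hs =>
    csqrt_re_pos (hfslit _ (sq_mem_slitPlane hs))
  have hgdiff : ∀ s : ℂ, 0 < s.re → DifferentiableAt ℂ g s := by
    intro s hs
    have h1 : DifferentiableAt ℂ (fun s : ℂ => s ^ 2) s := by fun_prop
    have h2 := hfdiff _ (sq_mem_slitPlane hs)
    have h3 := differentiableAt_csqrt (hfslit _ (sq_mem_slitPlane hs))
    have h4 : DifferentiableAt ℂ (fun s : ℂ => f (s ^ 2)) s :=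
      DifferentiableAt.comp (g := f) (f := fun s : ℂ => s ^ 2) s h2 h1
    exact DifferentiableAt.comp (g := csqrt) (f := fun s : ℂ => f (s ^ 2)) s h3 h4
  have hgreal : ∀ y : ℝ, 0 < y → ∃ ρ : ℝ, 0 < ρ ∧ ρ ^ 2 = a (y ^ 2) / b (y ^ 2) + y ^ 2 ∧
      g y = (ρ : ℂ) := by
    intro y hy
    have hy2 : 0 < y ^ 2 := by positivity
    have hpos : 0 < a (y ^ 2) / b (y ^ 2) + y ^ 2 := by
      have := ha _ hy2
      have := hb _ hy2
      positivity
    obtain ⟨ρ, h1, h2, h3⟩ := csqrt_ofReal hpos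
    refine ⟨ρ, h1, h2, ?_⟩
    simp only [hg]
    rw [← h3, ← hfreal _ hy2]
    push_cast
    rfl
  obtain ⟨γ, hγ, hγ2, hgγ⟩ := hgreal 1 one_pos
  -- Cayley maps
  set φ : ℂ → ℂ := fun ζ => (1 + ζ) / (1 - ζ) with hφ
  have hφne : ∀ ζ ∈ ball (0 : ℂ) 1, (1 - ζ) ≠ 0 := by
    intro ζ hζ h0
    have : ζ = 1 := by linear_combination -h0
    rw [this, mem_ball_zero_iff] at hζ
    simp at hζ
  have hφre : ∀ ζ ∈ ball (0 : ℂ) 1, 0 < (φ ζ).re := by
    intro ζ hζ
    have h1 := hφne ζ hζ
    have h2 : 0 < Complex.normSq (1 - ζ) := Complex.normSq_pos.mpr h1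
    simp only [hφ, Complex.div_re]
    rw [mem_ball_zero_iff] at hζ
    have h3 : Complex.normSq ζ < 1 := by
      rw [Complex.normSq_eq_norm_sq]
      nlinarith [norm_nonneg ζ]
    rw [Complex.normSq_apply] at h3
    rw [← add_div]
    apply div_pos _ h2
    simp
    nlinarith
  set G : ℂ → ℂ := fun ζ => (g (φ ζ) - γ) / (g (φ ζ) + γ) with hG
  have hden : ∀ s : ℂ, 0 < s.re → g s + γ ≠ 0 := by
    intro s hs h0
    have := hgre s hs
    have h1 : (g s + γ).re = 0 := by rw [h0]; simp
    simp at h1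
    linarith
  have hGdiff : DifferentiableOn ℂ G (ball 0 1) := by
    intro ζ hζ
    apply DifferentiableAt.differentiableWithinAt
    have h1 : DifferentiableAt ℂ φ ζ :=
      ((differentiableAt_const _).add differentiableAt_id).div
        ((differentiableAt_const _).sub differentiableAt_id) (hφne ζ hζ)
    have h2 : DifferentiableAt ℂ (fun ζ => g (φ ζ)) ζ := (hgdiff _ (hφre ζ hζ)).comp ζ h1
    exact (h2.sub_const _).div (h2.add_const _) (hden _ (hφre ζ hζ))
  have hGmaps : MapsTo G (ball 0 1) (closedBall 0 1) := by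
    intro ζ hζ
    rw [mem_closedBall_zero_iff]
    simp only [hG]
    rw [norm_div, div_le_one (norm_pos_iff.mpr (hden _ (hφre ζ hζ)))]
    have h1 := hgre _ (hφre ζ hζ)
    rw [← sq_le_sq₀ (norm_nonneg _) (norm_nonneg _), ← Complex.normSq_eq_norm_sq,
      ← Complex.normSq_eq_norm_sq, Complex.normSq_apply, Complex.normSq_apply]
    simp
    nlinarith
  have hG0 : G 0 = 0 := by
    simp only [hG, hφ]
    have : g ((1 + 0) / (1 - 0)) = γ := by
      rw [← hgγ]; norm_num
    rw [this]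
    simp
  -- evaluate at `s = √x`
  set s : ℝ := Real.sqrt x with hs
  have hs1 : 1 ≤ s := by
    rw [hs]; exact Real.one_le_sqrt.mpr hx
  have hs2 : s ^ 2 = x := Real.sq_sqrt (by linarith)
  obtain ⟨ρ, hρ, hρ2, hgρ⟩ := hgreal s (by linarith)
  set ζ : ℝ := (s - 1) / (s + 1) with hζ
  have hζ0 : 0 ≤ ζ := by rw [hζ]; apply div_nonneg <;> linarith
  have hζ1 : ζ < 1 := by rw [hζ, div_lt_one (by linarith)]; linarith
  have hφζ : φ (ζ : ℂ) = (s : ℂ) := by
    simp only [hφ, hζ]
    have h1 : ((s : ℂ) + 1) ≠ 0 := by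
      exact_mod_cast (by linarith : (s + 1 : ℝ) ≠ 0)
    push_cast
    field_simp
    ring
  have hschwarz := Complex.norm_le_norm_of_mapsTo_ball hGdiff hGmaps hG0
    (z := (ζ : ℂ)) (by rw [Complex.norm_real, Real.norm_of_nonneg hζ0]; exact hζ1)
  simp only [hG, hφζ, hgρ] at hschwarz
  rw [Complex.norm_real, Real.norm_of_nonneg hζ0] at hschwarz
  have h5 : ((ρ : ℂ) - γ) / ((ρ : ℂ) + γ) = (((ρ - γ) / (ρ + γ) : ℝ) : ℂ) := by push_cast; rfl
  rw [h5, Complex.norm_real, Real.norm_eq_abs] at hschwarz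
  have h6 : (ρ - γ) / (ρ + γ) ≤ (s - 1) / (s + 1) := le_trans (le_abs_self _) hschwarz
  rw [div_le_div_iff₀ (by linarith) (by linarith)] at h6
  have h7 : ρ ≤ s * γ := by nlinarith
  have h8 : ρ ^ 2 ≤ s ^ 2 * γ ^ 2 := by
    have : ρ ^ 2 ≤ (s * γ) ^ 2 := pow_le_pow_left₀ hρ.le h7 2
    linarith [mul_pow s γ 2]
  rw [hρ2, hγ2, hs2] at h8
  simp only [one_pow] at h8
  have hbx := hb x (by linarith)
  have hb1 := hb 1 one_pos
  have h9 : a x / b x ≤ x * (a 1 / b 1) := by linarith
  rw [div_le_iff₀ hbx] at h9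
  have h10 : x * (a 1 / b 1) * b x = (x * a 1 * b x) / b 1 := by field_simp
  rw [h10, le_div_iff₀ hb1] at h9
  exact h9

end Crest.Agent.R168.SRPick
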