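import Crest.Agent.R168_SR_Mass
import Crest.Agent.R168_SRPick

/-!
# Row 168, package F (helper66): (N2) for the cylinder masses of a stable nonnegative weight
-/

set_option autoImplicit false

open Finset
open scoped ComplexConjugate

namespace Crest.Agent.R168.SR

variable {α : Type*} [DecidableEq α]

/-- diagonal specialisation, real version -/
noncomputable def PR (w : Finset α → ℝ) (R : Finset α) (t : ℝ) : ℝ :=
  ∑ T ∈ R.powerset, w T * t ^ T.card

/-- diagonal specialisation, complex version -/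
noncomputable def PC (w : Finset α → ℝ) (R : Finset α) (s : ℂ) : ℂ :=
  ∑ T ∈ R.powerset, (w T : ℂ) * s ^ T.card

omit [DecidableEq α] in
theorem PC_eq_mpoly (w : Finset α → ℝ) (R : Finset α) (s : ℂ) :
    PC w R s = mpoly (fun S => (w S : ℂ)) R (fun _ => s) := by
  simp [PC, mpoly, Finset.prod_const]

omit [DecidableEq α] in
theorem PC_ofReal (w : Finset α → ℝ) (R : Finset α) (t : ℝ) : PC w R t = (PR w R t : ℂ) := by
  simp [PC, PR]

omit [DecidableEq α] in
theorem PC_conj (w : Finset α → ℝ) (R : Finset α) (s : ℂ) : PC w R (conj s) = conj (PC w R s) := by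
  simp [PC, map_sum]

omit [DecidableEq α] in
theorem PC_differentiable (w : Finset α → ℝ) (R : Finset α) : Differentiable ℂ (PC w R) := by
  unfold PC
  fun_prop

omit [DecidableEq α] in
theorem PR_hasDerivAt (w : Finset α → ℝ) (R : Finset α) :
    HasDerivAt (PR w R) (∑ T ∈ R.powerset, (T.card : ℝ) * w T) 1 := by
  unfold PR
  have : ∀ T ∈ R.powerset, HasDerivAt (fun t : ℝ => w T * t ^ T.card) ((T.card : ℝ) * w T) 1 := by
    intro T _
    have h := (hasDerivAt_pow T.card (1 : ℝ)).const_mul (w T)
    simpa [mul_comm] using h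
  exact HasDerivAt.fun_sum this

omit [DecidableEq α] in
theorem PR_one (w : Finset α → ℝ) (R : Finset α) : PR w R 1 = ∑ T ∈ R.powerset, w T := by
  simp [PR]

omit [DecidableEq α] in
theorem PR_nonneg {w : Finset α → ℝ} (hw : ∀ A, 0 ≤ w A) (R : Finset α) {t : ℝ} (ht : 0 < t) :
    0 ≤ PR w R t :=
  Finset.sum_nonneg fun T _ => mul_nonneg (hw T) (pow_pos ht _).le

omit [DecidableEq α] in
theorem PR_pos {w : Finset α → ℝ} (hw : ∀ A, 0 ≤ w A) {R T0 : Finset α} (hT0 : T0 ⊆ R)
    (hpos : 0 < w T0) {t : ℝ} (ht : 0 < t) : 0 < PR w R t :=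
  Finset.sum_pos' (fun T _ => mul_nonneg (hw T) (pow_pos ht _).le)
    ⟨T0, Finset.mem_powerset.2 hT0, mul_pos hpos (pow_pos ht _)⟩

/-- a function which is `≥ 0` to the right of a zero has nonnegative derivative there. -/
theorem deriv_nonneg_of_right {D : ℝ → ℝ} {D' : ℝ} (hD : HasDerivAt D D' 1) (h1 : D 1 = 0)
    (hpos : ∀ t : ℝ, 1 < t → 0 ≤ D t) : 0 ≤ D' := by
  have h := (hasDerivWithinAt_iff_tendsto_slope' (s := Set.Ioi (1 : ℝ))
    (Set.self_notMem_Ioi)).1 hD.hasDerivWithinAt
  refine ge_of_tendsto h ?_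
  filter_upwards [self_mem_nhdsWithin] with t ht
  rw [slope_def_field, h1, sub_zero]
  exact div_nonneg (hpos t ht) (sub_nonneg.2 (le_of_lt ht))

/-- (N2) for a nonnegative "stable or zero" weight on `insert h R`. -/
theorem N2core {q : Finset α → ℝ} (hq : ∀ A, 0 ≤ q A) {R : Finset α} {h : α} (hh : h ∉ R)
    (hst : RStab0 q (insert h R)) :
    (∑ T ∈ R.powerset, q (insert h T)) * (∑ T ∈ R.powerset, (T.card : ℝ) * q T)
      - (∑ T ∈ R.powerset, q T) * (∑ T ∈ R.powerset, (T.card : ℝ) * q (insert h T))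
      ≤ (∑ T ∈ R.powerset, q (insert h T)) * (∑ T ∈ R.powerset, q T) := by
  set qb : Finset α → ℝ := fun S => q (insert h S) with hqb
  have hqbn : ∀ A, 0 ≤ qb A := fun A => hq _
  -- the case where `B` vanishes identically
  have hBzero : (∀ S, S ⊆ R → qb S = 0) →
      (∑ T ∈ R.powerset, qb T) * (∑ T ∈ R.powerset, (T.card : ℝ) * q T)
      - (∑ T ∈ R.powerset, q T) * (∑ T ∈ R.powerset, (T.card : ℝ) * qb T)
      ≤ (∑ T ∈ R.powerset, qb T) * (∑ T ∈ R.powerset, q T) := by
    intro hz
    have e1 : ∑ T ∈ R.powerset, qb T = 0 :=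
      Finset.sum_eq_zero fun T hT => hz T (Finset.mem_powerset.1 hT)
    have e2 : ∑ T ∈ R.powerset, (T.card : ℝ) * qb T = 0 :=
      Finset.sum_eq_zero fun T hT => by rw [hz T (Finset.mem_powerset.1 hT), mul_zero]
    rw [e1, e2]; simp
  have hBst : RStab0 qb R := rstab0_I hh hst
  rcases hBst with hBst | hBz
  swap
  · apply hBzero
    intro S hS
    have : ((qb S : ℝ) : ℂ) = 0 := hBz S hS
    exact_mod_cast this
  rcases hst with hst | hz
  swap
  · apply hBzero
    intro S hS
    have : ((q (insert h S) : ℝ) : ℂ) = 0 := hz _ (Finset.insert_subset_insert h hS)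
    exact_mod_cast this
  -- some coefficient of `B` is positive
  obtain ⟨T0, hT0, hT0pos⟩ : ∃ T0, T0 ⊆ R ∧ 0 < qb T0 := by
    by_contra hno
    push Not at hno
    apply hBst (fun _ => Complex.I) (fun _ _ => by simp)
    apply mpoly_eq_zero_of_coeff
    intro S hS
    have : qb S = 0 := le_antisymm (hno S hS) (hqbn S)
    simp [this]
  have key : ∀ t : ℝ, 1 < t → PR q R t * PR qb R 1 ≤ t * PR q R 1 * PR qb R t := fun t ht =>
    SRPick.pick_ineq (PC q R) (PC qb R) (PC_differentiable q R)
    (PC_differentiable qb R) (PR q R) (PR qb R) (fun t _ => PC_ofReal q R t)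
    (fun t _ => PC_ofReal qb R t)
    (fun t ht => PR_nonneg hq R ht) (fun t ht => PR_pos hqbn hT0 hT0pos ht)
    (PC_conj q R) (PC_conj qb R)
    (fun s w hs hw => by
      rw [PC_eq_mpoly, PC_eq_mpoly]
      have hup : Up (insert h R) (fun k => if k = h then w else s) := by
        intro k _
        by_cases hk : k = h
        · simpa [hk] using hw
        · simpa [hk] using hs
      have := hst _ hup
      rw [mpoly_insert _ hh] at this
      have hc : ∀ k ∈ R, (fun k => if k = h then w else s) k = (fun _ => s) k := by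
        intro k hk
        have : k ≠ h := fun e => hh (e ▸ hk)
        simp [this]
      rw [mpoly_congr (z' := fun _ => s) (fun _ _ => rfl) hc,
        mpoly_congr (z' := fun _ => s) (fun _ _ => rfl) hc] at this
      simpa using this) t ht.le
  -- differentiate `D t = t * A 1 * B t - A t * B 1` at `t = 1`
  set a0 := ∑ T ∈ R.powerset, q T with ha0
  set b0 := ∑ T ∈ R.powerset, qb T with hb0
  set a1 := ∑ T ∈ R.powerset, (T.card : ℝ) * q T with ha1
  set b1 := ∑ T ∈ R.powerset, (T.card : ℝ) * qb T with hb1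
  have hA1 : PR q R 1 = a0 := PR_one q R
  have hB1 : PR qb R 1 = b0 := PR_one qb R
  have hD : HasDerivAt (fun t : ℝ => t * a0 * PR qb R t - PR q R t * b0)
      ((1 * a0) * PR qb R 1 + (1 * a0) * b1 - a1 * b0) 1 := by
    have h1 : HasDerivAt (fun t : ℝ => t * a0) (1 * a0) 1 := (hasDerivAt_id 1).mul_const a0
    have h2 := h1.mul (PR_hasDerivAt qb R)
    have h3 := (PR_hasDerivAt q R).mul_const b0
    exact h2.sub h3
  have hnn := deriv_nonneg_of_right hD (by rw [hA1, hB1]; ring) (fun t ht => by
    have := key t ht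
    rw [hA1, hB1] at this
    linarith)
  rw [hB1] at hnn
  linarith

/-! ### translation to `mass` -/

theorem mass_add (w1 w2 : Finset α → ℝ) (E I J : Finset α) :
    mass (fun S => w1 S + w2 S) E I J = mass w1 E I J + mass w2 E I J := by
  unfold mass
  rw [Finset.sum_add_distrib]

theorem mass_ctx_empty (w : Finset α → ℝ) {R J : Finset α} (hRJ : Disjoint R J) :
    mass w R ∅ J = ∑ T ∈ R.powerset, w T := by
  unfold mass
  rw [Finset.filter_true_of_mem]
  intro T hT
  exact ⟨Finset.empty_subset T,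
    Finset.disjoint_of_subset_left (Finset.mem_powerset.1 hT) hRJ⟩

theorem mass_ctx_singleton (w : Finset α → ℝ) {R J : Finset α} (hRJ : Disjoint R J) (g : α) :
    mass w R {g} J = ∑ T ∈ R.powerset, if g ∈ T then w T else 0 := by
  unfold mass
  rw [Finset.sum_filter]
  refine Finset.sum_congr rfl fun T hT => ?_
  have hd : Disjoint T J := Finset.disjoint_of_subset_left (Finset.mem_powerset.1 hT) hRJ
  simp [hd]

theorem sum_mass_singleton (w : Finset α → ℝ) {R J : Finset α} (hRJ : Disjoint R J) :
    ∑ g ∈ R, mass w R {g} J = ∑ T ∈ R.powerset, (T.card : ℝ) * w T := by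
  simp_rw [mass_ctx_singleton w hRJ]
  rw [Finset.sum_comm]
  refine Finset.sum_congr rfl fun T hT => ?_
  rw [← Finset.sum_filter, Finset.sum_const, nsmul_eq_mul]
  congr 2
  congr 1
  ext x
  simp only [Finset.mem_filter]
  exact ⟨fun h => h.2, fun h => ⟨Finset.mem_powerset.1 hT h, h⟩⟩

theorem massN2_of_stable {p : Finset α → ℝ} (hp : ∀ A, 0 ≤ p A) {E : Finset α}
    (hst : StableW p E) : MassN2 (mass p E) := by
  intro I J hIJ h hhI hhJ R hhR hRI hRJ
  have hFI : Disjoint (insert h R) I := by
    rw [Finset.disjoint_insert_left]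
    exact ⟨hhI, hRI⟩
  obtain ⟨q, hq, hqs, hqm⟩ := reduce' hp hst (insert h R) I J hIJ hFI
  set qb : Finset α → ℝ := fun S => q (insert h S) with hqb
  set a0 := ∑ T ∈ R.powerset, q T with ha0
  set b0 := ∑ T ∈ R.powerset, qb T with hb0
  set a1 := ∑ T ∈ R.powerset, (T.card : ℝ) * q T with ha1
  set b1 := ∑ T ∈ R.powerset, (T.card : ℝ) * qb T with hb1
  have m0 : mass p E I J = a0 + b0 := by
    have := hqm ∅ (Finset.empty_subset _)
    rw [Finset.empty_union] at this
    rw [this, mass_insert_M q hhR (Finset.notMem_empty h) hhJ, mass_add,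
      mass_ctx_empty q hRJ, mass_ctx_empty _ hRJ]
  have mh : mass p E (insert h I) J = b0 := by
    have := hqm {h} (by simp)
    have e : ({h} : Finset α) ∪ I = insert h I := by
      ext x; simp
    rw [e] at this
    rw [this, mass_insert_I q hhR (Finset.mem_singleton_self h) hhJ]
    have e2 : ({h} : Finset α).erase h = ∅ := by simp
    rw [e2, mass_ctx_empty _ hRJ]
  have mg : ∀ g ∈ R, mass p E (insert g I) J = mass q R {g} J + mass qb R {g} J := by
    intro g hg
    have hne : h ≠ g := fun e => hhR (e ▸ hg)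
    have := hqm {g} (by simp [hg])
    have e : ({g} : Finset α) ∪ I = insert g I := by
      ext x; simp
    rw [e] at this
    rw [this, mass_insert_M q hhR (by simpa using hne) hhJ, mass_add]
  have mhg : ∀ g ∈ R, mass p E (insert h (insert g I)) J = mass qb R {g} J := by
    intro g hg
    have hne : h ≠ g := fun e => hhR (e ▸ hg)
    have := hqm {h, g} (by
      intro x hx
      rcases Finset.mem_insert.1 hx with rfl | hx
      · exact Finset.mem_insert_self _ _
      · rw [Finset.mem_singleton.1 hx]; exact Finset.mem_insert_of_mem hg)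
    have e : ({h, g} : Finset α) ∪ I = insert h (insert g I) := by
      ext x; simp
    rw [e] at this
    rw [this, mass_insert_I q hhR (Finset.mem_insert_self h _) hhJ]
    have e2 : ({h, g} : Finset α).erase h = {g} := by
      rw [Finset.erase_insert (by simpa using hne)]
    rw [e2]
  have hsum : ∑ g ∈ R, (mass p E (insert h I) J * mass p E (insert g I) J
      - mass p E I J * mass p E (insert h (insert g I)) J) = b0 * (a1 + b1) - (a0 + b0) * b1 := by
    have ea : a1 = ∑ g ∈ R, mass q R {g} J := (sum_mass_singleton q hRJ).symm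
    have eb : b1 = ∑ g ∈ R, mass qb R {g} J := (sum_mass_singleton qb hRJ).symm
    rw [ea, eb, ← Finset.sum_add_distrib,
      Finset.mul_sum, Finset.mul_sum, ← Finset.sum_sub_distrib]
    refine Finset.sum_congr rfl fun g hg => ?_
    rw [mh, m0, mg g hg, mhg g hg]
  rw [hsum, mh, m0]
  have := N2core hq hhR hqs
  linarith

end Crest.Agent.R168.SR
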