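/-
Row 168, interface between part F (strongly Rayleigh ⟹ (N1),(N2)) and part G2.  OWNER: the part-F architect.
Weight version: a non-negative weight on the subsets of a finite set `E` with stable generating polynomial has
(N1), (N2) in every context.  (Format of `mass`, `MassN1`, `MassN2`, `StableW`: `R168_MassDefs.lean`.)
-/
import Crest.Agent.R168_MassDefs
import Crest.Agent.R168_SR_N2

set_option autoImplicit false
open Finset

namespace Crest.Agent.R168
variable {α : Type*} [DecidableEq α]

theorem stableW_N1 {p : Finset α → ℝ} (hp : ∀ A, 0 ≤ p A) {E : Finset α} (hs : StableW p E) :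
    MassN1 (mass p E) := SR.massN1_of_stable hp hs

theorem stableW_N2 {p : Finset α → ℝ} (hp : ∀ A, 0 ≤ p A) {E : Finset α} (hs : StableW p E) :
    MassN2 (mass p E) := SR.massN2_of_stable hp hs

end Crest.Agent.R168
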