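/-
Row 168 part G, task GA (multilinear expansion of the determinant of a Gram-type sum).  One owner; keep the statement.
-/
import Crest.Agent.R168_TreeDefs

set_option autoImplicit false
open Finset

namespace Crest.Agent.R168

/-- rows of the Gram matrix -/
private theorem gram_row {ι α R : Type*} [CommRing R] (v : α → ι → R) (w : α → R) (B : Finset α)
    (i : ι) : (gram v w B) i = ∑ e ∈ B, (w e * v e i) • v e := by
  funext j
  simp only [gram, Matrix.sum_apply, Matrix.smul_apply, Matrix.vecMulVec_apply, Finset.sum_apply,
    Pi.smul_apply, smul_eq_mul, mul_assoc]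

/-- step (1): full multilinear expansion -/
private theorem det_gram_full {ι α R : Type*} [Fintype ι] [DecidableEq ι] [DecidableEq α]
    [CommRing R] (v : α → ι → R) (w : α → R) (B : Finset α) :
    (gram v w B).det = ∑ p ∈ Fintype.piFinset (fun _ : ι => B),
      (∏ i, w (p i)) * ((∏ i, v (p i) i) * (Matrix.of fun i => v (p i)).det) := by
  have h1 : (gram v w B).det
      = Matrix.detRowAlternating (fun i => ∑ e ∈ B, (w e * v e i) • v e) := by
    have : gram v w B = (fun i => ∑ e ∈ B, (w e * v e i) • v e) := by
      funext i; exact gram_row v w B i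
    rw [this]; rfl
  rw [h1]
  have h2 := (Matrix.detRowAlternating (n := ι) (R := R)).toMultilinearMap.map_sum_finset
    (fun (i : ι) (e : α) => (w e * v e i) • v e) (fun _ => B)
  have h3 : (Matrix.detRowAlternating (n := ι) (R := R)) (fun i => ∑ e ∈ B, (w e * v e i) • v e)
      = ∑ p ∈ Fintype.piFinset (fun _ : ι => B),
        (Matrix.detRowAlternating (n := ι) (R := R)) (fun i => (w (p i) * v (p i) i) • v (p i)) := h2
  rw [h3]
  refine Finset.sum_congr rfl fun p _ => ?_
  have h4 := (Matrix.detRowAlternating (n := ι) (R := R)).toMultilinearMap.map_smul_univ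
    (fun i => w (p i) * v (p i) i) (fun i => v (p i))
  have h5 : (Matrix.detRowAlternating (n := ι) (R := R)) (fun i => (w (p i) * v (p i) i) • v (p i))
      = (∏ i, (w (p i) * v (p i) i)) • (Matrix.detRowAlternating (n := ι) (R := R))
        (fun i => v (p i)) := h4
  rw [h5, Finset.prod_mul_distrib, smul_eq_mul, mul_assoc]
  rfl

/-- GA.  `det (∑_{e∈E} z e • v e (v e)ᵀ) = ∑_{A ⊆ E, |A| = |ι|} (∏_{e∈A} z e) * det (∑_{e∈A} v e (v e)ᵀ)`.

Proof.  For a finset `B` and weights `w` put, for `p : ι → α`,
  `t p = (∏ i, v (p i) i) * det (Matrix.of fun i j => v (p j) i)`.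
(1) `det (gram v w B) = ∑ p ∈ Fintype.piFinset (fun _ => B), (∏ i, w (p i)) * t p`
    (as in Mathlib's proof of `Matrix.det_mul`: `det_apply'`, entry `(gram v w B) i j = ∑ e ∈ B, w e * v e i * v e j`,
     `Finset.prod_univ_sum`, `Finset.sum_comm`), or via multilinearity of `det` in the columns
     (`Matrix.detRowAlternating`, `MultilinearMap.map_sum_finset`, `map_smul_univ`).
(2) `t p = 0` if `p` is not injective (`Matrix.det_zero_of_column_eq`).
(3) For injective `p` with values in `E`: `∏ i, z (p i) = ∏ e ∈ univ.image p, z e` (`Finset.prod_image`),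
    `(univ.image p).card = card ι`.  Group the sum (1) for `(E,z)` by `A = univ.image p`
    (`Finset.sum_fiberwise_of_maps_to`), and for `A ∈ E.powersetCard (card ι)` note that
    `{p ∈ piFinset E | Injective p ∧ image p = A} = {p ∈ piFinset A | Injective p}` (`Finset.eq_of_subset_of_card_le`),
    whose `t`-sum is (1),(2) for `(A,1)`. -/
theorem det_gram_expand {ι α R : Type*} [Fintype ι] [DecidableEq ι] [DecidableEq α] [CommRing R]
    (v : α → ι → R) (z : α → R) (E : Finset α) :
    (gram v z E).det
      = ∑ A ∈ E.powersetCard (Fintype.card ι), (∏ e ∈ A, z e) * (gram v (fun _ => 1) A).det := by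
  classical
  set t : (ι → α) → R := fun p => (∏ i, v (p i) i) * (Matrix.of fun i => v (p i)).det with ht
  have ht0 : ∀ p : ι → α, ¬ Function.Injective p → t p = 0 := by
    intro p hp
    simp only [Function.Injective, not_forall] at hp
    obtain ⟨i, j, hij, hne⟩ := hp
    have : (Matrix.of fun i => v (p i)).det = 0 :=
      Matrix.det_zero_of_row_eq hne (by funext k; simp only [Matrix.of_apply, hij])
    simp only [ht, this, mul_zero]
  rw [det_gram_full v z E]
  have hR : ∀ A ∈ E.powersetCard (Fintype.card ι),
      (∏ e ∈ A, z e) * (gram v (fun _ => 1) A).det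
        = ∑ p ∈ Fintype.piFinset (fun _ : ι => A), (∏ e ∈ A, z e) * t p := by
    intro A _
    rw [det_gram_full v (fun _ => 1) A, Finset.mul_sum]
    refine Finset.sum_congr rfl fun p _ => ?_
    simp only [Finset.prod_const_one, one_mul, ht]
  rw [Finset.sum_congr rfl hR]
  rw [Finset.sum_comm' (s' := fun p => (E.powersetCard (Fintype.card ι)).filter
      (fun A => ∀ i, p i ∈ A)) (t' := Fintype.piFinset (fun _ : ι => E))]
  · refine Finset.sum_congr rfl fun p hp => ?_
    rw [Fintype.mem_piFinset] at hp
    by_cases hinj : Function.Injective p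
    · have hfil : (E.powersetCard (Fintype.card ι)).filter (fun A => ∀ i, p i ∈ A)
          = {Finset.univ.image p} := by
        ext A
        simp only [Finset.mem_filter, Finset.mem_powersetCard, Finset.mem_singleton]
        constructor
        · rintro ⟨⟨_, hcard⟩, hA⟩
          symm
          apply Finset.eq_of_subset_of_card_le
          · intro e he
            obtain ⟨i, -, rfl⟩ := Finset.mem_image.mp he
            exact hA i
          · rw [hcard, Finset.card_image_of_injective _ hinj, Finset.card_univ]
        · rintro rfl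
          refine ⟨⟨?_, ?_⟩, fun i => Finset.mem_image_of_mem _ (Finset.mem_univ i)⟩
          · intro e he
            obtain ⟨i, -, rfl⟩ := Finset.mem_image.mp he
            exact hp i
          · rw [Finset.card_image_of_injective _ hinj, Finset.card_univ]
      rw [hfil, Finset.sum_singleton, Finset.prod_image (fun a _ b _ h => hinj h)]
    · have h0 := ht0 p hinj
      simp only [ht] at h0
      simp only [ht, h0, mul_zero, Finset.sum_const_zero]
  · intro A p
    simp only [Finset.mem_filter, Finset.mem_powersetCard, Fintype.mem_piFinset]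
    constructor
    · rintro ⟨⟨hAE, hc⟩, hp⟩
      exact ⟨⟨⟨hAE, hc⟩, hp⟩, fun i => hAE (hp i)⟩
    · rintro ⟨⟨⟨hAE, hc⟩, hp⟩, _⟩
      exact ⟨⟨hAE, hc⟩, hp⟩

end Crest.Agent.R168
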