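/-
Row 168 part G, task GD (reduced Laplacian of a disconnected piece is singular).  One owner; keep the statement.
-/
import Crest.Agent.R168_TreeChar

set_option autoImplicit false
open Finset

namespace Crest.Agent.R168
variable {V : Type*} [DecidableEq V]

/-- GD.  Proof.  `S` is nonempty, so not connected means not preconnected: there is `x ∈ S` not reachable from `r`
(if every vertex were reachable from `r` the graph would be connected).  Put (classically)
`W y = 1` if `y ∈ S` and `⟨y,_⟩` is reachable from `x` in `pieceGraph S A`, else `0`.  `W r = 0`, `W x = 1`, and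
`W a = W b` whenever `s(a,b) ∈ A` (both in `S`, adjacent because `a ≠ b` by `GoodEdges`).  By `sum_redVec_mul`,
`∑ i, redVec e i * W i = 0` for every `e ∈ A` (write `e = s(a,b)` by `Sym2.ind`), hence
`gram … A *ᵥ w = ∑ e ∈ A, (∑ i, redVec e i * w i) • redVec e = 0` for `w i = W i.1`, `w ≠ 0` (at `⟨x,_⟩`, `x ≠ r`).
Conclude with `Matrix.exists_mulVec_eq_zero_iff`. -/
theorem det_gram_of_not_connected {S : Finset V} {r : V} (hr : r ∈ S) {A : Finset (Sym2 V)}
    (hA : GoodEdges S A) (hc : ¬ (pieceGraph S A).Connected) :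
    (gram (redVec ℤ S r) (fun _ => 1) A).det = 0 := by
  classical
  have hrS : r ∈ (S : Set V) := by simpa using hr
  -- a vertex not reachable from the root
  have hex : ∃ x : (S : Set V), ¬ (pieceGraph S A).Reachable ⟨r, hrS⟩ x := by
    by_contra hcon
    push_neg at hcon
    apply hc
    haveI : Nonempty (S : Set V) := ⟨⟨r, hrS⟩⟩
    exact (SimpleGraph.connected_iff _).mpr ⟨fun a b => (hcon a).symm.trans (hcon b), inferInstance⟩
  obtain ⟨x, hx⟩ := hex
  -- indicator of the component of `x`
  let W : V → ℤ := fun y =>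
    if h : y ∈ (S : Set V) then (if (pieceGraph S A).Reachable x ⟨y, h⟩ then 1 else 0) else 0
  have hWr : W r = 0 := by
    have : ¬ (pieceGraph S A).Reachable x ⟨r, hrS⟩ := fun h => hx h.symm
    simp [W, hrS, this]
  have hWx : W x.1 = 1 := by
    have h1 : x.1 ∈ (S : Set V) := x.2
    have h2 : (pieceGraph S A).Reachable x ⟨x.1, h1⟩ := SimpleGraph.Reachable.refl _
    simp only [W, dif_pos h1, if_pos h2]
  have hWe : ∀ a b, s(a, b) ∈ A → a ∈ S ∧ b ∈ S ∧ W a = W b := by
    intro a b hab
    obtain ⟨h1, h2⟩ := hA _ hab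
    rw [Finset.mk_mem_sym2_iff] at h1
    rw [Sym2.mk_isDiag_iff] at h2
    refine ⟨h1.1, h1.2, ?_⟩
    have haS : a ∈ (S : Set V) := by simpa using h1.1
    have hbS : b ∈ (S : Set V) := by simpa using h1.2
    have hadj : (pieceGraph S A).Adj ⟨a, haS⟩ ⟨b, hbS⟩ := (pieceGraph_adj _ _).mpr ⟨hab, h2⟩
    have hiff : (pieceGraph S A).Reachable x ⟨a, haS⟩ ↔ (pieceGraph S A).Reachable x ⟨b, hbS⟩ :=
      ⟨fun h => h.trans hadj.reachable, fun h => h.trans hadj.symm.reachable⟩
    simp only [W, dif_pos haS, dif_pos hbS, hiff]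
  have hsum : ∀ e ∈ A, ∑ i : {y // y ∈ S.erase r}, redVec ℤ S r e i * W i.1 = 0 := by
    intro e
    induction e using Sym2.ind with
    | _ a b =>
      intro hab
      obtain ⟨ha, hb, hW⟩ := hWe a b hab
      rcases sum_redVec_mul (R := ℤ) (S := S) (r := r) W hWr ha hb with h | h
      · rw [h, hW, sub_self]
      · rw [h, hW, sub_self]
  have hxr : x.1 ≠ r := by
    intro h
    rw [h] at hWx
    rw [hWr] at hWx
    exact zero_ne_one hWx
  have hxS : x.1 ∈ S.erase r := Finset.mem_erase.mpr ⟨hxr, by simpa using x.2⟩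
  rw [← Matrix.exists_mulVec_eq_zero_iff]
  refine ⟨fun i => W i.1, ?_, ?_⟩
  · intro h0
    have := congrFun h0 ⟨x.1, hxS⟩
    simp only [Pi.zero_apply] at this
    rw [hWx] at this
    exact one_ne_zero this
  · ext i
    simp only [Matrix.mulVec, dotProduct, gram, Matrix.sum_apply, Matrix.smul_apply,
      Matrix.vecMulVec_apply, Pi.zero_apply, one_smul]
    calc ∑ j : {y // y ∈ S.erase r}, (∑ e ∈ A, redVec ℤ S r e i * redVec ℤ S r e j) * W j.1
        = ∑ e ∈ A, redVec ℤ S r e i * ∑ j : {y // y ∈ S.erase r}, redVec ℤ S r e j * W j.1 := by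
          simp only [Finset.sum_mul, Finset.mul_sum]
          rw [Finset.sum_comm]
          refine Finset.sum_congr rfl fun e _ => Finset.sum_congr rfl fun j _ => ?_
          ring
      _ = 0 := by
          refine Finset.sum_eq_zero fun e he => ?_
          rw [hsum e he, mul_zero]

end Crest.Agent.R168
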