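/-
Row 168 part G, task GC (reduced Laplacian of a spanning tree has determinant 1).  One owner; keep the statement.
-/
import Crest.Agent.R168_TreeChar

set_option autoImplicit false
open Finset

namespace Crest.Agent.R168
variable {V : Type*} [DecidableEq V]

/-- GC.  Proof.  `ι = {x // x ∈ S.erase r}` has `S.card - 1 = A.card` elements; choose `p : ι ≃ A`
(`Fintype.equivOfCardEq` / `Finset.equivOfCardEq`), `N = Matrix.of fun i j => redVec ℤ S r (p j) i`.
Then `gram (redVec ℤ S r) 1 A = N * Nᵀ` (entrywise, `Finset.sum_coe_sort`, `Equiv.sum_comp`), so `det = (det N)^2`.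
`N` has a right inverse over `ℤ`: let `M = Submodule.span ℤ (Set.range fun e : A => redVec ℤ S r e)` and
`P x := (fun i : ι => if i.1 = x then (1:ℤ) else 0) ∈ M`.  `P r` holds (zero vector).  If `s(a,b) ∈ A` then
`δ_a - δ_b = ± redVec s(a,b)` on `ι` (`incVec_mk`), so `P a ↔ P b`.  By `propagate`, `P x` for all `x ∈ S`.
`Submodule.mem_span_range_iff_exists_fun` gives coefficient vectors, i.e. a matrix `B` with `N * B = 1`.
Hence `IsUnit N.det` (`Matrix.isUnit_det_of_right_inverse`), `N.det = 1 ∨ N.det = -1` (`Int.isUnit_iff`), square `= 1`. -/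
theorem det_gram_of_connected {S : Finset V} {r : V} (hr : r ∈ S) {A : Finset (Sym2 V)} (hA : GoodEdges S A)
    (hcard : A.card + 1 = S.card) (hc : (pieceGraph S A).Connected) :
    (gram (redVec ℤ S r) (fun _ => 1) A).det = 1 := by
  classical
  have hι : Fintype.card {x // x ∈ S.erase r} = Fintype.card {e // e ∈ A} := by
    rw [Fintype.card_coe, Fintype.card_coe, Finset.card_erase_of_mem hr]
    omega
  let p : {x // x ∈ S.erase r} ≃ {e // e ∈ A} := Fintype.equivOfCardEq hι
  let N : Matrix {x // x ∈ S.erase r} {x // x ∈ S.erase r} ℤ :=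
    Matrix.of fun i j => redVec ℤ S r (p j).1 i
  have hgram : gram (redVec ℤ S r) (fun _ => 1) A = N * N.transpose := by
    ext i j
    simp only [gram, Matrix.mul_apply, Matrix.transpose_apply, N, Matrix.of_apply, one_smul,
      Matrix.sum_apply, Matrix.vecMulVec_apply]
    rw [← Finset.sum_coe_sort A (fun e => redVec ℤ S r e i * redVec ℤ S r e j)]
    exact (Equiv.sum_comp p (fun e : {e // e ∈ A} => redVec ℤ S r e.1 i * redVec ℤ S r e.1 j)).symm
  -- the span argument
  let M : Submodule ℤ ({x // x ∈ S.erase r} → ℤ) :=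
    Submodule.span ℤ (Set.range fun e : {e // e ∈ A} => redVec ℤ S r e.1)
  let dl : V → ({x // x ∈ S.erase r} → ℤ) := fun x i => if i.1 = x then (1 : ℤ) else 0
  have hPr : dl r ∈ M := by
    have : dl r = 0 := by
      funext i
      have hi : i.1 ≠ r := (Finset.mem_erase.mp i.2).1
      simp [dl, hi]
    rw [this]
    exact M.zero_mem
  have hP : ∀ a b, s(a, b) ∈ A → (dl a ∈ M ↔ dl b ∈ M) := by
    intro a b hab
    have hmem : redVec ℤ S r s(a, b) ∈ M :=
      Submodule.subset_span ⟨⟨s(a, b), hab⟩, rfl⟩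
    rcases incVec_mk ℤ a b with h | h
    · have e : dl a = dl b + redVec ℤ S r s(a, b) := by
        funext i
        simp only [dl, redVec, h, Pi.add_apply]
        ring
      rw [e]
      exact (Submodule.add_mem_iff_left M hmem)
    · have e : dl b = dl a + redVec ℤ S r s(a, b) := by
        funext i
        simp only [dl, redVec, h, Pi.add_apply]
        ring
      rw [e]
      exact (Submodule.add_mem_iff_left M hmem).symm
  have hall : ∀ x ∈ S, dl x ∈ M := propagate hc (fun x => dl x ∈ M) hP hr hPr
  have hex : ∀ j : {x // x ∈ S.erase r}, ∃ c : {e // e ∈ A} → ℤ,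
      ∑ e, c e • redVec ℤ S r e.1 = dl j.1 := by
    intro j
    have hj : dl j.1 ∈ M := hall j.1 (Finset.mem_of_mem_erase j.2)
    exact (Submodule.mem_span_range_iff_exists_fun ℤ).mp hj
  choose c hc' using hex
  let B : Matrix {x // x ∈ S.erase r} {x // x ∈ S.erase r} ℤ := Matrix.of fun k j => c j (p k)
  have hNB : N * B = 1 := by
    ext i j
    simp only [Matrix.mul_apply, N, B, Matrix.of_apply]
    have h1 : ∑ k, redVec ℤ S r (p k).1 i * c j (p k)
        = ∑ e : {e // e ∈ A}, redVec ℤ S r e.1 i * c j e :=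
      Equiv.sum_comp p (fun e : {e // e ∈ A} => redVec ℤ S r e.1 i * c j e)
    rw [h1]
    have h2 := congrFun (hc' j) i
    simp only [Finset.sum_apply, Pi.smul_apply, smul_eq_mul, dl] at h2
    have h3 : ∑ e : {e // e ∈ A}, redVec ℤ S r e.1 i * c j e
        = ∑ e : {e // e ∈ A}, c j e * redVec ℤ S r e.1 i :=
      Finset.sum_congr rfl fun e _ => mul_comm _ _
    rw [h3, h2, Matrix.one_apply]
    by_cases hij : i = j
    · simp [hij]
    · have : i.1 ≠ j.1 := fun h => hij (Subtype.ext h)
      simp [hij, this]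
  have hunit : IsUnit N.det := Matrix.isUnit_det_of_right_inverse hNB
  rw [hgram, Matrix.det_mul, Matrix.det_transpose]
  rcases Int.isUnit_iff.mp hunit with h | h <;> rw [h] <;> norm_num

end Crest.Agent.R168
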