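/-
Row 168 part G, task GE (the weighted reduced Laplacian is non-singular for weights in the upper half plane).
One owner; keep the statement.
-/
import Crest.Agent.R168_TreeChar

set_option autoImplicit false
open Finset

namespace Crest.Agent.R168
variable {V : Type*} [DecidableEq V]

/-- GE.  Proof.  If `det = 0`, `Matrix.exists_mulVec_eq_zero_iff` gives `w ≠ 0` with `L *ᵥ w = 0`,
`L = gram (redVec ℂ S r) z E`.  With `q e = ∑ i, redVec ℂ S r e i * w i` and since `redVec` is real
(`conj (redVec e i) = redVec e i`, values `0, ±1`):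
`0 = ∑ i, conj (w i) * (L *ᵥ w) i = ∑ e ∈ E, z e * (conj (q e) * q e) = ∑ e ∈ E, z e * ‖q e‖^2`.
Imaginary part: `∑ e ∈ E, (z e).im * ‖q e‖^2 = 0`, all terms `≥ 0`, so `q e = 0` for all `e ∈ E`
(`Finset.sum_eq_zero_iff_of_nonneg`).  Let `W y = w ⟨y,_⟩` for `y ∈ S.erase r` and `0` otherwise; by `sum_redVec_mul`,
`W a = W b` if `s(a,b) ∈ E`.  `propagate` with `P y := W y = 0` gives `W = 0` on `S`, i.e. `w = 0`: contradiction. -/
theorem det_gram_ne_zero {S : Finset V} {r : V} (hr : r ∈ S) {E : Finset (Sym2 V)} (hE : GoodEdges S E)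
    (hc : (pieceGraph S E).Connected) (z : Sym2 V → ℂ) (hz : ∀ e ∈ E, 0 < (z e).im) :
    (gram (redVec ℂ S r) z E).det ≠ 0 := by
  classical
  intro hdet
  obtain ⟨w, hw0, hLw⟩ := Matrix.exists_mulVec_eq_zero_iff.mpr hdet
  set v := redVec ℂ S r with hv
  have hreal : ∀ e i, (starRingEnd ℂ) (v e i) = v e i := by
    intro e i
    simp only [hv, redVec, incVec]
    split_ifs <;> simp
  set q : Sym2 V → ℂ := fun e => ∑ i, v e i * w i with hq
  have key : ∑ i, (starRingEnd ℂ) (w i) * ((gram v z E).mulVec w) i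
      = ∑ e ∈ E, z e * ((starRingEnd ℂ) (q e) * q e) := by
    have h1 : ∀ i, ((gram v z E).mulVec w) i = ∑ e ∈ E, z e * (v e i * q e) := by
      intro i
      simp only [Matrix.mulVec, dotProduct, gram, Matrix.sum_apply, Matrix.smul_apply,
        Matrix.vecMulVec_apply, smul_eq_mul, hq]
      simp only [Finset.sum_mul, Finset.mul_sum]
      rw [Finset.sum_comm]
      refine Finset.sum_congr rfl fun e _ => Finset.sum_congr rfl fun j _ => by ring
    simp only [h1, Finset.mul_sum]
    rw [Finset.sum_comm]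
    refine Finset.sum_congr rfl fun e _ => ?_
    have h2 : (starRingEnd ℂ) (q e) = ∑ i, v e i * (starRingEnd ℂ) (w i) := by
      simp [hq, map_sum, hreal]
    rw [h2, Finset.sum_mul, Finset.mul_sum]
    refine Finset.sum_congr rfl fun i _ => by ring
  rw [hLw] at key
  simp only [Pi.zero_apply, mul_zero, Finset.sum_const_zero] at key
  have him : ∑ e ∈ E, (z e).im * Complex.normSq (q e) = 0 := by
    have h3 := congrArg Complex.im key
    rw [Complex.im_sum] at h3
    simp only [Complex.zero_im] at h3
    rw [h3]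
    refine Finset.sum_congr rfl fun e _ => ?_
    rw [← Complex.normSq_eq_conj_mul_self]
    simp [Complex.mul_im]
  have hq0 : ∀ e ∈ E, q e = 0 := by
    intro e he
    have h4 := (Finset.sum_eq_zero_iff_of_nonneg (fun e he =>
      mul_nonneg (hz e he).le (Complex.normSq_nonneg (q e)))).mp him e he
    rcases mul_eq_zero.mp h4 with h5 | h5
    · exact absurd h5 (hz e he).ne'
    · exact Complex.normSq_eq_zero.mp h5
  set W : V → ℂ := fun y => if h : y ∈ S.erase r then w ⟨y, h⟩ else 0 with hW
  have hWr : W r = 0 := by simp [hW]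
  have hWi : ∀ i : {x // x ∈ S.erase r}, W i.1 = w i := by
    intro i
    simp only [hW]
    rw [dif_pos i.2]
  have hedge : ∀ a b, s(a, b) ∈ E → W a = W b := by
    intro a b hab
    have hmem := (hE _ hab).1
    rw [Finset.mk_mem_sym2_iff] at hmem
    have h6 : ∑ i : {x // x ∈ S.erase r}, redVec ℂ S r s(a, b) i * W i.1 = 0 := by
      have := hq0 _ hab
      simp only [hq] at this
      rw [← this]
      refine Finset.sum_congr rfl fun i _ => by rw [hWi i]
    rcases sum_redVec_mul ℂ W hWr hmem.1 hmem.2 (S := S) (r := r) with h7 | h7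
    · rw [h6] at h7
      exact (sub_eq_zero.mp h7.symm)
    · rw [h6] at h7
      exact (sub_eq_zero.mp h7.symm).symm
  have hall := propagate hc (fun y => W y = 0) (fun a b hab => by rw [hedge a b hab]) hr hWr
  apply hw0
  funext i
  rw [← hWi i]
  exact hall i.1 (Finset.mem_of_mem_erase i.2)

end Crest.Agent.R168
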