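/-
Row 168 part G, assembly (helper33): weighted matrix-tree theorem and stability of the spanning-tree polynomial.
-/
import Crest.Agent.R168_TreeCB
import Crest.Agent.R168_TreeDet1
import Crest.Agent.R168_TreeDet0
import Crest.Agent.R168_TreePos

set_option autoImplicit false
open Finset Crest.ProbabilityR.SpanningTrees

namespace Crest.Agent.R168
variable {V : Type*}

private theorem gram_cast [DecidableEq V] (S : Finset V) (r : V) (A : Finset (Sym2 V)) :
    gram (redVec ℂ S r) (fun _ => 1) A
      = (Int.castRingHom ℂ).mapMatrix (gram (redVec ℤ S r) (fun _ => 1) A) := by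
  ext i j
  simp [gram, Matrix.sum_apply, Matrix.vecMulVec_apply, redVec, incVec]

/-- weighted matrix-tree theorem for the piece `(S, edgesIn G S)` -/
theorem treePoly_eq_det [DecidableEq V] (G : SimpleGraph V) (S : Finset V) {r : V} (hr : r ∈ S)
    (z : Sym2 V → ℂ) : treePoly G S z = (gram (redVec ℂ S r) z (edgesIn G S)).det := by
  classical
  rw [det_gram_expand]
  have hcardι : Fintype.card {x // x ∈ S.erase r} = S.card - 1 := by
    rw [Fintype.card_coe, Finset.card_erase_of_mem hr]
  have hSpos : 0 < S.card := Finset.card_pos.mpr ⟨r, hr⟩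
  have hval : ∀ A ∈ (edgesIn G S).powersetCard (Fintype.card {x // x ∈ S.erase r}),
      (∏ e ∈ A, z e) * (gram (redVec ℂ S r) (fun _ => 1) A).det
        = if IsSpanningTreeOn G S A then ∏ e ∈ A, z e else 0 := by
    intro A hA
    rw [Finset.mem_powersetCard] at hA
    have hgood : GoodEdges S A := (goodEdges_edgesIn G S).mono hA.1
    have hc1 : A.card + 1 = S.card := by omega
    rw [gram_cast, ← RingHom.map_det]
    by_cases hc : (pieceGraph S A).Connected
    · rw [det_gram_of_connected hr hgood hc1 hc, if_pos ((isSpanningTreeOn_iff G S A).2 ⟨hA.1, hc1, hc⟩)]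
      simp
    · rw [det_gram_of_not_connected hr hgood hc, if_neg (fun h => hc ((isSpanningTreeOn_iff G S A).1 h).2.2)]
      simp
  rw [Finset.sum_congr rfl hval, ← Finset.sum_filter, treePoly]
  refine Finset.sum_congr ?_ (fun _ _ => rfl)
  ext A
  simp only [Finset.mem_filter, Finset.mem_powerset, Finset.mem_powersetCard]
  constructor
  · rintro ⟨h1, h2⟩
    refine ⟨⟨h1, ?_⟩, h2⟩
    have := ((isSpanningTreeOn_iff G S A).1 h2).2.1
    omega
  · rintro ⟨⟨h1, _⟩, h2⟩
    exact ⟨h1, h2⟩

/-- **Part G, main theorem.**  The spanning-tree polynomial of a connected induced piece does not vanish when all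
edge variables are in the open upper half plane. -/
theorem treePoly_ne_zero (G : SimpleGraph V) (S : Finset V) (hc : (G.induce (S : Set V)).Connected)
    (z : Sym2 V → ℂ) (hz : ∀ e ∈ edgesIn G S, 0 < (z e).im) : treePoly G S z ≠ 0 := by
  classical
  obtain ⟨⟨r, hr⟩⟩ := hc.nonempty
  have hr' : r ∈ S := by simpa using hr
  rw [treePoly_eq_det G S hr' z]
  refine det_gram_ne_zero hr' (goodEdges_edgesIn G S) ?_ z hz
  rw [pieceGraph_edgesIn]
  exact hc

end Crest.Agent.R168
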