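/-
Row 168 part G2, task GJ (the uniform spanning tree of a connected piece: stable weight, (N1), (N2), normalisation).
One owner; keep the statements.
-/
import Crest.Agent.R168_TreePoly
import Crest.Agent.R168_MassBasic
import Crest.Agent.R168_SRWeight

set_option autoImplicit false
open Finset Crest.ProbabilityR.SpanningTrees

namespace Crest.Agent.R168
variable {V : Type*} [DecidableEq V]

theorem treeW_nonneg (G : SimpleGraph V) (S : Finset V) (A : Finset (Sym2 V)) : 0 ≤ treeW G S A := by
  unfold treeW
  split_ifs <;> norm_num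

private theorem sum_treeW_eq_treePoly (G : SimpleGraph V) (S : Finset V) (z : Sym2 V → ℂ) :
    ∑ A ∈ (edgesIn G S).powerset, (treeW G S A : ℂ) * ∏ i ∈ A, z i = treePoly G S z := by
  classical
  unfold treePoly
  rw [Finset.sum_filter]
  refine Finset.sum_congr rfl (fun A _ => ?_)
  unfold treeW
  by_cases h : IsSpanningTreeOn G S A
  · simp [h]
  · simp [h]

/-- `∑ A ∈ E.powerset, (treeW A : ℂ) * ∏ z = treePoly G S z` (`Finset.sum_filter`), then `treePoly_ne_zero`. -/
theorem stableW_treeW (G : SimpleGraph V) (S : Finset V) (hc : (G.induce (S : Set V)).Connected) :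
    StableW (treeW G S) (edgesIn G S) := by
  intro z hz
  rw [sum_treeW_eq_treePoly]
  exact treePoly_ne_zero G S hc z hz

theorem cylFam_treeMass (G : SimpleGraph V) (S : Finset V) : CylFam (treeMass G S) :=
  cylFam_mass (treeW_nonneg G S) _

theorem treeMass_N1 (G : SimpleGraph V) (S : Finset V) (hc : (G.induce (S : Set V)).Connected) :
    MassN1 (treeMass G S) :=
  stableW_N1 (treeW_nonneg G S) (stableW_treeW G S hc)

theorem treeMass_N2 (G : SimpleGraph V) (S : Finset V) (hc : (G.induce (S : Set V)).Connected) :
    MassN2 (treeMass G S) :=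
  stableW_N2 (treeW_nonneg G S) (stableW_treeW G S hc)

private theorem treeMass_eq_card (G : SimpleGraph V) (S : Finset V) (F : Finset (Sym2 V)) :
    haveI := Classical.decPred (fun A : Finset (Sym2 V) => IsSpanningTreeOn G S A)
    treeMass G S F ∅
      = (((edgesIn G S).powerset.filter (fun A => IsSpanningTreeOn G S A ∧ F ⊆ A)).card : ℝ) := by
  classical
  unfold treeMass mass treeW
  rw [Finset.card_filter, Finset.sum_filter]
  push_cast
  refine Finset.sum_congr rfl (fun A _ => ?_)
  by_cases h1 : IsSpanningTreeOn G S A <;> by_cases h2 : F ⊆ A <;> simp [h1, h2]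

/-- a connected piece has a spanning tree: otherwise `treePoly = 0`, contradicting `treePoly_ne_zero` at `z = i`. -/
theorem treeMass_pos (G : SimpleGraph V) (S : Finset V) (hc : (G.induce (S : Set V)).Connected) :
    0 < treeMass G S ∅ ∅ := by
  classical
  have h0 : 0 ≤ treeMass G S ∅ ∅ := (cylFam_treeMass G S).nonneg _ _
  rcases h0.lt_or_eq with h | h
  · exact h
  · exfalso
    have hz : ∀ A ∈ (edgesIn G S).powerset, treeW G S A = 0 := by
      have h1 : treeMass G S ∅ ∅ = ∑ A ∈ (edgesIn G S).powerset, treeW G S A := by
        unfold treeMass mass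
        refine Finset.sum_congr ?_ (fun _ _ => rfl)
        ext A
        simp
      rw [h1] at h
      exact (Finset.sum_eq_zero_iff_of_nonneg (fun A _ => treeW_nonneg G S A)).1 h.symm
    have h2 := stableW_treeW G S hc (fun _ => Complex.I) (fun _ _ => by simp)
    apply h2
    refine Finset.sum_eq_zero (fun A hA => ?_)
    rw [hz A hA]
    simp

/-- unfold; `Finset.sum_boole` / `Finset.card_filter`; the decidability instances in `ustContains` are classical
(`convert`/`congr` + `Subsingleton.elim`, or `Finset.filter_congr_decidable`). -/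
theorem ustContains_eq (G : SimpleGraph V) (S : Finset V) (F : Finset (Sym2 V)) :
    ustContains G S F = treeMass G S F ∅ / treeMass G S ∅ ∅ := by
  classical
  rw [treeMass_eq_card, treeMass_eq_card]
  unfold ustContains
  congr 2
  · congr 1
    ext A
    simp only [Finset.mem_filter]
  · congr 1
    ext A
    simp

theorem ustContains_nonneg (G : SimpleGraph V) (S : Finset V) (F : Finset (Sym2 V)) :
    0 ≤ ustContains G S F := by
  rw [ustContains_eq]
  exact div_nonneg ((cylFam_treeMass G S).nonneg _ _) ((cylFam_treeMass G S).nonneg _ _)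

theorem ustContains_le_one (G : SimpleGraph V) (S : Finset V) (F : Finset (Sym2 V)) :
    ustContains G S F ≤ 1 := by
  rw [ustContains_eq]
  refine div_le_one_of_le₀ ?_ ((cylFam_treeMass G S).nonneg _ _)
  have := (cylFam_treeMass G S).union_left_le ∅ F ∅
  rwa [Finset.empty_union] at this

theorem ustContains_empty (G : SimpleGraph V) (S : Finset V) (hc : (G.induce (S : Set V)).Connected) :
    ustContains G S ∅ = 1 := by
  rw [ustContains_eq]
  exact div_self (treeMass_pos G S hc).ne'

theorem ustContains_eq_zero (G : SimpleGraph V) (S : Finset V) {F : Finset (Sym2 V)} (h : ¬ F ⊆ edgesIn G S) :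
    ustContains G S F = 0 := by
  rw [ustContains_eq]
  unfold treeMass
  rw [mass_eq_zero_of_not_subset _ _ h, zero_div]

/-- inclusion-exclusion for the normalised masses (`CylFam.incl_excl`, `ustContains_eq`) -/
theorem treeMass_div_eq (G : SimpleGraph V) (S : Finset V) (I J : Finset (Sym2 V)) :
    treeMass G S I J / treeMass G S ∅ ∅ = ∑ K ∈ J.powerset, (-1 : ℝ) ^ K.card * ustContains G S (I ∪ K) := by
  rw [(cylFam_treeMass G S).incl_excl I J, Finset.sum_div]
  refine Finset.sum_congr rfl (fun K _ => ?_)
  rw [ustContains_eq, mul_div_assoc]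

end Crest.Agent.R168
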