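/-
Row 168 part G2, task GH (`ustContains G S F` is antitone in the connected piece `S`).  One owner; keep the statements.
-/
import Crest.Agent.R168_TreeNeg
import Crest.Agent.R168_TreeLeaf
import Crest.Agent.R168_MassCor

set_option autoImplicit false
open Finset Crest.ProbabilityR.SpanningTrees

namespace Crest.Agent.R168
variable {V : Type*} [DecidableEq V]

/-- adding a vertex adjacent to a connected piece (`SimpleGraph.connected_induce_union` with `t = {v}`, `Finset.coe_insert`) -/
theorem connected_induce_insert {G : SimpleGraph V} {S : Finset V} (hc : (G.induce (S : Set V)).Connected)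
    {u v : V} (hu : u ∈ S) (hadj : G.Adj u v) : (G.induce ((insert v S : Finset V) : Set V)).Connected := by
  have h1 : (G.induce ({v} : Set V)).Preconnected := by
    rintro ⟨a, ha⟩ ⟨b, hb⟩
    have ha' : a = v := ha
    have hb' : b = v := hb
    subst ha'
    subst hb'
    exact SimpleGraph.Reachable.refl _
  have h2 := SimpleGraph.connected_induce_union (G := G) (s := (S : Set V)) (t := {v}) hc.preconnected h1
    (by exact_mod_cast hu) (Set.mem_singleton v) hadj
  have h3 : ((insert v S : Finset V) : Set V) = (S : Set V) ∪ {v} := by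
    rw [Finset.coe_insert, Set.union_singleton]
  rw [h3]
  exact h2

/-- a connected piece strictly containing a nonempty set `S` has a vertex outside `S` adjacent to `S`.
(`pieceGraph_edgesIn` + `propagate` on `(S', edgesIn G S')` with `P x := x ∈ S`: if no such edge existed, `P` would be constant
along edges, hence `S' ⊆ S`.) -/
theorem exists_adj_outside {G : SimpleGraph V} {S S' : Finset V} (hSS' : S ⊆ S') (hne : S.Nonempty) (hlt : S ≠ S')
    (hc' : (G.induce (S' : Set V)).Connected) : ∃ u ∈ S, ∃ v ∈ S', v ∉ S ∧ G.Adj u v := by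
  by_contra hcon
  push Not at hcon
  obtain ⟨r, hr⟩ := hne
  have hc2 : (pieceGraph S' (edgesIn G S')).Connected := by
    rw [pieceGraph_edgesIn]; exact hc'
  have key : ∀ x ∈ S', x ∈ S := by
    refine propagate hc2 (fun x => x ∈ S) ?_ (hSS' hr) hr
    intro a b hab
    rw [mem_edgesIn] at hab
    obtain ⟨ha, hb, hadj⟩ := hab
    constructor
    · intro haS
      by_contra hbS
      exact hcon a haS b hb hbS hadj
    · intro hbS
      by_contra haS
      exact hcon b hbS a ha haS hadj.symm
  exact hlt (Finset.Subset.antisymm hSS' key)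

/-- one step.  With `K' = otherEdgesAt G S u v`, `S' = insert v S`:
`treeMass S F ∅ = treeMass S' F (∅ ∪ K')`, `treeMass S ∅ ∅ = treeMass S' ∅ (∅ ∪ K')` (`treeMass_insert_vertex`; `s(u,v) ∉ F` since
`F ⊆ edgesIn G S`, `v ∉ S`); `CylFam.pos_cor` for `treeMass G S'` with `I = J = ∅`, `K = K'`
(`Disjoint F K'` from `disjoint_edgesIn_otherEdgesAt`): `tM S' F ∅ * tM S' ∅ K' ≤ tM S' F K' * tM S' ∅ ∅`.
Divide (`ustContains_eq`, `treeMass_pos`, `div_le_div_iff₀`). -/
theorem ustContains_insert_le {G : SimpleGraph V} {S : Finset V} (hc : (G.induce (S : Set V)).Connected)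
    {u v : V} (hv : v ∉ S) (hu : u ∈ S) (hadj : G.Adj u v) {F : Finset (Sym2 V)} (hF : F ⊆ edgesIn G S) :
    ustContains G (insert v S) F ≤ ustContains G S F := by
  have hc' := connected_induce_insert hc hu hadj
  have huvF : s(u, v) ∉ F := by
    intro h
    have := hF h
    rw [mem_edgesIn] at this
    exact hv this.2.1
  have e1 := treeMass_insert_vertex G S hv hu hadj F ∅ huvF (by simp)
  have e2 := treeMass_insert_vertex G S hv hu hadj ∅ ∅ (by simp) (by simp)
  have hdisj : Disjoint F (otherEdgesAt G S u v) :=
    Finset.disjoint_of_subset_left hF (disjoint_edgesIn_otherEdgesAt G S hv)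
  have hcor := (cylFam_treeMass G (insert v S)).pos_cor (treeMass_N1 G (insert v S) hc') ∅ ∅ F
    (otherEdgesAt G S u v) (by simp) (by simp) (by simp) (by simp) (by simp) hdisj
  rw [Finset.empty_union, e1, e2] at hcor
  rw [ustContains_eq, ustContains_eq, div_le_div_iff₀ (treeMass_pos G _ hc') (treeMass_pos G _ hc)]
  exact hcor

/-- GH main.  Induction on `(S' \ S).card` (generalising `S`), using the three lemmas above and `edgesIn_mono`. -/
theorem ustContains_antitone {G : SimpleGraph V} {S S' : Finset V} (hSS' : S ⊆ S')
    (hc : (G.induce (S : Set V)).Connected) (hc' : (G.induce (S' : Set V)).Connected)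
    {F : Finset (Sym2 V)} (hF : F ⊆ edgesIn G S) : ustContains G S' F ≤ ustContains G S F := by
  induction hn : (S' \ S).card generalizing S with
  | zero =>
    have h1 : S' ⊆ S := by
      rw [Finset.card_eq_zero, Finset.sdiff_eq_empty_iff_subset] at hn
      exact hn
    rw [Finset.Subset.antisymm hSS' h1]
  | succ n ih =>
    have hne : S.Nonempty := by
      obtain ⟨⟨r, hr⟩⟩ := hc.nonempty
      exact ⟨r, by simpa using hr⟩
    have hlt : S ≠ S' := by
      intro h
      rw [h, Finset.sdiff_self, Finset.card_empty] at hn
      omega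
    obtain ⟨u, hu, v, hvS', hvS, hadj⟩ := exists_adj_outside hSS' hne hlt hc'
    have hsub : insert v S ⊆ S' := Finset.insert_subset hvS' hSS'
    have hcard : (S' \ insert v S).card = n := by
      have h2 : S' \ insert v S = (S' \ S).erase v := by
        ext x
        simp only [Finset.mem_sdiff, Finset.mem_insert, Finset.mem_erase, not_or]
        tauto
      rw [h2, Finset.card_erase_of_mem (by simp [hvS', hvS]), hn]
      rfl
    have h3 := ih hsub (connected_induce_insert hc hu hadj)
      (hF.trans (edgesIn_mono G (Finset.subset_insert v S))) hcard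
    exact h3.trans (ustContains_insert_le hc hvS hu hadj hF)

end Crest.Agent.R168
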