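/-
Row 168 part G2, task GI (limits along exhaustions).  One owner; keep the statements.
-/
import Crest.Agent.R168_TreeMono

set_option autoImplicit false
open Finset Filter Topology Crest.ProbabilityR.SpanningTrees

namespace Crest.Agent.R168
variable {V : Type*} [DecidableEq V]

/-- a finite set is eventually contained in an exhaustion -/
theorem Exhaustion.eventually_subset {G : SimpleGraph V} {S : ℕ → Finset V} (hS : Exhaustion G S) (T : Finset V) :
    ∃ n, ∀ m, n ≤ m → T ⊆ S m := by
  induction T using Finset.induction_on with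
  | empty => exact ⟨0, fun m _ => Finset.empty_subset _⟩
  | insert a T _ ih =>
    obtain ⟨n, hn⟩ := ih
    obtain ⟨k, hk⟩ := hS.cover a
    refine ⟨max n k, fun m hm => ?_⟩
    refine Finset.insert_subset ?_ (hn m (le_trans (le_max_left _ _) hm))
    exact hS.mono (le_trans (le_max_right _ _) hm) hk

/-- a finite set of edges of `G` is eventually inside the pieces -/
theorem Exhaustion.eventually_edges {G : SimpleGraph V} {S : ℕ → Finset V} (hS : Exhaustion G S)
    {F : Finset (Sym2 V)} (hF : (F : Set (Sym2 V)) ⊆ G.edgeSet) : ∃ n, ∀ m, n ≤ m → F ⊆ edgesIn G (S m) := by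
  obtain ⟨n, hn⟩ := hS.eventually_subset (F.biUnion (fun e => e.toFinset))
  refine ⟨n, fun m hm e he => ?_⟩
  have hsub := hn m hm
  have heG : e ∈ G.edgeSet := hF (by exact_mod_cast he)
  induction e using Sym2.ind with
  | _ a b =>
    rw [mem_edgesIn]
    refine ⟨hsub ?_, hsub ?_, by simpa using heG⟩
    · rw [Finset.mem_biUnion]
      exact ⟨s(a, b), he, by simp⟩
    · rw [Finset.mem_biUnion]
      exact ⟨s(a, b), he, by simp⟩

private theorem edgesIn_subset_edgeSet (G : SimpleGraph V) (S : Finset V) :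
    ((edgesIn G S : Finset (Sym2 V)) : Set (Sym2 V)) ⊆ G.edgeSet := by
  intro e he
  have he' : e ∈ edgesIn G S := by exact_mod_cast he
  induction e using Sym2.ind with
  | _ a b =>
    rw [mem_edgesIn] at he'
    simpa using he'.2.2

/-- if `F` is not a set of edges of `G`, the index set of the infimum is empty (`Real.iInf_of_isEmpty`) -/
theorem fusfQ_eq_zero {G : SimpleGraph V} {F : Finset (Sym2 V)} (hF : ¬ (F : Set (Sym2 V)) ⊆ G.edgeSet) :
    fusfQ G F = 0 := by
  unfold fusfQ
  haveI : IsEmpty {S : Finset V // (G.induce (S : Set V)).Connected ∧ F ⊆ edgesIn G S} := by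
    refine ⟨fun S => hF ?_⟩
    exact (Finset.coe_subset.mpr S.2.2).trans (edgesIn_subset_edgeSet G S.1)
  exact Real.iInf_of_isEmpty _

theorem fusfQ_le {G : SimpleGraph V} {S : Finset V} (hc : (G.induce (S : Set V)).Connected)
    {F : Finset (Sym2 V)} (hF : F ⊆ edgesIn G S) : fusfQ G F ≤ ustContains G S F := by
  unfold fusfQ
  refine ciInf_le (f := fun S : {S : Finset V // (G.induce (S : Set V)).Connected ∧ F ⊆ edgesIn G S} =>
    ustContains G S.1 F) ⟨0, ?_⟩ ⟨S, hc, hF⟩
  rintro _ ⟨T, rfl⟩
  exact ustContains_nonneg G T.1 F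

/-- GI main (no hypothesis on `F`).  If `F ⊄ G.edgeSet` both sides are `0` (`ustContains_eq_zero`, `fusfQ_eq_zero`).
Otherwise, from `n₀` on (`eventually_edges`) the sequence is antitone (`ustContains_antitone`) and `≥ 0`, so it converges to its
infimum over `n ≥ n₀` (`tendsto_atTop_ciInf` after shifting, or an ε-argument):
`fusfQ ≤ ustContains G (S n) F` for `n ≥ n₀` (`fusfQ_le`); and for `ε > 0` pick an admissible `T` with
`ustContains G T F < fusfQ G F + ε` (`exists_lt_of_ciInf_lt`), `T ⊆ S n` eventually, `ustContains G (S n) F ≤ ustContains G T F`. -/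
theorem tendsto_ustContains {G : SimpleGraph V} {S : ℕ → Finset V} (hS : Exhaustion G S) (F : Finset (Sym2 V)) :
    Tendsto (fun n => ustContains G (S n) F) atTop (𝓝 (fusfQ G F)) := by
  by_cases hF : (F : Set (Sym2 V)) ⊆ G.edgeSet
  · obtain ⟨n₀, hn₀⟩ := hS.eventually_edges hF
    rw [Metric.tendsto_atTop]
    intro ε hε
    haveI : Nonempty {S : Finset V // (G.induce (S : Set V)).Connected ∧ F ⊆ edgesIn G S} :=
      ⟨⟨S n₀, hS.conn n₀, hn₀ n₀ le_rfl⟩⟩
    have hlt : (⨅ S : {S : Finset V // (G.induce (S : Set V)).Connected ∧ F ⊆ edgesIn G S},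
        ustContains G S.1 F) < fusfQ G F + ε := by
      change fusfQ G F < fusfQ G F + ε
      linarith
    obtain ⟨T, hT⟩ := exists_lt_of_ciInf_lt hlt
    obtain ⟨n₁, hn₁⟩ := hS.eventually_subset T.1
    refine ⟨max n₀ n₁, fun n hn => ?_⟩
    have h0 : n₀ ≤ n := le_trans (le_max_left _ _) hn
    have h1 : n₁ ≤ n := le_trans (le_max_right _ _) hn
    have hlow : fusfQ G F ≤ ustContains G (S n) F := fusfQ_le (hS.conn n) (hn₀ n h0)
    have hup : ustContains G (S n) F ≤ ustContains G T.1 F :=
      ustContains_antitone (hn₁ n h1) T.2.1 (hS.conn n) T.2.2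
    rw [Real.dist_eq, abs_lt]
    constructor <;> linarith
  · rw [fusfQ_eq_zero hF]
    have : (fun n => ustContains G (S n) F) = fun _ => (0 : ℝ) := by
      funext n
      refine ustContains_eq_zero G (S n) (fun h => hF ?_)
      exact (Finset.coe_subset.mpr h).trans (edgesIn_subset_edgeSet G (S n))
    rw [this]
    exact tendsto_const_nhds

/-- `treeMass_div_eq` + `tendsto_finset_sum` -/
theorem tendsto_treeMass_div {G : SimpleGraph V} {S : ℕ → Finset V} (hS : Exhaustion G S) (I J : Finset (Sym2 V)) :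
    Tendsto (fun n => treeMass G (S n) I J / treeMass G (S n) ∅ ∅) atTop (𝓝 (fusfM G I J)) := by
  simp only [treeMass_div_eq]
  unfold fusfM
  refine tendsto_finsetSum _ (fun K _ => ?_)
  exact (tendsto_ustContains hS (I ∪ K)).const_mul _

/-- exhaustions exist: `f : ℕ → V` surjective (`exists_surjective_nat`), `S 0 ⊇ {f 0}`, `S (n+1) ⊇ insert (f (n+1)) (S n)` connected by
`SimpleGraph.extend_finset_to_connected` (recursion with `Classical.choose` on a subtype, or `Nat.rec`). -/
theorem exists_exhaustion [Countable V] (G : SimpleGraph V) (hG : G.Connected) : ∃ S : ℕ → Finset V, Exhaustion G S := by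
  classical
  haveI : Nonempty V := hG.nonempty
  obtain ⟨f, hf⟩ := exists_surjective_nat V
  have ext : ∀ t : Finset V, t.Nonempty → ∃ t' : Finset V, t ⊆ t' ∧ (G.induce (t' : Set V)).Connected :=
    fun t ht => SimpleGraph.extend_finset_to_connected hG.preconnected ht
  let step : ℕ → Finset V → Finset V := fun n t =>
    Classical.choose (ext (insert (f n) t) (Finset.insert_nonempty _ _))
  have hstep : ∀ n t, insert (f n) t ⊆ step n t ∧ (G.induce (step n t : Set V)).Connected := fun n t =>
    Classical.choose_spec (ext (insert (f n) t) (Finset.insert_nonempty _ _))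
  let S : ℕ → Finset V := fun n => Nat.rec (step 0 ∅) (fun k t => step (k + 1) t) n
  have hS0 : S 0 = step 0 ∅ := rfl
  have hSs : ∀ n, S (n + 1) = step (n + 1) (S n) := fun n => rfl
  refine ⟨S, ?_, ?_, ?_⟩
  · refine monotone_nat_of_le_succ (fun n => ?_)
    rw [hSs]
    exact (Finset.subset_insert _ _).trans (hstep (n + 1) (S n)).1
  · intro v
    obtain ⟨n, rfl⟩ := hf v
    refine ⟨n, ?_⟩
    cases n with
    | zero => rw [hS0]; exact (hstep 0 ∅).1 (Finset.mem_insert_self _ _)
    | succ k => rw [hSs]; exact (hstep (k + 1) (S k)).1 (Finset.mem_insert_self _ _)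
  · intro n
    cases n with
    | zero => rw [hS0]; exact (hstep 0 ∅).2
    | succ k => rw [hSs]; exact (hstep (k + 1) (S k)).2

end Crest.Agent.R168
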