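/-
Row 168 part G2, task GK (the FUSF cylinder masses form a consistent family with (N1), (N2)).  One owner; keep the statements.
All proofs: take an exhaustion (`exists_exhaustion`), write the property for `c_n I J = treeMass G (S n) I J / treeMass G (S n) ∅ ∅`
(divide the un-normalised property of `treeMass G (S n)` by `Z_n` resp. `Z_n^2`, `Z_n = treeMass G (S n) ∅ ∅ > 0`) and pass to the limit
(`tendsto_treeMass_div`, `le_of_tendsto_of_tendsto'`, `tendsto_nhds_unique`, `Tendsto.mul`, `tendsto_finset_sum`).
-/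
import Crest.Agent.R168_FusfLim

set_option autoImplicit false
open Finset Filter Topology Crest.ProbabilityR.SpanningTrees

namespace Crest.Agent.R168
variable {V : Type*} [DecidableEq V] [Countable V]

theorem cylFam_fusfM (G : SimpleGraph V) (hG : G.Connected) : CylFam (fusfM G) := by
  obtain ⟨S, hS⟩ := exists_exhaustion G hG
  have hZ : ∀ n, 0 < treeMass G (S n) ∅ ∅ := fun n => treeMass_pos G (S n) (hS.conn n)
  refine ⟨fun I J => ?_, fun I J g => ?_⟩
  · exact ge_of_tendsto' (tendsto_treeMass_div hS I J)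
      (fun n => div_nonneg ((cylFam_treeMass G (S n)).nonneg I J) (hZ n).le)
  · refine tendsto_nhds_unique (tendsto_treeMass_div hS I J) ?_
    refine ((tendsto_treeMass_div hS (insert g I) J).add
      (tendsto_treeMass_div hS I (insert g J))).congr (fun n => ?_)
    rw [← add_div, ← (cylFam_treeMass G (S n)).split I J g]

theorem fusfM_empty (G : SimpleGraph V) (hG : G.Connected) : fusfM G ∅ ∅ = 1 := by
  obtain ⟨S, hS⟩ := exists_exhaustion G hG
  have hZ : ∀ n, 0 < treeMass G (S n) ∅ ∅ := fun n => treeMass_pos G (S n) (hS.conn n)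
  refine tendsto_nhds_unique (tendsto_treeMass_div hS ∅ ∅) ?_
  exact tendsto_const_nhds.congr (fun n => (div_self (hZ n).ne').symm)

theorem fusfM_left (G : SimpleGraph V) (F : Finset (Sym2 V)) : fusfM G F ∅ = fusfQ G F := by
  simp [fusfM]

theorem fusfM_N1 (G : SimpleGraph V) (hG : G.Connected) : MassN1 (fusfM G) := by
  obtain ⟨S, hS⟩ := exists_exhaustion G hG
  have hZ : ∀ n, 0 < treeMass G (S n) ∅ ∅ := fun n => treeMass_pos G (S n) (hS.conn n)
  intro I J hIJ h g hhg hhI hhJ hgI hgJ
  refine le_of_tendsto_of_tendsto'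
    ((tendsto_treeMass_div hS (insert h (insert g I)) J).mul (tendsto_treeMass_div hS I J))
    ((tendsto_treeMass_div hS (insert h I) J).mul (tendsto_treeMass_div hS (insert g I) J))
    (fun n => ?_)
  have key := treeMass_N1 G (S n) (hS.conn n) I J hIJ h g hhg hhI hhJ hgI hgJ
  rw [div_mul_div_comm, div_mul_div_comm]
  exact div_le_div_of_nonneg_right key (mul_pos (hZ n) (hZ n)).le

theorem fusfM_N2 (G : SimpleGraph V) (hG : G.Connected) : MassN2 (fusfM G) := by
  obtain ⟨S, hS⟩ := exists_exhaustion G hG
  have hZ : ∀ n, 0 < treeMass G (S n) ∅ ∅ := fun n => treeMass_pos G (S n) (hS.conn n)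
  intro I J hIJ h hhI hhJ R hhR hRI hRJ
  have t : ∀ I' J', Tendsto (fun n => treeMass G (S n) I' J' / treeMass G (S n) ∅ ∅) atTop
      (𝓝 (fusfM G I' J')) := fun I' J' => tendsto_treeMass_div hS I' J'
  refine le_of_tendsto_of_tendsto'
    (tendsto_finsetSum R (fun g _ =>
      ((t (insert h I) J).mul (t (insert g I) J)).sub ((t I J).mul (t (insert h (insert g I)) J))))
    ((t (insert h I) J).mul ((t I J).sub (t (insert h I) J)))
    (fun n => ?_)
  have key := treeMass_N2 G (S n) (hS.conn n) I J hIJ h hhI hhJ R hhR hRI hRJ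
  set Z := treeMass G (S n) ∅ ∅ with hZdef
  have hZn : 0 < Z := hZ n
  have e1 : ∑ g ∈ R, (treeMass G (S n) (insert h I) J / Z * (treeMass G (S n) (insert g I) J / Z) -
      treeMass G (S n) I J / Z * (treeMass G (S n) (insert h (insert g I)) J / Z)) =
      (∑ g ∈ R, (treeMass G (S n) (insert h I) J * treeMass G (S n) (insert g I) J -
      treeMass G (S n) I J * treeMass G (S n) (insert h (insert g I)) J)) / (Z * Z) := by
    rw [Finset.sum_div]
    refine Finset.sum_congr rfl (fun g _ => ?_)
    rw [div_mul_div_comm, div_mul_div_comm, sub_div]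
  have e2 : treeMass G (S n) (insert h I) J / Z *
      (treeMass G (S n) I J / Z - treeMass G (S n) (insert h I) J / Z) =
      (treeMass G (S n) (insert h I) J *
      (treeMass G (S n) I J - treeMass G (S n) (insert h I) J)) / (Z * Z) := by
    rw [← sub_div, div_mul_div_comm]
  rw [e1, e2]
  exact div_le_div_of_nonneg_right key (mul_pos hZn hZn).le

/-- a pair that is not an edge of `G` is never occupied -/
theorem fusfM_eq_zero_of_not_edge (G : SimpleGraph V) {I : Finset (Sym2 V)} (J : Finset (Sym2 V))
    (h : ¬ (I : Set (Sym2 V)) ⊆ G.edgeSet) : fusfM G I J = 0 := by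
  unfold fusfM
  refine Finset.sum_eq_zero (fun K _ => ?_)
  have : ¬ ((I ∪ K : Finset (Sym2 V)) : Set (Sym2 V)) ⊆ G.edgeSet := by
    intro hsub
    apply h
    intro e he
    apply hsub
    simp only [Finset.coe_union, Set.mem_union]
    exact Or.inl he
  rw [fusfQ_eq_zero this, mul_zero]

end Crest.Agent.R168
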