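/-
Row 168 part G2, task GM (measurability in the adjacency table).  One owner; keep the statements.
-/
import Crest.Agent.R168_MassDefs
import Crest.Agent.R168_TreeChar
import Crest.Prelude.Def_GraphTables

set_option autoImplicit false
open Finset MeasureTheory Crest.ProbabilityR.SpanningTrees Crest.ProbabilityR.GraphTables

namespace Crest.Agent.R168

private theorem gm_measurableSet_entry (i j : ℕ) : MeasurableSet {A : ℕ → ℕ → Bool | A i j = true} := by
  have h : Measurable (fun A : ℕ → ℕ → Bool => A i j) :=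
    (measurable_pi_apply j).comp (measurable_pi_apply i)
  exact h (measurableSet_singleton true)

theorem measurableSet_adj (i j : ℕ) : MeasurableSet {A : ℕ → ℕ → Bool | (graphOfTable A).Adj i j} := by
  have : {A : ℕ → ℕ → Bool | (graphOfTable A).Adj i j}
      = {A | i ≠ j} ∩ ({A | A i j = true} ∪ {A | A j i = true}) := by
    ext A
    simp [graphOfTable, SimpleGraph.fromRel_adj]
  rw [this]
  exact (MeasurableSet.const _).inter ((gm_measurableSet_entry i j).union (gm_measurableSet_entry j i))

theorem measurableSet_mem_edgeSet (e : Sym2 ℕ) : MeasurableSet {A : ℕ → ℕ → Bool | e ∈ (graphOfTable A).edgeSet} := by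
  induction e using Sym2.ind with
  | _ a b =>
    simp only [SimpleGraph.mem_edgeSet]
    exact measurableSet_adj a b

/-- the finite set `edgesIn (graphOfTable A) S` takes countably many values, each on a measurable set
(finite intersection over `e ∈ S.sym2` of `{A | e ∈ edgeSet ↔ e ∈ E₀}`) -/
theorem measurableSet_edgesIn_eq (S : Finset ℕ) (E₀ : Finset (Sym2 ℕ)) :
    MeasurableSet {A : ℕ → ℕ → Bool | edgesIn (graphOfTable A) S = E₀} := by
  have : {A : ℕ → ℕ → Bool | edgesIn (graphOfTable A) S = E₀}
      = ⋂ e : Sym2 ℕ, {A | (e ∈ S.sym2 ∧ e ∈ (graphOfTable A).edgeSet) ↔ e ∈ E₀} := by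
    ext A
    simp only [Set.mem_ofPred_eq, Set.mem_iInter, Finset.ext_iff, mem_edgesIn_iff]
  rw [this]
  refine MeasurableSet.iInter fun e => ?_
  by_cases h1 : e ∈ S.sym2 <;> by_cases h2 : e ∈ E₀
  · simp only [h1, h2, true_and, iff_true]
    exact measurableSet_mem_edgeSet e
  · simp only [h1, h2, true_and, iff_false]
    exact (measurableSet_mem_edgeSet e).compl
  · simp only [h1, h2, false_and]
    exact MeasurableSet.const _
  · simp only [h1, h2, false_and]
    exact MeasurableSet.const _

/-- everything about the piece depends on `G` only through `edgesIn G S` -/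
theorem ustContains_congr {V : Type*} {G G' : SimpleGraph V} {S : Finset V} (h : edgesIn G S = edgesIn G' S)
    (F : Finset (Sym2 V)) : ustContains G S F = ustContains G' S F := by
  have hT : ∀ A, IsSpanningTreeOn G S A ↔ IsSpanningTreeOn G' S A := by
    intro A
    unfold IsSpanningTreeOn
    rw [h]
  unfold ustContains
  rw [h]
  congr 3
  · ext A
    simp only [Finset.mem_filter, hT]
  · ext A
    simp only [Finset.mem_filter, hT]

/-- via `pieceGraph_edgesIn` -/
theorem induce_connected_congr {V : Type*} {G G' : SimpleGraph V} {S : Finset V} (h : edgesIn G S = edgesIn G' S) :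
    (G.induce (S : Set V)).Connected ↔ (G'.induce (S : Set V)).Connected := by
  rw [← pieceGraph_edgesIn G S, ← pieceGraph_edgesIn G' S, h]

/-- any function of `edgesIn (graphOfTable A) S` is measurable (target with any σ-algebra): the preimage of a set is the countable
union of the sets `measurableSet_edgesIn_eq` over the values `E₀ ∈ S.sym2.powerset`. -/
theorem measurable_of_edgesIn {β : Type*} [MeasurableSpace β] (S : Finset ℕ) (f : Finset (Sym2 ℕ) → β) :
    Measurable (fun A : ℕ → ℕ → Bool => f (edgesIn (graphOfTable A) S)) := by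
  let _ : MeasurableSpace (Finset (Sym2 ℕ)) := ⊤
  have h1 : Measurable (fun A : ℕ → ℕ → Bool => edgesIn (graphOfTable A) S) :=
    measurable_to_countable' fun E₀ => measurableSet_edgesIn_eq S E₀
  have h2 : Measurable f := measurable_from_top
  exact h2.comp h1

private theorem gm_edgesIn_fromEdgeSet {V : Type*} (G : SimpleGraph V) (S : Finset V) :
    edgesIn (SimpleGraph.fromEdgeSet ((edgesIn G S : Finset (Sym2 V)) : Set (Sym2 V))) S = edgesIn G S := by
  ext e
  rw [mem_edgesIn_iff, SimpleGraph.edgeSet_fromEdgeSet]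
  constructor
  · rintro ⟨-, h, -⟩
    exact h
  · intro h
    have h' := (mem_edgesIn_iff G S e).1 h
    exact ⟨h'.1, h, fun hd => G.not_isDiag_of_mem_edgeSet h'.2 hd⟩

private theorem gm_ustContains_eq {V : Type*} (G : SimpleGraph V) (S : Finset V) (F : Finset (Sym2 V)) :
    ustContains G S F
      = ustContains (SimpleGraph.fromEdgeSet ((edgesIn G S : Finset (Sym2 V)) : Set (Sym2 V))) S F :=
  ustContains_congr (gm_edgesIn_fromEdgeSet G S).symm F

theorem measurable_ustContains (S : Finset ℕ) (F : Finset (Sym2 ℕ)) :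
    Measurable (fun A : ℕ → ℕ → Bool => ustContains (graphOfTable A) S F) := by
  have := measurable_of_edgesIn S
    (fun E : Finset (Sym2 ℕ) => ustContains (SimpleGraph.fromEdgeSet (E : Set (Sym2 ℕ))) S F)
  simpa only [← gm_ustContains_eq] using this

theorem measurableSet_induce_connected (S : Finset ℕ) :
    MeasurableSet {A : ℕ → ℕ → Bool | ((graphOfTable A).induce (S : Set ℕ)).Connected} := by
  have := measurable_of_edgesIn S (fun E : Finset (Sym2 ℕ) => (pieceGraph S E).Connected)
  simp only [pieceGraph_edgesIn] at this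
  exact measurableSet_setOfPred.2 this

private theorem gm_ust_nonneg {V : Type*} (G : SimpleGraph V) (S : Finset V) (F : Finset (Sym2 V)) :
    0 ≤ ustContains G S F := by
  unfold ustContains
  positivity

private theorem gm_ust_le_one {V : Type*} (G : SimpleGraph V) (S : Finset V) (F : Finset (Sym2 V)) :
    ustContains G S F ≤ 1 := by
  unfold ustContains
  apply div_le_one_of_le₀ _ (by positivity)
  norm_cast
  apply Finset.card_le_card
  intro A hA
  simp only [Finset.mem_filter] at hA ⊢
  exact ⟨hA.1, hA.2.1⟩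

open Classical in
private theorem gm_fusfQ_eq (G : SimpleGraph ℕ) (F : Finset (Sym2 ℕ)) :
    fusfQ G F = if (∃ S : Finset ℕ, (G.induce (S : Set ℕ)).Connected ∧ F ⊆ edgesIn G S) then
      ⨅ S : Finset ℕ, (if (G.induce (S : Set ℕ)).Connected ∧ F ⊆ edgesIn G S then ustContains G S F else 1)
      else 0 := by
  unfold fusfQ
  split_ifs with hex
  · obtain ⟨S₀, hS₀⟩ := hex
    have : Nonempty {S : Finset ℕ // (G.induce (S : Set ℕ)).Connected ∧ F ⊆ edgesIn G S} := ⟨⟨S₀, hS₀⟩⟩
    have hb1 : BddBelow (Set.range fun S : {S : Finset ℕ // (G.induce (S : Set ℕ)).Connected ∧ F ⊆ edgesIn G S} =>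
        ustContains G S.1 F) := ⟨0, by rintro _ ⟨S, rfl⟩; exact gm_ust_nonneg _ _ _⟩
    have hb2 : BddBelow (Set.range fun S : Finset ℕ =>
        (if (G.induce (S : Set ℕ)).Connected ∧ F ⊆ edgesIn G S then ustContains G S F else 1)) := by
      refine ⟨0, ?_⟩
      rintro _ ⟨S, rfl⟩
      dsimp only
      split_ifs
      · exact gm_ust_nonneg _ _ _
      · exact zero_le_one
    apply le_antisymm
    · refine le_ciInf fun S => ?_
      by_cases hS : (G.induce (S : Set ℕ)).Connected ∧ F ⊆ edgesIn G S
      · rw [if_pos hS]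
        exact ciInf_le hb1 ⟨S, hS⟩
      · rw [if_neg hS]
        exact (ciInf_le hb1 ⟨S₀, hS₀⟩).trans (gm_ust_le_one _ _ _)
    · refine le_ciInf fun S => ?_
      refine (ciInf_le hb2 S.1).trans ?_
      rw [if_pos S.2]
  · have : IsEmpty {S : Finset ℕ // (G.induce (S : Set ℕ)).Connected ∧ F ⊆ edgesIn G S} :=
      ⟨fun S => hex ⟨S.1, S.2⟩⟩
    exact Real.iInf_of_isEmpty _

/-- GM main.  With `good G S := (G.induce S).Connected ∧ F ⊆ edgesIn G S` and
`φ S G := if good G S then ustContains G S F else 1` one has (using `0 ≤ ustContains ≤ 1`; prove these two bounds privately by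
`div_nonneg`, `div_le_one_of_le₀` + `Finset.card_le_card`):
`fusfQ G F = if ∃ S, good G S then ⨅ S : Finset ℕ, φ S G else 0`.
`Finset ℕ` is countable: `Measurable.iInf` (`measurable_iInf`), `Measurable.ite`, `MeasurableSet.iUnion`. -/
theorem measurable_fusfQ (F : Finset (Sym2 ℕ)) :
    Measurable (fun A : ℕ → ℕ → Bool => fusfQ (graphOfTable A) F) := by
  classical
  have hgood : ∀ S : Finset ℕ, MeasurableSet {A : ℕ → ℕ → Bool |
      ((graphOfTable A).induce (S : Set ℕ)).Connected ∧ F ⊆ edgesIn (graphOfTable A) S} := by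
    intro S
    have h2 := measurable_of_edgesIn S (fun E : Finset (Sym2 ℕ) => F ⊆ E)
    exact (measurableSet_induce_connected S).inter (measurableSet_setOfPred.2 h2)
  simp only [gm_fusfQ_eq]
  refine Measurable.ite ?_ ?_ measurable_const
  · have : {A : ℕ → ℕ → Bool | ∃ S : Finset ℕ,
        ((graphOfTable A).induce (S : Set ℕ)).Connected ∧ F ⊆ edgesIn (graphOfTable A) S}
        = ⋃ S : Finset ℕ, {A : ℕ → ℕ → Bool |
          ((graphOfTable A).induce (S : Set ℕ)).Connected ∧ F ⊆ edgesIn (graphOfTable A) S} := by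
      ext A
      simp
    rw [this]
    exact MeasurableSet.iUnion hgood
  · refine Measurable.iInf fun S => ?_
    exact Measurable.ite (hgood S) (measurable_ustContains S F) measurable_const

theorem measurable_fusfM (I J : Finset (Sym2 ℕ)) :
    Measurable (fun A : ℕ → ℕ → Bool => fusfM (graphOfTable A) I J) := by
  unfold fusfM
  refine Finset.measurable_fun_sum _ fun K _ => ?_
  exact (measurable_fusfQ (I ∪ K)).const_mul _

private theorem gm_connected_iff (G : SimpleGraph ℕ) :
    G.Connected ↔ ∀ i j : ℕ, ∃ S : Finset ℕ, i ∈ S ∧ j ∈ S ∧ (G.induce (S : Set ℕ)).Connected := by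
  constructor
  · intro h i j
    obtain ⟨t', ht, hc⟩ := SimpleGraph.extend_finset_to_connected h.preconnected (t := {i, j}) (by simp)
    exact ⟨t', ht (by simp), ht (by simp), hc⟩
  · intro h
    refine SimpleGraph.Connected.mk ?_
    intro i j
    obtain ⟨S, hi, hj, hc⟩ := h i j
    have := hc.preconnected ⟨i, hi⟩ ⟨j, hj⟩
    exact this.map (SimpleGraph.Embedding.induce (S : Set ℕ)).toHom

/-- `Connected ↔ ∀ i j, ∃ S : Finset ℕ, i ∈ S ∧ j ∈ S ∧ (G.induce S).Connected`
(⟸: `Reachable.map` along `SimpleGraph.Embedding.induce`/`induceHomOfLE`; ⟹: `SimpleGraph.extend_finset_to_connected` applied to `{i,j}`),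
a countable combination of `measurableSet_induce_connected`. -/
theorem measurableSet_connected : MeasurableSet {A : ℕ → ℕ → Bool | (graphOfTable A).Connected} := by
  have : {A : ℕ → ℕ → Bool | (graphOfTable A).Connected}
      = ⋂ i : ℕ, ⋂ j : ℕ, ⋃ S : Finset ℕ, ({A | i ∈ S ∧ j ∈ S} ∩
          {A : ℕ → ℕ → Bool | ((graphOfTable A).induce (S : Set ℕ)).Connected}) := by
    ext A
    simp only [Set.mem_ofPred_eq, Set.mem_iInter, Set.mem_iUnion, Set.mem_inter_iff, gm_connected_iff, and_assoc]
  rw [this]
  exact MeasurableSet.iInter fun i => MeasurableSet.iInter fun j => MeasurableSet.iUnion fun S =>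
    (MeasurableSet.const _).inter (measurableSet_induce_connected S)

/-- `(neighborSet v).Finite ↔ ∃ N, ∀ j ≥ N, ¬ Adj v j` -/
theorem measurableSet_locallyFinite :
    MeasurableSet {A : ℕ → ℕ → Bool | ∀ v : ℕ, ((graphOfTable A).neighborSet v).Finite} := by
  have : {A : ℕ → ℕ → Bool | ∀ v : ℕ, ((graphOfTable A).neighborSet v).Finite}
      = ⋂ v : ℕ, ⋃ N : ℕ, ⋂ j : ℕ, ({A : ℕ → ℕ → Bool | (graphOfTable A).Adj v j}ᶜ ∪ {A | j ≤ N}) := by
    ext A
    simp only [Set.mem_ofPred_eq, Set.mem_iInter, Set.mem_iUnion, Set.mem_union, Set.mem_compl_iff,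
      Set.finite_iff_bddAbove, bddAbove_def, SimpleGraph.mem_neighborSet]
    refine forall_congr' fun v => exists_congr fun N => forall_congr' fun j => ?_
    tauto
  rw [this]
  exact MeasurableSet.iInter fun v => MeasurableSet.iUnion fun N => MeasurableSet.iInter fun j =>
    (measurableSet_adj v j).compl.union (MeasurableSet.const _)

end Crest.Agent.R168
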