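/-
Row 168 (S0254/S0255) team project, part H (coordinator helper93), GRAPH SIDE (helper1).

* `eballSet G e n` / `eball G e n`: edges of `G` within line-graph distance `n` of `e`.
* `Good G`: connected and locally finite.
* naturality under `G.comap σ`, measurability in the adjacency table, invariance of the label measure under
  permutations, and the toolkit "depends on finitely many table entries ⇒ measurable".
-/
import Mathlib
import Crest.Prelude.Def_Labels
import Crest.Prelude.Def_GraphTables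

set_option autoImplicit false

open MeasureTheory
open Crest.ProbabilityR.GraphTables Crest.ProbabilityR.Labels

namespace Crest.Agent.R168.H

/-! ## Edge balls -/

/-- Edges of `G` at line-graph distance `≤ n` from `e` (empty if `e` is not an edge of `G`). -/
def eballSet (G : SimpleGraph ℕ) (e : Sym2 ℕ) : ℕ → Set (Sym2 ℕ)
  | 0 => {f | f = e ∧ f ∈ G.edgeSet}
  | n + 1 => {f | f ∈ G.edgeSet ∧ ∃ g ∈ eballSet G e n, ∃ v, v ∈ f ∧ v ∈ g}

/-- The edge ball as a finset (`∅` if the set is infinite). -/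
noncomputable def eball (G : SimpleGraph ℕ) (e : Sym2 ℕ) (n : ℕ) : Finset (Sym2 ℕ) :=
  haveI := Classical.dec (eballSet G e n).Finite
  if h : (eballSet G e n).Finite then h.toFinset else ∅

/-- connected and locally finite -/
def Good (G : SimpleGraph ℕ) : Prop := G.Connected ∧ ∀ v : ℕ, (G.neighborSet v).Finite

theorem eballSet_zero (G : SimpleGraph ℕ) (e : Sym2 ℕ) :
    eballSet G e 0 = {f | f = e ∧ f ∈ G.edgeSet} := rfl

theorem eballSet_succ (G : SimpleGraph ℕ) (e : Sym2 ℕ) (n : ℕ) :
    eballSet G e (n + 1) = {f | f ∈ G.edgeSet ∧ ∃ g ∈ eballSet G e n, ∃ v, v ∈ f ∧ v ∈ g} := rfl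

theorem eballSet_subset_edgeSet (G : SimpleGraph ℕ) (e : Sym2 ℕ) (n : ℕ) :
    eballSet G e n ⊆ G.edgeSet := by
  cases n with
  | zero => exact fun f hf => hf.2
  | succ n => exact fun f hf => hf.1

theorem eballSet_subset_succ (G : SimpleGraph ℕ) (e : Sym2 ℕ) (n : ℕ) :
    eballSet G e n ⊆ eballSet G e (n + 1) := by
  intro f hf
  refine ⟨eballSet_subset_edgeSet G e n hf, f, hf, ?_⟩
  induction f using Sym2.ind with
  | _ a b => exact ⟨a, Sym2.mem_mk_left a b, Sym2.mem_mk_left a b⟩

theorem eballSet_mono (G : SimpleGraph ℕ) (e : Sym2 ℕ) : Monotone (eballSet G e) :=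
  monotone_nat_of_le_succ (eballSet_subset_succ G e)

theorem self_mem_eballSet {G : SimpleGraph ℕ} {e : Sym2 ℕ} (he : e ∈ G.edgeSet) (n : ℕ) :
    e ∈ eballSet G e n :=
  eballSet_mono G e (Nat.zero_le n) ⟨rfl, he⟩

theorem eballSet_finite {G : SimpleGraph ℕ} (hlf : ∀ v : ℕ, (G.neighborSet v).Finite) (e : Sym2 ℕ)
    (n : ℕ) : (eballSet G e n).Finite := by
  induction n with
  | zero => exact (Set.finite_singleton e).subset fun f hf => hf.1
  | succ n ih =>
    have hfin : (⋃ g ∈ eballSet G e n, ⋃ v ∈ {v | v ∈ g},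
        (fun w => s(v, w)) '' G.neighborSet v).Finite := by
      refine ih.biUnion fun g _ => ?_
      have hg : {v | v ∈ g}.Finite := by
        induction g using Sym2.ind with
        | _ a b =>
          refine (Set.toFinite ({a, b} : Set ℕ)).subset fun v hv => ?_
          simpa using hv
      exact hg.biUnion fun v _ => (hlf v).image _
    refine hfin.subset ?_
    rintro f ⟨hf, g, hg, v, hvf, hvg⟩
    simp only [Set.mem_iUnion]
    refine ⟨g, hg, v, hvg, ?_⟩
    obtain ⟨w, rfl⟩ := Sym2.mem_iff_exists.mp hvf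
    exact ⟨w, by simpa using hf, rfl⟩

theorem mem_eball {G : SimpleGraph ℕ} (hlf : ∀ v : ℕ, (G.neighborSet v).Finite) {e f : Sym2 ℕ}
    {n : ℕ} : f ∈ eball G e n ↔ f ∈ eballSet G e n := by
  unfold eball
  rw [dif_pos (eballSet_finite hlf e n)]
  simp

theorem coe_eball {G : SimpleGraph ℕ} (hlf : ∀ v : ℕ, (G.neighborSet v).Finite) (e : Sym2 ℕ)
    (n : ℕ) : (eball G e n : Set (Sym2 ℕ)) = eballSet G e n := by
  ext f
  exact mem_eball hlf

theorem eball_subset_edgeSet (G : SimpleGraph ℕ) (e : Sym2 ℕ) (n : ℕ) :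
    (eball G e n : Set (Sym2 ℕ)) ⊆ G.edgeSet := by
  unfold eball
  split_ifs with h
  · intro f hf
    exact eballSet_subset_edgeSet G e n (by simpa using hf)
  · simp

theorem eball_mono {G : SimpleGraph ℕ} (hlf : ∀ v : ℕ, (G.neighborSet v).Finite) (e : Sym2 ℕ) :
    Monotone (eball G e) := by
  intro m n hmn f hf
  exact (mem_eball hlf).2 (eballSet_mono G e hmn ((mem_eball hlf).1 hf))

theorem self_mem_eball {G : SimpleGraph ℕ} (hlf : ∀ v : ℕ, (G.neighborSet v).Finite) {e : Sym2 ℕ}
    (he : e ∈ G.edgeSet) (n : ℕ) : e ∈ eball G e n :=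
  (mem_eball hlf).2 (self_mem_eballSet he n)

/-- auxiliary: all edges at a vertex reachable from a vertex of `e` are in some ball -/
private theorem exists_ball_of_reachable {G : SimpleGraph ℕ} {e : Sym2 ℕ} (he : e ∈ G.edgeSet)
    {a x : ℕ} (ha : a ∈ e) (h : G.Reachable a x) :
    ∃ n, ∀ f ∈ G.edgeSet, x ∈ f → f ∈ eballSet G e n := by
  rw [SimpleGraph.reachable_iff_reflTransGen] at h
  induction h with
  | refl => exact ⟨1, fun f hf hx => ⟨hf, e, ⟨rfl, he⟩, a, hx, ha⟩⟩
  | @tail y x _ hyx ih =>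
    obtain ⟨n, hn⟩ := ih
    refine ⟨n + 1, fun f hf hx => ⟨hf, s(y, x), hn _ hyx (Sym2.mem_mk_left y x), x, hx,
      Sym2.mem_mk_right y x⟩⟩

theorem exists_mem_eballSet {G : SimpleGraph ℕ} (hG : G.Connected) {e f : Sym2 ℕ}
    (he : e ∈ G.edgeSet) (hf : f ∈ G.edgeSet) : ∃ n, f ∈ eballSet G e n := by
  obtain ⟨a, ha⟩ : ∃ a, a ∈ e := by
    induction e using Sym2.ind with
    | _ a b => exact ⟨a, Sym2.mem_mk_left a b⟩
  obtain ⟨x, hx⟩ : ∃ x, x ∈ f := by
    induction f using Sym2.ind with
    | _ a b => exact ⟨a, Sym2.mem_mk_left a b⟩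
  obtain ⟨n, hn⟩ := exists_ball_of_reachable he ha (hG.preconnected a x)
  exact ⟨n, hn f hf hx⟩

theorem exists_mem_eball {G : SimpleGraph ℕ} (hG : Good G) {e f : Sym2 ℕ}
    (he : e ∈ G.edgeSet) (hf : f ∈ G.edgeSet) : ∃ n, f ∈ eball G e n := by
  obtain ⟨n, hn⟩ := exists_mem_eballSet hG.1 he hf
  exact ⟨n, (mem_eball hG.2).2 hn⟩

/-- every finite set of edges is contained in a ball -/
theorem exists_subset_eball {G : SimpleGraph ℕ} (hG : Good G) {e : Sym2 ℕ} (he : e ∈ G.edgeSet)
    (W : Finset (Sym2 ℕ)) (hW : (W : Set (Sym2 ℕ)) ⊆ G.edgeSet) : ∃ n, W ⊆ eball G e n := by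
  classical
  induction W using Finset.induction_on with
  | empty => exact ⟨0, by simp⟩
  | insert f W _ ih =>
    obtain ⟨n, hn⟩ := ih (fun g hg => hW (by simp [Finset.mem_coe.1 hg]))
    obtain ⟨m, hm⟩ := exists_mem_eball hG he (hW (by simp) : f ∈ G.edgeSet)
    refine ⟨max n m, ?_⟩
    intro g hg
    rcases Finset.mem_insert.1 hg with rfl | hg
    · exact eball_mono hG.2 e (le_max_right n m) hm
    · exact eball_mono hG.2 e (le_max_left n m) (hn hg)

/-! ## Naturality under relabelling -/

theorem mem_edgeSet_comap (σ : Equiv.Perm ℕ) (G : SimpleGraph ℕ) (f : Sym2 ℕ) :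
    f ∈ (G.comap ⇑σ).edgeSet ↔ Sym2.map ⇑σ f ∈ G.edgeSet := by
  induction f using Sym2.ind with
  | _ a b => simp

theorem sym2_map_injective (σ : Equiv.Perm ℕ) : Function.Injective (Sym2.map ⇑σ) :=
  Sym2.map.injective σ.injective

theorem sym2_map_symm_map (σ : Equiv.Perm ℕ) (f : Sym2 ℕ) :
    Sym2.map ⇑σ.symm (Sym2.map ⇑σ f) = f := by
  rw [Sym2.map_map]
  simp

theorem sym2_map_map_symm (σ : Equiv.Perm ℕ) (f : Sym2 ℕ) :
    Sym2.map ⇑σ (Sym2.map ⇑σ.symm f) = f := by
  rw [Sym2.map_map]
  simp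

theorem mem_eballSet_comap (σ : Equiv.Perm ℕ) (G : SimpleGraph ℕ) (e f : Sym2 ℕ) (n : ℕ) :
    f ∈ eballSet (G.comap ⇑σ) e n ↔ Sym2.map ⇑σ f ∈ eballSet G (Sym2.map ⇑σ e) n := by
  induction n generalizing f with
  | zero =>
    simp only [eballSet_zero, Set.mem_ofPred_eq, mem_edgeSet_comap, (sym2_map_injective σ).eq_iff]
  | succ n ih =>
    simp only [eballSet_succ, Set.mem_ofPred_eq, mem_edgeSet_comap]
    refine and_congr_right fun _ => ⟨?_, ?_⟩
    · rintro ⟨g, hg, v, hvf, hvg⟩
      exact ⟨Sym2.map ⇑σ g, (ih g).1 hg, σ v, Sym2.mem_map.2 ⟨v, hvf, rfl⟩,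
        Sym2.mem_map.2 ⟨v, hvg, rfl⟩⟩
    · rintro ⟨g, hg, v, hvf, hvg⟩
      refine ⟨Sym2.map ⇑σ.symm g, (ih _).2 (by rwa [sym2_map_map_symm]), σ.symm v, ?_,
        Sym2.mem_map.2 ⟨v, hvg, rfl⟩⟩
      obtain ⟨w, hw, rfl⟩ := Sym2.mem_map.1 hvf
      simpa using hw

theorem eballSet_comap (σ : Equiv.Perm ℕ) (G : SimpleGraph ℕ) (e : Sym2 ℕ) (n : ℕ) :
    eballSet (G.comap ⇑σ) e n = Sym2.map ⇑σ ⁻¹' eballSet G (Sym2.map ⇑σ e) n := by
  ext f
  exact mem_eballSet_comap σ G e f n

theorem eballSet_comap_finite_iff (σ : Equiv.Perm ℕ) (G : SimpleGraph ℕ) (e : Sym2 ℕ) (n : ℕ) :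
    (eballSet (G.comap ⇑σ) e n).Finite ↔ (eballSet G (Sym2.map ⇑σ e) n).Finite := by
  rw [eballSet_comap]
  constructor
  · intro h
    refine (h.image (Sym2.map ⇑σ)).subset fun f hf => ⟨Sym2.map ⇑σ.symm f, ?_, sym2_map_map_symm σ f⟩
    simpa [sym2_map_map_symm] using hf
  · intro h
    exact h.preimage (sym2_map_injective σ).injOn

/-- naturality of the finset ball, valid for EVERY graph -/
theorem mem_eball_comap (σ : Equiv.Perm ℕ) (G : SimpleGraph ℕ) (e f : Sym2 ℕ) (n : ℕ) :
    f ∈ eball (G.comap ⇑σ) e n ↔ Sym2.map ⇑σ f ∈ eball G (Sym2.map ⇑σ e) n := by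
  unfold eball
  by_cases h : (eballSet G (Sym2.map ⇑σ e) n).Finite
  · rw [dif_pos h, dif_pos ((eballSet_comap_finite_iff σ G e n).2 h)]
    simpa using mem_eballSet_comap σ G e f n
  · rw [dif_neg h, dif_neg (fun h' => h ((eballSet_comap_finite_iff σ G e n).1 h'))]
    simp

theorem eball_comap_image (σ : Equiv.Perm ℕ) (G : SimpleGraph ℕ) (e : Sym2 ℕ) (n : ℕ) :
    (eball (G.comap ⇑σ) e n).image (Sym2.map ⇑σ) = eball G (Sym2.map ⇑σ e) n := by
  ext f
  simp only [Finset.mem_image]
  constructor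
  · rintro ⟨g, hg, rfl⟩
    exact (mem_eball_comap σ G e g n).1 hg
  · intro hf
    exact ⟨Sym2.map ⇑σ.symm f, (mem_eball_comap σ G e _ n).2 (by rwa [sym2_map_map_symm]),
      sym2_map_map_symm σ f⟩

theorem eball_comap (σ : Equiv.Perm ℕ) (G : SimpleGraph ℕ) (e : Sym2 ℕ) (n : ℕ) :
    eball (G.comap ⇑σ) e n = (eball G (Sym2.map ⇑σ e) n).image (Sym2.map ⇑σ.symm) := by
  rw [← eball_comap_image, Finset.image_image]
  ext f
  simp [Function.comp_def, sym2_map_symm_map]

theorem neighborSet_comap (σ : Equiv.Perm ℕ) (G : SimpleGraph ℕ) (v : ℕ) :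
    (G.comap ⇑σ).neighborSet v = ⇑σ ⁻¹' G.neighborSet (σ v) := by
  ext w
  simp

theorem locFin_comap_iff (σ : Equiv.Perm ℕ) (G : SimpleGraph ℕ) :
    (∀ v : ℕ, ((G.comap ⇑σ).neighborSet v).Finite) ↔ ∀ v : ℕ, (G.neighborSet v).Finite := by
  constructor
  · intro h v
    have := h (σ.symm v)
    rw [neighborSet_comap, Equiv.apply_symm_apply] at this
    refine (this.image σ).subset fun w hw => ⟨σ.symm w, by simpa using hw, by simp⟩
  · intro h v
    rw [neighborSet_comap]
    exact (h (σ v)).preimage σ.injective.injOn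

theorem connected_comap_iff (σ : Equiv.Perm ℕ) (G : SimpleGraph ℕ) :
    (G.comap ⇑σ).Connected ↔ G.Connected :=
  (SimpleGraph.Iso.comap σ G).connected_iff

theorem good_comap_iff (σ : Equiv.Perm ℕ) (G : SimpleGraph ℕ) : Good (G.comap ⇑σ) ↔ Good G := by
  unfold Good
  rw [connected_comap_iff, locFin_comap_iff]

/-! ## Measurability in the adjacency table -/

theorem graphOfTable_adj (A : ℕ → ℕ → Bool) (i j : ℕ) :
    (graphOfTable A).Adj i j ↔ i ≠ j ∧ (A i j = true ∨ A j i = true) := by
  simp [graphOfTable, SimpleGraph.fromRel_adj]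

theorem measurableSet_entry (i j : ℕ) : MeasurableSet {A : ℕ → ℕ → Bool | A i j = true} := by
  have h : Measurable (fun A : ℕ → ℕ → Bool => A i j) :=
    (measurable_pi_apply j).comp (measurable_pi_apply i)
  exact h (measurableSet_singleton true)

theorem measurableSet_adj (i j : ℕ) :
    MeasurableSet {A : ℕ → ℕ → Bool | (graphOfTable A).Adj i j} := by
  have : {A : ℕ → ℕ → Bool | (graphOfTable A).Adj i j}
      = {_A | i ≠ j} ∩ ({A | A i j = true} ∪ {A | A j i = true}) := by
    ext A
    simp [graphOfTable_adj]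
  rw [this]
  exact (MeasurableSet.const _).inter ((measurableSet_entry i j).union (measurableSet_entry j i))

theorem measurableSet_mem_edgeSet (f : Sym2 ℕ) :
    MeasurableSet {A : ℕ → ℕ → Bool | f ∈ (graphOfTable A).edgeSet} := by
  induction f using Sym2.ind with
  | _ a b => simpa using measurableSet_adj a b

theorem measurableSet_mem_eballSet (e f : Sym2 ℕ) (n : ℕ) :
    MeasurableSet {A : ℕ → ℕ → Bool | f ∈ eballSet (graphOfTable A) e n} := by
  induction n generalizing f with
  | zero =>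
    have : {A : ℕ → ℕ → Bool | f ∈ eballSet (graphOfTable A) e 0}
        = {_A | f = e} ∩ {A | f ∈ (graphOfTable A).edgeSet} := by
      ext A
      simp [eballSet_zero]
    rw [this]
    exact (MeasurableSet.const _).inter (measurableSet_mem_edgeSet f)
  | succ n ih =>
    have : {A : ℕ → ℕ → Bool | f ∈ eballSet (graphOfTable A) e (n + 1)}
        = {A | f ∈ (graphOfTable A).edgeSet} ∩
          ⋃ g : Sym2 ℕ, ({A | g ∈ eballSet (graphOfTable A) e n} ∩ {_A | ∃ v, v ∈ f ∧ v ∈ g}) := by
      ext A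
      simp [eballSet_succ]
    rw [this]
    exact (measurableSet_mem_edgeSet f).inter
      (MeasurableSet.iUnion fun g => (ih g).inter (MeasurableSet.const _))

theorem measurableSet_eballSet_eq (e : Sym2 ℕ) (n : ℕ) (W : Finset (Sym2 ℕ)) :
    MeasurableSet {A : ℕ → ℕ → Bool | eballSet (graphOfTable A) e n = ↑W} := by
  have : {A : ℕ → ℕ → Bool | eballSet (graphOfTable A) e n = ↑W}
      = ⋂ f : Sym2 ℕ, {A | f ∈ eballSet (graphOfTable A) e n ↔ f ∈ W} := by
    ext A
    simp [Set.ext_iff]
  rw [this]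
  refine MeasurableSet.iInter fun f => ?_
  by_cases hf : f ∈ W
  · simpa [hf] using measurableSet_mem_eballSet e f n
  · have h2 : {A : ℕ → ℕ → Bool | f ∈ eballSet (graphOfTable A) e n ↔ f ∈ W}
        = {A | f ∈ eballSet (graphOfTable A) e n}ᶜ := by
      ext A
      simp [hf]
    rw [h2]
    exact (measurableSet_mem_eballSet e f n).compl

theorem measurableSet_eballSet_finite (e : Sym2 ℕ) (n : ℕ) :
    MeasurableSet {A : ℕ → ℕ → Bool | (eballSet (graphOfTable A) e n).Finite} := by
  have : {A : ℕ → ℕ → Bool | (eballSet (graphOfTable A) e n).Finite}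
      = ⋃ W : Finset (Sym2 ℕ), {A | eballSet (graphOfTable A) e n = ↑W} := by
    ext A
    simp only [Set.mem_ofPred_eq, Set.mem_iUnion]
    constructor
    · intro h
      exact ⟨h.toFinset, by simp⟩
    · rintro ⟨W, hW⟩
      rw [hW]
      exact W.finite_toSet
  rw [this]
  exact MeasurableSet.iUnion fun W => measurableSet_eballSet_eq e n W

theorem measurableSet_eball_eq (e : Sym2 ℕ) (n : ℕ) (W : Finset (Sym2 ℕ)) :
    MeasurableSet {A : ℕ → ℕ → Bool | eball (graphOfTable A) e n = W} := by
  have : {A : ℕ → ℕ → Bool | eball (graphOfTable A) e n = W}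
      = {A | eballSet (graphOfTable A) e n = ↑W} ∪
        ({A | (eballSet (graphOfTable A) e n).Finite}ᶜ ∩ {_A | W = ∅}) := by
    ext A
    simp only [Set.mem_ofPred_eq, Set.mem_union, Set.mem_inter_iff, Set.mem_compl_iff]
    unfold eball
    by_cases h : (eballSet (graphOfTable A) e n).Finite
    · rw [dif_pos h]
      constructor
      · intro hW
        left
        rw [← hW]
        simp
      · rintro (hW | ⟨h', -⟩)
        · apply Finset.coe_injective
          simpa using hW
        · exact absurd h h'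
    · rw [dif_neg h]
      constructor
      · intro hW
        exact Or.inr ⟨h, hW.symm⟩
      · rintro (hW | ⟨-, hW⟩)
        · exact absurd (hW ▸ W.finite_toSet) h
        · exact hW.symm
  rw [this]
  exact (measurableSet_eballSet_eq e n W).union
    ((measurableSet_eballSet_finite e n).compl.inter (MeasurableSet.const _))

theorem measurableSet_mem_eball (e f : Sym2 ℕ) (n : ℕ) :
    MeasurableSet {A : ℕ → ℕ → Bool | f ∈ eball (graphOfTable A) e n} := by
  have : {A : ℕ → ℕ → Bool | f ∈ eball (graphOfTable A) e n}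
      = ⋃ W : Finset (Sym2 ℕ), ({A | eball (graphOfTable A) e n = W} ∩ {_A | f ∈ W}) := by
    ext A
    simp
  rw [this]
  exact MeasurableSet.iUnion fun W => (measurableSet_eball_eq e n W).inter (MeasurableSet.const _)

/-- walks of length exactly `n` -/
private def reachN (G : SimpleGraph ℕ) : ℕ → ℕ → ℕ → Prop
  | 0, u, v => u = v
  | n + 1, u, v => ∃ w, G.Adj u w ∧ reachN G n w v

private theorem reachable_iff_reachN (G : SimpleGraph ℕ) (u v : ℕ) :
    G.Reachable u v ↔ ∃ n, reachN G n u v := by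
  constructor
  · rintro ⟨p⟩
    induction p with
    | nil => exact ⟨0, rfl⟩
    | cons h _ ih =>
      obtain ⟨n, hn⟩ := ih
      exact ⟨n + 1, _, h, hn⟩
  · rintro ⟨n, hn⟩
    induction n generalizing u with
    | zero => exact hn ▸ SimpleGraph.Reachable.refl _
    | succ n ih =>
      obtain ⟨w, hw, hn⟩ := hn
      exact hw.reachable.trans (ih w hn)

private theorem measurableSet_reachN (n u v : ℕ) :
    MeasurableSet {A : ℕ → ℕ → Bool | reachN (graphOfTable A) n u v} := by
  induction n generalizing u with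
  | zero => exact MeasurableSet.const _
  | succ n ih =>
    have : {A : ℕ → ℕ → Bool | reachN (graphOfTable A) (n + 1) u v}
        = ⋃ w : ℕ, ({A | (graphOfTable A).Adj u w} ∩ {A | reachN (graphOfTable A) n w v}) := by
      ext A
      simp [reachN]
    rw [this]
    exact MeasurableSet.iUnion fun w => (measurableSet_adj u w).inter (ih w)

theorem measurableSet_reachable (u v : ℕ) :
    MeasurableSet {A : ℕ → ℕ → Bool | (graphOfTable A).Reachable u v} := by
  have : {A : ℕ → ℕ → Bool | (graphOfTable A).Reachable u v}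
      = ⋃ n : ℕ, {A | reachN (graphOfTable A) n u v} := by
    ext A
    simp [reachable_iff_reachN]
  rw [this]
  exact MeasurableSet.iUnion fun n => measurableSet_reachN n u v

theorem measurableSet_connected :
    MeasurableSet {A : ℕ → ℕ → Bool | (graphOfTable A).Connected} := by
  have : {A : ℕ → ℕ → Bool | (graphOfTable A).Connected}
      = ⋂ u : ℕ, ⋂ v : ℕ, {A | (graphOfTable A).Reachable u v} := by
    ext A
    simp only [Set.mem_ofPred_eq, Set.mem_iInter]
    constructor
    · intro h u v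
      exact h.preconnected u v
    · intro h
      exact (SimpleGraph.connected_iff _).2 ⟨h, ⟨0⟩⟩
  rw [this]
  exact MeasurableSet.iInter fun u => MeasurableSet.iInter fun v => measurableSet_reachable u v

theorem measurableSet_locFin :
    MeasurableSet {A : ℕ → ℕ → Bool | ∀ v : ℕ, ((graphOfTable A).neighborSet v).Finite} := by
  have : {A : ℕ → ℕ → Bool | ∀ v : ℕ, ((graphOfTable A).neighborSet v).Finite}
      = ⋂ v : ℕ, ⋃ N : ℕ, ⋂ j : ℕ, ({A | (graphOfTable A).Adj v j}ᶜ ∪ {_A | j ≤ N}) := by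
    ext A
    simp only [Set.mem_ofPred_eq, Set.mem_iInter, Set.mem_iUnion, Set.mem_union,
      Set.mem_compl_iff]
    refine forall_congr' fun v => ?_
    rw [Set.finite_iff_bddAbove]
    constructor
    · rintro ⟨N, hN⟩
      refine ⟨N, fun j => ?_⟩
      by_cases hj : (graphOfTable A).Adj v j
      · exact Or.inr (hN hj)
      · exact Or.inl hj
    · rintro ⟨N, hN⟩
      refine ⟨N, fun j hj => ?_⟩
      rcases hN j with h | h
      · exact absurd hj h
      · exact h
  rw [this]
  exact MeasurableSet.iInter fun v => MeasurableSet.iUnion fun N => MeasurableSet.iInter fun j =>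
    (measurableSet_adj v j).compl.union (MeasurableSet.const _)

theorem measurableSet_good : MeasurableSet {A : ℕ → ℕ → Bool | Good (graphOfTable A)} :=
  measurableSet_connected.inter measurableSet_locFin

/-! ## Toolkit -/

/-- case distinction over a countably valued measurable "index" -/
theorem measurable_of_countable_cases {α β ι : Type*} [MeasurableSpace α] [MeasurableSpace β]
    [Countable ι] (c : α → ι) (hc : ∀ i, MeasurableSet (c ⁻¹' {i})) (F : ι → α → β)
    (hF : ∀ i, Measurable (F i)) : Measurable (fun a => F (c a) a) := by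
  intro B hB
  have : (fun a => F (c a) a) ⁻¹' B = ⋃ i, (c ⁻¹' {i} ∩ F i ⁻¹' B) := by
    ext a
    simp
  rw [this]
  exact MeasurableSet.iUnion fun i => (hc i).inter (hF i hB)

/-- plug the (table dependent) ball into a family of measurable maps -/
theorem measurable_comp_eball {Ω β : Type*} [MeasurableSpace Ω] [MeasurableSpace β] (e : Sym2 ℕ)
    (n : ℕ) (F : Finset (Sym2 ℕ) → (ℕ → ℕ → Bool) × Ω → β) (hF : ∀ W, Measurable (F W)) :
    Measurable (fun p : (ℕ → ℕ → Bool) × Ω => F (eball (graphOfTable p.1) e n) p) := by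
  refine measurable_of_countable_cases (fun p : (ℕ → ℕ → Bool) × Ω => eball (graphOfTable p.1) e n)
    (fun W => ?_) F hF
  exact measurable_fst (measurableSet_eball_eq e n W)

/-- a function of the table that depends on finitely many entries is measurable -/
theorem measurable_of_finite_dep {β : Type*} [MeasurableSpace β] (f : (ℕ → ℕ → Bool) → β)
    (s : Finset (ℕ × ℕ))
    (h : ∀ A A' : ℕ → ℕ → Bool, (∀ p ∈ s, A p.1 p.2 = A' p.1 p.2) → f A = f A') :
    Measurable f := by
  classical
  let r : (ℕ → ℕ → Bool) → (s → Bool) := fun A p => A p.1.1 p.1.2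
  let ex : (s → Bool) → (ℕ → ℕ → Bool) := fun b i j => if hij : (i, j) ∈ s then b ⟨(i, j), hij⟩ else false
  have hr : Measurable r :=
    measurable_pi_lambda _ fun p => (measurable_pi_apply p.1.2).comp (measurable_pi_apply p.1.1)
  have hfe : Measurable (f ∘ ex) := Measurable.of_discrete
  have : f = (f ∘ ex) ∘ r := by
    funext A
    refine h _ _ fun p hp => ?_
    simp [ex, r, hp]
  rw [this]
  exact hfe.comp hr

/-- a function of the graph that depends only on the adjacencies inside a finite vertex set is measurable in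
the table -/
theorem measurable_of_graph_finite_dep {β : Type*} [MeasurableSpace β] (f : SimpleGraph ℕ → β)
    (S : Finset ℕ)
    (h : ∀ G G' : SimpleGraph ℕ, (∀ i ∈ S, ∀ j ∈ S, (G.Adj i j ↔ G'.Adj i j)) → f G = f G') :
    Measurable (fun A : ℕ → ℕ → Bool => f (graphOfTable A)) := by
  refine measurable_of_finite_dep _ (S ×ˢ S) fun A A' hA => h _ _ fun i hi j hj => ?_
  have h1 := hA (i, j) (Finset.mem_product.2 ⟨hi, hj⟩)
  have h2 := hA (j, i) (Finset.mem_product.2 ⟨hj, hi⟩)
  simp only at h1 h2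
  rw [graphOfTable_adj, graphOfTable_adj, h1, h2]

/-! ## The label measure -/

/-- reindexing an i.i.d. family along an injection gives an i.i.d. family -/
theorem infinitePi_map_comp_injective {V V' X : Type*} [MeasurableSpace X] (μ : Measure X)
    [IsProbabilityMeasure μ] (j : V → V') (hj : Function.Injective j) :
    (Measure.infinitePi (fun _ : V' => μ)).map (fun x => x ∘ j)
      = Measure.infinitePi (fun _ : V => μ) := by
  classical
  refine Measure.eq_infinitePi _ fun s t ht => ?_
  have hmeas : Measurable (fun x : V' → X => x ∘ j) :=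
    measurable_pi_lambda _ fun i => measurable_pi_apply (j i)
  rw [Measure.map_apply hmeas (.pi s.countable_toSet fun _ _ => ht _)]
  let t' : V' → Set X := fun k => if hk : ∃ i, j i = k then t hk.choose else Set.univ
  have ht' : ∀ i, t' (j i) = t i := by
    intro i
    have hk : ∃ i', j i' = j i := ⟨i, rfl⟩
    simp only [t', dif_pos hk]
    rw [hj hk.choose_spec]
  have hpre : (fun x : V' → X => x ∘ j) ⁻¹' (Set.pi (s : Set V) t)
      = Set.pi ((s.image j : Finset V') : Set V') t' := by
    ext x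
    simp only [Set.mem_preimage, Set.mem_pi, Finset.mem_coe, Finset.mem_image, Function.comp_apply]
    constructor
    · rintro h k ⟨i, hi, rfl⟩
      rw [ht']
      exact h i hi
    · intro h i hi
      rw [← ht']
      exact h (j i) ⟨i, hi, rfl⟩
  rw [hpre, Measure.infinitePi_pi]
  · rw [Finset.prod_image fun a _ b _ hab => hj hab]
    exact Finset.prod_congr rfl fun i _ => by rw [ht']
  · intro k hk
    obtain ⟨i, -, rfl⟩ := Finset.mem_image.1 hk
    rw [ht']
    exact ht i

theorem labelMeasure_map_comp_injective {V V' : Type*} (j : V → V') (hj : Function.Injective j) :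
    (labelMeasure V').map (fun x => x ∘ j) = labelMeasure V :=
  infinitePi_map_comp_injective _ j hj

theorem labelMeasure_map_perm (σ : Equiv.Perm ℕ) :
    (labelMeasure ℕ).map (fun x => x ∘ ⇑σ) = labelMeasure ℕ :=
  labelMeasure_map_comp_injective _ σ.injective

theorem measurable_comp_perm {V V' X : Type*} [MeasurableSpace X] (j : V → V') :
    Measurable (fun x : V' → X => x ∘ j) :=
  measurable_pi_lambda _ fun i => measurable_pi_apply (j i)

instance isProbabilityMeasure_labelMeasure (V : Type*) : IsProbabilityMeasure (labelMeasure V) := by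
  unfold labelMeasure
  infer_instance

end Crest.Agent.R168.H
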