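/-
Row 168 (S0254/S0255) team project, part H (S0254 assembly), package EDGE LABELS (owner helper55).

From i.i.d. uniform VERTEX labels `x : ℕ → unitInterval` we produce, for every graph `G` on `ℕ`, a whole sequence
of labels `lab G x e : ℕ → unitInterval` for every unordered pair `e`, such that
* (L1) for locally finite `G` the family `(lab G x e j)_{e ∈ E(G), j}` is i.i.d. uniform,
* (L2) the rule is EXACTLY equivariant under every permutation of `ℕ`, on every input,
* (L3) the rule is jointly measurable in (adjacency table, labels).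

Construction.  `split : unitInterval → ℕ → unitInterval` pushes the uniform law to the i.i.d. uniform law.
`z v n = split (x v) n`, `a v = z v 0`.  The pair `s(v,w)` with `a v < a w` reads the coordinates
`z v (pair k j + 1)`, `k` = number of `G`-neighbours `u` of `v` with `a u < a w` (`Set.ncard`).  Ties give `0`.
Conditionally on `a` (a.s. injective) this is a selection of coordinates by an injection.
-/
import Mathlib
import Crest.Prelude.Def_Labels
import Crest.Prelude.Def_GraphTables

set_option autoImplicit false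
open MeasureTheory Crest.ProbabilityR.Labels Crest.ProbabilityR.GraphTables

namespace Crest.Agent.R168.H

theorem exists_split : ∃ f : unitInterval → ℕ → unitInterval, Measurable f ∧
    (volume : Measure unitInterval).map f =
      Measure.infinitePi (fun _ : ℕ => (volume : Measure unitInterval)) :=
  Measure.exists_measurable_map_eq _

/-- a measurable map pushing the uniform law on `[0,1]` to the i.i.d. uniform law on `[0,1]^ℕ` -/
noncomputable def split : unitInterval → ℕ → unitInterval := exists_split.choose

theorem measurable_split : Measurable split := exists_split.choose_spec.1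

theorem map_split : (volume : Measure unitInterval).map split =
    Measure.infinitePi (fun _ : ℕ => (volume : Measure unitInterval)) := exists_split.choose_spec.2

/-- number of `G`-neighbours `u` of `v` with `a u < a w` -/
noncomputable def rank (G : SimpleGraph ℕ) (a : ℕ → unitInterval) (v w : ℕ) : ℕ :=
  {u | G.Adj v u ∧ a u < a w}.ncard

/-- label sequence of the ordered pair `(v,w)`, symmetric in `(v,w)` -/
noncomputable def labPair (G : SimpleGraph ℕ) (z : ℕ → ℕ → unitInterval) (v w j : ℕ) : unitInterval :=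
  if z v 0 < z w 0 then z v (Nat.pair (rank G (fun u => z u 0) v w) j + 1)
  else if z w 0 < z v 0 then z w (Nat.pair (rank G (fun u => z u 0) w v) j + 1)
  else 0

theorem labPair_comm (G : SimpleGraph ℕ) (z : ℕ → ℕ → unitInterval) (v w j : ℕ) :
    labPair G z v w j = labPair G z w v j := by
  unfold labPair
  by_cases h1 : z v 0 < z w 0
  · have h2 : ¬ z w 0 < z v 0 := not_lt.mpr h1.le
    simp [h1, h2]
  · by_cases h2 : z w 0 < z v 0
    · simp [h1, h2]
    · simp [h1, h2]

/-- label sequence of an unordered pair, as a function of the split labels -/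
noncomputable def labZ (G : SimpleGraph ℕ) (z : ℕ → ℕ → unitInterval) (e : Sym2 ℕ) (j : ℕ) : unitInterval :=
  Sym2.lift ⟨fun v w => labPair G z v w j, fun v w => labPair_comm G z v w j⟩ e

/-- THE EDGE LABELS. -/
noncomputable def lab (G : SimpleGraph ℕ) (x : ℕ → unitInterval) (e : Sym2 ℕ) (j : ℕ) : unitInterval :=
  labZ G (fun v => split (x v)) e j

theorem lab_mk (G : SimpleGraph ℕ) (x : ℕ → unitInterval) (v w j : ℕ) :
    lab G x s(v, w) j = labPair G (fun v => split (x v)) v w j := rfl


/-! ### (L2) equivariance -/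

theorem rank_comap (σ : Equiv.Perm ℕ) (G : SimpleGraph ℕ) (a : ℕ → unitInterval) (v w : ℕ) :
    rank (G.comap ⇑σ) (fun u => a (σ u)) v w = rank G a (σ v) (σ w) := by
  unfold rank
  have h : {u | (G.comap ⇑σ).Adj v u ∧ a (σ u) < a (σ w)} =
      ⇑σ ⁻¹' {u | G.Adj (σ v) u ∧ a u < a (σ w)} := by
    ext u; simp [SimpleGraph.comap_adj]
  rw [h]
  exact Set.ncard_preimage_of_injective_subset_range σ.injective (by simp [σ.surjective.range_eq])

/-- (L2) exact equivariance on every input. -/
theorem lab_comap (σ : Equiv.Perm ℕ) (G : SimpleGraph ℕ) (x : ℕ → unitInterval) (e : Sym2 ℕ) :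
    lab (G.comap ⇑σ) (x ∘ ⇑σ) e = lab G x (Sym2.map ⇑σ e) := by
  induction e using Sym2.ind with
  | _ v w =>
    funext j
    rw [Sym2.map_mk, lab_mk, lab_mk]
    unfold labPair
    have h1 := rank_comap σ G (fun u => split (x u) 0) v w
    have h2 := rank_comap σ G (fun u => split (x u) 0) w v
    simp only [Function.comp_apply]
    rw [h1, h2]

/-! ### (L3) measurability -/

private theorem measurable_ncard {α : Type*} [MeasurableSpace α] (P : α → ℕ → Prop)
    (hP : ∀ u, MeasurableSet {p | P p u}) : Measurable (fun p => {u | P p u}.ncard) := by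
  have key : ∀ s : Finset ℕ, MeasurableSet {p | {u | P p u} = (s : Set ℕ)} := by
    intro s
    have h : {p | {u | P p u} = (s : Set ℕ)} = ⋂ u, {p | P p u ↔ u ∈ s} := by
      ext p; simp [Set.ext_iff]
    rw [h]
    refine MeasurableSet.iInter fun u => ?_
    by_cases hu : u ∈ s
    · have h2 : {p | P p u ↔ u ∈ s} = {p | P p u} := by ext p; simp [hu]
      rw [h2]; exact hP u
    · have h2 : {p | P p u ↔ u ∈ s} = {p | P p u}ᶜ := by ext p; simp [hu]
      rw [h2]; exact (hP u).compl
  have pos : ∀ k : ℕ, k ≠ 0 → MeasurableSet ((fun p => {u | P p u}.ncard) ⁻¹' {k}) := by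
    intro k hk
    have h : (fun p => {u | P p u}.ncard) ⁻¹' {k} =
        ⋃ s : Finset ℕ, ⋃ _ : s.card = k, {p | {u | P p u} = (s : Set ℕ)} := by
      ext p
      simp only [Set.mem_preimage, Set.mem_singleton_iff, Set.mem_iUnion, Set.mem_ofPred_eq, exists_prop]
      constructor
      · intro hp
        have hfin : {u | P p u}.Finite := Set.finite_of_ncard_ne_zero (by rw [hp]; exact hk)
        refine ⟨hfin.toFinset, ?_, by simp⟩
        rw [← hp, Set.ncard_eq_toFinset_card _ hfin]
      · rintro ⟨s, hs, hps⟩
        rw [hps, Set.ncard_coe_finset, hs]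
    rw [h]
    exact MeasurableSet.iUnion fun s => MeasurableSet.iUnion fun _ => key s
  refine measurable_to_countable' fun k => ?_
  by_cases hk : k = 0
  · subst hk
    have h : (fun p => {u | P p u}.ncard) ⁻¹' {0} =
        (⋃ k : ℕ, ⋃ _ : k ≠ 0, (fun p => {u | P p u}.ncard) ⁻¹' {k})ᶜ := by
      ext p
      simp only [Set.mem_preimage, Set.mem_singleton_iff, Set.mem_compl_iff, Set.mem_iUnion, exists_prop,
        not_exists, not_and]
      constructor
      · intro h0 i hi h1
        exact hi (h1.symm.trans h0)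
      · intro h0
        by_contra h1
        exact h0 _ h1 rfl
    rw [h]
    exact (MeasurableSet.iUnion fun k => MeasurableSet.iUnion fun hk => pos k hk).compl
  · exact pos k hk

private theorem measurable_eval_nat {α β : Type*} [MeasurableSpace α] [MeasurableSpace β]
    {f : α → ℕ → β} (hf : Measurable f) {n : α → ℕ} (hn : Measurable n) :
    Measurable (fun p => f p (n p)) := by
  have h : Measurable (fun q : (ℕ → β) × ℕ => q.1 q.2) :=
    measurable_from_prod_countable_left fun k => measurable_pi_apply k
  exact h.comp (hf.prodMk hn)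

private theorem measurableSet_adj_table (v u : ℕ) :
    MeasurableSet {A : ℕ → ℕ → Bool | (graphOfTable A).Adj v u} := by
  have h : {A : ℕ → ℕ → Bool | (graphOfTable A).Adj v u} =
      {A | v ≠ u} ∩ ({A | A v u = true} ∪ {A | A u v = true}) := by
    ext A
    simp [graphOfTable, SimpleGraph.fromRel_adj]
  rw [h]
  have h1 : ∀ i j : ℕ, MeasurableSet {A : ℕ → ℕ → Bool | A i j = true} := by
    intro i j
    have : Measurable (fun A : ℕ → ℕ → Bool => A i j) := by fun_prop
    exact this (measurableSet_singleton true)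
  exact (MeasurableSet.const _).inter ((h1 v u).union (h1 u v))

private theorem measurable_rank_table (v w : ℕ) :
    Measurable (fun p : (ℕ → ℕ → Bool) × (ℕ → ℕ → unitInterval) =>
      rank (graphOfTable p.1) (fun u => p.2 u 0) v w) := by
  unfold rank
  refine measurable_ncard (fun (p : (ℕ → ℕ → Bool) × (ℕ → ℕ → unitInterval)) u =>
    (graphOfTable p.1).Adj v u ∧ p.2 u 0 < p.2 w 0) fun u => ?_
  have h1 : MeasurableSet {p : (ℕ → ℕ → Bool) × (ℕ → ℕ → unitInterval) | (graphOfTable p.1).Adj v u} :=
    measurable_fst (measurableSet_adj_table v u)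
  have h2 : MeasurableSet {p : (ℕ → ℕ → Bool) × (ℕ → ℕ → unitInterval) | p.2 u 0 < p.2 w 0} :=
    measurableSet_lt (by fun_prop) (by fun_prop)
  exact h1.inter h2

theorem measurable_labZ_table (e : Sym2 ℕ) (j : ℕ) :
    Measurable (fun p : (ℕ → ℕ → Bool) × (ℕ → ℕ → unitInterval) => labZ (graphOfTable p.1) p.2 e j) := by
  induction e using Sym2.ind with
  | _ v w =>
    change Measurable (fun p : (ℕ → ℕ → Bool) × (ℕ → ℕ → unitInterval) =>
      labPair (graphOfTable p.1) p.2 v w j)
    unfold labPair
    have hpair : ∀ v w : ℕ, Measurable (fun p : (ℕ → ℕ → Bool) × (ℕ → ℕ → unitInterval) =>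
        p.2 v (Nat.pair (rank (graphOfTable p.1) (fun u => p.2 u 0) v w) j + 1)) := by
      intro v w
      refine measurable_eval_nat (f := fun p : (ℕ → ℕ → Bool) × (ℕ → ℕ → unitInterval) => p.2 v)
        (by fun_prop) ?_
      have h3 : Measurable (fun k : ℕ => Nat.pair k j + 1) := measurable_from_top
      exact h3.comp (measurable_rank_table v w)
    refine Measurable.ite (measurableSet_lt (by fun_prop) (by fun_prop)) (hpair v w) ?_
    exact Measurable.ite (measurableSet_lt (by fun_prop) (by fun_prop)) (hpair w v) measurable_const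

/-- (L3) joint measurability in (table, labels). -/
theorem measurable_lab_table (e : Sym2 ℕ) :
    Measurable (fun p : (ℕ → ℕ → Bool) × (ℕ → unitInterval) => lab (graphOfTable p.1) p.2 e) := by
  refine measurable_pi_iff.mpr fun j => ?_
  have h : Measurable (fun p : (ℕ → ℕ → Bool) × (ℕ → unitInterval) =>
      ((p.1, fun v => split (p.2 v)) : (ℕ → ℕ → Bool) × (ℕ → ℕ → unitInterval))) := by
    refine measurable_fst.prodMk (measurable_pi_iff.mpr fun v => ?_)
    exact measurable_split.comp ((measurable_pi_apply v).comp measurable_snd)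
  exact (measurable_labZ_table e j).comp h

theorem graphOfTable_tableOf (G : SimpleGraph ℕ) : graphOfTable (tableOf G) = G := by
  ext v w
  simp only [graphOfTable, tableOf, SimpleGraph.fromRel_adj, decide_eq_true_eq]
  constructor
  · rintro ⟨_, h | h⟩
    · exact h
    · exact h.symm
  · intro h
    exact ⟨h.ne, Or.inl h⟩

theorem measurable_labZ (G : SimpleGraph ℕ) (e : Sym2 ℕ) (j : ℕ) :
    Measurable (fun z : ℕ → ℕ → unitInterval => labZ G z e j) := by
  have h := (measurable_labZ_table e j).comp
    (measurable_const.prodMk measurable_id :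
      Measurable (fun z : ℕ → ℕ → unitInterval => (tableOf G, z)))
  simpa [Function.comp_def, graphOfTable_tableOf] using h

theorem measurable_lab (G : SimpleGraph ℕ) (e : Sym2 ℕ) : Measurable (fun x => lab G x e) := by
  have h := (measurable_lab_table e).comp
    (measurable_const.prodMk measurable_id :
      Measurable (fun x : ℕ → unitInterval => (tableOf G, x)))
  simpa [Function.comp_def, graphOfTable_tableOf] using h


/-! ### (L1) the law -/

/-- glue the `0`-th sublabels `a` and the other sublabels `y` -/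
def mergeU (q : (ℕ → unitInterval) × (ℕ × ℕ → unitInterval)) : ℕ × ℕ → unitInterval :=
  fun p => match p.2 with
    | 0 => q.1 p.1
    | m + 1 => q.2 (p.1, m)

theorem mergeU_zero (q : (ℕ → unitInterval) × (ℕ × ℕ → unitInterval)) (v : ℕ) :
    mergeU q (v, 0) = q.1 v := rfl

theorem mergeU_succ (q : (ℕ → unitInterval) × (ℕ × ℕ → unitInterval)) (v m : ℕ) :
    mergeU q (v, m + 1) = q.2 (v, m) := rfl

theorem measurable_mergeU : Measurable mergeU := by
  refine measurable_pi_iff.mpr fun p => ?_
  obtain ⟨v, n⟩ := p
  cases n with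
  | zero =>
    change Measurable (fun q : (ℕ → unitInterval) × (ℕ × ℕ → unitInterval) => q.1 v)
    fun_prop
  | succ m =>
    change Measurable (fun q : (ℕ → unitInterval) × (ℕ × ℕ → unitInterval) => q.2 (v, m))
    fun_prop

theorem map_mergeU :
    ((Measure.infinitePi (fun _ : ℕ => (volume : Measure unitInterval))).prod
      (Measure.infinitePi (fun _ : ℕ × ℕ => (volume : Measure unitInterval)))).map mergeU =
    Measure.infinitePi (fun _ : ℕ × ℕ => (volume : Measure unitInterval)) := by
  classical
  refine Measure.eq_infinitePi _ fun s t ht => ?_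
  have i0 : Function.Injective (fun v : ℕ => ((v, 0) : ℕ × ℕ)) := fun a b h => by simpa using h
  have i1 : Function.Injective (fun p : ℕ × ℕ => ((p.1, p.2 + 1) : ℕ × ℕ)) := by
    rintro ⟨a, b⟩ ⟨c, d⟩ h
    simpa using h
  set s0 : Finset ℕ := s.preimage _ i0.injOn with hs0
  set s1 : Finset (ℕ × ℕ) := s.preimage _ i1.injOn with hs1
  have hpre : mergeU ⁻¹' (Set.pi (s : Set (ℕ × ℕ)) t) =
      (Set.pi (s0 : Set ℕ) (fun v => t (v, 0))) ×ˢ
        (Set.pi (s1 : Set (ℕ × ℕ)) (fun p => t (p.1, p.2 + 1))) := by
    ext q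
    simp only [Set.mem_preimage, Set.mem_pi, Set.mem_prod, Finset.mem_coe, hs0, hs1, Finset.mem_preimage]
    constructor
    · intro h
      exact ⟨fun v hv => h (v, 0) hv, fun p hp => h (p.1, p.2 + 1) hp⟩
    · rintro ⟨h0, h1⟩ ⟨v, n⟩ hp
      cases n with
      | zero => exact h0 v hp
      | succ m => exact h1 (v, m) hp
  rw [Measure.map_apply measurable_mergeU (MeasurableSet.pi s.countable_toSet fun i _ => ht i), hpre,
    Measure.prod_prod, Measure.infinitePi_pi _ (fun i _ => ht _), Measure.infinitePi_pi _ (fun i _ => ht _)]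
  have e0 : ∏ v ∈ s0, (volume : Measure unitInterval) (t (v, 0)) =
      ∏ p ∈ s with p ∈ Set.range (fun v : ℕ => ((v, 0) : ℕ × ℕ)), (volume : Measure unitInterval) (t p) :=
    Finset.prod_preimage' (fun v : ℕ => ((v, 0) : ℕ × ℕ)) s i0.injOn
      (fun p => (volume : Measure unitInterval) (t p))
  have e1 : ∏ p ∈ s1, (volume : Measure unitInterval) (t (p.1, p.2 + 1)) =
      ∏ p ∈ s with p ∈ Set.range (fun p : ℕ × ℕ => ((p.1, p.2 + 1) : ℕ × ℕ)),
        (volume : Measure unitInterval) (t p) :=
    Finset.prod_preimage' (fun p : ℕ × ℕ => ((p.1, p.2 + 1) : ℕ × ℕ)) s i1.injOn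
      (fun p => (volume : Measure unitInterval) (t p))
  rw [e0, e1]
  have hfil : (s.filter fun p => p ∈ Set.range (fun p : ℕ × ℕ => ((p.1, p.2 + 1) : ℕ × ℕ))) =
      s.filter fun p => ¬ p ∈ Set.range (fun v : ℕ => ((v, 0) : ℕ × ℕ)) := by
    refine Finset.filter_congr fun p _ => ?_
    obtain ⟨v, n⟩ := p
    cases n with
    | zero => simp
    | succ m => simp
  rw [hfil]
  exact Finset.prod_filter_mul_prod_filter_not s _ _


theorem map_split_all :
    (labelMeasure ℕ).map (fun x v => split (x v)) =
    ((Measure.infinitePi (fun _ : ℕ => (volume : Measure unitInterval))).prod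
      (Measure.infinitePi (fun _ : ℕ × ℕ => (volume : Measure unitInterval)))).map
        (fun q v n => mergeU q (v, n)) := by
  have h1 : (labelMeasure ℕ).map (fun x v => split (x v)) =
      Measure.infinitePi (fun _ : ℕ => Measure.infinitePi (fun _ : ℕ => (volume : Measure unitInterval))) := by
    unfold labelMeasure
    rw [Measure.infinitePi_map_pi (fun _ : ℕ => (volume : Measure unitInterval))
      (f := fun _ => split) (fun _ => measurable_split)]
    simp only [map_split]
  have h2 : (fun (q : (ℕ → unitInterval) × (ℕ × ℕ → unitInterval)) v n => mergeU q (v, n)) =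
      ⇑(MeasurableEquiv.curry ℕ ℕ unitInterval) ∘ mergeU := by
    funext q v n
    rfl
  rw [h1, h2, ← Measure.map_map (MeasurableEquiv.curry ℕ ℕ unitInterval).measurable measurable_mergeU,
    map_mergeU]
  exact (Measure.infinitePi_map_curry (fun _ _ : ℕ => (volume : Measure unitInterval))).symm

theorem ae_injective :
    ∀ᵐ a ∂(Measure.infinitePi (fun _ : ℕ => (volume : Measure unitInterval))), Function.Injective a := by
  have h : ∀ v w : ℕ, v ≠ w →
      ∀ᵐ a ∂(Measure.infinitePi (fun _ : ℕ => (volume : Measure unitInterval))), a v ≠ a w := by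
    intro v w hvw
    have hm : Measurable (fun a : ℕ → unitInterval => (a v, a w)) := by fun_prop
    have h0 : ((volume : Measure unitInterval).prod (volume : Measure unitInterval))
        (Set.diagonal unitInterval) = 0 := by
      rw [Measure.prod_apply measurableSet_diagonal]
      have : ∀ x : unitInterval, Prod.mk x ⁻¹' (Set.diagonal unitInterval) = {x} := by
        intro x; ext y; simp [eq_comm]
      simp [this]
    have h1 := Measure.infinitePi_map_eval_prod (P := fun _ : ℕ => (volume : Measure unitInterval)) hvw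
    rw [← h1, Measure.map_apply hm measurableSet_diagonal] at h0
    rw [ae_iff]
    convert h0 using 2
    ext a
    simp
  have h2 : ∀ᵐ a ∂(Measure.infinitePi (fun _ : ℕ => (volume : Measure unitInterval))),
      ∀ v w : ℕ, v ≠ w → a v ≠ a w := by
    rw [ae_all_iff]; intro v
    rw [ae_all_iff]; intro w
    by_cases hvw : v = w
    · exact Filter.Eventually.of_forall fun a h => absurd hvw h
    · filter_upwards [h v w hvw] with a ha _ using ha
  filter_upwards [h2] with a ha v w hvw
  by_contra hne
  exact ha v w hne hvw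

/-- the endpoints of `e`, the one with the smaller `a` first -/
noncomputable def ori (a : ℕ → unitInterval) (e : Sym2 ℕ) : ℕ × ℕ :=
  if a e.out.1 < a e.out.2 then e.out else e.out.swap

theorem ori_mk (a : ℕ → unitInterval) (e : Sym2 ℕ) : s((ori a e).1, (ori a e).2) = e := by
  have h : s(e.out.1, e.out.2) = e := by
    change Quot.mk _ (e.out.1, e.out.2) = e
    rw [Prod.mk.eta]; exact Quot.out_eq e
  unfold ori
  split_ifs
  · exact h
  · rw [Prod.fst_swap, Prod.snd_swap, Sym2.eq_swap]; exact h

theorem ori_lt {a : ℕ → unitInterval} (ha : Function.Injective a) {e : Sym2 ℕ} (he : ¬ e.IsDiag) :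
    a (ori a e).1 < a (ori a e).2 := by
  have h : s(e.out.1, e.out.2) = e := by
    change Quot.mk _ (e.out.1, e.out.2) = e
    rw [Prod.mk.eta]; exact Quot.out_eq e
  have hne : e.out.1 ≠ e.out.2 := by
    intro h'
    apply he
    rw [← h, Sym2.mk_isDiag_iff]; exact h'
  unfold ori
  split_ifs with h1
  · exact h1
  · rw [Prod.fst_swap, Prod.snd_swap]
    exact lt_of_le_of_ne (not_lt.mp h1) (fun h' => hne (ha h').symm)

/-- the coordinate read by the `j`-th label of `e` -/
noncomputable def slot (G : SimpleGraph ℕ) (a : ℕ → unitInterval) (p : Sym2 ℕ × ℕ) : ℕ × ℕ :=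
  ((ori a p.1).1, Nat.pair (rank G a (ori a p.1).1 (ori a p.1).2) p.2)

theorem labZ_eq_slot (G : SimpleGraph ℕ) (q : (ℕ → unitInterval) × (ℕ × ℕ → unitInterval))
    (ha : Function.Injective q.1) {e : Sym2 ℕ} (he : ¬ e.IsDiag) (j : ℕ) :
    labZ G (fun v n => mergeU q (v, n)) e j = q.2 (slot G q.1 (e, j)) := by
  have h1 := ori_lt ha he
  conv_lhs => rw [← ori_mk q.1 e]
  change labPair G (fun v n => mergeU q (v, n)) (ori q.1 e).1 (ori q.1 e).2 j = _
  unfold labPair
  have h2 : (fun v n => mergeU q (v, n)) (ori q.1 e).1 0 < (fun v n => mergeU q (v, n)) (ori q.1 e).2 0 := h1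
  rw [if_pos h2]
  rfl

theorem rank_lt_rank (G : SimpleGraph ℕ) (hG : ∀ v : ℕ, (G.neighborSet v).Finite) (a : ℕ → unitInterval)
    {v w w' : ℕ} (hw : G.Adj v w) (h : a w < a w') : rank G a v w < rank G a v w' := by
  unfold rank
  refine Set.ncard_lt_ncard ?_ ((hG v).subset fun u hu => hu.1)
  refine ⟨fun u hu => ⟨hu.1, hu.2.trans h⟩, fun hsub => ?_⟩
  exact lt_irrefl _ (hsub (show w ∈ {u | G.Adj v u ∧ a u < a w'} from ⟨hw, h⟩)).2

theorem slot_injective (G : SimpleGraph ℕ) (hG : ∀ v : ℕ, (G.neighborSet v).Finite)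
    {a : ℕ → unitInterval} (ha : Function.Injective a) :
    Function.Injective (fun p : G.edgeSet × ℕ => slot G a (p.1.1, p.2)) := by
  rintro ⟨⟨e, he⟩, j⟩ ⟨⟨e', he'⟩, j'⟩ h
  simp only [slot, Prod.mk.injEq, Nat.pair_eq_pair] at h
  obtain ⟨h1, h2, h3⟩ := h
  have hadj : G.Adj (ori a e).1 (ori a e).2 := by
    rw [← SimpleGraph.mem_edgeSet, ori_mk]; exact he
  have hadj' : G.Adj (ori a e').1 (ori a e').2 := by
    rw [← SimpleGraph.mem_edgeSet, ori_mk]; exact he'
  rw [← h1] at h2 hadj'
  have hw : (ori a e).2 = (ori a e').2 := by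
    by_contra hne
    rcases lt_or_gt_of_ne (fun h' => hne (ha h')) with hlt | hlt
    · exact absurd h2 (rank_lt_rank G hG a hadj hlt).ne
    · exact absurd h2 (rank_lt_rank G hG a hadj' hlt).ne'
  have hee : e = e' := by
    rw [← ori_mk a e, ← ori_mk a e', h1, hw]
  subst hee
  subst h3
  rfl

/-- (L1), uncurried: the labels of the edges of a locally finite graph are i.i.d. uniform. -/
theorem map_lab_uncurried (G : SimpleGraph ℕ) (hG : ∀ v : ℕ, (G.neighborSet v).Finite) :
    (labelMeasure ℕ).map (fun x (p : G.edgeSet × ℕ) => lab G x p.1 p.2) =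
      Measure.infinitePi (fun _ : G.edgeSet × ℕ => (volume : Measure unitInterval)) := by
  set Q0 := Measure.infinitePi (fun _ : ℕ => (volume : Measure unitInterval)) with hQ0
  set Q1 := Measure.infinitePi (fun _ : ℕ × ℕ => (volume : Measure unitInterval)) with hQ1
  -- measurability of the pieces
  have mLZ : Measurable (fun (z : ℕ → ℕ → unitInterval) (p : G.edgeSet × ℕ) => labZ G z p.1 p.2) :=
    measurable_pi_iff.mpr fun p => measurable_labZ G p.1 p.2
  have mZ : Measurable (fun (x : ℕ → unitInterval) v => split (x v)) :=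
    measurable_pi_iff.mpr fun v => measurable_split.comp (measurable_pi_apply v)
  have mM : Measurable (fun (q : (ℕ → unitInterval) × (ℕ × ℕ → unitInterval)) v n => mergeU q (v, n)) :=
    measurable_pi_iff.mpr fun v => measurable_pi_iff.mpr fun n =>
      (measurable_pi_apply (v, n)).comp measurable_mergeU
  have hcomp : (fun x (p : G.edgeSet × ℕ) => lab G x p.1 p.2) =
      (fun (z : ℕ → ℕ → unitInterval) (p : G.edgeSet × ℕ) => labZ G z p.1 p.2) ∘
        (fun (x : ℕ → unitInterval) v => split (x v)) := rfl
  rw [hcomp, ← Measure.map_map mLZ mZ, map_split_all, Measure.map_map mLZ mM]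
  ext T hT
  have mH := mLZ.comp mM
  rw [Measure.map_apply mH hT, Measure.prod_apply (mH hT)]
  have hae : ∀ᵐ a ∂Q0, Q1 (Prod.mk a ⁻¹' (((fun (z : ℕ → ℕ → unitInterval) (p : G.edgeSet × ℕ) =>
      labZ G z p.1 p.2) ∘ fun (q : (ℕ → unitInterval) × (ℕ × ℕ → unitInterval)) v n => mergeU q (v, n)) ⁻¹' T)) =
      Measure.infinitePi (fun _ : G.edgeSet × ℕ => (volume : Measure unitInterval)) T := by
    filter_upwards [ae_injective] with a ha
    have hinj := slot_injective G hG ha
    have hmap := Measure.map_infinitePi_infinitePi_of_inj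
      (P := fun _ : ℕ × ℕ => (volume : Measure unitInterval)) hinj
    have hset : Prod.mk a ⁻¹' (((fun (z : ℕ → ℕ → unitInterval) (p : G.edgeSet × ℕ) =>
        labZ G z p.1 p.2) ∘ fun (q : (ℕ → unitInterval) × (ℕ × ℕ → unitInterval)) v n => mergeU q (v, n)) ⁻¹' T) =
        (fun (y : ℕ × ℕ → unitInterval) (p : G.edgeSet × ℕ) => y (slot G a (p.1.1, p.2))) ⁻¹' T := by
      ext y
      simp only [Set.mem_preimage, Function.comp_apply]
      have : (fun p : G.edgeSet × ℕ => labZ G (fun v n => mergeU (a, y) (v, n)) p.1 p.2) =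
          fun p : G.edgeSet × ℕ => y (slot G a (p.1.1, p.2)) := by
        funext p
        exact labZ_eq_slot G (a, y) ha (G.not_isDiag_of_mem_edgeSet p.1.2) p.2
      rw [this]
    rw [hset, ← Measure.map_apply (by fun_prop) hT, hmap]
  rw [lintegral_congr_ae hae, lintegral_const, measure_univ, mul_one]

/-- (L1), curried. -/
theorem map_lab (G : SimpleGraph ℕ) (hG : ∀ v : ℕ, (G.neighborSet v).Finite) :
    (labelMeasure ℕ).map (fun x (e : G.edgeSet) => lab G x e) =
      Measure.infinitePi (fun _ : G.edgeSet =>
        Measure.infinitePi (fun _ : ℕ => (volume : Measure unitInterval))) := by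
  have h : (fun x (e : G.edgeSet) => lab G x e) =
      ⇑(MeasurableEquiv.curry G.edgeSet ℕ unitInterval) ∘
        (fun x (p : G.edgeSet × ℕ) => lab G x p.1 p.2) := by
    funext x e j
    rfl
  have m1 : Measurable (fun x (p : G.edgeSet × ℕ) => lab G x p.1 p.2) :=
    measurable_pi_iff.mpr fun p => (measurable_pi_apply p.2).comp (measurable_lab G p.1)
  rw [h, ← Measure.map_map (MeasurableEquiv.curry G.edgeSet ℕ unitInterval).measurable m1,
    map_lab_uncurried G hG]
  exact Measure.infinitePi_map_curry (fun (_ : G.edgeSet) (_ : ℕ) => (volume : Measure unitInterval))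

end Crest.Agent.R168.H
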