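/-
Row 168 (S0254/S0255), part H (helper93): abstract "canonical limit in probability" of a sequence of
Bool-valued random variables.  Everything is canonical (no choice depending on representation), so the
construction is natural under measure preserving maps and jointly measurable in a parameter.
-/
import Mathlib

set_option autoImplicit false
open MeasureTheory Filter
open scoped ENNReal Topology

namespace Crest.Agent.R168.H

variable {Ω : Type*} [MeasurableSpace Ω]

/-- disagreement probability -/
noncomputable def limDis (P : Measure Ω) (g : ℕ → Ω → Bool) (n m : ℕ) : ℝ≥0∞ :=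
  P {ω | g n ω ≠ g m ω}

/-- `sup_{m ≥ n} P(g n ≠ g m)` -/
noncomputable def limEps (P : Measure Ω) (g : ℕ → Ω → Bool) (n : ℕ) : ℝ≥0∞ :=
  ⨆ m, ⨆ (_ : n ≤ m), limDis P g n m

/-- admissible next index after `k` at precision `2^-j` (any `n > k` if the precision is never reached) -/
def limOk (P : Measure Ω) (g : ℕ → Ω → Bool) (j k n : ℕ) : Prop :=
  k < n ∧ (limEps P g n ≤ (2 : ℝ≥0∞)⁻¹ ^ j ∨ ¬ ∃ n', k < n' ∧ limEps P g n' ≤ (2 : ℝ≥0∞)⁻¹ ^ j)

theorem exists_limOk (P : Measure Ω) (g : ℕ → Ω → Bool) (j k : ℕ) : ∃ n, limOk P g j k n := by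
  by_cases h : ∃ n', k < n' ∧ limEps P g n' ≤ (2 : ℝ≥0∞)⁻¹ ^ j
  · obtain ⟨n, h1, h2⟩ := h
    exact ⟨n, h1, Or.inl h2⟩
  · exact ⟨k + 1, Nat.lt_succ_self k, Or.inr h⟩

open Classical in
/-- the next index -/
noncomputable def limNxt (P : Measure Ω) (g : ℕ → Ω → Bool) (j k : ℕ) : ℕ :=
  Nat.find (exists_limOk P g j k)

/-- the canonical subsequence -/
noncomputable def limSub (P : Measure Ω) (g : ℕ → Ω → Bool) : ℕ → ℕ
  | 0 => 0
  | j + 1 => limNxt P g (j + 1) (limSub P g j)

open Classical in
/-- the canonical limit: `true` iff the canonical subsequence is eventually `true`. -/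
noncomputable def limVal (P : Measure Ω) (g : ℕ → Ω → Bool) (ω : Ω) : Bool :=
  decide (∃ J, ∀ j, J ≤ j → g (limSub P g j) ω = true)

theorem limNxt_spec (P : Measure Ω) (g : ℕ → Ω → Bool) (j k : ℕ) : limOk P g j k (limNxt P g j k) := by
  classical
  exact Nat.find_spec (exists_limOk P g j k)

theorem lt_limNxt (P : Measure Ω) (g : ℕ → Ω → Bool) (j k : ℕ) : k < limNxt P g j k :=
  (limNxt_spec P g j k).1

theorem limSub_strictMono (P : Measure Ω) (g : ℕ → Ω → Bool) : StrictMono (limSub P g) :=
  strictMono_nat_of_lt_succ fun j => lt_limNxt P g (j + 1) (limSub P g j)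

theorem le_limSub (P : Measure Ω) (g : ℕ → Ω → Bool) (j : ℕ) : j ≤ limSub P g j :=
  (limSub_strictMono P g).le_apply

theorem limEps_limSub_le {P : Measure Ω} {g : ℕ → Ω → Bool}
    (h : Tendsto (limEps P g) atTop (𝓝 0)) (j : ℕ) :
    limEps P g (limSub P g (j + 1)) ≤ (2 : ℝ≥0∞)⁻¹ ^ (j + 1) := by
  have hpos : (0 : ℝ≥0∞) < (2 : ℝ≥0∞)⁻¹ ^ (j + 1) := by
    apply ENNReal.pow_pos
    simp
  have hev : ∀ᶠ n in atTop, limEps P g n ≤ (2 : ℝ≥0∞)⁻¹ ^ (j + 1) :=
    (h.eventually (gt_mem_nhds hpos)).mono fun n hn => hn.le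
  obtain ⟨n, hn1, hn2⟩ := (hev.and (eventually_gt_atTop (limSub P g j))).exists
  rcases (limNxt_spec P g (j + 1) (limSub P g j)).2 with h1 | h1
  · exact h1
  · exact absurd ⟨n, hn2, hn1⟩ h1

theorem limDis_le_limEps (P : Measure Ω) (g : ℕ → Ω → Bool) {n m : ℕ} (h : n ≤ m) :
    limDis P g n m ≤ limEps P g n :=
  le_iSup₂_of_le m h le_rfl

/-- a.s. the canonical subsequence is eventually constant, equal to the canonical limit. -/
theorem ae_eventually_eq_limVal {P : Measure Ω} {g : ℕ → Ω → Bool}
    (h : Tendsto (limEps P g) atTop (𝓝 0)) :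
    ∀ᵐ ω ∂P, ∀ᶠ j in atTop, g (limSub P g j) ω = limVal P g ω := by
  classical
  have hsum : ∑' j, P {ω | g (limSub P g (j + 1)) ω ≠ g (limSub P g (j + 1 + 1)) ω} ≠ ∞ := by
    have hle : ∀ j, P {ω | g (limSub P g (j + 1)) ω ≠ g (limSub P g (j + 1 + 1)) ω}
        ≤ (2 : ℝ≥0∞)⁻¹ ^ (j + 1) := fun j =>
      (limDis_le_limEps P g ((limSub_strictMono P g) (Nat.lt_succ_self (j + 1))).le).trans
        (limEps_limSub_le h j)
    refine ne_top_of_le_ne_top ?_ (ENNReal.tsum_le_tsum hle)
    rw [ENNReal.tsum_geometric_add_one, ENNReal.one_sub_inv_two, inv_inv]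
    exact ENNReal.mul_ne_top (by simp) (by simp)
  filter_upwards [ae_eventually_notMem hsum] with ω hω
  obtain ⟨J, hJ⟩ := eventually_atTop.mp hω
  have hconst : ∀ j, J + 1 ≤ j → g (limSub P g j) ω = g (limSub P g (J + 1)) ω := by
    intro j hj
    induction j, hj using Nat.le_induction with
    | base => rfl
    | succ j hj ih =>
      have := hJ (j - 1) (by omega)
      simp only [not_not] at this
      have e1 : j - 1 + 1 = j := by omega
      rw [e1] at this
      rw [← this, ih]
  refine eventually_atTop.mpr ⟨J + 1, fun j hj => ?_⟩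
  rw [hconst j hj]
  cases hb : g (limSub P g (J + 1)) ω with
  | true =>
    symm
    simp only [limVal, decide_eq_true_eq]
    exact ⟨J + 1, fun j hj => (hconst j hj).trans hb⟩
  | false =>
    symm
    simp only [limVal, decide_eq_false_iff_not]
    rintro ⟨J', hJ'⟩
    have h1 := hJ' (max J' (J + 1)) (le_max_left _ _)
    have h2 := hconst (max J' (J + 1)) (le_max_right _ _)
    rw [h1, hb] at h2
    exact Bool.noConfusion h2

/-- measurability of the canonical limit (fixed sequence) -/
theorem measurable_limVal (P : Measure Ω) {g : ℕ → Ω → Bool} (hg : ∀ n, Measurable (g n)) :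
    Measurable (limVal P g) := by
  classical
  apply measurable_to_bool
  have : limVal P g ⁻¹' {true}
      = ⋃ J, ⋂ j, ⋂ (_ : J ≤ j), {ω | g (limSub P g j) ω = true} := by
    ext ω; simp [limVal]
  rw [this]
  exact MeasurableSet.iUnion fun J => MeasurableSet.iInter fun j => MeasurableSet.iInter fun _ =>
    measurableSet_eq_fun (hg _) measurable_const

/-- convergence in probability along the canonical subsequence -/
theorem tendsto_measure_limVal_ne {P : Measure Ω} [IsFiniteMeasure P] {g : ℕ → Ω → Bool}
    (hg : ∀ n, Measurable (g n)) (h : Tendsto (limEps P g) atTop (𝓝 0)) :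
    Tendsto (fun j => P {ω | g (limSub P g j) ω ≠ limVal P g ω}) atTop (𝓝 0) := by
  have hlim := measurable_limVal P hg
  set A : ℕ → Set Ω := fun j => {ω | ∃ i, j ≤ i ∧ g (limSub P g i) ω ≠ limVal P g ω} with hA
  have hAm : ∀ j, MeasurableSet (A j) := by
    intro j
    have : A j = ⋃ i, ⋃ (_ : j ≤ i), {ω | g (limSub P g i) ω ≠ limVal P g ω} := by
      ext ω; simp [hA]
    rw [this]
    exact MeasurableSet.iUnion fun i => MeasurableSet.iUnion fun _ =>
      (measurableSet_eq_fun (hg _) hlim).compl
  have hanti : Antitone A := by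
    intro a b hab ω hω
    obtain ⟨i, hi, hne⟩ := hω
    exact ⟨i, hab.trans hi, hne⟩
  have hzero : P (⋂ j, A j) = 0 := by
    have := ae_eventually_eq_limVal h
    rw [ae_iff] at this
    refine measure_mono_null ?_ this
    intro ω hω
    simp only [Set.mem_iInter] at hω
    show ¬ ∀ᶠ j in atTop, g (limSub P g j) ω = limVal P g ω
    rw [eventually_atTop]
    rintro ⟨J, hJ⟩
    obtain ⟨i, hi, hne⟩ := hω J
    exact hne (hJ i hi)
  have ht : Tendsto (fun j => P (A j)) atTop (𝓝 0) := by
    rw [← hzero]
    exact tendsto_measure_iInter_atTop (fun j => (hAm j).nullMeasurableSet) hanti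
      ⟨0, measure_ne_top P _⟩
  refine tendsto_of_tendsto_of_tendsto_of_le_of_le tendsto_const_nhds ht (fun _ => bot_le) ?_
  intro j
  exact measure_mono fun ω hω => ⟨j, le_rfl, hω⟩

/-! ### Dependence on the sequence only through the disagreement probabilities -/

theorem limSub_congr {Ω' : Type*} [MeasurableSpace Ω'] {P : Measure Ω} {P' : Measure Ω'}
    {g : ℕ → Ω → Bool} {g' : ℕ → Ω' → Bool}
    (h : ∀ n m, limDis P g n m = limDis P' g' n m) : limSub P g = limSub P' g' := by
  have heps : limEps P g = limEps P' g' := by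
    funext n
    simp only [limEps, h]
  have hok : ∀ j k n, limOk P g j k n ↔ limOk P' g' j k n := by
    intro j k n
    simp only [limOk, heps]
  have hnxt : ∀ j k, limNxt P g j k = limNxt P' g' j k := by
    intro j k
    classical
    unfold limNxt
    congr 1
    funext n
    exact propext (hok j k n)
  funext j
  induction j with
  | zero => rfl
  | succ j ih => simp only [limSub, ih, hnxt]

/-- naturality under a measure preserving map -/
theorem limVal_comp {Ω' : Type*} [MeasurableSpace Ω'] {P : Measure Ω} {P' : Measure Ω'}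
    {τ : Ω' → Ω} (hτ : MeasurePreserving τ P' P) {g : ℕ → Ω → Bool} (hg : ∀ n, Measurable (g n))
    (ω : Ω') : limVal P' (fun n ω' => g n (τ ω')) ω = limVal P g (τ ω) := by
  have hsub : limSub P' (fun n ω' => g n (τ ω')) = limSub P g := by
    apply limSub_congr
    intro n m
    have hm : MeasurableSet {ω | g n ω ≠ g m ω} := (measurableSet_eq_fun (hg n) (hg m)).compl
    exact hτ.measure_preimage hm.nullMeasurableSet
  simp only [limVal, decide_eq_decide]
  rw [hsub]

/-! ### Joint measurability in a parameter -/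

section param
variable {T : Type*} [MeasurableSpace T] (P : Measure Ω) [SFinite P] (f : ℕ → T → Ω → Bool)

theorem measurable_limDis_param (hf : ∀ n, Measurable (fun p : T × Ω => f n p.1 p.2)) (n m : ℕ) :
    Measurable (fun t => limDis P (fun k => f k t) n m) := by
  have hs : MeasurableSet {p : T × Ω | f n p.1 p.2 ≠ f m p.1 p.2} :=
    (measurableSet_eq_fun (hf n) (hf m)).compl
  exact measurable_measure_prodMk_left hs

theorem measurable_limEps_param (hf : ∀ n, Measurable (fun p : T × Ω => f n p.1 p.2)) (n : ℕ) :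
    Measurable (fun t => limEps P (fun k => f k t) n) := by
  unfold limEps
  exact Measurable.iSup fun m => Measurable.iSup fun _ => measurable_limDis_param P f hf n m

theorem measurable_limNxt_param (hf : ∀ n, Measurable (fun p : T × Ω => f n p.1 p.2)) (j k : ℕ) :
    Measurable (fun t => limNxt P (fun i => f i t) j k) := by
  classical
  unfold limNxt
  apply measurable_find
  intro n
  have h1 : ∀ n', MeasurableSet {t | limEps P (fun i => f i t) n' ≤ (2 : ℝ≥0∞)⁻¹ ^ j} := fun n' =>
    measurableSet_le (measurable_limEps_param P f hf n') measurable_const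
  have : {t | limOk P (fun i => f i t) j k n}
      = {_t : T | k < n} ∩ ({t | limEps P (fun i => f i t) n ≤ (2 : ℝ≥0∞)⁻¹ ^ j} ∪
        (⋃ n', {_t : T | k < n'} ∩ {t | limEps P (fun i => f i t) n' ≤ (2 : ℝ≥0∞)⁻¹ ^ j})ᶜ) := by
    ext t; simp [limOk]
  rw [this]
  exact (MeasurableSet.const _).inter ((h1 n).union
    (MeasurableSet.iUnion fun n' => (MeasurableSet.const _).inter (h1 n')).compl)

theorem measurable_limSub_param (hf : ∀ n, Measurable (fun p : T × Ω => f n p.1 p.2)) (j : ℕ) :
    Measurable (fun t => limSub P (fun i => f i t) j) := by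
  induction j with
  | zero => exact measurable_const
  | succ j ih =>
    have h1 : Measurable (fun p : T × ℕ => limNxt P (fun i => f i p.1) (j + 1) p.2) :=
      measurable_from_prod_countable_left fun k => measurable_limNxt_param P f hf (j + 1) k
    exact h1.comp (measurable_id.prodMk ih)

/-- the canonical limit is jointly measurable in (parameter, sample point) -/
theorem measurable_limVal_param (hf : ∀ n, Measurable (fun p : T × Ω => f n p.1 p.2)) :
    Measurable (fun p : T × Ω => limVal P (fun i => f i p.1) p.2) := by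
  classical
  apply measurable_to_bool
  have : (fun p : T × Ω => limVal P (fun i => f i p.1) p.2) ⁻¹' {true}
      = ⋃ J, ⋂ j, ⋂ (_ : J ≤ j),
        {p : T × Ω | f (limSub P (fun i => f i p.1) j) p.1 p.2 = true} := by
    ext p; simp [limVal]
  rw [this]
  refine MeasurableSet.iUnion fun J => MeasurableSet.iInter fun j => MeasurableSet.iInter fun _ => ?_
  have h1 : Measurable (fun q : (T × Ω) × ℕ => f q.2 q.1.1 q.1.2) :=
    measurable_from_prod_countable_left fun k => hf k
  have h2 : Measurable (fun p : T × Ω => f (limSub P (fun i => f i p.1) j) p.1 p.2) :=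
    h1.comp (measurable_id.prodMk ((measurable_limSub_param P f hf j).comp measurable_fst))
  exact measurableSet_eq_fun h2 measurable_const

end param

end Crest.Agent.R168.H
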