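/-
Row 168 (S0254/S0255), part H (helper93): from the uniform Cauchy property of the finite-window samplers
to the law of the canonical limits.  Abstract: `s W ω o` is the value at site `o` of the sampler with window `W`.
-/
import Crest.Agent.R168_H_Limit

set_option autoImplicit false
open MeasureTheory Filter
open scoped ENNReal Topology

namespace Crest.Agent.R168.H

variable {α Ω : Type*} [MeasurableSpace Ω]

/-- uniform Cauchy property of the samplers at every site -/
def UCauchy (P : Measure Ω) (s : Finset α → Ω → α → Bool) : Prop :=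
  ∀ (o : α) (ε : ℝ≥0∞), 0 < ε → ∃ W0 : Finset α, ∀ W W' : Finset α, W0 ⊆ W → W0 ⊆ W' →
    P {ω | s W ω o ≠ s W' ω o} ≤ ε

/-- the windows `win o n` exhaust the sites -/
def Exhausts (win : α → ℕ → Finset α) : Prop :=
  (∀ o, Monotone (win o)) ∧ ∀ (o : α) (W0 : Finset α), ∃ n, W0 ⊆ win o n

theorem tendsto_limEps_of_ucauchy {P : Measure Ω} {s : Finset α → Ω → α → Bool}
    (hc : UCauchy P s) {win : α → ℕ → Finset α} (hw : Exhausts win) (o : α) :
    Tendsto (limEps P (fun n ω => s (win o n) ω o)) atTop (𝓝 0) := by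
  rw [ENNReal.tendsto_atTop_zero]
  intro ε hε
  obtain ⟨W0, hW0⟩ := hc o ε hε
  obtain ⟨N, hN⟩ := hw.2 o W0
  refine ⟨N, fun n hn => ?_⟩
  unfold limEps
  refine iSup₂_le fun m hm => ?_
  exact hW0 _ _ (hN.trans (hw.1 o hn)) (hN.trans (hw.1 o (hn.trans hm)))

/-- **Law of the canonical limits.** -/
theorem measure_forall_limVal_eq {P : Measure Ω} [IsProbabilityMeasure P]
    {s : Finset α → Ω → α → Bool} (hs : ∀ W o, Measurable (fun ω => s W ω o))
    (hc : UCauchy P s) {win : α → ℕ → Finset α} (hw : Exhausts win)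
    (F : Finset α) (q : ℝ≥0∞) (hq : ∀ W, F ⊆ W → P {ω | ∀ o ∈ F, s W ω o = true} = q) :
    P {ω | ∀ o ∈ F, limVal P (fun n ω => s (win o n) ω o) ω = true} = q := by
  classical
  set g : α → ℕ → Ω → Bool := fun o n ω => s (win o n) ω o with hg
  have hgm : ∀ o n, Measurable (g o n) := fun o n => hs _ _
  have hlim : ∀ o, Tendsto (limEps P (g o)) atTop (𝓝 0) := fun o =>
    tendsto_limEps_of_ucauchy hc hw o
  -- for every `ε` a window `W ⊇ F` with small total error
  have key : ∀ ε : ℝ≥0∞, 0 < ε → ∃ W : Finset α, F ⊆ W ∧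
      ∀ o ∈ F, P {ω | limVal P (g o) ω ≠ s W ω o} ≤ ε + ε := by
    intro ε hε
    have h1 : ∀ o, ∃ n : ℕ, (∀ W, win o n ⊆ W → P {ω | s (win o n) ω o ≠ s W ω o} ≤ ε) ∧
        P {ω | g o n ω ≠ limVal P (g o) ω} ≤ ε := by
      intro o
      obtain ⟨W0, hW0⟩ := hc o ε hε
      obtain ⟨N, hN⟩ := hw.2 o W0
      have ht := tendsto_measure_limVal_ne (hgm o) (hlim o)
      rw [ENNReal.tendsto_atTop_zero] at ht
      obtain ⟨J, hJ⟩ := ht ε hε
      refine ⟨limSub P (g o) (max J N), fun W hW => ?_, hJ _ (le_max_left _ _)⟩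
      have hsub : W0 ⊆ win o (limSub P (g o) (max J N)) :=
        hN.trans (hw.1 o ((le_max_right J N).trans (le_limSub P (g o) _)))
      exact hW0 _ _ hsub (hsub.trans hW)
    choose n hn1 hn2 using h1
    refine ⟨F ∪ F.biUnion (fun o => win o (n o)), Finset.subset_union_left, fun o ho => ?_⟩
    have hsub : win o (n o) ⊆ F ∪ F.biUnion (fun o => win o (n o)) :=
      (Finset.subset_biUnion_of_mem (fun o => win o (n o)) ho).trans Finset.subset_union_right
    calc P {ω | limVal P (g o) ω ≠ s (F ∪ F.biUnion (fun o => win o (n o))) ω o}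
        ≤ P ({ω | g o (n o) ω ≠ limVal P (g o) ω} ∪
            {ω | s (win o (n o)) ω o ≠ s (F ∪ F.biUnion (fun o => win o (n o))) ω o}) := by
          apply measure_mono
          intro ω hω
          by_contra hcon
          simp only [Set.mem_union, Set.mem_ofPred_eq, not_or, not_not] at hcon
          exact hω (hcon.1.symm.trans hcon.2)
      _ ≤ _ := (measure_union_le _ _).trans (add_le_add (hn2 o) (hn1 o _ hsub))
  -- comparison of the two events
  have cmp : ∀ ε : ℝ≥0∞, 0 < ε →
      P {ω | ∀ o ∈ F, limVal P (g o) ω = true} ≤ q + F.card * (ε + ε) ∧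
      q ≤ P {ω | ∀ o ∈ F, limVal P (g o) ω = true} + F.card * (ε + ε) := by
    intro ε hε
    obtain ⟨W, hFW, hW⟩ := key ε hε
    have hbad : P (⋃ o ∈ F, {ω | limVal P (g o) ω ≠ s W ω o}) ≤ F.card * (ε + ε) := by
      refine (measure_biUnion_finset_le F _).trans ?_
      calc ∑ o ∈ F, P {ω | limVal P (g o) ω ≠ s W ω o} ≤ ∑ _o ∈ F, (ε + ε) := Finset.sum_le_sum hW
        _ = F.card * (ε + ε) := by rw [Finset.sum_const, nsmul_eq_mul]
    constructor
    · calc P {ω | ∀ o ∈ F, limVal P (g o) ω = true}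
          ≤ P ({ω | ∀ o ∈ F, s W ω o = true} ∪ ⋃ o ∈ F, {ω | limVal P (g o) ω ≠ s W ω o}) := by
            apply measure_mono
            intro ω hω
            by_cases hb : ω ∈ ⋃ o ∈ F, {ω | limVal P (g o) ω ≠ s W ω o}
            · exact Or.inr hb
            · left
              intro o ho
              simp only [Set.mem_iUnion, not_exists] at hb
              have := hb o ho
              simp only [Set.mem_ofPred_eq, not_not] at this
              rw [← this]
              exact hω o ho
        _ ≤ _ := (measure_union_le _ _).trans (add_le_add (hq W hFW).le hbad)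
    · calc q = P {ω | ∀ o ∈ F, s W ω o = true} := (hq W hFW).symm
        _ ≤ P ({ω | ∀ o ∈ F, limVal P (g o) ω = true} ∪
              ⋃ o ∈ F, {ω | limVal P (g o) ω ≠ s W ω o}) := by
            apply measure_mono
            intro ω hω
            by_cases hb : ω ∈ ⋃ o ∈ F, {ω | limVal P (g o) ω ≠ s W ω o}
            · exact Or.inr hb
            · left
              intro o ho
              simp only [Set.mem_iUnion, not_exists] at hb
              have := hb o ho
              simp only [Set.mem_ofPred_eq, not_not] at this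
              rw [this]
              exact hω o ho
        _ ≤ _ := (measure_union_le _ _).trans (add_le_add le_rfl hbad)
  -- let `ε → 0`
  have small : ∀ δ : ℝ≥0∞, 0 < δ → ∃ ε : ℝ≥0∞, 0 < ε ∧ (F.card : ℝ≥0∞) * (ε + ε) ≤ δ := by
    intro δ hδ
    by_cases htop : δ = ∞
    · exact ⟨1, one_pos, htop ▸ le_top⟩
    refine ⟨δ / (2 * (F.card + 1)), ?_, ?_⟩
    · apply ENNReal.div_pos hδ.ne'
      exact ENNReal.mul_ne_top (by simp) (by simp)
    · have hne : (2 * ((F.card : ℝ≥0∞) + 1)) ≠ 0 := by simp
      have hnt : (2 * ((F.card : ℝ≥0∞) + 1)) ≠ ∞ := ENNReal.mul_ne_top (by simp) (by simp)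
      calc (F.card : ℝ≥0∞) * (δ / (2 * (F.card + 1)) + δ / (2 * (F.card + 1)))
          ≤ ((F.card : ℝ≥0∞) + 1) * (δ / (2 * (F.card + 1)) + δ / (2 * (F.card + 1))) := by
            gcongr
            exact le_self_add
        _ = (2 * ((F.card : ℝ≥0∞) + 1)) * (δ / (2 * (F.card + 1))) := by ring
        _ = δ := ENNReal.mul_div_cancel hne hnt
  apply le_antisymm
  · apply ENNReal.le_of_forall_pos_le_add
    intro δ hδ _
    obtain ⟨ε, hε, hle⟩ := small δ (by exact_mod_cast hδ)
    exact (cmp ε hε).1.trans (add_le_add le_rfl hle)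
  · apply ENNReal.le_of_forall_pos_le_add
    intro δ hδ _
    obtain ⟨ε, hε, hle⟩ := small δ (by exact_mod_cast hδ)
    exact (cmp ε hε).2.trans (add_le_add le_rfl hle)

end Crest.Agent.R168.H
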