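/-
Row 168 (S0254/S0255): measurability of the sequential sampler, jointly in a parameter (helper55).
-/
import Crest.Agent.R168_Samp

set_option autoImplicit false
open Finset MeasureTheory
open scoped unitInterval

namespace Crest.Agent.R168
variable {α : Type*} [DecidableEq α]

/-- a `Finset`-valued map cut out of a fixed finite set by measurable conditions has measurable fibres -/
private theorem sampMeas_finset_eq {T : Type*} [MeasurableSpace T] (S : T → Finset α) (B I0 : Finset α)
    (P : T → α → Prop) (hP : ∀ h, MeasurableSet {t | P t h})
    (hS : ∀ t h, h ∈ S t ↔ h ∈ B ∧ P t h) : MeasurableSet {t | S t = I0} := by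
  have hset : {t | S t = I0} = ⋂ h ∈ (B ∪ I0), {t | (h ∈ B ∧ P t h) ↔ h ∈ I0} := by
    ext t
    simp only [Set.mem_ofPred_eq, Set.mem_iInter, Finset.ext_iff, hS]
    constructor
    · intro h x _
      exact h x
    · intro h x
      by_cases hx : x ∈ B ∪ I0
      · exact h x hx
      · rw [Finset.mem_union, not_or] at hx
        exact ⟨fun h1 => absurd h1.1 hx.1, fun h1 => absurd h1 hx.2⟩
  rw [hset]
  refine Finset.measurableSet_biInter _ fun h _ => ?_
  by_cases hB : h ∈ B <;> by_cases hI : h ∈ I0
  · have : {t | (h ∈ B ∧ P t h) ↔ h ∈ I0} = {t | P t h} := by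
      ext t; simp [hB, hI]
    rw [this]; exact hP h
  · have : {t | (h ∈ B ∧ P t h) ↔ h ∈ I0} = {t | P t h}ᶜ := by
      ext t; simp [hB, hI]
    rw [this]; exact (hP h).compl
  · simp [hB, hI]
  · simp [hB, hI]

/-- one step of the sampler is measurable in a parameter -/
private theorem sampMeas_step {T : Type*} [MeasurableSpace T] (c : T → Finset α → Finset α → ℝ)
    (hc : ∀ A J, Measurable fun t => c t A J) (U V : T → α → I)
    (hU : ∀ x, Measurable fun t => U t x) (hV : ∀ x, Measurable fun t => V t x) (B : Finset α)
    (X : T → α → Bool) (hX : ∀ x, Measurable fun t => X t x) (g : α) :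
    Measurable fun t => sampStep (c t) B (U t) (V t) (X t) g := by
  refine measurable_to_bool ?_
  have hb : ∀ (b : Bool) (I0 : Finset α),
      MeasurableSet {t | (preds B (U t) g).filter (fun h => X t h = b) = I0} := by
    intro b I0
    refine sampMeas_finset_eq _ B I0 (fun t h => U t h < U t g ∧ X t h = b) (fun h => ?_) ?_
    · exact (measurableSet_lt (hU h) (hU g)).inter (hX h (measurableSet_singleton b))
    · intro t h
      simp only [Finset.mem_filter, mem_preds, and_assoc]
  have key : (fun t => sampStep (c t) B (U t) (V t) (X t) g) ⁻¹' {true} =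
      ⋃ I0 ∈ B.powerset, ⋃ J0 ∈ B.powerset,
        ({t | (preds B (U t) g).filter (fun h => X t h = true) = I0} ∩
          {t | (preds B (U t) g).filter (fun h => X t h = false) = J0} ∩
          {t | (V t g : ℝ) * c t I0 J0 < c t (insert g I0) J0}) := by
    ext t
    simp only [Set.mem_preimage, Set.mem_singleton_iff, Set.mem_iUnion, Set.mem_inter_iff,
      Set.mem_ofPred_eq, sampStep, decide_eq_true_eq, exists_prop]
    constructor
    · intro h
      exact ⟨_, Finset.mem_powerset.mpr ((Finset.filter_subset _ _).trans (preds_subset B (U t) g)),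
        _, Finset.mem_powerset.mpr ((Finset.filter_subset _ _).trans (preds_subset B (U t) g)),
        ⟨rfl, rfl⟩, h⟩
    · rintro ⟨I0, _, J0, _, ⟨rfl, rfl⟩, h⟩
      exact h
  rw [key]
  refine Finset.measurableSet_biUnion _ fun I0 _ => Finset.measurableSet_biUnion _ fun J0 _ => ?_
  exact ((hb true I0).inter (hb false J0)).inter
    (measurableSet_lt ((measurable_subtype_coe.comp (hV g)).mul (hc I0 J0)) (hc (insert g I0) J0))

/-- the sampler with fuel is measurable in a parameter -/
theorem measurable_sampN_param {T : Type*} [MeasurableSpace T] (c : T → Finset α → Finset α → ℝ)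
    (hc : ∀ A J, Measurable fun t => c t A J) (U V : T → α → I)
    (hU : ∀ x, Measurable fun t => U t x) (hV : ∀ x, Measurable fun t => V t x) (B : Finset α)
    (k : ℕ) (g : α) : Measurable fun t => sampN (c t) B (U t) (V t) k g := by
  induction k generalizing g with
  | zero => exact measurable_const
  | succ k ih =>
    exact sampMeas_step c hc U V hU hV B (fun t => sampN (c t) B (U t) (V t) k) ih g

/-- the sampler is jointly measurable in (family, order labels, threshold labels), all depending
measurably on a parameter; no countability of the site type is needed -/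
theorem measurable_samp_param {T : Type*} [MeasurableSpace T] (c : T → Finset α → Finset α → ℝ)
    (hc : ∀ A J, Measurable fun t => c t A J) (U V : T → α → I)
    (hU : ∀ x, Measurable fun t => U t x) (hV : ∀ x, Measurable fun t => V t x) (B : Finset α)
    (g : α) : Measurable fun t => samp (c t) B (U t) (V t) g :=
  measurable_sampN_param c hc U V hU hV B (B.card + 1) g

theorem measurable_samp (c : Finset α → Finset α → ℝ) (B : Finset α) (g : α) :
    Measurable fun w : (α → I) × (α → I) => samp c B w.1 w.2 g :=
  measurable_samp_param (T := (α → I) × (α → I)) (fun _ => c) (fun _ _ => measurable_const)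
    (fun w => w.1) (fun w => w.2)
    (fun x => (measurable_pi_apply x).comp measurable_fst)
    (fun x => (measurable_pi_apply x).comp measurable_snd) B g

end Crest.Agent.R168
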