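/-
Row 168 (S0254/S0255): the law of the sequential sampler, (C3) (helper93).
For a fixed injective order the event "the sampler shows a given pattern on the window" is a box in the thresholds,
whose volume telescopes (remove the site with the largest label); the labels are a.s. injective on the window.
-/
import Crest.Agent.R168_Samp
import Crest.Agent.R168_SampMeas
import Crest.Prelude.Def_Labels

set_option autoImplicit false
open Finset MeasureTheory
open scoped unitInterval ENNReal
open Crest.ProbabilityR.Labels

namespace Crest.Agent.R168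
variable {α : Type*} [DecidableEq α]

theorem volume_lt_mul {m m1 : ℝ} (h0 : 0 ≤ m1) (h1 : m1 ≤ m) :
    ENNReal.ofReal m * (volume : Measure I) {v : I | (v : ℝ) * m < m1} = ENNReal.ofReal m1 := by
  rcases (h0.trans h1).eq_or_lt with hm | hm
  · have : m1 = 0 := le_antisymm (hm ▸ h1) h0
    subst this; subst hm; simp
  · have hx : m1 / m ∈ Set.Icc (0:ℝ) 1 := ⟨div_nonneg h0 hm.le, (div_le_one hm).2 h1⟩
    have hset : {v : I | (v : ℝ) * m < m1} = Set.Iio (⟨m1 / m, hx⟩ : I) := by
      ext v
      simp only [Set.mem_ofPred_eq, Set.mem_Iio, ← Subtype.coe_lt_coe]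
      rw [lt_div_iff₀ hm]
    rw [hset, unitInterval.volume_Iio, ← ENNReal.ofReal_mul hm.le]
    congr 1
    field_simp

theorem volume_not_lt_mul {m m1 : ℝ} (h0 : 0 ≤ m1) (h1 : m1 ≤ m) :
    ENNReal.ofReal m * (volume : Measure I) {v : I | ¬ (v : ℝ) * m < m1} = ENNReal.ofReal (m - m1) := by
  rcases (h0.trans h1).eq_or_lt with hm | hm
  · have : m1 = 0 := le_antisymm (hm ▸ h1) h0
    subst this; subst hm; simp
  · have hx : m1 / m ∈ Set.Icc (0:ℝ) 1 := ⟨div_nonneg h0 hm.le, (div_le_one hm).2 h1⟩
    have hset : {v : I | ¬ (v : ℝ) * m < m1} = Set.Ici (⟨m1 / m, hx⟩ : I) := by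
      ext v
      simp only [Set.mem_ofPred_eq, Set.mem_Ici, ← Subtype.coe_le_coe, not_lt]
      rw [div_le_iff₀ hm]
    rw [hset, unitInterval.volume_Ici, ← ENNReal.ofReal_mul hm.le]
    congr 1
    field_simp

/-- the thresholds at `g` for which one step (with earlier values `X`) reproduces `X g` -/
def stepSet (c : Finset α → Finset α → ℝ) (B : Finset α) (U : α → I) (X : α → Bool) (g : α) : Set I :=
  {v | ((v : ℝ) * c ((preds B U g).filter (fun h => X h = true)) ((preds B U g).filter (fun h => X h = false))
      < c (insert g ((preds B U g).filter (fun h => X h = true))) ((preds B U g).filter (fun h => X h = false)))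
      ↔ X g = true}

theorem sampStep_eq_iff (c : Finset α → Finset α → ℝ) (B : Finset α) (U V : α → I) (X : α → Bool) (g : α) :
    X g = sampStep c B U V X g ↔ V g ∈ stepSet c B U X g := by
  unfold sampStep stepSet
  simp only [Set.mem_ofPred_eq]
  cases X g <;> simp

theorem measurableSet_stepSet (c : Finset α → Finset α → ℝ) (B : Finset α) (U : α → I) (X : α → Bool) (g : α) :
    MeasurableSet (stepSet c B U X g) := by
  unfold stepSet
  have h : MeasurableSet {v : I | ((v : ℝ) * c ((preds B U g).filter (fun h => X h = true)) ((preds B U g).filter (fun h => X h = false))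
      < c (insert g ((preds B U g).filter (fun h => X h = true))) ((preds B U g).filter (fun h => X h = false)))} :=
    measurableSet_lt (by fun_prop) measurable_const
  cases X g
  · have e : {v : I | ((v : ℝ) * c ((preds B U g).filter (fun h => X h = true)) ((preds B U g).filter (fun h => X h = false))
      < c (insert g ((preds B U g).filter (fun h => X h = true))) ((preds B U g).filter (fun h => X h = false)))
      ↔ false = true} = {v : I | ((v : ℝ) * c ((preds B U g).filter (fun h => X h = true)) ((preds B U g).filter (fun h => X h = false))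
      < c (insert g ((preds B U g).filter (fun h => X h = true))) ((preds B U g).filter (fun h => X h = false)))}ᶜ := by
      ext v; simp
    rw [e]
    exact h.compl
  · simpa using h

/-- the event "the sampler shows the pattern `X` on the window" is a box in the thresholds -/
theorem samp_eq_pattern_iff (c : Finset α → Finset α → ℝ) (B : Finset α) (U V : α → I) (X : α → Bool) :
    (∀ g ∈ B, samp c B U V g = X g) ↔ ∀ g ∈ B, V g ∈ stepSet c B U X g := by
  constructor
  · intro h g hg
    rw [← sampStep_eq_iff, ← h g hg, samp_eq]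
    exact sampStep_congr c B U V g fun x hx => h x (preds_subset B U g hx)
  · intro h g hg
    exact (eq_samp_of_fixed c B U V X (fun g hg => (sampStep_eq_iff c B U V X g).2 (h g hg)) g hg).symm

theorem prod_volume_stepSet {c : Finset α → Finset α → ℝ} (hc : CylFam c) (h1 : c ∅ ∅ = 1) (U : α → I)
    (X : α → Bool) (B : Finset α) (hU : Set.InjOn U B) :
    ∏ g ∈ B, (volume : Measure I) (stepSet c B U X g)
      = ENNReal.ofReal (c (B.filter (fun h => X h = true)) (B.filter (fun h => X h = false))) := by
  induction B using Finset.induction_on_max_value U with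
  | empty => simp [h1]
  | insert a s ha hmax ih =>
    have hlt : ∀ x ∈ s, U x < U a := by
      intro x hx
      refine lt_of_le_of_ne (hmax x hx) fun h => ha ?_
      have := hU (by simp [hx]) (by simp) h
      exact this ▸ hx
    have hpa : preds (insert a s) U a = s := by
      ext x
      rw [mem_preds, Finset.mem_insert]
      constructor
      · rintro ⟨rfl | hx, h⟩
        · exact absurd h (lt_irrefl _)
        · exact hx
      · intro hx
        exact ⟨Or.inr hx, hlt x hx⟩
    have hpg : ∀ g ∈ s, preds (insert a s) U g = preds s U g := by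
      intro g hg
      ext x
      rw [mem_preds, mem_preds, Finset.mem_insert]
      constructor
      · rintro ⟨rfl | hx, h⟩
        · exact absurd h (not_lt.2 (hmax g hg))
        · exact ⟨hx, h⟩
      · rintro ⟨hx, h⟩
        exact ⟨Or.inr hx, h⟩
    have hsg : ∀ g ∈ s, stepSet c (insert a s) U X g = stepSet c s U X g := by
      intro g hg
      unfold stepSet
      rw [hpg g hg]
    rw [Finset.prod_insert ha, Finset.prod_congr rfl (fun g hg => by rw [hsg g hg]),
      ih (hU.mono (by simp)), mul_comm]
    unfold stepSet
    rw [hpa]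
    set Is := s.filter (fun h => X h = true)
    set Js := s.filter (fun h => X h = false)
    have hle : c (insert a Is) Js ≤ c Is Js := hc.insert_left_le _ _ _
    cases hXa : X a
    · have e1 : (insert a s).filter (fun h => X h = true) = Is := by
        rw [Finset.filter_insert, if_neg (by simp [hXa])]
      have e2 : (insert a s).filter (fun h => X h = false) = insert a Js := by
        rw [Finset.filter_insert, if_pos hXa]
      rw [e1, e2]
      have := volume_not_lt_mul (hc.nonneg (insert a Is) Js) hle
      have e3 : c Is Js - c (insert a Is) Js = c Is (insert a Js) := by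
        have := hc.split Is Js a; linarith
      rw [e3] at this
      simpa using this
    · have e1 : (insert a s).filter (fun h => X h = true) = insert a Is := by
        rw [Finset.filter_insert, if_pos hXa]
      have e2 : (insert a s).filter (fun h => X h = false) = Js := by
        rw [Finset.filter_insert, if_neg (by simp [hXa])]
      rw [e1, e2]
      have := volume_lt_mul (hc.nonneg (insert a Is) Js) hle
      simpa using this

local instance instProbLabel (β : Type*) : IsProbabilityMeasure (labelMeasure β) := by
  unfold labelMeasure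
  infer_instance

/-- law of the pattern for a fixed injective order -/
theorem labelMeasure_pattern {c : Finset α → Finset α → ℝ} (hc : CylFam c) (h1 : c ∅ ∅ = 1) (U : α → I)
    (X : α → Bool) (B : Finset α) (hU : Set.InjOn U B) :
    labelMeasure α {V | ∀ g ∈ B, samp c B U V g = X g}
      = ENNReal.ofReal (c (B.filter (fun h => X h = true)) (B.filter (fun h => X h = false))) := by
  have hset : {V : α → I | ∀ g ∈ B, samp c B U V g = X g} = Set.pi (B : Set α) (stepSet c B U X) := by
    ext V
    simp only [Set.mem_ofPred_eq, Set.mem_pi, Finset.mem_coe]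
    exact samp_eq_pattern_iff c B U V X
  rw [hset, labelMeasure, Measure.infinitePi_pi _ (fun g _ => measurableSet_stepSet c B U X g),
    prod_volume_stepSet hc h1 U X B hU]

omit [DecidableEq α] in
theorem ae_ne_labelMeasure {g h : α} (hgh : g ≠ h) : ∀ᵐ U ∂(labelMeasure α), U g ≠ U h := by
  have hm : Measurable (fun a : α → I => (a g, a h)) := by fun_prop
  have h0 : ((volume : Measure I).prod (volume : Measure I)) (Set.diagonal I) = 0 := by
    rw [Measure.prod_apply measurableSet_diagonal]
    have : ∀ x : I, Prod.mk x ⁻¹' (Set.diagonal I) = {x} := by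
      intro x; ext y; simp [eq_comm]
    simp [this]
  have h1 := Measure.infinitePi_map_eval_prod (P := fun _ : α => (volume : Measure I)) hgh
  rw [← h1, Measure.map_apply hm measurableSet_diagonal] at h0
  rw [ae_iff]
  have e : {a : α → I | ¬a g ≠ a h} = (fun a : α → I => (a g, a h)) ⁻¹' Set.diagonal I := by
    ext a
    simp
  rw [e]
  exact h0

theorem ae_injOn_labelMeasure (B : Finset α) : ∀ᵐ U ∂(labelMeasure α), Set.InjOn U B := by
  have h2 : ∀ᵐ U ∂(labelMeasure α), ∀ g ∈ B, ∀ h ∈ B, g ≠ h → U g ≠ U h := by
    rw [Finset.eventually_all]; intro g _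
    rw [Finset.eventually_all]; intro h _
    by_cases hgh : g = h
    · exact Filter.Eventually.of_forall fun a hh => absurd hgh hh
    · filter_upwards [ae_ne_labelMeasure hgh] with a ha _ using ha
  filter_upwards [h2] with U hU g hg h hh hgh
  by_contra hne
  exact hU g hg h hh hne hgh

/-- joint law of the pattern -/
theorem prod_pattern {c : Finset α → Finset α → ℝ} (hc : CylFam c) (h1 : c ∅ ∅ = 1)
    (X : α → Bool) (B : Finset α) :
    ((labelMeasure α).prod (labelMeasure α)) {w | ∀ g ∈ B, samp c B w.1 w.2 g = X g}
      = ENNReal.ofReal (c (B.filter (fun h => X h = true)) (B.filter (fun h => X h = false))) := by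
  have hms : MeasurableSet {w : (α → I) × (α → I) | ∀ g ∈ B, samp c B w.1 w.2 g = X g} := by
    have : {w : (α → I) × (α → I) | ∀ g ∈ B, samp c B w.1 w.2 g = X g}
        = ⋂ g ∈ B, {w | samp c B w.1 w.2 g = X g} := by
      ext w; simp
    rw [this]
    exact Finset.measurableSet_biInter B fun g _ =>
      measurableSet_eq_fun (measurable_samp c B g) measurable_const
  rw [Measure.prod_apply hms]
  have : ∀ᵐ U ∂(labelMeasure α), labelMeasure α (Prod.mk U ⁻¹' {w : (α → I) × (α → I) | ∀ g ∈ B, samp c B w.1 w.2 g = X g})
      = ENNReal.ofReal (c (B.filter (fun h => X h = true)) (B.filter (fun h => X h = false))) := by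
    filter_upwards [ae_injOn_labelMeasure B] with U hU
    exact labelMeasure_pattern hc h1 U X B hU
  rw [lintegral_congr_ae this]
  simp

/-- **(C3), cylinder form** -/
theorem samp_law_cyl {c : Finset α → Finset α → ℝ} (hc : CylFam c) (h1 : c ∅ ∅ = 1) (W : Finset α) :
    ∀ (n : ℕ) (A J : Finset α), A ⊆ W → J ⊆ W → Disjoint A J → (W \ (A ∪ J)).card = n →
    ((labelMeasure α).prod (labelMeasure α))
      {w | (∀ o ∈ A, samp c W w.1 w.2 o = true) ∧ ∀ o ∈ J, samp c W w.1 w.2 o = false}
      = ENNReal.ofReal (c A J) := by
  intro n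
  induction n with
  | zero =>
    intro A J hA hJ hd hn
    have hW : W ⊆ A ∪ J := by
      rw [Finset.card_eq_zero, Finset.sdiff_eq_empty_iff_subset] at hn
      exact hn
    have e1 : W.filter (fun h => decide (h ∈ A) = true) = A := by
      ext x; simp only [Finset.mem_filter, decide_eq_true_eq]
      exact ⟨fun h => h.2, fun h => ⟨hA h, h⟩⟩
    have e2 : W.filter (fun h => decide (h ∈ A) = false) = J := by
      ext x; simp only [Finset.mem_filter, decide_eq_false_iff_not]
      constructor
      · rintro ⟨hx, hxA⟩
        exact (Finset.mem_union.1 (hW hx)).resolve_left hxA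
      · intro hx
        exact ⟨hJ hx, fun hxA => Finset.disjoint_left.1 hd hxA hx⟩
    have hp := prod_pattern hc h1 (fun h => decide (h ∈ A)) W
    rw [e1, e2] at hp
    rw [← hp]
    congr 1
    ext w
    simp only [Set.mem_ofPred_eq]
    constructor
    · rintro ⟨hA', hJ'⟩ g hg
      rcases Finset.mem_union.1 (hW hg) with h | h
      · rw [hA' g h]; simp [h]
      · rw [hJ' g h]
        have : g ∉ A := fun hxA => Finset.disjoint_left.1 hd hxA h
        simp [this]
    · intro h
      refine ⟨fun o ho => ?_, fun o ho => ?_⟩
      · rw [h o (hA ho)]; simp [ho]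
      · rw [h o (hJ ho)]
        have : o ∉ A := fun hxA => Finset.disjoint_left.1 hd hxA ho
        simp [this]
  | succ n ih =>
    intro A J hA hJ hd hn
    obtain ⟨g, hg⟩ : (W \ (A ∪ J)).Nonempty := Finset.card_pos.1 (by omega)
    rw [Finset.mem_sdiff, Finset.mem_union, not_or] at hg
    obtain ⟨hgW, hgA, hgJ⟩ := hg
    have hcard1 : (W \ (insert g A ∪ J)).card = n := by
      have : W \ (insert g A ∪ J) = (W \ (A ∪ J)).erase g := by
        ext x; simp only [Finset.mem_sdiff, Finset.mem_union, Finset.mem_insert, Finset.mem_erase]; tauto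
      rw [this, Finset.card_erase_of_mem (by simp [hgW, hgA, hgJ]), hn]; rfl
    have hcard2 : (W \ (A ∪ insert g J)).card = n := by
      have : W \ (A ∪ insert g J) = (W \ (A ∪ J)).erase g := by
        ext x; simp only [Finset.mem_sdiff, Finset.mem_union, Finset.mem_insert, Finset.mem_erase]; tauto
      rw [this, Finset.card_erase_of_mem (by simp [hgW, hgA, hgJ]), hn]; rfl
    have i1 := ih (insert g A) J (Finset.insert_subset hgW hA) hJ
      (Finset.disjoint_insert_left.2 ⟨hgJ, hd⟩) hcard1
    have i2 := ih A (insert g J) hA (Finset.insert_subset hgW hJ)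
      (Finset.disjoint_insert_right.2 ⟨hgA, hd⟩) hcard2
    have hms : ∀ A J : Finset α, MeasurableSet {w : (α → I) × (α → I) |
        (∀ o ∈ A, samp c W w.1 w.2 o = true) ∧ ∀ o ∈ J, samp c W w.1 w.2 o = false} := by
      intro A J
      have : {w : (α → I) × (α → I) |
        (∀ o ∈ A, samp c W w.1 w.2 o = true) ∧ ∀ o ∈ J, samp c W w.1 w.2 o = false}
        = (⋂ g ∈ A, {w | samp c W w.1 w.2 g = true}) ∩ ⋂ g ∈ J, {w | samp c W w.1 w.2 g = false} := by
        ext w; simp
      rw [this]
      exact (Finset.measurableSet_biInter A fun g _ =>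
        measurableSet_eq_fun (measurable_samp c W g) measurable_const).inter
        (Finset.measurableSet_biInter J fun g _ =>
        measurableSet_eq_fun (measurable_samp c W g) measurable_const)
    have hun : {w : (α → I) × (α → I) |
        (∀ o ∈ A, samp c W w.1 w.2 o = true) ∧ ∀ o ∈ J, samp c W w.1 w.2 o = false}
        = {w | (∀ o ∈ insert g A, samp c W w.1 w.2 o = true) ∧ ∀ o ∈ J, samp c W w.1 w.2 o = false}
        ∪ {w | (∀ o ∈ A, samp c W w.1 w.2 o = true) ∧ ∀ o ∈ insert g J, samp c W w.1 w.2 o = false} := by
      ext w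
      simp only [Set.mem_ofPred_eq, Set.mem_union, Finset.forall_mem_insert]
      cases samp c W w.1 w.2 g <;> simp
    have hdis : Disjoint
        {w : (α → I) × (α → I) | (∀ o ∈ insert g A, samp c W w.1 w.2 o = true) ∧ ∀ o ∈ J, samp c W w.1 w.2 o = false}
        {w | (∀ o ∈ A, samp c W w.1 w.2 o = true) ∧ ∀ o ∈ insert g J, samp c W w.1 w.2 o = false} := by
      rw [Set.disjoint_left]
      intro w hw1 hw2
      have a1 := hw1.1 g (Finset.mem_insert_self _ _)
      have a2 := hw2.2 g (Finset.mem_insert_self _ _)
      rw [a1] at a2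
      exact absurd a2 (by simp)
    rw [hun, measure_union hdis (hms _ _), i1, i2, hc.split A J g,
      ENNReal.ofReal_add (hc.nonneg _ _) (hc.nonneg _ _)]

/-- **(C3)** -/
theorem samp_law {c : Finset α → Finset α → ℝ} (hc : CylFam c) (h1 : c ∅ ∅ = 1) {F W : Finset α}
    (hF : F ⊆ W) :
    ((labelMeasure α).prod (labelMeasure α)) {w | ∀ o ∈ F, samp c W w.1 w.2 o = true}
      = ENNReal.ofReal (c F ∅) := by
  rw [← samp_law_cyl hc h1 W _ F ∅ hF (Finset.empty_subset _) (Finset.disjoint_empty_right _) rfl]
  congr 1
  ext w
  simp

end Crest.Agent.R168
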