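/-
Row 168 (S0254/S0255): naturality of the sampler under injections of the site type, and locality (helper1).
-/
import Crest.Agent.R168_Samp

set_option autoImplicit false
open Finset
open scoped unitInterval

namespace Crest.Agent.R168
variable {α : Type*} [DecidableEq α]

theorem preds_image {β : Type*} [DecidableEq β] (f : β → α)
    (B : Finset β) (U : α → I) (g : β) :
    preds (B.image f) U (f g) = (preds B (U ∘ f) g).image f := by
  ext x
  simp only [mem_preds, Finset.mem_image, Function.comp_apply]
  constructor
  · rintro ⟨⟨b, hb, rfl⟩, hlt⟩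
    exact ⟨b, ⟨hb, hlt⟩, rfl⟩
  · rintro ⟨b, ⟨hb, hlt⟩, rfl⟩
    exact ⟨⟨b, hb, rfl⟩, hlt⟩

theorem sampStep_image {β : Type*} [DecidableEq β] (f : β → α) (_hf : Function.Injective f)
    (c : Finset α → Finset α → ℝ) (B : Finset β) (U V : α → I) (X : α → Bool) (g : β) :
    sampStep c (B.image f) U V X (f g)
      = sampStep (fun A Z => c (A.image f) (Z.image f)) B (U ∘ f) (V ∘ f) (X ∘ f) g := by
  unfold sampStep
  rw [decide_eq_decide]
  rw [preds_image f, Finset.filter_image, Finset.filter_image, ← Finset.image_insert]
  rfl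

theorem sampN_image {β : Type*} [DecidableEq β] (f : β → α) (hf : Function.Injective f)
    (c : Finset α → Finset α → ℝ) (B : Finset β) (U V : α → I) (k : ℕ) (g : β) :
    sampN c (B.image f) U V k (f g)
      = sampN (fun A Z => c (A.image f) (Z.image f)) B (U ∘ f) (V ∘ f) k g := by
  induction k generalizing g with
  | zero => rfl
  | succ k ih =>
    show sampStep c (B.image f) U V (sampN c (B.image f) U V k) (f g)
      = sampStep _ B (U ∘ f) (V ∘ f) (sampN _ B (U ∘ f) (V ∘ f) k) g
    rw [sampStep_image f hf]
    apply sampStep_congr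
    intro x _
    exact ih x

theorem samp_image {β : Type*} [DecidableEq β] (f : β → α) (hf : Function.Injective f)
    (c : Finset α → Finset α → ℝ) (B : Finset β) (U V : α → I) (g : β) :
    samp c (B.image f) U V (f g)
      = samp (fun A Z => c (A.image f) (Z.image f)) B (U ∘ f) (V ∘ f) g := by
  unfold samp
  rw [Finset.card_image_of_injective B hf]
  exact sampN_image f hf c B U V _ g

theorem preds_congr {B : Finset α} {U U' : α → I} {x : α} (hB : ∀ y ∈ B, U y = U' y)
    (hx : U x = U' x) : preds B U x = preds B U' x := by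
  ext y
  simp only [mem_preds]
  constructor
  · rintro ⟨hy, hlt⟩
    exact ⟨hy, by rw [← hB y hy, ← hx]; exact hlt⟩
  · rintro ⟨hy, hlt⟩
    exact ⟨hy, by rw [hB y hy, hx]; exact hlt⟩

/-- locality of one step -/
theorem sampStep_congr' {c c' : Finset α → Finset α → ℝ} {U U' V V' : α → I} {X X' : α → Bool}
    (B : Finset α) (x : α)
    (hc : ∀ A Z, A ⊆ insert x B → Z ⊆ B → c A Z = c' A Z)
    (hU : ∀ y ∈ insert x B, U y = U' y) (hV : V x = V' x) (hX : ∀ y ∈ B, X y = X' y) :
    sampStep c B U V X x = sampStep c' B U' V' X' x := by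
  have hp : preds B U x = preds B U' x :=
    preds_congr (fun y hy => hU y (Finset.mem_insert_of_mem hy)) (hU x (Finset.mem_insert_self x B))
  have h1 : (preds B U' x).filter (fun h => X h = true) = (preds B U' x).filter (fun h => X' h = true) :=
    Finset.filter_congr fun y hy => by rw [hX y (preds_subset B U' x hy)]
  have h2 : (preds B U' x).filter (fun h => X h = false)
      = (preds B U' x).filter (fun h => X' h = false) :=
    Finset.filter_congr fun y hy => by rw [hX y (preds_subset B U' x hy)]
  have hI : (preds B U' x).filter (fun h => X' h = true) ⊆ B :=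
    (Finset.filter_subset _ _).trans (preds_subset B U' x)
  have hJ : (preds B U' x).filter (fun h => X' h = false) ⊆ B :=
    (Finset.filter_subset _ _).trans (preds_subset B U' x)
  unfold sampStep
  rw [decide_eq_decide, hp, h1, h2, hV, hc _ _ (hI.trans (Finset.subset_insert x B)) hJ,
    hc _ _ (Finset.insert_subset_insert x hI) hJ]

theorem sampN_congr {c c' : Finset α → Finset α → ℝ} {U U' V V' : α → I} (B : Finset α) (g : α)
    (hc : ∀ A Z, A ⊆ insert g B → Z ⊆ B → c A Z = c' A Z)
    (hU : ∀ x ∈ insert g B, U x = U' x) (hV : ∀ x ∈ insert g B, V x = V' x) (k : ℕ) :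
    ∀ x ∈ insert g B, sampN c B U V k x = sampN c' B U' V' k x := by
  induction k with
  | zero => exact fun _ _ => rfl
  | succ k ih =>
    intro x hx
    show sampStep c B U V (sampN c B U V k) x = sampStep c' B U' V' (sampN c' B U' V' k) x
    have hsub : insert x B ⊆ insert g B :=
      Finset.insert_subset hx (Finset.subset_insert g B)
    exact sampStep_congr' B x (fun A Z hA hZ => hc A Z (hA.trans hsub) hZ)
      (fun y hy => hU y (hsub hy)) (hV x hx) (fun y hy => ih y (Finset.mem_insert_of_mem hy))

/-- locality of the sampler: `samp c B U V g` only depends on `c` on subsets of `insert g B` (ones) and `B` (zeros)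
and on the labels of the sites of `insert g B`. -/
theorem samp_congr {c c' : Finset α → Finset α → ℝ} {U U' V V' : α → I} (B : Finset α) (g : α)
    (hc : ∀ A Z, A ⊆ insert g B → Z ⊆ B → c A Z = c' A Z)
    (hU : ∀ x ∈ insert g B, U x = U' x) (hV : ∀ x ∈ insert g B, V x = V' x) :
    samp c B U V g = samp c' B U' V' g :=
  sampN_congr B g hc hU hV _ g (Finset.mem_insert_self g B)

end Crest.Agent.R168
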