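/-
Row 168 (S0254), part H, final assembly (helper93): the factor map `Phi`, its joint measurability, its equivariance and
its law, modulo the CORE theorem (uniform Cauchy property of the samplers), which enters as the hypothesis
`CoreStatement`.
-/
import Crest.Agent.R168_Samp
import Crest.Agent.R168_SampNat
import Crest.Agent.R168_SampMeas
import Crest.Agent.R168_SampLaw
import Crest.Agent.R168_CoreDefs
import Crest.Agent.R168_H_Law
import Crest.Agent.R168_H_Balls
import Crest.Agent.R168_H_Labels
import Crest.Agent.R168_PairLabels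
import Crest.Agent.R168_FusfMeas
import Crest.Agent.R168_FusfEquiv
import Crest.Agent.R168_FusfFam
import Crest.Agent.R168_FusfLim

set_option autoImplicit false
open Finset MeasureTheory Filter
open scoped ENNReal Topology
open Crest.ProbabilityR.Labels Crest.ProbabilityR.GraphTables Crest.ProbabilityR.SpanningTrees

namespace Crest.Agent.R168


/-! ### pull back of a family along an injection -/
section pull
variable {α β : Type*} [DecidableEq α] [DecidableEq β]

theorem negFam_image {c : Finset α → Finset α → ℝ} (h : NegFam c) (f : β → α) (hf : Function.Injective f) :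
    NegFam (fun I J => c (I.image f) (J.image f)) := by
  have hmem : ∀ (x : β) (S : Finset β), f x ∈ S.image f ↔ x ∈ S := fun x S =>
    hf.mem_finset_image
  refine ⟨⟨fun I J => h.cyl.nonneg _ _, fun I J g => ?_⟩, ?_, ?_, ?_⟩
  · simp only [Finset.image_insert]
    exact h.cyl.split _ _ _
  · simpa using h.one
  · intro I J hd x g hxg hxI hxJ hgI hgJ
    simp only [Finset.image_insert]
    exact h.n1 _ _ ((Finset.disjoint_image hf).2 hd) (f x) (f g) (fun e => hxg (hf e))
      (by rwa [hmem]) (by rwa [hmem]) (by rwa [hmem]) (by rwa [hmem])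
  · intro I J hd x hxI hxJ R hxR hRI hRJ
    simp only [Finset.image_insert]
    have := h.n2 _ _ ((Finset.disjoint_image hf).2 hd) (f x) (by rwa [hmem]) (by rwa [hmem]) (R.image f)
      (by rwa [hmem]) ((Finset.disjoint_image hf).2 hRI) ((Finset.disjoint_image hf).2 hRJ)
    rwa [Finset.sum_image (fun a _ b _ e => hf e)] at this

end pull

namespace H

/-- transfer of the uniform Cauchy property along a measure preserving map -/
theorem UCauchy.comp {α Ω Ω' : Type*} [MeasurableSpace Ω] [MeasurableSpace Ω'] {P : Measure Ω}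
    {P' : Measure Ω'} {s : Finset α → Ω → α → Bool} (hc : UCauchy P s)
    (hs : ∀ W o, Measurable (fun ω => s W ω o)) {τ : Ω' → Ω} (hτ : MeasurePreserving τ P' P) :
    UCauchy P' (fun W ω o => s W (τ ω) o) := by
  intro o ε hε
  obtain ⟨W0, h0⟩ := hc o ε hε
  refine ⟨W0, fun W W' hW hW' => ?_⟩
  have hm : MeasurableSet {ω | s W ω o ≠ s W' ω o} := (measurableSet_eq_fun (hs W o) (hs W' o)).compl
  have := hτ.measure_preimage hm.nullMeasurableSet
  calc P' {ω | s W (τ ω) o ≠ s W' (τ ω) o} = P {ω | s W ω o ≠ s W' ω o} := this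
    _ ≤ ε := h0 W W' hW hW'


/-- value at the edge `e` of the sampler with window = ball of radius `n` around `e` -/
noncomputable def sEdge (G : SimpleGraph ℕ) (e : Sym2 ℕ) (n : ℕ) (x : ℕ → unitInterval) : Bool :=
  samp (fusfM G) (eball G e n) (fun f => lab G x f 0) (fun f => lab G x f 1) e

open Classical in
/-- the factor map -/
noncomputable def Phi (G : SimpleGraph ℕ) (x : ℕ → unitInterval) (e : Sym2 ℕ) : Bool :=
  if Good G ∧ e ∈ G.edgeSet then limVal (labelMeasure ℕ) (sEdge G e) x else false

theorem measurable_sEdge_table (e : Sym2 ℕ) (n : ℕ) :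
    Measurable (fun p : (ℕ → ℕ → Bool) × (ℕ → unitInterval) => sEdge (graphOfTable p.1) e n p.2) := by
  unfold sEdge
  refine measurable_comp_eball e n
    (fun W p => samp (fusfM (graphOfTable p.1)) W (fun f => lab (graphOfTable p.1) p.2 f 0)
      (fun f => lab (graphOfTable p.1) p.2 f 1) e) (fun W => ?_)
  exact measurable_samp_param (fun p : (ℕ → ℕ → Bool) × (ℕ → unitInterval) => fusfM (graphOfTable p.1))
    (fun A J => (measurable_fusfM A J).comp measurable_fst) _ _
    (fun f => (measurable_pi_apply 0).comp (measurable_lab_table f))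
    (fun f => (measurable_pi_apply 1).comp (measurable_lab_table f)) W e

theorem measurable_sEdge (G : SimpleGraph ℕ) (e : Sym2 ℕ) (n : ℕ) : Measurable (sEdge G e n) := by
  unfold sEdge
  exact measurable_samp_param (fun _ : (ℕ → unitInterval) => fusfM G)
    (fun A J => measurable_const) _ _
    (fun f => (measurable_pi_apply 0).comp (measurable_lab G f))
    (fun f => (measurable_pi_apply 1).comp (measurable_lab G f)) _ e

theorem measurable_Phi_table :
    Measurable (fun p : (ℕ → ℕ → Bool) × (ℕ → unitInterval) => Phi (graphOfTable p.1) p.2) := by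
  refine measurable_pi_lambda _ fun e => ?_
  unfold Phi
  refine Measurable.ite ?_ ?_ measurable_const
  · exact measurable_fst ((measurableSet_good).inter (measurableSet_mem_edgeSet e))
  · exact measurable_limVal_param (labelMeasure ℕ) (fun n A x => sEdge (graphOfTable A) e n x)
      (fun n => measurable_sEdge_table e n)

theorem measurable_Phi (G : SimpleGraph ℕ) : Measurable (Phi G) := by
  refine measurable_pi_lambda _ fun e => ?_
  unfold Phi
  by_cases h : Good G ∧ e ∈ G.edgeSet
  · simp only [if_pos h]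
    exact measurable_limVal _ (measurable_sEdge G e)
  · simp only [if_neg h]
    exact measurable_const

theorem sEdge_comap (σ : Equiv.Perm ℕ) (G : SimpleGraph ℕ) (e : Sym2 ℕ) (n : ℕ) (x : ℕ → unitInterval) :
    sEdge (G.comap ⇑σ) e n (x ∘ ⇑σ) = sEdge G (Sym2.map ⇑σ e) n x := by
  unfold sEdge
  rw [← eball_comap_image, samp_image _ (sym2_map_injective σ)]
  congr 1
  · funext A J
    exact fusfM_comap σ G A J
  · funext f
    simp only [Function.comp_apply, lab_comap]
  · funext f
    simp only [Function.comp_apply, lab_comap]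

theorem Phi_comap (σ : Equiv.Perm ℕ) (G : SimpleGraph ℕ) (x : ℕ → unitInterval) :
    Phi (G.comap ⇑σ) (x ∘ ⇑σ) = Phi G x ∘ Sym2.map ⇑σ := by
  funext e
  simp only [Function.comp_apply]
  unfold Phi
  have hiff : (Good (G.comap ⇑σ) ∧ e ∈ (G.comap ⇑σ).edgeSet) ↔ (Good G ∧ Sym2.map ⇑σ e ∈ G.edgeSet) := by
    rw [good_comap_iff, mem_edgeSet_comap]
  by_cases h : Good G ∧ Sym2.map ⇑σ e ∈ G.edgeSet
  · rw [if_pos h, if_pos (hiff.2 h)]
    have hτ : MeasurePreserving (fun x : ℕ → unitInterval => x ∘ ⇑σ) (labelMeasure ℕ) (labelMeasure ℕ) :=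
      ⟨measurable_comp_perm _, labelMeasure_map_perm σ⟩
    rw [← limVal_comp hτ (measurable_sEdge (G.comap ⇑σ) e) x]
    congr 1
    funext n y
    exact sEdge_comap σ G e n y
  · rw [if_neg h, if_neg (fun h' => h (hiff.1 h'))]


/-- the CORE theorem, as a hypothesis -/
def CoreStatement : Prop :=
  ∀ (α : Type) [DecidableEq α] (c : Finset α → Finset α → ℝ), NegFam c →
    UCauchy ((labelMeasure α).prod (labelMeasure α)) (fun W w o => samp c W w.1 w.2 o)

section law
variable (G : SimpleGraph ℕ)

/-- the two label fields on the edges -/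
noncomputable def edgeLab (x : ℕ → unitInterval) : (G.edgeSet → unitInterval) × (G.edgeSet → unitInterval) :=
  (fun f => lab G x f 0, fun f => lab G x f 1)

theorem measurePreserving_edgeLab (hG : ∀ v : ℕ, (G.neighborSet v).Finite) :
    MeasurePreserving (edgeLab G) (labelMeasure ℕ)
      ((labelMeasure G.edgeSet).prod (labelMeasure G.edgeSet)) := by
  have m1 : Measurable (fun x (p : G.edgeSet × ℕ) => lab G x p.1 p.2) :=
    measurable_pi_iff.mpr fun p => (measurable_pi_apply p.2).comp (measurable_lab G p.1)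
  have h : edgeLab G = pairOf ∘ (fun x (p : G.edgeSet × ℕ) => lab G x p.1 p.2) := rfl
  refine ⟨h ▸ measurable_pairOf.comp m1, ?_⟩
  rw [h, ← Measure.map_map measurable_pairOf m1, map_lab_uncurried G hG, map_pairOf]

open Classical in
/-- the family on the edge set -/
noncomputable def cEdge (A J : Finset G.edgeSet) : ℝ :=
  fusfM G (A.image Subtype.val) (J.image Subtype.val)

open Classical in
/-- the windows on the edge set -/
noncomputable def winEdge (o : G.edgeSet) (n : ℕ) : Finset G.edgeSet :=
  (eball G o n).subtype (· ∈ G.edgeSet)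

open Classical in
theorem image_winEdge (o : G.edgeSet) (n : ℕ) : (winEdge G o n).image Subtype.val = eball G o n := by
  ext f
  simp only [winEdge, Finset.mem_image, Finset.mem_subtype, Subtype.exists, exists_and_right, exists_eq_right]
  exact ⟨fun ⟨_, h⟩ => h, fun h => ⟨eball_subset_edgeSet G o n h, h⟩⟩

open Classical in
theorem law_Phi (hcore : CoreStatement) (hG : Good G) (F : Finset (Sym2 ℕ))
    (hF : (F : Set (Sym2 ℕ)) ⊆ G.edgeSet) :
    labelMeasure ℕ {x | ∀ e ∈ F, Phi G x e = true} = ENNReal.ofReal (fusfQ G F) := by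
  have hneg : NegFam (cEdge G) :=
    negFam_image ⟨cylFam_fusfM G hG.1, fusfM_empty G hG.1, fusfM_N1 G hG.1, fusfM_N2 G hG.1⟩
      Subtype.val Subtype.val_injective
  have hτ := measurePreserving_edgeLab G hG.2
  set s : Finset G.edgeSet → (ℕ → unitInterval) → G.edgeSet → Bool :=
    fun W x o => samp (cEdge G) W (edgeLab G x).1 (edgeLab G x).2 o with hs
  have hsm : ∀ W o, Measurable (fun x => s W x o) := fun W o =>
    (measurable_samp (cEdge G) W o).comp hτ.measurable
  have hc : UCauchy (labelMeasure ℕ) s :=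
    UCauchy.comp (hcore G.edgeSet (cEdge G) hneg) (fun W o => measurable_samp (cEdge G) W o) hτ
  have hw : Exhausts (winEdge G) := by
    refine ⟨fun o n m hnm f hf => ?_, fun o W0 => ?_⟩
    · simp only [winEdge, Finset.mem_subtype] at hf ⊢
      exact eball_mono hG.2 o hnm hf
    · obtain ⟨n, hn⟩ := exists_subset_eball hG o.2 (W0.image Subtype.val) (by
        intro f hf
        simp only [Finset.coe_image, Set.mem_image, Finset.mem_coe] at hf
        obtain ⟨g, _, rfl⟩ := hf
        exact g.2)
      refine ⟨n, fun f hf => ?_⟩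
      simp only [winEdge, Finset.mem_subtype]
      exact hn (Finset.mem_image_of_mem _ hf)
  set F' : Finset G.edgeSet := F.subtype (· ∈ G.edgeSet) with hF'
  have hF'im : F'.image Subtype.val = F := by
    ext f
    simp only [hF', Finset.mem_image, Finset.mem_subtype, Subtype.exists, exists_and_right, exists_eq_right]
    exact ⟨fun ⟨_, h⟩ => h, fun h => ⟨hF h, h⟩⟩
  have hq : ∀ W, F' ⊆ W → labelMeasure ℕ {x | ∀ o ∈ F', s W x o = true} = ENNReal.ofReal (fusfQ G F) := by
    intro W hW
    have hm : MeasurableSet {w : (G.edgeSet → unitInterval) × (G.edgeSet → unitInterval) |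
        ∀ o ∈ F', samp (cEdge G) W w.1 w.2 o = true} := by
      have : {w : (G.edgeSet → unitInterval) × (G.edgeSet → unitInterval) |
        ∀ o ∈ F', samp (cEdge G) W w.1 w.2 o = true} = ⋂ o ∈ F', {w | samp (cEdge G) W w.1 w.2 o = true} := by
        ext w; simp
      rw [this]
      exact Finset.measurableSet_biInter F' fun o _ =>
        measurableSet_eq_fun (measurable_samp (cEdge G) W o) measurable_const
    have h1 := hτ.measure_preimage hm.nullMeasurableSet
    have h2 := samp_law hneg.cyl hneg.one hW
    have h3 : cEdge G F' ∅ = fusfQ G F := by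
      unfold cEdge
      rw [hF'im, Finset.image_empty, fusfM_left]
    rw [h3] at h2
    rw [← h2, ← h1]
    rfl
  have key := measure_forall_limVal_eq hsm hc hw F' _ hq
  rw [← key]
  congr 1
  ext x
  simp only [Set.mem_ofPred_eq]
  have hval : ∀ o : G.edgeSet, Phi G x o = limVal (labelMeasure ℕ) (fun n x => s (winEdge G o n) x o) x := by
    intro o
    unfold Phi
    rw [if_pos ⟨hG, o.2⟩]
    congr 1
    funext n y
    unfold sEdge
    rw [← image_winEdge, samp_image _ Subtype.val_injective]
    rfl
  constructor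
  · intro h o ho
    rw [← hval]
    exact h o (by simpa [hF'] using ho)
  · intro h e he
    have := h ⟨e, hF he⟩ (by simpa [hF'] using he)
    rw [← hval] at this
    exact this

end law

/-- **S0254 modulo the CORE theorem** -/
theorem S0254_of_core (hcore : CoreStatement) :
    ∃ Φ : SimpleGraph ℕ → (ℕ → unitInterval) → (Sym2 ℕ → Bool),
      Measurable (fun p : (ℕ → ℕ → Bool) × (ℕ → unitInterval) =>
          Φ (Crest.ProbabilityR.GraphTables.graphOfTable p.1) p.2) ∧
      (∀ (σ : Equiv.Perm ℕ) (G : SimpleGraph ℕ) (x : ℕ → unitInterval),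
          Φ (G.comap ⇑σ) (x ∘ ⇑σ) = Φ G x ∘ Sym2.map ⇑σ) ∧
      ∀ G : SimpleGraph ℕ, G.Connected → (∀ v : ℕ, (G.neighborSet v).Finite) →
        ∀ S : ℕ → Finset ℕ, Monotone S → (∀ v : ℕ, ∃ n, v ∈ S n) →
          (∀ n, (G.induce (S n : Set ℕ)).Connected) →
          ∀ F : Finset (Sym2 ℕ), (↑F : Set (Sym2 ℕ)) ⊆ G.edgeSet →
            Filter.Tendsto (fun n => Crest.ProbabilityR.SpanningTrees.ustContains G (S n) F) Filter.atTop
              (nhds (((Crest.ProbabilityR.Labels.labelMeasure ℕ).map (Φ G) {ω | ∀ e ∈ F, ω e = true}).toReal)) := by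
  refine ⟨Phi, measurable_Phi_table, Phi_comap, ?_⟩
  intro G hconn hlf S hmono hcov hSconn F hF
  have hms : MeasurableSet {ω : Sym2 ℕ → Bool | ∀ e ∈ F, ω e = true} := by
    have : {ω : Sym2 ℕ → Bool | ∀ e ∈ F, ω e = true} = ⋂ e ∈ F, {ω | ω e = true} := by
      ext ω; simp
    rw [this]
    exact Finset.measurableSet_biInter F fun e _ =>
      measurableSet_eq_fun (measurable_pi_apply e) measurable_const
  rw [Measure.map_apply (measurable_Phi G) hms]
  have h1 : labelMeasure ℕ (Phi G ⁻¹' {ω | ∀ e ∈ F, ω e = true}) = ENNReal.ofReal (fusfQ G F) :=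
    law_Phi G hcore ⟨hconn, hlf⟩ F hF
  have h0 : 0 ≤ fusfQ G F := by
    rw [← fusfM_left]
    exact (cylFam_fusfM G hconn).nonneg _ _
  rw [h1, ENNReal.toReal_ofReal h0]
  exact tendsto_ustContains ⟨hmono, hcov, hSconn⟩ F

end H
end Crest.Agent.R168
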