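/-
Row 168 (S0254/S0255), helper33: two independent label fields out of one.
`pairOf z = (z (·,0), z (·,1))` pushes the iid law on `α × ℕ` to the product of two iid laws on `α`;
`tau u = (split (u ·) 0, split (u ·) 1)` pushes `labelMeasure α` to `labelMeasure α × labelMeasure α`.
-/
import Crest.Agent.R168_H_Labels
import Crest.Agent.R168_H_Balls

set_option autoImplicit false
open MeasureTheory Crest.ProbabilityR.Labels

namespace Crest.Agent.R168
open Crest.Agent.R168.H

variable {α : Type*}

/-- the two label fields read from the columns `0` and `1` -/
def pairOf (z : α × ℕ → unitInterval) : (α → unitInterval) × (α → unitInterval) :=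
  (fun a => z (a, 0), fun a => z (a, 1))

theorem measurable_pairOf : Measurable (pairOf (α := α)) := by
  unfold pairOf
  fun_prop

theorem map_pairOf :
    (Measure.infinitePi (fun _ : α × ℕ => (volume : Measure unitInterval))).map pairOf
      = (labelMeasure α).prod (labelMeasure α) := by
  -- reindex by the injection `Fin 2 × α → α × ℕ`
  let j : Fin 2 × α → α × ℕ := fun p => (p.2, (p.1 : ℕ))
  have hj : Function.Injective j := by
    rintro ⟨i, a⟩ ⟨i', a'⟩ h
    simp only [j, Prod.mk.injEq] at h
    exact Prod.ext (Fin.ext h.2) h.1
  have h1 := infinitePi_map_comp_injective (volume : Measure unitInterval) j hj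
  have h2 := Measure.infinitePi_map_curry (fun (_ : Fin 2) (_ : α) => (volume : Measure unitInterval))
  have h3 : Measure.infinitePi (fun _ : Fin 2 => Measure.infinitePi (fun _ : α => (volume : Measure unitInterval)))
      = Measure.pi (fun _ : Fin 2 => labelMeasure α) := by
    rw [Measure.infinitePi_eq_pi]
    rfl
  have h4 := (measurePreserving_finTwoArrow (labelMeasure α)).map_eq
  have hm1 : Measurable (fun x : α × ℕ → unitInterval => x ∘ j) := measurable_comp_perm j
  have hcomp : (pairOf (α := α)) = (MeasurableEquiv.finTwoArrow (α := α → unitInterval)) ∘
      (MeasurableEquiv.curry (Fin 2) α unitInterval) ∘ (fun x : α × ℕ → unitInterval => x ∘ j) := by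
    funext z
    rfl
  rw [hcomp, ← Measure.map_map (MeasurableEquiv.measurable _)
    ((MeasurableEquiv.measurable _).comp hm1), ← Measure.map_map (MeasurableEquiv.measurable _) hm1,
    h1, h2, h3, h4]

/-- the two label fields obtained by splitting every label -/
noncomputable def tau (u : α → unitInterval) : (α → unitInterval) × (α → unitInterval) :=
  (fun a => split (u a) 0, fun a => split (u a) 1)

theorem measurable_tau : Measurable (tau (α := α)) := by
  have h : ∀ n : ℕ, Measurable (fun x : unitInterval => split x n) := fun n =>
    (measurable_pi_apply n).comp measurable_split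
  unfold tau
  refine Measurable.prodMk ?_ ?_
  · exact measurable_pi_lambda _ fun a => (h 0).comp (measurable_pi_apply a)
  · exact measurable_pi_lambda _ fun a => (h 1).comp (measurable_pi_apply a)

theorem measurePreserving_tau :
    MeasurePreserving (tau (α := α)) (labelMeasure α) ((labelMeasure α).prod (labelMeasure α)) := by
  refine ⟨measurable_tau, ?_⟩
  have h1 : (labelMeasure α).map (fun x a => split (x a)) =
      Measure.infinitePi (fun _ : α => Measure.infinitePi (fun _ : ℕ => (volume : Measure unitInterval))) := by
    unfold labelMeasure
    rw [Measure.infinitePi_map_pi (fun _ : α => (volume : Measure unitInterval))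
      (f := fun _ => split) (fun _ => measurable_split)]
    simp only [map_split]
  have h2 := Measure.infinitePi_map_curry_symm (fun (_ : α) (_ : ℕ) => (volume : Measure unitInterval))
  have hm0 : Measurable (fun (x : α → unitInterval) a => split (x a)) :=
    measurable_pi_lambda _ fun a => measurable_split.comp (measurable_pi_apply a)
  have hcomp : (tau (α := α)) = pairOf ∘ (MeasurableEquiv.curry α ℕ unitInterval).symm ∘
      (fun (x : α → unitInterval) a => split (x a)) := by
    funext u
    rfl
  rw [hcomp, ← Measure.map_map measurable_pairOf ((MeasurableEquiv.measurable _).comp hm0),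
    ← Measure.map_map (MeasurableEquiv.measurable _) hm0, h1, h2, map_pairOf]

end Crest.Agent.R168
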