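/-
Row 168 (S0255), helper33: abstract assembly.  From a family of finite-window samplers `s W ω o` on a countable group
(measurable, uniformly Cauchy, correct finite-dimensional laws, natural under left translations) to a factor of iid.
-/
import Crest.Agent.R168_H_Law
import Crest.Agent.R168_PairLabels
import Crest.Prelude.Def_StronglyRayleigh

set_option autoImplicit false
open MeasureTheory Crest.ProbabilityR.Labels Crest.ProbabilityR.StronglyRayleigh
open scoped ENNReal

namespace Crest.Agent.R168
open Crest.Agent.R168.H

section ext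
variable {α : Type*}

/-- two probability measures on `α → Bool` that agree on the events "all sites of `F` are occupied" are equal -/
theorem measure_bool_ext (μ ν : Measure (α → Bool)) [IsProbabilityMeasure μ] [IsProbabilityMeasure ν]
    (h : ∀ F : Finset α, μ {ω | ∀ o ∈ F, ω o = true} = ν {ω | ∀ o ∈ F, ω o = true}) : μ = ν := by
  classical
  let C : Set (Set (α → Bool)) := {S | ∃ F : Finset α, S = {ω | ∀ o ∈ F, ω o = true}}
  have hpi : IsPiSystem C := by
    rintro _ ⟨F, rfl⟩ _ ⟨F', rfl⟩ _
    refine ⟨F ∪ F', ?_⟩
    ext ω
    simp only [Set.mem_inter_iff, Set.mem_ofPred_eq, Finset.mem_union]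
    constructor
    · rintro ⟨h1, h2⟩ o (ho | ho)
      · exact h1 o ho
      · exact h2 o ho
    · intro h
      exact ⟨fun o ho => h o (Or.inl ho), fun o ho => h o (Or.inr ho)⟩
  have hgen : (MeasurableSpace.pi : MeasurableSpace (α → Bool)) = MeasurableSpace.generateFrom C := by
    apply le_antisymm
    · -- every coordinate is measurable for the generated σ-algebra
      refine iSup_le fun a => ?_
      rintro _ ⟨T, -, rfl⟩
      have htrue : MeasurableSet[MeasurableSpace.generateFrom C] {ω : α → Bool | ω a = true} := by
        apply MeasurableSpace.measurableSet_generateFrom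
        exact ⟨{a}, by ext ω; simp⟩
      have hfalse : MeasurableSet[MeasurableSpace.generateFrom C] {ω : α → Bool | ω a = false} := by
        have : {ω : α → Bool | ω a = false} = {ω : α → Bool | ω a = true}ᶜ := by
          ext ω; simp
        rw [this]
        exact htrue.compl
      have hT : (fun ω : α → Bool => ω a) ⁻¹' T
          = ({ω | ω a = true ∧ true ∈ T} ∪ {ω | ω a = false ∧ false ∈ T}) := by
        ext ω
        simp only [Set.mem_preimage, Set.mem_union, Set.mem_ofPred_eq]
        cases hω : ω a <;> simp
      rw [hT]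
      refine MeasurableSet.union ?_ ?_
      · by_cases ht : true ∈ T
        · simpa [ht] using htrue
        · simp [ht]
      · by_cases ht : false ∈ T
        · simpa [ht] using hfalse
        · simp [ht]
    · apply MeasurableSpace.generateFrom_le
      rintro _ ⟨F, rfl⟩
      have : {ω : α → Bool | ∀ o ∈ F, ω o = true} = ⋂ o ∈ F, {ω | ω o = true} := by
        ext ω; simp
      rw [this]
      exact Finset.measurableSet_biInter F fun o _ =>
        measurableSet_eq_fun (measurable_pi_apply o) measurable_const
  refine ext_of_generate_finite C hgen hpi ?_ (by simp)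
  rintro _ ⟨F, rfl⟩
  exact h F

end ext

section group
variable {Γ : Type*} [Group Γ]

/-- simultaneous left shift of the two label fields -/
def theta (g : Γ) (ω : (Γ → unitInterval) × (Γ → unitInterval)) : (Γ → unitInterval) × (Γ → unitInterval) :=
  (leftShift g ω.1, leftShift g ω.2)

theorem measurePreserving_leftShift (g : Γ) :
    MeasurePreserving (leftShift g : (Γ → unitInterval) → (Γ → unitInterval)) (labelMeasure Γ) (labelMeasure Γ) := by
  have hj : Function.Injective (fun h : Γ => g⁻¹ * h) := mul_right_injective _
  exact ⟨measurable_comp_perm (fun h : Γ => g⁻¹ * h), labelMeasure_map_comp_injective _ hj⟩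

theorem measurePreserving_theta (g : Γ) :
    MeasurePreserving (theta g) ((labelMeasure Γ).prod (labelMeasure Γ))
      ((labelMeasure Γ).prod (labelMeasure Γ)) :=
  (measurePreserving_leftShift g).prod (measurePreserving_leftShift g)

theorem tau_leftShift (g : Γ) (u : Γ → unitInterval) : tau (leftShift g u) = theta g (tau u) := rfl

/-- an exhaustion of a countable type by finite sets -/
theorem exists_finset_exhaustion (Γ : Type*) [Countable Γ] :
    ∃ E : ℕ → Finset Γ, Monotone E ∧ ∀ W : Finset Γ, ∃ n, W ⊆ E n := by
  classical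
  rcases isEmpty_or_nonempty Γ with hΓ | hΓ
  · exact ⟨fun _ => ∅, monotone_const, fun W => ⟨0, fun x => (hΓ.false x).elim⟩⟩
  obtain ⟨f, hf⟩ := exists_surjective_nat Γ
  refine ⟨fun n => (Finset.range (n + 1)).image f, ?_, ?_⟩
  · intro n m hnm
    exact Finset.image_subset_image (Finset.range_subset_range.2 (by omega))
  · intro W
    induction W using Finset.induction_on with
    | empty => exact ⟨0, Finset.empty_subset _⟩
    | insert a W _ ih =>
      obtain ⟨n, hn⟩ := ih
      obtain ⟨k, hk⟩ := hf a
      refine ⟨max n k, ?_⟩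
      intro x hx
      rw [Finset.mem_insert] at hx
      rcases hx with rfl | hx
      · exact Finset.mem_image.2 ⟨k, Finset.mem_range.2 (by omega), hk⟩
      · have := hn hx
        rw [Finset.mem_image] at this ⊢
        obtain ⟨i, hi, hix⟩ := this
        exact ⟨i, Finset.mem_range.2 (by have := Finset.mem_range.1 hi; omega), hix⟩

/-- **Abstract assembly for S0255.** -/
theorem fiid_of_sampler [Countable Γ] [DecidableEq Γ] (ν : Measure (Γ → Bool)) [IsProbabilityMeasure ν]
    (s : Finset Γ → (Γ → unitInterval) × (Γ → unitInterval) → Γ → Bool)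
    (hmeas : ∀ W o, Measurable (fun ω => s W ω o))
    (hC : UCauchy ((labelMeasure Γ).prod (labelMeasure Γ)) s)
    (hlaw : ∀ F W : Finset Γ, F ⊆ W →
      ((labelMeasure Γ).prod (labelMeasure Γ)) {ω | ∀ o ∈ F, s W ω o = true} = ν {ω | ∀ o ∈ F, ω o = true})
    (hnat : ∀ (g : Γ) (W : Finset Γ) (ω : (Γ → unitInterval) × (Γ → unitInterval)) (o : Γ),
      s W (theta g ω) o = s (W.image (fun h => g⁻¹ * h)) ω (g⁻¹ * o)) :
    ∃ Φ : (Γ → unitInterval) → (Γ → Bool), Measurable Φ ∧
      (∀ (g : Γ) (u : Γ → unitInterval), Φ (leftShift g u) = leftShift g (Φ u)) ∧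
      (labelMeasure Γ).map Φ = ν := by
  obtain ⟨E, hEmono, hEcov⟩ := exists_finset_exhaustion Γ
  set P := (labelMeasure Γ).prod (labelMeasure Γ) with hP
  let win : Γ → ℕ → Finset Γ := fun o n => (E n).image (fun h => o * h)
  have hwin : Exhausts win := by
    refine ⟨fun o n m hnm => Finset.image_subset_image (hEmono hnm), fun o W0 => ?_⟩
    obtain ⟨n, hn⟩ := hEcov (W0.image (fun h => o⁻¹ * h))
    refine ⟨n, fun x hx => ?_⟩
    refine Finset.mem_image.2 ⟨o⁻¹ * x, hn (Finset.mem_image_of_mem _ hx), by simp⟩
  let G : Γ → ℕ → (Γ → unitInterval) × (Γ → unitInterval) → Bool := fun o n ω => s (win o n) ω o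
  have hGm : ∀ o n, Measurable (G o n) := fun o n => hmeas _ _
  let Ψ : (Γ → unitInterval) × (Γ → unitInterval) → Γ → Bool := fun ω o => limVal P (G o) ω
  have hΨm : Measurable Ψ := measurable_pi_lambda _ fun o => measurable_limVal P (hGm o)
  refine ⟨Ψ ∘ tau, hΨm.comp measurable_tau, ?_, ?_⟩
  · intro g u
    funext h
    show limVal P (G h) (tau (leftShift g u)) = limVal P (G (g⁻¹ * h)) (tau u)
    rw [tau_leftShift, ← limVal_comp (measurePreserving_theta g) (hGm h)]
    congr 1
    funext n ω
    show s (win h n) (theta g ω) h = s (win (g⁻¹ * h) n) ω (g⁻¹ * h)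
    rw [hnat]
    congr 1
    simp only [win, Finset.image_image]
    refine Finset.image_congr fun x _ => ?_
    simp [mul_assoc]
  · rw [← Measure.map_map hΨm measurable_tau, measurePreserving_tau.map_eq]
    haveI : IsProbabilityMeasure (P.map Ψ) := Measure.isProbabilityMeasure_map hΨm.aemeasurable
    refine measure_bool_ext _ _ fun F => ?_
    have hset : MeasurableSet {ω : Γ → Bool | ∀ o ∈ F, ω o = true} := by
      have : {ω : Γ → Bool | ∀ o ∈ F, ω o = true} = ⋂ o ∈ F, {ω | ω o = true} := by
        ext ω; simp
      rw [this]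
      exact Finset.measurableSet_biInter F fun o _ =>
        measurableSet_eq_fun (measurable_pi_apply o) measurable_const
    rw [Measure.map_apply hΨm hset]
    exact measure_forall_limVal_eq hmeas hC hwin F _ (fun W hW => hlaw F W hW)

end group

end Crest.Agent.R168
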