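/-
Row 168 (S0255), part F-A (helper19): adapter from a strongly Rayleigh probability measure on `ι → Bool`
to the cylinder-mass format of `R168_MassDefs` (`CylFam`, `MassN1`, `MassN2`).
-/
import Crest.Agent.R168_MassBasic
import Crest.Agent.R168_SRWeight
import Crest.Prelude.Def_StronglyRayleigh

set_option autoImplicit false
open Finset MeasureTheory Crest.ProbabilityR.StronglyRayleigh

namespace Crest.Agent.R168

section sets
variable {ι : Type*}

/-- the cylinder "occupied on `I`, empty on `J`" -/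
def cylSet (I J : Finset ι) : Set (ι → Bool) :=
  {ω | (∀ i ∈ I, ω i = true) ∧ ∀ i ∈ J, ω i = false}

/-- the atom "occupied exactly at `A` within `E`" -/
def atomSet (E A : Finset ι) : Set (ι → Bool) := {ω | ∀ i ∈ E, (ω i = true ↔ i ∈ A)}

/-- cylinder probabilities of `ν` -/
noncomputable def cylM (ν : Measure (ι → Bool)) (I J : Finset ι) : ℝ := (ν (cylSet I J)).toReal

/-- atom probabilities of the marginal of `ν` on `E` -/
noncomputable def atomW (ν : Measure (ι → Bool)) (E A : Finset ι) : ℝ := (ν (atomSet E A)).toReal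

theorem measurableSet_coord (i : ι) (b : Bool) : MeasurableSet {ω : ι → Bool | ω i = b} :=
  measurableSet_eq_fun (measurable_pi_apply i) measurable_const

theorem measurableSet_cylSet (I J : Finset ι) : MeasurableSet (cylSet I J) := by
  have h1 : {ω : ι → Bool | ∀ i ∈ I, ω i = true} = ⋂ i ∈ I, {ω : ι → Bool | ω i = true} := by
    ext ω; simp
  have h2 : {ω : ι → Bool | ∀ i ∈ J, ω i = false} = ⋂ i ∈ J, {ω : ι → Bool | ω i = false} := by
    ext ω; simp
  have : cylSet I J = {ω : ι → Bool | ∀ i ∈ I, ω i = true} ∩ {ω : ι → Bool | ∀ i ∈ J, ω i = false} := rfl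
  rw [this, h1, h2]
  exact (Finset.measurableSet_biInter _ fun i _ => measurableSet_coord i true).inter
    (Finset.measurableSet_biInter _ fun i _ => measurableSet_coord i false)

theorem measurableSet_atomSet (E A : Finset ι) : MeasurableSet (atomSet E A) := by
  have h1 : atomSet E A = ⋂ i ∈ E, {ω : ι → Bool | ω i = true ↔ i ∈ A} := by
    ext ω; simp [atomSet]
  rw [h1]
  refine Finset.measurableSet_biInter _ fun i _ => ?_
  by_cases hi : i ∈ A
  · simpa [hi] using measurableSet_coord i true
  · simpa [hi] using measurableSet_coord i false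

theorem atomSet_disjoint {E A A' : Finset ι} (hA : A ⊆ E) (hA' : A' ⊆ E) (h : A ≠ A') :
    Disjoint (atomSet E A) (atomSet E A') := by
  rw [Set.disjoint_left]
  intro ω h1 h2
  apply h
  ext i
  constructor
  · intro hi
    exact (h2 i (hA hi)).1 ((h1 i (hA hi)).2 hi)
  · intro hi
    exact (h1 i (hA' hi)).1 ((h2 i (hA' hi)).2 hi)

end sets

variable {ι : Type*} [DecidableEq ι]

theorem cylSet_eq_biUnion {E I J : Finset ι} (hI : I ⊆ E) (hJ : J ⊆ E) :
    cylSet I J = ⋃ A ∈ E.powerset.filter (fun A => I ⊆ A ∧ Disjoint A J), atomSet E A := by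
  ext ω
  simp only [cylSet, atomSet, Set.mem_ofPred_eq, Set.mem_iUnion, Finset.mem_filter,
    Finset.mem_powerset, exists_prop]
  constructor
  · rintro ⟨h1, h2⟩
    refine ⟨E.filter (fun i => ω i = true), ⟨Finset.filter_subset _ _, ?_, ?_⟩, ?_⟩
    · intro i hi
      exact Finset.mem_filter.2 ⟨hI hi, h1 i hi⟩
    · rw [Finset.disjoint_left]
      intro i hi hiJ
      have := (Finset.mem_filter.1 hi).2
      rw [h2 i hiJ] at this
      exact Bool.false_ne_true this
    · intro i hi
      simp [hi]
  · rintro ⟨A, ⟨hAE, hIA, hAJ⟩, hω⟩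
    refine ⟨fun i hi => (hω i (hI hi)).2 (hIA hi), fun i hi => ?_⟩
    have : ¬ ω i = true := fun h => (Finset.disjoint_left.1 hAJ) ((hω i (hJ hi)).1 h) hi
    simpa using this

theorem cylM_eq_mass (ν : Measure (ι → Bool)) [IsFiniteMeasure ν] {E I J : Finset ι} (hI : I ⊆ E)
    (hJ : J ⊆ E) : cylM ν I J = mass (atomW ν E) E I J := by
  unfold cylM mass atomW
  rw [cylSet_eq_biUnion hI hJ, measure_biUnion_finset, ENNReal.toReal_sum]
  · intro A _
    exact measure_ne_top _ _
  · intro A hA A' hA' hne
    simp only [Finset.coe_filter, Finset.mem_powerset, Set.mem_ofPred_eq] at hA hA'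
    exact atomSet_disjoint hA.1 hA'.1 hne
  · intro A _
    exact measurableSet_atomSet E A

omit [DecidableEq ι] in
theorem atomW_nonneg (ν : Measure (ι → Bool)) (E A : Finset ι) : 0 ≤ atomW ν E A :=
  ENNReal.toReal_nonneg

omit [DecidableEq ι] in
theorem stableW_atomW {ν : Measure (ι → Bool)} (h : IsStronglyRayleigh ν) (E : Finset ι) :
    StableW (atomW ν E) E := by
  intro z hz
  exact h E z hz

omit [DecidableEq ι] in
theorem cylM_nonneg (ν : Measure (ι → Bool)) (I J : Finset ι) : 0 ≤ cylM ν I J :=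
  ENNReal.toReal_nonneg

omit [DecidableEq ι] in
theorem cylM_empty (ν : Measure (ι → Bool)) [IsProbabilityMeasure ν] : cylM ν ∅ ∅ = 1 := by
  have : cylSet (∅ : Finset ι) ∅ = Set.univ := by
    ext ω; simp [cylSet]
  simp [cylM, this]

theorem cylM_split (ν : Measure (ι → Bool)) [IsFiniteMeasure ν] (I J : Finset ι) (g : ι) :
    cylM ν I J = cylM ν (insert g I) J + cylM ν I (insert g J) := by
  set E := insert g (I ∪ J) with hE
  have hIE : I ⊆ E := fun i hi => Finset.mem_insert_of_mem (Finset.mem_union_left _ hi)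
  have hJE : J ⊆ E := fun i hi => Finset.mem_insert_of_mem (Finset.mem_union_right _ hi)
  have hg : g ∈ E := Finset.mem_insert_self _ _
  rw [cylM_eq_mass ν hIE hJE, cylM_eq_mass ν (Finset.insert_subset hg hIE) hJE,
    cylM_eq_mass ν hIE (Finset.insert_subset hg hJE)]
  exact mass_split _ _ _ _ _

theorem cylFam_cylM (ν : Measure (ι → Bool)) [IsFiniteMeasure ν] : CylFam (cylM ν) :=
  ⟨cylM_nonneg ν, cylM_split ν⟩

/-- (N1) for the cylinder probabilities of a strongly Rayleigh measure -/
theorem massN1_cylM {ν : Measure (ι → Bool)} [IsFiniteMeasure ν] (h : IsStronglyRayleigh ν) :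
    MassN1 (cylM ν) := by
  intro I J hIJ a g hag haI haJ hgI hgJ
  set E := insert a (insert g (I ∪ J)) with hE
  have hIE : I ⊆ E := fun i hi =>
    Finset.mem_insert_of_mem (Finset.mem_insert_of_mem (Finset.mem_union_left _ hi))
  have hJE : J ⊆ E := fun i hi =>
    Finset.mem_insert_of_mem (Finset.mem_insert_of_mem (Finset.mem_union_right _ hi))
  have ha : a ∈ E := Finset.mem_insert_self _ _
  have hg : g ∈ E := Finset.mem_insert_of_mem (Finset.mem_insert_self _ _)
  rw [cylM_eq_mass ν hIE hJE, cylM_eq_mass ν (Finset.insert_subset ha hIE) hJE,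
    cylM_eq_mass ν (Finset.insert_subset hg hIE) hJE,
    cylM_eq_mass ν (Finset.insert_subset ha (Finset.insert_subset hg hIE)) hJE]
  exact stableW_N1 (atomW_nonneg ν E) (stableW_atomW h E) I J hIJ a g hag haI haJ hgI hgJ

/-- (N2) for the cylinder probabilities of a strongly Rayleigh measure -/
theorem massN2_cylM {ν : Measure (ι → Bool)} [IsFiniteMeasure ν] (h : IsStronglyRayleigh ν) :
    MassN2 (cylM ν) := by
  intro I J hIJ a haI haJ R haR hRI hRJ
  set E := insert a (R ∪ (I ∪ J)) with hE
  have hIE : I ⊆ E := fun i hi =>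
    Finset.mem_insert_of_mem (Finset.mem_union_right _ (Finset.mem_union_left _ hi))
  have hJE : J ⊆ E := fun i hi =>
    Finset.mem_insert_of_mem (Finset.mem_union_right _ (Finset.mem_union_right _ hi))
  have ha : a ∈ E := Finset.mem_insert_self _ _
  have hR : ∀ g ∈ R, g ∈ E := fun g hg => Finset.mem_insert_of_mem (Finset.mem_union_left _ hg)
  have key := stableW_N2 (atomW_nonneg ν E) (stableW_atomW h E) I J hIJ a haI haJ R haR hRI hRJ
  rw [cylM_eq_mass ν hIE hJE, cylM_eq_mass ν (Finset.insert_subset ha hIE) hJE]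
  refine le_trans (le_of_eq ?_) key
  refine Finset.sum_congr rfl fun g hg => ?_
  rw [cylM_eq_mass ν (Finset.insert_subset (hR g hg) hIE) hJE,
    cylM_eq_mass ν (Finset.insert_subset ha (Finset.insert_subset (hR g hg) hIE)) hJE]

end Crest.Agent.R168
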