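/-
Row 168 (S0255), helper33: shift invariance of the cylinder masses of a shift invariant law.
-/
import Crest.Agent.R168_SR_Meas

set_option autoImplicit false
open MeasureTheory Crest.ProbabilityR.StronglyRayleigh

namespace Crest.Agent.R168
variable {Γ : Type*} [Group Γ] [DecidableEq Γ]

theorem cylSet_image_mul (g : Γ) (I J : Finset Γ) :
    cylSet (I.image (fun h => g⁻¹ * h)) (J.image (fun h => g⁻¹ * h))
      = (leftShift g : (Γ → Bool) → (Γ → Bool)) ⁻¹' cylSet I J := by
  ext ω
  simp only [cylSet, leftShift, Set.mem_preimage, Set.mem_ofPred_eq, Finset.mem_image,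
    forall_exists_index, and_imp, forall_apply_eq_imp_iff₂]

theorem cylM_image_mul {ν : Measure (Γ → Bool)} (hinv : IsShiftInvariant ν) (g : Γ) (I J : Finset Γ) :
    cylM ν (I.image (fun h => g⁻¹ * h)) (J.image (fun h => g⁻¹ * h)) = cylM ν I J := by
  unfold cylM
  rw [cylSet_image_mul, hinv g _ (measurableSet_cylSet I J)]

end Crest.Agent.R168
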