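import Mathlib
import Crest.Agent.R168_SRPick

/-!
Row 168, package (F): negative correlation (N1) and the covering inequality (N2) for finite weight
functions with stable generating polynomial.
-/

set_option autoImplicit false

namespace Crest.Agent.R168.SRW

open Finset
open scoped ComplexConjugate

variable {ι : Type*} [DecidableEq ι]

/-- generating polynomial of a weight function on the subsets of `F` -/
noncomputable def gp (μ : Finset ι → ℝ) (F : Finset ι) (z : ι → ℂ) : ℂ :=
  ∑ S ∈ F.powerset, (μ S : ℂ) * ∏ i ∈ S, z i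

/-- stability -/
def Stable (μ : Finset ι → ℝ) (F : Finset ι) : Prop :=
  ∀ z : ι → ℂ, (∀ i ∈ F, 0 < (z i).im) → gp μ F z ≠ 0

/-- total weight of the subsets of `F` containing `T` -/
noncomputable def mass (μ : Finset ι → ℝ) (F : Finset ι) (T : Finset ι) : ℝ :=
  ∑ S ∈ F.powerset, if T ⊆ S then μ S else 0

theorem prod_two_val (S : Finset ι) (h : ι) (w t : ℂ) :
    ∏ i ∈ S, (if i = h then w else t) = if h ∈ S then w * t ^ (S.card - 1) else t ^ S.card := by
  split_ifs with hS
  · rw [← Finset.mul_prod_erase S _ hS, if_pos rfl]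
    congr 1
    rw [← Finset.card_erase_of_mem hS, ← Finset.prod_const]
    apply Finset.prod_congr rfl
    intro i hi
    rw [if_neg (Finset.ne_of_mem_erase hi)]
  · rw [← Finset.prod_const]
    apply Finset.prod_congr rfl
    intro i hi
    rw [if_neg]
    rintro rfl
    exact hS hi

section N2

variable (μ : Finset ι → ℝ) (F : Finset ι) (h : ι)

/-- real version of `A` -/
noncomputable def aR (x : ℝ) : ℝ := ∑ S ∈ F.powerset, if h ∈ S then 0 else μ S * x ^ S.card
/-- real version of `B` -/
noncomputable def bR (x : ℝ) : ℝ := ∑ S ∈ F.powerset, if h ∈ S then μ S * x ^ (S.card - 1) else 0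
noncomputable def aC (t : ℂ) : ℂ := ∑ S ∈ F.powerset, if h ∈ S then 0 else (μ S : ℂ) * t ^ S.card
noncomputable def bC (t : ℂ) : ℂ :=
  ∑ S ∈ F.powerset, if h ∈ S then (μ S : ℂ) * t ^ (S.card - 1) else 0

theorem gp_two_val (w t : ℂ) :
    gp μ F (fun i => if i = h then w else t) = aC μ F h t + w * bC μ F h t := by
  unfold gp aC bC
  rw [Finset.mul_sum, ← Finset.sum_add_distrib]
  apply Finset.sum_congr rfl
  intro S _
  rw [prod_two_val]
  split_ifs <;> ring

theorem aC_ofReal (x : ℝ) : aC μ F h x = (aR μ F h x : ℂ) := by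
  unfold aC aR
  push_cast
  apply Finset.sum_congr rfl
  intro S _
  split_ifs <;> simp

theorem bC_ofReal (x : ℝ) : bC μ F h x = (bR μ F h x : ℂ) := by
  unfold bC bR
  push_cast
  apply Finset.sum_congr rfl
  intro S _
  split_ifs <;> simp

theorem aC_conj (z : ℂ) : aC μ F h (conj z) = conj (aC μ F h z) := by
  unfold aC
  rw [map_sum]
  apply Finset.sum_congr rfl
  intro S _
  split_ifs <;> simp

theorem bC_conj (z : ℂ) : bC μ F h (conj z) = conj (bC μ F h z) := by
  unfold bC
  rw [map_sum]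
  apply Finset.sum_congr rfl
  intro S _
  split_ifs <;> simp

theorem aC_diff : Differentiable ℂ (aC μ F h) := by
  unfold aC
  apply Differentiable.fun_sum
  intro S _
  split_ifs <;> fun_prop

theorem bC_diff : Differentiable ℂ (bC μ F h) := by
  unfold bC
  apply Differentiable.fun_sum
  intro S _
  split_ifs <;> fun_prop

theorem aR_nonneg (hμ : ∀ S, 0 ≤ μ S) (x : ℝ) (hx : 0 < x) : 0 ≤ aR μ F h x := by
  unfold aR
  apply Finset.sum_nonneg
  intro S _
  split_ifs
  · exact le_refl _
  · exact mul_nonneg (hμ S) (pow_nonneg hx.le _)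

theorem bR_one : bR μ F h 1 = mass μ F {h} := by
  unfold bR mass
  apply Finset.sum_congr rfl
  intro S _
  simp [Finset.singleton_subset_iff]

theorem aR_one : aR μ F h 1 = mass μ F ∅ - mass μ F {h} := by
  unfold aR mass
  rw [← Finset.sum_sub_distrib]
  apply Finset.sum_congr rfl
  intro S _
  by_cases hS : h ∈ S <;> simp [Finset.singleton_subset_iff, hS]

theorem bR_pos (hμ : ∀ S, 0 ≤ μ S) (hpos : 0 < mass μ F {h}) (x : ℝ) (hx : 0 < x) :
    0 < bR μ F h x := by
  unfold bR
  by_contra hcon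
  push Not at hcon
  have hnn : ∀ S ∈ F.powerset, 0 ≤ (if h ∈ S then μ S * x ^ (S.card - 1) else 0) := by
    intro S _
    split_ifs
    · exact mul_nonneg (hμ S) (pow_nonneg hx.le _)
    · exact le_refl _
  have hz := (Finset.sum_eq_zero_iff_of_nonneg hnn).mp (le_antisymm hcon (Finset.sum_nonneg hnn))
  have : mass μ F {h} = 0 := by
    unfold mass
    apply Finset.sum_eq_zero
    intro S hS
    have h1 := hz S hS
    by_cases hhS : h ∈ S
    · rw [if_pos hhS] at h1
      rw [if_pos (Finset.singleton_subset_iff.mpr hhS)]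
      rcases mul_eq_zero.mp h1 with h2 | h2
      · exact h2
      · exact absurd h2 (pow_ne_zero _ hx.ne')
    · rw [if_neg]
      rwa [Finset.singleton_subset_iff]
  linarith

theorem aR_hasDerivAt :
    HasDerivAt (aR μ F h) (∑ S ∈ F.powerset, if h ∈ S then 0 else μ S * S.card) 1 := by
  unfold aR
  apply HasDerivAt.fun_sum
  intro S _
  split_ifs
  · exact hasDerivAt_const _ _
  · have := (hasDerivAt_pow S.card (1 : ℝ)).const_mul (μ S)
    simpa using this

theorem bR_hasDerivAt :
    HasDerivAt (bR μ F h)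
      (∑ S ∈ F.powerset, if h ∈ S then μ S * ((S.card - 1 : ℕ) : ℝ) else 0) 1 := by
  unfold bR
  apply HasDerivAt.fun_sum
  intro S _
  split_ifs
  · have := (hasDerivAt_pow (S.card - 1) (1 : ℝ)).const_mul (μ S)
    simpa using this
  · exact hasDerivAt_const _ _

theorem card_erase_eq_sum {S : Finset ι} (hS : S ⊆ F) :
    ((S.erase h).card : ℝ) = ∑ g ∈ F.erase h, if g ∈ S then (1 : ℝ) else 0 := by
  have : S.erase h = (F.erase h).filter (· ∈ S) := by
    ext g
    simp only [Finset.mem_erase, Finset.mem_filter]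
    constructor
    · rintro ⟨h1, h2⟩
      exact ⟨⟨h1, hS h2⟩, h2⟩
    · rintro ⟨⟨h1, _⟩, h2⟩
      exact ⟨h1, h2⟩
  rw [this, Finset.card_filter]
  push_cast
  rfl

theorem aR_deriv_eq :
    (∑ S ∈ F.powerset, if h ∈ S then 0 else μ S * S.card) =
      ∑ g ∈ F.erase h, (mass μ F {g} - mass μ F {h, g}) := by
  unfold mass
  simp_rw [← Finset.sum_sub_distrib]
  rw [Finset.sum_comm]
  apply Finset.sum_congr rfl
  intro S hS
  have hS' := Finset.mem_powerset.mp hS
  by_cases hhS : h ∈ S
  · rw [if_pos hhS]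
    symm
    apply Finset.sum_eq_zero
    intro g _
    by_cases hg : g ∈ S <;> simp [Finset.insert_subset_iff, hhS, hg]
  · rw [if_neg hhS]
    have h1 := card_erase_eq_sum F h hS'
    rw [Finset.erase_eq_of_notMem hhS] at h1
    rw [h1, Finset.mul_sum]
    apply Finset.sum_congr rfl
    intro g _
    by_cases hg : g ∈ S <;> simp [Finset.insert_subset_iff, hhS, hg]

theorem bR_deriv_eq :
    (∑ S ∈ F.powerset, if h ∈ S then μ S * ((S.card - 1 : ℕ) : ℝ) else 0) =
      ∑ g ∈ F.erase h, mass μ F {h, g} := by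
  unfold mass
  rw [Finset.sum_comm]
  apply Finset.sum_congr rfl
  intro S hS
  have hS' := Finset.mem_powerset.mp hS
  by_cases hhS : h ∈ S
  · rw [if_pos hhS]
    have h1 := card_erase_eq_sum F h hS'
    rw [Finset.card_erase_of_mem hhS] at h1
    rw [h1, Finset.mul_sum]
    apply Finset.sum_congr rfl
    intro g _
    by_cases hg : g ∈ S <;> simp [Finset.insert_subset_iff, hhS, hg]
  · rw [if_neg hhS]
    symm
    apply Finset.sum_eq_zero
    intro g _
    simp [Finset.insert_subset_iff, hhS]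

end N2

theorem deriv_nonneg_of_nonneg_right {D : ℝ → ℝ} {D' : ℝ} (hD : HasDerivAt D D' 1)
    (h0 : D 1 = 0) (hpos : ∀ x, 1 ≤ x → 0 ≤ D x) : 0 ≤ D' := by
  have h1 := hasDerivAt_iff_tendsto_slope.mp hD
  have h2 : Filter.Tendsto (slope D 1) (nhdsWithin 1 (Set.Ioi 1)) (nhds D') :=
    h1.mono_left (nhdsWithin_mono _ (fun x hx => ne_of_gt hx))
  apply ge_of_tendsto h2
  filter_upwards [self_mem_nhdsWithin] with x hx
  have hx' : (1 : ℝ) < x := hx
  rw [slope_def_field, h0, sub_zero]
  exact div_nonneg (hpos x hx'.le) (by linarith)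

theorem mass_nonneg (μ : Finset ι → ℝ) (F T : Finset ι) (hμ : ∀ S, 0 ≤ μ S) : 0 ≤ mass μ F T := by
  unfold mass
  apply Finset.sum_nonneg
  intro S _
  split_ifs
  · exact hμ S
  · exact le_refl _

theorem mass_mono (μ : Finset ι → ℝ) (F : Finset ι) {T T' : Finset ι} (hT : T ⊆ T')
    (hμ : ∀ S, 0 ≤ μ S) : mass μ F T' ≤ mass μ F T := by
  unfold mass
  apply Finset.sum_le_sum
  intro S _
  by_cases h1 : T' ⊆ S
  · rw [if_pos h1, if_pos (hT.trans h1)]
  · rw [if_neg h1]
    split_ifs
    · exact hμ S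
    · exact le_refl _

/-- (N2), un-normalised, sum over all other sites. -/
theorem N2_full (μ : Finset ι → ℝ) (F : Finset ι) (h : ι) (hμ : ∀ S, 0 ≤ μ S)
    (hst : Stable μ F) :
    ∑ g ∈ F.erase h, (mass μ F {h} * mass μ F {g} - mass μ F ∅ * mass μ F {h, g}) ≤
      mass μ F {h} * (mass μ F ∅ - mass μ F {h}) := by
  rcases (mass_nonneg μ F {h} hμ).eq_or_lt with h0 | hpos
  · have h1 : ∀ g, mass μ F {h, g} = 0 := by
      intro g
      apply le_antisymm _ (mass_nonneg μ F _ hμ)
      rw [h0]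
      exact mass_mono μ F (by simp) hμ
    rw [← h0]
    simp [h1]
  · have hpick := SRPick.pick_ineq (aC μ F h) (bC μ F h) (aC_diff μ F h) (bC_diff μ F h)
      (aR μ F h) (bR μ F h) (fun x _ => aC_ofReal μ F h x) (fun x _ => bC_ofReal μ F h x)
      (aR_nonneg μ F h hμ) (bR_pos μ F h hμ hpos) (aC_conj μ F h) (bC_conj μ F h)
      (by
        intro t w ht hw
        rw [← gp_two_val]
        apply hst
        intro i _
        split_ifs
        · exact hw
        · exact ht)
    have hD : HasDerivAt (fun x : ℝ => x * aR μ F h 1 * bR μ F h x - aR μ F h x * bR μ F h 1)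
        ((1 * aR μ F h 1) * bR μ F h 1 + (1 * aR μ F h 1) *
          (∑ S ∈ F.powerset, if h ∈ S then μ S * ((S.card - 1 : ℕ) : ℝ) else 0) -
          (∑ S ∈ F.powerset, if h ∈ S then 0 else μ S * S.card) * bR μ F h 1) 1 :=
      (((hasDerivAt_id (1 : ℝ)).mul_const (aR μ F h 1)).mul (bR_hasDerivAt μ F h)).sub
        ((aR_hasDerivAt μ F h).mul_const _)
    have hnn := deriv_nonneg_of_nonneg_right hD (by ring) (fun x hx => by
      have := hpick x hx
      linarith)
    rw [aR_deriv_eq, bR_deriv_eq, aR_one, bR_one] at hnn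
    rw [Finset.sum_sub_distrib] at hnn ⊢
    rw [← Finset.mul_sum, ← Finset.mul_sum]
    nlinarith

end Crest.Agent.R168.SRW
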