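import Mathlib

/-!
# Row 168 (S0254 / S0255), package F (helper66): stable multi-affine polynomials, part 1

`mpoly c F z = ∑_{S ⊆ F} c S ∏_{i ∈ S} z i`.  `Stab c F`: no zero with all `z i` (`i ∈ F`) in the open upper half plane.
Main results: exact closure of "stable or identically zero" under `z i := 0` (`stab0_zero`) and under taking the
coefficient of `z i` (`stab0_top`).  No Hurwitz theorem is needed: one coordinate is changed at a time and the
two-variable case is done by hand.
-/

set_option autoImplicit false

open Finset

namespace Crest.Agent.R168.SR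

variable {ι : Type*} [DecidableEq ι]

/-- The multi-affine polynomial with coefficients `c S`, `S ⊆ F`. -/
noncomputable def mpoly (c : Finset ι → ℂ) (F : Finset ι) (z : ι → ℂ) : ℂ :=
  ∑ S ∈ F.powerset, c S * ∏ i ∈ S, z i

/-- all coordinates indexed by `F` are in the open upper half plane. -/
def Up (F : Finset ι) (z : ι → ℂ) : Prop := ∀ i ∈ F, 0 < (z i).im

/-- stability. -/
def Stab (c : Finset ι → ℂ) (F : Finset ι) : Prop := ∀ z, Up F z → mpoly c F z ≠ 0

/-- stable or identically zero. -/
def Stab0 (c : Finset ι → ℂ) (F : Finset ι) : Prop := Stab c F ∨ ∀ S, S ⊆ F → c S = 0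

omit [DecidableEq ι] in
theorem mpoly_congr {c c' : Finset ι → ℂ} {F : Finset ι} {z z' : ι → ℂ}
    (hc : ∀ S, S ⊆ F → c S = c' S) (h : ∀ i ∈ F, z i = z' i) : mpoly c F z = mpoly c' F z' := by
  unfold mpoly
  refine Finset.sum_congr rfl fun S hS => ?_
  rw [Finset.mem_powerset] at hS
  rw [hc S hS]
  congr 1
  exact Finset.prod_congr rfl fun i hi => h i (hS hi)

omit [DecidableEq ι] in
theorem mpoly_empty (c : Finset ι → ℂ) (z : ι → ℂ) : mpoly c ∅ z = c ∅ := by
  simp [mpoly]

theorem mpoly_insert (c : Finset ι → ℂ) {F : Finset ι} {i : ι} (hi : i ∉ F) (z : ι → ℂ) :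
    mpoly c (insert i F) z = mpoly c F z + z i * mpoly (fun S => c (insert i S)) F z := by
  unfold mpoly
  rw [Finset.sum_powerset_insert hi, Finset.mul_sum]
  congr 1
  refine Finset.sum_congr rfl fun S hS => ?_
  rw [Finset.mem_powerset] at hS
  rw [Finset.prod_insert (fun h => hi (hS h))]
  ring

omit [DecidableEq ι] in
theorem mpoly_eq_zero_of_coeff {c : Finset ι → ℂ} {F : Finset ι} (h : ∀ S, S ⊆ F → c S = 0)
    (z : ι → ℂ) : mpoly c F z = 0 := by
  unfold mpoly
  refine Finset.sum_eq_zero fun S hS => ?_
  rw [h S (Finset.mem_powerset.1 hS), zero_mul]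

omit [DecidableEq ι] in
theorem Up.mono {F G : Finset ι} {z : ι → ℂ} (h : Up G z) (hFG : F ⊆ G) : Up F z :=
  fun i hi => h i (hFG hi)

/-- The two-variable lemma. -/
theorem two_var {a b c d : ℂ}
    (h : ∀ u w : ℂ, 0 < u.im → 0 < w.im → a + b * u + c * w + d * u * w ≠ 0)
    {w0 : ℂ} (hw0 : 0 < w0.im) (h0 : a + c * w0 = 0) : c = 0 ∧ a = 0 := by
  by_cases hc : c = 0
  · refine ⟨hc, ?_⟩
    rw [hc] at h0
    simpa using h0
  exfalso
  -- the root `w(ε) = -(a + b ε i)/(c + d ε i)` tends to `w0`
  set g : ℝ → ℂ := fun ε => -(a + b * (ε * Complex.I)) / (c + d * (ε * Complex.I)) with hg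
  have hden : ContinuousAt (fun ε : ℝ => c + d * (ε * Complex.I)) 0 := by fun_prop
  have hden0 : (fun ε : ℝ => c + d * (ε * Complex.I)) 0 ≠ 0 := by simpa using hc
  have hcont : ContinuousAt g 0 := by
    apply ContinuousAt.div _ hden hden0
    fun_prop
  have hg0 : g 0 = w0 := by
    simp only [hg, Complex.ofReal_zero, zero_mul, mul_zero, add_zero]
    field_simp
    linear_combination -h0
  have h1 : ∀ᶠ ε in nhds (0 : ℝ), 0 < (g ε).im := by
    have hopen : IsOpen {w : ℂ | 0 < w.im} := isOpen_lt continuous_const Complex.continuous_im
    exact hcont.eventually (hopen.mem_nhds (by simpa [hg0] using hw0))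
  have h2 : ∀ᶠ ε : ℝ in nhds (0 : ℝ), c + d * ((ε : ℂ) * Complex.I) ≠ 0 :=
    hden.eventually_ne hden0
  obtain ⟨ε, ⟨hε1, hε2⟩, hεpos⟩ :=
    (((h1.and h2).filter_mono nhdsWithin_le_nhds).and
      (self_mem_nhdsWithin : Set.Ioi (0 : ℝ) ∈ nhdsWithin 0 (Set.Ioi 0))).exists
  refine h (ε * Complex.I) (g ε) (by simpa using hεpos) hε1 ?_
  have hmul : g ε * (c + d * (ε * Complex.I)) = -(a + b * (ε * Complex.I)) :=
    div_mul_cancel₀ _ hε2
  linear_combination hmul

/-- Changing one coordinate keeps a zero of the restriction `z i := 0` of a stable polynomial. -/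
theorem vanish_update {c : Finset ι → ℂ} {F : Finset ι} {i : ι} (hi : i ∉ F)
    (hst : Stab c (insert i F)) {z : ι → ℂ} (hz : Up F z) (h0 : mpoly c F z = 0) {j : ι}
    (hj : j ∈ F) (ζ : ℂ) : mpoly c F (Function.update z j ζ) = 0 := by
  set G := F.erase j with hG
  have hjG : j ∉ G := Finset.notMem_erase j F
  have hF : F = insert j G := (Finset.insert_erase hj).symm
  have hiG : i ∉ G := fun h => hi (Finset.mem_of_mem_erase h)
  have hij : i ≠ j := fun h => hi (h ▸ hj)
  set a := mpoly c G z with ha
  set cc := mpoly (fun S => c (insert j S)) G z with hcc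
  set b := mpoly (fun S => c (insert i S)) G z with hb
  set dd := mpoly (fun S => c (insert i (insert j S))) G z with hdd
  -- value of the polynomials at modified points
  have key : ∀ u w : ℂ, mpoly c (insert i F) (Function.update (Function.update z i u) j w)
      = a + b * u + cc * w + dd * u * w := by
    intro u w
    set z' := Function.update (Function.update z i u) j w with hz'
    have hz'i : z' i = u := by
      rw [hz', Function.update_of_ne hij, Function.update_self]
    have hz'j : z' j = w := by rw [hz', Function.update_self]
    have hz'G : ∀ k ∈ G, z' k = z k := by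
      intro k hk
      have hkj : k ≠ j := fun h => hjG (h ▸ hk)
      have hki : k ≠ i := fun h => hiG (h ▸ hk)
      rw [hz', Function.update_of_ne hkj, Function.update_of_ne hki]
    rw [mpoly_insert c hi, hF, mpoly_insert c hjG, mpoly_insert _ hjG, hz'i, hz'j,
      mpoly_congr (z' := z) (fun _ _ => rfl) hz'G, mpoly_congr (z' := z) (fun _ _ => rfl) hz'G,
      mpoly_congr (z' := z) (fun _ _ => rfl) hz'G, mpoly_congr (z' := z) (fun _ _ => rfl) hz'G]
    ring
  have key2 : ∀ w : ℂ, mpoly c F (Function.update z j w) = a + cc * w := by
    intro w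
    have hzG : ∀ k ∈ G, Function.update z j w k = z k := by
      intro k hk
      have hkj : k ≠ j := fun h => hjG (h ▸ hk)
      rw [Function.update_of_ne hkj]
    rw [hF, mpoly_insert c hjG, Function.update_self,
      mpoly_congr (z' := z) (fun _ _ => rfl) hzG, mpoly_congr (z' := z) (fun _ _ => rfl) hzG]
    ring
  have hne : ∀ u w : ℂ, 0 < u.im → 0 < w.im → a + b * u + cc * w + dd * u * w ≠ 0 := by
    intro u w hu hw
    rw [← key u w]
    apply hst
    intro k hk
    by_cases hkj : k = j
    · rw [hkj, Function.update_self]; exact hw
    rw [Function.update_of_ne hkj]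
    by_cases hki : k = i
    · rw [hki, Function.update_self]; exact hu
    rw [Function.update_of_ne hki]
    exact hz k ((Finset.mem_insert.1 hk).resolve_left hki)
  have h0' : a + cc * z j = 0 := by
    rw [← key2 (z j), Function.update_eq_self]; exact h0
  obtain ⟨h1, h2⟩ := two_var hne (hz j hj) h0'
  rw [key2, h1, h2]; ring

/-- If the restriction `z i := 0` of a stable polynomial has a zero in the product of upper half planes,
it vanishes on the whole product. -/
theorem vanish_all {c : Finset ι → ℂ} {F : Finset ι} {i : ι} (hi : i ∉ F)
    (hst : Stab c (insert i F)) {z0 : ι → ℂ} (hz0 : Up F z0) (h0 : mpoly c F z0 = 0)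
    {z1 : ι → ℂ} (hz1 : Up F z1) : mpoly c F z1 = 0 := by
  have main : ∀ T : Finset ι, T ⊆ F →
      mpoly c F (fun k => if k ∈ T then z1 k else z0 k) = 0 := by
    intro T
    induction T using Finset.induction_on with
    | empty => intro _; simpa using h0
    | insert j T hjT ih =>
      intro hT
      have hTF : T ⊆ F := fun k hk => hT (Finset.mem_insert_of_mem hk)
      have hjF : j ∈ F := hT (Finset.mem_insert_self j T)
      have hup : Up F (fun k => if k ∈ T then z1 k else z0 k) := by
        intro k hk
        by_cases hkT : k ∈ T
        · simpa [hkT] using hz1 k hk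
        · simpa [hkT] using hz0 k hk
      have := vanish_update hi hst hup (ih hTF) hjF (z1 j)
      convert this using 2
      funext k
      by_cases hkj : k = j
      · subst hkj; simp
      · rw [Function.update_of_ne hkj]
        simp [hkj]
  have := main F (Finset.Subset.refl F)
  rw [← this]
  exact mpoly_congr (fun _ _ => rfl) (fun k hk => by simp [hk])

/-- A multi-affine polynomial vanishing on the product of the upper half planes has zero coefficients. -/
theorem coeff_zero_of_vanish (F : Finset ι) : ∀ c : Finset ι → ℂ,
    (∀ z, Up F z → mpoly c F z = 0) → ∀ S, S ⊆ F → c S = 0 := by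
  induction F using Finset.induction_on with
  | empty =>
    intro c h S hS
    have := h (fun _ => Complex.I) (fun _ hk => absurd hk (Finset.notMem_empty _))
    rw [mpoly_empty] at this
    rw [Finset.subset_empty.1 hS]; exact this
  | insert i F hi ih =>
    intro c h
    have hAB : ∀ z, Up F z → mpoly c F z = 0 ∧ mpoly (fun S => c (insert i S)) F z = 0 := by
      intro z hz
      have hval : ∀ u : ℂ, 0 < u.im →
          mpoly c F z + u * mpoly (fun S => c (insert i S)) F z = 0 := by
        intro u hu
        have hup : Up (insert i F) (Function.update z i u) := by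
          intro k hk
          by_cases hki : k = i
          · rw [hki, Function.update_self]; exact hu
          · rw [Function.update_of_ne hki]
            exact hz k ((Finset.mem_insert.1 hk).resolve_left hki)
        have h1 := h _ hup
        have hzF : ∀ k ∈ F, Function.update z i u k = z k := by
          intro k hk
          have hki : k ≠ i := fun h => hi (h ▸ hk)
          rw [Function.update_of_ne hki]
        rw [mpoly_insert c hi, Function.update_self,
          mpoly_congr (z' := z) (fun _ _ => rfl) hzF,
          mpoly_congr (z' := z) (fun _ _ => rfl) hzF] at h1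
        exact h1
      have e1 := hval Complex.I (by simp)
      have e2 := hval (2 * Complex.I) (by simp)
      have hB : Complex.I * mpoly (fun S => c (insert i S)) F z = 0 := by
        linear_combination e2 - e1
      have hB' : mpoly (fun S => c (insert i S)) F z = 0 := by
        rcases mul_eq_zero.1 hB with h | h
        · exact absurd h Complex.I_ne_zero
        · exact h
      refine ⟨?_, hB'⟩
      rw [hB'] at e1
      simpa using e1
    have ihA := ih c (fun z hz => (hAB z hz).1)
    have ihB := ih (fun S => c (insert i S)) (fun z hz => (hAB z hz).2)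
    intro S hS
    by_cases hiS : i ∈ S
    · have := ihB (S.erase i) (by
        intro k hk
        have hkS := Finset.mem_of_mem_erase hk
        have hki := Finset.ne_of_mem_erase hk
        exact (Finset.mem_insert.1 (hS hkS)).resolve_left hki)
      simpa [Finset.insert_erase hiS] using this
    · exact ihA S (fun k hk => (Finset.mem_insert.1 (hS hk)).resolve_left
        (fun h => hiS (h ▸ hk)))

/-- closure of "stable or zero" under `z i := 0`. -/
theorem stab0_zero {c : Finset ι → ℂ} {F : Finset ι} {i : ι} (hi : i ∉ F)
    (h : Stab0 c (insert i F)) : Stab0 c F := by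
  rcases h with hst | hz
  · by_cases hex : ∃ z0, Up F z0 ∧ mpoly c F z0 = 0
    · obtain ⟨z0, hz0, h0⟩ := hex
      right
      exact coeff_zero_of_vanish F c (fun z1 hz1 => vanish_all hi hst hz0 h0 hz1)
    · left
      intro z hz h0
      exact hex ⟨z, hz, h0⟩
  · right
    intro S hS
    exact hz S (hS.trans (Finset.subset_insert i F))

/-- closure of "stable or zero" under taking the coefficient of `z i`. -/
theorem stab0_top {c : Finset ι → ℂ} {F : Finset ι} {i : ι} (hi : i ∉ F)
    (h : Stab0 c (insert i F)) : Stab0 (fun S => c (insert i S)) F := by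
  rcases h with hst | hz
  · -- the polynomial `z i * P(-1/z i) = z i * A - B`
    set c' : Finset ι → ℂ := fun S => if i ∈ S then c (S.erase i) else -c (insert i S) with hc'
    have hA : ∀ z, mpoly (fun S => c' (insert i S)) F z = mpoly c F z := by
      intro z
      refine mpoly_congr (fun S hS => ?_) (fun _ _ => rfl)
      have hiS : i ∉ S := fun h => hi (hS h)
      simp [hc', Finset.erase_insert hiS]
    have hB : ∀ z, mpoly c' F z = -mpoly (fun S => c (insert i S)) F z := by
      intro z
      have : mpoly c' F z = mpoly (fun S => -c (insert i S)) F z := by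
        refine mpoly_congr (fun S hS => ?_) (fun _ _ => rfl)
        have hiS : i ∉ S := fun h => hi (hS h)
        simp [hc', hiS]
      rw [this]
      simp [mpoly, Finset.sum_neg_distrib]
    have hst' : Stab c' (insert i F) := by
      intro z hz h0
      have hzi : 0 < (z i).im := hz i (Finset.mem_insert_self i F)
      have hzi0 : z i ≠ 0 := by
        intro h; rw [h] at hzi; simp at hzi
      rw [mpoly_insert c' hi, hA, hB] at h0
      set u : ℂ := -(z i)⁻¹ with hu
      have hu_im : 0 < u.im := by
        rw [hu, Complex.neg_im, Complex.inv_im]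
        have : 0 < Complex.normSq (z i) := Complex.normSq_pos.2 hzi0
        rw [neg_div, neg_neg]
        positivity
      have hup : Up (insert i F) (Function.update z i u) := by
        intro k hk
        by_cases hki : k = i
        · rw [hki, Function.update_self]; exact hu_im
        · rw [Function.update_of_ne hki]; exact hz k hk
      apply hst _ hup
      have hzF : ∀ k ∈ F, Function.update z i u k = z k := by
        intro k hk
        have hki : k ≠ i := fun h => hi (h ▸ hk)
        rw [Function.update_of_ne hki]
      rw [mpoly_insert c hi, Function.update_self,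
        mpoly_congr (z' := z) (fun _ _ => rfl) hzF, mpoly_congr (z' := z) (fun _ _ => rfl) hzF]
      have : z i * (mpoly c F z + u * mpoly (fun S => c (insert i S)) F z) = 0 := by
        rw [hu]
        have h1 : z i * (z i)⁻¹ = 1 := mul_inv_cancel₀ hzi0
        linear_combination h0 - (mpoly (fun S => c (insert i S)) F z) * h1
      rcases mul_eq_zero.1 this with h | h
      · exact absurd h hzi0
      · exact h
    rcases stab0_zero hi (Or.inl hst') with h1 | h1
    · left
      intro z hz h0
      apply h1 z hz
      rw [hB, h0, neg_zero]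
    · right
      intro S hS
      have hiS : i ∉ S := fun h => hi (hS h)
      have := h1 S hS
      simpa [hc', hiS] using this
  · right
    intro S hS
    exact hz _ (Finset.insert_subset_insert i hS)

end Crest.Agent.R168.SR
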