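import Crest.Agent.R168_SR_Basic
import Crest.Agent.R168_MassDefs

/-!
# Row 168, package F (helper66): (N1) and (N2) for the cylinder masses of a stable nonnegative weight
-/

set_option autoImplicit false

open Finset

namespace Crest.Agent.R168.SR

variable {α : Type*} [DecidableEq α]

/-! ### more closure properties -/

omit [DecidableEq α] in
theorem stab0_congr {c c' : Finset α → ℂ} {F : Finset α} (h : ∀ S, S ⊆ F → c S = c' S)
    (hs : Stab0 c F) : Stab0 c' F := by
  rcases hs with hs | hs
  · left
    intro z hz h0
    exact hs z hz (by rw [mpoly_congr h (fun _ _ => rfl)]; exact h0)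
  · right
    intro S hS
    rw [← h S hS]; exact hs S hS

omit [DecidableEq α] in
theorem mpoly_add_mul (c c' : Finset α → ℂ) (r : ℂ) (F : Finset α) (z : α → ℂ) :
    mpoly (fun S => c S + r * c' S) F z = mpoly c F z + r * mpoly c' F z := by
  unfold mpoly
  rw [Finset.mul_sum, ← Finset.sum_add_distrib]
  refine Finset.sum_congr rfl fun S _ => ?_
  ring

/-- closure of "stable or zero" under `z i := r`, `r` real. -/
theorem stab0_real {c : Finset α → ℂ} {F : Finset α} {i : α} (hi : i ∉ F) (r : ℝ)
    (h : Stab0 c (insert i F)) : Stab0 (fun S => c S + r * c (insert i S)) F := by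
  set c' : Finset α → ℂ := fun S => if i ∈ S then c S else c S + r * c (insert i S) with hc'
  have hc'F : ∀ S, S ⊆ F → c' S = c S + r * c (insert i S) := by
    intro S hS
    have hiS : i ∉ S := fun h => hi (hS h)
    simp [hc', hiS]
  have h' : Stab0 c' (insert i F) := by
    rcases h with hst | hz
    · left
      intro z hz h0
      have hup : Up (insert i F) (Function.update z i (z i + r)) := by
        intro k hk
        by_cases hki : k = i
        · rw [hki, Function.update_self]
          simpa using hz i (Finset.mem_insert_self i F)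
        · rw [Function.update_of_ne hki]; exact hz k hk
      apply hst _ hup
      have hzF : ∀ k ∈ F, Function.update z i (z i + r) k = z k := by
        intro k hk
        have hki : k ≠ i := fun h => hi (h ▸ hk)
        rw [Function.update_of_ne hki]
      rw [mpoly_insert c hi, Function.update_self,
        mpoly_congr (z' := z) (fun _ _ => rfl) hzF, mpoly_congr (z' := z) (fun _ _ => rfl) hzF]
      rw [mpoly_insert c' hi, mpoly_congr (c' := fun S => c S + r * c (insert i S)) hc'F
        (fun _ _ => rfl), mpoly_add_mul,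
        mpoly_congr (c := fun S => c' (insert i S)) (c' := fun S => c (insert i S))
          (fun S _ => by simp [hc']) (fun _ _ => rfl)] at h0
      linear_combination h0
    · right
      intro S hS
      by_cases hiS : i ∈ S
      · simp only [hc', hiS, if_true]; exact hz S hS
      · simp only [hc', hiS, if_false]
        rw [hz S hS, hz (insert i S) (Finset.insert_subset (Finset.mem_insert_self i F) hS)]
        simp
  exact stab0_congr hc'F (stab0_zero hi h')

/-- real weights -/
def RStab0 (p : Finset α → ℝ) (F : Finset α) : Prop := Stab0 (fun S => (p S : ℂ)) F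

theorem rstab0_J {p : Finset α → ℝ} {F : Finset α} {k : α} (hk : k ∉ F)
    (h : RStab0 p (insert k F)) : RStab0 p F := stab0_zero hk h

theorem rstab0_I {p : Finset α → ℝ} {F : Finset α} {k : α} (hk : k ∉ F)
    (h : RStab0 p (insert k F)) : RStab0 (fun S => p (insert k S)) F := stab0_top hk h

theorem rstab0_M {p : Finset α → ℝ} {F : Finset α} {k : α} (hk : k ∉ F)
    (h : RStab0 p (insert k F)) : RStab0 (fun S => p S + p (insert k S)) F := by
  have := stab0_real hk 1 h
  refine stab0_congr (fun S _ => ?_) this
  push_cast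
  ring

/-! ### recursion for `mass` -/

theorem mass_insert_J (p : Finset α → ℝ) {E I J : Finset α} {k : α} (hk : k ∉ E) (hkJ : k ∈ J) :
    mass p (insert k E) I J = mass p E I J := by
  unfold mass
  rw [Finset.sum_filter, Finset.sum_filter, Finset.sum_powerset_insert hk]
  have : ∑ A ∈ E.powerset, (if I ⊆ insert k A ∧ Disjoint (insert k A) J then p (insert k A) else 0)
      = 0 := by
    refine Finset.sum_eq_zero fun A _ => ?_
    rw [if_neg]
    rintro ⟨-, hd⟩
    exact (Finset.disjoint_insert_left.1 hd).1 hkJ
  rw [this, add_zero]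

theorem mass_insert_I (p : Finset α → ℝ) {E I J : Finset α} {k : α} (hk : k ∉ E) (hkI : k ∈ I)
    (hkJ : k ∉ J) :
    mass p (insert k E) I J = mass (fun S => p (insert k S)) E (I.erase k) J := by
  unfold mass
  rw [Finset.sum_filter, Finset.sum_filter, Finset.sum_powerset_insert hk]
  have : ∑ A ∈ E.powerset, (if I ⊆ A ∧ Disjoint A J then p A else 0) = 0 := by
    refine Finset.sum_eq_zero fun A hA => ?_
    rw [if_neg]
    rintro ⟨hIA, -⟩
    exact hk (Finset.mem_powerset.1 hA (hIA hkI))
  rw [this, zero_add]
  refine Finset.sum_congr rfl fun A _ => ?_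
  have : (I ⊆ insert k A ∧ Disjoint (insert k A) J) ↔ (I.erase k ⊆ A ∧ Disjoint A J) := by
    rw [Finset.subset_insert_iff, Finset.disjoint_insert_left]
    tauto
  simp only [this]

theorem mass_insert_M (p : Finset α → ℝ) {E I J : Finset α} {k : α} (hk : k ∉ E) (hkI : k ∉ I)
    (hkJ : k ∉ J) :
    mass p (insert k E) I J = mass (fun S => p S + p (insert k S)) E I J := by
  unfold mass
  rw [Finset.sum_filter, Finset.sum_filter, Finset.sum_powerset_insert hk,
    ← Finset.sum_add_distrib]
  refine Finset.sum_congr rfl fun A _ => ?_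
  have : (I ⊆ insert k A ∧ Disjoint (insert k A) J) ↔ (I ⊆ A ∧ Disjoint A J) := by
    rw [Finset.subset_insert_iff, Finset.disjoint_insert_left, Finset.erase_eq_of_notMem hkI]
    tauto
  simp only [this]
  split_ifs <;> simp

theorem mass_empty (p : Finset α → ℝ) (J : Finset α) : mass p ∅ ∅ J = p ∅ := by
  simp [mass, Finset.filter_singleton]

/-- elimination of the variables in `Y`. -/
theorem reduce (F J : Finset α) (Y : Finset α) : ∀ (p : Finset α → ℝ) (I : Finset α),
    Disjoint Y F → I ⊆ Y → Disjoint I J → (∀ A, 0 ≤ p A) → RStab0 p (F ∪ Y) →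
    ∃ q : Finset α → ℝ, (∀ A, 0 ≤ q A) ∧ RStab0 q F ∧
      ∀ I', I' ⊆ F → mass p (F ∪ Y) (I' ∪ I) J = mass q F I' J := by
  induction Y using Finset.induction_on with
  | empty =>
    intro p I _ hI _ hp hst
    refine ⟨p, hp, by simpa using hst, fun I' _ => ?_⟩
    rw [Finset.subset_empty.1 hI]; simp
  | insert k Y hkY ih =>
    intro p I hYF hIY hIJ hp hst
    have hkF : k ∉ F := Finset.disjoint_left.1 hYF (Finset.mem_insert_self k Y)
    have hYF' : Disjoint Y F := Finset.disjoint_of_subset_left (Finset.subset_insert k Y) hYF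
    have hU : F ∪ insert k Y = insert k (F ∪ Y) := Finset.union_insert k F Y
    have hkU : k ∉ F ∪ Y := by
      rw [Finset.mem_union]; tauto
    rw [hU] at hst
    by_cases hkJ : k ∈ J
    · have hkI : k ∉ I := fun h => Finset.disjoint_left.1 hIJ h hkJ
      have hIY' : I ⊆ Y := fun x hx => (Finset.mem_insert.1 (hIY hx)).resolve_left
        (fun h => hkI (h ▸ hx))
      obtain ⟨q, hq, hqs, hqm⟩ := ih p I hYF' hIY' hIJ hp (rstab0_J hkU hst)
      refine ⟨q, hq, hqs, fun I' hI' => ?_⟩
      rw [hU, mass_insert_J p hkU hkJ, hqm I' hI']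
    by_cases hkI : k ∈ I
    · have hIY' : I.erase k ⊆ Y := by
        intro x hx
        exact (Finset.mem_insert.1 (hIY (Finset.mem_of_mem_erase hx))).resolve_left
          (Finset.ne_of_mem_erase hx)
      have hIJ' : Disjoint (I.erase k) J :=
        Finset.disjoint_of_subset_left (Finset.erase_subset k I) hIJ
      obtain ⟨q, hq, hqs, hqm⟩ := ih (fun S => p (insert k S)) (I.erase k) hYF' hIY' hIJ'
        (fun A => hp _) (rstab0_I hkU hst)
      refine ⟨q, hq, hqs, fun I' hI' => ?_⟩
      have hkI' : k ∉ I' := fun h => hkF (hI' h)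
      rw [hU, mass_insert_I p hkU (Finset.mem_union_right I' hkI) hkJ, ← hqm I' hI',
        Finset.erase_union_distrib, Finset.erase_eq_of_notMem hkI']
    · have hIY' : I ⊆ Y := fun x hx => (Finset.mem_insert.1 (hIY hx)).resolve_left
        (fun h => hkI (h ▸ hx))
      obtain ⟨q, hq, hqs, hqm⟩ := ih (fun S => p S + p (insert k S)) I hYF' hIY' hIJ
        (fun A => add_nonneg (hp _) (hp _)) (rstab0_M hkU hst)
      refine ⟨q, hq, hqs, fun I' hI' => ?_⟩
      have hkI' : k ∉ I' := fun h => hkF (hI' h)
      have hkII : k ∉ I' ∪ I := by rw [Finset.mem_union]; tauto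
      rw [hU, mass_insert_M p hkU hkII hkJ, hqm I' hI']

/-! ### extension of the ground set -/

/-- extension of a weight by zero. -/
noncomputable def ext0 (p : Finset α → ℝ) (E : Finset α) : Finset α → ℝ :=
  fun A => if A ⊆ E then p A else 0

theorem ext0_nonneg {p : Finset α → ℝ} (hp : ∀ A, 0 ≤ p A) (E A : Finset α) : 0 ≤ ext0 p E A := by
  unfold ext0; split_ifs
  · exact hp A
  · exact le_rfl

theorem mass_ext0 (p : Finset α → ℝ) {E E' : Finset α} (hE : E ⊆ E') (I J : Finset α) :
    mass (ext0 p E) E' I J = mass p E I J := by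
  unfold mass
  rw [Finset.sum_filter, Finset.sum_filter]
  symm
  rw [← Finset.sum_subset (Finset.powerset_mono.2 hE)]
  · refine Finset.sum_congr rfl fun A hA => ?_
    simp [ext0, Finset.mem_powerset.1 hA]
  · intro A _ hA
    have : ¬ A ⊆ E := fun h => hA (Finset.mem_powerset.2 h)
    simp [ext0, this]

theorem rstab0_ext0 {p : Finset α → ℝ} {E E' : Finset α} (hE : E ⊆ E') (h : StableW p E) :
    RStab0 (ext0 p E) E' := by
  left
  intro z hz h0
  apply h z (fun i hi => hz i (hE hi))
  rw [← h0]
  unfold mpoly
  rw [← Finset.sum_subset (Finset.powerset_mono.2 hE)]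
  · refine Finset.sum_congr rfl fun A hA => ?_
    simp [ext0, Finset.mem_powerset.1 hA]
  · intro A _ hA
    have : ¬ A ⊆ E := fun h => hA (Finset.mem_powerset.2 h)
    simp [ext0, this]

/-- The general reduction: all the masses in the context `(I, J)` with extra occupied sites inside `F`
are masses of one nonnegative "stable or zero" weight on `F`. -/
theorem reduce' {p : Finset α → ℝ} (hp : ∀ A, 0 ≤ p A) {E : Finset α} (h : StableW p E)
    (F I J : Finset α) (hIJ : Disjoint I J) (hFI : Disjoint F I) :
    ∃ q : Finset α → ℝ, (∀ A, 0 ≤ q A) ∧ RStab0 q F ∧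
      ∀ I', I' ⊆ F → mass p E (I' ∪ I) J = mass q F I' J := by
  set E' := E ∪ I ∪ F with hE'
  set Y := E' \ F with hY
  have hFY : F ∪ Y = E' := by
    rw [hY, Finset.union_sdiff_of_subset]
    exact Finset.subset_union_right
  have hYF : Disjoint Y F := Finset.sdiff_disjoint
  have hIY : I ⊆ Y := by
    intro x hx
    rw [hY, Finset.mem_sdiff]
    refine ⟨?_, fun hxF => Finset.disjoint_left.1 hFI hxF hx⟩
    rw [hE']; simp [hx]
  have hEE' : E ⊆ E' := by
    intro x hx; rw [hE']; simp [hx]
  obtain ⟨q, hq, hqs, hqm⟩ := reduce F J Y (ext0 p E) I hYF hIY hIJ (ext0_nonneg hp E)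
    (by rw [hFY]; exact rstab0_ext0 hEE' h)
  refine ⟨q, hq, hqs, fun I' hI' => ?_⟩
  rw [← hqm I' hI', hFY, mass_ext0 p hEE']

/-! ### (N1) -/

/-- the two-variable inequality. -/
theorem pair_ineq {q : Finset α → ℝ} {h g : α} (hne : h ≠ g) (hst : RStab0 q {h, g}) :
    q {h, g} * q ∅ ≤ q {h} * q {g} := by
  rcases hst with hst | hz
  · by_contra hlt
    push Not at hlt
    set a := q ∅ with ha
    set b := q {h} with hb
    set c := q {g} with hc
    set d := q {h, g} with hd
    have hcd : (c : ℂ) + d * Complex.I ≠ 0 := by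
      intro h0
      have h1 := congrArg Complex.re h0
      have h2 := congrArg Complex.im h0
      simp at h1 h2
      rw [h1, h2] at hlt
      simp at hlt
    set w : ℂ := -((a : ℂ) + b * Complex.I) / ((c : ℂ) + d * Complex.I) with hw
    have hwim : 0 < w.im := by
      have hns : 0 < Complex.normSq ((c : ℂ) + d * Complex.I) := Complex.normSq_pos.2 hcd
      rw [hw, Complex.div_im]
      simp only [Complex.neg_im, Complex.neg_re, Complex.add_im, Complex.add_re, Complex.ofReal_im,
        Complex.ofReal_re, Complex.mul_im, Complex.mul_re, Complex.I_im, Complex.I_re, mul_zero,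
        mul_one, zero_add, add_zero, sub_zero]
      rw [← sub_div]
      apply div_pos _ hns
      nlinarith
    set z : α → ℂ := fun k => if k = h then Complex.I else w with hz
    have hup : Up ({h, g} : Finset α) z := by
      intro k _
      by_cases hk : k = h
      · simp [hz, hk]
      · simp [hz, hk, hwim]
    apply hst z hup
    have hg : g ∉ (∅ : Finset α) := Finset.notMem_empty g
    have hh : h ∉ ({g} : Finset α) := by simpa using hne
    have e1 : ({h, g} : Finset α) = insert h (insert g ∅) := by simp
    rw [e1, mpoly_insert _ (by simpa using hne), mpoly_insert _ hg, mpoly_insert _ hg,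
      mpoly_empty, mpoly_empty, mpoly_empty, mpoly_empty]
    have hzh : z h = Complex.I := by simp [hz]
    have hzg : z g = w := by simp [hz, hne.symm]
    rw [hzh, hzg]
    have e2 : (insert g (∅ : Finset α)) = {g} := by simp
    have e3 : (insert h (∅ : Finset α)) = {h} := by simp
    have e4 : (insert h (insert g (∅ : Finset α))) = {h, g} := by simp
    simp only [e2, e3]
    have hmul : w * ((c : ℂ) + d * Complex.I) = -((a : ℂ) + b * Complex.I) :=
      div_mul_cancel₀ _ hcd
    linear_combination hmul
  · have h1 : q {h, g} = 0 := by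
      have : ((q {h, g} : ℝ) : ℂ) = 0 := hz {h, g} (Finset.Subset.refl _)
      exact_mod_cast this
    have h2 : q {h} = 0 := by
      have : ((q {h} : ℝ) : ℂ) = 0 := hz {h} (by simp)
      exact_mod_cast this
    rw [h1, h2]; simp

theorem mass_singleton_empty (w : Finset α → ℝ) {g : α} {J : Finset α} (hgJ : g ∉ J) :
    mass w {g} ∅ J = w ∅ + w {g} := by
  have e : ({g} : Finset α) = insert g ∅ := by simp
  rw [e, mass_insert_M w (Finset.notMem_empty g) (Finset.notMem_empty g) hgJ, mass_empty]

theorem mass_singleton_self (w : Finset α → ℝ) {g : α} {J : Finset α} (hgJ : g ∉ J) :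
    mass w {g} {g} J = w {g} := by
  have e : ({g} : Finset α) = insert g ∅ := by simp
  have h1 : mass w (insert g ∅) {g} J = mass (fun S => w (insert g S)) ∅ (({g} : Finset α).erase g) J :=
    mass_insert_I w (Finset.notMem_empty g) (Finset.mem_singleton_self g) hgJ
  have e2 : (({g} : Finset α).erase g) = ∅ := by simp
  have h0 : mass w {g} {g} J = mass w (insert g ∅) {g} J := by rw [← e]
  rw [h0, h1, e2, mass_empty, ← e]

theorem massN1_of_stable {p : Finset α → ℝ} (hp : ∀ A, 0 ≤ p A) {E : Finset α}
    (hst : StableW p E) : MassN1 (mass p E) := by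
  intro I J hIJ h g hne hhI hhJ hgI hgJ
  have hFI : Disjoint ({h, g} : Finset α) I := by
    rw [Finset.disjoint_left]
    intro x hx
    rcases Finset.mem_insert.1 hx with rfl | hx
    · exact hhI
    · rw [Finset.mem_singleton.1 hx]; exact hgI
  obtain ⟨q, -, hqs, hqm⟩ := reduce' hp hst {h, g} I J hIJ hFI
  have hh : h ∉ ({g} : Finset α) := by simpa using hne
  have m11 : mass p E (insert h (insert g I)) J = q {h, g} := by
    have := hqm {h, g} (Finset.Subset.refl _)
    have e : ({h, g} : Finset α) ∪ I = insert h (insert g I) := by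
      ext x; simp
    rw [e] at this
    rw [this, mass_insert_I q hh (Finset.mem_insert_self h _) hhJ]
    have e2 : ({h, g} : Finset α).erase h = {g} := by
      rw [Finset.erase_insert hh]
    rw [e2, mass_singleton_self _ hgJ]
  have m00 : mass p E I J = q ∅ + q {g} + (q {h} + q {h, g}) := by
    have := hqm ∅ (Finset.empty_subset _)
    rw [Finset.empty_union] at this
    rw [this, mass_insert_M q hh (Finset.notMem_empty h) hhJ, mass_singleton_empty _ hgJ]
    have e3 : (insert h (∅ : Finset α)) = {h} := by simp
    rw [e3]; ring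
  have m10 : mass p E (insert h I) J = q {h} + q {h, g} := by
    have := hqm {h} (by simp)
    have e : ({h} : Finset α) ∪ I = insert h I := by
      ext x; simp
    rw [e] at this
    rw [this, mass_insert_I q hh (Finset.mem_singleton_self h) hhJ]
    have e2 : ({h} : Finset α).erase h = ∅ := by simp
    rw [e2, mass_singleton_empty _ hgJ]
    have e3 : (insert h (∅ : Finset α)) = {h} := by simp
    rw [e3]
  have m01 : mass p E (insert g I) J = q {g} + q {h, g} := by
    have := hqm {g} (by simp)
    have e : ({g} : Finset α) ∪ I = insert g I := by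
      ext x; simp
    rw [e] at this
    rw [this, mass_insert_M q hh (by simpa using hne) hhJ, mass_singleton_self _ hgJ]
  rw [m11, m00, m10, m01]
  have := pair_ineq hne hqs
  nlinarith

end Crest.Agent.R168.SR
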