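import Crest.Statements.S0010
import Crest.Agent.MilnorRec.Basic
import Crest.Agent.MilnorRec.Steinberg
import Crest.Agent.MilnorRec.Pair
import Crest.Agent.MilnorRec.PairOfTheta
import Crest.Agent.MilnorRec.Global
import Crest.Agent.MilnorRec.CollinE
import Crest.Agent.MilnorRec.FieldRich
import Crest.Agent.MilnorRec.FieldPerf

set_option autoImplicit false
open Crest.NumberTheoryR.MilnorK
open Crest Crest.NumberTheoryR

namespace Crest.Agent.S0010

open Crest.Agent.MilnorRec

/-- Let K and L be fields of characteristic p that are finitely generated and of transcendence degree at least 2 over algebraically closed subfields k and l. Let Θ be a linear isomorphism, over the integers mod p, from Kˣ/(Kˣ)^p to Lˣ/(Lˣ)^p that maps the span of the Steinberg elements [f] ⊗ [1 - f] (f ≠ 0, 1) of K exactly onto that of L. Then there is exactly one field isomorphism α from K to L with α(k) = l such that, for some non-zero scalar c, Θ[u] = c · [α(u)] for every unit u of K. -/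
theorem result {p : ℕ} [Fact p.Prime]
    {K L : Type*} [Field K] [Field L] [CharP K p] [CharP L p] (k : Subfield K) (l : Subfield L)
    [IsAlgClosed k] [IsAlgClosed l]
    (hK : ∃ s : Finset K, Subfield.closure ((k : Set K) ∪ (s : Set K)) = ⊤)
    (hL : ∃ s : Finset L, Subfield.closure ((l : Set L) ∪ (s : Set L)) = ⊤)
    (hK2 : 2 ≤ Algebra.trdeg k K) (hL2 : 2 ≤ Algebra.trdeg l L)
    (Θ : KOne K p ≃ₗ[ZMod p] KOne L p) (hΘ : IsCompatible Θ) :
    ∃! α : K ≃+* L, k.map α.toRingHom = l ∧
      ∃ c : ZMod p, c ≠ 0 ∧ ∀ u : Kˣ, Θ (cls K p u) = c • cls L p (Units.map α.toRingHom.toMonoidHom u) := by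
  have hp : p.Prime := Fact.out
  have hRK : Rich K p := rich_of_trdeg k hK hK2
  have hRL : Rich L p := rich_of_trdeg l hL hL2
  obtain ⟨θ, θ', hP, hθ⟩ := exists_pair Θ hΘ
  obtain ⟨e, e', he0, he, he0', he', hee', hLin⟩ := hP.exists_linPair hRK hRL
  obtain ⟨α, hα⟩ := hLin.exists_ringEquiv hRK hRL
  have hx : ∃ x : K, ¬ IsPP p x := by
    obtain ⟨y, hy⟩ := hRK 1
    exact ⟨y, not_isPP_of_not_adj hy⟩
  refine ⟨α, ⟨map_eq_of_ringEquiv k l hK hL α, (e' : ZMod p), ?_, ?_⟩, ?_⟩
  · intro h0
    rw [ZMod.natCast_eq_zero_iff] at h0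
    exact absurd (Nat.le_of_dvd he0' h0) (not_le.2 he')
  · intro u
    obtain ⟨v, hv⟩ := cls_surjective (Θ (cls K p u))
    have h1 : Rel p (θ (u : K)) (v : L) := (hθ u v).1 hv.symm
    have h2 : Rel p (α (u : K)) ((v : L) ^ e) := (hα u u.ne_zero).trans (h1.pow e)
    have h3 : Rel p (α (u : K) ^ e') (v : L) := by
      have h4 : Rel p (α (u : K) ^ e') (((v : L) ^ e) ^ e') := h2.pow e'
      rw [← pow_mul] at h4
      have h5 : Rel p ((v : L) ^ (e * e')) ((v : L) ^ 1) := rel_pow_of_modEq v.ne_zero hee'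
      rw [pow_one] at h5
      exact h4.trans h5
    rw [← hv, natCast_smul_cls, cls_eq_cls_iff]
    simpa using h3.symm
  · rintro β ⟨-, c, hc, hβ⟩
    symm
    have hcv : ¬ p ∣ c.val := by
      intro hd
      apply hc
      have : ((c.val : ℕ) : ZMod p) = 0 := (ZMod.natCast_eq_zero_iff _ _).2 hd
      simpa using this
    have hE : ¬ p ∣ c.val * e := by
      intro hd
      rcases (Nat.Prime.dvd_mul hp).1 hd with h | h
      · exact hcv h
      · exact absurd (Nat.le_of_dvd he0 h) (not_le.2 he)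
    refine ringEquiv_unique (p := p) hx α β (E := (c.val * e) % p) ?_ (Nat.mod_lt _ hp.pos) ?_
    · exact Nat.pos_of_ne_zero (fun h => hE (Nat.dvd_of_mod_eq_zero h))
    · intro u hu
      have h1 := hβ (Units.mk0 u hu)
      rw [zmod_smul_cls] at h1
      have h2 : Rel p (θ u) (β u ^ c.val) := by
        simpa using (hθ (Units.mk0 u hu) _).1 h1
      have h3 : Rel p (α u) ((β u ^ c.val) ^ e) := (hα u hu).trans (h2.pow e)
      rw [← pow_mul] at h3
      have hβu : β u ≠ 0 := by simpa using hu
      exact h3.trans (rel_pow_of_modEq hβu (Nat.mod_modEq _ _).symm)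

end Crest.Agent.S0010
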