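import Crest.Statements.S0066
import Crest.Agent.Lib_helper58_OMTransfer
import Crest.Agent.Lib_helper58_OMDefs
import Crest.Agent.Lib_helper58_OMKey
import Crest.Agent.Lib_OM_Hit
import Crest.Agent.Lib_OM_Disj
import Crest.Agent.Lib_OM_Force

set_option autoImplicit false
open Crest Crest.CombinatoricsR

namespace Crest.Agent.S0066

theorem result :
    ∃ H : Fin 66 → Fin 66 → Bool, ∀ h : ℕ, 1 ≤ h →
      ∃ A : Fin ((386 * h + 2) * 2 ^ h) → Fin ((386 * h + 2) * 2 ^ h) → Bool,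
        (∀ B : Fin ((386 * h + 2) * 2 ^ h) → Fin ((386 * h + 2) * 2 ^ h) → Bool,
          Crest.CombinatoricsR.OrderedMatrix.orderedCopyCount H B = 0 →
            ((386 * (h : ℝ) + 2) ^ 2)⁻¹ * (((386 * h + 2) * 2 ^ h : ℕ) : ℝ) ^ 2 ≤
              ((Finset.univ.filter (fun rc : Fin ((386 * h + 2) * 2 ^ h) × Fin ((386 * h + 2) * 2 ^ h) =>
                A rc.1 rc.2 ≠ B rc.1 rc.2)).card : ℝ)) ∧
        (Crest.CombinatoricsR.OrderedMatrix.orderedCopyCount H A : ℝ) /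
            (((386 * h + 2) * 2 ^ h : ℕ) : ℝ) ^ 132 ≤
          ((386 * (h : ℝ) + 2) ^ 2)⁻¹ * (2 : ℝ)⁻¹ ^ h := by
  refine ⟨OMTransfer.pad OM.H5, OMTransfer.reduction5 OM.H5 (by decide) (by decide) 0 0 ?_⟩
  intro h hh
  refine ⟨OM.Lab h, OM.Lab h, OM.Lab.key, OM.Lab.key, OM.Lab.val, Fin (2 ^ h), inferInstance,
    OM.zcell h, Fin (2 ^ h) × Fin (2 ^ h), inferInstance, OM.Fset h,
    OM.key_injective h, OM.key_injective h, OM.key_lt h hh, OM.key_lt h hh, by simp, by simp,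
    OM.hit h hh, OM.Fset_disjoint h hh, OM.forcing h hh⟩

end Crest.Agent.S0066
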