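import Crest.Statements.S0112
import Crest.Agent.BR_Mean
import Crest.Agent.BR_Calc
import Crest.Agent.BR_Fourier
import Crest.Agent.BR_Kernel
import Crest.Agent.BR_Unitary
import Crest.Agent.BR_Ergodic
import Crest.Agent.BR_Y
import Crest.Agent.BR_Vac
import Crest.Agent.BR_Approx
import Crest.Agent.BR_Smooth
import Crest.Agent.BR_Groth

set_option autoImplicit false
open Crest Crest.AnalysisR Crest.AnalysisR.OperatorAlgebra

namespace Crest.Agent.S0112

open Crest.Agent.BR Crest.OpAlg Crest.OpAlg.LineCalculus MeasureTheory Filter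
open scoped Topology BoundedContinuousFunction

variable {H : Type*} [NormedAddCommGroup H] [InnerProductSpace ℂ H] [CompleteSpace H]

theorem norm_le_one_of_unitary {U : H →L[ℂ] H} (hU : U ∈ unitary (H →L[ℂ] H)) : ‖U‖ ≤ 1 := by
  have h := CStarRing.norm_coe_unitary_mul (⟨U, hU⟩ : unitary (H →L[ℂ] H)) (1 : H →L[ℂ] H)
  simp only [mul_one] at h
  rw [h]
  exact ContinuousLinearMap.norm_id_le

/-- the plateau function at scale `δ` around `s` -/
noncomputable def plateau (b : ℝ → ℝ) (hb : Continuous b) (hb1 : ∀ r, 0 ≤ b r ∧ b r ≤ 1) (s δ : ℝ) :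
    ℝ →ᵇ ℂ :=
  BoundedContinuousFunction.ofNormedAddCommGroup (fun u : ℝ => ((b ((u - s) / δ) : ℝ) : ℂ))
    (by fun_prop) 1 (fun u => by
      rw [Complex.norm_real, Real.norm_eq_abs, abs_of_nonneg (hb1 _).1]
      exact (hb1 _).2)

theorem plateau_apply (b : ℝ → ℝ) (hb : Continuous b) (hb1 : ∀ r, 0 ≤ b r ∧ b r ≤ 1) (s δ u : ℝ) :
    plateau b hb hb1 s δ u = ((b ((u - s) / δ) : ℝ) : ℂ) := rfl

/-- the step for one index -/
theorem per_n (S : ModularDatum H) (herg : S.Ergodic)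
    (ω : Ultrafilter ℕ) (hω : (ω : Filter ℕ) ≤ Filter.atTop) (T : H →L[ℂ] H) (s : ℝ)
    (f : ℝ → ℂ) (b : ℝ → ℝ) (hf : Integrable f) (hb : Continuous b)
    (hb1 : ∀ r, 0 ≤ b r ∧ b r ≤ 1) (hbone : ∀ r, |r| ≤ 1 → b r = 1) (hbzero : ∀ r, 4 ≤ |r| → b r = 0)
    (hfb : ∀ r : ℝ, ∫ t : ℝ, f t * Complex.exp (Complex.I * ((2 * Real.pi * t * r : ℝ) : ℂ))
      = (b r : ℂ))
    (c : ℝ) (hc : 0 < c) (δ : ℝ) (hδ : 0 < δ) (hδ1 : δ ≤ 1) (h : H) (hh : ‖h‖ = 1)
    (hband : S.D.SupportedIn (Set.Icc (s - δ) (s + δ)) h)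
    (hmean : c ≤ ultraMean ω (fun t : ℝ => ‖T (S.D.wave t h)‖ ^ 2)) :
    ∃ v ∈ S.M, ‖v‖ ≤ ∫ t, ‖f t‖ ∧ Real.sqrt (c / (8 * (1 + Real.exp (s + 1)))) ≤ ‖T (v S.vac)‖ ∧
      S.D.SupportedIn (Set.Icc (s - 4 * δ) (s + 4 * δ)) (v S.vac) := by
  have hvac := wave_vac S
  obtain ⟨Y, hYpos, hYW, hYk⟩ := exists_Y S.D ω hω T
  set q := plateau b hb hb1 s δ with hq
  set Q := S.D.apply q with hQ
  -- the conjugated operator
  set Y' : H →L[ℂ] H := (ContinuousLinearMap.adjoint Q) ∘L Y ∘L Q with hY'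
  have hY'pos : Y'.IsPositive := hYpos.adjoint_conj Q
  have hY'k : ∀ k : H, inner ℂ k (Y' k) = inner ℂ (Q k) (Y (Q k)) := by
    intro k
    simp only [hY', ContinuousLinearMap.comp_apply]
    rw [ContinuousLinearMap.adjoint_inner_right]
  have hQW : ∀ t, Q * S.D.wave t = S.D.wave t * Q := fun t => wave_comm_apply S.D t q
  have hQsW : ∀ t, (ContinuousLinearMap.adjoint Q) * S.D.wave t
      = S.D.wave t * (ContinuousLinearMap.adjoint Q) := by
    intro t
    have h1 : ContinuousLinearMap.adjoint Q = S.D.apply (star q) := by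
      rw [map_star, ContinuousLinearMap.star_eq_adjoint]
    rw [h1]
    exact wave_comm_apply S.D t (star q)
  have hY'W : ∀ t, Y' * S.D.wave t = S.D.wave t * Y' := by
    intro t
    have e : Y' = (ContinuousLinearMap.adjoint Q) * (Y * Q) := rfl
    rw [e]
    calc (ContinuousLinearMap.adjoint Q) * (Y * Q) * S.D.wave t
        = (ContinuousLinearMap.adjoint Q) * (Y * (Q * S.D.wave t)) := by simp only [mul_assoc]
      _ = (ContinuousLinearMap.adjoint Q) * ((Y * S.D.wave t) * Q) := by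
          rw [hQW t]; simp only [mul_assoc]
      _ = ((ContinuousLinearMap.adjoint Q) * S.D.wave t) * (Y * Q) := by
          rw [hYW t]; simp only [mul_assoc]
      _ = S.D.wave t * ((ContinuousLinearMap.adjoint Q) * (Y * Q)) := by
          rw [hQsW t]; simp only [mul_assoc]
  have hE : 0 < 1 + Real.exp (s + 1) := by positivity
  set η2 : ℝ := c / (4 * (1 + Real.exp (s + 1))) with hη2
  have hη2pos : 0 < η2 := by positivity
  -- `Q h = h`
  have hQh : Q h = h := by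
    apply apply_eq_self_of_eq_one S.D hband q
    intro u hu
    rw [hq, plateau_apply, hbone]
    · simp
    · rw [abs_div, abs_of_pos hδ, div_le_one hδ, abs_le]
      constructor <;> linarith [hu.1, hu.2]
  -- a unitary with a large value
  have hU : ∃ U ∈ S.M, U ∈ unitary (H →L[ℂ] H) ∧ η2 < (inner ℂ (U S.vac) (Y' (U S.vac))).re := by
    by_contra hcon
    push Not at hcon
    have hg := groth S herg ω hω hvac Y' hY'pos hY'W η2 hcon
    have hex : ∀ k : ℕ, ∃ a ∈ S.M, ‖a S.vac - h‖ < 1 / ((k : ℝ) + 1) ∧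
        ‖star a S.vac‖ ≤ Real.exp ((s + δ) / 2) * ‖h‖ + 1 / ((k : ℝ) + 1) :=
      fun k => exists_approx S s δ hδ.le h hband _ (by positivity)
    choose a haM ha1 ha2 using hex
    have hlim0 : Tendsto (fun k : ℕ => 1 / ((k : ℝ) + 1)) atTop (𝓝 0) :=
      tendsto_one_div_add_atTop_nhds_zero_nat
    have hlim1 : Tendsto (fun k => a k S.vac) atTop (𝓝 h) := by
      rw [tendsto_iff_norm_sub_tendsto_zero]
      exact squeeze_zero (fun _ => norm_nonneg _) (fun k => (ha1 k).le) hlim0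
    have hcont : Continuous fun k : H => (inner ℂ k (Y' k)).re := by fun_prop
    have hlimL : Tendsto (fun k => (inner ℂ (a k S.vac) (Y' (a k S.vac))).re) atTop
        (𝓝 (inner ℂ h (Y' h)).re) := (hcont.tendsto h).comp hlim1
    have hlimR : Tendsto (fun k : ℕ => 2 * η2 * (‖a k S.vac‖ ^ 2
        + (Real.exp ((s + δ) / 2) * ‖h‖ + 1 / ((k : ℝ) + 1)) ^ 2)) atTop
        (𝓝 (2 * η2 * (‖h‖ ^ 2 + (Real.exp ((s + δ) / 2) * ‖h‖ + 0) ^ 2))) := by
      apply Tendsto.const_mul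
      apply Tendsto.add
      · exact (hlim1.norm).pow 2
      · exact (hlim0.const_add _).pow 2
    have hle : (inner ℂ h (Y' h)).re
        ≤ 2 * η2 * (‖h‖ ^ 2 + (Real.exp ((s + δ) / 2) * ‖h‖ + 0) ^ 2) := by
      apply le_of_tendsto_of_tendsto' hlimL hlimR
      intro k
      refine (hg (a k) (haM k)).trans ?_
      have h3 : ‖star (a k) S.vac‖ ^ 2
          ≤ (Real.exp ((s + δ) / 2) * ‖h‖ + 1 / ((k : ℝ) + 1)) ^ 2 :=
        pow_le_pow_left₀ (norm_nonneg _) (ha2 k) 2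
      have : 0 ≤ 2 * η2 := by positivity
      exact mul_le_mul_of_nonneg_left (by linarith) this
    rw [hY'k, hQh, hYk, hh] at hle
    simp only [Complex.ofReal_re, mul_one, add_zero, one_pow] at hle
    have h4 : Real.exp ((s + δ) / 2) ^ 2 = Real.exp (s + δ) := by
      rw [← Real.exp_nat_mul]; congr 1; push_cast; ring
    have h5 : Real.exp (s + δ) ≤ Real.exp (s + 1) := Real.exp_le_exp.mpr (by linarith)
    rw [h4] at hle
    have h6 : 2 * η2 * (1 + Real.exp (s + δ)) ≤ 2 * η2 * (1 + Real.exp (s + 1)) :=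
      mul_le_mul_of_nonneg_left (by linarith) (by positivity)
    have h7 : 2 * η2 * (1 + Real.exp (s + 1)) = c / 2 := by
      rw [hη2]; field_simp; ring
    linarith
  obtain ⟨U, hUM, hUu, hUbig⟩ := hU
  -- smoothing
  set F : ℝ → ℂ := fun t => f t * Complex.exp (Complex.I * ((-(2 * Real.pi * t * (s / δ)) : ℝ) : ℂ))
    with hF
  have hnormF : ∀ t, ‖F t‖ = ‖f t‖ := by
    intro t
    rw [hF]
    simp only [norm_mul]
    rw [mul_comm Complex.I, Complex.norm_exp_ofReal_mul_I, mul_one]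
  have hFint : Integrable F := by
    refine (integrable_norm_iff ?_).mp ?_
    · apply hf.aestronglyMeasurable.mul
      apply Continuous.aestronglyMeasurable
      fun_prop
    · simp only [hnormF]
      exact hf.norm
  obtain ⟨v', hv'M, hv'norm, hv'⟩ := exists_smooth S F hFint (2 * Real.pi / δ) U hUM
  have hv'vac : v' S.vac = Q (U S.vac) := by
    rw [hv' S.vac]
    have h1 : ∀ t, S.flow (2 * Real.pi / δ * t) U S.vac
        = S.D.wave (2 * Real.pi / δ * t) (U S.vac) := by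
      intro t
      simp only [ModularDatum.flow, ContinuousLinearMap.mul_apply, hvac]
    simp only [h1]
    apply fourier_calc S.D F hFint (2 * Real.pi / δ) q
    intro u
    rw [hq, plateau_apply, ← hfb]
    congr 1
    ext t
    rw [hF]
    simp only
    rw [mul_assoc (f t), ← Complex.exp_add, ← mul_add, ← Complex.ofReal_add]
    congr 4
    field_simp
    ring
  have hv'norm' : ‖v'‖ ≤ ∫ t, ‖f t‖ := by
    refine hv'norm.trans ?_
    simp only [hnormF]
    have h0 : 0 ≤ ∫ t, ‖f t‖ := integral_nonneg (fun _ => norm_nonneg _)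
    calc (∫ t, ‖f t‖) * ‖U‖ ≤ (∫ t, ‖f t‖) * 1 :=
          mul_le_mul_of_nonneg_left (norm_le_one_of_unitary hUu) h0
      _ = _ := mul_one _
  -- a good time
  have hmean' : η2 ≤ ultraMean ω (fun t : ℝ => ‖T (S.D.wave t (v' S.vac))‖ ^ 2) := by
    have h1 := hYk (v' S.vac)
    rw [hv'vac, ← hY'k] at h1
    have h2 := congrArg Complex.re h1
    rw [Complex.ofReal_re] at h2
    rw [hv'vac, ← h2]
    exact hUbig.le
  obtain ⟨t, ht⟩ := exists_lt_of_le_ultraMean ω hω (bc_norm_sq S.D T (v' S.vac)) hmean'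
    (half_lt_self hη2pos)
  refine ⟨S.flow t v', S.flow_mem t v' hv'M, (norm_flow_le S t v').trans hv'norm', ?_, ?_⟩
  · have h1 : S.flow t v' S.vac = S.D.wave t (v' S.vac) := by
      simp only [ModularDatum.flow, ContinuousLinearMap.mul_apply, hvac]
    rw [h1]
    apply Real.sqrt_le_iff.mpr
    refine ⟨norm_nonneg _, ?_⟩
    have h2 : c / (8 * (1 + Real.exp (s + 1))) = η2 / 2 := by
      rw [hη2]; field_simp; ring
    rw [h2]
    exact ht.le
  · have h1 : S.flow t v' S.vac = S.D.wave t (v' S.vac) := by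
      simp only [ModularDatum.flow, ContinuousLinearMap.mul_apply, hvac]
    rw [h1, hv'vac]
    apply supportedIn_wave
    apply supportedIn_of_vanish
    intro u hu
    rw [hq, plateau_apply, hbzero]
    · simp
    · rw [abs_div, abs_of_pos hδ, le_div_iff₀ hδ]
      simp only [Set.mem_Icc, not_and_or, not_le] at hu
      rcases hu with hu | hu
      · rw [abs_of_neg (by nlinarith)]; linarith
      · rw [abs_of_pos (by nlinarith)]; linarith

/-- Bounded recovery. Let S be modular data on H (algebra M, cyclic separating unit vector ξ, D = log of the modular operator) with ergodic state, ω a free ultrafilter on ℕ, T a bounded operator, δₙ → 0 positive, hₙ unit vectors with D-spectral support in [s − δₙ, s + δₙ]. If some c > 0 bounds the ω-mean over t of ‖T exp(itD) hₙ‖² from below infinitely often, along a subsequence n_j there are v_j ∈ M, C and η > 0 with ‖v_j‖ ≤ C, ‖T (v_j ξ)‖ ≥ η, v_j ξ supported in [s − 4δ_{n_j}, s + 4δ_{n_j}].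 -/
theorem result
    {H : Type*} [NormedAddCommGroup H] [InnerProductSpace ℂ H] [CompleteSpace H]
    (S : Crest.OpAlg.ModularDatum H) (herg : S.Ergodic)
    (ω : Ultrafilter ℕ) (hω : (ω : Filter ℕ) ≤ Filter.atTop)
    (T : H →L[ℂ] H) (s : ℝ) (δ : ℕ → ℝ) (hδ : ∀ n, 0 < δ n)
    (hδ0 : Filter.Tendsto δ Filter.atTop (nhds 0))
    (h : ℕ → H) (hh : ∀ n, ‖h n‖ = 1)
    (hband : ∀ n, S.D.SupportedIn (Set.Icc (s - δ n) (s + δ n)) (h n))
    (hpos : ∃ c : ℝ, 0 < c ∧ ∃ᶠ n in Filter.atTop,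
      c ≤ Crest.OpAlg.ultraMean ω (fun t : ℝ => ‖T (S.D.wave t (h n))‖ ^ 2)) :
    ∃ (n' : ℕ → ℕ) (v : ℕ → (H →L[ℂ] H)) (C η : ℝ), StrictMono n' ∧ 0 < η ∧
      ∀ j : ℕ, v j ∈ S.M ∧ ‖v j‖ ≤ C ∧ η ≤ ‖T (v j S.vac)‖ ∧
        S.D.SupportedIn (Set.Icc (s - 4 * δ (n' j)) (s + 4 * δ (n' j))) (v j S.vac) := by
  obtain ⟨c, hc, hfreq⟩ := hpos
  obtain ⟨f, b, hf, hb, hb1, hbone, hbzero, hfb⟩ := exists_kernel
  have hev : ∀ᶠ n in atTop, δ n ≤ 1 := hδ0.eventually (Iic_mem_nhds (by norm_num))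
  obtain ⟨n', hn', hP⟩ := extraction_of_frequently_atTop (hfreq.and_eventually hev)
  have hex : ∀ j, ∃ v ∈ S.M, ‖v‖ ≤ ∫ t, ‖f t‖ ∧
      Real.sqrt (c / (8 * (1 + Real.exp (s + 1)))) ≤ ‖T (v S.vac)‖ ∧
      S.D.SupportedIn (Set.Icc (s - 4 * δ (n' j)) (s + 4 * δ (n' j))) (v S.vac) := fun j =>
    per_n S herg ω hω T s f b hf hb hb1 hbone hbzero hfb c hc (δ (n' j)) (hδ _) (hP j).2 (h (n' j))
      (hh _) (hband _) (hP j).1
  choose v hvM hvn hvT hvS using hex
  refine ⟨n', v, ∫ t, ‖f t‖, Real.sqrt (c / (8 * (1 + Real.exp (s + 1)))), hn', ?_, ?_⟩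
  · apply Real.sqrt_pos.mpr
    positivity
  · intro j
    exact ⟨hvM j, hvn j, hvT j, hvS j⟩

end Crest.Agent.S0112
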