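import Crest.Statements.S0166
import Crest.Agent.Lib_helper3_R125Defs
import Crest.Agent.R125_NoAUC
import Crest.Agent.R125_Glue
import Crest.Agent.R125_Hilb
import Crest.Agent.R125_Refl
import Crest.Agent.R125_LpSum
import Crest.Agent.R125_Diamond

set_option autoImplicit false
open Crest Crest.AnalysisR

namespace Crest.Agent.S0166

/-- There is a real Banach space (RealBanach record) that is separable, infinite-dimensional and reflexive, whose given norm has at every t > 0 averaged midpoint asymptotic modulus at least √(1 + t²/12) - 1 and at least (√(1 + t²/4) - 1)/2 and maximum-based midpoint modulus at least √(1 + t²/4) - 1, on which no equivalent norm is asymptotically uniformly convex, and in which for every k every map of the depth-k countably branching diamond graph of distortion at most D has 1 + k/4 ≤ D². -/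
theorem result :
    ∃ E : Crest.AnalysisR.RealBanach, E.IsSeparableInfiniteDim ∧ E.IsReflexive ∧
      (∀ t : ℝ, 0 < t → E.MidpointModulusGE E.norm t (Real.sqrt (1 + t ^ 2 / 12) - 1) ∧
        E.MidpointModulusGE E.norm t ((Real.sqrt (1 + t ^ 2 / 4) - 1) / 2) ∧
        E.MaxMidpointModulusGE E.norm t (Real.sqrt (1 + t ^ 2 / 4) - 1)) ∧
      (∀ N : E.X → ℝ, E.IsEquivNorm N → ¬ E.IsAUC N) ∧
      ∀ (k : ℕ) (f : Crest.AnalysisR.DiamondVertex k → E.X) (D : ℝ),
        E.HasDistortionLE k f D → 1 + (k : ℝ) / 4 ≤ D ^ 2 := by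
  have hc : ∀ (n : ℕ) (s : List ℕ) (i : Crest.Agent.R125_Hilb.HTest n),
      Crest.Agent.R125_Hilb.hcoord n s i = i.1 s := fun n s i => rfl
  have hmidn : ∀ n : ℕ, Crest.Agent.Lib_helper3_R125Defs.MidIneq (Crest.Agent.R125_Hilb.HSpace n) :=
    fun n => Crest.Agent.R125_Glue.midIneq_of_glueAx _ _ (Crest.Agent.R125_Hilb.hcoord n)
      (Crest.Agent.R125_Hilb.glueAx_HTest n) (hc n)
  have hmid : Crest.Agent.Lib_helper3_R125Defs.MidIneq
      (lp (fun n : ℕ => Crest.Agent.R125_Hilb.HSpace n) 2) :=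
    Crest.Agent.R125_LpSum.midIneq_lp2 hmidn
  have hgood : ∀ k : ℕ, ∃ x : lp (fun n : ℕ => Crest.Agent.R125_Hilb.HSpace n) 2,
      1 ≤ ‖x‖ ∧ Crest.Agent.Lib_helper3_R125Defs.Good 1 1 k x := by
    intro k
    have hk : ∃ x : Crest.Agent.R125_Hilb.HSpace (k + 1),
        1 ≤ ‖x‖ ∧ Crest.Agent.Lib_helper3_R125Defs.Good 1 1 k x :=
      Crest.Agent.R125_Glue.good_of_glueAx _ _
        (Crest.Agent.R125_Hilb.hcoord (k + 1)) (Crest.Agent.R125_Hilb.glueAx_HTest (k + 1)) (hc (k + 1)) k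
        (fun s hs => hs)
    obtain ⟨x, hx1, hx⟩ := hk
    refine ⟨Crest.Agent.R125_LpSum.singleLI (X := fun n : ℕ => Crest.Agent.R125_Hilb.HSpace n) (k + 1) x,
      ?_, Crest.Agent.R125_NoAUC.good_map _ hx⟩
    rw [LinearIsometry.norm_map]
    exact hx1
  refine ⟨⟨lp (fun n : ℕ => Crest.Agent.R125_Hilb.HSpace n) 2, inferInstance, inferInstance,
    inferInstance⟩, ⟨?_, ?_⟩, ?_, ?_, ?_, ?_⟩
  · exact Crest.Agent.R125_LpSum.separable_lp2
      (fun n => Crest.Agent.R125_Glue.separable_closure_span (Crest.Agent.R125_Hilb.hcoord n))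
  · obtain ⟨x, -, hx⟩ := hgood 1
    exact Crest.Agent.R125_NoAUC.not_finiteDimensional_of_good one_pos hx
  · exact Crest.Agent.R125_Refl.reflexive_lp2 Crest.Agent.R125_Hilb.reflexive_HSpace
  · intro t ht
    have h1 : (1 : ℝ) ≤ Real.sqrt (1 + t ^ 2 / 4) := by
      rw [show (1 : ℝ) = Real.sqrt 1 from Real.sqrt_one.symm]
      exact Real.sqrt_le_sqrt (by nlinarith [sq_nonneg t])
    refine ⟨Crest.Agent.R125_NoAUC.midpointGE _ hmid t _ ht ?_,
      Crest.Agent.R125_NoAUC.midpointGE _ hmid t _ ht ?_,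
      Crest.Agent.R125_NoAUC.maxMidpointGE _ hmid t _ ht le_rfl⟩
    · have : Real.sqrt (1 + t ^ 2 / 12) ≤ Real.sqrt (1 + t ^ 2 / 4) :=
        Real.sqrt_le_sqrt (by nlinarith [sq_nonneg t])
      linarith
    · linarith
  · exact Crest.Agent.R125_NoAUC.noAUC _ 1 1 1 one_pos one_pos hgood
  · intro k f D hD
    exact Crest.Agent.R125_Diamond.diamond_bound _ hmid k f D hD

end Crest.Agent.S0166
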