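import Crest.Statements.S0167
import Crest.Agent.Lib_helper3_R125Defs
import Crest.Agent.R125_Cof
import Crest.Agent.R125_Daugavet
import Crest.Agent.R125_L1Lower
import Crest.Agent.R125_NoAUC

set_option autoImplicit false
open Crest Crest.AnalysisR

namespace Crest.Agent.S0167

open Crest.Agent.Lib_helper3_R125Defs Crest.Agent.R125_Cof

section abstract

variable {V : Type*} [NormedAddCommGroup V] [NormedSpace ℝ V]

/-- The "lower" hypothesis (output of `l1_lower`). -/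
def LowerHyp (V : Type*) [NormedAddCommGroup V] [NormedSpace ℝ V] : Prop :=
  ∀ (x : V) (η : ℝ), 0 < η → ∃ S : Submodule ℝ V, CofSub S ∧ ∀ y ∈ S,
      ‖x‖ - η * (1 + ‖y‖) ≤ ‖x + y‖ ∧
      ‖x‖ + ‖y‖ / 2 - η * (1 + ‖y‖) ≤ (‖x + y‖ + ‖x - y‖) / 2

/-- The "key" hypothesis (output of `daugavet_key`). -/
def KeyHyp (V : Type*) [NormedAddCommGroup V] [NormedSpace ℝ V] : Prop :=
  ∀ (x : V), ‖x‖ = 1 → ∀ S : Submodule ℝ V, CofSub S → ∀ ε : ℝ, 0 < ε →
    ∃ z : V, ‖z‖ ≤ 1 + ε ∧ z - x ∈ S ∧ 2 - ε ≤ ‖z - x‖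

theorem lower_both (h : LowerHyp V) (x : V) (hx : ‖x‖ = 1) (t : ℝ) (ht : 0 < t) (η : ℝ)
    (hη : 0 < η) : ∃ S : Submodule ℝ V, CofSub S ∧ ∀ y ∈ S, ‖y‖ = 1 →
      (max (t / 2) (t - 1) - η ≤ (‖x + t • y‖ + ‖x - t • y‖) / 2 - 1) ∧
      (max 0 (t - 2) - η ≤ ‖x + t • y‖ - 1) := by
  have h1t : 0 < 1 + t := by linarith
  obtain ⟨S, hS, hy⟩ := h x (η / (1 + t)) (div_pos hη h1t)
  refine ⟨S, hS, fun y hyS hy1 => ?_⟩
  have hty : ‖t • y‖ = t := by rw [norm_smul, hy1, Real.norm_eq_abs, abs_of_pos ht, mul_one]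
  obtain ⟨ha, hb⟩ := hy (t • y) (S.smul_mem t hyS)
  rw [hty, hx] at ha hb
  have hcancel : η / (1 + t) * (1 + t) = η := by field_simp
  rw [hcancel] at ha hb
  have h2t : 2 * t ≤ ‖x + t • y‖ + ‖x - t • y‖ := by
    have h1 : ‖(x + t • y) - (x - t • y)‖ ≤ ‖x + t • y‖ + ‖x - t • y‖ := norm_sub_le _ _
    have h2 : (x + t • y) - (x - t • y) = (2 : ℝ) • (t • y) := by
      rw [two_smul]; abel
    rw [h2, norm_smul, hty] at h1
    simpa using h1
  have h3 : t - 1 ≤ ‖x + t • y‖ := by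
    have h1 : ‖t • y‖ - ‖x‖ ≤ ‖t • y + x‖ := by
      have := norm_sub_norm_le (t • y) (-x)
      simpa [sub_neg_eq_add] using this
    rw [hty, hx, add_comm] at h1
    exact h1
  constructor
  · rcases max_cases (t / 2) (t - 1) with ⟨e, _⟩ | ⟨e, _⟩ <;> rw [e] <;> linarith
  · rcases max_cases 0 (t - 2) with ⟨e, _⟩ | ⟨e, _⟩ <;> rw [e] <;> linarith

theorem upper_both (h : KeyHyp V) (x : V) (hx : ‖x‖ = 1) (t : ℝ) (ht : 0 < t)
    (S : Submodule ℝ V) (hS : CofSub S) (η : ℝ) (hη : 0 < η) :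
    ∃ y ∈ S, ‖y‖ = 1 ∧
      ((‖x + t • y‖ + ‖x - t • y‖) / 2 - 1 ≤ max (t / 2) (t - 1) + η) ∧
      (‖x + t • y‖ - 1 ≤ max 0 (t - 2) + η) := by
  set ε : ℝ := min 1 (η / (2 * t)) with hεdef
  have hεpos : 0 < ε := lt_min one_pos (div_pos hη (by linarith))
  have hε1 : ε ≤ 1 := min_le_left _ _
  have hεt : 2 * (ε * t) ≤ η := by
    have h1 : ε ≤ η / (2 * t) := min_le_right _ _
    have h2 : ε * (2 * t) ≤ η := by
      rwa [le_div_iff₀ (by linarith : (0 : ℝ) < 2 * t)] at h1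
    linarith
  obtain ⟨z, hz1, hzS, hz2⟩ := h x hx S hS ε hεpos
  set ρ : ℝ := ‖z - x‖ with hρdef
  have hρ1 : 1 ≤ ρ := by linarith
  have hρpos : 0 < ρ := by linarith
  set r : ℝ := t / ρ with hrdef
  have hrpos : 0 < r := div_pos ht hρpos
  have hrρ : r * ρ = t := by rw [hrdef]; field_simp
  have hrt : r ≤ t := by
    have : r * 1 ≤ r * ρ := mul_le_mul_of_nonneg_left hρ1 hrpos.le
    linarith
  have h2r : 2 * r ≤ t + ε * t := by
    have h1 : r * (2 - ε) ≤ r * ρ := mul_le_mul_of_nonneg_left hz2 hrpos.le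
    have h2 : ε * r ≤ ε * t := mul_le_mul_of_nonneg_left hrt hεpos.le
    nlinarith
  have hεr : ε * r ≤ ε * t := mul_le_mul_of_nonneg_left hrt hεpos.le
  refine ⟨ρ⁻¹ • (z - x), S.smul_mem _ hzS, ?_, ?_⟩
  · rw [norm_smul, norm_inv, Real.norm_eq_abs, abs_of_pos hρpos, ← hρdef]
    field_simp
  have hty : t • (ρ⁻¹ • (z - x)) = r • (z - x) := by
    rw [smul_smul, hrdef, div_eq_mul_inv]
  rw [hty]
  have e1 : x + r • (z - x) = (1 - r) • x + r • z := by
    rw [smul_sub, sub_smul, one_smul]; abel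
  have e2 : x - r • (z - x) = (1 + r) • x - r • z := by
    rw [smul_sub, add_smul, one_smul]; abel
  have n1 : ‖x + r • (z - x)‖ ≤ |1 - r| + r * (1 + ε) := by
    rw [e1]
    calc ‖(1 - r) • x + r • z‖ ≤ ‖(1 - r) • x‖ + ‖r • z‖ := norm_add_le _ _
      _ = |1 - r| * 1 + r * ‖z‖ := by
          rw [norm_smul, norm_smul, hx, Real.norm_eq_abs, Real.norm_eq_abs, abs_of_pos hrpos]
      _ ≤ |1 - r| + r * (1 + ε) := by
          have := mul_le_mul_of_nonneg_left hz1 hrpos.le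
          linarith
  have n2 : ‖x - r • (z - x)‖ ≤ (1 + r) + r * (1 + ε) := by
    rw [e2]
    calc ‖(1 + r) • x - r • z‖ ≤ ‖(1 + r) • x‖ + ‖r • z‖ := norm_sub_le _ _
      _ = (1 + r) * 1 + r * ‖z‖ := by
          rw [norm_smul, norm_smul, hx, Real.norm_eq_abs, Real.norm_eq_abs, abs_of_pos hrpos,
            abs_of_pos (by linarith : (0 : ℝ) < 1 + r)]
      _ ≤ (1 + r) + r * (1 + ε) := by
          have := mul_le_mul_of_nonneg_left hz1 hrpos.le
          linarith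
  have hm1 : t / 2 ≤ max (t / 2) (t - 1) := le_max_left _ _
  have hm2 : t - 1 ≤ max (t / 2) (t - 1) := le_max_right _ _
  have hm3 : (0 : ℝ) ≤ max 0 (t - 2) := le_max_left _ _
  have hm4 : t - 2 ≤ max 0 (t - 2) := le_max_right _ _
  rcases le_total r 1 with hr1 | hr1
  · have habs : |1 - r| = 1 - r := abs_of_nonneg (by linarith)
    rw [habs] at n1
    constructor <;> nlinarith
  · have habs : |1 - r| = r - 1 := by rw [abs_of_nonpos (by linarith)]; ring
    rw [habs] at n1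
    constructor <;> nlinarith

theorem good_of_key (h : KeyHyp V) : ∀ (k : ℕ) (x : V), ‖x‖ = 1 → Good (1 : ℝ) 1 k x := by
  intro k
  induction k with
  | zero => intro x hx; exact hx.le
  | succ k ih =>
    intro x hx
    refine ⟨hx.le, fun S hS ε hε => ?_⟩
    set ε' : ℝ := min (1 / 2) (ε / 2) with hε'
    have hε'pos : 0 < ε' := lt_min (by norm_num) (by linarith)
    have hε'1 : ε' ≤ 1 / 2 := min_le_left _ _
    have hε'2 : ε' ≤ ε / 2 := min_le_right _ _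
    obtain ⟨z, hz1, hzS, hz2⟩ := h x hx S hS ε' hε'pos
    have hzlow : 1 - ε' ≤ ‖z‖ := by
      have h1 : ‖z - x‖ ≤ ‖z‖ + ‖x‖ := norm_sub_le _ _
      rw [hx] at h1
      linarith
    have hzpos : 0 < ‖z‖ := by linarith
    have hunit : ‖(‖z‖⁻¹ : ℝ) • z‖ = 1 := by
      rw [norm_smul, norm_inv, norm_norm]
      field_simp
    have hdist : ‖(‖z‖⁻¹ : ℝ) • z - z‖ ≤ ε' := by
      have e : (‖z‖⁻¹ : ℝ) • z - z = (‖z‖⁻¹ - 1) • z := by rw [sub_smul, one_smul]
      rw [e, norm_smul, Real.norm_eq_abs]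
      have e2 : |‖z‖⁻¹ - 1| * ‖z‖ = |1 - ‖z‖| := by
        have e3 : 1 - ‖z‖ = (‖z‖⁻¹ - 1) * ‖z‖ := by field_simp
        rw [e3, abs_mul, abs_of_pos hzpos]
      rw [e2, abs_le]
      constructor <;> linarith
    refine ⟨(‖z‖⁻¹ : ℝ) • z, ih _ hunit, ?_, z - x, hzS, ?_⟩
    · have h1 : ‖z - x‖ ≤ ‖(‖z‖⁻¹ : ℝ) • z - x‖ + ‖(‖z‖⁻¹ : ℝ) • z - z‖ := by
        have e : z - x = ((‖z‖⁻¹ : ℝ) • z - x) - ((‖z‖⁻¹ : ℝ) • z - z) := by abel
        calc ‖z - x‖ = ‖((‖z‖⁻¹ : ℝ) • z - x) - ((‖z‖⁻¹ : ℝ) • z - z)‖ := by rw [← e]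
          _ ≤ _ := norm_sub_le _ _
      linarith
    · have e : (‖z‖⁻¹ : ℝ) • z - x - (z - x) = (‖z‖⁻¹ : ℝ) • z - z := by abel
      rw [e]
      linarith

end abstract

/-- The abstract form of the statement, for a bundled real Banach space. -/
theorem general (B : RealBanach) (hL : LowerHyp B.X) (hK : KeyHyp B.X)
    (hne : ∃ x : B.X, ‖x‖ = 1) :
    (∀ t : ℝ, 0 < t →
      B.MidpointModulusGE B.norm t (max (t / 2) (t - 1)) ∧
        B.MidpointModulusLE B.norm t (max (t / 2) (t - 1)) ∧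
        B.OneSidedModulusGE B.norm t (max 0 (t - 2)) ∧
        B.OneSidedModulusLE B.norm t (max 0 (t - 2))) ∧
      ∀ N : B.X → ℝ, B.IsEquivNorm N → ¬ B.IsAUC N := by
  refine ⟨fun t ht => ⟨?_, ?_, ?_, ?_⟩, ?_⟩
  · intro x hx η hη
    obtain ⟨S, hS, h⟩ := lower_both hL x hx t ht η hη
    exact ⟨S, (isCof_iff B _).2 ⟨S, rfl, hS⟩, fun y hy hy1 => (h y hy hy1).1⟩
  · intro x hx F hF η hη
    obtain ⟨S, rfl, hS⟩ := (isCof_iff B F).1 hF
    obtain ⟨y, hyS, hy1, h1, _⟩ := upper_both hK x hx t ht S hS η hη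
    exact ⟨y, hyS, hy1, h1⟩
  · intro x hx η hη
    obtain ⟨S, hS, h⟩ := lower_both hL x hx t ht η hη
    exact ⟨S, (isCof_iff B _).2 ⟨S, rfl, hS⟩, fun y hy hy1 => (h y hy hy1).2⟩
  · intro x hx F hF η hη
    obtain ⟨S, rfl, hS⟩ := (isCof_iff B F).1 hF
    obtain ⟨y, hyS, hy1, _, h2⟩ := upper_both hK x hx t ht S hS η hη
    exact ⟨y, hyS, hy1, h2⟩
  · obtain ⟨x, hx⟩ := hne
    exact Crest.Agent.R125_NoAUC.noAUC B 1 1 1 one_pos one_pos
      (fun k => ⟨x, hx.ge, good_of_key hK k x hx⟩)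

/-- Let E be an infinite-dimensional closed subspace of the real L¹ of a probability space whose closed unit ball is totally bounded for convergence in measure and whose norm has the Daugavet property. Then at every unit x ∈ E and every t > 0 the averaged midpoint quantity sup_F inf_y ((‖x+ty‖+‖x-ty‖)/2 - 1) equals max(t/2, t-1) and the one-sided one sup_F inf_y (‖x+ty‖ - 1) equals max(0, t-2), as matching lower and upper bounds, and E admits no equivalent asymptotically uniformly convex norm. -/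
theorem result (Ω : Type) [MeasurableSpace Ω] (P : MeasureTheory.Measure Ω) [MeasureTheory.IsProbabilityMeasure P]
    (E : Submodule ℝ (MeasureTheory.Lp ℝ 1 P)) (hcl : IsClosed (E : Set (MeasureTheory.Lp ℝ 1 P)))
    (hinf : ¬ FiniteDimensional ℝ E)
    (htb : Crest.AnalysisR.L1Subspace.UnitBallTotallyBoundedInMeasure P E)
    (hD : Crest.AnalysisR.L1Subspace.HasDaugavetProperty E) :
    (∀ t : ℝ, 0 < t →
      (Crest.AnalysisR.L1Subspace.toRealBanach P E hcl).MidpointModulusGE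
          (Crest.AnalysisR.L1Subspace.toRealBanach P E hcl).norm t (max (t / 2) (t - 1)) ∧
        (Crest.AnalysisR.L1Subspace.toRealBanach P E hcl).MidpointModulusLE
          (Crest.AnalysisR.L1Subspace.toRealBanach P E hcl).norm t (max (t / 2) (t - 1)) ∧
        (Crest.AnalysisR.L1Subspace.toRealBanach P E hcl).OneSidedModulusGE
          (Crest.AnalysisR.L1Subspace.toRealBanach P E hcl).norm t (max 0 (t - 2)) ∧
        (Crest.AnalysisR.L1Subspace.toRealBanach P E hcl).OneSidedModulusLE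
          (Crest.AnalysisR.L1Subspace.toRealBanach P E hcl).norm t (max 0 (t - 2))) ∧
      ∀ N : E → ℝ, (Crest.AnalysisR.L1Subspace.toRealBanach P E hcl).IsEquivNorm N →
        ¬ (Crest.AnalysisR.L1Subspace.toRealBanach P E hcl).IsAUC N := by
  have hL : LowerHyp E := fun x η hη => Crest.Agent.R125_L1Lower.l1_lower P E htb x η hη
  have hK : KeyHyp E := fun x hx S hS ε hε =>
    Crest.Agent.R125_Daugavet.daugavet_key hD x hx S hS ε hε
  have hne : ∃ x : E, ‖x‖ = 1 := by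
    have hnt : Nontrivial E := by
      by_contra hcon
      rw [not_nontrivial_iff_subsingleton] at hcon
      exact hinf inferInstance
    obtain ⟨x, hx⟩ := exists_ne (0 : E)
    refine ⟨(‖x‖⁻¹ : ℝ) • x, ?_⟩
    rw [norm_smul, norm_inv, norm_norm]
    exact inv_mul_cancel₀ (norm_ne_zero_iff.2 hx)
  exact general (Crest.AnalysisR.L1Subspace.toRealBanach P E hcl) hL hK hne

end Crest.Agent.S0167
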