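-- Row 130 / S0175: final assembly (helper68).  Paper proof: notes/mm3_plan_S0175.md
import Crest.Statements.S0175
import Crest.Agent.MM3_Geo
import Crest.Agent.MM3_ToCfg
import Crest.Agent.MM3_Base
import Crest.Agent.MM3_Push
import Crest.Agent.MM3_Five
import Crest.Agent.MM3_Opt
import Crest.Agent.MM3_NoMonge
import Crest.Agent.MM3_Approx

set_option autoImplicit false
open MeasureTheory
open scoped ENNReal ContDiff
open Crest.AnalysisR.OT
open Crest Crest.AnalysisR Crest.AnalysisR.OT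

namespace Crest.Agent.S0175

open Crest.Agent.MM3 in
/-- For every d ≥ 2 and s > 0 there is a smooth, compactly supported, nonnegative ρ on ℝᵈ with integral 1 and smooth square root such that, for μ = ρ dx and the cost summing ‖xᵢ - xⱼ‖^(-s) over the three pairs of a triple: some coupling with all three marginals μ has finite cost, minimal among all such couplings; every pair of Borel maps T₂, T₃ pushing μ to itself gives the plan x ↦ (x, T₂ x, T₃ x) strictly larger cost; and such pairs have costs arbitrarily close to that minimum. -/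
theorem result
    (d : ℕ) (hd : 2 ≤ d) (s : ℝ) (hs : 0 < s) :
    ∃ ρ : EuclideanSpace ℝ (Fin d) → ℝ, (∀ x, 0 ≤ ρ x) ∧ ContDiff ℝ ∞ ρ ∧ HasCompactSupport ρ ∧
      ContDiff ℝ ∞ (fun x => Real.sqrt (ρ x)) ∧ ∫ x, ρ x = 1 ∧
      ∃ π₀ : Measure (EuclideanSpace ℝ (Fin d) × EuclideanSpace ℝ (Fin d) × EuclideanSpace ℝ (Fin d)),
        IsCoupling₃ (measOfDensity ρ) π₀ ∧ ∫⁻ p, tripleCost s p ∂π₀ < ⊤ ∧
        (∀ π : Measure (EuclideanSpace ℝ (Fin d) × EuclideanSpace ℝ (Fin d) × EuclideanSpace ℝ (Fin d)), IsCoupling₃ (measOfDensity ρ) π →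
          ∫⁻ p, tripleCost s p ∂π₀ ≤ ∫⁻ p, tripleCost s p ∂π) ∧
        (∀ T₂ T₃ : EuclideanSpace ℝ (Fin d) → EuclideanSpace ℝ (Fin d), Measurable T₂ → Measurable T₃ →
          (measOfDensity ρ).map T₂ = measOfDensity ρ → (measOfDensity ρ).map T₃ = measOfDensity ρ →
          ∫⁻ p, tripleCost s p ∂π₀ < ∫⁻ x, tripleCost s (x, T₂ x, T₃ x) ∂(measOfDensity ρ)) ∧
        (∀ ε : ℝ≥0∞, 0 < ε → ∃ T₂ T₃ : EuclideanSpace ℝ (Fin d) → EuclideanSpace ℝ (Fin d), Measurable T₂ ∧ Measurable T₃ ∧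
          (measOfDensity ρ).map T₂ = measOfDensity ρ ∧ (measOfDensity ρ).map T₃ = measOfDensity ρ ∧
          ∫⁻ x, tripleCost s (x, T₂ x, T₃ x) ∂(measOfDensity ρ) < ∫⁻ p, tripleCost s p ∂π₀ + ε) := by
  obtain ⟨G, hG⟩ := exists_geo d hd s hs
  obtain ⟨ψ, hψs, hψc, hψ0, hψsupp, hmass, hdbl⟩ :=
    exists_base_measure d (by omega) G.η hG.η_pos
  have hA : ∀ j, _ := fun j => pushforward_density (G.fA j) (G.gA j) (G.U j) (G.VA j) (hG.diffA j)
    (hG.fA_meas j) ψ hψs hψc (hψsupp.trans (hG.ball_sub j)) hψ0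
  have hC : ∀ j, _ := fun j => pushforward_density (G.fC j) (G.gC j) (G.U j) (G.VC j) (hG.diffC j)
    (hG.fC_meas j) ψ hψs hψc (hψsupp.trans (hG.ball_sub j)) hψ0
  choose τA hτAs hτAc hτA0 hτAsupp hτAmap using hA
  choose τC hτCs hτCc hτC0 hτCsupp hτCmap using hC
  set ν : Measure (EE d) := measOfDensity (fun x => ψ x ^ 2) with hν
  -- the base measure
  have hfin : IsFiniteMeasure ν := ⟨by rw [hmass]; exact ENNReal.div_lt_top (by simp) (by simp)⟩
  have hpos : ν Set.univ ≠ 0 := by rw [hmass]; simp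
  have hsuppψ : Function.support ψ ⊆ G.SB := (subset_tsupport ψ).trans hψsupp
  have hSBm : MeasurableSet G.SBᶜ := (Metric.isOpen_ball.measurableSet).compl
  have hSB : ν G.SBᶜ = 0 := by
    rw [hν, measOfDensity, withDensity_apply _ hSBm]
    apply setLIntegral_eq_zero hSBm
    intro x hx
    have : ψ x = 0 := by
      by_contra h
      exact hx (hsuppψ h)
    simp [this]
  set D : CfgData (EE d) := G.toCfg s ν with hDdef
  have hD : D.Valid := GeoData.toCfg_valid hG ν hfin hpos hSB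
  -- the density
  set τ : EE d → ℝ := fun x => Real.sqrt 2 * ψ x + ∑ j, (τA j x + τC j x) with hτ
  have hτ0 : ∀ x, 0 ≤ τ x := fun x =>
    add_nonneg (mul_nonneg (Real.sqrt_nonneg _) (hψ0 x))
      (Finset.sum_nonneg fun j _ => add_nonneg (hτA0 j x) (hτC0 j x))
  have hτs : ContDiff ℝ ∞ τ :=
    (contDiff_const.mul hψs).add (ContDiff.sum fun j _ => (hτAs j).add (hτCs j))
  have hτc : HasCompactSupport τ := by
    have h1 : HasCompactSupport (fun x => Real.sqrt 2 * ψ x) := hψc.mul_left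
    have h2 : HasCompactSupport (fun x => ∑ j, (τA j x + τC j x)) := by
      simp only [Fin.sum_univ_two]
      exact ((hτAc 0).add (hτCc 0)).add ((hτAc 1).add (hτCc 1))
    exact h1.add h2
  have hμ : measOfDensity (fun x => τ x ^ 2) = D.μ := by
    have h5 := measOfDensity_five (fun x => Real.sqrt 2 * ψ x) τA τC
      (measurable_const.mul hψs.continuous.measurable) (fun j => (hτAs j).continuous.measurable)
      (fun j => (hτCs j).continuous.measurable) G.SB G.SA G.SC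
      (by
        intro x hx
        apply hsuppψ
        intro h0
        apply hx
        simp [h0])
      (fun j => (hτAsupp j).trans (by
        rintro _ ⟨b, hb, rfl⟩
        exact hD.fA_mem j b (hsuppψ hb)))
      (fun j => (hτCsupp j).trans (by
        rintro _ ⟨b, hb, rfl⟩
        exact hD.fC_mem j b (hsuppψ hb)))
      hG.disj_BA hG.disj_BC hG.disj_AC hG.disj_AA hG.disj_CC
    rw [h5, measOfDensity_sqrt_two_mul ψ hψs.continuous.measurable]
    simp only [← hτAmap, ← hτCmap]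
    rfl
  have hval : D.val < ⊤ := hD.val_lt_top
  refine ⟨fun x => τ x ^ 2, fun x => sq_nonneg _, hτs.pow 2, ?_, ?_, ?_, D.π₀, ?_⟩
  · have : (fun x => τ x ^ 2) = fun x => τ x * τ x := by funext x; ring
    rw [this]; exact hτc.mul_left
  · have : (fun x => Real.sqrt (τ x ^ 2)) = τ := by funext x; exact Real.sqrt_sq (hτ0 x)
    rw [this]; exact hτs
  · apply integral_eq_of_measOfDensity_univ _ (hτs.pow 2).continuous.measurable (fun x => sq_nonneg _)
    rw [hμ, hD.μ_univ]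
    show 6 * ν Set.univ = 1
    rw [hmass]
    rw [one_div]
    exact ENNReal.mul_inv_cancel (by simp) (by simp)
  · rw [hμ]
    have hcost : ∫⁻ p, tripleCost s p ∂D.π₀ = D.val := CfgData.π₀_cost hD
    rw [hcost]
    refine ⟨CfgData.π₀_coupling hD, hval, fun π hπ => CfgData.weak_duality hD π hπ,
      fun T₂ T₃ h₂ h₃ m₂ m₃ => CfgData.monge_strict hD T₂ T₃ h₂ h₃ m₂ m₃, ?_⟩
    intro ε hε
    -- choose ε' with ε' * (2 ν univ) < ε : ε' = ε (since 2 ν univ = 1/3 < 1) needs ε ≠ ⊤; use min ε 1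
    set ε' : ℝ≥0∞ := min ε 1 with hε'
    have hε'pos : 0 < ε' := lt_min hε one_pos
    obtain ⟨δ, hδ, hmod⟩ := hG.modulus ε' hε'pos
    obtain ⟨θ, B₁, hθ, hB₁, hclose, h1, h2⟩ := hdbl δ hδ
    have hθSB : ∀ᵐ b ∂ν, θ b ∈ G.SB := by
      have e1 : ((2 : ℝ≥0∞) • ν.restrict B₁) (θ ⁻¹' G.SBᶜ) = 0 := by
        rw [← Measure.map_apply hθ hSBm, h1, hSB]
      have e2 : ((2 : ℝ≥0∞) • ν.restrict B₁ᶜ) (θ ⁻¹' G.SBᶜ) = 0 := by
        rw [← Measure.map_apply hθ hSBm, h2, hSB]
      simp only [Measure.smul_apply, smul_eq_mul, mul_eq_zero, OfNat.ofNat_ne_zero, false_or] at e1 e2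
      have e3 : ν (θ ⁻¹' G.SBᶜ) = 0 := by
        rw [← Measure.restrict_add_restrict_compl (μ := ν) hB₁, Measure.add_apply, e1, e2, add_zero]
      rw [ae_iff]
      exact e3
    have hbSB : ∀ᵐ b ∂ν, b ∈ G.SB := by
      rw [ae_iff]; exact hSB
    obtain ⟨T₂, T₃, hT₂, hT₃, m₂, m₃, hc⟩ := CfgData.monge_approx hD θ B₁ ε' hθ hB₁ h1 h2 (by
      filter_upwards [hclose, hθSB, hbSB] with b hb1 hb2 hb3 j
      exact hmod b hb3 (θ b) hb2 hb1 j)
    refine ⟨T₂, T₃, hT₂, hT₃, m₂, m₃, lt_of_le_of_lt hc ?_⟩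
    have hlt : ε' * (2 * ν Set.univ) < ε := by
      rw [hmass]
      have h3 : (2 : ℝ≥0∞) * (1 / 6) < 1 := by
        rw [mul_one_div]
        exact ENNReal.div_lt_of_lt_mul (by norm_num)
      have hne : ε' ≠ ⊤ := ne_top_of_le_ne_top ENNReal.one_ne_top (min_le_right _ _)
      calc ε' * (2 * (1 / 6)) < ε' * 1 := by
            exact (ENNReal.mul_lt_mul_iff_right hε'pos.ne' hne).2 h3
        _ = ε' := mul_one _
        _ ≤ ε := min_le_left _ _
    exact ENNReal.add_lt_add_left hval.ne hlt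

end Crest.Agent.S0175
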