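import Crest.Statements.S0209
import Crest.Agent.PT_Main

set_option autoImplicit false
open Crest Crest.ProbabilityR

namespace Crest.Agent.S0209

/-- There is a bounded continuous stable radial pair potential in three-space (energy of `N` particles `≥ -B N`) with `φ(r)` at most `C r^(-3-1/32)` in size for `r ≥ 1`, an open density interval centred at `5p/3`, `p > 0` the unit-separation packing density (`packingNumber L / L^3 → p`), and one `β_c ∈ [7/8, 9/8]` such that at each `ρ` in it the free energy per volume `-lim_L log Z_{[0,L]^3, ⌊ρL^3⌋}(β)/(β L^3)` exists for `β > 0`, with one-sided `β`-derivatives at `β_c`, left above right. -/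
theorem result :
    ∃ φ : ℝ → ℝ, Continuous φ ∧ (∃ M : ℝ, ∀ r : ℝ, |φ r| ≤ M) ∧
      (∃ B : ℝ, ∀ (N : ℕ) (x : Fin N → Crest.ProbabilityR.Continuum.Pt), -B * N ≤ Crest.ProbabilityR.Continuum.energy φ x) ∧
      (∃ C : ℝ, ∀ r : ℝ, 1 ≤ r → |φ r| ≤ C * r ^ (-(3 + 1 / 32 : ℝ))) ∧
      ∃ p η βc : ℝ, 0 < p ∧
        Filter.Tendsto (fun L : ℝ => (Crest.ProbabilityR.Continuum.packingNumber L : ℝ) / L ^ 3)
          Filter.atTop (nhds p) ∧
        0 < η ∧ η ≤ 5 * p / 3 ∧ 7 / 8 ≤ βc ∧ βc ≤ 9 / 8 ∧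
        ∃ f : ℝ → ℝ → ℝ,
          (∀ ρ : ℝ, 5 * p / 3 - η < ρ → ρ < 5 * p / 3 + η → ∀ β : ℝ, 0 < β →
            Filter.Tendsto (fun L : ℝ => -(1 / (β * L ^ 3)) *
                Real.log (Crest.ProbabilityR.Continuum.partitionFn φ L ⌊ρ * L ^ 3⌋₊ β))
              Filter.atTop (nhds (f β ρ))) ∧
          (∀ ρ : ℝ, 5 * p / 3 - η < ρ → ρ < 5 * p / 3 + η → ∃ Dl Dr : ℝ,
            HasDerivWithinAt (fun β => f β ρ) Dl (Set.Iio βc) βc ∧
            HasDerivWithinAt (fun β => f β ρ) Dr (Set.Ioi βc) βc ∧ Dr < Dl) := by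
  obtain ⟨p, hp1, hp⟩ := Crest.Agent.PT.packing_limit
  obtain ⟨δ, lam, T, hP, βc, hβc, hk⟩ := Crest.Agent.PT.main_kink hp1 hp (fun _ _ => 0)
    (fun lam => Crest.Agent.PT.coreOK_zero lam)
  have hom := Crest.Agent.PT.coreOK_zero lam
  have hb := abs_le.mp hβc
  refine ⟨Crest.Agent.PT.phi (fun _ => 0) p δ lam T, Crest.Agent.PT.phi0_continuous hP,
    Crest.Agent.PT.phi0_bounded hP, ⟨lam, fun N x => ?_⟩, Crest.Agent.PT.phi_tail hP hom,
    p, p / 2, βc, by linarith, hp, by linarith, by linarith, by linarith [hb.1], by linarith [hb.2],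
    fun β ρ => Crest.Agent.PT.Gf (Crest.Agent.PT.phi (fun _ => 0) p δ lam T) β ρ / β, ?_, ?_⟩
  · have := Crest.Agent.PT.stab_phi hP hom N x
    linarith
  · intro ρ h1 _ β hβ
    exact Crest.Agent.PT.tendsto_freeEnergy hP hom hβ (by linarith)
  · intro ρ h1 h2
    exact hk ρ (by unfold Crest.Agent.PT.pb; linarith) (by unfold Crest.Agent.PT.pb; linarith)

end Crest.Agent.S0209
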