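import Crest.Statements.S0210
import Crest.Agent.PT_Main

set_option autoImplicit false
open Crest Crest.ProbabilityR

namespace Crest.Agent.S0210

/-- There is a measurable radial pair potential in three-space, finite and locally bounded at positive distances, tending to `+∞` at `0`, below `-a < 0` on an interval, with `r² φ(r)` integrable at large `r`, `r³ φ(r) → 0`, and stable on configurations of distinct points, whose canonical free energy per volume `-lim_L log Z_{[0,L]^3, ⌊ρL^3⌋}(β)/(β L^3)` exists for all `β, ρ > 0` and has, on some open density interval, at one `β_c ∈ (1/2, 3/2)` a left `β`-derivative strictly above the right. -/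
theorem result :
    ∃ φ : ℝ → ℝ, Measurable φ ∧
      (∀ a b : ℝ, 0 < a → a ≤ b → ∃ M : ℝ, ∀ r : ℝ, a ≤ r → r ≤ b → |φ r| ≤ M) ∧
      Filter.Tendsto φ (nhdsWithin 0 (Set.Ioi 0)) Filter.atTop ∧
      (∃ r₁ r₂ a : ℝ, 0 < r₁ ∧ r₁ < r₂ ∧ 0 < a ∧ ∀ r : ℝ, r₁ ≤ r → r ≤ r₂ → φ r ≤ -a) ∧
      (∃ R : ℝ, 0 < R ∧ MeasureTheory.IntegrableOn (fun r : ℝ => r ^ 2 * |φ r|) (Set.Ioi R)) ∧
      Filter.Tendsto (fun r : ℝ => r ^ 3 * φ r) Filter.atTop (nhds 0) ∧
      (∃ B : ℝ, ∀ (N : ℕ) (x : Fin N → Crest.ProbabilityR.Continuum.Pt), Function.Injective x →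
        -B * N ≤ Crest.ProbabilityR.Continuum.energy φ x) ∧
      ∃ f : ℝ → ℝ → ℝ,
        (∀ ρ : ℝ, 0 < ρ → ∀ β : ℝ, 0 < β →
          Filter.Tendsto (fun L : ℝ => -(1 / (β * L ^ 3)) *
              Real.log (Crest.ProbabilityR.Continuum.partitionFn φ L ⌊ρ * L ^ 3⌋₊ β))
            Filter.atTop (nhds (f β ρ))) ∧
        ∃ ρ₁ ρ₂ βc : ℝ, 0 ≤ ρ₁ ∧ ρ₁ < ρ₂ ∧ 1 / 2 < βc ∧ βc < 3 / 2 ∧
          ∀ ρ : ℝ, ρ₁ < ρ → ρ < ρ₂ → ∃ Dl Dr : ℝ,
            HasDerivWithinAt (fun β => f β ρ) Dl (Set.Iio βc) βc ∧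
            HasDerivWithinAt (fun β => f β ρ) Dr (Set.Ioi βc) βc ∧ Dr < Dl := by
  obtain ⟨p, hp1, hp⟩ := Crest.Agent.PT.packing_limit
  obtain ⟨δ, lam, T, hP, βc, hβc, hk⟩ := Crest.Agent.PT.main_kink hp1 hp
    (fun lam => Crest.Agent.PT.omCore lam) (fun lam => Crest.Agent.PT.coreOK_omCore lam)
  have hom := Crest.Agent.PT.coreOK_omCore lam
  have hb := abs_le.mp hβc
  have hpb : 0 < Crest.Agent.PT.pb p := by linarith [Crest.Agent.PT.pb_pos hp1]
  refine ⟨Crest.Agent.PT.phi (Crest.Agent.PT.omCore lam) p δ lam T,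
    Crest.Agent.PT.phi_measurable hP hom, Crest.Agent.PT.phiC_locBdd hP,
    Crest.Agent.PT.phiC_tendsto hP, Crest.Agent.PT.phi_neg hP hom,
    Crest.Agent.PT.phi_integrable_tail hP hom, Crest.Agent.PT.phi_r3 hP hom,
    ⟨lam, fun N x _ => ?_⟩,
    fun β ρ => Crest.Agent.PT.Gf (Crest.Agent.PT.phi (Crest.Agent.PT.omCore lam) p δ lam T) β ρ / β,
    ?_, 21 / 10 * Crest.Agent.PT.pb p, 39 / 10 * Crest.Agent.PT.pb p, βc, by positivity,
    by linarith, by linarith [hb.1], by linarith [hb.2], hk⟩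
  · have := Crest.Agent.PT.stab_phi hP hom N x
    linarith
  · intro ρ h1 β hβ
    exact Crest.Agent.PT.tendsto_freeEnergy hP hom hβ h1.le

end Crest.Agent.S0210
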