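import Crest.Statements.S0223

set_option autoImplicit false
open Crest Crest.ProbabilityR

namespace Crest.Agent.S0223

open Crest.ProbabilityR.Shuffle

/-- One shuffle is an injective map of the positions. -/
theorem stepPos_injective (m : ℕ) (c : Fin m → Bool) : Function.Injective (stepPos m c) := by
  intro x y h
  have hx := x.isLt
  have hy := y.isLt
  have hm : 0 < m := by omega
  have h' : (stepPos m c x).val = (stepPos m c y).val := congrArg Fin.val h
  simp only [stepPos] at h'
  have hmod : x.val % m = y.val % m := by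
    split_ifs at h' <;> omega
  have hc : c ⟨x.val % m, Nat.mod_lt _ hm⟩ = c ⟨y.val % m, Nat.mod_lt _ hm⟩ := by
    congr 1
    exact Fin.ext hmod
  rw [hc, hmod] at h'
  have hiff : (m ≤ x.val) ↔ (m ≤ y.val) := by
    cases hcy : c ⟨y.val % m, Nat.mod_lt _ hm⟩ <;> rw [hcy] at h' <;>
      by_cases h1 : m ≤ x.val <;> by_cases h2 : m ≤ y.val <;> simp [h1, h2] at h' ⊢
  apply Fin.ext
  by_cases h1 : m ≤ x.val
  · have h2 := hiff.1 h1
    have e1 : x.val % m = x.val - m := by
      rw [Nat.mod_eq_sub_mod h1, Nat.mod_eq_of_lt (by omega)]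
    have e2 : y.val % m = y.val - m := by
      rw [Nat.mod_eq_sub_mod h2, Nat.mod_eq_of_lt (by omega)]
    omega
  · have h2 : ¬ m ≤ y.val := fun h => h1 (hiff.2 h)
    have e1 : x.val % m = x.val := Nat.mod_eq_of_lt (by omega)
    have e2 : y.val % m = y.val := Nat.mod_eq_of_lt (by omega)
    omega

/-- A run of shuffles is an injective map of the positions. -/
theorem iterPos_injective (m : ℕ) : ∀ (t : ℕ) (cs : Fin t → Fin m → Bool),
    Function.Injective (iterPos m t cs)
  | 0, _ => fun _ _ h => h
  | t + 1, cs => fun _ _ h =>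
      iterPos_injective m t (fun i => cs i.castSucc) (stepPos_injective m _ h)

/-- The permutation of the positions effected by a run of shuffles. -/
noncomputable def runPerm (m t : ℕ) (cs : Fin t → Fin m → Bool) : Equiv.Perm (Fin (2 * m)) :=
  Equiv.ofBijective (iterPos m t cs) (Finite.injective_iff_bijective.1 (iterPos_injective m t cs))

theorem coe_runPerm (m t : ℕ) (cs : Fin t → Fin m → Bool) :
    ⇑(runPerm m t cs) = iterPos m t cs := rfl

theorem tv_lower (m t : ℕ) :
    1 - (2 : ℝ) ^ (m * t) / ((2 * m).factorial : ℝ) ≤ tvFromUniform m t := by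
  classical
  set u : ℝ := 1 / ((2 * m).factorial : ℝ) with hu
  have hfac : (0 : ℝ) < ((2 * m).factorial : ℝ) := by exact_mod_cast Nat.factorial_pos _
  have hu0 : 0 ≤ u := by positivity
  set p : Equiv.Perm (Fin (2 * m)) → ℝ := fun g =>
    Crest.FinProb.uniformProb {cs : Fin t → Fin m → Bool | iterPos m t cs = ⇑g} with hp
  have hcardΩ : (Fintype.card (Fin t → Fin m → Bool) : ℝ) = (2 : ℝ) ^ (m * t) := by
    simp [pow_mul]
  have hΩpos : (0 : ℝ) < (Fintype.card (Fin t → Fin m → Bool) : ℝ) := by
    rw [hcardΩ]; positivity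
  -- `p g` as a fibre count
  have hpg : ∀ g, p g = ((Finset.univ.filter (fun cs => runPerm m t cs = g)).card : ℝ)
      / (Fintype.card (Fin t → Fin m → Bool) : ℝ) := by
    intro g
    simp only [hp, Crest.FinProb.uniformProb]
    congr 2
    apply Finset.card_bij (fun cs _ => cs)
    · intro cs hcs
      simp only [Finset.mem_filter, Finset.mem_univ, true_and, Set.mem_ofPred_eq] at hcs ⊢
      exact Equiv.coe_fn_injective (hcs : ⇑(runPerm m t cs) = ⇑g)
    · intro _ _ _ _ h; exact h
    · intro cs hcs
      refine ⟨cs, ?_, rfl⟩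
      simp only [Finset.mem_filter, Finset.mem_univ, true_and, Set.mem_ofPred_eq] at hcs ⊢
      rw [← hcs, coe_runPerm]
  -- total mass one
  have hsum : ∑ g, p g = 1 := by
    simp only [hpg]
    rw [← Finset.sum_div, ← Nat.cast_sum]
    have := Finset.card_eq_sum_card_fiberwise (s := (Finset.univ : Finset (Fin t → Fin m → Bool)))
      (t := (Finset.univ : Finset (Equiv.Perm (Fin (2 * m))))) (f := runPerm m t)
      (fun _ _ => Finset.mem_univ _)
    rw [← this, Finset.card_univ]
    exact div_self hΩpos.ne'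
  set A : Finset (Equiv.Perm (Fin (2 * m))) := Finset.univ.image (runPerm m t) with hA
  have hAcard : (A.card : ℝ) ≤ (2 : ℝ) ^ (m * t) := by
    rw [← hcardΩ]
    exact_mod_cast Finset.card_image_le.trans (le_of_eq Finset.card_univ)
  have hzero : ∀ g, g ∉ A → p g = 0 := by
    intro g hg
    rw [hpg]
    have : (Finset.univ.filter (fun cs => runPerm m t cs = g)) = ∅ := by
      apply Finset.filter_eq_empty_iff.2
      intro cs _ h
      exact hg (Finset.mem_image.2 ⟨cs, Finset.mem_univ _, h⟩)
    rw [this]; simp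
  have hpoint : ∀ g, p g + u - 2 * u * (if g ∈ A then 1 else 0) ≤ |p g - u| := by
    intro g
    by_cases hg : g ∈ A
    · simp only [hg, if_true]
      have := le_abs_self (p g - u)
      linarith
    · simp only [hg, if_false]
      rw [hzero g hg]
      have : |0 - u| = u := by rw [zero_sub, abs_neg, abs_of_nonneg hu0]
      rw [this]; linarith
  have hsumu : ∑ _g : Equiv.Perm (Fin (2 * m)), u = 1 := by
    rw [Finset.sum_const, Finset.card_univ, Fintype.card_perm, Fintype.card_fin, nsmul_eq_mul, hu]
    field_simp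
  have hsumA : ∑ g : Equiv.Perm (Fin (2 * m)), (2 * u * (if g ∈ A then (1 : ℝ) else 0))
      = 2 * u * (A.card : ℝ) := by
    rw [← Finset.mul_sum]
    congr 1
    rw [Finset.sum_ite_mem]
    simp
  have hmain : 2 - 2 * u * (A.card : ℝ) ≤ ∑ g, |p g - u| := by
    calc 2 - 2 * u * (A.card : ℝ)
        = ∑ g, (p g + u - 2 * u * (if g ∈ A then 1 else 0)) := by
          rw [Finset.sum_sub_distrib, Finset.sum_add_distrib, hsum, hsumu, hsumA]; norm_num
      _ ≤ ∑ g, |p g - u| := Finset.sum_le_sum (fun g _ => hpoint g)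
  have hfinal : tvFromUniform m t = (1 / 2) * ∑ g, |p g - u| := rfl
  rw [hfinal]
  have h1 : u * (A.card : ℝ) ≤ u * (2 : ℝ) ^ (m * t) := mul_le_mul_of_nonneg_left hAcard hu0
  have h2 : (2 : ℝ) ^ (m * t) / ((2 * m).factorial : ℝ) = u * (2 : ℝ) ^ (m * t) := by
    rw [hu]; ring
  rw [h2]
  linarith

/-- For a deck of `2 * 2 ^ d` cards and every number `t` of shuffles, the total variation distance between the law of the arrangement of the deck and the uniform law on all arrangements is at least `1 - 2 ^ (2 ^ d * t) / (2 * 2 ^ d)!`. -/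
theorem result (d t : ℕ) :
    1 - (2 : ℝ) ^ (2 ^ d * t) / ((2 * 2 ^ d).factorial : ℝ)
      ≤ Crest.ProbabilityR.Shuffle.tvFromUniform (2 ^ d) t := by
  exact tv_lower (2 ^ d) t

end Crest.Agent.S0223
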