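import Crest.Statements.S0255
import Crest.Agent.R168_S0255_Abs
import Crest.Agent.R168_S0255_Inv
import Crest.Agent.R168_SampNat
import Crest.Agent.R168_SampMeas
import Crest.Agent.R168_SampLaw
import Crest.Agent.R168_C_Cauchy

set_option autoImplicit false
open Crest Crest.ProbabilityR

namespace Crest.Agent.S0255

/-- For a countable group `Γ` and a strongly Rayleigh probability law `ν` on binary configurations `Γ → Bool` that is invariant under every left shift `a ↦ (h ↦ a (g⁻¹ h))`, there is a measurable map from independent uniform labels indexed by `Γ` to configurations that commutes with every left shift and pushes the label law forward to `ν`. -/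
theorem result (Γ : Type*) [Group Γ]
    [Countable Γ] (ν : MeasureTheory.Measure (Γ → Bool)) [MeasureTheory.IsProbabilityMeasure ν]
    (hsr : Crest.ProbabilityR.StronglyRayleigh.IsStronglyRayleigh ν)
    (hinv : Crest.ProbabilityR.StronglyRayleigh.IsShiftInvariant ν) :
    ∃ Φ : (Γ → unitInterval) → (Γ → Bool), Measurable Φ ∧
      (∀ (g : Γ) (u : Γ → unitInterval),
        Φ (Crest.ProbabilityR.StronglyRayleigh.leftShift g u) =
          Crest.ProbabilityR.StronglyRayleigh.leftShift g (Φ u)) ∧
      (Crest.ProbabilityR.Labels.labelMeasure Γ).map Φ = ν := by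
  classical
  have hneg : Crest.Agent.R168.NegFam (Crest.Agent.R168.cylM ν) :=
    ⟨Crest.Agent.R168.cylFam_cylM ν, Crest.Agent.R168.cylM_empty ν,
      Crest.Agent.R168.massN1_cylM hsr, Crest.Agent.R168.massN2_cylM hsr⟩
  refine Crest.Agent.R168.fiid_of_sampler ν
    (fun W w o => Crest.Agent.R168.samp (Crest.Agent.R168.cylM ν) W w.1 w.2 o)
    (fun W o => Crest.Agent.R168.measurable_samp _ W o)
    (Crest.Agent.R168.samp_ucauchy hneg (fun W o => Crest.Agent.R168.measurable_samp _ W o))
    ?_ ?_
  · intro F W hFW
    rw [Crest.Agent.R168.samp_law hneg.cyl hneg.one hFW]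
    unfold Crest.Agent.R168.cylM
    rw [ENNReal.ofReal_toReal (MeasureTheory.measure_ne_top _ _)]
    congr 1
    ext ω
    simp [Crest.Agent.R168.cylSet]
  · intro g W ω o
    have hf : Function.Injective (fun h : Γ => g * h) := mul_right_injective g
    have hW : W = (W.image (fun h => g⁻¹ * h)).image (fun h => g * h) := by
      rw [Finset.image_image]
      ext x
      simp
    have ho : g * (g⁻¹ * o) = o := by simp
    have key := Crest.Agent.R168.samp_image (fun h : Γ => g * h) hf (Crest.Agent.R168.cylM ν)
      (W.image (fun h => g⁻¹ * h)) (Crest.Agent.R168.theta g ω).1 (Crest.Agent.R168.theta g ω).2 (g⁻¹ * o)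
    rw [← hW, ho] at key
    show Crest.Agent.R168.samp (Crest.Agent.R168.cylM ν) W (Crest.Agent.R168.theta g ω).1
      (Crest.Agent.R168.theta g ω).2 o = _
    rw [key]
    have hc : (fun A Z : Finset Γ => Crest.Agent.R168.cylM ν (A.image (fun h => g * h)) (Z.image (fun h => g * h)))
        = Crest.Agent.R168.cylM ν := by
      funext A Z
      have := Crest.Agent.R168.cylM_image_mul hinv g⁻¹ A Z
      simpa using this
    have hU : (Crest.Agent.R168.theta g ω).1 ∘ (fun h => g * h) = ω.1 := by
      funext x
      simp [Crest.Agent.R168.theta, Crest.ProbabilityR.StronglyRayleigh.leftShift]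
    have hV : (Crest.Agent.R168.theta g ω).2 ∘ (fun h => g * h) = ω.2 := by
      funext x
      simp [Crest.Agent.R168.theta, Crest.ProbabilityR.StronglyRayleigh.leftShift]
    rw [hc, hU, hV]

end Crest.Agent.S0255
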