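import Crest.Statements.S0324
import Crest.Agent.Lib_helper38_Area
import Crest.Agent.Lib_helper45_CoreCover
import Crest.Agent.Lib_helper21_MinProj

set_option autoImplicit false
open MeasureTheory
open scoped ENNReal
open Crest Crest.GeometryTopology Crest.GeometryTopology.Convex

namespace Crest.Agent.S0324

open Crest.Agent.Lib_helper38_Area Crest.Agent.Lib_helper45_CoreCover Crest.Agent.MinProj in
/-- The regular tetrahedron `K` with vertices `(±1, 0, 0)`, `(0, ±1, √2)` is covered by finitely many cylinders `Bᵢ + ℝ uᵢ`, each with unit direction `uᵢ` and base `Bᵢ` a triangle (convex hull of three points) in the plane `uᵢ^⊥`, whose total base area `∑ᵢ area(Bᵢ)` is smaller, by a positive margin, than half the area of the orthogonal projection of `K` onto `v^⊥` for every unit vector `v`; areas are 2-dimensional Hausdorff measure. -/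
theorem result :
    ∃ (m : ℕ) (u p q r : Fin m → EuclideanSpace ℝ (Fin 3)),
      (∀ i, ‖u i‖ = 1) ∧
      (∀ i, inner ℝ (p i) (u i) = 0 ∧ inner ℝ (q i) (u i) = 0 ∧ inner ℝ (r i) (u i) = 0) ∧
      convexHull ℝ {!₂[1, 0, 0], !₂[-1, 0, 0], !₂[0, 1, Real.sqrt 2], !₂[0, -1, Real.sqrt 2]} ⊆
        ⋃ i, {x : EuclideanSpace ℝ (Fin 3) | ∃ b ∈ convexHull ℝ {p i, q i, r i}, ∃ t : ℝ, x = b + t • u i} ∧
      ∃ δ : ℝ, 0 < δ ∧ ∀ v : EuclideanSpace ℝ (Fin 3), ‖v‖ = 1 →
        ∑ i, (μH[(2 : ℝ)] (convexHull ℝ {p i, q i, r i})).toReal + δ ≤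
          (μH[(2 : ℝ)] ((fun y => y - inner ℝ y v • v) '' convexHull ℝ {!₂[1, 0, 0], !₂[-1, 0, 0], !₂[0, 1, Real.sqrt 2], !₂[0, -1, Real.sqrt 2]})).toReal / 2 := by
  have hs2 : 0 < Real.sqrt 2 := by positivity
  obtain ⟨u, p, q, r, hu, horth, hcov, hsum⟩ :=
    core_cover_exact 2000001 (by norm_num) _ (le_refl _)
  obtain ⟨k, hk, hkk⟩ := exists_muH_eq_smul_muHE (V := EuclideanSpace ℝ (Fin 3))
  refine ⟨_, u, p, q, r, hu, horth, hcov, k * (Real.sqrt 2 * (1 / 10 ^ 7)), mul_pos hk (mul_pos hs2 (by norm_num)), ?_⟩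
  intro v hv
  have h1 : ∑ i, (μH[(2 : ℝ)] (convexHull ℝ {p i, q i, r i})).toReal =
      k * (Real.sqrt 2 * (1 / 2 - 1 / 10 ^ 7)) := by
    rw [← hsum, Finset.mul_sum]
    apply Finset.sum_congr rfl
    intro i _
    rw [hkk, muHE_triangle_toReal]
    rfl
  rw [h1, hkk]
  have h2 := minProj_le_toReal v hv
  nlinarith

end Crest.Agent.S0324
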