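import Crest.Statements.S0326
import Crest.Agent.Lib_helper28_Ruled

set_option autoImplicit false
open MeasureTheory
open scoped ENNReal
open Crest Crest.GeometryTopology Crest.GeometryTopology.Convex

namespace Crest.Agent.S0326

open Crest.Agent.Lib_helper28_Ruled

/-- Let D ⊂ ℝ² be compact, V : ℝ² → ℝ² be C¹ on an open set containing D, and L, h > 0, with tr DV(p) = 0 and −1/L² < det DV(p) ≤ 0 for p ∈ D. Let E ⊂ ℝ × ℝ² be the ruled set of points (s, p + s V(p)), p ∈ D, −L ≤ s ≤ L. For every ε > 0, finitely many squares Tᵢ = cᵢ + [0,1]aᵢ + [0,1]bᵢ (aᵢ ⊥ bᵢ of equal nonzero length) and velocities gᵢ ∈ ℝ² exist whose sheared cylinders {(s, ξ) : ξ ∈ Tᵢ + s gᵢ} cover E, with ∑ᵢ area(Tᵢ) J(gᵢ) ≤ ∫_D J(V(p)) dp + ε, where J(g) = (1 + g₁² + h² g₂²)^(−1/2). -/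
theorem result
    (D : Set (EuclideanSpace ℝ (Fin 2))) (hD : IsCompact D)
    (V : EuclideanSpace ℝ (Fin 2) → EuclideanSpace ℝ (Fin 2)) (U : Set (EuclideanSpace ℝ (Fin 2)))
    (hU : IsOpen U) (hDU : D ⊆ U) (hV : ContDiffOn ℝ 1 V U) (L h : ℝ) (hL : 0 < L) (hh : 0 < h)
    (htr : ∀ p ∈ D, LinearMap.trace ℝ _ (fderiv ℝ V p).toLinearMap = 0)
    (hdet : ∀ p ∈ D, -(L ^ 2)⁻¹ < LinearMap.det (fderiv ℝ V p).toLinearMap ∧
      LinearMap.det (fderiv ℝ V p).toLinearMap ≤ 0)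
    (ε : ℝ) (hε : 0 < ε) :
    ∃ (k : ℕ) (c a b g : Fin k → EuclideanSpace ℝ (Fin 2)),
      (∀ i, a i ≠ 0 ∧ ‖b i‖ = ‖a i‖ ∧ inner ℝ (a i) (b i) = 0) ∧
      {z : ℝ × EuclideanSpace ℝ (Fin 2) | ∃ p ∈ D, abs z.1 ≤ L ∧ z.2 = p + z.1 • V p} ⊆
        ⋃ i, {z : ℝ × EuclideanSpace ℝ (Fin 2) | ∃ x ∈ Set.Icc (0 : ℝ) 1, ∃ y ∈ Set.Icc (0 : ℝ) 1,
          z.2 = c i + x • a i + y • b i + z.1 • g i} ∧
      ∑ i, ‖a i‖ ^ 2 / Real.sqrt (1 + (g i 0) ^ 2 + h ^ 2 * (g i 1) ^ 2) ≤
        (∫ p in D, 1 / Real.sqrt (1 + (V p 0) ^ 2 + h ^ 2 * (V p 1) ^ 2)) + ε := by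
  classical
  -- constants
  have hcU : ContinuousOn (fderiv ℝ V) U := hV.continuousOn_fderiv_of_isOpen hU le_rfl
  have hcD : ContinuousOn (fderiv ℝ V) D := hcU.mono hDU
  obtain ⟨M0, hM0⟩ := hD.exists_bound_of_continuousOn hcD
  obtain ⟨M, hMnn, hM⟩ : ∃ M : ℝ, 0 ≤ M ∧ ∀ p ∈ D, ‖fderiv ℝ V p‖ ≤ M :=
    ⟨max M0 0, le_max_right _ _, fun p hp => (hM0 p hp).trans (le_max_left _ _)⟩
  obtain ⟨κ, hκ0, hκ⟩ := exists_kappa D hD
    (fun p => 1 + L ^ 2 * LinearMap.det (fderiv ℝ V p).toLinearMap)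
    (continuousOn_const.add (continuousOn_const.mul (continuousOn_det D V hcD)))
    (fun p hp => by
      have h1 := (hdet p hp).1
      have h2 : 0 < L ^ 2 := by positivity
      have h3 : L ^ 2 * (-(L ^ 2)⁻¹) < L ^ 2 * LinearMap.det (fderiv ℝ V p).toLinearMap :=
        mul_lt_mul_of_pos_left h1 h2
      have h4 : L ^ 2 * (-(L ^ 2)⁻¹) = -1 := by field_simp
      linarith)
  choose bf hbf using frame_data D V L M κ htr (fun p hp => (hdet p hp).2) hκ hM
  obtain ⟨ε1, β0, η', η, hε1, hβ0, hη', hη, hη1, hfinal, hpar⟩ :=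
    params ε (volume D).toReal L M κ hε ENNReal.toReal_nonneg hL hMnn hκ0
  obtain ⟨δ0, hδ0, hud⟩ := unif_diff D U hD hU hDU V hV η hη
  obtain ⟨r0, hr0, hvol⟩ : ∃ r0 > 0, volume (Metric.cthickening r0 D) ≤ volume D + ENNReal.ofReal ε1 := by
    have ht := tendsto_measure_cthickening_of_isCompact (μ := (volume : Measure E2)) hD
    have hlt : volume D < volume D + ENNReal.ofReal ε1 :=
      ENNReal.lt_add_right hD.measure_lt_top.ne (by simp [hε1])
    have hev := (tendsto_order.1 ht).2 _ hlt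
    obtain ⟨e, he, hE⟩ := Metric.eventually_nhds_iff.mp hev
    refine ⟨e / 2, by positivity, (hE ?_).le⟩
    rw [Real.dist_eq, sub_zero, abs_of_pos (by positivity)]
    linarith
  obtain ⟨r, hr, hr1, hr2, hr3⟩ : ∃ r > 0, 2 * r < δ0 ∧ 2 * r ≤ r0 ∧ (1 + h) * (M + 1) * (3 * r) ≤ η' := by
    have hc : 0 < 3 * ((1 + h) * (M + 1)) := by positivity
    refine ⟨min (δ0 / 3) (min (r0 / 2) (η' / (3 * ((1 + h) * (M + 1))))), by positivity, ?_, ?_, ?_⟩
    · have := min_le_left (δ0 / 3) (min (r0 / 2) (η' / (3 * ((1 + h) * (M + 1)))))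
      linarith
    · have := (min_le_right (δ0 / 3) (min (r0 / 2) (η' / (3 * ((1 + h) * (M + 1)))))).trans (min_le_left _ _)
      linarith
    · have := (min_le_right (δ0 / 3) (min (r0 / 2) (η' / (3 * ((1 + h) * (M + 1)))))).trans (min_le_right _ _)
      rw [le_div_iff₀ hc] at this
      linarith
  obtain ⟨hpar1, hpar2⟩ := hpar r hr
  set δ := η * r with hδdef
  have hδ : 0 < δ := by positivity
  set m := 2 * (δ + 2 * L * η * r) * (1 + L * M) / κ with hm
  obtain ⟨K, hK, hsum, hcard, hdle, hint⟩ := cells_facts D hD r r0 ε1 hr hr2 hε1.le hvol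
  have hPex : ∀ k, ∃ p, k ∈ K → p ∈ D ∧ idx r p = k := by
    intro k
    by_cases hk : k ∈ K
    · obtain ⟨p, hp, hpk⟩ := (hK k).mp hk
      exact ⟨p, fun _ => ⟨hp, hpk⟩⟩
    · exact ⟨0, fun h => absurd h hk⟩
  choose P hP using hPex
  let cen : (ℤ × ℤ) → (ℤ × ℤ) → E2 := fun k ij => (δ * ij.1) • bf (P k) 0 + (δ * ij.2) • bf (P k) 1
  let Jset : (ℤ × ℤ) → Set (ℤ × ℤ) := fun k => {ij | ∃ p ∈ D, idx r p = k ∧ ‖p - (P k + cen k ij)‖ ≤ m}
  have hJfin : ∀ k, (Jset k).Finite := by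
    intro k
    apply (finite_tiles (bf (P k)) (P k) δ hδ (Metric.cthickening m D) hD.isBounded.cthickening).subset
    rintro ij ⟨p, hp, -, hpm⟩
    refine ⟨P k + cen k ij, corner_mem_tile (bf (P k)) (P k) δ hδ ij, ?_⟩
    apply Metric.mem_cthickening_of_dist_le _ p m D hp
    rw [dist_comm, dist_eq_norm]; exact hpm
  let T : Finset (Σ _ : ℤ × ℤ, ℤ × ℤ) := K.sigma (fun k => (hJfin k).toFinset)
  apply to_fin T (fun x => P x.1 + cen x.1 x.2) (fun x => δ • bf (P x.1) 0) (fun x => δ • bf (P x.1) 1)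
    (fun x => V (P x.1) + fderiv ℝ V (P x.1) (cen x.1 x.2)) h _ _
  · intro x _
    refine ⟨?_, ?_, ?_⟩
    · exact smul_ne_zero hδ.ne' ((bf (P x.1)).orthonormal.ne_zero 0)
    · simp [norm_smul]
    · rw [inner_smul_left, inner_smul_right, (bf (P x.1)).orthonormal.2 (by decide : (0 : Fin 2) ≠ 1)]
      simp
  · rintro ⟨s, w⟩ ⟨p, hp, hs, hw⟩
    simp only at hs hw
    have hk : idx r p ∈ K := (hK _).mpr ⟨p, hp, rfl⟩
    obtain ⟨hP1, hP2⟩ := hP _ hk
    obtain ⟨h00, h11, hsign, hκ', hα, hβ⟩ := hbf (P (idx r p)) hP1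
    have hpp : ‖p - P (idx r p)‖ ≤ 2 * r :=
      tile_diam std 0 r hr (idx r p) p _ (mem_cell_idx r p) ((mem_cell_iff r _ _).mpr hP2)
    have herr := hud p hp _ hP1 (by rw [dist_eq_norm]; linarith)
    obtain ⟨ij, x, hx, y, hy, heq, hloc⟩ := cover_local (fderiv ℝ V (P (idx r p))) (bf (P (idx r p)))
      (P (idx r p)) p (V (P (idx r p))) (V p) h00 h11 hsign L M κ η r δ s hκ0 hL hη.le hr hκ' hα hβ hs hδ
      hpp herr
    refine ⟨⟨idx r p, ij⟩, ?_, x, hx, y, hy, ?_⟩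
    · rw [Finset.mem_sigma]
      refine ⟨hk, ?_⟩
      rw [Set.Finite.mem_toFinset]
      exact ⟨p, hp, rfl, hloc⟩
    · simp only
      rw [hw]; exact heq
  · -- the sum bound
    let φ : ℤ × ℤ → ℝ := fun k => Jw h (V (P k))
    let d : ℤ × ℤ → ℝ := fun k => (volume (D ∩ tile std 0 r k)).toReal
    have hc3 : 0 ≤ (1 + h) * (M + 1) := by positivity
    -- step 2 : bound of the inner sums
    have hinner : ∀ k ∈ K, ∑ ij ∈ (hJfin k).toFinset,
        ‖δ • bf (P k) 0‖ ^ 2 / Real.sqrt (1 + ((V (P k) + fderiv ℝ V (P k) (cen k ij)) 0) ^ 2 +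
          h ^ 2 * ((V (P k) + fderiv ℝ V (P k) (cen k ij)) 1) ^ 2) ≤ (1 + β0) * r ^ 2 * (φ k + η') := by
      intro k hk
      obtain ⟨hP1, hP2⟩ := hP k hk
      have hφ0 : 0 ≤ φ k + η' := add_nonneg (Jw_pos _ _).le hη'.le
      have hterm : ∀ ij ∈ (hJfin k).toFinset,
          ‖δ • bf (P k) 0‖ ^ 2 / Real.sqrt (1 + ((V (P k) + fderiv ℝ V (P k) (cen k ij)) 0) ^ 2 +
          h ^ 2 * ((V (P k) + fderiv ℝ V (P k) (cen k ij)) 1) ^ 2) ≤ δ ^ 2 * (φ k + η') := by
        intro ij hij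
        rw [Set.Finite.mem_toFinset] at hij
        obtain ⟨p, hp, hpk, hpm⟩ := hij
        have e1 : ‖δ • bf (P k) 0‖ ^ 2 / Real.sqrt (1 + ((V (P k) + fderiv ℝ V (P k) (cen k ij)) 0) ^ 2 +
          h ^ 2 * ((V (P k) + fderiv ℝ V (P k) (cen k ij)) 1) ^ 2) =
            δ ^ 2 * Jw h (V (P k) + fderiv ℝ V (P k) (cen k ij)) := by
          unfold Jw
          rw [norm_smul, (bf (P k)).orthonormal.1 0, Real.norm_eq_abs, mul_one, sq_abs]
          ring
        rw [e1]
        have hpp : ‖p - P k‖ ≤ 2 * r :=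
          tile_diam std 0 r hr k p _ ((mem_cell_iff r _ _).mpr hpk) ((mem_cell_iff r _ _).mpr hP2)
        have hcen : ‖cen k ij‖ ≤ 3 * r := by
          have : cen k ij = (p - P k) - (p - (P k + cen k ij)) := by abel
          rw [this]
          calc _ ≤ ‖p - P k‖ + ‖p - (P k + cen k ij)‖ := norm_sub_le _ _
            _ ≤ 2 * r + m := add_le_add hpp hpm
            _ ≤ 3 * r := by linarith
        have hA : ‖fderiv ℝ V (P k) (cen k ij)‖ ≤ (M + 1) * (3 * r) := by
          calc _ ≤ ‖fderiv ℝ V (P k)‖ * ‖cen k ij‖ := (fderiv ℝ V (P k)).le_opNorm _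
            _ ≤ (M + 1) * (3 * r) := by
              apply mul_le_mul ((hM _ hP1).trans (by linarith)) hcen (norm_nonneg _) (by linarith)
        have hJ := Jw_le h hh.le (V (P k) + fderiv ℝ V (P k) (cen k ij)) (V (P k))
        rw [add_sub_cancel_left] at hJ
        have : (1 + h) * ‖fderiv ℝ V (P k) (cen k ij)‖ ≤ η' := by
          calc _ ≤ (1 + h) * ((M + 1) * (3 * r)) := by gcongr
            _ = (1 + h) * (M + 1) * (3 * r) := by ring
            _ ≤ η' := hr3
        have h5 : Jw h (V (P k) + fderiv ℝ V (P k) (cen k ij)) ≤ φ k + η' := by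
          simp only [φ]; linarith
        gcongr
      have hcount : (((hJfin k).toFinset.card : ℕ) : ℝ) * δ ^ 2 ≤ (1 + β0) * r ^ 2 := by
        have hb := card_tiles_le (bf (P k)) (P k) δ hδ (hJfin k).toFinset
          (k.1 * r - (m + 2 * δ)) ((k.1 + 1) * r + (m + 2 * δ))
          (k.2 * r - (m + 2 * δ)) ((k.2 + 1) * r + (m + 2 * δ))
          (by have : 0 ≤ m := by positivity
              nlinarith) (by have : 0 ≤ m := by positivity
                             nlinarith) ?_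
        · refine hb.trans (le_trans (le_of_eq ?_) hpar1)
          ring
        · intro ij hij q hq
          rw [Set.Finite.mem_toFinset] at hij
          obtain ⟨p, hp, hpk, hpm⟩ := hij
          have h1 := tile_diam (bf (P k)) (P k) δ hδ ij q _ hq (corner_mem_tile (bf (P k)) (P k) δ hδ ij)
          have h2 : ‖q - p‖ ≤ m + 2 * δ := by
            have : q - p = (q - (P k + cen k ij)) - (p - (P k + cen k ij)) := by abel
            rw [this]
            calc _ ≤ ‖q - (P k + cen k ij)‖ + ‖p - (P k + cen k ij)‖ := norm_sub_le _ _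
              _ ≤ 2 * δ + m := add_le_add h1 hpm
              _ = m + 2 * δ := by ring
          have c0 := abs_le.mp ((abs_coord_le (q - p) 0).trans h2)
          have c1 := abs_le.mp ((abs_coord_le (q - p) 1).trans h2)
          simp only [PiLp.sub_apply] at c0 c1
          obtain ⟨⟨a1, a2⟩, a3, a4⟩ := cell_coord r hr p k ((mem_cell_iff r _ _).mpr hpk)
          refine ⟨⟨by linarith, by linarith⟩, by linarith, by linarith⟩
      calc _ ≤ ∑ ij ∈ (hJfin k).toFinset, δ ^ 2 * (φ k + η') := Finset.sum_le_sum hterm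
        _ = (((hJfin k).toFinset.card : ℕ) : ℝ) * δ ^ 2 * (φ k + η') := by
            rw [Finset.sum_const, nsmul_eq_mul]; ring
        _ ≤ (1 + β0) * r ^ 2 * (φ k + η') := by gcongr
    -- step 3
    have harith := final_arith K φ d (r ^ 2) β0 η' (volume D).toReal ε1 ε
      (fun k _ => (Jw_pos _ _).le) (fun k _ => Jw_le_one _ _) (fun k _ => ENNReal.toReal_nonneg)
      (fun k _ => hdle k) hsum hcard hβ0 hη'.le (by positivity) hfinal
    -- step 4 : the integral
    have hJc : Continuous (Jw h) := by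
      unfold Jw
      refine Continuous.div continuous_const (Real.continuous_sqrt.comp (by fun_prop)) (fun x => ?_)
      positivity
    have hfint : IntegrableOn (fun p => Jw h (V p)) D :=
      (hJc.comp_continuousOn (hV.continuousOn.mono hDU)).integrableOn_compact hD
    have hintle : ∑ k ∈ K, d k * (φ k - η') ≤ ∫ p in D, Jw h (V p) := by
      rw [hint _ hfint]
      apply Finset.sum_le_sum
      intro k hk
      obtain ⟨hP1, hP2⟩ := hP k hk
      have hms : MeasurableSet (D ∩ tile std 0 r k) := hD.measurableSet.inter (meas_tile std 0 r hr k)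
      have hfin : volume (D ∩ tile std 0 r k) ≠ ⊤ :=
        ((measure_mono Set.inter_subset_left).trans_lt hD.measure_lt_top).ne
      have hconst : ∫ _ in D ∩ tile std 0 r k, (φ k - η') = d k * (φ k - η') := by
        rw [setIntegral_const]; rfl
      rw [← hconst]
      apply setIntegral_mono_on (integrableOn_const hfin) (hfint.mono_set Set.inter_subset_left) hms
      rintro p ⟨hp, hpk⟩
      have hpp : ‖p - P k‖ ≤ 2 * r := tile_diam std 0 r hr k p _ hpk ((mem_cell_iff r _ _).mpr hP2)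
      have herr := hud p hp _ hP1 (by rw [dist_eq_norm]; linarith)
      have hVV : ‖V (P k) - V p‖ ≤ (M + 1) * (3 * r) := by
        have e : V (P k) - V p = -((V p - V (P k) - fderiv ℝ V (P k) (p - P k)) + fderiv ℝ V (P k) (p - P k)) := by
          abel
        rw [e, norm_neg]
        calc _ ≤ ‖V p - V (P k) - fderiv ℝ V (P k) (p - P k)‖ + ‖fderiv ℝ V (P k) (p - P k)‖ := norm_add_le _ _
          _ ≤ η * ‖p - P k‖ + ‖fderiv ℝ V (P k)‖ * ‖p - P k‖ := add_le_add herr ((fderiv ℝ V (P k)).le_opNorm _)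
          _ ≤ 1 * ‖p - P k‖ + M * ‖p - P k‖ := by
              gcongr
              exact hM _ hP1
          _ = (M + 1) * ‖p - P k‖ := by ring
          _ ≤ (M + 1) * (3 * r) := by gcongr; linarith
      have hJ := Jw_le h hh.le (V (P k)) (V p)
      have : (1 + h) * ‖V (P k) - V p‖ ≤ η' := by
        calc _ ≤ (1 + h) * ((M + 1) * (3 * r)) := by gcongr
          _ = (1 + h) * (M + 1) * (3 * r) := by ring
          _ ≤ η' := hr3
      simp only [φ]; linarith
    rw [Finset.sum_sigma]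
    calc _ ≤ ∑ k ∈ K, (1 + β0) * r ^ 2 * (φ k + η') := Finset.sum_le_sum hinner
      _ ≤ ∑ k ∈ K, d k * (φ k - η') + ε := harith
      _ ≤ (∫ p in D, Jw h (V p)) + ε := by linarith
      _ = _ := rfl

end Crest.Agent.S0326
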