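import Crest.Statements.S0327
import Crest.Agent.Lib_Cyl_Stair
import Crest.Agent.Lib_Cyl_Similar
import Crest.Agent.Lib_helper21_MinProj
import Crest.Agent.Lib_helper45_CoreCover

set_option autoImplicit false
open MeasureTheory
open scoped ENNReal
open Crest Crest.GeometryTopology Crest.GeometryTopology.Convex

namespace Crest.Agent.S0327

/-- Let K ⊂ ℝ³ be a regular tetrahedron (convex hull of four points with equal pairwise distances ℓ > 0); areas are Lebesgue-normalised 2-dimensional Hausdorff measure, π_v y = y − ⟪y, v⟫ v. (1) Finitely many cylinders Bᵢ + ℝ uᵢ, ‖uᵢ‖ = 1, with parallelogram bases Bᵢ = cᵢ + [0,1]aᵢ + [0,1]bᵢ in uᵢ^⊥ cover K, ∑ᵢ area(Bᵢ) being below half of area(π_v K) by a positive margin for all unit v, and ∑ᵢ area(Bᵢ)/area(π_{uᵢ} K) < 1/2. (2) The same with bounded relatively open subsets of the uᵢ^⊥ as bases. -/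
theorem result
    (w : Fin 4 → EuclideanSpace ℝ (Fin 3)) (ℓ : ℝ) (hℓ : 0 < ℓ)
    (hw : ∀ i j, i ≠ j → dist (w i) (w j) = ℓ) :
    (∃ (k : ℕ) (u c a b : Fin k → EuclideanSpace ℝ (Fin 3)),
      (∀ i, ‖u i‖ = 1) ∧
      (∀ i, inner ℝ (c i) (u i) = 0 ∧ inner ℝ (a i) (u i) = 0 ∧ inner ℝ (b i) (u i) = 0) ∧
      convexHull ℝ (Set.range w) ⊆ ⋃ i, {x : EuclideanSpace ℝ (Fin 3) |
        ∃ s ∈ Set.Icc (0 : ℝ) 1, ∃ t ∈ Set.Icc (0 : ℝ) 1, ∃ τ : ℝ, x = c i + s • a i + t • b i + τ • u i} ∧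
      (∃ δ : ℝ, 0 < δ ∧ ∀ v : EuclideanSpace ℝ (Fin 3), ‖v‖ = 1 →
        (∑ i, (μHE[2] {x : EuclideanSpace ℝ (Fin 3) |
            ∃ s ∈ Set.Icc (0 : ℝ) 1, ∃ t ∈ Set.Icc (0 : ℝ) 1, x = c i + s • a i + t • b i}).toReal) + δ ≤
          (μHE[2] ((fun y => y - inner ℝ y v • v) '' convexHull ℝ (Set.range w))).toReal / 2) ∧
      ∑ i, (μHE[2] {x : EuclideanSpace ℝ (Fin 3) |
            ∃ s ∈ Set.Icc (0 : ℝ) 1, ∃ t ∈ Set.Icc (0 : ℝ) 1, x = c i + s • a i + t • b i}).toReal /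
          (μHE[2] ((fun y => y - inner ℝ y (u i) • u i) '' convexHull ℝ (Set.range w))).toReal < 1 / 2) ∧
    (∃ (k : ℕ) (u : Fin k → EuclideanSpace ℝ (Fin 3)) (B : Fin k → Set (EuclideanSpace ℝ (Fin 3))),
      (∀ i, ‖u i‖ = 1) ∧
      (∀ i, Bornology.IsBounded (B i) ∧ ∃ O : Set (EuclideanSpace ℝ (Fin 3)), IsOpen O ∧
        B i = O ∩ {x | inner ℝ x (u i) = 0}) ∧
      convexHull ℝ (Set.range w) ⊆
        ⋃ i, {x : EuclideanSpace ℝ (Fin 3) | ∃ y ∈ B i, ∃ τ : ℝ, x = y + τ • u i} ∧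
      (∃ δ : ℝ, 0 < δ ∧ ∀ v : EuclideanSpace ℝ (Fin 3), ‖v‖ = 1 →
        (∑ i, (μHE[2] (B i)).toReal) + δ ≤
          (μHE[2] ((fun y => y - inner ℝ y v • v) '' convexHull ℝ (Set.range w))).toReal / 2) ∧
      ∑ i, (μHE[2] (B i)).toReal /
          (μHE[2] ((fun y => y - inner ℝ y (u i) • u i) '' convexHull ℝ (Set.range w))).toReal < 1 / 2) := by
  classical
  obtain ⟨O, v, hK⟩ := Cyl.exists_similarity w ℓ hℓ hw
  rw [hK]
  obtain ⟨lam, hlam⟩ : ∃ lam, lam = ℓ / 2 := ⟨_, rfl⟩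
  have hlam0 : 0 < lam := by rw [hlam]; positivity
  rw [← hlam]
  obtain ⟨u, p, q, r, hu, hperp, hcov, hsum⟩ :=
    Lib_helper45_CoreCover.core_cover_exact 2000001 le_rfl (Real.sqrt 2 * (1 / 2 - 1 / 10 ^ 7)) le_rfl
  have hsum' : ∑ i, Lib_helper38_Area.gramArea (q i - p i) (r i - p i) / 2
      = Real.sqrt 2 * (1 / 2 - 1 / 10 ^ 7) := hsum
  have hs2 : 0 < Real.sqrt 2 := by positivity
  have hc : 0 < lam ^ 2 * Real.sqrt 2 := by positivity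
  -- lower bound for all projections
  have hP : ∀ n : EuclideanSpace ℝ (Fin 3), ‖n‖ = 1 → lam ^ 2 * Real.sqrt 2 ≤
      (μHE[2] ((fun y : EuclideanSpace ℝ (Fin 3) => y - inner ℝ y n • n) ''
        ((fun x => v + lam • O x) '' Cyl.K0))).toReal := by
    intro n hn
    rw [Cyl.proj_area_similarity O v lam hlam0 n Cyl.K0, ENNReal.toReal_mul,
      ENNReal.toReal_ofReal (by positivity)]
    refine mul_le_mul_of_nonneg_left ?_ (by positivity)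
    exact MinProj.minProj_le_toReal (O.symm n) (by rw [O.symm.norm_map]; exact hn)
  constructor
  · obtain ⟨k, u', c, a, b, h1, h2, h3, h4⟩ := Cyl.Stair.par_cover_of_tri_cover Cyl.K0 _ u p q r hu
      hperp hcov O v lam (10 ^ 8) (by positivity)
    refine ⟨k, u', c, a, b, h1, h2, h3, ?_⟩
    simp_rw [Lib_helper38_Area.muHE_parallelogram_toReal]
    refine Cyl.Stair.final_ineq (fun i => Lib_helper38_Area.gramArea (a i) (b i))
      (fun i => Lib_helper38_Area.gramArea_nonneg _ _)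
      (fun n => (μHE[2] ((fun y : EuclideanSpace ℝ (Fin 3) => y - inner ℝ y n • n) ''
        ((fun x => v + lam • O x) '' Cyl.K0))).toReal)
      (lam ^ 2 * Real.sqrt 2) (1 / 10 ^ 8) hc (by positivity) hP ?_ u' h1
    rw [h4, hsum']
    have : (1 + 1 / ((10 ^ 8 : ℕ) : ℝ)) * (1 / 2 - 1 / 10 ^ 7) ≤ 1 / 2 - 1 / 10 ^ 8 := by
      norm_num
    calc lam ^ 2 * (1 + 1 / ((10 ^ 8 : ℕ) : ℝ)) * (Real.sqrt 2 * (1 / 2 - 1 / 10 ^ 7))
        = lam ^ 2 * Real.sqrt 2 * ((1 + 1 / ((10 ^ 8 : ℕ) : ℝ)) * (1 / 2 - 1 / 10 ^ 7)) := by ring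
      _ ≤ lam ^ 2 * Real.sqrt 2 * (1 / 2 - 1 / 10 ^ 8) := mul_le_mul_of_nonneg_left this hc.le
  · obtain ⟨u', B, h1, h2, h3, h4⟩ := Cyl.Stair.open_cover_of_tri_cover Cyl.K0 _ u p q r hu
      hperp hcov O v lam (lam ^ 2 * Real.sqrt 2 * (1 / 10 ^ 8) / 2000001) (by positivity)
    refine ⟨2000001, u', B, h1, h2, h3, ?_⟩
    refine Cyl.Stair.final_ineq (fun i => (μHE[2] (B i)).toReal)
      (fun i => ENNReal.toReal_nonneg)
      (fun n => (μHE[2] ((fun y : EuclideanSpace ℝ (Fin 3) => y - inner ℝ y n • n) ''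
        ((fun x => v + lam • O x) '' Cyl.K0))).toReal)
      (lam ^ 2 * Real.sqrt 2) (1 / 10 ^ 8) hc (by positivity) hP ?_ u' h1
    refine le_trans h4 ?_
    rw [hsum']
    have e : ((2000001 : ℕ) : ℝ) * (lam ^ 2 * Real.sqrt 2 * (1 / 10 ^ 8) / 2000001)
        = lam ^ 2 * Real.sqrt 2 * (1 / 10 ^ 8) := by
      push_cast; field_simp
    rw [e]
    have : lam ^ 2 * (Real.sqrt 2 * (1 / 2 - 1 / 10 ^ 7)) + lam ^ 2 * Real.sqrt 2 * (1 / 10 ^ 8)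
        = lam ^ 2 * Real.sqrt 2 * (1 / 2 - 1 / 10 ^ 7 + 1 / 10 ^ 8) := by ring
    rw [this]
    refine mul_le_mul_of_nonneg_left ?_ hc.le
    norm_num

end Crest.Agent.S0327
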