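import Crest.Statements.S0328
import Crest.Agent.Lib_helper40_Sweep
import Crest.Agent.Lib_helper72_Riemann

set_option autoImplicit false
open MeasureTheory
open scoped ENNReal
open Crest Crest.GeometryTopology Crest.GeometryTopology.Convex

namespace Crest.Agent.S0328

/-- Unit e; a, b, p₀ ∈ e^⊥, a, b independent; α < β; L > 0; R ≥ 0, λ both continuous on [α, β]; w(t) ∈ e^⊥, w′ = λ(t)(a + tb). S = {p₀ + ρ(a + t b) + s(e + w t) : α ≤ t ≤ β, 0 ≤ ρ ≤ R t, ‖s‖ ≤ L}; A = κ ∫_α^β R²/(2√(1 + ‖w‖²)), κ = area spanned by a, b. For η > 0 a δ > 0 makes each partition t₀ < … < t_N of [α, β] of mesh ≤ δ, tags cᵢ, admit N cylinders (axes e + w(cᵢ), nondegenerate triangle bases) covering S, total area within η of A; same for S's pieces tᵢ ≤ t ≤ tᵢ₊₁ projected along these axes. -/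
theorem result
    (e a b p₀ : EuclideanSpace ℝ (Fin 3)) (he : ‖e‖ = 1)
    (ha : inner ℝ a e = 0) (hb : inner ℝ b e = 0) (hp₀ : inner ℝ p₀ e = 0)
    (hab : LinearIndependent ℝ ![a, b]) (L : ℝ) (hL : 0 < L) (α β : ℝ) (hαβ : α < β)
    (R : ℝ → ℝ) (hR : ContinuousOn R (Set.Icc α β)) (hR0 : ∀ t ∈ Set.Icc α β, 0 ≤ R t)
    (w : ℝ → EuclideanSpace ℝ (Fin 3)) (hw : ∀ t ∈ Set.Icc α β, inner ℝ (w t) e = 0)
    (lam : ℝ → ℝ) (hlam : ContinuousOn lam (Set.Icc α β))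
    (hw' : ∀ t ∈ Set.Icc α β, HasDerivWithinAt w (lam t • (a + t • b)) (Set.Icc α β) t)
    (η : ℝ) (hη : 0 < η) :
    ∃ δ : ℝ, 0 < δ ∧ ∀ (N : ℕ) (t : Fin (N + 1) → ℝ) (c : Fin N → ℝ),
      StrictMono t → t 0 = α → t (Fin.last N) = β →
      (∀ i : Fin N, t i.succ - t i.castSucc ≤ δ) →
      (∀ i : Fin N, t i.castSucc ≤ c i ∧ c i ≤ t i.succ) →
      (∃ (p q r : Fin N → EuclideanSpace ℝ (Fin 3)),
        (∀ i, inner ℝ (p i) (e + w (c i)) = 0 ∧ inner ℝ (q i) (e + w (c i)) = 0 ∧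
          inner ℝ (r i) (e + w (c i)) = 0) ∧
        (∀ i, AffineIndependent ℝ ![p i, q i, r i]) ∧
        {x : EuclideanSpace ℝ (Fin 3) | ∃ τ ∈ Set.Icc α β, ∃ ρ ∈ Set.Icc 0 (R τ), ∃ s : ℝ, abs s ≤ L ∧
            x = p₀ + ρ • (a + τ • b) + s • (e + w τ)} ⊆
          ⋃ i, {x : EuclideanSpace ℝ (Fin 3) | ∃ y ∈ convexHull ℝ {p i, q i, r i}, ∃ σ : ℝ,
            x = y + σ • (e + w (c i))} ∧
        abs ((∑ i, (μHE[2] (convexHull ℝ ({p i, q i, r i} : Set (EuclideanSpace ℝ (Fin 3))))).toReal) -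
            Real.sqrt (‖a‖ ^ 2 * ‖b‖ ^ 2 - inner ℝ a b ^ 2) *
              ∫ τ in α..β, R τ ^ 2 / (2 * Real.sqrt (1 + ‖w τ‖ ^ 2))) ≤ η) ∧
      abs ((∑ i : Fin N, (μHE[2] ((fun y => y - (inner ℝ y (e + w (c i)) / ‖e + w (c i)‖ ^ 2) • (e + w (c i))) ''
            {x : EuclideanSpace ℝ (Fin 3) | ∃ τ ∈ Set.Icc (t i.castSucc) (t i.succ), ∃ ρ ∈ Set.Icc 0 (R τ),
              ∃ s : ℝ, abs s ≤ L ∧ x = p₀ + ρ • (a + τ • b) + s • (e + w τ)})).toReal) -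
          Real.sqrt (‖a‖ ^ 2 * ‖b‖ ^ 2 - inner ℝ a b ^ 2) *
            ∫ τ in α..β, R τ ^ 2 / (2 * Real.sqrt (1 + ‖w τ‖ ^ 2))) ≤ η := by
  classical
  have hGpos := Lib_helper40_Sweep.gram2_pos_of_linearIndependent a b hab
  obtain ⟨κ, hκ⟩ : ∃ κ, κ = Real.sqrt (Lib_helper40_Sweep.gram2 a b) := ⟨_, rfl⟩
  have hκ0 : 0 < κ := by rw [hκ]; exact Real.sqrt_pos.2 hGpos
  have hκ' : Real.sqrt (‖a‖ ^ 2 * ‖b‖ ^ 2 - inner ℝ a b ^ 2) = κ := hκ.symm
  rw [hκ']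
  obtain ⟨Λ₀, hΛ₀⟩ := isCompact_Icc.exists_bound_of_continuousOn hlam
  obtain ⟨R₀, hR₀⟩ := isCompact_Icc.exists_bound_of_continuousOn hR
  obtain ⟨Λ, hΛdef⟩ : ∃ Λ, Λ = |Λ₀| := ⟨_, rfl⟩
  obtain ⟨Rs, hRsdef⟩ : ∃ Rs, Rs = |R₀| := ⟨_, rfl⟩
  have hΛ0 : 0 ≤ Λ := by rw [hΛdef]; exact abs_nonneg _
  have hRs0 : 0 ≤ Rs := by rw [hRsdef]; exact abs_nonneg _
  have hΛ : ∀ t ∈ Set.Icc α β, |lam t| ≤ Λ := fun t ht => by
    rw [hΛdef]; exact le_trans (hΛ₀ t ht) (le_abs_self _)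
  have hRs : ∀ t ∈ Set.Icc α β, R t ≤ Rs := fun t ht => by
    rw [hRsdef]; exact le_trans (le_abs_self _) (le_trans (hR₀ t ht) (le_abs_self _))
  have hβα : 0 < β - α := by linarith
  obtain ⟨ε, hεdef⟩ : ∃ ε, ε = η / (2 * (β - α)) := ⟨_, rfl⟩
  have hε0 : 0 < ε := by rw [hεdef]; positivity
  obtain ⟨θ, hθdef⟩ : ∃ θ, θ = min 1 (ε / (κ * (2 * Rs + 2))) := ⟨_, rfl⟩
  have hθ0 : 0 < θ := by rw [hθdef]; exact lt_min one_pos (by positivity)
  have hθ1 : θ ≤ 1 := by rw [hθdef]; exact min_le_left _ _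
  have hθε : κ * θ * (2 * Rs + 2) ≤ ε := by
    have h1 : θ ≤ ε / (κ * (2 * Rs + 2)) := by rw [hθdef]; exact min_le_right _ _
    rw [le_div_iff₀ (by positivity)] at h1
    linarith
  -- continuity of the integrand
  have hwc : ContinuousOn w (Set.Icc α β) := fun t ht => (hw' t ht).continuousWithinAt
  have hf : ContinuousOn (fun τ => κ * (R τ ^ 2 / (2 * Real.sqrt (1 + ‖w τ‖ ^ 2)))) (Set.Icc α β) := by
    refine continuousOn_const.mul ((hR.pow 2).div ?_ ?_)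
    · exact continuousOn_const.mul (Real.continuous_sqrt.comp_continuousOn
        (continuousOn_const.add (hwc.norm.pow 2)))
    · intro t _
      have : 0 < Real.sqrt (1 + ‖w t‖ ^ 2) := Real.sqrt_pos.2 (by positivity)
      positivity
  obtain ⟨δ₁, hδ₁, hriem⟩ := Lib_helper72_Riemann.riemann_close _ hf hε0
  have hucR : UniformContinuousOn R (Set.Icc α β) :=
    isCompact_Icc.uniformContinuousOn_of_continuous hR
  rw [Metric.uniformContinuousOn_iff_le] at hucR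
  obtain ⟨δ₂, hδ₂, hoscR⟩ := hucR θ hθ0
  refine ⟨min (min δ₁ δ₂) (θ / (3 * (L * Λ) + 1)), by positivity, ?_⟩
  intro N t c hst h0 hl hmesh htag
  have hmono : Monotone t := hst.monotone
  have hlo : ∀ i : Fin N, α ≤ t i.castSucc := fun i => by
    rw [← h0]; exact hmono (Fin.zero_le _)
  have hhi : ∀ i : Fin N, t i.succ ≤ β := fun i => by
    rw [← hl]; exact hmono (Fin.le_last _)
  have hlt : ∀ i : Fin N, t i.castSucc < t i.succ := fun i => hst (Fin.castSucc_lt_succ)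
  have hsub : ∀ i : Fin N, Set.Icc (t i.castSucc) (t i.succ) ⊆ Set.Icc α β := fun i =>
    Set.Icc_subset_Icc (hlo i) (hhi i)
  have key : ∀ i : Fin N, ∃ p q r : EuclideanSpace ℝ (Fin 3),
      (inner ℝ p (e + w (c i)) = 0 ∧ inner ℝ q (e + w (c i)) = 0 ∧ inner ℝ r (e + w (c i)) = 0) ∧
      AffineIndependent ℝ ![p, q, r] ∧
      (∀ x ∈ Lib_helper40_Sweep.pieceSet e a b p₀ L R w (t i.castSucc) (t i.succ),
        Lib_helper40_Sweep.projL (e + w (c i)) x ∈ convexHull ℝ {p, q, r}) ∧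
      |(μHE[2] (convexHull ℝ ({p, q, r} : Set (EuclideanSpace ℝ (Fin 3))))).toReal
        - κ * (R (c i) ^ 2 / (2 * Real.sqrt (1 + ‖w (c i)‖ ^ 2))) * (t i.succ - t i.castSucc)|
        ≤ κ * θ * (2 * Rs + 2) * (t i.succ - t i.castSucc) ∧
      |(μHE[2] (Lib_helper40_Sweep.projL (e + w (c i)) ''
          Lib_helper40_Sweep.pieceSet e a b p₀ L R w (t i.castSucc) (t i.succ))).toReal
        - κ * (R (c i) ^ 2 / (2 * Real.sqrt (1 + ‖w (c i)‖ ^ 2))) * (t i.succ - t i.castSucc)|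
        ≤ κ * θ * (2 * Rs + 2) * (t i.succ - t i.castSucc) := by
    intro i
    have hci : c i ∈ Set.Icc (t i.castSucc) (t i.succ) := ⟨(htag i).1, (htag i).2⟩
    have hm := hmesh i
    rw [hκ]
    refine Lib_helper40_Sweep.piece_est e a b p₀ he ha hb hab L Λ hL.le hΛ0 _ _ (c i) (hlt i) hci R
      (fun τ hτ => hR0 τ (hsub i hτ)) w (fun τ hτ => hw τ (hsub i hτ)) lam
      (fun τ hτ => hΛ τ (hsub i hτ)) (fun τ hτ => (hw' τ (hsub i hτ)).mono (hsub i))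
      θ Rs hθ0 hθ1 ?_ (hRs _ (hsub i hci)) ?_
    · intro τ hτ
      have := hoscR τ (hsub i hτ) (c i) (hsub i hci) ?_
      · simpa [Real.dist_eq] using this
      · rw [Real.dist_eq, abs_le]
        have h2 : t i.succ - t i.castSucc ≤ δ₂ :=
          le_trans hm (le_trans (min_le_left _ _) (min_le_right _ _))
        constructor <;> linarith [hτ.1, hτ.2, hci.1, hci.2]
    · have h3 : t i.succ - t i.castSucc ≤ θ / (3 * (L * Λ) + 1) := le_trans hm (min_le_right _ _)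
      have hpos : 0 < 3 * (L * Λ) + 1 := by positivity
      rw [le_div_iff₀ hpos] at h3
      have h4 : 0 ≤ t i.succ - t i.castSucc := by linarith [hlt i]
      nlinarith
  choose p q r hperp haff hcov hA hB using key
  have hmesh₁ : ∀ i : Fin N, t i.succ - t i.castSucc ≤ δ₁ := fun i =>
    le_trans (hmesh i) (le_trans (min_le_left _ _) (min_le_left _ _))
  have hint : (∫ x in α..β, κ * (R x ^ 2 / (2 * Real.sqrt (1 + ‖w x‖ ^ 2))))
      = κ * ∫ τ in α..β, R τ ^ 2 / (2 * Real.sqrt (1 + ‖w τ‖ ^ 2)) :=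
    intervalIntegral.integral_const_mul _ _
  have hfin : 2 * ε * (β - α) = η := by rw [hεdef]; field_simp
  have hwid : ∀ i : Fin N, 0 ≤ t i.succ - t i.castSucc := fun i => by linarith [hlt i]
  refine ⟨⟨p, q, r, hperp, haff, ?_, ?_⟩, ?_⟩
  · rintro x ⟨τ, hτ, ρ, hρ, s, hs, rfl⟩
    obtain ⟨i, hi⟩ := Lib_helper72_Riemann.exists_piece t (by rw [h0, hl]; exact hαβ) hmono
      (τ := τ) (by rw [h0]; exact hτ.1) (by rw [hl]; exact hτ.2)
    rw [Set.mem_iUnion]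
    refine ⟨i, _, hcov i _ ⟨τ, hi, ρ, hρ, s, hs, rfl⟩,
      inner ℝ (p₀ + ρ • (a + τ • b) + s • (e + w τ)) (e + w (c i)) / ‖e + w (c i)‖ ^ 2, ?_⟩
    rw [Lib_helper40_Sweep.projL_apply]
    abel
  · have := hriem N t c hst h0 hl hmesh₁ htag
      (fun i => (μHE[2] (convexHull ℝ ({p i, q i, r i} : Set (EuclideanSpace ℝ (Fin 3))))).toReal)
      (fun i => le_trans (hA i) (mul_le_mul_of_nonneg_right hθε (hwid i)))
    rw [hint, hfin] at this
    exact this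
  · have := hriem N t c hst h0 hl hmesh₁ htag
      (fun i => (μHE[2] (Lib_helper40_Sweep.projL (e + w (c i)) ''
          Lib_helper40_Sweep.pieceSet e a b p₀ L R w (t i.castSucc) (t i.succ))).toReal)
      (fun i => le_trans (hB i) (mul_le_mul_of_nonneg_right hθε (hwid i)))
    rw [hint, hfin] at this
    exact this

end Crest.Agent.S0328
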