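import Crest.Statements.S0329
import Crest.Agent.S0326
import Crest.Agent.Lib_helper38_Area

set_option autoImplicit false
open MeasureTheory
open scoped ENNReal
open Crest Crest.GeometryTopology Crest.GeometryTopology.Convex

namespace Crest.Agent.S0329

open Crest.Agent.Lib_helper38_Area

abbrev E2 := EuclideanSpace ℝ (Fin 2)

theorem inner2 (x y : E2) : inner ℝ x y = x 0 * y 0 + x 1 * y 1 := by
  simp [PiLp.inner_apply, Fin.sum_univ_two]
  ring

theorem normsq2 (x : E2) : ‖x‖ ^ 2 = x 0 ^ 2 + x 1 ^ 2 := by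
  rw [← real_inner_self_eq_norm_sq, inner2]
  ring

/-- the lift `(y₀,y₁) ↦ (0,y₀,h y₁)` -/
noncomputable def liftL (h : ℝ) : E2 →ₗ[ℝ] E3 where
  toFun y := !₂[0, y 0, h * y 1]
  map_add' := by
    intro x y
    ext i
    fin_cases i <;> simp [mul_add]
  map_smul' := by
    intro r x
    ext i
    fin_cases i <;> simp
    ring

@[simp] theorem liftL_apply (h : ℝ) (y : E2) : liftL h y = !₂[0, y 0, h * y 1] := rfl

/-- the axis direction -/
noncomputable def dir (h : ℝ) (g : E2) : E3 := !₂[1, g 0, h * g 1]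

/-- the inverse chart -/
noncomputable def back (h : ℝ) (g : E2) (x : E3) : E2 := !₂[x 1 - x 0 * g 0, x 2 / h - x 0 * g 1]

theorem back_lift (h : ℝ) (hh : h ≠ 0) (g v : E2) (r : ℝ) :
    back h g (liftL h v + r • dir h g) = v := by
  ext i
  fin_cases i
  · simp [back, dir]
  · simp [back, dir]
    field_simp
    ring

theorem lift_back (h : ℝ) (hh : h ≠ 0) (g : E2) (x : E3) :
    x = liftL h (back h g x) + x 0 • dir h g := by
  ext i
  fin_cases i
  · simp [back, dir]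
  · simp [back, dir]
  · simp [back, dir]
    field_simp
    ring

theorem expand2 (a b v : E2) (ha : a ≠ 0) (hb : ‖b‖ = ‖a‖) (hab : inner ℝ a b = 0) :
    v = (inner ℝ v a / ‖a‖ ^ 2) • a + (inner ℝ v b / ‖a‖ ^ 2) • b := by
  have hN : 0 < ‖a‖ ^ 2 := by positivity
  have hb2 : ‖b‖ ^ 2 = ‖a‖ ^ 2 := by rw [hb]
  rw [normsq2] at hb2
  rw [inner2] at hab
  rw [inner2, inner2]
  rw [normsq2] at hN hb2 ⊢
  set a0 := a 0
  set a1 := a 1
  set b0 := b 0
  set b1 := b 1
  have h1 : b0 ^ 2 = a1 ^ 2 := by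
    have : (a0 ^ 2 + a1 ^ 2) * (b0 ^ 2 - a1 ^ 2) = 0 := by
      linear_combination (a0 * b0 - a1 * b1) * hab + a1 ^ 2 * hb2
    rcases mul_eq_zero.mp this with h | h
    · exact absurd h hN.ne'
    · linarith
  have h2 : a0 * a1 + b0 * b1 = 0 := by
    have : (a0 ^ 2 + a1 ^ 2) * (a0 * a1 + b0 * b1) = 0 := by
      linear_combination (a1 * b0 + a0 * b1) * hab - a0 * a1 * hb2
    rcases mul_eq_zero.mp this with h | h
    · exact absurd h hN.ne'
    · exact h
  have h3 : b1 ^ 2 = a0 ^ 2 := by linarith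
  ext i
  fin_cases i
  · simp
    field_simp
    linear_combination (-(v 0)) * h1 - (v 1) * h2
  · simp
    field_simp
    linear_combination (-(v 1)) * h3 - (v 0) * h2


theorem piece (h : ℝ) (hh : 0 < h) (c a b g : E2) (ha : a ≠ 0) (hb : ‖b‖ = ‖a‖)
    (hab : inner ℝ a b = 0) (η : ℝ) (hη : 0 < η) :
    ∃ (u : E3) (B : Set E3), ‖u‖ = 1 ∧ Bornology.IsBounded B ∧
      (∃ O : Set E3, IsOpen O ∧ B = O ∩ {x | inner ℝ x u = 0}) ∧
      (∀ (x s t : ℝ), s ∈ Set.Icc (0:ℝ) 1 → t ∈ Set.Icc (0:ℝ) 1 → ∀ w : E2,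
        w = c + s • a + t • b + x • g →
          ∃ y ∈ B, ∃ τ : ℝ, (!₂[x, w 0, h * w 1] : E3) = y + τ • u) ∧
      (μHE[2] B).toReal ≤
        (1 + 2 * η) ^ 2 * (h * (‖a‖ ^ 2 / Real.sqrt (1 + g 0 ^ 2 + h ^ 2 * g 1 ^ 2))) := by
  have hh0 : h ≠ 0 := hh.ne'
  have hpos : 0 < 1 + g 0 ^ 2 + h ^ 2 * g 1 ^ 2 := by positivity
  set n := Real.sqrt (1 + g 0 ^ 2 + h ^ 2 * g 1 ^ 2) with hn_def
  have hn : 0 < n := Real.sqrt_pos.mpr hpos
  have hn2 : n ^ 2 = 1 + g 0 ^ 2 + h ^ 2 * g 1 ^ 2 := Real.sq_sqrt hpos.le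
  have hN : 0 < ‖a‖ ^ 2 := by positivity
  have hdn : ‖dir h g‖ = n := by
    have : ‖dir h g‖ ^ 2 = n ^ 2 := by
      rw [normsq3, hn2]
      simp [dir]
      ring
    exact (sq_eq_sq₀ (norm_nonneg _) hn.le).1 this
  set u : E3 := n⁻¹ • dir h g with hu_def
  have hu : ‖u‖ = 1 := by
    rw [hu_def, norm_smul, hdn, Real.norm_eq_abs, abs_of_pos (inv_pos.mpr hn)]
    exact inv_mul_cancel₀ hn.ne'
  have hdir : dir h g = n • u := by
    rw [hu_def, smul_smul, mul_inv_cancel₀ hn.ne', one_smul]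
  have hPdir : projL u (dir h g) = 0 := by
    rw [hdir, projL_apply, inner_smul_left, real_inner_self_eq_norm_sq, hu]
    simp
  -- coordinates on the cylinder
  let f1 : E3 → ℝ := fun x => inner ℝ (back h g x - c) a / ‖a‖ ^ 2
  let f2 : E3 → ℝ := fun x => inner ℝ (back h g x - c) b / ‖a‖ ^ 2
  have hf1c : Continuous f1 := by
    have : f1 = fun x : E3 =>
        ((x 1 - x 0 * g 0 - c 0) * a 0 + (x 2 / h - x 0 * g 1 - c 1) * a 1) / ‖a‖ ^ 2 := by
      funext x
      simp only [f1, inner2]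
      simp [back]
    rw [this]
    fun_prop
  have hf2c : Continuous f2 := by
    have : f2 = fun x : E3 =>
        ((x 1 - x 0 * g 0 - c 0) * b 0 + (x 2 / h - x 0 * g 1 - c 1) * b 1) / ‖a‖ ^ 2 := by
      funext x
      simp only [f2, inner2]
      simp [back]
    rw [this]
    fun_prop
  let O : Set E3 := f1 ⁻¹' Set.Ioo (-η) (1 + η) ∩ f2 ⁻¹' Set.Ioo (-η) (1 + η)
  have hO : IsOpen O := (isOpen_Ioo.preimage hf1c).inter (isOpen_Ioo.preimage hf2c)
  let B : Set E3 := O ∩ {x | inner ℝ x u = 0}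
  let C : E3 := projL u (liftL h (c - η • a - η • b))
  let A : E3 := projL u (liftL h ((1 + 2 * η) • a))
  let Bv : E3 := projL u (liftL h ((1 + 2 * η) • b))
  let Par : Set E3 := {x : E3 | ∃ s ∈ Set.Icc (0 : ℝ) 1, ∃ t ∈ Set.Icc (0 : ℝ) 1,
    x = C + s • A + t • Bv}
  have h12 : 0 < 1 + 2 * η := by linarith
  have hsub : B ⊆ Par := by
    rintro x ⟨⟨hx1, hx2⟩, hx3⟩
    have hx1' : f1 x ∈ Set.Ioo (-η) (1 + η) := hx1
    have hx2' : f2 x ∈ Set.Ioo (-η) (1 + η) := hx2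
    have hx3' : inner ℝ x u = 0 := hx3
    have hexp := expand2 a b (back h g x - c) ha hb hab
    have hexp' : back h g x = (c - η • a - η • b) + ((f1 x + η) / (1 + 2 * η)) • ((1 + 2 * η) • a)
        + ((f2 x + η) / (1 + 2 * η)) • ((1 + 2 * η) • b) := by
      have e1 : back h g x = c + (f1 x • a + f2 x • b) := by
        rw [← hexp]; abel
      rw [e1, smul_smul, smul_smul, div_mul_cancel₀ _ h12.ne', div_mul_cancel₀ _ h12.ne',
        add_smul, add_smul]
      abel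
    refine ⟨(f1 x + η) / (1 + 2 * η), ⟨?_, ?_⟩, (f2 x + η) / (1 + 2 * η), ⟨?_, ?_⟩, ?_⟩
    · have := hx1'.1
      apply div_nonneg <;> linarith
    · rw [div_le_one h12]
      have := hx1'.2
      linarith
    · have := hx2'.1
      apply div_nonneg <;> linarith
    · rw [div_le_one h12]
      have := hx2'.2
      linarith
    · have e0 : x = projL u x := by
        rw [projL_apply, hx3']; simp
      have e1 := lift_back h hh0 g x
      calc x = projL u x := e0
        _ = projL u (liftL h (back h g x) + x 0 • dir h g) := by rw [← e1]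
        _ = projL u (liftL h (back h g x)) := by
            rw [map_add, map_smul, hPdir]; simp
        _ = _ := by
            rw [hexp']
            simp only [map_add, map_smul, C, A, Bv]
  have hParb : Bornology.IsBounded Par := by
    rw [isBounded_iff_forall_norm_le]
    refine ⟨‖C‖ + ‖A‖ + ‖Bv‖, ?_⟩
    rintro x ⟨s, hs, t, ht, rfl⟩
    have e1 : ‖s • A‖ ≤ ‖A‖ := by
      rw [norm_smul, Real.norm_eq_abs, abs_of_nonneg hs.1]
      exact mul_le_of_le_one_left (norm_nonneg _) hs.2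
    have e2 : ‖t • Bv‖ ≤ ‖Bv‖ := by
      rw [norm_smul, Real.norm_eq_abs, abs_of_nonneg ht.1]
      exact mul_le_of_le_one_left (norm_nonneg _) ht.2
    calc ‖C + s • A + t • Bv‖ ≤ ‖C + s • A‖ + ‖t • Bv‖ := norm_add_le _ _
      _ ≤ ‖C‖ + ‖s • A‖ + ‖t • Bv‖ := by gcongr; exact norm_add_le _ _
      _ ≤ _ := by gcongr
  have harea : gramArea A Bv = (1 + 2 * η) ^ 2 * (h * (‖a‖ ^ 2 / n)) := by
    simp only [A, Bv]
    rw [gramArea_projL hu]
    have hdet : det3 (liftL h ((1 + 2 * η) • a)) (liftL h ((1 + 2 * η) • b)) u =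
        (1 + 2 * η) ^ 2 * h * n⁻¹ * (a 0 * b 1 - a 1 * b 0) := by
      simp [det3, hu_def, dir]
      ring
    have habs : |a 0 * b 1 - a 1 * b 0| = ‖a‖ ^ 2 := by
      have hb2 : ‖b‖ ^ 2 = ‖a‖ ^ 2 := by rw [hb]
      have hab' := hab
      rw [inner2] at hab'
      have : |a 0 * b 1 - a 1 * b 0| ^ 2 = (‖a‖ ^ 2) ^ 2 := by
        rw [sq_abs]
        have e : (‖a‖ ^ 2) ^ 2 = ‖a‖ ^ 2 * ‖b‖ ^ 2 := by rw [hb2]; ring
        rw [e, normsq2, normsq2]
        linear_combination (-(a 0 * b 0 + a 1 * b 1)) * hab'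
      exact (sq_eq_sq₀ (abs_nonneg _) hN.le).1 this
    rw [hdet, abs_mul, habs, abs_of_pos (by positivity)]
    field_simp
  refine ⟨u, B, hu, hParb.subset hsub, ⟨O, hO, rfl⟩, ?_, ?_⟩
  · intro x s t hs ht w hw
    set z : E3 := !₂[x, w 0, h * w 1] with hz
    refine ⟨projL u z, ⟨?_, inner_projL_self hu z⟩, inner ℝ z u, by rw [projL_apply]; abel⟩
    have hz1 : z = liftL h (c + s • a + t • b) + x • dir h g := by
      rw [hz, hw]
      ext i
      fin_cases i
      · simp [dir]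
      · simp [dir]
      · simp [dir]
        ring
    have hz2 : projL u z = liftL h (c + s • a + t • b) + (x - inner ℝ z u * n⁻¹) • dir h g := by
      rw [projL_apply, hu_def, smul_smul, sub_smul]
      nth_rewrite 1 [hz1]
      abel
    have hbk : back h g (projL u z) = c + s • a + t • b := by
      rw [hz2, back_lift h hh0]
    have hba : inner ℝ b a = 0 := by rw [real_inner_comm]; exact hab
    have e1 : f1 (projL u z) = s := by
      simp only [f1]
      rw [hbk]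
      have : c + s • a + t • b - c = s • a + t • b := by abel
      rw [this, inner_add_left, inner_smul_left, inner_smul_left, hba,
        real_inner_self_eq_norm_sq]
      simp
      field_simp
    have e2 : f2 (projL u z) = t := by
      simp only [f2]
      rw [hbk]
      have : c + s • a + t • b - c = s • a + t • b := by abel
      rw [this, inner_add_left, inner_smul_left, inner_smul_left, hab,
        real_inner_self_eq_norm_sq, hb]
      simp
      field_simp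
    constructor
    · show f1 (projL u z) ∈ Set.Ioo (-η) (1 + η)
      rw [e1]
      exact ⟨by linarith [hs.1], by linarith [hs.2]⟩
    · show f2 (projL u z) ∈ Set.Ioo (-η) (1 + η)
      rw [e2]
      exact ⟨by linarith [ht.1], by linarith [ht.2]⟩
  · have hle : μHE[2] B ≤ ENNReal.ofReal (gramArea A Bv) := by
      rw [← muHE_parallelogram C A Bv]
      exact measure_mono hsub
    rw [← harea]
    exact ENNReal.toReal_le_of_le_ofReal (gramArea_nonneg _ _) hle

/-- Let h, M > 0, D ⊂ ℝ² be compact with Lebesgue-null boundary, and V : ℝ² → ℝ² be C¹ on an open set containing D with tr DV(p) = 0 and −1/M² < det DV(p) < 0 for p ∈ D. For every ε > 0 the set of points (x, p₁ + x V₁(p), h (p₂ + x V₂(p))) ∈ ℝ³ with p ∈ D, −M ≤ x ≤ M is covered by finitely many cylinders Bᵢ + ℝ uᵢ, ‖uᵢ‖ = 1, with bases Bᵢ bounded relatively open subsets of the planes uᵢ^⊥ and ∑ᵢ area(Bᵢ) ≤ h ∫_D (1 + V₁² + h² V₂²)^(−1/2) + ε (areas: normalised 2-dimensional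 Hausdorff measure). -/
theorem result
    (h M : ℝ) (hh : 0 < h) (hM : 0 < M) (D : Set (EuclideanSpace ℝ (Fin 2))) (hD : IsCompact D)
    (hbd : volume (frontier D) = 0)
    (V : EuclideanSpace ℝ (Fin 2) → EuclideanSpace ℝ (Fin 2)) (U : Set (EuclideanSpace ℝ (Fin 2)))
    (hU : IsOpen U) (hDU : D ⊆ U) (hV : ContDiffOn ℝ 1 V U)
    (htr : ∀ p ∈ D, LinearMap.trace ℝ _ (fderiv ℝ V p).toLinearMap = 0)
    (hdet : ∀ p ∈ D, -(M ^ 2)⁻¹ < LinearMap.det (fderiv ℝ V p).toLinearMap ∧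
      LinearMap.det (fderiv ℝ V p).toLinearMap < 0)
    (ε : ℝ) (hε : 0 < ε) :
    ∃ (k : ℕ) (u : Fin k → EuclideanSpace ℝ (Fin 3)) (B : Fin k → Set (EuclideanSpace ℝ (Fin 3))),
      (∀ i, ‖u i‖ = 1) ∧
      (∀ i, Bornology.IsBounded (B i) ∧ ∃ O : Set (EuclideanSpace ℝ (Fin 3)), IsOpen O ∧
        B i = O ∩ {x | inner ℝ x (u i) = 0}) ∧
      {z : EuclideanSpace ℝ (Fin 3) | ∃ p ∈ D, ∃ x : ℝ, abs x ≤ M ∧
          z = !₂[x, p 0 + x * V p 0, h * (p 1 + x * V p 1)]} ⊆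
        ⋃ i, {z : EuclideanSpace ℝ (Fin 3) | ∃ y ∈ B i, ∃ τ : ℝ, z = y + τ • u i} ∧
      ∑ i, (μHE[2] (B i)).toReal ≤
        h * (∫ p in D, 1 / Real.sqrt (1 + (V p 0) ^ 2 + h ^ 2 * (V p 1) ^ 2)) + ε := by
  classical
  have hdet' : ∀ p ∈ D, -(M ^ 2)⁻¹ < LinearMap.det (fderiv ℝ V p).toLinearMap ∧
      LinearMap.det (fderiv ℝ V p).toLinearMap ≤ 0 :=
    fun p hp => ⟨(hdet p hp).1, (hdet p hp).2.le⟩
  obtain ⟨k, c, a, b, g, hsq, hcov, hsum⟩ :=
    Crest.Agent.S0326.result D hD V U hU hDU hV M h hM hh htr hdet' (ε / (2 * h)) (by positivity)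
  set S0 := ∑ i, ‖a i‖ ^ 2 / Real.sqrt (1 + (g i 0) ^ 2 + h ^ 2 * (g i 1) ^ 2) with hS0
  have hS0nn : 0 ≤ S0 := Finset.sum_nonneg (fun i _ => by positivity)
  set η := min 1 (ε / (16 * (h * S0 + 1))) with hη_def
  have hden : 0 < 16 * (h * S0 + 1) := by positivity
  have hη : 0 < η := lt_min one_pos (by positivity)
  have hη1 : η ≤ 1 := min_le_left _ _
  have hη2 : η ≤ ε / (16 * (h * S0 + 1)) := min_le_right _ _
  choose u B hu hBb hBo hBc hBa using fun i =>
    piece h hh (c i) (a i) (b i) (g i) (hsq i).1 (hsq i).2.1 (hsq i).2.2 η hη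
  refine ⟨k, u, B, hu, fun i => ⟨hBb i, hBo i⟩, ?_, ?_⟩
  · rintro z ⟨p, hp, x, hx, rfl⟩
    have hmem : ((x, p + x • V p) : ℝ × EuclideanSpace ℝ (Fin 2)) ∈
        {z : ℝ × EuclideanSpace ℝ (Fin 2) | ∃ p ∈ D, abs z.1 ≤ M ∧ z.2 = p + z.1 • V p} :=
      ⟨p, hp, hx, rfl⟩
    obtain ⟨i, hi⟩ := Set.mem_iUnion.mp (hcov hmem)
    obtain ⟨s, hs, t, ht, hst⟩ := hi
    obtain ⟨y, hy, τ, hτ⟩ := hBc i x s t hs ht (p + x • V p) hst
    refine Set.mem_iUnion.mpr ⟨i, y, hy, τ, ?_⟩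
    rw [← hτ]
    simp
  · have h1 : ∑ i, (μHE[2] (B i)).toReal ≤ (1 + 2 * η) ^ 2 * (h * S0) := by
      calc ∑ i, (μHE[2] (B i)).toReal
          ≤ ∑ i, (1 + 2 * η) ^ 2 *
              (h * (‖a i‖ ^ 2 / Real.sqrt (1 + (g i 0) ^ 2 + h ^ 2 * (g i 1) ^ 2))) :=
            Finset.sum_le_sum (fun i _ => hBa i)
        _ = (1 + 2 * η) ^ 2 * (h * S0) := by
            rw [← Finset.mul_sum, ← Finset.mul_sum]
    have hQ : 0 ≤ h * S0 := by positivity
    have h2 : η * (h * S0) ≤ ε / 16 := by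
      have e1 : η * (16 * (h * S0 + 1)) ≤ ε := by
        rwa [le_div_iff₀ hden] at hη2
      nlinarith
    have h3 : h * S0 ≤ h * (∫ p in D, 1 / Real.sqrt (1 + (V p 0) ^ 2 + h ^ 2 * (V p 1) ^ 2)) +
        ε / 2 := by
      have := mul_le_mul_of_nonneg_left hsum hh.le
      have e : h * (ε / (2 * h)) = ε / 2 := by field_simp
      rw [mul_add, e] at this
      exact this
    have h4 : (1 + 2 * η) ^ 2 * (h * S0) ≤ h * S0 + ε / 2 := by
      have : η ^ 2 * (h * S0) ≤ η * (h * S0) := by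
        apply mul_le_mul_of_nonneg_right _ hQ
        nlinarith
      nlinarith
    linarith

end Crest.Agent.S0329
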