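import Crest.Statements.S0355

set_option autoImplicit false
open MeasureTheory
open scoped ENNReal
open Crest Crest.GeometryTopology Crest.GeometryTopology.Convex

namespace Crest.Agent.S0355

open Filter Topology

/-! ## Definitions -/

abbrev E20 := EuclideanSpace ℝ (Fin 20)
abbrev R10 := Fin 10 → ℝ

def lo (i : Fin 10) : Fin 20 := Fin.castAdd 10 i
def hi (i : Fin 10) : Fin 20 := Fin.natAdd 10 i

/-- first / second block of coordinates -/
def blo (x : E20) : R10 := fun i => x (lo i)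
def bhi (x : E20) : R10 := fun i => x (hi i)

/-- product of two sets of `ℝ^10` inside `ℝ^20` -/
def prodSet (A B : Set R10) : Set E20 := {x | blo x ∈ A ∧ bhi x ∈ B}

/-- corner simplex of size `r` -/
def Sx (r : ℝ) : Set R10 := {z | (∀ i, 0 ≤ z i) ∧ ∑ i, z i ≤ r}

/-- the zonotope `(a/2)([-1,1]^10 + [-1,1]·(1,…,1))` by inequalities -/
def Dz (a : ℝ) : Set R10 := {z | (∀ i, |z i| ≤ a) ∧ ∀ i j, z i - z j ≤ a}

/-- `max (∑ v⁺) (∑ v⁻)` -/
noncomputable def cc (v : R10) : ℝ := max (∑ i, max (v i) 0) (∑ i, max (-(v i)) 0)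

/-- the body `Δ₁₀ × Δ₁₀` -/
def KK : Set E20 := prodSet (Sx 1) (Sx 1)

/-- orthogonal projection on `u^⊥` (for unit `u`) -/
noncomputable def proj (u : E20) : E20 → E20 := fun y => y - inner ℝ y u • u

noncomputable def aa : ℝ := 10 / ((Nat.factorial 10 : ℝ)) ^ 2

/-! ## T1 : `KK` is a convex body -/

theorem T01_cases {P : Fin 20 → Prop} (h1 : ∀ i, P (lo i)) (h2 : ∀ i, P (hi i)) (k : Fin 20) : P k :=
  Fin.addCases (m := 10) (n := 10) (motive := P) h1 h2 k

theorem T01_coord {x : E20} (hx : x ∈ KK) (k : Fin 20) : 0 ≤ x k ∧ x k ≤ 1 := by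
  obtain ⟨⟨h1, h2⟩, ⟨h3, h4⟩⟩ := hx
  refine T01_cases (P := fun k => 0 ≤ x k ∧ x k ≤ 1) (fun i => ⟨h1 i, ?_⟩) (fun i => ⟨h3 i, ?_⟩) k
  · exact le_trans (Finset.single_le_sum (f := fun i => blo x i) (fun j _ => h1 j) (Finset.mem_univ i)) h2
  · exact le_trans (Finset.single_le_sum (f := fun i => bhi x i) (fun j _ => h3 j) (Finset.mem_univ i)) h4

theorem T01_closed : IsClosed KK := by
  have h : KK = (⋂ i, {x : E20 | 0 ≤ x (lo i)}) ∩ {x : E20 | ∑ i, x (lo i) ≤ 1} ∩
      ((⋂ i, {x : E20 | 0 ≤ x (hi i)}) ∩ {x : E20 | ∑ i, x (hi i) ≤ 1}) := by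
    ext x
    simp [KK, prodSet, Sx, blo, bhi]
  rw [h]
  refine IsClosed.inter (IsClosed.inter (isClosed_iInter fun i => ?_) ?_)
    (IsClosed.inter (isClosed_iInter fun i => ?_) ?_)
  · exact isClosed_le continuous_const (by fun_prop)
  · exact isClosed_le (by fun_prop) continuous_const
  · exact isClosed_le continuous_const (by fun_prop)
  · exact isClosed_le (by fun_prop) continuous_const

theorem KK_compact : IsCompact KK := by
  refine Metric.isCompact_of_isClosed_isBounded T01_closed ?_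
  refine (Metric.isBounded_closedBall (x := (0 : E20)) (r := Real.sqrt 20)).subset ?_
  intro x hx
  rw [mem_closedBall_zero_iff, EuclideanSpace.norm_eq]
  refine Real.sqrt_le_sqrt ?_
  calc ∑ k, ‖x k‖ ^ 2 ≤ ∑ _k : Fin 20, (1 : ℝ) := by
        refine Finset.sum_le_sum fun k _ => ?_
        obtain ⟨h0, h1⟩ := T01_coord hx k
        rw [Real.norm_eq_abs, abs_of_nonneg h0]
        nlinarith
    _ = 20 := by simp

theorem KK_convex : Convex ℝ KK := by
  intro x hx y hy a b ha hb hab
  obtain ⟨⟨h1, h2⟩, ⟨h3, h4⟩⟩ := hx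
  obtain ⟨⟨k1, k2⟩, ⟨k3, k4⟩⟩ := hy
  refine ⟨⟨fun i => ?_, ?_⟩, ⟨fun i => ?_, ?_⟩⟩
  · have := h1 i; have := k1 i
    simp only [blo] at *
    simp only [PiLp.add_apply, PiLp.smul_apply, smul_eq_mul]
    positivity
  · simp only [blo] at *
    simp only [PiLp.add_apply, PiLp.smul_apply, smul_eq_mul, Finset.sum_add_distrib,
      ← Finset.mul_sum]
    nlinarith
  · have := h3 i; have := k3 i
    simp only [bhi] at *
    simp only [PiLp.add_apply, PiLp.smul_apply, smul_eq_mul]
    positivity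
  · simp only [bhi] at *
    simp only [PiLp.add_apply, PiLp.smul_apply, smul_eq_mul, Finset.sum_add_distrib,
      ← Finset.mul_sum]
    nlinarith

theorem KK_interior : (interior KK).Nonempty := by
  have hopen : IsOpen ((⋂ i, {x : E20 | 0 < x (lo i)}) ∩ {x : E20 | ∑ i, x (lo i) < 1} ∩
      ((⋂ i, {x : E20 | 0 < x (hi i)}) ∩ {x : E20 | ∑ i, x (hi i) < 1})) := by
    refine IsOpen.inter (IsOpen.inter (isOpen_iInter_of_finite fun i => ?_) ?_)
      (IsOpen.inter (isOpen_iInter_of_finite fun i => ?_) ?_)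
    · exact isOpen_lt continuous_const (by fun_prop)
    · exact isOpen_lt (by fun_prop) continuous_const
    · exact isOpen_lt continuous_const (by fun_prop)
    · exact isOpen_lt (by fun_prop) continuous_const
  have hsub : ((⋂ i, {x : E20 | 0 < x (lo i)}) ∩ {x : E20 | ∑ i, x (lo i) < 1} ∩
      ((⋂ i, {x : E20 | 0 < x (hi i)}) ∩ {x : E20 | ∑ i, x (hi i) < 1})) ⊆ KK := by
    rintro x ⟨⟨h1, h2⟩, ⟨h3, h4⟩⟩
    simp only [Set.mem_iInter, Set.mem_ofPred_eq] at h1 h2 h3 h4
    exact ⟨⟨fun i => (h1 i).le, h2.le⟩, ⟨fun i => (h3 i).le, h4.le⟩⟩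
  refine ⟨WithLp.toLp 2 (fun _ : Fin 20 => (1 / 20 : ℝ)), interior_maximal hsub hopen ?_⟩
  refine ⟨⟨?_, ?_⟩, ⟨?_, ?_⟩⟩
  · simp
  · simp; norm_num
  · simp
  · simp; norm_num



/-! ## T2 : volume of a product set -/

theorem T02_mp : MeasurePreserving (fun x : E20 => (blo x, bhi x))
    (volume : Measure E20) (volume : Measure (R10 × R10)) := by
  have h1 : MeasurePreserving (@WithLp.ofLp 2 (Fin 20 → ℝ)) (volume : Measure E20) volume :=
    PiLp.volume_preserving_ofLp (Fin 20)
  have h2 : MeasurePreserving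
      (MeasurableEquiv.piCongrLeft (fun _ : Fin 20 => ℝ) (finSumFinEquiv (m := 10) (n := 10))).symm
      volume volume :=
    (volume_measurePreserving_piCongrLeft (fun _ : Fin 20 => ℝ)
      (finSumFinEquiv (m := 10) (n := 10))).symm
  have h3 : MeasurePreserving
      (MeasurableEquiv.sumPiEquivProdPi (fun _ : Fin 10 ⊕ Fin 10 => ℝ)) volume volume :=
    volume_measurePreserving_sumPiEquivProdPi (fun _ : Fin 10 ⊕ Fin 10 => ℝ)
  have h := h3.comp (h2.comp h1)
  have hf : (fun x : E20 => (blo x, bhi x)) =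
      (MeasurableEquiv.sumPiEquivProdPi (fun _ : Fin 10 ⊕ Fin 10 => ℝ)) ∘
      (MeasurableEquiv.piCongrLeft (fun _ : Fin 20 => ℝ)
        (finSumFinEquiv (m := 10) (n := 10))).symm ∘ (@WithLp.ofLp 2 (Fin 20 → ℝ)) := by
    funext x
    refine Prod.ext ?_ ?_
    · funext i
      rfl
    · funext i
      rfl
  rw [hf]
  exact h

theorem volume_prodSet {A B : Set R10} (hA : MeasurableSet A) (hB : MeasurableSet B) :
    volume (prodSet A B) = volume A * volume B := by
  have h : prodSet A B = (fun x : E20 => (blo x, bhi x)) ⁻¹' (A ×ˢ B) := by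
    ext x; simp [prodSet]
  rw [h, T02_mp.measure_preimage (hA.prod hB).nullMeasurableSet, Measure.volume_eq_prod,
    Measure.prod_prod]

/-! ## T3 : volume of the simplex -/

/-- general corner simplex -/
def T03_S (n : ℕ) (r : ℝ) : Set (Fin n → ℝ) := {z | (∀ i, 0 ≤ z i) ∧ ∑ i, z i ≤ r}

theorem T03_meas (n : ℕ) (r : ℝ) : MeasurableSet (T03_S n r) := by
  unfold T03_S
  simp only [Set.ofPred_and, Set.ofPred_forall]
  refine (MeasurableSet.iInter fun i => measurableSet_le measurable_const (by fun_prop)).inter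
    (measurableSet_le (by fun_prop) measurable_const)

theorem T03_empty (n : ℕ) (r : ℝ) (hr : r < 0) : T03_S n r = ∅ := by
  ext z
  simp only [T03_S, Set.mem_ofPred_eq, Set.mem_empty_iff_false, iff_false, not_and, not_le]
  intro h
  exact lt_of_lt_of_le hr (Finset.sum_nonneg fun i _ => h i)

theorem T03_integral (n : ℕ) (r : ℝ) (hr : 0 ≤ r) :
    ∫⁻ s in Set.Icc 0 r, ENNReal.ofReal ((r - s) ^ n / (n.factorial : ℝ)) =
      ENNReal.ofReal (r ^ (n + 1) / ((n + 1).factorial : ℝ)) := by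
  rw [← ofReal_integral_eq_lintegral_ofReal]
  · congr 1
    rw [integral_Icc_eq_integral_Ioc, ← intervalIntegral.integral_of_le hr,
      intervalIntegral.integral_div]
    have h1 : ∫ s in (0 : ℝ)..r, (r - s) ^ n = r ^ (n + 1) / (n + 1) := by
      rw [intervalIntegral.integral_comp_sub_left (fun x => x ^ n) r]
      simp [integral_pow]
    rw [h1, Nat.factorial_succ]
    push_cast
    have h2 : (n.factorial : ℝ) ≠ 0 := by positivity
    have h3 : (n : ℝ) + 1 ≠ 0 := by positivity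
    field_simp
  · exact Continuous.integrableOn_Icc (by fun_prop)
  · filter_upwards [ae_restrict_mem measurableSet_Icc] with s hs
    have : 0 ≤ r - s := by linarith [hs.2]
    positivity

theorem T03_vol : ∀ (n : ℕ) (r : ℝ), 0 ≤ r →
    volume (T03_S n r) = ENNReal.ofReal (r ^ n / (n.factorial : ℝ)) := by
  intro n
  induction n with
  | zero =>
    intro r hr
    have : T03_S 0 r = Set.univ := by
      ext z; simp [T03_S, hr]
    rw [this, volume_pi, Measure.pi_univ]
    simp
  | succ n ih =>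
    intro r hr
    set B : Set (ℝ × (Fin n → ℝ)) :=
      {p | 0 ≤ p.1 ∧ (∀ i, 0 ≤ p.2 i) ∧ p.1 + ∑ i, p.2 i ≤ r} with hB
    have hBm : MeasurableSet B := by
      rw [hB]
      simp only [Set.ofPred_and, Set.ofPred_forall]
      refine (measurableSet_le measurable_const measurable_fst).inter
        ((MeasurableSet.iInter fun i => measurableSet_le measurable_const (by fun_prop)).inter
          (measurableSet_le (by fun_prop) measurable_const))
    have hpre : T03_S (n + 1) r = (MeasurableEquiv.piFinSuccAbove (fun _ => ℝ) 0) ⁻¹' B := by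
      ext z
      simp only [T03_S, hB, Set.mem_ofPred_eq, Set.mem_preimage, MeasurableEquiv.piFinSuccAbove,
        MeasurableEquiv.coe_mk, Fin.insertNthEquiv, Equiv.coe_fn_symm_mk, Fin.forall_fin_succ,
        Fin.sum_univ_succ, Fin.removeNth, Fin.succAbove_zero, and_assoc]
    rw [hpre, (volume_preserving_piFinSuccAbove (fun _ => ℝ) 0).measure_preimage_equiv,
      Measure.volume_eq_prod, Measure.prod_apply hBm]
    have hslice : ∀ s : ℝ, volume (Prod.mk s ⁻¹' B) =
        (Set.Icc 0 r).indicator (fun s => ENNReal.ofReal ((r - s) ^ n / (n.factorial : ℝ))) s := by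
      intro s
      by_cases hs : s ∈ Set.Icc 0 r
      · rw [Set.indicator_of_mem hs, ← ih (r - s) (by linarith [hs.2])]
        congr 1
        ext z
        simp only [hB, T03_S, Set.mem_preimage, Set.mem_ofPred_eq]
        constructor
        · rintro ⟨-, h1, h2⟩; exact ⟨h1, by linarith⟩
        · rintro ⟨h1, h2⟩; exact ⟨hs.1, h1, by linarith⟩
      · rw [Set.indicator_of_notMem hs]
        have : Prod.mk s ⁻¹' B = ∅ := by
          ext z
          simp only [hB, Set.mem_preimage, Set.mem_ofPred_eq, Set.mem_empty_iff_false, iff_false]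
          rintro ⟨h0, h1, h2⟩
          apply hs
          refine ⟨h0, ?_⟩
          have := Finset.sum_nonneg (s := Finset.univ) fun i _ => h1 i
          linarith
        rw [this, measure_empty]
    simp only [hslice]
    rw [lintegral_indicator measurableSet_Icc]
    exact T03_integral n r hr

theorem measurableSet_Sx (r : ℝ) : MeasurableSet (Sx r) := T03_meas 10 r

theorem volume_Sx (r : ℝ) (hr : 0 ≤ r) :
    volume (Sx r) = ENNReal.ofReal (r ^ 10 / (Nat.factorial 10 : ℝ)) := T03_vol 10 r hr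


/-! ## T4 : a simplex intersected with a translate of itself -/

theorem T04_sum_pos_sub_neg (v : R10) :
    ∑ i, max (v i) 0 - ∑ i, max (-(v i)) 0 = ∑ i, v i := by
  rw [← Finset.sum_sub_distrib]
  refine Finset.sum_congr rfl fun i _ => ?_
  rcases le_total (v i) 0 with h | h
  · rw [max_eq_right h, max_eq_left (by linarith)]; ring
  · rw [max_eq_left h, max_eq_right (by linarith)]; ring

theorem inter_Sx (v : R10) :
    {z : R10 | z ∈ Sx 1 ∧ z - v ∈ Sx 1} = (fun y : R10 => (fun i => max (v i) 0) + y) '' Sx (1 - cc v) := by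
  have hpq := T04_sum_pos_sub_neg v
  ext z
  simp only [Set.mem_setOf_eq, Set.mem_image, Sx]
  constructor
  · rintro ⟨⟨h0, h1⟩, h2, h3⟩
    have h3' : ∑ i, z i - ∑ i, v i ≤ 1 := by
      rw [← Finset.sum_sub_distrib]; simpa using h3
    refine ⟨fun i => z i - max (v i) 0, ⟨fun i => ?_, ?_⟩, ?_⟩
    · have h2i := h2 i
      simp only [Pi.sub_apply] at h2i
      exact sub_nonneg.mpr (max_le (by linarith) (h0 i))
    · rw [Finset.sum_sub_distrib]
      unfold cc
      rcases le_total (∑ i, max (v i) 0) (∑ i, max (-(v i)) 0) with h | h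
      · rw [max_eq_right h]; linarith
      · rw [max_eq_left h]; linarith
    · ext i; simp
  · rintro ⟨y, ⟨hy0, hy1⟩, rfl⟩
    have hp : ∑ i, max (v i) 0 ≤ cc v := le_max_left _ _
    have hq : ∑ i, max (-(v i)) 0 ≤ cc v := le_max_right _ _
    refine ⟨⟨fun i => ?_, ?_⟩, fun i => ?_, ?_⟩
    · simp only [Pi.add_apply]
      exact add_nonneg (le_max_right _ _) (hy0 i)
    · simp only [Pi.add_apply]
      rw [Finset.sum_add_distrib]; linarith
    · simp only [Pi.add_apply, Pi.sub_apply]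
      have := le_max_left (v i) 0
      have := hy0 i
      linarith
    · simp only [Pi.add_apply, Pi.sub_apply]
      rw [Finset.sum_sub_distrib, Finset.sum_add_distrib]; linarith

theorem volume_inter_Sx (v : R10) (hv : cc v ≤ 1) :
    volume {z : R10 | z ∈ Sx 1 ∧ z - v ∈ Sx 1} =
      ENNReal.ofReal ((1 - cc v) ^ 10 / (Nat.factorial 10 : ℝ)) := by
  rw [inter_Sx, Set.image_add_left, measure_preimage_add, volume_Sx _ (by linarith)]

theorem cc_smul (τ : ℝ) (hτ : 0 ≤ τ) (v : R10) : cc (τ • v) = τ * cc v := by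
  unfold cc
  rw [mul_max_of_nonneg _ _ hτ, Finset.mul_sum, Finset.mul_sum]
  congr 1
  · refine Finset.sum_congr rfl fun i _ => ?_
    rw [mul_max_of_nonneg _ _ hτ]; simp
  · refine Finset.sum_congr rfl fun i _ => ?_
    rw [mul_max_of_nonneg _ _ hτ]; simp

theorem cc_nonneg (v : R10) : 0 ≤ cc v :=
  le_max_of_le_left (Finset.sum_nonneg fun i _ => le_max_right _ _)




/-! ## T5 : volume of `Dz a` -/

-- T05b PART 1: replaces the stub of measurableSet_Dz (keep it BEFORE volume_Dz_part)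
theorem measurableSet_Dz (a : ℝ) : MeasurableSet (Dz a) := by
  have h1 : Dz a = (⋂ i, {z : R10 | |z i| ≤ a}) ∩ ⋂ i, ⋂ j, {z : R10 | z i - z j ≤ a} := by
    ext z
    simp only [Dz, Set.mem_ofPred_eq, Set.mem_inter_iff, Set.mem_iInter]
  rw [h1]
  refine MeasurableSet.inter (MeasurableSet.iInter fun i => ?_)
    (MeasurableSet.iInter fun i => MeasurableSet.iInter fun j => ?_)
  · exact measurableSet_le ((continuous_abs.comp (continuous_apply i)).measurable) measurable_const
  · exact measurableSet_le ((measurable_pi_apply i).sub (measurable_pi_apply j)) measurable_const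

-- T05b PART 2: replaces the stub of volume_Dz (AFTER volume_Dz_part)

theorem T05a_int (a : ℝ) (ha : 0 ≤ a) :
    ∫ s in (-a)..a, (min (s + a) a - s) ^ 9 = a ^ 10 + a ^ 10 / 10 := by
  have hcont : Continuous fun s : ℝ => (min (s + a) a - s) ^ 9 := by fun_prop
  rw [← intervalIntegral.integral_add_adjacent_intervals (b := 0)
    (hcont.intervalIntegrable _ _) (hcont.intervalIntegrable _ _)]
  have h1 : ∫ s in (-a)..0, (min (s + a) a - s) ^ 9 = ∫ _s in (-a)..0, a ^ 9 := by
    apply intervalIntegral.integral_congr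
    intro s hs
    rw [Set.uIcc_of_le (by linarith)] at hs
    have hmin : min (s + a) a = s + a := min_eq_left (by linarith [hs.2])
    simp only [hmin]
    congr 1
    ring
  have h2 : ∫ s in (0 : ℝ)..a, (min (s + a) a - s) ^ 9 = ∫ s in (0 : ℝ)..a, (a - s) ^ 9 := by
    apply intervalIntegral.integral_congr
    intro s hs
    rw [Set.uIcc_of_le ha] at hs
    have hmin : min (s + a) a = a := min_eq_right (by linarith [hs.1])
    simp only [hmin]
  rw [h1, h2, intervalIntegral.integral_const,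
    intervalIntegral.integral_comp_sub_left (fun x => x ^ 9) a, integral_pow]
  simp only [sub_self, sub_zero, smul_eq_mul]
  norm_num
  ring

/-- T5a: the part of `Dz a` where coordinate `i` is minimal:
`z i = s ∈ [-a,a]`, the other nine coordinates in `[s, min (s+a) a]`; Fubini
(`MeasureTheory.volume_preserving_piFinSuccAbove`) gives `∫_{-a}^a (min (s+a) a - s)^9 ds`. -/
theorem volume_Dz_part (a : ℝ) (ha : 0 ≤ a) (i : Fin 10) :
    volume {z : R10 | z ∈ Dz a ∧ ∀ j, z i ≤ z j} = ENNReal.ofReal (a ^ 10 + a ^ 10 / 10) := by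
  classical
  set S : Set (ℝ × (Fin 9 → ℝ)) :=
    {p | p.1 ∈ Set.Icc (-a) a ∧ ∀ j, p.2 j ∈ Set.Icc p.1 (min (p.1 + a) a)} with hS
  have hmp := MeasureTheory.volume_preserving_piFinSuccAbove (fun _ : Fin 10 => ℝ) i
  have hpre : {z : R10 | z ∈ Dz a ∧ ∀ j, z i ≤ z j} =
      (MeasurableEquiv.piFinSuccAbove (fun _ : Fin 10 => ℝ) i) ⁻¹' S := by
    ext z
    have hval : (MeasurableEquiv.piFinSuccAbove (fun _ : Fin 10 => ℝ) i) z =
        (z i, fun j => z (i.succAbove j)) := rfl
    simp only [Set.mem_preimage, hval, hS, Set.mem_ofPred_eq, Dz, Set.mem_Icc]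
    constructor
    · rintro ⟨⟨h1, h2⟩, h3⟩
      refine ⟨⟨(abs_le.1 (h1 i)).1, (abs_le.1 (h1 i)).2⟩, fun j => ⟨h3 _, le_min ?_ ?_⟩⟩
      · have := h2 (i.succAbove j) i
        linarith
      · exact (abs_le.1 (h1 _)).2
    · rintro ⟨⟨h1, h2⟩, h3⟩
      have H : ∀ k, z i ≤ z k ∧ z k ≤ min (z i + a) a := by
        rw [Fin.forall_iff_succAbove i]
        exact ⟨⟨le_rfl, le_min (by linarith) h2⟩, h3⟩
      refine ⟨⟨fun k => abs_le.2 ⟨by linarith [(H k).1], (H k).2.trans (min_le_right _ _)⟩,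
        fun j k => ?_⟩, fun k => (H k).1⟩
      have hj := (H j).2.trans (min_le_left _ _)
      have hk := (H k).1
      linarith
  have hSm : MeasurableSet S := by
    have hEq : S = ({p : ℝ × (Fin 9 → ℝ) | -a ≤ p.1} ∩ {p | p.1 ≤ a}) ∩
        ⋂ j, ({p : ℝ × (Fin 9 → ℝ) | p.1 ≤ p.2 j} ∩ {p | p.2 j ≤ min (p.1 + a) a}) := by
      ext p
      simp only [hS, Set.mem_ofPred_eq, Set.mem_Icc, Set.mem_inter_iff, Set.mem_iInter]
    rw [hEq]
    have hm1 : Measurable (fun p : ℝ × (Fin 9 → ℝ) => p.1) := measurable_fst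
    have hm2 : ∀ j : Fin 9, Measurable (fun p : ℝ × (Fin 9 → ℝ) => p.2 j) := fun j =>
      (measurable_pi_apply j).comp measurable_snd
    exact ((measurableSet_le measurable_const hm1).inter
      (measurableSet_le hm1 measurable_const)).inter
      (MeasurableSet.iInter fun j =>
        (measurableSet_le hm1 (hm2 j)).inter
        (measurableSet_le (hm2 j) ((hm1.add_const a).min measurable_const)))
  rw [hpre, hmp.measure_preimage_equiv, Measure.volume_eq_prod, Measure.prod_apply hSm]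
  have hslice : ∀ s : ℝ, volume (Prod.mk s ⁻¹' S) =
      Set.indicator (Set.Icc (-a) a)
        (fun s => ENNReal.ofReal ((min (s + a) a - s) ^ 9)) s := by
    intro s
    by_cases hs : s ∈ Set.Icc (-a) a
    · have hEq : Prod.mk s ⁻¹' S =
          Set.Icc (fun _ : Fin 9 => s) (fun _ : Fin 9 => min (s + a) a) := by
        ext y
        simp only [hS, Set.mem_preimage, Set.mem_ofPred_eq]
        constructor
        · rintro ⟨-, h⟩
          exact ⟨fun j => (h j).1, fun j => (h j).2⟩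
        · rintro ⟨h1, h2⟩
          exact ⟨hs, fun j => ⟨h1 j, h2 j⟩⟩
      have hnn : 0 ≤ min (s + a) a - s := by
        have : s ≤ min (s + a) a := le_min (by linarith) hs.2
        linarith
      rw [hEq, Real.volume_Icc_pi, Set.indicator_of_mem hs, Finset.prod_const,
        Finset.card_univ, Fintype.card_fin, ENNReal.ofReal_pow hnn]
    · have hEq : Prod.mk s ⁻¹' S = ∅ := by
        ext y
        simp only [hS, Set.mem_preimage, Set.mem_ofPred_eq, hs, false_and,
          Set.mem_empty_iff_false]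
      rw [hEq, Set.indicator_of_notMem hs, measure_empty]
  rw [lintegral_congr hslice, lintegral_indicator measurableSet_Icc]
  have hcont : Continuous fun s : ℝ => (min (s + a) a - s) ^ 9 := by fun_prop
  rw [← ofReal_integral_eq_lintegral_ofReal hcont.integrableOn_Icc
    ((ae_restrict_iff' measurableSet_Icc).2 (Filter.Eventually.of_forall fun s hs => by
      have : s ≤ min (s + a) a := le_min (by linarith) hs.2
      have hnn : 0 ≤ min (s + a) a - s := by linarith
      exact pow_nonneg hnn 9)),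
    integral_Icc_eq_integral_Ioc, ← intervalIntegral.integral_of_le (by linarith), T05a_int a ha]

theorem T05b_null (i j : Fin 10) (hij : i ≠ j) : volume {z : R10 | z i = z j} = 0 := by
  let f : R10 →ₗ[ℝ] ℝ := (LinearMap.proj i : R10 →ₗ[ℝ] ℝ) - (LinearMap.proj j : R10 →ₗ[ℝ] ℝ)
  have h1 : {z : R10 | z i = z j} = (LinearMap.ker f : Set R10) := by
    ext z
    simp [f, sub_eq_zero]
  rw [h1]
  apply MeasureTheory.Measure.addHaar_submodule
  intro htop
  have h2 : (Pi.single i 1 : R10) ∈ LinearMap.ker f := by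
    rw [htop]; trivial
  have h3 : f (Pi.single i 1 : R10) = 1 := by
    simp [f, hij]
  rw [LinearMap.mem_ker, h3] at h2
  exact one_ne_zero h2

theorem T05b_meas (a : ℝ) (i : Fin 10) :
    MeasurableSet {z : R10 | z ∈ Dz a ∧ ∀ j, z i ≤ z j} := by
  have h1 : {z : R10 | z ∈ Dz a ∧ ∀ j, z i ≤ z j} = Dz a ∩ ⋂ j, {z : R10 | z i ≤ z j} := by
    ext z
    simp only [Set.mem_ofPred_eq, Set.mem_inter_iff, Set.mem_iInter]
  rw [h1]
  exact (measurableSet_Dz a).inter (MeasurableSet.iInter fun j =>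
    measurableSet_le (measurable_pi_apply i) (measurable_pi_apply j))

/-- T5b: union over the argmin, overlaps inside the null hyperplanes `z i = z j`. -/
theorem volume_Dz (a : ℝ) (ha : 0 ≤ a) : volume (Dz a) = ENNReal.ofReal (11 * a ^ 10) := by
  have hU : Dz a = ⋃ i : Fin 10, {z : R10 | z ∈ Dz a ∧ ∀ j, z i ≤ z j} := by
    ext z
    simp only [Set.mem_iUnion, Set.mem_ofPred_eq]
    constructor
    · intro hz
      obtain ⟨i, -, hi⟩ := Finset.exists_min_image Finset.univ z ⟨0, Finset.mem_univ _⟩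
      exact ⟨i, hz, fun j => hi j (Finset.mem_univ j)⟩
    · rintro ⟨i, hz, -⟩
      exact hz
  have hdisj : Pairwise (Function.onFun (AEDisjoint volume)
      fun i : Fin 10 => {z : R10 | z ∈ Dz a ∧ ∀ j, z i ≤ z j}) := by
    intro i j hij
    refine measure_mono_null ?_ (T05b_null i j hij)
    rintro z ⟨⟨-, h1⟩, ⟨-, h2⟩⟩
    exact le_antisymm (h1 j) (h2 i)
  have hsum : volume (⋃ i : Fin 10, {z : R10 | z ∈ Dz a ∧ ∀ j, z i ≤ z j})
      = ∑' i : Fin 10, volume {z : R10 | z ∈ Dz a ∧ ∀ j, z i ≤ z j} :=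
    measure_iUnion₀ hdisj (fun i => (T05b_meas a i).nullMeasurableSet)
  have h10 : (0 : ℝ) ≤ a ^ 10 := by positivity
  calc volume (Dz a)
      = volume (⋃ i : Fin 10, {z : R10 | z ∈ Dz a ∧ ∀ j, z i ≤ z j}) := congrArg _ hU
    _ = ∑ i : Fin 10, ENNReal.ofReal (a ^ 10 + a ^ 10 / 10) := by
        rw [hsum, tsum_fintype]
        exact Finset.sum_congr rfl fun i _ => volume_Dz_part a ha i
    _ = ENNReal.ofReal (11 * a ^ 10) := by
        rw [Finset.sum_const, Finset.card_univ, Fintype.card_fin, nsmul_eq_mul]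
        have h : ((10 : ℕ) : ℝ≥0∞) = ENNReal.ofReal 10 := by
          rw [show (10 : ℝ) = ((10 : ℕ) : ℝ) by norm_num, ENNReal.ofReal_natCast]
        rw [h, ← ENNReal.ofReal_mul (by norm_num)]
        congr 1
        ring

/-! ## T6 : Fubini along a unit vector -/

/-- `μHE[19]` of a subset of the hyperplane `u^⊥` is its volume inside the hyperplane -/
theorem hausdorff_coe {u : E20} (hu : ‖u‖ = 1) (T : Set ((ℝ ∙ u)ᗮ : Submodule ℝ E20)) :
    (μHE[19] : Measure E20) (Subtype.val '' T) = volume T := by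
  have hu0 : u ≠ 0 := by
    intro h; rw [h] at hu; simp at hu
  have : Fact (Module.finrank ℝ E20 = 19 + 1) := ⟨by simp⟩
  have hfr : Module.finrank ℝ ((ℝ ∙ u)ᗮ : Submodule ℝ E20) = 19 :=
    Submodule.finrank_orthogonal_span_singleton hu0
  rw [isometry_subtype_coe.euclideanHausdorffMeasure_image]
  have h2 := InnerProductSpace.euclideanHausdorffMeasure_eq_volume
    (V := ((ℝ ∙ u)ᗮ : Submodule ℝ E20))
  rw [hfr] at h2
  rw [h2]

theorem fubini_u {u : E20} (hu : ‖u‖ = 1) {t : Set E20} (ht : MeasurableSet t) :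
    volume t = ∫⁻ x : ((ℝ ∙ u)ᗮ : Submodule ℝ E20), volume {s : ℝ | (x : E20) + s • u ∈ t} := by
  classical
  set s : Submodule ℝ E20 := ℝ ∙ u with hs
  have hmp := s.measurePreserving_measurableEquivProd (0 : E20)
  rw [InnerProductSpace.euclideanHausdorffMeasure_eq_volume] at hmp
  have h1 : volume t = volume ((s.measurableEquivProd (0 : E20)).symm ⁻¹' t) :=
    (hmp.symm.measure_preimage_equiv t).symm
  rw [h1, Measure.volume_eq_prod, Measure.prod_apply_symm
    ((s.measurableEquivProd (0 : E20)).symm.measurable ht)]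
  apply lintegral_congr
  intro y
  have hiso := (LinearIsometryEquiv.toSpanUnitSingleton u hu).measurePreserving
  have hme : MeasurableSet ((fun x : s => (x, y)) ⁻¹'
      ((s.measurableEquivProd (0 : E20)).symm ⁻¹' t)) := by
    apply measurable_prodMk_right
    exact (s.measurableEquivProd (0 : E20)).symm.measurable ht
  rw [← hiso.measure_preimage hme.nullMeasurableSet]
  congr 1
  ext r
  simp only [Set.mem_preimage, Set.mem_ofPred_eq, Submodule.measurableEquivProd_symm_apply,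
    LinearIsometryEquiv.toSpanUnitSingleton_apply, vadd_eq_add, add_zero]
  rw [add_comm (r • u) (y : E20)]


/-! ## T7, T8, T9, T10 : the shadow of a convex body from volumes of `K \ (K + τ u)` -/

theorem proj_mem {u : E20} (hu : ‖u‖ = 1) (y : E20) : proj u y ∈ ((ℝ ∙ u)ᗮ : Submodule ℝ E20) := by
  have huu : inner ℝ u u = (1 : ℝ) := by
    rw [real_inner_self_eq_norm_sq, hu]; norm_num
  unfold proj
  rw [Submodule.mem_orthogonal_singleton_iff_inner_left]
  rw [inner_sub_left, inner_smul_left, huu]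
  simp

/-- the shadow as a subset of the hyperplane -/
def T07_shadow (u : E20) (K : Set E20) : Set ((ℝ ∙ u)ᗮ : Submodule ℝ E20) :=
  {y | ∃ r : ℝ, (y : E20) + r • u ∈ K}

theorem T07_image_shadow {u : E20} (hu : ‖u‖ = 1) (K : Set E20) :
    proj u '' K = Subtype.val '' (T07_shadow u K) := by
  have huu : inner ℝ u u = (1 : ℝ) := by
    rw [real_inner_self_eq_norm_sq, hu]; norm_num
  ext z
  constructor
  · rintro ⟨x, hx, rfl⟩
    refine ⟨⟨_, proj_mem hu x⟩, ⟨inner ℝ x u, ?_⟩, rfl⟩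
    simpa [proj] using hx
  · rintro ⟨y, ⟨r, hr⟩, rfl⟩
    refine ⟨_, hr, ?_⟩
    have hy : inner ℝ (y : E20) u = (0 : ℝ) :=
      (Submodule.mem_orthogonal_singleton_iff_inner_left).1 y.2
    simp only [proj, inner_add_left, hy, inner_smul_left, huu]
    simp

theorem T07_measure_shadow {u : E20} (hu : ‖u‖ = 1) (K : Set E20) :
    (μHE[19] : Measure E20) (proj u '' K) = volume (T07_shadow u K) := by
  rw [T07_image_shadow hu K, hausdorff_coe hu]

theorem T07_measurableSet_shadow {u : E20} (hu : ‖u‖ = 1) {K : Set E20} (hK : IsCompact K) :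
    MeasurableSet (T07_shadow u K) := by
  have h1 : T07_shadow u K = Subtype.val ⁻¹' (proj u '' K) := by
    rw [T07_image_shadow hu K, Set.preimage_image_eq _ Subtype.val_injective]
  rw [h1]
  apply measurable_subtype_coe
  apply IsClosed.measurableSet
  apply IsCompact.isClosed
  apply hK.image
  unfold proj
  fun_prop

theorem T07_measurableSet_diff {K : Set E20} (hK : IsCompact K) (u : E20) (τ : ℝ) :
    MeasurableSet {y : E20 | y ∈ K ∧ y - τ • u ∉ K} := by
  have h1 : {y : E20 | y ∈ K ∧ y - τ • u ∉ K} = K ∩ ((fun y : E20 => y - τ • u) ⁻¹' K)ᶜ := by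
    ext y; simp
  rw [h1]
  apply hK.isClosed.measurableSet.inter
  apply MeasurableSet.compl
  apply IsClosed.measurableSet
  apply hK.isClosed.preimage
  fun_prop

/-- T7 -/
theorem shadow_upper {K : Set E20} (hK : IsCompact K) (hc : Convex ℝ K) {u : E20} (hu : ‖u‖ = 1)
    {τ : ℝ} (hτ : 0 ≤ τ) :
    volume {y | y ∈ K ∧ y - τ • u ∉ K} ≤
      ENNReal.ofReal τ * (μHE[19] : Measure E20) (proj u '' K) := by
  rw [T07_measure_shadow hu K, fubini_u hu (T07_measurableSet_diff hK u τ)]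
  calc ∫⁻ y : ((ℝ ∙ u)ᗮ : Submodule ℝ E20),
        volume {r : ℝ | (y : E20) + r • u ∈ {y : E20 | y ∈ K ∧ y - τ • u ∉ K}}
      ≤ ∫⁻ y : ((ℝ ∙ u)ᗮ : Submodule ℝ E20),
        (T07_shadow u K).indicator (fun _ => ENNReal.ofReal τ) y := by
        apply lintegral_mono
        intro y
        beta_reduce
        by_cases hy : y ∈ T07_shadow u K
        · rw [Set.indicator_of_mem hy]
          refine (Real.volume_le_diam _).trans ?_
          apply Metric.ediam_le
          have key : ∀ a ∈ {r : ℝ | (y : E20) + r • u ∈ {y : E20 | y ∈ K ∧ y - τ • u ∉ K}},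
              ∀ b ∈ {r : ℝ | (y : E20) + r • u ∈ {y : E20 | y ∈ K ∧ y - τ • u ∉ K}},
              a ≤ b → b - a ≤ τ := by
            intro a ha b hb hab
            by_contra hlt
            rw [not_le] at hlt
            apply hb.2
            have hseg : (y : E20) + (b - τ) • u ∈
                segment ℝ ((y : E20) + a • u) ((y : E20) + b • u) := by
              have hba : 0 < b - a := by linarith
              refine ⟨τ / (b - a), 1 - τ / (b - a), by positivity, ?_, by ring, ?_⟩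
              · rw [sub_nonneg, div_le_one hba]; linarith
              · have h1 : (τ / (b - a)) * a + (1 - τ / (b - a)) * b = b - τ := by
                  field_simp
                  ring
                rw [smul_add, smul_add, smul_smul, smul_smul]
                rw [← h1, add_smul]
                have h2 : (τ / (b - a)) • (y : E20) + (1 - τ / (b - a)) • (y : E20) = y := by
                  rw [← add_smul]; simp
                calc _ = ((τ / (b - a)) • (y : E20) + (1 - τ / (b - a)) • (y : E20)) +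
                    ((τ / (b - a) * a) • u + ((1 - τ / (b - a)) * b) • u) := by abel
                  _ = _ := by rw [h2]
            have hmem := hc.segment_subset ha.1 hb.1 hseg
            have heq : (y : E20) + b • u - τ • u = (y : E20) + (b - τ) • u := by
              rw [sub_smul]; abel
            rw [heq]
            exact hmem
          intro a ha b hb
          rw [edist_dist, Real.dist_eq]
          apply ENNReal.ofReal_le_ofReal
          rcases le_total a b with hab | hab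
          · rw [abs_sub_comm, abs_of_nonneg (by linarith)]
            exact key a ha b hb hab
          · rw [abs_of_nonneg (by linarith)]
            exact key b hb a ha hab
        · rw [Set.indicator_of_notMem hy]
          have : {r : ℝ | (y : E20) + r • u ∈ {y : E20 | y ∈ K ∧ y - τ • u ∉ K}} = ∅ := by
            ext r
            simp only [Set.mem_ofPred_eq, Set.mem_empty_iff_false, iff_false]
            intro hr
            exact hy ⟨r, hr.1⟩
          rw [this]
          simp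
    _ = ENNReal.ofReal τ * volume (T07_shadow u K) := by
        rw [lintegral_indicator_const (T07_measurableSet_shadow hu hK)]


theorem T08_meas {K : Set E20} (hK : IsCompact K) (u : E20) (τ : ℝ) :
    MeasurableSet {y : E20 | y ∈ K ∧ y - τ • u ∉ K} := by
  have h1 : MeasurableSet K := hK.measurableSet
  have h2 : MeasurableSet {y : E20 | y - τ • u ∈ K} :=
    (hK.isClosed.preimage (by fun_prop : Continuous fun y : E20 => y - τ • u)).measurableSet
  exact h1.inter h2.compl

theorem T08_convex {K : Set E20} (hc : Convex ℝ K) (x u : E20) :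
    Convex ℝ {s : ℝ | x + s • u ∈ K} := by
  intro s hs t ht α β hα hβ hαβ
  have h := hc hs ht hα hβ hαβ
  obtain rfl : β = 1 - α := by linarith
  show x + (α • s + (1 - α) • t) • u ∈ K
  convert h using 1
  simp only [smul_eq_mul]
  module

theorem T08_fibre {K : Set E20} (hK : IsCompact K) (hc : Convex ℝ K) {u : E20} (hu : ‖u‖ = 1)
    {τ δ : ℝ} (hτδ : τ ≤ δ) (x : E20) (s0 : ℝ) (h0 : x + s0 • u ∈ K)
    (h1 : x + (s0 + δ) • u ∈ K) :
    ENNReal.ofReal τ ≤ volume {s : ℝ | x + s • u ∈ {y : E20 | y ∈ K ∧ y - τ • u ∉ K}} := by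
  have hbdd : BddBelow {s : ℝ | x + s • u ∈ K} := by
    obtain ⟨C, hC⟩ := hK.isBounded.exists_norm_le
    refine ⟨-(C + ‖x‖), fun s hs => ?_⟩
    have h2 : ‖x + s • u‖ ≤ C := hC _ hs
    have h3 : ‖s • u‖ ≤ ‖x + s • u‖ + ‖x‖ := by
      calc ‖s • u‖ = ‖(x + s • u) - x‖ := by congr 1; abel
        _ ≤ _ := norm_sub_le _ _
    rw [norm_smul, hu, mul_one, Real.norm_eq_abs] at h3
    have := neg_abs_le s
    linarith
  have hne : {s : ℝ | x + s • u ∈ K}.Nonempty := ⟨s0, h0⟩
  have ha0 : sInf {s : ℝ | x + s • u ∈ K} ≤ s0 := csInf_le hbdd h0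
  have hsub : Set.Ioo (sInf {s : ℝ | x + s • u ∈ K}) (sInf {s : ℝ | x + s • u ∈ K} + τ) ⊆
      {s : ℝ | x + s • u ∈ {y : E20 | y ∈ K ∧ y - τ • u ∉ K}} := by
    rintro s ⟨hs1, hs2⟩
    obtain ⟨a, haA, has⟩ := exists_lt_of_csInf_lt hne hs1
    constructor
    · exact (T08_convex hc x u).ordConnected.out haA h1 ⟨has.le, by linarith⟩
    · intro hmem
      have h4 : s - τ ∈ {s : ℝ | x + s • u ∈ K} := by
        show x + (s - τ) • u ∈ K
        convert hmem using 1
        rw [sub_smul]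
        abel
      have := csInf_le hbdd h4
      linarith
  calc ENNReal.ofReal τ
      = volume (Set.Ioo (sInf {s : ℝ | x + s • u ∈ K}) (sInf {s : ℝ | x + s • u ∈ K} + τ)) := by
        rw [Real.volume_Ioo]
        congr 1
        ring
    _ ≤ _ := measure_mono hsub

/-- T8 -/
theorem shadow_lower {K : Set E20} (hK : IsCompact K) (hc : Convex ℝ K) {u : E20} (hu : ‖u‖ = 1)
    {τ δ : ℝ} (hτ : 0 ≤ τ) (hτδ : τ ≤ δ) :
    ENNReal.ofReal τ * (μHE[19] : Measure E20) (proj u '' {y | y ∈ K ∧ y + δ • u ∈ K}) ≤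
      volume {y | y ∈ K ∧ y - τ • u ∉ K} := by
  have ht := T08_meas hK u τ
  rw [fubini_u hu ht]
  have hScomp : IsCompact {y : E20 | y ∈ K ∧ y + δ • u ∈ K} :=
    hK.inter_right (hK.isClosed.preimage (by fun_prop : Continuous fun y : E20 => y + δ • u))
  have hPcomp : IsCompact (proj u '' {y : E20 | y ∈ K ∧ y + δ • u ∈ K}) :=
    hScomp.image (by unfold proj; fun_prop)
  have hTm : MeasurableSet ((Subtype.val : ((ℝ ∙ u)ᗮ : Submodule ℝ E20) → E20) ⁻¹'
      (proj u '' {y : E20 | y ∈ K ∧ y + δ • u ∈ K})) :=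
    (hPcomp.isClosed.preimage continuous_subtype_val).measurableSet
  have himg : (Subtype.val : ((ℝ ∙ u)ᗮ : Submodule ℝ E20) → E20) ''
      ((Subtype.val : ((ℝ ∙ u)ᗮ : Submodule ℝ E20) → E20) ⁻¹'
        (proj u '' {y : E20 | y ∈ K ∧ y + δ • u ∈ K})) =
      proj u '' {y : E20 | y ∈ K ∧ y + δ • u ∈ K} := by
    rw [Set.image_preimage_eq_inter_range]
    apply Set.inter_eq_left.mpr
    rintro _ ⟨y, _, rfl⟩
    exact ⟨⟨proj u y, proj_mem hu y⟩, rfl⟩
  rw [← himg, hausdorff_coe hu, ← lintegral_indicator_const hTm]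
  apply lintegral_mono
  intro x
  by_cases hx : x ∈ ((Subtype.val : ((ℝ ∙ u)ᗮ : Submodule ℝ E20) → E20) ⁻¹'
      (proj u '' {y : E20 | y ∈ K ∧ y + δ • u ∈ K}))
  · rw [Set.indicator_of_mem hx]
    obtain ⟨y, ⟨hy1, hy2⟩, hyx⟩ := hx
    have e : y = (x : E20) + inner ℝ y u • u := by
      rw [← hyx]
      simp [proj]
    apply T08_fibre hK hc hu hτδ (x : E20) (inner ℝ y u)
    · rw [← e]
      exact hy1
    · rw [add_smul, ← add_assoc, ← e]
      exact hy2
  · rw [Set.indicator_of_notMem hx]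
    exact bot_le

theorem T09_proj_affine (u c x : E20) (θ : ℝ) :
    θ • (proj u x - proj u c) + proj u c = proj u (θ • (x - c) + c) := by
  unfold proj
  simp only [inner_add_left, inner_smul_left, inner_sub_left, RCLike.conj_to_real]
  module

theorem T09_le_of_forall (M S : ℝ≥0∞)
    (h : ∀ θ : ℝ, 0 < θ → θ < 1 → ENNReal.ofReal (θ ^ 19) * M ≤ S) : M ≤ S := by
  have h1 : Tendsto (fun n : ℕ => ENNReal.ofReal ((1 - 1 / ((n : ℝ) + 2)) ^ 19) * M) atTop
      (𝓝 (ENNReal.ofReal ((1 - 0 : ℝ) ^ 19) * M)) := by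
    apply ENNReal.Tendsto.mul_const
    · apply ENNReal.tendsto_ofReal
      apply Tendsto.pow
      apply Tendsto.const_sub
      have h2 : Tendsto (fun n : ℕ => 1 / ((n : ℝ) + 1)) atTop (𝓝 0) :=
        tendsto_one_div_add_atTop_nhds_zero_nat
      have h3 := (tendsto_add_atTop_iff_nat 1).2 h2
      refine h3.congr ?_
      intro n
      push_cast
      ring_nf
    · left
      simp
  have h4 : ENNReal.ofReal ((1 - 0 : ℝ) ^ 19) * M = M := by simp
  rw [h4] at h1
  refine le_of_tendsto' h1 ?_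
  intro n
  have hn : (0 : ℝ) < (n : ℝ) + 2 := by positivity
  apply h
  · have : 1 / ((n : ℝ) + 2) < 1 := by
      rw [div_lt_one hn]
      have : (0 : ℝ) ≤ n := Nat.cast_nonneg n
      linarith
    linarith
  · have : 0 < 1 / ((n : ℝ) + 2) := by positivity
    linarith

/-- T9 -/
theorem shadow_sup {K : Set E20} (hK : IsCompact K) (hc : Convex ℝ K)
    (hi : (interior K).Nonempty) {u : E20} (hu : ‖u‖ = 1) :
    (μHE[19] : Measure E20) (proj u '' K) ≤
      ⨆ k : ℕ, (μHE[19] : Measure E20) (proj u '' {y | y ∈ K ∧ y + (1 / ((k : ℝ) + 1)) • u ∈ K}) := by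
  obtain ⟨c, hcint⟩ := hi
  rw [mem_interior_iff_mem_nhds, Metric.mem_nhds_iff] at hcint
  obtain ⟨ρ, hρ, hball⟩ := hcint
  have hcK : c ∈ K := hball (Metric.mem_ball_self hρ)
  apply T09_le_of_forall
  intro θ hθ0 hθ1
  have hpos : 0 < (1 - θ) * ρ := mul_pos (by linarith) hρ
  obtain ⟨k, hk⟩ := exists_nat_one_div_lt hpos
  refine le_trans ?_ (le_iSup (fun k : ℕ => (μHE[19] : Measure E20)
    (proj u '' {y | y ∈ K ∧ y + (1 / ((k : ℝ) + 1)) • u ∈ K})) k)
  have hhom := MeasureTheory.euclideanHausdorffMeasure_homothety_image (𝕜 := ℝ) 19 (proj u c)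
    (ne_of_gt hθ0) (proj u '' K)
  have hcoef : ENNReal.ofReal (θ ^ 19) * (μHE[19] : Measure E20) (proj u '' K)
      = ‖θ‖₊ ^ 19 • (μHE[19] : Measure E20) (proj u '' K) := by
    rw [ENNReal.smul_def, smul_eq_mul]
    congr 1
    rw [ENNReal.ofReal_pow hθ0.le, ENNReal.coe_pow]
    congr 1
    rw [Real.nnnorm_of_nonneg hθ0.le, ENNReal.ofReal, Real.toNNReal_of_nonneg hθ0.le]
  rw [hcoef, ← hhom]
  apply measure_mono
  rintro _ ⟨_, ⟨x, hx, rfl⟩, rfl⟩
  rw [AffineMap.homothety_apply, vsub_eq_sub, vadd_eq_add, T09_proj_affine]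
  refine ⟨θ • (x - c) + c, ⟨?_, ?_⟩, rfl⟩
  · have := hc hx hcK hθ0.le (by linarith : (0 : ℝ) ≤ 1 - θ) (by ring)
    convert this using 1
    module
  · set δ : ℝ := 1 / ((k : ℝ) + 1) with hδ
    have hδ0 : 0 < δ := by positivity
    have h1θ : 0 < 1 - θ := by linarith
    have hmem : c + (δ / (1 - θ)) • u ∈ K := by
      apply hball
      rw [Metric.mem_ball, dist_eq_norm]
      have : c + (δ / (1 - θ)) • u - c = (δ / (1 - θ)) • u := by abel
      rw [this, norm_smul, hu, mul_one, Real.norm_eq_abs, abs_of_pos (div_pos hδ0 h1θ),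
        div_lt_iff₀ h1θ]
      linarith
    have := hc hx hmem hθ0.le h1θ.le (by ring)
    convert this using 1
    rw [smul_add, smul_smul, mul_div_cancel₀ _ (ne_of_gt h1θ)]
    module

/-- T10 -/
theorem shadow_eq {K : Set E20} (hK : IsCompact K) (hc : Convex ℝ K)
    (hi : (interior K).Nonempty) {u : E20} (hu : ‖u‖ = 1) {L : ℝ}
    (hL : Tendsto (fun τ : ℝ => (volume {y | y ∈ K ∧ y - τ • u ∉ K}).toReal / τ) (𝓝[>] 0) (𝓝 L)) :
    (μHE[19] : Measure E20) (proj u '' K) = ENNReal.ofReal L := by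
  have hfin : ∀ τ : ℝ, volume {y | y ∈ K ∧ y - τ • u ∉ K} ≠ ⊤ := by
    intro τ
    have h1 : volume {y | y ∈ K ∧ y - τ • u ∉ K} ≤ volume K := measure_mono (fun y hy => hy.1)
    exact ne_top_of_le_ne_top hK.measure_lt_top.ne h1
  have hconv : ∀ τ : ℝ, 0 < τ →
      ENNReal.ofReal ((volume {y | y ∈ K ∧ y - τ • u ∉ K}).toReal / τ) =
        volume {y | y ∈ K ∧ y - τ • u ∉ K} / ENNReal.ofReal τ := by
    intro τ hτ
    rw [ENNReal.ofReal_div_of_pos hτ, ENNReal.ofReal_toReal (hfin τ)]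
  have hL' : Tendsto (fun τ : ℝ =>
      ENNReal.ofReal ((volume {y | y ∈ K ∧ y - τ • u ∉ K}).toReal / τ)) (𝓝[>] 0)
      (𝓝 (ENNReal.ofReal L)) :=
    (ENNReal.continuous_ofReal.tendsto L).comp hL
  have hpos : ∀ᶠ τ : ℝ in 𝓝[>] 0, 0 < τ := eventually_mem_nhdsWithin
  apply le_antisymm
  · refine (shadow_sup hK hc hi hu).trans (iSup_le fun k => ?_)
    refine ge_of_tendsto hL' ?_
    have hk : (0 : ℝ) < 1 / ((k : ℝ) + 1) := by positivity
    have hsmall : ∀ᶠ τ : ℝ in 𝓝[>] 0, τ < 1 / ((k : ℝ) + 1) :=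
      mem_nhdsWithin_of_mem_nhds (Iio_mem_nhds hk)
    filter_upwards [hpos, hsmall] with τ hτ hτk
    rw [hconv τ hτ]
    rw [ENNReal.le_div_iff_mul_le (Or.inl (by simpa using hτ)) (Or.inl ENNReal.ofReal_ne_top)]
    rw [mul_comm]
    exact shadow_lower hK hc hu hτ.le hτk.le
  · refine le_of_tendsto hL' ?_
    filter_upwards [hpos] with τ hτ
    rw [hconv τ hτ]
    rw [ENNReal.div_le_iff_le_mul (Or.inl (by simpa using hτ)) (Or.inl ENNReal.ofReal_ne_top)]
    rw [mul_comm]
    exact shadow_upper hK hc hu hτ.le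

/-! ## T11 : the limit for `KK` -/

theorem T11a_meas_blo : Measurable blo := by
  apply measurable_pi_lambda
  intro i
  exact (by fun_prop : Continuous fun x : E20 => x (lo i)).measurable

theorem T11a_meas_bhi : Measurable bhi := by
  apply measurable_pi_lambda
  intro i
  exact (by fun_prop : Continuous fun x : E20 => x (hi i)).measurable

theorem T11a_meas_prodSet {A B : Set R10} (hA : MeasurableSet A) (hB : MeasurableSet B) :
    MeasurableSet (prodSet A B) :=
  (T11a_meas_blo hA).inter (T11a_meas_bhi hB)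

theorem T11a_meas_A (v : R10) : MeasurableSet {z : R10 | z ∈ Sx 1 ∧ z - v ∈ Sx 1} :=
  (measurableSet_Sx 1).inter
    ((continuous_id.sub continuous_const : Continuous fun z : R10 => z - v).measurable
      (measurableSet_Sx 1))

theorem T11a_blo_sub (y u : E20) (τ : ℝ) : blo (y - τ • u) = blo y - τ • blo u := by
  funext i
  simp [blo]

theorem T11a_bhi_sub (y u : E20) (τ : ℝ) : bhi (y - τ • u) = bhi y - τ • bhi u := by
  funext i
  simp [bhi]

theorem volume_KK : volume KK = ENNReal.ofReal (1 / ((Nat.factorial 10 : ℝ)) ^ 2) := by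
  unfold KK
  rw [volume_prodSet (measurableSet_Sx 1) (measurableSet_Sx 1), volume_Sx 1 zero_le_one,
    ← ENNReal.ofReal_mul (by positivity)]
  congr 1
  rw [one_pow, sq]
  field_simp

theorem volume_KK_diff (u : E20) (τ : ℝ) (hτ : 0 ≤ τ) (h0 : τ * cc (blo u) ≤ 1)
    (h1 : τ * cc (bhi u) ≤ 1) :
    (volume {y | y ∈ KK ∧ y - τ • u ∉ KK}).toReal =
      (1 - (1 - τ * cc (blo u)) ^ 10 * (1 - τ * cc (bhi u)) ^ 10) / ((Nat.factorial 10 : ℝ)) ^ 2 := by
  have hset : {y | y ∈ KK ∧ y - τ • u ∉ KK} =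
      KK \ prodSet {z : R10 | z ∈ Sx 1 ∧ z - τ • blo u ∈ Sx 1}
        {z : R10 | z ∈ Sx 1 ∧ z - τ • bhi u ∈ Sx 1} := by
    ext y
    simp only [KK, prodSet, Set.mem_ofPred_eq, Set.mem_sdiff, T11a_blo_sub, T11a_bhi_sub]
    tauto
  have hsub : prodSet {z : R10 | z ∈ Sx 1 ∧ z - τ • blo u ∈ Sx 1}
        {z : R10 | z ∈ Sx 1 ∧ z - τ • bhi u ∈ Sx 1} ⊆ KK := by
    intro y hy
    exact ⟨hy.1.1, hy.2.1⟩
  have hvol : volume (prodSet {z : R10 | z ∈ Sx 1 ∧ z - τ • blo u ∈ Sx 1}
        {z : R10 | z ∈ Sx 1 ∧ z - τ • bhi u ∈ Sx 1}) =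
      ENNReal.ofReal ((1 - τ * cc (blo u)) ^ 10 * (1 - τ * cc (bhi u)) ^ 10 /
        ((Nat.factorial 10 : ℝ)) ^ 2) := by
    rw [volume_prodSet (T11a_meas_A _) (T11a_meas_A _),
      volume_inter_Sx _ (by rw [cc_smul τ hτ]; exact h0),
      volume_inter_Sx _ (by rw [cc_smul τ hτ]; exact h1), cc_smul τ hτ, cc_smul τ hτ,
      ← ENNReal.ofReal_mul (by
        have : 0 ≤ 1 - τ * cc (blo u) := by linarith
        positivity)]
    congr 1
    rw [sq]
    field_simp
  have hA0 : 0 ≤ 1 - τ * cc (blo u) := by linarith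
  have hA1 : 0 ≤ 1 - τ * cc (bhi u) := by linarith
  rw [hset, measure_sdiff hsub (T11a_meas_prodSet (T11a_meas_A _) (T11a_meas_A _)).nullMeasurableSet
    (by rw [hvol]; exact ENNReal.ofReal_ne_top), hvol, volume_KK,
    ENNReal.toReal_sub_of_le ?_ ENNReal.ofReal_ne_top, ENNReal.toReal_ofReal (by positivity),
    ENNReal.toReal_ofReal (by positivity)]
  · ring
  · apply ENNReal.ofReal_le_ofReal
    apply div_le_div_of_nonneg_right _ (by positivity)
    have hc0 : 0 ≤ τ * cc (blo u) := mul_nonneg hτ (cc_nonneg _)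
    have hc1 : 0 ≤ τ * cc (bhi u) := mul_nonneg hτ (cc_nonneg _)
    have e0 : (1 - τ * cc (blo u)) ^ 10 ≤ 1 := pow_le_one₀ hA0 (by linarith)
    have e1 : (1 - τ * cc (bhi u)) ^ 10 ≤ 1 := pow_le_one₀ hA1 (by linarith)
    calc (1 - τ * cc (blo u)) ^ 10 * (1 - τ * cc (bhi u)) ^ 10 ≤ 1 * 1 :=
          mul_le_mul e0 e1 (by positivity) (by norm_num)
      _ = 1 := by norm_num


theorem T11b_deriv (a b F : ℝ) :
    HasDerivAt (fun τ : ℝ => (1 - (1 - τ * a) ^ 10 * (1 - τ * b) ^ 10) / F) (10 * (a + b) / F) 0 := by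
  have h1 : HasDerivAt (fun τ : ℝ => 1 - τ * a) (-a) 0 := by
    simpa using ((hasDerivAt_id (0 : ℝ)).mul_const a).const_sub 1
  have h2 : HasDerivAt (fun τ : ℝ => 1 - τ * b) (-b) 0 := by
    simpa using ((hasDerivAt_id (0 : ℝ)).mul_const b).const_sub 1
  have h3 := ((h1.pow 10).mul (h2.pow 10)).const_sub 1
  have h4 := h3.div_const F
  have h5 : HasDerivAt (fun τ : ℝ => (1 - (1 - τ * a) ^ 10 * (1 - τ * b) ^ 10) / F)
      (-(((10 : ℕ) : ℝ) * (1 - 0 * a) ^ (10 - 1) * -a * (1 - 0 * b) ^ 10 +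
        (1 - 0 * a) ^ 10 * (((10 : ℕ) : ℝ) * (1 - 0 * b) ^ (10 - 1) * -b)) / F) 0 := h4
  refine h5.congr_deriv ?_
  norm_num
  ring

theorem KK_limit (u : E20) :
    Tendsto (fun τ : ℝ => (volume {y | y ∈ KK ∧ y - τ • u ∉ KK}).toReal / τ) (𝓝[>] 0)
      (𝓝 (aa * (cc (blo u) + cc (bhi u)))) := by
  have hd := (T11b_deriv (cc (blo u)) (cc (bhi u)) (((Nat.factorial 10 : ℝ)) ^ 2)).tendsto_slope_zero_right
  have haa : aa * (cc (blo u) + cc (bhi u)) =
      10 * (cc (blo u) + cc (bhi u)) / ((Nat.factorial 10 : ℝ)) ^ 2 := by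
    unfold aa; ring
  rw [haa]
  refine hd.congr' ?_
  have e1 : ∀ᶠ τ : ℝ in 𝓝[>] 0, τ * cc (blo u) ≤ 1 := by
    have : Tendsto (fun τ : ℝ => τ * cc (blo u)) (𝓝 0) (𝓝 (0 * cc (blo u))) :=
      (continuous_id.mul continuous_const).tendsto 0
    rw [zero_mul] at this
    exact (nhdsWithin_le_nhds (this.eventually (eventually_le_nhds (by norm_num : (0:ℝ) < 1))))
  have e2 : ∀ᶠ τ : ℝ in 𝓝[>] 0, τ * cc (bhi u) ≤ 1 := by
    have : Tendsto (fun τ : ℝ => τ * cc (bhi u)) (𝓝 0) (𝓝 (0 * cc (bhi u))) :=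
      (continuous_id.mul continuous_const).tendsto 0
    rw [zero_mul] at this
    exact (nhdsWithin_le_nhds (this.eventually (eventually_le_nhds (by norm_num : (0:ℝ) < 1))))
  filter_upwards [e1, e2, self_mem_nhdsWithin] with τ h1 h2 h3
  have h3' : (0 : ℝ) < τ := h3
  rw [volume_KK_diff u τ h3'.le h1 h2]
  simp only [zero_add, zero_mul, sub_zero, one_pow, mul_one, sub_self, zero_div, smul_eq_mul]
  ring

/-! ## T12 : the projection body by inequalities -/

theorem T12a_aa_nonneg : 0 ≤ aa := by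
  unfold aa; positivity

theorem T12a_blo_smul (t : ℝ) (w : E20) : blo (t • w) = t • blo w := by
  funext i
  simp [blo]

theorem T12a_bhi_smul (t : ℝ) (w : E20) : bhi (t • w) = t • bhi w := by
  funext i
  simp [bhi]

/-- homogeneous form of the defining inequalities -/
theorem T12a_hom {x : E20}
    (hx : x ∈ ⋂ u ∈ Metric.sphere (0 : E20) 1,
      {x : E20 | inner ℝ x u ≤ aa * (cc (blo u) + cc (bhi u))}) (w : E20) :
    inner ℝ x w ≤ aa * (cc (blo w) + cc (bhi w)) := by
  by_cases hw : w = 0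
  · subst hw
    rw [inner_zero_right]
    exact mul_nonneg T12a_aa_nonneg (add_nonneg (cc_nonneg _) (cc_nonneg _))
  · have hn : 0 < ‖w‖ := norm_pos_iff.mpr hw
    have hu : (‖w‖⁻¹ • w) ∈ Metric.sphere (0 : E20) 1 := by
      rw [mem_sphere_zero_iff_norm, norm_smul, norm_inv, norm_norm, inv_mul_cancel₀ hn.ne']
    have h : inner ℝ x (‖w‖⁻¹ • w) ≤
        aa * (cc (blo (‖w‖⁻¹ • w)) + cc (bhi (‖w‖⁻¹ • w))) := Set.mem_iInter₂.mp hx _ hu
    rw [inner_smul_right, T12a_blo_smul, T12a_bhi_smul,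
      cc_smul _ (inv_nonneg.mpr hn.le), cc_smul _ (inv_nonneg.mpr hn.le)] at h
    have h2 : ‖w‖ * (‖w‖⁻¹ * inner ℝ x w) ≤
        ‖w‖ * (aa * (‖w‖⁻¹ * cc (blo w) + ‖w‖⁻¹ * cc (bhi w))) :=
      mul_le_mul_of_nonneg_left h hn.le
    have e1 : ‖w‖ * (‖w‖⁻¹ * inner ℝ x w) = inner ℝ x w := by
      rw [← mul_assoc, mul_inv_cancel₀ hn.ne', one_mul]
    have e2 : ‖w‖ * (aa * (‖w‖⁻¹ * cc (blo w) + ‖w‖⁻¹ * cc (bhi w))) =
        aa * (cc (blo w) + cc (bhi w)) := by
      have : ‖w‖ * (aa * (‖w‖⁻¹ * cc (blo w) + ‖w‖⁻¹ * cc (bhi w))) =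
          (‖w‖ * ‖w‖⁻¹) * (aa * (cc (blo w) + cc (bhi w))) := by ring
      rw [this, mul_inv_cancel₀ hn.ne', one_mul]
    rw [e1, e2] at h2
    exact h2

theorem T12a_cc_zero : cc (0 : R10) = 0 := by
  simp [cc]

theorem T12a_sum_single (i : Fin 10) : ∑ k, (Pi.single i (1 : ℝ) : R10) k = 1 := by
  simp [Pi.single_apply]

theorem T12a_single_nonneg (i k : Fin 10) : 0 ≤ (Pi.single i (1 : ℝ) : R10) k := by
  by_cases h : k = i <;> simp [h]

/-- `cc (s e_i - t e_j) ≤ 1` for `s, t ∈ [0,1]` -/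
theorem T12a_cc_le (i j : Fin 10) (s t : ℝ) (hs0 : 0 ≤ s) (hs1 : s ≤ 1) (ht0 : 0 ≤ t) (ht1 : t ≤ 1) :
    cc (s • (Pi.single i (1 : ℝ) : R10) - t • (Pi.single j (1 : ℝ) : R10)) ≤ 1 := by
  unfold cc
  apply max_le
  · calc ∑ k, max ((s • (Pi.single i (1 : ℝ) : R10) - t • (Pi.single j (1 : ℝ) : R10)) k) 0
        ≤ ∑ k, (Pi.single i (1 : ℝ) : R10) k := by
          apply Finset.sum_le_sum
          intro k _
          have h1 := T12a_single_nonneg i k
          have h2 := T12a_single_nonneg j k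
          apply max_le _ h1
          simp only [Pi.sub_apply, Pi.smul_apply, smul_eq_mul]
          nlinarith [mul_nonneg ht0 h2, mul_nonneg (sub_nonneg.mpr hs1) h1]
      _ = 1 := T12a_sum_single i
  · calc ∑ k, max (-((s • (Pi.single i (1 : ℝ) : R10) - t • (Pi.single j (1 : ℝ) : R10)) k)) 0
        ≤ ∑ k, (Pi.single j (1 : ℝ) : R10) k := by
          apply Finset.sum_le_sum
          intro k _
          have h1 := T12a_single_nonneg i k
          have h2 := T12a_single_nonneg j k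
          apply max_le _ h2
          simp only [Pi.sub_apply, Pi.smul_apply, smul_eq_mul]
          nlinarith [mul_nonneg hs0 h1, mul_nonneg (sub_nonneg.mpr ht1) h2]
      _ = 1 := T12a_sum_single j

theorem T12a_lo_ne_hi (i j : Fin 10) : lo i ≠ hi j := by
  intro h
  have := congrArg Fin.val h
  simp [lo, hi] at this
  omega

theorem T12a_lo_inj {i j : Fin 10} : lo i = lo j ↔ i = j := by
  constructor
  · intro h
    have := congrArg Fin.val h
    simp [lo] at this
    exact Fin.ext this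
  · rintro rfl; rfl

theorem T12a_hi_inj {i j : Fin 10} : hi i = hi j ↔ i = j := by
  constructor
  · intro h
    have := congrArg Fin.val h
    simp [hi] at this
    exact Fin.ext this
  · rintro rfl; rfl

theorem T12a_blo_lo (i j : Fin 10) (s t : ℝ) :
    blo (s • EuclideanSpace.single (lo i) (1 : ℝ) - t • EuclideanSpace.single (lo j) (1 : ℝ)) =
      s • (Pi.single i (1 : ℝ) : R10) - t • (Pi.single j (1 : ℝ) : R10) := by
  funext k
  simp [blo, Pi.single_apply, T12a_lo_inj]

theorem T12a_bhi_lo (i j : Fin 10) (s t : ℝ) :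
    bhi (s • EuclideanSpace.single (lo i) (1 : ℝ) - t • EuclideanSpace.single (lo j) (1 : ℝ)) = 0 := by
  funext k
  simp [bhi, (T12a_lo_ne_hi _ k).symm]

theorem T12a_bhi_hi (i j : Fin 10) (s t : ℝ) :
    bhi (s • EuclideanSpace.single (hi i) (1 : ℝ) - t • EuclideanSpace.single (hi j) (1 : ℝ)) =
      s • (Pi.single i (1 : ℝ) : R10) - t • (Pi.single j (1 : ℝ) : R10) := by
  funext k
  simp [bhi, Pi.single_apply, T12a_hi_inj]

theorem T12a_blo_hi (i j : Fin 10) (s t : ℝ) :
    blo (s • EuclideanSpace.single (hi i) (1 : ℝ) - t • EuclideanSpace.single (hi j) (1 : ℝ)) = 0 := by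
  funext k
  simp [blo, T12a_lo_ne_hi k]

theorem T12a_inner (x : E20) (k l : Fin 20) (s t : ℝ) :
    inner ℝ x (s • EuclideanSpace.single k (1 : ℝ) - t • EuclideanSpace.single l (1 : ℝ)) =
      s * x k - t * x l := by
  rw [inner_sub_right, inner_smul_right, inner_smul_right, EuclideanSpace.inner_single_right,
    EuclideanSpace.inner_single_right]
  simp

theorem T12a_lo {x : E20}
    (hx : x ∈ ⋂ u ∈ Metric.sphere (0 : E20) 1,
      {x : E20 | inner ℝ x u ≤ aa * (cc (blo u) + cc (bhi u))})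
    (i j : Fin 10) (s t : ℝ) (hs0 : 0 ≤ s) (hs1 : s ≤ 1) (ht0 : 0 ≤ t) (ht1 : t ≤ 1) :
    s * x (lo i) - t * x (lo j) ≤ aa := by
  have h := T12a_hom hx
    (s • EuclideanSpace.single (lo i) (1 : ℝ) - t • EuclideanSpace.single (lo j) (1 : ℝ))
  rw [T12a_inner, T12a_blo_lo, T12a_bhi_lo, T12a_cc_zero, add_zero] at h
  calc s * x (lo i) - t * x (lo j) ≤ aa * _ := h
    _ ≤ aa * 1 := mul_le_mul_of_nonneg_left (T12a_cc_le i j s t hs0 hs1 ht0 ht1) T12a_aa_nonneg
    _ = aa := mul_one _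

theorem T12a_hi {x : E20}
    (hx : x ∈ ⋂ u ∈ Metric.sphere (0 : E20) 1,
      {x : E20 | inner ℝ x u ≤ aa * (cc (blo u) + cc (bhi u))})
    (i j : Fin 10) (s t : ℝ) (hs0 : 0 ≤ s) (hs1 : s ≤ 1) (ht0 : 0 ≤ t) (ht1 : t ≤ 1) :
    s * x (hi i) - t * x (hi j) ≤ aa := by
  have h := T12a_hom hx
    (s • EuclideanSpace.single (hi i) (1 : ℝ) - t • EuclideanSpace.single (hi j) (1 : ℝ))
  rw [T12a_inner, T12a_blo_hi, T12a_bhi_hi, T12a_cc_zero, zero_add] at h
  calc s * x (hi i) - t * x (hi j) ≤ aa * _ := h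
    _ ≤ aa * 1 := mul_le_mul_of_nonneg_left (T12a_cc_le i j s t hs0 hs1 ht0 ht1) T12a_aa_nonneg
    _ = aa := mul_one _

/-- T12a: first half of `PiK_eq` -/
theorem PiK_sub :
    (⋂ u ∈ Metric.sphere (0 : E20) 1, {x : E20 | inner ℝ x u ≤ aa * (cc (blo u) + cc (bhi u))}) ⊆
      prodSet (Dz aa) (Dz aa) := by
  intro x hx
  refine ⟨⟨fun i => ?_, fun i j => ?_⟩, ⟨fun i => ?_, fun i j => ?_⟩⟩
  · have h1 := T12a_lo hx i i 1 0 zero_le_one le_rfl le_rfl zero_le_one
    have h2 := T12a_lo hx i i 0 1 le_rfl zero_le_one zero_le_one le_rfl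
    rw [abs_le]
    simp only [blo]
    constructor <;> linarith
  · have h1 := T12a_lo hx i j 1 1 zero_le_one le_rfl zero_le_one le_rfl
    simp only [blo]
    linarith
  · have h1 := T12a_hi hx i i 1 0 zero_le_one le_rfl le_rfl zero_le_one
    have h2 := T12a_hi hx i i 0 1 le_rfl zero_le_one zero_le_one le_rfl
    rw [abs_le]
    simp only [bhi]
    constructor <;> linarith
  · have h1 := T12a_hi hx i j 1 1 zero_le_one le_rfl zero_le_one le_rfl
    simp only [bhi]
    linarith

theorem T12b_block (a : ℝ) (z v : R10) (hz : z ∈ Dz a) : ∑ i, z i * v i ≤ a * cc v := by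
  obtain ⟨iM, -, hM⟩ := Finset.exists_max_image Finset.univ z ⟨0, Finset.mem_univ _⟩
  obtain ⟨im, -, hm⟩ := Finset.exists_min_image Finset.univ z ⟨0, Finset.mem_univ _⟩
  have hp : 0 ≤ ∑ i, max (v i) 0 := Finset.sum_nonneg fun i _ => le_max_right _ _
  have hq : 0 ≤ ∑ i, max (-(v i)) 0 := Finset.sum_nonneg fun i _ => le_max_right _ _
  have h1 : ∑ i, z i * v i ≤ z iM * (∑ i, max (v i) 0) - z im * (∑ i, max (-(v i)) 0) := by
    rw [Finset.mul_sum, Finset.mul_sum, ← Finset.sum_sub_distrib]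
    apply Finset.sum_le_sum
    intro i _
    have e : max (v i) 0 - max (-(v i)) 0 = v i := by
      rcases le_total 0 (v i) with h | h
      · rw [max_eq_left h, max_eq_right (by linarith)]; ring
      · rw [max_eq_right h, max_eq_left (by linarith)]; ring
    have a1 := hM i (Finset.mem_univ _)
    have a2 := hm i (Finset.mem_univ _)
    have b1 : 0 ≤ max (v i) 0 := le_max_right _ _
    have b2 : 0 ≤ max (-(v i)) 0 := le_max_right _ _
    have c1 := mul_le_mul_of_nonneg_right a1 b1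
    have c2 := mul_le_mul_of_nonneg_right a2 b2
    calc z i * v i = z i * max (v i) 0 - z i * max (-(v i)) 0 := by rw [← mul_sub, e]
      _ ≤ z iM * max (v i) 0 - z im * max (-(v i)) 0 := by linarith
  have hMa : z iM ≤ a := (abs_le.1 (hz.1 iM)).2
  have hma : -a ≤ z im := (abs_le.1 (hz.1 im)).1
  have hd : z iM - z im ≤ a := hz.2 iM im
  have hcc1 : ∑ i, max (v i) 0 ≤ cc v := le_max_left _ _
  have hcc2 : ∑ i, max (-(v i)) 0 ≤ cc v := le_max_right _ _
  have ha : 0 ≤ a := le_trans (abs_nonneg _) (hz.1 0)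
  rcases le_total (∑ i, max (-(v i)) 0) (∑ i, max (v i) 0) with h | h
  · have c1 := mul_le_mul_of_nonneg_right hMa (sub_nonneg.2 h)
    have c2 := mul_le_mul_of_nonneg_right hd hq
    have c3 := mul_le_mul_of_nonneg_left hcc1 ha
    nlinarith
  · have c1 := mul_le_mul_of_nonneg_right hd hp
    have c2 := mul_le_mul_of_nonneg_right (neg_le.1 hma) (sub_nonneg.2 h)
    have c3 := mul_le_mul_of_nonneg_left hcc2 ha
    nlinarith

theorem T12b_inner (x u : E20) :
    inner ℝ x u = ∑ i, blo x i * blo u i + ∑ i, bhi x i * bhi u i := by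
  have h : inner ℝ x u = ∑ i : Fin (10 + 10), x i * u i := by
    rw [PiLp.inner_apply]
    apply Finset.sum_congr rfl
    intro i _
    simp [mul_comm]
  rw [h, Fin.sum_univ_add]
  rfl

theorem PiK_sup :
    prodSet (Dz aa) (Dz aa) ⊆
      (⋂ u ∈ Metric.sphere (0 : E20) 1, {x : E20 | inner ℝ x u ≤ aa * (cc (blo u) + cc (bhi u))}) := by
  intro x hx
  simp only [Set.mem_iInter]
  intro u _
  show inner ℝ x u ≤ aa * (cc (blo u) + cc (bhi u))
  rw [T12b_inner, mul_add]
  exact add_le_add (T12b_block aa _ _ hx.1) (T12b_block aa _ _ hx.2)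

theorem PiK_eq :
    (⋂ u ∈ Metric.sphere (0 : E20) 1, {x : E20 | inner ℝ x u ≤ aa * (cc (blo u) + cc (bhi u))}) =
      prodSet (Dz aa) (Dz aa) := by
  exact Set.Subset.antisymm PiK_sub PiK_sup

/-! ## Assembly -/

theorem aa_nonneg : 0 ≤ aa := by
  unfold aa; positivity

theorem shadow_KK {u : E20} (hu : ‖u‖ = 1) :
    ((μHE[19] : Measure E20) ((fun y => y - inner ℝ y u • u) '' KK)).toReal =
      aa * (cc (blo u) + cc (bhi u)) := by
  have h := shadow_eq KK_compact KK_convex KK_interior hu (KK_limit u)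
  have h' : (μHE[19] : Measure E20) ((fun y => y - inner ℝ y u • u) '' KK) =
      ENNReal.ofReal (aa * (cc (blo u) + cc (bhi u))) := h
  rw [h', ENNReal.toReal_ofReal]
  exact mul_nonneg aa_nonneg (add_nonneg (cc_nonneg _) (cc_nonneg _))

theorem PiKK_eq :
    (⋂ u ∈ Metric.sphere (0 : EuclideanSpace ℝ (Fin 20)) 1,
            {x : EuclideanSpace ℝ (Fin 20) | inner ℝ x u ≤
              ((μHE[19] : Measure (EuclideanSpace ℝ (Fin 20)))
                ((fun y => y - inner ℝ y u • u) '' KK)).toReal}) = prodSet (Dz aa) (Dz aa) := by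
  rw [← PiK_eq]
  refine Set.iInter₂_congr fun u hu => ?_
  have hu' : ‖u‖ = 1 := by simpa using hu
  rw [shadow_KK hu']

theorem volume_PiKK :
    (volume (prodSet (Dz aa) (Dz aa))).toReal = (11 * aa ^ 10) ^ 2 := by
  rw [volume_prodSet (measurableSet_Dz _) (measurableSet_Dz _), volume_Dz aa aa_nonneg,
    ENNReal.toReal_mul, ENNReal.toReal_ofReal (by have := aa_nonneg; positivity)]
  ring

theorem volume_KK_toReal : (volume KK).toReal = 1 / ((Nat.factorial 10 : ℝ)) ^ 2 := by
  rw [volume_KK, ENNReal.toReal_ofReal (by positivity)]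

/-- There is a convex body K in ℝ^20 (compact, convex, with nonempty interior) whose projection body ΠK — the points x with ⟪x, u⟫ ≤ vol₁₉(P_u K) for every unit u, P_u the orthogonal projection on u^⊥ and vol₁₉ the Lebesgue-normalised 19-dimensional Hausdorff measure — has vol(ΠK)/vol(K)^19 exactly equal to c · 22355476/22020096, where c = 21·20^20/20!; in particular vol(ΠK) > c · vol(K)^19. -/
theorem result :
    ∃ K : Set (EuclideanSpace ℝ (Fin 20)), IsCompact K ∧ Convex ℝ K ∧ (interior K).Nonempty ∧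
      (volume (⋂ u ∈ Metric.sphere (0 : EuclideanSpace ℝ (Fin 20)) 1,
            {x : EuclideanSpace ℝ (Fin 20) | inner ℝ x u ≤
              ((μHE[19] : Measure (EuclideanSpace ℝ (Fin 20))) ((fun y => y - inner ℝ y u • u) '' K)).toReal})).toReal /
          (volume K).toReal ^ 19 =
        (21 * 20 ^ 20 / Nat.factorial 20 : ℝ) * (22355476 / 22020096) ∧
      (21 * 20 ^ 20 / Nat.factorial 20 : ℝ) * (volume K).toReal ^ 19 <
        (volume (⋂ u ∈ Metric.sphere (0 : EuclideanSpace ℝ (Fin 20)) 1,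
            {x : EuclideanSpace ℝ (Fin 20) | inner ℝ x u ≤
              ((μHE[19] : Measure (EuclideanSpace ℝ (Fin 20))) ((fun y => y - inner ℝ y u • u) '' K)).toReal})).toReal := by
  refine ⟨KK, KK_compact, KK_convex, KK_interior, ?_, ?_⟩
  · rw [PiKK_eq, volume_PiKK, volume_KK_toReal]
    unfold aa
    norm_num [Nat.factorial]
  · rw [PiKK_eq, volume_PiKK, volume_KK_toReal]
    unfold aa
    norm_num [Nat.factorial]

end Crest.Agent.S0355
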