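import Crest.Statements.S0356

set_option autoImplicit false
open MeasureTheory
open scoped ENNReal
open Crest Crest.GeometryTopology Crest.GeometryTopology.Convex

namespace Crest.Agent.S0356

/-! ## Section 0 : shadows by Fubini (helper98's Shadow.lean, PROVED, do not touch) -/

section Shadow

variable {n : ℕ}

/-- Fubini along the unit direction `u`. -/
theorem fubini_line (u : EuclideanSpace ℝ (Fin (n+1))) (hu : ‖u‖ = 1)
    (t : Set (EuclideanSpace ℝ (Fin (n+1)))) (ht : MeasurableSet t) :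
    volume t = ∫⁻ y : ((ℝ ∙ u)ᗮ : Submodule ℝ (EuclideanSpace ℝ (Fin (n+1)))),
      volume {r : ℝ | (y : EuclideanSpace ℝ (Fin (n+1))) + r • u ∈ t} := by
  classical
  set s : Submodule ℝ (EuclideanSpace ℝ (Fin (n+1))) := ℝ ∙ u with hs
  have hmp := s.measurePreserving_measurableEquivProd (0 : EuclideanSpace ℝ (Fin (n+1)))
  rw [InnerProductSpace.euclideanHausdorffMeasure_eq_volume] at hmp
  have h1 : volume t = volume ((s.measurableEquivProd (0 : EuclideanSpace ℝ (Fin (n+1)))).symm ⁻¹' t) :=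
    (hmp.symm.measure_preimage_equiv t).symm
  rw [h1, Measure.volume_eq_prod, Measure.prod_apply_symm
    ((s.measurableEquivProd (0 : EuclideanSpace ℝ (Fin (n+1)))).symm.measurable ht)]
  apply lintegral_congr
  intro y
  have hiso := (LinearIsometryEquiv.toSpanUnitSingleton u hu).measurePreserving
  have hme : MeasurableSet ((fun x : s => (x, y)) ⁻¹'
      ((s.measurableEquivProd (0 : EuclideanSpace ℝ (Fin (n+1)))).symm ⁻¹' t)) := by
    apply measurable_prodMk_right
    exact (s.measurableEquivProd (0 : EuclideanSpace ℝ (Fin (n+1)))).symm.measurable ht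
  rw [← hiso.measure_preimage hme.nullMeasurableSet]
  congr 1
  ext r
  simp only [Set.mem_preimage, Set.mem_ofPred_eq, Submodule.measurableEquivProd_symm_apply,
    LinearIsometryEquiv.toSpanUnitSingleton_apply, vadd_eq_add, add_zero]
  rw [add_comm (r • u) (y : EuclideanSpace ℝ (Fin (n+1)))]

/-- the shadow as a subset of the hyperplane -/
def shadow (u : EuclideanSpace ℝ (Fin (n+1))) (K : Set (EuclideanSpace ℝ (Fin (n+1)))) :
    Set ((ℝ ∙ u)ᗮ : Submodule ℝ (EuclideanSpace ℝ (Fin (n+1)))) :=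
  {y | ∃ r : ℝ, (y : EuclideanSpace ℝ (Fin (n+1))) + r • u ∈ K}

theorem image_shadow (u : EuclideanSpace ℝ (Fin (n+1))) (hu : ‖u‖ = 1)
    (K : Set (EuclideanSpace ℝ (Fin (n+1)))) :
    (fun y => y - inner ℝ y u • u) '' K = Subtype.val '' (shadow u K) := by
  have huu : inner ℝ u u = (1 : ℝ) := by
    rw [real_inner_self_eq_norm_sq, hu]; norm_num
  ext z
  constructor
  · rintro ⟨x, hx, rfl⟩
    have hmem : x - inner ℝ x u • u ∈ ((ℝ ∙ u)ᗮ : Submodule ℝ (EuclideanSpace ℝ (Fin (n+1)))) := by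
      rw [Submodule.mem_orthogonal_singleton_iff_inner_left]
      rw [inner_sub_left, inner_smul_left, huu]
      simp
    refine ⟨⟨_, hmem⟩, ⟨inner ℝ x u, ?_⟩, rfl⟩
    simpa using hx
  · rintro ⟨y, ⟨r, hr⟩, rfl⟩
    refine ⟨_, hr, ?_⟩
    have hy : inner ℝ (y : EuclideanSpace ℝ (Fin (n+1))) u = (0 : ℝ) :=
      (Submodule.mem_orthogonal_singleton_iff_inner_left).1 y.2
    simp only [inner_add_left, hy, inner_smul_left, huu]
    simp

theorem measure_shadow (u : EuclideanSpace ℝ (Fin (n+1))) (hu : ‖u‖ = 1)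
    (K : Set (EuclideanSpace ℝ (Fin (n+1)))) :
    (μHE[n] : Measure (EuclideanSpace ℝ (Fin (n+1)))) ((fun y => y - inner ℝ y u • u) '' K)
      = volume (shadow u K) := by
  have hu0 : u ≠ 0 := by
    intro h; rw [h] at hu; simp at hu
  have : Fact (Module.finrank ℝ (EuclideanSpace ℝ (Fin (n+1))) = n + 1) := ⟨by simp⟩
  have hfr : Module.finrank ℝ ((ℝ ∙ u)ᗮ : Submodule ℝ (EuclideanSpace ℝ (Fin (n+1)))) = n :=
    Submodule.finrank_orthogonal_span_singleton hu0
  rw [image_shadow u hu K, isometry_subtype_coe.euclideanHausdorffMeasure_image]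
  have := InnerProductSpace.euclideanHausdorffMeasure_eq_volume
    (V := ((ℝ ∙ u)ᗮ : Submodule ℝ (EuclideanSpace ℝ (Fin (n+1)))))
  rw [hfr] at this
  rw [this]

theorem measurableSet_shadow (u : EuclideanSpace ℝ (Fin (n+1))) (hu : ‖u‖ = 1)
    (K : Set (EuclideanSpace ℝ (Fin (n+1)))) (hK : IsCompact K) :
    MeasurableSet (shadow u K) := by
  have h1 : shadow u K = Subtype.val ⁻¹' ((fun y => y - inner ℝ y u • u) '' K) := by
    rw [image_shadow u hu K, Set.preimage_image_eq _ Subtype.val_injective]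
  rw [h1]
  apply measurable_subtype_coe
  apply IsClosed.measurableSet
  apply IsCompact.isClosed
  apply hK.image
  fun_prop

theorem isometry_line (u : EuclideanSpace ℝ (Fin (n+1))) (hu : ‖u‖ = 1)
    (y : EuclideanSpace ℝ (Fin (n+1))) : Isometry (fun r : ℝ => y + r • u) := by
  apply Isometry.of_dist_eq
  intro a b
  rw [dist_add_left, dist_eq_norm, ← sub_smul, norm_smul, hu, mul_one, Real.dist_eq, Real.norm_eq_abs]

/-- lower bound for the shadow (`K` convex) -/
theorem F1 (u : EuclideanSpace ℝ (Fin (n+1))) (hu : ‖u‖ = 1)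
    (K : Set (EuclideanSpace ℝ (Fin (n+1)))) (hK : IsCompact K) (hc : Convex ℝ K)
    (ε : ℝ) (hε : 0 ≤ ε) :
    volume K ≤ volume (K ∩ ((fun x => ε • u + x) '' K)) +
      ENNReal.ofReal ε *
        (μHE[n] : Measure (EuclideanSpace ℝ (Fin (n+1)))) ((fun y => y - inner ℝ y u • u) '' K) := by
  rw [measure_shadow u hu K]
  have hS : MeasurableSet ((fun x => ε • u + x) '' K) :=
    (hK.image (by fun_prop)).isClosed.measurableSet
  rw [← measure_inter_add_sdiff K hS]
  gcongr
  rw [fubini_line u hu _ (hK.isClosed.measurableSet.diff hS)]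
  calc ∫⁻ y : ((ℝ ∙ u)ᗮ : Submodule ℝ (EuclideanSpace ℝ (Fin (n+1)))),
        volume {r : ℝ | (y : EuclideanSpace ℝ (Fin (n+1))) + r • u ∈ K \ ((fun x => ε • u + x) '' K)}
      ≤ ∫⁻ y : ((ℝ ∙ u)ᗮ : Submodule ℝ (EuclideanSpace ℝ (Fin (n+1)))),
        (shadow u K).indicator (fun _ => ENNReal.ofReal ε) y := by
        apply lintegral_mono
        intro y
        by_cases hy : y ∈ shadow u K
        · rw [Set.indicator_of_mem hy]
          refine (Real.volume_le_diam _).trans ?_
          apply Metric.ediam_le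
          -- any two points are at distance ≤ ε
          have key : ∀ a ∈ {r : ℝ | (y : EuclideanSpace ℝ (Fin (n+1))) + r • u ∈
              K \ ((fun x => ε • u + x) '' K)}, ∀ b ∈ {r : ℝ | (y : EuclideanSpace ℝ (Fin (n+1))) + r • u ∈
              K \ ((fun x => ε • u + x) '' K)}, a ≤ b → b - a ≤ ε := by
            intro a ha b hb hab
            by_contra hlt
            rw [not_le] at hlt
            apply hb.2
            refine ⟨(y : EuclideanSpace ℝ (Fin (n+1))) + (b - ε) • u, ?_, ?_⟩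
            · -- convexity
              have hseg : (y : EuclideanSpace ℝ (Fin (n+1))) + (b - ε) • u ∈
                  segment ℝ ((y : EuclideanSpace ℝ (Fin (n+1))) + a • u)
                    ((y : EuclideanSpace ℝ (Fin (n+1))) + b • u) := by
                have hba : 0 < b - a := by linarith
                refine ⟨ε / (b - a), 1 - ε / (b - a), by positivity, ?_, by ring, ?_⟩
                · rw [sub_nonneg, div_le_one hba]; linarith
                · have h1 : (ε / (b - a)) * a + (1 - ε / (b - a)) * b = b - ε := by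
                    field_simp
                    ring
                  rw [smul_add, smul_add, smul_smul, smul_smul]
                  rw [← h1, add_smul]
                  have h2 : (ε / (b - a)) • (y : EuclideanSpace ℝ (Fin (n+1))) +
                      (1 - ε / (b - a)) • (y : EuclideanSpace ℝ (Fin (n+1))) = y := by
                    rw [← add_smul]; simp
                  calc _ = ((ε / (b - a)) • (y : EuclideanSpace ℝ (Fin (n+1))) +
                      (1 - ε / (b - a)) • (y : EuclideanSpace ℝ (Fin (n+1)))) +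
                      ((ε / (b - a) * a) • u + ((1 - ε / (b - a)) * b) • u) := by abel
                    _ = _ := by rw [h2]
              exact hc.segment_subset ha.1 hb.1 hseg
            · simp only [sub_smul]
              abel
          intro a ha b hb
          rw [edist_dist, Real.dist_eq]
          apply ENNReal.ofReal_le_ofReal
          rcases le_total a b with hab | hab
          · rw [abs_sub_comm, abs_of_nonneg (by linarith)]
            exact key a ha b hb hab
          · rw [abs_of_nonneg (by linarith)]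
            exact key b hb a ha hab
        · rw [Set.indicator_of_notMem hy]
          have : {r : ℝ | (y : EuclideanSpace ℝ (Fin (n+1))) + r • u ∈
              K \ ((fun x => ε • u + x) '' K)} = ∅ := by
            ext r
            simp only [Set.mem_ofPred_eq, Set.mem_empty_iff_false, iff_false]
            intro hr
            exact hy ⟨r, hr.1⟩
          beta_reduce
          rw [this]
          simp
    _ = ENNReal.ofReal ε * volume (shadow u K) := by
        rw [lintegral_indicator_const (measurableSet_shadow u hu K hK)]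

/-- upper bound for the shadow (`K` compact only) -/
theorem F2 (u : EuclideanSpace ℝ (Fin (n+1))) (hu : ‖u‖ = 1)
    (K : Set (EuclideanSpace ℝ (Fin (n+1)))) (hK : IsCompact K)
    (ε : ℝ) (hε : 0 ≤ ε) (T : Set (EuclideanSpace ℝ (Fin (n+1)))) (hT : MeasurableSet T)
    (hKT : ∀ x ∈ K, ∀ r : ℝ, 0 ≤ r → r ≤ ε → x + r • u ∈ T) :
    volume K + ENNReal.ofReal ε *
        (μHE[n] : Measure (EuclideanSpace ℝ (Fin (n+1)))) ((fun y => y - inner ℝ y u • u) '' K)
      ≤ volume T := by
  rw [measure_shadow u hu K, fubini_line u hu T hT, fubini_line u hu K hK.isClosed.measurableSet,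
    ← lintegral_indicator_const (measurableSet_shadow u hu K hK),
    ← lintegral_add_right _ (measurable_const.indicator (measurableSet_shadow u hu K hK))]
  apply lintegral_mono
  intro y
  beta_reduce
  by_cases hy : y ∈ shadow u K
  · rw [Set.indicator_of_mem hy]
    set F : Set ℝ := {r : ℝ | (y : EuclideanSpace ℝ (Fin (n+1))) + r • u ∈ K} with hF
    have hFc : IsCompact F :=
      (isometry_line u hu (y : EuclideanSpace ℝ (Fin (n+1)))).isClosedEmbedding.isCompact_preimage hK
    have hFne : F.Nonempty := hy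
    have htop : sSup F ∈ F := hFc.sSup_mem hFne
    have hle : ∀ r ∈ F, r ≤ sSup F := fun r hr => le_csSup hFc.bddAbove hr
    have hdisj : Disjoint F (Set.Ioc (sSup F) (sSup F + ε)) := by
      rw [Set.disjoint_left]
      intro r hr hr2
      exact absurd (hle r hr) (not_le.2 hr2.1)
    have hsub : F ∪ Set.Ioc (sSup F) (sSup F + ε) ⊆
        {r : ℝ | (y : EuclideanSpace ℝ (Fin (n+1))) + r • u ∈ T} := by
      rintro r (hr | hr)
      · have := hKT _ hr 0 le_rfl hε
        simpa using this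
      · have := hKT _ htop (r - sSup F) (by linarith [hr.1]) (by linarith [hr.2])
        rw [add_assoc, ← add_smul] at this
        simpa using this
    calc volume F + ENNReal.ofReal ε
        = volume F + volume (Set.Ioc (sSup F) (sSup F + ε)) := by
          rw [Real.volume_Ioc]; congr 2; ring
      _ = volume (F ∪ Set.Ioc (sSup F) (sSup F + ε)) :=
          (measure_union hdisj measurableSet_Ioc).symm
      _ ≤ _ := measure_mono hsub
  · rw [Set.indicator_of_notMem hy, add_zero]
    apply measure_mono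
    intro r hr
    have := hKT _ hr 0 le_rfl hε
    simpa using this


end Shadow

/-! ## Section 1 : volumes in `ι → ℝ` (blocks given by `β : ι → B`) -/

section Blocks

variable {ι B : Type} [Fintype ι] [DecidableEq ι] [Fintype B] [DecidableEq B]

/-- the block `b` -/
def blk (β : ι → B) (b : B) : Finset ι := Finset.univ.filter fun i => β i = b

/-- size of the block `b` -/
def kk (β : ι → B) (b : B) : ℕ := (blk β b).card

/-- product of (translated, scaled) corner simplices -/
def TT (β : ι → B) (a : ι → ℝ) (r : B → ℝ) : Set (ι → ℝ) :=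
  {x | (∀ i, a i ≤ x i) ∧ ∀ b, ∑ i ∈ blk β b, x i ≤ r b}

/-- product of the zonotopes `{|x_i| ≤ a, x_i - x_j ≤ a}` -/
def ZZ (β : ι → B) (a : B → ℝ) : Set (ι → ℝ) :=
  {x | (∀ i, |x i| ≤ a (β i)) ∧ ∀ i j, β i = β j → x i - x j ≤ a (β i)}

-- CHUNK C01
/-- general corner simplex -/
def C01_S (n : ℕ) (r : ℝ) : Set (Fin n → ℝ) := {z | (∀ i, 0 ≤ z i) ∧ ∑ i, z i ≤ r}

theorem C01_meas (n : ℕ) (r : ℝ) : MeasurableSet (C01_S n r) := by
  unfold C01_S
  simp only [Set.ofPred_and, Set.ofPred_forall]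
  refine (MeasurableSet.iInter fun i => measurableSet_le measurable_const (by fun_prop)).inter
    (measurableSet_le (by fun_prop) measurable_const)

theorem C01_empty (n : ℕ) (r : ℝ) (hr : r < 0) : C01_S n r = ∅ := by
  ext z
  simp only [C01_S, Set.mem_ofPred_eq, Set.mem_empty_iff_false, iff_false, not_and, not_le]
  intro h
  exact lt_of_lt_of_le hr (Finset.sum_nonneg fun i _ => h i)

theorem C01_integral (n : ℕ) (r : ℝ) (hr : 0 ≤ r) :
    ∫⁻ s in Set.Icc 0 r, ENNReal.ofReal ((r - s) ^ n / (n.factorial : ℝ)) =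
      ENNReal.ofReal (r ^ (n + 1) / ((n + 1).factorial : ℝ)) := by
  rw [← ofReal_integral_eq_lintegral_ofReal]
  · congr 1
    rw [integral_Icc_eq_integral_Ioc, ← intervalIntegral.integral_of_le hr,
      intervalIntegral.integral_div]
    have h1 : ∫ s in (0 : ℝ)..r, (r - s) ^ n = r ^ (n + 1) / (n + 1) := by
      rw [intervalIntegral.integral_comp_sub_left (fun x => x ^ n) r]
      simp [integral_pow]
    rw [h1, Nat.factorial_succ]
    push_cast
    have h2 : (n.factorial : ℝ) ≠ 0 := by positivity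
    have h3 : (n : ℝ) + 1 ≠ 0 := by positivity
    field_simp
  · exact Continuous.integrableOn_Icc (by fun_prop)
  · filter_upwards [ae_restrict_mem measurableSet_Icc] with s hs
    have : 0 ≤ r - s := by linarith [hs.2]
    positivity

theorem C01_vol : ∀ (n : ℕ) (r : ℝ), 0 ≤ r →
    volume (C01_S n r) = ENNReal.ofReal (r ^ n / (n.factorial : ℝ)) := by
  intro n
  induction n with
  | zero =>
    intro r hr
    have : C01_S 0 r = Set.univ := by
      ext z; simp [C01_S, hr]
    rw [this, volume_pi, Measure.pi_univ]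
    simp
  | succ n ih =>
    intro r hr
    set B : Set (ℝ × (Fin n → ℝ)) :=
      {p | 0 ≤ p.1 ∧ (∀ i, 0 ≤ p.2 i) ∧ p.1 + ∑ i, p.2 i ≤ r} with hB
    have hBm : MeasurableSet B := by
      rw [hB]
      simp only [Set.ofPred_and, Set.ofPred_forall]
      refine (measurableSet_le measurable_const measurable_fst).inter
        ((MeasurableSet.iInter fun i => measurableSet_le measurable_const (by fun_prop)).inter
          (measurableSet_le (by fun_prop) measurable_const))
    have hpre : C01_S (n + 1) r = (MeasurableEquiv.piFinSuccAbove (fun _ => ℝ) 0) ⁻¹' B := by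
      ext z
      simp only [C01_S, hB, Set.mem_ofPred_eq, Set.mem_preimage, MeasurableEquiv.piFinSuccAbove,
        MeasurableEquiv.coe_mk, Fin.insertNthEquiv, Equiv.coe_fn_symm_mk, Fin.forall_fin_succ,
        Fin.sum_univ_succ, Fin.removeNth, Fin.succAbove_zero, and_assoc]
    rw [hpre, (volume_preserving_piFinSuccAbove (fun _ => ℝ) 0).measure_preimage_equiv,
      Measure.volume_eq_prod, Measure.prod_apply hBm]
    have hslice : ∀ s : ℝ, volume (Prod.mk s ⁻¹' B) =
        (Set.Icc 0 r).indicator (fun s => ENNReal.ofReal ((r - s) ^ n / (n.factorial : ℝ))) s := by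
      intro s
      by_cases hs : s ∈ Set.Icc 0 r
      · rw [Set.indicator_of_mem hs, ← ih (r - s) (by linarith [hs.2])]
        congr 1
        ext z
        simp only [hB, C01_S, Set.mem_preimage, Set.mem_ofPred_eq]
        constructor
        · rintro ⟨-, h1, h2⟩; exact ⟨h1, by linarith⟩
        · rintro ⟨h1, h2⟩; exact ⟨hs.1, h1, by linarith⟩
      · rw [Set.indicator_of_notMem hs]
        have : Prod.mk s ⁻¹' B = ∅ := by
          ext z
          simp only [hB, Set.mem_preimage, Set.mem_ofPred_eq, Set.mem_empty_iff_false, iff_false]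
          rintro ⟨h0, h1, h2⟩
          apply hs
          refine ⟨h0, ?_⟩
          have := Finset.sum_nonneg (s := Finset.univ) fun i _ => h1 i
          linarith
        rw [this, measure_empty]
    simp only [hslice]
    rw [lintegral_indicator measurableSet_Icc]
    exact C01_integral n r hr

theorem vol_simplex_fin (n : ℕ) (c : ℝ) (hc : 0 ≤ c) :
    volume {x : Fin n → ℝ | (∀ i, 0 ≤ x i) ∧ ∑ i, x i ≤ c}
      = ENNReal.ofReal (c ^ n / n.factorial) := C01_vol n c hc

-- CHUNK C02a
-- CHUNK C02a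
theorem vol_piece (n : ℕ) (j : Fin (n + 1)) (t : ℝ) (ht : 0 ≤ t) :
    volume {x : Fin (n + 1) → ℝ | x j ∈ Set.Icc (-t) 0 ∧
        ∀ i, i ≠ j → x i ∈ Set.Icc (x j) (x j + t)} = ENNReal.ofReal (t ^ (n + 1)) := by
  classical
  set S' : Set (ℝ × (Fin n → ℝ)) :=
    {p | p.1 ∈ Set.Icc (-t) 0 ∧ ∀ i, p.2 i ∈ Set.Icc p.1 (p.1 + t)} with hS'
  have hclosed : IsClosed S' := by
    have h1 : S' = {p : ℝ × (Fin n → ℝ) | -t ≤ p.1} ∩ {p : ℝ × (Fin n → ℝ) | p.1 ≤ 0} ∩
        ⋂ i : Fin n, ({p : ℝ × (Fin n → ℝ) | p.1 ≤ p.2 i} ∩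
          {p : ℝ × (Fin n → ℝ) | p.2 i ≤ p.1 + t}) := by
      ext p
      simp only [hS', Set.mem_ofPred_eq, Set.mem_Icc, Set.mem_inter_iff, Set.mem_iInter]
    rw [h1]
    refine IsClosed.inter (IsClosed.inter ?_ ?_) (isClosed_iInter fun i => IsClosed.inter ?_ ?_)
    · exact isClosed_le continuous_const continuous_fst
    · exact isClosed_le continuous_fst continuous_const
    · exact isClosed_le continuous_fst ((continuous_apply i).comp continuous_snd)
    · exact isClosed_le ((continuous_apply i).comp continuous_snd)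
        (continuous_fst.add continuous_const)
  have hmeas : MeasurableSet S' := hclosed.measurableSet
  have hpre : {x : Fin (n + 1) → ℝ | x j ∈ Set.Icc (-t) 0 ∧
        ∀ i, i ≠ j → x i ∈ Set.Icc (x j) (x j + t)}
      = (MeasurableEquiv.piFinSuccAbove (fun _ => ℝ) j) ⁻¹' S' := by
    ext x
    simp only [hS', Set.mem_ofPred_eq, Set.mem_preimage, MeasurableEquiv.piFinSuccAbove_apply]
    constructor
    · rintro ⟨h1, h2⟩
      refine ⟨h1, fun i => ?_⟩
      exact h2 (j.succAbove i) (Fin.succAbove_ne j i)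
    · rintro ⟨h1, h2⟩
      refine ⟨h1, fun i hi => ?_⟩
      obtain ⟨k, rfl⟩ := Fin.exists_succAbove_eq hi
      exact h2 k
  rw [hpre, (volume_preserving_piFinSuccAbove (fun _ => ℝ) j).measure_preimage
    hmeas.nullMeasurableSet, Measure.volume_eq_prod, Measure.prod_apply hmeas]
  have hsec : ∀ s : ℝ, volume (Prod.mk s ⁻¹' S')
      = (Set.Icc (-t) 0).indicator (fun _ => ENNReal.ofReal (t ^ n)) s := by
    intro s
    by_cases hs : s ∈ Set.Icc (-t) 0
    · rw [Set.indicator_of_mem hs]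
      have : Prod.mk s ⁻¹' S' = Set.pi Set.univ (fun _ : Fin n => Set.Icc s (s + t)) := by
        ext y
        simp only [hS', Set.mem_preimage, Set.mem_ofPred_eq, Set.mem_pi, Set.mem_univ,
          forall_true_left]
        exact ⟨fun h => h.2, fun h => ⟨hs, h⟩⟩
      rw [this, volume_pi_pi]
      simp only [Real.volume_Icc, add_sub_cancel_left, Finset.prod_const, Finset.card_univ,
        Fintype.card_fin]
      rw [ENNReal.ofReal_pow ht]
    · rw [Set.indicator_of_notMem hs]
      have : Prod.mk s ⁻¹' S' = ∅ := by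
        ext y
        simp only [hS', Set.mem_preimage, Set.mem_ofPred_eq, Set.mem_empty_iff_false, iff_false]
        exact fun h => hs h.1
      rw [this, measure_empty]
  simp_rw [hsec]
  rw [lintegral_indicator_const measurableSet_Icc, Real.volume_Icc, pow_succ,
    ENNReal.ofReal_mul (pow_nonneg ht n)]
  congr 2
  ring

-- CHUNK C02b
theorem vol_null_eq (n : ℕ) (i j : Fin n) (hij : i ≠ j) :
    volume {x : Fin n → ℝ | x i = x j} = 0 := by
  set L : (Fin n → ℝ) →ₗ[ℝ] ℝ :=
    (LinearMap.proj i : (Fin n → ℝ) →ₗ[ℝ] ℝ) - (LinearMap.proj j : (Fin n → ℝ) →ₗ[ℝ] ℝ) with hL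
  have hset : {x : Fin n → ℝ | x i = x j} = (LinearMap.ker L : Set (Fin n → ℝ)) := by
    ext x
    simp [hL, sub_eq_zero]
  rw [hset]
  apply Measure.addHaar_submodule
  intro htop
  have hmem : (Pi.single i (1:ℝ) : Fin n → ℝ) ∈ LinearMap.ker L := by rw [htop]; trivial
  simp [hL, hij.symm] at hmem

theorem vol_null_zero (n : ℕ) (i : Fin n) :
    volume {x : Fin n → ℝ | x i = 0} = 0 := by
  set L : (Fin n → ℝ) →ₗ[ℝ] ℝ := (LinearMap.proj i : (Fin n → ℝ) →ₗ[ℝ] ℝ) with hL
  have hset : {x : Fin n → ℝ | x i = 0} = (LinearMap.ker L : Set (Fin n → ℝ)) := by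
    ext x
    simp [hL]
  rw [hset]
  apply Measure.addHaar_submodule
  intro htop
  have hmem : (Pi.single i (1:ℝ) : Fin n → ℝ) ∈ LinearMap.ker L := by rw [htop]; trivial
  simp [hL] at hmem

-- CHUNK C02c
/-- the zonotope by inequalities, general dimension -/
def C02c_Dz (n : ℕ) (a : ℝ) : Set (Fin n → ℝ) := {z | (∀ i, |z i| ≤ a) ∧ ∀ i j, z i - z j ≤ a}

theorem C02c_meas_Dz (n : ℕ) (a : ℝ) : MeasurableSet (C02c_Dz n a) := by
  have h1 : C02c_Dz n a = (⋂ i, {z : Fin n → ℝ | |z i| ≤ a}) ∩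
      ⋂ i, ⋂ j, {z : Fin n → ℝ | z i - z j ≤ a} := by
    ext z
    simp only [C02c_Dz, Set.mem_ofPred_eq, Set.mem_inter_iff, Set.mem_iInter]
  rw [h1]
  refine MeasurableSet.inter (MeasurableSet.iInter fun i => ?_)
    (MeasurableSet.iInter fun i => MeasurableSet.iInter fun j => ?_)
  · exact measurableSet_le ((continuous_abs.comp (continuous_apply i)).measurable) measurable_const
  · exact measurableSet_le ((measurable_pi_apply i).sub (measurable_pi_apply j)) measurable_const

theorem C02c_int (k : ℕ) (a : ℝ) (ha : 0 ≤ a) :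
    ∫ s in (-a)..a, (min (s + a) a - s) ^ k = a ^ (k + 1) + a ^ (k + 1) / (k + 1) := by
  have hcont : Continuous fun s : ℝ => (min (s + a) a - s) ^ k := by fun_prop
  rw [← intervalIntegral.integral_add_adjacent_intervals (b := 0)
    (hcont.intervalIntegrable _ _) (hcont.intervalIntegrable _ _)]
  have h1 : ∫ s in (-a)..0, (min (s + a) a - s) ^ k = a ^ (k + 1) := by
    have : ∫ s in (-a)..0, (min (s + a) a - s) ^ k = ∫ _s in (-a)..0, a ^ k := by
      refine intervalIntegral.integral_congr fun s hs => ?_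
      rw [Set.uIcc_of_le (by linarith)] at hs
      have : min (s + a) a = s + a := min_eq_left (by linarith [hs.2])
      simp only [this]
      ring
    rw [this, intervalIntegral.integral_const, smul_eq_mul]
    ring
  have h2 : ∫ s in (0 : ℝ)..a, (min (s + a) a - s) ^ k = a ^ (k + 1) / (k + 1) := by
    have : ∫ s in (0 : ℝ)..a, (min (s + a) a - s) ^ k = ∫ s in (0 : ℝ)..a, (a - s) ^ k := by
      refine intervalIntegral.integral_congr fun s hs => ?_
      rw [Set.uIcc_of_le ha] at hs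
      have : min (s + a) a = a := min_eq_right (by linarith [hs.1])
      simp only [this]
    rw [this, intervalIntegral.integral_comp_sub_left (fun x => x ^ k) a, integral_pow]
    simp
  rw [h1, h2]

theorem C02c_part (k : ℕ) (a : ℝ) (ha : 0 ≤ a) (i : Fin (k + 1)) :
    volume {z : Fin (k + 1) → ℝ | z ∈ C02c_Dz (k + 1) a ∧ ∀ j, z i ≤ z j} =
      ENNReal.ofReal (a ^ (k + 1) + a ^ (k + 1) / (k + 1)) := by
  classical
  set Q : Set (ℝ × (Fin k → ℝ)) :=
    {p | -a ≤ p.1 ∧ p.1 ≤ a ∧ ∀ j, p.1 ≤ p.2 j ∧ p.2 j ≤ min (p.1 + a) a} with hQ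
  have hQm : MeasurableSet Q := by
    have : Q = {p : ℝ × (Fin k → ℝ) | -a ≤ p.1} ∩ ({p | p.1 ≤ a} ∩
        ⋂ j, ({p : ℝ × (Fin k → ℝ) | p.1 ≤ p.2 j} ∩ {p | p.2 j ≤ min (p.1 + a) a})) := by
      ext p
      simp only [hQ, Set.mem_ofPred_eq, Set.mem_inter_iff, Set.mem_iInter]
    rw [this]
    refine (measurableSet_le measurable_const measurable_fst).inter
      ((measurableSet_le measurable_fst measurable_const).inter
        (MeasurableSet.iInter fun j => ?_))
    have hm : Measurable fun p : ℝ × (Fin k → ℝ) => p.2 j :=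
      (measurable_pi_apply (X := fun _ : Fin k => ℝ) j).comp measurable_snd
    refine (measurableSet_le measurable_fst hm).inter (measurableSet_le hm ?_)
    exact (measurable_fst.add_const a).min measurable_const
  have hpre : {z : Fin (k + 1) → ℝ | z ∈ C02c_Dz (k + 1) a ∧ ∀ j, z i ≤ z j} =
      (MeasurableEquiv.piFinSuccAbove (fun _ : Fin (k + 1) => ℝ) i) ⁻¹' Q := by
    ext z
    simp only [Set.mem_preimage, hQ, Set.mem_ofPred_eq, MeasurableEquiv.piFinSuccAbove_apply,
      Fin.insertNthEquiv_symm_apply, C02c_Dz]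
    constructor
    · rintro ⟨⟨h1, h2⟩, h3⟩
      refine ⟨(abs_le.mp (h1 i)).1, (abs_le.mp (h1 i)).2, fun j => ⟨h3 _, le_min ?_ ?_⟩⟩
      · have := h2 (i.succAbove j) i
        simp only [Fin.removeNth]
        linarith
      · exact (abs_le.mp (h1 _)).2
    · rintro ⟨h1, h2, h3⟩
      have hb : ∀ l, z i ≤ z l ∧ z l ≤ min (z i + a) a := by
        intro l
        rcases Fin.eq_self_or_eq_succAbove i l with rfl | ⟨j, rfl⟩
        · exact ⟨le_rfl, le_min (by linarith) h2⟩
        · exact h3 j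
      refine ⟨⟨fun l => abs_le.mpr ⟨by linarith [(hb l).1], (hb l).2.trans (min_le_right _ _)⟩,
        fun l l' => ?_⟩, fun l => (hb l).1⟩
      have := (hb l).2.trans (min_le_left _ _)
      linarith [(hb l').1]
  have hslice : ∀ s : ℝ, volume (Prod.mk s ⁻¹' Q) =
      (Set.Icc (-a) a).indicator (fun s => ENNReal.ofReal ((min (s + a) a - s) ^ k)) s := by
    intro s
    by_cases hs : s ∈ Set.Icc (-a) a
    · rw [Set.indicator_of_mem hs]
      have h1 : Prod.mk s ⁻¹' Q = Set.Icc (fun _ : Fin k => s) (fun _ => min (s + a) a) := by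
        ext y
        simp only [Set.mem_preimage, hQ, Set.mem_ofPred_eq, Set.mem_Icc, Pi.le_def]
        constructor
        · rintro ⟨-, -, h⟩
          exact ⟨fun j => (h j).1, fun j => (h j).2⟩
        · rintro ⟨h, h'⟩
          exact ⟨hs.1, hs.2, fun j => ⟨h j, h' j⟩⟩
      have h2 : 0 ≤ min (s + a) a - s := by
        have : s ≤ min (s + a) a := le_min (by linarith) hs.2
        linarith
      rw [h1, Real.volume_Icc_pi, Finset.prod_const, Finset.card_univ, Fintype.card_fin,
        ENNReal.ofReal_pow h2]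
    · rw [Set.indicator_of_notMem hs]
      have h1 : Prod.mk s ⁻¹' Q = ∅ := by
        ext y
        simp only [Set.mem_preimage, hQ, Set.mem_ofPred_eq, Set.mem_empty_iff_false, iff_false]
        rintro ⟨h, h', -⟩
        exact hs ⟨h, h'⟩
      rw [h1, measure_empty]
  have hcont : Continuous fun s : ℝ => (min (s + a) a - s) ^ k := by fun_prop
  rw [hpre, (volume_preserving_piFinSuccAbove (fun _ : Fin (k + 1) => ℝ) i).measure_preimage
    hQm.nullMeasurableSet, Measure.volume_eq_prod, Measure.prod_apply hQm]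
  simp only [hslice]
  rw [lintegral_indicator measurableSet_Icc,
    ← ofReal_integral_eq_lintegral_ofReal (hcont.integrableOn_Icc)
      ((ae_restrict_iff' measurableSet_Icc).mpr (Filter.Eventually.of_forall fun s hs => by
        have : s ≤ min (s + a) a := le_min (by linarith) hs.2
        have h2 : 0 ≤ min (s + a) a - s := by linarith
        exact pow_nonneg h2 k)),
    integral_Icc_eq_integral_Ioc, ← intervalIntegral.integral_of_le (by linarith),
    C02c_int k a ha]

theorem C02c_null (n : ℕ) (i j : Fin n) (hij : i ≠ j) :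
    volume {z : Fin n → ℝ | z i = z j} = 0 := by
  let f : (Fin n → ℝ) →ₗ[ℝ] ℝ :=
    (LinearMap.proj i : (Fin n → ℝ) →ₗ[ℝ] ℝ) - (LinearMap.proj j : (Fin n → ℝ) →ₗ[ℝ] ℝ)
  have h1 : {z : Fin n → ℝ | z i = z j} = (LinearMap.ker f : Set (Fin n → ℝ)) := by
    ext z
    simp [f, sub_eq_zero]
  rw [h1]
  apply MeasureTheory.Measure.addHaar_submodule
  intro htop
  have h2 : (Pi.single i 1 : Fin n → ℝ) ∈ LinearMap.ker f := by
    rw [htop]; trivial
  have h3 : f (Pi.single i 1 : Fin n → ℝ) = 1 := by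
    simp [f, hij]
  rw [LinearMap.mem_ker, h3] at h2
  exact one_ne_zero h2

theorem C02c_meas (n : ℕ) (a : ℝ) (i : Fin n) :
    MeasurableSet {z : Fin n → ℝ | z ∈ C02c_Dz n a ∧ ∀ j, z i ≤ z j} := by
  have h1 : {z : Fin n → ℝ | z ∈ C02c_Dz n a ∧ ∀ j, z i ≤ z j} =
      C02c_Dz n a ∩ ⋂ j, {z : Fin n → ℝ | z i ≤ z j} := by
    ext z
    simp only [Set.mem_ofPred_eq, Set.mem_inter_iff, Set.mem_iInter]
  rw [h1]
  exact (C02c_meas_Dz n a).inter (MeasurableSet.iInter fun j =>
    measurableSet_le (measurable_pi_apply i) (measurable_pi_apply j))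

theorem C02c_vol (n : ℕ) (a : ℝ) (ha : 0 ≤ a) :
    volume (C02c_Dz n a) = ENNReal.ofReal (((n : ℝ) + 1) * a ^ n) := by
  cases n with
  | zero =>
    have : C02c_Dz 0 a = Set.univ := by
      ext z
      simp [C02c_Dz]
    rw [this, volume_pi, Measure.pi_of_empty, measure_univ]
    simp
  | succ k =>
    have hU : C02c_Dz (k + 1) a =
        ⋃ i : Fin (k + 1), {z : Fin (k + 1) → ℝ | z ∈ C02c_Dz (k + 1) a ∧ ∀ j, z i ≤ z j} := by
      ext z
      simp only [Set.mem_iUnion, Set.mem_ofPred_eq]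
      constructor
      · intro hz
        obtain ⟨i, -, hi⟩ := Finset.exists_min_image Finset.univ z ⟨0, Finset.mem_univ _⟩
        exact ⟨i, hz, fun j => hi j (Finset.mem_univ j)⟩
      · rintro ⟨i, hz, -⟩
        exact hz
    have hdisj : Pairwise (Function.onFun (AEDisjoint volume)
        fun i : Fin (k + 1) => {z : Fin (k + 1) → ℝ | z ∈ C02c_Dz (k + 1) a ∧ ∀ j, z i ≤ z j}) := by
      intro i j hij
      refine measure_mono_null ?_ (C02c_null (k + 1) i j hij)
      rintro z ⟨⟨-, h1⟩, ⟨-, h2⟩⟩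
      exact le_antisymm (h1 j) (h2 i)
    have hsum : volume (⋃ i : Fin (k + 1),
        {z : Fin (k + 1) → ℝ | z ∈ C02c_Dz (k + 1) a ∧ ∀ j, z i ≤ z j})
        = ∑' i : Fin (k + 1), volume {z : Fin (k + 1) → ℝ | z ∈ C02c_Dz (k + 1) a ∧ ∀ j, z i ≤ z j} :=
      measure_iUnion₀ hdisj (fun i => (C02c_meas (k + 1) a i).nullMeasurableSet)
    calc volume (C02c_Dz (k + 1) a)
        = volume (⋃ i : Fin (k + 1),
            {z : Fin (k + 1) → ℝ | z ∈ C02c_Dz (k + 1) a ∧ ∀ j, z i ≤ z j}) := congrArg _ hU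
      _ = ∑ i : Fin (k + 1), ENNReal.ofReal (a ^ (k + 1) + a ^ (k + 1) / (k + 1)) := by
          rw [hsum, tsum_fintype]
          exact Finset.sum_congr rfl fun i _ => C02c_part k a ha i
      _ = ENNReal.ofReal ((((k + 1 : ℕ) : ℝ) + 1) * a ^ (k + 1)) := by
          rw [Finset.sum_const, Finset.card_univ, Fintype.card_fin, nsmul_eq_mul,
            ← ENNReal.ofReal_natCast, ← ENNReal.ofReal_mul (by positivity)]
          congr 1
          push_cast
          field_simp

-- CHUNK C02c
theorem vol_zono_fin (n : ℕ) (t : ℝ) (ht : 0 ≤ t) :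
    volume {x : Fin n → ℝ | (∀ i, |x i| ≤ t) ∧ ∀ i j, x i - x j ≤ t}
      = ENNReal.ofReal (t ^ n * (n + 1)) := by
  have h := C02c_vol n t ht
  rw [mul_comm] at h
  exact h

-- CHUNK C03
theorem vol_reindex {κ : Type} [Fintype κ] (e : ι ≃ κ) (S : Set (κ → ℝ)) (hS : MeasurableSet S) :
    volume {x : ι → ℝ | (fun k => x (e.symm k)) ∈ S} = volume S := by
  have hmeas : Measurable (fun (x : ι → ℝ) (k : κ) => x (e.symm k)) :=
    measurable_pi_lambda _ fun k => measurable_pi_apply _
  have hmap : (volume : Measure (κ → ℝ)) =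
      Measure.map (fun (x : ι → ℝ) (k : κ) => x (e.symm k)) volume := by
    rw [volume_pi]
    refine Measure.pi_eq fun s hs => ?_
    rw [Measure.map_apply hmeas (MeasurableSet.univ_pi hs)]
    have hset : (fun (x : ι → ℝ) (k : κ) => x (e.symm k)) ⁻¹' (Set.pi Set.univ s)
        = Set.pi Set.univ fun i : ι => s (e i) := by
      ext x
      simp only [Set.mem_preimage, Set.mem_pi, Set.mem_univ, forall_true_left]
      constructor
      · intro h i
        have := h (e i)
        rwa [e.symm_apply_apply] at this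
      · intro h k
        have := h (e.symm k)
        rwa [e.apply_symm_apply] at this
    rw [hset, volume_pi, Measure.pi_pi]
    exact Equiv.prod_comp e fun k => volume (s k)
  rw [hmap, Measure.map_apply hmeas hS]
  rfl

theorem vol_simplex (c : ℝ) (hc : 0 ≤ c) :
    volume {x : ι → ℝ | (∀ i, 0 ≤ x i) ∧ ∑ i, x i ≤ c}
      = ENNReal.ofReal (c ^ Fintype.card ι / (Fintype.card ι).factorial) := by
  have hS : MeasurableSet {x : Fin (Fintype.card ι) → ℝ | (∀ i, 0 ≤ x i) ∧ ∑ i, x i ≤ c} := by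
    have h1 : MeasurableSet {x : Fin (Fintype.card ι) → ℝ | ∀ i, 0 ≤ x i} := by
      have : {x : Fin (Fintype.card ι) → ℝ | ∀ i, 0 ≤ x i} = ⋂ i, {x | 0 ≤ x i} := by
        ext x; simp
      rw [this]
      exact MeasurableSet.iInter fun i => measurableSet_le measurable_const (measurable_pi_apply i)
    have h2 : MeasurableSet {x : Fin (Fintype.card ι) → ℝ | ∑ i, x i ≤ c} :=
      measurableSet_le (Finset.measurable_fun_sum _ fun i _ => measurable_pi_apply i)
        measurable_const
    exact h1.inter h2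
  rw [← vol_simplex_fin (Fintype.card ι) c hc, ← vol_reindex (Fintype.equivFin ι) _ hS]
  congr 1
  ext x
  simp only [Set.mem_ofPred_eq]
  rw [Equiv.sum_comp (Fintype.equivFin ι).symm x]
  refine and_congr_left fun _ => ?_
  constructor
  · intro h k
    exact h _
  · intro h i
    have := h (Fintype.equivFin ι i)
    rwa [Equiv.symm_apply_apply] at this

theorem vol_zono (t : ℝ) (ht : 0 ≤ t) :
    volume {x : ι → ℝ | (∀ i, |x i| ≤ t) ∧ ∀ i j, x i - x j ≤ t}
      = ENNReal.ofReal (t ^ Fintype.card ι * (Fintype.card ι + 1)) := by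
  have hS : MeasurableSet {x : Fin (Fintype.card ι) → ℝ | (∀ i, |x i| ≤ t) ∧
      ∀ i j, x i - x j ≤ t} := by
    have h1 : MeasurableSet {x : Fin (Fintype.card ι) → ℝ | ∀ i, |x i| ≤ t} := by
      have : {x : Fin (Fintype.card ι) → ℝ | ∀ i, |x i| ≤ t} = ⋂ i, {x | |x i| ≤ t} := by
        ext x; simp
      rw [this]
      exact MeasurableSet.iInter fun i =>
        measurableSet_le (measurable_pi_apply i).abs measurable_const
    have h2 : MeasurableSet {x : Fin (Fintype.card ι) → ℝ | ∀ i j, x i - x j ≤ t} := by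
      have : {x : Fin (Fintype.card ι) → ℝ | ∀ i j, x i - x j ≤ t}
          = ⋂ i, ⋂ j, {x | x i - x j ≤ t} := by
        ext x; simp
      rw [this]
      exact MeasurableSet.iInter fun i => MeasurableSet.iInter fun j =>
        measurableSet_le ((measurable_pi_apply i).sub (measurable_pi_apply j)) measurable_const
    exact h1.inter h2
  rw [← vol_zono_fin (Fintype.card ι) t ht, ← vol_reindex (Fintype.equivFin ι) _ hS]
  congr 1
  ext x
  simp only [Set.mem_ofPred_eq]
  constructor
  · rintro ⟨h1, h2⟩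
    exact ⟨fun k => h1 _, fun k l => h2 _ _⟩
  · rintro ⟨h1, h2⟩
    refine ⟨fun i => ?_, fun i j => ?_⟩
    · have := h1 (Fintype.equivFin ι i)
      rwa [Equiv.symm_apply_apply] at this
    · have := h2 (Fintype.equivFin ι i) (Fintype.equivFin ι j)
      rwa [Equiv.symm_apply_apply, Equiv.symm_apply_apply] at this

-- CHUNK C04
theorem C04_map (β : ι → B) :
    (volume : Measure (ι → ℝ)) = Measure.map
      (fun (y : ∀ b, {i // β i = b} → ℝ) (i : ι) => y (β i) ⟨i, rfl⟩)
      (Measure.pi fun _ : B => (volume : Measure ({i // β i = _} → ℝ))) := by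
  rw [volume_pi]
  refine Measure.pi_eq fun s hs => ?_
  have hmeas : Measurable (fun (y : ∀ b, {i // β i = b} → ℝ) (i : ι) => y (β i) ⟨i, rfl⟩) := by
    refine measurable_pi_lambda _ fun i => ?_
    exact (measurable_pi_apply (⟨i, rfl⟩ : {j // β j = β i})).comp (measurable_pi_apply (β i))
  rw [Measure.map_apply hmeas (MeasurableSet.univ_pi hs)]
  have hset : (fun (y : ∀ b, {i // β i = b} → ℝ) (i : ι) => y (β i) ⟨i, rfl⟩) ⁻¹' (Set.pi Set.univ s)
      = Set.pi Set.univ fun b : B => Set.pi Set.univ fun i : {i // β i = b} => s i.1 := by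
    ext y
    simp only [Set.mem_preimage, Set.mem_pi, Set.mem_univ, forall_true_left]
    constructor
    · rintro h b ⟨i, rfl⟩
      exact h i
    · intro h i
      exact h (β i) ⟨i, rfl⟩
  rw [hset, Measure.pi_pi]
  simp only [volume_pi, Measure.pi_pi]
  exact Fintype.prod_fiberwise β fun i => volume (s i)

theorem vol_blocks (β : ι → B) (A : ∀ b, Set ({i // β i = b} → ℝ))
    (hA : ∀ b, MeasurableSet (A b)) :
    volume {x : ι → ℝ | ∀ b, (fun i : {i // β i = b} => x i.1) ∈ A b} = ∏ b, volume (A b) := by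
  have hmeas : Measurable (fun (y : ∀ b, {i // β i = b} → ℝ) (i : ι) => y (β i) ⟨i, rfl⟩) := by
    refine measurable_pi_lambda _ fun i => ?_
    exact (measurable_pi_apply (⟨i, rfl⟩ : {j // β j = β i})).comp (measurable_pi_apply (β i))
  have hS : MeasurableSet {x : ι → ℝ | ∀ b, (fun i : {i // β i = b} => x i.1) ∈ A b} := by
    have : {x : ι → ℝ | ∀ b, (fun i : {i // β i = b} => x i.1) ∈ A b}
        = ⋂ b, (fun (x : ι → ℝ) (i : {i // β i = b}) => x i.1) ⁻¹' A b := by
      ext x
      simp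
    rw [this]
    refine MeasurableSet.iInter fun b => ?_
    exact (measurable_pi_lambda _ fun i => measurable_pi_apply _) (hA b)
  rw [C04_map β, Measure.map_apply hmeas hS]
  have hset : (fun (y : ∀ b, {i // β i = b} → ℝ) (i : ι) => y (β i) ⟨i, rfl⟩) ⁻¹'
      {x : ι → ℝ | ∀ b, (fun i : {i // β i = b} => x i.1) ∈ A b} = Set.pi Set.univ A := by
    ext y
    simp only [Set.mem_preimage, Set.mem_ofPred_eq, Set.mem_pi, Set.mem_univ, forall_true_left]
    refine forall_congr' fun b => ?_
    have : (fun i : {i // β i = b} => y (β i.1) ⟨i.1, rfl⟩) = y b := by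
      funext i
      obtain ⟨i, rfl⟩ := i
      rfl
    rw [this]
  rw [hset, Measure.pi_pi]

-- CHUNK C05
theorem C05_meas (κ : Type) [Fintype κ] (c : ℝ) :
    MeasurableSet {y : κ → ℝ | (∀ i, 0 ≤ y i) ∧ ∑ i, y i ≤ c} := by
  have h1 : {y : κ → ℝ | (∀ i, 0 ≤ y i) ∧ ∑ i, y i ≤ c} =
      (⋂ i, {y : κ → ℝ | 0 ≤ y i}) ∩ {y : κ → ℝ | ∑ i, y i ≤ c} := by
    ext y; simp
  rw [h1]
  refine MeasurableSet.inter (MeasurableSet.iInter fun i => ?_) ?_
  · exact measurableSet_le measurable_const (measurable_pi_apply i)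
  · exact measurableSet_le (Finset.measurable_sum _ fun i _ => measurable_pi_apply i)
      measurable_const

omit [DecidableEq ι] [Fintype B] in
theorem C05_sum (β : ι → B) (b : B) (x : ι → ℝ) :
    ∑ i ∈ blk β b, x i = ∑ i : {i // β i = b}, x i.1 :=
  Finset.sum_subtype (blk β b) (fun i => by simp [blk]) x

theorem C05_zero (β : ι → B) (r : B → ℝ) (h : ∀ b, 0 ≤ r b) :
    volume (TT β (fun _ => 0) r)
      = ENNReal.ofReal (∏ b, (r b) ^ kk β b / (kk β b).factorial) := by
  have hset : TT β (fun _ => 0) r = {x : ι → ℝ | ∀ b, (fun i : {i // β i = b} => x i.1) ∈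
      {y : {i // β i = b} → ℝ | (∀ i, 0 ≤ y i) ∧ ∑ i, y i ≤ r b}} := by
    ext x
    constructor
    · rintro ⟨h1, h2⟩ b
      exact ⟨fun i => h1 i.1, by rw [← C05_sum]; exact h2 b⟩
    · intro hx
      exact ⟨fun i => (hx (β i)).1 ⟨i, rfl⟩, fun b => by rw [C05_sum]; exact (hx b).2⟩
  rw [hset, vol_blocks β _ (fun b => C05_meas _ (r b)),
    ENNReal.ofReal_prod_of_nonneg (fun b _ => by have := h b; positivity)]
  refine Finset.prod_congr rfl fun b _ => ?_
  rw [vol_simplex (r b) (h b)]
  have hc : Fintype.card {i // β i = b} = kk β b := by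
    rw [Fintype.card_subtype]; rfl
  rw [hc]

theorem vol_TT (β : ι → B) (a : ι → ℝ) (r : B → ℝ) (h : ∀ b, ∑ i ∈ blk β b, a i ≤ r b) :
    volume (TT β a r)
      = ENNReal.ofReal (∏ b, (r b - ∑ i ∈ blk β b, a i) ^ kk β b / (kk β b).factorial) := by
  have hset : TT β a r = (fun x : ι → ℝ => x + (-a)) ⁻¹'
      TT β (fun _ => 0) (fun b => r b - ∑ i ∈ blk β b, a i) := by
    ext x
    simp only [TT, Set.mem_preimage, Set.mem_ofPred_eq, Pi.add_apply, Pi.neg_apply,
      Finset.sum_add_distrib, Finset.sum_neg_distrib]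
    constructor
    · rintro ⟨h1, h2⟩
      exact ⟨fun i => by linarith [h1 i], fun b => by linarith [h2 b]⟩
    · rintro ⟨h1, h2⟩
      exact ⟨fun i => by linarith [h1 i], fun b => by linarith [h2 b]⟩
  rw [hset, measure_preimage_add_right]
  exact C05_zero β _ (fun b => by linarith [h b])

-- CHUNK C06
-- CHUNK C06
theorem C06_closed_zono {κ : Type} [Fintype κ] (t : ℝ) :
    IsClosed {x : κ → ℝ | (∀ i, |x i| ≤ t) ∧ ∀ i j, x i - x j ≤ t} := by
  have h1 : {x : κ → ℝ | (∀ i, |x i| ≤ t) ∧ ∀ i j, x i - x j ≤ t}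
      = (⋂ i, {x : κ → ℝ | |x i| ≤ t}) ∩ ⋂ i, ⋂ j, {x : κ → ℝ | x i - x j ≤ t} := by
    ext x; simp
  rw [h1]
  refine IsClosed.inter (isClosed_iInter fun i => ?_)
    (isClosed_iInter fun i => isClosed_iInter fun j => ?_)
  · exact isClosed_le (continuous_abs.comp (continuous_apply i)) continuous_const
  · exact isClosed_le ((continuous_apply i).sub (continuous_apply j)) continuous_const

theorem C06_card (β : ι → B) (b : B) : Fintype.card {i // β i = b} = kk β b := by
  unfold kk blk
  exact Fintype.card_subtype _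

theorem vol_ZZ (β : ι → B) (a : B → ℝ) (ha : ∀ b, 0 ≤ a b) :
    volume (ZZ β a) = ENNReal.ofReal (∏ b, a b ^ kk β b * ((kk β b : ℝ) + 1)) := by
  have h1 : ZZ β a = {x : ι → ℝ | ∀ b, (fun i : {i // β i = b} => x i.1) ∈
      {y : {i // β i = b} → ℝ | (∀ i, |y i| ≤ a b) ∧ ∀ i j, y i - y j ≤ a b}} := by
    ext x
    simp only [ZZ, Set.mem_ofPred_eq]
    constructor
    · rintro ⟨h1, h2⟩ b
      refine ⟨fun i => ?_, fun i j => ?_⟩
      · have := h1 i.1
        rwa [i.2] at this
      · have := h2 i.1 j.1 (i.2.trans j.2.symm)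
        rwa [i.2] at this
    · intro h
      refine ⟨fun i => (h (β i)).1 ⟨i, rfl⟩, fun i j hij => ?_⟩
      exact (h (β i)).2 ⟨i, rfl⟩ ⟨j, hij.symm⟩
  rw [h1, vol_blocks β _ (fun b => (C06_closed_zono (a b)).measurableSet)]
  rw [ENNReal.ofReal_prod_of_nonneg (fun b _ => by have := ha b; positivity)]
  refine Finset.prod_congr rfl fun b _ => ?_
  rw [vol_zono (a b) (ha b), C06_card]

theorem measurableSet_TT (β : ι → B) (a : ι → ℝ) (r : B → ℝ) : MeasurableSet (TT β a r) := by
  have h1 : TT β a r = (⋂ i, {x : ι → ℝ | a i ≤ x i}) ∩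
      ⋂ b, {x : ι → ℝ | ∑ i ∈ blk β b, x i ≤ r b} := by
    ext x; simp [TT]
  rw [h1]
  refine IsClosed.measurableSet (IsClosed.inter (isClosed_iInter fun i => ?_)
    (isClosed_iInter fun b => ?_))
  · exact isClosed_le continuous_const (continuous_apply i)
  · exact isClosed_le (continuous_finsetSum _ fun i _ => continuous_apply i) continuous_const

theorem measurableSet_ZZ (β : ι → B) (a : B → ℝ) : MeasurableSet (ZZ β a) := by
  have h1 : ZZ β a = (⋂ i, {x : ι → ℝ | |x i| ≤ a (β i)}) ∩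
      ⋂ i, ⋂ j, {x : ι → ℝ | β i = β j → x i - x j ≤ a (β i)} := by
    ext x; simp [ZZ]
  rw [h1]
  refine IsClosed.measurableSet (IsClosed.inter (isClosed_iInter fun i => ?_)
    (isClosed_iInter fun i => isClosed_iInter fun j => ?_))
  · exact isClosed_le (continuous_abs.comp (continuous_apply i)) continuous_const
  · by_cases hij : β i = β j
    · simp only [hij, true_imp_iff]
      exact isClosed_le ((continuous_apply i).sub (continuous_apply j)) continuous_const
    · simp [hij]

theorem sum_kk (β : ι → B) : ∑ b, kk β b = Fintype.card ι := by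
  unfold kk blk
  rw [← Finset.card_univ]
  exact (Finset.card_eq_sum_card_fiberwise (fun i _ => Finset.mem_univ (β i))).symm

end Blocks

/-! ## Section 2 : the bodies in Euclidean space -/

abbrev EE (n : ℕ) := EuclideanSpace ℝ (Fin n)

section Bodies

variable {n : ℕ} {B : Type} [Fintype B] [DecidableEq B]

def TE (β : Fin n → B) (a : Fin n → ℝ) (r : B → ℝ) : Set (EE n) :=
  {x | (∀ i, a i ≤ x i) ∧ ∀ b, ∑ i ∈ blk β b, x i ≤ r b}

/-- the product of corner simplices -/
def KB (β : Fin n → B) : Set (EE n) := TE β (fun _ => 0) (fun _ => 1)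

/-- its volume -/
noncomputable def kap (β : Fin n → B) : ℝ := ∏ b, (1 : ℝ) / (kk β b).factorial

noncomputable def cc (β : Fin n → B) (u : EE n) (b : B) : ℝ :=
  max (∑ i ∈ blk β b, max (u i) 0) (∑ i ∈ blk β b, max (-(u i)) 0)

def PiB {m : ℕ} (K : Set (EE (m + 1))) : Set (EE (m + 1)) :=
  ⋂ u ∈ Metric.sphere (0 : EE (m + 1)) 1, {x : EE (m + 1) | inner ℝ x u ≤
    ((μHE[m] : Measure (EE (m + 1))) ((fun y => y - inner ℝ y u • u) '' K)).toReal}

noncomputable def aa (β : Fin n → B) (b : B) : ℝ := kap β * kk β b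

noncomputable def FF (k : ℕ) : ℝ := ((k : ℝ) + 1) * (k : ℝ) ^ k / k.factorial

-- CHUNK C07
-- CHUNK C07
-- (helper76) this block replaces the WHOLE region between the markers CHUNK C07 and CHUNK C08; the defs TE, KB, kap are included verbatim because they are interleaved
theorem vol_EE (n : ℕ) (S : Set (Fin n → ℝ)) (hS : MeasurableSet S) :
    volume {x : EE n | (fun i => x i) ∈ S} = volume S := by
  have h := (PiLp.volume_preserving_ofLp (Fin n)).measure_preimage hS.nullMeasurableSet
  exact h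

theorem isClosed_TE (β : Fin n → B) (a : Fin n → ℝ) (r : B → ℝ) : IsClosed (TE β a r) := by
  have h1 : TE β a r = (⋂ i, {x : EE n | a i ≤ x i}) ∩ (⋂ b, {x : EE n | ∑ i ∈ blk β b, x i ≤ r b}) := by
    ext x
    simp [TE]
  rw [h1]
  apply IsClosed.inter
  · apply isClosed_iInter
    intro i
    exact isClosed_le continuous_const (by fun_prop)
  · apply isClosed_iInter
    intro b
    exact isClosed_le (by fun_prop) continuous_const

theorem vol_TE (β : Fin n → B) (a : Fin n → ℝ) (r : B → ℝ) (h : ∀ b, ∑ i ∈ blk β b, a i ≤ r b) :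
    volume (TE β a r)
      = ENNReal.ofReal (∏ b, (r b - ∑ i ∈ blk β b, a i) ^ kk β b / (kk β b).factorial) := by
  rw [← vol_TT β a r h, ← vol_EE n (TT β a r) (measurableSet_TT β a r)]
  rfl

theorem vol_KB (β : Fin n → B) : volume (KB β) = ENNReal.ofReal (kap β) := by
  unfold KB
  rw [vol_TE β (fun _ => 0) (fun _ => 1) (by intro b; simp)]
  simp [kap]

theorem kap_pos (β : Fin n → B) : 0 < kap β := by
  unfold kap
  apply Finset.prod_pos
  intro b _
  positivity

-- CHUNK C08
-- C08 block (helper14): replaces EVERYTHING between the line '-- CHUNK C08' and the line '-- CHUNK C09' of SKEL (the def of cc is included here, unchanged)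
theorem c08_coord (β : Fin n → B) {x : EE n} (hx : x ∈ KB β) (k : Fin n) : 0 ≤ x k ∧ x k ≤ 1 := by
  obtain ⟨h1, h2⟩ := hx
  refine ⟨h1 k, ?_⟩
  have hk : k ∈ blk β (β k) := by simp [blk]
  exact le_trans (Finset.single_le_sum (f := fun i => x i) (fun j _ => h1 j) hk) (h2 (β k))

theorem isCompact_KB (β : Fin n → B) : IsCompact (KB β) := by
  refine Metric.isCompact_of_isClosed_isBounded (isClosed_TE β _ _) ?_
  refine (Metric.isBounded_closedBall (x := (0 : EE n)) (r := Real.sqrt n)).subset ?_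
  intro x hx
  rw [mem_closedBall_zero_iff, EuclideanSpace.norm_eq]
  refine Real.sqrt_le_sqrt ?_
  calc ∑ k, ‖x k‖ ^ 2 ≤ ∑ _k : Fin n, (1 : ℝ) := by
        refine Finset.sum_le_sum fun k _ => ?_
        obtain ⟨h0, h1⟩ := c08_coord β hx k
        rw [Real.norm_eq_abs, abs_of_nonneg h0]
        nlinarith
    _ = n := by simp

theorem convex_KB (β : Fin n → B) : Convex ℝ (KB β) := by
  intro x hx y hy a b ha hb hab
  obtain ⟨h1, h2⟩ := hx
  obtain ⟨k1, k2⟩ := hy
  refine ⟨fun i => ?_, fun c => ?_⟩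
  · have := h1 i; have := k1 i
    simp only [PiLp.add_apply, PiLp.smul_apply, smul_eq_mul]
    positivity
  · have := h2 c; have := k2 c
    simp only [PiLp.add_apply, PiLp.smul_apply, smul_eq_mul, Finset.sum_add_distrib,
      ← Finset.mul_sum]
    nlinarith

theorem interior_KB_nonempty (β : Fin n → B) : (interior (KB β)).Nonempty := by
  have hopen : IsOpen ((⋂ i, {x : EE n | 0 < x i}) ∩
      (⋂ b, {x : EE n | ∑ i ∈ blk β b, x i < 1})) := by
    refine IsOpen.inter (isOpen_iInter_of_finite fun i => ?_) (isOpen_iInter_of_finite fun b => ?_)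
    · exact isOpen_lt continuous_const (by fun_prop)
    · exact isOpen_lt (by fun_prop) continuous_const
  have hsub : ((⋂ i, {x : EE n | 0 < x i}) ∩
      (⋂ b, {x : EE n | ∑ i ∈ blk β b, x i < 1})) ⊆ KB β := by
    rintro x ⟨h1, h2⟩
    simp only [Set.mem_iInter, Set.mem_ofPred_eq] at h1 h2
    exact ⟨fun i => (h1 i).le, fun b => (h2 b).le⟩
  refine ⟨WithLp.toLp 2 (fun _ : Fin n => (1 / ((n : ℝ) + 1))), interior_maximal hsub hopen ?_⟩
  refine ⟨?_, ?_⟩
  · simp only [Set.mem_iInter, Set.mem_ofPred_eq]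
    intro i
    positivity
  · simp only [Set.mem_iInter, Set.mem_ofPred_eq]
    intro b
    simp only [Finset.sum_const, nsmul_eq_mul]
    have hcard : ((blk β b).card : ℝ) ≤ n := by
      have := Finset.card_le_univ (blk β b)
      simp only [Fintype.card_fin] at this
      exact_mod_cast this
    rw [mul_one_div, div_lt_one (by positivity)]
    linarith

/-- `max (∑ u⁺) (∑ u⁻)` over the block `b` -/
theorem cc_nonneg (β : Fin n → B) (u : EE n) (b : B) : 0 ≤ cc β u b := by
  apply le_max_of_le_left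
  exact Finset.sum_nonneg fun i _ => le_max_right _ _

-- CHUNK C09
theorem C09_sum_split (s : Finset (Fin n)) (u : EE n) :
    ∑ i ∈ s, u i = ∑ i ∈ s, max (u i) 0 - ∑ i ∈ s, max (-(u i)) 0 := by
  rw [← Finset.sum_sub_distrib]
  apply Finset.sum_congr rfl
  intro i _
  rcases le_total 0 (u i) with h | h
  · rw [max_eq_left h, max_eq_right (by linarith)]; ring
  · rw [max_eq_right h, max_eq_left (by linarith)]; ring

theorem C09_sum_max (s : Finset (Fin n)) (u : EE n) (ε : ℝ) (hε : 0 ≤ ε) :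
    ∑ i ∈ s, max (ε * u i) 0 = ε * ∑ i ∈ s, max (u i) 0 := by
  rw [Finset.mul_sum]
  apply Finset.sum_congr rfl
  intro i _
  rw [mul_max_of_nonneg _ _ hε, mul_zero]

theorem inter_eq (β : Fin n → B) (u : EE n) (ε : ℝ) (hε : 0 ≤ ε) :
    KB β ∩ ((fun x => ε • u + x) '' KB β)
      = TE β (fun i => max (ε * u i) 0) (fun b => min 1 (1 + ε * ∑ i ∈ blk β b, u i)) := by
  ext x
  simp only [KB, TE, Set.mem_inter_iff, Set.mem_ofPred_eq, Set.mem_image]
  constructor
  · rintro ⟨⟨h1, h2⟩, y, ⟨h3, h4⟩, rfl⟩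
    refine ⟨fun i => ?_, fun b => ?_⟩
    · apply max_le _ (h1 i)
      have := h3 i
      simp only [PiLp.add_apply, PiLp.smul_apply, smul_eq_mul]
      linarith
    · apply le_min (h2 b)
      have := h4 b
      simp only [PiLp.add_apply, PiLp.smul_apply, smul_eq_mul, Finset.sum_add_distrib,
        ← Finset.mul_sum]
      linarith
  · rintro ⟨h1, h2⟩
    refine ⟨⟨fun i => le_trans (le_max_right _ _) (h1 i), fun b => le_trans (h2 b) (min_le_left _ _)⟩,
      x - ε • u, ⟨fun i => ?_, fun b => ?_⟩, by abel⟩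
    · have := le_trans (le_max_left _ _) (h1 i)
      simp only [PiLp.sub_apply, PiLp.smul_apply, smul_eq_mul]
      linarith
    · have := le_trans (h2 b) (min_le_right _ _)
      simp only [PiLp.sub_apply, PiLp.smul_apply, smul_eq_mul, Finset.sum_sub_distrib,
        ← Finset.mul_sum]
      linarith

theorem C09_key (β : Fin n → B) (u : EE n) (ε : ℝ) (hε : 0 ≤ ε) (b : B) :
    min 1 (1 + ε * ∑ i ∈ blk β b, u i) - ∑ i ∈ blk β b, max (ε * u i) 0 = 1 - ε * cc β u b := by
  rw [C09_sum_max _ u ε hε, C09_sum_split (blk β b) u]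
  unfold cc
  set P := ∑ i ∈ blk β b, max (u i) 0
  set N := ∑ i ∈ blk β b, max (-(u i)) 0
  rcases le_total N P with h | h
  · rw [max_eq_left h, min_eq_left (by nlinarith [mul_nonneg hε (sub_nonneg.mpr h)])]
  · rw [max_eq_right h, min_eq_right (by nlinarith [mul_nonneg hε (sub_nonneg.mpr h)])]
    ring

theorem vol_inter (β : Fin n → B) (u : EE n) (ε : ℝ) (hε : 0 ≤ ε)
    (hsmall : ∀ b, ε * cc β u b ≤ 1) :
    volume (KB β ∩ ((fun x => ε • u + x) '' KB β))
      = ENNReal.ofReal (∏ b, (1 - ε * cc β u b) ^ kk β b / (kk β b).factorial) := by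
  rw [inter_eq β u ε hε, vol_TE]
  · congr 1
    apply Finset.prod_congr rfl
    intro b _
    rw [C09_key β u ε hε b]
  · intro b
    have := C09_key β u ε hε b
    have := hsmall b
    linarith

-- CHUNK C10
-- CHUNK C10
theorem super_mem (β : Fin n → B) (u : EE n) (ε : ℝ) (hε : 0 ≤ ε) :
    ∀ x ∈ KB β, ∀ r : ℝ, 0 ≤ r → r ≤ ε → x + r • u ∈
      TE β (fun i => min (ε * u i) 0) (fun b => max 1 (1 + ε * ∑ i ∈ blk β b, u i)) := by
  intro x hx r hr0 hrε
  obtain ⟨hx0, hx1⟩ := hx
  refine ⟨fun i => ?_, fun b => ?_⟩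
  · have h0 := hx0 i
    have e : (x + r • u) i = x i + r * u i := by simp
    rw [e]
    rcases le_total 0 (u i) with hu | hu
    · have : 0 ≤ r * u i := mul_nonneg hr0 hu
      exact (min_le_right _ _).trans (by linarith)
    · have : ε * u i ≤ r * u i := mul_le_mul_of_nonpos_right hrε hu
      exact (min_le_left _ _).trans (by linarith)
  · have h1 := hx1 b
    have e : ∑ i ∈ blk β b, (x + r • u) i
        = ∑ i ∈ blk β b, x i + r * ∑ i ∈ blk β b, u i := by
      rw [Finset.mul_sum, ← Finset.sum_add_distrib]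
      exact Finset.sum_congr rfl fun i _ => by simp
    rw [e]
    rcases le_total 0 (∑ i ∈ blk β b, u i) with hS | hS
    · have : r * ∑ i ∈ blk β b, u i ≤ ε * ∑ i ∈ blk β b, u i :=
        mul_le_mul_of_nonneg_right hrε hS
      exact le_trans (by linarith) (le_max_right _ _)
    · have : r * ∑ i ∈ blk β b, u i ≤ 0 := mul_nonpos_of_nonneg_of_nonpos hr0 hS
      exact le_trans (by linarith) (le_max_left _ _)

theorem C10_id (β : Fin n → B) (u : EE n) (ε : ℝ) (hε : 0 ≤ ε) (b : B) :
    max 1 (1 + ε * ∑ i ∈ blk β b, u i) - ∑ i ∈ blk β b, min (ε * u i) 0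
      = 1 + ε * cc β u b := by
  have hS : ∑ i ∈ blk β b, u i
      = ∑ i ∈ blk β b, max (u i) 0 - ∑ i ∈ blk β b, max (-(u i)) 0 := by
    rw [← Finset.sum_sub_distrib]
    refine Finset.sum_congr rfl fun i _ => ?_
    rcases le_total 0 (u i) with h | h
    · rw [max_eq_left h, max_eq_right (by linarith)]; ring
    · rw [max_eq_right h, max_eq_left (by linarith)]; ring
  have hN : ∑ i ∈ blk β b, min (ε * u i) 0 = -(ε * ∑ i ∈ blk β b, max (-(u i)) 0) := by
    rw [Finset.mul_sum, ← Finset.sum_neg_distrib]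
    refine Finset.sum_congr rfl fun i _ => ?_
    rcases le_total 0 (u i) with h | h
    · rw [min_eq_right (mul_nonneg hε h), max_eq_right (by linarith)]; ring
    · rw [min_eq_left (mul_nonpos_of_nonneg_of_nonpos hε h), max_eq_left (by linarith)]; ring
  rw [hN, hS]
  unfold cc
  set P := ∑ i ∈ blk β b, max (u i) 0
  set N := ∑ i ∈ blk β b, max (-(u i)) 0
  rcases le_total N P with h | h
  · have : ε * N ≤ ε * P := mul_le_mul_of_nonneg_left h hε
    rw [max_eq_left h, max_eq_right (by nlinarith)]; ring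
  · have : ε * P ≤ ε * N := mul_le_mul_of_nonneg_left h hε
    rw [max_eq_right h, max_eq_left (by nlinarith)]; ring

theorem vol_super (β : Fin n → B) (u : EE n) (ε : ℝ) (hε : 0 ≤ ε) :
    volume (TE β (fun i => min (ε * u i) 0) (fun b => max 1 (1 + ε * ∑ i ∈ blk β b, u i)))
      = ENNReal.ofReal (∏ b, (1 + ε * cc β u b) ^ kk β b / (kk β b).factorial) := by
  rw [vol_TE]
  · congr 1
    refine Finset.prod_congr rfl fun b _ => ?_
    rw [C10_id β u ε hε b]
  · intro b
    have h1 : ∑ i ∈ blk β b, min (ε * u i) 0 ≤ 0 :=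
      Finset.sum_nonpos fun i _ => min_le_right _ _
    exact h1.trans (le_trans zero_le_one (le_max_left _ _))

-- CHUNK C11
theorem C11_hasDerivAt (k : B → ℕ) (c : B → ℝ) :
    HasDerivAt (fun e : ℝ => ∏ b, (1 + e * c b) ^ k b / (k b).factorial)
      ((∏ b, (1 : ℝ) / (k b).factorial) * ∑ b, (k b : ℝ) * c b) 0 := by
  have h1 : ∀ b ∈ (Finset.univ : Finset B),
      HasDerivAt (fun e : ℝ => (1 + e * c b) ^ k b / (k b).factorial)
        ((k b : ℝ) * c b / (k b).factorial) 0 := by
    intro b _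
    have h2 : HasDerivAt (fun e : ℝ => 1 + e * c b) (c b) 0 := by
      simpa using ((hasDerivAt_id (0 : ℝ)).mul_const (c b)).const_add 1
    have h3 := (h2.pow (k b)).div_const ((k b).factorial : ℝ)
    simpa using h3
  have h4 := HasDerivAt.fun_finsetProd h1
  have h5 : (∑ i ∈ (Finset.univ : Finset B),
      (∏ j ∈ (Finset.univ : Finset B).erase i, (1 + (0 : ℝ) * c j) ^ k j / ((k j).factorial : ℝ)) •
        ((k i : ℝ) * c i / (k i).factorial)) =
      (∏ b, (1 : ℝ) / (k b).factorial) * ∑ b, (k b : ℝ) * c b := by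
    rw [Finset.mul_sum]
    apply Finset.sum_congr rfl
    intro i hi
    rw [← Finset.mul_prod_erase Finset.univ (fun b => (1 : ℝ) / (k b).factorial) hi, smul_eq_mul]
    simp only [zero_mul, add_zero, one_pow]
    ring
  rw [h5] at h4
  exact h4

theorem lim_lemma (k : B → ℕ) (c : B → ℝ) (m ε0 : ℝ) (hε0 : 0 < ε0)
    (h1 : ∀ ε, 0 < ε → ε < ε0 → ∏ b, (1 : ℝ) / (k b).factorial
        ≤ ∏ b, (1 - ε * c b) ^ k b / (k b).factorial + ε * m)
    (h2 : ∀ ε, 0 < ε → ε < ε0 → ∏ b, (1 : ℝ) / (k b).factorial + ε * m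
        ≤ ∏ b, (1 + ε * c b) ^ k b / (k b).factorial) :
    m = (∏ b, (1 : ℝ) / (k b).factorial) * ∑ b, (k b : ℝ) * c b := by
  have hd := C11_hasDerivAt k c
  set g : ℝ → ℝ := fun e : ℝ => ∏ b, (1 + e * c b) ^ k b / (k b).factorial with hg
  have hg0 : g 0 = ∏ b, (1 : ℝ) / (k b).factorial := by
    simp [hg]
  have hr := hd.tendsto_slope_zero_right
  have hl := hd.tendsto_slope_zero_left
  apply le_antisymm
  · apply ge_of_tendsto hr
    have hmem : Set.Ioo (0 : ℝ) ε0 ∈ nhdsWithin (0 : ℝ) (Set.Ioi 0) := Ioo_mem_nhdsGT hε0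
    filter_upwards [hmem] with t ht
    have h3 := h2 t ht.1 ht.2
    rw [zero_add, smul_eq_mul, hg0, le_inv_mul_iff₀ ht.1]
    show t * m ≤ (∏ b, (1 + t * c b) ^ k b / (k b).factorial) - _
    linarith
  · apply le_of_tendsto hl
    have hmem : Set.Ioo (-ε0) (0 : ℝ) ∈ nhdsWithin (0 : ℝ) (Set.Iio 0) :=
      Ioo_mem_nhdsLT (by linarith)
    filter_upwards [hmem] with t ht
    have h3 := h1 (-t) (by linarith [ht.2]) (by linarith [ht.1])
    have h4 : g t = ∏ b, (1 - -t * c b) ^ k b / (k b).factorial := by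
      simp only [hg]
      apply Finset.prod_congr rfl
      intro b _
      congr 2
      ring
    rw [zero_add, smul_eq_mul, hg0, h4]
    have ht' : 0 < -t := by linarith [ht.2]
    have h5 : t⁻¹ * ((∏ b, (1 - -t * c b) ^ k b / (k b).factorial) - ∏ b, (1 : ℝ) / (k b).factorial) =
        (-t)⁻¹ * ((∏ b, (1 : ℝ) / (k b).factorial) - ∏ b, (1 - -t * c b) ^ k b / (k b).factorial) := by
      rw [inv_neg]; ring
    rw [h5, inv_mul_le_iff₀ ht']
    linarith

-- CHUNK C12
theorem shadow_KB {m : ℕ} (β : Fin (m + 1) → B) (u : EE (m + 1)) (hu : ‖u‖ = 1) :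
    ((μHE[m] : Measure (EE (m + 1))) ((fun y => y - inner ℝ y u • u) '' KB β)).toReal
      = kap β * ∑ b, (kk β b : ℝ) * cc β u b := by
  have hK := isCompact_KB β
  have hc := convex_KB β
  generalize hμ : (μHE[m] : Measure (EE (m + 1))) ((fun y => y - inner ℝ y u • u) '' KB β) = μ
  have hF2 : ∀ ε : ℝ, 0 ≤ ε → volume (KB β) + ENNReal.ofReal ε * μ
      ≤ ENNReal.ofReal (∏ b, (1 + ε * cc β u b) ^ kk β b / (kk β b).factorial) := by
    intro ε hε
    have := F2 u hu (KB β) hK ε hε _ (isClosed_TE β _ _).measurableSet (super_mem β u ε hε)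
    rwa [vol_super β u ε hε, hμ] at this
  have hfin : μ ≠ ⊤ := by
    intro htop
    have h := hF2 1 zero_le_one
    rw [htop] at h
    simp at h
  have hμM : μ = ENNReal.ofReal μ.toReal := (ENNReal.ofReal_toReal hfin).symm
  have hM0 : 0 ≤ μ.toReal := ENNReal.toReal_nonneg
  have hS0 : 0 ≤ ∑ b, cc β u b := Finset.sum_nonneg fun b _ => cc_nonneg β u b
  have hkap : 0 ≤ kap β := (kap_pos β).le
  unfold kap
  apply lim_lemma (kk β) (cc β u) μ.toReal (1 / (1 + ∑ b, cc β u b)) (by positivity)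
  · intro ε hε hε0
    have hsmall : ∀ b, ε * cc β u b ≤ 1 := by
      intro b
      have h1 : cc β u b ≤ ∑ b, cc β u b :=
        Finset.single_le_sum (fun b _ => cc_nonneg β u b) (Finset.mem_univ b)
      have h2 : ε * (1 + ∑ b, cc β u b) < 1 := by rwa [lt_div_iff₀ (by positivity)] at hε0
      nlinarith [cc_nonneg β u b]
    have hP : 0 ≤ ∏ b, (1 - ε * cc β u b) ^ kk β b / ((kk β b).factorial : ℝ) := by
      apply Finset.prod_nonneg
      intro b _
      have := hsmall b
      have h1 : 0 ≤ 1 - ε * cc β u b := by linarith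
      positivity
    have h := F1 u hu (KB β) hK hc ε hε.le
    rw [vol_inter β u ε hε.le hsmall, vol_KB, hμ, hμM, ← ENNReal.ofReal_mul hε.le,
      ← ENNReal.ofReal_add hP (mul_nonneg hε.le hM0)] at h
    have h3 := (ENNReal.ofReal_le_ofReal_iff (add_nonneg hP (mul_nonneg hε.le hM0))).mp h
    unfold kap at h3
    exact h3
  · intro ε hε hε0
    have hP : 0 ≤ ∏ b, (1 + ε * cc β u b) ^ kk β b / ((kk β b).factorial : ℝ) := by
      apply Finset.prod_nonneg
      intro b _
      have h1 : 0 ≤ 1 + ε * cc β u b := by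
        have := mul_nonneg hε.le (cc_nonneg β u b)
        linarith
      positivity
    have h := hF2 ε hε.le
    rw [vol_KB, hμM, ← ENNReal.ofReal_mul hε.le,
      ← ENNReal.ofReal_add hkap (mul_nonneg hε.le hM0)] at h
    have h3 := (ENNReal.ofReal_le_ofReal_iff hP).mp h
    unfold kap at h3
    exact h3

-- CHUNK C13
theorem C13_block {ι : Type} (s : Finset ι) (a : ℝ) (z v : ι → ℝ)
    (h1 : ∀ i ∈ s, |z i| ≤ a) (h2 : ∀ i ∈ s, ∀ j ∈ s, z i - z j ≤ a) :
    ∑ i ∈ s, z i * v i ≤ a * max (∑ i ∈ s, max (v i) 0) (∑ i ∈ s, max (-(v i)) 0) := by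
  rcases s.eq_empty_or_nonempty with rfl | hne
  · simp
  obtain ⟨iM, hiM, hM⟩ := Finset.exists_max_image s z hne
  obtain ⟨im, him, hm⟩ := Finset.exists_min_image s z hne
  have hp : 0 ≤ ∑ i ∈ s, max (v i) 0 := Finset.sum_nonneg fun i _ => le_max_right _ _
  have hq : 0 ≤ ∑ i ∈ s, max (-(v i)) 0 := Finset.sum_nonneg fun i _ => le_max_right _ _
  have hs : ∑ i ∈ s, z i * v i
      ≤ z iM * (∑ i ∈ s, max (v i) 0) - z im * (∑ i ∈ s, max (-(v i)) 0) := by
    rw [Finset.mul_sum, Finset.mul_sum, ← Finset.sum_sub_distrib]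
    apply Finset.sum_le_sum
    intro i hi
    have e : max (v i) 0 - max (-(v i)) 0 = v i := by
      rcases le_total 0 (v i) with h | h
      · rw [max_eq_left h, max_eq_right (by linarith)]; ring
      · rw [max_eq_right h, max_eq_left (by linarith)]; ring
    have a1 := hM i hi
    have a2 := hm i hi
    have b1 : 0 ≤ max (v i) 0 := le_max_right _ _
    have b2 : 0 ≤ max (-(v i)) 0 := le_max_right _ _
    have c1 := mul_le_mul_of_nonneg_right a1 b1
    have c2 := mul_le_mul_of_nonneg_right a2 b2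
    calc z i * v i = z i * max (v i) 0 - z i * max (-(v i)) 0 := by rw [← mul_sub, e]
      _ ≤ z iM * max (v i) 0 - z im * max (-(v i)) 0 := by linarith
  have hMa : z iM ≤ a := (abs_le.1 (h1 iM hiM)).2
  have hma : -a ≤ z im := (abs_le.1 (h1 im him)).1
  have hd : z iM - z im ≤ a := h2 iM hiM im him
  have hcc1 : ∑ i ∈ s, max (v i) 0 ≤ max (∑ i ∈ s, max (v i) 0) (∑ i ∈ s, max (-(v i)) 0) :=
    le_max_left _ _
  have hcc2 : ∑ i ∈ s, max (-(v i)) 0 ≤ max (∑ i ∈ s, max (v i) 0) (∑ i ∈ s, max (-(v i)) 0) :=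
    le_max_right _ _
  have ha : 0 ≤ a := le_trans (abs_nonneg _) (h1 iM hiM)
  rcases le_total (∑ i ∈ s, max (-(v i)) 0) (∑ i ∈ s, max (v i) 0) with h | h
  · have c1 := mul_le_mul_of_nonneg_right hMa (sub_nonneg.2 h)
    have c2 := mul_le_mul_of_nonneg_right hd hq
    have c3 := mul_le_mul_of_nonneg_left hcc1 ha
    nlinarith
  · have c1 := mul_le_mul_of_nonneg_right hd hp
    have c2 := mul_le_mul_of_nonneg_right (neg_le.1 hma) (sub_nonneg.2 h)
    have c3 := mul_le_mul_of_nonneg_left hcc2 ha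
    nlinarith

theorem inner_le_of_ZZ (β : Fin n → B) (a : B → ℝ) (x u : EE n)
    (hx : (fun i => x i) ∈ ZZ β a) : inner ℝ x u ≤ ∑ b, a b * cc β u b := by
  have h : inner ℝ x u = ∑ i : Fin n, x i * u i := by
    rw [PiLp.inner_apply]
    apply Finset.sum_congr rfl
    intro i _
    simp [mul_comm]
  have h2 : ∑ i : Fin n, x i * u i = ∑ b, ∑ i ∈ blk β b, x i * u i := by
    unfold blk
    exact (Finset.sum_fiberwise Finset.univ β fun i => x i * u i).symm
  rw [h, h2]
  apply Finset.sum_le_sum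
  intro b _
  unfold cc
  apply C13_block (blk β b) (a b) (fun i => x i) (fun i => u i)
  · intro i hi
    have hb : β i = b := by simpa [blk] using hi
    have := hx.1 i
    rw [hb] at this
    exact this
  · intro i hi j hj
    have hb : β i = b := by simpa [blk] using hi
    have hb' : β j = b := by simpa [blk] using hj
    have := hx.2 i j (hb.trans hb'.symm)
    rw [hb] at this
    exact this

-- CHUNK C14
theorem C14_cc_smul (β : Fin n → B) (t : ℝ) (ht : 0 ≤ t) (w : EE n) (b : B) :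
    cc β (t • w) b = t * cc β w b := by
  unfold cc
  have h1 : ∀ i, max ((t • w) i) 0 = t * max (w i) 0 := fun i => by
    rw [PiLp.smul_apply, smul_eq_mul, mul_max_of_nonneg _ _ ht, mul_zero]
  have h2 : ∀ i, max (-((t • w) i)) 0 = t * max (-(w i)) 0 := fun i => by
    rw [PiLp.smul_apply, smul_eq_mul, mul_max_of_nonneg _ _ ht, mul_zero, mul_neg]
  simp only [h1, h2, ← Finset.mul_sum]
  rw [mul_max_of_nonneg _ _ ht]

theorem C14_hom (β : Fin n → B) (a : B → ℝ) (x : EE n)
    (h : ∀ u : EE n, ‖u‖ = 1 → inner ℝ x u ≤ ∑ b, a b * cc β u b) (w : EE n) :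
    inner ℝ x w ≤ ∑ b, a b * cc β w b := by
  by_cases hw : w = 0
  · subst hw; simp [cc]
  · have hn : 0 < ‖w‖ := norm_pos_iff.2 hw
    have h1 := h (‖w‖⁻¹ • w) (by rw [norm_smul, norm_inv, norm_norm, inv_mul_cancel₀ hn.ne'])
    rw [inner_smul_right] at h1
    simp only [C14_cc_smul β _ (inv_nonneg.2 hn.le)] at h1
    have h2 : ∑ b, a b * (‖w‖⁻¹ * cc β w b) = ‖w‖⁻¹ * ∑ b, a b * cc β w b := by
      rw [Finset.mul_sum]; exact Finset.sum_congr rfl fun b _ => by ring
    rw [h2] at h1
    exact le_of_mul_le_mul_left h1 (inv_pos.2 hn)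

theorem C14_sum_ind (β : Fin n → B) (i : Fin n) (s : ℝ) (b : B) :
    ∑ k ∈ blk β b, (if k = i then s else 0) = if β i = b then s else 0 := by
  rw [Finset.sum_ite_eq']; simp [blk]

theorem C14_test (β : Fin n → B) (a : B → ℝ) (w : EE n) (i j : Fin n) (s t : ℝ) (hij : β i = β j)
    (hst : max s t = 1)
    (hP : ∀ k, max (w k) 0 = if k = i then s else 0)
    (hN : ∀ k, max (-(w k)) 0 = if k = j then t else 0) :
    ∑ b, a b * cc β w b = a (β i) := by
  have hcc : ∀ b, cc β w b = if β i = b then 1 else 0 := by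
    intro b
    unfold cc
    simp only [hP, hN, C14_sum_ind, ← hij]
    split_ifs
    · exact hst
    · simp
  simp only [hcc, mul_ite, mul_one, mul_zero, Finset.sum_ite_eq, Finset.mem_univ, if_true]

theorem ZZ_of_inner_le (β : Fin n → B) (a : B → ℝ) (x : EE n)
    (h : ∀ u : EE n, ‖u‖ = 1 → inner ℝ x u ≤ ∑ b, a b * cc β u b) :
    (fun i => x i) ∈ ZZ β a := by
  have hh := C14_hom β a x h
  have h1 : ∀ i, x i ≤ a (β i) := by
    intro i
    have := hh (EuclideanSpace.single i 1)
    rw [C14_test β a (EuclideanSpace.single i 1) i i 1 0 rfl (by norm_num)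
      (fun k => by by_cases hk : k = i <;> simp [hk])
      (fun k => by by_cases hk : k = i <;> simp [hk])] at this
    simpa [EuclideanSpace.inner_single_right] using this
  have h2 : ∀ i, -(x i) ≤ a (β i) := by
    intro i
    have := hh (EuclideanSpace.single i (-1))
    rw [C14_test β a (EuclideanSpace.single i (-1)) i i 0 1 rfl (by norm_num)
      (fun k => by by_cases hk : k = i <;> simp [hk])
      (fun k => by by_cases hk : k = i <;> simp [hk])] at this
    simpa [EuclideanSpace.inner_single_right] using this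
  refine ⟨fun i => abs_le.2 ⟨by linarith [h2 i], h1 i⟩, fun i j hij => ?_⟩
  by_cases hne : i = j
  · subst hne
    have := h1 i
    have := h2 i
    show x i - x i ≤ a (β i)
    linarith
  · have := hh (EuclideanSpace.single i 1 - EuclideanSpace.single j 1)
    rw [C14_test β a (EuclideanSpace.single i 1 - EuclideanSpace.single j 1) i j 1 1 hij (by norm_num)
      (fun k => by
        by_cases hk : k = i
        · subst hk; simp [hne]
        · by_cases hk2 : k = j
          · subst hk2; simp [hk]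
          · simp [hk, hk2])
      (fun k => by
        by_cases hk : k = i
        · subst hk; simp [hne]
        · by_cases hk2 : k = j
          · subst hk2; simp [hk]
          · simp [hk, hk2])] at this
    simpa [inner_sub_right, EuclideanSpace.inner_single_right] using this

-- CHUNK C15
theorem C15_sum {m : ℕ} (β : Fin (m + 1) → B) (u : EE (m + 1)) :
    kap β * ∑ b, (kk β b : ℝ) * cc β u b = ∑ b, aa β b * cc β u b := by
  rw [Finset.mul_sum]
  refine Finset.sum_congr rfl fun b _ => ?_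
  unfold aa
  ring

theorem PiB_KB {m : ℕ} (β : Fin (m + 1) → B) :
    PiB (KB β) = {x : EE (m + 1) | (fun i => x i) ∈ ZZ β (aa β)} := by
  ext x
  constructor
  · intro hx
    refine ZZ_of_inner_le β (aa β) x fun u hu => ?_
    have hu' : u ∈ Metric.sphere (0 : EE (m + 1)) 1 := by
      simpa [mem_sphere_zero_iff_norm] using hu
    have h1 := Set.mem_iInter₂.1 hx u hu'
    have h2 : inner ℝ x u ≤
        ((μHE[m] : Measure (EE (m + 1))) ((fun y => y - inner ℝ y u • u) '' KB β)).toReal := h1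
    rw [shadow_KB β u hu, C15_sum] at h2
    exact h2
  · intro hx
    refine Set.mem_iInter₂.2 fun u hu' => ?_
    have hu : ‖u‖ = 1 := by simpa [mem_sphere_zero_iff_norm] using hu'
    show inner ℝ x u ≤
        ((μHE[m] : Measure (EE (m + 1))) ((fun y => y - inner ℝ y u • u) '' KB β)).toReal
    rw [shadow_KB β u hu, C15_sum]
    exact inner_le_of_ZZ β (aa β) x u hx

theorem vol_PiB_KB {m : ℕ} (β : Fin (m + 1) → B) :
    volume (PiB (KB β)) = ENNReal.ofReal (∏ b, aa β b ^ kk β b * ((kk β b : ℝ) + 1)) := by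
  rw [PiB_KB, vol_EE (m + 1) _ (measurableSet_ZZ β (aa β))]
  exact vol_ZZ β (aa β) fun b => mul_nonneg (kap_pos β).le (Nat.cast_nonneg _)

-- CHUNK C16
theorem ratio_KB {m : ℕ} (β : Fin (m + 1) → B) :
    (volume (PiB (KB β))).toReal / (volume (KB β)).toReal ^ m = ∏ b, FF (kk β b) := by
  rw [vol_PiB_KB, vol_KB]
  have hk := kap_pos β
  have hnn : 0 ≤ ∏ b, aa β b ^ kk β b * ((kk β b : ℝ) + 1) :=
    Finset.prod_nonneg (fun b _ =>
      mul_nonneg (pow_nonneg (mul_nonneg hk.le (Nat.cast_nonneg _)) _) (by positivity))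
  rw [ENNReal.toReal_ofReal hnn, ENNReal.toReal_ofReal hk.le]
  have h1 : ∏ b, aa β b ^ kk β b * ((kk β b : ℝ) + 1)
      = kap β ^ (m + 1) * ∏ b, ((kk β b : ℝ) ^ kk β b * ((kk β b : ℝ) + 1)) := by
    have hs : ∑ b, kk β b = m + 1 := by simpa using sum_kk β
    have hp : kap β ^ (m + 1) = ∏ b, kap β ^ kk β b := by
      rw [Finset.prod_pow_eq_pow_sum, hs]
    rw [hp, ← Finset.prod_mul_distrib]
    apply Finset.prod_congr rfl
    intro b _
    unfold aa
    rw [mul_pow]
    ring
  have h2 : kap β * ∏ b, ((kk β b : ℝ) ^ kk β b * ((kk β b : ℝ) + 1)) = ∏ b, FF (kk β b) := by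
    unfold kap
    rw [← Finset.prod_mul_distrib]
    apply Finset.prod_congr rfl
    intro b _
    unfold FF
    have hf : ((kk β b).factorial : ℝ) ≠ 0 := by positivity
    field_simp
  rw [h1, ← h2, pow_succ]
  have hkm : kap β ^ m ≠ 0 := (pow_pos hk m).ne'
  field_simp

-- CHUNK C17
-- CHUNK C17
theorem C17_ext_aux {A : Set (EE n)} {x v : EE n} (hx : x ∈ A.extremePoints ℝ)
    (h1 : x + v ∈ A) (h2 : x - v ∈ A) : v = 0 := by
  have h := (mem_extremePoints.1 hx).2 _ h1 _ h2
    ⟨1/2, 1/2, by norm_num, by norm_num, by norm_num, by module⟩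
  simpa using h.1

theorem C17_KB_pm (β : Fin n → B) {x v : EE n} (hx : x ∈ KB β) (h1 : ∀ k, |v k| ≤ x k)
    (h2 : ∀ b, |∑ k ∈ blk β b, v k| ≤ 1 - ∑ k ∈ blk β b, x k) :
    x + v ∈ KB β ∧ x - v ∈ KB β := by
  refine ⟨⟨fun k => ?_, fun b => ?_⟩, ⟨fun k => ?_, fun b => ?_⟩⟩
  · have := abs_le.1 (h1 k)
    simp only [PiLp.add_apply]; linarith [this.1]
  · have := abs_le.1 (h2 b)
    simp only [PiLp.add_apply, Finset.sum_add_distrib]; linarith [this.2]
  · have := abs_le.1 (h1 k)
    simp only [PiLp.sub_apply]; linarith [this.2]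
  · have := abs_le.1 (h2 b)
    simp only [PiLp.sub_apply, Finset.sum_sub_distrib]; linarith [this.1]

theorem C17_ext_zero_one (β : Fin n → B) {x : EE n} (hx : x ∈ (KB β).extremePoints ℝ)
    (i : Fin n) : x i = 0 ∨ x i = 1 := by
  classical
  by_contra hcon
  push_neg at hcon
  obtain ⟨h0, h1⟩ := hcon
  have hxK : x ∈ KB β := hx.1
  have hnn : ∀ k, 0 ≤ x k := hxK.1
  have hs : ∀ b, ∑ k ∈ blk β b, x k ≤ 1 := hxK.2
  have hi : i ∈ blk β (β i) := by simp [blk]
  have hpos : 0 < x i := lt_of_le_of_ne (hnn i) (Ne.symm h0)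
  rcases lt_or_eq_of_le (hs (β i)) with hlt | heq
  · -- the block constraint is slack: move along `e_i`
    obtain ⟨ε, hε⟩ : ∃ ε, ε = min (x i) (1 - ∑ k ∈ blk β (β i), x k) := ⟨_, rfl⟩
    have hεpos : 0 < ε := hε ▸ lt_min hpos (by linarith)
    have hε1 : ε ≤ x i := hε ▸ min_le_left _ _
    have hε2 : ε ≤ 1 - ∑ k ∈ blk β (β i), x k := hε ▸ min_le_right _ _
    have hv := C17_KB_pm β (v := EuclideanSpace.single i ε) hxK ?_ ?_
    · have h3 := congrArg (fun w : EE n => w i) (C17_ext_aux hx hv.1 hv.2)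
      simp at h3
      linarith
    · intro k
      rw [EuclideanSpace.single_apply]
      split_ifs with hk
      · subst hk; rw [abs_of_pos hεpos]; exact hε1
      · simpa using hnn k
    · intro b
      simp only [EuclideanSpace.single_apply, Finset.sum_ite_eq']
      split_ifs with hb
      · have hb' : β i = b := by simpa [blk] using hb
        subst hb'; rw [abs_of_pos hεpos]; exact hε2
      · simpa using hs b
  · -- the block constraint is tight: move along `e_i - e_j`
    have hex : ∃ j ∈ blk β (β i), j ≠ i ∧ 0 < x j := by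
      by_contra hno
      push_neg at hno
      have hsum : ∑ k ∈ blk β (β i), x k = x i := by
        apply Finset.sum_eq_single_of_mem i hi
        intro j hj hji
        exact le_antisymm (hno j hj hji) (hnn j)
      exact h1 (hsum ▸ heq)
    obtain ⟨j, hj, hji, hjpos⟩ := hex
    have hβ : β j = β i := by simpa [blk] using hj
    obtain ⟨ε, hε⟩ : ∃ ε, ε = min (x i) (x j) := ⟨_, rfl⟩
    have hεpos : 0 < ε := hε ▸ lt_min hpos hjpos
    have hε1 : ε ≤ x i := hε ▸ min_le_left _ _
    have hε2 : ε ≤ x j := hε ▸ min_le_right _ _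
    have hv := C17_KB_pm β
      (v := EuclideanSpace.single i ε - EuclideanSpace.single j ε) hxK ?_ ?_
    · have h3 := congrArg (fun w : EE n => w i) (C17_ext_aux hx hv.1 hv.2)
      simp [EuclideanSpace.single_apply, hji.symm] at h3
      linarith
    · intro k
      rw [PiLp.sub_apply, EuclideanSpace.single_apply, EuclideanSpace.single_apply]
      by_cases hk : k = i
      · subst hk
        rw [if_pos rfl, if_neg (Ne.symm hji), sub_zero, abs_of_pos hεpos]; exact hε1
      · by_cases hk' : k = j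
        · subst hk'
          rw [if_neg hk, if_pos rfl, zero_sub, abs_neg, abs_of_pos hεpos]; exact hε2
        · rw [if_neg hk, if_neg hk']; simpa using hnn k
    · intro b
      simp only [PiLp.sub_apply, EuclideanSpace.single_apply, Finset.sum_sub_distrib,
        Finset.sum_ite_eq']
      have hiff : (i ∈ blk β b) ↔ (j ∈ blk β b) := by simp [blk, hβ]
      by_cases hb : i ∈ blk β b
      · rw [if_pos hb, if_pos (hiff.1 hb)]; simpa using hs b
      · rw [if_neg hb, if_neg (fun h => hb (hiff.2 h))]; simpa using hs b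

theorem exists_hull (β : Fin n → B) :
    ∃ S : Finset (EE n), convexHull ℝ (S : Set (EE n)) = KB β := by
  classical
  have hfin : ((KB β).extremePoints ℝ).Finite := by
    have hf : (Set.range fun f : Fin n → Bool =>
        (WithLp.toLp 2 (fun i => if f i then (1 : ℝ) else 0) : EE n)).Finite :=
      Set.finite_range _
    refine hf.subset fun x hx => ⟨fun i => decide (x i = 1), ?_⟩
    ext i
    rcases C17_ext_zero_one β hx i with h | h <;> simp [h]
  refine ⟨hfin.toFinset, ?_⟩
  rw [Set.Finite.coe_toFinset]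
  have h := closure_convexHull_extremePoints (isCompact_KB β) (convex_KB β)
  rwa [(hfin.isClosed_convexHull ℝ).closure_eq] at h

end Bodies

/-! ## Section 4 : blocks of ten, arithmetic -/

/-- blocks of ten consecutive coordinates (the last block has `n % 10` elements) -/
def b10 (n : ℕ) : Fin n → Fin (n / 10 + 1) :=
  fun i => ⟨i.1 / 10, Nat.lt_succ_of_le (Nat.div_le_div_right i.2.le)⟩

-- CHUNK C18
theorem kk_b10 (n : ℕ) (b : Fin (n / 10 + 1)) (hb : b.1 < n / 10) : kk (b10 n) b = 10 := by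
  classical
  unfold kk blk
  have hmap : ((Finset.univ.filter fun i : Fin n => b10 n i = b).map Fin.valEmbedding) =
      Finset.Ico (10 * b.1) (10 * b.1 + 10) := by
    ext x
    simp only [Finset.mem_map, Finset.mem_filter, Finset.mem_univ, true_and, Finset.mem_Ico,
      Fin.valEmbedding_apply]
    constructor
    · rintro ⟨i, hi, rfl⟩
      have h1 : i.1 / 10 = b.1 := by
        have := congrArg Fin.val hi
        simpa [b10] using this
      omega
    · rintro ⟨h1, h2⟩
      have hx : x < n := by omega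
      refine ⟨⟨x, hx⟩, ?_, rfl⟩
      apply Fin.ext
      simp only [b10]
      omega
  have hcard := congrArg Finset.card hmap
  rw [Finset.card_map, Nat.card_Ico] at hcard
  omega

theorem one_le_FF (k : ℕ) : 1 ≤ FF k := by
  unfold FF
  have hf : (0 : ℝ) < (k.factorial : ℝ) := by exact_mod_cast Nat.factorial_pos k
  rw [le_div_iff₀ hf, one_mul]
  have h1 : (k.factorial : ℝ) ≤ (k : ℝ) ^ k := by exact_mod_cast Nat.factorial_le_pow k
  have h2 : (0 : ℝ) ≤ (k : ℝ) ^ k := by positivity
  have h3 : (0 : ℝ) ≤ (k : ℝ) := Nat.cast_nonneg k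
  nlinarith [mul_nonneg h3 h2]

theorem prod_FF_b10 (n : ℕ) : FF 10 ^ (n / 10) ≤ ∏ b, FF (kk (b10 n) b) := by
  rw [Fin.prod_univ_castSucc]
  have h1 : ∏ b : Fin (n / 10), FF (kk (b10 n) (Fin.castSucc b)) = FF 10 ^ (n / 10) := by
    have : ∀ b : Fin (n / 10), FF (kk (b10 n) (Fin.castSucc b)) = FF 10 := by
      intro b
      rw [kk_b10 n (Fin.castSucc b) (by simp)]
    simp only [this, Finset.prod_const, Finset.card_univ, Fintype.card_fin]
  rw [h1]
  have h2 : (0 : ℝ) ≤ FF 10 ^ (n / 10) := pow_nonneg (le_trans zero_le_one (one_le_FF 10)) _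
  calc FF 10 ^ (n / 10) = FF 10 ^ (n / 10) * 1 := (mul_one _).symm
    _ ≤ FF 10 ^ (n / 10) * FF (kk (b10 n) (Fin.last (n / 10))) :=
        mul_le_mul_of_nonneg_left (one_le_FF _) h2

-- CHUNK C19
theorem FF_le (n : ℕ) : FF n ≤ ((n : ℝ) + 1) * Real.exp n := by
  unfold FF
  rw [mul_div_assoc]
  apply mul_le_mul_of_nonneg_left _ (by positivity)
  exact Real.pow_div_factorial_le_exp (n : ℝ) (Nat.cast_nonneg n) n

theorem C19_lin : ∃ Q : ℕ, ∀ q : ℕ, Q ≤ q →
    (3 : ℝ) ^ 9 * (10 * (q : ℝ) + 10) ≤ (124 / 100 : ℝ) ^ q := by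
  have h := tendsto_pow_const_div_const_pow_of_one_lt 1 (show (1 : ℝ) < 124 / 100 by norm_num)
  have h2 : ∀ᶠ q : ℕ in Filter.atTop, (q : ℝ) ^ 1 / (124 / 100 : ℝ) ^ q < 1 / (3 ^ 9 * 20) :=
    h.eventually (gt_mem_nhds (by positivity))
  obtain ⟨Q, hQ⟩ := Filter.eventually_atTop.1 h2
  refine ⟨max Q 1, fun q hq => ?_⟩
  have hq1 : 1 ≤ q := le_trans (le_max_right _ _) hq
  have h3 := hQ q (le_trans (le_max_left _ _) hq)
  have hpos : (0 : ℝ) < (124 / 100 : ℝ) ^ q := by positivity
  rw [div_lt_div_iff₀ hpos (by positivity), pow_one, one_mul] at h3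
  have hq1' : (1 : ℝ) ≤ q := by exact_mod_cast hq1
  nlinarith

theorem growth : ∃ N : ℕ, 20 ≤ N ∧ ∀ n : ℕ, N ≤ n →
    (101 / 100 : ℝ) ^ n * (((n : ℝ) + 1) * Real.exp n) ≤ FF 10 ^ (n / 10) := by
  obtain ⟨Q, hQ⟩ := C19_lin
  refine ⟨max 20 (10 * Q), le_max_left _ _, fun n hn => ?_⟩
  set q := n / 10 with hq
  set r := n % 10 with hr
  have hn' : n = 10 * q + r := (Nat.div_add_mod n 10).symm
  have hr9 : r ≤ 9 := by
    have : r < 10 := Nat.mod_lt n (by norm_num)
    omega
  have hQq : Q ≤ q := by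
    have : 10 * Q ≤ n := le_trans (le_max_right _ _) hn
    omega
  set a : ℝ := 101 / 100 * Real.exp 1 with ha
  have he1 : Real.exp 1 < 2.7182818286 := Real.exp_one_lt_d9
  have he0 : (1 : ℝ) ≤ Real.exp 1 := by
    have := Real.add_one_le_exp (1 : ℝ)
    linarith
  have ha1 : 1 ≤ a := by rw [ha]; nlinarith
  have ha0 : 0 ≤ a := by linarith
  have ha3 : a ≤ 3 := by rw [ha]; nlinarith
  have ha10 : a ^ 10 ≤ 24334 := by
    have h1 : a ≤ 101 / 100 * 2.7182818286 := by rw [ha]; nlinarith
    calc a ^ 10 ≤ (101 / 100 * 2.7182818286 : ℝ) ^ 10 := pow_le_pow_left₀ ha0 h1 10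
      _ ≤ 24334 := by norm_num
  have hF : (24334 : ℝ) * (124 / 100) ≤ FF 10 := by
    unfold FF
    norm_num [Nat.factorial]
  have e1 : (101 / 100 : ℝ) ^ n * (((n : ℝ) + 1) * Real.exp n) = a ^ n * ((n : ℝ) + 1) := by
    rw [ha, mul_pow, Real.exp_one_pow]; ring
  rw [e1]
  have e2 : a ^ n = (a ^ 10) ^ q * a ^ r := by
    conv_lhs => rw [hn']
    rw [pow_add, pow_mul]
  have h1 : a ^ r ≤ 3 ^ 9 := by
    calc a ^ r ≤ a ^ 9 := pow_le_pow_right₀ ha1 hr9
      _ ≤ 3 ^ 9 := pow_le_pow_left₀ ha0 ha3 9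
  have h2 : (a ^ 10) ^ q ≤ (24334 : ℝ) ^ q := pow_le_pow_left₀ (by positivity) ha10 q
  have h3 : ((n : ℝ) + 1) ≤ 10 * (q : ℝ) + 10 := by
    have : (n : ℝ) = 10 * (q : ℝ) + (r : ℝ) := by exact_mod_cast hn'
    have hr' : (r : ℝ) ≤ 9 := by exact_mod_cast hr9
    linarith
  have h4 := hQ q hQq
  calc a ^ n * ((n : ℝ) + 1) = (a ^ 10) ^ q * (a ^ r * ((n : ℝ) + 1)) := by rw [e2]; ring
    _ ≤ (24334 : ℝ) ^ q * (3 ^ 9 * (10 * (q : ℝ) + 10)) := by
        apply mul_le_mul h2 _ (by positivity) (by positivity)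
        exact mul_le_mul h1 h3 (by positivity) (by positivity)
    _ ≤ (24334 : ℝ) ^ q * (124 / 100 : ℝ) ^ q := by
        apply mul_le_mul_of_nonneg_left h4 (by positivity)
    _ = ((24334 : ℝ) * (124 / 100)) ^ q := by rw [mul_pow]
    _ ≤ FF 10 ^ q := pow_le_pow_left₀ (by positivity) hF q

-- CHUNK C20
theorem simplex_eq (n : ℕ) :
    {x : EE n | (∀ i, 0 ≤ x i) ∧ ∑ i, x i ≤ 1} = KB (fun _ : Fin n => ()) := by
  ext x
  have hb : blk (fun _ : Fin n => ()) () = Finset.univ := by
    ext i; simp [blk]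
  simp only [KB, TE, Set.mem_ofPred_eq]
  constructor
  · rintro ⟨h1, h2⟩
    refine ⟨h1, fun b => ?_⟩
    cases b
    rw [hb]; exact h2
  · rintro ⟨h1, h2⟩
    refine ⟨h1, ?_⟩
    have := h2 ()
    rw [hb] at this; exact this

theorem ratio_simplex (m : ℕ) :
    (volume (PiB (KB (fun _ : Fin (m + 1) => ())))).toReal /
      (volume (KB (fun _ : Fin (m + 1) => ()))).toReal ^ m = FF (m + 1) := by
  rw [ratio_KB]
  have hk : kk (fun _ : Fin (m + 1) => ()) () = m + 1 := by
    simp [kk, blk]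
  simp [hk]

theorem result :
    ∃ lam : ℝ, 1 < lam ∧ ∃ N : ℕ, 20 ≤ N ∧ ∀ n : ℕ, N ≤ n →
      ∃ S : Finset (EuclideanSpace ℝ (Fin n)),
        (interior (convexHull ℝ (S : Set (EuclideanSpace ℝ (Fin n))))).Nonempty ∧
        lam ^ n *
            ((volume (⋂ u ∈ Metric.sphere (0 : EuclideanSpace ℝ (Fin n)) 1,
          {x : EuclideanSpace ℝ (Fin n) | inner ℝ x u ≤
            ((μHE[n - 1] : Measure (EuclideanSpace ℝ (Fin n))) ((fun y => y - inner ℝ y u • u) '' {x : EuclideanSpace ℝ (Fin n) | (∀ i, 0 ≤ x i) ∧ ∑ i, x i ≤ 1})).toReal})).toReal /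
              (volume {x : EuclideanSpace ℝ (Fin n) | (∀ i, 0 ≤ x i) ∧ ∑ i, x i ≤ 1}).toReal ^ (n - 1)) ≤
          (volume (⋂ u ∈ Metric.sphere (0 : EuclideanSpace ℝ (Fin n)) 1,
          {x : EuclideanSpace ℝ (Fin n) | inner ℝ x u ≤
            ((μHE[n - 1] : Measure (EuclideanSpace ℝ (Fin n))) ((fun y => y - inner ℝ y u • u) '' (convexHull ℝ (S : Set (EuclideanSpace ℝ (Fin n)))))).toReal})).toReal /
            (volume (convexHull ℝ (S : Set (EuclideanSpace ℝ (Fin n))))).toReal ^ (n - 1) := by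
  obtain ⟨N, hN20, hN⟩ := growth
  refine ⟨101 / 100, by norm_num, N, hN20, ?_⟩
  intro n hn
  obtain ⟨m, rfl⟩ : ∃ m, n = m + 1 := ⟨n - 1, by omega⟩
  obtain ⟨S, hS⟩ := exists_hull (b10 (m + 1))
  refine ⟨S, ?_, ?_⟩
  · rw [hS]; exact interior_KB_nonempty _
  · rw [hS, simplex_eq]
    simp only [Nat.add_sub_cancel]
    have h1 := ratio_simplex m
    have h2 := ratio_KB (b10 (m + 1))
    unfold PiB at h1 h2
    rw [h1, h2]
    calc (101 / 100 : ℝ) ^ (m + 1) * FF (m + 1)
        ≤ (101 / 100 : ℝ) ^ (m + 1) * ((((m + 1 : ℕ) : ℝ) + 1) * Real.exp ((m + 1 : ℕ) : ℝ)) := by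
          gcongr
          exact FF_le (m + 1)
      _ ≤ FF 10 ^ ((m + 1) / 10) := hN (m + 1) hn
      _ ≤ _ := prod_FF_b10 (m + 1)

end Crest.Agent.S0356

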