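import Mathlib
import Crest.Prelude.Def_SwitchChain

/-!
# S0453 (switch chain): common definitions  (FROZEN interface, owner helper77)

Generic layer: a finite uniform probability space `X : Finset α`, conditional expectation `cE X κ`
given a key `κ : α → β`, un-normalised inner product `ip X`.

Graph layer: `Om d` = realizations of `d` (as a subtype), slots = `Edge n`,
`Q d A` = conditional expectation given all slots outside `A` ("resample the slots of `A`").
-/

set_option autoImplicit false
open Finset

namespace Crest.Agent.SW

section generic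
variable {α β : Type*} [DecidableEq β]

/-- The fibre of the key `κ` through `x`, inside `X`. -/
def fib (X : Finset α) (κ : α → β) (x : α) : Finset α := X.filter (fun y => κ y = κ x)

/-- Conditional expectation (uniform measure on `X`) given the key `κ`. -/
noncomputable def cE (X : Finset α) (κ : α → β) (f : α → ℝ) : α → ℝ :=
  fun x => (∑ y ∈ fib X κ x, f y) / ((fib X κ x).card : ℝ)

/-- Un-normalised inner product on `X`. -/
def ip (X : Finset α) (f g : α → ℝ) : ℝ := ∑ x ∈ X, f x * g x

/-- Squared norm. -/
def nsq (X : Finset α) (f : α → ℝ) : ℝ := ∑ x ∈ X, f x ^ 2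

/-- `f - E[f | κ]`. -/
noncomputable def cR (X : Finset α) (κ : α → β) (f : α → ℝ) : α → ℝ :=
  fun x => f x - cE X κ f x

end generic

section graph
open Crest.SwitchChain
variable {n : ℕ}

/-- Realizations of `d` as a type. -/
abbrev Om (d : Fin n → ℕ) := {G : Finset (Edge n) // G ∈ realizations d}

/-- The slots incident to the vertex set `K`. -/
def inc (K : Finset (Fin n)) : Finset (Edge n) := univ.filter (fun e => ∃ v ∈ K, v ∈ e.1)

/-- Key "all slots outside `A`". -/
def offKey (d : Fin n → ℕ) (A : Finset (Edge n)) : Om d → Finset (Edge n) := fun G => G.1 \ A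

/-- `Q d A f` : resample the slots of `A` (conditional expectation given the slots outside `A`). -/
noncomputable def Q (d : Fin n → ℕ) (A : Finset (Edge n)) (f : Om d → ℝ) : Om d → ℝ :=
  cE univ (offKey d A) f

/-- `R d A f = f - Q d A f`. -/
noncomputable def R (d : Fin n → ℕ) (A : Finset (Edge n)) (f : Om d → ℝ) : Om d → ℝ :=
  cR univ (offKey d A) f

/-- The 2-subsets of the vertex set. -/
def P2 (n : ℕ) : Finset (Finset (Fin n)) := (univ : Finset (Fin n)).powersetCard 2

/-- The 2-subsets disjoint from `p`. -/
def P2d (p : Finset (Fin n)) : Finset (Finset (Fin n)) := (P2 n).filter (fun p' => Disjoint p p')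

/-- The block of 4 slots between two disjoint pairs. -/
def blk (p p' : Finset (Fin n)) : Finset (Edge n) := inc p ∩ inc p'

/-- `G` restricted to the block `p × p'` is a perfect matching of `p ∪ p'`
(i.e. the 2x2 block is `diag` or `antidiag`: the switch on the 4-cycle `p × p'` is available). -/
def Dm (p p' : Finset (Fin n)) (G : Finset (Edge n)) : Prop :=
  ∀ v ∈ p ∪ p', ((G ∩ blk p p').filter (fun e => v ∈ e.1)).card = 1

instance (p p' : Finset (Fin n)) (G : Finset (Edge n)) : Decidable (Dm p p' G) := by
  unfold Dm; infer_instance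

/-- The "bad" term of the pair `(p,p')` seen from `p`. -/
noncomputable def Wt (d : Fin n → ℕ) (p p' : Finset (Fin n)) (f : Om d → ℝ) : ℝ :=
  ∑ G ∈ (univ : Finset (Om d)).filter (fun G => Dm p p' G.1),
    (Q d (inc p \ inc p') (Q d (blk p p') f) G - Q d (inc p) f G) ^ 2

/-- Sum of the switch energies over the blocks `p × p'`, `p'` disjoint from `p`. -/
noncomputable def swE (d : Fin n → ℕ) (p : Finset (Fin n)) (f : Om d → ℝ) : ℝ :=
  ∑ p' ∈ P2d p, nsq univ (R d (blk p p') f)

end graph

end Crest.Agent.SW
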