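import Crest.Agent.SW_Defs

/-!
# S0453: generic lemmas on conditional expectations `cE X κ` on a finite uniform space.  Task G1.
All proofs are elementary finite sums.
-/

set_option autoImplicit false
open Finset

namespace Crest.Agent.SW

variable {α β γ : Type*} [DecidableEq β] [DecidableEq γ]

/-! ## G1 : basic facts -/

theorem mem_fib {X : Finset α} {κ : α → β} {x y : α} : y ∈ fib X κ x ↔ y ∈ X ∧ κ y = κ x := by
  simp [fib]

theorem mem_fib_self {X : Finset α} {κ : α → β} {x : α} (hx : x ∈ X) : x ∈ fib X κ x := by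
  simp [fib, hx]

theorem fib_eq_of_key {X : Finset α} {κ : α → β} {x y : α} (h : κ x = κ y) :
    fib X κ x = fib X κ y := by
  simp [fib, h]

theorem cE_eq_of_key {X : Finset α} {κ : α → β} {x y : α} (f : α → ℝ) (h : κ x = κ y) :
    cE X κ f x = cE X κ f y := by
  simp [cE, fib_eq_of_key h]

theorem cE_congr {X : Finset α} {κ : α → β} {f g : α → ℝ} (h : ∀ x ∈ X, f x = g x) :
    cE X κ f = cE X κ g := by
  funext x
  unfold cE
  congr 1
  exact Finset.sum_congr rfl (fun y hy => h y (mem_fib.1 hy).1)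

theorem cE_add (X : Finset α) (κ : α → β) (f g : α → ℝ) :
    cE X κ (fun x => f x + g x) = fun x => cE X κ f x + cE X κ g x := by
  funext x
  simp only [cE, Finset.sum_add_distrib, add_div]

theorem cE_sub (X : Finset α) (κ : α → β) (f g : α → ℝ) :
    cE X κ (fun x => f x - g x) = fun x => cE X κ f x - cE X κ g x := by
  funext x
  simp only [cE, Finset.sum_sub_distrib, sub_div]

theorem cE_smul (X : Finset α) (κ : α → β) (c : ℝ) (f : α → ℝ) :
    cE X κ (fun x => c * f x) = fun x => c * cE X κ f x := by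
  funext x
  simp only [cE, ← Finset.mul_sum, mul_div_assoc]

theorem cE_sum {ι : Type*} (s : Finset ι) (X : Finset α) (κ : α → β) (f : ι → α → ℝ) :
    cE X κ (fun x => ∑ i ∈ s, f i x) = fun x => ∑ i ∈ s, cE X κ (f i) x := by
  funext x
  simp only [cE]
  rw [Finset.sum_comm, Finset.sum_div]

theorem cE_const {X : Finset α} {κ : α → β} (c : ℝ) {x : α} (hx : x ∈ X) :
    cE X κ (fun _ => c) x = c := by
  have hpos : (0 : ℝ) < ((fib X κ x).card : ℝ) := by
    exact_mod_cast Finset.card_pos.2 ⟨x, mem_fib_self hx⟩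
  simp only [cE, Finset.sum_const, nsmul_eq_mul]
  field_simp

/-- A `κ`-measurable factor can be pulled out. -/
theorem cE_mul_meas {X : Finset α} {κ : α → β} (h f : α → ℝ)
    (hh : ∀ x ∈ X, ∀ y ∈ X, κ x = κ y → h x = h y) {x : α} (hx : x ∈ X) :
    cE X κ (fun y => h y * f y) x = h x * cE X κ f x := by
  simp only [cE]
  rw [← mul_div_assoc, Finset.mul_sum]
  congr 1
  refine Finset.sum_congr rfl (fun y hy => ?_)
  rw [hh y (mem_fib.1 hy).1 x hx (mem_fib.1 hy).2]

/-- A `κ`-measurable function is fixed. -/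
theorem cE_of_meas {X : Finset α} {κ : α → β} (h : α → ℝ)
    (hh : ∀ x ∈ X, ∀ y ∈ X, κ x = κ y → h x = h y) {x : α} (hx : x ∈ X) :
    cE X κ h x = h x := by
  have h1 := cE_mul_meas (X := X) (κ := κ) h (fun _ => (1 : ℝ)) hh hx
  rw [cE_const (1 : ℝ) hx] at h1
  simpa using h1

theorem cE_idem {X : Finset α} {κ : α → β} (f : α → ℝ) {x : α} (hx : x ∈ X) :
    cE X κ (cE X κ f) x = cE X κ f x := by
  exact cE_of_meas (cE X κ f) (fun a _ b _ hab => cE_eq_of_key f hab) hx

theorem ip_comm (X : Finset α) (f g : α → ℝ) : ip X f g = ip X g f := by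
  simp [ip, mul_comm]

theorem nsq_eq_ip (X : Finset α) (f : α → ℝ) : nsq X f = ip X f f := by
  simp [nsq, ip, sq]

theorem nsq_nonneg (X : Finset α) (f : α → ℝ) : 0 ≤ nsq X f :=
  Finset.sum_nonneg (fun _ _ => sq_nonneg _)

theorem ip_congr {X : Finset α} {f f' g g' : α → ℝ} (h : ∀ x ∈ X, f x = f' x)
    (h' : ∀ x ∈ X, g x = g' x) : ip X f g = ip X f' g' := by
  unfold ip
  exact Finset.sum_congr rfl (fun x hx => by rw [h x hx, h' x hx])

/-- Self-adjointness. -/
theorem ip_cE_symm (X : Finset α) (κ : α → β) (f g : α → ℝ) :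
    ip X (cE X κ f) g = ip X f (cE X κ g) := by
  have key : ∀ (u v : α → ℝ), ip X (cE X κ u) v
      = ∑ x ∈ X, ∑ y ∈ X, if κ y = κ x then u y * v x / ((fib X κ x).card : ℝ) else 0 := by
    intro u v
    unfold ip cE
    refine Finset.sum_congr rfl (fun x _ => ?_)
    rw [div_mul_eq_mul_div, Finset.sum_mul, Finset.sum_div]
    unfold fib
    rw [Finset.sum_filter]
  rw [ip_comm X f (cE X κ g), key f g, key g f, Finset.sum_comm]
  refine Finset.sum_congr rfl (fun x _ => Finset.sum_congr rfl (fun y _ => ?_))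
  by_cases hxy : κ x = κ y
  · rw [if_pos hxy, if_pos hxy.symm, fib_eq_of_key hxy, mul_comm]
  · rw [if_neg hxy, if_neg (fun h => hxy h.symm)]

theorem ip_cE_cE (X : Finset α) (κ : α → β) (f g : α → ℝ) :
    ip X (cE X κ f) (cE X κ g) = ip X f (cE X κ g) := by
  rw [ip_cE_symm]
  exact ip_congr (fun _ _ => rfl) (fun x hx => cE_idem g hx)

/-- Pythagoras. -/
theorem nsq_cR (X : Finset α) (κ : α → β) (f : α → ℝ) :
    nsq X (cR X κ f) = nsq X f - nsq X (cE X κ f) := by
  have h1 : ip X f (cE X κ f) = nsq X (cE X κ f) := by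
    rw [nsq_eq_ip, ip_cE_cE]
  unfold ip at h1
  unfold nsq at h1 ⊢
  unfold cR
  have h2 : ∀ x ∈ X, (f x - cE X κ f x) ^ 2
      = f x ^ 2 - 2 * (f x * cE X κ f x) + cE X κ f x ^ 2 := fun x _ => by ring
  rw [Finset.sum_congr rfl h2, Finset.sum_add_distrib, Finset.sum_sub_distrib, ← Finset.mul_sum, h1]
  ring

theorem nsq_cE_le (X : Finset α) (κ : α → β) (f : α → ℝ) : nsq X (cE X κ f) ≤ nsq X f := by
  have h := nsq_cR X κ f
  have h0 := nsq_nonneg X (cR X κ f)
  linarith

theorem ip_cR_self (X : Finset α) (κ : α → β) (f : α → ℝ) :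
    ip X f (cR X κ f) = nsq X (cR X κ f) := by
  have h1 : ip X f (cE X κ f) = nsq X (cE X κ f) := by
    rw [nsq_eq_ip, ip_cE_cE]
  rw [nsq_cR, ← h1]
  unfold ip nsq cR
  rw [← Finset.sum_sub_distrib]
  exact Finset.sum_congr rfl (fun x _ => by ring)

/-- Variance formula for the trivial key. -/
theorem nsq_cR_unit (X : Finset α) (f : α → ℝ) :
    (X.card : ℝ) * nsq X (cR X (fun _ => ()) f) = (X.card : ℝ) * nsq X f - (∑ x ∈ X, f x) ^ 2 := by
  rw [nsq_cR, mul_sub]
  congr 1
  have hfib : ∀ x, fib X (fun _ : α => ()) x = X := by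
    intro x
    simp [fib]
  unfold nsq cE
  simp only [hfib, Finset.sum_const, nsmul_eq_mul]
  rcases Finset.eq_empty_or_nonempty X with rfl | hne
  · simp
  · have hpos : (0 : ℝ) < (X.card : ℝ) := by exact_mod_cast Finset.card_pos.2 hne
    field_simp

/-- Cauchy-Schwarz. -/
theorem ip_sq_le (X : Finset α) (f g : α → ℝ) : ip X f g ^ 2 ≤ nsq X f * nsq X g := by
  unfold ip nsq
  exact Finset.sum_mul_sq_le_sq_mul_sq X f g

end Crest.Agent.SW
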