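import Mathlib
import Crest.Prelude.Def_SwitchChain

/-!
# Row 299 (S0453): abstract L² mixing argument (helper85)

A symmetric, stochastic, lazy kernel `K` on a finite type, a finite set `Ω` closed under `K`,
and a Poincaré inequality with constant `C` on `Ω` give
`tvDist (K^t G ·) (unifOn Ω) ^ 2 ≤ |Ω| (1 - 1/C)^t / 4`.
-/

set_option autoImplicit false
open Finset

namespace Crest.Agent.SW

open Crest.SwitchChain

variable {α : Type*} [Fintype α] [DecidableEq α]

/-- symmetric, stochastic, lazy kernel for which `Ω` is closed. -/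
structure LazyChain (K : Matrix α α ℝ) (Ω : Finset α) : Prop where
  symm : ∀ a b, K a b = K b a
  nonneg : ∀ a b, 0 ≤ K a b
  rowsum : ∀ a, ∑ b, K a b = 1
  lazy : ∀ a, 1 / 2 ≤ K a a
  closed : ∀ a ∈ Ω, ∀ b, b ∉ Ω → K a b = 0

namespace LazyChain

variable {K : Matrix α α ℝ} {Ω : Finset α}

/-- action of the kernel on a function. -/
private def act (K : Matrix α α ℝ) (v : α → ℝ) : α → ℝ := fun b => ∑ a, K b a * v a

private lemma jensen_aux (w v : α → ℝ) (hw : ∀ a, 0 ≤ w a) (hs : ∑ a, w a = 1) :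
    (∑ a, w a * v a) ^ 2 ≤ ∑ a, w a * v a ^ 2 := by
  have h := (even_two.convexOn_pow (𝕜 := ℝ)).map_sum_le (t := univ) (w := w) (p := v)
    (fun a _ => hw a) hs (fun a _ => Set.mem_univ _)
  simpa [smul_eq_mul] using h

/-- `‖K v‖² ≤ ⟨v, K v⟩` for a lazy symmetric stochastic kernel. -/
lemma sq_act_le (h : LazyChain K Ω) (v : α → ℝ) :
    ∑ b, (∑ a, K b a * v a) ^ 2 ≤ ∑ b, v b * ∑ a, K b a * v a := by
  classical
  -- K' = 2K - 1
  set K' : α → α → ℝ := fun b a => 2 * K b a - (if b = a then 1 else 0) with hK'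
  have hK'nn : ∀ b a, 0 ≤ K' b a := by
    intro b a
    simp only [hK']
    by_cases hba : b = a
    · subst hba
      have := h.lazy b
      simp; linarith
    · simp [hba]; exact h.nonneg b a
  have hK'row : ∀ b, ∑ a, K' b a = 1 := by
    intro b
    simp only [hK', Finset.sum_sub_distrib, ← Finset.mul_sum, h.rowsum b]
    simp; norm_num
  have hK'symm : ∀ a b, K' a b = K' b a := by
    intro a b
    simp only [hK', h.symm a b]
    by_cases hab : a = b
    · subst hab; rfl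
    · have : ¬ b = a := fun e => hab e.symm
      simp [hab, this]
  have hact : ∀ b, ∑ a, K b a * v a = (v b + ∑ a, K' b a * v a) / 2 := by
    intro b
    have : ∑ a, K' b a * v a = 2 * ∑ a, K b a * v a - v b := by
      simp only [hK', sub_mul, Finset.sum_sub_distrib, Finset.mul_sum]
      congr 1
      · apply Finset.sum_congr rfl; intro a _; ring
      · simp
    rw [this]; ring
  have hJ : ∑ b, (∑ a, K' b a * v a) ^ 2 ≤ ∑ a, v a ^ 2 := by
    calc ∑ b, (∑ a, K' b a * v a) ^ 2 ≤ ∑ b, ∑ a, K' b a * v a ^ 2 :=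
          Finset.sum_le_sum fun b _ => jensen_aux _ _ (hK'nn b) (hK'row b)
      _ = ∑ a, ∑ b, K' b a * v a ^ 2 := Finset.sum_comm
      _ = ∑ a, v a ^ 2 := by
          apply Finset.sum_congr rfl; intro a _
          rw [← Finset.sum_mul]
          have : ∑ b, K' b a = 1 := by
            rw [← hK'row a]; exact Finset.sum_congr rfl fun b _ => hK'symm b a
          rw [this, one_mul]
  have key : ∑ b, v b * ∑ a, K b a * v a - ∑ b, (∑ a, K b a * v a) ^ 2
      = (∑ a, v a ^ 2 - ∑ b, (∑ a, K' b a * v a) ^ 2) / 4 := by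
    rw [← Finset.sum_sub_distrib, ← Finset.sum_sub_distrib, Finset.sum_div]
    apply Finset.sum_congr rfl; intro b _
    rw [hact b]; ring
  linarith

lemma pow_closed (h : LazyChain K Ω) (t : ℕ) : ∀ a ∈ Ω, ∀ b, b ∉ Ω → (K ^ t) a b = 0 := by
  induction t with
  | zero =>
    intro a ha b hb
    have : a ≠ b := fun e => hb (e ▸ ha)
    simp [Matrix.one_apply, this]
  | succ t ih =>
    intro a ha b hb
    rw [pow_succ, Matrix.mul_apply]
    apply Finset.sum_eq_zero
    intro c _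
    by_cases hc : c ∈ Ω
    · rw [h.closed c hc b hb, mul_zero]
    · rw [ih a ha c hc, zero_mul]

lemma pow_rowsum (h : LazyChain K Ω) (t : ℕ) : ∀ a, ∑ b, (K ^ t) a b = 1 := by
  induction t with
  | zero => intro a; simp [Matrix.one_apply]
  | succ t ih =>
    intro a
    simp only [pow_succ, Matrix.mul_apply]
    rw [Finset.sum_comm]
    simp only [← Finset.mul_sum, h.rowsum, mul_one]
    exact ih a

lemma act_unif (h : LazyChain K Ω) (b : α) :
    ∑ a, K b a * unifOn Ω a = unifOn Ω b := by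
  classical
  have h1 : ∑ a, K b a * unifOn Ω a = (∑ a ∈ Ω, K b a) * (1 / (Ω.card : ℝ)) := by
    rw [Finset.sum_mul, ← Finset.sum_subset (Finset.subset_univ Ω)]
    · apply Finset.sum_congr rfl; intro a ha; simp [unifOn, ha]
    · intro a _ ha; simp [unifOn, ha]
  rw [h1]
  by_cases hb : b ∈ Ω
  · have : ∑ a ∈ Ω, K b a = 1 := by
      rw [← h.rowsum b]
      apply Finset.sum_subset (Finset.subset_univ Ω)
      intro a _ ha; exact h.closed b hb a ha
    rw [this, one_mul]; simp [unifOn, hb]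
  · have : ∑ a ∈ Ω, K b a = 0 := by
      apply Finset.sum_eq_zero; intro a ha
      rw [h.symm b a]; exact h.closed a ha b hb
    rw [this, zero_mul]; simp [unifOn, hb]

/-- The main abstract estimate. -/
theorem tv_sq_le (h : LazyChain K Ω) (C : ℝ) (hC : 1 ≤ C)
    (hP : ∀ f : α → ℝ, (Ω.card : ℝ) * (∑ G ∈ Ω, f G ^ 2) - (∑ G ∈ Ω, f G) ^ 2 ≤
      C * Ω.card * ∑ G ∈ Ω, f G * (f G - ∑ G' ∈ Ω, K G G' * f G'))
    (t : ℕ) (G : α) (hG : G ∈ Ω) :
    (tvDist (fun G' => (K ^ t) G G') (unifOn Ω)) ^ 2 ≤ Ω.card * (1 - 1 / C) ^ t / 4 := by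
  classical
  have hcard : (0 : ℝ) < Ω.card := by
    exact_mod_cast Finset.card_pos.mpr ⟨G, hG⟩
  have hC0 : 0 < C := by linarith
  set v : ℕ → α → ℝ := fun t b => (K ^ t) G b - unifOn Ω b with hv
  have hv_out : ∀ t b, b ∉ Ω → v t b = 0 := by
    intro t b hb
    simp only [hv, h.pow_closed t G hG b hb]
    simp [unifOn, hb]
  have hunif_sum : ∑ b, unifOn Ω b = 1 := by
    have : ∑ b, unifOn Ω b = ∑ b ∈ Ω, (1 / (Ω.card : ℝ)) := by
      rw [← Finset.sum_subset (Finset.subset_univ Ω)]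
      · apply Finset.sum_congr rfl; intro a ha; simp [unifOn, ha]
      · intro a _ ha; simp [unifOn, ha]
    rw [this, Finset.sum_const, nsmul_eq_mul]
    field_simp
  have hv_sum : ∀ t, ∑ b ∈ Ω, v t b = 0 := by
    intro t
    have : ∑ b ∈ Ω, v t b = ∑ b, v t b :=
      Finset.sum_subset (Finset.subset_univ Ω) fun b _ hb => hv_out t b hb
    rw [this]
    simp only [hv, Finset.sum_sub_distrib, h.pow_rowsum t G, hunif_sum, sub_self]
  have hstep : ∀ t b, v (t + 1) b = ∑ a, K b a * v t a := by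
    intro t b
    simp only [hv, mul_sub, Finset.sum_sub_distrib, h.act_unif b]
    congr 1
    rw [pow_succ, Matrix.mul_apply]
    apply Finset.sum_congr rfl; intro a _
    rw [h.symm a b, mul_comm]
  set E : ℕ → ℝ := fun t => ∑ b, v t b ^ 2 with hE
  have hsumΩ : ∀ (t : ℕ) (F : α → ℝ), (∀ b, b ∉ Ω → F b = 0) → ∑ b ∈ Ω, F b = ∑ b, F b := by
    intro t F hF
    exact Finset.sum_subset (Finset.subset_univ Ω) fun b _ hb => hF b hb
  have hdecay : ∀ t, E (t + 1) ≤ (1 - 1 / C) * E t := by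
    intro t
    have h1 : E (t + 1) ≤ ∑ b, v t b * ∑ a, K b a * v t a := by
      simp only [hE, hstep t]
      exact h.sq_act_le (v t)
    have h2 := hP (v t)
    rw [hv_sum t] at h2
    have h3 : ∑ b ∈ Ω, v t b ^ 2 = E t :=
      hsumΩ t _ fun b hb => by rw [hv_out t b hb]; ring
    have h4 : ∑ G ∈ Ω, v t G * (v t G - ∑ G' ∈ Ω, K G G' * v t G')
        = E t - ∑ b, v t b * ∑ a, K b a * v t a := by
      have h5 : ∀ b, ∑ G' ∈ Ω, K b G' * v t G' = ∑ a, K b a * v t a := by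
        intro b
        exact hsumΩ t _ fun a ha => by rw [hv_out t a ha]; ring
      simp only [h5]
      rw [hsumΩ t _ fun b hb => by rw [hv_out t b hb]; ring]
      simp only [hE, mul_sub, Finset.sum_sub_distrib]
      congr 1
      apply Finset.sum_congr rfl; intro b _; ring
    rw [h3, h4] at h2
    -- card * E ≤ C * card * (E - X)
    set X := ∑ b, v t b * ∑ a, K b a * v t a with hX
    have h6 : E t ≤ C * (E t - X) := by
      have : (Ω.card : ℝ) * E t ≤ Ω.card * (C * (E t - X)) := by nlinarith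
      exact le_of_mul_le_mul_left this hcard
    have h7 : X ≤ (1 - 1 / C) * E t := by
      have : (1 - 1 / C) * E t = E t - E t / C := by field_simp
      rw [this]
      have : E t / C ≤ E t - X := by
        rw [div_le_iff₀ hC0]; linarith
      linarith
    linarith
  have hq : 0 ≤ 1 - 1 / C := by
    have : 1 / C ≤ 1 := by rw [div_le_one hC0]; exact hC
    linarith
  have hE0 : E 0 ≤ 1 := by
    have h0 : ∀ b, v 0 b ^ 2 = (if G = b then 1 else 0) - 2 * (if G = b then 1 else 0) * unifOn Ω b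
        + unifOn Ω b ^ 2 := by
      intro b
      simp only [hv, pow_zero, Matrix.one_apply]
      by_cases hb : G = b <;> simp [hb] <;> ring
    have h1 : ∑ b, unifOn Ω b ^ 2 = 1 / (Ω.card : ℝ) := by
      have : ∑ b, unifOn Ω b ^ 2 = ∑ b ∈ Ω, (1 / (Ω.card : ℝ)) ^ 2 := by
        rw [← Finset.sum_subset (Finset.subset_univ Ω)]
        · apply Finset.sum_congr rfl; intro a ha; simp [unifOn, ha]
        · intro a _ ha; simp [unifOn, ha]
      rw [this, Finset.sum_const, nsmul_eq_mul]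
      field_simp
    simp only [hE, h0, Finset.sum_add_distrib, Finset.sum_sub_distrib, h1]
    have h2 : ∑ b, (2 * (if G = b then (1 : ℝ) else 0) * unifOn Ω b) = 2 * (1 / (Ω.card : ℝ)) := by
      simp [unifOn, hG]
    rw [h2]
    have h3 : ∑ b : α, (if G = b then (1 : ℝ) else 0) = 1 := by simp
    rw [h3]
    have : 0 < 1 / (Ω.card : ℝ) := by positivity
    linarith
  have hEt : ∀ t, E t ≤ (1 - 1 / C) ^ t := by
    intro t
    induction t with
    | zero => simpa using hE0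
    | succ t ih =>
      calc E (t + 1) ≤ (1 - 1 / C) * E t := hdecay t
        _ ≤ (1 - 1 / C) * (1 - 1 / C) ^ t := mul_le_mul_of_nonneg_left ih hq
        _ = (1 - 1 / C) ^ (t + 1) := by ring
  have htv : tvDist (fun G' => (K ^ t) G G') (unifOn Ω) = (∑ b ∈ Ω, |v t b|) / 2 := by
    unfold tvDist
    congr 1
    symm
    exact hsumΩ t _ fun b hb => by rw [hv_out t b hb]; simp
  rw [htv]
  have hcs : (∑ b ∈ Ω, |v t b|) ^ 2 ≤ Ω.card * ∑ b ∈ Ω, |v t b| ^ 2 :=
    sq_sum_le_card_mul_sum_sq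
  have h8 : ∑ b ∈ Ω, |v t b| ^ 2 = E t := by
    simp only [sq_abs]
    exact hsumΩ t _ fun b hb => by rw [hv_out t b hb]; ring
  rw [h8] at hcs
  have := hEt t
  have h9 : (Ω.card : ℝ) * E t ≤ Ω.card * (1 - 1 / C) ^ t :=
    mul_le_mul_of_nonneg_left this hcard.le
  rw [div_pow]
  have : (∑ b ∈ Ω, |v t b|) ^ 2 / 2 ^ 2 = (∑ b ∈ Ω, |v t b|) ^ 2 / 4 := by norm_num
  rw [this]
  apply div_le_div_of_nonneg_right _ (by norm_num)
  linarith

end LazyChain


theorem choose_bounds (n : ℕ) (hn : 4 ≤ n) :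
    (1 : ℝ) ≤ 24 * (n : ℝ) ^ 2 * (n.choose 4 : ℝ) ∧ 24 * (n : ℝ) ^ 2 * (n.choose 4 : ℝ) ≤ (n : ℝ) ^ 6 := by
  have h1 : 1 ≤ n.choose 4 := Nat.choose_pos hn
  have h2 : 24 * n.choose 4 ≤ n ^ 4 := by
    have := Nat.descFactorial_eq_factorial_mul_choose n 4
    have h3 := Nat.descFactorial_le_pow n 4
    have h4 : (4 : ℕ).factorial = 24 := by decide
    rw [h4] at this
    omega
  have h1' : (1 : ℝ) ≤ (n.choose 4 : ℝ) := by exact_mod_cast h1
  have h2' : 24 * (n.choose 4 : ℝ) ≤ (n : ℝ) ^ 4 := by exact_mod_cast h2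
  have hn' : (4 : ℝ) ≤ n := by exact_mod_cast hn
  have hn2 : (16 : ℝ) ≤ (n : ℝ) ^ 2 := by nlinarith
  constructor
  · nlinarith
  · calc 24 * (n : ℝ) ^ 2 * (n.choose 4 : ℝ) = (n : ℝ) ^ 2 * (24 * (n.choose 4 : ℝ)) := by ring
      _ ≤ (n : ℝ) ^ 2 * (n : ℝ) ^ 4 := by apply mul_le_mul_of_nonneg_left h2' (by positivity)
      _ = (n : ℝ) ^ 6 := by ring

theorem numerics (n : ℕ) (hn : 4 ≤ n) (N : ℕ) (hN : N ≤ 2 ^ (n ^ 2)) :
    (N : ℝ) * (1 - 1 / (24 * (n : ℝ) ^ 2 * (n.choose 4 : ℝ))) ^ (2 * n ^ 8) / 4 ≤ (1 / 4) ^ 2 := by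
  obtain ⟨hC1, hC6⟩ := choose_bounds n hn
  set C : ℝ := 24 * (n : ℝ) ^ 2 * (n.choose 4 : ℝ) with hCdef
  have hC0 : 0 < C := by linarith
  have hn' : (4 : ℝ) ≤ n := by exact_mod_cast hn
  have hq0 : 0 ≤ 1 - 1 / C := by
    have : 1 / C ≤ 1 := by rw [div_le_one hC0]; exact hC1
    linarith
  have hq : 1 - 1 / C ≤ Real.exp (-(1 / C)) := by
    have := Real.add_one_le_exp (-(1 / C)); linarith
  have hpow : (1 - 1 / C) ^ (2 * n ^ 8) ≤ Real.exp (-(2 * (n : ℝ) ^ 2)) := by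
    calc (1 - 1 / C) ^ (2 * n ^ 8) ≤ (Real.exp (-(1 / C))) ^ (2 * n ^ 8) :=
          pow_le_pow_left₀ hq0 hq _
      _ = Real.exp (((2 * n ^ 8 : ℕ) : ℝ) * (-(1 / C))) := by rw [← Real.exp_nat_mul]
      _ ≤ Real.exp (-(2 * (n : ℝ) ^ 2)) := by
          apply Real.exp_le_exp.mpr
          push_cast
          have : 2 * (n : ℝ) ^ 2 ≤ 2 * (n : ℝ) ^ 8 * (1 / C) := by
            rw [mul_one_div, le_div_iff₀ hC0]
            calc 2 * (n : ℝ) ^ 2 * C ≤ 2 * (n : ℝ) ^ 2 * (n : ℝ) ^ 6 := by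
                  apply mul_le_mul_of_nonneg_left hC6 (by positivity)
              _ = 2 * (n : ℝ) ^ 8 := by ring
          linarith
  have hN' : (N : ℝ) ≤ Real.exp ((n : ℝ) ^ 2) := by
    calc (N : ℝ) ≤ ((2 ^ (n ^ 2) : ℕ) : ℝ) := by exact_mod_cast hN
      _ = (2 : ℝ) ^ (n ^ 2) := by push_cast; ring
      _ ≤ (Real.exp 1) ^ (n ^ 2) := by
          apply pow_le_pow_left₀ (by norm_num)
          have := Real.add_one_le_exp (1 : ℝ); linarith
      _ = Real.exp ((n : ℝ) ^ 2) := by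
          rw [← Real.exp_nat_mul]; push_cast; ring_nf
  have hprod : (N : ℝ) * (1 - 1 / C) ^ (2 * n ^ 8) ≤ Real.exp (-((n : ℝ) ^ 2)) := by
    calc (N : ℝ) * (1 - 1 / C) ^ (2 * n ^ 8)
        ≤ Real.exp ((n : ℝ) ^ 2) * Real.exp (-(2 * (n : ℝ) ^ 2)) :=
          mul_le_mul hN' hpow (pow_nonneg hq0 _) (Real.exp_pos _).le
      _ = Real.exp (-((n : ℝ) ^ 2)) := by rw [← Real.exp_add]; ring_nf
  have hsmall : Real.exp (-((n : ℝ) ^ 2)) ≤ 1 / 4 := by
    rw [Real.exp_neg, ← one_div]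
    apply one_div_le_one_div_of_le (by norm_num)
    have := Real.add_one_le_exp ((n : ℝ) ^ 2)
    nlinarith
  have : (N : ℝ) * (1 - 1 / C) ^ (2 * n ^ 8) ≤ 1 / 4 := le_trans hprod hsmall
  linarith

end Crest.Agent.SW
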