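import Mathlib
import Crest.Prelude.Def_SwitchChain

/-!
# Row 299 (S0453): explicit description of `pmSet` (helper85)
`mkE a b h` = the edge `ab`, `mat a b c d` = the matching `{ab, cd}`,
`pmSet_eq` : `pmSet {a,b,c,d} = {ab|cd, ac|bd, ad|bc}`, `card_pmSet`.
-/

set_option autoImplicit false
open Finset
namespace Crest.Agent.SW
open Crest.SwitchChain
variable {n : ℕ}

/-- the edge `ab`. -/
def mkE (a b : Fin n) (h : a ≠ b) : Edge n := ⟨s(a, b), by rw [Sym2.mk_isDiag_iff]; exact h⟩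

@[simp] lemma mem_mkE {a b v : Fin n} (h : a ≠ b) : v ∈ (mkE a b h).1 ↔ v = a ∨ v = b := by
  simp [mkE]

lemma mkE_eq_iff {a b c d : Fin n} (h : a ≠ b) (h' : c ≠ d) :
    mkE a b h = mkE c d h' ↔ (a = c ∧ b = d) ∨ (a = d ∧ b = c) := by
  simp [mkE, Subtype.ext_iff]

lemma mkE_comm {a b : Fin n} (h : a ≠ b) : mkE a b h = mkE b a h.symm := by
  rw [mkE_eq_iff]; right; exact ⟨rfl, rfl⟩

lemma exists_mkE_of_mem {e : Edge n} {a : Fin n} (h : a ∈ e.1) :
    ∃ (y : Fin n) (hy : a ≠ y), e = mkE a y hy := by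
  obtain ⟨y, hy⟩ := Sym2.mem_iff_exists.mp h
  have hne : a ≠ y := by
    intro hay
    apply e.2
    rw [hy, Sym2.mk_isDiag_iff]; exact hay
  exact ⟨y, hne, Subtype.ext hy⟩

lemma mem_pmSet_iff {S : Finset (Fin n)} {F : Finset (Edge n)} :
    F ∈ pmSet S ↔ F.card = 2 ∧ (∀ e ∈ F, ∀ v : Fin n, v ∈ e.1 → v ∈ S) ∧
      ∀ v ∈ S, (F.filter fun e => v ∈ e.1).card = 1 := by
  unfold pmSet
  rw [mem_filter, mem_powersetCard]
  simp

/-- two edges of a perfect matching through the same vertex coincide. -/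
lemma pm_unique {S : Finset (Fin n)} {F : Finset (Edge n)} (hF : F ∈ pmSet S) {v : Fin n}
    (hv : v ∈ S) {e e' : Edge n} (he : e ∈ F) (he' : e' ∈ F) (hve : v ∈ e.1) (hve' : v ∈ e'.1) :
    e = e' := by
  have h := (mem_pmSet_iff.mp hF).2.2 v hv
  rw [Finset.card_eq_one] at h
  obtain ⟨x, hx⟩ := h
  have h1 : e ∈ F.filter fun e => v ∈ e.1 := mem_filter.mpr ⟨he, hve⟩
  have h2 : e' ∈ F.filter fun e => v ∈ e.1 := mem_filter.mpr ⟨he', hve'⟩
  rw [hx, mem_singleton] at h1 h2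
  rw [h1, h2]

lemma pm_exists {S : Finset (Fin n)} {F : Finset (Edge n)} (hF : F ∈ pmSet S) {v : Fin n}
    (hv : v ∈ S) : ∃ e ∈ F, v ∈ e.1 := by
  have h := (mem_pmSet_iff.mp hF).2.2 v hv
  have : (F.filter fun e => v ∈ e.1).Nonempty := by
    rw [← Finset.card_pos, h]; exact Nat.one_pos
  obtain ⟨e, he⟩ := this
  exact ⟨e, (mem_filter.mp he).1, (mem_filter.mp he).2⟩

/-- the matching `{ab, cd}`. -/
def mat (a b c d : Fin n) (hab : a ≠ b) (hcd : c ≠ d) : Finset (Edge n) :=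
  {mkE a b hab, mkE c d hcd}

lemma mat_mem_pmSet {S : Finset (Fin n)} {a b c d : Fin n} (hab : a ≠ b) (hac : a ≠ c) (had : a ≠ d)
    (hbc : b ≠ c) (hbd : b ≠ d) (hcd : c ≠ d) (hS : ∀ v, v ∈ S ↔ v = a ∨ v = b ∨ v = c ∨ v = d) :
    mat a b c d hab hcd ∈ pmSet S := by
  rw [mem_pmSet_iff]
  have hne : mkE a b hab ≠ mkE c d hcd := by
    rw [Ne, mkE_eq_iff]; rintro (⟨h, _⟩ | ⟨h, _⟩)
    · exact hac h
    · exact had h
  refine ⟨Finset.card_pair hne, ?_, ?_⟩
  · intro e he v hv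
    rw [hS]
    simp only [mat, mem_insert, mem_singleton] at he
    rcases he with rfl | rfl
    · rcases (mem_mkE hab).mp hv with h | h <;> simp [h]
    · rcases (mem_mkE hcd).mp hv with h | h <;> simp [h]
  · intro v hv
    rw [hS] at hv
    unfold mat
    rw [Finset.filter_insert, Finset.filter_singleton]
    simp only [mem_mkE]
    rcases hv with rfl | rfl | rfl | rfl
    · simp [hac, had]
    · simp [hbc, hbd]
    · simp [hac.symm, hbc.symm]
    · simp [had.symm, hbd.symm]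

lemma pm_eq_mat {S : Finset (Fin n)} {a b c d : Fin n} (hab : a ≠ b) (hac : a ≠ c) (had : a ≠ d)
    (hbc : b ≠ c) (hbd : b ≠ d) (hcd : c ≠ d) (hS : ∀ v, v ∈ S ↔ v = a ∨ v = b ∨ v = c ∨ v = d)
    {F : Finset (Edge n)} (hF : F ∈ pmSet S) (h : mkE a b hab ∈ F) :
    F = mat a b c d hab hcd := by
  have haS : a ∈ S := by rw [hS]; simp
  have hbS : b ∈ S := by rw [hS]; simp
  have hcS : c ∈ S := by rw [hS]; simp
  obtain ⟨e, heF, hce⟩ := pm_exists hF hcS
  obtain ⟨y, hy, rfl⟩ := exists_mkE_of_mem hce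
  have hyS : y ∈ S := (mem_pmSet_iff.mp hF).2.1 _ heF y (by simp)
  have hyd : y = d := by
    rcases (hS y).mp hyS with rfl | rfl | rfl | rfl
    · exfalso
      have := pm_unique hF haS h heF (by simp) (by simp)
      rw [mkE_eq_iff] at this
      rcases this with ⟨h1, _⟩ | ⟨_, h1⟩
      · exact hac h1
      · exact hbc h1
    · exfalso
      have := pm_unique hF hbS h heF (by simp) (by simp)
      rw [mkE_eq_iff] at this
      rcases this with ⟨h1, _⟩ | ⟨_, h1⟩
      · exact hac h1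
      · exact hbc h1
    · exact absurd rfl hy
    · rfl
  subst hyd
  symm
  apply Finset.eq_of_subset_of_card_le
  · intro e he
    simp only [mat, mem_insert, mem_singleton] at he
    rcases he with rfl | rfl
    · exact h
    · exact heF
  · rw [(mem_pmSet_iff.mp hF).1]
    have hne : mkE a b hab ≠ mkE c y hcd := by
      rw [Ne, mkE_eq_iff]; rintro (⟨h, _⟩ | ⟨h, _⟩)
      · exact hac h
      · exact had h
    unfold mat
    rw [Finset.card_pair hne]

lemma pmSet_eq {S : Finset (Fin n)} {a b c d : Fin n} (hab : a ≠ b) (hac : a ≠ c) (had : a ≠ d)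
    (hbc : b ≠ c) (hbd : b ≠ d) (hcd : c ≠ d) (hS : ∀ v, v ∈ S ↔ v = a ∨ v = b ∨ v = c ∨ v = d) :
    pmSet S = {mat a b c d hab hcd, mat a c b d hac hbd, mat a d b c had hbc} := by
  ext F
  simp only [mem_insert, mem_singleton]
  constructor
  · intro hF
    have haS : a ∈ S := by rw [hS]; simp
    obtain ⟨e, heF, hae⟩ := pm_exists hF haS
    obtain ⟨y, hy, rfl⟩ := exists_mkE_of_mem hae
    have hyS : y ∈ S := (mem_pmSet_iff.mp hF).2.1 _ heF y (by simp)
    rcases (hS y).mp hyS with rfl | rfl | rfl | rfl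
    · exact absurd rfl hy
    · left; exact pm_eq_mat hab hac had hbc hbd hcd hS hF heF
    · right; left
      exact pm_eq_mat hac hab had hbc.symm hcd hbd (fun v => by rw [hS]; tauto) hF heF
    · right; right
      exact pm_eq_mat had hab hac hbd.symm hcd.symm hbc (fun v => by rw [hS]; tauto) hF heF
  · rintro (rfl | rfl | rfl)
    · exact mat_mem_pmSet hab hac had hbc hbd hcd hS
    · exact mat_mem_pmSet hac hab had hbc.symm hcd hbd (fun v => by rw [hS]; tauto)
    · exact mat_mem_pmSet had hab hac hbd.symm hcd.symm hbc (fun v => by rw [hS]; tauto)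

lemma mat_ne {a b c d : Fin n} (hab : a ≠ b) (hac : a ≠ c) (had : a ≠ d)
    (hbc : b ≠ c) (hbd : b ≠ d) (hcd : c ≠ d) : mat a b c d hab hcd ≠ mat a c b d hac hbd := by
  intro h
  have : mkE a b hab ∈ mat a c b d hac hbd := by rw [← h]; simp [mat]
  simp only [mat, mem_insert, mem_singleton, mkE_eq_iff] at this
  rcases this with (⟨_, h1⟩ | ⟨h1, _⟩) | (⟨h1, _⟩ | ⟨h1, _⟩)
  · exact hbc h1
  · exact hac h1
  · exact hab h1
  · exact had h1

lemma mat_comm_right {a b c d : Fin n} (hab : a ≠ b) (hcd : c ≠ d) :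
    mat a b c d hab hcd = mat a b d c hab hcd.symm := by
  unfold mat; rw [mkE_comm hcd]

lemma exists_four {S : Finset (Fin n)} (hS : S.card = 4) :
    ∃ a b c d : Fin n, a ≠ b ∧ a ≠ c ∧ a ≠ d ∧ b ≠ c ∧ b ≠ d ∧ c ≠ d ∧
      ∀ v, v ∈ S ↔ v = a ∨ v = b ∨ v = c ∨ v = d := by
  obtain ⟨a, T, haT, rfl, hT⟩ := Finset.card_eq_succ.mp hS
  obtain ⟨b, c, d, hbc, hbd, hcd, rfl⟩ := Finset.card_eq_three.mp hT
  simp only [mem_insert, mem_singleton, not_or] at haT
  exact ⟨a, b, c, d, haT.1, haT.2.1, haT.2.2, hbc, hbd, hcd, fun v => by simp⟩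

lemma card_pmSet {S : Finset (Fin n)} (hS : S.card = 4) : (pmSet S).card = 3 := by
  obtain ⟨a, b, c, d, hab, hac, had, hbc, hbd, hcd, hS'⟩ := exists_four hS
  rw [pmSet_eq hab hac had hbc hbd hcd hS', Finset.card_eq_three]
  refine ⟨_, _, _, mat_ne hab hac had hbc hbd hcd, ?_, ?_, rfl⟩
  · rw [mat_comm_right hab hcd]
    exact mat_ne hab had hac hbd hbc hcd.symm
  · rw [mat_comm_right hac hbd, mat_comm_right had hbc]
    exact mat_ne hac had hab hcd hbc.symm hbd.symm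

end Crest.Agent.SW
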