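import Mathlib
import Crest.Prelude.Def_SwitchChain
import Crest.Agent.SW_Mix
import Crest.Agent.SW_PM

/-!
# Row 299 (S0453): concrete facts on the switch kernel (helper85)
-/

set_option autoImplicit false
open Finset

namespace Crest.Agent.SW

open Crest.SwitchChain

variable {n : ℕ}

/-- reversing an effective proposal. -/
lemma switchResult_rev {E E' F F' : Finset (Edge n)} (h : switchResult E F F' = E') (hne : E ≠ E') :
    switchResult E' F' F = E := by
  unfold switchResult at h
  split_ifs at h with hc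
  · obtain ⟨h1, h2⟩ := hc
    subst h
    have hFF' : Disjoint F F' := (h2.mono_right h1).symm
    unfold switchResult
    rw [if_pos]
    · ext e
      simp only [mem_union, mem_sdiff]
      constructor
      · rintro (⟨(⟨he, _⟩ | he), hn⟩ | he)
        · exact he
        · exact absurd he hn
        · exact h1 he
      · intro he
        by_cases heF : e ∈ F
        · exact Or.inr heF
        · refine Or.inl ⟨Or.inl ⟨he, heF⟩, fun heF' => ?_⟩
          exact (Finset.disjoint_left.mp h2 heF') he
    · refine ⟨subset_union_right, ?_⟩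
      rw [Finset.disjoint_left]
      intro e he he'
      rcases mem_union.mp he' with h3 | h3
      · exact (mem_sdiff.mp h3).2 he
      · exact (Finset.disjoint_left.mp hFF' he) h3
  · exact absurd h hne

lemma switchResult_eq_iff_rev {E E' F F' : Finset (Edge n)} (hne : E ≠ E') :
    switchResult E F F' = E' ↔ switchResult E' F' F = E :=
  ⟨fun h => switchResult_rev h hne, fun h => switchResult_rev h hne.symm⟩

lemma proposalCount_symm (E E' : Finset (Edge n)) : proposalCount E E' = proposalCount E' E := by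
  by_cases hne : E = E'
  · rw [hne]
  unfold proposalCount
  apply Finset.sum_congr rfl
  intro S _
  rw [Finset.sum_comm' (s' := fun F' => (pmSet S).erase F') (t' := pmSet S)]
  · apply Finset.sum_congr rfl; intro F' _
    apply Finset.sum_congr rfl; intro F _
    simp only [switchResult_eq_iff_rev hne]
  · intro F F'
    simp only [mem_erase]
    constructor
    · rintro ⟨h1, h2, h3⟩; exact ⟨⟨fun e => h2 e.symm, h1⟩, h3⟩
    · rintro ⟨⟨h1, h2⟩, h3⟩; exact ⟨h2, fun e => h1 e.symm, h3⟩

/-- number of edges of a perfect matching on `S` through `v`. -/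
lemma card_filter_pmSet {S : Finset (Fin n)} {F : Finset (Edge n)} (hF : F ∈ pmSet S) (v : Fin n) :
    (F.filter fun e => v ∈ e.1).card = if v ∈ S then 1 else 0 := by
  unfold pmSet at hF
  obtain ⟨_, h1, h2⟩ := mem_filter.mp hF
  split_ifs with hv
  · exact h2 v hv
  · rw [Finset.card_eq_zero, Finset.filter_eq_empty_iff]
    intro e he hve
    exact hv (h1 e he v hve)

lemma deg_switchResult {S : Finset (Fin n)} {F F' : Finset (Edge n)} (hF : F ∈ pmSet S)
    (hF' : F' ∈ pmSet S) (E : Finset (Edge n)) (v : Fin n) :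
    deg (switchResult E F F') v = deg E v := by
  unfold switchResult
  split_ifs with hc
  · obtain ⟨h1, h2⟩ := hc
    unfold deg
    have e1 : ((E \ F ∪ F').filter fun e => v ∈ e.1).card
        = ((E \ F).filter fun e => v ∈ e.1).card + (F'.filter fun e => v ∈ e.1).card := by
      rw [Finset.filter_union, Finset.card_union_of_disjoint]
      apply Finset.disjoint_filter_filter
      exact (h2.mono_right sdiff_subset).symm
    have e2 : (E.filter fun e => v ∈ e.1).card
        = ((E \ F).filter fun e => v ∈ e.1).card + (F.filter fun e => v ∈ e.1).card := by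
      conv_lhs => rw [← Finset.sdiff_union_of_subset h1]
      rw [Finset.filter_union, Finset.card_union_of_disjoint]
      apply Finset.disjoint_filter_filter
      exact Finset.sdiff_disjoint
    rw [e1, e2, card_filter_pmSet hF, card_filter_pmSet hF']
  · rfl

lemma switchResult_mem_realizations {S : Finset (Fin n)} {F F' : Finset (Edge n)}
    (hF : F ∈ pmSet S) (hF' : F' ∈ pmSet S) {d : Fin n → ℕ} {E : Finset (Edge n)}
    (hE : E ∈ realizations d) : switchResult E F F' ∈ realizations d := by
  unfold realizations at hE ⊢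
  rw [mem_filter] at hE ⊢
  exact ⟨mem_univ _, fun v => by rw [deg_switchResult hF hF']; exact hE.2 v⟩

/-- summing a function against `proposalCount`. -/
lemma sum_proposalCount_mul (E : Finset (Edge n)) (φ : Finset (Edge n) → ℝ) :
    ∑ E', (proposalCount E E' : ℝ) * φ E' =
      ∑ S ∈ (univ : Finset (Fin n)).powersetCard 4, ∑ F ∈ pmSet S, ∑ F' ∈ (pmSet S).erase F,
        φ (switchResult E F F') := by
  unfold proposalCount
  push_cast
  simp only [Finset.sum_mul]
  rw [Finset.sum_comm]
  apply Finset.sum_congr rfl; intro S _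
  rw [Finset.sum_comm]
  apply Finset.sum_congr rfl; intro F _
  rw [Finset.sum_comm]
  apply Finset.sum_congr rfl; intro F' _
  simp

lemma proposalCount_eq_zero {d : Fin n → ℕ} {E E' : Finset (Edge n)} (hE : E ∈ realizations d)
    (hE' : E' ∉ realizations d) : proposalCount E E' = 0 := by
  unfold proposalCount
  apply Finset.sum_eq_zero; intro S _
  apply Finset.sum_eq_zero; intro F hF
  apply Finset.sum_eq_zero; intro F' hF'
  rw [if_neg]
  intro h
  exact hE' (h ▸ switchResult_mem_realizations hF (mem_of_mem_erase hF') hE)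

lemma sum_proposalCount (hn : 4 ≤ n) (E : Finset (Edge n)) :
    ∑ E', (proposalCount E E' : ℝ) = 6 * (n.choose 4 : ℝ) := by
  have h := sum_proposalCount_mul E (fun _ => (1 : ℝ))
  simp only [mul_one] at h
  rw [h]
  have : ∀ S ∈ (univ : Finset (Fin n)).powersetCard 4,
      ∑ F ∈ pmSet S, ∑ _F' ∈ (pmSet S).erase F, (1 : ℝ) = 6 := by
    intro S hS
    have hc := card_pmSet (mem_powersetCard.mp hS).2
    have : ∀ F ∈ pmSet S, ∑ _F' ∈ (pmSet S).erase F, (1 : ℝ) = 2 := by
      intro F hF
      rw [Finset.sum_const, Finset.card_erase_of_mem hF, hc]; norm_num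
    rw [Finset.sum_congr rfl this, Finset.sum_const, hc]; norm_num
  rw [Finset.sum_congr rfl this, Finset.sum_const, Finset.card_powersetCard]
  simp [mul_comm]

theorem lazyChain_kernel (hn : 4 ≤ n) (d : Fin n → ℕ) :
    LazyChain (kernel n) (realizations d) where
  symm a b := by
    unfold kernel
    rw [proposalCount_symm a b]
    by_cases h : a = b
    · rw [h]
    · have : ¬ b = a := fun e => h e.symm
      simp [h, this]
  nonneg a b := by
    unfold kernel
    have : (0 : ℝ) ≤ (proposalCount a b : ℝ) / (12 * (n.choose 4 : ℝ)) := by positivity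
    split_ifs <;> linarith
  rowsum a := by
    unfold kernel
    rw [Finset.sum_add_distrib, ← Finset.sum_div, sum_proposalCount hn]
    have hc : (0 : ℝ) < (n.choose 4 : ℝ) := by exact_mod_cast Nat.choose_pos hn
    simp only [Finset.sum_ite_eq, mem_univ, if_true]
    field_simp
    norm_num
  lazy a := by
    unfold kernel
    have : (0 : ℝ) ≤ (proposalCount a a : ℝ) / (12 * (n.choose 4 : ℝ)) := by positivity
    simp only [if_true]
    linarith
  closed a ha b hb := by
    unfold kernel
    have hne : a ≠ b := fun e => hb (e ▸ ha)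
    rw [proposalCount_eq_zero ha hb]
    simp [hne]

/-- Dirichlet form identity for a symmetric stochastic kernel. -/
lemma LazyChain.energy_eq {α : Type*} [Fintype α] [DecidableEq α] {K : Matrix α α ℝ} {Ω : Finset α}
    (h : LazyChain K Ω) (f : α → ℝ) :
    ∑ G ∈ Ω, f G * (f G - ∑ G' ∈ Ω, K G G' * f G') =
      (∑ G ∈ Ω, ∑ G', K G G' * (f G - f G') ^ 2) / 2 := by
  have hrow : ∀ G ∈ Ω, ∑ G' ∈ Ω, K G G' = 1 := by
    intro G hG
    rw [← h.rowsum G]
    exact Finset.sum_subset (Finset.subset_univ Ω) fun b _ hb => h.closed G hG b hb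
  have h1 : ∀ G ∈ Ω, ∑ G', K G G' * (f G - f G') ^ 2 = ∑ G' ∈ Ω, K G G' * (f G - f G') ^ 2 := by
    intro G hG
    symm
    exact Finset.sum_subset (Finset.subset_univ Ω) fun b _ hb => by rw [h.closed G hG b hb, zero_mul]
  rw [Finset.sum_congr rfl h1]
  have h2 : ∑ G ∈ Ω, ∑ G' ∈ Ω, K G G' * (f G - f G') ^ 2
      = ∑ G ∈ Ω, ∑ G' ∈ Ω, K G G' * f G ^ 2 - 2 * ∑ G ∈ Ω, ∑ G' ∈ Ω, K G G' * (f G * f G')
        + ∑ G ∈ Ω, ∑ G' ∈ Ω, K G G' * f G' ^ 2 := by
    rw [Finset.mul_sum, ← Finset.sum_sub_distrib, ← Finset.sum_add_distrib]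
    apply Finset.sum_congr rfl; intro G _
    rw [Finset.mul_sum, ← Finset.sum_sub_distrib, ← Finset.sum_add_distrib]
    apply Finset.sum_congr rfl; intro G' _
    ring
  have h3 : ∑ G ∈ Ω, ∑ G' ∈ Ω, K G G' * f G ^ 2 = ∑ G ∈ Ω, f G ^ 2 := by
    apply Finset.sum_congr rfl; intro G hG
    rw [← Finset.sum_mul, hrow G hG, one_mul]
  have h4 : ∑ G ∈ Ω, ∑ G' ∈ Ω, K G G' * f G' ^ 2 = ∑ G ∈ Ω, f G ^ 2 := by
    rw [Finset.sum_comm, ← h3]
    apply Finset.sum_congr rfl; intro G _
    apply Finset.sum_congr rfl; intro G' _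
    rw [h.symm]
  rw [h2, h3, h4]
  have h5 : ∑ G ∈ Ω, f G * (f G - ∑ G' ∈ Ω, K G G' * f G')
      = ∑ G ∈ Ω, f G ^ 2 - ∑ G ∈ Ω, ∑ G' ∈ Ω, K G G' * (f G * f G') := by
    rw [← Finset.sum_sub_distrib]
    apply Finset.sum_congr rfl; intro G _
    rw [mul_sub, Finset.mul_sum]
    congr 1
    · ring
    · apply Finset.sum_congr rfl; intro G' _; ring
  rw [h5]; ring

/-- the switch Dirichlet form (`= 2 ⟨f, L f⟩`). -/
noncomputable def dirForm (d : Fin n → ℕ) (f : Finset (Edge n) → ℝ) : ℝ :=
  ∑ G ∈ realizations d, ∑ S ∈ (univ : Finset (Fin n)).powersetCard 4, ∑ F ∈ pmSet S,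
    ∑ F' ∈ (pmSet S).erase F, (f G - f (switchResult G F F')) ^ 2

theorem energy_eq_dirForm (hn : 4 ≤ n) (d : Fin n → ℕ) (f : Finset (Edge n) → ℝ) :
    ∑ G ∈ realizations d, f G * (f G - ∑ G' ∈ realizations d, kernel n G G' * f G') =
      dirForm d f / (24 * (n.choose 4 : ℝ)) := by
  rw [(lazyChain_kernel hn d).energy_eq f]
  have h1 : ∀ G : Finset (Edge n), ∑ G', kernel n G G' * (f G - f G') ^ 2 =
      (∑ S ∈ (univ : Finset (Fin n)).powersetCard 4, ∑ F ∈ pmSet S,
        ∑ F' ∈ (pmSet S).erase F, (f G - f (switchResult G F F')) ^ 2) / (12 * (n.choose 4 : ℝ)) := by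
    intro G
    rw [← sum_proposalCount_mul G (fun G' => (f G - f G') ^ 2), Finset.sum_div]
    apply Finset.sum_congr rfl; intro G' _
    unfold kernel
    by_cases hG : G = G'
    · subst hG; simp
    · simp [hG]; ring
  simp only [h1]
  unfold dirForm
  rw [← Finset.sum_div, div_div]
  congr 1
  ring

end Crest.Agent.SW
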