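import Mathlib
import Crest.Prelude.Def_SwitchChain
import Crest.Agent.SW_Defs
import Crest.Agent.SW_PM
import Crest.Agent.SW_Kernel
import Crest.Agent.SW_Gen1

/-!
# Row 299 (S0453): adapter between the block projections `R d (blk p p')` and the switch
Dirichlet form `dirForm` (helper85)

Main results: `swE_le_dirForm`, `poincare_of_swE`.
-/

set_option autoImplicit false
open Finset

namespace Crest.Agent.SW

open Crest.SwitchChain

variable {n : ℕ}

/-- Jensen/Cauchy-Schwarz on one fibre, with the optimal constant `1/4`. -/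
lemma ad_sq_sub_cE_le {α β : Type*} [DecidableEq β] (X : Finset α) (κ : α → β) (f : α → ℝ)
    {x : α} (hx : x ∈ X) :
    (f x - cE X κ f x) ^ 2 ≤ (1 / 4) * ∑ y ∈ fib X κ x, (f x - f y) ^ 2 := by
  classical
  set s := fib X κ x with hs
  have hxs : x ∈ s := by rw [hs]; unfold fib; exact mem_filter.mpr ⟨hx, rfl⟩
  have hm : (1 : ℝ) ≤ (s.card : ℝ) := by
    exact_mod_cast Finset.card_pos.mpr ⟨x, hxs⟩
  have hm0 : (s.card : ℝ) ≠ 0 := by linarith
  have e1 : f x - cE X κ f x = (∑ y ∈ s.erase x, (f x - f y)) / (s.card : ℝ) := by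
    have : ∑ y ∈ s.erase x, (f x - f y) = ∑ y ∈ s, (f x - f y) := by
      rw [← Finset.add_sum_erase s _ hxs]; simp
    rw [this, Finset.sum_sub_distrib, Finset.sum_const, nsmul_eq_mul]
    unfold cE
    rw [← hs]
    field_simp
  have e2 : ∑ y ∈ s.erase x, (f x - f y) ^ 2 = ∑ y ∈ s, (f x - f y) ^ 2 := by
    rw [← Finset.add_sum_erase s _ hxs]; simp
  have e3 := sq_sum_le_card_mul_sum_sq (s := s.erase x) (f := fun y => f x - f y)
  rw [Finset.card_erase_of_mem hxs, e2] at e3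
  have hc : (((s.card - 1 : ℕ) : ℝ)) = (s.card : ℝ) - 1 := by
    rw [Nat.cast_sub (Finset.card_pos.mpr ⟨x, hxs⟩)]; simp
  rw [hc] at e3
  have hS : 0 ≤ ∑ y ∈ s, (f x - f y) ^ 2 := Finset.sum_nonneg fun _ _ => sq_nonneg _
  rw [e1, div_pow, div_le_iff₀ (by positivity)]
  refine le_trans e3 ?_
  nlinarith [mul_nonneg (sq_nonneg ((s.card : ℝ) - 2)) hS]

lemma ad_mem_inc {K : Finset (Fin n)} {e : Edge n} : e ∈ inc K ↔ ∃ v ∈ K, v ∈ e.1 := by
  simp [inc]

lemma ad_eq_mkE {x : Edge n} {v w : Fin n} (h : v ≠ w) (hv : v ∈ x.1) (hw : w ∈ x.1) :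
    x = mkE v w h := Subtype.ext ((Sym2.mem_and_mem_iff h).mp ⟨hv, hw⟩)

lemma ad_mem_blk {a b c e : Fin n} (hac : a ≠ c) (hae : a ≠ e) (hbc : b ≠ c) (hbe : b ≠ e)
    {x : Edge n} :
    x ∈ blk {a, b} {c, e} ↔
      x = mkE a c hac ∨ x = mkE a e hae ∨ x = mkE b c hbc ∨ x = mkE b e hbe := by
  unfold blk
  rw [mem_inter, ad_mem_inc, ad_mem_inc]
  constructor
  · rintro ⟨⟨v, hv, hvx⟩, ⟨w, hw, hwx⟩⟩
    simp only [mem_insert, mem_singleton] at hv hw
    rcases hv with rfl | rfl <;> rcases hw with rfl | rfl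
    · exact Or.inl (ad_eq_mkE _ hvx hwx)
    · exact Or.inr (Or.inl (ad_eq_mkE _ hvx hwx))
    · exact Or.inr (Or.inr (Or.inl (ad_eq_mkE _ hvx hwx)))
    · exact Or.inr (Or.inr (Or.inr (ad_eq_mkE _ hvx hwx)))
  · rintro (rfl | rfl | rfl | rfl)
    · exact ⟨⟨a, by simp, by simp⟩, ⟨c, by simp, by simp⟩⟩
    · exact ⟨⟨a, by simp, by simp⟩, ⟨e, by simp, by simp⟩⟩
    · exact ⟨⟨b, by simp, by simp⟩, ⟨c, by simp, by simp⟩⟩
    · exact ⟨⟨b, by simp, by simp⟩, ⟨e, by simp, by simp⟩⟩

lemma ad_prop_aux (p1 q1 p2 q2 p3 q3 p4 q4 : Prop) [Decidable p1] [Decidable q1] [Decidable p2]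
    [Decidable q2] [Decidable p3] [Decidable q3] [Decidable p4] [Decidable q4]
    (e1 : ((if p1 then (1 : ℤ) else 0) - (if q1 then 1 else 0)) +
      ((if p2 then (1 : ℤ) else 0) - (if q2 then 1 else 0)) = 0)
    (e2 : ((if p3 then (1 : ℤ) else 0) - (if q3 then 1 else 0)) +
      ((if p4 then (1 : ℤ) else 0) - (if q4 then 1 else 0)) = 0)
    (e3 : ((if p1 then (1 : ℤ) else 0) - (if q1 then 1 else 0)) +
      ((if p3 then (1 : ℤ) else 0) - (if q3 then 1 else 0)) = 0)
    (e4 : ((if p2 then (1 : ℤ) else 0) - (if q2 then 1 else 0)) +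
      ((if p4 then (1 : ℤ) else 0) - (if q4 then 1 else 0)) = 0) :
    ((p1 ↔ q1) ∧ (p2 ↔ q2) ∧ (p3 ↔ q3) ∧ (p4 ↔ q4)) ∨
    (p1 ∧ ¬ q1 ∧ ¬ p2 ∧ q2 ∧ ¬ p3 ∧ q3 ∧ p4 ∧ ¬ q4) ∨
    (¬ p1 ∧ q1 ∧ p2 ∧ ¬ q2 ∧ p3 ∧ ¬ q3 ∧ ¬ p4 ∧ q4) := by
  by_cases h1 : p1 <;> by_cases h1' : q1 <;> by_cases h2 : p2 <;> by_cases h2' : q2 <;>
    simp only [h1, h1', h2, h2', if_true, if_false] at e1 e3 e4 <;>
    first
    | (exfalso; omega)
    | (by_cases h3 : p3 <;> by_cases h3' : q3 <;>
        simp only [h3, h3', if_true, if_false] at e2 e3 <;>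
        first
        | (exfalso; omega)
        | (by_cases h4 : p4 <;> by_cases h4' : q4 <;>
            simp only [h4, h4', if_true, if_false] at e2 e4 <;>
            first
            | (exfalso; omega)
            | simp [h1, h1', h2, h2', h3, h3', h4, h4']))

/-- degree as a sum of indicators. -/
lemma ad_deg_eq (G : Finset (Edge n)) (v : Fin n) :
    (deg G v : ℤ) = ∑ x : Edge n, (if x ∈ G then (1 : ℤ) else 0) * (if v ∈ x.1 then 1 else 0) := by
  unfold deg
  rw [Finset.card_filter]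
  push_cast
  rw [← Finset.sum_filter_add_sum_filter_not univ (fun x => x ∈ G)]
  have h2 : ∑ x ∈ univ.filter (fun x => ¬ x ∈ G),
      (if x ∈ G then (1 : ℤ) else 0) * (if v ∈ x.1 then 1 else 0) = 0 := by
    apply Finset.sum_eq_zero
    intro x hx
    rw [if_neg (mem_filter.mp hx).2, zero_mul]
  rw [h2, add_zero]
  have h3 : univ.filter (fun x => x ∈ G) = G := by ext x; simp
  rw [h3]
  apply Finset.sum_congr rfl
  intro x hx
  rw [if_pos hx, one_mul]

lemma ad_blk_eq {a b c e : Fin n} (hac : a ≠ c) (hae : a ≠ e) (hbc : b ≠ c) (hbe : b ≠ e) :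
    blk {a, b} {c, e} = {mkE a c hac, mkE a e hae, mkE b c hbc, mkE b e hbe} := by
  ext x
  rw [ad_mem_blk hac hae hbc hbe]
  simp

/-- the four margin equations of the `2 × 2` block. -/
lemma ad_margins {d : Fin n → ℕ} {a b c e : Fin n} (hab : a ≠ b) (hac : a ≠ c) (hae : a ≠ e)
    (hbc : b ≠ c) (hbe : b ≠ e) (hce : c ≠ e) {G G' : Finset (Edge n)}
    (hG : G ∈ realizations d) (hG' : G' ∈ realizations d)
    (hk : G' \ blk {a, b} {c, e} = G \ blk {a, b} {c, e}) (v : Fin n) :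
    ((if mkE a c hac ∈ G then (1 : ℤ) else 0) - (if mkE a c hac ∈ G' then 1 else 0))
        * (if v = a ∨ v = c then 1 else 0) +
    ((if mkE a e hae ∈ G then (1 : ℤ) else 0) - (if mkE a e hae ∈ G' then 1 else 0))
        * (if v = a ∨ v = e then 1 else 0) +
    ((if mkE b c hbc ∈ G then (1 : ℤ) else 0) - (if mkE b c hbc ∈ G' then 1 else 0))
        * (if v = b ∨ v = c then 1 else 0) +
    ((if mkE b e hbe ∈ G then (1 : ℤ) else 0) - (if mkE b e hbe ∈ G' then 1 else 0))
        * (if v = b ∨ v = e then 1 else 0) = 0 := by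
  have h1 : (deg G v : ℤ) = deg G' v := by
    rw [(mem_filter.mp hG).2 v, (mem_filter.mp hG').2 v]
  rw [ad_deg_eq, ad_deg_eq, ← sub_eq_zero, ← Finset.sum_sub_distrib] at h1
  have h2 : ∑ x ∈ blk {a, b} {c, e}, ((if x ∈ G then (1 : ℤ) else 0) * (if v ∈ x.1 then 1 else 0) -
      (if x ∈ G' then (1 : ℤ) else 0) * (if v ∈ x.1 then 1 else 0)) = 0 := by
    refine Eq.trans ?_ h1
    apply Finset.sum_subset (Finset.subset_univ _)
    intro x _ hx
    have : x ∈ G ↔ x ∈ G' := by
      have h3 : x ∈ G' \ blk {a, b} {c, e} ↔ x ∈ G \ blk {a, b} {c, e} := by rw [hk]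
      simp only [mem_sdiff, hx, not_false_eq_true, and_true] at h3
      exact h3.symm
    simp only [this, sub_self]
  rw [ad_blk_eq hac hae hbc hbe] at h2
  rw [Finset.sum_insert, Finset.sum_insert, Finset.sum_insert, Finset.sum_singleton] at h2
  · simp only [mem_mkE] at h2
    linarith
  · simp only [mem_singleton, mkE_eq_iff]
    rintro (⟨_, h⟩ | ⟨h, _⟩)
    · exact hce h
    · exact hbe h
  · simp only [mem_insert, mem_singleton, mkE_eq_iff]
    rintro ((⟨h, _⟩ | ⟨h, _⟩) | (⟨h, _⟩ | ⟨h, _⟩))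
    · exact hab h
    · exact hac h
    · exact hab h
    · exact hae h
  · simp only [mem_insert, mem_singleton, mkE_eq_iff]
    rintro ((⟨_, h⟩ | ⟨h, _⟩) | (⟨h, _⟩ | ⟨h, _⟩) | (⟨h, _⟩ | ⟨h, _⟩))
    · exact hce h
    · exact hae h
    · exact hab h
    · exact hac h
    · exact hab h
    · exact hae h

/-- if the block of `G` is `{ac, be}` and that of `G'` is `{ae, bc}` then `G'` is the switch. -/
lemma ad_switch_eq {a b c e : Fin n} (hac : a ≠ c) (hae : a ≠ e)
    (hbc : b ≠ c) (hbe : b ≠ e) {G G' : Finset (Edge n)}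
    (hk : G' \ blk {a, b} {c, e} = G \ blk {a, b} {c, e})
    (h1 : mkE a c hac ∈ G) (h1' : mkE a c hac ∉ G') (h2 : mkE a e hae ∉ G) (h2' : mkE a e hae ∈ G')
    (h3 : mkE b c hbc ∉ G) (h3' : mkE b c hbc ∈ G') (h4 : mkE b e hbe ∈ G)
    (h4' : mkE b e hbe ∉ G') :
    switchResult G (mat a c b e hac hbe) (mat a e b c hae hbc) = G' := by
  unfold switchResult
  rw [if_pos]
  · ext x
    by_cases hx : x ∈ blk {a, b} {c, e}
    · rcases (ad_mem_blk hac hae hbc hbe).mp hx with rfl | rfl | rfl | rfl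
      · constructor
        · intro h
          rcases mem_union.mp h with h | h
          · exact absurd (by simp [mat]) (mem_sdiff.mp h).2
          · simp only [mat, mem_insert, mem_singleton] at h
            rcases h with h | h
            · exact absurd (h ▸ h1) h2
            · exact absurd (h ▸ h1) h3
        · intro h; exact absurd h h1'
      · simp [mat, h2']
      · simp [mat, h3']
      · constructor
        · intro h
          rcases mem_union.mp h with h | h
          · exact absurd (by simp [mat]) (mem_sdiff.mp h).2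
          · simp only [mat, mem_insert, mem_singleton] at h
            rcases h with h | h
            · exact absurd (h ▸ h4) h2
            · exact absurd (h ▸ h4) h3
        · intro h; exact absurd h h4'
    · have h5 : x ∈ G' \ blk {a, b} {c, e} ↔ x ∈ G \ blk {a, b} {c, e} := by rw [hk]
      simp only [mem_sdiff, hx, not_false_eq_true, and_true] at h5
      rw [h5]
      rw [ad_mem_blk hac hae hbc hbe] at hx
      push Not at hx
      simp [mat, hx.1, hx.2.1, hx.2.2.1, hx.2.2.2]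
  · constructor
    · intro x hx
      simp only [mat, mem_insert, mem_singleton] at hx
      rcases hx with rfl | rfl
      · exact h1
      · exact h4
    · rw [Finset.disjoint_left]
      intro x hx
      simp only [mat, mem_insert, mem_singleton] at hx
      rcases hx with rfl | rfl
      · exact h2
      · exact h3

lemma ad_blk_swap {a b c e : Fin n} : blk {a, b} {c, e} = blk {a, b} {e, c} := by
  rw [Finset.pair_comm c e]

/-- **Fibre lemma**: two different realizations which agree outside the block `p × p'` differ by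
a switch inside the block. -/
lemma ad_fibre {d : Fin n → ℕ} {p p' : Finset (Fin n)} (hp : p.card = 2) (hp' : p'.card = 2)
    (hd : Disjoint p p') {G G' : Finset (Edge n)}
    (hG : G ∈ realizations d) (hG' : G' ∈ realizations d)
    (hk : G' \ blk p p' = G \ blk p p') (hne : G' ≠ G) :
    ∃ F ∈ pmSet (p ∪ p'), ∃ F' ∈ (pmSet (p ∪ p')).erase F,
      F ⊆ blk p p' ∧ switchResult G F F' = G' := by
  obtain ⟨a, b, hab, rfl⟩ := Finset.card_eq_two.mp hp
  obtain ⟨c, e, hce, rfl⟩ := Finset.card_eq_two.mp hp'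
  have hd' := Finset.disjoint_left.mp hd
  have hac : a ≠ c := fun h => hd' (a := a) (by simp) (by simp [h])
  have hae : a ≠ e := fun h => hd' (a := a) (by simp) (by simp [h])
  have hbc : b ≠ c := fun h => hd' (a := b) (by simp) (by simp [h])
  have hbe : b ≠ e := fun h => hd' (a := b) (by simp) (by simp [h])
  have hm := ad_margins hab hac hae hbc hbe hce hG hG' hk
  have ea := hm a
  have eb := hm b
  have ec := hm c
  have ee := hm e
  simp only [hab, hac, hae, hbc, hbe, hce, hab.symm, hac.symm, hae.symm, hbc.symm, hbe.symm,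
    hce.symm, true_or, or_true, or_self, if_true, if_false, mul_one, mul_zero, add_zero,
    zero_add] at ea eb ec ee
  have hM1 : mat a c b e hac hbe ∈ pmSet ({a, b} ∪ {c, e}) :=
    mat_mem_pmSet hac hab hae hbc.symm hce hbe (fun v => by simp; tauto)
  have hM2 : mat a e b c hae hbc ∈ pmSet ({a, b} ∪ {c, e}) :=
    mat_mem_pmSet hae hab hac hbe.symm hce.symm hbc (fun v => by simp; tauto)
  have hMne : mat a c b e hac hbe ≠ mat a e b c hae hbc := by
    rw [mat_comm_right hac hbe, mat_comm_right hae hbc]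
    exact mat_ne hac hae hab hce hbc.symm hbe.symm
  have hs1 : mat a c b e hac hbe ⊆ blk {a, b} {c, e} := by
    intro x hx
    rw [ad_mem_blk hac hae hbc hbe]
    simp only [mat, mem_insert, mem_singleton] at hx
    tauto
  have hs2 : mat a e b c hae hbc ⊆ blk {a, b} {c, e} := by
    intro x hx
    rw [ad_mem_blk hac hae hbc hbe]
    simp only [mat, mem_insert, mem_singleton] at hx
    tauto
  rcases ad_prop_aux _ _ _ _ _ _ _ _ ea eb ec ee with h | h | h
  · exfalso
    apply hne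
    ext x
    by_cases hx : x ∈ blk {a, b} {c, e}
    · rcases (ad_mem_blk hac hae hbc hbe).mp hx with rfl | rfl | rfl | rfl
      · exact h.1.symm
      · exact h.2.1.symm
      · exact h.2.2.1.symm
      · exact h.2.2.2.symm
    · have h5 : x ∈ G' \ blk {a, b} {c, e} ↔ x ∈ G \ blk {a, b} {c, e} := by rw [hk]
      simp only [mem_sdiff, hx, not_false_eq_true, and_true] at h5
      exact h5
  · obtain ⟨h1, h1', h2, h2', h3, h3', h4, h4'⟩ := h
    exact ⟨_, hM1, _, mem_erase.mpr ⟨hMne.symm, hM2⟩, hs1,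
      ad_switch_eq hac hae hbc hbe hk h1 h1' h2 h2' h3 h3' h4 h4'⟩
  · obtain ⟨h1, h1', h2, h2', h3, h3', h4, h4'⟩ := h
    refine ⟨_, hM2, _, mem_erase.mpr ⟨hMne, hM1⟩, hs2, ?_⟩
    rw [ad_blk_swap] at hk
    exact ad_switch_eq hae hac hbe hbc hk h2 h2' h1 h1' h4 h4' h3 h3'

/-- among the six `2`-subsets `p` of `S` at most four have `F ⊆ blk p (S \ p)`. -/
lemma ad_card_good_le {S : Finset (Fin n)} (hS : S.card = 4) {F : Finset (Edge n)}
    (hF : F ∈ pmSet S) :
    ((S.powersetCard 2).filter (fun p => F ⊆ blk p (S \ p))).card ≤ 4 := by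
  obtain ⟨hF2, hFS, _⟩ := mem_pmSet_iff.mp hF
  set I : Finset (Finset (Fin n)) := F.image (fun e => e.1.toFinset) with hI
  have hIc : I.card = 2 := by
    rw [hI, Finset.card_image_of_injective, hF2]
    intro e e' h
    apply Subtype.ext
    apply Sym2.ext
    intro x
    have : x ∈ e.1.toFinset ↔ x ∈ e'.1.toFinset := by
      simp only at h
      rw [h]
    simpa using this
  have hIs : I ⊆ S.powersetCard 2 := by
    intro p hp
    obtain ⟨e, he, rfl⟩ := mem_image.mp hp
    rw [mem_powersetCard]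
    refine ⟨fun v hv => hFS e he v (by simpa using hv), Sym2.card_toFinset_of_not_isDiag _ e.2⟩
  have hsub : (S.powersetCard 2).filter (fun p => F ⊆ blk p (S \ p)) ⊆ S.powersetCard 2 \ I := by
    intro p hp
    obtain ⟨hp1, hp2⟩ := mem_filter.mp hp
    rw [mem_sdiff]
    refine ⟨hp1, fun hpI => ?_⟩
    obtain ⟨e, he, rfl⟩ := mem_image.mp hpI
    have h1 := hp2 he
    unfold blk at h1
    obtain ⟨w, hw, hwe⟩ := ad_mem_inc.mp (mem_inter.mp h1).2
    exact (mem_sdiff.mp hw).2 (by simpa using hwe)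
  refine le_trans (Finset.card_le_card hsub) ?_
  rw [Finset.card_sdiff_of_subset hIs, hIc, Finset.card_powersetCard, hS]
  decide

/-- reindexing ordered pairs of disjoint `2`-sets by their union. -/
lemma ad_reindex (W : Finset (Fin n) → Finset (Fin n) → ℝ) :
    ∑ p ∈ P2 n, ∑ p' ∈ P2d p, W p p' =
      ∑ S ∈ (univ : Finset (Fin n)).powersetCard 4, ∑ p ∈ S.powersetCard 2, W p (S \ p) := by
  rw [Finset.sum_sigma', Finset.sum_sigma']
  refine Finset.sum_bij' (fun x _ => ⟨x.1 ∪ x.2, x.1⟩) (fun y _ => ⟨y.2, y.1 \ y.2⟩) ?_ ?_ ?_ ?_ ?_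
  · rintro ⟨p, p'⟩ h
    simp only [mem_sigma, P2, P2d, mem_filter, mem_powersetCard] at h ⊢
    obtain ⟨⟨_, h1⟩, ⟨_, h2⟩, h3⟩ := h
    refine ⟨⟨subset_univ _, ?_⟩, subset_union_left, h1⟩
    rw [Finset.card_union_of_disjoint h3, h1, h2]
  · rintro ⟨S, p⟩ h
    simp only [mem_sigma, P2, P2d, mem_filter, mem_powersetCard] at h ⊢
    obtain ⟨⟨_, h1⟩, h2, h3⟩ := h
    refine ⟨⟨subset_univ _, h3⟩, ⟨subset_univ _, ?_⟩, Finset.disjoint_sdiff⟩
    rw [Finset.card_sdiff_of_subset h2, h1, h3]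
  · rintro ⟨p, p'⟩ h
    simp only [mem_sigma, P2, P2d, mem_filter, mem_powersetCard] at h
    obtain ⟨⟨_, h1⟩, ⟨_, h2⟩, h3⟩ := h
    simp only [Sigma.mk.injEq, heq_eq_eq, true_and]
    exact Finset.union_sdiff_cancel_left h3
  · rintro ⟨S, p⟩ h
    simp only [mem_sigma, mem_powersetCard] at h
    obtain ⟨⟨_, h1⟩, h2, h3⟩ := h
    simp only [Sigma.mk.injEq, heq_eq_eq, and_true]
    exact Finset.union_sdiff_of_subset h2
  · rintro ⟨p, p'⟩ h
    simp only [mem_sigma, P2, P2d, mem_filter, mem_powersetCard] at h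
    obtain ⟨⟨_, h1⟩, ⟨_, h2⟩, h3⟩ := h
    simp only
    rw [Finset.union_sdiff_cancel_left h3]

lemma ad_fibre_sum_le (d : Fin n → ℕ) (Φ : Finset (Edge n) → ℝ) {p p' : Finset (Fin n)}
    (hp : p.card = 2) (hp' : p'.card = 2) (hd : Disjoint p p') (G : Om d) :
    ∑ y ∈ fib univ (offKey d (blk p p')) G, (Φ G.1 - Φ y.1) ^ 2 ≤
      ∑ F ∈ pmSet (p ∪ p'), ∑ F' ∈ (pmSet (p ∪ p')).erase F,
        if F ⊆ blk p p' then (Φ G.1 - Φ (switchResult G.1 F F')) ^ 2 else 0 := by
  classical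
  have hA : ∀ y ∈ fib univ (offKey d (blk p p')) G, (Φ G.1 - Φ y.1) ^ 2 ≤
      ∑ F ∈ pmSet (p ∪ p'), ∑ F' ∈ (pmSet (p ∪ p')).erase F,
        if F ⊆ blk p p' ∧ switchResult G.1 F F' = y.1 then
          (Φ G.1 - Φ (switchResult G.1 F F')) ^ 2 else 0 := by
    intro y hy
    have hnn : ∀ F ∈ pmSet (p ∪ p'), ∀ F' ∈ (pmSet (p ∪ p')).erase F,
        (0 : ℝ) ≤ if F ⊆ blk p p' ∧ switchResult G.1 F F' = y.1 then
          (Φ G.1 - Φ (switchResult G.1 F F')) ^ 2 else 0 := by
      intro F _ F' _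
      split_ifs
      · exact sq_nonneg _
      · exact le_refl _
    by_cases hyG : y.1 = G.1
    · have h0 : (Φ G.1 - Φ y.1) ^ 2 = 0 := by rw [hyG, sub_self]; norm_num
      rw [h0]
      exact Finset.sum_nonneg fun F hF => Finset.sum_nonneg fun F' hF' => hnn F hF F' hF'
    · have hk : y.1 \ blk p p' = G.1 \ blk p p' := (mem_filter.mp hy).2
      obtain ⟨F, hF, F', hF', hs, hsw⟩ := ad_fibre hp hp' hd G.2 y.2 hk hyG
      refine le_trans ?_ (Finset.single_le_sum
        (f := fun F => ∑ F' ∈ (pmSet (p ∪ p')).erase F,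
          if F ⊆ blk p p' ∧ switchResult G.1 F F' = y.1 then
            (Φ G.1 - Φ (switchResult G.1 F F')) ^ 2 else 0)
        (fun F hF => Finset.sum_nonneg fun F' hF' => hnn F hF F' hF') hF)
      refine le_trans ?_ (Finset.single_le_sum
        (f := fun F' => if F ⊆ blk p p' ∧ switchResult G.1 F F' = y.1 then
            (Φ G.1 - Φ (switchResult G.1 F F')) ^ 2 else 0)
        (fun F' hF' => hnn F hF F' hF') hF')
      rw [if_pos ⟨hs, hsw⟩, hsw]
  refine le_trans (Finset.sum_le_sum hA) ?_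
  rw [Finset.sum_comm]
  apply Finset.sum_le_sum
  intro F _
  rw [Finset.sum_comm]
  apply Finset.sum_le_sum
  intro F' _
  by_cases hs : F ⊆ blk p p'
  · simp only [hs, true_and, if_true]
    rw [← Finset.sum_filter, Finset.sum_const, nsmul_eq_mul]
    have hc : ((fib univ (offKey d (blk p p')) G).filter
        (fun y => switchResult G.1 F F' = y.1)).card ≤ 1 := by
      rw [Finset.card_le_one]
      intro y hy y' hy'
      exact Subtype.ext ((mem_filter.mp hy).2.symm.trans (mem_filter.mp hy').2)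
    have hc' : (((fib univ (offKey d (blk p p')) G).filter
        (fun y => switchResult G.1 F F' = y.1)).card : ℝ) ≤ 1 := by exact_mod_cast hc
    nlinarith [sq_nonneg (Φ G.1 - Φ (switchResult G.1 F F'))]
  · simp [hs]

lemma ad_block_le (d : Fin n → ℕ) (Φ : Finset (Edge n) → ℝ) {p p' : Finset (Fin n)}
    (hp : p.card = 2) (hp' : p'.card = 2) (hd : Disjoint p p') :
    nsq univ (R d (blk p p') (fun G : Om d => Φ G.1)) ≤
      (1 / 4) * ∑ G ∈ realizations d, ∑ F ∈ pmSet (p ∪ p'), ∑ F' ∈ (pmSet (p ∪ p')).erase F,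
        if F ⊆ blk p p' then (Φ G - Φ (switchResult G F F')) ^ 2 else 0 := by
  rw [← Finset.sum_coe_sort (realizations d), Finset.mul_sum]
  unfold nsq
  apply Finset.sum_le_sum
  intro G _
  refine le_trans (ad_sq_sub_cE_le univ (offKey d (blk p p')) (fun G : Om d => Φ G.1)
    (mem_univ G)) ?_
  exact mul_le_mul_of_nonneg_left (ad_fibre_sum_le d Φ hp hp' hd G) (by norm_num)

/-- **Adapter**: the block energies are dominated by the switch Dirichlet form. -/
theorem swE_le_dirForm (d : Fin n → ℕ) (Φ : Finset (Edge n) → ℝ) :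
    ∑ p ∈ P2 n, swE d p (fun G : Om d => Φ G.1) ≤ dirForm d Φ := by
  set W : Finset (Fin n) → Finset (Fin n) → ℝ := fun p p' =>
    (1 / 4) * ∑ G ∈ realizations d, ∑ F ∈ pmSet (p ∪ p'), ∑ F' ∈ (pmSet (p ∪ p')).erase F,
        if F ⊆ blk p p' then (Φ G - Φ (switchResult G F F')) ^ 2 else 0 with hW
  have h1 : ∑ p ∈ P2 n, swE d p (fun G : Om d => Φ G.1) ≤ ∑ p ∈ P2 n, ∑ p' ∈ P2d p, W p p' := by
    apply Finset.sum_le_sum
    intro p hp
    unfold swE
    apply Finset.sum_le_sum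
    intro p' hp'
    have hp2 : p.card = 2 := (mem_powersetCard.mp hp).2
    obtain ⟨hp'1, hp'2⟩ := mem_filter.mp hp'
    exact ad_block_le d Φ hp2 (mem_powersetCard.mp hp'1).2 hp'2
  refine le_trans h1 ?_
  rw [ad_reindex W]
  unfold dirForm
  rw [Finset.sum_comm]
  apply Finset.sum_le_sum
  intro S hS
  have hS4 : S.card = 4 := (mem_powersetCard.mp hS).2
  have h2 : ∀ p ∈ S.powersetCard 2, W p (S \ p) =
      (1 / 4) * ∑ G ∈ realizations d, ∑ F ∈ pmSet S, ∑ F' ∈ (pmSet S).erase F,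
        if F ⊆ blk p (S \ p) then (Φ G - Φ (switchResult G F F')) ^ 2 else 0 := by
    intro p hp
    rw [hW]
    simp only
    rw [Finset.union_sdiff_of_subset (mem_powersetCard.mp hp).1]
  rw [Finset.sum_congr rfl h2, ← Finset.mul_sum, Finset.sum_comm, Finset.mul_sum]
  apply Finset.sum_le_sum
  intro G _
  rw [Finset.sum_comm, Finset.mul_sum]
  apply Finset.sum_le_sum
  intro F hF
  rw [Finset.sum_comm, Finset.mul_sum]
  apply Finset.sum_le_sum
  intro F' _
  rw [← Finset.sum_filter, Finset.sum_const, nsmul_eq_mul]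
  have hc : (((S.powersetCard 2).filter (fun p => F ⊆ blk p (S \ p))).card : ℝ) ≤ 4 := by
    exact_mod_cast ad_card_good_le hS4 hF
  nlinarith [sq_nonneg (Φ G - Φ (switchResult G F F'))]

lemma dirForm_nonneg (d : Fin n → ℕ) (Φ : Finset (Edge n) → ℝ) : 0 ≤ dirForm d Φ := by
  unfold dirForm
  exact Finset.sum_nonneg fun _ _ => Finset.sum_nonneg fun _ _ => Finset.sum_nonneg fun _ _ =>
    Finset.sum_nonneg fun _ _ => sq_nonneg _

/-- **Glue**: a Poincaré inequality for the block energies gives hypothesis `hP` of `SW.final`. -/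
theorem poincare_of_swE (hn : 4 ≤ n) (d : Fin n → ℕ)
    (h : ∀ f : Om d → ℝ, nsq univ (cR univ (fun _ => ()) f) ≤ ∑ p ∈ P2 n, swE d p f)
    (Φ : Finset (Edge n) → ℝ) :
    ((realizations d).card : ℝ) * (∑ G ∈ realizations d, Φ G ^ 2) -
        (∑ G ∈ realizations d, Φ G) ^ 2 ≤ (n : ℝ) ^ 2 * (realizations d).card * dirForm d Φ := by
  have h1 := nsq_cR_unit (univ : Finset (Om d)) (fun G : Om d => Φ G.1)
  have hcard : ((univ : Finset (Om d)).card : ℝ) = ((realizations d).card : ℝ) := by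
    rw [Finset.card_univ, Fintype.card_coe]
  have e1 : nsq (univ : Finset (Om d)) (fun G : Om d => Φ G.1) = ∑ G ∈ realizations d, Φ G ^ 2 := by
    unfold nsq
    exact Finset.sum_coe_sort (realizations d) (fun G => Φ G ^ 2)
  have e2 : ∑ G : Om d, Φ G.1 = ∑ G ∈ realizations d, Φ G :=
    Finset.sum_coe_sort (realizations d) Φ
  rw [hcard, e1, e2] at h1
  rw [← h1]
  have h2 := le_trans (h (fun G : Om d => Φ G.1)) (swE_le_dirForm d Φ)
  have h3 := dirForm_nonneg d Φ
  have hc : (0 : ℝ) ≤ ((realizations d).card : ℝ) := Nat.cast_nonneg _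
  have hn' : (1 : ℝ) ≤ (n : ℝ) ^ 2 := by
    have : (4 : ℝ) ≤ (n : ℝ) := by exact_mod_cast hn
    nlinarith
  calc ((realizations d).card : ℝ) * nsq univ (cR univ (fun _ => ()) (fun G : Om d => Φ G.1))
      ≤ ((realizations d).card : ℝ) * dirForm d Φ := mul_le_mul_of_nonneg_left h2 hc
    _ = 1 * (((realizations d).card : ℝ) * dirForm d Φ) := by ring
    _ ≤ (n : ℝ) ^ 2 * (((realizations d).card : ℝ) * dirForm d Φ) :=
        mul_le_mul_of_nonneg_right hn' (mul_nonneg hc h3)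
    _ = (n : ℝ) ^ 2 * (realizations d).card * dirForm d Φ := by ring

end Crest.Agent.SW
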