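import Mathlib
import Crest.Prelude.Def_SwitchChain
import Crest.Agent.SW_Mix
import Crest.Agent.SW_Kernel

/-!
# Row 299 (S0453): the statement of S0453 from a Poincaré inequality for `dirForm` (helper85)
-/

set_option autoImplicit false
open Finset

namespace Crest.Agent.SW

open Crest.SwitchChain

variable {n : ℕ}

lemma card_realizations_le (hn : 4 ≤ n) (d : Fin n → ℕ) : (realizations d).card ≤ 2 ^ (n ^ 2) := by
  calc (realizations d).card ≤ (univ : Finset (Finset (Edge n))).card := Finset.card_le_univ _
    _ = 2 ^ Fintype.card (Edge n) := by rw [Finset.card_univ, Fintype.card_finset]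
    _ ≤ 2 ^ (n ^ 2) := by
        apply Nat.pow_le_pow_right (by norm_num)
        calc Fintype.card (Edge n) ≤ Fintype.card (Sym2 (Fin n)) := Fintype.card_subtype_le _
          _ = (n + 1).choose 2 := by rw [Sym2.card, Fintype.card_fin]
          _ ≤ n ^ 2 := by
              rw [Nat.choose_two_right]
              apply Nat.div_le_of_le_mul
              simp only [Nat.add_sub_cancel]
              nlinarith

/-- The full statement of S0453 from the Poincaré inequality for the switch Dirichlet form with
any constant `≤ n²`. -/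
theorem final (hn : 4 ≤ n) (d : Fin n → ℕ) (_hd : (realizations d).Nonempty)
    (hP : ∀ f : Finset (Edge n) → ℝ,
      ((realizations d).card : ℝ) * (∑ G ∈ realizations d, f G ^ 2) -
        (∑ G ∈ realizations d, f G) ^ 2 ≤ (n : ℝ) ^ 2 * (realizations d).card * dirForm d f) :
    (∃ t : ℕ, t ≤ 2 * n ^ 8 ∧ ∀ G ∈ realizations d,
        tvDist (fun G' => (kernel n ^ t) G G') (unifOn (realizations d)) ≤ 1 / 4) ∧
      ∀ f : Finset (Edge n) → ℝ,
        ((realizations d).card : ℝ) * (∑ G ∈ realizations d, f G ^ 2) -
            (∑ G ∈ realizations d, f G) ^ 2 ≤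
          24 * (n : ℝ) ^ 2 * (n.choose 4 : ℝ) * (realizations d).card *
            ∑ G ∈ realizations d,
              f G * (f G - ∑ G' ∈ realizations d, kernel n G G' * f G') := by
  have hc : (0 : ℝ) < (n.choose 4 : ℝ) := by exact_mod_cast Nat.choose_pos hn
  have hP2 : ∀ f : Finset (Edge n) → ℝ,
        ((realizations d).card : ℝ) * (∑ G ∈ realizations d, f G ^ 2) -
            (∑ G ∈ realizations d, f G) ^ 2 ≤
          24 * (n : ℝ) ^ 2 * (n.choose 4 : ℝ) * (realizations d).card *
            ∑ G ∈ realizations d,
              f G * (f G - ∑ G' ∈ realizations d, kernel n G G' * f G') := by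
    intro f
    rw [energy_eq_dirForm hn d f]
    refine le_trans (hP f) (le_of_eq ?_)
    field_simp
  refine ⟨⟨2 * n ^ 8, le_rfl, fun G hG => ?_⟩, hP2⟩
  have h1 := (lazyChain_kernel hn d).tv_sq_le (24 * (n : ℝ) ^ 2 * (n.choose 4 : ℝ))
    (choose_bounds n hn).1 hP2 (2 * n ^ 8) G hG
  have h2 := numerics n hn (realizations d).card (card_realizations_le hn d)
  have h3 := abs_le_of_sq_le_sq (le_trans h1 h2) (by norm_num)
  exact le_trans (le_abs_self _) h3

end Crest.Agent.SW
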