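import Crest.Agent.SW_M2
import Crest.Agent.SW_Adapter
import Crest.Agent.SW_Final

/-!
# S0453: assembly, final Poincaré inequality (task M4)
-/

set_option autoImplicit false
open Finset

namespace Crest.Agent.SW
open Crest.SwitchChain

variable {n : ℕ}

/-- M4: Poincaré inequality in the form needed by `SW.final`
(`nsq_cR_unit`, sums over the subtype `Om d` = sums over `realizations d`, `swE_le_dirForm`, `2 ≤ n²`). -/
theorem poincare_dirForm (hn : 4 ≤ n) (d : Fin n → ℕ) (F : Finset (Edge n) → ℝ) :
    ((realizations d).card : ℝ) * (∑ G ∈ realizations d, F G ^ 2) -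
        (∑ G ∈ realizations d, F G) ^ 2 ≤ (n : ℝ) ^ 2 * (realizations d).card * dirForm d F :=
  poincare_of_swE hn d (poincare_swE d) F

end Crest.Agent.SW
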