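import Crest.Agent.SW_Gen

/-!
# S0453: adjacency, degrees (task Q0)
-/

set_option autoImplicit false
open Finset

namespace Crest.Agent.SW
open Crest.SwitchChain

variable {n : ℕ}

/-- adjacency in a graph given as a set of slots -/
def adj (G : Finset (Edge n)) (u z : Fin n) : Prop := ∃ e ∈ G, e.1 = s(u, z)

instance (G : Finset (Edge n)) (u z : Fin n) : Decidable (adj G u z) := by
  unfold adj; infer_instance

theorem adj_comm (G : Finset (Edge n)) (u z : Fin n) : adj G u z ↔ adj G z u := by
  simp [adj, Sym2.eq_swap]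

theorem not_adj_self (G : Finset (Edge n)) (u : Fin n) : ¬ adj G u u := by
  rintro ⟨e, _, he⟩
  exact e.2 (by rw [he]; simp)

/-- degree = number of neighbours -/
theorem deg_eq_card_adj (G : Finset (Edge n)) (v : Fin n) :
    deg G v = (univ.filter (fun z => adj G v z)).card := by
  unfold deg
  refine Finset.card_bij (fun e he => Sym2.Mem.other' (Finset.mem_filter.1 he).2) ?_ ?_ ?_
  · intro e he
    rw [Finset.mem_filter]
    exact ⟨Finset.mem_univ _, e, (Finset.mem_filter.1 he).1, (Sym2.other_spec' _).symm⟩
  · intro e he e' he' h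
    apply Subtype.ext
    rw [← Sym2.other_spec' (Finset.mem_filter.1 he).2, ← Sym2.other_spec' (Finset.mem_filter.1 he').2, h]
  · intro z hz
    obtain ⟨e, he, heq⟩ := (Finset.mem_filter.1 hz).2
    have hv : v ∈ e.1 := by rw [heq]; exact Sym2.mem_mk_left _ _
    refine ⟨e, Finset.mem_filter.2 ⟨he, hv⟩, ?_⟩
    have h1 := (Sym2.other_spec' hv).trans heq
    exact Sym2.congr_right.1 h1

/-- extensionality through adjacency -/
theorem ext_adj {G G' : Finset (Edge n)} (h : ∀ u z, adj G u z ↔ adj G' u z) : G = G' := by
  have key : ∀ (H : Finset (Edge n)) (e : Edge n) (a b : Fin n), e.1 = s(a, b) → (e ∈ H ↔ adj H a b) := by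
    intro H e a b hab
    constructor
    · intro he
      exact ⟨e, he, hab⟩
    · rintro ⟨e', he', h'⟩
      have : e' = e := Subtype.ext (h'.trans hab.symm)
      exact this ▸ he'
  ext e
  obtain ⟨a, b, hab⟩ : ∃ a b, e.1 = s(a, b) := by
    induction e.1 using Sym2.ind with
    | _ a b => exact ⟨a, b, rfl⟩
  rw [key G e a b hab, key G' e a b hab, h]

/-- `deg` is additive on disjoint unions. -/
theorem deg_union_of_disjoint (G G' : Finset (Edge n)) (h : Disjoint G G') (v : Fin n) :
    deg (G ∪ G') v = deg G v + deg G' v := by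
  unfold deg
  rw [Finset.filter_union, Finset.card_union_of_disjoint (Finset.disjoint_filter_filter h)]

end Crest.Agent.SW
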