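import Crest.Agent.SW_QCalc

/-!
# S0453: connectivity, the switch (task C1).  Plan: `SW_Connected.lean`.
-/

set_option autoImplicit false
open Finset

namespace Crest.Agent.SW
open Crest.SwitchChain

variable {n : ℕ}

/-- C0: `R d A f = 0` means that `f` is constant on the fibres. -/
theorem eq_of_R_eq_zero (d : Fin n → ℕ) (A : Finset (Edge n)) (f : Om d → ℝ)
    (h : ∀ G, R d A f G = 0) (G G' : Om d) (hk : offKey d A G = offKey d A G') : f G = f G' := by
  have h1 : f G = cE univ (offKey d A) f G := by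
    have := h G
    simp only [R, cR] at this
    linarith
  have h2 : f G' = cE univ (offKey d A) f G' := by
    have := h G'
    simp only [R, cR] at this
    linarith
  rw [h1, h2]
  exact cE_eq_of_key f hk

/-- the slot `{a, b}` -/
private def mkE (a b : Fin n) (h : a ≠ b) : Edge n := ⟨s(a, b), by simpa using h⟩

private theorem deg_pair (a b a' b' : Fin n) (h : a ≠ b) (h' : a' ≠ b')
    (hne : mkE a b h ≠ mkE a' b' h') (u : Fin n) :
    deg ({mkE a b h, mkE a' b' h'} : Finset (Edge n)) u
      = (if u = a ∨ u = b then 1 else 0) + (if u = a' ∨ u = b' then 1 else 0) := by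
  unfold deg
  rw [Finset.card_filter, Finset.sum_pair hne]
  simp [mkE, Sym2.mem_iff]

/-- C1: the switch `vx, yw → vy, xw`. -/
theorem exists_switch (d : Fin n → ℕ) (G : Om d) (v x y w : Fin n)
    (hvx : v ≠ x) (hvy : v ≠ y) (hvw : v ≠ w) (hxy : x ≠ y) (hxw : x ≠ w) (hyw : y ≠ w)
    (h1 : adj G.1 v x) (h2 : adj G.1 y w) (h3 : ¬ adj G.1 v y) (h4 : ¬ adj G.1 x w) :
    ∃ G₁ : Om d, offKey d (inc {x, y}) G₁ = offKey d (inc {x, y}) G ∧
      ∀ a b : Fin n, adj G₁.1 a b ↔
        ((adj G.1 a b ∧ s(a, b) ≠ s(v, x) ∧ s(a, b) ≠ s(y, w)) ∨ s(a, b) = s(v, y) ∨ s(a, b) = s(x, w)) := by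
  classical
  set evx := mkE v x hvx with hevx
  set eyw := mkE y w hyw with heyw
  set evy := mkE v y hvy with hevy
  set exw := mkE x w hxw with hexw
  have mem_of_adj : ∀ (a b : Fin n) (h : a ≠ b), adj G.1 a b → mkE a b h ∈ G.1 := by
    rintro a b h ⟨e, he, hab⟩
    have : e = mkE a b h := Subtype.ext hab
    rwa [← this]
  have adj_of_mem : ∀ (a b : Fin n) (h : a ≠ b), mkE a b h ∈ G.1 → adj G.1 a b :=
    fun a b h hm => ⟨_, hm, rfl⟩
  have m1 : evx ∈ G.1 := mem_of_adj _ _ _ h1
  have m2 : eyw ∈ G.1 := mem_of_adj _ _ _ h2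
  have m3 : evy ∉ G.1 := fun hm => h3 (adj_of_mem _ _ _ hm)
  have m4 : exw ∉ G.1 := fun hm => h4 (adj_of_mem _ _ _ hm)
  have ne1 : evx ≠ eyw := by
    intro h
    have := congrArg Subtype.val h
    simp only [hevx, heyw, mkE, Sym2.eq_iff] at this
    rcases this with ⟨a, _⟩ | ⟨a, _⟩
    · exact hvy a
    · exact hvw a
  have ne2 : evy ≠ exw := by
    intro h
    have := congrArg Subtype.val h
    simp only [hevy, hexw, mkE, Sym2.eq_iff] at this
    rcases this with ⟨a, _⟩ | ⟨a, _⟩
    · exact hvx a
    · exact hvw a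
  set F : Finset (Edge n) := {evx, eyw} with hF
  set F' : Finset (Edge n) := {evy, exw} with hF'
  have hFG : F ⊆ G.1 := by
    intro e he
    simp only [hF, mem_insert, mem_singleton] at he
    rcases he with rfl | rfl <;> assumption
  have hF'G : Disjoint (G.1 \ F) F' := by
    rw [Finset.disjoint_left]
    intro e he he'
    simp only [hF', mem_insert, mem_singleton] at he'
    have := (mem_sdiff.1 he).1
    rcases he' with rfl | rfl
    · exact m3 this
    · exact m4 this
  have hdeg : ∀ u, deg (G.1 \ F ∪ F') u = d u := by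
    intro u
    have hG : deg G.1 u = d u := by
      have := G.2
      simp only [realizations, mem_filter, mem_univ, true_and] at this
      exact this u
    have e1 : deg (G.1 \ F ∪ F') u = deg (G.1 \ F) u + deg F' u :=
      deg_union_of_disjoint _ _ hF'G u
    have e2 : deg G.1 u = deg (G.1 \ F) u + deg F u := by
      have := deg_union_of_disjoint (G.1 \ F) F Finset.sdiff_disjoint u
      rwa [Finset.sdiff_union_of_subset hFG] at this
    have e3 : deg F u = deg F' u := by
      rw [hF, hF', deg_pair _ _ _ _ _ _ ne1, deg_pair _ _ _ _ _ _ ne2]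
      by_cases c1 : u = v
      · subst c1; simp [hvx, hvy, hvw]
      by_cases c2 : u = x
      · subst c2; simp [hvx.symm, hxy, hxw]
      by_cases c3 : u = y
      · subst c3; simp [hvy.symm, hxy.symm, hyw]
      by_cases c4 : u = w
      · subst c4; simp [hvw.symm, hxw.symm, hyw.symm]
      simp [c1, c2, c3, c4]
    omega
  refine ⟨⟨G.1 \ F ∪ F', by simpa [realizations] using hdeg⟩, ?_, ?_⟩
  · simp only [offKey]
    ext e
    simp only [mem_sdiff, mem_union, hF, hF', mem_insert, mem_singleton, inc, mem_filter, mem_univ,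
      true_and, not_exists, not_and, not_or]
    constructor
    · rintro ⟨h | h | h, hn⟩
      · exact ⟨h.1, hn⟩
      · exfalso; subst h
        exact hn y (Or.inr rfl) (by simp [hevy, mkE])
      · exfalso; subst h
        exact hn x (Or.inl rfl) (by simp [hexw, mkE])
    · rintro ⟨h, hn⟩
      refine ⟨Or.inl ⟨h, ?_, ?_⟩, hn⟩
      · rintro rfl
        exact hn x (Or.inl rfl) (by simp [hevx, mkE])
      · rintro rfl
        exact hn y (Or.inr rfl) (by simp [heyw, mkE])
  · intro a b
    constructor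
    · rintro ⟨e, he, hab⟩
      simp only [mem_sdiff, mem_union, hF, hF', mem_insert, mem_singleton, not_or] at he
      rcases he with ⟨hG, hn1, hn2⟩ | rfl | rfl
      · refine Or.inl ⟨⟨e, hG, hab⟩, ?_, ?_⟩
        · intro h; exact hn1 (Subtype.ext (hab.trans h))
        · intro h; exact hn2 (Subtype.ext (hab.trans h))
      · exact Or.inr (Or.inl hab.symm)
      · exact Or.inr (Or.inr hab.symm)
    · rintro (⟨⟨e, hG, hab⟩, hn1, hn2⟩ | h | h)
      · refine ⟨e, ?_, hab⟩
        simp only [mem_sdiff, mem_union, hF, mem_insert, mem_singleton, not_or]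
        refine Or.inl ⟨hG, ?_, ?_⟩
        · rintro rfl; exact hn1 hab.symm
        · rintro rfl; exact hn2 hab.symm
      · refine ⟨evy, ?_, h.symm⟩
        simp [hF']
      · refine ⟨exw, ?_, h.symm⟩
        simp [hF']

end Crest.Agent.SW
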