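import Crest.Agent.SW_QCalc

/-!
# S0453: connectivity, the partner vertex (task C2).  Plan: `SW_Connected.lean`.
-/

set_option autoImplicit false
open Finset

namespace Crest.Agent.SW
open Crest.SwitchChain

variable {n : ℕ}

/-- C2: the partner vertex.  (`A_x = {w ∉ F | x ~ w} \ {y}`, `A_y = {w ∉ F | y ~ w} \ {x}`, `|A_x| ≤ |A_y|`, `v ∈ A_x \ A_y`.) -/
theorem exists_partner (G : Finset (Edge n)) (F : Finset (Fin n)) (v x y : Fin n)
    (hv : v ∉ F) (hx : x ∉ F) (hy : y ∉ F) (hxy : x ≠ y) (hvy : v ≠ y) (h1 : adj G v x) (h3 : ¬ adj G v y)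
    (hr : (univ.filter (fun w => w ∉ F ∧ adj G x w)).card ≤ (univ.filter (fun w => w ∉ F ∧ adj G y w)).card) :
    ∃ w, w ∉ F ∧ w ≠ v ∧ w ≠ x ∧ w ≠ y ∧ adj G y w ∧ ¬ adj G x w := by
  classical
  set Ax := (univ.filter (fun w => w ∉ F ∧ adj G x w)).erase y with hAx
  set Ay := (univ.filter (fun w => w ∉ F ∧ adj G y w)).erase x with hAy
  have hcard : Ax.card ≤ Ay.card := by
    by_cases hadj : adj G x y
    · have hy' : y ∈ univ.filter (fun w => w ∉ F ∧ adj G x w) := by simp [hy, hadj]
      have hx' : x ∈ univ.filter (fun w => w ∉ F ∧ adj G y w) := by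
        simp [hx, (adj_comm G x y).mp hadj]
      rw [hAx, hAy, Finset.card_erase_of_mem hy', Finset.card_erase_of_mem hx']
      omega
    · have hy' : y ∉ univ.filter (fun w => w ∉ F ∧ adj G x w) := by simp [hadj]
      have hx' : x ∉ univ.filter (fun w => w ∉ F ∧ adj G y w) := by
        have : ¬ adj G y x := fun h => hadj ((adj_comm G y x).mp h)
        simp [this]
      rw [hAx, hAy, Finset.erase_eq_of_notMem hy', Finset.erase_eq_of_notMem hx']
      exact hr
  have hvAx : v ∈ Ax := by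
    simp only [hAx, Finset.mem_erase, Finset.mem_filter, Finset.mem_univ, true_and]
    exact ⟨hvy, hv, (adj_comm G v x).mp h1⟩
  have hvAy : v ∉ Ay := by
    simp only [hAy, Finset.mem_erase, Finset.mem_filter, Finset.mem_univ, true_and, not_and]
    intro _ _ h
    exact h3 ((adj_comm G y v).mp h)
  have hex : ∃ w ∈ Ay, w ∉ Ax := by
    by_contra hcon
    have hsub : Ay ⊆ Ax := by
      intro w hw
      by_contra hw'
      exact hcon ⟨w, hw, hw'⟩
    have hss : Ay ⊂ Ax := by
      refine Finset.ssubset_iff_subset_ne.mpr ⟨hsub, ?_⟩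
      intro h
      exact hvAy (h ▸ hvAx)
    have := Finset.card_lt_card hss
    omega
  obtain ⟨w, hwy, hwx⟩ := hex
  simp only [hAy, Finset.mem_erase, Finset.mem_filter, Finset.mem_univ, true_and] at hwy
  simp only [hAx, Finset.mem_erase, Finset.mem_filter, Finset.mem_univ, true_and, not_and] at hwx
  obtain ⟨hwx', hwF, hyw⟩ := hwy
  have hwy' : w ≠ y := by
    rintro rfl
    exact not_adj_self G w hyw
  refine ⟨w, hwF, ?_, hwx', hwy', hyw, hwx hwy' hwF⟩
  rintro rfl
  exact h3 ((adj_comm G y w).mp hyw)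

end Crest.Agent.SW
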