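import Crest.Agent.SW_C1
import Crest.Agent.SW_C2

/-!
# S0453: connectivity of `Om d` under pair trades (tasks C1 - C3)

A function that is invariant under all pair trades is constant.  Proof by "freezing" vertices.

`P(F)`: if `G, G' : Om d` agree on all slots incident to `F` then `f G = f G'`.  Induction on `|Fᶜ|`.
* `|Fᶜ| ≤ 1`: every slot is incident to `F`, so `G = G'`.
* Step: pick `v ∉ F`; inner induction on `|N_G(v) ∆ N_G'(v)|`.  If it is `0` then `G, G'` agree on `inc (insert v F)`: use `P(insert v F)`.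
  Otherwise (`deg` equal) there are `x ∈ N_G(v) \ N_G'(v)`, `y ∈ N_G'(v) \ N_G(v)`, and `x, y ∉ insert v F`.
  Let `r G x = #{w ∉ F | x ~ w}` (the same for `G` and `G'`).
  If `r x ≤ r y`: in `G`, `v ∈ N(x) \ N(y)`, so there is `w ∉ F`, `w ∉ {x, y, v}`, `w ~ y`, `w ≁ x` (`exists_partner`);
  the switch `vx, yw → vy, xw` (`exists_switch`) gives `G₁` in the `inc {x,y}`-fibre of `G`, which still agrees with `G'` on `inc F`,
  and `|N_{G₁}(v) ∆ N_G'(v)|` is smaller by 2.   If `r y ≤ r x`: the same in `G'` with `x, y` exchanged.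
-/

set_option autoImplicit false
open Finset

namespace Crest.Agent.SW
open Crest.SwitchChain

variable {n : ℕ}

/-- agreement on the slots incident to `F`, through adjacency -/
private def agr (F : Finset (Fin n)) (G G' : Finset (Edge n)) : Prop :=
  ∀ a b, a ∈ F → (adj G a b ↔ adj G' a b)

private theorem agr.symm {F : Finset (Fin n)} {G G' : Finset (Edge n)} (h : agr F G G') :
    agr F G' G := fun a b ha => (h a b ha).symm

private theorem mem_iff_adj (G : Finset (Edge n)) (e : Edge n) (a b : Fin n) (he : e.1 = s(a, b)) :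
    e ∈ G ↔ adj G a b := by
  constructor
  · intro h; exact ⟨e, h, he⟩
  · rintro ⟨e', h', he'⟩
    have : e = e' := Subtype.ext (he.trans he'.symm)
    rw [this]; exact h'

private theorem mem_inc {F : Finset (Fin n)} {e : Edge n} : e ∈ inc F ↔ ∃ v ∈ F, v ∈ e.1 := by
  simp [inc]

private theorem agr_of_inter {F : Finset (Fin n)} {G G' : Finset (Edge n)}
    (h : G ∩ inc F = G' ∩ inc F) : agr F G G' := by
  have key : ∀ (G G' : Finset (Edge n)), G ∩ inc F = G' ∩ inc F →
      ∀ a b, a ∈ F → adj G a b → adj G' a b := by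
    rintro G G' h a b ha ⟨e, heG, he⟩
    have hmem : e ∈ G ∩ inc F :=
      mem_inter.2 ⟨heG, mem_inc.2 ⟨a, ha, by rw [he]; exact Sym2.mem_mk_left a b⟩⟩
    rw [h] at hmem
    exact ⟨e, (mem_inter.1 hmem).1, he⟩
  intro a b ha
  exact ⟨key G G' h a b ha, key G' G h.symm a b ha⟩

private theorem inter_of_agr {F : Finset (Fin n)} {G G' : Finset (Edge n)} (h : agr F G G') :
    G ∩ inc F = G' ∩ inc F := by
  ext e
  simp only [mem_inter]
  constructor
  · rintro ⟨h1, h2⟩
    obtain ⟨v, hvF, w, hw⟩ := mem_inc.1 h2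
    exact ⟨(mem_iff_adj G' e v w hw).2 ((h v w hvF).1 ((mem_iff_adj G e v w hw).1 h1)), h2⟩
  · rintro ⟨h1, h2⟩
    obtain ⟨v, hvF, w, hw⟩ := mem_inc.1 h2
    exact ⟨(mem_iff_adj G e v w hw).2 ((h v w hvF).2 ((mem_iff_adj G' e v w hw).1 h1)), h2⟩

/-- number of neighbours outside `F` -/
private def rr (F : Finset (Fin n)) (G : Finset (Edge n)) (x : Fin n) : ℕ :=
  (univ.filter (fun w => w ∉ F ∧ adj G x w)).card

private theorem card_split (F : Finset (Fin n)) (G : Finset (Edge n)) (x : Fin n) :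
    deg G x = (univ.filter (fun w => w ∈ F ∧ adj G x w)).card + rr F G x := by
  unfold rr
  rw [deg_eq_card_adj, ← Finset.card_filter_add_card_filter_not (fun w => w ∈ F), filter_filter,
    filter_filter]
  congr 2 <;> (ext w; simp [and_comm])

private theorem deg_Om {d : Fin n → ℕ} (G : Om d) (x : Fin n) : deg G.1 x = d x :=
  (mem_filter.1 G.2).2 x

private theorem rr_eq {d : Fin n → ℕ} {F : Finset (Fin n)} {G G' : Om d} (h : agr F G.1 G'.1)
    (x : Fin n) : rr F G.1 x = rr F G'.1 x := by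
  have h1 := card_split F G.1 x
  have h2 := card_split F G'.1 x
  rw [deg_Om] at h1 h2
  have h3 : (univ.filter (fun w => w ∈ F ∧ adj G.1 x w)) = (univ.filter (fun w => w ∈ F ∧ adj G'.1 x w)) := by
    ext w
    simp only [mem_filter, mem_univ, true_and]
    constructor
    · rintro ⟨hw, ha⟩
      exact ⟨hw, (adj_comm _ _ _).1 ((h w x hw).1 ((adj_comm _ _ _).1 ha))⟩
    · rintro ⟨hw, ha⟩
      exact ⟨hw, (adj_comm _ _ _).1 ((h w x hw).2 ((adj_comm _ _ _).1 ha))⟩
  rw [h3] at h1
  omega

/-- the symmetric difference of the neighbourhoods of `v` -/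
private def Dset (v : Fin n) (G G' : Finset (Edge n)) : Finset (Fin n) :=
  univ.filter (fun z => ¬ (adj G v z ↔ adj G' v z))

private theorem mem_Dset {v z : Fin n} {G G' : Finset (Edge n)} :
    z ∈ Dset v G G' ↔ ¬ (adj G v z ↔ adj G' v z) := by
  simp [Dset]

private theorem Dset_comm (v : Fin n) (G G' : Finset (Edge n)) : Dset v G G' = Dset v G' G := by
  ext z
  rw [mem_Dset, mem_Dset]
  exact not_congr iff_comm

private theorem exists_xy {d : Fin n → ℕ} (v : Fin n) (G G' : Om d) (hD : Dset v G.1 G'.1 ≠ ∅) :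
    ∃ x y, adj G.1 v x ∧ ¬ adj G'.1 v x ∧ ¬ adj G.1 v y ∧ adj G'.1 v y := by
  set A := univ.filter (fun z => adj G.1 v z) with hA
  set B := univ.filter (fun z => adj G'.1 v z) with hB
  have hcard : A.card = B.card := by
    rw [hA, hB, ← deg_eq_card_adj, ← deg_eq_card_adj, deg_Om, deg_Om]
  have hsd : (A \ B).card = (B \ A).card := Finset.card_sdiff_comm hcard
  obtain ⟨z, hz⟩ := Finset.nonempty_iff_ne_empty.2 hD
  rw [mem_Dset] at hz
  have hpos : 0 < (A \ B).card ∧ 0 < (B \ A).card := by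
    by_cases h1 : adj G.1 v z
    · have h2 : ¬ adj G'.1 v z := fun h2 => hz ⟨fun _ => h2, fun _ => h1⟩
      have : 0 < (A \ B).card := card_pos.2 ⟨z, by simp [hA, hB, h1, h2]⟩
      exact ⟨this, hsd ▸ this⟩
    · have h2 : adj G'.1 v z := by
        by_contra h2
        exact hz ⟨fun h => absurd h h1, fun h => absurd h h2⟩
      have : 0 < (B \ A).card := card_pos.2 ⟨z, by simp [hA, hB, h1, h2]⟩
      exact ⟨hsd.symm ▸ this, this⟩
  obtain ⟨x, hx⟩ := card_pos.1 hpos.1
  obtain ⟨y, hy⟩ := card_pos.1 hpos.2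
  simp only [hA, hB, mem_sdiff, mem_filter, mem_univ, true_and] at hx hy
  exact ⟨x, y, hx.1, hx.2, hy.2, hy.1⟩

private theorem step (d : Fin n → ℕ) (f : Om d → ℝ)
    (h : ∀ p ∈ P2 n, ∀ G G' : Om d, offKey d (inc p) G = offKey d (inc p) G' → f G = f G')
    (F : Finset (Fin n)) (v x y : Fin n) (G G' : Om d) (hv : v ∉ F) (hag : agr F G.1 G'.1)
    (h1 : adj G.1 v x) (h1' : ¬ adj G'.1 v x) (h3 : ¬ adj G.1 v y) (h3' : adj G'.1 v y)
    (hr : rr F G.1 x ≤ rr F G.1 y) :
    ∃ G₁ : Om d, f G₁ = f G ∧ agr F G₁.1 G'.1 ∧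
      (Dset v G₁.1 G'.1).card < (Dset v G.1 G'.1).card := by
  have hx : x ∉ F := by
    intro hxF
    exact h1' ((adj_comm _ _ _).1 ((hag x v hxF).1 ((adj_comm _ _ _).1 h1)))
  have hy : y ∉ F := by
    intro hyF
    exact h3 ((adj_comm _ _ _).1 ((hag y v hyF).2 ((adj_comm _ _ _).1 h3')))
  have hvx : v ≠ x := by rintro rfl; exact not_adj_self _ _ h1
  have hvy : v ≠ y := by rintro rfl; exact not_adj_self _ _ h3'
  have hxy : x ≠ y := by rintro rfl; exact h3 h1
  obtain ⟨w, hwF, hwv, hwx, hwy, hyw, hxw⟩ := exists_partner G.1 F v x y hv hx hy hxy hvy h1 h3 hr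
  obtain ⟨G₁, hkey, hadj⟩ :=
    exists_switch d G v x y w hvx hvy hwv.symm hxy hwx.symm hwy.symm h1 hyw h3 hxw
  refine ⟨G₁, ?_, ?_, ?_⟩
  · exact h {x, y} (mem_powersetCard.2 ⟨subset_univ _, card_pair hxy⟩) G₁ G hkey
  · intro a b ha
    have hav : a ≠ v := fun e => hv (e ▸ ha)
    have hax : a ≠ x := fun e => hx (e ▸ ha)
    have hay : a ≠ y := fun e => hy (e ▸ ha)
    have haw : a ≠ w := fun e => hwF (e ▸ ha)
    rw [hadj a b, ← hag a b ha]
    simp [hav, hax, hay, haw]
  · have hvadj : ∀ z, adj G₁.1 v z ↔ ((adj G.1 v z ∧ z ≠ x) ∨ z = y) := by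
      intro z
      rw [hadj v z]
      simp [hvx, hvy, hwv.symm]
    have hxD : x ∈ Dset v G.1 G'.1 := mem_Dset.2 (fun hiff => h1' (hiff.1 h1))
    have hsub : Dset v G₁.1 G'.1 ⊆ (Dset v G.1 G'.1).erase x := by
      intro z hz
      rw [mem_Dset, hvadj z] at hz
      have hzx : z ≠ x := by
        rintro rfl
        apply hz
        constructor
        · rintro (⟨_, hne⟩ | he)
          · exact absurd rfl hne
          · exact absurd he hxy
        · intro hh; exact absurd hh h1'
      have hzy : z ≠ y := by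
        rintro rfl
        exact hz ⟨fun _ => h3', fun _ => Or.inr rfl⟩
      refine mem_erase.2 ⟨hzx, mem_Dset.2 (fun hiff => hz ?_)⟩
      rw [← hiff]
      constructor
      · rintro (⟨ha, _⟩ | he)
        · exact ha
        · exact absurd he hzy
      · intro ha; exact Or.inl ⟨ha, hzx⟩
    exact lt_of_le_of_lt (card_le_card hsub) (card_erase_lt_of_mem hxD)

/-- C3: the induction. -/
theorem connected_frozen (d : Fin n → ℕ) (f : Om d → ℝ)
    (h : ∀ p ∈ P2 n, ∀ G G' : Om d, offKey d (inc p) G = offKey d (inc p) G' → f G = f G') :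
    ∀ (k : ℕ) (F : Finset (Fin n)), (univ \ F).card = k →
      ∀ G G' : Om d, G.1 ∩ inc F = G'.1 ∩ inc F → f G = f G' := by
  intro k
  induction k with
  | zero =>
    intro F hF G G' hGG
    have hFu : ∀ a, a ∈ F := by
      intro a
      by_contra ha
      have hmem : a ∈ univ \ F := mem_sdiff.2 ⟨mem_univ a, ha⟩
      rw [card_eq_zero.1 hF] at hmem
      exact absurd hmem (notMem_empty a)
    have hEq : G = G' := Subtype.ext (ext_adj (fun a b => agr_of_inter hGG a b (hFu a)))
    rw [hEq]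
  | succ k ih =>
    intro F hF G G' hGG
    obtain ⟨v, hv⟩ : (univ \ F).Nonempty := card_pos.1 (by omega)
    have hvF : v ∉ F := (mem_sdiff.1 hv).2
    have hcard : (univ \ insert v F).card = k := by
      rw [Finset.sdiff_insert, card_erase_of_mem hv, hF]
      rfl
    have inner : ∀ m : ℕ, ∀ G G' : Om d, agr F G.1 G'.1 → (Dset v G.1 G'.1).card = m →
        f G = f G' := by
      intro m
      induction m using Nat.strong_induction_on with
      | _ m ihm =>
        intro G G' hag hm
        by_cases hD : Dset v G.1 G'.1 = ∅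
        · apply ih (insert v F) hcard G G'
          apply inter_of_agr
          intro a b ha
          rcases mem_insert.1 ha with rfl | ha
          · by_contra hcon
            have hb : b ∈ Dset a G.1 G'.1 := mem_Dset.2 hcon
            rw [hD] at hb
            exact absurd hb (notMem_empty _)
          · exact hag a b ha
        · obtain ⟨x, y, h1, h1', h3, h3'⟩ := exists_xy v G G' hD
          rcases le_total (rr F G.1 x) (rr F G.1 y) with hr | hr
          · obtain ⟨G₁, hf, hag1, hlt⟩ := step d f h F v x y G G' hvF hag h1 h1' h3 h3' hr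
            rw [← hf]
            exact ihm _ (hm ▸ hlt) G₁ G' hag1 rfl
          · have hr' : rr F G'.1 y ≤ rr F G'.1 x := by
              rw [← rr_eq hag, ← rr_eq hag]; exact hr
            obtain ⟨G₁, hf, hag1, hlt⟩ := step d f h F v y x G' G hvF hag.symm h3' h3 h1' h1 hr'
            rw [← hf]
            symm
            refine ihm _ ?_ G₁ G hag1 rfl
            rw [← hm, Dset_comm v G.1 G'.1]
            exact hlt
    exact inner _ G G' (agr_of_inter hGG) rfl

theorem connected (d : Fin n → ℕ) (f : Om d → ℝ)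
    (h : ∀ p ∈ P2 n, ∀ G, R d (inc p) f G = 0) (G G' : Om d) : f G = f G' := by
  refine connected_frozen d f (fun p hp G G' hk => eq_of_R_eq_zero d (inc p) f (h p hp) G G' hk)
    _ ∅ rfl G G' ?_
  simp [inc]

end Crest.Agent.SW
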