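import Crest.Agent.SW_QCalc

/-!
# S0453: two disjoint vertex pairs `p = {u,v}`, `p' = {x,y}` (tasks D1 - D4)

`A = inc p`, `A' = inc p'`, `b = blk p p' = A ∩ A'` = the four slots `ux, uy, vx, vy`.
`β(G) = |G ∩ b|` is constant on the fibres of `offKey A` and of `offKey A'`, hence on the fibres of all keys used here
(`A, A', b, A \ A', A' \ A`): the number of block edges at `x ∈ p'` is `d x -` (number of edges at `x` outside `A`).
(It is NOT constant on the fibres of `offKey (A ∪ A')`.)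
-/

set_option autoImplicit false
open Finset

namespace Crest.Agent.SW
open Crest.SwitchChain

variable {n : ℕ}

/-- the defect operator `E_p^{p'} = Q_U Q_b - Q_A` -/
noncomputable def Ee (d : Fin n → ℕ) (p p' : Finset (Fin n)) (f : Om d → ℝ) : Om d → ℝ :=
  fun G => Q d (inc p \ inc p') (Q d (blk p p') f) G - Q d (inc p) f G

theorem Wt_eq (d : Fin n → ℕ) (p p' : Finset (Fin n)) (f : Om d → ℝ) :
    Wt d p p' f = ∑ G ∈ (univ : Finset (Om d)).filter (fun G => Dm p p' G.1), (Ee d p p' f G) ^ 2 := rfl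

private theorem deg_split (G B : Finset (Edge n)) (w : Fin n) :
    deg G w = deg (G \ B) w + deg (G ∩ B) w := by
  unfold deg
  rw [← Finset.card_union_of_disjoint
    (Finset.disjoint_filter_filter (Finset.disjoint_sdiff_inter G B)), ← Finset.filter_union,
    Finset.sdiff_union_inter]

private theorem om_deg (d : Fin n → ℕ) (G : Om d) (v : Fin n) : deg G.1 v = d v :=
  (Finset.mem_filter.1 G.2).2 v

private theorem blk_comm0 (p p' : Finset (Fin n)) : blk p p' = blk p' p := by
  simp [blk, inter_comm]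

/-- structure of a block edge -/
private theorem blk_struct {p p' : Finset (Fin n)} (hd : Disjoint p p') {e : Edge n}
    (he : e ∈ blk p p') {w : Fin n} (hw : w ∈ p) (hwe : w ∈ e.1) : ∃ x ∈ p', e.1 = s(w, x) := by
  have he' : e ∈ inc p' := (Finset.mem_inter.1 he).2
  obtain ⟨x, hx, hxe⟩ := (Finset.mem_filter.1 he').2
  have hne : w ≠ x := fun h => (Finset.disjoint_left.1 hd hw) (h ▸ hx)
  exact ⟨x, hx, (Sym2.mem_and_mem_iff hne).1 ⟨hwe, hxe⟩⟩

private theorem card_eq_sum_deg {p p' : Finset (Fin n)} (hd : Disjoint p p')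
    {H : Finset (Edge n)} (hH : H ⊆ blk p p') : H.card = ∑ x ∈ p', deg H x := by
  unfold deg
  simp_rw [Finset.card_filter]
  rw [Finset.sum_comm, Finset.card_eq_sum_ones]
  apply Finset.sum_congr rfl
  intro e he
  have heB := hH he
  obtain ⟨u, hu, hue⟩ := (Finset.mem_filter.1 (Finset.mem_inter.1 heB).1).2
  obtain ⟨x, hx, hex⟩ := blk_struct hd heB hu hue
  rw [← Finset.card_filter]
  symm
  rw [Finset.card_eq_one]
  refine ⟨x, ?_⟩
  ext x'
  simp only [Finset.mem_filter, Finset.mem_singleton, hex, Sym2.mem_iff]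
  constructor
  · rintro ⟨hx', rfl | rfl⟩
    · exact absurd hx' (Finset.disjoint_left.1 hd hu)
    · rfl
  · rintro rfl; exact ⟨hx, Or.inr rfl⟩

private theorem eq_or_eq_of_card_two {p : Finset (Fin n)} (hp : p ∈ P2 n) {u v w : Fin n}
    (hu : u ∈ p) (hv : v ∈ p) (huv : u ≠ v) (hw : w ∈ p) : w = u ∨ w = v := by
  have hc : p.card = 2 := (Finset.mem_powersetCard.1 hp).2
  obtain ⟨a, b, hab, rfl⟩ := Finset.card_eq_two.1 hc
  simp only [Finset.mem_insert, Finset.mem_singleton] at hu hv hw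
  rcases hu with rfl | rfl <;> rcases hv with rfl | rfl <;> rcases hw with rfl | rfl <;> simp_all

private theorem blk_unique {p p' : Finset (Fin n)} (hp' : p' ∈ P2 n) (hd : Disjoint p p')
    {e e1 e2 : Edge n} (he : e ∈ blk p p') (he1 : e1 ∈ blk p p') (he2 : e2 ∈ blk p p')
    {w : Fin n} (hw : w ∈ p) (hwe : w ∈ e.1) (hwe1 : w ∈ e1.1) (hwe2 : w ∈ e2.1)
    (h1 : e1 ≠ e) (h2 : e2 ≠ e) : e1 = e2 := by
  obtain ⟨x, hx, hex⟩ := blk_struct hd he hw hwe
  obtain ⟨x1, hx1, hex1⟩ := blk_struct hd he1 hw hwe1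
  obtain ⟨x2, hx2, hex2⟩ := blk_struct hd he2 hw hwe2
  have hn1 : x ≠ x1 := by rintro rfl; exact h1 (Subtype.ext (hex1.trans hex.symm))
  have hn2 : x2 ≠ x := by rintro rfl; exact h2 (Subtype.ext (hex2.trans hex.symm))
  rcases eq_or_eq_of_card_two hp' hx hx1 hn1 hx2 with h | h
  · exact absurd h hn2
  · exact Subtype.ext (by rw [hex1, hex2, h])

private theorem margin_step {p p' : Finset (Fin n)} (hp' : p' ∈ P2 n) (hd : Disjoint p p')
    {H H' : Finset (Edge n)} (hH : H ⊆ blk p p') (hH' : H' ⊆ blk p p') {w : Fin n} (hw : w ∈ p)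
    (hm : deg H w = deg H' w) {e : Edge n} (he : e ∈ H) (he' : e ∉ H') (hwe : w ∈ e.1) :
    deg H w = 1 ∧ ∃ e' ∈ H', e' ∉ H ∧ w ∈ e'.1 := by
  unfold deg at *
  have h1 : 0 < (H.filter fun e => w ∈ e.1).card :=
    Finset.card_pos.2 ⟨e, Finset.mem_filter.2 ⟨he, hwe⟩⟩
  have h2 : (H'.filter fun e => w ∈ e.1).card ≤ 1 := by
    apply Finset.card_le_one.2
    intro a ha b hb
    obtain ⟨ha1, ha2⟩ := Finset.mem_filter.1 ha
    obtain ⟨hb1, hb2⟩ := Finset.mem_filter.1 hb
    exact blk_unique hp' hd (hH he) (hH' ha1) (hH' hb1) hw hwe ha2 hb2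
      (fun h => he' (h ▸ ha1)) (fun h => he' (h ▸ hb1))
  have h3 : (H.filter fun e => w ∈ e.1).card = 1 := by omega
  refine ⟨h3, ?_⟩
  have h4 : 0 < (H'.filter fun e => w ∈ e.1).card := by omega
  obtain ⟨e', hmem⟩ := Finset.card_pos.1 h4
  obtain ⟨h5, h6⟩ := Finset.mem_filter.1 hmem
  refine ⟨e', h5, ?_, h6⟩
  intro h7
  have h8 : e' = e := Finset.card_le_one.1 (le_of_eq h3) e' (Finset.mem_filter.2 ⟨h7, h6⟩) e
    (Finset.mem_filter.2 ⟨he, hwe⟩)
  exact he' (h8 ▸ h5)

private theorem all_margins_one {p p' : Finset (Fin n)} (hp : p ∈ P2 n) (hp' : p' ∈ P2 n)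
    (hd : Disjoint p p') {H H' : Finset (Edge n)} (hH : H ⊆ blk p p') (hH' : H' ⊆ blk p p')
    (hm : ∀ w, deg H w = deg H' w) {e : Edge n} (he : e ∈ H) (he' : e ∉ H') :
    ∀ w ∈ p ∪ p', deg H w = 1 := by
  have heB := hH he
  obtain ⟨u, hu, hue⟩ := (Finset.mem_filter.1 (Finset.mem_inter.1 heB).1).2
  obtain ⟨x, hx, hex⟩ := blk_struct hd heB hu hue
  have hxe : x ∈ e.1 := by rw [hex]; simp
  have hHc : H ⊆ blk p' p := by rwa [blk_comm0]
  have hHc' : H' ⊆ blk p' p := by rwa [blk_comm0]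
  obtain ⟨hu1, e1, he1, he1', hue1⟩ := margin_step hp' hd hH hH' hu (hm u) he he' hue
  obtain ⟨hx1, e2, he2, he2', hxe2⟩ := margin_step hp hd.symm hHc hHc' hx (hm x) he he' hxe
  obtain ⟨y, hy, hey⟩ := blk_struct hd (hH' he1) hu hue1
  obtain ⟨v, hv, hev⟩ := blk_struct hd.symm (hHc' he2) hx hxe2
  have hxy : x ≠ y := by
    rintro rfl
    have h9 : e1 = e := Subtype.ext (hey.trans hex.symm)
    exact he1' (by rw [h9]; exact he)
  have huv : u ≠ v := by
    rintro rfl
    have h9 : e2 = e := Subtype.ext (hev.trans (Sym2.eq_swap.trans hex.symm))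
    exact he2' (by rw [h9]; exact he)
  have hye1 : y ∈ e1.1 := by rw [hey]; simp
  have hve2 : v ∈ e2.1 := by rw [hev]; simp
  obtain ⟨hy1, -⟩ := margin_step hp hd.symm hHc' hHc hy (hm y).symm he1 he1' hye1
  obtain ⟨hv1, -⟩ := margin_step hp' hd hH' hH hv (hm v).symm he2 he2' hve2
  intro w hw
  rcases Finset.mem_union.1 hw with hw | hw
  · rcases eq_or_eq_of_card_two hp hu hv huv hw with rfl | rfl
    · exact hu1
    · rw [hm]; exact hv1
  · rcases eq_or_eq_of_card_two hp' hx hy hxy hw with rfl | rfl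
    · exact hx1
    · rw [hm]; exact hy1

/-- D1: the number of block edges is invariant under resampling `inc p`
(for `x ∈ p'` the number of edges from `x` to `p` is `d x - #(edges at x outside inc p)`; sum over `x ∈ p'`).
By symmetry (`blk p p' = blk p' p`) also under resampling `inc p'`. -/
theorem beta_invariant (d : Fin n → ℕ) (p p' : Finset (Fin n)) (hp : p ∈ P2 n) (hp' : p' ∈ P2 n)
    (hd : Disjoint p p') (G G' : Om d) (h : offKey d (inc p) G = offKey d (inc p) G') :
    (G.1 ∩ blk p p').card = (G'.1 ∩ blk p p').card := by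
  have key : ∀ G : Om d,
      (G.1 ∩ blk p p').card + ∑ x ∈ p', deg (G.1 \ inc p) x = ∑ x ∈ p', d x := by
    intro G
    rw [card_eq_sum_deg hd Finset.inter_subset_right, ← Finset.sum_add_distrib]
    apply Finset.sum_congr rfl
    intro x hx
    have h1 := deg_split G.1 (inc p) x
    rw [om_deg] at h1
    have h2 : deg (G.1 ∩ inc p) x = deg (G.1 ∩ blk p p') x := by
      unfold deg
      congr 1
      ext e
      simp only [Finset.mem_filter, Finset.mem_inter, blk]
      constructor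
      · rintro ⟨⟨h3, h4⟩, h5⟩
        exact ⟨⟨h3, h4, Finset.mem_filter.2 ⟨Finset.mem_univ _, x, hx, h5⟩⟩, h5⟩
      · rintro ⟨⟨h3, h4, -⟩, h5⟩
        exact ⟨⟨h3, h4⟩, h5⟩
    omega
  have h' : G.1 \ inc p = G'.1 \ inc p := h
  have k1 := key G
  have k2 := key G'
  rw [h'] at k1
  omega

theorem blk_comm (p p' : Finset (Fin n)) : blk p p' = blk p' p := by
  simp [blk, inter_comm]

theorem beta_invariant' (d : Fin n → ℕ) (p p' : Finset (Fin n)) (hp : p ∈ P2 n) (hp' : p' ∈ P2 n)
    (hd : Disjoint p p') (G G' : Om d) (h : offKey d (inc p') G = offKey d (inc p') G') :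
    (G.1 ∩ blk p p').card = (G'.1 ∩ blk p p').card := by
  rw [blk_comm p p']
  exact beta_invariant d p' p hp' hp hd.symm G G' h

/-- D1': if `β ≠ 2` (or more generally if not `Dm`) the block is rigid: the `blk`-fibre is a singleton. -/
theorem R_blk_eq_zero_of_not_Dm (d : Fin n → ℕ) (p p' : Finset (Fin n)) (hp : p ∈ P2 n) (hp' : p' ∈ P2 n)
    (hd : Disjoint p p') (f : Om d → ℝ) (G : Om d) (h : ¬ Dm p p' G.1) :
    R d (blk p p') f G = 0 := by
  have hfib : fib (univ : Finset (Om d)) (offKey d (blk p p')) G = {G} := by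
    ext G'
    simp only [fib, Finset.mem_filter, Finset.mem_univ, true_and, Finset.mem_singleton]
    constructor
    · intro hk
      by_contra hne
      apply h
      have hk' : G'.1 \ blk p p' = G.1 \ blk p p' := hk
      have hm : ∀ w, deg (G.1 ∩ blk p p') w = deg (G'.1 ∩ blk p p') w := by
        intro w
        have h1 := deg_split G.1 (blk p p') w
        have h2 := deg_split G'.1 (blk p p') w
        rw [om_deg] at h1 h2
        rw [hk'] at h2
        omega
      have hHne : G.1 ∩ blk p p' ≠ G'.1 ∩ blk p p' := by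
        intro heq
        apply hne
        apply Subtype.ext
        rw [← Finset.sdiff_union_inter G'.1 (blk p p'), ← Finset.sdiff_union_inter G.1 (blk p p'),
          hk', heq]
      have hex : ∃ e, (e ∈ G.1 ∩ blk p p' ∧ e ∉ G'.1 ∩ blk p p') ∨
          (e ∈ G'.1 ∩ blk p p' ∧ e ∉ G.1 ∩ blk p p') := by
        by_contra hcon
        apply hHne
        ext e
        constructor
        · intro he
          by_contra hn
          exact hcon ⟨e, Or.inl ⟨he, hn⟩⟩
        · intro he
          by_contra hn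
          exact hcon ⟨e, Or.inr ⟨he, hn⟩⟩
      rcases hex with ⟨e, ⟨h1, h2⟩ | ⟨h1, h2⟩⟩
      · exact all_margins_one hp hp' hd Finset.inter_subset_right Finset.inter_subset_right hm h1 h2
      · intro w hw
        have h3 := all_margins_one hp hp' hd Finset.inter_subset_right Finset.inter_subset_right
          (fun w => (hm w).symm) h1 h2 w hw
        show deg (G.1 ∩ blk p p') w = 1
        rw [hm]; exact h3
    · rintro rfl; rfl
  unfold R cR cE
  rw [hfib]; simp

theorem Dm_card (p p' : Finset (Fin n)) (hp : p ∈ P2 n) (hp' : p' ∈ P2 n)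
    (hd : Disjoint p p') (G : Finset (Edge n)) (h : Dm p p' G) : (G ∩ blk p p').card = 2 := by
  rw [card_eq_sum_deg hd Finset.inter_subset_right]
  have h1 : ∀ x ∈ p', deg (G ∩ blk p p') x = 1 := fun x hx => h x (Finset.mem_union_right _ hx)
  rw [Finset.sum_congr rfl h1]
  simp [(Finset.mem_powersetCard.1 hp').2]

end Crest.Agent.SW
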