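import Crest.Agent.SW_D1

/-!
# S0453: disjoint pairs, the support lemma (task D2)
-/

set_option autoImplicit false
open Finset

namespace Crest.Agent.SW
open Crest.SwitchChain

variable {n : ℕ}

private theorem mem_inc' {K : Finset (Fin n)} {e : Edge n} : e ∈ inc K ↔ ∃ v ∈ K, v ∈ e.1 := by
  simp [inc]

private theorem mem_blk' {p p' : Finset (Fin n)} {e : Edge n} :
    e ∈ blk p p' ↔ (∃ v ∈ p, v ∈ e.1) ∧ (∃ v ∈ p', v ∈ e.1) := by
  simp [blk, inc]

/-- at most two block slots at a vertex of `p` -/
private theorem card_bAt_le (p p' : Finset (Fin n)) (hp' : p' ∈ P2 n) (hd : Disjoint p p')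
    (z : Fin n) (hz : z ∈ p) : ((blk p p').filter (fun e => z ∈ e.1)).card ≤ 2 := by
  have hc : p'.card = 2 := (mem_powersetCard.1 hp').2
  have hsub : (blk p p').filter (fun e => z ∈ e.1) ⊆
      p'.biUnion (fun c => (univ : Finset (Edge n)).filter (fun e => e.1 = s(z, c))) := by
    intro e he
    rw [mem_filter, mem_blk'] at he
    obtain ⟨⟨_, c, hc', hce⟩, hze⟩ := he
    have hne : z ≠ c := fun h => (Finset.disjoint_left.1 hd hz) (h ▸ hc')
    rw [mem_biUnion]
    exact ⟨c, hc', mem_filter.2 ⟨mem_univ _, (Sym2.mem_and_mem_iff hne).1 ⟨hze, hce⟩⟩⟩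
  calc ((blk p p').filter (fun e => z ∈ e.1)).card
      ≤ (p'.biUnion (fun c => (univ : Finset (Edge n)).filter (fun e => e.1 = s(z, c)))).card :=
        card_le_card hsub
    _ ≤ ∑ c ∈ p', ((univ : Finset (Edge n)).filter (fun e => e.1 = s(z, c))).card :=
        card_biUnion_le
    _ ≤ ∑ c ∈ p', 1 := by
        refine sum_le_sum fun c _ => ?_
        rw [card_le_one]
        intro a ha b hb
        rw [mem_filter] at ha hb
        exact Subtype.ext (ha.2.trans hb.2.symm)
    _ = 2 := by simp [hc]

/-- the number of block edges at a vertex of `p` is invariant under resampling `inc p'` -/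
private theorem card_at_invariant (d : Fin n → ℕ) (p p' : Finset (Fin n)) (z : Fin n) (hz : z ∈ p)
    (G G' : Om d) (h : offKey d (inc p') G' = offKey d (inc p') G) :
    ((G'.1 ∩ blk p p').filter (fun e => z ∈ e.1)).card
      = ((G.1 ∩ blk p p').filter (fun e => z ∈ e.1)).card := by
  have key : ∀ H : Om d, d z = ((H.1 \ inc p').filter (fun e => z ∈ e.1)).card
      + ((H.1 ∩ blk p p').filter (fun e => z ∈ e.1)).card := by
    intro H
    have h1 : deg H.1 z = d z := (mem_filter.1 H.2).2 z
    have h2 : (H.1 ∩ blk p p').filter (fun e => z ∈ e.1)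
        = (H.1 ∩ inc p').filter (fun e => z ∈ e.1) := by
      ext e
      simp only [mem_filter, mem_inter, blk, mem_inc']
      constructor
      · rintro ⟨⟨h1, _, h3⟩, h4⟩; exact ⟨⟨h1, h3⟩, h4⟩
      · rintro ⟨⟨h1, h3⟩, h4⟩; exact ⟨⟨h1, ⟨z, hz, h4⟩, h3⟩, h4⟩
    rw [h2, ← h1, deg, ← card_union_of_disjoint, ← filter_union, sdiff_union_inter]
    exact disjoint_filter_filter (disjoint_sdiff_inter _ _)
  have e1 := key G
  have e2 := key G'
  have h' : G'.1 \ inc p' = G.1 \ inc p' := h
  rw [h'] at e2
  omega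

/-- a two-element subset of the block which does not meet some `w ∈ p` exactly once consists of all
block slots at one vertex of `p` -/
private theorem block_eq_bAt (p p' : Finset (Fin n)) (hp : p ∈ P2 n) (hp' : p' ∈ P2 n)
    (hd : Disjoint p p') (H : Finset (Edge n)) (hH : H ⊆ blk p p') (hβ : H.card = 2)
    (w : Fin n) (hw : w ∈ p) (hw1 : (H.filter (fun e => w ∈ e.1)).card ≠ 1) :
    ∃ z ∈ p, H = (blk p p').filter (fun e => z ∈ e.1) := by
  have hle : (H.filter (fun e => w ∈ e.1)).card ≤ 2 := hβ ▸ card_filter_le _ _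
  have hcases : (H.filter (fun e => w ∈ e.1)).card = 0 ∨ (H.filter (fun e => w ∈ e.1)).card = 2 := by
    omega
  rcases hcases with h0 | h2
  · -- all edges at the other vertex
    have hempty : ∀ e ∈ H, w ∉ e.1 := by
      intro e he hwe
      have : e ∈ H.filter (fun e => w ∈ e.1) := mem_filter.2 ⟨he, hwe⟩
      rw [card_eq_zero.1 h0] at this
      exact absurd this (notMem_empty _)
    have hother : ∃ z ∈ p, ∀ a ∈ p, a = w ∨ a = z := by
      obtain ⟨x, y, _, hxy⟩ := card_eq_two.1 (mem_powersetCard.1 hp).2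
      subst hxy
      rw [mem_insert, mem_singleton] at hw
      rcases hw with rfl | rfl
      · exact ⟨y, by simp, fun a ha => by simpa using ha⟩
      · exact ⟨x, by simp, fun a ha => by
          rw [mem_insert, mem_singleton] at ha; exact ha.symm⟩
    obtain ⟨z, hz, hzall⟩ := hother
    refine ⟨z, hz, eq_of_subset_of_card_le ?_ ?_⟩
    · intro e he
      have heb := hH he
      obtain ⟨⟨a, ha, hae⟩, _⟩ := mem_blk'.1 heb
      rcases hzall a ha with rfl | rfl
      · exact absurd hae (hempty e he)
      · exact mem_filter.2 ⟨heb, hae⟩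
    · rw [hβ]; exact card_bAt_le p p' hp' hd z hz
  · have hHw : H.filter (fun e => w ∈ e.1) = H :=
      eq_of_subset_of_card_le (filter_subset _ _) (by omega)
    refine ⟨w, hw, ?_⟩
    have : H.filter (fun e => w ∈ e.1) = (blk p p').filter (fun e => w ∈ e.1) :=
      eq_of_subset_of_card_le (filter_subset_filter _ hH)
        (by rw [h2]; exact card_bAt_le p p' hp' hd w hw)
    rw [← this, hHw]

/-- the block is rigid on the whole `inc p'`-fibre -/
private theorem block_rigid (d : Fin n → ℕ) (p p' : Finset (Fin n)) (hp : p ∈ P2 n)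
    (hp' : p' ∈ P2 n) (hd : Disjoint p p') (G : Om d) (hβ : (G.1 ∩ blk p p').card = 2)
    (w : Fin n) (hw : w ∈ p) (hw1 : ((G.1 ∩ blk p p').filter (fun e => w ∈ e.1)).card ≠ 1)
    (G' : Om d) (h : offKey d (inc p') G' = offKey d (inc p') G) :
    G'.1 ∩ blk p p' = G.1 ∩ blk p p' := by
  obtain ⟨z, hz, hH⟩ :=
    block_eq_bAt p p' hp hp' hd (G.1 ∩ blk p p') inter_subset_right hβ w hw hw1
  have hk := card_at_invariant d p p' z hz G G' h
  have hb := beta_invariant' d p p' hp hp' hd G' G h
  have h1 : (G'.1 ∩ blk p p').filter (fun e => z ∈ e.1) = (blk p p').filter (fun e => z ∈ e.1) := by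
    refine eq_of_subset_of_card_le (filter_subset_filter _ inter_subset_right) ?_
    rw [hk, hH, filter_filter]
    simp
  rw [hH]
  symm
  refine eq_of_subset_of_card_le ?_ ?_
  · rw [← h1]; exact filter_subset _ _
  · rw [hb, hH]

/-- if the block is rigid on the `inc p'`-fibre of `G` then the defect vanishes at `G` -/
private theorem Ee_eq_zero_of_rigid (d : Fin n → ℕ) (p p' : Finset (Fin n)) (f : Om d → ℝ) (G : Om d)
    (hr : ∀ G' : Om d, offKey d (inc p') G' = offKey d (inc p') G →
      G'.1 ∩ blk p' p = G.1 ∩ blk p' p) :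
    Ee d p' p f G = 0 := by
  have hfib : fib univ (offKey d (inc p' \ inc p)) G = fib univ (offKey d (inc p')) G := by
    ext G'
    simp only [mem_fib, mem_univ, true_and]
    constructor
    · intro h
      show G'.1 \ inc p' = G.1 \ inc p'
      have h' : G'.1 \ (inc p' \ inc p) = G.1 \ (inc p' \ inc p) := h
      have hx : ∀ H : Finset (Edge n), H \ inc p' = (H \ (inc p' \ inc p)) \ inc p' := by
        intro H; ext e; simp only [mem_sdiff]; tauto
      rw [hx G'.1, hx G.1, h']
    · intro h
      have h' : G'.1 \ inc p' = G.1 \ inc p' := h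
      have hb := hr G' h
      show G'.1 \ (inc p' \ inc p) = G.1 \ (inc p' \ inc p)
      have hx : ∀ H : Finset (Edge n),
          H \ (inc p' \ inc p) = (H \ inc p') ∪ (H ∩ blk p' p) := by
        intro H; ext e; simp only [mem_sdiff, mem_union, mem_inter, blk]; tauto
      rw [hx, hx, h', hb]
  have hQb : ∀ G' ∈ fib univ (offKey d (inc p')) G, Q d (blk p' p) f G' = f G' := by
    intro G' hG'
    have hG'k : offKey d (inc p') G' = offKey d (inc p') G := (mem_fib.1 hG').2
    have hsing : fib univ (offKey d (blk p' p)) G' = {G'} := by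
      ext G''
      simp only [mem_fib, mem_univ, true_and, mem_singleton]
      constructor
      · intro h
        have h' : G''.1 \ blk p' p = G'.1 \ blk p' p := h
        have hk : offKey d (inc p') G'' = offKey d (inc p') G := by
          rw [← hG'k]
          show G''.1 \ inc p' = G'.1 \ inc p'
          have hx : ∀ H : Finset (Edge n), H \ inc p' = (H \ blk p' p) \ inc p' := by
            intro H; ext e; simp only [mem_sdiff, blk, mem_inter]; tauto
          rw [hx G''.1, hx G'.1, h']
        have e1 := hr G'' hk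
        have e2 := hr G' hG'k
        apply Subtype.ext
        rw [← sdiff_union_inter G''.1 (blk p' p), ← sdiff_union_inter G'.1 (blk p' p), h', e1, e2]
      · rintro rfl; rfl
    unfold Q cE
    rw [hsing]
    simp
  show cE univ (offKey d (inc p' \ inc p)) (Q d (blk p' p) f) G - cE univ (offKey d (inc p')) f G = 0
  unfold cE
  rw [hfib, sum_congr rfl hQb, sub_self]

private theorem Ee_eq_zero_of (d : Fin n → ℕ) (p p' : Finset (Fin n)) (hp : p ∈ P2 n)
    (hp' : p' ∈ P2 n) (hd : Disjoint p p') (f : Om d → ℝ) (G : Om d)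
    (hβ : (G.1 ∩ blk p p').card = 2) (w : Fin n) (hw : w ∈ p)
    (hw1 : ((G.1 ∩ blk p p').filter (fun e => w ∈ e.1)).card ≠ 1) :
    Ee d p' p f G = 0 := by
  refine Ee_eq_zero_of_rigid d p p' f G fun G' h => ?_
  rw [blk_comm p' p]
  exact block_rigid d p p' hp hp' hd G hβ w hw hw1 G' h

/-- D2: support lemma.  If `β(G) = 2` and the block is not a perfect matching then its two edges share a vertex.
If they share a vertex of `p` (say `u ~ x, u ~ y`) then on the whole `inc p'`-fibre of `G` the block is the same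
(the numbers of block edges at `u` and at `v`, 2 and 0, are fixed), so `Q_W Q_b f G = Q_{A'} f G`, i.e. `Ee d p' p f G = 0`.
Symmetrically in the other case. -/
theorem Ee_mul_eq_zero (d : Fin n → ℕ) (p p' : Finset (Fin n)) (hp : p ∈ P2 n) (hp' : p' ∈ P2 n)
    (hd : Disjoint p p') (f : Om d → ℝ) (G : Om d) (hβ : (G.1 ∩ blk p p').card = 2)
    (hD : ¬ Dm p p' G.1) :
    Ee d p p' f G * Ee d p' p f G = 0 := by
  unfold Dm at hD
  push Not at hD
  obtain ⟨w, hw, hw1⟩ := hD
  rcases mem_union.1 hw with hwp | hwp'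
  · rw [Ee_eq_zero_of d p p' hp hp' hd f G hβ w hwp hw1, mul_zero]
  · rw [Ee_eq_zero_of d p' p hp' hp hd.symm f G (by rwa [blk_comm p' p]) w hwp'
      (by rwa [blk_comm p' p]), zero_mul]

end Crest.Agent.SW
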