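import Crest.Agent.SW_D1

/-!
# S0453: disjoint pairs, commutation for `β ≠ 2` (task D3)
-/

set_option autoImplicit false
open Finset

namespace Crest.Agent.SW
open Crest.SwitchChain

variable {n : ℕ}

/-- the slot `{a,c}` -/
private def mk3 (a c : Fin n) (h : a ≠ c) : Edge n := ⟨s(a, c), by simpa using h⟩

private theorem mem_mk3 {a c w : Fin n} (h : a ≠ c) : w ∈ (mk3 a c h).1 ↔ w = a ∨ w = c := by
  simp [mk3]

private def ind3 (H : Finset (Edge n)) (e : Edge n) : ℕ := (decide (e ∈ H)).toNat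

private theorem bool_exists3 : ∀ a₁ b₁ c₁ d₁ a₂ b₂ c₂ d₂ : Bool,
    a₁.toNat + b₁.toNat + c₁.toNat + d₁.toNat = a₂.toNat + b₂.toNat + c₂.toNat + d₂.toNat →
    a₁.toNat + b₁.toNat + c₁.toNat + d₁.toNat ≠ 2 →
    ∃ a b c d : Bool, a.toNat + b.toNat = a₁.toNat + b₁.toNat ∧ c.toNat + d.toNat = c₁.toNat + d₁.toNat ∧
      a.toNat + c.toNat = a₂.toNat + c₂.toNat ∧ b.toNat + d.toNat = b₂.toNat + d₂.toNat := by
  decide

private theorem bool_unique3 : ∀ a₁ b₁ c₁ d₁ a₂ b₂ c₂ d₂ : Bool,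
    a₁.toNat + b₁.toNat + c₁.toNat + d₁.toNat ≠ 2 →
    a₁.toNat + b₁.toNat = a₂.toNat + b₂.toNat → c₁.toNat + d₁.toNat = c₂.toNat + d₂.toNat →
    a₁.toNat + c₁.toNat = a₂.toNat + c₂.toNat → b₁.toNat + d₁.toNat = b₂.toNat + d₂.toNat →
    a₁ = a₂ ∧ b₁ = b₂ ∧ c₁ = c₂ ∧ d₁ = d₂ := by
  decide

private theorem mem_inc_pair {a b : Fin n} {e : Edge n} : e ∈ inc {a, b} ↔ a ∈ e.1 ∨ b ∈ e.1 := by
  simp [inc]

private theorem card_inter_pair3 (H : Finset (Edge n)) {e1 e2 : Edge n} (h : e1 ≠ e2) :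
    (H ∩ {e1, e2}).card = ind3 H e1 + ind3 H e2 := by
  unfold ind3
  by_cases h1 : e1 ∈ H <;> by_cases h2 : e2 ∈ H <;>
    simp [Finset.inter_insert_of_mem, Finset.inter_insert_of_notMem, Finset.inter_singleton_of_mem,
      Finset.inter_singleton_of_notMem, h1, h2, h]

private theorem deg_inter3 (H S : Finset (Edge n)) (w : Fin n) {e1 e2 : Edge n} (hne : e1 ≠ e2)
    (hS : ∀ e, (e ∈ S ∧ w ∈ e.1) ↔ (e = e1 ∨ e = e2)) : deg (H ∩ S) w = ind3 H e1 + ind3 H e2 := by
  rw [← card_inter_pair3 H hne]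
  unfold deg
  congr 1
  ext e
  have := hS e
  simp only [mem_filter, mem_inter, mem_insert, mem_singleton]
  tauto

private theorem deg_split3 (H S : Finset (Edge n)) (w : Fin n) :
    deg H w = deg (H \ S) w + deg (H ∩ S) w := by
  unfold deg
  rw [← Finset.card_union_of_disjoint, ← Finset.filter_union, Finset.sdiff_union_inter]
  exact Finset.disjoint_filter_filter (Finset.disjoint_sdiff_inter H S)

private theorem deg_congr3 {H H' : Finset (Edge n)} {w : Fin n}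
    (h : ∀ e : Edge n, w ∈ e.1 → (e ∈ H ↔ e ∈ H')) : deg H w = deg H' w := by
  unfold deg
  congr 1
  ext e
  simp only [mem_filter]
  constructor
  · rintro ⟨h1, h2⟩; exact ⟨(h e h2).1 h1, h2⟩
  · rintro ⟨h1, h2⟩; exact ⟨(h e h2).2 h1, h2⟩

private theorem mk3_ne {a c a' c' : Fin n} (h : a ≠ c) (h' : a' ≠ c') (w : Fin n)
    (hw : w = a ∨ w = c) (hw' : w ≠ a' ∧ w ≠ c') : mk3 a c h ≠ mk3 a' c' h' := by
  intro he
  have h1 : w ∈ (mk3 a c h).1 := (mem_mk3 h).2 hw
  rw [he, mem_mk3] at h1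
  rcases h1 with h1 | h1
  · exact hw'.1 h1
  · exact hw'.2 h1

section four
set_option linter.unusedSectionVars false
variable {u v x y : Fin n} (huv : u ≠ v) (hxy : x ≠ y) (hux : u ≠ x) (huy : u ≠ y) (hvx : v ≠ x)
  (hvy : v ≠ y)
include huv hxy hux huy hvx hvy

private theorem mem_blk3 (e : Edge n) : e ∈ blk {u, v} {x, y} ↔
    e = mk3 u x hux ∨ e = mk3 u y huy ∨ e = mk3 v x hvx ∨ e = mk3 v y hvy := by
  unfold blk
  rw [mem_inter, mem_inc_pair, mem_inc_pair]
  constructor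
  · rintro ⟨h1 | h1, h2 | h2⟩
    · exact Or.inl (Subtype.ext ((Sym2.mem_and_mem_iff hux).1 ⟨h1, h2⟩))
    · exact Or.inr (Or.inl (Subtype.ext ((Sym2.mem_and_mem_iff huy).1 ⟨h1, h2⟩)))
    · exact Or.inr (Or.inr (Or.inl (Subtype.ext ((Sym2.mem_and_mem_iff hvx).1 ⟨h1, h2⟩))))
    · exact Or.inr (Or.inr (Or.inr (Subtype.ext ((Sym2.mem_and_mem_iff hvy).1 ⟨h1, h2⟩))))
  · rintro (rfl | rfl | rfl | rfl) <;> simp [mem_mk3]

private theorem deg_blk_u (H : Finset (Edge n)) :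
    deg (H ∩ blk {u, v} {x, y}) u = ind3 H (mk3 u x hux) + ind3 H (mk3 u y huy) := by
  apply deg_inter3 H _ u (mk3_ne hux huy x (Or.inr rfl) ⟨hux.symm, hxy⟩)
  intro e
  rw [mem_blk3 huv hxy hux huy hvx hvy]
  constructor
  · rintro ⟨rfl | rfl | rfl | rfl, hw⟩
    · exact Or.inl rfl
    · exact Or.inr rfl
    · rw [mem_mk3] at hw; rcases hw with hw | hw
      · exact absurd hw huv
      · exact absurd hw hux
    · rw [mem_mk3] at hw; rcases hw with hw | hw
      · exact absurd hw huv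
      · exact absurd hw huy
  · rintro (rfl | rfl) <;> simp [mem_mk3]

private theorem deg_blk_v (H : Finset (Edge n)) :
    deg (H ∩ blk {u, v} {x, y}) v = ind3 H (mk3 v x hvx) + ind3 H (mk3 v y hvy) := by
  apply deg_inter3 H _ v (mk3_ne hvx hvy x (Or.inr rfl) ⟨hvx.symm, hxy⟩)
  intro e
  rw [mem_blk3 huv hxy hux huy hvx hvy]
  constructor
  · rintro ⟨rfl | rfl | rfl | rfl, hw⟩
    · rw [mem_mk3] at hw; rcases hw with hw | hw
      · exact absurd hw huv.symm
      · exact absurd hw hvx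
    · rw [mem_mk3] at hw; rcases hw with hw | hw
      · exact absurd hw huv.symm
      · exact absurd hw hvy
    · exact Or.inl rfl
    · exact Or.inr rfl
  · rintro (rfl | rfl) <;> simp [mem_mk3]

private theorem deg_blk_x (H : Finset (Edge n)) :
    deg (H ∩ blk {u, v} {x, y}) x = ind3 H (mk3 u x hux) + ind3 H (mk3 v x hvx) := by
  apply deg_inter3 H _ x (mk3_ne hux hvx u (Or.inl rfl) ⟨huv, hux⟩)
  intro e
  rw [mem_blk3 huv hxy hux huy hvx hvy]
  constructor
  · rintro ⟨rfl | rfl | rfl | rfl, hw⟩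
    · exact Or.inl rfl
    · rw [mem_mk3] at hw; rcases hw with hw | hw
      · exact absurd hw hux.symm
      · exact absurd hw hxy
    · exact Or.inr rfl
    · rw [mem_mk3] at hw; rcases hw with hw | hw
      · exact absurd hw hvx.symm
      · exact absurd hw hxy
  · rintro (rfl | rfl) <;> simp [mem_mk3]

private theorem deg_blk_y (H : Finset (Edge n)) :
    deg (H ∩ blk {u, v} {x, y}) y = ind3 H (mk3 u y huy) + ind3 H (mk3 v y hvy) := by
  apply deg_inter3 H _ y (mk3_ne huy hvy u (Or.inl rfl) ⟨huv, huy⟩)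
  intro e
  rw [mem_blk3 huv hxy hux huy hvx hvy]
  constructor
  · rintro ⟨rfl | rfl | rfl | rfl, hw⟩
    · rw [mem_mk3] at hw; rcases hw with hw | hw
      · exact absurd hw huy.symm
      · exact absurd hw hxy.symm
    · exact Or.inl rfl
    · rw [mem_mk3] at hw; rcases hw with hw | hw
      · exact absurd hw hvy.symm
      · exact absurd hw hxy.symm
    · exact Or.inr rfl
  · rintro (rfl | rfl) <;> simp [mem_mk3]

private theorem card_blk3 (H : Finset (Edge n)) :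
    (H ∩ blk {u, v} {x, y}).card = ind3 H (mk3 u x hux) + ind3 H (mk3 u y huy) +
      ind3 H (mk3 v x hvx) + ind3 H (mk3 v y hvy) := by
  rw [add_assoc, ← deg_blk_u huv hxy hux huy hvx hvy H, ← deg_blk_v huv hxy hux huy hvx hvy H]
  unfold deg
  rw [← Finset.card_union_of_disjoint]
  · congr 1
    ext e
    simp only [mem_union, mem_filter, mem_inter]
    constructor
    · rintro ⟨h1, h2⟩
      have h3 := h2
      rw [mem_blk3 huv hxy hux huy hvx hvy] at h3
      rcases h3 with rfl | rfl | rfl | rfl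
      · exact Or.inl ⟨⟨h1, h2⟩, by simp [mem_mk3]⟩
      · exact Or.inl ⟨⟨h1, h2⟩, by simp [mem_mk3]⟩
      · exact Or.inr ⟨⟨h1, h2⟩, by simp [mem_mk3]⟩
      · exact Or.inr ⟨⟨h1, h2⟩, by simp [mem_mk3]⟩
    · rintro (h | h) <;> exact h.1
  · rw [Finset.disjoint_left]
    intro e h1 h2
    simp only [mem_filter, mem_inter] at h1 h2
    have h3 := h1.1.2
    rw [mem_blk3 huv hxy hux huy hvx hvy] at h3
    have h4 := h1.2
    have h5 := h2.2
    rcases h3 with rfl | rfl | rfl | rfl <;> rw [mem_mk3] at h4 h5 <;> omega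


private theorem not_mem_blk_of_mem {w : Fin n} (hwu : w ≠ u) (hwv : w ≠ v) (hwx : w ≠ x) (hwy : w ≠ y)
    {e : Edge n} (he : w ∈ e.1) : e ∉ blk {u, v} {x, y} := by
  intro hb
  rw [mem_blk3 huv hxy hux huy hvx hvy] at hb
  rcases hb with rfl | rfl | rfl | rfl <;> rw [mem_mk3] at he <;> omega

private theorem block_unique3 (Z Z' : Finset (Edge n)) (hdeg : ∀ w, deg Z w = deg Z' w)
    (hoff : Z \ blk {u, v} {x, y} = Z' \ blk {u, v} {x, y}) (hc : (Z ∩ blk {u, v} {x, y}).card ≠ 2) :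
    Z = Z' := by
  have hm : ∀ w, deg (Z ∩ blk {u, v} {x, y}) w = deg (Z' ∩ blk {u, v} {x, y}) w := by
    intro w
    have h1 := deg_split3 Z (blk {u, v} {x, y}) w
    have h2 := deg_split3 Z' (blk {u, v} {x, y}) w
    have h3 := hdeg w
    rw [hoff] at h1
    omega
  have hu := hm u
  have hv := hm v
  have hx := hm x
  have hy := hm y
  rw [deg_blk_u huv hxy hux huy hvx hvy, deg_blk_u huv hxy hux huy hvx hvy] at hu
  rw [deg_blk_v huv hxy hux huy hvx hvy, deg_blk_v huv hxy hux huy hvx hvy] at hv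
  rw [deg_blk_x huv hxy hux huy hvx hvy, deg_blk_x huv hxy hux huy hvx hvy] at hx
  rw [deg_blk_y huv hxy hux huy hvx hvy, deg_blk_y huv hxy hux huy hvx hvy] at hy
  rw [card_blk3 huv hxy hux huy hvx hvy] at hc
  obtain ⟨e1, e2, e3, e4⟩ := bool_unique3 _ _ _ _ _ _ _ _ hc hu hv hx hy
  rw [decide_eq_decide] at e1 e2 e3 e4
  ext e
  by_cases hb : e ∈ blk {u, v} {x, y}
  · have hb' := hb
    rw [mem_blk3 huv hxy hux huy hvx hvy] at hb'
    rcases hb' with rfl | rfl | rfl | rfl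
    · exact e1
    · exact e2
    · exact e3
    · exact e4
  · have h1 : e ∈ Z \ blk {u, v} {x, y} ↔ e ∈ Z' \ blk {u, v} {x, y} := by rw [hoff]
    simpa [hb] using h1


private theorem block_exists3 (d : Fin n → ℕ) (G G₁ G₂ : Finset (Edge n))
    (hG : ∀ w, deg G w = d w) (hG₁ : ∀ w, deg G₁ w = d w) (hG₂ : ∀ w, deg G₂ w = d w)
    (h1 : G₁ \ inc {u, v} = G \ inc {u, v}) (h2 : G₂ \ inc {x, y} = G \ inc {x, y})
    (hc : (G₁ ∩ blk {u, v} {x, y}).card = (G₂ ∩ blk {u, v} {x, y}).card)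
    (hc2 : (G₁ ∩ blk {u, v} {x, y}).card ≠ 2) :
    ∃ G₃ : Finset (Edge n), (∀ w, deg G₃ w = d w) ∧ (G₃ ∩ blk {u, v} {x, y}).card ≠ 2 ∧
      G₃ \ inc {x, y} = G₁ \ inc {x, y} ∧ G₃ \ inc {u, v} = G₂ \ inc {u, v} := by
  have hc' := hc
  have hc2' := hc2
  rw [card_blk3 huv hxy hux huy hvx hvy, card_blk3 huv hxy hux huy hvx hvy] at hc'
  rw [card_blk3 huv hxy hux huy hvx hvy] at hc2'
  obtain ⟨a, b, c, d', hab0, hcd0, hac0, hbd0⟩ := bool_exists3 _ _ _ _ _ _ _ _ hc' hc2'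
  have hab : a.toNat + b.toNat = ind3 G₁ (mk3 u x hux) + ind3 G₁ (mk3 u y huy) := hab0
  have hcd : c.toNat + d'.toNat = ind3 G₁ (mk3 v x hvx) + ind3 G₁ (mk3 v y hvy) := hcd0
  have hac : a.toNat + c.toNat = ind3 G₂ (mk3 u x hux) + ind3 G₂ (mk3 v x hvx) := hac0
  have hbd : b.toNat + d'.toNat = ind3 G₂ (mk3 u y huy) + ind3 G₂ (mk3 v y hvy) := hbd0
  clear hab0 hcd0 hac0 hbd0
  set G₃ : Finset (Edge n) := univ.filter (fun e =>
    if e ∈ blk {u, v} {x, y} then
      ((e = mk3 u x hux ∧ a = true) ∨ (e = mk3 u y huy ∧ b = true) ∨ (e = mk3 v x hvx ∧ c = true) ∨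
        (e = mk3 v y hvy ∧ d' = true))
    else if e ∈ inc {u, v} then e ∈ G₁ else e ∈ G₂) with hG₃
  have hblk_sub : ∀ e : Edge n, e ∈ blk {u, v} {x, y} ↔ (e ∈ inc {u, v} ∧ e ∈ inc {x, y}) := by
    intro e; unfold blk; rw [mem_inter]
  have F1 : ∀ e : Edge n, e ∉ blk {u, v} {x, y} → e ∈ inc {u, v} → (e ∈ G₃ ↔ e ∈ G₁) := by
    intro e hb hA
    simp [hG₃, hb, hA]
  have F2 : ∀ e : Edge n, e ∉ inc {u, v} → (e ∈ G₃ ↔ e ∈ G₂) := by
    intro e hA
    have hb : e ∉ blk {u, v} {x, y} := fun h => hA ((hblk_sub e).1 h).1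
    simp [hG₃, hb, hA]
  have n12 : mk3 u x hux ≠ mk3 u y huy := mk3_ne hux huy x (Or.inr rfl) ⟨hux.symm, hxy⟩
  have n13 : mk3 u x hux ≠ mk3 v x hvx := mk3_ne hux hvx u (Or.inl rfl) ⟨huv, hux⟩
  have n14 : mk3 u x hux ≠ mk3 v y hvy := mk3_ne hux hvy u (Or.inl rfl) ⟨huv, huy⟩
  have n23 : mk3 u y huy ≠ mk3 v x hvx := mk3_ne huy hvx u (Or.inl rfl) ⟨huv, hux⟩
  have n24 : mk3 u y huy ≠ mk3 v y hvy := mk3_ne huy hvy u (Or.inl rfl) ⟨huv, huy⟩
  have n34 : mk3 v x hvx ≠ mk3 v y hvy := mk3_ne hvx hvy x (Or.inr rfl) ⟨hvx.symm, hxy⟩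
  have b1 : mk3 u x hux ∈ blk {u, v} {x, y} := (mem_blk3 huv hxy hux huy hvx hvy _).2 (Or.inl rfl)
  have b2 : mk3 u y huy ∈ blk {u, v} {x, y} :=
    (mem_blk3 huv hxy hux huy hvx hvy _).2 (Or.inr (Or.inl rfl))
  have b3 : mk3 v x hvx ∈ blk {u, v} {x, y} :=
    (mem_blk3 huv hxy hux huy hvx hvy _).2 (Or.inr (Or.inr (Or.inl rfl)))
  have b4 : mk3 v y hvy ∈ blk {u, v} {x, y} :=
    (mem_blk3 huv hxy hux huy hvx hvy _).2 (Or.inr (Or.inr (Or.inr rfl)))
  have i1 : ind3 G₃ (mk3 u x hux) = a.toNat := by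
    unfold ind3; congr 1
    simp [hG₃, b1, n12, n13, n14]
  have i2 : ind3 G₃ (mk3 u y huy) = b.toNat := by
    unfold ind3; congr 1
    simp [hG₃, b2, n12.symm, n23, n24]
  have i3 : ind3 G₃ (mk3 v x hvx) = c.toNat := by
    unfold ind3; congr 1
    simp [hG₃, b3, n13.symm, n23.symm, n34]
  have i4 : ind3 G₃ (mk3 v y hvy) = d'.toNat := by
    unfold ind3; congr 1
    simp [hG₃, b4, n14.symm, n24.symm, n34.symm]
  have K : G₃ \ inc {u, v} = G₂ \ inc {u, v} := by
    ext e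
    by_cases hA : e ∈ inc {u, v}
    · simp [hA]
    · simp [hA, F2 e hA]
  have m1 : ∀ e : Edge n, e ∉ inc {u, v} → (e ∈ G₁ ↔ e ∈ G) := by
    intro e hA
    have : e ∈ G₁ \ inc {u, v} ↔ e ∈ G \ inc {u, v} := by rw [h1]
    simpa [hA] using this
  have m2 : ∀ e : Edge n, e ∉ inc {x, y} → (e ∈ G₂ ↔ e ∈ G) := by
    intro e hA
    have : e ∈ G₂ \ inc {x, y} ↔ e ∈ G \ inc {x, y} := by rw [h2]
    simpa [hA] using this
  have K' : G₃ \ inc {x, y} = G₁ \ inc {x, y} := by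
    ext e
    by_cases hA' : e ∈ inc {x, y}
    · simp [hA']
    · have hb : e ∉ blk {u, v} {x, y} := fun h => hA' ((hblk_sub e).1 h).2
      by_cases hA : e ∈ inc {u, v}
      · simp [hA', F1 e hb hA]
      · simp [hA', F2 e hA, m2 e hA', m1 e hA]
  refine ⟨G₃, ?_, ?_, K', K⟩
  · intro w
    by_cases hwu : w = u
    · subst hwu
      have s3 := deg_split3 G₃ (blk {w, v} {x, y}) w
      have s1 := deg_split3 G₁ (blk {w, v} {x, y}) w
      have e1 : deg (G₃ \ blk {w, v} {x, y}) w = deg (G₁ \ blk {w, v} {x, y}) w := by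
        apply deg_congr3
        intro e he
        have hA : e ∈ inc {w, v} := mem_inc_pair.2 (Or.inl he)
        by_cases hb : e ∈ blk {w, v} {x, y}
        · simp [hb]
        · simp [hb, F1 e hb hA]
      rw [deg_blk_u huv hxy hux huy hvx hvy] at s3 s1
      have := hG₁ w
      omega
    by_cases hwv : w = v
    · subst hwv
      have s3 := deg_split3 G₃ (blk {u, w} {x, y}) w
      have s1 := deg_split3 G₁ (blk {u, w} {x, y}) w
      have e1 : deg (G₃ \ blk {u, w} {x, y}) w = deg (G₁ \ blk {u, w} {x, y}) w := by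
        apply deg_congr3
        intro e he
        have hA : e ∈ inc {u, w} := mem_inc_pair.2 (Or.inr he)
        by_cases hb : e ∈ blk {u, w} {x, y}
        · simp [hb]
        · simp [hb, F1 e hb hA]
      rw [deg_blk_v huv hxy hux huy hvx hvy] at s3 s1
      have := hG₁ w
      omega
    by_cases hwx : w = x
    · subst hwx
      have s3 := deg_split3 G₃ (blk {u, v} {w, y}) w
      have s1 := deg_split3 G₂ (blk {u, v} {w, y}) w
      have e1 : deg (G₃ \ blk {u, v} {w, y}) w = deg (G₂ \ blk {u, v} {w, y}) w := by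
        apply deg_congr3
        intro e he
        have hA' : e ∈ inc {w, y} := mem_inc_pair.2 (Or.inl he)
        by_cases hb : e ∈ blk {u, v} {w, y}
        · simp [hb]
        · have hA : e ∉ inc {u, v} := fun h => hb ((hblk_sub e).2 ⟨h, hA'⟩)
          simp [hb, F2 e hA]
      rw [deg_blk_x huv hxy hux huy hvx hvy] at s3 s1
      have := hG₂ w
      omega
    by_cases hwy : w = y
    · subst hwy
      have s3 := deg_split3 G₃ (blk {u, v} {x, w}) w
      have s1 := deg_split3 G₂ (blk {u, v} {x, w}) w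
      have e1 : deg (G₃ \ blk {u, v} {x, w}) w = deg (G₂ \ blk {u, v} {x, w}) w := by
        apply deg_congr3
        intro e he
        have hA' : e ∈ inc {x, w} := mem_inc_pair.2 (Or.inr he)
        by_cases hb : e ∈ blk {u, v} {x, w}
        · simp [hb]
        · have hA : e ∉ inc {u, v} := fun h => hb ((hblk_sub e).2 ⟨h, hA'⟩)
          simp [hb, F2 e hA]
      rw [deg_blk_y huv hxy hux huy hvx hvy] at s3 s1
      have := hG₂ w
      omega
    · have nb : ∀ e : Edge n, w ∈ e.1 → e ∉ blk {u, v} {x, y} := fun e he =>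
        not_mem_blk_of_mem huv hxy hux huy hvx hvy hwu hwv hwx hwy he
      have s3 := deg_split3 G₃ (inc {u, v}) w
      have s1 := deg_split3 G₁ (inc {u, v}) w
      have s2 := deg_split3 G₂ (inc {u, v}) w
      have s0 := deg_split3 G (inc {u, v}) w
      rw [K] at s3
      rw [h1] at s1
      have e1 : deg (G₃ ∩ inc {u, v}) w = deg (G₁ ∩ inc {u, v}) w := by
        apply deg_congr3
        intro e he
        by_cases hA : e ∈ inc {u, v}
        · simp [hA, F1 e (nb e he) hA]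
        · simp [hA]
      have e2 : deg (G₂ ∩ inc {u, v}) w = deg (G ∩ inc {u, v}) w := by
        apply deg_congr3
        intro e he
        by_cases hA : e ∈ inc {u, v}
        · have hA' : e ∉ inc {x, y} := fun h => nb e he ((hblk_sub e).2 ⟨hA, h⟩)
          simp [hA, m2 e hA']
        · simp [hA]
      have := hG₁ w
      have := hG₂ w
      have := hG w
      omega
  · rw [card_blk3 huv hxy hux huy hvx hvy, i1, i2, i3, i4]
    omega

end four

/-- D3: if `β ≠ 2` the two trades commute: rectangle condition on `{β ≠ 2}`.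
Given `G₁ ~_A G`, `G₂ ~_{A'} G` the corner `G₃` has the slots of `G₁` on `A \ A'`, of `G₂` on `A' \ A`, of `G` outside
`A ∪ A'`, and the unique block with the row sums (block degrees of `u, v`) of `G₁` and the column sums (block degrees of `x, y`) of `G₂`:
`β = 0, 4`: constant block; `β = 1`: the single edge joins the vertex of `p` covered in `G₁` to the vertex of `p'` covered in `G₂`;
`β = 3`: same with non-edges. -/
theorem rect_of_beta_ne_two (d : Fin n → ℕ) (p p' : Finset (Fin n)) (hp : p ∈ P2 n) (hp' : p' ∈ P2 n)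
    (hd : Disjoint p p') :
    Rect ((univ : Finset (Om d)).filter (fun G => (G.1 ∩ blk p p').card ≠ 2))
      (offKey d (inc p)) (offKey d (inc p')) := by
  intro G hG G₁ hG₁ G₂ hG₂ h1 h2
  have hb1 := beta_invariant d p p' hp hp' hd G₁ G h1
  have hb2 := beta_invariant' d p p' hp hp' hd G₂ G h2
  obtain ⟨u, v, huv, rfl⟩ := Finset.card_eq_two.1 (Finset.mem_powersetCard.1 hp).2
  obtain ⟨x, y, hxy, rfl⟩ := Finset.card_eq_two.1 (Finset.mem_powersetCard.1 hp').2
  have hux : u ≠ x := by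
    rintro rfl; exact (Finset.disjoint_left.1 hd) (a := u) (by simp) (by simp)
  have huy : u ≠ y := by
    rintro rfl; exact (Finset.disjoint_left.1 hd) (a := u) (by simp) (by simp)
  have hvx : v ≠ x := by
    rintro rfl; exact (Finset.disjoint_left.1 hd) (a := v) (by simp) (by simp)
  have hvy : v ≠ y := by
    rintro rfl; exact (Finset.disjoint_left.1 hd) (a := v) (by simp) (by simp)
  have real : ∀ Z : Om d, ∀ w, deg Z.1 w = d w := fun Z => (Finset.mem_filter.1 Z.2).2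
  have hG₁' : (G₁.1 ∩ blk {u, v} {x, y}).card ≠ 2 := (Finset.mem_filter.1 hG₁).2
  obtain ⟨G₃, hdeg, hc, k', k⟩ := block_exists3 huv hxy hux huy hvx hvy d G.1 G₁.1 G₂.1 (real G) (real G₁)
    (real G₂) h1 h2 (hb1.trans hb2.symm) hG₁'
  refine ⟨⟨G₃, Finset.mem_filter.2 ⟨Finset.mem_univ _, hdeg⟩⟩, ⟨Finset.mem_filter.2 ⟨Finset.mem_univ _, hc⟩, k', k⟩, ?_⟩
  rintro Z ⟨hZ, hk', hk⟩
  apply Subtype.ext
  apply block_unique3 huv hxy hux huy hvx hvy Z.1 G₃
  · intro w; rw [real Z w, hdeg w]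
  · have q' : Z.1 \ inc {x, y} = G₃ \ inc {x, y} := hk'.trans k'.symm
    have q : Z.1 \ inc {u, v} = G₃ \ inc {u, v} := hk.trans k.symm
    ext e
    by_cases hA : e ∈ inc {u, v}
    · by_cases hA' : e ∈ inc {x, y}
      · simp [blk, hA, hA']
      · have : e ∈ Z.1 \ inc {x, y} ↔ e ∈ G₃ \ inc {x, y} := by rw [q']
        simpa [blk, hA, hA'] using this
    · have : e ∈ Z.1 \ inc {u, v} ↔ e ∈ G₃ \ inc {u, v} := by rw [q]
      simpa [blk, hA] using this
  · exact (Finset.mem_filter.1 hZ).2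

end Crest.Agent.SW
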