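import Crest.Agent.SW_D1
import Crest.Agent.SW_D2
import Crest.Agent.SW_D3

/-!
# S0453: disjoint pairs, the final inequality (task D4)
-/

set_option autoImplicit false
open Finset

namespace Crest.Agent.SW
open Crest.SwitchChain

variable {n : ℕ}

/-- a finer key determines a coarser one -/
private theorem dl_offKey_mono (d : Fin n → ℕ) {C A : Finset (Edge n)} (h : C ⊆ A) (G G' : Om d)
    (hk : offKey d C G = offKey d C G') : offKey d A G = offKey d A G' := by
  simp only [offKey] at hk ⊢
  have key : ∀ H : Finset (Edge n), H \ A = (H \ C) \ A := by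
    intro H
    ext e
    simp only [mem_sdiff]
    constructor
    · rintro ⟨h1, h2⟩
      exact ⟨⟨h1, fun hc => h2 (h hc)⟩, h2⟩
    · rintro ⟨⟨h1, _⟩, h2⟩
      exact ⟨h1, h2⟩
  rw [key G.1, key G'.1, hk]

/-- indicator of `β = 2` -/
private noncomputable def dlχ (d : Fin n → ℕ) (p p' : Finset (Fin n)) (G : Om d) : ℝ :=
  if (G.1 ∩ blk p p').card = 2 then 1 else 0

private theorem dl_beta (d : Fin n → ℕ) (p p' : Finset (Fin n)) (hp : p ∈ P2 n) (hp' : p' ∈ P2 n)
    (hd : Disjoint p p') {C : Finset (Edge n)} (hC : C ⊆ inc p ∨ C ⊆ inc p') (G G' : Om d)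
    (hk : offKey d C G = offKey d C G') :
    (G.1 ∩ blk p p').card = (G'.1 ∩ blk p p').card := by
  rcases hC with hC | hC
  · exact beta_invariant d p p' hp hp' hd G G' (dl_offKey_mono d hC G G' hk)
  · exact beta_invariant' d p p' hp hp' hd G G' (dl_offKey_mono d hC G G' hk)

private theorem dl_Q_mul (d : Fin n → ℕ) (p p' : Finset (Fin n)) (hp : p ∈ P2 n) (hp' : p' ∈ P2 n)
    (hd : Disjoint p p') {C : Finset (Edge n)} (hC : C ⊆ inc p ∨ C ⊆ inc p') (f : Om d → ℝ) :
    Q d C (fun G => dlχ d p p' G * f G) = fun G => dlχ d p p' G * Q d C f G := by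
  funext G
  refine cE_mul_meas (dlχ d p p') f (fun x _ y _ hxy => ?_) (mem_univ G)
  simp only [dlχ, dl_beta d p p' hp hp' hd hC x y hxy]

private theorem dl_R_mul (d : Fin n → ℕ) (p p' : Finset (Fin n)) (hp : p ∈ P2 n) (hp' : p' ∈ P2 n)
    (hd : Disjoint p p') {C : Finset (Edge n)} (hC : C ⊆ inc p ∨ C ⊆ inc p') (f : Om d → ℝ) :
    R d C (fun G => dlχ d p p' G * f G) = fun G => dlχ d p p' G * R d C f G := by
  funext G
  have h := congrFun (dl_Q_mul d p p' hp hp' hd hC f) G
  simp only [Q] at h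
  simp only [R, cR, h]
  ring

private theorem dl_Dm_comm (p p' : Finset (Fin n)) (G : Finset (Edge n)) :
    Dm p p' G ↔ Dm p' p G := by
  simp only [Dm, blk_comm p p', union_comm p p']

private theorem dl_χ_sq (d : Fin n → ℕ) (p p' : Finset (Fin n)) (G : Om d) :
    dlχ d p p' G * dlχ d p p' G = dlχ d p p' G := by
  simp only [dlχ]
  split_ifs <;> simp

/-- the part `β ≠ 2` is nonnegative -/
private theorem dl_ne_two (d : Fin n → ℕ) (p p' : Finset (Fin n)) (hp : p ∈ P2 n) (hp' : p' ∈ P2 n)
    (hd : Disjoint p p') (f : Om d → ℝ) :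
    0 ≤ ∑ G ∈ (univ : Finset (Om d)).filter (fun G => (G.1 ∩ blk p p').card ≠ 2),
      R d (inc p) f G * R d (inc p') f G := by
  set Y := (univ : Finset (Om d)).filter (fun G => (G.1 ∩ blk p p').card ≠ 2) with hY
  have hrect := rect_of_beta_ne_two d p p' hp hp' hd
  have hnn := ip_cR_cR_nonneg_of_comm (X := Y) (κ := offKey d (inc p)) (κ' := offKey d (inc p'))
    (fun g x hx => cE_comm_of_rect hrect g hx) f
  have hsat : ∀ C : Finset (Edge n), (C ⊆ inc p ∨ C ⊆ inc p') →
      ∀ x ∈ Y, ∀ y ∈ (univ : Finset (Om d)), offKey d C y = offKey d C x → y ∈ Y := by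
    intro C hC x hx y _ hk
    simp only [hY, mem_filter, mem_univ, true_and] at hx ⊢
    rw [dl_beta d p p' hp hp' hd hC y x hk]
    exact hx
  have heq : ip Y (cR Y (offKey d (inc p)) f) (cR Y (offKey d (inc p')) f)
      = ∑ G ∈ Y, R d (inc p) f G * R d (inc p') f G := by
    simp only [ip]
    refine Finset.sum_congr rfl (fun G hG => ?_)
    simp only [R, cR]
    rw [cE_restrict (subset_univ Y) (hsat _ (Or.inl subset_rfl)) f hG,
      cE_restrict (subset_univ Y) (hsat _ (Or.inr subset_rfl)) f hG]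
  rw [← heq]
  exact hnn

/-- D4: the disjoint-pair inequality.  Split `univ = {β ≠ 2} ∪ {β = 2}` (both are unions of fibres of every key involved).
On `{β ≠ 2}`: `cE_restrict`, D3, `cE_comm_of_rect`, `ip_cR_cR_nonneg_of_comm`, and `R_blk = 0`.
On `{β = 2}`: `disj_alg` applied to `1_{β=2} f` (`cE_mul_meas`), then D2 and `x y ≥ -(x² + y²)/2` on `Dm`. -/
theorem disjoint_lemma (d : Fin n → ℕ) (p p' : Finset (Fin n)) (hp : p ∈ P2 n) (hp' : p' ∈ P2 n)
    (hd : Disjoint p p') (f : Om d → ℝ) :
    nsq univ (R d (blk p p') f) - (Wt d p p' f + Wt d p' p f) / 2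
      ≤ ip univ (R d (inc p) f) (R d (inc p') f) := by
  classical
  set χ := dlχ d p p' with hχ
  have hb1 : blk p p' ⊆ inc p ∨ blk p p' ⊆ inc p' := Or.inl inter_subset_left
  have hU : inc p \ inc p' ⊆ inc p ∨ inc p \ inc p' ⊆ inc p' := Or.inl sdiff_subset
  have hW : inc p' \ inc p ⊆ inc p ∨ inc p' \ inc p ⊆ inc p' := Or.inr sdiff_subset
  have hA : inc p ⊆ inc p ∨ inc p ⊆ inc p' := Or.inl subset_rfl
  have hA' : inc p' ⊆ inc p ∨ inc p' ⊆ inc p' := Or.inr subset_rfl
  have halg := disj_alg d (inc p) (inc p') (fun G => χ G * f G)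
  change nsq univ (R d (blk p p') (fun G => χ G * f G))
      + ip univ (fun G => Q d (inc p \ inc p') (Q d (blk p p') (fun G => χ G * f G)) G
            - Q d (inc p) (fun G => χ G * f G) G)
          (fun G => Q d (inc p' \ inc p) (Q d (blk p p') (fun G => χ G * f G)) G
            - Q d (inc p') (fun G => χ G * f G) G)
      ≤ ip univ (R d (inc p) (fun G => χ G * f G)) (R d (inc p') (fun G => χ G * f G)) at halg
  rw [dl_R_mul d p p' hp hp' hd hb1, dl_R_mul d p p' hp hp' hd hA, dl_R_mul d p p' hp hp' hd hA',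
    dl_Q_mul d p p' hp hp' hd hb1, dl_Q_mul d p p' hp hp' hd hU, dl_Q_mul d p p' hp hp' hd hW,
    dl_Q_mul d p p' hp hp' hd hA, dl_Q_mul d p p' hp hp' hd hA'] at halg
  -- first term
  have h1 : nsq univ (fun G => χ G * R d (blk p p') f G) = nsq univ (R d (blk p p') f) := by
    simp only [nsq]
    refine Finset.sum_congr rfl (fun G _ => ?_)
    by_cases hβ : (G.1 ∩ blk p p').card = 2
    · simp [hχ, dlχ, hβ]
    · have hD : ¬ Dm p p' G.1 := fun h => hβ (Dm_card p p' hp hp' hd G.1 h)
      rw [R_blk_eq_zero_of_not_Dm d p p' hp hp' hd f G hD]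
      simp
  -- second term
  have h2 : -((Wt d p p' f + Wt d p' p f) / 2) ≤
      ip univ (fun G => χ G * Q d (inc p \ inc p') (Q d (blk p p') f) G - χ G * Q d (inc p) f G)
        (fun G => χ G * Q d (inc p' \ inc p) (Q d (blk p p') f) G - χ G * Q d (inc p') f G) := by
    have e1 : ip univ
        (fun G => χ G * Q d (inc p \ inc p') (Q d (blk p p') f) G - χ G * Q d (inc p) f G)
        (fun G => χ G * Q d (inc p' \ inc p) (Q d (blk p p') f) G - χ G * Q d (inc p') f G)
        = ∑ G ∈ (univ : Finset (Om d)).filter (fun G => Dm p p' G.1),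
            Ee d p p' f G * Ee d p' p f G := by
      simp only [ip]
      rw [Finset.sum_filter]
      refine Finset.sum_congr rfl (fun G _ => ?_)
      have hEe : Ee d p p' f G = Q d (inc p \ inc p') (Q d (blk p p') f) G - Q d (inc p) f G := rfl
      have hEe' : Ee d p' p f G
          = Q d (inc p' \ inc p) (Q d (blk p p') f) G - Q d (inc p') f G := by
        simp only [Ee, blk_comm p' p]
      have e : (χ G * Q d (inc p \ inc p') (Q d (blk p p') f) G - χ G * Q d (inc p) f G)
          * (χ G * Q d (inc p' \ inc p) (Q d (blk p p') f) G - χ G * Q d (inc p') f G)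
          = (χ G * χ G) * (Ee d p p' f G * Ee d p' p f G) := by
        rw [hEe, hEe']; ring
      rw [e, hχ, dl_χ_sq]
      by_cases hD : Dm p p' G.1
      · have hβ := Dm_card p p' hp hp' hd G.1 hD
        simp [dlχ, hβ, hD]
      · rw [if_neg hD]
        by_cases hβ : (G.1 ∩ blk p p').card = 2
        · rw [Ee_mul_eq_zero d p p' hp hp' hd f G hβ hD, mul_zero]
        · simp [dlχ, hβ]
    have e2 : Wt d p' p f = ∑ G ∈ (univ : Finset (Om d)).filter (fun G => Dm p p' G.1),
        (Ee d p' p f G) ^ 2 := by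
      rw [Wt_eq]
      refine Finset.sum_congr ?_ (fun _ _ => rfl)
      ext G
      simp only [mem_filter, mem_univ, true_and]
      exact dl_Dm_comm p' p G.1
    rw [e1, e2, Wt_eq, ← Finset.sum_add_distrib, Finset.sum_div, ← Finset.sum_neg_distrib]
    refine Finset.sum_le_sum (fun G _ => ?_)
    nlinarith [sq_nonneg (Ee d p p' f G + Ee d p' p f G)]
  -- right-hand side
  have h3 : ip univ (fun G => χ G * R d (inc p) f G) (fun G => χ G * R d (inc p') f G)
      ≤ ip univ (R d (inc p) f) (R d (inc p') f) := by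
    have hsplit := Finset.sum_filter_add_sum_filter_not (univ : Finset (Om d))
      (fun G => (G.1 ∩ blk p p').card = 2) (fun G => R d (inc p) f G * R d (inc p') f G)
    have hnn := dl_ne_two d p p' hp hp' hd f
    have e : ip univ (fun G => χ G * R d (inc p) f G) (fun G => χ G * R d (inc p') f G)
        = ∑ G ∈ (univ : Finset (Om d)).filter (fun G => (G.1 ∩ blk p p').card = 2),
            R d (inc p) f G * R d (inc p') f G := by
      simp only [ip]
      rw [Finset.sum_filter]
      refine Finset.sum_congr rfl (fun G _ => ?_)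
      by_cases hβ : (G.1 ∩ blk p p').card = 2
      · simp [hχ, dlχ, hβ]
      · simp [hχ, dlχ, hβ]
    rw [e]
    simp only [ip]
    rw [← hsplit]
    linarith
  rw [h1] at halg
  linarith

end Crest.Agent.SW
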