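import Crest.Agent.SW_Gen1

/-!
# S0453: generic lemmas on conditional expectations `cE X κ` on a finite uniform space.  Task G2.
All proofs are elementary finite sums.
-/

set_option autoImplicit false
open Finset

namespace Crest.Agent.SW

variable {α β γ : Type*} [DecidableEq β] [DecidableEq γ]

/-! ## G2 : tower property, commutation -/

/-- Sum over a fibre as an inner product with the indicator. -/
private theorem sum_fib_eq_ip (X : Finset α) (κ' : α → γ) (x : α) (g : α → ℝ) :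
    ∑ y ∈ fib X κ' x, g y = ip X g (fun y => if κ' y = κ' x then 1 else 0) := by
  simp only [fib, ip, Finset.sum_filter, mul_ite, mul_one, mul_zero]

/-- Tower property: `κ` finer than `κ'` on `X`. -/
theorem cE_tower {X : Finset α} {κ : α → β} {κ' : α → γ}
    (hfine : ∀ x ∈ X, ∀ y ∈ X, κ x = κ y → κ' x = κ' y) (f : α → ℝ) {x : α} (hx : x ∈ X) :
    cE X κ' (cE X κ f) x = cE X κ' f x := by
  have key : ∑ y ∈ fib X κ' x, cE X κ f y = ∑ y ∈ fib X κ' x, f y := by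
    rw [sum_fib_eq_ip, sum_fib_eq_ip, ip_cE_symm]
    refine ip_congr (fun _ _ => rfl) (fun y hy => ?_)
    refine cE_of_meas (fun y => if κ' y = κ' x then (1:ℝ) else 0) ?_ hy
    intro a ha b hb hab
    simp only [hfine a ha b hb hab]
  simp only [cE] at key ⊢
  rw [key]

theorem cE_tower' {X : Finset α} {κ : α → β} {κ' : α → γ}
    (hfine : ∀ x ∈ X, ∀ y ∈ X, κ x = κ y → κ' x = κ' y) (f : α → ℝ) {x : α} (hx : x ∈ X) :
    cE X κ (cE X κ' f) x = cE X κ' f x := by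
  refine cE_of_meas (cE X κ' f) ?_ hx
  intro a ha b hb hab
  exact cE_eq_of_key f (hfine a ha b hb hab)

/-- `R_κ (R_κ' f) = R_κ f` if `κ` is finer than `κ'`. -/
theorem cR_cR_of_fine {X : Finset α} {κ : α → β} {κ' : α → γ}
    (hfine : ∀ x ∈ X, ∀ y ∈ X, κ x = κ y → κ' x = κ' y) (f : α → ℝ) {x : α} (hx : x ∈ X) :
    cR X κ (cR X κ' f) x = cR X κ f x := by
  have h1 : cE X κ (cR X κ' f) x = cE X κ f x - cE X κ (cE X κ' f) x := by
    have := cE_sub X κ f (cE X κ' f)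
    exact congrFun this x
  have h2 := cE_tower' hfine f hx
  simp only [cR] at h1 ⊢
  rw [h1, h2]
  ring

/-- Rectangle condition: any `y₁ ~κ x`, `y₂ ~κ' x` have a unique common "corner" `z`. -/
def Rect (X : Finset α) (κ : α → β) (κ' : α → γ) : Prop :=
  ∀ x ∈ X, ∀ y₁ ∈ X, ∀ y₂ ∈ X, κ y₁ = κ x → κ' y₂ = κ' x →
    ∃! z, z ∈ X ∧ κ' z = κ' y₁ ∧ κ z = κ y₂

private theorem Rect.symm' {X : Finset α} {κ : α → β} {κ' : α → γ} (h : Rect X κ κ') :
    Rect X κ' κ := by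
  intro x hx y₁ hy₁ y₂ hy₂ h1 h2
  obtain ⟨z, hz, hu⟩ := h x hx y₂ hy₂ y₁ hy₁ h2 h1
  exact ⟨z, ⟨hz.1, hz.2.2, hz.2.1⟩, fun w hw => hu w ⟨hw.1, hw.2.2, hw.2.1⟩⟩

/-- The corner map is a bijection `fib κ' x → fib κ' y₁`. -/
private theorem sum_fib_corner {X : Finset α} {κ : α → β} {κ' : α → γ} (h : Rect X κ κ')
    {x y₁ : α} (hx : x ∈ X) (hy₁ : y₁ ∈ fib X κ x) (c : α → α)
    (hc : ∀ y₂ ∈ fib X κ' x, c y₂ ∈ X ∧ κ' (c y₂) = κ' y₁ ∧ κ (c y₂) = κ y₂) (g : α → ℝ) :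
    ∑ y₂ ∈ fib X κ' x, g (c y₂) = ∑ z ∈ fib X κ' y₁, g z := by
  rw [mem_fib] at hy₁
  refine Finset.sum_bij (fun y₂ _ => c y₂) ?_ ?_ ?_ ?_
  · intro a ha
    exact mem_fib.2 ⟨(hc a ha).1, (hc a ha).2.1⟩
  · intro a ha b hb hab
    have ha' := mem_fib.1 ha
    have hb' := mem_fib.1 hb
    have hk : κ a = κ b := by
      rw [← (hc a ha).2.2, ← (hc b hb).2.2]
      exact congrArg κ hab
    obtain ⟨z, _, hu⟩ := h x hx x hx a ha'.1 rfl ha'.2
    rw [hu a ⟨ha'.1, ha'.2, rfl⟩, hu b ⟨hb'.1, hb'.2, hk.symm⟩]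
  · intro z hz
    have hz' := mem_fib.1 hz
    obtain ⟨w, hw, _⟩ := h y₁ hy₁.1 x hx z hz'.1 hy₁.2.symm hz'.2
    have hwB : w ∈ fib X κ' x := mem_fib.2 ⟨hw.1, hw.2.1⟩
    refine ⟨w, hwB, ?_⟩
    obtain ⟨z', _, hu⟩ := h x hx y₁ hy₁.1 w hw.1 hy₁.2 hw.2.1
    rw [hu (c w) (hc w hwB), hu z ⟨hz'.1, hz'.2, hw.2.2.symm⟩]
  · intro a _
    rfl

private theorem cE_cE_corner {X : Finset α} {κ : α → β} {κ' : α → γ} (h : Rect X κ κ')
    {x : α} (hx : x ∈ X) (c : α → α → α)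
    (hc : ∀ y₁ ∈ fib X κ x, ∀ y₂ ∈ fib X κ' x,
      c y₁ y₂ ∈ X ∧ κ' (c y₁ y₂) = κ' y₁ ∧ κ (c y₁ y₂) = κ y₂) (f : α → ℝ) :
    cE X κ (cE X κ' f) x =
      (∑ y₁ ∈ fib X κ x, ∑ y₂ ∈ fib X κ' x, f (c y₁ y₂)) /
        (((fib X κ x).card : ℝ) * ((fib X κ' x).card : ℝ)) := by
  have h1 : ∀ y₁ ∈ fib X κ x, cE X κ' f y₁ =
      (∑ y₂ ∈ fib X κ' x, f (c y₁ y₂)) / ((fib X κ' x).card : ℝ) := by
    intro y₁ hy₁
    have hs := sum_fib_corner h hx hy₁ (c y₁) (hc y₁ hy₁) f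
    have hcard := sum_fib_corner h hx hy₁ (c y₁) (hc y₁ hy₁) (fun _ => (1:ℝ))
    simp only [Finset.sum_const, nsmul_eq_mul, mul_one] at hcard
    simp only [cE]
    rw [hs, hcard]
  calc cE X κ (cE X κ' f) x
      = (∑ y₁ ∈ fib X κ x, cE X κ' f y₁) / ((fib X κ x).card : ℝ) := rfl
    _ = (∑ y₁ ∈ fib X κ x, (∑ y₂ ∈ fib X κ' x, f (c y₁ y₂)) / ((fib X κ' x).card : ℝ))
          / ((fib X κ x).card : ℝ) := by rw [Finset.sum_congr rfl h1]
    _ = _ := by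
        rw [← Finset.sum_div, div_div, mul_comm]

/-- Under the rectangle condition the two conditional expectations commute. -/
theorem cE_comm_of_rect {X : Finset α} {κ : α → β} {κ' : α → γ} (h : Rect X κ κ')
    (f : α → ℝ) {x : α} (hx : x ∈ X) :
    cE X κ (cE X κ' f) x = cE X κ' (cE X κ f) x := by
  classical
  haveI : Nonempty α := ⟨x⟩
  have hex : ∀ y₁ y₂ : α, ∃ z : α, y₁ ∈ fib X κ x → y₂ ∈ fib X κ' x →
      (z ∈ X ∧ κ' z = κ' y₁ ∧ κ z = κ y₂) := by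
    intro y₁ y₂
    by_cases h1 : y₁ ∈ fib X κ x
    · by_cases h2 : y₂ ∈ fib X κ' x
      · have h1' := mem_fib.1 h1
        have h2' := mem_fib.1 h2
        obtain ⟨z, hz, _⟩ := h x hx y₁ h1'.1 y₂ h2'.1 h1'.2 h2'.2
        exact ⟨z, fun _ _ => hz⟩
      · exact ⟨x, fun _ h => absurd h h2⟩
    · exact ⟨x, fun h _ => absurd h h1⟩
  choose c hc using hex
  rw [cE_cE_corner h hx c (fun y₁ h1 y₂ h2 => hc y₁ y₂ h1 h2) f,
    cE_cE_corner h.symm' hx (fun y₂ y₁ => c y₁ y₂)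
      (fun y₂ h2 y₁ h1 => ⟨(hc y₁ y₂ h1 h2).1, (hc y₁ y₂ h1 h2).2.2, (hc y₁ y₂ h1 h2).2.1⟩) f,
    Finset.sum_comm, mul_comm]

/-- Commuting conditional expectations: `⟨R f, R' f⟩ = |R R' f|² ≥ 0`. -/
theorem ip_cR_cR_nonneg_of_comm {X : Finset α} {κ : α → β} {κ' : α → γ}
    (hc : ∀ g : α → ℝ, ∀ x ∈ X, cE X κ (cE X κ' g) x = cE X κ' (cE X κ g) x) (f : α → ℝ) :
    0 ≤ ip X (cR X κ f) (cR X κ' f) := by
  set P := cE X κ f with hP
  set P' := cE X κ' f with hP'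
  set T := cE X κ P' with hT
  have e1 : ip X P P = ip X f P := ip_cE_cE X κ f f
  have e2 : ip X P' P' = ip X f P' := ip_cE_cE X κ' f f
  have e3 : ip X P P' = ip X f T := ip_cE_symm X κ f P'
  have e4 : ip X P T = ip X f T := ip_cE_cE X κ f P'
  have e5 : ip X P' T = ip X f T := by
    have hT' : ∀ x ∈ X, T x = cE X κ' P x := fun x hx => hc f x hx
    calc ip X P' T = ip X P' (cE X κ' P) := ip_congr (fun _ _ => rfl) hT'
      _ = ip X f (cE X κ' P) := ip_cE_cE X κ' f P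
      _ = ip X f T := ip_congr (fun _ _ => rfl) (fun x hx => (hT' x hx).symm)
  have e6 : ip X T T = ip X f T := by
    rw [← e5]
    exact ip_cE_cE X κ P' P'
  have hnn : 0 ≤ ∑ x ∈ X, (f x - P x - P' x + T x) ^ 2 :=
    Finset.sum_nonneg (fun _ _ => sq_nonneg _)
  have hexp : ∑ x ∈ X, (f x - P x - P' x + T x) ^ 2 =
      ip X f f + ip X P P + ip X P' P' + ip X T T - 2 * ip X f P - 2 * ip X f P' + 2 * ip X f T
        + 2 * ip X P P' - 2 * ip X P T - 2 * ip X P' T := by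
    simp only [ip, Finset.mul_sum, ← Finset.sum_add_distrib, ← Finset.sum_sub_distrib]
    refine Finset.sum_congr rfl (fun x _ => ?_)
    ring
  have hexp2 : ip X (cR X κ f) (cR X κ' f) =
      ip X f f - ip X f P' - ip X f P + ip X P P' := by
    simp only [ip, cR, ← Finset.sum_add_distrib, ← Finset.sum_sub_distrib]
    refine Finset.sum_congr rfl (fun x _ => ?_)
    ring
  rw [hexp2]
  rw [hexp] at hnn
  linarith

end Crest.Agent.SW
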