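import Crest.Agent.SW_Gen1

/-!
# S0453: generic lemmas on conditional expectations `cE X κ` on a finite uniform space.  Task G3.
All proofs are elementary finite sums.
-/

set_option autoImplicit false
open Finset

namespace Crest.Agent.SW

variable {α β γ : Type*} [DecidableEq β] [DecidableEq γ]

/-! ## G3 : localisation to a union of fibres and transport along a bijection -/

/-- If `Y ⊆ X` is a union of `κ`-fibres of `X`, then `cE X κ` and `cE Y κ` agree on `Y`. -/
theorem cE_restrict {X Y : Finset α} {κ : α → β} (hYX : Y ⊆ X)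
    (hsat : ∀ x ∈ Y, ∀ y ∈ X, κ y = κ x → y ∈ Y) (f : α → ℝ) {x : α} (hx : x ∈ Y) :
    cE X κ f x = cE Y κ f x := by
  have hfib : fib X κ x = fib Y κ x := by
    ext y
    simp only [mem_fib]
    constructor
    · rintro ⟨hy, hk⟩
      exact ⟨hsat x hx y hy hk, hk⟩
    · rintro ⟨hy, hk⟩
      exact ⟨hYX hy, hk⟩
  simp only [cE, hfib]

/-- Transport along a map `φ` injective on `X`, keys corresponding. -/
theorem cE_transport {α' β' : Type*} [DecidableEq α'] [DecidableEq β'] {X : Finset α} {κ : α → β}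
    (φ : α → α') (hφ : Set.InjOn φ (X : Set α)) (κ' : α' → β')
    (hκ : ∀ x ∈ X, ∀ y ∈ X, κ x = κ y ↔ κ' (φ x) = κ' (φ y))
    (g : α' → ℝ) {x : α} (hx : x ∈ X) :
    cE (X.image φ) κ' g (φ x) = cE X κ (fun y => g (φ y)) x := by
  have hfib : fib (X.image φ) κ' (φ x) = (fib X κ x).image φ := by
    ext z
    simp only [mem_fib, Finset.mem_image]
    constructor
    · rintro ⟨⟨y, hy, rfl⟩, hk⟩
      exact ⟨y, ⟨hy, (hκ y hy x hx).2 hk⟩, rfl⟩
    · rintro ⟨y, ⟨hy, hk⟩, rfl⟩
      exact ⟨⟨y, hy, rfl⟩, (hκ y hy x hx).1 hk⟩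
  have hinj : Set.InjOn φ ((fib X κ x : Finset α) : Set α) :=
    hφ.mono (fun y hy => (mem_fib.1 (Finset.mem_coe.1 hy)).1)
  simp only [cE, hfib]
  rw [Finset.sum_image hinj, Finset.card_image_of_injOn hinj]

/-- Sum over `X` = sum over the fibres of a key. -/
theorem sum_fibres [DecidableEq α] (X : Finset α) (κ : α → β) (F : α → ℝ) :
    ∑ x ∈ X, F x = ∑ k ∈ X.image κ, ∑ x ∈ X.filter (fun x => κ x = k), F x := by
  exact (Finset.sum_fiberwise_of_maps_to (fun x hx => Finset.mem_image_of_mem κ hx) F).symm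

/-- To prove `∑_X F ≤ ∑_X F'` it is enough to prove it on each fibre of a key. -/
theorem sum_le_sum_of_fibres (X : Finset α) (κ : α → β) (F F' : α → ℝ)
    (h : ∀ x ∈ X, ∑ y ∈ fib X κ x, F y ≤ ∑ y ∈ fib X κ x, F' y) :
    ∑ x ∈ X, F x ≤ ∑ x ∈ X, F' x := by
  classical
  rw [sum_fibres X κ F, sum_fibres X κ F']
  refine Finset.sum_le_sum (fun k hk => ?_)
  obtain ⟨x, hx, rfl⟩ := Finset.mem_image.1 hk
  exact h x hx

end Crest.Agent.SW
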