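import Crest.Agent.SW_Gen

/-!
# S0453: the abstract Johnson / Bernoulli-Laplace model.  Task J0 (definitions FROZEN + two-site fibres).   (overview: see `SW_Johnson.lean`)
-/

set_option autoImplicit false
open Finset

namespace Crest.Agent.SW

variable {τ : Type*} [DecidableEq τ]

/-- State space of the Johnson model. -/
def JX (T : Finset τ) (a : ℕ) : Finset (Finset τ) := T.powersetCard a

/-- Key: forget the sites of `B`. -/
def jKey (B : Finset τ) : Finset τ → Finset τ := fun S => S \ B

private theorem j0_card_inter_pair (Y : Finset τ) {u v : τ} (huv : u ≠ v) :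
    (Y ∩ {u, v}).card = 1 ↔ (u ∈ Y ∧ v ∉ Y) ∨ (u ∉ Y ∧ v ∈ Y) := by
  by_cases hu : u ∈ Y <;> by_cases hv : v ∈ Y
  · have : Y ∩ {u, v} = {u, v} := by
      ext z; simp only [mem_inter, mem_insert, mem_singleton]
      constructor
      · exact fun h => h.2
      · rintro (rfl | rfl) <;> simp [*]
    rw [this, Finset.card_pair huv]; simp [hu, hv]
  · have : Y ∩ {u, v} = {u} := by
      ext z; simp only [mem_inter, mem_insert, mem_singleton]
      constructor
      · rintro ⟨h1, rfl | rfl⟩
        · rfl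
        · exact absurd h1 hv
      · rintro rfl; simp [hu]
    rw [this]; simp [hu, hv]
  · have : Y ∩ {u, v} = {v} := by
      ext z; simp only [mem_inter, mem_insert, mem_singleton]
      constructor
      · rintro ⟨h1, rfl | rfl⟩
        · exact absurd h1 hu
        · rfl
      · rintro rfl; simp [hv]
    rw [this]; simp [hu, hv]
  · have : Y ∩ {u, v} = ∅ := by
      ext z; simp only [mem_inter, mem_insert, mem_singleton, notMem_empty, iff_false]
      rintro ⟨h1, rfl | rfl⟩
      · exact hu h1
      · exact hv h1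
    rw [this]; simp [hu, hv]

private theorem j0_card_inter_eq {y S e : Finset τ} (hk : y \ e = S \ e) (hc : y.card = S.card) :
    (y ∩ e).card = (S ∩ e).card := by
  have h1 := Finset.card_sdiff_add_card_inter y e
  have h2 := Finset.card_sdiff_add_card_inter S e
  rw [hk] at h1
  omega

private theorem j0_off {y S e : Finset τ} (hk : y \ e = S \ e) {z : τ} (hz : z ∉ e) :
    z ∈ y ↔ z ∈ S := by
  have := congrArg (fun A => z ∈ A) hk
  simpa [mem_sdiff, hz] using this

/-- J0a: the `jKey e`-fibre of a state split by `e` is `{S, S ∆ e}`. -/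
theorem jfib_pair_of_split (T : Finset τ) (a : ℕ) (e : Finset τ) (he : e ∈ T.powersetCard 2)
    (S : Finset τ) (hS : S ∈ JX T a) (h : (S ∩ e).card = 1) :
    symmDiff S e ∈ JX T a ∧ symmDiff S e ≠ S ∧ (symmDiff S e ∩ e).card = 1 ∧
      fib (JX T a) (jKey e) S = {S, symmDiff S e} := by
  obtain ⟨heT, hec⟩ := Finset.mem_powersetCard.mp he
  obtain ⟨hST, hSc⟩ := Finset.mem_powersetCard.mp hS
  obtain ⟨u, v, huv, rfl⟩ := Finset.card_eq_two.mp hec
  have hinter : symmDiff S {u, v} ∩ {u, v} = {u, v} \ S := by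
    ext z; simp only [mem_inter, mem_symmDiff, mem_sdiff]; tauto
  have hsd : symmDiff S {u, v} \ {u, v} = S \ {u, v} := by
    ext z; simp only [mem_symmDiff, mem_sdiff]; tauto
  have hc1 : (({u, v} : Finset τ) \ S).card = 1 := by
    have := Finset.card_sdiff_add_card_inter ({u, v} : Finset τ) S
    rw [Finset.inter_comm, h, Finset.card_pair huv] at this
    omega
  have h3 : (symmDiff S {u, v} ∩ {u, v}).card = 1 := by rw [hinter, hc1]
  have h1 : symmDiff S {u, v} ∈ JX T a := by
    refine Finset.mem_powersetCard.mpr ⟨?_, ?_⟩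
    · intro z hz
      rcases Finset.mem_symmDiff.mp hz with hz | hz
      · exact hST hz.1
      · exact heT hz.1
    · have e1 := Finset.card_sdiff_add_card_inter (symmDiff S {u, v}) {u, v}
      have e2 := Finset.card_sdiff_add_card_inter S {u, v}
      rw [hsd, h3] at e1
      omega
  have h2 : symmDiff S {u, v} ≠ S := by
    intro hh
    rw [symmDiff_eq_left] at hh
    have : u ∈ ({u, v} : Finset τ) := by simp
    rw [hh] at this
    simp at this
  refine ⟨h1, h2, h3, ?_⟩
  ext y
  rw [mem_fib]
  simp only [mem_insert, mem_singleton, jKey]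
  constructor
  · rintro ⟨hy, hk⟩
    obtain ⟨-, hyc⟩ := Finset.mem_powersetCard.mp hy
    have hy1 : (y ∩ {u, v}).card = 1 := by
      rw [j0_card_inter_eq hk (hyc.trans hSc.symm), h]
    have hoff : ∀ z, z ∉ ({u, v} : Finset τ) → (z ∈ y ↔ z ∈ S) := fun z hz => j0_off hk hz
    rw [j0_card_inter_pair _ huv] at hy1 h
    have key : ∀ z, z ≠ u → z ≠ v → (z ∈ y ↔ z ∈ S) := fun z h1 h2 => hoff z (by simp [h1, h2])
    rcases hy1 with ⟨a1, a2⟩ | ⟨a1, a2⟩ <;> rcases h with ⟨b1, b2⟩ | ⟨b1, b2⟩
    · left; ext z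
      by_cases hzu : z = u
      · subst hzu; simp [a1, b1]
      by_cases hzv : z = v
      · subst hzv; simp [a2, b2]
      exact key z hzu hzv
    · right; ext z
      rw [Finset.mem_symmDiff]
      by_cases hzu : z = u
      · subst hzu; simp [a1, b1]
      by_cases hzv : z = v
      · subst hzv; simp [a2, b2]
      simp [key z hzu hzv, hzu, hzv]
    · right; ext z
      rw [Finset.mem_symmDiff]
      by_cases hzu : z = u
      · subst hzu; simp [a1, b1]
      by_cases hzv : z = v
      · subst hzv; simp [a2, b2]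
      simp [key z hzu hzv, hzu, hzv]
    · left; ext z
      by_cases hzu : z = u
      · subst hzu; simp [a1, b1]
      by_cases hzv : z = v
      · subst hzv; simp [a2, b2]
      exact key z hzu hzv
  · rintro (rfl | rfl)
    · exact ⟨hS, rfl⟩
    · exact ⟨h1, hsd⟩

/-- J0b: the `jKey e`-fibre of a state not split by `e` is `{S}`. -/
theorem jfib_pair_of_not_split (T : Finset τ) (a : ℕ) (e : Finset τ) (he : e ∈ T.powersetCard 2)
    (S : Finset τ) (hS : S ∈ JX T a) (h : (S ∩ e).card ≠ 1) :
    fib (JX T a) (jKey e) S = {S} := by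
  obtain ⟨heT, hec⟩ := Finset.mem_powersetCard.mp he
  obtain ⟨hST, hSc⟩ := Finset.mem_powersetCard.mp hS
  obtain ⟨u, v, huv, rfl⟩ := Finset.card_eq_two.mp hec
  ext y
  rw [mem_fib]
  simp only [mem_singleton, jKey]
  constructor
  · rintro ⟨hy, hk⟩
    obtain ⟨-, hyc⟩ := Finset.mem_powersetCard.mp hy
    have hcc : (y ∩ {u, v}).card = (S ∩ {u, v}).card := j0_card_inter_eq hk (hyc.trans hSc.symm)
    have key : ∀ z, z ≠ u → z ≠ v → (z ∈ y ↔ z ∈ S) :=
      fun z h1 h2 => j0_off hk (by simp [h1, h2])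
    have hle : (S ∩ {u, v}).card ≤ 2 := by
      calc (S ∩ {u, v}).card ≤ ({u, v} : Finset τ).card := Finset.card_le_card Finset.inter_subset_right
        _ = 2 := Finset.card_pair huv
    have h02 : (S ∩ {u, v}).card = 0 ∨ (S ∩ {u, v}).card = 2 := by omega
    have full : ∀ Y : Finset τ, (Y ∩ {u, v}).card = 2 → u ∈ Y ∧ v ∈ Y := by
      intro Y hY
      have : Y ∩ {u, v} = {u, v} :=
        Finset.eq_of_subset_of_card_le Finset.inter_subset_right (by rw [hY, Finset.card_pair huv])
      constructor
      · have h1 : u ∈ Y ∩ {u, v} := by rw [this]; simp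
        exact (Finset.mem_inter.mp h1).1
      · have h1 : v ∈ Y ∩ {u, v} := by rw [this]; simp
        exact (Finset.mem_inter.mp h1).1
    have none : ∀ Y : Finset τ, (Y ∩ {u, v}).card = 0 → u ∉ Y ∧ v ∉ Y := by
      intro Y hY
      rw [Finset.card_eq_zero] at hY
      constructor
      · intro hu
        have : u ∈ Y ∩ {u, v} := Finset.mem_inter.mpr ⟨hu, by simp⟩
        rw [hY] at this; simp at this
      · intro hv
        have : v ∈ Y ∩ {u, v} := Finset.mem_inter.mpr ⟨hv, by simp⟩
        rw [hY] at this; simp at this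
    rcases h02 with h0 | h2
    · obtain ⟨a1, a2⟩ := none y (hcc.trans h0)
      obtain ⟨b1, b2⟩ := none S h0
      ext z
      by_cases hzu : z = u
      · subst hzu; simp [a1, b1]
      by_cases hzv : z = v
      · subst hzv; simp [a2, b2]
      exact key z hzu hzv
    · obtain ⟨a1, a2⟩ := full y (hcc.trans h2)
      obtain ⟨b1, b2⟩ := full S h2
      ext z
      by_cases hzu : z = u
      · subst hzu; simp [a1, b1]
      by_cases hzv : z = v
      · subst hzv; simp [a2, b2]
      exact key z hzu hzv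
  · rintro rfl
    exact ⟨hS, rfl⟩

/-- J0c -/
theorem jcE_pair (T : Finset τ) (a : ℕ) (e : Finset τ) (he : e ∈ T.powersetCard 2)
    (f : Finset τ → ℝ) (S : Finset τ) (hS : S ∈ JX T a) :
    cE (JX T a) (jKey e) f S = if (S ∩ e).card = 1 then (f S + f (symmDiff S e)) / 2 else f S := by
  split_ifs with h
  · obtain ⟨-, h2, -, h4⟩ := jfib_pair_of_split T a e he S hS h
    unfold cE
    rw [h4, Finset.sum_pair h2.symm, Finset.card_pair h2.symm]
    norm_num
  · have h4 := jfib_pair_of_not_split T a e he S hS h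
    unfold cE
    rw [h4]
    simp

/-- J0d -/
theorem jcR_pair (T : Finset τ) (a : ℕ) (e : Finset τ) (he : e ∈ T.powersetCard 2)
    (f : Finset τ → ℝ) (S : Finset τ) (hS : S ∈ JX T a) :
    cR (JX T a) (jKey e) f S = if (S ∩ e).card = 1 then (f S - f (symmDiff S e)) / 2 else 0 := by
  unfold cR
  rw [jcE_pair T a e he f S hS]
  split_ifs with h
  · ring
  · ring

/-- J0e: a general conversion: sum over 2-subsets = half the sum over ordered pairs. -/
theorem sum_powersetCard_two (T : Finset τ) (F : Finset τ → ℝ) :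
    ∑ x ∈ T, ∑ y ∈ T.erase x, F {x, y} = 2 * ∑ e ∈ T.powersetCard 2, F e := by
  -- count ordered pairs (x, e) with x ∈ e
  have h1 : ∀ x ∈ T, ∑ y ∈ T.erase x, F {x, y}
      = ∑ e ∈ (T.powersetCard 2).filter (fun e => x ∈ e), F e := by
    intro x hx
    refine Finset.sum_bij (fun y _ => ({x, y} : Finset τ)) ?_ ?_ ?_ ?_
    · intro y hy
      obtain ⟨hyx, hyT⟩ := Finset.mem_erase.mp hy
      refine Finset.mem_filter.mpr ⟨Finset.mem_powersetCard.mpr ⟨?_, Finset.card_pair (Ne.symm hyx)⟩, by simp⟩
      intro z hz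
      rcases Finset.mem_insert.mp hz with rfl | hz
      · exact hx
      · rw [Finset.mem_singleton.mp hz]; exact hyT
    · intro y hy y' hy' hEq
      obtain ⟨hyx, -⟩ := Finset.mem_erase.mp hy
      have : y ∈ ({x, y'} : Finset τ) := by rw [← hEq]; simp
      rcases Finset.mem_insert.mp this with h | h
      · exact absurd h hyx
      · exact Finset.mem_singleton.mp h
    · intro e he
      obtain ⟨he2, hxe⟩ := Finset.mem_filter.mp he
      obtain ⟨heT, hec⟩ := Finset.mem_powersetCard.mp he2
      obtain ⟨u, v, huv, rfl⟩ := Finset.card_eq_two.mp hec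
      rcases Finset.mem_insert.mp hxe with rfl | h
      · exact ⟨v, Finset.mem_erase.mpr ⟨Ne.symm huv, heT (by simp)⟩, rfl⟩
      · rw [Finset.mem_singleton] at h
        subst h
        exact ⟨u, Finset.mem_erase.mpr ⟨huv, heT (by simp)⟩, Finset.pair_comm _ _⟩
    · intro y _; rfl
  rw [Finset.sum_congr rfl h1]
  simp_rw [Finset.sum_filter]
  rw [Finset.sum_comm]
  rw [Finset.mul_sum]
  refine Finset.sum_congr rfl ?_
  intro e he
  obtain ⟨heT, hec⟩ := Finset.mem_powersetCard.mp he
  rw [← Finset.sum_filter]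
  have : T.filter (fun x => x ∈ e) = e := by
    ext z; simp only [mem_filter]; exact ⟨fun h => h.2, fun h => ⟨heT h, h⟩⟩
  rw [this, Finset.sum_const, hec]
  simp

end Crest.Agent.SW
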