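import Crest.Agent.SW_J0

/-!
# S0453: the abstract Johnson / Bernoulli-Laplace model.  Task J1a.   (overview: see `SW_Johnson.lean`)
-/

set_option autoImplicit false
open Finset

namespace Crest.Agent.SW

variable {τ : Type*} [DecidableEq τ]

private theorem j1a_mem_iff {A A' B : Finset τ} (h : A \ B = A' \ B) (p : τ) (hp : p ∉ B) :
    p ∈ A ↔ p ∈ A' := by
  have h1 : p ∈ A \ B ↔ p ∈ A' \ B := by rw [h]
  simp only [Finset.mem_sdiff] at h1
  tauto

/-- J1a: disjoint site sets: rectangle condition (hence commutation). -/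
theorem johnson_rect (T : Finset τ) (a : ℕ) (B B' : Finset τ) (h : Disjoint B B') :
    Rect (JX T a) (jKey B) (jKey B') := by
  classical
  intro x hx y₁ hy₁ y₂ hy₂ hk₁ hk₂
  have hd : ∀ p, p ∈ B → p ∉ B' := fun p hp hp' => (Finset.disjoint_left.mp h) hp hp'
  have e₁ : ∀ p, p ∉ B → (p ∈ y₁ ↔ p ∈ x) := j1a_mem_iff (by simpa [jKey] using hk₁)
  have e₂ : ∀ p, p ∉ B' → (p ∈ y₂ ↔ p ∈ x) := j1a_mem_iff (by simpa [jKey] using hk₂)
  obtain ⟨hxT, hxa⟩ := Finset.mem_powersetCard.mp hx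
  obtain ⟨hy₁T, hy₁a⟩ := Finset.mem_powersetCard.mp hy₁
  obtain ⟨hy₂T, hy₂a⟩ := Finset.mem_powersetCard.mp hy₂
  refine ⟨(y₁ ∩ B) ∪ (y₂ \ B), ⟨?_, ?_, ?_⟩, ?_⟩
  · -- membership in the state space
    refine Finset.mem_powersetCard.mpr ⟨?_, ?_⟩
    · intro p hp
      rcases Finset.mem_union.mp hp with hp | hp
      · exact hy₁T (Finset.mem_inter.mp hp).1
      · exact hy₂T (Finset.mem_sdiff.mp hp).1
    · have hdis : Disjoint (y₁ ∩ B) (y₂ \ B) := by
        rw [Finset.disjoint_left]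
        intro p hp hp'
        exact (Finset.mem_sdiff.mp hp').2 (Finset.mem_inter.mp hp).2
      rw [Finset.card_union_of_disjoint hdis]
      have c1 : (y₁ ∩ B).card + (y₁ \ B).card = y₁.card := Finset.card_inter_add_card_sdiff y₁ B
      have c2 : (y₂ ∩ B).card + (y₂ \ B).card = y₂.card := Finset.card_inter_add_card_sdiff y₂ B
      have c3 : (x ∩ B).card + (x \ B).card = x.card := Finset.card_inter_add_card_sdiff x B
      have s1 : y₁ \ B = x \ B := by simpa [jKey] using hk₁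
      have s2 : y₂ ∩ B = x ∩ B := by
        ext p
        simp only [Finset.mem_inter]
        constructor
        · rintro ⟨hp, hpB⟩
          exact ⟨(e₂ p (hd p hpB)).mp hp, hpB⟩
        · rintro ⟨hp, hpB⟩
          exact ⟨(e₂ p (hd p hpB)).mpr hp, hpB⟩
      rw [s1] at c1
      rw [s2] at c2
      omega
  · -- key `B'`
    show ((y₁ ∩ B) ∪ (y₂ \ B)) \ B' = y₁ \ B'
    ext p
    simp only [Finset.mem_sdiff, Finset.mem_union, Finset.mem_inter]
    by_cases hpB : p ∈ B
    · have := hd p hpB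
      tauto
    · by_cases hpB' : p ∈ B'
      · tauto
      · have h1 := e₁ p hpB
        have h2 := e₂ p hpB'
        tauto
  · -- key `B`
    show ((y₁ ∩ B) ∪ (y₂ \ B)) \ B = y₂ \ B
    ext p
    simp only [Finset.mem_sdiff, Finset.mem_union, Finset.mem_inter]
    tauto
  · -- uniqueness
    rintro z ⟨_, hz₁, hz₂⟩
    have f₁ : ∀ p, p ∉ B' → (p ∈ z ↔ p ∈ y₁) := j1a_mem_iff (by simpa [jKey] using hz₁)
    have f₂ : ∀ p, p ∉ B → (p ∈ z ↔ p ∈ y₂) := j1a_mem_iff (by simpa [jKey] using hz₂)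
    ext p
    simp only [Finset.mem_sdiff, Finset.mem_union, Finset.mem_inter]
    by_cases hpB : p ∈ B
    · have := f₁ p (hd p hpB)
      tauto
    · have := f₂ p hpB
      tauto

end Crest.Agent.SW
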