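import Crest.Agent.SW_J0

/-!
# S0453: the abstract Johnson / Bernoulli-Laplace model.  Task J1b.   (overview: see `SW_Johnson.lean`)
-/

set_option autoImplicit false
open Finset

namespace Crest.Agent.SW

variable {τ : Type*} [DecidableEq τ]

/-- Two distinct states of the same `jKey t`-fibre (`|t| = 3`) differ by a 2-subset of `t`. -/
private theorem j1b_pair (T : Finset τ) (a : ℕ) (t : Finset τ) (ht : t.card = 3)
    (S₁ S₂ : Finset τ) (h₁ : S₁ ∈ JX T a) (h₂ : S₂ ∈ JX T a) (hk : S₁ \ t = S₂ \ t)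
    (hne : S₂ ≠ S₁) :
    symmDiff S₁ S₂ ∈ t.powersetCard 2 ∧ (S₁ ∩ symmDiff S₁ S₂).card = 1 := by
  have c₁ : S₁.card = a := (Finset.mem_powersetCard.mp h₁).2
  have c₂ : S₂.card = a := (Finset.mem_powersetCard.mp h₂).2
  have hcomm : (S₁ \ S₂).card = (S₂ \ S₁).card := Finset.card_sdiff_comm (c₁.trans c₂.symm)
  have hsub : symmDiff S₁ S₂ ⊆ t := by
    intro x hx
    by_contra hxt
    rcases Finset.mem_symmDiff.mp hx with ⟨hx1, hx2⟩ | ⟨hx1, hx2⟩
    · have : x ∈ S₁ \ t := Finset.mem_sdiff.mpr ⟨hx1, hxt⟩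
      rw [hk] at this
      exact hx2 (Finset.mem_sdiff.mp this).1
    · have : x ∈ S₂ \ t := Finset.mem_sdiff.mpr ⟨hx1, hxt⟩
      rw [← hk] at this
      exact hx2 (Finset.mem_sdiff.mp this).1
  have hcard : (symmDiff S₁ S₂).card = (S₁ \ S₂).card + (S₂ \ S₁).card := by
    rw [symmDiff_def, Finset.sup_eq_union, Finset.card_union_of_disjoint]
    rw [Finset.disjoint_left]
    intro x hx hx'
    exact (Finset.mem_sdiff.mp hx).2 (Finset.mem_sdiff.mp hx').1
  have hle : (symmDiff S₁ S₂).card ≤ 3 := ht ▸ Finset.card_le_card hsub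
  have hpos : 0 < (S₁ \ S₂).card := by
    rw [Finset.card_pos]
    by_contra hemp
    rw [Finset.not_nonempty_iff_eq_empty] at hemp
    have hss : S₁ ⊆ S₂ := Finset.sdiff_eq_empty_iff_subset.mp hemp
    exact hne (Finset.eq_of_subset_of_card_le hss (by omega)).symm
  have hone : (S₁ \ S₂).card = 1 := by omega
  have hint : S₁ ∩ symmDiff S₁ S₂ = S₁ \ S₂ := by
    ext x
    simp only [Finset.mem_inter, Finset.mem_symmDiff, Finset.mem_sdiff]
    tauto
  refine ⟨Finset.mem_powersetCard.mpr ⟨hsub, by omega⟩, by rw [hint, hone]⟩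

/-- Variance of a finite family versus the sum of all squared differences. -/
private theorem j1b_var {ι : Type*} (Φ : Finset ι) (g : ι → ℝ) :
    ∑ x ∈ Φ, (g x - (∑ y ∈ Φ, g y) / (Φ.card : ℝ)) ^ 2
      ≤ (1 / 4) * ∑ x ∈ Φ, ∑ y ∈ Φ, (g x - g y) ^ 2 := by
  classical
  rcases Nat.lt_or_ge Φ.card 2 with hlt | hge
  · -- at most one element: both sides vanish
    have hsub : ∀ x ∈ Φ, ∀ y ∈ Φ, x = y := by
      have : Φ.card ≤ 1 := by omega
      exact Finset.card_le_one.mp this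
    have hL : ∑ x ∈ Φ, (g x - (∑ y ∈ Φ, g y) / (Φ.card : ℝ)) ^ 2 = 0 := by
      apply Finset.sum_eq_zero
      intro x hx
      have hΦ : Φ = {x} := by
        ext y
        simp only [Finset.mem_singleton]
        exact ⟨fun hy => hsub y hy x hx, fun hy => hy ▸ hx⟩
      rw [hΦ]
      simp
    rw [hL]
    exact mul_nonneg (by norm_num)
      (Finset.sum_nonneg fun _ _ => Finset.sum_nonneg fun _ _ => sq_nonneg _)
  · set N : ℝ := (Φ.card : ℝ) with hN
    have hN2 : (2 : ℝ) ≤ N := by rw [hN]; exact_mod_cast hge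
    have hN0 : N ≠ 0 := by linarith
    set s : ℝ := ∑ y ∈ Φ, g y with hs
    set q : ℝ := ∑ y ∈ Φ, g y ^ 2 with hq
    have hV : ∑ x ∈ Φ, ∑ y ∈ Φ, (g x - g y) ^ 2 = 2 * N * q - 2 * s ^ 2 := by
      have : ∀ x ∈ Φ, ∑ y ∈ Φ, (g x - g y) ^ 2 = N * g x ^ 2 - 2 * g x * s + q := by
        intro x _
        have : ∀ y ∈ Φ, (g x - g y) ^ 2 = g x ^ 2 - 2 * g x * g y + g y ^ 2 := by
          intro y _; ring
        rw [Finset.sum_congr rfl this, Finset.sum_add_distrib, Finset.sum_sub_distrib,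
          Finset.sum_const, ← Finset.mul_sum, nsmul_eq_mul]
      rw [Finset.sum_congr rfl this, Finset.sum_add_distrib, Finset.sum_sub_distrib,
        ← Finset.mul_sum, Finset.sum_const, nsmul_eq_mul]
      have : ∑ x ∈ Φ, 2 * g x * s = 2 * s * s := by
        rw [← Finset.sum_mul, ← Finset.mul_sum]
      rw [this]
      ring
    have hL : ∑ x ∈ Φ, (g x - s / N) ^ 2 = q - s ^ 2 / N := by
      have : ∀ x ∈ Φ, (g x - s / N) ^ 2 = g x ^ 2 - 2 * (s / N) * g x + (s / N) ^ 2 := by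
        intro x _; ring
      rw [Finset.sum_congr rfl this, Finset.sum_add_distrib, Finset.sum_sub_distrib,
        ← Finset.mul_sum, Finset.sum_const, nsmul_eq_mul]
      field_simp
      ring
    have hVnn : 0 ≤ 2 * N * q - 2 * s ^ 2 := by
      rw [← hV]
      exact Finset.sum_nonneg fun _ _ => Finset.sum_nonneg fun _ _ => sq_nonneg _
    rw [hL, hV]
    have hNpos : 0 < N := by linarith
    have : q - s ^ 2 / N = (2 * N * q - 2 * s ^ 2) / (2 * N) := by
      field_simp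
    rw [this, div_le_iff₀ (by positivity)]
    nlinarith

/-- J1b: three-site lemma.  A `jKey t`-fibre has 1 or 3 elements; on a 3-element fibre
`∑_e |R_e f|² = ∑_{i<j} (f_i - f_j)²/2 ≥ (1/3) ∑_{i<j} (f_i-f_j)² = |f - mean|²`. -/
theorem johnson_three (T : Finset τ) (a : ℕ) (t : Finset τ) (ht : t ∈ T.powersetCard 3)
    (f : Finset τ → ℝ) :
    nsq (JX T a) (cR (JX T a) (jKey t) f)
      ≤ ∑ e ∈ t.powersetCard 2, nsq (JX T a) (cR (JX T a) (jKey e) f) := by
  classical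
  obtain ⟨htT, ht3⟩ := Finset.mem_powersetCard.mp ht
  have hR : ∑ e ∈ t.powersetCard 2, nsq (JX T a) (cR (JX T a) (jKey e) f)
      = ∑ S ∈ JX T a, ∑ e ∈ t.powersetCard 2, (cR (JX T a) (jKey e) f S) ^ 2 := by
    unfold nsq
    rw [Finset.sum_comm]
  rw [hR]
  unfold nsq
  apply sum_le_sum_of_fibres (JX T a) (jKey t)
  intro S hS
  -- lower bound of the right-hand side, pointwise
  have h1 : ∀ S₁ ∈ fib (JX T a) (jKey t) S,
      (1 / 4) * ∑ S₂ ∈ fib (JX T a) (jKey t) S, (f S₁ - f S₂) ^ 2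
        ≤ ∑ e ∈ t.powersetCard 2, (cR (JX T a) (jKey e) f S₁) ^ 2 := by
    intro S₁ hS₁
    obtain ⟨hS₁X, hS₁k⟩ := mem_fib.mp hS₁
    have herase : ∑ S₂ ∈ fib (JX T a) (jKey t) S, (f S₁ - f S₂) ^ 2
        = ∑ S₂ ∈ (fib (JX T a) (jKey t) S).erase S₁, (f S₁ - f S₂) ^ 2 := by
      rw [← Finset.add_sum_erase _ _ hS₁]
      simp
    rw [herase, Finset.mul_sum]
    have hterm : ∀ S₂ ∈ (fib (JX T a) (jKey t) S).erase S₁,
        (1 / 4) * (f S₁ - f S₂) ^ 2
          = (fun e => (cR (JX T a) (jKey e) f S₁) ^ 2) (symmDiff S₁ S₂) := by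
      intro S₂ hS₂
      obtain ⟨hne, hS₂'⟩ := Finset.mem_erase.mp hS₂
      obtain ⟨hS₂X, hS₂k⟩ := mem_fib.mp hS₂'
      have hk : S₁ \ t = S₂ \ t := by
        have := hS₁k.trans hS₂k.symm
        simpa [jKey] using this
      obtain ⟨he, hc⟩ := j1b_pair T a t ht3 S₁ S₂ hS₁X hS₂X hk hne
      have heT : symmDiff S₁ S₂ ∈ T.powersetCard 2 := by
        obtain ⟨h1, h2⟩ := Finset.mem_powersetCard.mp he
        exact Finset.mem_powersetCard.mpr ⟨h1.trans htT, h2⟩
      simp only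
      rw [jcR_pair T a _ heT f S₁ hS₁X, if_pos hc, symmDiff_symmDiff_cancel_left]
      ring
    rw [Finset.sum_congr rfl hterm]
    rw [← Finset.sum_image (f := fun e => (cR (JX T a) (jKey e) f S₁) ^ 2)
      (g := fun S₂ => symmDiff S₁ S₂)
      (fun x _ y _ hxy => symmDiff_right_injective S₁ hxy)]
    apply Finset.sum_le_sum_of_subset_of_nonneg
    · intro e he
      obtain ⟨S₂, hS₂, rfl⟩ := Finset.mem_image.mp he
      obtain ⟨hne, hS₂'⟩ := Finset.mem_erase.mp hS₂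
      obtain ⟨hS₂X, hS₂k⟩ := mem_fib.mp hS₂'
      have hk : S₁ \ t = S₂ \ t := by
        have := hS₁k.trans hS₂k.symm
        simpa [jKey] using this
      exact (j1b_pair T a t ht3 S₁ S₂ hS₁X hS₂X hk hne).1
    · intro _ _ _
      exact sq_nonneg _
  -- the left-hand side is the variance on the fibre
  have h2 : ∑ S₁ ∈ fib (JX T a) (jKey t) S, (cR (JX T a) (jKey t) f S₁) ^ 2
      = ∑ S₁ ∈ fib (JX T a) (jKey t) S,
          (f S₁ - (∑ y ∈ fib (JX T a) (jKey t) S, f y)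
            / ((fib (JX T a) (jKey t) S).card : ℝ)) ^ 2 := by
    apply Finset.sum_congr rfl
    intro S₁ hS₁
    obtain ⟨_, hS₁k⟩ := mem_fib.mp hS₁
    unfold cR cE
    rw [fib_eq_of_key hS₁k]
  rw [h2]
  refine (j1b_var _ f).trans ?_
  rw [Finset.mul_sum]
  exact Finset.sum_le_sum h1

end Crest.Agent.SW
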