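import Crest.Agent.SW_J0

/-!
# S0453: the abstract Johnson / Bernoulli-Laplace model.  Task J1c.   (overview: see `SW_Johnson.lean`)
-/

set_option autoImplicit false
open Finset

namespace Crest.Agent.SW

variable {τ : Type*} [DecidableEq τ]

/-- J1c: a function invariant under all exchanges is constant. -/
theorem johnson_ker (T : Finset τ) (a : ℕ) (f : Finset τ → ℝ)
    (h : ∀ e ∈ T.powersetCard 2, ∀ S ∈ JX T a, cR (JX T a) (jKey e) f S = 0) :
    ∀ S ∈ JX T a, ∀ S' ∈ JX T a, f S = f S' := by
  have step : ∀ e ∈ T.powersetCard 2, ∀ S ∈ JX T a, (S ∩ e).card = 1 →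
      f S = f (symmDiff S e) := by
    intro e he S hS h1
    have h2 := h e he S hS
    rw [jcR_pair T a e he f S hS, if_pos h1] at h2
    linarith
  have main : ∀ m : ℕ, ∀ S ∈ JX T a, ∀ S' ∈ JX T a, (S \ S').card = m → f S = f S' := by
    intro m
    induction m using Nat.strong_induction_on with
    | _ m ih =>
      intro S hS S' hS' hm
      have hSc := (mem_powersetCard.1 hS)
      have hSc' := (mem_powersetCard.1 hS')
      by_cases h0 : S \ S' = ∅
      · have hsub : S ⊆ S' := Finset.sdiff_eq_empty_iff_subset.1 h0
        have hc : S'.card ≤ S.card := by rw [hSc.2, hSc'.2]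
        rw [Finset.eq_of_subset_of_card_le hsub hc]
      · obtain ⟨x, hx⟩ := Finset.nonempty_iff_ne_empty.2 h0
        have hcard : (S' \ S).card = (S \ S').card :=
          Finset.card_sdiff_comm (by rw [hSc.2, hSc'.2])
        have hpos : 0 < (S' \ S).card := by
          rw [hcard]; exact Finset.card_pos.2 ⟨x, hx⟩
        obtain ⟨y, hy⟩ := Finset.card_pos.1 hpos
        rw [Finset.mem_sdiff] at hx hy
        have hxy : x ≠ y := fun hh => hx.2 (hh ▸ hy.1)
        have he : ({x, y} : Finset τ) ∈ T.powersetCard 2 := by
          rw [mem_powersetCard]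
          refine ⟨?_, Finset.card_pair hxy⟩
          intro z hz
          rw [Finset.mem_insert, Finset.mem_singleton] at hz
          rcases hz with rfl | rfl
          · exact hSc.1 hx.1
          · exact hSc'.1 hy.1
        have hint : S ∩ {x, y} = {x} := by
          ext z
          simp only [Finset.mem_inter, Finset.mem_insert, Finset.mem_singleton]
          constructor
          · rintro ⟨hz, rfl | rfl⟩
            · rfl
            · exact absurd hz hy.2
          · rintro rfl
            exact ⟨hx.1, Or.inl rfl⟩
        have h1 : (S ∩ {x, y}).card = 1 := by rw [hint]; exact Finset.card_singleton x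
        have hS1 := (jfib_pair_of_split T a {x, y} he S hS h1).1
        rw [step {x, y} he S hS h1]
        have hsub : symmDiff S {x, y} \ S' ⊆ (S \ S').erase x := by
          intro z hz
          rw [Finset.mem_sdiff, Finset.mem_symmDiff] at hz
          rw [Finset.mem_erase, Finset.mem_sdiff]
          obtain ⟨hz1, hz2⟩ := hz
          rcases hz1 with ⟨hzS, hze⟩ | ⟨hze, hzS⟩
          · refine ⟨?_, hzS, hz2⟩
            rintro rfl
            exact hze (Finset.mem_insert_self _ _)
          · rw [Finset.mem_insert, Finset.mem_singleton] at hze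
            rcases hze with rfl | rfl
            · exact absurd hx.1 hzS
            · exact absurd hy.1 hz2
        have hlt : (symmDiff S {x, y} \ S').card < m := by
          calc (symmDiff S {x, y} \ S').card ≤ ((S \ S').erase x).card := Finset.card_le_card hsub
            _ < (S \ S').card := Finset.card_erase_lt_of_mem (Finset.mem_sdiff.2 hx)
            _ = m := hm
        exact ih _ hlt _ hS1 S' hS' rfl
  intro S hS S' hS'
  exact main _ S hS S' hS' rfl

end Crest.Agent.SW
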