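import Crest.Agent.SW_JW2

/-!
# S0453, W-lemma.  Task JW6: translation of the `cE / cR / jKey` expressions into `jB, jE`.
-/

set_option autoImplicit false
open Finset

namespace Crest.Agent.SW

variable {τ : Type*} [DecidableEq τ]

private theorem jw6_card_inter_pair (S : Finset τ) (x y : τ) (hxy : x ≠ y) :
    (S ∩ {x, y}).card = 1 ↔ (x ∈ S ∧ y ∉ S) ∨ (y ∈ S ∧ x ∉ S) := by
  by_cases hx : x ∈ S <;> by_cases hy : y ∈ S
  · have : S ∩ {x, y} = {x, y} := by
      ext z; simp only [mem_inter, mem_insert, mem_singleton]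
      constructor
      · exact fun h => h.2
      · rintro (rfl | rfl)
        · exact ⟨hx, Or.inl rfl⟩
        · exact ⟨hy, Or.inr rfl⟩
    rw [this, Finset.card_pair hxy]
    simp [hx, hy]
  · have : S ∩ {x, y} = {x} := by
      ext z; simp only [mem_inter, mem_insert, mem_singleton]
      constructor
      · rintro ⟨h1, (rfl | rfl)⟩
        · rfl
        · exact absurd h1 hy
      · rintro rfl
        exact ⟨hx, Or.inl rfl⟩
    rw [this]
    simp [hx, hy]
  · have : S ∩ {x, y} = {y} := by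
      ext z; simp only [mem_inter, mem_insert, mem_singleton]
      constructor
      · rintro ⟨h1, (rfl | rfl)⟩
        · exact absurd h1 hx
        · rfl
      · rintro rfl
        exact ⟨hy, Or.inr rfl⟩
    rw [this]
    simp [hx, hy]
  · have : S ∩ {x, y} = ∅ := by
      ext z; simp only [mem_inter, mem_insert, mem_singleton, notMem_empty, iff_false]
      rintro ⟨h1, (rfl | rfl)⟩
      · exact hx h1
      · exact hy h1
    rw [this]
    simp [hx, hy]

/-- the states split by `{x,y}` -/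
theorem jw_split_filter (T : Finset τ) (a : ℕ) (x y : τ) (hxy : x ≠ y) :
    (JX T a).filter (fun S => (S ∩ {x, y}).card = 1)
      = (JX T a).filter (fun S => x ∈ S ∧ y ∉ S) ∪ (JX T a).filter (fun S => y ∈ S ∧ x ∉ S) := by
  rw [← Finset.filter_or]
  refine Finset.filter_congr (fun S _ => ?_)
  exact jw6_card_inter_pair S x y hxy

private theorem jw6_disj (T : Finset τ) (a : ℕ) (x y : τ) :
    Disjoint ((JX T a).filter (fun S => x ∈ S ∧ y ∉ S))
      ((JX T a).filter (fun S => y ∈ S ∧ x ∉ S)) := by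
  rw [Finset.disjoint_left]
  intro S h1 h2
  exact (Finset.mem_filter.1 h2).2.2 (Finset.mem_filter.1 h1).2.1

/-- number of states with `x ∈ S, y ∉ S` -/
theorem jw_card_B (T : Finset τ) (a : ℕ) (ha : 1 ≤ a) (x y : τ) (hx : x ∈ T) (hy : y ∈ T) (hxy : x ≠ y) :
    ((JX T a).filter (fun S => x ∈ S ∧ y ∉ S)).card = (T.card - 2).choose (a - 1) := by
  obtain ⟨a', rfl⟩ : ∃ a', a = a' + 1 := ⟨a - 1, by omega⟩
  have h1 := jw_P1 T a' x y hx hxy (fun _ => (1 : ℝ))
  simp only [Finset.sum_const, nsmul_eq_mul, mul_one] at h1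
  have h2 : ((JX T (a' + 1)).filter (fun S => x ∈ S ∧ y ∉ S)).card
      = ((JX T a').filter (fun S₀ => x ∉ S₀ ∧ y ∉ S₀)).card := by exact_mod_cast h1
  rw [h2, jw_P3 T a' x y hx hy hxy]
  simp

/-- number of states split by `{x,y}` -/
theorem jw_card_split (T : Finset τ) (a : ℕ) (ha : 1 ≤ a) (x y : τ) (hx : x ∈ T) (hy : y ∈ T) (hxy : x ≠ y) :
    (((JX T a).filter (fun S => (S ∩ {x, y}).card = 1)).card : ℝ) = 2 * ((T.card - 2).choose (a - 1) : ℝ) := by
  rw [jw_split_filter T a x y hxy, Finset.card_union_of_disjoint (jw6_disj T a x y),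
    jw_card_B T a ha x y hx hy hxy, jw_card_B T a ha y x hy hx hxy.symm]
  push_cast
  ring

/-- global mean -/
theorem jw_cE_T (T : Finset τ) (a : ℕ) (f : Finset τ → ℝ) (S : Finset τ) (hS : S ∈ JX T a) :
    cE (JX T a) (jKey T) f S = (∑ S' ∈ JX T a, f S') / (T.card.choose a : ℝ) := by
  have hk : ∀ S' ∈ JX T a, jKey T S' = ∅ := by
    intro S' hS'
    have : S' ⊆ T := (Finset.mem_powersetCard.1 hS').1
    simp only [jKey]
    exact Finset.sdiff_eq_empty_iff_subset.2 this
  have hfib : fib (JX T a) (jKey T) S = JX T a := by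
    simp only [fib]
    refine Finset.filter_true_of_mem (fun S' hS' => ?_)
    rw [hk S' hS', hk S hS]
  simp only [cE, hfib]
  simp only [JX, Finset.card_powersetCard]

private theorem jw6_symmDiff (S : Finset τ) (x y : τ) (hxy : x ≠ y) (hx : x ∈ S) (hy : y ∉ S) :
    symmDiff S {x, y} = insert y (S.erase x) := by
  ext z
  simp only [Finset.mem_symmDiff, mem_insert, mem_singleton, mem_erase]
  constructor
  · rintro (⟨h1, h2⟩ | ⟨h1, h2⟩)
    · right
      exact ⟨fun h => h2 (Or.inl h), h1⟩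
    · rcases h1 with rfl | rfl
      · exact absurd hx h2
      · left; rfl
  · rintro (rfl | ⟨h1, h2⟩)
    · right
      exact ⟨Or.inr rfl, hy⟩
    · left
      refine ⟨h2, ?_⟩
      rintro (rfl | rfl)
      · exact h1 rfl
      · exact hy h2

private theorem jw6_pair_mem (T : Finset τ) (x y : τ) (hx : x ∈ T) (hy : y ∈ T) (hxy : x ≠ y) :
    ({x, y} : Finset τ) ∈ T.powersetCard 2 := by
  rw [Finset.mem_powersetCard]
  refine ⟨?_, Finset.card_pair hxy⟩
  intro z hz
  simp only [mem_insert, mem_singleton] at hz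
  rcases hz with rfl | rfl
  · exact hx
  · exact hy

/-- `S ↦ S ∆ {x,y}` exchanges the two halves of the split states. -/
private theorem jw6_sum_swap (T : Finset τ) (a : ℕ) (x y : τ) (hx : x ∈ T) (hy : y ∈ T) (hxy : x ≠ y)
    (g : Finset τ → ℝ) :
    ∑ S ∈ (JX T a).filter (fun S => x ∈ S ∧ y ∉ S), g (symmDiff S {x, y})
      = ∑ S ∈ (JX T a).filter (fun S => y ∈ S ∧ x ∉ S), g S := by
  have he := jw6_pair_mem T x y hx hy hxy
  refine Finset.sum_nbij' (fun S => symmDiff S {x, y}) (fun S => symmDiff S {x, y}) ?_ ?_ ?_ ?_ ?_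
  · intro S hS
    obtain ⟨hS1, hS2, hS3⟩ := Finset.mem_filter.1 hS
    have h1 : (S ∩ {x, y}).card = 1 := (jw6_card_inter_pair S x y hxy).2 (Or.inl ⟨hS2, hS3⟩)
    have := (jfib_pair_of_split T a {x, y} he S hS1 h1).1
    refine Finset.mem_filter.2 ⟨this, ?_, ?_⟩
    · rw [Finset.mem_symmDiff]
      right
      exact ⟨by simp, hS3⟩
    · rw [Finset.mem_symmDiff]
      rintro (⟨_, h⟩ | ⟨_, h⟩)
      · exact h (by simp)
      · exact h hS2
  · intro S hS
    obtain ⟨hS1, hS2, hS3⟩ := Finset.mem_filter.1 hS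
    have h1 : (S ∩ {x, y}).card = 1 := (jw6_card_inter_pair S x y hxy).2 (Or.inr ⟨hS2, hS3⟩)
    have := (jfib_pair_of_split T a {x, y} he S hS1 h1).1
    refine Finset.mem_filter.2 ⟨this, ?_, ?_⟩
    · rw [Finset.mem_symmDiff]
      right
      exact ⟨by simp, hS3⟩
    · rw [Finset.mem_symmDiff]
      rintro (⟨_, h⟩ | ⟨_, h⟩)
      · exact h (by simp)
      · exact h hS2
  · intro S _
    exact symmDiff_symmDiff_cancel_right _ _
  · intro S _
    exact symmDiff_symmDiff_cancel_right _ _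
  · intro S _
    rfl

/-- The `jKey (T \ e)`-fibre of a state with `x ∈ S, y ∉ S`. -/
private theorem jw6_fib (T : Finset τ) (a : ℕ) (x y : τ) (hx : x ∈ T) (hy : y ∈ T)
    (S : Finset τ) (hS : S ∈ JX T a) (h1 : x ∈ S) (h2 : y ∉ S) :
    fib (JX T a) (jKey (T \ {x, y})) S = (JX T a).filter (fun S' => x ∈ S' ∧ y ∉ S') := by
  simp only [fib]
  refine Finset.filter_congr (fun S' hS' => ?_)
  have hST : S ⊆ T := (Finset.mem_powersetCard.1 hS).1
  have hST' : S' ⊆ T := (Finset.mem_powersetCard.1 hS').1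
  simp only [jKey]
  constructor
  · intro h
    have hmem : ∀ z, z ∈ S' \ (T \ {x, y}) ↔ z ∈ S \ (T \ {x, y}) := fun z => by rw [h]
    constructor
    · have := (hmem x).2 (by simp [h1])
      exact (Finset.mem_sdiff.1 this).1
    · intro hy'
      have := (hmem y).1 (by simp [hy'])
      exact h2 (Finset.mem_sdiff.1 this).1
  · rintro ⟨h1', h2'⟩
    ext z
    simp only [mem_sdiff, mem_insert, mem_singleton, not_and, not_not]
    constructor
    · rintro ⟨hz, hz'⟩
      rcases hz' (hST' hz) with rfl | rfl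
      · exact ⟨h1, fun _ => Or.inl rfl⟩
      · exact absurd hz h2'
    · rintro ⟨hz, hz'⟩
      rcases hz' (hST hz) with rfl | rfl
      · exact ⟨h1', fun _ => Or.inl rfl⟩
      · exact absurd hz h2

private theorem jw6_cE_split_aux (T : Finset τ) (a : ℕ) (ha : 1 ≤ a) (x y : τ) (hx : x ∈ T) (hy : y ∈ T)
    (hxy : x ≠ y) (f : Finset τ → ℝ) (S : Finset τ) (hS : S ∈ JX T a) (h1 : x ∈ S) (h2 : y ∉ S) :
    cE (JX T a) (jKey (T \ {x, y})) (cE (JX T a) (jKey {x, y}) f) S
      = (jB T a f x y + jB T a f y x) / (2 * ((T.card - 2).choose (a - 1) : ℝ)) := by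
  have he := jw6_pair_mem T x y hx hy hxy
  have hsum : ∑ S' ∈ (JX T a).filter (fun S' => x ∈ S' ∧ y ∉ S'), cE (JX T a) (jKey {x, y}) f S'
      = (jB T a f x y + jB T a f y x) / 2 := by
    have : ∀ S' ∈ (JX T a).filter (fun S' => x ∈ S' ∧ y ∉ S'),
        cE (JX T a) (jKey {x, y}) f S' = (f S' + f (symmDiff S' {x, y})) / 2 := by
      intro S' hS'
      obtain ⟨hS1, hS2, hS3⟩ := Finset.mem_filter.1 hS'
      rw [jcE_pair T a {x, y} he f S' hS1,
        if_pos ((jw6_card_inter_pair S' x y hxy).2 (Or.inl ⟨hS2, hS3⟩))]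
    rw [Finset.sum_congr rfl this, ← Finset.sum_div, Finset.sum_add_distrib,
      jw6_sum_swap T a x y hx hy hxy f]
    rfl
  simp only [cE] at hsum ⊢
  rw [jw6_fib T a x y hx hy S hS h1 h2, hsum, jw_card_B T a ha x y hx hy hxy, div_div]

/-- The mean over the split states.  The `jKey (T \ e)`-fibre of `S` is `{S' | S' ∩ e = S ∩ e}`, i.e. `{x ∈ S', y ∉ S'}` or `{y ∈ S', x ∉ S'}`
(`n₁` elements); `cE (jKey e) f S' = (f S' + f (S' ∆ e))/2` (`jcE_pair`) and `S' ↦ S' ∆ e` exchanges the two sets. -/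
theorem jw_cE_split (T : Finset τ) (a : ℕ) (ha : 1 ≤ a) (x y : τ) (hx : x ∈ T) (hy : y ∈ T) (hxy : x ≠ y)
    (f : Finset τ → ℝ) (S : Finset τ) (hS : S ∈ JX T a) (h : (S ∩ {x, y}).card = 1) :
    cE (JX T a) (jKey (T \ {x, y})) (cE (JX T a) (jKey {x, y}) f) S
      = (jB T a f x y + jB T a f y x) / (2 * ((T.card - 2).choose (a - 1) : ℝ)) := by
  rcases (jw6_card_inter_pair S x y hxy).1 h with ⟨h1, h2⟩ | ⟨h1, h2⟩
  · exact jw6_cE_split_aux T a ha x y hx hy hxy f S hS h1 h2
  · have := jw6_cE_split_aux T a ha y x hy hx hxy.symm f S hS h1 h2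
    rw [Finset.pair_comm y x] at this
    rw [this, add_comm]

/-- the exchange energy (`jcR_pair`; for `x ∈ S, y ∉ S`: `S ∆ {x,y} = insert y (S.erase x)`). -/
theorem jw_nsq_cR (T : Finset τ) (a : ℕ) (x y : τ) (hx : x ∈ T) (hy : y ∈ T) (hxy : x ≠ y) (f : Finset τ → ℝ) :
    nsq (JX T a) (cR (JX T a) (jKey {x, y}) f) = (1 / 4 : ℝ) * (jE T a f x y + jE T a f y x) := by
  have he := jw6_pair_mem T x y hx hy hxy
  have h1 : nsq (JX T a) (cR (JX T a) (jKey {x, y}) f)
      = ∑ S ∈ (JX T a).filter (fun S => (S ∩ {x, y}).card = 1),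
          ((f S - f (symmDiff S {x, y})) / 2) ^ 2 := by
    simp only [nsq]
    rw [Finset.sum_filter]
    refine Finset.sum_congr rfl (fun S hS => ?_)
    rw [jcR_pair T a {x, y} he f S hS]
    split_ifs <;> simp
  rw [h1, jw_split_filter T a x y hxy, Finset.sum_union (jw6_disj T a x y)]
  have h2 : ∑ S ∈ (JX T a).filter (fun S => x ∈ S ∧ y ∉ S), ((f S - f (symmDiff S {x, y})) / 2) ^ 2
      = (1 / 4 : ℝ) * jE T a f x y := by
    simp only [jE, Finset.mul_sum]
    refine Finset.sum_congr rfl (fun S hS => ?_)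
    obtain ⟨_, hS2, hS3⟩ := Finset.mem_filter.1 hS
    rw [jw6_symmDiff S x y hxy hS2 hS3]
    ring
  have h3 : ∑ S ∈ (JX T a).filter (fun S => y ∈ S ∧ x ∉ S), ((f S - f (symmDiff S {x, y})) / 2) ^ 2
      = (1 / 4 : ℝ) * jE T a f y x := by
    simp only [jE, Finset.mul_sum]
    refine Finset.sum_congr rfl (fun S hS => ?_)
    obtain ⟨_, hS2, hS3⟩ := Finset.mem_filter.1 hS
    rw [Finset.pair_comm x y, jw6_symmDiff S y x hxy.symm hS2 hS3]
    ring
  rw [h2, h3]
  ring

end Crest.Agent.SW
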