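import Crest.Agent.SW_JW5
import Crest.Agent.SW_JW6

/-!
# S0453: the abstract Johnson / Bernoulli-Laplace model.  The W-lemma: assembly (owner helper26).
Plan and definitions: `SW_JWDefs.lean`.
-/

set_option autoImplicit false
open Finset

namespace Crest.Agent.SW

variable {τ : Type*} [DecidableEq τ]

private theorem jw_lhs_zero (T : Finset τ) (a : ℕ) (h : a = 0 ∨ T.card ≤ a) (e : Finset τ)
    (he : e ∈ T.powersetCard 2) : (JX T a).filter (fun S => (S ∩ e).card = 1) = ∅ := by
  rw [Finset.filter_eq_empty_iff]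
  intro S hS
  rw [JX, Finset.mem_powersetCard] at hS
  rw [Finset.mem_powersetCard] at he
  rcases h with h | h
  · have : S = ∅ := by
      rw [← Finset.card_eq_zero, hS.2, h]
    simp [this]
  · have : S = T := Finset.eq_of_subset_of_card_le hS.1 (by rw [hS.2]; exact h)
    rw [this, Finset.inter_eq_right.mpr he.1, he.2]
    norm_num

/-- J3/J4: the W-lemma.  For `|S ∩ e| = 1` the first term is the mean `m_e` of `f` over the states split by `e`,
the second is the global mean. -/
theorem johnson_W_abs (T : Finset τ) (a : ℕ) (f : Finset τ → ℝ) :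
    ∑ e ∈ T.powersetCard 2, ∑ S ∈ (JX T a).filter (fun S => (S ∩ e).card = 1),
        (cE (JX T a) (jKey (T \ e)) (cE (JX T a) (jKey e) f) S - cE (JX T a) (jKey T) f S) ^ 2
      ≤ ∑ e ∈ T.powersetCard 2, nsq (JX T a) (cR (JX T a) (jKey e) f) := by
  by_cases hdeg : a = 0 ∨ T.card ≤ a
  · have : ∑ e ∈ T.powersetCard 2, ∑ S ∈ (JX T a).filter (fun S => (S ∩ e).card = 1),
        (cE (JX T a) (jKey (T \ e)) (cE (JX T a) (jKey e) f) S - cE (JX T a) (jKey T) f S) ^ 2 = 0 := by
      refine Finset.sum_eq_zero (fun e he => ?_)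
      rw [jw_lhs_zero T a hdeg e he]
      simp
    rw [this]
    exact Finset.sum_nonneg (fun e _ => nsq_nonneg _ _)
  · rw [not_or, not_le] at hdeg
    have ha : 1 ≤ a := Nat.one_le_iff_ne_zero.mpr hdeg.1
    have hat : a < T.card := hdeg.2
    have h1 := sum_powersetCard_two T (fun e => ∑ S ∈ (JX T a).filter (fun S => (S ∩ e).card = 1),
        (cE (JX T a) (jKey (T \ e)) (cE (JX T a) (jKey e) f) S - cE (JX T a) (jKey T) f S) ^ 2)
    have h2 := sum_powersetCard_two T (fun e => nsq (JX T a) (cR (JX T a) (jKey e) f))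
    have h3 := jw_ordered T a ha hat f
    have e1 : ∑ x ∈ T, ∑ y ∈ T.erase x, ∑ S ∈ (JX T a).filter (fun S => (S ∩ {x, y}).card = 1),
        (cE (JX T a) (jKey (T \ {x, y})) (cE (JX T a) (jKey {x, y}) f) S - cE (JX T a) (jKey T) f S) ^ 2
        = ∑ x ∈ T, ∑ y ∈ T.erase x,
        (2 * ((T.card - 2).choose (a - 1) : ℝ)) *
          ((jB T a f x y + jB T a f y x) / (2 * ((T.card - 2).choose (a - 1) : ℝ))
            - (∑ S ∈ JX T a, f S) / (T.card.choose a : ℝ)) ^ 2 := by
      refine Finset.sum_congr rfl (fun x hx => Finset.sum_congr rfl (fun y hy => ?_))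
      have hy' := Finset.mem_erase.mp hy
      have hxy : x ≠ y := fun h => hy'.1 h.symm
      rw [← jw_card_split T a ha x y hx hy'.2 hxy, ← nsmul_eq_mul, ← Finset.sum_const]
      refine Finset.sum_congr rfl (fun S hS => ?_)
      have hS' := Finset.mem_filter.mp hS
      rw [jw_cE_split T a ha x y hx hy'.2 hxy f S hS'.1 hS'.2, jw_cE_T T a f S hS'.1,
        jw_card_split T a ha x y hx hy'.2 hxy]
    have e2 : ∑ x ∈ T, ∑ y ∈ T.erase x, nsq (JX T a) (cR (JX T a) (jKey {x, y}) f)
        = ∑ x ∈ T, ∑ y ∈ T.erase x, (1 / 2 : ℝ) * jE T a f x y := by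
      have : ∑ x ∈ T, ∑ y ∈ T.erase x, nsq (JX T a) (cR (JX T a) (jKey {x, y}) f)
          = ∑ x ∈ T, ∑ y ∈ T.erase x, (1 / 4 : ℝ) * (jE T a f x y + jE T a f y x) := by
        refine Finset.sum_congr rfl (fun x hx => Finset.sum_congr rfl (fun y hy => ?_))
        have hy' := Finset.mem_erase.mp hy
        exact jw_nsq_cR T a x y hx hy'.2 (fun h => hy'.1 h.symm) f
      rw [this]
      have sw := sum_erase_swap T (fun x y => jE T a f x y)
      simp only [mul_add, Finset.sum_add_distrib, ← Finset.mul_sum] at sw ⊢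
      rw [sw]
      ring
    rw [e1] at h1
    rw [e2] at h2
    linarith

end Crest.Agent.SW
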