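import Crest.Agent.SW_JWDefs

/-!
# S0453, W-lemma.  Task JW1: the variance identity and symmetry of ordered double sums.
-/

set_option autoImplicit false
open Finset

namespace Crest.Agent.SW

variable {τ : Type*} [DecidableEq τ]

/-- With `k = |K|`, `s = ∑ φ`, `q = ∑ φ²`: `∑_{x≠y} (k(φ x+φ y)-2s)² = 2k(k-2)(kq-s²)` and `∑_{x≠y} (φ x-φ y)² = 2(kq-s²)`. -/
theorem var_identity (K : Finset τ) (φ : τ → ℝ) :
    ∑ x ∈ K, ∑ y ∈ K.erase x, ((K.card : ℝ) * (φ x + φ y) - 2 * ∑ z ∈ K, φ z) ^ 2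
      = ((K.card : ℝ) - 2) * (K.card : ℝ) * ∑ x ∈ K, ∑ y ∈ K.erase x, (φ x - φ y) ^ 2 := by
  obtain ⟨k, hk⟩ : ∃ k : ℝ, (K.card : ℝ) = k := ⟨_, rfl⟩
  obtain ⟨s, hs⟩ : ∃ s : ℝ, ∑ z ∈ K, φ z = s := ⟨_, rfl⟩
  obtain ⟨q, hq⟩ : ∃ q : ℝ, ∑ z ∈ K, φ z ^ 2 = q := ⟨_, rfl⟩
  rw [hk, hs]
  have inner1 : ∀ x ∈ K, ∑ y ∈ K.erase x, (k * (φ x + φ y) - 2 * s) ^ 2
      = (k ^ 3 - 4 * k ^ 2) * φ x ^ 2 + (- 2 * k ^ 2 * s + 8 * k * s) * φ x
        + (k ^ 2 * q - 4 * s ^ 2) := by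
    intro x hx
    have h := Finset.add_sum_erase K (fun y => (k * (φ x + φ y) - 2 * s) ^ 2) hx
    have h2 : ∑ y ∈ K, (k * (φ x + φ y) - 2 * s) ^ 2
        = k * (k * φ x - 2 * s) ^ 2 + 2 * (k * φ x - 2 * s) * k * s + k ^ 2 * q := by
      have h3 : ∀ y, (k * (φ x + φ y) - 2 * s) ^ 2
          = (k * φ x - 2 * s) ^ 2 + (2 * (k * φ x - 2 * s) * k) * φ y + k ^ 2 * φ y ^ 2 := by
        intro y; ring
      simp only [h3, Finset.sum_add_distrib, ← Finset.mul_sum, Finset.sum_const, nsmul_eq_mul,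
        hk, hs, hq]

    linear_combination h + h2
  have inner2 : ∀ x ∈ K, ∑ y ∈ K.erase x, (φ x - φ y) ^ 2
      = k * φ x ^ 2 + (- 2 * s) * φ x + q := by
    intro x hx
    have h := Finset.add_sum_erase K (fun y => (φ x - φ y) ^ 2) hx
    have h2 : ∑ y ∈ K, (φ x - φ y) ^ 2 = k * φ x ^ 2 - 2 * φ x * s + q := by
      have h3 : ∀ y, (φ x - φ y) ^ 2 = φ x ^ 2 + (- 2 * φ x) * φ y + φ y ^ 2 := by
        intro y; ring
      simp only [h3, Finset.sum_add_distrib, ← Finset.mul_sum, Finset.sum_const, nsmul_eq_mul,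
        hk, hs, hq]
      ring

    linear_combination h + h2
  rw [Finset.sum_congr rfl inner1, Finset.sum_congr rfl inner2]
  simp only [Finset.sum_add_distrib, ← Finset.mul_sum, Finset.sum_const, nsmul_eq_mul, hk, hs, hq]
  ring

/-- ordered double sums are symmetric -/
theorem sum_erase_swap (T : Finset τ) (F : τ → τ → ℝ) :
    ∑ x ∈ T, ∑ y ∈ T.erase x, F y x = ∑ x ∈ T, ∑ y ∈ T.erase x, F x y := by
  refine Finset.sum_comm' ?_
  intro x y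
  simp only [Finset.mem_erase]
  constructor
  · rintro ⟨hx, hne, hy⟩
    exact ⟨⟨fun h => hne h.symm, hx⟩, hy⟩
  · rintro ⟨⟨hne, hx⟩, hy⟩
    exact ⟨hx, fun h => hne h.symm, hy⟩

end Crest.Agent.SW
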