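import Crest.Agent.SW_JWDefs

/-!
# S0453, W-lemma.  Task JW2: reparametrisations `S = insert x S₀`.
-/

set_option autoImplicit false
open Finset

namespace Crest.Agent.SW

variable {τ : Type*} [DecidableEq τ]

/-- P1: `S ↦ S.erase x` is a bijection `{S ∈ JX T (a+1) | x ∈ S, y ∉ S} → {S₀ ∈ JX T a | x ∉ S₀, y ∉ S₀}`. -/
theorem jw_P1 (T : Finset τ) (a : ℕ) (x y : τ) (hx : x ∈ T) (hxy : x ≠ y) (g : Finset τ → ℝ) :
    ∑ S ∈ (JX T (a + 1)).filter (fun S => x ∈ S ∧ y ∉ S), g S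
      = ∑ S₀ ∈ (JX T a).filter (fun S₀ => x ∉ S₀ ∧ y ∉ S₀), g (insert x S₀) := by
  refine Finset.sum_nbij' (fun S => S.erase x) (fun S₀ => insert x S₀) ?_ ?_ ?_ ?_ ?_
  · intro S hS
    simp only [JX, mem_filter, mem_powersetCard] at hS ⊢
    obtain ⟨⟨hST, hc⟩, hxS, hyS⟩ := hS
    refine ⟨⟨(erase_subset _ _).trans hST, ?_⟩, notMem_erase _ _, fun h => hyS (mem_of_mem_erase h)⟩
    rw [card_erase_of_mem hxS, hc]; rfl
  · intro S hS
    simp only [JX, mem_filter, mem_powersetCard] at hS ⊢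
    obtain ⟨⟨hST, hc⟩, hxS, hyS⟩ := hS
    refine ⟨⟨insert_subset hx hST, ?_⟩, mem_insert_self _ _, ?_⟩
    · rw [card_insert_of_notMem hxS, hc]
    · intro h
      rcases mem_insert.1 h with h | h
      · exact hxy h.symm
      · exact hyS h
  · intro S hS
    simp only [JX, mem_filter, mem_powersetCard] at hS
    exact insert_erase hS.2.1
  · intro S hS
    simp only [JX, mem_filter, mem_powersetCard] at hS
    exact erase_insert hS.2.1
  · intro S hS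
    simp only [JX, mem_filter, mem_powersetCard] at hS
    rw [insert_erase hS.2.1]

/-- P2: double counting of the pairs `(S₀, z)`, `S = insert z S₀`, `z ∈ S`: each `S` is hit `a+1` times. -/
theorem jw_P2 (T : Finset τ) (a : ℕ) (x y : τ) (g : Finset τ → ℝ) :
    ∑ S₀ ∈ (JX T a).filter (fun S₀ => x ∉ S₀ ∧ y ∉ S₀), ∑ z ∈ ((T \ S₀).erase x).erase y, g (insert z S₀)
      = ((a : ℝ) + 1) * ∑ S ∈ (JX T (a + 1)).filter (fun S => x ∉ S ∧ y ∉ S), g S := by
  have hR : ((a : ℝ) + 1) * ∑ S ∈ (JX T (a + 1)).filter (fun S => x ∉ S ∧ y ∉ S), g S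
      = ∑ S ∈ (JX T (a + 1)).filter (fun S => x ∉ S ∧ y ∉ S), ∑ _z ∈ S, g S := by
    rw [Finset.mul_sum]
    refine Finset.sum_congr rfl ?_
    intro S hS
    simp only [JX, mem_filter, mem_powersetCard] at hS
    rw [Finset.sum_const, hS.1.2, nsmul_eq_mul]
    push_cast
    ring
  rw [hR, Finset.sum_sigma', Finset.sum_sigma']
  refine Finset.sum_nbij' (fun p => ⟨insert p.2 p.1, p.2⟩) (fun p => ⟨p.1.erase p.2, p.2⟩)
    ?_ ?_ ?_ ?_ ?_
  · rintro ⟨S, z⟩ h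
    simp only [JX, mem_sigma, mem_filter, mem_powersetCard, mem_erase, mem_sdiff] at h ⊢
    obtain ⟨⟨⟨hST, hc⟩, hxS, hyS⟩, hzy, hzx, hzT, hzS⟩ := h
    refine ⟨⟨⟨insert_subset hzT hST, ?_⟩, ?_, ?_⟩, mem_insert_self _ _⟩
    · rw [card_insert_of_notMem hzS, hc]
    · intro h
      rcases mem_insert.1 h with h | h
      · exact hzx h.symm
      · exact hxS h
    · intro h
      rcases mem_insert.1 h with h | h
      · exact hzy h.symm
      · exact hyS h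
  · rintro ⟨S, z⟩ h
    simp only [JX, mem_sigma, mem_filter, mem_powersetCard, mem_erase, mem_sdiff] at h ⊢
    obtain ⟨⟨⟨hST, hc⟩, hxS, hyS⟩, hzS⟩ := h
    refine ⟨⟨⟨(erase_subset _ _).trans hST, ?_⟩, fun h => hxS h.2, fun h => hyS h.2⟩,
      ?_, ?_, hST hzS, fun h => h.1 rfl⟩
    · rw [card_erase_of_mem hzS, hc]; rfl
    · rintro rfl; exact hyS hzS
    · rintro rfl; exact hxS hzS
  · rintro ⟨S, z⟩ h
    simp only [JX, mem_sigma, mem_filter, mem_powersetCard, mem_erase, mem_sdiff] at h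
    obtain ⟨⟨⟨hST, hc⟩, hxS, hyS⟩, hzy, hzx, hzT, hzS⟩ := h
    simp only [erase_insert hzS]
  · rintro ⟨S, z⟩ h
    simp only [JX, mem_sigma, mem_filter, mem_powersetCard] at h
    obtain ⟨⟨⟨hST, hc⟩, hxS, hyS⟩, hzS⟩ := h
    simp only [insert_erase hzS]
  · rintro ⟨S, z⟩ _
    rfl

/-- P3: the filter is `powersetCard a ((T.erase x).erase y)`. -/
theorem jw_P3 (T : Finset τ) (a : ℕ) (x y : τ) (hx : x ∈ T) (hy : y ∈ T) (hxy : x ≠ y) :
    ((JX T a).filter (fun S₀ => x ∉ S₀ ∧ y ∉ S₀)).card = (T.card - 2).choose a := by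
  have h : (JX T a).filter (fun S₀ => x ∉ S₀ ∧ y ∉ S₀) = powersetCard a ((T.erase x).erase y) := by
    ext S
    simp only [JX, mem_filter, mem_powersetCard]
    constructor
    · rintro ⟨⟨hST, hc⟩, hxS, hyS⟩
      refine ⟨fun z hz => ?_, hc⟩
      refine mem_erase.2 ⟨?_, mem_erase.2 ⟨?_, hST hz⟩⟩
      · rintro rfl; exact hyS hz
      · rintro rfl; exact hxS hz
    · rintro ⟨hS, hc⟩
      refine ⟨⟨fun z hz => mem_of_mem_erase (mem_of_mem_erase (hS hz)), hc⟩, fun h => ?_, fun h => ?_⟩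
      · exact (mem_erase.1 (mem_of_mem_erase (hS h))).1 rfl
      · exact (mem_erase.1 (hS h)).1 rfl
  rw [h, card_powersetCard, card_erase_of_mem (mem_erase.2 ⟨hxy.symm, hy⟩), card_erase_of_mem hx]
  rfl

/-- P4: exchange of the order of summation. -/
theorem jw_P4 (T : Finset τ) (a : ℕ) (G : Finset τ → τ → τ → ℝ) :
    ∑ x ∈ T, ∑ y ∈ T.erase x, ∑ S₀ ∈ (JX T a).filter (fun S₀ => x ∉ S₀ ∧ y ∉ S₀), G S₀ x y
      = ∑ S₀ ∈ JX T a, ∑ x ∈ T \ S₀, ∑ y ∈ (T \ S₀).erase x, G S₀ x y := by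
  have hL : ∀ x ∈ T, ∑ y ∈ T.erase x, ∑ S₀ ∈ (JX T a).filter (fun S₀ => x ∉ S₀ ∧ y ∉ S₀), G S₀ x y
      = ∑ S₀ ∈ JX T a, ∑ y ∈ T.erase x, if x ∉ S₀ ∧ y ∉ S₀ then G S₀ x y else 0 := by
    intro x _
    rw [Finset.sum_comm]
    refine Finset.sum_congr rfl fun y _ => ?_
    rw [Finset.sum_filter]
  rw [Finset.sum_congr rfl hL, Finset.sum_comm]
  refine Finset.sum_congr rfl fun S _ => ?_
  have h1 : T \ S = T.filter (fun x => x ∉ S) := by
    ext z; simp
  rw [h1, Finset.sum_filter]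
  refine Finset.sum_congr rfl fun x _ => ?_
  by_cases hx : x ∈ S
  · simp [hx]
  · have h2 : (T.filter (fun x => x ∉ S)).erase x = (T.erase x).filter (fun y => y ∉ S) := by
      ext z; simp only [mem_erase, mem_filter]; tauto
    rw [if_pos hx, h2, Finset.sum_filter]
    refine Finset.sum_congr rfl fun y _ => ?_
    simp [hx]

end Crest.Agent.SW
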