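import Crest.Agent.SW_JW1
import Crest.Agent.SW_JW2

/-!
# S0453, W-lemma.  Task JW3: inequality (I0).
-/

set_option autoImplicit false
open Finset

namespace Crest.Agent.SW

variable {τ : Type*} [DecidableEq τ]

/-- the linear identity for a fixed ordered pair -/
private theorem jw3_lin (T : Finset τ) (a' : ℕ) (f : Finset τ → ℝ) (k : ℝ) (x y : τ)
    (hx : x ∈ T) (hy : y ∈ T) (hxy : x ≠ y) :
    ∑ S₀ ∈ (JX T a').filter (fun S₀ => x ∉ S₀ ∧ y ∉ S₀),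
        (k * (f (insert x S₀) + f (insert y S₀)) - 2 * ∑ z ∈ T \ S₀, f (insert z S₀))
      = (k - 2) * (jB T (a' + 1) f x y + jB T (a' + 1) f y x)
          - 2 * ((a' : ℝ) + 1) * jA0 T (a' + 1) f x y := by
  have h1 : jB T (a' + 1) f x y
      = ∑ S₀ ∈ (JX T a').filter (fun S₀ => x ∉ S₀ ∧ y ∉ S₀), f (insert x S₀) := by
    unfold jB
    exact jw_P1 T a' x y hx hxy f
  have h2 : jB T (a' + 1) f y x
      = ∑ S₀ ∈ (JX T a').filter (fun S₀ => x ∉ S₀ ∧ y ∉ S₀), f (insert y S₀) := by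
    unfold jB
    rw [jw_P1 T a' y x hy hxy.symm f]
    apply Finset.sum_congr _ (fun _ _ => rfl)
    apply Finset.filter_congr
    intro S _
    exact and_comm
  have h3 : ((a' : ℝ) + 1) * jA0 T (a' + 1) f x y
      = ∑ S₀ ∈ (JX T a').filter (fun S₀ => x ∉ S₀ ∧ y ∉ S₀),
          ∑ z ∈ ((T \ S₀).erase x).erase y, f (insert z S₀) := by
    unfold jA0
    exact (jw_P2 T a' x y f).symm
  have h4 : ∀ S₀ ∈ (JX T a').filter (fun S₀ => x ∉ S₀ ∧ y ∉ S₀),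
      ∑ z ∈ T \ S₀, f (insert z S₀)
        = f (insert x S₀) + f (insert y S₀)
          + ∑ z ∈ ((T \ S₀).erase x).erase y, f (insert z S₀) := by
    intro S₀ hS
    rw [Finset.mem_filter] at hS
    have hxK : x ∈ T \ S₀ := Finset.mem_sdiff.2 ⟨hx, hS.2.1⟩
    have hyK : y ∈ (T \ S₀).erase x :=
      Finset.mem_erase.2 ⟨hxy.symm, Finset.mem_sdiff.2 ⟨hy, hS.2.2⟩⟩
    rw [← Finset.add_sum_erase _ _ hxK, ← Finset.add_sum_erase _ _ hyK]
    ring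
  rw [Finset.sum_congr rfl (fun S₀ hS => by rw [h4 S₀ hS])]
  have h5 : 2 * ((a' : ℝ) + 1) * jA0 T (a' + 1) f x y
      = 2 * (((a' : ℝ) + 1) * jA0 T (a' + 1) f x y) := by ring
  rw [h5, h3, h1, h2, ← Finset.sum_add_distrib, Finset.mul_sum, Finset.mul_sum,
    ← Finset.sum_sub_distrib]
  apply Finset.sum_congr rfl
  intro S₀ _
  ring

/-- `jE` in terms of `S₀` -/
private theorem jw3_E (T : Finset τ) (a' : ℕ) (f : Finset τ → ℝ) (x y : τ)
    (hx : x ∈ T) (hxy : x ≠ y) :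
    jE T (a' + 1) f x y
      = ∑ S₀ ∈ (JX T a').filter (fun S₀ => x ∉ S₀ ∧ y ∉ S₀),
          (f (insert x S₀) - f (insert y S₀)) ^ 2 := by
  unfold jE
  rw [jw_P1 T a' x y hx hxy (fun S => (f S - f (insert y (S.erase x))) ^ 2)]
  apply Finset.sum_congr rfl
  intro S₀ hS
  rw [Finset.mem_filter] at hS
  rw [Finset.erase_insert hS.2.1]

/-- (I0).  Write `a = a'+1`.  For `S₀ ∈ JX T a'`: `K = T \ S₀`, `k = |K| = t - a' = b + 1`, `φ z = f (insert z S₀)`, `s S₀ = ∑_{z ∈ K} φ z`.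
For fixed `x ≠ y` in `T`, `Z = {S₀ | x,y ∉ S₀}` (`|Z| = n₁` by `jw_P3`):
`∑_{S₀ ∈ Z} (k (φ x + φ y) - 2 s S₀) = k (jB x y + jB y x) - 2 ((jB x y + jB y x) + a jA0 x y)` (`jw_P1` twice, `jw_P2`; split `x`, `y` off the sum over `K`),
which is `(b-1)(jB x y + jB y x) - 2 a jA0 x y`.  Cauchy-Schwarz (`sq_sum_le_card_mul_sum_sq`), sum over `(x,y)`, `jw_P4`, `var_identity`,
`jw_P4` backwards, and `jE x y = ∑_{S₀ ∈ Z} (φ x - φ y)²` (`jw_P1`, `erase_insert`). -/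
theorem jw_I0 (T : Finset τ) (a : ℕ) (ha : 1 ≤ a) (hat : a < T.card) (f : Finset τ → ℝ) :
    ∑ x ∈ T, ∑ y ∈ T.erase x,
        ((((T.card : ℝ) - a) - 1) * (jB T a f x y + jB T a f y x) - 2 * (a : ℝ) * jA0 T a f x y) ^ 2
      ≤ ((T.card - 2).choose (a - 1) : ℝ) * (((T.card : ℝ) - a) + 1) * (((T.card : ℝ) - a) - 1)
          * ∑ x ∈ T, ∑ y ∈ T.erase x, jE T a f x y := by
  obtain ⟨a', rfl⟩ : ∃ a', a = a' + 1 := ⟨a - 1, by omega⟩
  simp only [Nat.add_sub_cancel]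
  set k : ℝ := (T.card : ℝ) - a' with hk
  set n₁ : ℝ := ((T.card - 2).choose a' : ℝ) with hn
  -- the pointwise Cauchy-Schwarz bound
  have hCS : ∀ x ∈ T, ∀ y ∈ T.erase x,
      ((((T.card : ℝ) - ((a' + 1 : ℕ) : ℝ)) - 1) * (jB T (a' + 1) f x y + jB T (a' + 1) f y x)
          - 2 * ((a' + 1 : ℕ) : ℝ) * jA0 T (a' + 1) f x y) ^ 2
        ≤ n₁ * ∑ S₀ ∈ (JX T a').filter (fun S₀ => x ∉ S₀ ∧ y ∉ S₀),
          (k * (f (insert x S₀) + f (insert y S₀)) - 2 * ∑ z ∈ T \ S₀, f (insert z S₀)) ^ 2 := by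
    intro x hx y hy
    have hyT : y ∈ T := Finset.mem_of_mem_erase hy
    have hxy : x ≠ y := (Finset.ne_of_mem_erase hy).symm
    have hlin := jw3_lin T a' f k x y hx hyT hxy
    have hcast : (((T.card : ℝ) - ((a' + 1 : ℕ) : ℝ)) - 1) = k - 2 := by
      rw [hk]; push_cast; ring
    have hcast2 : ((a' + 1 : ℕ) : ℝ) = (a' : ℝ) + 1 := by push_cast; ring
    rw [hcast, hcast2, ← hlin, hn, ← jw_P3 T a' x y hx hyT hxy]
    exact sq_sum_le_card_mul_sum_sq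
  -- card of the complement
  have hcard : ∀ S₀ ∈ JX T a', (((T \ S₀).card : ℕ) : ℝ) = k := by
    intro S₀ hS
    unfold JX at hS
    rw [Finset.mem_powersetCard] at hS
    rw [Finset.card_sdiff_of_subset hS.1, hS.2, Nat.cast_sub (by omega)]
  calc _ ≤ ∑ x ∈ T, ∑ y ∈ T.erase x, n₁ * ∑ S₀ ∈ (JX T a').filter (fun S₀ => x ∉ S₀ ∧ y ∉ S₀),
          (k * (f (insert x S₀) + f (insert y S₀)) - 2 * ∑ z ∈ T \ S₀, f (insert z S₀)) ^ 2 :=
        Finset.sum_le_sum (fun x hx => Finset.sum_le_sum (fun y hy => hCS x hx y hy))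
    _ = n₁ * ∑ x ∈ T, ∑ y ∈ T.erase x, ∑ S₀ ∈ (JX T a').filter (fun S₀ => x ∉ S₀ ∧ y ∉ S₀),
          (k * (f (insert x S₀) + f (insert y S₀)) - 2 * ∑ z ∈ T \ S₀, f (insert z S₀)) ^ 2 := by
        simp only [Finset.mul_sum]
    _ = n₁ * ∑ S₀ ∈ JX T a', ∑ x ∈ T \ S₀, ∑ y ∈ (T \ S₀).erase x,
          (k * (f (insert x S₀) + f (insert y S₀)) - 2 * ∑ z ∈ T \ S₀, f (insert z S₀)) ^ 2 := by
        rw [jw_P4 T a' (fun S₀ x y =>
          (k * (f (insert x S₀) + f (insert y S₀)) - 2 * ∑ z ∈ T \ S₀, f (insert z S₀)) ^ 2)]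
    _ = n₁ * ∑ S₀ ∈ JX T a', ((k - 2) * k * ∑ x ∈ T \ S₀, ∑ y ∈ (T \ S₀).erase x,
          (f (insert x S₀) - f (insert y S₀)) ^ 2) := by
        congr 1
        apply Finset.sum_congr rfl
        intro S₀ hS
        have := var_identity (T \ S₀) (fun z => f (insert z S₀))
        rw [hcard S₀ hS] at this
        exact this
    _ = n₁ * ((k - 2) * k * ∑ x ∈ T, ∑ y ∈ T.erase x,
          ∑ S₀ ∈ (JX T a').filter (fun S₀ => x ∉ S₀ ∧ y ∉ S₀),
            (f (insert x S₀) - f (insert y S₀)) ^ 2) := by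
        rw [jw_P4 T a' (fun S₀ x y => (f (insert x S₀) - f (insert y S₀)) ^ 2),
          ← Finset.mul_sum]
    _ = n₁ * ((k - 2) * k * ∑ x ∈ T, ∑ y ∈ T.erase x, jE T (a' + 1) f x y) := by
        congr 2
        apply Finset.sum_congr rfl
        intro x hx
        apply Finset.sum_congr rfl
        intro y hy
        exact (jw3_E T a' f x y hx (Finset.ne_of_mem_erase hy).symm).symm
    _ = _ := by
        have e1 : ((T.card : ℝ) - ((a' + 1 : ℕ) : ℝ)) + 1 = k := by rw [hk]; push_cast; ring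
        have e2 : ((T.card : ℝ) - ((a' + 1 : ℕ) : ℝ)) - 1 = k - 2 := by rw [hk]; push_cast; ring
        rw [e1, e2]; ring

end Crest.Agent.SW
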