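import Crest.Agent.SW_JW3

/-!
# S0453, W-lemma.  Task JW4: inequality (I2) by complementation.
-/

set_option autoImplicit false
open Finset

namespace Crest.Agent.SW

variable {τ : Type*} [DecidableEq τ]

/-- `S ↦ T \ S` is a bijection `JX T a → JX T (t - a)`. -/
theorem jw_compl_sum (T : Finset τ) (a : ℕ) (hat : a ≤ T.card) (P : Finset τ → Prop) [DecidablePred P]
    (g : Finset τ → ℝ) :
    ∑ S' ∈ (JX T (T.card - a)).filter (fun S' => P (T \ S')), g (T \ S')
      = ∑ S ∈ (JX T a).filter P, g S := by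
  refine Finset.sum_nbij' (fun S' => T \ S') (fun S => T \ S) ?_ ?_ ?_ ?_ ?_
  · intro S' hS'
    simp only [JX, mem_filter, mem_powersetCard] at hS' ⊢
    obtain ⟨⟨hsub, hcard⟩, hP⟩ := hS'
    refine ⟨⟨sdiff_subset, ?_⟩, hP⟩
    rw [card_sdiff_of_subset hsub, hcard]; omega
  · intro S hS
    simp only [JX, mem_filter, mem_powersetCard] at hS ⊢
    obtain ⟨⟨hsub, hcard⟩, hP⟩ := hS
    refine ⟨⟨sdiff_subset, ?_⟩, ?_⟩
    · rw [card_sdiff_of_subset hsub, hcard]
    · rwa [Finset.sdiff_sdiff_eq_self hsub]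
  · intro S' hS'
    simp only [JX, mem_filter, mem_powersetCard] at hS'
    exact Finset.sdiff_sdiff_eq_self hS'.1.1
  · intro S hS
    simp only [JX, mem_filter, mem_powersetCard] at hS
    exact Finset.sdiff_sdiff_eq_self hS.1.1
  · intro S' _; rfl

theorem jB_compl (T : Finset τ) (a : ℕ) (hat : a ≤ T.card) (f : Finset τ → ℝ) (x y : τ) (hx : x ∈ T) (hy : y ∈ T) :
    jB T (T.card - a) (fun S => f (T \ S)) x y = jB T a f y x := by
  unfold jB
  rw [← jw_compl_sum T a hat (fun S => y ∈ S ∧ x ∉ S) f]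
  refine Finset.sum_congr (Finset.filter_congr ?_) (fun _ _ => rfl)
  intro S' _
  simp only [mem_sdiff, hx, hy, true_and, not_not]
  tauto

theorem jA0_compl (T : Finset τ) (a : ℕ) (hat : a ≤ T.card) (f : Finset τ → ℝ) (x y : τ) (hx : x ∈ T) (hy : y ∈ T) :
    jA0 T (T.card - a) (fun S => f (T \ S)) x y = jA2 T a f x y := by
  unfold jA0 jA2
  rw [← jw_compl_sum T a hat (fun S => x ∈ S ∧ y ∈ S) f]
  refine Finset.sum_congr (Finset.filter_congr ?_) (fun _ _ => rfl)
  intro S' _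
  simp only [mem_sdiff, hx, hy, true_and]

theorem jE_compl (T : Finset τ) (a : ℕ) (hat : a ≤ T.card) (f : Finset τ → ℝ) (x y : τ) (hx : x ∈ T) (hy : y ∈ T) :
    jE T (T.card - a) (fun S => f (T \ S)) x y = jE T a f y x := by
  unfold jE
  rw [← jw_compl_sum T a hat (fun S => y ∈ S ∧ x ∉ S) (fun S => (f S - f (insert x (S.erase y))) ^ 2)]
  refine Finset.sum_congr (Finset.filter_congr ?_) ?_
  · intro S' _
    simp only [mem_sdiff, hx, hy, true_and, not_not]
    tauto
  · intro S' hS'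
    simp only [mem_filter] at hS'
    obtain ⟨_, hxS, hyS⟩ := hS'
    have hxy : x ≠ y := fun h => hyS (h ▸ hxS)
    have : T \ insert y (S'.erase x) = insert x ((T \ S').erase y) := by
      ext z
      simp only [mem_sdiff, mem_insert, mem_erase]
      by_cases hzx : z = x
      · subst hzx
        simp [hx, hxy]
      · by_cases hzy : z = y
        · subst hzy
          simp [hzx]
        · simp [hzx, hzy]
    simp only [this]

/-- (I2) = (I0) for `(T, t - a, S ↦ f (T \ S))`; `C(t-2, t-a-1) = C(t-2, a-1)`; `sum_erase_swap`. -/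
theorem jw_I2 (T : Finset τ) (a : ℕ) (ha : 1 ≤ a) (hat : a < T.card) (f : Finset τ → ℝ) :
    ∑ x ∈ T, ∑ y ∈ T.erase x,
        (((a : ℝ) - 1) * (jB T a f x y + jB T a f y x) - 2 * ((T.card : ℝ) - a) * jA2 T a f x y) ^ 2
      ≤ ((T.card - 2).choose (a - 1) : ℝ) * ((a : ℝ) + 1) * ((a : ℝ) - 1)
          * ∑ x ∈ T, ∑ y ∈ T.erase x, jE T a f x y := by
  have h0 := jw_I0 T (T.card - a) (by omega) (by omega) (fun S => f (T \ S))
  have hcast : ((T.card - a : ℕ) : ℝ) = (T.card : ℝ) - a := Nat.cast_sub hat.le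
  have hch : (T.card - 2).choose (T.card - a - 1) = (T.card - 2).choose (a - 1) :=
    Nat.choose_symm_of_eq_add (by omega)
  rw [hch, hcast] at h0
  have hL : ∑ x ∈ T, ∑ y ∈ T.erase x,
        ((((T.card : ℝ) - ((T.card : ℝ) - a)) - 1) * (jB T (T.card - a) (fun S => f (T \ S)) x y
            + jB T (T.card - a) (fun S => f (T \ S)) y x)
          - 2 * ((T.card : ℝ) - a) * jA0 T (T.card - a) (fun S => f (T \ S)) x y) ^ 2
      = ∑ x ∈ T, ∑ y ∈ T.erase x,
        (((a : ℝ) - 1) * (jB T a f x y + jB T a f y x) - 2 * ((T.card : ℝ) - a) * jA2 T a f x y) ^ 2 := by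
    refine Finset.sum_congr rfl (fun x hx => Finset.sum_congr rfl (fun y hy => ?_))
    have hy' : y ∈ T := (mem_erase.mp hy).2
    rw [jB_compl T a hat.le f x y hx hy', jB_compl T a hat.le f y x hy' hx,
      jA0_compl T a hat.le f x y hx hy']
    ring
  have hR : ∑ x ∈ T, ∑ y ∈ T.erase x, jE T (T.card - a) (fun S => f (T \ S)) x y
      = ∑ x ∈ T, ∑ y ∈ T.erase x, jE T a f x y := by
    rw [← sum_erase_swap T (fun x y => jE T a f x y)]
    refine Finset.sum_congr rfl (fun x hx => Finset.sum_congr rfl (fun y hy => ?_))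
    have hy' : y ∈ T := (mem_erase.mp hy).2
    exact jE_compl T a hat.le f x y hx hy'
  rw [hL, hR] at h0
  have e1 : (T.card : ℝ) - ((T.card : ℝ) - a) = a := by ring
  rw [e1] at h0
  exact h0

end Crest.Agent.SW
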