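import Crest.Agent.SW_JW4

/-!
# S0453, W-lemma.  Task JW5: the W-lemma for ordered pairs.
-/

set_option autoImplicit false
open Finset

namespace Crest.Agent.SW

variable {τ : Type*} [DecidableEq τ]

/-- `C(t,a) a (t-a) = t (t-1) C(t-2,a-1)`. -/
theorem jw_choose (t a : ℕ) (ha : 1 ≤ a) (hat : a < t) :
    (t.choose a : ℝ) * a * ((t : ℝ) - a) = (t : ℝ) * ((t : ℝ) - 1) * ((t - 2).choose (a - 1) : ℝ) := by
  obtain ⟨c, rfl⟩ : ∃ c, a = c + 1 := ⟨a - 1, by omega⟩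
  obtain ⟨s, rfl⟩ : ∃ s, t = s + 2 := ⟨t - 2, by omega⟩
  have hcs : c ≤ s := by omega
  have h1 : ((s + 2 : ℕ) : ℝ) * ((s + 1).choose c : ℝ) = ((s + 2).choose (c + 1) : ℝ) * ((c + 1 : ℕ) : ℝ) := by
    exact_mod_cast Nat.add_one_mul_choose_eq (s + 1) c
  have h2 : (s.choose c : ℝ) * ((s + 1 : ℕ) : ℝ) = ((s + 1).choose c : ℝ) * ((s + 1 - c : ℕ) : ℝ) := by
    exact_mod_cast Nat.choose_mul_succ_eq s c
  have h3 : ((s + 1 - c : ℕ) : ℝ) = (s : ℝ) + 1 - c := by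
    rw [Nat.cast_sub (by omega)]; push_cast; ring
  rw [h3] at h2
  push_cast at h1 h2 ⊢
  have e1 : ((s : ℝ) + 2 - ((c : ℝ) + 1)) = (s : ℝ) + 1 - c := by ring
  rw [e1, ← h1]
  calc ((s : ℝ) + 2) * ((s + 1).choose c : ℝ) * ((s : ℝ) + 1 - c)
      = ((s : ℝ) + 2) * (((s + 1).choose c : ℝ) * ((s : ℝ) + 1 - c)) := by ring
    _ = ((s : ℝ) + 2) * ((s.choose c : ℝ) * ((s : ℝ) + 1)) := by rw [h2]
    _ = ((s : ℝ) + 2) * ((s : ℝ) + 2 - 1) * (s.choose c : ℝ) := by ring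

/-- partition of the states according to the sites `x, y`. -/
theorem jw_total (T : Finset τ) (a : ℕ) (f : Finset τ → ℝ) (x y : τ) :
    ∑ S ∈ JX T a, f S = jA0 T a f x y + (jB T a f x y + jB T a f y x) + jA2 T a f x y := by
  unfold jA0 jB jA2
  rw [← Finset.sum_filter_add_sum_filter_not (JX T a) (fun S => x ∈ S)]
  rw [← Finset.sum_filter_add_sum_filter_not ((JX T a).filter (fun S => x ∈ S)) (fun S => y ∈ S)]
  rw [← Finset.sum_filter_add_sum_filter_not ((JX T a).filter (fun S => ¬ x ∈ S)) (fun S => y ∈ S)]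
  simp only [Finset.filter_filter]
  have e : ∀ S : Finset τ, (y ∈ S ∧ x ∉ S) ↔ (x ∉ S ∧ y ∈ S) := fun S => and_comm
  simp only [e]
  ring

private theorem term_bound (A B n N A0 A1 A2 : ℝ) (hA : 1 ≤ A) (hB : 1 ≤ B) (hn : 0 < n)
    (hN : N * A * B = (A + B) * (A + B - 1) * n) :
    (2 * n) * (A1 / (2 * n) - (A0 + A1 + A2) / N) ^ 2
      ≤ (A ^ 2 + B ^ 2) / (2 * n * ((A + B) * (A + B - 1)) ^ 2)
          * (((B - 1) * A1 - 2 * A * A0) ^ 2 + ((A - 1) * A1 - 2 * B * A2) ^ 2) := by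
  have hA0 : 0 < A := by linarith
  have hB0 : 0 < B := by linarith
  have hT : 0 < (A + B) * (A + B - 1) := by
    apply mul_pos <;> linarith
  have hNe : N = (A + B) * (A + B - 1) * n / (A * B) := by
    field_simp
    linarith
  set u := (B - 1) * A1 - 2 * A * A0 with hu
  set v := (A - 1) * A1 - 2 * B * A2 with hv
  have hL : (2 * n) * (A1 / (2 * n) - (A0 + A1 + A2) / N) ^ 2
      = (B * u + A * v) ^ 2 / (2 * n * ((A + B) * (A + B - 1)) ^ 2) := by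
    rw [hNe, hu, hv]
    have h1 : A + B ≠ 0 := by positivity
    have h2 : A + B - 1 ≠ 0 := by
      have : 0 < A + B - 1 := by linarith
      exact this.ne'
    field_simp
    ring
  rw [hL, div_mul_eq_mul_div]
  apply div_le_div_of_nonneg_right _ (by positivity)
  nlinarith [sq_nonneg (A * u - B * v)]

private theorem const_bound (A B n : ℝ) (hA : 1 ≤ A) (hB : 1 ≤ B) (hn : 0 < n) :
    (A ^ 2 + B ^ 2) / (2 * n * ((A + B) * (A + B - 1)) ^ 2)
        * (n * (B + 1) * (B - 1) + n * (A + 1) * (A - 1)) ≤ 1 / 2 := by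
  have hT : 0 < (A + B) * (A + B - 1) := by
    apply mul_pos <;> linarith
  have h1 : A ^ 2 + B ^ 2 ≤ (A + B) * (A + B - 1) := by nlinarith
  have h2 : 0 ≤ A ^ 2 + B ^ 2 - 2 := by nlinarith
  have h3 : (A ^ 2 + B ^ 2) * (A ^ 2 + B ^ 2 - 2) ≤ ((A + B) * (A + B - 1)) ^ 2 := by
    nlinarith
  rw [div_mul_eq_mul_div, div_le_iff₀ (by positivity)]
  nlinarith

private theorem jE_nonneg' (T : Finset τ) (a : ℕ) (f : Finset τ → ℝ) (x y : τ) : 0 ≤ jE T a f x y := by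
  unfold jE
  exact Finset.sum_nonneg (fun _ _ => sq_nonneg _)

/-- With `n₁ = C(t-2,a-1)`, `N = C(t,a)`, `b = t-a`, `A1 = jB x y + jB y x`, `u = (b-1) A1 - 2 a jA0`, `v = (a-1) A1 - 2 b jA2`:
`N A1 - 2 n₁ ∑ f = n₁ (u/a + v/b)` (`jw_total`, `jw_choose`), so
`2 n₁ (A1/(2 n₁) - ∑ f/N)² = n₁ (b u + a v)² / (2 N² a² b²) ≤ n₁ (a²+b²)(u²+v²)/(2 N² a² b²)`;
sum, use `jw_I0`, `jw_I2`: `≤ n₁² (a²+b²)(a²+b²-2) ∑ jE /(2 N² a² b²) ≤ (1/2) ∑ jE` since `N a b = t(t-1) n₁ ≥ (a²+b²) n₁`. -/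
theorem jw_ordered (T : Finset τ) (a : ℕ) (ha : 1 ≤ a) (hat : a < T.card) (f : Finset τ → ℝ) :
    ∑ x ∈ T, ∑ y ∈ T.erase x,
        (2 * ((T.card - 2).choose (a - 1) : ℝ)) *
          ((jB T a f x y + jB T a f y x) / (2 * ((T.card - 2).choose (a - 1) : ℝ))
            - (∑ S ∈ JX T a, f S) / (T.card.choose a : ℝ)) ^ 2
      ≤ ∑ x ∈ T, ∑ y ∈ T.erase x, (1 / 2 : ℝ) * jE T a f x y := by
  have hA : (1 : ℝ) ≤ (a : ℝ) := by exact_mod_cast ha
  have hB : (1 : ℝ) ≤ (T.card : ℝ) - a := by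
    have : (a : ℝ) + 1 ≤ (T.card : ℝ) := by exact_mod_cast hat
    linarith
  have hn : (0 : ℝ) < ((T.card - 2).choose (a - 1) : ℝ) := by
    exact_mod_cast Nat.choose_pos (by omega)
  have hN := jw_choose T.card a ha hat
  generalize hBdef : (T.card : ℝ) - a = B at *
  generalize hAdef : (a : ℝ) = A at *
  generalize hndef : ((T.card - 2).choose (a - 1) : ℝ) = n at *
  generalize hNdef : (T.card.choose a : ℝ) = N at *
  have ht : (T.card : ℝ) = A + B := by linarith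
  rw [ht] at hN
  have I0 := jw_I0 T a ha hat f
  have I2 := jw_I2 T a ha hat f
  rw [hAdef, hBdef, hndef] at I0 I2
  set E := ∑ x ∈ T, ∑ y ∈ T.erase x, jE T a f x y with hE
  have hE0 : 0 ≤ E := Finset.sum_nonneg (fun x _ => Finset.sum_nonneg (fun y _ => jE_nonneg' T a f x y))
  set c := (A ^ 2 + B ^ 2) / (2 * n * ((A + B) * (A + B - 1)) ^ 2) with hc
  have hc0 : 0 ≤ c := by
    rw [hc]; positivity
  calc ∑ x ∈ T, ∑ y ∈ T.erase x,
        (2 * n) * ((jB T a f x y + jB T a f y x) / (2 * n) - (∑ S ∈ JX T a, f S) / N) ^ 2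
      ≤ ∑ x ∈ T, ∑ y ∈ T.erase x, c *
          (((B - 1) * (jB T a f x y + jB T a f y x) - 2 * A * jA0 T a f x y) ^ 2
            + ((A - 1) * (jB T a f x y + jB T a f y x) - 2 * B * jA2 T a f x y) ^ 2) := by
        apply Finset.sum_le_sum; intro x _
        apply Finset.sum_le_sum; intro y _
        rw [jw_total T a f x y]
        exact term_bound A B n N _ _ _ hA hB hn hN
    _ = c * (∑ x ∈ T, ∑ y ∈ T.erase x,
              ((B - 1) * (jB T a f x y + jB T a f y x) - 2 * A * jA0 T a f x y) ^ 2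
            + ∑ x ∈ T, ∑ y ∈ T.erase x,
              ((A - 1) * (jB T a f x y + jB T a f y x) - 2 * B * jA2 T a f x y) ^ 2) := by
        simp only [Finset.mul_sum, Finset.sum_add_distrib, mul_add]
    _ ≤ c * (n * (B + 1) * (B - 1) * E + n * (A + 1) * (A - 1) * E) := by
        apply mul_le_mul_of_nonneg_left _ hc0
        exact add_le_add I0 I2
    _ = (c * (n * (B + 1) * (B - 1) + n * (A + 1) * (A - 1))) * E := by ring
    _ ≤ (1 / 2) * E := by
        apply mul_le_mul_of_nonneg_right _ hE0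
        exact const_bound A B n hA hB hn
    _ = ∑ x ∈ T, ∑ y ∈ T.erase x, (1 / 2 : ℝ) * jE T a f x y := by
        rw [hE]; simp only [Finset.mul_sum]

end Crest.Agent.SW
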