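import Crest.Agent.SW_J0

/-!
# S0453: the W-lemma of the Johnson model (`johnson_W_abs`): definitions and plan.  FROZEN (owner helper26)

`X = JX T a` = `a`-subsets of `T`, `t = |T|`, `b = t - a`, `1 ≤ a < t`, `n₁ = C(t-2, a-1)`, `N = C(t,a)`.
For an ORDERED pair `x ≠ y` of sites:
* `jB x y`  = sum of `f` over the states with `x ∈ S, y ∉ S`   (there are `n₁` of them),
* `jA0 x y` = sum of `f` over the states with `x ∉ S, y ∉ S`,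
* `jA2 x y` = sum of `f` over the states with `x ∈ S, y ∈ S`,
* `jE x y`  = `∑_{x ∈ S, y ∉ S} (f S - f (S - x + y))²`.
All double sums are over ordered pairs: `∑ x ∈ T, ∑ y ∈ T.erase x`.

PLAN (elementary; no spectral theory).  Put `A1 = jB x y + jB y x`, `u = (b-1) A1 - 2 a jA0`, `v = (a-1) A1 - 2 b jA2`.
* (I0) `∑ u² ≤ n₁ (b+1)(b-1) ∑ jE`.   Fix an `(a-1)`-set `S₀`, `K = T \ S₀`, `k = |K| = b+1`, `φ z = f (insert z S₀)`, `s = ∑_K φ`.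
  `var_identity`: `∑_{x≠y∈K} (k(φ x+φ y) - 2 s)² = (k-2) k ∑_{x≠y∈K} (φ x-φ y)²`.
  For fixed `(x,y)`: `∑_{S₀ ∌ x,y} (k(φ x+φ y) - 2 s) = u`; Cauchy-Schwarz over the `n₁` sets `S₀`; sum over `(x,y)`; exchange the sums.
* (I2) `∑ v² ≤ n₁ (a+1)(a-1) ∑ jE` : (I0) for `S ↦ f (T \ S)` on `b`-subsets.
* `N a b = t (t-1) n₁`, hence `N A1 - 2 n₁ (A0 + A1 + A2) = n₁ (u/a + v/b)`, `(b u + a v)² ≤ (a²+b²)(u²+v²)`, `a²+b² ≤ t(t-1)`.
-/

set_option autoImplicit false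
open Finset

namespace Crest.Agent.SW

variable {τ : Type*} [DecidableEq τ]

def jB (T : Finset τ) (a : ℕ) (f : Finset τ → ℝ) (x y : τ) : ℝ :=
  ∑ S ∈ (JX T a).filter (fun S => x ∈ S ∧ y ∉ S), f S

def jA0 (T : Finset τ) (a : ℕ) (f : Finset τ → ℝ) (x y : τ) : ℝ :=
  ∑ S ∈ (JX T a).filter (fun S => x ∉ S ∧ y ∉ S), f S

def jA2 (T : Finset τ) (a : ℕ) (f : Finset τ → ℝ) (x y : τ) : ℝ :=
  ∑ S ∈ (JX T a).filter (fun S => x ∈ S ∧ y ∈ S), f S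

def jE (T : Finset τ) (a : ℕ) (f : Finset τ → ℝ) (x y : τ) : ℝ :=
  ∑ S ∈ (JX T a).filter (fun S => x ∈ S ∧ y ∉ S), (f S - f (insert y (S.erase x))) ^ 2

end Crest.Agent.SW
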