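import Crest.Agent.SW_Knabe
import Crest.Agent.SW_J1a
import Crest.Agent.SW_J1b
import Crest.Agent.SW_J1c
import Crest.Agent.SW_JW

/-!
# S0453: the abstract Johnson / Bernoulli-Laplace model (tasks J1 - J4)

States: `a`-subsets `S` of a finite set `T` (`t = |T|`).  Key `jKey B S = S \ B` ("resample the sites of `B`").
For `e = {x,y} ⊆ T`: the `jKey e`-fibre of `S` is `{S, τ_e S}` if `|S ∩ e| = 1` and `{S}` otherwise, so
`cR X (jKey e) f S = (f S - f (τ_e S)) / 2`.
-/

set_option autoImplicit false
open Finset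

namespace Crest.Agent.SW

variable {τ : Type*} [DecidableEq τ]

/-- J2: Bernoulli-Laplace gap (constant 1 is enough; the truth is `t/2`).  `generic_knabe`. -/
theorem johnson_gap (T : Finset τ) (a : ℕ) (f : Finset τ → ℝ) :
    nsq (JX T a) (cR (JX T a) (jKey T) f)
      ≤ ∑ e ∈ T.powersetCard 2, nsq (JX T a) (cR (JX T a) (jKey e) f) := by
  classical
  -- on `JX T a` the key `jKey T` is trivial
  have hkey : ∀ S ∈ JX T a, jKey T S = ∅ := by
    intro S hS
    have hST : S ⊆ T := (Finset.mem_powersetCard.mp hS).1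
    exact Finset.sdiff_eq_empty_iff_subset.mpr hST
  have hfib : ∀ S ∈ JX T a, fib (JX T a) (jKey T) S = fib (JX T a) (fun _ => ()) S := by
    intro S hS
    ext S'
    simp only [mem_fib]
    constructor
    · rintro ⟨h, _⟩
      exact ⟨h, trivial⟩
    · rintro ⟨h, _⟩
      exact ⟨h, by rw [hkey S' h, hkey S hS]⟩
  have hL : nsq (JX T a) (cR (JX T a) (jKey T) f)
      = nsq (JX T a) (cR (JX T a) (fun _ => ()) f) := by
    unfold nsq
    refine Finset.sum_congr rfl (fun S hS => ?_)
    simp only [cR, cE, hfib S hS]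
  rw [hL]
  refine generic_knabe (JX T a) T (fun K => jKey K) ?_ ?_ ?_ ?_ f
  · -- monotonicity of the keys
    intro t _ p hp x _ y _ hxy
    have hpt : p ⊆ t := (Finset.mem_powersetCard.mp hp).1
    have hx : ∀ z : Finset τ, jKey t z = jKey p z \ t := by
      intro z
      ext w
      simp only [jKey, Finset.mem_sdiff]
      constructor
      · rintro ⟨h1, h2⟩
        exact ⟨⟨h1, fun h => h2 (hpt h)⟩, h2⟩
      · rintro ⟨⟨h1, _⟩, h2⟩
        exact ⟨h1, h2⟩
    show jKey t x = jKey t y
    rw [hx x, hx y]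
    have hxy' : jKey p x = jKey p y := hxy
    rw [hxy']
  · intro t ht g
    exact johnson_three T a t ht g
  · intro g
    refine Finset.sum_nonneg (fun p _ => Finset.sum_nonneg (fun p' hp' => ?_))
    have hd : Disjoint p p' := (Finset.mem_filter.mp hp').2
    exact ip_cR_cR_nonneg_of_comm
      (fun g' x hx => cE_comm_of_rect (johnson_rect T a p p' hd) g' hx) g
  · intro g hg
    exact johnson_ker T a g hg

end Crest.Agent.SW
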