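import Crest.Agent.SW_Gen

/-!
# S0453: the generic Knabe / Caputo argument.  Task K2a.   (overview: see `SW_Knabe.lean`)
-/

set_option autoImplicit false
open Finset

namespace Crest.Agent.SW

variable {α β ν : Type*} [DecidableEq β] [DecidableEq ν]

private theorem inner_split (V : Finset ν) (F : Finset ν → Finset ν → ℝ) (p : Finset ν)
    (hp : p ∈ V.powersetCard 2) :
    ∑ p' ∈ V.powersetCard 2, F p p'
      = F p p + ∑ p' ∈ (V.powersetCard 2).filter (fun p' => p' ≠ p ∧ ¬ Disjoint p p'), F p p'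
        + ∑ p' ∈ (V.powersetCard 2).filter (fun p' => Disjoint p p'), F p p' := by
  rw [← Finset.sum_filter_add_sum_filter_not (V.powersetCard 2) (fun p' => Disjoint p p')]
  rw [add_comm]
  congr 1
  have hpmem : p ∈ (V.powersetCard 2).filter (fun p' => ¬ Disjoint p p') := by
    rw [mem_filter]
    refine ⟨hp, ?_⟩
    intro h
    have h0 : p = ∅ := (Finset.disjoint_self_iff_empty p).1 h
    have hc := (mem_powersetCard.1 hp).2
    rw [h0] at hc
    simp at hc
  rw [← Finset.add_sum_erase _ _ hpmem]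
  congr 1
  apply Finset.sum_congr _ (fun _ _ => rfl)
  ext p'
  simp only [mem_erase, mem_filter]
  tauto

private theorem card_union_two {p p' : Finset ν} (hp : p.card = 2) (hp' : p'.card = 2)
    (hne : p' ≠ p) (hnd : ¬ Disjoint p p') : (p ∪ p').card = 3 := by
  have h1 := Finset.card_union_add_card_inter p p'
  have h2 : 1 ≤ (p ∩ p').card := by
    rw [Nat.succ_le_iff, Finset.card_pos]
    exact Finset.not_disjoint_iff_nonempty_inter.1 hnd
  have h3 : (p ∩ p').card < 2 := by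
    by_contra hcon
    rw [not_lt] at hcon
    have hsub : p ∩ p' ⊆ p := Finset.inter_subset_left
    have hsub' : p ∩ p' ⊆ p' := Finset.inter_subset_right
    have e1 : p ∩ p' = p := Finset.eq_of_subset_of_card_le hsub (by omega)
    have e2 : p ∩ p' = p' := Finset.eq_of_subset_of_card_le hsub' (by omega)
    exact hne (e2.symm.trans e1)
  omega

private theorem union_eq_of_sub {t p p' : Finset ν} (ht : t.card = 3) (hp : p.card = 2)
    (hp' : p'.card = 2) (hpt : p ⊆ t) (hpt' : p' ⊆ t) (hne : p' ≠ p) :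
    p ∪ p' = t ∧ ¬ Disjoint p p' := by
  have hsub : p ∪ p' ⊆ t := Finset.union_subset hpt hpt'
  have hle : (p ∪ p').card ≤ 3 := ht ▸ Finset.card_le_card hsub
  have h1 := Finset.card_union_add_card_inter p p'
  have hnd : ¬ Disjoint p p' := by
    intro hd
    have := Finset.card_union_of_disjoint hd
    omega
  refine ⟨?_, hnd⟩
  apply Finset.eq_of_subset_of_card_le hsub
  rw [card_union_two hp hp' hne hnd, ht]

private theorem middle (V : Finset ν) (F : Finset ν → Finset ν → ℝ) :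
    ∑ p ∈ V.powersetCard 2,
        ∑ p' ∈ (V.powersetCard 2).filter (fun p' => p' ≠ p ∧ ¬ Disjoint p p'), F p p'
      = ∑ t ∈ V.powersetCard 3, ∑ p ∈ t.powersetCard 2,
          ∑ p' ∈ (t.powersetCard 2).erase p, F p p' := by
  have hR : ∀ t ∈ V.powersetCard 3, ∑ p ∈ t.powersetCard 2,
      ∑ p' ∈ (t.powersetCard 2).erase p, F p p'
      = ∑ y ∈ (t.powersetCard 2).sigma (fun p => (t.powersetCard 2).erase p), F y.1 y.2 :=
    fun t _ => Finset.sum_sigma' _ _ _
  rw [Finset.sum_congr rfl hR, Finset.sum_sigma', Finset.sum_sigma']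
  refine Finset.sum_nbij'
    (fun x => (⟨x.1 ∪ x.2, ⟨x.1, x.2⟩⟩ : Σ _ : Finset ν, Σ _ : Finset ν, Finset ν))
    (fun y => (⟨y.2.1, y.2.2⟩ : Σ _ : Finset ν, Finset ν)) ?_ ?_ ?_ ?_ ?_
  · rintro ⟨p, p'⟩ hx
    simp only [mem_sigma, mem_filter, mem_powersetCard, mem_erase] at hx ⊢
    obtain ⟨⟨hpV, hpc⟩, ⟨hpV', hpc'⟩, hne, hnd⟩ := hx
    exact ⟨⟨Finset.union_subset hpV hpV', card_union_two hpc hpc' hne hnd⟩,
      ⟨Finset.subset_union_left, hpc⟩, hne, Finset.subset_union_right, hpc'⟩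
  · rintro ⟨t, p, p'⟩ hy
    simp only [mem_sigma, mem_filter, mem_powersetCard, mem_erase] at hy ⊢
    obtain ⟨⟨htV, htc⟩, ⟨hpt, hpc⟩, hne, hpt', hpc'⟩ := hy
    exact ⟨⟨hpt.trans htV, hpc⟩, ⟨hpt'.trans htV, hpc'⟩, hne,
      (union_eq_of_sub htc hpc hpc' hpt hpt' hne).2⟩
  · rintro ⟨p, p'⟩ _
    rfl
  · rintro ⟨t, p, p'⟩ hy
    simp only [mem_sigma, mem_powersetCard, mem_erase] at hy
    obtain ⟨⟨htV, htc⟩, ⟨hpt, hpc⟩, hne, hpt', hpc'⟩ := hy
    have := (union_eq_of_sub htc hpc hpc' hpt hpt' hne).1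
    simp only [this]
  · rintro ⟨p, p'⟩ _
    rfl

/-- K2a (pure combinatorics of 2-subsets).  Splitting of a double sum over pairs of 2-subsets. -/
theorem sum_pairs_split (V : Finset ν) (F : Finset ν → Finset ν → ℝ) :
    ∑ p ∈ V.powersetCard 2, ∑ p' ∈ V.powersetCard 2, F p p'
      = ∑ p ∈ V.powersetCard 2, F p p
        + ∑ t ∈ V.powersetCard 3, ∑ p ∈ t.powersetCard 2, ∑ p' ∈ (t.powersetCard 2).erase p, F p p'
        + ∑ p ∈ V.powersetCard 2, ∑ p' ∈ (V.powersetCard 2).filter (fun p' => Disjoint p p'), F p p' := by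
  rw [Finset.sum_congr rfl (inner_split V F), Finset.sum_add_distrib, Finset.sum_add_distrib,
    middle]

end Crest.Agent.SW
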