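import Crest.Agent.SW_Gen

/-!
# S0453: the generic Knabe / Caputo argument.  Task K3.   (overview: see `SW_Knabe.lean`)
-/

set_option autoImplicit false
open Finset

namespace Crest.Agent.SW

variable {α β ν : Type*} [DecidableEq β] [DecidableEq ν]

/-- Abstract form: `T` symmetric, `0 ≤ T ≤ T²`; then `|f - f₀|² ≤ ⟨f, T f⟩` for the component `f₀`
of `f` in `ker T`.  (`f - f₀ = T g`; positivity at `g - T g` gives `a₁ - 2 a₂ + a₃ ≥ 0`, and
`a₁ ≤ a₂`, so `a₂ ≤ a₃`.) -/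
private theorem abstract_gap {E : Type*} [NormedAddCommGroup E] [InnerProductSpace ℝ E]
    [FiniteDimensional ℝ E]
    (T : E →ₗ[ℝ] E) (hT : T.IsSymmetric)
    (hpos : ∀ v, 0 ≤ inner ℝ v (T v)) (hsq : ∀ v, inner ℝ v (T v) ≤ inner ℝ (T v) (T v)) (f : E) :
    ∃ f₀, T f₀ = 0 ∧ inner ℝ (f - f₀) (f - f₀) ≤ inner ℝ f (T f) := by
  obtain ⟨y, hy, z, hz, rfl⟩ := (LinearMap.ker T).exists_add_mem_mem_orthogonal f
  have hr : (LinearMap.ker T)ᗮ = LinearMap.range T := by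
    rw [LinearMap.orthogonal_ker, hT.adjoint_eq]
  rw [hr] at hz
  obtain ⟨g, rfl⟩ := hz
  have hy0 : T y = 0 := hy
  refine ⟨y, hy0, ?_⟩
  have h1 := hpos (g - T g)
  have h2 := hsq g
  have h3 : inner ℝ g (T (T g)) = inner ℝ (T g) (T g) := (hT g (T g)).symm
  have h4 : inner ℝ y (T (T g)) = 0 := by
    rw [← hT y (T g), hy0, inner_zero_left]
  simp only [map_sub, map_add, inner_sub_left, inner_sub_right, inner_add_left,
    hy0, add_sub_cancel_left, zero_add, h3, h4] at h1 ⊢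
  linarith

private theorem matrix_gap {ι : Type*} [Fintype ι] [DecidableEq ι] (K : Matrix ι ι ℝ)
    (hK : ∀ i j, K i j = K j i)
    (hpos : ∀ v : ι → ℝ, 0 ≤ ∑ i, v i * ∑ j, K i j * v j)
    (hsq : ∀ v : ι → ℝ, ∑ i, v i * ∑ j, K i j * v j ≤ ∑ i, (∑ j, K i j * v j) ^ 2)
    (f : ι → ℝ) :
    ∃ f₀ : ι → ℝ, (∀ i, ∑ j, K i j * f₀ j = 0) ∧
      ∑ i, (f i - f₀ i) ^ 2 ≤ ∑ i, f i * ∑ j, K i j * f j := by
  have hH : K.IsHermitian := by
    ext i j
    simp [Matrix.conjTranspose_apply, hK j i]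
  have hT := Matrix.isSymmetric_toEuclideanLin_iff.2 hH
  have key : ∀ u v : EuclideanSpace ℝ ι, inner ℝ u v = ∑ i, u i * v i := by
    intro u v
    simp [PiLp.inner_apply, mul_comm]
  have hTa : ∀ (v : EuclideanSpace ℝ ι) i, (Matrix.toEuclideanLin K v) i = ∑ j, K i j * v j := by
    intro v i
    simp [Matrix.toLpLin_apply, Matrix.mulVec, dotProduct]
  obtain ⟨f₀, h0, h1⟩ := abstract_gap (Matrix.toEuclideanLin K) hT
    (fun v => by rw [key]; simpa only [hTa] using hpos v)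
    (fun v => by rw [key, key]; simpa only [hTa, sq] using hsq v) (WithLp.toLp 2 f)
  refine ⟨f₀, fun i => ?_, ?_⟩
  · rw [← hTa, h0]; rfl
  · rw [key, key] at h1
    simpa only [hTa, sq, PiLp.sub_apply] using h1

/-- The mean minimises the squared distance to the constants. -/
private theorem nsq_cR_unit_le (X : Finset α) (f : α → ℝ) (c : ℝ) :
    nsq X (cR X (fun _ => ()) f) ≤ ∑ x ∈ X, (f x - c) ^ 2 := by
  rcases X.eq_empty_or_nonempty with rfl | hX
  · simp [nsq]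
  have hcard : (0 : ℝ) < (X.card : ℝ) := by exact_mod_cast hX.card_pos
  set m : ℝ := (∑ y ∈ X, f y) / (X.card : ℝ) with hm
  have hfib : ∀ x, fib X (fun _ => ()) x = X := by
    intro x; simp [fib]
  have h1 : nsq X (cR X (fun _ => ()) f) = ∑ x ∈ X, (f x - m) ^ 2 := by
    simp only [nsq, cR, cE, hfib, hm]
  have hsum : ∑ y ∈ X, f y = (X.card : ℝ) * m := by
    rw [hm]; field_simp
  have h2 : ∑ x ∈ X, (f x - c) ^ 2 = ∑ x ∈ X, (f x - m) ^ 2 + (X.card : ℝ) * (m - c) ^ 2 := by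
    have : ∀ x ∈ X, (f x - c) ^ 2 = (f x - m) ^ 2 + (2 * (m - c) * f x + (c ^ 2 - m ^ 2)) := by
      intro x _; ring
    rw [Finset.sum_congr rfl this, Finset.sum_add_distrib, Finset.sum_add_distrib,
      ← Finset.mul_sum, hsum, Finset.sum_const, nsmul_eq_mul]
    ring
  rw [h1, h2]
  have := mul_nonneg hcard.le (sq_nonneg (m - c))
  linarith

/-- K3 (abstract; no spectral theorem needed).  `T` is given by a symmetric kernel on `X`.
Write `f - mean = T g + c` (range of a symmetric operator = orthogonal complement of its kernel,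
kernel = constants); with `a_k = ⟨g, T^k g⟩`: Cauchy-Schwarz for the positive form `⟨·,T·⟩` gives
`a_2² ≤ a_1 a_3`, the hypothesis gives `a_2 ≥ a_1`, hence `a_3 ≥ a_2`, i.e. `⟨T g, T (T g)⟩ ≥ |T g|²`. -/
theorem gap_of_sq_ge [DecidableEq α] (X : Finset α) (k : α → α → ℝ)
    (hsymm : ∀ x ∈ X, ∀ y ∈ X, k x y = k y x)
    (hpos : ∀ f : α → ℝ, 0 ≤ ip X f (fun x => ∑ y ∈ X, k x y * f y))
    (hsq : ∀ f : α → ℝ, ip X f (fun x => ∑ y ∈ X, k x y * f y)
        ≤ nsq X (fun x => ∑ y ∈ X, k x y * f y))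
    (hker : ∀ f : α → ℝ, (∀ x ∈ X, ∑ y ∈ X, k x y * f y = 0) → ∀ x ∈ X, ∀ y ∈ X, f x = f y)
    (f : α → ℝ) :
    nsq X (cR X (fun _ => ()) f) ≤ ip X f (fun x => ∑ y ∈ X, k x y * f y) := by
  classical
  -- extension by zero of a function on the subtype
  let ex : ({x // x ∈ X} → ℝ) → α → ℝ := fun v a => if h : a ∈ X then v ⟨a, h⟩ else 0
  have hex : ∀ (v : {x // x ∈ X} → ℝ) (i : {x // x ∈ X}), ex v i.1 = v i := by
    intro v i; simp [ex, i.2]
  -- sums over the subtype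
  have hs : ∀ (v : {x // x ∈ X} → ℝ) (a : α),
      ∑ j : {x // x ∈ X}, k a j.1 * v j = ∑ y ∈ X, k a y * ex v y := by
    intro v a
    rw [← Finset.sum_coe_sort X (fun y => k a y * ex v y)]
    exact Finset.sum_congr rfl (fun j _ => by rw [hex])
  have hip : ∀ (v : {x // x ∈ X} → ℝ),
      ∑ i : {x // x ∈ X}, v i * ∑ j : {x // x ∈ X}, k i.1 j.1 * v j
        = ip X (ex v) (fun x => ∑ y ∈ X, k x y * ex v y) := by
    intro v
    rw [ip, ← Finset.sum_coe_sort X (fun x => ex v x * ∑ y ∈ X, k x y * ex v y)]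
    exact Finset.sum_congr rfl (fun i _ => by rw [hex, hs])
  have hns : ∀ (v : {x // x ∈ X} → ℝ),
      ∑ i : {x // x ∈ X}, (∑ j : {x // x ∈ X}, k i.1 j.1 * v j) ^ 2
        = nsq X (fun x => ∑ y ∈ X, k x y * ex v y) := by
    intro v
    rw [nsq, ← Finset.sum_coe_sort X (fun x => (∑ y ∈ X, k x y * ex v y) ^ 2)]
    exact Finset.sum_congr rfl (fun i _ => by rw [hs])
  obtain ⟨f₀, h0, h1⟩ := matrix_gap (Matrix.of fun i j : {x // x ∈ X} => k i.1 j.1)
    (fun i j => hsymm i.1 i.2 j.1 j.2)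
    (fun v => by simpa only [Matrix.of_apply, hip] using hpos (ex v))
    (fun v => by simpa only [Matrix.of_apply, hip, hns] using hsq (ex v))
    (fun i => f i.1)
  simp only [Matrix.of_apply] at h0 h1
  -- `f₀` is constant
  have hconst := hker (ex f₀) (fun x hx => by rw [← hs]; exact h0 ⟨x, hx⟩)
  -- rewrite the right-hand side
  have hR : ∑ i : {x // x ∈ X}, f i.1 * ∑ j : {x // x ∈ X}, k i.1 j.1 * f j.1
      = ip X f (fun x => ∑ y ∈ X, k x y * f y) := by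
    rw [ip, ← Finset.sum_coe_sort X (fun x => f x * ∑ y ∈ X, k x y * f y)]
    refine Finset.sum_congr rfl (fun i _ => ?_)
    rw [← Finset.sum_coe_sort X (fun y => k i.1 y * f y)]
  rw [hR] at h1
  refine le_trans ?_ h1
  rcases X.eq_empty_or_nonempty with rfl | ⟨x₀, hx₀⟩
  · simp [nsq]
  refine le_trans (nsq_cR_unit_le X f (ex f₀ x₀)) (le_of_eq ?_)
  rw [← Finset.sum_coe_sort X (fun x => (f x - ex f₀ x₀) ^ 2)]
  refine Finset.sum_congr rfl (fun i _ => ?_)
  rw [hconst x₀ hx₀ i.1 i.2, hex]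

end Crest.Agent.SW
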