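import Crest.Agent.SW_Knabe1
import Crest.Agent.SW_Knabe2
import Crest.Agent.SW_Knabe3

/-!
# S0453: the generic Knabe / Caputo argument (tasks K1 - K4)

`X` finite uniform space, `V` a finite set of "vertices", for every `K ⊆ V` a key `κ K`
(`κ p` finer than `κ t` for `p ⊆ t`).  `R_K = cR X (κ K)`,  `H = ∑_{p ∈ V.powersetCard 2} R_p`.

`|H f|² = ∑_p |R_p f|² + ∑_{|p ∩ p'| = 1} ⟨R_p f, R_p' f⟩ + ∑_{p ∩ p' = ∅} ⟨R_p f, R_p' f⟩`.
* the middle sum is `∑_t ∑_{p ≠ p' ⊆ t}` and each inner sum is `≥ 0` by `h3` (K1);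
* the last sum is `≥ 0` by hypothesis `h2`;
so `|H f|² ≥ ⟨f, H f⟩` (K2);  abstract lemma (K3): a symmetric positive operator with
`|H g|² ≥ ⟨g, H g⟩` for all `g` and kernel = constants satisfies `⟨f, H f⟩ ≥ |f - mean|²`.
-/

set_option autoImplicit false
open Finset

namespace Crest.Agent.SW

variable {α β ν : Type*} [DecidableEq β] [DecidableEq ν]

/-- K2b. -/
theorem knabe_sq_ge (X : Finset α) (V : Finset ν) (κ : Finset ν → α → β)
    (hmono : ∀ t ∈ V.powersetCard 3, ∀ p ∈ t.powersetCard 2,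
      ∀ x ∈ X, ∀ y ∈ X, κ p x = κ p y → κ t x = κ t y)
    (h3 : ∀ t ∈ V.powersetCard 3, ∀ f : α → ℝ,
      nsq X (cR X (κ t) f) ≤ ∑ p ∈ t.powersetCard 2, nsq X (cR X (κ p) f))
    (h2 : ∀ f : α → ℝ, 0 ≤ ∑ p ∈ V.powersetCard 2,
      ∑ p' ∈ (V.powersetCard 2).filter (fun p' => Disjoint p p'),
        ip X (cR X (κ p) f) (cR X (κ p') f))
    (f : α → ℝ) :
    ∑ p ∈ V.powersetCard 2, nsq X (cR X (κ p) f)
      ≤ nsq X (fun x => ∑ p ∈ V.powersetCard 2, cR X (κ p) f x) := by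
  classical
  have hexp : nsq X (fun x => ∑ p ∈ V.powersetCard 2, cR X (κ p) f x)
      = ∑ p ∈ V.powersetCard 2, ∑ p' ∈ V.powersetCard 2,
          ip X (cR X (κ p) f) (cR X (κ p') f) := by
    unfold nsq ip
    calc ∑ x ∈ X, (∑ p ∈ V.powersetCard 2, cR X (κ p) f x) ^ 2
        = ∑ x ∈ X, ∑ p ∈ V.powersetCard 2, ∑ p' ∈ V.powersetCard 2,
            cR X (κ p) f x * cR X (κ p') f x := by
          refine Finset.sum_congr rfl fun x _ => ?_
          rw [sq, Finset.sum_mul_sum]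
      _ = ∑ p ∈ V.powersetCard 2, ∑ x ∈ X, ∑ p' ∈ V.powersetCard 2,
            cR X (κ p) f x * cR X (κ p') f x := Finset.sum_comm
      _ = _ := by
          refine Finset.sum_congr rfl fun p _ => ?_
          exact Finset.sum_comm
  rw [hexp, sum_pairs_split V (fun p p' => ip X (cR X (κ p) f) (cR X (κ p') f))]
  have h1 : ∑ p ∈ V.powersetCard 2, ip X (cR X (κ p) f) (cR X (κ p) f)
      = ∑ p ∈ V.powersetCard 2, nsq X (cR X (κ p) f) :=
    Finset.sum_congr rfl fun p _ => (nsq_eq_ip X _).symm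
  have h2' := h2 f
  have h3' : 0 ≤ ∑ t ∈ V.powersetCard 3, ∑ p ∈ t.powersetCard 2,
      ∑ p' ∈ (t.powersetCard 2).erase p, ip X (cR X (κ p) f) (cR X (κ p') f) :=
    Finset.sum_nonneg fun t ht => triple_cross_nonneg X κ t (hmono t ht) (h3 t ht) f
  rw [h1]
  linarith

/-- K4: the generic Knabe theorem. -/
theorem generic_knabe [DecidableEq α] (X : Finset α) (V : Finset ν) (κ : Finset ν → α → β)
    (hmono : ∀ t ∈ V.powersetCard 3, ∀ p ∈ t.powersetCard 2,
      ∀ x ∈ X, ∀ y ∈ X, κ p x = κ p y → κ t x = κ t y)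
    (h3 : ∀ t ∈ V.powersetCard 3, ∀ f : α → ℝ,
      nsq X (cR X (κ t) f) ≤ ∑ p ∈ t.powersetCard 2, nsq X (cR X (κ p) f))
    (h2 : ∀ f : α → ℝ, 0 ≤ ∑ p ∈ V.powersetCard 2,
      ∑ p' ∈ (V.powersetCard 2).filter (fun p' => Disjoint p p'),
        ip X (cR X (κ p) f) (cR X (κ p') f))
    (hker : ∀ f : α → ℝ, (∀ p ∈ V.powersetCard 2, ∀ x ∈ X, cR X (κ p) f x = 0) →
      ∀ x ∈ X, ∀ y ∈ X, f x = f y)
    (f : α → ℝ) :
    nsq X (cR X (fun _ => ()) f) ≤ ∑ p ∈ V.powersetCard 2, nsq X (cR X (κ p) f) := by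
  classical
  let k : α → α → ℝ := fun x y => ∑ p ∈ V.powersetCard 2,
    ((if x = y then (1 : ℝ) else 0)
      - (if κ p y = κ p x then (1 : ℝ) else 0) / ((fib X (κ p) x).card : ℝ))
  have hT : ∀ g : α → ℝ, ∀ x ∈ X,
      ∑ y ∈ X, k x y * g y = ∑ p ∈ V.powersetCard 2, cR X (κ p) g x := by
    intro g x hx
    simp only [k, Finset.sum_mul]
    rw [Finset.sum_comm]
    refine Finset.sum_congr rfl fun p _ => ?_
    have e1 : ∑ y ∈ X, (if x = y then (1 : ℝ) else 0) * g y = g x := by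
      simp [hx]
    have e2 : ∑ y ∈ X, (if κ p y = κ p x then (1 : ℝ) else 0) / ((fib X (κ p) x).card : ℝ) * g y
        = cE X (κ p) g x := by
      have e3 : ∑ y ∈ fib X (κ p) x, g y = ∑ y ∈ X, if κ p y = κ p x then g y else 0 := by
        unfold fib
        rw [Finset.sum_filter]
      unfold cE
      rw [e3, Finset.sum_div]
      refine Finset.sum_congr rfl fun y _ => ?_
      split_ifs
      · rw [one_div, div_eq_inv_mul]
      · simp
    simp only [sub_mul, Finset.sum_sub_distrib, e1, e2, cR]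
  have hip : ∀ g : α → ℝ, ip X g (fun x => ∑ y ∈ X, k x y * g y)
      = ∑ p ∈ V.powersetCard 2, nsq X (cR X (κ p) g) := by
    intro g
    calc ip X g (fun x => ∑ y ∈ X, k x y * g y)
        = ∑ x ∈ X, ∑ p ∈ V.powersetCard 2, g x * cR X (κ p) g x := by
          unfold ip
          refine Finset.sum_congr rfl fun x hx => ?_
          show g x * (∑ y ∈ X, k x y * g y) = _
          rw [hT g x hx, Finset.mul_sum]
      _ = ∑ p ∈ V.powersetCard 2, ∑ x ∈ X, g x * cR X (κ p) g x := Finset.sum_comm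
      _ = _ := Finset.sum_congr rfl fun p _ => ip_cR_self X (κ p) g
  have hns : ∀ g : α → ℝ, nsq X (fun x => ∑ y ∈ X, k x y * g y)
      = nsq X (fun x => ∑ p ∈ V.powersetCard 2, cR X (κ p) g x) := by
    intro g
    unfold nsq
    refine Finset.sum_congr rfl fun x hx => ?_
    show (∑ y ∈ X, k x y * g y) ^ 2 = _
    rw [hT g x hx]
  have hsymm : ∀ x ∈ X, ∀ y ∈ X, k x y = k y x := by
    intro x _ y _
    simp only [k]
    refine Finset.sum_congr rfl fun p _ => ?_
    by_cases hxy : κ p y = κ p x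
    · rw [fib_eq_of_key (X := X) hxy.symm]
      simp [hxy, eq_comm]
    · have hyx : ¬ κ p x = κ p y := fun h => hxy h.symm
      simp [hxy, hyx, eq_comm]
  have hmain := gap_of_sq_ge X k hsymm
    (fun g => by rw [hip g]; exact Finset.sum_nonneg fun p _ => nsq_nonneg X _)
    (fun g => by rw [hip g, hns g]; exact knabe_sq_ge X V κ hmono h3 h2 g)
    (fun g hg => by
      refine hker g fun p hp x hx => ?_
      have h0 : ∑ p ∈ V.powersetCard 2, nsq X (cR X (κ p) g) = 0 := by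
        rw [← hip g]
        unfold ip
        refine Finset.sum_eq_zero fun x hx => ?_
        show g x * (∑ y ∈ X, k x y * g y) = 0
        rw [hg x hx, mul_zero]
      have h1 := (Finset.sum_eq_zero_iff_of_nonneg
        (fun p _ => nsq_nonneg X (cR X (κ p) g))).mp h0 p hp
      have h2 := (Finset.sum_eq_zero_iff_of_nonneg
        (fun x _ => sq_nonneg (cR X (κ p) g x))).mp h1 x hx
      exact pow_eq_zero_iff (two_ne_zero) |>.mp h2)
    f
  rw [hip f] at hmain
  exact hmain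

end Crest.Agent.SW
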