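import Crest.Agent.SW_Gen

/-!
# S0453: the generic Knabe / Caputo argument.  Task K1.   (overview: see `SW_Knabe.lean`)
-/

set_option autoImplicit false
open Finset

namespace Crest.Agent.SW

variable {α β ν : Type*} [DecidableEq β] [DecidableEq ν]

/-- Pure algebra: if `⟨g, a p⟩ = |a p|²` for all `p` and `|g|² ≤ ∑_p |a p|²`, then the sum of the
cross terms is nonnegative. -/
private theorem cross_nonneg_aux {ι : Type*} [DecidableEq ι] (X : Finset α) (T : Finset ι)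
    (a : ι → α → ℝ) (g : α → ℝ)
    (h1 : ∀ p ∈ T, ip X g (a p) = nsq X (a p))
    (h2 : nsq X g ≤ ∑ p ∈ T, nsq X (a p)) :
    0 ≤ ∑ p ∈ T, ∑ p' ∈ T.erase p, ip X (a p) (a p') := by
  -- the diagonal
  have hdiag : ∑ p ∈ T, ∑ p' ∈ T.erase p, ip X (a p) (a p')
      = ∑ p ∈ T, ∑ p' ∈ T, ip X (a p) (a p') - ∑ p ∈ T, nsq X (a p) := by
    rw [← Finset.sum_sub_distrib]
    refine Finset.sum_congr rfl (fun p hp => ?_)
    rw [← Finset.add_sum_erase T (fun p' => ip X (a p) (a p')) hp, nsq_eq_ip]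
    ring
  -- the full double sum is `|S|²`
  have hfull : ∑ p ∈ T, ∑ p' ∈ T, ip X (a p) (a p') = nsq X (fun x => ∑ p ∈ T, a p x) := by
    unfold ip nsq
    have h : ∑ x ∈ X, (∑ p ∈ T, a p x) ^ 2 = ∑ x ∈ X, ∑ p ∈ T, ∑ p' ∈ T, a p x * a p' x := by
      refine Finset.sum_congr rfl (fun x _ => ?_)
      rw [sq, Finset.sum_mul_sum]
    rw [h]
    calc ∑ p ∈ T, ∑ p' ∈ T, ∑ x ∈ X, a p x * a p' x
        = ∑ p ∈ T, ∑ x ∈ X, ∑ p' ∈ T, a p x * a p' x :=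
          Finset.sum_congr rfl (fun p _ => Finset.sum_comm)
      _ = ∑ x ∈ X, ∑ p ∈ T, ∑ p' ∈ T, a p x * a p' x := Finset.sum_comm
  -- `⟨g, S⟩ = ∑ |a p|²`
  have hgS : ip X g (fun x => ∑ p ∈ T, a p x) = ∑ p ∈ T, nsq X (a p) := by
    rw [← Finset.sum_congr rfl h1]
    unfold ip
    rw [Finset.sum_comm]
    refine Finset.sum_congr rfl (fun x _ => ?_)
    rw [Finset.mul_sum]
  -- `|S - g|² = |S|² - 2⟨g,S⟩ + |g|²`
  have hsq : nsq X (fun x => (∑ p ∈ T, a p x) - g x)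
      = nsq X (fun x => ∑ p ∈ T, a p x) - 2 * ip X g (fun x => ∑ p ∈ T, a p x) + nsq X g := by
    unfold ip nsq
    rw [Finset.mul_sum, ← Finset.sum_sub_distrib, ← Finset.sum_add_distrib]
    refine Finset.sum_congr rfl (fun x _ => ?_)
    ring
  have hnn := nsq_nonneg X (fun x => (∑ p ∈ T, a p x) - g x)
  rw [hdiag, hfull]
  rw [hsq, hgS] at hnn
  linarith

/-- K1.  With `S g = ∑_{p ⊆ t} R_p g`, `g = R_t f` one has `R_p g = R_p f` (`cR_cR_of_fine`) and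
`|S g|² - ⟨g,S g⟩ = |S g - g|² + (⟨g, S g⟩ - |g|²) ≥ 0` where `⟨g,S g⟩ = ∑_p |R_p g|² ≥ |R_t g|² = |g|²`. -/
theorem triple_cross_nonneg (X : Finset α) (κ : Finset ν → α → β) (t : Finset ν)
    (hmono : ∀ p ∈ t.powersetCard 2, ∀ x ∈ X, ∀ y ∈ X, κ p x = κ p y → κ t x = κ t y)
    (h3 : ∀ f : α → ℝ, nsq X (cR X (κ t) f) ≤ ∑ p ∈ t.powersetCard 2, nsq X (cR X (κ p) f))
    (f : α → ℝ) :
    0 ≤ ∑ p ∈ t.powersetCard 2, ∑ p' ∈ (t.powersetCard 2).erase p,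
          ip X (cR X (κ p) f) (cR X (κ p') f) := by
  refine cross_nonneg_aux X (t.powersetCard 2) (fun p => cR X (κ p) f) (cR X (κ t) f) ?_ (h3 f)
  intro p hp
  have hfine : ∀ x ∈ X, cR X (κ p) (cR X (κ t) f) x = cR X (κ p) f x :=
    fun x hx => cR_cR_of_fine (hmono p hp) f hx
  have h := ip_cR_self X (κ p) (cR X (κ t) f)
  rw [ip_congr (fun x _ => rfl) hfine] at h
  rw [h]
  unfold nsq
  exact Finset.sum_congr rfl (fun x hx => by rw [hfine x hx])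

end Crest.Agent.SW
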