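import Crest.Agent.SW_Disjoint
import Crest.Agent.SW_PairFibre

/-!
# S0453: assembly, cross terms of disjoint pairs (task M1)
-/

set_option autoImplicit false
open Finset

namespace Crest.Agent.SW
open Crest.SwitchChain

variable {n : ℕ}

/-- symmetrisation of a double sum over ordered disjoint pairs -/
private theorem m1_sum_swap (F : Finset (Fin n) → Finset (Fin n) → ℝ) :
    ∑ p ∈ P2 n, ∑ p' ∈ P2d p, F p' p = ∑ p ∈ P2 n, ∑ p' ∈ P2d p, F p p' := by
  unfold P2d
  simp only [Finset.sum_filter]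
  rw [Finset.sum_comm]
  refine Finset.sum_congr rfl (fun p _ => Finset.sum_congr rfl (fun p' _ => ?_))
  simp only [disjoint_comm]

/-- M1: the sum of the cross terms over ordered disjoint pairs is nonnegative:
`∑_{(p,p')} ⟨R_p f, R_p' f⟩ ≥ ∑_{(p,p')} (|R_b f|² - (Wt p p' + Wt p' p)/2) = ∑_p (swE p - ∑_{p'} Wt p p') ≥ 0`
(`disjoint_lemma`, symmetrisation of the double sum, `johnson_W`). -/
theorem cross_disjoint_nonneg (d : Fin n → ℕ) (f : Om d → ℝ) :
    0 ≤ ∑ p ∈ (univ : Finset (Fin n)).powersetCard 2,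
      ∑ p' ∈ ((univ : Finset (Fin n)).powersetCard 2).filter (fun p' => Disjoint p p'),
        ip univ (cR univ (offKey d (inc p)) f) (cR univ (offKey d (inc p')) f) := by
  have h1 : ∑ p ∈ P2 n, ∑ p' ∈ P2d p,
      (nsq univ (R d (blk p p') f) - (Wt d p p' f + Wt d p' p f) / 2)
      ≤ ∑ p ∈ P2 n, ∑ p' ∈ P2d p, ip univ (R d (inc p) f) (R d (inc p') f) := by
    refine Finset.sum_le_sum (fun p hp => Finset.sum_le_sum (fun p' hp' => ?_))
    have hp'' := Finset.mem_filter.mp hp'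
    exact disjoint_lemma d p p' hp hp''.1 hp''.2 f
  have h2 : ∑ p ∈ P2 n, ∑ p' ∈ P2d p,
      (nsq univ (R d (blk p p') f) - (Wt d p p' f + Wt d p' p f) / 2)
      = ∑ p ∈ P2 n, (swE d p f - ∑ p' ∈ P2d p, Wt d p p' f) := by
    have hs := m1_sum_swap (fun p p' => Wt d p p' f)
    simp only [Finset.sum_sub_distrib, swE, add_div, Finset.sum_add_distrib, ← Finset.sum_div]
    rw [hs]
    ring
  have h3 : 0 ≤ ∑ p ∈ P2 n, (swE d p f - ∑ p' ∈ P2d p, Wt d p p' f) :=
    Finset.sum_nonneg (fun p hp => sub_nonneg.mpr (johnson_W d p hp f))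
  exact le_trans (h2 ▸ h3) h1

end Crest.Agent.SW
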