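import Crest.Agent.SW_TF1

/-!
# S0453: triple fibre, the image of the labelling map (task TF2).  Plan: `SW_TFDefs.lean`.
-/

set_option autoImplicit false
open Finset

namespace Crest.Agent.SW
open Crest.SwitchChain

variable {n : ℕ}

/-- counting over the subtype of free columns -/
private theorem tf2_card_col (G0 : Finset (Edge n)) (τ : Fin 3 → Fin n)
    (P : Option (Fin n) → Prop) [DecidablePred P] :
    (univ.filter (fun c : Col G0 τ => P c.1)).card
      = (univ.filter (fun c : Option (Fin n) => isFree G0 τ c ∧ P c)).card := by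
  rw [← Finset.card_image_of_injective _ Subtype.val_injective]
  congr 1
  ext c
  simp only [mem_image, mem_filter, mem_univ, true_and, Subtype.exists, exists_and_right,
    exists_eq_right]
  constructor
  · rintro ⟨h, hP⟩
    exact ⟨h, hP⟩
  · rintro ⟨h, hP⟩
    exact ⟨h, hP⟩

/-- the row sum -/
private def tf2_row (G : Finset (Edge n)) (τ : Fin 3 → Fin n) (i : Fin 3) : ℕ :=
  ((univ : Finset (Option (Fin n))).filter (fun c => isCol τ c ∧ ent G τ i c)).card

/-- row sum in terms of a labelling -/
private theorem tf2_row_formula (G0 G : Finset (Edge n)) (τ : Fin 3 → Fin n)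
    (l : Col G0 τ → Fin 3)
    (h1 : ∀ (c : Col G0 τ) (i : Fin 3), ent G τ i c.1 ↔ (l c = i ↔ tyT G0 τ c = true))
    (h2 : ∀ c, isCol τ c → ¬ isFree G0 τ c → ∀ i, (ent G τ i c ↔ ent G0 τ i c)) (i : Fin 3) :
    (tf2_row G τ i : ℤ)
      = ((univ.filter (fun c : Option (Fin n) =>
            isCol τ c ∧ ¬ isFree G0 τ c ∧ ent G0 τ i c)).card : ℤ)
        + ((univ.filter (fun c : Col G0 τ => tyT G0 τ c = false)).card : ℤ)
        + (((univ.filter (fun c : Col G0 τ => tyT G0 τ c = true ∧ l c = i)).card : ℤ)
          - ((univ.filter (fun c : Col G0 τ => tyT G0 τ c = false ∧ l c = i)).card : ℤ)) := by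
  have e1 : tf2_row G τ i
      = (univ.filter (fun c : Option (Fin n) =>
            isCol τ c ∧ ¬ isFree G0 τ c ∧ ent G0 τ i c)).card
        + (univ.filter (fun c : Option (Fin n) => isFree G0 τ c ∧ ent G τ i c)).card := by
    unfold tf2_row
    rw [← Finset.card_union_of_disjoint]
    · congr 1
      ext c
      simp only [mem_filter, mem_univ, true_and, mem_union]
      constructor
      · rintro ⟨hc, he⟩
        by_cases hf : isFree G0 τ c
        · exact Or.inr ⟨hf, he⟩
        · exact Or.inl ⟨hc, hf, (h2 c hc hf i).1 he⟩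
      · rintro (⟨hc, hf, he⟩ | ⟨hf, he⟩)
        · exact ⟨hc, (h2 c hc hf i).2 he⟩
        · exact ⟨hf.1, he⟩
    · rw [Finset.disjoint_left]
      intro c hc hc'
      simp only [mem_filter, mem_univ, true_and] at hc hc'
      exact hc.2.1 hc'.1
  have e2 : (univ.filter (fun c : Option (Fin n) => isFree G0 τ c ∧ ent G τ i c)).card
      = (univ.filter (fun c : Col G0 τ => tyT G0 τ c = true ∧ l c = i)).card
        + (univ.filter (fun c : Col G0 τ => tyT G0 τ c = false ∧ l c ≠ i)).card := by
    rw [← tf2_card_col G0 τ (fun c => ent G τ i c), ← Finset.card_union_of_disjoint]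
    · congr 1
      ext c
      simp only [mem_filter, mem_univ, true_and, mem_union]
      rw [h1 c i]
      cases tyT G0 τ c <;> simp
    · rw [Finset.disjoint_left]
      intro c hc hc'
      simp only [mem_filter, mem_univ, true_and] at hc hc'
      rw [hc.1] at hc'
      exact absurd hc'.1 (by simp)
  have e3 : (univ.filter (fun c : Col G0 τ => tyT G0 τ c = false)).card
      = (univ.filter (fun c : Col G0 τ => tyT G0 τ c = false ∧ l c = i)).card
        + (univ.filter (fun c : Col G0 τ => tyT G0 τ c = false ∧ l c ≠ i)).card := by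
    rw [← Finset.card_union_of_disjoint]
    · congr 1
      ext c
      simp only [mem_filter, mem_univ, true_and, mem_union]
      by_cases h : l c = i <;> simp [h]
    · rw [Finset.disjoint_left]
      intro c hc hc'
      simp only [mem_filter, mem_univ, true_and] at hc hc'
      exact hc'.2 hc.2
  rw [e1, e2, e3]
  push_cast
  ring

/-- `cnt ≤ 3` -/
private theorem tf2_cnt_le (G : Finset (Edge n)) (τ : Fin 3 → Fin n) (c : Option (Fin n)) :
    cnt G τ c ≤ 3 := by
  unfold cnt
  exact (Finset.card_filter_le _ _).trans (by simp)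

private theorem tf2_cnt_zero (G : Finset (Edge n)) (τ : Fin 3 → Fin n) (c : Option (Fin n))
    (h : cnt G τ c = 0) (i : Fin 3) : ¬ ent G τ i c := by
  unfold cnt at h
  rw [Finset.card_eq_zero, Finset.filter_eq_empty_iff] at h
  exact h (mem_univ i)

private theorem tf2_cnt_three (G : Finset (Edge n)) (τ : Fin 3 → Fin n) (c : Option (Fin n))
    (h : cnt G τ c = 3) (i : Fin 3) : ent G τ i c := by
  unfold cnt at h
  have h' : (univ.filter (fun i : Fin 3 => ent G τ i c)) = univ := by
    apply Finset.eq_univ_of_card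
    rw [h]; simp
  have := mem_univ i
  rw [← h'] at this
  exact (mem_filter.1 this).2

/-- non-free columns with the same column sum are equal -/
private theorem tf2_nonfree (G0 G : Finset (Edge n)) (τ : Fin 3 → Fin n) (c : Option (Fin n))
    (hc : isCol τ c) (hf : ¬ isFree G0 τ c) (hcnt : cnt G τ c = cnt G0 τ c) (i : Fin 3) :
    ent G τ i c ↔ ent G0 τ i c := by
  have hle := tf2_cnt_le G0 τ c
  have h03 : cnt G0 τ c = 0 ∨ cnt G0 τ c = 3 := by
    by_contra hcon
    apply hf
    refine ⟨hc, ?_⟩
    omega
  rcases h03 with h | h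
  · exact iff_of_false (tf2_cnt_zero G τ c (hcnt.trans h) i) (tf2_cnt_zero G0 τ c h i)
  · exact iff_of_true (tf2_cnt_three G τ c (hcnt.trans h) i) (tf2_cnt_three G0 τ c h i)

/-- column sum of a labelled free column -/
private theorem tf2_cnt_free (G0 G : Finset (Edge n)) (τ : Fin 3 → Fin n) (c : Col G0 τ)
    (j : Fin 3) (h1 : ∀ i : Fin 3, ent G τ i c.1 ↔ (j = i ↔ tyT G0 τ c = true)) :
    cnt G τ c.1 = cnt G0 τ c.1 := by
  have hfree := c.2.2
  unfold cnt at hfree ⊢
  have : (univ.filter (fun i : Fin 3 => ent G τ i c.1))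
      = univ.filter (fun i : Fin 3 => (j = i ↔ tyT G0 τ c = true)) := by
    ext i
    simp only [mem_filter, mem_univ, true_and]
    exact h1 i
  rw [this]
  by_cases hty : tyT G0 τ c = true
  · have h1' : cnt G0 τ c.1 = 1 := by
      unfold tyT at hty
      exact of_decide_eq_true hty
    unfold cnt at h1'
    rw [h1']
    simp only [hty, iff_true]
    rw [Finset.filter_eq]
    simp
  · have h1' : cnt G0 τ c.1 ≠ 1 := by
      unfold tyT at hty
      intro h
      exact hty (decide_eq_true h)
    unfold cnt at h1'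
    have h2' := hfree.resolve_left h1'
    rw [h2']
    have : (univ.filter (fun i : Fin 3 => (j = i ↔ tyT G0 τ c = true))) = univ.erase j := by
      ext i
      simp only [mem_filter, mem_univ, true_and, mem_erase, and_true]
      constructor
      · intro h h'
        exact hty (h.1 h'.symm)
      · intro h
        exact iff_of_false (fun h' => h h'.symm) hty
    rw [this, Finset.card_erase_of_mem (mem_univ j)]
    simp

variable (d : Fin n → ℕ) (τ : Fin 3 → Fin n) (G0 : Om d)

private theorem tf2_mem_fib (G : Om d) :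
    G ∈ fib univ (offKey d (inc (univ.image τ))) G0
      ↔ G.1 \ inc (univ.image τ) = G0.1 \ inc (univ.image τ) := by
  unfold fib offKey
  rw [mem_filter]
  exact ⟨fun h => h.2, fun h => ⟨mem_univ _, h⟩⟩

private theorem tf2_isCol_none : isCol τ none := by
  intro z hz
  exact absurd hz (by simp)

private theorem tf2_deg (G : Om d) (v : Fin n) : deg G.1 v = d v := by
  have := G.2
  unfold realizations at this
  exact (mem_filter.1 this).2 v

/-- hypotheses of the row formula for a member of the fibre -/
private theorem tf2_h1 (hτ : Function.Injective τ) (G : Om d)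
    (hG : G ∈ fib univ (offKey d (inc (univ.image τ))) G0) (c : Col G0.1 τ) (i : Fin 3) :
    ent G.1 τ i c.1 ↔ (labT G0.1 τ G.1 c = i ↔ tyT G0.1 τ c = true) := by
  have := tf_lab_iff d τ G0 hτ G hG c i
  tauto

private theorem tf2_row_eq (hτ : Function.Injective τ) (G : Om d)
    (hG : G ∈ fib univ (offKey d (inc (univ.image τ))) G0) (i : Fin 3) :
    tf2_row G.1 τ i = tf2_row G0.1 τ i := by
  have a := tf_deg_inner τ hτ G.1 i
  have b := tf_deg_inner τ hτ G0.1 i
  have c := tf_cnt_eq d τ G0 hτ G hG none (tf2_isCol_none τ)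
  rw [tf2_deg] at a b
  unfold tf2_row
  omega

/-- TF2 -/
theorem tf_image (hτ : Function.Injective τ) :
    (fib univ (offKey d (inc (univ.image τ))) G0).image (fun G : Om d => labT G0.1 τ G.1)
      = TX (tyT G0.1 τ) (sT G0.1 τ) := by
  have hG0 : G0 ∈ fib univ (offKey d (inc (univ.image τ))) G0 := by
    rw [tf2_mem_fib]
  have f0 := tf2_row_formula G0.1 G0.1 τ (labT G0.1 τ G0.1) (tf2_h1 d τ G0 hτ G0 hG0)
    (fun c _ _ i => Iff.rfl)
  ext l
  simp only [mem_image]
  constructor
  · rintro ⟨G, hG, rfl⟩
    have f1 := tf2_row_formula G0.1 G.1 τ (labT G0.1 τ G.1) (tf2_h1 d τ G0 hτ G hG)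
      (fun c hc hf i => tf2_nonfree G0.1 G.1 τ c hc hf (tf_cnt_eq d τ G0 hτ G hG c hc) i)
    simp only [TX, mem_filter, mem_univ, true_and]
    intro i
    have f0i := f0 i
    have f1i := f1 i
    rw [tf2_row_eq d τ G0 hτ G hG i] at f1i
    unfold sT
    linarith
  · intro hl
    simp only [TX, mem_filter, mem_univ, true_and] at hl
    classical
    obtain ⟨G, hoff, hent⟩ := tf_build τ hτ G0.1
      (fun i c => if h : isFree G0.1 τ c then (l ⟨c, h⟩ = i ↔ tyT G0.1 τ ⟨c, h⟩ = true)
        else ent G0.1 τ i c)
    have h1 : ∀ (c : Col G0.1 τ) (i : Fin 3),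
        ent G τ i c.1 ↔ (l c = i ↔ tyT G0.1 τ c = true) := by
      intro c i
      rw [hent i c.1 c.2.1, dif_pos c.2]
    have h2 : ∀ c, isCol τ c → ¬ isFree G0.1 τ c → ∀ i, (ent G τ i c ↔ ent G0.1 τ i c) := by
      intro c hc hf i
      rw [hent i c hc, dif_neg hf]
    have hcnt : ∀ c, isCol τ c → cnt G τ c = cnt G0.1 τ c := by
      intro c hc
      by_cases hf : isFree G0.1 τ c
      · exact tf2_cnt_free G0.1 G τ ⟨c, hf⟩ (l ⟨c, hf⟩) (fun i => h1 ⟨c, hf⟩ i)
      · unfold cnt
        congr 1
        ext i
        simp only [mem_filter, mem_univ, true_and]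
        exact h2 c hc hf i
    have f1 := tf2_row_formula G0.1 G τ l h1 h2
    have hrow : ∀ i, tf2_row G τ i = tf2_row G0.1 τ i := by
      intro i
      have f0i := f0 i
      have f1i := f1 i
      have hli := hl i
      unfold sT at hli
      have : (tf2_row G τ i : ℤ) = (tf2_row G0.1 τ i : ℤ) := by linarith
      exact_mod_cast this
    have hreal : G ∈ realizations d := by
      unfold realizations
      simp only [mem_filter, mem_univ, true_and]
      intro v
      by_cases hv : ∃ i, v = τ i
      · obtain ⟨i, rfl⟩ := hv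
        have a := tf_deg_inner τ hτ G i
        have b := tf_deg_inner τ hτ G0.1 i
        have c := hcnt none (tf2_isCol_none τ)
        have r := hrow i
        rw [tf2_deg] at b
        unfold tf2_row at r
        omega
      · push Not at hv
        have a := tf_deg_outer τ hτ G v hv
        have b := tf_deg_outer τ hτ G0.1 v hv
        have c := hcnt (some v) (by
          intro z hz i
          have : v = z := by simpa using hz
          rw [← this]; exact hv i)
        rw [tf2_deg] at b
        rw [hoff] at a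
        omega
    have hGm : (⟨G, hreal⟩ : Om d) ∈ fib univ (offKey d (inc (univ.image τ))) G0 := by
      rw [tf2_mem_fib]; exact hoff
    refine ⟨⟨G, hreal⟩, hGm, ?_⟩
    funext c
    rw [tf_lab_iff d τ G0 hτ ⟨G, hreal⟩ hGm c (l c)]
    have := h1 c (l c)
    simp only [true_iff] at this
    exact this

end Crest.Agent.SW
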