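import Crest.Agent.SW_TF1

/-!
# S0453: triple fibre, correspondence of keys (task TF3).  Plan: `SW_TFDefs.lean`.
-/

set_option autoImplicit false
open Finset

namespace Crest.Agent.SW
open Crest.SwitchChain

variable {n : ℕ}

private theorem tf3_mem_iff_adj (H : Finset (Edge n)) (e : Edge n) (a b : Fin n) (hab : e.1 = s(a, b)) :
    e ∈ H ↔ adj H a b := by
  constructor
  · intro he
    exact ⟨e, he, hab⟩
  · rintro ⟨e', he', h'⟩
    have : e' = e := Subtype.ext (h'.trans hab.symm)
    exact this ▸ he'

private theorem tf3_mem_inc_erase (τ : Fin 3 → Fin n) (hτ : Function.Injective τ) (i : Fin 3) (e : Edge n) :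
    e ∈ inc ((univ.image τ).erase (τ i)) ↔ ∃ j, j ≠ i ∧ τ j ∈ e.1 := by
  simp only [inc, mem_filter, mem_univ, true_and, mem_erase, mem_image]
  constructor
  · rintro ⟨v, ⟨hne, j, rfl⟩, hv⟩
    exact ⟨j, fun h => hne (by rw [h]), hv⟩
  · rintro ⟨j, hj, hv⟩
    exact ⟨τ j, ⟨fun h => hj (hτ h), j, rfl⟩, hv⟩

private theorem tf3_mem_inc (τ : Fin 3 → Fin n) (e : Edge n) :
    e ∈ inc (univ.image τ) ↔ ∃ j, τ j ∈ e.1 := by
  simp only [inc, mem_filter, mem_univ, true_and, mem_image]
  constructor
  · rintro ⟨v, ⟨j, rfl⟩, hv⟩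
    exact ⟨j, hv⟩
  · rintro ⟨j, hv⟩
    exact ⟨τ j, ⟨j, rfl⟩, hv⟩

private theorem tf3_isCol_none (τ : Fin 3 → Fin n) : isCol τ none := by
  intro z hz
  exact absurd hz (by simp)

/-- row sum = (sum over the `some` columns) + (★ entry) -/
private theorem tf3_row_split (τ : Fin 3 → Fin n) (G : Finset (Edge n)) (i : Fin 3) :
    ((univ : Finset (Option (Fin n))).filter (fun c => isCol τ c ∧ ent G τ i c)).card
      = ((univ : Finset (Fin n)).filter (fun z => isCol τ (some z) ∧ ent G τ i (some z))).card
        + (if ent G τ i none then 1 else 0) := by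
  classical
  have hU : (univ : Finset (Option (Fin n))) = insertNone (univ : Finset (Fin n)) := by
    ext c; simp
  have h1 : ((univ : Finset (Option (Fin n))).filter (fun c => isCol τ c ∧ ent G τ i c))
      = (((univ : Finset (Fin n)).filter (fun z => isCol τ (some z) ∧ ent G τ i (some z))).map
          Function.Embedding.some) ∪ (if ent G τ i none then {none} else ∅) := by
    ext c
    cases c with
    | none =>
      by_cases h : ent G τ i none
      · simp [h, tf3_isCol_none]
      · simp [h]
    | some z =>
      by_cases h : ent G τ i none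
      · simp [h]
      · simp [h]
  rw [h1, card_union_of_disjoint, card_map]
  · by_cases h : ent G τ i none
    · simp [h]
    · simp [h]
  · rw [Finset.disjoint_left]
    intro c hc hc'
    rw [mem_map] at hc
    obtain ⟨z, _, rfl⟩ := hc
    by_cases h : ent G τ i none
    · simp [h] at hc'
    · simp [h] at hc'

variable (d : Fin n → ℕ) (τ : Fin 3 → Fin n) (G0 : Om d)

/-- on non-free admissible columns all entries are determined -/
private theorem tf3_ent_of_not_free (hτ : Function.Injective τ) (i : Fin 3) (G G' : Om d)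
    (hG : G ∈ fib univ (offKey d (inc (univ.image τ))) G0)
    (hG' : G' ∈ fib univ (offKey d (inc (univ.image τ))) G0)
    (c : Option (Fin n)) (hc : isCol τ c) (hf : ¬ isFree G0.1 τ c) :
    ent G.1 τ i c ↔ ent G'.1 τ i c := by
  have h1 := tf_cnt_eq d τ G0 hτ G hG c hc
  have h2 := tf_cnt_eq d τ G0 hτ G' hG' c hc
  have hle : cnt G0.1 τ c ≤ 3 := by
    unfold cnt
    exact (card_le_univ _).trans (by simp)
  have h03 : cnt G0.1 τ c = 0 ∨ cnt G0.1 τ c = 3 := by
    by_contra hcon
    apply hf
    refine ⟨hc, ?_⟩
    omega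
  rcases h03 with h0 | h3
  · rw [h0] at h1 h2
    unfold cnt at h1 h2
    rw [card_eq_zero, filter_eq_empty_iff] at h1 h2
    exact iff_of_false (h1 (mem_univ i)) (h2 (mem_univ i))
  · rw [h3] at h1 h2
    unfold cnt at h1 h2
    have hu : (univ : Finset (Fin 3)).card = 3 := by simp
    have e1 := eq_of_subset_of_card_le (filter_subset (fun i : Fin 3 => ent G.1 τ i c) univ) (by rw [h1, hu])
    have e2 := eq_of_subset_of_card_le (filter_subset (fun i : Fin 3 => ent G'.1 τ i c) univ) (by rw [h2, hu])
    have m1 : i ∈ univ.filter (fun i : Fin 3 => ent G.1 τ i c) := by rw [e1]; exact mem_univ i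
    have m2 : i ∈ univ.filter (fun i : Fin 3 => ent G'.1 τ i c) := by rw [e2]; exact mem_univ i
    exact iff_of_true (mem_filter.1 m1).2 (mem_filter.1 m2).2

/-- TF3 -/
theorem tf_key (hτ : Function.Injective τ) (i : Fin 3) (G G' : Om d)
    (hG : G ∈ fib univ (offKey d (inc (univ.image τ))) G0)
    (hG' : G' ∈ fib univ (offKey d (inc (univ.image τ))) G0) :
    offKey d (inc ((univ.image τ).erase (τ i))) G = offKey d (inc ((univ.image τ).erase (τ i))) G'
      ↔ rowKey i (labT G0.1 τ G.1) = rowKey i (labT G0.1 τ G'.1) := by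
  have hoffG : G.1 \ inc (univ.image τ) = G0.1 \ inc (univ.image τ) := (mem_filter.1 hG).2
  have hoffG' : G'.1 \ inc (univ.image τ) = G0.1 \ inc (univ.image τ) := (mem_filter.1 hG').2
  -- reformulation of the right-hand side
  have hrow : rowKey i (labT G0.1 τ G.1) = rowKey i (labT G0.1 τ G'.1) ↔
      ∀ c, isCol τ c → (ent G.1 τ i c ↔ ent G'.1 τ i c) := by
    constructor
    · intro h c hc
      by_cases hf : isFree G0.1 τ c
      · have h1 : (⟨c, hf⟩ : Col G0.1 τ) ∈ rowKey i (labT G0.1 τ G.1) ↔
            (⟨c, hf⟩ : Col G0.1 τ) ∈ rowKey i (labT G0.1 τ G'.1) := by rw [h]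
        simp only [rowKey, mem_filter, mem_univ, true_and] at h1
        rw [tf_lab_iff d τ G0 hτ G hG, tf_lab_iff d τ G0 hτ G' hG'] at h1
        simp only at h1
        tauto
      · exact tf3_ent_of_not_free d τ G0 hτ i G G' hG hG' c hc hf
    · intro h
      ext c
      simp only [rowKey, mem_filter, mem_univ, true_and]
      rw [tf_lab_iff d τ G0 hτ G hG, tf_lab_iff d τ G0 hτ G' hG', h c.1 c.2.1]
  rw [hrow]
  unfold offKey
  constructor
  · intro hoff
    -- outer columns
    have hsome : ∀ z, isCol τ (some z) → (ent G.1 τ i (some z) ↔ ent G'.1 τ i (some z)) := by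
      intro z hz
      have hz' : ∀ j, z ≠ τ j := hz z rfl
      have key : ∀ (H H' : Finset (Edge n)),
          H \ inc ((univ.image τ).erase (τ i)) = H' \ inc ((univ.image τ).erase (τ i)) →
          adj H (τ i) z → adj H' (τ i) z := by
        rintro H H' hHH ⟨e, he, heq⟩
        have hn : e ∉ inc ((univ.image τ).erase (τ i)) := by
          rw [tf3_mem_inc_erase τ hτ]
          rintro ⟨j, hj, hmem⟩
          rw [heq, Sym2.mem_iff] at hmem
          rcases hmem with h | h
          · exact hj (hτ h)
          · exact hz' j h.symm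
        have : e ∈ H' \ inc ((univ.image τ).erase (τ i)) := by
          rw [← hHH]; exact mem_sdiff.2 ⟨he, hn⟩
        exact ⟨e, (mem_sdiff.1 this).1, heq⟩
      exact ⟨key _ _ hoff, key _ _ hoff.symm⟩
    intro c hc
    cases c with
    | some z => exact hsome z hc
    | none =>
      have r1 := tf_deg_inner τ hτ G.1 i
      have r2 := tf_deg_inner τ hτ G'.1 i
      have c1 := tf_cnt_eq d τ G0 hτ G hG none (tf3_isCol_none τ)
      have c2 := tf_cnt_eq d τ G0 hτ G' hG' none (tf3_isCol_none τ)
      have d1 : deg G.1 (τ i) = d (τ i) := (mem_filter.1 G.2).2 (τ i)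
      have d2 : deg G'.1 (τ i) = d (τ i) := (mem_filter.1 G'.2).2 (τ i)
      rw [tf3_row_split] at r1 r2
      have hs : ((univ : Finset (Fin n)).filter (fun z => isCol τ (some z) ∧ ent G.1 τ i (some z)))
          = ((univ : Finset (Fin n)).filter (fun z => isCol τ (some z) ∧ ent G'.1 τ i (some z))) := by
        apply filter_congr
        intro z _
        constructor
        · rintro ⟨h1, h2⟩; exact ⟨h1, (hsome z h1).1 h2⟩
        · rintro ⟨h1, h2⟩; exact ⟨h1, (hsome z h1).2 h2⟩
      rw [hs] at r1
      by_cases e1 : ent G.1 τ i none <;> by_cases e2 : ent G'.1 τ i none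
      · exact iff_of_true e1 e2
      · exfalso; simp only [e1, e2, if_true, if_false] at r1 r2; omega
      · exfalso; simp only [e1, e2, if_true, if_false] at r1 r2; omega
      · exact iff_of_false e1 e2
  · intro h
    ext e
    simp only [mem_sdiff]
    constructor
    all_goals
      rintro ⟨he, hn⟩
      refine ⟨?_, hn⟩
      by_cases ht : e ∈ inc (univ.image τ)
      · obtain ⟨j, hj⟩ := (tf3_mem_inc τ e).1 ht
        have hji : j = i := by
          by_contra hne
          exact hn ((tf3_mem_inc_erase τ hτ i e).2 ⟨j, hne, hj⟩)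
        subst hji
        have hspec := Sym2.other_spec' hj
        set z := Sym2.Mem.other' hj with hzdef
        have hz : ∀ k, z ≠ τ k := by
          intro k hk
          by_cases hkj : k = j
          · subst hkj
            apply e.2
            rw [← hspec, hk]
            simp
          · apply hn
            rw [tf3_mem_inc_erase τ hτ]
            refine ⟨k, hkj, ?_⟩
            rw [← hspec, ← hk]
            exact Sym2.mem_mk_right _ _
        have hcol : isCol τ (some z) := by
          intro z' hz' k
          rw [Option.some.injEq] at hz'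
          rw [← hz']; exact hz k
        have hent := h (some z) hcol
        rw [tf3_mem_iff_adj _ e (τ j) z hspec.symm] at he ⊢
        first
          | exact hent.1 he
          | exact hent.2 he
      · first
          | (have h1 : e ∈ G.1 \ inc (univ.image τ) := mem_sdiff.2 ⟨he, ht⟩
             rw [hoffG, ← hoffG'] at h1
             exact (mem_sdiff.1 h1).1)
          | (have h1 : e ∈ G'.1 \ inc (univ.image τ) := mem_sdiff.2 ⟨he, ht⟩
             rw [hoffG', ← hoffG] at h1
             exact (mem_sdiff.1 h1).1)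

end Crest.Agent.SW
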