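import Crest.Agent.SW_TF1
import Crest.Agent.SW_TF2
import Crest.Agent.SW_TF3

/-!
# S0453: the triple lemma (task TF4).  Plan: `SW_TFDefs.lean`.
-/

set_option autoImplicit false
open Finset

namespace Crest.Agent.SW
open Crest.SwitchChain

variable {n : ℕ}

/-- generic: transport of `∑ (cR ..)^2` along an injective map with corresponding keys -/
private theorem tf4_transport {α α' β β' : Type*} [DecidableEq β] [DecidableEq α'] [DecidableEq β']
    (Φ : Finset α) (κ : α → β) (φ : α → α') (hφ : Set.InjOn φ (Φ : Set α)) (κ' : α' → β')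
    (hκ : ∀ x ∈ Φ, ∀ y ∈ Φ, κ x = κ y ↔ κ' (φ x) = κ' (φ y))
    (g : α' → ℝ) (f : α → ℝ) (hfg : ∀ x ∈ Φ, g (φ x) = f x) :
    ∑ x ∈ Φ, (cR Φ κ f x) ^ 2 = nsq (Φ.image φ) (cR (Φ.image φ) κ' g) := by
  unfold nsq
  rw [Finset.sum_image hφ]
  refine Finset.sum_congr rfl (fun x hx => ?_)
  unfold cR
  rw [cE_transport φ hφ κ' hκ g hx, hfg x hx,
    cE_congr (X := Φ) (κ := κ) (f := fun y => g (φ y)) (g := f) hfg]

private theorem tf4_inc_mono {K K' : Finset (Fin n)} (h : K ⊆ K') : inc K ⊆ inc K' := by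
  intro e he
  simp only [inc, mem_filter, mem_univ, true_and] at he ⊢
  obtain ⟨v, hv, hve⟩ := he
  exact ⟨v, h hv, hve⟩

variable (d : Fin n → ℕ)

/-- a finer key: agreeing off `inc K` implies agreeing off `inc K'` for `K ⊆ K'` -/
private theorem tf4_offKey_mono {K K' : Finset (Fin n)} (h : K ⊆ K') {G G' : Om d}
    (hk : offKey d (inc K) G = offKey d (inc K) G') :
    offKey d (inc K') G = offKey d (inc K') G' := by
  unfold offKey at hk ⊢
  have hsub := tf4_inc_mono h
  ext e
  have he := congrArg (fun A => e ∈ A) hk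
  simp only [mem_sdiff, eq_iff_iff] at he ⊢
  constructor
  · rintro ⟨h1, h2⟩
    exact ⟨(he.1 ⟨h1, fun h3 => h2 (hsub h3)⟩).1, h2⟩
  · rintro ⟨h1, h2⟩
    exact ⟨(he.2 ⟨h1, fun h3 => h2 (hsub h3)⟩).1, h2⟩

/-- on the fibre `Φ` of `offKey (inc t)`, the operator `R d (inc K)`, `K ⊆ t`, is computed inside `Φ` -/
private theorem tf4_R_restrict {K t : Finset (Fin n)} (h : K ⊆ t) (G0 : Om d) (f : Om d → ℝ)
    {G : Om d} (hG : G ∈ fib univ (offKey d (inc t)) G0) :
    R d (inc K) f G = cR (fib univ (offKey d (inc t)) G0) (offKey d (inc K)) f G := by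
  unfold R cR
  rw [cE_restrict (Finset.subset_univ _) ?_ f hG]
  intro x hx y _ hxy
  rw [mem_fib] at hx ⊢
  exact ⟨mem_univ _, (tf4_offKey_mono d h hxy).trans hx.2⟩

/-- the triple lemma for a parametrised triple -/
private theorem tf4_triple (τ : Fin 3 → Fin n) (hτ : Function.Injective τ) (f : Om d → ℝ) :
    nsq univ (R d (inc (univ.image τ)) f)
      ≤ ∑ i : Fin 3, nsq univ (R d (inc ((univ.image τ).erase (τ i))) f) := by
  classical
  set t := univ.image τ with ht
  unfold nsq
  rw [Finset.sum_comm]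
  refine sum_le_sum_of_fibres univ (offKey d (inc t)) _ _ (fun G0 _ => ?_)
  have : Nonempty (Om d) := ⟨G0⟩
  set Φ := fib univ (offKey d (inc t)) G0 with hΦ
  set φ : Om d → (Col G0.1 τ → Fin 3) := fun G => labT G0.1 τ G.1 with hφdef
  have hinj : Set.InjOn φ (Φ : Set (Om d)) := tf_inj d τ G0 hτ
  have himg : Φ.image φ = TX (tyT G0.1 τ) (sT G0.1 τ) := tf_image d τ G0 hτ
  -- a function on labelings extending `f`
  set g : (Col G0.1 τ → Fin 3) → ℝ := fun l => f (Function.invFunOn φ (Φ : Set (Om d)) l) with hg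
  have hfg : ∀ x ∈ Φ, g (φ x) = f x := by
    intro x hx
    simp only [hg]
    rw [hinj.leftInvOn_invFunOn (Finset.mem_coe.2 hx)]
  have h0 : ∑ G ∈ Φ, (R d (inc t) f G) ^ 2
      = nsq (TX (tyT G0.1 τ) (sT G0.1 τ)) (cR (TX (tyT G0.1 τ) (sT G0.1 τ)) (fun _ => ()) g) := by
    rw [← himg, ← tf4_transport Φ (offKey d (inc t)) φ hinj (fun _ => ()) ?_ g f hfg]
    · exact Finset.sum_congr rfl (fun G hG => by rw [tf4_R_restrict d (Finset.Subset.refl t) G0 f hG])
    · intro x hx y hy
      rw [hΦ, mem_fib] at hx hy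
      simp [hx.2, hy.2]
  have h1 : ∀ i : Fin 3, ∑ G ∈ Φ, (R d (inc (t.erase (τ i))) f G) ^ 2
      = nsq (TX (tyT G0.1 τ) (sT G0.1 τ)) (cR (TX (tyT G0.1 τ) (sT G0.1 τ)) (rowKey i) g) := by
    intro i
    rw [← himg, ← tf4_transport Φ (offKey d (inc (t.erase (τ i)))) φ hinj (rowKey i) ?_ g f hfg]
    · exact Finset.sum_congr rfl
        (fun G hG => by rw [tf4_R_restrict d (Finset.erase_subset _ t) G0 f hG])
    · intro x hx y hy
      exact tf_key d τ G0 hτ i x y hx hy
  rw [h0, Finset.sum_comm, Finset.sum_congr rfl (fun i _ => h1 i)]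
  exact three_row _ _ g

/-- TF4: the triple lemma (`three_row` transported to every fibre of `offKey d (inc t)`:
`sum_le_sum_of_fibres`, `cE_restrict`, `cE_transport`; `t.powersetCard 2 = image (fun i => t.erase (τ i)) univ`). -/
theorem triple_lemma (t : Finset (Fin n)) (ht : t ∈ (univ : Finset (Fin n)).powersetCard 3)
    (f : Om d → ℝ) :
    nsq univ (R d (inc t) f) ≤ ∑ p ∈ t.powersetCard 2, nsq univ (R d (inc p) f) := by
  classical
  obtain ⟨-, hc⟩ := Finset.mem_powersetCard.1 ht
  obtain ⟨x, y, z, hxy, hxz, hyz, rfl⟩ := Finset.card_eq_three.1 hc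
  set τ : Fin 3 → Fin n := ![x, y, z] with hτdef
  have hτ : Function.Injective τ := by
    intro i j hij
    fin_cases i <;> fin_cases j <;> simp_all
  have himg : (univ.image τ : Finset (Fin n)) = {x, y, z} := by
    ext w
    simp only [mem_image, mem_univ, true_and, Fin.exists_fin_succ, hτdef, mem_insert, mem_singleton]
    simp [eq_comm]
  have hps : ({x, y, z} : Finset (Fin n)).powersetCard 2
      = univ.image (fun i : Fin 3 => ({x, y, z} : Finset (Fin n)).erase (τ i)) := by
    ext p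
    simp only [Finset.mem_powersetCard, mem_image, mem_univ, true_and]
    constructor
    · rintro ⟨hp, hpc⟩
      -- the missing element
      have h3 : (({x, y, z} : Finset (Fin n)) \ p).card = 1 := by
        rw [Finset.card_sdiff_of_subset hp, hc, hpc]
      obtain ⟨w, hw⟩ := Finset.card_eq_one.1 h3
      have hwm : w ∈ ({x, y, z} : Finset (Fin n)) \ p := by rw [hw]; simp
      have hwt : w ∈ (univ.image τ : Finset (Fin n)) := by rw [himg]; exact (mem_sdiff.1 hwm).1
      obtain ⟨i, -, rfl⟩ := mem_image.1 hwt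
      refine ⟨i, ?_⟩
      ext v
      have hv := congrArg (fun A => v ∈ A) hw
      simp only [mem_sdiff, mem_singleton, eq_iff_iff] at hv
      simp only [mem_erase]
      constructor
      · rintro ⟨h1, h2⟩
        by_contra h3
        exact h1 (hv.1 ⟨h2, h3⟩)
      · intro h1
        refine ⟨?_, hp h1⟩
        intro h2
        exact (hv.2 h2).2 h1
    · rintro ⟨i, rfl⟩
      refine ⟨Finset.erase_subset _ _, ?_⟩
      have : τ i ∈ ({x, y, z} : Finset (Fin n)) := by rw [← himg]; exact mem_image_of_mem _ (mem_univ _)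
      rw [Finset.card_erase_of_mem this, hc]
  have hinj2 : Set.InjOn (fun i : Fin 3 => ({x, y, z} : Finset (Fin n)).erase (τ i))
      ((univ : Finset (Fin 3)) : Set (Fin 3)) := by
    intro i _ j _ hij
    simp only at hij
    by_contra hne
    have h1 : τ j ∈ ({x, y, z} : Finset (Fin n)).erase (τ i) := by
      refine mem_erase.2 ⟨fun h => hne (hτ h).symm, ?_⟩
      rw [← himg]; exact mem_image_of_mem _ (mem_univ _)
    rw [hij] at h1
    exact (mem_erase.1 h1).1 rfl
  rw [hps, Finset.sum_image hinj2]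
  have := tf4_triple d τ hτ f
  rw [himg] at this
  exact this

end Crest.Agent.SW
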