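import Crest.Agent.SW_M1
import Crest.Agent.SW_TripleFibre
import Crest.Agent.SW_Connected

/-!
# S0453: assembly, gap of the pair-trade dynamics (task M2)
-/

set_option autoImplicit false
open Finset

namespace Crest.Agent.SW
open Crest.SwitchChain

variable {n : ℕ}

private theorem m2_inc_mono {p t : Finset (Fin n)} (h : p ⊆ t) : inc p ⊆ inc t := by
  intro e he
  simp only [inc, Finset.mem_filter, Finset.mem_univ, true_and] at he ⊢
  obtain ⟨v, hv, hve⟩ := he
  exact ⟨v, h hv, hve⟩

/-- M2: gap of the pair-trade dynamics (`generic_knabe` with `X = univ`, `V = univ`, `κ K = offKey d (inc K)`;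
`triple_lemma`, `cross_disjoint_nonneg`, `connected`). -/
theorem poincare_trades (d : Fin n → ℕ) (f : Om d → ℝ) :
    nsq univ (cR univ (fun _ => ()) f) ≤ ∑ p ∈ P2 n, nsq univ (R d (inc p) f) := by
  refine generic_knabe (univ : Finset (Om d)) (univ : Finset (Fin n))
    (fun K => offKey d (inc K)) ?_ ?_ ?_ ?_ f
  · intro t _ p hp x _ y _ hxy
    have hpt : p ⊆ t := (Finset.mem_powersetCard.mp hp).1
    have hinc := m2_inc_mono hpt
    simp only [offKey] at hxy ⊢
    have h1 : ∀ G : Finset (Edge n), G \ inc t = (G \ inc p) \ inc t := by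
      intro G
      rw [sdiff_sdiff_left, Finset.sup_eq_union, Finset.union_eq_right.mpr hinc]
    rw [h1 x.1, h1 y.1, hxy]
  · intro t ht g
    exact triple_lemma d t ht g
  · intro g
    exact cross_disjoint_nonneg d g
  · intro g hg x _ y _
    exact connected d g (fun p hp G => hg p hp G (Finset.mem_univ G)) x y

/-- M3: (`bl_gap`). -/
theorem poincare_swE (d : Fin n → ℕ) (f : Om d → ℝ) :
    nsq univ (cR univ (fun _ => ()) f) ≤ ∑ p ∈ P2 n, swE d p f :=
  le_trans (poincare_trades d f) (Finset.sum_le_sum (fun p hp => bl_gap d p hp f))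

end Crest.Agent.SW
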