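import Crest.Agent.SW_QCalc
import Crest.Agent.SW_J0

/-!
# S0453: the fibre of a trade `p = {u,v}` is a Johnson model (tasks P1 - P4)

Fix `G0`.  `Φ = fib univ (offKey d (inc {u,v})) G0` = realizations that agree with `G0` on all slots not incident to `u` or `v`.
For `G ∈ Φ` and `z ∉ {u,v}` the number of edges from `z` to `{u,v}` is the same as in `G0` (degree of `z`), the slot `uv` is the same
(sum of the degrees of `u, v`), and `|N(u)|` is fixed.  `T = Tset G0 u v` = vertices adjacent to exactly one of `u, v`;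
`G ↦ phiP G0 u v G = {z ∈ T | u ~ z in G}` is a bijection `Φ → JX T a`.
-/

set_option autoImplicit false
open Finset

namespace Crest.Agent.SW
open Crest.SwitchChain

variable {n : ℕ}

/-- vertices adjacent to exactly one of `u, v` -/
def Tset (G : Finset (Edge n)) (u v : Fin n) : Finset (Fin n) :=
  univ.filter (fun z => z ≠ u ∧ z ≠ v ∧ (adj G u z ↔ ¬ adj G v z))

/-- the part of `T` attached to `u` -/
def phiP {d : Fin n → ℕ} (G0 : Finset (Edge n)) (u v : Fin n) (G : Om d) : Finset (Fin n) :=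
  (Tset G0 u v).filter (fun z => adj G.1 u z)

/-! ### auxiliary: adjacency indicators -/

/-- adjacency indicator -/
def ai (G : Finset (Edge n)) (x y : Fin n) : ℕ := if adj G x y then 1 else 0

theorem ai_le_one (G : Finset (Edge n)) (x y : Fin n) : ai G x y ≤ 1 := by
  unfold ai; split_ifs <;> simp

theorem ai_comm (G : Finset (Edge n)) (x y : Fin n) : ai G x y = ai G y x := by
  unfold ai; simp only [adj_comm G x y]

theorem ai_self (G : Finset (Edge n)) (x : Fin n) : ai G x x = 0 := by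
  unfold ai; simp [not_adj_self]

theorem ai_eq_one {G : Finset (Edge n)} {x y : Fin n} : ai G x y = 1 ↔ adj G x y := by
  unfold ai; split_ifs with h <;> simp [h]

theorem ai_eq_zero {G : Finset (Edge n)} {x y : Fin n} : ai G x y = 0 ↔ ¬ adj G x y := by
  unfold ai; split_ifs with h <;> simp [h]

theorem adj_iff_of_ai_eq {G G' : Finset (Edge n)} {x y x' y' : Fin n}
    (h : ai G x y = ai G' x' y') : adj G x y ↔ adj G' x' y' := by
  rw [← ai_eq_one, ← ai_eq_one, h]

theorem ai_congr {G G' : Finset (Edge n)} {x y x' y' : Fin n}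
    (h : adj G x y ↔ adj G' x' y') : ai G x y = ai G' x' y' := by
  unfold ai; simp only [h]

theorem deg_eq_sum_ai (G : Finset (Edge n)) (x : Fin n) : deg G x = ∑ y, ai G x y := by
  rw [deg_eq_card_adj, Finset.card_filter]; rfl

/-- the vertices other than `u, v` -/
def oth (u v : Fin n) : Finset (Fin n) := (univ.erase u).erase v

theorem mem_oth {u v z : Fin n} : z ∈ oth u v ↔ z ≠ u ∧ z ≠ v := by
  simp [oth, and_comm]

theorem sum_split_uv {u v : Fin n} (huv : u ≠ v) (g : Fin n → ℕ) :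
    ∑ y, g y = g u + g v + ∑ y ∈ oth u v, g y := by
  unfold oth
  rw [← Finset.add_sum_erase _ _ (mem_univ u),
    ← Finset.add_sum_erase (univ.erase u) _ (Finset.mem_erase.2 ⟨huv.symm, mem_univ v⟩)]
  ring

theorem deg_split {u v : Fin n} (huv : u ≠ v) (G : Finset (Edge n)) (x : Fin n) :
    deg G x = ai G x u + ai G x v + ∑ y ∈ oth u v, ai G x y := by
  rw [deg_eq_sum_ai, sum_split_uv huv]

theorem mem_Tset {G : Finset (Edge n)} {u v z : Fin n} :
    z ∈ Tset G u v ↔ z ≠ u ∧ z ≠ v ∧ ai G u z + ai G v z = 1 := by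
  simp only [Tset, mem_filter, mem_univ, true_and]
  refine and_congr_right fun _ => and_congr_right fun _ => ?_
  unfold ai
  by_cases h1 : adj G u z <;> by_cases h2 : adj G v z <;> simp [h1, h2]

theorem Tset_subset_oth (G : Finset (Edge n)) (u v : Fin n) : Tset G u v ⊆ oth u v := by
  intro z hz
  rw [mem_Tset] at hz
  exact mem_oth.2 ⟨hz.1, hz.2.1⟩

theorem not_mem_inc_pair {u v : Fin n} {e : Edge n} :
    e ∉ inc {u, v} ↔ u ∉ e.1 ∧ v ∉ e.1 := by
  simp [inc]

/-- slots not incident to `u, v` are the same -/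
theorem adj_off {G G' : Finset (Edge n)} {u v : Fin n}
    (h : G \ inc {u, v} = G' \ inc {u, v}) {x y : Fin n} (hx : x ∈ oth u v) (hy : y ∈ oth u v) :
    adj G x y ↔ adj G' x y := by
  rw [mem_oth] at hx hy
  have key : ∀ H H' : Finset (Edge n), H \ inc {u, v} = H' \ inc {u, v} → adj H x y → adj H' x y := by
    rintro H H' hH ⟨e, he, hexy⟩
    have hn : e ∉ inc {u, v} := by
      rw [not_mem_inc_pair, hexy]
      simp only [Sym2.mem_iff, not_or]
      exact ⟨⟨hx.1.symm, hy.1.symm⟩, ⟨hx.2.symm, hy.2.symm⟩⟩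
    have : e ∈ H' \ inc {u, v} := hH ▸ Finset.mem_sdiff.2 ⟨he, hn⟩
    exact ⟨e, (Finset.mem_sdiff.1 this).1, hexy⟩
  exact ⟨key G G' h, key G' G h.symm⟩

section fibre
variable {G G' : Finset (Edge n)} {u v : Fin n}

/-- (F2) the number of edges from `z` to `{u,v}` -/
theorem ai_add_eq (huv : u ≠ v) (h : G \ inc {u, v} = G' \ inc {u, v})
    (hd : ∀ x, deg G x = deg G' x) {z : Fin n} (hz : z ∈ oth u v) :
    ai G u z + ai G v z = ai G' u z + ai G' v z := by
  have h1 := hd z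
  rw [deg_split huv, deg_split huv] at h1
  have h2 : ∑ y ∈ oth u v, ai G z y = ∑ y ∈ oth u v, ai G' z y :=
    Finset.sum_congr rfl fun y hy => ai_congr (adj_off h hz hy)
  rw [ai_comm G u z, ai_comm G v z, ai_comm G' u z, ai_comm G' v z]
  omega

/-- (F3) the slot `uv` -/
theorem ai_uv_eq (huv : u ≠ v) (h : G \ inc {u, v} = G' \ inc {u, v})
    (hd : ∀ x, deg G x = deg G' x) : ai G u v = ai G' u v := by
  have h1 := hd u
  have h2 := hd v
  rw [deg_split huv, deg_split huv] at h1 h2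
  have h3 : ∑ y ∈ oth u v, ai G u y + ∑ y ∈ oth u v, ai G v y
      = ∑ y ∈ oth u v, ai G' u y + ∑ y ∈ oth u v, ai G' v y := by
    rw [← Finset.sum_add_distrib, ← Finset.sum_add_distrib]
    exact Finset.sum_congr rfl fun y hy => ai_add_eq huv h hd hy
  simp only [ai_self, ai_comm G v u, ai_comm G' v u] at h1 h2
  omega

/-- (F4) the number of neighbours of `u` outside `{u, v}` -/
theorem sum_ai_u_eq (huv : u ≠ v) (h : G \ inc {u, v} = G' \ inc {u, v})
    (hd : ∀ x, deg G x = deg G' x) :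
    ∑ y ∈ oth u v, ai G u y = ∑ y ∈ oth u v, ai G' u y := by
  have h1 := hd u
  rw [deg_split huv, deg_split huv] at h1
  have h3 := ai_uv_eq huv h hd
  simp only [ai_self] at h1
  omega

theorem Tset_eq_of (huv : u ≠ v) (h : G \ inc {u, v} = G' \ inc {u, v})
    (hd : ∀ x, deg G x = deg G' x) : Tset G u v = Tset G' u v := by
  ext z
  rw [mem_Tset, mem_Tset]
  constructor
  · rintro ⟨h1, h2, h3⟩
    exact ⟨h1, h2, by rw [← ai_add_eq huv h hd (mem_oth.2 ⟨h1, h2⟩)]; exact h3⟩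
  · rintro ⟨h1, h2, h3⟩
    exact ⟨h1, h2, by rw [ai_add_eq huv h hd (mem_oth.2 ⟨h1, h2⟩)]; exact h3⟩

/-- outside `T` the slots at `u` and `v` are rigid -/
theorem ai_eq_of_not_mem_Tset (huv : u ≠ v) (h : G \ inc {u, v} = G' \ inc {u, v})
    (hd : ∀ x, deg G x = deg G' x) {z : Fin n} (hz : z ∈ oth u v) (hT : z ∉ Tset G' u v) :
    ai G u z = ai G' u z ∧ ai G v z = ai G' v z := by
  have h1 := ai_add_eq huv h hd hz
  rw [mem_Tset] at hT
  rw [mem_oth] at hz
  have h2 : ai G' u z + ai G' v z ≠ 1 := fun h3 => hT ⟨hz.1, hz.2, h3⟩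
  have := ai_le_one G u z
  have := ai_le_one G v z
  have := ai_le_one G' u z
  have := ai_le_one G' v z
  omega

/-- (F4') the number of neighbours of `u` in `T` -/
theorem sum_ai_T_eq (huv : u ≠ v) (h : G \ inc {u, v} = G' \ inc {u, v})
    (hd : ∀ x, deg G x = deg G' x) :
    ∑ y ∈ Tset G' u v, ai G u y = ∑ y ∈ Tset G' u v, ai G' u y := by
  have h1 := sum_ai_u_eq huv h hd
  rw [← Finset.sum_sdiff (Tset_subset_oth G' u v), ← Finset.sum_sdiff (Tset_subset_oth G' u v)] at h1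
  have h2 : ∑ y ∈ oth u v \ Tset G' u v, ai G u y = ∑ y ∈ oth u v \ Tset G' u v, ai G' u y := by
    refine Finset.sum_congr rfl fun y hy => ?_
    rw [Finset.mem_sdiff] at hy
    exact (ai_eq_of_not_mem_Tset huv h hd hy.1 hy.2).1
  omega

end fibre

theorem card_phiP {d : Fin n → ℕ} (G0 : Finset (Edge n)) (u v : Fin n) (G : Om d) :
    (phiP G0 u v G).card = ∑ y ∈ Tset G0 u v, ai G.1 u y := by
  unfold phiP
  rw [Finset.card_filter]; rfl

theorem Om_deg {d : Fin n → ℕ} (G : Om d) (x : Fin n) : deg G.1 x = d x := by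
  have := G.2
  simp only [realizations, mem_filter, mem_univ, true_and] at this
  exact this x

theorem Om_deg_eq {d : Fin n → ℕ} (G G' : Om d) (x : Fin n) : deg G.1 x = deg G'.1 x := by
  rw [Om_deg, Om_deg]

theorem mem_fib_offKey {d : Fin n → ℕ} {A : Finset (Edge n)} {G G0 : Om d} :
    G ∈ fib univ (offKey d A) G0 ↔ G.1 \ A = G0.1 \ A := by
  rw [mem_fib]; simp [offKey]

/-! ### the inverse map -/

/-- predicate (on slots) defining the graph with `N(u) ∩ T = S`, `N(v) ∩ T = T \ S` -/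
def newQ (G0 : Finset (Edge n)) (u v : Fin n) (T S : Finset (Fin n)) (σ : Sym2 (Fin n)) : Prop :=
  ((∃ e ∈ G0, e.1 = σ) ∧ ¬ ∃ z ∈ T, σ = s(u, z) ∨ σ = s(v, z)) ∨ (∃ z ∈ S, σ = s(u, z)) ∨
    (∃ z ∈ T \ S, σ = s(v, z))

instance (G0 : Finset (Edge n)) (u v : Fin n) (T S : Finset (Fin n)) (σ : Sym2 (Fin n)) :
    Decidable (newQ G0 u v T S σ) := by
  unfold newQ; infer_instance

/-- the graph with `N(u) ∩ T = S`, `N(v) ∩ T = T \ S` -/
def newG (G0 : Finset (Edge n)) (u v : Fin n) (T S : Finset (Fin n)) : Finset (Edge n) :=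
  univ.filter (fun e => newQ G0 u v T S e.1)

theorem adj_newG {G0 : Finset (Edge n)} {u v : Fin n} {T S : Finset (Fin n)} {x y : Fin n} :
    adj (newG G0 u v T S) x y ↔ x ≠ y ∧ newQ G0 u v T S s(x, y) := by
  constructor
  · rintro ⟨e, he, hexy⟩
    have h1 := e.2
    rw [hexy, Sym2.mk_isDiag_iff] at h1
    simp only [newG, mem_filter, mem_univ, true_and, hexy] at he
    exact ⟨h1, he⟩
  · rintro ⟨h1, h2⟩
    exact ⟨⟨s(x, y), by rwa [Sym2.mk_isDiag_iff]⟩, by simpa [newG] using h2, rfl⟩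

section newG
variable {G0 : Finset (Edge n)} {u v : Fin n} {T S : Finset (Fin n)}

theorem newG_off {x y : Fin n} (hx : x ∈ oth u v) (hy : y ∈ oth u v) :
    adj (newG G0 u v T S) x y ↔ adj G0 x y := by
  rw [mem_oth] at hx hy
  rw [adj_newG]
  have hxy : adj G0 x y → x ≠ y := by rintro h rfl; exact not_adj_self _ _ h
  simp only [newQ, Sym2.eq_iff]
  unfold adj at *
  grind

theorem newG_uv (huv : u ≠ v) (hT : T ⊆ oth u v) (hS : S ⊆ T) :
    adj (newG G0 u v T S) u v ↔ adj G0 u v := by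
  rw [adj_newG]
  have hT' : ∀ z ∈ T, z ≠ u ∧ z ≠ v := fun z hz => mem_oth.1 (hT hz)
  have hS' : ∀ z ∈ S, z ∈ T := fun z hz => hS hz
  simp only [newQ, Sym2.eq_iff, mem_sdiff]
  unfold adj at *
  grind

theorem newG_u_T (huv : u ≠ v) (hT : T ⊆ oth u v) (hS : S ⊆ T) {z : Fin n} (hz : z ∈ T) :
    adj (newG G0 u v T S) u z ↔ z ∈ S := by
  rw [adj_newG]
  have hT' : ∀ z ∈ T, z ≠ u ∧ z ≠ v := fun z hz => mem_oth.1 (hT hz)
  have hS' : ∀ z ∈ S, z ∈ T := fun z hz => hS hz
  simp only [newQ, Sym2.eq_iff, mem_sdiff]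
  grind

theorem newG_v_T (huv : u ≠ v) (hT : T ⊆ oth u v) (hS : S ⊆ T) {z : Fin n} (hz : z ∈ T) :
    adj (newG G0 u v T S) v z ↔ z ∉ S := by
  rw [adj_newG]
  have hT' : ∀ z ∈ T, z ≠ u ∧ z ≠ v := fun z hz => mem_oth.1 (hT hz)
  have hS' : ∀ z ∈ S, z ∈ T := fun z hz => hS hz
  simp only [newQ, Sym2.eq_iff, mem_sdiff]
  grind

theorem newG_u_notT (_huv : u ≠ v) (hT : T ⊆ oth u v) (hS : S ⊆ T) {z : Fin n} (hz : z ∈ oth u v)
    (hzT : z ∉ T) : adj (newG G0 u v T S) u z ↔ adj G0 u z := by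
  rw [adj_newG]
  rw [mem_oth] at hz
  have hT' : ∀ z ∈ T, z ≠ u ∧ z ≠ v := fun z hz => mem_oth.1 (hT hz)
  have hS' : ∀ z ∈ S, z ∈ T := fun z hz => hS hz
  simp only [newQ, Sym2.eq_iff, mem_sdiff]
  unfold adj at *
  grind

theorem newG_v_notT (_huv : u ≠ v) (hT : T ⊆ oth u v) (hS : S ⊆ T) {z : Fin n} (hz : z ∈ oth u v)
    (hzT : z ∉ T) : adj (newG G0 u v T S) v z ↔ adj G0 v z := by
  rw [adj_newG]
  rw [mem_oth] at hz
  have hT' : ∀ z ∈ T, z ≠ u ∧ z ≠ v := fun z hz => mem_oth.1 (hT hz)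
  have hS' : ∀ z ∈ S, z ∈ T := fun z hz => hS hz
  simp only [newQ, Sym2.eq_iff, mem_sdiff]
  unfold adj at *
  grind

theorem newG_sdiff : newG G0 u v T S \ inc {u, v} = G0 \ inc {u, v} := by
  ext e
  simp only [mem_sdiff, not_mem_inc_pair, newG, mem_filter, mem_univ, true_and]
  refine and_congr_left ?_
  rintro ⟨h1, h2⟩
  have h3 : ∀ z, e.1 ≠ s(u, z) := by
    intro z h; apply h1; rw [h]; simp
  have h4 : ∀ z, e.1 ≠ s(v, z) := by
    intro z h; apply h2; rw [h]; simp
  have h5 : (∃ e' ∈ G0, e'.1 = e.1) ↔ e ∈ G0 := by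
    constructor
    · rintro ⟨e', he', h⟩
      rwa [← Subtype.ext h]
    · intro h; exact ⟨e, h, rfl⟩
  simp only [newQ, h3, h4, h5]
  simp

theorem newG_deg (huv : u ≠ v) (hS : S ⊆ Tset G0 u v)
    (hcard : S.card = ∑ y ∈ Tset G0 u v, ai G0 u y) (w : Fin n) :
    deg (newG G0 u v (Tset G0 u v) S) w = deg G0 w := by
  have hT := Tset_subset_oth G0 u v
  set T := Tset G0 u v with hTdef
  set H := newG G0 u v T S with hH
  -- sums over `T`
  have hHu : ∑ y ∈ T, ai H u y = S.card := by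
    have : ∑ y ∈ T, ai H u y = ∑ y ∈ T, if y ∈ S then 1 else 0 := by
      refine Finset.sum_congr rfl fun y hy => ?_
      unfold ai
      simp only [newG_u_T huv hT hS hy, hH]
    rw [this, ← Finset.card_filter, Finset.filter_mem_eq_inter, Finset.inter_eq_right.2 hS]
  have hHuv : ∑ y ∈ T, ai H u y + ∑ y ∈ T, ai H v y = T.card := by
    rw [← Finset.sum_add_distrib, Finset.card_eq_sum_ones]
    refine Finset.sum_congr rfl fun y hy => ?_
    unfold ai
    simp only [newG_u_T huv hT hS hy, newG_v_T huv hT hS hy, hH]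
    by_cases h : y ∈ S <;> simp [h]
  have hGuv : ∑ y ∈ T, ai G0 u y + ∑ y ∈ T, ai G0 v y = T.card := by
    rw [← Finset.sum_add_distrib, Finset.card_eq_sum_ones]
    refine Finset.sum_congr rfl fun y hy => ?_
    exact (mem_Tset.1 hy).2.2
  have hou : ∑ y ∈ oth u v \ T, ai H u y = ∑ y ∈ oth u v \ T, ai G0 u y := by
    refine Finset.sum_congr rfl fun y hy => ?_
    rw [Finset.mem_sdiff] at hy
    exact ai_congr (newG_u_notT huv hT hS hy.1 hy.2)
  have hov : ∑ y ∈ oth u v \ T, ai H v y = ∑ y ∈ oth u v \ T, ai G0 v y := by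
    refine Finset.sum_congr rfl fun y hy => ?_
    rw [Finset.mem_sdiff] at hy
    exact ai_congr (newG_v_notT huv hT hS hy.1 hy.2)
  have huv' : ai H u v = ai G0 u v := ai_congr (newG_uv huv hT hS)
  rw [deg_split huv, deg_split huv]
  by_cases hw : w ∈ oth u v
  · have h1 : ∑ y ∈ oth u v, ai H w y = ∑ y ∈ oth u v, ai G0 w y :=
      Finset.sum_congr rfl fun y hy => ai_congr (newG_off hw hy)
    have h2 : ai H u w + ai H v w = ai G0 u w + ai G0 v w := by
      by_cases hwT : w ∈ T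
      · rw [(mem_Tset.1 hwT).2.2]
        unfold ai
        simp only [newG_u_T huv hT hS hwT, newG_v_T huv hT hS hwT, hH]
        by_cases h : w ∈ S <;> simp [h]
      · rw [ai_congr (newG_u_notT huv hT hS hw hwT), ai_congr (newG_v_notT huv hT hS hw hwT)]
    rw [ai_comm H w u, ai_comm H w v, ai_comm G0 w u, ai_comm G0 w v]
    omega
  · rw [mem_oth, not_and_or, not_not, not_not] at hw
    rw [← Finset.sum_sdiff hT, ← Finset.sum_sdiff hT]
    rcases hw with rfl | rfl
    · rw [ai_self, ai_self]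
      omega
    · rw [ai_self, ai_self, ai_comm H w u, ai_comm G0 w u]
      omega

end newG

variable (d : Fin n → ℕ) (u v : Fin n) (G0 : Om d)

/-- P1a -/
theorem pf_Tset_eq (huv : u ≠ v) (G : Om d) (hG : G ∈ fib univ (offKey d (inc {u, v})) G0) :
    Tset G.1 u v = Tset G0.1 u v :=
  Tset_eq_of huv (mem_fib_offKey.1 hG) (Om_deg_eq G G0)

/-- P1b -/
theorem pf_inj (huv : u ≠ v) :
    Set.InjOn (phiP (d := d) G0.1 u v) (fib univ (offKey d (inc {u, v})) G0 : Set (Om d)) := by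
  intro G hG G' hG' hphi
  rw [Finset.mem_coe, mem_fib_offKey] at hG hG'
  have hGG' : G.1 \ inc {u, v} = G'.1 \ inc {u, v} := hG.trans hG'.symm
  -- the slots at `u`
  have hu : ∀ z ∈ oth u v, ai G.1 u z = ai G'.1 u z := by
    intro z hz
    by_cases hT : z ∈ Tset G0.1 u v
    · apply ai_congr
      have h1 : z ∈ phiP G0.1 u v G ↔ z ∈ phiP G0.1 u v G' := by rw [hphi]
      simpa [phiP, hT] using h1
    · rw [(ai_eq_of_not_mem_Tset huv hG (Om_deg_eq G G0) hz hT).1,
        (ai_eq_of_not_mem_Tset huv hG' (Om_deg_eq G' G0) hz hT).1]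
  have hv : ∀ z ∈ oth u v, ai G.1 v z = ai G'.1 v z := by
    intro z hz
    have h1 := ai_add_eq huv hGG' (Om_deg_eq G G') hz
    have h2 := hu z hz
    omega
  have huv' := ai_uv_eq huv hGG' (Om_deg_eq G G')
  apply Subtype.ext
  apply ext_adj
  intro a b
  apply adj_iff_of_ai_eq
  by_cases ha : a ∈ oth u v
  · by_cases hb : b ∈ oth u v
    · exact ai_congr (adj_off hGG' ha hb)
    · rw [mem_oth, not_and_or, not_not, not_not] at hb
      rcases hb with rfl | rfl
      · rw [ai_comm, ai_comm G'.1]; exact hu a ha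
      · rw [ai_comm, ai_comm G'.1]; exact hv a ha
  · rw [mem_oth, not_and_or, not_not, not_not] at ha
    by_cases hb : b ∈ oth u v
    · rcases ha with rfl | rfl
      · exact hu b hb
      · exact hv b hb
    · rw [mem_oth, not_and_or, not_not, not_not] at hb
      rcases ha with rfl | rfl <;> rcases hb with rfl | rfl
      · rw [ai_self, ai_self]
      · exact huv'
      · rw [ai_comm, ai_comm G'.1]; exact huv'
      · rw [ai_self, ai_self]

/-- P1c -/
theorem pf_image (huv : u ≠ v) :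
    (fib univ (offKey d (inc {u, v})) G0).image (phiP G0.1 u v)
      = JX (Tset G0.1 u v) (phiP G0.1 u v G0).card := by
  ext S
  simp only [JX, mem_image, mem_powersetCard]
  constructor
  · rintro ⟨G, hG, rfl⟩
    rw [mem_fib_offKey] at hG
    refine ⟨Finset.filter_subset _ _, ?_⟩
    rw [card_phiP, card_phiP]
    exact sum_ai_T_eq huv hG (Om_deg_eq G G0)
  · rintro ⟨hS, hcard⟩
    rw [card_phiP] at hcard
    have hdeg := newG_deg huv hS hcard
    have hmem : newG G0.1 u v (Tset G0.1 u v) S ∈ realizations d := by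
      simp only [realizations, mem_filter, mem_univ, true_and]
      intro w
      rw [hdeg w, Om_deg]
    refine ⟨⟨_, hmem⟩, mem_fib_offKey.2 newG_sdiff, ?_⟩
    ext z
    simp only [phiP, mem_filter]
    constructor
    · rintro ⟨h1, h2⟩
      exact (newG_u_T huv (Tset_subset_oth _ _ _) hS h1).1 h2
    · intro h
      exact ⟨hS h, (newG_u_T huv (Tset_subset_oth _ _ _) hS (hS h)).2 h⟩

end Crest.Agent.SW
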