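import Crest.Agent.SW_P1

/-!
# S0453: pair fibre, correspondence of keys (task P2)
-/

set_option autoImplicit false
open Finset

namespace Crest.Agent.SW
open Crest.SwitchChain

variable {n : ℕ}

/-! ### slots and adjacency -/

private theorem p2_mem_iff_adj (G : Finset (Edge n)) (s : Edge n) (a b : Fin n)
    (h : s.1 = s(a, b)) : s ∈ G ↔ adj G a b := by
  constructor
  · intro hs; exact ⟨s, hs, h⟩
  · rintro ⟨e, he, h'⟩
    have : e = s := Subtype.ext (h'.trans h.symm)
    exact this ▸ he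

private theorem p2_exists_rep (s : Edge n) : ∃ a b : Fin n, a ≠ b ∧ s.1 = s(a, b) := by
  obtain ⟨s, hs⟩ := s
  induction s using Sym2.ind with
  | _ a b => exact ⟨a, b, by simpa using hs, rfl⟩

private theorem p2_mem_inc (K : Finset (Fin n)) (s : Edge n) (a b : Fin n) (h : s.1 = s(a, b)) :
    s ∈ inc K ↔ a ∈ K ∨ b ∈ K := by
  simp only [inc, mem_filter, mem_univ, true_and, h, Sym2.mem_iff]
  constructor
  · rintro ⟨v, hv, rfl | rfl⟩
    · exact Or.inl hv
    · exact Or.inr hv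
  · rintro (h | h)
    · exact ⟨a, h, Or.inl rfl⟩
    · exact ⟨b, h, Or.inr rfl⟩

private theorem p2_offKey_iff (d : Fin n → ℕ) (A : Finset (Edge n)) (G G' : Om d) :
    offKey d A G = offKey d A G' ↔ ∀ s : Edge n, s ∉ A → (s ∈ G.1 ↔ s ∈ G'.1) := by
  unfold offKey
  constructor
  · intro h s hs
    have := congrArg (fun X => s ∈ X) h
    simpa [mem_sdiff, hs] using this
  · intro h
    ext s
    simp only [mem_sdiff]
    by_cases hs : s ∈ A
    · simp [hs]
    · simp [hs, h s hs]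

private theorem p2_card_slot (G : Finset (Edge n)) (a z : Fin n) :
    (G.filter (fun s => s.1 = s(a, z))).card = if adj G a z then 1 else 0 := by
  split_ifs with h
  · obtain ⟨e, he, h'⟩ := h
    have : G.filter (fun s => s.1 = s(a, z)) = {e} := by
      ext s
      simp only [mem_filter, mem_singleton]
      constructor
      · rintro ⟨_, hs⟩; exact Subtype.ext (hs.trans h'.symm)
      · rintro rfl; exact ⟨he, h'⟩
    rw [this, card_singleton]
  · rw [card_eq_zero, filter_eq_empty_iff]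
    intro s hs hs'
    exact h ⟨s, hs, hs'⟩

/-- number of block slots of `G` at a vertex `z ∈ K`. -/
private theorem p2_card_blk (G : Finset (Edge n)) (a b : Fin n) (hab : a ≠ b) (K : Finset (Fin n))
    (z : Fin n) (hz : z ∈ K) (ha : a ∉ K) (hb : b ∉ K) :
    ((G ∩ blk {a, b} K).filter (fun s => z ∈ s.1)).card
      = (if adj G a z then 1 else 0) + (if adj G b z then 1 else 0) := by
  have haz : a ≠ z := by rintro rfl; exact ha hz
  have hbz : b ≠ z := by rintro rfl; exact hb hz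
  have hset : (G ∩ blk {a, b} K).filter (fun s => z ∈ s.1)
      = G.filter (fun s => s.1 = s(a, z)) ∪ G.filter (fun s => s.1 = s(b, z)) := by
    ext s
    simp only [mem_filter, mem_inter, mem_union, blk, inc, mem_univ, true_and, mem_insert,
      mem_singleton, ← Sym2.mem_and_mem_iff haz, ← Sym2.mem_and_mem_iff hbz]
    constructor
    · rintro ⟨⟨hs, ⟨w, rfl | rfl, hw⟩, _⟩, hzs⟩
      · exact Or.inl ⟨hs, hw, hzs⟩
      · exact Or.inr ⟨hs, hw, hzs⟩
    · rintro (⟨hs, h1, h2⟩ | ⟨hs, h1, h2⟩)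
      · exact ⟨⟨hs, ⟨a, Or.inl rfl, h1⟩, ⟨z, hz, h2⟩⟩, h2⟩
      · exact ⟨⟨hs, ⟨b, Or.inr rfl, h1⟩, ⟨z, hz, h2⟩⟩, h2⟩
  rw [hset, card_union_of_disjoint, p2_card_slot, p2_card_slot]
  rw [disjoint_filter]
  intro s _ h1 h2
  rw [h1] at h2
  exact hab (Sym2.congr_left.mp h2)

private theorem p2_card_inter_pair (Y : Finset (Fin n)) {x y : Fin n} (hxy : x ≠ y) :
    (Y ∩ {x, y}).card = (if x ∈ Y then 1 else 0) + (if y ∈ Y then 1 else 0) := by
  rw [inter_comm, ← filter_mem_eq_inter, card_filter, sum_pair hxy]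

/-! ### structure of the fibre -/

variable (d : Fin n → ℕ) (u v : Fin n) (G0 : Om d)

private theorem p2_deg (G : Om d) (z : Fin n) : deg G.1 z = d z := by
  have := G.2
  unfold realizations at this
  exact (mem_filter.mp this).2 z

private theorem p2_deg_sum (G : Finset (Edge n)) (huv : u ≠ v) (z : Fin n) :
    deg G z = ((if adj G z u then 1 else 0) + (if adj G z v then 1 else 0))
      + ∑ w ∈ ({u, v} : Finset (Fin n))ᶜ, (if adj G z w then 1 else 0) := by
  rw [deg_eq_card_adj, card_filter, ← Finset.sum_add_sum_compl ({u, v} : Finset (Fin n)),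
    Finset.sum_pair huv]

private theorem p2_F1 (G : Om d) (hG : G ∈ fib univ (offKey d (inc {u, v})) G0) (a b : Fin n)
    (ha : a ∉ ({u, v} : Finset (Fin n))) (hb : b ∉ ({u, v} : Finset (Fin n))) :
    adj G.1 a b ↔ adj G0.1 a b := by
  by_cases hab : a = b
  · subst hab; simp [not_adj_self]
  have h := (mem_filter.mp hG).2
  rw [p2_offKey_iff] at h
  have hs : ¬ (s(a, b) : Sym2 (Fin n)).IsDiag := by simpa using hab
  have := h ⟨s(a, b), hs⟩ (by rw [p2_mem_inc _ _ a b rfl]; tauto)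
  rwa [p2_mem_iff_adj G.1 _ a b rfl, p2_mem_iff_adj G0.1 _ a b rfl] at this

private theorem p2_F3 (huv : u ≠ v) (G : Om d) (hG : G ∈ fib univ (offKey d (inc {u, v})) G0)
    (z : Fin n) (hz : z ∉ ({u, v} : Finset (Fin n))) :
    (if adj G.1 u z then 1 else 0) + (if adj G.1 v z then 1 else 0)
      = (if adj G0.1 u z then 1 else 0) + (if adj G0.1 v z then 1 else 0) := by
  have h1 := p2_deg_sum u v G.1 huv z
  have h2 := p2_deg_sum u v G0.1 huv z
  rw [p2_deg] at h1 h2
  have h3 : ∑ w ∈ ({u, v} : Finset (Fin n))ᶜ, (if adj G.1 z w then 1 else 0)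
      = ∑ w ∈ ({u, v} : Finset (Fin n))ᶜ, (if adj G0.1 z w then 1 else 0) := by
    apply sum_congr rfl
    intro w hw
    rw [mem_compl] at hw
    simp only [p2_F1 d u v G0 G hG z w hz hw]
  simp only [adj_comm _ u z, adj_comm _ v z]
  omega

private theorem p2_F2 (huv : u ≠ v) (G : Om d) (hG : G ∈ fib univ (offKey d (inc {u, v})) G0) :
    adj G.1 u v ↔ adj G0.1 u v := by
  have h1 := p2_deg_sum u v G.1 huv u
  have h1' := p2_deg_sum u v G.1 huv v
  have h2 := p2_deg_sum u v G0.1 huv u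
  have h2' := p2_deg_sum u v G0.1 huv v
  rw [p2_deg] at h1 h1' h2 h2'
  have h3 : ∑ w ∈ ({u, v} : Finset (Fin n))ᶜ, (if adj G.1 u w then 1 else 0)
        + ∑ w ∈ ({u, v} : Finset (Fin n))ᶜ, (if adj G.1 v w then 1 else 0)
      = ∑ w ∈ ({u, v} : Finset (Fin n))ᶜ, (if adj G0.1 u w then 1 else 0)
        + ∑ w ∈ ({u, v} : Finset (Fin n))ᶜ, (if adj G0.1 v w then 1 else 0) := by
    rw [← sum_add_distrib, ← sum_add_distrib]
    apply sum_congr rfl
    intro w hw
    exact p2_F3 d u v G0 huv G hG w (mem_compl.mp hw)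
  simp only [not_adj_self, if_false, adj_comm _ v u] at h1 h1' h2 h2'
  by_cases hA : adj G.1 u v <;> by_cases hB : adj G0.1 u v <;>
    simp only [hA, hB, if_true, if_false] at h1 h1' h2 h2' ⊢ <;> omega

private theorem p2_mem_Tset (G : Finset (Edge n)) (z : Fin n) :
    z ∈ Tset G u v ↔ z ∉ ({u, v} : Finset (Fin n)) ∧ (adj G u z ↔ ¬ adj G v z) := by
  simp only [Tset, mem_filter, mem_univ, true_and, mem_insert, mem_singleton, not_or, and_assoc]

/-- on `T` exactly one of `uz`, `vz` is present -/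
private theorem p2_S2 (huv : u ≠ v) (G : Om d) (hG : G ∈ fib univ (offKey d (inc {u, v})) G0)
    (z : Fin n) (hz : z ∈ Tset G0.1 u v) : adj G.1 v z ↔ ¬ adj G.1 u z := by
  rw [p2_mem_Tset] at hz
  have h := p2_F3 d u v G0 huv G hG z hz.1
  have h' := hz.2
  by_cases a1 : adj G.1 u z <;> by_cases a2 : adj G.1 v z <;> by_cases a3 : adj G0.1 u z <;>
    by_cases a4 : adj G0.1 v z <;> simp_all

/-- off `T` the slots `uz`, `vz` are frozen -/
private theorem p2_F5 (huv : u ≠ v) (G : Om d) (hG : G ∈ fib univ (offKey d (inc {u, v})) G0)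
    (z : Fin n) (hz : z ∉ ({u, v} : Finset (Fin n))) (hzT : z ∉ Tset G0.1 u v) :
    (adj G.1 u z ↔ adj G0.1 u z) ∧ (adj G.1 v z ↔ adj G0.1 v z) := by
  rw [p2_mem_Tset] at hzT
  have h := p2_F3 d u v G0 huv G hG z hz
  by_cases a1 : adj G.1 u z <;> by_cases a2 : adj G.1 v z <;> by_cases a3 : adj G0.1 u z <;>
    by_cases a4 : adj G0.1 v z <;> simp_all

/-- all slots except those between `{u,v}` and `T` are frozen. -/
private theorem p2_S1 (huv : u ≠ v) (G : Om d) (hG : G ∈ fib univ (offKey d (inc {u, v})) G0)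
    (a b : Fin n) (h1 : ¬ (a ∈ ({u, v} : Finset (Fin n)) ∧ b ∈ Tset G0.1 u v))
    (h2 : ¬ (b ∈ ({u, v} : Finset (Fin n)) ∧ a ∈ Tset G0.1 u v)) :
    adj G.1 a b ↔ adj G0.1 a b := by
  by_cases ha : a ∈ ({u, v} : Finset (Fin n)) <;> by_cases hb : b ∈ ({u, v} : Finset (Fin n))
  · have hF2 := p2_F2 d u v G0 huv G hG
    simp only [mem_insert, mem_singleton] at ha hb
    rcases ha with rfl | rfl <;> rcases hb with rfl | rfl
    · simp [not_adj_self]
    · exact hF2
    · rw [adj_comm, adj_comm G0.1]; exact hF2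
    · simp [not_adj_self]
  · have hbT : b ∉ Tset G0.1 u v := fun h => h1 ⟨ha, h⟩
    have := p2_F5 d u v G0 huv G hG b hb hbT
    simp only [mem_insert, mem_singleton] at ha
    rcases ha with rfl | rfl
    · exact this.1
    · exact this.2
  · have haT : a ∉ Tset G0.1 u v := fun h => h2 ⟨hb, h⟩
    have := p2_F5 d u v G0 huv G hG a ha haT
    simp only [mem_insert, mem_singleton] at hb
    rw [adj_comm, adj_comm G0.1]
    rcases hb with rfl | rfl
    · exact this.1
    · exact this.2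
  · exact p2_F1 d u v G0 G hG a b ha hb

private theorem p2_mem_phiP (G : Om d) (z : Fin n) :
    z ∈ phiP G0.1 u v G ↔ z ∈ Tset G0.1 u v ∧ adj G.1 u z := by
  simp only [phiP, mem_filter]

/-- the general correspondence of keys -/
private theorem p2_key (huv : u ≠ v) (A : Finset (Edge n)) (B : Finset (Fin n))
    (hA1 : ∀ (s : Edge n) (z : Fin n), z ∈ Tset G0.1 u v → z ∉ B → s.1 = s(u, z) → s ∉ A)
    (hA2 : ∀ (s : Edge n) (a z : Fin n), a ∈ ({u, v} : Finset (Fin n)) → z ∈ Tset G0.1 u v → z ∈ B →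
      s.1 = s(a, z) → s ∈ A)
    (G G' : Om d) (hG : G ∈ fib univ (offKey d (inc {u, v})) G0)
    (hG' : G' ∈ fib univ (offKey d (inc {u, v})) G0) :
    offKey d A G = offKey d A G' ↔ jKey B (phiP G0.1 u v G) = jKey B (phiP G0.1 u v G') := by
  rw [p2_offKey_iff]
  unfold jKey
  constructor
  · intro h
    ext z
    simp only [mem_sdiff, p2_mem_phiP]
    by_cases hzT : z ∈ Tset G0.1 u v
    · by_cases hzB : z ∈ B
      · simp [hzB]
      · have huz : u ≠ z := by
          rintro rfl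
          exact ((p2_mem_Tset u v G0.1 u).mp hzT).1 (by simp)
        have hs : ¬ (s(u, z) : Sym2 (Fin n)).IsDiag := by simpa using huz
        have := h ⟨s(u, z), hs⟩ (hA1 _ z hzT hzB rfl)
        rw [p2_mem_iff_adj G.1 _ u z rfl, p2_mem_iff_adj G'.1 _ u z rfl] at this
        simp [this]
    · simp [hzT]
  · intro h s hs
    have key : ∀ a z : Fin n, s.1 = s(a, z) → a ∈ ({u, v} : Finset (Fin n)) →
        z ∈ Tset G0.1 u v → (s ∈ G.1 ↔ s ∈ G'.1) := by
      intro a z hsz ha hzT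
      have hzB : z ∉ B := fun hzB => hs (hA2 s a z ha hzT hzB hsz)
      have hu : adj G.1 u z ↔ adj G'.1 u z := by
        have := congrArg (fun X => z ∈ X) h
        simpa [mem_sdiff, p2_mem_phiP, hzT, hzB] using this
      rw [p2_mem_iff_adj G.1 _ a z hsz, p2_mem_iff_adj G'.1 _ a z hsz]
      simp only [mem_insert, mem_singleton] at ha
      rcases ha with rfl | rfl
      · exact hu
      · rw [p2_S2 d u a G0 huv G hG z hzT, p2_S2 d u a G0 huv G' hG' z hzT, hu]
    obtain ⟨a, b, _, hab⟩ := p2_exists_rep s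
    by_cases c1 : a ∈ ({u, v} : Finset (Fin n)) ∧ b ∈ Tset G0.1 u v
    · exact key a b hab c1.1 c1.2
    by_cases c2 : b ∈ ({u, v} : Finset (Fin n)) ∧ a ∈ Tset G0.1 u v
    · exact key b a (hab.trans Sym2.eq_swap) c2.1 c2.2
    rw [p2_mem_iff_adj G.1 _ a b hab, p2_mem_iff_adj G'.1 _ a b hab,
      p2_S1 d u v G0 huv G hG a b c1 c2, p2_S1 d u v G0 huv G' hG' a b c1 c2]

/-- P2a -/
theorem pf_key_blk (huv : u ≠ v) (e : Finset (Fin n)) (he : e ∈ (Tset G0.1 u v).powersetCard 2)
    (G G' : Om d) (hG : G ∈ fib univ (offKey d (inc {u, v})) G0)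
    (hG' : G' ∈ fib univ (offKey d (inc {u, v})) G0) :
    offKey d (blk {u, v} e) G = offKey d (blk {u, v} e) G'
      ↔ jKey e (phiP G0.1 u v G) = jKey e (phiP G0.1 u v G') := by
  have heT := (mem_powersetCard.mp he).1
  have hue : u ∉ e := fun h => ((p2_mem_Tset u v G0.1 u).mp (heT h)).1 (by simp)
  apply p2_key d u v G0 huv _ _ _ _ G G' hG hG'
  · intro s z _ hzB hs hmem
    rw [blk, mem_inter, p2_mem_inc _ s u z hs, p2_mem_inc _ s u z hs] at hmem
    rcases hmem.2 with h | h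
    · exact hue h
    · exact hzB h
  · intro s a z ha _ hzB hs
    rw [blk, mem_inter, p2_mem_inc _ s a z hs, p2_mem_inc _ s a z hs]
    exact ⟨Or.inl ha, Or.inr hzB⟩

/-- P2b -/
theorem pf_key_out (huv : u ≠ v) (e : Finset (Fin n)) (he : e ∈ (Tset G0.1 u v).powersetCard 2)
    (G G' : Om d) (hG : G ∈ fib univ (offKey d (inc {u, v})) G0)
    (hG' : G' ∈ fib univ (offKey d (inc {u, v})) G0) :
    offKey d (inc {u, v} \ inc e) G = offKey d (inc {u, v} \ inc e) G'
      ↔ jKey (Tset G0.1 u v \ e) (phiP G0.1 u v G) = jKey (Tset G0.1 u v \ e) (phiP G0.1 u v G') := by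
  have heT := (mem_powersetCard.mp he).1
  have hue : u ∉ e := fun h => ((p2_mem_Tset u v G0.1 u).mp (heT h)).1 (by simp)
  have hve : v ∉ e := fun h => ((p2_mem_Tset u v G0.1 v).mp (heT h)).1 (by simp)
  apply p2_key d u v G0 huv _ _ _ _ G G' hG hG'
  · intro s z hzT hzB hs hmem
    rw [mem_sdiff, p2_mem_inc _ s u z hs, p2_mem_inc _ s u z hs] at hmem
    apply hmem.2
    right
    by_contra hze
    exact hzB (mem_sdiff.mpr ⟨hzT, hze⟩)
  · intro s a z ha _ hzB hs
    rw [mem_sdiff, p2_mem_inc _ s a z hs, p2_mem_inc _ s a z hs]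
    refine ⟨Or.inl ha, ?_⟩
    rintro (h | h)
    · simp only [mem_insert, mem_singleton] at ha
      rcases ha with rfl | rfl
      · exact hue h
      · exact hve h
    · exact (mem_sdiff.mp hzB).2 h

/-- P2c -/
theorem pf_Dm (huv : u ≠ v) (e : Finset (Fin n)) (he : e ∈ (Tset G0.1 u v).powersetCard 2)
    (G : Om d) (hG : G ∈ fib univ (offKey d (inc {u, v})) G0) :
    Dm {u, v} e G.1 ↔ (phiP G0.1 u v G ∩ e).card = 1 := by
  obtain ⟨heT, hcard⟩ := mem_powersetCard.mp he
  have hue : u ∉ e := fun h => ((p2_mem_Tset u v G0.1 u).mp (heT h)).1 (by simp)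
  have hve : v ∉ e := fun h => ((p2_mem_Tset u v G0.1 v).mp (heT h)).1 (by simp)
  obtain ⟨x, y, hxy, rfl⟩ := card_eq_two.mp hcard
  have hxT : x ∈ Tset G0.1 u v := heT (by simp)
  have hyT : y ∈ Tset G0.1 u v := heT (by simp)
  have hx' : x ∉ ({u, v} : Finset (Fin n)) := ((p2_mem_Tset u v G0.1 x).mp hxT).1
  have hy' : y ∉ ({u, v} : Finset (Fin n)) := ((p2_mem_Tset u v G0.1 y).mp hyT).1
  have sx := p2_S2 d u v G0 huv G hG x hxT
  have sy := p2_S2 d u v G0 huv G hG y hyT
  rw [p2_card_inter_pair _ hxy]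
  simp only [p2_mem_phiP, hxT, hyT, true_and]
  unfold Dm
  have cx := p2_card_blk G.1 u v huv {x, y} x (by simp) hue hve
  have cy := p2_card_blk G.1 u v huv {x, y} y (by simp) hue hve
  have cu := p2_card_blk G.1 x y hxy {u, v} u (by simp) hx' hy'
  have cv := p2_card_blk G.1 x y hxy {u, v} v (by simp) hx' hy'
  have hbc : blk ({x, y} : Finset (Fin n)) {u, v} = blk {u, v} {x, y} := by simp [blk, inter_comm]
  rw [hbc] at cu cv
  simp only [adj_comm _ x, adj_comm _ y] at cu cv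
  constructor
  · intro h
    have := h u (by simp)
    rw [cu] at this
    exact this
  · intro h w hw
    simp only [mem_union, mem_insert, mem_singleton] at hw
    rcases hw with (rfl | rfl) | (rfl | rfl)
    · rw [cu]; exact h
    · rw [cv]
      by_cases a1 : adj G.1 u x <;> by_cases a2 : adj G.1 u y <;> simp_all
    · rw [cx]
      by_cases a1 : adj G.1 u w <;> simp_all
    · rw [cy]
      by_cases a1 : adj G.1 u w <;> simp_all

/-- P2d -/
theorem pf_not_Dm (huv : u ≠ v) (e : Finset (Fin n)) (he : e ∈ P2d ({u, v} : Finset (Fin n)))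
    (heT : ¬ e ⊆ Tset G0.1 u v)
    (G : Om d) (hG : G ∈ fib univ (offKey d (inc {u, v})) G0) :
    ¬ Dm {u, v} e G.1 := by
  intro hD
  obtain ⟨_, hdis⟩ := mem_filter.mp he
  have hue : u ∉ e := fun h => (disjoint_left.mp hdis) (by simp) h
  have hve : v ∉ e := fun h => (disjoint_left.mp hdis) (by simp) h
  obtain ⟨z, hze, hzT⟩ := not_subset.mp heT
  have hz : z ∉ ({u, v} : Finset (Fin n)) := fun h => (disjoint_left.mp hdis) h hze
  have h1 := hD z (mem_union_right _ hze)
  rw [p2_card_blk G.1 u v huv e z hze hue hve, p2_F3 d u v G0 huv G hG z hz] at h1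
  apply hzT
  rw [p2_mem_Tset]
  refine ⟨hz, ?_⟩
  by_cases a3 : adj G0.1 u z <;> by_cases a4 : adj G0.1 v z <;> simp_all

end Crest.Agent.SW
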