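import Crest.Agent.SW_P2
import Crest.Agent.SW_Johnson

/-!
# S0453: pair fibre, transport of the W-lemma (task P3)

The first part (`pfPush`, `pf_Q_transport`, `pf_Q_blk`, `pf_Q_out`, `pf_Q_inc`, `pf_sum_image`, `pf_energy_le`,
`swE_eq_sum`) is shared with task P4.
-/

set_option autoImplicit false
open Finset

namespace Crest.Agent.SW
open Crest.SwitchChain

variable {n : ℕ}

variable (d : Fin n → ℕ)

section transport

variable (u v : Fin n) (G0 : Om d)

open Classical in
/-- push forward of `f` from the fibre of `G0` to the Johnson model -/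
noncomputable def pfPush (f : Om d → ℝ) : Finset (Fin n) → ℝ := fun S =>
  if h : ∃ G ∈ fib univ (offKey d (inc {u, v})) G0, phiP G0.1 u v G = S then f h.choose else 0

theorem pfPush_apply (huv : u ≠ v) (f : Om d → ℝ) (G : Om d)
    (hG : G ∈ fib univ (offKey d (inc {u, v})) G0) :
    pfPush d u v G0 f (phiP G0.1 u v G) = f G := by
  have h : ∃ G' ∈ fib univ (offKey d (inc {u, v})) G0, phiP G0.1 u v G' = phiP G0.1 u v G :=
    ⟨G, hG, rfl⟩
  unfold pfPush
  rw [dif_pos h]
  have h2 := h.choose_spec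
  rw [pf_inj d u v G0 huv (Finset.mem_coe.2 h2.1) (Finset.mem_coe.2 hG) h2.2]

/-- the general transport lemma -/
theorem pf_Q_transport (huv : u ≠ v) (A : Finset (Edge n)) (hA : A ⊆ inc {u, v})
    (B : Finset (Fin n))
    (hkey : ∀ G ∈ fib univ (offKey d (inc {u, v})) G0, ∀ G' ∈ fib univ (offKey d (inc {u, v})) G0,
      offKey d A G = offKey d A G' ↔ jKey B (phiP G0.1 u v G) = jKey B (phiP G0.1 u v G'))
    (h : Om d → ℝ) (h' : Finset (Fin n) → ℝ)
    (hh : ∀ G ∈ fib univ (offKey d (inc {u, v})) G0, h G = h' (phiP G0.1 u v G))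
    (G : Om d) (hG : G ∈ fib univ (offKey d (inc {u, v})) G0) :
    Q d A h G = cE (JX (Tset G0.1 u v) (phiP G0.1 u v G0).card) (jKey B) h' (phiP G0.1 u v G) := by
  have hsat : ∀ x ∈ fib univ (offKey d (inc {u, v})) G0, ∀ y ∈ (univ : Finset (Om d)),
      offKey d A y = offKey d A x → y ∈ fib univ (offKey d (inc {u, v})) G0 := by
    intro x hx y _ hxy
    have key : ∀ z : Om d, offKey d (inc {u, v}) z = offKey d A z \ inc {u, v} := by
      intro z
      unfold offKey
      rw [sdiff_sdiff_left, Finset.sup_eq_union, Finset.union_eq_right.2 hA]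
    refine mem_fib.2 ⟨mem_univ _, ?_⟩
    rw [key y, hxy, ← key x]
    exact (mem_fib.1 hx).2
  unfold Q
  rw [cE_restrict (Finset.subset_univ _) hsat h hG, cE_congr hh, ← pf_image d u v G0 huv,
    cE_transport (phiP G0.1 u v) (pf_inj d u v G0 huv) (jKey B) hkey h' hG]

theorem pf_Q_blk (huv : u ≠ v) (e : Finset (Fin n)) (he : e ∈ (Tset G0.1 u v).powersetCard 2)
    (h : Om d → ℝ) (h' : Finset (Fin n) → ℝ)
    (hh : ∀ G ∈ fib univ (offKey d (inc {u, v})) G0, h G = h' (phiP G0.1 u v G))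
    (G : Om d) (hG : G ∈ fib univ (offKey d (inc {u, v})) G0) :
    Q d (blk {u, v} e) h G
      = cE (JX (Tset G0.1 u v) (phiP G0.1 u v G0).card) (jKey e) h' (phiP G0.1 u v G) :=
  pf_Q_transport d u v G0 huv _ Finset.inter_subset_left e
    (fun G hG G' hG' => pf_key_blk d u v G0 huv e he G G' hG hG') h h' hh G hG

theorem pf_Q_out (huv : u ≠ v) (e : Finset (Fin n)) (he : e ∈ (Tset G0.1 u v).powersetCard 2)
    (h : Om d → ℝ) (h' : Finset (Fin n) → ℝ)
    (hh : ∀ G ∈ fib univ (offKey d (inc {u, v})) G0, h G = h' (phiP G0.1 u v G))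
    (G : Om d) (hG : G ∈ fib univ (offKey d (inc {u, v})) G0) :
    Q d (inc {u, v} \ inc e) h G
      = cE (JX (Tset G0.1 u v) (phiP G0.1 u v G0).card) (jKey (Tset G0.1 u v \ e)) h'
          (phiP G0.1 u v G) :=
  pf_Q_transport d u v G0 huv _ Finset.sdiff_subset _
    (fun G hG G' hG' => pf_key_out d u v G0 huv e he G G' hG hG') h h' hh G hG

theorem pf_Q_inc (huv : u ≠ v)
    (h : Om d → ℝ) (h' : Finset (Fin n) → ℝ)
    (hh : ∀ G ∈ fib univ (offKey d (inc {u, v})) G0, h G = h' (phiP G0.1 u v G))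
    (G : Om d) (hG : G ∈ fib univ (offKey d (inc {u, v})) G0) :
    Q d (inc {u, v}) h G
      = cE (JX (Tset G0.1 u v) (phiP G0.1 u v G0).card) (jKey (Tset G0.1 u v)) h'
          (phiP G0.1 u v G) := by
  refine pf_Q_transport d u v G0 huv _ (Finset.Subset.refl _) _ ?_ h h' hh G hG
  intro G hG G' hG'
  have h1 : offKey d (inc {u, v}) G = offKey d (inc {u, v}) G' :=
    (mem_fib.1 hG).2.trans (mem_fib.1 hG').2.symm
  have h2 : ∀ G'' : Om d, jKey (Tset G0.1 u v) (phiP G0.1 u v G'') = ∅ := by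
    intro G''
    unfold jKey phiP
    exact Finset.sdiff_eq_empty_iff_subset.2 (Finset.filter_subset _ _)
  exact ⟨fun _ => by rw [h2, h2], fun _ => h1⟩

/-- sums over the fibre = sums over the Johnson model -/
theorem pf_sum_image (huv : u ≠ v) (H : Finset (Fin n) → ℝ) :
    ∑ G ∈ fib univ (offKey d (inc {u, v})) G0, H (phiP G0.1 u v G)
      = ∑ S ∈ JX (Tset G0.1 u v) (phiP G0.1 u v G0).card, H S := by
  rw [← pf_image d u v G0 huv, Finset.sum_image]
  intro x hx y hy hxy
  exact pf_inj d u v G0 huv (Finset.mem_coe.2 hx) (Finset.mem_coe.2 hy) hxy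

theorem pf_powersetCard_subset : (Tset G0.1 u v).powersetCard 2 ⊆ P2d ({u, v} : Finset (Fin n)) := by
  intro e he
  obtain ⟨heT, hec⟩ := Finset.mem_powersetCard.1 he
  refine Finset.mem_filter.2 ⟨Finset.mem_powersetCard.2 ⟨Finset.subset_univ _, hec⟩, ?_⟩
  rw [Finset.disjoint_left]
  intro z hz hze
  have hzT := heT hze
  simp only [Tset, Finset.mem_filter, Finset.mem_univ, true_and] at hzT
  simp only [Finset.mem_insert, Finset.mem_singleton] at hz
  rcases hz with rfl | rfl
  · exact hzT.1 rfl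
  · exact hzT.2.1 rfl

/-- the Johnson energy of the push forward is at most the switch energy on the fibre -/
theorem pf_energy_le (huv : u ≠ v) (f : Om d → ℝ) :
    ∑ e ∈ (Tset G0.1 u v).powersetCard 2,
        nsq (JX (Tset G0.1 u v) (phiP G0.1 u v G0).card)
          (cR (JX (Tset G0.1 u v) (phiP G0.1 u v G0).card) (jKey e) (pfPush d u v G0 f))
      ≤ ∑ G ∈ fib univ (offKey d (inc {u, v})) G0, ∑ p' ∈ P2d ({u, v} : Finset (Fin n)),
          (R d (blk {u, v} p') f G) ^ 2 := by
  rw [Finset.sum_comm]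
  have h1 : ∀ e ∈ (Tset G0.1 u v).powersetCard 2,
      nsq (JX (Tset G0.1 u v) (phiP G0.1 u v G0).card)
          (cR (JX (Tset G0.1 u v) (phiP G0.1 u v G0).card) (jKey e) (pfPush d u v G0 f))
        = ∑ G ∈ fib univ (offKey d (inc {u, v})) G0, (R d (blk {u, v} e) f G) ^ 2 := by
    intro e he
    unfold nsq
    rw [← pf_sum_image d u v G0 huv]
    refine Finset.sum_congr rfl (fun G hG => ?_)
    have := pf_Q_blk d u v G0 huv e he f (pfPush d u v G0 f)
      (fun G hG => (pfPush_apply d u v G0 huv f G hG).symm) G hG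
    unfold Q at this
    unfold R cR
    rw [this, pfPush_apply d u v G0 huv f G hG]
  rw [Finset.sum_congr rfl h1]
  exact Finset.sum_le_sum_of_subset_of_nonneg (pf_powersetCard_subset d u v G0)
    (fun e _ _ => Finset.sum_nonneg (fun G _ => sq_nonneg _))

end transport

theorem swE_eq_sum (p : Finset (Fin n)) (f : Om d → ℝ) :
    swE d p f = ∑ G ∈ (univ : Finset (Om d)), ∑ p' ∈ P2d p, (R d (blk p p') f G) ^ 2 := by
  unfold swE nsq
  rw [Finset.sum_comm]

/-- P3: `johnson_W_abs` transported to every fibre (`sum_le_sum_of_fibres`, `cE_restrict`, `cE_transport`). -/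
theorem johnson_W (p : Finset (Fin n)) (hp : p ∈ P2 n) (f : Om d → ℝ) :
    ∑ p' ∈ P2d p, Wt d p p' f ≤ swE d p f := by
  obtain ⟨u, v, huv, rfl⟩ := Finset.card_eq_two.1 (Finset.mem_powersetCard.1 hp).2
  have hL : ∑ p' ∈ P2d ({u, v} : Finset (Fin n)), Wt d {u, v} p' f
      = ∑ G ∈ (univ : Finset (Om d)), ∑ p' ∈ P2d ({u, v} : Finset (Fin n)),
        (if Dm {u, v} p' G.1 then
          (Q d (inc {u, v} \ inc p') (Q d (blk {u, v} p') f) G - Q d (inc {u, v}) f G) ^ 2 else 0) := by
    rw [Finset.sum_comm]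
    refine Finset.sum_congr rfl (fun p' _ => ?_)
    unfold Wt
    rw [Finset.sum_filter]
  rw [hL, swE_eq_sum]
  apply sum_le_sum_of_fibres univ (offKey d (inc {u, v}))
  intro G0 _
  refine le_trans (le_of_eq ?_)
    ((johnson_W_abs (Tset G0.1 u v) (phiP G0.1 u v G0).card (pfPush d u v G0 f)).trans
      (pf_energy_le d u v G0 huv f))
  -- the left-hand side
  have hg : ∀ G ∈ fib univ (offKey d (inc {u, v})) G0, f G = pfPush d u v G0 f (phiP G0.1 u v G) :=
    fun G hG => (pfPush_apply d u v G0 huv f G hG).symm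
  have h1 : ∀ G ∈ fib univ (offKey d (inc {u, v})) G0,
      ∑ p' ∈ P2d ({u, v} : Finset (Fin n)),
        (if Dm {u, v} p' G.1 then
          (Q d (inc {u, v} \ inc p') (Q d (blk {u, v} p') f) G - Q d (inc {u, v}) f G) ^ 2 else 0)
      = ∑ e ∈ (Tset G0.1 u v).powersetCard 2,
        (if (phiP G0.1 u v G ∩ e).card = 1 then
          (cE (JX (Tset G0.1 u v) (phiP G0.1 u v G0).card) (jKey (Tset G0.1 u v \ e))
              (cE (JX (Tset G0.1 u v) (phiP G0.1 u v G0).card) (jKey e) (pfPush d u v G0 f))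
              (phiP G0.1 u v G)
            - cE (JX (Tset G0.1 u v) (phiP G0.1 u v G0).card) (jKey (Tset G0.1 u v))
              (pfPush d u v G0 f) (phiP G0.1 u v G)) ^ 2 else 0) := by
    intro G hG
    rw [← Finset.sum_subset (pf_powersetCard_subset d u v G0)]
    · refine Finset.sum_congr rfl (fun e he => ?_)
      have hD : Dm {u, v} e G.1 ↔ (phiP G0.1 u v G ∩ e).card = 1 := pf_Dm d u v G0 huv e he G hG
      have hQ1 : Q d (inc {u, v} \ inc e) (Q d (blk {u, v} e) f) G
          = cE (JX (Tset G0.1 u v) (phiP G0.1 u v G0).card) (jKey (Tset G0.1 u v \ e))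
              (cE (JX (Tset G0.1 u v) (phiP G0.1 u v G0).card) (jKey e) (pfPush d u v G0 f))
              (phiP G0.1 u v G) :=
        pf_Q_out d u v G0 huv e he _ _
          (fun G' hG' => pf_Q_blk d u v G0 huv e he f _ hg G' hG') G hG
      have hQ2 := pf_Q_inc d u v G0 huv f _ hg G hG
      rw [hQ1, hQ2]
      by_cases hc : (phiP G0.1 u v G ∩ e).card = 1
      · rw [if_pos hc, if_pos (hD.2 hc)]
      · rw [if_neg hc, if_neg (fun h => hc (hD.1 h))]
    · intro e he heT
      have hnot : ¬ e ⊆ Tset G0.1 u v := by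
        intro hsub
        apply heT
        have hec : e.card = 2 := (Finset.mem_powersetCard.1 (Finset.mem_filter.1 he).1).2
        exact Finset.mem_powersetCard.2 ⟨hsub, hec⟩
      rw [if_neg (pf_not_Dm d u v G0 huv e he hnot G hG)]
  rw [Finset.sum_congr rfl h1, Finset.sum_comm]
  refine Finset.sum_congr rfl (fun e _ => ?_)
  rw [Finset.sum_filter]
  exact pf_sum_image d u v G0 huv (fun S => if (S ∩ e).card = 1 then
          (cE (JX (Tset G0.1 u v) (phiP G0.1 u v G0).card) (jKey (Tset G0.1 u v \ e))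
              (cE (JX (Tset G0.1 u v) (phiP G0.1 u v G0).card) (jKey e) (pfPush d u v G0 f)) S
            - cE (JX (Tset G0.1 u v) (phiP G0.1 u v G0).card) (jKey (Tset G0.1 u v))
              (pfPush d u v G0 f) S) ^ 2 else 0)

end Crest.Agent.SW
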