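import Crest.Agent.SW_P2
import Crest.Agent.SW_P3
import Crest.Agent.SW_Johnson

/-!
# S0453: pair fibre, transport of the Bernoulli-Laplace gap (task P4)
-/

set_option autoImplicit false
open Finset

namespace Crest.Agent.SW
open Crest.SwitchChain

variable {n : ℕ}

variable (d : Fin n → ℕ)

/-- P4: `johnson_gap` transported to every fibre. -/
theorem bl_gap (p : Finset (Fin n)) (hp : p ∈ P2 n) (f : Om d → ℝ) :
    nsq univ (R d (inc p) f) ≤ swE d p f := by
  obtain ⟨u, v, huv, rfl⟩ := Finset.card_eq_two.1 (Finset.mem_powersetCard.1 hp).2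
  rw [swE_eq_sum]
  unfold nsq
  apply sum_le_sum_of_fibres univ (offKey d (inc {u, v}))
  intro G0 _
  refine le_trans (le_of_eq ?_)
    ((johnson_gap (Tset G0.1 u v) (phiP G0.1 u v G0).card (pfPush d u v G0 f)).trans
      (pf_energy_le d u v G0 huv f))
  unfold nsq
  rw [← pf_sum_image d u v G0 huv]
  refine Finset.sum_congr rfl (fun G hG => ?_)
  have := pf_Q_inc d u v G0 huv f (pfPush d u v G0 f)
    (fun G hG => (pfPush_apply d u v G0 huv f G hG).symm) G hG
  unfold Q at this
  unfold R cR
  rw [this, pfPush_apply d u v G0 huv f G hG]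

end Crest.Agent.SW
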