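import Crest.Agent.SW_Adj

/-!
# S0453: calculus of the resampling operators `Q d A` on realizations (task Q1)

The degree constraints are linear in the slots, so resamplings of disjoint slot sets commute.
-/

set_option autoImplicit false
open Finset

namespace Crest.Agent.SW
open Crest.SwitchChain

variable {n : ℕ}

private theorem q1_deg_split (G A : Finset (Edge n)) (v : Fin n) :
    deg G v = deg (G \ A) v + deg (G ∩ A) v := by
  have h := deg_union_of_disjoint (G \ A) (G ∩ A) (by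
    rw [Finset.disjoint_left]; intro e he he'
    exact (Finset.mem_sdiff.mp he).2 (Finset.mem_inter.mp he').2) v
  rw [← h]
  congr 1
  ext e
  simp only [Finset.mem_union, Finset.mem_sdiff, Finset.mem_inter]
  tauto

/-- Q1: rectangle condition for disjoint slot sets. -/
theorem Q_rect_of_disjoint (d : Fin n → ℕ) (A B : Finset (Edge n)) (h : Disjoint A B) :
    Rect (univ : Finset (Om d)) (offKey d A) (offKey d B) := by
  intro G _ G₁ _ G₂ _ h1 h2
  simp only [offKey] at h1 h2
  -- corner: slots of G₁ on A, of G₂ on B, of G elsewhere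
  set G₃ : Finset (Edge n) := (G₁.1 \ B) ∪ (G₂.1 ∩ B) with hG₃
  have hdAB : ∀ e, e ∈ A → e ∉ B := fun e ha hb => (Finset.disjoint_left.mp h) ha hb
  have hmem1 : ∀ e, e ∉ A → (e ∈ G₁.1 ↔ e ∈ G.1) := by
    intro e he
    have := congrArg (fun S => e ∈ S) h1
    simpa [he] using this
  have hmem2 : ∀ e, e ∉ B → (e ∈ G₂.1 ↔ e ∈ G.1) := by
    intro e he
    have := congrArg (fun S => e ∈ S) h2
    simpa [he] using this
  have hG1B : G₁.1 ∩ B = G.1 ∩ B := by
    ext e
    simp only [Finset.mem_inter]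
    constructor
    · rintro ⟨h3, h4⟩; exact ⟨(hmem1 e (fun ha => hdAB e ha h4)).1 h3, h4⟩
    · rintro ⟨h3, h4⟩; exact ⟨(hmem1 e (fun ha => hdAB e ha h4)).2 h3, h4⟩
  have hdeg : ∀ v, deg G₃ v = d v := by
    intro v
    have hd1 : deg G₁.1 v = d v := (Finset.mem_filter.mp G₁.2).2 v
    have hd2 : deg G₂.1 v = d v := (Finset.mem_filter.mp G₂.2).2 v
    have hd0 : deg G.1 v = d v := (Finset.mem_filter.mp G.2).2 v
    have e1 := q1_deg_split G₁.1 B v
    have e2 := q1_deg_split G₂.1 B v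
    have e0 := q1_deg_split G.1 B v
    have e3 := deg_union_of_disjoint (G₁.1 \ B) (G₂.1 ∩ B) (by
      rw [Finset.disjoint_left]; intro e he he'
      exact (Finset.mem_sdiff.mp he).2 (Finset.mem_inter.mp he').2) v
    rw [h2] at e2
    rw [hG1B] at e1
    rw [hG₃, e3]
    omega
  have hG₃mem : G₃ ∈ realizations d := by
    simp only [realizations, Finset.mem_filter, Finset.mem_univ, true_and]
    exact hdeg
  have hk1 : G₃ \ B = G₁.1 \ B := by
    ext e
    simp only [hG₃, Finset.mem_sdiff, Finset.mem_union, Finset.mem_inter]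
    tauto
  have hk2 : G₃ \ A = G₂.1 \ A := by
    ext e
    simp only [hG₃, Finset.mem_sdiff, Finset.mem_union, Finset.mem_inter]
    constructor
    · rintro ⟨h3 | h3, h4⟩
      · exact ⟨(hmem2 e h3.2).2 ((hmem1 e h4).1 h3.1), h4⟩
      · exact ⟨h3.1, h4⟩
    · rintro ⟨h3, h4⟩
      by_cases hb : e ∈ B
      · exact ⟨Or.inr ⟨h3, hb⟩, h4⟩
      · exact ⟨Or.inl ⟨(hmem1 e h4).2 ((hmem2 e hb).1 h3), hb⟩, h4⟩
  refine ⟨⟨G₃, hG₃mem⟩, ⟨Finset.mem_univ _, hk1, hk2⟩, ?_⟩
  rintro ⟨Z, hZ⟩ ⟨_, hz1, hz2⟩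
  simp only [offKey] at hz1 hz2
  apply Subtype.ext
  show Z = G₃
  ext e
  by_cases hb : e ∈ B
  · have ha : e ∉ A := fun ha => hdAB e ha hb
    have t1 := congrArg (fun S => e ∈ S) hz2
    have t2 := congrArg (fun S => e ∈ S) hk2
    simp only [Finset.mem_sdiff, ha, not_false_eq_true, and_true] at t1 t2
    rw [t1, t2]
  · have t1 := congrArg (fun S => e ∈ S) hz1
    have t2 := congrArg (fun S => e ∈ S) hk1
    simp only [Finset.mem_sdiff, hb, not_false_eq_true, and_true] at t1 t2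
    rw [t1, t2]

theorem Q_comm_of_disjoint (d : Fin n → ℕ) (A B : Finset (Edge n)) (h : Disjoint A B)
    (f : Om d → ℝ) : Q d A (Q d B f) = Q d B (Q d A f) := by
  funext G
  exact cE_comm_of_rect (Q_rect_of_disjoint d A B h) f (Finset.mem_univ G)

private theorem q1_fine (d : Fin n → ℕ) {A B : Finset (Edge n)} (h : A ⊆ B) :
    ∀ x ∈ (univ : Finset (Om d)), ∀ y ∈ (univ : Finset (Om d)),
      offKey d A x = offKey d A y → offKey d B x = offKey d B y := by
  intro x _ y _ hxy
  simp only [offKey] at hxy ⊢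
  have h1 : ∀ G : Finset (Edge n), G \ B = (G \ A) \ B := by
    intro G
    rw [sdiff_sdiff_left, Finset.sup_eq_union, Finset.union_eq_right.mpr h]
  rw [h1 x.1, h1 y.1, hxy]

theorem Q_absorb (d : Fin n → ℕ) {A B : Finset (Edge n)} (h : A ⊆ B) (f : Om d → ℝ) :
    Q d B (Q d A f) = Q d B f := by
  funext G
  exact cE_tower (q1_fine d h) f (Finset.mem_univ G)

theorem Q_absorb' (d : Fin n → ℕ) {A B : Finset (Edge n)} (h : A ⊆ B) (f : Om d → ℝ) :
    Q d A (Q d B f) = Q d B f := by
  funext G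
  exact cE_tower' (q1_fine d h) f (Finset.mem_univ G)

end Crest.Agent.SW
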