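import Crest.Agent.SW_Q1

/-!
# S0453: operator algebra for two overlapping slot sets (task Q2)
-/

set_option autoImplicit false
open Finset

namespace Crest.Agent.SW
open Crest.SwitchChain

variable {n : ℕ}

section aux

/-- the ring identity behind `disj_alg`. -/
private theorem ring_identity {S : Type*} [Ring S] (qb qU qW qA qA' : S)
    (hbb : qb * qb = qb) (hbU : qb * qU = qU * qb) (hbW : qb * qW = qW * qb)
    (hAb : qA * qb = qA) (hbA' : qb * qA' = qA') :
    (1 - qA) * (1 - qA') = (1 - qb) + qb * ((1 - qU) * (1 - qW)) + (1 - qU) * (qW * qb - qA')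
      + (qU * qb - qA) * (1 - qW) + (qU * qb - qA) * (qW * qb - qA') := by
  have e1 : qU * qb * (qW * qb) = qU * qW * qb := by
    calc qU * qb * (qW * qb) = qU * (qb * qW) * qb := by noncomm_ring
      _ = qU * (qW * qb) * qb := by rw [hbW]
      _ = qU * qW * (qb * qb) := by noncomm_ring
      _ = qU * qW * qb := by rw [hbb]
  have e2 : qU * qb * qA' = qU * qA' := by rw [mul_assoc, hbA']
  have e3 : qA * (qW * qb) = qA * qW := by
    calc qA * (qW * qb) = qA * (qb * qW) := by rw [hbW]
      _ = (qA * qb) * qW := by noncomm_ring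
      _ = qA * qW := by rw [hAb]
  have e4 : qb * (qU * qW) = qU * qb * qW := by
    rw [← mul_assoc, hbU]
  calc (1 - qA) * (1 - qA') = 1 - qA - qA' + qA * qA' := by noncomm_ring
    _ = (1 - qb) + (qb - qU * qb - qW * qb + qU * qb * qW)
        + (qW * qb - qA' - qU * qW * qb + qU * qA')
        + (qU * qb - qA - qU * qb * qW + qA * qW)
        + (qU * qW * qb - qU * qA' - qA * qW + qA * qA') := by abel
    _ = (1 - qb) + (qb - qb * qU - qb * qW + qb * (qU * qW))
        + (qW * qb - qA' - qU * qW * qb + qU * qA')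
        + (qU * qb - qA - qU * qb * qW + qA * qW)
        + (qU * qb * (qW * qb) - qU * qb * qA' - qA * (qW * qb) + qA * qA') := by
          rw [e1, e2, e3, e4, hbU, hbW]
    _ = _ := by noncomm_ring

private theorem idem_sub {S : Type*} [Ring S] {p q : S} (hp : p * p = p) (hq : q * q = q)
    (h1 : p * q = q) (h2 : q * p = q) : (p - q) * (p - q) = p - q := by
  calc (p - q) * (p - q) = p * p - p * q - q * p + q * q := by noncomm_ring
    _ = p - q := by rw [hp, hq, h1, h2]; abel

variable {Ω : Type*} [Fintype Ω]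

/-- symmetric idempotent endomorphisms of `Ω → ℝ` (w.r.t. `ip univ`). -/
private structure SymIdem (P : Module.End ℝ (Ω → ℝ)) : Prop where
  idem : P * P = P
  symm : ∀ f g : Ω → ℝ, ip univ (P f) g = ip univ f (P g)

private theorem ip_add_right (f g h : Ω → ℝ) :
    ip univ f (g + h) = ip univ f g + ip univ f h := by
  simp [ip, mul_add, Finset.sum_add_distrib]

private theorem ip_sub_right (f g h : Ω → ℝ) :
    ip univ f (g - h) = ip univ f g - ip univ f h := by
  simp [ip, mul_sub, Finset.sum_sub_distrib]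

private theorem ip_sub_left (f g h : Ω → ℝ) :
    ip univ (f - g) h = ip univ f h - ip univ g h := by
  simp [ip, sub_mul, Finset.sum_sub_distrib]

private theorem SymIdem.ip_self {P : Module.End ℝ (Ω → ℝ)} (hP : SymIdem P) (f : Ω → ℝ) :
    ip univ f (P f) = nsq univ (P f) := by
  rw [nsq_eq_ip, hP.symm]
  have : P (P f) = P f := by
    have := congrArg (fun T : Module.End ℝ (Ω → ℝ) => T f) hP.idem
    simpa using this
  rw [this]

private theorem SymIdem.nonneg {P : Module.End ℝ (Ω → ℝ)} (hP : SymIdem P) (f : Ω → ℝ) :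
    0 ≤ ip univ f (P f) := by
  rw [hP.ip_self]; exact nsq_nonneg _ _

private theorem SymIdem.mul {P P' : Module.End ℝ (Ω → ℝ)} (hP : SymIdem P) (hP' : SymIdem P')
    (hc : Commute P P') : SymIdem (P * P') where
  idem := IsIdempotentElem.mul_of_commute hc hP.idem hP'.idem
  symm f g := by
    have h1 : (P * P') f = P (P' f) := rfl
    have h2 : (P * P') g = P' (P g) := by rw [hc.eq]; rfl
    rw [h1, h2, hP.symm, hP'.symm]

private theorem SymIdem.one_sub {P : Module.End ℝ (Ω → ℝ)} (hP : SymIdem P) : SymIdem (1 - P) where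
  idem := IsIdempotentElem.one_sub hP.idem
  symm f g := by
    have h1 : (1 - P) f = f - P f := rfl
    have h2 : (1 - P) g = g - P g := rfl
    rw [h1, h2, ip_sub_left, ip_sub_right, hP.symm]

private theorem SymIdem.sub {P P' : Module.End ℝ (Ω → ℝ)} (hP : SymIdem P) (hP' : SymIdem P')
    (h1 : P * P' = P') (h2 : P' * P = P') : SymIdem (P - P') where
  idem := idem_sub hP.idem hP'.idem h1 h2
  symm f g := by
    have e1 : (P - P') f = P f - P' f := rfl
    have e2 : (P - P') g = P g - P' g := rfl
    rw [e1, e2, ip_sub_left, ip_sub_right, hP.symm, hP'.symm]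

end aux

/-- `Q d A` as a linear endomorphism. -/
private noncomputable def QL (d : Fin n → ℕ) (A : Finset (Edge n)) : Module.End ℝ (Om d → ℝ) where
  toFun := Q d A
  map_add' f g := cE_add univ (offKey d A) f g
  map_smul' c f := cE_smul univ (offKey d A) c f

private theorem QL_symIdem (d : Fin n → ℕ) (A : Finset (Edge n)) : SymIdem (QL d A) where
  idem := LinearMap.ext fun f => funext fun G => cE_idem f (Finset.mem_univ G)
  symm f g := ip_cE_symm univ (offKey d A) f g

private theorem QL_comm (d : Fin n → ℕ) {A B : Finset (Edge n)} (h : Disjoint A B) :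
    Commute (QL d A) (QL d B) :=
  LinearMap.ext fun f => Q_comm_of_disjoint d A B h f

private theorem QL_absorb (d : Fin n → ℕ) {A B : Finset (Edge n)} (h : A ⊆ B) :
    QL d B * QL d A = QL d B :=
  LinearMap.ext fun f => Q_absorb d h f

private theorem QL_absorb' (d : Fin n → ℕ) {A B : Finset (Edge n)} (h : A ⊆ B) :
    QL d A * QL d B = QL d B :=
  LinearMap.ext fun f => Q_absorb' d h f

/-- Q2 (pure operator algebra; uses only symmetry, idempotence, `Q_comm_of_disjoint`, `Q_absorb(')`).
With `b = A ∩ A'`, `U = A \ A'`, `W = A' \ A`:  `R_A = R_b + Q_b R_U + E`, `E = Q_U Q_b - Q_A`, same for `A'`;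
`R_A R_A' = R_b + Q_b R_U R_W + R_U E' + E R_W + E E'` and the 2nd, 3rd, 4th terms are products of commuting
symmetric idempotents, hence positive. -/
theorem disj_alg (d : Fin n → ℕ) (A A' : Finset (Edge n)) (f : Om d → ℝ) :
    nsq univ (R d (A ∩ A') f)
      + ip univ (fun G => Q d (A \ A') (Q d (A ∩ A') f) G - Q d A f G)
                (fun G => Q d (A' \ A) (Q d (A ∩ A') f) G - Q d A' f G)
      ≤ ip univ (R d A f) (R d A' f) := by
  classical
  -- translate the statement
  have hRA : R d A f = (1 - QL d A) f := rfl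
  have hRA' : R d A' f = (1 - QL d A') f := rfl
  have hRb : R d (A ∩ A') f = (1 - QL d (A ∩ A')) f := rfl
  have hE : (fun G => Q d (A \ A') (Q d (A ∩ A') f) G - Q d A f G)
      = (QL d (A \ A') * QL d (A ∩ A') - QL d A) f := rfl
  have hE' : (fun G => Q d (A' \ A) (Q d (A ∩ A') f) G - Q d A' f G)
      = (QL d (A' \ A) * QL d (A ∩ A') - QL d A') f := rfl
  rw [hRA, hRA', hRb, hE, hE']
  -- disjointness / inclusions
  have dbU : Disjoint (A ∩ A') (A \ A') := by
    rw [Finset.disjoint_left]; intro e h1 h2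
    exact (Finset.mem_sdiff.1 h2).2 (Finset.mem_inter.1 h1).2
  have dbW : Disjoint (A ∩ A') (A' \ A) := by
    rw [Finset.disjoint_left]; intro e h1 h2
    exact (Finset.mem_sdiff.1 h2).2 (Finset.mem_inter.1 h1).1
  have dUW : Disjoint (A \ A') (A' \ A) := by
    rw [Finset.disjoint_left]; intro e h1 h2
    exact (Finset.mem_sdiff.1 h2).2 (Finset.mem_sdiff.1 h1).1
  have dUA' : Disjoint (A \ A') A' := by
    rw [Finset.disjoint_left]; intro e h1 h2
    exact (Finset.mem_sdiff.1 h1).2 h2
  have dWA : Disjoint (A' \ A) A := by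
    rw [Finset.disjoint_left]; intro e h1 h2
    exact (Finset.mem_sdiff.1 h1).2 h2
  have sbA : A ∩ A' ⊆ A := Finset.inter_subset_left
  have sbA' : A ∩ A' ⊆ A' := Finset.inter_subset_right
  have sUA : A \ A' ⊆ A := Finset.sdiff_subset
  have sWA' : A' \ A ⊆ A' := Finset.sdiff_subset
  -- relations
  have Sb : SymIdem (QL d (A ∩ A')) := QL_symIdem d _
  have SU : SymIdem (QL d (A \ A')) := QL_symIdem d _
  have SW : SymIdem (QL d (A' \ A)) := QL_symIdem d _
  have SA : SymIdem (QL d A) := QL_symIdem d _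
  have SA' : SymIdem (QL d A') := QL_symIdem d _
  have hbU := QL_comm d dbU
  have hbW := QL_comm d dbW
  have hUW := QL_comm d dUW
  have hUA' := QL_comm d dUA'
  have hWA := QL_comm d dWA
  have hAb := QL_absorb d sbA
  have hbA := QL_absorb' d sbA
  have hA'b := QL_absorb d sbA'
  have hbA' := QL_absorb' d sbA'
  have hAU := QL_absorb d sUA
  have hUA := QL_absorb' d sUA
  have hA'W := QL_absorb d sWA'
  have hWA' := QL_absorb' d sWA'
  generalize QL d (A ∩ A') = qb at *
  generalize QL d (A \ A') = qU at *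
  generalize QL d (A' \ A) = qW at *
  generalize QL d A = qA at *
  generalize QL d A' = qA' at *
  -- the pieces
  have SE : SymIdem (qU * qb - qA) := by
    refine (SU.mul Sb hbU.symm).sub SA ?_ ?_
    · rw [mul_assoc, hbA, hUA]
    · rw [← mul_assoc, hAU, hAb]
  have SE' : SymIdem (qW * qb - qA') := by
    refine (SW.mul Sb hbW.symm).sub SA' ?_ ?_
    · rw [mul_assoc, hbA', hWA']
    · rw [← mul_assoc, hA'W, hA'b]
  have SRU : SymIdem (1 - qU) := SU.one_sub
  have SRW : SymIdem (1 - qW) := SW.one_sub
  have S2 : SymIdem (qb * ((1 - qU) * (1 - qW))) := by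
    have hc : Commute (1 - qU) (1 - qW) :=
      ((Commute.one_left _).sub_left ((Commute.one_right _).sub_right hUW))
    refine Sb.mul (SRU.mul SRW hc) ?_
    exact ((Commute.one_right _).sub_right hbU).mul_right ((Commute.one_right _).sub_right hbW)
  have S3 : SymIdem ((1 - qU) * (qW * qb - qA')) := by
    refine SRU.mul SE' ?_
    exact (Commute.one_left _).sub_left ((hUW.mul_right hbU.symm).sub_right hUA')
  have S4 : SymIdem ((qU * qb - qA) * (1 - qW)) := by
    refine SE.mul SRW ?_
    exact (Commute.one_right _).sub_right ((hUW.mul_left hbW).sub_left hWA.symm)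
  have hid := ring_identity qb qU qW qA qA' Sb.idem hbU.eq hbW.eq hAb hbA'
  have h1 : ip univ ((1 - qA) f) ((1 - qA') f) = ip univ f (((1 - qA) * (1 - qA')) f) := by
    rw [SA.one_sub.symm]; rfl
  have h5 : ip univ ((qU * qb - qA) f) ((qW * qb - qA') f)
      = ip univ f (((qU * qb - qA) * (qW * qb - qA')) f) := by
    rw [SE.symm]; rfl
  rw [h1, hid, h5, ← Sb.one_sub.ip_self]
  simp only [LinearMap.add_apply, ip_add_right]
  have n2 := S2.nonneg f
  have n3 := S3.nonneg f
  have n4 := S4.nonneg f
  linarith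

end Crest.Agent.SW
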