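import Crest.Agent.SW_TFDefs

/-!
# S0453: triple fibre, graphs versus matrices (task TF0a).  Plan: `SW_TFDefs.lean`.
-/

set_option autoImplicit false
open Finset

namespace Crest.Agent.SW
open Crest.SwitchChain

variable {n : ℕ}

private theorem tf0a_adj_sdiff (G : Finset (Edge n)) (K : Finset (Fin n)) (u z : Fin n)
    (hu : u ∉ K) (hz : z ∉ K) : adj G u z ↔ adj (G \ inc K) u z := by
  constructor
  · rintro ⟨e, he, hez⟩
    refine ⟨e, ?_, hez⟩
    rw [mem_sdiff]
    refine ⟨he, ?_⟩
    intro hinc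
    rw [inc, mem_filter] at hinc
    obtain ⟨_, v, hvK, hve⟩ := hinc
    rw [hez, Sym2.mem_iff] at hve
    rcases hve with rfl | rfl
    · exact hu hvK
    · exact hz hvK
  · rintro ⟨e, he, hez⟩
    exact ⟨e, (mem_sdiff.1 he).1, hez⟩

private theorem tf0a_fin3 : ∀ i j : Fin 3, i ≠ j →
    ∃ l : Fin 3, (i = l + 1 ∧ j = l + 2) ∨ (i = l + 2 ∧ j = l + 1) := by decide

private theorem tf0a_fin3' : ∀ i i' : Fin 3, i + 1 = i' + 2 → i + 2 = i' + 1 → False := by decide

private theorem tf0a_fin3'' : ∀ i : Fin 3, i + 1 ≠ i + 2 := by decide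

/-- TF0a: a graph is determined by its slots outside `inc t` and its matrix. -/
theorem tf_ext (τ : Fin 3 → Fin n) (hτ : Function.Injective τ) (G G' : Finset (Edge n))
    (hoff : G \ inc (univ.image τ) = G' \ inc (univ.image τ))
    (hent : ∀ i c, isCol τ c → (ent G τ i c ↔ ent G' τ i c)) : G = G' := by
  have hout : ∀ (i : Fin 3) (z : Fin n), z ∉ univ.image τ → (adj G (τ i) z ↔ adj G' (τ i) z) := by
    intro i z hz
    have hcol : isCol τ (some z) := by
      intro z' hz' j hj
      rw [Option.some.injEq] at hz'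
      subst hz'
      exact hz (by rw [hj]; exact mem_image_of_mem τ (mem_univ j))
    exact hent i (some z) hcol
  have hin : ∀ l : Fin 3, adj G (τ (l + 1)) (τ (l + 2)) ↔ adj G' (τ (l + 1)) (τ (l + 2)) := by
    intro l
    have hcol : isCol τ none := by
      intro z' hz'
      exact absurd hz' (by simp)
    exact not_iff_not.1 (hent l none hcol)
  apply ext_adj
  intro u z
  by_cases hu : u ∈ univ.image τ
  · obtain ⟨i, _, rfl⟩ := mem_image.1 hu
    by_cases hz : z ∈ univ.image τ
    · obtain ⟨j, _, rfl⟩ := mem_image.1 hz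
      by_cases hij : i = j
      · subst hij
        exact iff_of_false (not_adj_self _ _) (not_adj_self _ _)
      · obtain ⟨l, ⟨rfl, rfl⟩ | ⟨rfl, rfl⟩⟩ := tf0a_fin3 i j hij
        · exact hin l
        · rw [adj_comm G, adj_comm G']
          exact hin l
    · exact hout i z hz
  · by_cases hz : z ∈ univ.image τ
    · obtain ⟨j, _, rfl⟩ := mem_image.1 hz
      rw [adj_comm G, adj_comm G']
      exact hout j u hu
    · rw [tf0a_adj_sdiff G _ u z hu hz, tf0a_adj_sdiff G' _ u z hu hz, hoff]

/-- TF0b: every matrix is realised. -/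
theorem tf_build (τ : Fin 3 → Fin n) (hτ : Function.Injective τ) (G0 : Finset (Edge n))
    (a : Fin 3 → Option (Fin n) → Prop) :
    ∃ G : Finset (Edge n), G \ inc (univ.image τ) = G0 \ inc (univ.image τ) ∧
      ∀ i c, isCol τ c → (ent G τ i c ↔ a i c) := by
  classical
  set t : Finset (Fin n) := univ.image τ with ht
  have hmem : ∀ i, τ i ∈ t := fun i => mem_image_of_mem τ (mem_univ i)
  let P : Edge n → Prop := fun e =>
    (∃ (i : Fin 3) (z : Fin n), (∀ j, z ≠ τ j) ∧ e.1 = s(τ i, z) ∧ a i (some z)) ∨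
    (∃ i : Fin 3, e.1 = s(τ (i + 1), τ (i + 2)) ∧ ¬ a i none)
  let G : Finset (Edge n) := (G0 \ inc t) ∪ (inc t).filter P
  have hG : ∀ e : Edge n, e ∈ inc t → (e ∈ G ↔ P e) := by
    intro e he
    simp only [G, mem_union, mem_sdiff, mem_filter]
    constructor
    · rintro (⟨_, h⟩ | ⟨_, h⟩)
      · exact absurd he h
      · exact h
    · intro h
      exact Or.inr ⟨he, h⟩
  have hinc : ∀ (e : Edge n) (i : Fin 3) (z : Fin n), e.1 = s(τ i, z) → e ∈ inc t := by
    intro e i z he
    rw [inc, mem_filter]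
    exact ⟨mem_univ _, τ i, hmem i, by rw [he]; exact Sym2.mem_mk_left _ _⟩
  refine ⟨G, ?_, ?_⟩
  · ext e
    simp only [G, mem_sdiff, mem_union, mem_filter]
    constructor
    · rintro ⟨(⟨h1, h2⟩ | ⟨h1, _⟩), h3⟩
      · exact ⟨h1, h2⟩
      · exact absurd h1 h3
    · rintro ⟨h1, h2⟩
      exact ⟨Or.inl ⟨h1, h2⟩, h2⟩
  · intro i c hc
    cases c with
    | some z =>
      have hz : ∀ j, z ≠ τ j := hc z rfl
      show adj G (τ i) z ↔ a i (some z)
      constructor
      · rintro ⟨e, he, hez⟩
        have hP := (hG e (hinc e i z hez)).1 he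
        rcases hP with ⟨i', z', hz', he', ha⟩ | ⟨i', he', _⟩
        · rw [hez, Sym2.eq_iff] at he'
          rcases he' with ⟨h1, h2⟩ | ⟨h1, h2⟩
          · have := hτ h1
            subst this
            subst h2
            exact ha
          · exact absurd h2 (hz i')
        · rw [hez, Sym2.eq_iff] at he'
          rcases he' with ⟨_, h2⟩ | ⟨_, h2⟩
          · exact absurd h2 (hz _)
          · exact absurd h2 (hz _)
      · intro ha
        have hne : ¬ (s(τ i, z)).IsDiag := by
          rw [Sym2.mk_isDiag_iff]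
          exact fun h => hz i h.symm
        refine ⟨⟨s(τ i, z), hne⟩, ?_, rfl⟩
        exact (hG _ (hinc _ i z rfl)).2 (Or.inl ⟨i, z, hz, rfl, ha⟩)
    | none =>
      show ¬ adj G (τ (i + 1)) (τ (i + 2)) ↔ a i none
      have key : adj G (τ (i + 1)) (τ (i + 2)) ↔ ¬ a i none := by
        constructor
        · rintro ⟨e, he, hez⟩
          have hP := (hG e (hinc e (i + 1) _ hez)).1 he
          rcases hP with ⟨i', z', hz', he', _⟩ | ⟨i', he', ha⟩
          · rw [hez, Sym2.eq_iff] at he'
            rcases he' with ⟨_, h2⟩ | ⟨h1, _⟩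
            · exact absurd h2.symm (hz' _)
            · exact absurd h1.symm (hz' _)
          · rw [hez, Sym2.eq_iff] at he'
            rcases he' with ⟨h1, _⟩ | ⟨h1, h2⟩
            · have := add_right_cancel (hτ h1)
              subst this
              exact ha
            · exact absurd (hτ h2) (fun h => tf0a_fin3' i i' (hτ h1) h)
        · intro ha
          have hne : ¬ (s(τ (i + 1), τ (i + 2))).IsDiag := by
            rw [Sym2.mk_isDiag_iff]
            exact fun h => tf0a_fin3'' i (hτ h)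
          refine ⟨⟨s(τ (i + 1), τ (i + 2)), hne⟩, ?_, rfl⟩
          exact (hG _ (hinc _ (i + 1) _ rfl)).2 (Or.inr ⟨i, rfl, ha⟩)
      rw [key, not_not]

end Crest.Agent.SW
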