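import Crest.Agent.SW_TFDefs

/-!
# S0453: triple fibre, degrees in terms of the matrix (task TF0b).  Plan: `SW_TFDefs.lean`.
-/

set_option autoImplicit false
open Finset

namespace Crest.Agent.SW
open Crest.SwitchChain

variable {n : ℕ}

private theorem tf0b_adj_sdiff (τ : Fin 3 → Fin n) (G : Finset (Edge n)) (z w : Fin n)
    (hz : ∀ i, z ≠ τ i) :
    adj (G \ inc (univ.image τ)) z w ↔ (adj G z w ∧ ∀ i, w ≠ τ i) := by
  unfold adj inc
  constructor
  · rintro ⟨e, he, hew⟩
    rw [Finset.mem_sdiff] at he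
    refine ⟨⟨e, he.1, hew⟩, fun i hi => he.2 ?_⟩
    rw [Finset.mem_filter]
    refine ⟨Finset.mem_univ _, τ i, Finset.mem_image_of_mem _ (Finset.mem_univ _), ?_⟩
    rw [hew, ← hi]
    simp
  · rintro ⟨⟨e, he, hew⟩, hw⟩
    refine ⟨e, ?_, hew⟩
    rw [Finset.mem_sdiff]
    refine ⟨he, fun h => ?_⟩
    rw [Finset.mem_filter] at h
    obtain ⟨-, v, hv, hve⟩ := h
    rw [Finset.mem_image] at hv
    obtain ⟨i, -, rfl⟩ := hv
    rw [hew, Sym2.mem_iff] at hve
    rcases hve with h | h
    · exact hz i h.symm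
    · exact hw i h.symm

private theorem tf0b_sum_split (τ : Fin 3 → Fin n) (hτ : Function.Injective τ) (P : Fin n → Prop)
    [DecidablePred P] :
    (∑ z, (if P z then 1 else 0 : ℕ))
      = (∑ z, (if (P z ∧ ∀ i, z ≠ τ i) then 1 else 0 : ℕ)) + ∑ j : Fin 3, (if P (τ j) then 1 else 0 : ℕ) := by
  classical
  have h2 : (∑ j : Fin 3, (if P (τ j) then 1 else 0 : ℕ))
      = ∑ z, (if z ∈ univ.image τ then (if P z then 1 else 0 : ℕ) else 0) := by
    rw [← Finset.sum_filter (s := univ) (p := fun z => z ∈ univ.image τ), Finset.filter_mem_eq_inter,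
      Finset.univ_inter, Finset.sum_image (fun a _ b _ h => hτ h)]
  rw [h2, ← Finset.sum_add_distrib]
  refine Finset.sum_congr rfl (fun z _ => ?_)
  by_cases hz : z ∈ univ.image τ
  · have : ¬ ∀ i, z ≠ τ i := by
      rw [Finset.mem_image] at hz
      obtain ⟨i, -, rfl⟩ := hz
      exact fun h => h i rfl
    simp [hz, this]
  · have : ∀ i, z ≠ τ i := by
      intro i hi
      exact hz (hi ▸ Finset.mem_image_of_mem _ (Finset.mem_univ _))
    simp [hz, this]

/-- TF0c: degree of an outer vertex. -/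
theorem tf_deg_outer (τ : Fin 3 → Fin n) (hτ : Function.Injective τ) (G : Finset (Edge n)) (z : Fin n)
    (hz : ∀ i, z ≠ τ i) :
    deg G z = deg (G \ inc (univ.image τ)) z + cnt G τ (some z) := by
  classical
  rw [deg_eq_card_adj, deg_eq_card_adj, cnt]
  simp only [Finset.card_filter]
  rw [tf0b_sum_split τ hτ (fun w => adj G z w)]
  congr 1
  · refine Finset.sum_congr rfl (fun w _ => ?_)
    simp only [tf0b_adj_sdiff τ G z w hz]
  · refine Finset.sum_congr rfl (fun j _ => ?_)
    simp only [ent, adj_comm G z (τ j)]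

/-- TF0d: degree of a vertex of the triple: (row sum, ★ included) `+ 2 = deg + cnt ★`
(`deg (τ i) = ∑_{z} ent i (some z) + e_{i+1} + e_{i+2}`, `ent i ★ = 1 - e_i`, `cnt ★ = 3 - e_0 - e_1 - e_2`). -/
theorem tf_deg_inner (τ : Fin 3 → Fin n) (hτ : Function.Injective τ) (G : Finset (Edge n)) (i : Fin 3) :
    ((univ : Finset (Option (Fin n))).filter (fun c => isCol τ c ∧ ent G τ i c)).card + 2
      = deg G (τ i) + cnt G τ none := by
  classical
  rw [deg_eq_card_adj, cnt]
  simp only [Finset.card_filter]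
  rw [Fintype.sum_option, tf0b_sum_split τ hτ (fun w => adj G (τ i) w)]
  have h1 : (∑ z, (if (isCol τ (some z) ∧ ent G τ i (some z)) then 1 else 0 : ℕ))
      = ∑ z, (if (adj G (τ i) z ∧ ∀ j, z ≠ τ j) then 1 else 0 : ℕ) := by
    refine Finset.sum_congr rfl (fun z _ => ?_)
    have : (isCol τ (some z) ∧ ent G τ i (some z)) ↔ (adj G (τ i) z ∧ ∀ j, z ≠ τ j) := by
      simp only [isCol, ent, Option.some.injEq]
      constructor
      · rintro ⟨h, h'⟩
        exact ⟨h', h z rfl⟩
      · rintro ⟨h, h'⟩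
        exact ⟨fun w hw => hw ▸ h', h⟩
    simp only [this]
  have h0 : isCol τ none := by
    intro z hz
    exact absurd hz (by simp)
  rw [h1]
  simp only [h0, true_and, ent, Fin.sum_univ_three]
  have e00 := not_adj_self G (τ 0)
  have e11 := not_adj_self G (τ 1)
  have e22 := not_adj_self G (τ 2)
  have c10 := adj_comm G (τ 1) (τ 0)
  have c20 := adj_comm G (τ 2) (τ 0)
  have c21 := adj_comm G (τ 2) (τ 1)
  generalize (∑ z, (if (adj G (τ i) z ∧ ∀ j, z ≠ τ j) then 1 else 0 : ℕ)) = S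
  fin_cases i <;>
    by_cases a01 : adj G (τ 0) (τ 1) <;> by_cases a02 : adj G (τ 0) (τ 2) <;>
    by_cases a12 : adj G (τ 1) (τ 2) <;>
    simp [e00, e11, e22, c10, c20, c21, a01, a02, a12] <;> omega

end Crest.Agent.SW
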