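import Crest.Agent.SW_TF0a
import Crest.Agent.SW_TF0b

/-!
# S0453: triple fibre, column sums, labels, injectivity (task TF1).  Plan: `SW_TFDefs.lean`.
-/

set_option autoImplicit false
open Finset

namespace Crest.Agent.SW
open Crest.SwitchChain

variable {n : ℕ}

variable (d : Fin n → ℕ) (τ : Fin 3 → Fin n) (G0 : Om d)

private theorem tf1_om_deg (G : Om d) (v : Fin n) : deg G.1 v = d v := by
  have h := G.2
  simp only [realizations, mem_filter, mem_univ, true_and] at h
  exact h v

private theorem tf1_fib_off {G : Om d}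
    (hG : G ∈ fib univ (offKey d (inc (univ.image τ))) G0) :
    G.1 \ inc (univ.image τ) = G0.1 \ inc (univ.image τ) := (mem_fib.1 hG).2

private theorem tf1_cnt_some (hτ : Function.Injective τ) (G : Om d)
    (hG : G ∈ fib univ (offKey d (inc (univ.image τ))) G0) (z : Fin n) (hz : ∀ i, z ≠ τ i) :
    cnt G.1 τ (some z) = cnt G0.1 τ (some z) := by
  have h1 := tf_deg_outer τ hτ G.1 z hz
  have h2 := tf_deg_outer τ hτ G0.1 z hz
  rw [tf1_om_deg, tf1_fib_off d τ G0 hG] at h1
  rw [tf1_om_deg] at h2
  omega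

/-- double counting of the entries of the matrix -/
private theorem tf1_double (G : Finset (Edge n)) :
    ∑ i : Fin 3, ((univ : Finset (Option (Fin n))).filter (fun c => isCol τ c ∧ ent G τ i c)).card
      = cnt G τ none + ∑ c ∈ ((univ : Finset (Option (Fin n))).filter (isCol τ)).erase none,
          cnt G τ c := by
  have hnone : (none : Option (Fin n)) ∈ (univ : Finset (Option (Fin n))).filter (isCol τ) := by
    simp [isCol]
  rw [Finset.add_sum_erase _ _ hnone]
  have h1 : ∀ i : Fin 3,
      ((univ : Finset (Option (Fin n))).filter (fun c => isCol τ c ∧ ent G τ i c)).card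
        = ∑ c ∈ (univ : Finset (Option (Fin n))).filter (isCol τ), if ent G τ i c then 1 else 0 := by
    intro i
    rw [← Finset.filter_filter, Finset.card_filter]
  have h2 : ∀ c : Option (Fin n), cnt G τ c = ∑ i : Fin 3, if ent G τ i c then 1 else 0 := by
    intro c
    rw [cnt, Finset.card_filter]
  rw [Finset.sum_congr rfl (fun i _ => h1 i), Finset.sum_comm]
  exact Finset.sum_congr rfl (fun c _ => (h2 c).symm)

/-- the master identity for the virtual column -/
private theorem tf1_master (hτ : Function.Injective τ) (G : Om d) :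
    (∑ c ∈ ((univ : Finset (Option (Fin n))).filter (isCol τ)).erase none, cnt G.1 τ c) + 6
      = (∑ i : Fin 3, d (τ i)) + 2 * cnt G.1 τ none := by
  have h := tf1_double τ G.1
  have h3 : ∑ i : Fin 3,
      (((univ : Finset (Option (Fin n))).filter (fun c => isCol τ c ∧ ent G.1 τ i c)).card + 2)
        = ∑ i : Fin 3, (d (τ i) + cnt G.1 τ none) := by
    refine Finset.sum_congr rfl (fun i _ => ?_)
    rw [tf_deg_inner τ hτ G.1 i, tf1_om_deg]
  rw [Finset.sum_add_distrib, Finset.sum_add_distrib, h] at h3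
  simp only [Finset.sum_const, Finset.card_univ, Fintype.card_fin, smul_eq_mul] at h3
  omega

/-- TF1a: column sums are constant on the fibre. -/
theorem tf_cnt_eq (hτ : Function.Injective τ) (G : Om d)
    (hG : G ∈ fib univ (offKey d (inc (univ.image τ))) G0) (c : Option (Fin n)) (hc : isCol τ c) :
    cnt G.1 τ c = cnt G0.1 τ c := by
  cases c with
  | some z => exact tf1_cnt_some d τ G0 hτ G hG z (fun i => hc z rfl i)
  | none =>
    have h1 := tf1_master d τ hτ G
    have h2 := tf1_master d τ hτ G0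
    have h3 : ∑ c ∈ ((univ : Finset (Option (Fin n))).filter (isCol τ)).erase none, cnt G.1 τ c
        = ∑ c ∈ ((univ : Finset (Option (Fin n))).filter (isCol τ)).erase none, cnt G0.1 τ c := by
      refine Finset.sum_congr rfl (fun c hc => ?_)
      rw [Finset.mem_erase, Finset.mem_filter] at hc
      cases c with
      | none => exact absurd rfl hc.1
      | some z => exact tf1_cnt_some d τ G0 hτ G hG z (fun i => hc.2.2 z rfl i)
    omega

private theorem tf1_card3 (P : Fin 3 → Prop) [DecidablePred P] :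
    (univ.filter P).card = (if P 0 then 1 else 0) + (if P 1 then 1 else 0) + (if P 2 then 1 else 0) := by
  rw [Finset.card_filter, Fin.sum_univ_three]

private theorem tf1_first (P : Fin 3 → Prop) [DecidablePred P]
    (h : (univ.filter P).card = 1) (i : Fin 3) :
    (if P 0 then (0 : Fin 3) else if P 1 then 1 else 2) = i ↔ P i := by
  rw [tf1_card3] at h
  by_cases h0 : P 0 <;> by_cases h1 : P 1 <;> by_cases h2 : P 2 <;>
    simp only [h0, h1, h2, if_true, if_false] at h ⊢ <;>
    first
      | omega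
      | (fin_cases i <;> simp [h0, h1, h2])

/-- TF1b: meaning of the label. -/
theorem tf_lab_iff (hτ : Function.Injective τ) (G : Om d)
    (hG : G ∈ fib univ (offKey d (inc (univ.image τ))) G0) (c : Col G0.1 τ) (i : Fin 3) :
    labT G0.1 τ G.1 c = i ↔ (ent G.1 τ i c.1 ↔ tyT G0.1 τ c = true) := by
  have hcnt := tf_cnt_eq d τ G0 hτ G hG c.1 c.2.1
  have hfree := c.2.2
  have hcard : (univ.filter (fun j : Fin 3 => (ent G.1 τ j c.1 ↔ tyT G0.1 τ c = true))).card = 1 := by
    rw [← hcnt] at hfree
    have hty : tyT G0.1 τ c = true ↔ cnt G.1 τ c.1 = 1 := by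
      rw [tyT, decide_eq_true_iff, hcnt]
    rw [cnt, tf1_card3] at hfree hty
    rw [tf1_card3]
    by_cases h0 : ent G.1 τ 0 c.1 <;> by_cases h1 : ent G.1 τ 1 c.1 <;>
      by_cases h2 : ent G.1 τ 2 c.1 <;>
      simp [h0, h1, h2] at hfree hty ⊢ <;> simp [hty]
  exact tf1_first (fun j : Fin 3 => (ent G.1 τ j c.1 ↔ tyT G0.1 τ c = true)) hcard i

/-- TF1c -/
theorem tf_inj (hτ : Function.Injective τ) :
    Set.InjOn (fun G : Om d => labT G0.1 τ G.1)
      (fib univ (offKey d (inc (univ.image τ))) G0 : Set (Om d)) := by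
  intro G hG G' hG' hlab
  have hG1 : G ∈ fib univ (offKey d (inc (univ.image τ))) G0 := hG
  have hG2 : G' ∈ fib univ (offKey d (inc (univ.image τ))) G0 := hG'
  have hlab' : labT G0.1 τ G.1 = labT G0.1 τ G'.1 := hlab
  apply Subtype.ext
  refine tf_ext τ hτ G.1 G'.1 ?_ ?_
  · rw [tf1_fib_off d τ G0 hG1, tf1_fib_off d τ G0 hG2]
  · intro i c hc
    have e1 := tf_cnt_eq d τ G0 hτ G hG1 c hc
    have e2 := tf_cnt_eq d τ G0 hτ G' hG2 c hc
    by_cases hfree : isFree G0.1 τ c
    · have a1 := tf_lab_iff d τ G0 hτ G hG1 ⟨c, hfree⟩ i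
      have a2 := tf_lab_iff d τ G0 hτ G' hG2 ⟨c, hfree⟩ i
      rw [hlab'] at a1
      have a3 := a1.symm.trans a2
      simp only at a3
      by_cases hT : tyT G0.1 τ ⟨c, hfree⟩ = true
      · simpa [hT] using a3
      · have a4 : ¬ ent G.1 τ i c ↔ ¬ ent G'.1 τ i c := by
          constructor
          · intro h h'
            exact hT ((a3.1 ⟨fun x => absurd x h, fun x => absurd x hT⟩).1 h')
          · intro h h'
            exact hT ((a3.2 ⟨fun x => absurd x h, fun x => absurd x hT⟩).1 h')
        exact not_iff_not.1 a4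
    · have hnf : ¬ (cnt G0.1 τ c = 1 ∨ cnt G0.1 τ c = 2) := fun h => hfree ⟨hc, h⟩
      rw [cnt, tf1_card3] at e1 e2
      rw [cnt, tf1_card3] at hnf
      rw [cnt, tf1_card3] at e1 e2
      fin_cases i <;>
      by_cases h0 : ent G.1 τ 0 c <;> by_cases h1 : ent G.1 τ 1 c <;>
      by_cases h2 : ent G.1 τ 2 c <;>
      by_cases k0 : ent G'.1 τ 0 c <;> by_cases k1 : ent G'.1 τ 1 c <;>
      by_cases k2 : ent G'.1 τ 2 c <;>
      simp [h0, h1, h2, k0, k1, k2] at e1 e2 ⊢ <;> omega

end Crest.Agent.SW
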