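import Crest.Agent.SW_ThreeRowDefs

/-!
# Row 299, three-row lemma, task T-E: swaps and conversions connect the state space
-/

set_option autoImplicit false
set_option linter.unusedSectionVars false
open Finset

namespace Crest.Agent.SW.ThreeRow

variable {C : Type*} [Fintype C] [DecidableEq C] {ty : C → Bool} {s : Fin 3 → ℤ}

/-- Balance at the label `j`.  A column `c` is a *head* at `j` if
`(ty c ∧ l' c = j ∧ l c ≠ j) ∨ (¬ ty c ∧ l c = j ∧ l' c ≠ j)` and a *tail* at `j` if
`(ty c ∧ l c = j ∧ l' c ≠ j) ∨ (¬ ty c ∧ l' c = j ∧ l c ≠ j)`.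
PROOF: `0 = ch ty l j - ch ty l' j = ∑ c, ((if l c = j then sg c else 0) - (if l' c = j then sg c else 0))`;
each term is `+1` for a tail, `-1` for a head, `0` otherwise.  If there is no tail all terms are `≤ 0`
and the term of `c` is `< 0` (`Finset.sum_lt_sum`), contradiction. -/
theorem exists_tail {l l' : C → Fin 3} (hl : l ∈ X ty s) (hl' : l' ∈ X ty s) {j : Fin 3} {c : C}
    (hc : (ty c = true ∧ l' c = j ∧ l c ≠ j) ∨ (ty c = false ∧ l c = j ∧ l' c ≠ j)) :
    ∃ c', (ty c' = true ∧ l c' = j ∧ l' c' ≠ j) ∨ (ty c' = false ∧ l' c' = j ∧ l c' ≠ j) := by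
  by_contra hno
  push Not at hno
  have h0 : ch ty l j = ch ty l' j := (mem_X.1 hl j).trans (mem_X.1 hl' j).symm
  unfold ch at h0
  have hlt : ∑ c, (if l c = j then sg ty c else 0) < ∑ c, (if l' c = j then sg ty c else 0) := by
    apply Finset.sum_lt_sum
    · intro x _
      have := hno x
      unfold sg
      cases hx : ty x <;> by_cases h1 : l x = j <;> by_cases h2 : l' x = j <;> simp_all
    · refine ⟨c, mem_univ _, ?_⟩
      unfold sg
      rcases hc with ⟨h1, h2, h3⟩ | ⟨h1, h2, h3⟩ <;> simp [h1, h2, h3]
  exact absurd h0 hlt.ne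

/-- PROOF: strong induction on `n = #{c | l c ≠ l' c}` (generalising `l l'`).  If `n = 0`, `l = l'`.
Otherwise pick `c` with `l c ≠ l' c`; it is a head at `j := if ty c then l' c else l c`; take a tail
`c'` at `j` (`exists_tail`).  Four cases; in each case one move is applied to `l` or to `l'`, the new
pair agrees on one more column and disagrees only where the old pair did (so the new difference set
is contained in `D.erase _`, `Finset.card_lt_card`/`card_erase_lt_of_mem`):
* `ty c, ty c'` : `l₂ = l ∘ swap c c'` (`hs`, `swap_mem_X`): `l₂ c = l c' = j = l' c`; `c' ∈ D` already.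
* `¬ty c, ¬ty c'` : `l₂ = l ∘ swap c c'`: `l₂ c' = l c = j = l' c'`; `c ∈ D` already.
* `ty c, ¬ty c'` : `l' c = j = l' c'`; `l'₂ = conv l' c c' (l c)` (`hc`, `conv_mem_X`): `l'₂ c = l c`;
   `c' ∈ D` already.
* `¬ty c, ty c'` : `l c = j = l c'`; `l₂ = conv l c' c (l' c')`: `l₂ c' = l' c'`; `c ∈ D` already. -/
theorem const_of_inv {f : (C → Fin 3) → ℝ} (hs : SwapInv ty s f) (hc : ConvInv ty s f) :
    ∀ l ∈ X ty s, ∀ l' ∈ X ty s, f l = f l' := by
  have key : ∀ n : ℕ, ∀ l ∈ X ty s, ∀ l' ∈ X ty s,
      (univ.filter fun c => l c ≠ l' c).card = n → f l = f l' := by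
    intro n
    induction n using Nat.strong_induction_on with
    | _ n ih =>
      intro l hl l' hl' hn
      by_cases hD : ∀ c, l c = l' c
      · rw [funext hD]
      · push Not at hD
        obtain ⟨c, hcne⟩ := hD
        have step : ∀ l₂ ∈ X ty s, ∀ l'₂ ∈ X ty s, (∀ x, l₂ x ≠ l'₂ x → l x ≠ l' x) →
            (∃ x0, l x0 ≠ l' x0 ∧ l₂ x0 = l'₂ x0) → f l₂ = f l'₂ := by
          intro l₂ h₂ l'₂ h'₂ hsub ⟨x0, hx0, hx0'⟩
          refine ih _ ?_ l₂ h₂ l'₂ h'₂ rfl
          rw [← hn]
          apply Finset.card_lt_card
          rw [Finset.ssubset_iff_of_subset]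
          · exact ⟨x0, by simp [hx0], by simp [hx0']⟩
          · intro x hx
            simp only [mem_filter, mem_univ, true_and] at hx ⊢
            exact hsub x hx
        cases hty : ty c
        · -- `ty c = false`, `j = l c`
          obtain ⟨c', hc'⟩ := exists_tail (j := l c) (c := c) hl hl'
            (Or.inr ⟨hty, rfl, fun h => hcne h.symm⟩)
          rcases hc' with ⟨ht', h1, h2⟩ | ⟨ht', h1, h2⟩
          · -- `ty c' = true`, `l c' = l c`, `l' c' ≠ l c`
            have hmem := conv_mem_X hl (l' c') ht' hty h1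
            rw [← hc l hl c' c (l' c') ht' hty h1]
            refine step _ hmem _ hl' ?_ ⟨c', by rw [h1]; exact fun h => h2 h.symm, by simp⟩
            intro x hx
            by_cases hxc' : x = c'
            · subst hxc'; simp at hx
            · by_cases hxc : x = c
              · subst hxc; exact hcne
              · rwa [conv_apply_of_ne l _ hxc' hxc] at hx
          · -- `ty c' = false`, `l' c' = l c`, `l c' ≠ l c`
            have hmem := swap_mem_X hl (c := c) (c' := c') (hty.trans ht'.symm)
            rw [← hs l hl c c' (hty.trans ht'.symm)]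
            refine step _ hmem _ hl' ?_ ⟨c', by rw [h1]; exact h2, by simp [h1]⟩
            intro x hx
            by_cases hxc' : x = c'
            · subst hxc'; simp [h1] at hx
            · by_cases hxc : x = c
              · subst hxc; exact hcne
              · rwa [Function.comp_apply, Equiv.swap_apply_of_ne_of_ne hxc hxc'] at hx
        · -- `ty c = true`, `j = l' c`
          obtain ⟨c', hc'⟩ := exists_tail (j := l' c) (c := c) hl hl'
            (Or.inl ⟨hty, rfl, hcne⟩)
          rcases hc' with ⟨ht', h1, h2⟩ | ⟨ht', h1, h2⟩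
          · -- `ty c' = true`, `l c' = l' c`, `l' c' ≠ l' c`
            have hmem := swap_mem_X hl (c := c) (c' := c') (hty.trans ht'.symm)
            rw [← hs l hl c c' (hty.trans ht'.symm)]
            refine step _ hmem _ hl' ?_ ⟨c, hcne, by simp [h1]⟩
            intro x hx
            by_cases hxc : x = c
            · subst hxc; simp [h1] at hx
            · by_cases hxc' : x = c'
              · subst hxc'; rw [h1]; exact fun h => h2 h.symm
              · rwa [Function.comp_apply, Equiv.swap_apply_of_ne_of_ne hxc hxc'] at hx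
          · -- `ty c' = false`, `l' c' = l' c`, `l c' ≠ l' c`
            have hmem := conv_mem_X hl' (l c) hty ht' h1.symm
            rw [← hc l' hl' c c' (l c) hty ht' h1.symm]
            refine step _ hl _ hmem ?_ ⟨c, hcne, by simp⟩
            intro x hx
            by_cases hxc : x = c
            · subst hxc; simp at hx
            · by_cases hxc' : x = c'
              · subst hxc'; rw [h1]; exact h2
              · rwa [conv_apply_of_ne l' _ hxc hxc'] at hx
  intro l hl l' hl'
  exact key _ l hl l' hl' rfl

end Crest.Agent.SW.ThreeRow
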