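import Crest.Agent.SW_ThreeRowAvg

/-!
# Row 299, three-row lemma, task T-C: an eigenfunction with eigenvalue `> 2` is swap-invariant
-/

set_option autoImplicit false
set_option linter.unusedSectionVars false
open Finset

namespace Crest.Agent.SW.ThreeRow

variable {C : Type*} [Fintype C] [DecidableEq C] {ty : C → Bool} {s : Fin 3 → ℤ}

/-- Generic maximum principle used in T-C and T-D4.  PROOF: if `S = ∅` trivial; otherwise take `j₀`
maximising `|d j|` (`Finset.exists_max_image`), `A := |d j₀|`; `μ * A ≤ 2 * A`, `A ≥ 0`, `μ > 2` give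
`A = 0`. -/
theorem max_principle {ι : Type*} (S : Finset ι) (d : ι → ℝ) {μ : ℝ} (hμ : 2 < μ)
    (h : ∀ A : ℝ, (∀ j ∈ S, |d j| ≤ A) → ∀ j ∈ S, μ * |d j| ≤ 2 * A) : ∀ j ∈ S, d j = 0 := by
  intro j hj
  obtain ⟨j0, hj0, hmax⟩ := Finset.exists_max_image S (fun j => |d j|) ⟨j, hj⟩
  have h1 := h (|d j0|) hmax j0 hj0
  have h2 : |d j0| ≤ 0 := by
    by_contra hc
    have hc' : 0 < |d j0| := not_le.1 hc
    nlinarith
  have h3 : |d j| ≤ 0 := (hmax j hj).trans h2
  exact abs_nonpos_iff.1 h3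

private theorem exists_third (a b : Fin 3) : ∃ e : Fin 3, e ≠ a ∧ e ≠ b := by
  revert a b; decide

/-- One step.  PROOF.  Put `τ = swap c c'`, `l' = l ∘ τ ∈ X` (`swap_mem_X`).  If `l c = l c'` then
`l' = l` and the claim is `0 ≤ 2 * A` (`A ≥ |..| ≥ 0`).  Otherwise let `e` be the third label
(`e ≠ l c`, `e ≠ l c'`; `∃ e` by `decide`/`fin_cases`, and `univ = {l c, l c', e}`).  Subtract the two
eigen-equations: `μ * (f l' - f l) = ∑ i, (P i f l' - P i f l)`.
* `i = e`: `P_congr` (for all `x`: `l' x = e ↔ l x = e`, since `τ` only moves `c, c'` whose labels in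
  both `l` and `l'` are `≠ e`) : the term is `0`.
* `i = l c` or `i = l c'`: `P i f l' = P i (fun m => f (m ∘ τ)) l` (`P_comp_swap`), and
  `abs_P_sub_P_le hl` with `hA m (mem of X) c c' h` : the term is `≤ A` in absolute value.
To avoid the case analysis on `Fin 3` one can also prove: every term is `≤ A` in absolute value,
one term (`e`) vanishes, hence `|∑ i| ≤ 2 * A` via `Finset.sum_erase`/`Finset.abs_sum_le_sum_abs` and
`card (univ.erase e) = 2`. -/
theorem swap_step {μ κ A : ℝ} (hμ : 0 ≤ μ) {f : (C → Fin 3) → ℝ} (hf : Eigen ty s μ κ f)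
    (hA : ∀ l ∈ X ty s, ∀ c c' : C, ty c = ty c' → |f (l ∘ Equiv.swap c c') - f l| ≤ A)
    {l : C → Fin 3} (hl : l ∈ X ty s) {c c' : C} (h : ty c = ty c') :
    μ * |f (l ∘ Equiv.swap c c') - f l| ≤ 2 * A := by
  have hl' : l ∘ Equiv.swap c c' ∈ X ty s := swap_mem_X hl h
  have e1 := hf l hl
  have e2 := hf _ hl'
  have hdiff : μ * (f (l ∘ Equiv.swap c c') - f l)
      = ∑ i, (P ty s i f (l ∘ Equiv.swap c c') - P ty s i f l) := by
    rw [Finset.sum_sub_distrib]; linarith
  have hterm : ∀ i, |P ty s i f (l ∘ Equiv.swap c c') - P ty s i f l| ≤ A := by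
    intro i
    rw [P_comp_swap h i f l]
    apply abs_P_sub_P_le hl
    intro m hm
    exact hA m (mem_Fib.1 hm).1 c c' h
  obtain ⟨e, he1, he2⟩ := exists_third (l c) (l c')
  have hz : P ty s e f (l ∘ Equiv.swap c c') - P ty s e f l = 0 := by
    rw [sub_eq_zero]
    apply P_congr
    intro x
    rcases eq_or_ne x c with rfl | h1
    · simp only [Function.comp_apply, Equiv.swap_apply_left]
      exact ⟨fun hx => absurd hx.symm he2, fun hx => absurd hx.symm he1⟩
    · rcases eq_or_ne x c' with rfl | h2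
      · simp only [Function.comp_apply, Equiv.swap_apply_right]
        exact ⟨fun hx => absurd hx.symm he1, fun hx => absurd hx.symm he2⟩
      · simp only [Function.comp_apply, Equiv.swap_apply_of_ne_of_ne h1 h2]
  have hsum : |∑ i, (P ty s i f (l ∘ Equiv.swap c c') - P ty s i f l)| ≤ 2 * A := by
    rw [← Finset.sum_erase (univ : Finset (Fin 3)) hz]
    calc |∑ i ∈ univ.erase e, (P ty s i f (l ∘ Equiv.swap c c') - P ty s i f l)|
        ≤ ∑ i ∈ univ.erase e, |P ty s i f (l ∘ Equiv.swap c c') - P ty s i f l| :=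
          Finset.abs_sum_le_sum_abs _ _
      _ ≤ ∑ _i ∈ (univ.erase e : Finset (Fin 3)), A := Finset.sum_le_sum fun i _ => hterm i
      _ = 2 * A := by
          rw [Finset.sum_const, Finset.card_erase_of_mem (mem_univ e)]
          simp
  calc μ * |f (l ∘ Equiv.swap c c') - f l|
      = |μ * (f (l ∘ Equiv.swap c c') - f l)| := by rw [abs_mul, abs_of_nonneg hμ]
    _ ≤ 2 * A := by rw [hdiff]; exact hsum

/-- PROOF: `max_principle` on
`S = ((X ty s) ×ˢ (univ ×ˢ univ)).filter (fun j => ty j.2.1 = ty j.2.2)`,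
`d j = f (j.1 ∘ swap j.2.1 j.2.2) - f j.1`, with `swap_step`. -/
theorem swapInv_of_eigen {μ κ : ℝ} (hμ : 2 < μ) {f : (C → Fin 3) → ℝ}
    (hf : Eigen ty s μ κ f) : SwapInv ty s f := by
  intro l hl c c' h
  have key := max_principle
    (((X ty s) ×ˢ ((univ : Finset C) ×ˢ (univ : Finset C))).filter
      (fun j => ty j.2.1 = ty j.2.2))
    (fun j => f (j.1 ∘ Equiv.swap j.2.1 j.2.2) - f j.1) hμ
    (by
      intro A hA j hj
      have hj' := Finset.mem_filter.1 hj
      have hjX : j.1 ∈ X ty s := (Finset.mem_product.1 hj'.1).1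
      exact swap_step (by linarith) hf
        (fun l hl c c' h => hA (l, (c, c')) (by simp [hl, h])) hjX hj'.2)
    (l, (c, c')) (by simp [hl, h])
  exact sub_eq_zero.1 key

end Crest.Agent.SW.ThreeRow
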