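import Crest.Agent.SW_ThreeRowConv3
import Crest.Agent.SW_ThreeRowSwap

/-!
# Row 299, three-row lemma, task T-D4: a swap-invariant eigenfunction with eigenvalue `> 2` is
conversion-invariant
-/

set_option autoImplicit false
set_option linter.unusedSectionVars false
open Finset

namespace Crest.Agent.SW.ThreeRow

variable {C : Type*} [Fintype C] [DecidableEq C] {ty : C → Bool} {s : Fin 3 → ℤ}

private theorem exists_third : ∀ a b : Fin 3, ∃ e : Fin 3, e ≠ a ∧ e ≠ b := by decide

private theorem sum_three (g : Fin 3 → ℝ) (a b e : Fin 3) (hab : a ≠ b) (hea : e ≠ a)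
    (heb : e ≠ b) : ∑ i, g i = g a + g b + g e := by
  have huniv : (univ : Finset (Fin 3)) = {a, b, e} := by
    revert a b e
    decide
  rw [huniv, sum_insert, sum_insert, sum_singleton]
  · ring
  · simpa using heb.symm
  · simp only [mem_insert, mem_singleton, not_or]
    exact ⟨hab, hea.symm⟩

/-- One step.  PROOF.  `a := l c₁`, `l' := conv l c₁ c₀ b ∈ X` (`conv_mem_X`).  If `b = a` then
`l' = l` (`funext`, `Function.update_eq_self`-like) and the claim is `0 ≤ 2 * B`
(`B ≥ |..| ≥ 0` from `hB`).  Otherwise let `e` be the third label.  Subtract the eigen-equations: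
`μ * (f l' - f l) = ∑ i, (P i f l' - P i f l)`.
* `i = e`: `P_congr` (`l' c = e ↔ l c = e`: for `c = c₁, c₀` both sides are false) : `0`.
* `i = a`: `abs_P_conv_le hs hB hl h1 h0 h hb`.
* `i = b`: `l = conv l' c₁ c₀ a` (funext), `l' c₁ = b = l' c₀`, so
  `abs_P_conv_le hs hB hl' h1 h0 _ (a ≠ b)` gives `|P b f l - P b f l'| ≤ B`. -/
theorem conv_step {μ κ B : ℝ} (hμ : 0 ≤ μ) {f : (C → Fin 3) → ℝ} (hf : Eigen ty s μ κ f)
    (hs : SwapInv ty s f) (hB : ConvBd ty s f B)
    {l : C → Fin 3} (hl : l ∈ X ty s) {c₁ c₀ : C} (b : Fin 3)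
    (h1 : ty c₁ = true) (h0 : ty c₀ = false) (h : l c₁ = l c₀) :
    μ * |f (conv l c₁ c₀ b) - f l| ≤ 2 * B := by
  have hB0 : 0 ≤ B := (abs_nonneg _).trans (hB l hl c₁ c₀ b h1 h0 h)
  have hl' : conv l c₁ c₀ b ∈ X ty s := conv_mem_X hl b h1 h0 h
  by_cases hb : b = l c₁
  · have hll : conv l c₁ c₀ b = l := by
      funext c
      by_cases hc1 : c = c₁
      · subst hc1; rw [conv_apply_left]; exact hb
      · by_cases hc0 : c = c₀
        · subst hc0; rw [conv_apply_right]; exact hb.trans h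
        · exact conv_apply_of_ne l b hc1 hc0
    rw [hll, sub_self, abs_zero, mul_zero]
    linarith
  · obtain ⟨e, hea, heb⟩ := exists_third (l c₁) b
    have hab : l c₁ ≠ b := fun hh => hb hh.symm
    have e1 := hf l hl
    have e2 := hf _ hl'
    rw [sum_three _ (l c₁) b e hab hea heb] at e1 e2
    -- the third label
    have he : P ty s e f (conv l c₁ c₀ b) = P ty s e f l := by
      refine P_congr f fun c => ?_
      by_cases hc1 : c = c₁
      · subst hc1
        rw [conv_apply_left]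
        exact ⟨fun hh => absurd hh.symm heb, fun hh => absurd hh.symm hea⟩
      · by_cases hc0 : c = c₀
        · subst hc0
          rw [conv_apply_right, ← h]
          exact ⟨fun hh => absurd hh.symm heb, fun hh => absurd hh.symm hea⟩
        · rw [conv_apply_of_ne l b hc1 hc0]
    -- the label `a`
    have ha := abs_P_conv_le hs hB hl h1 h0 h hb
    -- the label `b`
    have hback : conv (conv l c₁ c₀ b) c₁ c₀ (l c₁) = l := by
      funext c
      by_cases hc1 : c = c₁
      · subst hc1; rw [conv_apply_left]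
      · by_cases hc0 : c = c₀
        · subst hc0; rw [conv_apply_right]; exact h
        · rw [conv_apply_of_ne _ _ hc1 hc0, conv_apply_of_ne _ _ hc1 hc0]
    have hb' := abs_P_conv_le (b := l c₁) hs hB hl' h1 h0
      (by rw [conv_apply_left, conv_apply_right]) (by rw [conv_apply_left]; exact hab)
    rw [hback, conv_apply_left] at hb'
    have key : μ * (f (conv l c₁ c₀ b) - f l)
        = (P ty s (l c₁) f (conv l c₁ c₀ b) - P ty s (l c₁) f l)
          - (P ty s b f l - P ty s b f (conv l c₁ c₀ b)) := by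
      rw [he] at e2
      linarith
    calc μ * |f (conv l c₁ c₀ b) - f l| = |μ * (f (conv l c₁ c₀ b) - f l)| := by
          rw [abs_mul, abs_of_nonneg hμ]
      _ = |(P ty s (l c₁) f (conv l c₁ c₀ b) - P ty s (l c₁) f l)
          - (P ty s b f l - P ty s b f (conv l c₁ c₀ b))| := by rw [key]
      _ ≤ |P ty s (l c₁) f (conv l c₁ c₀ b) - P ty s (l c₁) f l|
          + |P ty s b f l - P ty s b f (conv l c₁ c₀ b)| := abs_sub _ _
      _ ≤ 2 * B := by linarith

/-- PROOF: `max_principle` on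
`S = ((X ty s) ×ˢ (univ ×ˢ (univ ×ˢ univ))).filter
  (fun j => ty j.2.1 = true ∧ ty j.2.2.1 = false ∧ j.1 j.2.1 = j.1 j.2.2.1)`,
`d j = f (conv j.1 j.2.1 j.2.2.1 j.2.2.2) - f j.1`, with `conv_step`. -/
theorem convInv_of_eigen {μ κ : ℝ} (hμ : 2 < μ) {f : (C → Fin 3) → ℝ}
    (hf : Eigen ty s μ κ f) (hs : SwapInv ty s f) : ConvInv ty s f := by
  set S : Finset ((C → Fin 3) × (C × (C × Fin 3))) :=
    ((X ty s) ×ˢ ((univ : Finset C) ×ˢ ((univ : Finset C) ×ˢ (univ : Finset (Fin 3))))).filter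
      (fun j => ty j.2.1 = true ∧ ty j.2.2.1 = false ∧ j.1 j.2.1 = j.1 j.2.2.1) with hS
  have hmem : ∀ j : (C → Fin 3) × (C × (C × Fin 3)), j ∈ S ↔
      j.1 ∈ X ty s ∧ ty j.2.1 = true ∧ ty j.2.2.1 = false ∧ j.1 j.2.1 = j.1 j.2.2.1 := by
    intro j
    simp [hS, mem_filter, mem_product]
  have hmax := max_principle S
    (fun j => f (conv j.1 j.2.1 j.2.2.1 j.2.2.2) - f j.1) hμ (by
      intro A hA j hj
      have hB : ConvBd ty s f A := fun l hl c₁ c₀ b h1 h0 h =>
        hA (l, c₁, c₀, b) ((hmem _).2 ⟨hl, h1, h0, h⟩)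
      obtain ⟨hl, h1, h0, h⟩ := (hmem j).1 hj
      exact conv_step (by linarith) hf hs hB hl j.2.2.2 h1 h0 h)
  intro l hl c₁ c₀ b h1 h0 h
  have := hmax (l, c₁, c₀, b) ((hmem _).2 ⟨hl, h1, h0, h⟩)
  exact sub_eq_zero.1 this

end Crest.Agent.SW.ThreeRow
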