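import Crest.Agent.SW_ThreeRowSpec
import Crest.Agent.SW_ThreeRowConv4
import Crest.Agent.SW_ThreeRowConn

/-!
# Row 299, three-row lemma, task T-F: assembly (self-contained form)
-/

set_option autoImplicit false
set_option linter.unusedSectionVars false
open Finset

namespace Crest.Agent.SW.ThreeRow

variable {C : Type*} [Fintype C] [DecidableEq C] {ty : C → Bool} {s : Fin 3 → ℤ}

/-- the operator `P₀ + P₁ + P₂ - 3 Π` -/
noncomputable def T (ty : C → Bool) (s : Fin 3 → ℤ) (f : (C → Fin 3) → ℝ) : (C → Fin 3) → ℝ :=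
  fun l => ∑ i, P ty s i f l - 3 * mean ty s f

/-- no eigenvalue `> 2` -/
theorem no_eigen {μ : ℝ} (hμ : 2 < μ) {f : (C → Fin 3) → ℝ}
    (hf : ∀ l ∈ X ty s, T ty s f l = μ * f l) : ∀ l ∈ X ty s, f l = 0 := by
  have hE : Eigen ty s μ (3 * mean ty s f) f := hf
  have hs := swapInv_of_eigen hμ hE
  have hc := convInv_of_eigen hμ hE hs
  have hconst := const_of_inv hs hc
  intro l hl
  have h1 : ∀ m ∈ X ty s, f m = f l := fun m hm => hconst m hm l hl
  have h2 := hf l hl
  unfold T at h2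
  rw [mean_eq_of_const h1 hl, Finset.sum_congr rfl (fun i _ => P_eq_of_const i h1 hl)] at h2
  simp only [Finset.sum_const, Finset.card_univ, Fintype.card_fin, nsmul_eq_mul] at h2
  have h3 : μ * f l = 0 := by rw [← h2]; push_cast; ring
  rcases mul_eq_zero.1 h3 with h | h
  · linarith
  · exact h

theorem T_sym (f g : (C → Fin 3) → ℝ) :
    ∑ l ∈ X ty s, f l * T ty s g l = ∑ l ∈ X ty s, T ty s f l * g l := by
  have h1 : ∑ l ∈ X ty s, f l * T ty s g l
      = ∑ i, ∑ l ∈ X ty s, f l * P ty s i g l - 3 * mean ty s g * ∑ l ∈ X ty s, f l := by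
    unfold T
    simp only [mul_sub, Finset.mul_sum, Finset.sum_sub_distrib]
    rw [Finset.sum_comm]
    congr 1
    apply Finset.sum_congr rfl; intro l _; ring
  have h2 : ∑ l ∈ X ty s, T ty s f l * g l
      = ∑ i, ∑ l ∈ X ty s, P ty s i f l * g l - 3 * mean ty s f * ∑ l ∈ X ty s, g l := by
    unfold T
    simp only [sub_mul, Finset.sum_mul, Finset.mul_sum, Finset.sum_sub_distrib]
    rw [Finset.sum_comm]
  rw [h1, h2, sum_eq_card_mul_mean f, sum_eq_card_mul_mean g,
    Finset.sum_congr rfl (fun i _ => P_sym i g f)]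
  ring

theorem T_quad_le (f : (C → Fin 3) → ℝ) :
    ∑ l ∈ X ty s, f l * T ty s f l ≤ 2 * ∑ l ∈ X ty s, f l ^ 2 := by
  refine quad_le_of_no_eigen (X ty s) (T ty s) ?_ ?_ ?_ T_sym 2
    (fun μ hμ f hf => no_eigen hμ hf) f
  · intro f g l _
    unfold T
    simp only [P_add, mean_add, Finset.sum_add_distrib]
    ring
  · intro a f l _
    unfold T
    simp only [P_smul, mean_smul, ← Finset.mul_sum]
    ring
  · intro f g h l _
    unfold T
    rw [mean_loc h, Finset.sum_congr rfl (fun i _ => P_loc i h l)]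

/-- **The three-row lemma**, self-contained form. -/
theorem three_row (ty : C → Bool) (s : Fin 3 → ℤ) (f : (C → Fin 3) → ℝ) :
    ∑ l ∈ X ty s, (f l - mean ty s f) ^ 2 ≤ ∑ i, ∑ l ∈ X ty s, (f l - P ty s i f l) ^ 2 := by
  set a := mean ty s f with ha
  set g : (C → Fin 3) → ℝ := fun l => f l - a with hg
  -- `mean g = 0` as far as it matters
  have hsum : ∑ l ∈ X ty s, g l = 0 := by
    simp only [hg, Finset.sum_sub_distrib, Finset.sum_const, nsmul_eq_mul]
    rw [sum_eq_card_mul_mean f]; ring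
  have hmean : mean ty s g = 0 := by
    unfold mean; rw [hsum]; simp
  have hP : ∀ i, ∀ l ∈ X ty s, f l - P ty s i f l = g l - P ty s i g l := by
    intro i l hl
    have : P ty s i g l = P ty s i f l - a := by
      rw [hg, P_sub i f (fun _ => a) l, P_const i a hl]
    rw [this]
    simp only [hg]
    ring
  have h1 : ∑ i, ∑ l ∈ X ty s, (f l - P ty s i f l) ^ 2
      = 3 * ∑ l ∈ X ty s, g l ^ 2 - ∑ l ∈ X ty s, g l * T ty s g l := by
    have : ∀ i : Fin 3, ∑ l ∈ X ty s, (f l - P ty s i f l) ^ 2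
        = ∑ l ∈ X ty s, g l ^ 2 - ∑ l ∈ X ty s, g l * P ty s i g l := by
      intro i
      rw [← sum_sq_sub_P]
      exact Finset.sum_congr rfl (fun l hl => by rw [hP i l hl])
    rw [Finset.sum_congr rfl (fun i _ => this i)]
    unfold T
    rw [hmean]
    simp only [Finset.sum_sub_distrib, Finset.sum_const, Finset.card_univ, Fintype.card_fin,
      nsmul_eq_mul, mul_zero, sub_zero, Finset.mul_sum]
    rw [Finset.sum_comm]
    push_cast
    ring
  rw [h1]
  have h2 := T_quad_le (ty := ty) (s := s) g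
  linarith

end Crest.Agent.SW.ThreeRow
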