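import Crest.Agent.SW_Knabe
import Crest.Agent.SW_ThreeRowMain

/-!
# S0453: the abstract 3-row lemma (tasks T*)

`C` = free columns of a `3 × k` 0/1 matrix with prescribed margins; `ty c = true`: column sum 1 (label = the row
holding the 1), `ty c = false`: column sum 2 (label = the row holding the 0).  Row sums fixed  ⇔  for every row `i`
`#{c | ty c, l c = i} - #{c | ¬ ty c, l c = i} = s i`.   `rowKey i l = l⁻¹(i)` = the information "row `i`".

The proof lives in `SW_ThreeRow{Defs,Spec,Avg,Swap,Conv1..4,Conn,Main}.lean` (namespace `SW.ThreeRow`);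
this file is the adapter to the `cE/cR/nsq` language.
-/

set_option autoImplicit false
set_option linter.unusedSectionVars false
open Finset

namespace Crest.Agent.SW

variable {C : Type*} [Fintype C] [DecidableEq C]

/-- State space of the 3-row model. -/
def TX (ty : C → Bool) (s : Fin 3 → ℤ) : Finset (C → Fin 3) :=
  univ.filter (fun l => ∀ i : Fin 3,
    ((univ.filter (fun c => ty c = true ∧ l c = i)).card : ℤ)
      - ((univ.filter (fun c => ty c = false ∧ l c = i)).card : ℤ) = s i)

/-- The information contained in row `i`. -/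
def rowKey (i : Fin 3) : (C → Fin 3) → Finset C := fun l => univ.filter (fun c => l c = i)

theorem ch_eq_card (ty : C → Bool) (l : C → Fin 3) (i : Fin 3) :
    ThreeRow.ch ty l i = ((univ.filter (fun c => ty c = true ∧ l c = i)).card : ℤ)
      - ((univ.filter (fun c => ty c = false ∧ l c = i)).card : ℤ) := by
  unfold ThreeRow.ch ThreeRow.sg
  rw [Finset.card_filter, Finset.card_filter]
  push_cast
  rw [← Finset.sum_sub_distrib]
  apply Finset.sum_congr rfl
  intro c _
  cases ty c <;> by_cases h : l c = i <;> simp [h]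

theorem TX_eq_X (ty : C → Bool) (s : Fin 3 → ℤ) : TX ty s = ThreeRow.X ty s := by
  ext l
  simp only [TX, ThreeRow.X, mem_filter, mem_univ, true_and, ch_eq_card]

theorem fib_rowKey (ty : C → Bool) (s : Fin 3 → ℤ) (i : Fin 3) (l : C → Fin 3) :
    fib (TX ty s) (rowKey i) l = ThreeRow.Fib ty s i l := by
  ext m
  simp only [fib, ThreeRow.Fib, TX_eq_X, mem_filter, rowKey, Finset.ext_iff, mem_univ, true_and]

theorem cE_rowKey (ty : C → Bool) (s : Fin 3 → ℤ) (i : Fin 3) (f : (C → Fin 3) → ℝ)
    (l : C → Fin 3) : cE (TX ty s) (rowKey i) f l = ThreeRow.P ty s i f l := by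
  unfold cE ThreeRow.P
  rw [fib_rowKey]

theorem cE_unit (ty : C → Bool) (s : Fin 3 → ℤ) (f : (C → Fin 3) → ℝ)
    (l : C → Fin 3) : cE (TX ty s) (fun _ => ()) f l = ThreeRow.mean ty s f := by
  unfold cE ThreeRow.mean fib
  simp [TX_eq_X]

/-- The 3-row lemma: `P₀ + P₁ + P₂ ≤ 2` on mean-zero functions. -/
theorem three_row (ty : C → Bool) (s : Fin 3 → ℤ) (f : (C → Fin 3) → ℝ) :
    nsq (TX ty s) (cR (TX ty s) (fun _ => ()) f)
      ≤ ∑ i : Fin 3, nsq (TX ty s) (cR (TX ty s) (rowKey i) f) := by
  have h := ThreeRow.three_row ty s f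
  simp only [nsq, cR, cE_rowKey, cE_unit]
  rw [TX_eq_X]
  exact h

end Crest.Agent.SW
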