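import Crest.Agent.SW_QCalc
import Crest.Agent.SW_ThreeRow

/-!
# S0453: the fibre of a vertex triple is a 3-row model (tasks TF0 - TF4)

Fix an injective `τ : Fin 3 → Fin n`, `t = image τ`, and `G0 : Om d`.
`Φ = fib univ (offKey d (inc t)) G0` = realizations agreeing with `G0` on all slots not incident to `t`.

Encode `G ∈ Φ` by the `3 × (n - 2)` 0/1 matrix `ent G τ i c`, columns `c : Option (Fin n)`:
* `c = some z`, `z ∉ t`: `ent G τ i (some z) = [τ i ~ z]`;
* `c = none` (virtual column ★): `ent G τ i none = [τ (i+1) ≁ τ (i+2)]`  (NON-adjacency of the opposite side).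

On `Φ`:
* column sums are constant: for `z ∉ t` this is `d z - #(edges at z outside inc t)`; for ★: with `E` = number of inner edges,
  `∑ i, d (τ i) = 2 E + ∑_{z ∉ t} (column sum of z)`, so `E` is constant, and the column sum of ★ is `3 - E`;
* row sums are constant: `d (τ i) = ∑_{z ∉ t} ent i (some z) + (E - [τ(i+1) ~ τ(i+2)]) = (row sum of row i, ★ included) + E - 1`.
Conversely every 0/1 matrix with these margins comes from a unique `G ∈ Φ`.
Columns with sum 0 or 3 are constant; the other ("free") columns are encoded by a label in `Fin 3`.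

The trade on `p = t \ {τ i}` : for `G, G' ∈ Φ`,  `G, G'` agree off `inc p`  ⇔  they have the same row `i` (★ included).
(`⇒` for ★: the slot `τ(i+1) τ(i+2)` is constant on a fibre of `offKey (inc p)`:
`d (τ(i+1)) + d (τ(i+2)) = 2 [slot] + ∑_{z ∉ p} #(edges from z to p)` and each summand is `d z - #(edges at z outside inc p)`.)
-/

set_option autoImplicit false
open Finset

namespace Crest.Agent.SW
open Crest.SwitchChain

variable {n : ℕ}

/-- entries of the `3 × (n-2)` matrix -/
def ent (G : Finset (Edge n)) (τ : Fin 3 → Fin n) (i : Fin 3) : Option (Fin n) → Prop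
  | some z => adj G (τ i) z
  | none => ¬ adj G (τ (i + 1)) (τ (i + 2))

instance (G : Finset (Edge n)) (τ : Fin 3 → Fin n) (i : Fin 3) (c : Option (Fin n)) :
    Decidable (ent G τ i c) := by
  cases c <;> (unfold ent; infer_instance)

/-- column sum -/
def cnt (G : Finset (Edge n)) (τ : Fin 3 → Fin n) (c : Option (Fin n)) : ℕ :=
  (univ.filter (fun i : Fin 3 => ent G τ i c)).card

/-- admissible columns: ★ and the vertices outside the triple -/
def isCol (τ : Fin 3 → Fin n) (c : Option (Fin n)) : Prop := ∀ z, c = some z → ∀ i, z ≠ τ i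

/-- free columns -/
def isFree (G : Finset (Edge n)) (τ : Fin 3 → Fin n) (c : Option (Fin n)) : Prop :=
  isCol τ c ∧ (cnt G τ c = 1 ∨ cnt G τ c = 2)

instance (τ : Fin 3 → Fin n) (c : Option (Fin n)) : Decidable (isCol τ c) := by
  unfold isCol; infer_instance

instance (G : Finset (Edge n)) (τ : Fin 3 → Fin n) (c : Option (Fin n)) : Decidable (isFree G τ c) := by
  unfold isFree; infer_instance

/-- the type of free columns -/
abbrev Col (G0 : Finset (Edge n)) (τ : Fin 3 → Fin n) := {c : Option (Fin n) // isFree G0 τ c}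

/-- type of a free column: `true` = column sum 1 -/
def tyT (G0 : Finset (Edge n)) (τ : Fin 3 → Fin n) (c : Col G0 τ) : Bool := decide (cnt G0 τ c.1 = 1)

/-- label of a free column: the row holding the exceptional entry -/
def labT (G0 : Finset (Edge n)) (τ : Fin 3 → Fin n) (G : Finset (Edge n)) (c : Col G0 τ) : Fin 3 :=
  if (ent G τ 0 c.1 ↔ tyT G0 τ c = true) then 0
  else if (ent G τ 1 c.1 ↔ tyT G0 τ c = true) then 1 else 2

/-- the row constraints -/
def sT (G0 : Finset (Edge n)) (τ : Fin 3 → Fin n) (i : Fin 3) : ℤ :=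
  ((univ.filter (fun c : Col G0 τ => tyT G0 τ c = true ∧ labT G0 τ G0 c = i)).card : ℤ)
    - ((univ.filter (fun c : Col G0 τ => tyT G0 τ c = false ∧ labT G0 τ G0 c = i)).card : ℤ)

end Crest.Agent.SW
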