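import Crest.Agent.SW_ThreeRowDefs

/-!
# Row 299, three-row lemma, task B: elementary properties of the averaging operators `P i`
-/

set_option autoImplicit false
open Finset

namespace Crest.Agent.SW.ThreeRow

variable {C : Type*} [Fintype C] [DecidableEq C] {ty : C → Bool} {s : Fin 3 → ℤ}

/-- if `m` is in the fibre of `l` the two fibres coincide -/
theorem Fib_eq_of_mem {i : Fin 3} {l m : C → Fin 3} (h : m ∈ Fib ty s i l) :
    Fib ty s i m = Fib ty s i l :=
  Fib_congr (mem_Fib.1 h).2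

private theorem card_Fib_pos {i : Fin 3} {l : C → Fin 3} (hl : l ∈ X ty s) :
    (0 : ℝ) < ((Fib ty s i l).card : ℝ) := by
  exact_mod_cast Finset.card_pos.2 ⟨l, self_mem_Fib hl⟩

theorem P_add (i : Fin 3) (f g : (C → Fin 3) → ℝ) (l : C → Fin 3) :
    P ty s i (f + g) l = P ty s i f l + P ty s i g l := by
  unfold P
  simp only [Pi.add_apply, Finset.sum_add_distrib, add_div]

theorem P_smul (i : Fin 3) (a : ℝ) (f : (C → Fin 3) → ℝ) (l : C → Fin 3) :
    P ty s i (a • f) l = a * P ty s i f l := by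
  unfold P
  simp only [Pi.smul_apply, smul_eq_mul, ← Finset.mul_sum, mul_div_assoc]

theorem P_sub (i : Fin 3) (f g : (C → Fin 3) → ℝ) (l : C → Fin 3) :
    P ty s i (fun m => f m - g m) l = P ty s i f l - P ty s i g l := by
  unfold P
  simp only [Finset.sum_sub_distrib, sub_div]

/-- `P i f l` only depends on the values of `f` on `X` -/
theorem P_loc (i : Fin 3) {f g : (C → Fin 3) → ℝ} (h : ∀ m ∈ X ty s, f m = g m)
    (l : C → Fin 3) : P ty s i f l = P ty s i g l := by
  unfold P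
  congr 1
  exact Finset.sum_congr rfl (fun m hm => h m (mem_Fib.1 hm).1)

theorem P_const (i : Fin 3) (a : ℝ) {l : C → Fin 3} (hl : l ∈ X ty s) :
    P ty s i (fun _ => a) l = a := by
  unfold P
  have hpos := card_Fib_pos (ty := ty) (s := s) (i := i) hl
  rw [Finset.sum_const, nsmul_eq_mul]
  field_simp

/-- if `f = a` on `X` then `P i f = a` on `X` -/
theorem P_eq_of_const (i : Fin 3) {f : (C → Fin 3) → ℝ} {a : ℝ} (h : ∀ m ∈ X ty s, f m = a)
    {l : C → Fin 3} (hl : l ∈ X ty s) : P ty s i f l = a := by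
  rw [P_loc i h l, P_const i a hl]

/-- averages of close functions are close -/
theorem abs_P_sub_P_le {i : Fin 3} {l : C → Fin 3} (hl : l ∈ X ty s)
    {f g : (C → Fin 3) → ℝ} {A : ℝ} (h : ∀ m ∈ Fib ty s i l, |f m - g m| ≤ A) :
    |P ty s i f l - P ty s i g l| ≤ A := by
  rw [← P_sub]
  unfold P
  have hpos := card_Fib_pos (ty := ty) (s := s) (i := i) hl
  rw [abs_div, abs_of_pos hpos, div_le_iff₀ hpos]
  calc |∑ m ∈ Fib ty s i l, (f m - g m)| ≤ ∑ m ∈ Fib ty s i l, |f m - g m| :=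
        Finset.abs_sum_le_sum_abs _ _
    _ ≤ ∑ _m ∈ Fib ty s i l, A := Finset.sum_le_sum h
    _ = A * ((Fib ty s i l).card : ℝ) := by rw [Finset.sum_const, nsmul_eq_mul]; ring

/-- self-adjointness.  PROOF: both sides are
`∑ l ∈ X, ∑ m ∈ X, [m ~ l] g l * f m / card (Fib l)` and `card (Fib l) = card (Fib m)` when `m ~ l`
(`Fib_eq_of_mem`); swap the sums (`Finset.sum_comm`). -/
theorem P_sym (i : Fin 3) (f g : (C → Fin 3) → ℝ) :
    ∑ l ∈ X ty s, g l * P ty s i f l = ∑ l ∈ X ty s, P ty s i g l * f l := by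
  have h1 : ∀ l ∈ X ty s, g l * P ty s i f l
      = ∑ m ∈ X ty s, if (∀ c, m c = i ↔ l c = i) then g l * f m / ((Fib ty s i l).card : ℝ) else 0 := by
    intro l _
    unfold P Fib
    rw [← Finset.sum_filter, ← mul_div_assoc, Finset.mul_sum, Finset.sum_div]
  have h2 : ∀ m ∈ X ty s, P ty s i g m * f m
      = ∑ l ∈ X ty s, if (∀ c, l c = i ↔ m c = i) then g l * f m / ((Fib ty s i m).card : ℝ) else 0 := by
    intro m _
    unfold P Fib
    rw [← Finset.sum_filter, div_mul_eq_mul_div, Finset.sum_mul, Finset.sum_div]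
  rw [Finset.sum_congr rfl h1, Finset.sum_congr rfl h2, Finset.sum_comm]
  refine Finset.sum_congr rfl (fun m _ => Finset.sum_congr rfl (fun l _ => ?_))
  by_cases h : ∀ c, m c = i ↔ l c = i
  · have h' : ∀ c, l c = i ↔ m c = i := fun c => (h c).symm
    rw [if_pos h, if_pos h', Fib_congr h]
  · have h' : ¬ ∀ c, l c = i ↔ m c = i := fun h' => h (fun c => (h' c).symm)
    rw [if_neg h, if_neg h']

/-- idempotence on `X` (`P i f` is constant on fibres by `P_congr`) -/
theorem P_P (i : Fin 3) (f : (C → Fin 3) → ℝ) {l : C → Fin 3} (hl : l ∈ X ty s) :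
    P ty s i (P ty s i f) l = P ty s i f l := by
  have hpos := card_Fib_pos (ty := ty) (s := s) (i := i) hl
  have h : ∑ m ∈ Fib ty s i l, P ty s i f m = ∑ _m ∈ Fib ty s i l, P ty s i f l :=
    Finset.sum_congr rfl (fun m hm => P_congr f (mem_Fib.1 hm).2)
  have e : P ty s i (P ty s i f) l
      = (∑ m ∈ Fib ty s i l, P ty s i f m) / ((Fib ty s i l).card : ℝ) := rfl
  rw [e, h, Finset.sum_const, nsmul_eq_mul]
  field_simp

/-- Pythagoras.  PROOF: expand the square; `∑ (P f)^2 = ∑ P f * P f = ∑ P (P f) * f = ∑ P f * f`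
by `P_sym`, `P_P`. -/
theorem sum_sq_sub_P (i : Fin 3) (f : (C → Fin 3) → ℝ) :
    ∑ l ∈ X ty s, (f l - P ty s i f l) ^ 2
      = ∑ l ∈ X ty s, f l ^ 2 - ∑ l ∈ X ty s, f l * P ty s i f l := by
  have h1 : ∑ l ∈ X ty s, P ty s i f l * P ty s i f l = ∑ l ∈ X ty s, f l * P ty s i f l := by
    rw [P_sym i f (P ty s i f)]
    refine Finset.sum_congr rfl (fun l hl => ?_)
    rw [P_P i f hl, mul_comm]
  have h2 : ∀ l ∈ X ty s, (f l - P ty s i f l) ^ 2
      = f l ^ 2 - 2 * (f l * P ty s i f l) + P ty s i f l * P ty s i f l := by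
    intro l _; ring
  rw [Finset.sum_congr rfl h2, Finset.sum_add_distrib, Finset.sum_sub_distrib, h1, ← Finset.mul_sum]
  ring

/-- the fibre of `l ∘ τ` is the image of the fibre of `l`.  PROOF: `m ↦ m ∘ τ` is an involution
preserving `X` (`swap_mem_X`); `Finset.sum_bij'` / `Finset.card_bij'`. -/
theorem P_comp_swap {c c' : C} (h : ty c = ty c') (i : Fin 3) (f : (C → Fin 3) → ℝ)
    (l : C → Fin 3) :
    P ty s i f (l ∘ Equiv.swap c c') = P ty s i (fun m => f (m ∘ Equiv.swap c c')) l := by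
  have hinv : ∀ m : C → Fin 3, (m ∘ Equiv.swap c c') ∘ Equiv.swap c c' = m := by
    intro m; funext x; simp
  have hto : ∀ m ∈ Fib ty s i (l ∘ Equiv.swap c c'), m ∘ Equiv.swap c c' ∈ Fib ty s i l := by
    intro m hm
    obtain ⟨hm1, hm2⟩ := mem_Fib.1 hm
    refine mem_Fib.2 ⟨swap_mem_X hm1 h, fun x => ?_⟩
    have := hm2 (Equiv.swap c c' x)
    simpa using this
  have hfrom : ∀ m ∈ Fib ty s i l, m ∘ Equiv.swap c c' ∈ Fib ty s i (l ∘ Equiv.swap c c') := by
    intro m hm
    obtain ⟨hm1, hm2⟩ := mem_Fib.1 hm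
    exact mem_Fib.2 ⟨swap_mem_X hm1 h, fun x => hm2 (Equiv.swap c c' x)⟩
  have hsum : ∑ m ∈ Fib ty s i (l ∘ Equiv.swap c c'), f m
      = ∑ m ∈ Fib ty s i l, f (m ∘ Equiv.swap c c') :=
    Finset.sum_bij' (fun m _ => m ∘ Equiv.swap c c') (fun m _ => m ∘ Equiv.swap c c')
      hto hfrom (fun m _ => hinv m) (fun m _ => hinv m) (fun m _ => by rw [hinv m])
  have hcard : (Fib ty s i (l ∘ Equiv.swap c c')).card = (Fib ty s i l).card :=
    Finset.card_bij' (fun m _ => m ∘ Equiv.swap c c') (fun m _ => m ∘ Equiv.swap c c')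
      hto hfrom (fun m _ => hinv m) (fun m _ => hinv m)
  unfold P
  rw [hsum, hcard]

theorem mean_add (f g : (C → Fin 3) → ℝ) : mean ty s (f + g) = mean ty s f + mean ty s g := by
  unfold mean
  simp only [Pi.add_apply, Finset.sum_add_distrib, add_div]

theorem mean_smul (a : ℝ) (f : (C → Fin 3) → ℝ) : mean ty s (a • f) = a * mean ty s f := by
  unfold mean
  simp only [Pi.smul_apply, smul_eq_mul, ← Finset.mul_sum, mul_div_assoc]

theorem mean_loc {f g : (C → Fin 3) → ℝ} (h : ∀ m ∈ X ty s, f m = g m) :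
    mean ty s f = mean ty s g := by
  unfold mean
  rw [Finset.sum_congr rfl h]

theorem mean_eq_of_const {f : (C → Fin 3) → ℝ} {a : ℝ} (h : ∀ m ∈ X ty s, f m = a)
    {l : C → Fin 3} (hl : l ∈ X ty s) : mean ty s f = a := by
  have hpos : (0 : ℝ) < ((X ty s).card : ℝ) := by
    exact_mod_cast Finset.card_pos.2 ⟨l, hl⟩
  unfold mean
  rw [Finset.sum_congr rfl h, Finset.sum_const, nsmul_eq_mul]
  field_simp

/-- `∑ f = card * mean` -/
theorem sum_eq_card_mul_mean (f : (C → Fin 3) → ℝ) :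
    ∑ l ∈ X ty s, f l = ((X ty s).card : ℝ) * mean ty s f := by
  unfold mean
  rcases (X ty s).eq_empty_or_nonempty with h0 | hne
  · rw [h0]; simp
  · have hpos : (0 : ℝ) < ((X ty s).card : ℝ) := by
      exact_mod_cast Finset.card_pos.2 hne
    field_simp

end Crest.Agent.SW.ThreeRow
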