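import Crest.Agent.SW_ThreeRowAvg

/-!
# Row 299, three-row lemma, task T-D1: the bijection behind the off-diagonal part
-/

set_option autoImplicit false
set_option linter.unusedSectionVars false
open Finset

namespace Crest.Agent.SW.ThreeRow

variable {C : Type*} [Fintype C] [DecidableEq C] {ty : C → Bool} {s : Fin 3 → ℤ}

/-- Generic: a bijection that moves `f` by at most `B`.  (`Finset.sum_bij'`, `Finset.card_bij'`,
`Finset.abs_sum_le_sum_abs`, `Finset.sum_le_card_nsmul`.) -/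
theorem abs_sum_sub_sum_le_of_bij {α : Type*} (S S' : Finset α) (f : α → ℝ) {B : ℝ}
    (Φ Ψ : α → α) (h1 : ∀ m ∈ S, Φ m ∈ S') (h2 : ∀ m ∈ S', Ψ m ∈ S)
    (h3 : ∀ m ∈ S, Ψ (Φ m) = m) (h4 : ∀ m ∈ S', Φ (Ψ m) = m)
    (h5 : ∀ m ∈ S, |f m - f (Φ m)| ≤ B) :
    S.card = S'.card ∧ |∑ m ∈ S, f m - ∑ m ∈ S', f m| ≤ B * (S.card : ℝ) := by
  refine ⟨Finset.card_bij' (fun m _ => Φ m) (fun m _ => Ψ m) h1 h2 h3 h4, ?_⟩
  have hsum : ∑ m ∈ S', f m = ∑ m ∈ S, f (Φ m) :=
    (Finset.sum_bij' (fun m _ => Φ m) (fun m _ => Ψ m) h1 h2 h3 h4 (fun _ _ => rfl)).symm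
  rw [hsum, ← Finset.sum_sub_distrib]
  calc |∑ m ∈ S, (f m - f (Φ m))| ≤ ∑ m ∈ S, |f m - f (Φ m)| := Finset.abs_sum_le_sum_abs _ _
    _ ≤ ∑ _m ∈ S, B := Finset.sum_le_sum h5
    _ = B * (S.card : ℝ) := by rw [Finset.sum_const, nsmul_eq_mul, mul_comm]

/-- `p, q` are the two converted columns (of different types, both with label `a` in `l`, and removed
from the `a`-set in `l'`), `r` is a third column of the same type as `p`.
`S  = {m ∈ Fib a l' | m p = x, m q = y, m r = y}`, `S' = {m ∈ Fib a l | m r = x}`.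
PROOF: `abs_sum_sub_sum_le_of_bij` with
`Φ m = conv (m ∘ swap p r) p q a`,  `Ψ m = (conv m p q y) ∘ swap p r`.
* On `S`: `r ≠ p` (`m p = x ≠ y = m r`), `r ≠ q` (types).  `m'' := m ∘ swap p r ∈ X` (`swap_mem_X`),
  `m'' p = y = m'' q`, so `Φ m ∈ X` (`conv_mem_X'`).  `Φ m c = a ↔ l c = a`: for `c = p, q` both true;
  `c = r`: `Φ m r = m p = x ≠ a`, and `l r ≠ a` because `m r = y ≠ a` gives `l' r ≠ a`, use `hl'`;
  other `c`: `Φ m c = m c`, `m c = a ↔ l' c = a ↔ l c = a`.   `Φ m r = x`.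
* On `S'`: `r ≠ p, q` since `m p = m q = a ≠ x = m r`.  `conv m p q y ∈ X` (`m p = m q`), then
  `swap_mem_X`.  Values of `Ψ m`: `x` at `p`, `y` at `q`, `y` at `r`, `m c` elsewhere.
* `Ψ (Φ m) = m`, `Φ (Ψ m) = m`: `funext c`, cases `c = p`, `c = q`, `c = r`
  (`conv_apply_left/right/of_ne`, `Equiv.swap_apply_left/right/of_ne_of_ne`, `Function.comp`).
* `|f m - f (Φ m)| ≤ B`: `f m'' = f m` by `hs`, `|f (conv m'' p q a) - f m''| ≤ B` by `hB.le'`. -/
theorem fixed_r {f : (C → Fin 3) → ℝ} {B : ℝ} (hs : SwapInv ty s f) (hB : ConvBd ty s f B)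
    {l l' : C → Fin 3} {p q r : C} {a x y : Fin 3}
    (hpq : ty p ≠ ty q) (hr : ty r = ty p) (hp : l p = a) (hq : l q = a)
    (hl' : ∀ c, l' c = a ↔ (l c = a ∧ c ≠ p ∧ c ≠ q))
    (hxa : x ≠ a) (hya : y ≠ a) (hxy : x ≠ y) :
    ((Fib ty s a l').filter fun m => m p = x ∧ m q = y ∧ m r = y).card
        = ((Fib ty s a l).filter fun m => m r = x).card ∧
    |∑ m ∈ (Fib ty s a l').filter (fun m => m p = x ∧ m q = y ∧ m r = y), f m
        - ∑ m ∈ (Fib ty s a l).filter (fun m => m r = x), f m|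
      ≤ B * (((Fib ty s a l').filter fun m => m p = x ∧ m q = y ∧ m r = y).card : ℝ) := by
  have hpq' : p ≠ q := by rintro rfl; exact hpq rfl
  have hrq : r ≠ q := by rintro rfl; exact hpq hr.symm
  -- values of Φ
  have Φp : ∀ m : C → Fin 3, conv (m ∘ Equiv.swap p r) p q a p = a := fun m => conv_apply_left _ _ _ _
  have Φq : ∀ m : C → Fin 3, conv (m ∘ Equiv.swap p r) p q a q = a := fun m => conv_apply_right _ _ _ _
  have Φr : ∀ m : C → Fin 3, r ≠ p → conv (m ∘ Equiv.swap p r) p q a r = m p := by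
    intro m hrp
    rw [conv_apply_of_ne _ _ hrp hrq]; simp
  have Φc : ∀ (m : C → Fin 3) (c : C), c ≠ p → c ≠ q → c ≠ r →
      conv (m ∘ Equiv.swap p r) p q a c = m c := by
    intro m c h1 h2 h3
    rw [conv_apply_of_ne _ _ h1 h2]
    simp [Equiv.swap_apply_of_ne_of_ne h1 h3]
  -- values of Ψ
  have Ψp : ∀ m : C → Fin 3, r ≠ p → ((conv m p q y) ∘ Equiv.swap p r) p = m r := by
    intro m hrp
    simp only [Function.comp, Equiv.swap_apply_left]
    exact conv_apply_of_ne _ _ hrp hrq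
  have Ψq : ∀ m : C → Fin 3, ((conv m p q y) ∘ Equiv.swap p r) q = y := by
    intro m
    simp only [Function.comp, Equiv.swap_apply_of_ne_of_ne hpq'.symm hrq.symm]
    exact conv_apply_right _ _ _ _
  have Ψr : ∀ m : C → Fin 3, ((conv m p q y) ∘ Equiv.swap p r) r = y := by
    intro m
    simp only [Function.comp, Equiv.swap_apply_right]
    exact conv_apply_left _ _ _ _
  have Ψc : ∀ (m : C → Fin 3) (c : C), c ≠ p → c ≠ q → c ≠ r →
      ((conv m p q y) ∘ Equiv.swap p r) c = m c := by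
    intro m c h1 h2 h3
    simp only [Function.comp, Equiv.swap_apply_of_ne_of_ne h1 h3]
    exact conv_apply_of_ne _ _ h1 h2
  refine abs_sum_sub_sum_le_of_bij _ _ f
    (fun m => conv (m ∘ Equiv.swap p r) p q a) (fun m => (conv m p q y) ∘ Equiv.swap p r)
    ?_ ?_ ?_ ?_ ?_
  · -- Φ maps S to S'
    intro m hm
    rw [mem_filter, mem_Fib] at hm
    obtain ⟨⟨hmX, hma⟩, hmp, hmq, hmr⟩ := hm
    have hrp : r ≠ p := by rintro rfl; exact hxy (hmp.symm.trans hmr)
    have hm'' : m ∘ Equiv.swap p r ∈ X ty s := swap_mem_X hmX hr.symm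
    have e1 : (m ∘ Equiv.swap p r) p = y := by simp [hmr]
    have e2 : (m ∘ Equiv.swap p r) q = y := by
      simp [Equiv.swap_apply_of_ne_of_ne hpq'.symm hrq.symm, hmq]
    rw [mem_filter, mem_Fib]
    refine ⟨⟨conv_mem_X' hm'' a hpq (e1.trans e2.symm), fun c => ?_⟩, ?_⟩
    · by_cases h1 : c = p
      · subst h1; simp only [Φp, hp]
      · by_cases h2 : c = q
        · subst h2; simp only [Φq, hq]
        · by_cases h3 : c = r
          · subst h3
            rw [Φr m hrp, hmp]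
            constructor
            · intro h; exact absurd h hxa
            · intro h
              have : l' c = a := (hl' c).2 ⟨h, h1, h2⟩
              have : m c = a := (hma c).2 this
              exact absurd (hmr.symm.trans this) hya
          · rw [Φc m c h1 h2 h3, hma c, hl' c]
            exact ⟨fun h => h.1, fun h => ⟨h, h1, h2⟩⟩
    · show conv (m ∘ Equiv.swap p r) p q a r = x
      rw [Φr m hrp, hmp]
  · -- Ψ maps S' to S
    intro m hm
    rw [mem_filter, mem_Fib] at hm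
    obtain ⟨⟨hmX, hma⟩, hmr⟩ := hm
    have hmp : m p = a := (hma p).2 hp
    have hmq : m q = a := (hma q).2 hq
    have hrp : r ≠ p := by rintro rfl; exact hxa (hmr.symm.trans hmp)
    have h1X : conv m p q y ∈ X ty s := conv_mem_X' hmX y hpq (hmp.trans hmq.symm)
    rw [mem_filter, mem_Fib]
    refine ⟨⟨swap_mem_X h1X hr.symm, fun c => ?_⟩, ?_, Ψq m, Ψr m⟩
    · by_cases h1 : c = p
      · subst h1
        rw [Ψp m hrp, hmr, hl' c]
        exact ⟨fun h => absurd h hxa, fun h => absurd rfl h.2.1⟩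
      · by_cases h2 : c = q
        · subst h2
          rw [Ψq m, hl' c]
          exact ⟨fun h => absurd h hya, fun h => absurd rfl h.2.2⟩
        · by_cases h3 : c = r
          · subst h3
            rw [Ψr m, hl' c]
            constructor
            · intro h; exact absurd h hya
            · intro h
              have : m c = a := (hma c).2 h.1
              exact absurd (hmr.symm.trans this) hxa
          · rw [Ψc m c h1 h2 h3, hma c, hl' c]
            exact ⟨fun h => ⟨h, h1, h2⟩, fun h => h.1⟩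
    · rw [Ψp m hrp, hmr]
  · -- Ψ (Φ m) = m
    intro m hm
    rw [mem_filter, mem_Fib] at hm
    obtain ⟨⟨_, _⟩, hmp, hmq, hmr⟩ := hm
    have hrp : r ≠ p := by rintro rfl; exact hxy (hmp.symm.trans hmr)
    funext c
    by_cases h1 : c = p
    · subst h1
      show ((conv (conv (m ∘ Equiv.swap c r) c q a) c q y) ∘ Equiv.swap c r) c = m c
      rw [Ψp _ hrp, Φr m hrp]
    · by_cases h2 : c = q
      · subst h2
        show ((conv (conv (m ∘ Equiv.swap p r) p c a) p c y) ∘ Equiv.swap p r) c = m c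
        rw [Ψq, hmq]
      · by_cases h3 : c = r
        · subst h3
          show ((conv (conv (m ∘ Equiv.swap p c) p q a) p q y) ∘ Equiv.swap p c) c = m c
          rw [Ψr, hmr]
        · show ((conv (conv (m ∘ Equiv.swap p r) p q a) p q y) ∘ Equiv.swap p r) c = m c
          rw [Ψc _ c h1 h2 h3, Φc m c h1 h2 h3]
  · -- Φ (Ψ m) = m
    intro m hm
    rw [mem_filter, mem_Fib] at hm
    obtain ⟨⟨_, hma⟩, hmr⟩ := hm
    have hmp : m p = a := (hma p).2 hp
    have hmq : m q = a := (hma q).2 hq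
    have hrp : r ≠ p := by rintro rfl; exact hxa (hmr.symm.trans hmp)
    funext c
    by_cases h1 : c = p
    · subst h1
      show conv (((conv m c q y) ∘ Equiv.swap c r) ∘ Equiv.swap c r) c q a c = m c
      rw [Φp, hmp]
    · by_cases h2 : c = q
      · subst h2
        show conv (((conv m p c y) ∘ Equiv.swap p r) ∘ Equiv.swap p r) p c a c = m c
        rw [Φq, hmq]
      · by_cases h3 : c = r
        · subst h3
          show conv (((conv m p q y) ∘ Equiv.swap p c) ∘ Equiv.swap p c) p q a c = m c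
          rw [Φr _ hrp, Ψp m hrp]
        · show conv (((conv m p q y) ∘ Equiv.swap p r) ∘ Equiv.swap p r) p q a c = m c
          rw [Φc _ c h1 h2 h3, Ψc m c h1 h2 h3]
  · -- bound
    intro m hm
    rw [mem_filter, mem_Fib] at hm
    obtain ⟨⟨hmX, _⟩, hmp, hmq, hmr⟩ := hm
    have hm'' : m ∘ Equiv.swap p r ∈ X ty s := swap_mem_X hmX hr.symm
    have e1 : (m ∘ Equiv.swap p r) p = y := by simp [hmr]
    have e2 : (m ∘ Equiv.swap p r) q = y := by
      simp [Equiv.swap_apply_of_ne_of_ne hpq'.symm hrq.symm, hmq]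
    have hf : f (m ∘ Equiv.swap p r) = f m := hs m hmX p r hr.symm
    have hb := hB.le' hm'' a hpq (e1.trans e2.symm)
    rw [hf] at hb
    rw [abs_sub_comm]
    exact hb

end Crest.Agent.SW.ThreeRow
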