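import Crest.Agent.SW_ThreeRowConv1

/-!
# Row 299, three-row lemma, task T-D2: the off-diagonal part
-/

set_option autoImplicit false
set_option linter.unusedSectionVars false
open Finset

namespace Crest.Agent.SW.ThreeRow

variable {C : Type*} [Fintype C] [DecidableEq C] {ty : C → Bool} {s : Fin 3 → ℤ}

private theorem d2_three : ∀ a x y : Fin 3, x ≠ a → y ≠ a → x ≠ y →
    ∀ z : Fin 3, z = a ∨ z = x ∨ z = y := by
  decide

/-- The number of columns `r` with `m r = (if ty r then y else x)`.
PROOF: write the three cards and `s x = ch ty m x` (`mem_X`) as sums over `r` of `0`, `1` or `-1`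
(`Finset.card_filter`, `Nat.cast_sum`, `ch`, `sg`), `← Finset.sum_sub_distrib`, `Finset.sum_congr`;
pointwise: cases on `ty r` and on `m r = a`, `m r = x`, `m r = y` (one of them holds since `a, x, y`
are three distinct elements of `Fin 3`). -/
theorem card_tgt {m : C → Fin 3} (hm : m ∈ X ty s) {a x y : Fin 3}
    (hxa : x ≠ a) (hya : y ≠ a) (hxy : x ≠ y) :
    ((univ.filter fun r => m r = if ty r = true then y else x).card : ℤ)
      = ((univ.filter fun r => ty r = true).card : ℤ)
        - ((univ.filter fun r => ty r = true ∧ m r = a).card : ℤ) - s x := by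
  have hsx : s x = ch ty m x := ((mem_X.1 hm) x).symm
  rw [hsx]
  unfold ch sg
  simp only [Finset.card_filter, Nat.cast_sum]
  rw [← Finset.sum_sub_distrib, ← Finset.sum_sub_distrib]
  apply Finset.sum_congr rfl
  intro r _
  have h3 : ∀ z : Fin 3, z = a ∨ z = x ∨ z = y :=
    d2_three a x y hxa hya hxy
  cases hty : ty r <;> rcases h3 (m r) with h | h | h <;>
    simp [h, hxa, hya, hxy, hxa.symm, hya.symm, hxy.symm]

/-- double counting over the columns -/
private theorem d2_double_count {α : Type*} (T : Finset α) (p : C → α → Prop)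
    [∀ r m, Decidable (p r m)] (g : α → ℝ) (N : ℝ)
    (hN : ∀ m ∈ T, ((univ.filter fun r => p r m).card : ℝ) = N) :
    ∑ r, ∑ m ∈ T.filter (p r), g m = N * ∑ m ∈ T, g m := by
  simp_rw [Finset.sum_filter]
  rw [Finset.sum_comm, Finset.mul_sum]
  apply Finset.sum_congr rfl
  intro m hm
  rw [← Finset.sum_filter, Finset.sum_const, nsmul_eq_mul, hN m hm]

/-- The off-diagonal part.  Notation: `Pt := (Fib a l').filter (m c₁ = x ∧ m c₀ = y)`,
`t r := if ty r then y else x`, `t' r := if ty r then x else y`, `F := Fib a l`,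
`S r := Pt.filter (m r = t r)`, `S' r := F.filter (m r = t' r)`.
1. By `fixed_r` (with `(p,q,x,y) := (c₁,c₀,x,y)` if `ty r`, `(c₀,c₁,y,x)` if `¬ ty r`; rewrite the
   filters with `Finset.filter_filter` / `and_comm`): `card (S r) = card (S' r)` and
   `|∑_{S r} f - ∑_{S' r} f| ≤ B * card (S r)`.
2. By `card_tgt` there are `N N' : ℕ` with `#{r | m r = t r} = N` for all `m ∈ Pt` and
   `#{r | m r = t' r} = N'` for all `m ∈ F` (the right side of `card_tgt` only depends on the `a`-set
   of `m`: `filter_congr` with `mem_Fib`).  Moreover `N ≥ 1`: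
   `#{ty r ∧ l' r = a} + 1 = #{ty r ∧ l r = a}` (the column `c₁` is removed; `c₀` is not of type
   `true`), hence `N = #{r | l r = t r} + 1`  (`card_tgt` for `l`).
3. Double counting (`Finset.sum_comm`, `Finset.sum_filter`, `Finset.card_eq_sum_ones`):
   `N * ∑_{Pt} f = ∑ r, ∑_{S r} f`, `N * card Pt = ∑ r, card (S r)`,
   `N' * ∑_F f = ∑ r, ∑_{S' r} f`, `N' * card F = ∑ r, card (S' r)`.
4. Hence `N * card Pt = N' * card F`, `|N * ∑_{Pt} f - N' * ∑_F f| ≤ B * N * card Pt`, and
   `N' * ∑_F f = N' * card F * P a f l = N * card Pt * P a f l` (`card F ≠ 0` by `self_mem_Fib hl`).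
   Divide by `N > 0`;  `∑_{Pt} (f m - c) = ∑_{Pt} f - card Pt * c`. -/
theorem part_offdiag {f : (C → Fin 3) → ℝ} {B : ℝ} (hs : SwapInv ty s f) (hB : ConvBd ty s f B)
    {l l' : C → Fin 3} (hl : l ∈ X ty s) {c₁ c₀ : C} {a x y : Fin 3}
    (h1 : ty c₁ = true) (h0 : ty c₀ = false) (ha1 : l c₁ = a) (ha0 : l c₀ = a)
    (hl' : ∀ c, l' c = a ↔ (l c = a ∧ c ≠ c₁ ∧ c ≠ c₀))
    (hxa : x ≠ a) (hya : y ≠ a) (hxy : x ≠ y) :
    |∑ m ∈ (Fib ty s a l').filter (fun m => m c₁ = x ∧ m c₀ = y), (f m - P ty s a f l)|
      ≤ B * (((Fib ty s a l').filter fun m => m c₁ = x ∧ m c₀ = y).card : ℝ) := by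
  classical
  set Pt := (Fib ty s a l').filter (fun m => m c₁ = x ∧ m c₀ = y) with hPt
  set F := Fib ty s a l with hF
  have hne : c₁ ≠ c₀ := by rintro rfl; simp [h1] at h0
  -- Step 1
  have step1 : ∀ r : C,
      ((Pt.filter fun m => m r = if ty r = true then y else x).card
        = (F.filter fun m => m r = if ty r = true then x else y).card) ∧
      |∑ m ∈ Pt.filter (fun m => m r = if ty r = true then y else x), f m
        - ∑ m ∈ F.filter (fun m => m r = if ty r = true then x else y), f m|
        ≤ B * ((Pt.filter fun m => m r = if ty r = true then y else x).card : ℝ) := by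
    intro r
    cases hr : ty r
    · have hpq : ty c₀ ≠ ty c₁ := by rw [h0, h1]; decide
      have hl2 : ∀ c, l' c = a ↔ (l c = a ∧ c ≠ c₀ ∧ c ≠ c₁) := fun c => by
        rw [hl' c]; tauto
      have := fixed_r (r := r) hs hB hpq (hr.trans h0.symm) ha0 ha1 hl2 hya hxa hxy.symm
      have e1 : Pt.filter (fun m => m r = if false = true then y else x)
          = (Fib ty s a l').filter fun m => m c₀ = y ∧ m c₁ = x ∧ m r = x := by
        rw [hPt, Finset.filter_filter]
        apply Finset.filter_congr
        intro m _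
        simp only [Bool.false_eq_true, if_false]
        tauto
      have e2 : F.filter (fun m => m r = if false = true then x else y)
          = (Fib ty s a l).filter fun m => m r = y := by
        rw [hF]
        apply Finset.filter_congr
        intro m _
        simp
      rw [e1, e2]
      exact this
    · have hpq : ty c₁ ≠ ty c₀ := by rw [h0, h1]; decide
      have := fixed_r (r := r) hs hB hpq (hr.trans h1.symm) ha1 ha0 hl' hxa hya hxy
      have e1 : Pt.filter (fun m => m r = if true = true then y else x)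
          = (Fib ty s a l').filter fun m => m c₁ = x ∧ m c₀ = y ∧ m r = y := by
        rw [hPt, Finset.filter_filter]
        apply Finset.filter_congr
        intro m _
        simp only [if_true]
        tauto
      have e2 : F.filter (fun m => m r = if true = true then x else y)
          = (Fib ty s a l).filter fun m => m r = x := by
        rw [hF]
        apply Finset.filter_congr
        intro m _
        simp
      rw [e1, e2]
      exact this
  -- Step 2
  set Nz : ℤ := ((univ.filter fun r => ty r = true).card : ℤ)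
        - ((univ.filter fun r => ty r = true ∧ l' r = a).card : ℤ) - s x with hNz
  set Nz' : ℤ := ((univ.filter fun r => ty r = true).card : ℤ)
        - ((univ.filter fun r => ty r = true ∧ l r = a).card : ℤ) - s y with hNz'
  have hN : ∀ m ∈ Pt, ((univ.filter fun r => m r = if ty r = true then y else x).card : ℝ)
      = (Nz : ℝ) := by
    intro m hm
    have hmF : m ∈ Fib ty s a l' := (Finset.mem_filter.1 hm).1
    have hmX := (mem_Fib.1 hmF).1
    have hma := (mem_Fib.1 hmF).2
    have h := card_tgt hmX hxa hya hxy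
    have e : (univ.filter fun r => ty r = true ∧ m r = a)
        = (univ.filter fun r => ty r = true ∧ l' r = a) := by
      apply Finset.filter_congr
      intro r _
      rw [hma r]
    rw [e] at h
    have h' : ((univ.filter fun r => m r = if ty r = true then y else x).card : ℤ) = Nz := h
    exact_mod_cast h'
  have hN' : ∀ m ∈ F, ((univ.filter fun r => m r = if ty r = true then x else y).card : ℝ)
      = (Nz' : ℝ) := by
    intro m hmF
    have hmX := (mem_Fib.1 hmF).1
    have hma := (mem_Fib.1 hmF).2
    have h := card_tgt hmX hya hxa hxy.symm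
    have e : (univ.filter fun r => ty r = true ∧ m r = a)
        = (univ.filter fun r => ty r = true ∧ l r = a) := by
      apply Finset.filter_congr
      intro r _
      rw [hma r]
    rw [e] at h
    have h' : ((univ.filter fun r => m r = if ty r = true then x else y).card : ℤ) = Nz' := h
    exact_mod_cast h'
  have hNpos : (0 : ℝ) < (Nz : ℝ) := by
    have h := card_tgt hl hxa hya hxy
    have e : (univ.filter fun r => ty r = true ∧ l r = a)
        = insert c₁ (univ.filter fun r => ty r = true ∧ l' r = a) := by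
      ext r
      simp only [Finset.mem_filter, Finset.mem_univ, true_and, Finset.mem_insert]
      rw [hl' r]
      constructor
      · rintro ⟨hr, hra⟩
        by_cases hrc : r = c₁
        · exact Or.inl hrc
        · refine Or.inr ⟨hr, hra, hrc, ?_⟩
          rintro rfl
          simp [h0] at hr
      · rintro (rfl | ⟨hr, hra, _, _⟩)
        · exact ⟨h1, ha1⟩
        · exact ⟨hr, hra⟩
    have hnot : c₁ ∉ (univ.filter fun r => ty r = true ∧ l' r = a) := by
      simp only [Finset.mem_filter, Finset.mem_univ, true_and, not_and]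
      intro _ hc
      exact ((hl' c₁).1 hc).2.1 rfl
    rw [e, Finset.card_insert_of_notMem hnot] at h
    have hz : (0 : ℤ) < Nz := by
      have h0' : (0 : ℤ) ≤ ((univ.filter fun r => l r = if ty r = true then y else x).card : ℤ) :=
        Int.natCast_nonneg _
      rw [hNz]
      push_cast at h
      linarith
    exact_mod_cast hz
  -- Step 3
  have dc1 := d2_double_count Pt (fun r m => m r = if ty r = true then y else x) f (Nz : ℝ) hN
  have dc2 := d2_double_count Pt (fun r m => m r = if ty r = true then y else x) (fun _ => 1)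
    (Nz : ℝ) hN
  have dc3 := d2_double_count F (fun r m => m r = if ty r = true then x else y) f (Nz' : ℝ) hN'
  have dc4 := d2_double_count F (fun r m => m r = if ty r = true then x else y) (fun _ => 1)
    (Nz' : ℝ) hN'
  simp only [Finset.sum_const, nsmul_eq_mul, mul_one] at dc2 dc4
  -- Step 4
  have hcard : (Nz : ℝ) * (Pt.card : ℝ) = (Nz' : ℝ) * (F.card : ℝ) := by
    rw [← dc2, ← dc4]
    apply Finset.sum_congr rfl
    intro r _
    rw [(step1 r).1]
  have hdiff : |(Nz : ℝ) * ∑ m ∈ Pt, f m - (Nz' : ℝ) * ∑ m ∈ F, f m|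
      ≤ B * ((Nz : ℝ) * (Pt.card : ℝ)) := by
    rw [← dc1, ← dc3, ← dc2, ← Finset.sum_sub_distrib, Finset.mul_sum]
    refine (Finset.abs_sum_le_sum_abs _ _).trans ?_
    apply Finset.sum_le_sum
    intro r _
    exact (step1 r).2
  have hFne : (F.card : ℝ) ≠ 0 := by
    have : l ∈ F := self_mem_Fib hl
    have : 0 < F.card := Finset.card_pos.2 ⟨l, this⟩
    positivity
  have hP : ∑ m ∈ F, f m = (F.card : ℝ) * P ty s a f l := by
    unfold P
    rw [← hF]
    field_simp
  have hsum : ∑ m ∈ Pt, (f m - P ty s a f l)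
      = ∑ m ∈ Pt, f m - (Pt.card : ℝ) * P ty s a f l := by
    rw [Finset.sum_sub_distrib, Finset.sum_const, nsmul_eq_mul]
  rw [hsum]
  have key : (Nz : ℝ) * ∑ m ∈ Pt, f m - (Nz' : ℝ) * ∑ m ∈ F, f m
      = (Nz : ℝ) * (∑ m ∈ Pt, f m - (Pt.card : ℝ) * P ty s a f l) := by
    rw [hP, ← mul_assoc, ← hcard]
    ring
  rw [key, abs_mul, abs_of_pos hNpos] at hdiff
  have : (Nz : ℝ) * |∑ m ∈ Pt, f m - (Pt.card : ℝ) * P ty s a f l|
      ≤ (Nz : ℝ) * (B * (Pt.card : ℝ)) := by
    calc _ ≤ B * ((Nz : ℝ) * (Pt.card : ℝ)) := hdiff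
      _ = (Nz : ℝ) * (B * (Pt.card : ℝ)) := by ring
  exact le_of_mul_le_mul_left this hNpos

end Crest.Agent.SW.ThreeRow
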