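import Crest.Agent.SW_ThreeRowConv2

/-!
# Row 299, three-row lemma, task T-D3: the key estimate `|P a f (conv l) - P a f l| ≤ B`
-/

set_option autoImplicit false
set_option linter.unusedSectionVars false
open Finset

namespace Crest.Agent.SW.ThreeRow

variable {C : Type*} [Fintype C] [DecidableEq C] {ty : C → Bool} {s : Fin 3 → ℤ}

/-- The diagonal part.  PROOF: `abs_sum_sub_sum_le_of_bij` with `S = Pt`, `S' = Fib a l`,
`Φ m = conv m c₁ c₀ a`, `Ψ m = conv m c₁ c₀ x` (`conv_mem_X`, `hB`), which gives `card Pt = card F`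
and `|∑_{Pt} f - ∑_F f| ≤ B * card Pt`; and `∑_F f = card F * P a f l`. -/
theorem part_diag {f : (C → Fin 3) → ℝ} {B : ℝ} (hB : ConvBd ty s f B)
    {l l' : C → Fin 3} (hl : l ∈ X ty s) {c₁ c₀ : C} {a x : Fin 3}
    (h1 : ty c₁ = true) (h0 : ty c₀ = false) (ha1 : l c₁ = a) (ha0 : l c₀ = a)
    (hl' : ∀ c, l' c = a ↔ (l c = a ∧ c ≠ c₁ ∧ c ≠ c₀)) (hxa : x ≠ a) :
    |∑ m ∈ (Fib ty s a l').filter (fun m => m c₁ = x ∧ m c₀ = x), (f m - P ty s a f l)|
      ≤ B * (((Fib ty s a l').filter fun m => m c₁ = x ∧ m c₀ = x).card : ℝ) := by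
  obtain ⟨hcard, hsum⟩ := abs_sum_sub_sum_le_of_bij
    ((Fib ty s a l').filter (fun m => m c₁ = x ∧ m c₀ = x)) (Fib ty s a l) f (B := B)
    (fun m => conv m c₁ c₀ a) (fun m => conv m c₁ c₀ x)
    (by
      intro m hm
      obtain ⟨hmF, hm1, hm0⟩ := Finset.mem_filter.1 hm
      obtain ⟨hmX, hma⟩ := mem_Fib.1 hmF
      refine mem_Fib.2 ⟨conv_mem_X hmX a h1 h0 (hm1.trans hm0.symm), fun c => ?_⟩
      by_cases hc1 : c = c₁
      · subst hc1; simp [ha1]
      by_cases hc0 : c = c₀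
      · subst hc0; simp [ha0]
      rw [conv_apply_of_ne m a hc1 hc0, hma c, hl' c]
      exact ⟨fun h => h.1, fun h => ⟨h, hc1, hc0⟩⟩)
    (by
      intro m hm
      obtain ⟨hmX, hma⟩ := mem_Fib.1 hm
      have hm1 : m c₁ = a := (hma c₁).2 ha1
      have hm0 : m c₀ = a := (hma c₀).2 ha0
      refine Finset.mem_filter.2 ⟨mem_Fib.2 ⟨conv_mem_X hmX x h1 h0 (hm1.trans hm0.symm),
        fun c => ?_⟩, conv_apply_left _ _ _ _, conv_apply_right _ _ _ _⟩
      by_cases hc1 : c = c₁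
      · subst hc1
        rw [conv_apply_left, hl' c]
        exact ⟨fun h => absurd h hxa, fun h => absurd rfl h.2.1⟩
      by_cases hc0 : c = c₀
      · subst hc0
        rw [conv_apply_right, hl' c]
        exact ⟨fun h => absurd h hxa, fun h => absurd rfl h.2.2⟩
      rw [conv_apply_of_ne m x hc1 hc0, hma c, hl' c]
      exact ⟨fun h => ⟨h, hc1, hc0⟩, fun h => h.1⟩)
    (by
      intro m hm
      obtain ⟨hmF, hm1, hm0⟩ := Finset.mem_filter.1 hm
      funext c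
      by_cases hc1 : c = c₁
      · subst hc1; simp [hm1]
      by_cases hc0 : c = c₀
      · subst hc0; simp [hm0]
      show conv (conv m c₁ c₀ a) c₁ c₀ x c = m c
      rw [conv_apply_of_ne _ x hc1 hc0, conv_apply_of_ne _ a hc1 hc0])
    (by
      intro m hm
      obtain ⟨hmX, hma⟩ := mem_Fib.1 hm
      have hm1 : m c₁ = a := (hma c₁).2 ha1
      have hm0 : m c₀ = a := (hma c₀).2 ha0
      funext c
      by_cases hc1 : c = c₁
      · subst hc1; simp [hm1]
      by_cases hc0 : c = c₀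
      · subst hc0; simp [hm0]
      show conv (conv m c₁ c₀ x) c₁ c₀ a c = m c
      rw [conv_apply_of_ne _ a hc1 hc0, conv_apply_of_ne _ x hc1 hc0])
    (by
      intro m hm
      obtain ⟨hmF, hm1, hm0⟩ := Finset.mem_filter.1 hm
      obtain ⟨hmX, hma⟩ := mem_Fib.1 hmF
      rw [abs_sub_comm]
      exact hB m hmX c₁ c₀ a h1 h0 (hm1.trans hm0.symm))
  have hpos : ((Fib ty s a l).card : ℝ) ≠ 0 := by
    have : 0 < (Fib ty s a l).card := Finset.card_pos.2 ⟨l, self_mem_Fib hl⟩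
    exact_mod_cast this.ne'
  have hP : ((Fib ty s a l).card : ℝ) * P ty s a f l = ∑ m ∈ Fib ty s a l, f m := by
    unfold P; field_simp
  rw [Finset.sum_sub_distrib, Finset.sum_const, nsmul_eq_mul, hcard, hP, ← hcard]
  exact hsum

/-- All parts.  PROOF: if `x = a` or `y = a` the filter is empty (`m c₁ = a ↔ l' c₁ = a`, false by
`hl'`); if `x = y` use `part_diag`, otherwise `part_offdiag`. -/
theorem part_le {f : (C → Fin 3) → ℝ} {B : ℝ} (hs : SwapInv ty s f) (hB : ConvBd ty s f B)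
    {l l' : C → Fin 3} (hl : l ∈ X ty s) {c₁ c₀ : C} {a : Fin 3}
    (h1 : ty c₁ = true) (h0 : ty c₀ = false) (ha1 : l c₁ = a) (ha0 : l c₀ = a)
    (hl' : ∀ c, l' c = a ↔ (l c = a ∧ c ≠ c₁ ∧ c ≠ c₀)) (x y : Fin 3) :
    |∑ m ∈ (Fib ty s a l').filter (fun m => m c₁ = x ∧ m c₀ = y), (f m - P ty s a f l)|
      ≤ B * (((Fib ty s a l').filter fun m => m c₁ = x ∧ m c₀ = y).card : ℝ) := by
  by_cases hxa : x = a
  · have hemp : (Fib ty s a l').filter (fun m => m c₁ = x ∧ m c₀ = y) = ∅ := by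
      apply Finset.filter_eq_empty_iff.2
      intro m hm hxy
      have := ((hl' c₁).1 (((mem_Fib.1 hm).2 c₁).1 (hxy.1.trans hxa))).2.1
      exact this rfl
    rw [hemp]; simp
  by_cases hya : y = a
  · have hemp : (Fib ty s a l').filter (fun m => m c₁ = x ∧ m c₀ = y) = ∅ := by
      apply Finset.filter_eq_empty_iff.2
      intro m hm hxy
      have := ((hl' c₀).1 (((mem_Fib.1 hm).2 c₀).1 (hxy.2.trans hya))).2.2
      exact this rfl
    rw [hemp]; simp
  by_cases hxy : x = y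
  · subst hxy
    exact part_diag hB hl h1 h0 ha1 ha0 hl' hxa
  · exact part_offdiag hs hB hl h1 h0 ha1 ha0 hl' hxa hya hxy

/-- The key estimate.  PROOF: `l' := conv l c₁ c₀ b ∈ X`, `a := l c₁`;
`hl' : ∀ c, l' c = a ↔ (l c = a ∧ c ≠ c₁ ∧ c ≠ c₀)` since `b ≠ a`.
`∑_{m ∈ Fib a l'} g m = ∑ x, ∑ y, ∑_{m ∈ (Fib a l').filter (m c₁ = x ∧ m c₀ = y)} g m`
(`Finset.sum_fiberwise` twice, or `Finset.sum_fiberwise` for `m ↦ (m c₁, m c₀)` and
`Fintype.sum_prod_type`), the same for cards.  So by `part_le`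
`|∑_{Fib a l'} (f m - P a f l)| ≤ B * card (Fib a l')`; divide by `card (Fib a l') > 0`
(`self_mem_Fib`). -/
theorem abs_P_conv_le {f : (C → Fin 3) → ℝ} {B : ℝ} (hs : SwapInv ty s f) (hB : ConvBd ty s f B)
    {l : C → Fin 3} (hl : l ∈ X ty s) {c₁ c₀ : C} {b : Fin 3}
    (h1 : ty c₁ = true) (h0 : ty c₀ = false) (h : l c₁ = l c₀) (hb : b ≠ l c₁) :
    |P ty s (l c₁) f (conv l c₁ c₀ b) - P ty s (l c₁) f l| ≤ B := by
  set a := l c₁ with ha
  set l' := conv l c₁ c₀ b with hl'def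
  have hl'X : l' ∈ X ty s := conv_mem_X hl b h1 h0 h
  have hl' : ∀ c, l' c = a ↔ (l c = a ∧ c ≠ c₁ ∧ c ≠ c₀) := by
    intro c
    by_cases hc1 : c = c₁
    · subst hc1
      rw [hl'def, conv_apply_left]
      exact ⟨fun h => absurd h hb, fun h => absurd rfl h.2.1⟩
    by_cases hc0 : c = c₀
    · subst hc0
      rw [hl'def, conv_apply_right]
      exact ⟨fun h => absurd h hb, fun h => absurd rfl h.2.2⟩
    rw [hl'def, conv_apply_of_ne l b hc1 hc0]
    exact ⟨fun h => ⟨h, hc1, hc0⟩, fun h => h.1⟩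
  have hsplit : ∀ g : (C → Fin 3) → ℝ, ∑ m ∈ Fib ty s a l', g m
      = ∑ xy : Fin 3 × Fin 3, ∑ m ∈ (Fib ty s a l').filter (fun m => m c₁ = xy.1 ∧ m c₀ = xy.2), g m := by
    intro g
    rw [← Finset.sum_fiberwise (Fib ty s a l') (fun m => (m c₁, m c₀)) g]
    apply Finset.sum_congr rfl
    intro xy _
    apply Finset.sum_congr _ (fun _ _ => rfl)
    apply Finset.filter_congr
    intro m _
    exact Prod.ext_iff
  have hmain : |∑ m ∈ Fib ty s a l', (f m - P ty s a f l)| ≤ B * ((Fib ty s a l').card : ℝ) := by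
    have hc : ((Fib ty s a l').card : ℝ)
        = ∑ xy : Fin 3 × Fin 3,
          (((Fib ty s a l').filter (fun m => m c₁ = xy.1 ∧ m c₀ = xy.2)).card : ℝ) := by
      have := hsplit (fun _ => 1)
      simpa using this
    rw [hsplit, hc, Finset.mul_sum]
    refine (Finset.abs_sum_le_sum_abs _ _).trans (Finset.sum_le_sum fun xy _ => ?_)
    exact part_le hs hB hl h1 h0 rfl h.symm hl' xy.1 xy.2
  have hpos : (0:ℝ) < ((Fib ty s a l').card : ℝ) := by
    have : 0 < (Fib ty s a l').card := Finset.card_pos.2 ⟨l', self_mem_Fib hl'X⟩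
    exact_mod_cast this
  have hP : ∑ m ∈ Fib ty s a l', (f m - P ty s a f l)
      = ((Fib ty s a l').card : ℝ) * (P ty s a f l' - P ty s a f l) := by
    rw [Finset.sum_sub_distrib, Finset.sum_const, nsmul_eq_mul]
    have : ((Fib ty s a l').card : ℝ) * P ty s a f l' = ∑ m ∈ Fib ty s a l', f m := by
      unfold P; field_simp
    rw [mul_sub, this]
  rw [hP, abs_mul, abs_of_pos hpos, mul_comm B] at hmain
  exact le_of_mul_le_mul_left hmain hpos

end Crest.Agent.SW.ThreeRow
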