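import Mathlib

/-!
# Row 299 (S0453), abstract three-row lemma: definitions and basic API

Columns `C` of two types (`ty c = true` : column sum 1, `ty c = false` : column sum 2), a labeling
`l : C → Fin 3` says which of the three rows is the odd one out in each column.  The row sums fix
the charges `ch ty l i = #{c | ty c, l c = i} - #{c | ¬ ty c, l c = i} = s i`.
`P i` is the conditional expectation given row `i`, i.e. given the set `l ⁻¹ {i}`.
-/

set_option autoImplicit false
set_option linter.unusedSectionVars false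
open Finset

namespace Crest.Agent.SW.ThreeRow

variable {C : Type*} [Fintype C] [DecidableEq C]

/-- sign of a column -/
def sg (ty : C → Bool) (c : C) : ℤ := if ty c then 1 else -1

/-- charge of label `i` -/
def ch (ty : C → Bool) (l : C → Fin 3) (i : Fin 3) : ℤ := ∑ c, if l c = i then sg ty c else 0

/-- the state space -/
def X (ty : C → Bool) (s : Fin 3 → ℤ) : Finset (C → Fin 3) :=
  univ.filter fun l => ∀ i, ch ty l i = s i

/-- the fibre of row `i` through `l` -/
def Fib (ty : C → Bool) (s : Fin 3 → ℤ) (i : Fin 3) (l : C → Fin 3) : Finset (C → Fin 3) :=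
  (X ty s).filter fun m => ∀ c, m c = i ↔ l c = i

/-- conditional expectation given row `i` -/
noncomputable def P (ty : C → Bool) (s : Fin 3 → ℤ) (i : Fin 3) (f : (C → Fin 3) → ℝ)
    (l : C → Fin 3) : ℝ :=
  (∑ m ∈ Fib ty s i l, f m) / ((Fib ty s i l).card : ℝ)

/-- the mean -/
noncomputable def mean (ty : C → Bool) (s : Fin 3 → ℤ) (f : (C → Fin 3) → ℝ) : ℝ :=
  (∑ m ∈ X ty s, f m) / ((X ty s).card : ℝ)

/-- relabel the two columns `c₁ c₀` by `b` -/
def conv (l : C → Fin 3) (c₁ c₀ : C) (b : Fin 3) : C → Fin 3 :=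
  Function.update (Function.update l c₁ b) c₀ b

/-- `f` is invariant under swapping two columns of the same type -/
def SwapInv (ty : C → Bool) (s : Fin 3 → ℤ) (f : (C → Fin 3) → ℝ) : Prop :=
  ∀ l ∈ X ty s, ∀ c c' : C, ty c = ty c' → f (l ∘ Equiv.swap c c') = f l

/-- `f` is invariant under conversions -/
def ConvInv (ty : C → Bool) (s : Fin 3 → ℤ) (f : (C → Fin 3) → ℝ) : Prop :=
  ∀ l ∈ X ty s, ∀ (c₁ c₀ : C) (b : Fin 3), ty c₁ = true → ty c₀ = false → l c₁ = l c₀ →
    f (conv l c₁ c₀ b) = f l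

/-- the eigen-equation (the constant `κ` is `3 * mean`) -/
def Eigen (ty : C → Bool) (s : Fin 3 → ℤ) (μ κ : ℝ) (f : (C → Fin 3) → ℝ) : Prop :=
  ∀ l ∈ X ty s, ∑ i, P ty s i f l - κ = μ * f l

variable {ty : C → Bool} {s : Fin 3 → ℤ}

theorem mem_X {l : C → Fin 3} : l ∈ X ty s ↔ ∀ i, ch ty l i = s i := by
  simp [X]

theorem mem_Fib {i : Fin 3} {l m : C → Fin 3} :
    m ∈ Fib ty s i l ↔ m ∈ X ty s ∧ ∀ c, m c = i ↔ l c = i := by
  simp [Fib]

theorem self_mem_Fib {i : Fin 3} {l : C → Fin 3} (hl : l ∈ X ty s) : l ∈ Fib ty s i l :=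
  mem_Fib.2 ⟨hl, fun _ => Iff.rfl⟩

theorem Fib_congr {i : Fin 3} {l l' : C → Fin 3} (h : ∀ c, l' c = i ↔ l c = i) :
    Fib ty s i l' = Fib ty s i l := by
  ext m; simp only [mem_Fib]; constructor
  · rintro ⟨h1, h2⟩; exact ⟨h1, fun c => (h2 c).trans (h c)⟩
  · rintro ⟨h1, h2⟩; exact ⟨h1, fun c => (h2 c).trans (h c).symm⟩

theorem P_congr {i : Fin 3} {l l' : C → Fin 3} (f : (C → Fin 3) → ℝ)
    (h : ∀ c, l' c = i ↔ l c = i) : P ty s i f l' = P ty s i f l := by
  unfold P; rw [Fib_congr h]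

/-- general update formula for column sums -/
theorem sum_update (G : C → Fin 3 → ℤ) (l : C → Fin 3) (c₀ : C) (v : Fin 3) :
    ∑ c, G c (Function.update l c₀ v c) = ∑ c, G c (l c) - G c₀ (l c₀) + G c₀ v := by
  have h1 : ∑ c, G c (Function.update l c₀ v c)
      = G c₀ v + ∑ c ∈ univ.erase c₀, G c (l c) := by
    rw [← Finset.add_sum_erase _ _ (mem_univ c₀)]
    congr 1
    · simp
    · apply Finset.sum_congr rfl
      intro c hc
      rw [Function.update_of_ne (Finset.ne_of_mem_erase hc)]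
  have h2 : ∑ c, G c (l c) = G c₀ (l c₀) + ∑ c ∈ univ.erase c₀, G c (l c) :=
    (Finset.add_sum_erase _ _ (mem_univ c₀)).symm
  rw [h1, h2]; ring

theorem ch_update (l : C → Fin 3) (c₀ : C) (v i : Fin 3) :
    ch ty (Function.update l c₀ v) i
      = ch ty l i - (if l c₀ = i then sg ty c₀ else 0) + (if v = i then sg ty c₀ else 0) := by
  unfold ch
  exact sum_update (fun c x => if x = i then sg ty c else 0) l c₀ v

theorem ch_swap (l : C → Fin 3) {c c' : C} (h : ty c = ty c') (i : Fin 3) :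
    ch ty (l ∘ Equiv.swap c c') i = ch ty l i := by
  unfold ch
  rw [← Equiv.sum_comp (Equiv.swap c c')]
  apply Finset.sum_congr rfl
  intro x _
  have hs : sg ty (Equiv.swap c c' x) = sg ty x := by
    unfold sg
    rcases eq_or_ne x c with rfl | h1
    · simp [h]
    · rcases eq_or_ne x c' with rfl | h2
      · simp [h]
      · rw [Equiv.swap_apply_of_ne_of_ne h1 h2]
  simp [hs]

theorem swap_mem_X {l : C → Fin 3} (hl : l ∈ X ty s) {c c' : C} (h : ty c = ty c') :
    l ∘ Equiv.swap c c' ∈ X ty s :=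
  mem_X.2 fun i => (ch_swap l h i).trans (mem_X.1 hl i)

theorem conv_mem_X {l : C → Fin 3} (hl : l ∈ X ty s) {c₁ c₀ : C} (b : Fin 3)
    (h1 : ty c₁ = true) (h0 : ty c₀ = false) (h : l c₁ = l c₀) : conv l c₁ c₀ b ∈ X ty s := by
  have hne : c₀ ≠ c₁ := by rintro rfl; simp [h1] at h0
  refine mem_X.2 fun i => ?_
  unfold conv
  rw [ch_update, ch_update, Function.update_of_ne hne, mem_X.1 hl i, h]
  simp only [sg, h1, h0, if_true, Bool.false_eq_true, if_false]
  split_ifs <;> ring

theorem conv_comm (l : C → Fin 3) {p q : C} (h : p ≠ q) (b : Fin 3) :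
    conv l p q b = conv l q p b := by
  unfold conv
  exact Function.update_comm h b b l

/-- `conv_mem_X` without a prescribed order of the two types -/
theorem conv_mem_X' {l : C → Fin 3} (hl : l ∈ X ty s) {p q : C} (b : Fin 3)
    (hpq : ty p ≠ ty q) (h : l p = l q) : conv l p q b ∈ X ty s := by
  have hne : p ≠ q := by rintro rfl; exact hpq rfl
  cases hp : ty p <;> cases hq : ty q
  · exact absurd (hp.trans hq.symm) hpq
  · rw [conv_comm l hne]; exact conv_mem_X hl b hq hp h.symm
  · exact conv_mem_X hl b hp hq h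
  · exact absurd (hp.trans hq.symm) hpq

/-- `B` bounds all conversion differences of `f` -/
def ConvBd (ty : C → Bool) (s : Fin 3 → ℤ) (f : (C → Fin 3) → ℝ) (B : ℝ) : Prop :=
  ∀ l ∈ X ty s, ∀ (c₁ c₀ : C) (b : Fin 3), ty c₁ = true → ty c₀ = false → l c₁ = l c₀ →
    |f (conv l c₁ c₀ b) - f l| ≤ B

/-- `ConvBd` without a prescribed order of the two types -/
theorem ConvBd.le' {f : (C → Fin 3) → ℝ} {B : ℝ} (hB : ConvBd ty s f B) {l : C → Fin 3}
    (hl : l ∈ X ty s) {p q : C} (b : Fin 3) (hpq : ty p ≠ ty q) (h : l p = l q) :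
    |f (conv l p q b) - f l| ≤ B := by
  have hne : p ≠ q := by rintro rfl; exact hpq rfl
  cases hp : ty p <;> cases hq : ty q
  · exact absurd (hp.trans hq.symm) hpq
  · rw [conv_comm l hne]; exact hB l hl q p b hq hp h.symm
  · exact hB l hl p q b hp hq h
  · exact absurd (hp.trans hq.symm) hpq

@[simp] theorem conv_apply_left (l : C → Fin 3) (p q : C) (b : Fin 3) : conv l p q b p = b := by
  unfold conv
  by_cases h : p = q
  · subst h; simp
  · rw [Function.update_of_ne h]; simp

@[simp] theorem conv_apply_right (l : C → Fin 3) (p q : C) (b : Fin 3) : conv l p q b q = b := by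
  unfold conv; simp

theorem conv_apply_of_ne (l : C → Fin 3) {p q c : C} (b : Fin 3) (hp : c ≠ p) (hq : c ≠ q) :
    conv l p q b c = l c := by
  unfold conv
  rw [Function.update_of_ne hq, Function.update_of_ne hp]


end Crest.Agent.SW.ThreeRow
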