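import Mathlib

/-!
# Row 299, three-row lemma, task A: a symmetric operator without eigenvalue `> c` has
quadratic form `≤ c`.  (Generic, no dependence on the model.)
-/

set_option autoImplicit false
open Finset

namespace Crest.Agent.SW.ThreeRow

/-- Abstract version on a finite-dimensional real inner product space (spectral theorem). -/
theorem inner_le_of_eigenvalues_le {E : Type*} [NormedAddCommGroup E] [InnerProductSpace ℝ E]
    [FiniteDimensional ℝ E] (S : E →ₗ[ℝ] E) (hS : S.IsSymmetric) (c : ℝ)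
    (h : ∀ μ : ℝ, c < μ → ∀ v : E, S v = μ • v → v = 0) (x : E) :
    inner ℝ x (S x) ≤ c * inner ℝ x x := by
  classical
  obtain ⟨n, hn⟩ : ∃ n, Module.finrank ℝ E = n := ⟨_, rfl⟩
  set b := hS.eigenvectorBasis hn with hb
  set ev := hS.eigenvalues hn with hev
  have hle : ∀ i, ev i ≤ c := by
    intro i
    by_contra hlt
    rw [not_le] at hlt
    have h1 : S (b i) = ev i • b i := hS.apply_eigenvectorBasis hn i
    have h2 := h _ hlt _ h1
    have h3 : ‖b i‖ = 1 := b.orthonormal.1 i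
    rw [h2] at h3
    simp at h3
  have e1 : inner ℝ x (S x) = ∑ i, inner ℝ x (b i) * inner ℝ (b i) (S x) :=
    (b.sum_inner_mul_inner x (S x)).symm
  have e2 : inner ℝ x x = ∑ i, inner ℝ x (b i) * inner ℝ (b i) x :=
    (b.sum_inner_mul_inner x x).symm
  have e3 : ∀ i, inner ℝ (b i) (S x) = ev i * inner ℝ (b i) x := by
    intro i
    have := hS.eigenvectorBasis_apply_self_apply hn x i
    simpa [OrthonormalBasis.repr_apply_apply] using this
  rw [e1, e2, Finset.mul_sum]
  refine Finset.sum_le_sum fun i _ => ?_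
  rw [e3 i, real_inner_comm x (b i)]
  have : 0 ≤ inner ℝ x (b i) * inner ℝ x (b i) := mul_self_nonneg _
  nlinarith [hle i]

/-- PROOF.  Put `α := ↥X`, `E := EuclideanSpace ℝ α`, `ext g x := if h : x ∈ X then g ⟨x,h⟩ else 0`,
`T' g := fun a => T (ext g) a` : a linear map `E →ₗ[ℝ] E` (by `hadd`, `hsmul`, `hloc`), symmetric by
`hsym` (`∑ x ∈ X` = `∑ a : α` by `Finset.sum_coe_sort` / `Finset.sum_attach`).  If `E` is trivial the
claim is `0 ≤ 0`.  Otherwise `LinearMap.IsSymmetric.hasEigenvalue_iSup_of_finiteDimensional` gives an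
eigenvector for `μ₀ := ⨆ x ≠ 0, ⟪T' x, x⟫ / ‖x‖ ^ 2`; by `h`, `μ₀ ≤ c`; and
`⟪T' x, x⟫ / ‖x‖^2 ≤ μ₀` by `le_ciSup` (bounded above: `ContinuousLinearMap.rayleighQuotient_le_norm`
for `LinearMap.toContinuousLinearMap T'`, or Cauchy–Schwarz).
(Alternative without Mathlib's Rayleigh file: maximise on the compact unit sphere and use that
`t ↦ μ₀ ‖f + t g‖² - Q (f + t g) ≥ 0` vanishes at `0`.) -/
theorem quad_le_of_no_eigen {β : Type*} [DecidableEq β] (X : Finset β)
    (T : (β → ℝ) → (β → ℝ))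
    (hadd : ∀ f g : β → ℝ, ∀ x ∈ X, T (f + g) x = T f x + T g x)
    (hsmul : ∀ (a : ℝ) (f : β → ℝ), ∀ x ∈ X, T (a • f) x = a * T f x)
    (hloc : ∀ f g : β → ℝ, (∀ x ∈ X, f x = g x) → ∀ x ∈ X, T f x = T g x)
    (hsym : ∀ f g : β → ℝ, ∑ x ∈ X, f x * T g x = ∑ x ∈ X, T f x * g x)
    (c : ℝ)
    (h : ∀ μ : ℝ, c < μ → ∀ f : β → ℝ, (∀ x ∈ X, T f x = μ * f x) → ∀ x ∈ X, f x = 0)
    (f : β → ℝ) : ∑ x ∈ X, f x * T f x ≤ c * ∑ x ∈ X, f x ^ 2 := by
  classical
  -- extension by zero
  let ext : EuclideanSpace ℝ X → (β → ℝ) := fun g x => if hx : x ∈ X then g ⟨x, hx⟩ else 0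
  have ext_mem : ∀ (g : EuclideanSpace ℝ X) (a : X), ext g a = g a := by
    intro g a
    simp [ext, a.2]
  let S : EuclideanSpace ℝ X →ₗ[ℝ] EuclideanSpace ℝ X :=
    { toFun := fun g => WithLp.toLp 2 (fun a : X => T (ext g) a)
      map_add' := by
        intro g₁ g₂
        ext a
        have h1 : T (ext (g₁ + g₂)) a = T (ext g₁ + ext g₂) a := by
          refine hloc _ _ (fun x hx => ?_) a a.2
          simp [ext, hx]
        simp only [PiLp.add_apply]
        rw [h1, hadd _ _ a a.2]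
      map_smul' := by
        intro r g
        ext a
        have h1 : T (ext (r • g)) a = T (r • ext g) a := by
          refine hloc _ _ (fun x hx => ?_) a a.2
          simp [ext, hx]
        simp only [PiLp.smul_apply, RingHom.id_apply, smul_eq_mul]
        rw [h1, hsmul _ _ a a.2] }
  have S_apply : ∀ (g : EuclideanSpace ℝ X) (a : X), S g a = T (ext g) a := fun g a => rfl
  have inner_eq : ∀ (u v : EuclideanSpace ℝ X), inner ℝ u v = ∑ a : X, u a * v a := by
    intro u v
    rw [PiLp.inner_apply]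
    refine Finset.sum_congr rfl fun a _ => ?_
    simp [mul_comm]
  have sum_sub : ∀ F : β → ℝ, ∑ a : X, F a = ∑ x ∈ X, F x := fun F =>
    Finset.sum_coe_sort X F
  have hS : S.IsSymmetric := by
    intro u v
    rw [inner_eq, inner_eq]
    have h1 : ∑ a : X, S u a * v a = ∑ x ∈ X, T (ext u) x * ext v x := by
      rw [← sum_sub]
      refine Finset.sum_congr rfl fun a _ => ?_
      rw [S_apply, ext_mem]
    have h2 : ∑ a : X, u a * S v a = ∑ x ∈ X, ext u x * T (ext v) x := by
      rw [← sum_sub]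
      refine Finset.sum_congr rfl fun a _ => ?_
      rw [S_apply, ext_mem]
    rw [h1, h2, hsym]
  have hno : ∀ μ : ℝ, c < μ → ∀ v : EuclideanSpace ℝ X, S v = μ • v → v = 0 := by
    intro μ hμ v hv
    have h1 : ∀ x ∈ X, T (ext v) x = μ * ext v x := by
      intro x hx
      have := congrArg (fun w : EuclideanSpace ℝ X => w ⟨x, hx⟩) hv
      simp only [PiLp.smul_apply, smul_eq_mul] at this
      rw [S_apply] at this
      rw [show ext v x = v ⟨x, hx⟩ from ext_mem v ⟨x, hx⟩]
      exact this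
    have h2 := h μ hμ _ h1
    ext a
    rw [← ext_mem v a, h2 a a.2]
    rfl
  let g : EuclideanSpace ℝ X := WithLp.toLp 2 (fun a : X => f a)
  have g_apply : ∀ a : X, g a = f a := fun a => rfl
  have key := inner_le_of_eigenvalues_le S hS c hno g
  rw [inner_eq, inner_eq] at key
  have hT : ∀ x ∈ X, T (ext g) x = T f x := by
    refine hloc _ _ (fun x hx => ?_)
    exact ext_mem g ⟨x, hx⟩
  have k1 : ∑ a : X, g a * S g a = ∑ x ∈ X, f x * T f x := by
    rw [← sum_sub]
    refine Finset.sum_congr rfl fun a _ => ?_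
    rw [S_apply, g_apply, hT a a.2]
  have k2 : ∑ a : X, g a * g a = ∑ x ∈ X, f x ^ 2 := by
    rw [← sum_sub]
    refine Finset.sum_congr rfl fun a _ => ?_
    rw [g_apply, sq]
  rw [k1, k2] at key
  exact key

end Crest.Agent.SW.ThreeRow
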