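import Crest.Agent.TW_Lead

/-! # Row 173, Theorem A, task W6 (helper43): the associated graded of the canonical filtration is balanced. -/

set_option autoImplicit false

namespace Crest.Agent.TW

open Finset

variable {k D : Type} [Field k] [AddCommGroup D] [Module k D]
variable {g : ℕ → D →ₗ[k] D} {e : ℤ → D →ₗ[k] D} {Q Bd : ℕ}

theorem filt_of_F (hg : IsDP g Q) (he : IsGrading e Bd) (hF : ∀ w, Hi e w = F g Q w) : Filt g e :=
  filt_of_Hi he fun c w x hx => by
    rw [hF] at hx ⊢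
    exact g_mem_F hg hx c

/-- the symbol sequence of `ψ ∈ P w` -/
private def ys (e : ℤ → D →ₗ[k] D) (w : ℤ) (ψ : ℤ → D) (j : ℤ) : D := e (w - 2 * j) (ψ j)

/-- the total symbol of `ψ ∈ P w` -/
private def tw (e : ℤ → D →ₗ[k] D) (Bd : ℕ) (w : ℤ) (ψ : ℤ → D) : D :=
  ∑ l ∈ range (w.natAbs + Bd + 1), ys e w ψ l

private theorem ys_neg {w : ℤ} {ψ : ℤ → D} (hψ : ∀ j < 0, ψ j = 0) {j : ℤ} (hj : j < 0) :
    ys e w ψ j = 0 := by
  unfold ys; rw [hψ j hj, map_zero]

private theorem ys_big (he : IsGrading e Bd) {w : ℤ} {ψ : ℤ → D} {j : ℤ}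
    (hj : ((w.natAbs + Bd + 1 : ℕ) : ℤ) ≤ j) : ys e w ψ j = 0 := by
  unfold ys
  rw [he.big (w - 2 * j)]
  · rfl
  · have h1 : w ≤ |w| := le_abs_self w
    have h0 : 0 ≤ |w| := abs_nonneg w
    push_cast at hj
    rw [lt_abs]
    right
    omega

private theorem e_ys (he : IsGrading e Bd) (w : ℤ) (ψ : ℤ → D) (j v : ℤ) :
    e v (ys e w ψ j) = if v = w - 2 * j then ys e w ψ j else 0 := by
  unfold ys
  split_ifs with h
  · subst h; exact e_e_same he _ _
  · exact e_e_ne he h _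

private theorem tw_mem_Lo (he : IsGrading e Bd) (w : ℤ) (ψ : ℤ → D) : tw e Bd w ψ ∈ Lo e w := by
  unfold tw
  refine Submodule.sum_mem _ fun l _ => ?_
  exact e_mem_Lo he (by omega) _

private theorem e_tw (he : IsGrading e Bd) (w : ℤ) (ψ : ℤ → D) :
    e w (tw e Bd w ψ) = e w (ψ 0) := by
  unfold tw
  rw [map_sum, sum_eq_single 0]
  · rw [e_ys he, if_pos (by simp)]
    simp [ys]
  · intro l _ hl
    rw [e_ys he, if_neg (by omega)]
  · intro h; exact absurd (by simp) h

/-- components of `ū (tw ψ)` -/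
private theorem e_lead_ys (he : IsGrading e Bd) (w : ℤ) (ψ : ℤ → D) (c : ℕ) (j v : ℤ) :
    e v (lead g e Bd c (ys e w ψ j)) =
      if v = w - 2 * j + 2 * c then lead g e Bd c (ys e w ψ j) else 0 := by
  have h1 : lead g e Bd c (ys e w ψ j) = e (w - 2 * j + 2 * c) (lead g e Bd c (ψ j)) :=
    congrArg (fun E : D →ₗ[k] D => E (ψ j)) (lead_homog (g := g) he c (w - 2 * j))
  rw [h1]
  split_ifs with h
  · subst h; exact e_e_same he _ _
  · exact e_e_ne he h _

private theorem e_uu_tw_even (hg : IsDP g Q) (he : IsGrading e Bd) (hF : ∀ w, Hi e w = F g Q w)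
    {w : ℤ} {ψ : ℤ → D} (hψ : ψ ∈ P g Q w) (m : ℤ) :
    e (w - 2 * m) (uu (lead g e Bd) Q (tw e Bd w ψ)) = e (w - 2 * m) (con g Q ψ m) := by
  have hf := filt_of_F hg he hF
  unfold uu tw con
  simp only [LinearMap.sum_apply, map_sum]
  rw [sum_comm]
  refine sum_congr rfl fun c _ => ?_
  -- inner sum over l
  have h1 : ∑ l ∈ range (w.natAbs + Bd + 1), e (w - 2 * m) (lead g e Bd c (ys e w ψ (l : ℤ))) =
      lead g e Bd c (ys e w ψ (c + m)) := by
    by_cases hneg : (c : ℤ) + m < 0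
    · rw [ys_neg hψ.1 hneg, map_zero]
      apply sum_eq_zero
      intro l _
      rw [e_lead_ys he, if_neg (by omega)]
    · by_cases hbig : ((w.natAbs + Bd + 1 : ℕ) : ℤ) ≤ (c : ℤ) + m
      · rw [ys_big he hbig, map_zero]
        apply sum_eq_zero
        intro l hl
        have : l < w.natAbs + Bd + 1 := by simpa using hl
        rw [e_lead_ys he, if_neg (by omega)]
      · obtain ⟨l₀, hl₀⟩ := Int.eq_ofNat_of_zero_le (not_lt.1 hneg)
        rw [hl₀, sum_eq_single l₀]
        · rw [e_lead_ys he, if_pos (by omega)]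
        · intro l _ hl
          rw [e_lead_ys he, if_neg (by omega)]
        · intro h
          exact absurd (by simp; omega) h
  rw [h1]
  by_cases hneg : (c : ℤ) + m < 0
  · rw [ys_neg hψ.1 hneg, hψ.1 _ hneg]; simp
  · obtain ⟨l₀, hl₀⟩ := Int.eq_ofNat_of_zero_le (not_lt.1 hneg)
    have hx : ψ (c + m) ∈ Hi e (w - 2 * (c + m)) := by
      rw [hF, hl₀]
      exact coeff_mem_F hg hψ l₀
    have := e_g_eq_lead he hf c hx
    have e1 : w - 2 * ((c : ℤ) + m) + 2 * c = w - 2 * m := by ring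
    rw [e1] at this
    rw [this]
    rfl

private theorem e_uu_tw_odd (he : IsGrading e Bd) (w : ℤ) (ψ : ℤ → D) (m : ℤ) :
    e (w - (2 * m + 1)) (uu (lead g e Bd) Q (tw e Bd w ψ)) = 0 := by
  unfold uu tw
  simp only [LinearMap.sum_apply, map_sum]
  refine sum_eq_zero fun c _ => sum_eq_zero fun l _ => ?_
  rw [e_lead_ys he, if_neg (by omega)]

private theorem uu_tw_mem_Lo (hg : IsDP g Q) (he : IsGrading e Bd) (hF : ∀ w, Hi e w = F g Q w)
    {w : ℤ} {ψ : ℤ → D} (hψ : ψ ∈ P g Q w) :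
    uu (lead g e Bd) Q (tw e Bd w ψ) ∈ Lo e (-w) := by
  intro v hv
  rcases Int.even_or_odd' (w - v) with ⟨m, hm | hm⟩
  · have : v = w - 2 * m := by omega
    rw [this, e_uu_tw_even hg he hF hψ, hψ.2 m (by omega), map_zero]
  · have : v = w - (2 * m + 1) := by omega
    rw [this, e_uu_tw_odd he]

private theorem e_uu_tw_top (hg : IsDP g Q) (he : IsGrading e Bd) (hF : ∀ w, Hi e w = F g Q w)
    {w : ℤ} {ψ : ℤ → D} (hψ : ψ ∈ P g Q w) :
    e (-w) (uu (lead g e Bd) Q (tw e Bd w ψ)) = e (-w) (con g Q ψ w) := by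
  have := e_uu_tw_even hg he hF hψ w
  have e1 : w - 2 * w = -w := by ring
  rwa [e1] at this

/-- codisjointness, inductive form -/
private theorem cod_aux (hg : IsDP g Q) (he : IsGrading e Bd) (hF : ∀ w, Hi e w = F g Q w) (a : ℤ)
    (n : ℕ) : ∀ x ∈ Lo e (a - 1 + n), ∃ y ∈ Lo e (-a), ∃ z ∈ Lo e (a - 1),
      x = uu (lead g e Bd) Q y + z := by
  induction n with
  | zero =>
    intro x hx
    exact ⟨0, Submodule.zero_mem _, x, by simpa using hx, by simp⟩
  | succ n ih =>
    intro x hx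
    set v : ℤ := a - 1 + (n + 1 : ℕ) with hv
    have hxv : e v x ∈ F g Q v := by rw [← hF]; exact e_mem_Hi he le_rfl x
    obtain ⟨χ, hχ, hcon⟩ := exists_con_eq hg hxv
    have h1 := uu_tw_mem_Lo hg he hF hχ
    have h2 := e_uu_tw_top hg he hF hχ
    rw [neg_neg] at h1 h2
    rw [hcon, e_e_same he] at h2
    have h3 : x - uu (lead g e Bd) Q (tw e Bd (-v) χ) ∈ Lo e (a - 1 + n) := by
      have h4 : x - uu (lead g e Bd) Q (tw e Bd (-v) χ) ∈ Lo e v := Submodule.sub_mem _ hx h1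
      have h5 := sub_e_mem_Lo he h4
      rw [map_sub, h2, sub_self, sub_zero] at h5
      have e1 : v - 1 = a - 1 + n := by rw [hv]; push_cast; ring
      rwa [e1] at h5
    obtain ⟨y', hy', z', hz', hxy⟩ := ih _ h3
    refine ⟨tw e Bd (-v) χ + y', Submodule.add_mem _ ?_ hy', z', hz', ?_⟩
    · exact Lo_mono (by rw [hv]; push_cast; omega) (tw_mem_Lo he _ _)
    · rw [map_add, add_assoc, ← hxy]; abel

/-- disjointness, inductive form -/
private theorem dis_aux (hg : IsDP g Q) (he : IsGrading e Bd) (hF : ∀ w, Hi e w = F g Q w)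
    (n : ℕ) : ∀ y ∈ Lo e (-(Bd : ℤ) - 1 + n), y ≠ 0 → ∃ w' : ℤ, w' ≤ -(Bd : ℤ) - 1 + n ∧
      uu (lead g e Bd) Q y ∈ Lo e (-w') ∧ e (-w') (uu (lead g e Bd) Q y) ≠ 0 := by
  induction n with
  | zero =>
    intro y hy hy0
    rw [Lo_eq_bot he (by simp)] at hy
    exact absurd hy hy0
  | succ n ih =>
    intro y hy hy0
    set v : ℤ := -(Bd : ℤ) - 1 + (n + 1 : ℕ) with hv
    have e1 : v - 1 = -(Bd : ℤ) - 1 + n := by rw [hv]; push_cast; ring
    have hyv : e v y ∈ F g Q v := by rw [← hF]; exact e_mem_Hi he le_rfl y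
    obtain ⟨ψ, hψ, hψ0⟩ := mem_F.1 hyv
    have h1 := uu_tw_mem_Lo hg he hF hψ
    have h2 := e_uu_tw_top hg he hF hψ
    have h3 : y - tw e Bd v ψ ∈ Lo e (v - 1) := by
      have h4 : y - tw e Bd v ψ ∈ Lo e v := Submodule.sub_mem _ hy (tw_mem_Lo he _ _)
      have h5 := sub_e_mem_Lo he h4
      rw [map_sub, e_tw he, hψ0, e_e_same he, sub_self, sub_zero] at h5
      exact h5
    by_cases hy' : y - tw e Bd v ψ = 0
    · -- `y = tw ψ`
      have hy2 : y = tw e Bd v ψ := sub_eq_zero.1 hy'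
      refine ⟨v, le_rfl, hy2 ▸ h1, ?_⟩
      rw [hy2, h2]
      intro h0
      have h6 : con g Q ψ v ∈ F g Q (-v + 1) := by
        have h7 : con g Q ψ v ∈ Hi e (-v) := by rw [hF]; exact con_mem_F hg hψ
        have h8 := sub_e_mem_Hi he h7
        rw [h0, sub_zero, hF] at h8
        exact h8
      have h9 := sym2 hg hψ h6
      rw [← hF, hψ0] at h9
      have h10 : e v (e v y) = 0 := h9 v (by omega)
      rw [e_e_same he] at h10
      -- then `ψ 0 = 0`, and `y = tw ψ ∈ Lo (v-1)`; use the induction hypothesis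
      have h11 : y ∈ Lo e (v - 1) := by
        have := sub_e_mem_Lo he hy
        rwa [h10, sub_zero] at this
      rw [e1] at h11
      obtain ⟨w', hw', hA, hB⟩ := ih y h11 hy0
      -- contradiction: `ū y ∈ Lo (-v)` but has a nonzero component in weight `-w' > -v`
      exact hB ((hy2 ▸ h1 : uu (lead g e Bd) Q y ∈ Lo e (-v)) (-w') (by omega))
    · rw [e1] at h3
      obtain ⟨w', hw', hA, hB⟩ := ih _ h3 hy'
      have hdec : uu (lead g e Bd) Q y =
          uu (lead g e Bd) Q (tw e Bd v ψ) + uu (lead g e Bd) Q (y - tw e Bd v ψ) := by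
        rw [← map_add]; congr 1; abel
      refine ⟨w', by omega, ?_, ?_⟩
      · rw [hdec]
        exact Submodule.add_mem _ (Lo_mono (by omega) h1) hA
      · rw [hdec, map_add, h1 (-w') (by omega), zero_add]
        exact hB

theorem balanced_lead (hg : IsDP g Q) (he : IsGrading e Bd) (hF : ∀ w, Hi e w = F g Q w) :
    BalPair (lead g e Bd) e Q ⊥ ⊤ where
  cod := by
    intro a x _
    have hx : x ∈ Lo e (a - 1 + ((Bd : ℤ) - (a - 1)).toNat) := by
      rw [Lo_eq_top he (by have := Int.self_le_toNat ((Bd : ℤ) - (a - 1)); omega)]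
      trivial
    obtain ⟨y, hy, z, hz, h⟩ := cod_aux hg he hF a _ x hx
    refine ⟨y, trivial, hy, z, trivial, hz, ?_⟩
    rw [Submodule.mem_bot, h]; abel
  dis := by
    intro a y _ hy z _ hz h
    rw [Submodule.mem_bot] at h ⊢
    by_contra hy0
    have hy' : y ∈ Lo e (-(Bd : ℤ) - 1 + (-a + Bd + 1).toNat) := by
      by_cases hle : 0 ≤ -a + (Bd : ℤ) + 1
      · rw [Int.toNat_of_nonneg hle]
        have : -(Bd : ℤ) - 1 + (-a + Bd + 1) = -a := by ring
        rwa [this]
      · exact absurd (by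
          have := Lo_eq_bot he (a := -a) (by omega)
          rw [this] at hy
          exact hy) hy0
    obtain ⟨w', hw', _, hB⟩ := dis_aux hg he hF _ y hy' hy0
    have hle : w' ≤ -a := by
      by_cases hle : 0 ≤ -a + (Bd : ℤ) + 1
      · rw [Int.toNat_of_nonneg hle] at hw'; omega
      · exact absurd (by
          have := Lo_eq_bot he (a := -a) (by omega)
          rw [this] at hy
          exact hy) hy0
    have hu : uu (lead g e Bd) Q y = -z := eq_neg_of_add_eq_zero_left h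
    apply hB
    rw [hu, map_neg, hz (-w') (by omega), neg_zero]

end Crest.Agent.TW
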