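import Crest.Agent.TW_Step

/-! # Row 173, Theorem A, task W5: a balanced graded DP-module has a chain with centred boxes as quotients.

Strong induction on `finrank S₂ - finrank S₁` with `exists_step` and `Chain.append`. -/

set_option autoImplicit false

namespace Crest.Agent.TW

open Finset Polynomial

variable {k Y : Type} [Field k] [AddCommGroup Y] [Module k Y]
variable {g : ℕ → Y →ₗ[k] Y} {e : ℤ → Y →ₗ[k] Y} {Q Bd : ℕ}

theorem Chain.append {S S' S'' : Submodule k Y} {l l' : List ℕ} (h : Chain g e S S' l)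
    (h' : Chain g e S' S'' l') : Chain g e S S'' (l ++ l') := by
  induction h with
  | nil S => simpa using h'
  | cons f hG hB _ ih => exact Chain.cons f hG hB (ih h')

private theorem exists_chain_pair_aux [FiniteDimensional k Y] (hg : IsDP g Q) (he : IsGrading e Bd)
    (hh : Homog g e) (hBQ : Bd < Q) (n : ℕ) :
    ∀ (S₁ S₂ : Submodule k Y), GSub g e S₁ → GSub g e S₂ → S₁ ≤ S₂ → BalPair g e Q S₁ S₂ →
      Module.finrank k S₂ - Module.finrank k S₁ = n →
      ∃ l : List ℕ, Chain g e S₁ S₂ l ∧ ∀ m ∈ l, m ≤ Bd := by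
  induction n using Nat.strong_induction_on with
  | _ n ih =>
    intro S₁ S₂ h1 h2 hle hb hn
    by_cases hne : S₁ = S₂
    · subst hne
      exact ⟨[], Chain.nil _, by simp⟩
    · obtain ⟨m, f, S', S'', hm, hG', hG'', h1', hne', h2'', hb1, hb2, hbox⟩ :=
        exists_step hg he hh hBQ h1 h2 hle hne hb
      have hlt : S' < S'' := lt_of_le_of_ne hbox.le hne'
      have r1 : Module.finrank k S₁ ≤ Module.finrank k S' := Submodule.finrank_mono h1'
      have r2 : Module.finrank k S' < Module.finrank k S'' := Submodule.finrank_lt_finrank_of_lt hlt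
      have r3 : Module.finrank k S'' ≤ Module.finrank k S₂ := Submodule.finrank_mono h2''
      obtain ⟨l₁, hc1, hl1⟩ := ih (Module.finrank k S' - Module.finrank k S₁) (by omega)
        S₁ S' h1 hG' h1' hb1 rfl
      obtain ⟨l₂, hc2, hl2⟩ := ih (Module.finrank k S₂ - Module.finrank k S'') (by omega)
        S'' S₂ hG'' h2 h2'' hb2 rfl
      refine ⟨l₁ ++ (m :: l₂), hc1.append (Chain.cons f hG'' hbox hc2), ?_⟩
      intro m' hm'
      rw [List.mem_append, List.mem_cons] at hm'
      rcases hm' with hm' | hm' | hm'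
      · exact hl1 m' hm'
      · rw [hm']; exact hm
      · exact hl2 m' hm'

theorem exists_chain_pair [FiniteDimensional k Y] (hg : IsDP g Q) (he : IsGrading e Bd)
    (hh : Homog g e) (hBQ : Bd < Q) {S₁ S₂ : Submodule k Y} (h1 : GSub g e S₁) (h2 : GSub g e S₂)
    (hle : S₁ ≤ S₂) (hb : BalPair g e Q S₁ S₂) :
    ∃ l : List ℕ, Chain g e S₁ S₂ l ∧ ∀ m ∈ l, m ≤ Bd :=
  exists_chain_pair_aux hg he hh hBQ _ S₁ S₂ h1 h2 hle hb rfl

theorem exists_chain [FiniteDimensional k Y] (hg : IsDP g Q) (he : IsGrading e Bd)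
    (hh : Homog g e) (hBQ : Bd < Q) (hb : BalPair g e Q ⊥ ⊤) :
    ∃ l : List ℕ, Chain g e ⊥ ⊤ l ∧ ∀ m ∈ l, m ≤ Bd := by
  refine exists_chain_pair hg he hh hBQ ?_ ?_ bot_le hb
  · refine ⟨fun c x hx => ?_, fun w x hx => ?_⟩
    · rw [Submodule.mem_bot] at hx ⊢; rw [hx, map_zero]
    · rw [Submodule.mem_bot] at hx ⊢; rw [hx, map_zero]
  · exact ⟨fun _ _ _ => Submodule.mem_top, fun _ _ _ => Submodule.mem_top⟩

end Crest.Agent.TW
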