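import Crest.Agent.TW_Defs

/-! # Row 173, Theorem A, task W1: a finite decreasing filtration of a vector space is split by a grading.

Proof idea: choose `C w` with `Fl w = C w ⊕ Fl (w+1)` (`Submodule.exists_isCompl` inside `Fl w`, or
`(Fl (w+1)).exists_isCompl` intersected with `Fl w` + modular law); then `Y = ⨁ C w`
(`-Bd ≤ w ≤ Bd`), `e w` = the projection onto `C w`.  Alternative: descending induction producing
commuting projections `π w` onto `Fl w` with `π v ∘ π w = π (max v w)`, `e w = π w - π (w+1)`.

Implementation (helper50): pick ANY projection `p w` onto `Fl w`, put `P 0 = id`,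
`P (n+1) = p (-Bd+n+1) ∘ P n`, `π w = P (w+Bd).toNat`; then `π w` is a projection onto `Fl w` and
`ker π v ≤ ker π w` for `v ≤ w`, so `π v ∘ π w = π (max v w)`. -/

set_option autoImplicit false

namespace Crest.Agent.TW

variable {k Y : Type} [Field k] [AddCommGroup Y] [Module k Y]

private theorem split_exists_proj (F : Submodule k Y) :
    ∃ p : Y →ₗ[k] Y, (∀ x, p x ∈ F) ∧ ∀ x ∈ F, p x = x := by
  obtain ⟨p, hp⟩ := LinearMap.exists_leftInverse_of_injective F.subtype (by simp)
  refine ⟨F.subtype ∘ₗ p, fun x => (p x).2, fun x hx => ?_⟩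
  have := LinearMap.congr_fun hp ⟨x, hx⟩
  simp only [LinearMap.comp_apply, Submodule.subtype_apply, LinearMap.id_apply] at this ⊢
  rw [this]

/-- iterated projections -/
private noncomputable def splitP (p : ℤ → Y →ₗ[k] Y) (a : ℤ) : ℕ → (Y →ₗ[k] Y)
  | 0 => LinearMap.id
  | n + 1 => p (a + n + 1) ∘ₗ splitP p a n

private theorem split_tele (π : ℤ → Y →ₗ[k] Y) (a : ℤ) (n : ℕ) :
    ∑ w ∈ Finset.Icc a (a + n), (π w - π (w + 1)) = π a - π (a + n + 1) := by
  induction n with
  | zero => simp
  | succ n ih =>
    have h : Finset.Icc a (a + ((n + 1 : ℕ) : ℤ)) = insert (a + n + 1) (Finset.Icc a (a + n)) := by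
      ext w
      simp only [Finset.mem_Icc, Finset.mem_insert]
      push_cast
      omega
    rw [h, Finset.sum_insert (by simp), ih]
    push_cast
    rw [show a + (↑n + 1) + 1 = a + ↑n + 1 + 1 by ring]
    abel

theorem exists_grading (Fl : ℤ → Submodule k Y) (Bd : ℕ) (anti : Antitone Fl)
    (top : ∀ w : ℤ, w ≤ -(Bd : ℤ) → Fl w = ⊤) (bot : ∀ w : ℤ, (Bd : ℤ) < w → Fl w = ⊥) :
    ∃ e : ℤ → Y →ₗ[k] Y, IsGrading e Bd ∧ ∀ w, Hi e w = Fl w := by
  classical
  choose p hp1 hp2 using fun w => split_exists_proj (Fl w)
  set a : ℤ := -(Bd : ℤ) with ha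
  set P := splitP p a with hP
  -- properties of `P`
  have P_mem : ∀ (n : ℕ) x, P n x ∈ Fl (a + n) := by
    intro n x
    cases n with
    | zero => rw [top _ (by simp [ha])]; trivial
    | succ n =>
      have : P (n + 1) x = p (a + n + 1) (P n x) := rfl
      rw [this]
      have h2 := hp1 (a + n + 1) (P n x)
      have h3 : a + ((n + 1 : ℕ) : ℤ) = a + n + 1 := by push_cast; ring
      rw [h3]; exact h2
  have P_fix : ∀ (n : ℕ) x, x ∈ Fl (a + n) → P n x = x := by
    intro n
    induction n with
    | zero => intro x _; rfl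
    | succ n ih =>
      intro x hx
      have h3 : a + ((n + 1 : ℕ) : ℤ) = a + n + 1 := by push_cast; ring
      rw [h3] at hx
      have : P (n + 1) x = p (a + n + 1) (P n x) := rfl
      rw [this, ih x (anti (by omega) hx), hp2 _ x hx]
  have P_ker : ∀ (n m : ℕ) x, P n x = 0 → P (n + m) x = 0 := by
    intro n m x hx
    induction m with
    | zero => exact hx
    | succ m ih =>
      have : P (n + (m + 1)) x = p (a + ((n + m : ℕ) : ℤ) + 1) (P (n + m) x) := rfl
      rw [this, ih, map_zero]
  -- the projections `π`
  set π : ℤ → Y →ₗ[k] Y := fun w => P (w - a).toNat with hπ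
  have π_mem : ∀ w x, π w x ∈ Fl w := by
    intro w x
    by_cases hw : w ≤ a
    · rw [top w hw]; trivial
    · have h := P_mem (w - a).toNat x
      have h2 : a + ((w - a).toNat : ℤ) = w := by omega
      rw [h2] at h; exact h
  have π_fix : ∀ w x, x ∈ Fl w → π w x = x := by
    intro w x hx
    by_cases hw : w ≤ a
    · have : (w - a).toNat = 0 := by omega
      simp only [hπ, this]; rfl
    · apply P_fix
      have h2 : a + ((w - a).toNat : ℤ) = w := by omega
      rw [h2]; exact hx
  have π_ker : ∀ v w x, v ≤ w → π v x = 0 → π w x = 0 := by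
    intro v w x hvw hx
    have h := P_ker (v - a).toNat ((w - a).toNat - (v - a).toNat) x hx
    have h2 : (v - a).toNat + ((w - a).toNat - (v - a).toNat) = (w - a).toNat := by omega
    rw [h2] at h; exact h
  have π_comp1 : ∀ v w x, v ≤ w → π v (π w x) = π w x := by
    intro v w x hvw
    exact π_fix v _ (anti hvw (π_mem w x))
  have π_comp2 : ∀ v w x, v ≤ w → π w (π v x) = π w x := by
    intro v w x hvw
    have h0 : π v (x - π v x) = 0 := by
      rw [map_sub, π_fix v _ (π_mem v x), sub_self]
    have h1 := π_ker v w _ hvw h0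
    rw [map_sub, sub_eq_zero] at h1
    exact h1.symm
  have π_lo : ∀ w, w ≤ a → π w = LinearMap.id := by
    intro w hw
    have : (w - a).toNat = 0 := by omega
    simp only [hπ, this]; rfl
  have π_hi : ∀ w, (Bd : ℤ) < w → π w = 0 := by
    intro w hw
    ext x
    have := π_mem w x
    rw [bot w hw] at this
    simpa using this
  refine ⟨fun w => π w - π (w + 1), ⟨?_, ?_, ?_⟩, ?_⟩
  · intro v w
    ext x
    simp only [LinearMap.comp_apply, LinearMap.sub_apply, map_sub]
    rcases lt_trichotomy v w with h | h | h
    · rw [if_neg (by omega)]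
      rw [π_comp1 v w x (by omega), π_comp1 v (w + 1) x (by omega), π_comp1 (v + 1) w x (by omega),
        π_comp1 (v + 1) (w + 1) x (by omega)]
      simp
    · subst h
      rw [if_pos rfl]
      rw [π_comp1 v v x le_rfl, π_comp1 v (v + 1) x (by omega), π_comp2 v (v + 1) x (by omega),
        π_comp1 (v + 1) (v + 1) x le_rfl]
      simp
    · rw [if_neg (by omega)]
      rw [π_comp2 w v x (by omega), π_comp2 (w + 1) v x (by omega), π_comp2 w (v + 1) x (by omega),
        π_comp2 (w + 1) (v + 1) x (by omega)]
      simp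
  · intro w hw
    rcases lt_or_ge w 0 with h | h
    · rw [abs_of_neg h] at hw
      rw [π_lo w (by omega), π_lo (w + 1) (by omega), sub_self]
    · rw [abs_of_nonneg h] at hw
      rw [π_hi w hw, π_hi (w + 1) (by omega), sub_self]
  · have h := split_tele π a (2 * Bd)
    have h2 : a + ((2 * Bd : ℕ) : ℤ) = Bd := by push_cast; omega
    rw [h2] at h
    rw [h, π_lo a le_rfl, π_hi _ (by omega), sub_zero]
  · intro w
    ext x
    rw [mem_Hi]
    constructor
    · intro h
      have key : ∀ n : ℕ, a + n ≤ w → π (a + n) x = x := by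
        intro n
        induction n with
        | zero => intro _; rw [π_lo _ (by simp)]; rfl
        | succ n ih =>
          intro hn
          have h1 := h (a + n) (by push_cast at hn; omega)
          simp only [LinearMap.sub_apply, sub_eq_zero] at h1
          have h3 : a + ((n + 1 : ℕ) : ℤ) = a + n + 1 := by push_cast; ring
          rw [h3, ← h1]
          exact ih (by push_cast at hn; omega)
      by_cases hw : w ≤ a
      · rw [top w hw]; trivial
      · have h1 := key (w - a).toNat (by omega)
        have h2 : a + ((w - a).toNat : ℤ) = w := by omega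
        rw [h2] at h1
        rw [← h1]; exact π_mem w x
    · intro hx v hv
      simp only [LinearMap.sub_apply]
      rw [π_fix v x (anti (by omega) hx), π_fix (v + 1) x (anti (by omega) hx), sub_self]

end Crest.Agent.TW
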