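import Crest.Agent.TW_Basis
import Crest.Agent.TW_Bal
import Crest.Agent.TW_Split
import Crest.Agent.TU_N0
import Crest.Agent.TU_Seq

/-! # Row 173, Theorem A, task W8: assembly: the good basis of `D` (statement = `TU.goodBasis`). -/

set_option autoImplicit false

namespace Crest.Agent.TW

open Finset Polynomial

variable {k D : Type} [Field k] [AddCommGroup D] [Module k D]

/-- `e w` maps `span (b '' A)` into `span (b '' (A ∩ {wt = w}))` for a homogeneous basis. -/
private theorem good_e_span {ι : Type} (b : Module.Basis ι k D) (e : ℤ → D →ₗ[k] D) (wt : ι → ℤ)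
    (hb : ∀ x w, e w (b x) = if w = wt x then b x else 0) (A : Set ι) (w : ℤ) (z : D)
    (hz : z ∈ Submodule.span k (b '' A)) :
    e w z ∈ Submodule.span k (b '' {x | x ∈ A ∧ wt x = w}) := by
  induction hz using Submodule.span_induction with
  | mem z hz =>
    obtain ⟨x, hx, rfl⟩ := hz
    rw [hb]
    split_ifs with h
    · exact Submodule.subset_span ⟨x, ⟨hx, h.symm⟩, rfl⟩
    · exact Submodule.zero_mem _
  | zero => rw [map_zero]; exact Submodule.zero_mem _
  | add a b _ _ ha hb => rw [map_add]; exact Submodule.add_mem _ ha hb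
  | smul t a _ ha => rw [map_smul]; exact Submodule.smul_mem _ _ ha

/-- elements of `Hi e v` are combinations of basis vectors of weight `≥ v`. -/
private theorem good_Hi_span {ι : Type} {Bd : ℕ} (b : Module.Basis ι k D) (e : ℤ → D →ₗ[k] D)
    (he : IsGrading e Bd) (wt : ι → ℤ)
    (hb : ∀ x w, e w (b x) = if w = wt x then b x else 0) (v : ℤ) (z : D) (hz : z ∈ Hi e v) :
    z ∈ Submodule.span k (b '' {x | v ≤ wt x}) := by
  rw [← sum_e he z]
  refine Submodule.sum_mem _ fun w _ => ?_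
  by_cases hw : w < v
  · rw [hz w hw]; exact Submodule.zero_mem _
  · have h1 : z ∈ Submodule.span k (b '' Set.univ) := by
      rw [Set.image_univ, b.span_eq]; trivial
    refine Submodule.span_mono (Set.image_mono ?_) (good_e_span b e wt hb Set.univ w z h1)
    rintro x ⟨_, hx⟩
    show v ≤ wt x
    omega

private theorem good_hs_X_pow (a j : ℕ) :
    hs k a ((X : k[X]) ^ j) = (Nat.choose j a : k) • (X : k[X]) ^ (j - a) := by
  rw [hs, ← Polynomial.monomial_one_right_eq_X_pow, Polynomial.hasseDeriv_monomial, mul_one,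
    ← Polynomial.monomial_one_right_eq_X_pow, Polynomial.smul_monomial, smul_eq_mul, mul_one]

/-- the triangularity of the basis of `basis_of_indexed` -/
private theorem good_core {γ : ℕ → D →ₗ[k] D} {e : ℤ → D →ₗ[k] D} {Bd : ℕ} (he : IsGrading e Bd)
    (hf : Filt γ e) (hh : Homog (lead γ e Bd) e) (r : ℕ) (μ : Fin r → ℕ)
    (Sf : ℕ → Submodule k D) (ff : ℕ → D →ₗ[k] k[X])
    (hG : ∀ i : Fin r, GSub (lead γ e Bd) e (Sf (i + 1)))
    (hB : ∀ i : Fin r, IsBoxStep (lead γ e Bd) e (μ i) (ff i) (Sf i) (Sf (i + 1)))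
    (b : Module.Basis (BI k μ) k D)
    (hb1 : ∀ x : BI k μ, b x ∈ Sf (x.1 + 1))
    (hb2 : ∀ x : BI k μ, ff x.1 (b x) =
        (Nat.choose (μ x.1) (x.2.1 : ℕ) : k) • (X : k[X]) ^ (μ x.1 - (x.2.1 : ℕ)))
    (hb3 : ∀ (x : BI k μ) (w : ℤ),
      e w (b x) = if w = 2 * ((x.2.1 : ℕ) : ℤ) - μ x.1 then b x else 0)
    (hb4 : ∀ j, j ≤ r → Sf j = Submodule.span k (b '' {x : BI k μ | (x.1 : ℕ) < j}))
    (a : ℕ) (x y : BI k μ)
    (hxy : b.repr (γ a (b y)) x - Matrix.blockDiagonal' (fun i => TU.boxG k (μ i) a) x y ≠ 0) :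
    (2 * ((y.2.1 : ℕ) : ℤ) - μ y.1) + 2 * (a : ℤ) < 2 * ((x.2.1 : ℕ) : ℤ) - μ x.1 ∨
      (2 * ((x.2.1 : ℕ) : ℤ) - μ x.1 = (2 * ((y.2.1 : ℕ) : ℤ) - μ y.1) + 2 * (a : ℤ) ∧
        x.1 < y.1) := by
  classical
  set wt : BI k μ → ℤ := fun x => 2 * ((x.2.1 : ℕ) : ℤ) - μ x.1 with hwt
  have hb3' : ∀ (x : BI k μ) (w : ℤ), e w (b x) = if w = wt x then b x else 0 := hb3
  -- the standard term
  have hstd : ∃ s : D,
      (∀ x' : BI k μ, b.repr s x' = Matrix.blockDiagonal' (fun i => TU.boxG k (μ i) a) x' y) ∧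
      s ∈ Sf (y.1 + 1) ∧ e (wt y + 2 * a) s = s ∧
      ff y.1 s = ((Nat.choose (μ y.1) (y.2.1 : ℕ) : k) *
        (Nat.choose (μ y.1 - (y.2.1 : ℕ)) a : k)) • (X : k[X]) ^ (μ y.1 - (y.2.1 : ℕ) - a) := by
    obtain ⟨i, c⟩ := y
    have hcm : (c.1 : ℕ) ≤ μ i := Nat.lt_succ_iff.1 c.1.2
    by_cases hv : (c.1 : ℕ) + a ≤ μ i ∧ (Nat.choose (μ i) ((c.1 : ℕ) + a) : k) ≠ 0
    · let x1 : BI k μ := ⟨i, ⟨⟨(c.1 : ℕ) + a, by omega⟩, hv.2⟩⟩
      have hid : (Nat.choose (μ i) ((c.1 : ℕ) + a) : k) * (Nat.choose ((c.1 : ℕ) + a) a : k)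
          = (Nat.choose (μ i) (c.1 : ℕ) : k) * (Nat.choose (μ i - (c.1 : ℕ)) a : k) := by
        have h := Nat.choose_mul (n := μ i) (k := (c.1 : ℕ) + a) (s := (c.1 : ℕ)) (by omega)
        rw [Nat.add_sub_cancel_left, Nat.choose_symm_add] at h
        exact_mod_cast congrArg (Nat.cast (R := k)) h
      refine ⟨(Nat.choose ((c.1 : ℕ) + a) a : k) • b x1, ?_, ?_, ?_, ?_⟩
      · rintro ⟨i', c'⟩
        rw [map_smul, Module.Basis.repr_self]
        by_cases hi : i' = i
        · subst hi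
          rw [Matrix.blockDiagonal'_apply_eq]
          simp only [TU.boxG, Matrix.of_apply, Finsupp.smul_apply, Finsupp.single_apply,
            smul_eq_mul]
          by_cases hc : (c.1 : ℕ) + a = (c'.1 : ℕ)
          · have : x1 = ⟨i', c'⟩ := by
              simp only [x1]
              congr 1
              exact Subtype.ext (Fin.ext hc)
            rw [if_pos this, if_pos hc, mul_one, hc]
          · have : x1 ≠ ⟨i', c'⟩ := by
              intro h
              simp only [x1, Sigma.mk.injEq, heq_eq_eq, true_and] at h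
              exact hc (by rw [← h])
            rw [if_neg this, if_neg hc, mul_zero]
        · rw [Matrix.blockDiagonal'_apply_ne _ _ _ hi]
          have : x1 ≠ ⟨i', c'⟩ := by
            intro h
            exact hi (congrArg Sigma.fst h).symm
          simp [this]
      · exact Submodule.smul_mem _ _ (hb1 x1)
      · rw [map_smul, hb3' x1, if_pos]
        simp only [hwt, x1]
        push_cast
        ring
      · rw [map_smul]
        have := hb2 x1
        simp only [x1] at this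
        simp only [x1]
        rw [this, smul_smul, mul_comm, hid]
        congr 2
        omega
    · refine ⟨0, ?_, Submodule.zero_mem _, map_zero _, ?_⟩
      · rintro ⟨i', c'⟩
        rw [map_zero]
        by_cases hi : i' = i
        · subst hi
          rw [Matrix.blockDiagonal'_apply_eq]
          simp only [TU.boxG, Matrix.of_apply]
          rw [if_neg]
          · rfl
          intro hc
          apply hv
          rw [hc]
          exact ⟨Nat.lt_succ_iff.1 c'.1.2, c'.2⟩
        · rw [Matrix.blockDiagonal'_apply_ne _ _ _ hi]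
          rfl
      · rw [map_zero]
        have : (Nat.choose (μ i) (c.1 : ℕ) : k) * (Nat.choose (μ i - (c.1 : ℕ)) a : k) = 0 := by
          by_cases hle : (c.1 : ℕ) + a ≤ μ i
          · have h := Nat.choose_mul (n := μ i) (k := (c.1 : ℕ) + a) (s := (c.1 : ℕ)) (by omega)
            rw [Nat.add_sub_cancel_left] at h
            have h2 : (Nat.choose (μ i) ((c.1 : ℕ) + a) : k) = 0 := by
              by_contra h3
              exact hv ⟨hle, h3⟩
            have h4 : (Nat.choose (μ i) ((c.1 : ℕ) + a) : k) *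
                (Nat.choose ((c.1 : ℕ) + a) (c.1 : ℕ) : k)
                = (Nat.choose (μ i) (c.1 : ℕ) : k) * (Nat.choose (μ i - (c.1 : ℕ)) a : k) := by
              exact_mod_cast congrArg (Nat.cast (R := k)) h
            rw [← h4, h2, zero_mul]
          · rw [Nat.choose_eq_zero_of_lt (show μ i - (c.1 : ℕ) < a by omega)]
            simp
        rw [this, zero_smul]
  obtain ⟨s, hs1, hs2, hs3, hs4⟩ := hstd
  -- `z = lead a (b y) - s ∈ Sf y.1`, homogeneous
  have hby : e (wt y) (b y) = b y := by rw [hb3' y, if_pos rfl]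
  have hz1 : lead γ e Bd a (b y) - s ∈ Sf y.1 := by
    have hm : lead γ e Bd a (b y) ∈ Sf (y.1 + 1) := (hG y.1).g_mem _ _ (hb1 y)
    refine ((hB y.1).ker _ (Submodule.sub_mem _ hm hs2)).1 ?_
    rw [map_sub, (hB y.1).g_comm _ _ (hb1 y), hb2 y, hs4, map_smul, good_hs_X_pow, smul_smul,
      sub_self]
  have hz2 : e (wt y + 2 * a) (lead γ e Bd a (b y) - s) = lead γ e Bd a (b y) - s := by
    rw [map_sub, hs3]
    congr 1
    have h1 : lead γ e Bd a (e (wt y) (b y)) = e (wt y + 2 * a) (lead γ e Bd a (b y)) :=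
      LinearMap.congr_fun (hh a (wt y)) (b y)
    rw [hby] at h1
    have h2 : e (wt y + 2 * a) (e (wt y + 2 * a) (lead γ e Bd a (b y)))
        = e (wt y + 2 * a) (lead γ e Bd a (b y)) := e_e_same he _ _
    rw [← h1] at h2
    exact h2
  have hz3 : lead γ e Bd a (b y) - s ∈
      Submodule.span k (b '' {x : BI k μ | (x.1 : ℕ) < y.1 ∧ wt x = wt y + 2 * a}) := by
    rw [← hz2]
    refine good_e_span b e wt hb3' {x : BI k μ | (x.1 : ℕ) < y.1} _ _ ?_
    rw [← hb4 y.1 (le_of_lt y.1.2)]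
    exact hz1
  have hz4 : γ a (b y) - lead γ e Bd a (b y) ∈
      Submodule.span k (b '' {x : BI k μ | wt y + 2 * a + 1 ≤ wt x}) := by
    refine good_Hi_span b e he wt hb3' _ _ (sub_lead_mem_Hi he hf a ?_)
    intro w hw
    rw [hb3' y, if_neg (by omega)]
  have hz5 : γ a (b y) - s ∈ Submodule.span k (b '' {x : BI k μ | wt y + 2 * a < wt x ∨
      (wt x = wt y + 2 * a ∧ x.1 < y.1)}) := by
    have : γ a (b y) - s = (γ a (b y) - lead γ e Bd a (b y)) + (lead γ e Bd a (b y) - s) := by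
      abel
    rw [this]
    refine Submodule.add_mem _ (Submodule.span_mono (Set.image_mono ?_) hz4)
      (Submodule.span_mono (Set.image_mono ?_) hz3)
    · intro x hx
      left
      have : wt y + 2 * a + 1 ≤ wt x := hx
      omega
    · rintro x ⟨hx1, hx2⟩
      right
      exact ⟨hx2, hx1⟩
  rw [Module.Basis.mem_span_image] at hz5
  have hne : b.repr (γ a (b y) - s) x ≠ 0 := by
    rw [map_sub, Finsupp.sub_apply, hs1 x]
    exact hxy
  exact hz5 (Finsupp.mem_support_iff.2 hne)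

theorem goodBasis [FiniteDimensional k D]
    {γ : ℕ → D →ₗ[k] D} (hγ : TU.IsDPL γ) (N : ℕ) (hN : ∀ c, N ≤ c → γ c = 0) :
    ∃ (r : ℕ) (μ : Fin r → ℕ) (_ : ∀ i, μ i < N) (b : Module.Basis (TU.BB k μ).I k D),
      ∀ (a : ℕ) (x y : (TU.BB k μ).I), (LinearMap.toMatrix b b (γ a) - (TU.BB k μ).G a) x y ≠ 0 →
        (TU.BB k μ).wt y + 2 * (a : ℤ) < (TU.BB k μ).wt x ∨
          ((TU.BB k μ).wt x = (TU.BB k μ).wt y + 2 * (a : ℤ) ∧ x.1 < y.1) := by
  rcases Nat.eq_zero_or_pos N with hN0 | hNpos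
  · -- `D` is trivial
    have hsub : Subsingleton D := by
      refine ⟨fun x y => ?_⟩
      have h0 : γ 0 = 0 := hN 0 (by omega)
      have h1 : ∀ z : D, z = 0 := fun z => by
        have : γ 0 z = z := by rw [hγ.zero]; rfl
        rw [← this, h0]; rfl
      rw [h1 x, h1 y]
    have hemp : IsEmpty (TU.BB k (Fin.elim0 : Fin 0 → ℕ)).I :=
      ⟨fun x => Fin.elim0 x.1⟩
    exact ⟨0, Fin.elim0, fun i => Fin.elim0 i, Module.Basis.empty D, fun a x => Fin.elim0 x.1⟩
  have hg : IsDP γ N := ⟨hγ.zero, hγ.mul, hN⟩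
  obtain ⟨e, he, hF⟩ := exists_grading (F γ N) (N - 1) (fun _ _ h => F_anti h)
    (fun w hw => F_eq_top (by omega)) (fun w hw => F_eq_bot hg (by omega))
  have hf : Filt γ e := filt_of_F hg he hF
  have hbal := balanced_lead hg he hF
  have hl : IsDP (lead γ e (N - 1)) N := lead_isDP hg he hf
  have hh : Homog (lead γ e (N - 1)) e := lead_homog he
  obtain ⟨l, hch, hlb⟩ := exists_chain hl he hh (by omega) hbal
  obtain ⟨Sf, ff, h0, hr, hstep⟩ := hch.indexed
  obtain ⟨b, hb1, hb2, hb3, hb4⟩ := basis_of_indexed he l.length (fun i => l[i]) Sf ff h0 hr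
    (fun i => (hstep i i.2).1) (fun i => (hstep i i.2).2)
  let b' : Module.Basis (TU.BB k fun i : Fin l.length => l[i]).I k D := b
  refine ⟨l.length, fun i => l[i], fun i => ?_, b', ?_⟩
  · have := hlb l[i] (List.getElem_mem i.2)
    show l[i] < N
    omega
  intro a x y hxy
  refine good_core he hf hh l.length (fun i => l[i]) Sf ff (fun i => (hstep i i.2).1)
    (fun i => (hstep i i.2).2) b hb1 hb2 hb3 hb4 a x y ?_
  rw [Matrix.sub_apply, LinearMap.toMatrix_apply] at hxy
  exact hxy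

end Crest.Agent.TW
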