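import Crest.Agent.TW_Defs

/-! # Row 173, Theorem A, task W2: generalities on gradings; the leading part of a filtered DP-structure
is a homogeneous DP-structure. -/

set_option autoImplicit false

namespace Crest.Agent.TW

open Finset

variable {k Y : Type} [Field k] [AddCommGroup Y] [Module k Y]
variable {g : ℕ → Y →ₗ[k] Y} {e : ℤ → Y →ₗ[k] Y} {Q Bd : ℕ}

theorem e_e_same (he : IsGrading e Bd) (w : ℤ) (x : Y) : e w (e w x) = e w x := by
  have h := congrArg (fun E : Y →ₗ[k] Y => E x) (he.orth w w)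
  simpa using h

theorem e_e_ne (he : IsGrading e Bd) {v w : ℤ} (h : v ≠ w) (x : Y) : e v (e w x) = 0 := by
  have h' := congrArg (fun E : Y →ₗ[k] Y => E x) (he.orth v w)
  simpa [h] using h'

/-- `x = ∑ e w x` -/
theorem sum_e (he : IsGrading e Bd) (x : Y) : ∑ w ∈ Icc (-(Bd : ℤ)) Bd, e w x = x := by
  have h := congrArg (fun E : Y →ₗ[k] Y => E x) he.sum
  simpa [LinearMap.sum_apply] using h

theorem eq_zero_of_e (he : IsGrading e Bd) {x : Y} (h : ∀ w, e w x = 0) : x = 0 := by
  rw [← sum_e he x]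
  exact Finset.sum_eq_zero (fun w _ => h w)

private theorem e_eq_zero_of_not_mem (he : IsGrading e Bd) {w : ℤ}
    (h : w ∉ Icc (-(Bd : ℤ)) Bd) : e w = 0 := by
  apply he.big
  rw [Finset.mem_Icc, not_and_or] at h
  rcases h with h | h
  · rw [lt_abs]; right; omega
  · rw [lt_abs]; left; omega

theorem e_mem_Lo (he : IsGrading e Bd) {w a : ℤ} (h : w ≤ a) (x : Y) : e w x ∈ Lo e a := by
  intro v hv
  exact e_e_ne he (by omega) x

theorem e_mem_Hi (he : IsGrading e Bd) {w a : ℤ} (h : a ≤ w) (x : Y) : e w x ∈ Hi e a := by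
  intro v hv
  exact e_e_ne he (by omega) x

theorem Lo_mono {a b : ℤ} (h : a ≤ b) : Lo e a ≤ Lo e b := by
  intro x hx w hw
  exact hx w (by omega)

theorem Hi_anti {a b : ℤ} (h : a ≤ b) : Hi e b ≤ Hi e a := by
  intro x hx w hw
  exact hx w (by omega)

/-- `x ∈ Lo a` is `e a x` plus an element of `Lo (a-1)` -/
theorem sub_e_mem_Lo (he : IsGrading e Bd) {a : ℤ} {x : Y} (h : x ∈ Lo e a) :
    x - e a x ∈ Lo e (a - 1) := by
  intro w hw
  rw [map_sub]
  rcases eq_or_ne w a with rfl | hne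
  · rw [e_e_same he, sub_self]
  · rw [e_e_ne he hne, h w (by omega), sub_zero]

/-- `x ∈ Hi a` is `e a x` plus an element of `Hi (a+1)` -/
theorem sub_e_mem_Hi (he : IsGrading e Bd) {a : ℤ} {x : Y} (h : x ∈ Hi e a) :
    x - e a x ∈ Hi e (a + 1) := by
  intro w hw
  rw [map_sub]
  rcases eq_or_ne w a with rfl | hne
  · rw [e_e_same he, sub_self]
  · rw [e_e_ne he hne, h w (by omega), sub_zero]

theorem Lo_eq_bot (he : IsGrading e Bd) {a : ℤ} (h : a < -(Bd : ℤ)) : Lo e a = ⊥ := by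
  rw [eq_bot_iff]
  intro x hx
  rw [Submodule.mem_bot]
  apply eq_zero_of_e he
  intro w
  by_cases hw : a < w
  · exact hx w hw
  · rw [e_eq_zero_of_not_mem he (w := w) (by rw [Finset.mem_Icc]; omega)]
    rfl

theorem Lo_eq_top (he : IsGrading e Bd) {a : ℤ} (h : (Bd : ℤ) ≤ a) : Lo e a = ⊤ := by
  rw [eq_top_iff]
  intro x _ w hw
  rw [e_eq_zero_of_not_mem he (w := w) (by rw [Finset.mem_Icc]; omega)]
  rfl

/-- filtered in terms of `Hi` -/
theorem filt_of_Hi (he : IsGrading e Bd)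
    (h : ∀ (c : ℕ) (w : ℤ) (x : Y), x ∈ Hi e w → g c x ∈ Hi e (w + 2 * c)) : Filt g e := by
  intro c v w hv
  ext x
  exact h c w (e w x) (e_mem_Hi he le_rfl x) v hv

theorem g_mem_Hi (he : IsGrading e Bd) (hf : Filt g e) (c : ℕ) {w : ℤ} {x : Y} (hx : x ∈ Hi e w) :
    g c x ∈ Hi e (w + 2 * c) := by
  intro u hu
  conv_lhs => rw [← sum_e he x]
  rw [map_sum, map_sum]
  apply Finset.sum_eq_zero
  intro v _
  by_cases hv : v < w
  · rw [hx v hv, map_zero, map_zero]
  · exact congrArg (fun E : Y →ₗ[k] Y => E x) (hf c u v (by omega))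

/-- the defining property of the leading part -/
theorem lead_e (he : IsGrading e Bd) (c : ℕ) (w : ℤ) (x : Y) :
    lead g e Bd c (e w x) = e (w + 2 * c) (g c (e w x)) := by
  unfold lead
  rw [LinearMap.sum_apply]
  by_cases hw : w ∈ Icc (-(Bd : ℤ)) Bd
  · rw [Finset.sum_eq_single_of_mem w hw]
    · simp only [LinearMap.comp_apply, e_e_same he]
    · intro v _ hv
      simp only [LinearMap.comp_apply, e_e_ne he hv, map_zero]
  · rw [e_eq_zero_of_not_mem he hw]
    simp

/-- for `x ∈ Hi w`: the weight `w + 2c` component of `g c x` only depends on `e w x`. -/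
theorem e_g_eq_lead (he : IsGrading e Bd) (hf : Filt g e) (c : ℕ) {w : ℤ} {x : Y} (hx : x ∈ Hi e w) :
    e (w + 2 * c) (g c x) = lead g e Bd c (e w x) := by
  rw [lead_e he]
  have h1 : g c (x - e w x) ∈ Hi e (w + 1 + 2 * c) := g_mem_Hi he hf c (sub_e_mem_Hi he hx)
  have h2 := h1 (w + 2 * c) (by omega)
  rw [map_sub, map_sub, sub_eq_zero] at h2
  exact h2

theorem lead_homog (he : IsGrading e Bd) : Homog (lead g e Bd) e := by
  intro c w
  ext x
  simp only [LinearMap.comp_apply]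
  rw [lead_e he]
  conv_rhs => rw [← sum_e he x]
  rw [map_sum, map_sum]
  by_cases hw : w ∈ Icc (-(Bd : ℤ)) Bd
  · rw [Finset.sum_eq_single_of_mem w hw]
    · rw [lead_e he, e_e_same he]
    · intro v _ hv
      rw [lead_e he, e_e_ne he (by omega)]
  · rw [e_eq_zero_of_not_mem he hw]
    simp only [LinearMap.zero_apply, map_zero]
    symm
    apply Finset.sum_eq_zero
    intro v hv
    have hvw : v ≠ w := fun h => hw (h ▸ hv)
    rw [lead_e he, e_e_ne he (by omega)]

/-- two linear maps which agree on all homogeneous components are equal -/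
private theorem ext_e (he : IsGrading e Bd) {A B : Y →ₗ[k] Y}
    (h : ∀ w x, A (e w x) = B (e w x)) : A = B := by
  ext x
  rw [← sum_e he x, map_sum, map_sum]
  exact Finset.sum_congr rfl (fun w _ => h w x)

/-- `e_{w+2a+2b} g_a g_b e_w = ∑_v e_{w+2a+2b} g_a e_v g_b e_w` and only `v = w + 2b` survives. -/
theorem lead_isDP (hg : IsDP g Q) (he : IsGrading e Bd) (hf : Filt g e) :
    IsDP (lead g e Bd) Q := by
  refine ⟨?_, ?_, ?_⟩
  · apply ext_e he
    intro w x
    rw [lead_e he, hg.zero]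
    simp [e_e_same he]
  · intro a b
    apply ext_e he
    intro w x
    simp only [LinearMap.comp_apply, LinearMap.smul_apply]
    rw [lead_e he b w x]
    have hy : g b (e w x) ∈ Hi e (w + 2 * b) := g_mem_Hi he hf b (e_mem_Hi he le_rfl x)
    rw [← e_g_eq_lead he hf a hy, g_g hg, lead_e he, map_smul]
    have : w + 2 * (b : ℤ) + 2 * (a : ℤ) = w + 2 * ((a + b : ℕ) : ℤ) := by push_cast; ring
    rw [this]
  · intro c hc
    unfold lead
    rw [hg.big c hc]
    simp

/-- `g c - lead c` raises weights by more than `2c`. -/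
theorem sub_lead_mem_Hi (he : IsGrading e Bd) (hf : Filt g e) (c : ℕ) {w : ℤ} {x : Y}
    (hx : x ∈ Hi e w) : g c x - lead g e Bd c x ∈ Hi e (w + 2 * c + 1) := by
  have h1 : g c x - lead g e Bd c x
      = ∑ v ∈ Icc (-(Bd : ℤ)) Bd, (g c (e v x) - lead g e Bd c (e v x)) := by
    rw [Finset.sum_sub_distrib, ← map_sum, ← map_sum, sum_e he]
  rw [h1]
  apply Submodule.sum_mem
  intro v _
  by_cases hv : v < w
  · rw [hx v hv, map_zero, map_zero, sub_zero]
    exact Submodule.zero_mem _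
  · rw [lead_e he]
    have h2 : g c (e v x) ∈ Hi e (v + 2 * c) := g_mem_Hi he hf c (e_mem_Hi he le_rfl x)
    exact Hi_anti (by omega) (sub_e_mem_Hi he h2)

/-- homogeneous operators and `Lo` -/
theorem homog_mem_Lo (he : IsGrading e Bd) (hh : Homog g e) (c : ℕ) {a : ℤ} {x : Y}
    (hx : x ∈ Lo e a) : g c x ∈ Lo e (a + 2 * c) := by
  intro u hu
  have h1 := congrArg (fun E : Y →ₗ[k] Y => E x) (hh c (u - 2 * c))
  simp only [LinearMap.comp_apply, sub_add_cancel] at h1
  rw [← h1, hx (u - 2 * c) (by omega), map_zero]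

end Crest.Agent.TW
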